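import Mathlib

/-!
R144 (S0197), helper565.  The quadratic-form block (Q) of doc 1613 (helper296), part 1: abstract
linear algebra.

`B` is a symmetric positive semidefinite bilinear form on a real vector space `M`, `V` a submodule,
`L : κ → M` a finite family.  For `ξ : κ → ℝ`,

  `qinf B V L ξ = ⨅ z : V, B (∑ ξ_i L_i + z) (∑ ξ_i L_i + z)`

is a quadratic form in `ξ`, with symmetric positive semidefinite matrix `qmat B V L` bounded by the
Gram matrix of `L`, and there are near-minimisers which are LINEAR in `ξ`.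
-/

set_option autoImplicit false

open Matrix

noncomputable section

namespace Crest.Agent.R144.BQ565

variable {M : Type*} [AddCommGroup M] [Module ℝ M]

/-- A symmetric positive semidefinite bilinear form. -/
structure IsPSD (B : M →ₗ[ℝ] M →ₗ[ℝ] ℝ) : Prop where
  symm : ∀ x y, B x y = B y x
  nonneg : ∀ x, 0 ≤ B x x

variable {B : M →ₗ[ℝ] M →ₗ[ℝ] ℝ} {V : Submodule ℝ M} {κ : Type*} [Fintype κ]

theorem IsPSD.add_sq (hB : IsPSD B) (x y : M) (t : ℝ) :
    B (x + t • y) (x + t • y) = B x x + 2 * t * B x y + t ^ 2 * B y y := by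
  simp only [map_add, map_smul, LinearMap.add_apply, LinearMap.smul_apply, smul_eq_mul]
  rw [hB.symm y x]; ring

theorem IsPSD.add_sq' (hB : IsPSD B) (x y : M) :
    B (x + y) (x + y) = B x x + 2 * B x y + B y y := by
  have := hB.add_sq x y 1
  simpa using this

/-- If `y` is a `δ²`-near minimiser over `y + V` then it is `δ`-almost orthogonal to `V`. -/
theorem IsPSD.almost_orth (hB : IsPSD B) {y : M} {d : ℝ}
    (hy : ∀ z ∈ V, B y y - d ≤ B (y + z) (y + z)) {z : M} (hz : z ∈ V) :
    (B y z) ^ 2 ≤ d * B z z := by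
  have h : ∀ t : ℝ, 0 ≤ B z z * (t * t) + 2 * B y z * t + d := by
    intro t
    have h1 := hy (t • z) (V.smul_mem t hz)
    rw [hB.add_sq] at h1
    nlinarith
  have := discrim_le_zero h
  unfold discrim at this
  nlinarith

/-- The linear combination of the family `L`. -/
def cmb (L : κ → M) (xi : κ → ℝ) : M := ∑ i, xi i • L i

theorem cmb_add (L : κ → M) (xi eta : κ → ℝ) : cmb L (xi + eta) = cmb L xi + cmb L eta := by
  simp [cmb, add_smul, Finset.sum_add_distrib]

theorem cmb_smul (L : κ → M) (t : ℝ) (xi : κ → ℝ) : cmb L (t • xi) = t • cmb L xi := by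
  simp [cmb, Finset.smul_sum, smul_smul]

theorem cmb_add_fam (L Z : κ → M) (xi : κ → ℝ) : cmb (L + Z) xi = cmb L xi + cmb Z xi := by
  simp [cmb, smul_add, Finset.sum_add_distrib]

theorem cmb_single [DecidableEq κ] (L : κ → M) (i : κ) : cmb L (Pi.single i 1) = L i := by
  simp [cmb, Pi.single_apply]

theorem cmb_mem {Z : κ → M} (hZ : ∀ i, Z i ∈ V) (xi : κ → ℝ) : cmb Z xi ∈ V :=
  V.sum_mem fun i _ => V.smul_mem _ (hZ i)

theorem B_cmb (L : κ → M) (xi : κ → ℝ) :
    B (cmb L xi) (cmb L xi) = ∑ i, ∑ j, xi i * xi j * B (L i) (L j) := by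
  simp only [cmb, map_sum, LinearMap.sum_apply, map_smul, LinearMap.smul_apply, smul_eq_mul,
    Finset.mul_sum]
  rw [Finset.sum_comm]
  refine Finset.sum_congr rfl fun i _ => Finset.sum_congr rfl fun j _ => ?_
  ring

theorem B_cmb_left (L : κ → M) (xi : κ → ℝ) (z : M) :
    B (cmb L xi) z = ∑ i, xi i * B (L i) z := by
  simp only [cmb, map_sum, LinearMap.sum_apply, map_smul, LinearMap.smul_apply, smul_eq_mul]

variable (B V) in
/-- The infimum of the energy over the affine class `∑ ξ_i L_i + V`. -/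
def qinf (L : κ → M) (xi : κ → ℝ) : ℝ := ⨅ z : V, B (cmb L xi + z) (cmb L xi + z)

theorem qinf_bdd (hB : IsPSD B) (L : κ → M) (xi : κ → ℝ) :
    BddBelow (Set.range fun z : V => B (cmb L xi + z) (cmb L xi + z)) :=
  ⟨0, by rintro _ ⟨z, rfl⟩; exact hB.nonneg _⟩

theorem qinf_nonneg (hB : IsPSD B) (L : κ → M) (xi : κ → ℝ) : 0 ≤ qinf B V L xi :=
  le_ciInf (fun _ => hB.nonneg _)

theorem qinf_le (hB : IsPSD B) (L : κ → M) (xi : κ → ℝ) {x : M} (hx : x - cmb L xi ∈ V) :
    qinf B V L xi ≤ B x x := by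
  have := ciInf_le (qinf_bdd (V := V) hB L xi) ⟨x - cmb L xi, hx⟩
  simpa [qinf] using this

theorem le_qinf {L : κ → M} {xi : κ → ℝ} {c : ℝ}
    (h : ∀ x : M, x - cmb L xi ∈ V → c ≤ B x x) : c ≤ qinf B V L xi :=
  le_ciInf fun z => h _ (by simp)

theorem exists_near (_hB : IsPSD B) (L : κ → M) (xi : κ → ℝ) {eps : ℝ} (he : 0 < eps) :
    ∃ z ∈ V, B (cmb L xi + z) (cmb L xi + z) < qinf B V L xi + eps := by
  have : (⨅ z : V, B (cmb L xi + z) (cmb L xi + z)) < qinf B V L xi + eps := by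
    unfold qinf; linarith
  obtain ⟨z, hz⟩ := exists_lt_of_ciInf_lt this
  exact ⟨z, z.2, hz⟩

/-- **Linear near-minimisers.** -/
theorem exists_linear_near (hB : IsPSD B) (L : κ → M) {eps : ℝ} (he : 0 < eps) :
    ∃ Z : κ → M, (∀ i, Z i ∈ V) ∧ ∀ xi : κ → ℝ,
      B (cmb (L + Z) xi) (cmb (L + Z) xi) ≤ qinf B V L xi + eps * (∑ i, |xi i|) ^ 2 := by
  classical
  have h := fun i => exists_near (V := V) hB L (Pi.single i 1) he
  choose Z hZV hZ using h
  refine ⟨Z, hZV, fun xi => ?_⟩
  simp only [cmb_single] at hZ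
  -- near orthogonality of each `L i + Z i`
  have horth : ∀ i, ∀ z ∈ V, (B (L i + Z i) z) ^ 2 ≤ eps * B z z := by
    intro i z hz
    refine hB.almost_orth (V := V) (fun z' hz' => ?_) hz
    have h1 : qinf B V L (Pi.single i 1) ≤ B (L i + Z i + z') (L i + Z i + z') := by
      refine qinf_le hB L _ ?_
      rw [cmb_single]
      have : L i + Z i + z' - L i = Z i + z' := by abel
      rw [this]; exact V.add_mem (hZV i) hz'
    linarith [hZ i]
  have habs : ∀ i, ∀ z ∈ V, |B (L i + Z i) z| ≤ Real.sqrt (eps * B z z) := by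
    intro i z hz
    rw [← Real.sqrt_sq_eq_abs]
    exact Real.sqrt_le_sqrt (horth i z hz)
  set y := cmb (L + Z) xi with hy
  have hyz : ∀ z ∈ V, |B y z| ≤ (∑ i, |xi i|) * Real.sqrt (eps * B z z) := by
    intro z hz
    rw [hy, B_cmb_left, Finset.sum_mul]
    refine (Finset.abs_sum_le_sum_abs _ _).trans (Finset.sum_le_sum fun i _ => ?_)
    rw [abs_mul]
    exact mul_le_mul_of_nonneg_left (habs i z hz) (abs_nonneg _)
  have key : B y y - eps * (∑ i, |xi i|) ^ 2 ≤ qinf B V L xi := by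
    refine le_qinf fun x hx => ?_
    have hxy : x - y ∈ V := by
      have : x - y = (x - cmb L xi) - cmb Z xi := by rw [hy, cmb_add_fam]; abel
      rw [this]; exact V.sub_mem hx (cmb_mem hZV xi)
    have h1 : B x x = B y y + 2 * B y (x - y) + B (x - y) (x - y) := by
      have := hB.add_sq' y (x - y)
      rwa [show y + (x - y) = x by abel] at this
    have h2 := hyz _ hxy
    set E := B (x - y) (x - y) with hE
    have hE0 : 0 ≤ E := hB.nonneg _
    set S := ∑ i, |xi i|
    have hS : 0 ≤ S := Finset.sum_nonneg fun _ _ => abs_nonneg _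
    have h3 : S * Real.sqrt (eps * E) = (S * Real.sqrt eps) * Real.sqrt E := by
      rw [Real.sqrt_mul he.le]; ring
    rw [h3] at h2
    have h4 := neg_abs_le (B y (x - y))
    have h5 : Real.sqrt E ^ 2 = E := Real.sq_sqrt hE0
    have h6 : (S * Real.sqrt eps) ^ 2 = eps * S ^ 2 := by
      rw [mul_pow, Real.sq_sqrt he.le]; ring
    nlinarith [sq_nonneg (S * Real.sqrt eps - Real.sqrt E)]
  linarith

variable (B V) in
/-- The matrix of the quadratic form `qinf`. -/
def qmat [DecidableEq κ] (L : κ → M) : Matrix κ κ ℝ := Matrix.of fun i j =>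
  (qinf B V L (Pi.single i 1 + Pi.single j 1) - qinf B V L (Pi.single i 1) -
    qinf B V L (Pi.single j 1)) / 2

theorem abs_sub_le_of_near {a b c : ℝ} (h1 : b ≤ a) (h2 : a ≤ b + c) : |a - b| ≤ c := by
  rw [abs_le]; constructor <;> linarith

/-- **The infimum is a quadratic form.** -/
theorem qinf_eq [DecidableEq κ] (hB : IsPSD B) (L : κ → M) (xi : κ → ℝ) :
    qinf B V L xi = ∑ i, ∑ j, xi i * xi j * qmat B V L i j := by
  set S := ∑ i, |xi i| with hS
  have hS0 : 0 ≤ S := Finset.sum_nonneg fun _ _ => abs_nonneg _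
  have key : ∀ eps : ℝ, 0 < eps →
      |qinf B V L xi - ∑ i, ∑ j, xi i * xi j * qmat B V L i j| ≤ eps * (4 * S ^ 2) := by
    intro eps he
    obtain ⟨Z, hZV, hZ⟩ := exists_linear_near (V := V) hB L he
    have hlow : ∀ xi : κ → ℝ, qinf B V L xi ≤ B (cmb (L + Z) xi) (cmb (L + Z) xi) := by
      intro xi
      refine qinf_le hB L xi ?_
      rw [cmb_add_fam, add_sub_cancel_left]; exact cmb_mem hZV xi
    have hs1 : ∀ i : κ, ∑ j, |(Pi.single i (1 : ℝ) : κ → ℝ) j| = 1 := by
      intro i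
      rw [Finset.sum_eq_single i] <;> simp +contextual
    have hs2 : ∀ i j : κ, ∑ k, |(Pi.single i (1 : ℝ) + Pi.single j 1 : κ → ℝ) k| ≤ 2 := by
      intro i j
      calc _ ≤ ∑ k, (|(Pi.single i (1 : ℝ) : κ → ℝ) k| + |(Pi.single j (1 : ℝ) : κ → ℝ) k|) :=
            Finset.sum_le_sum fun k _ => abs_add_le _ _
        _ = 2 := by rw [Finset.sum_add_distrib, hs1, hs1]; norm_num
    have hd : ∀ xi : κ → ℝ, |B (cmb (L + Z) xi) (cmb (L + Z) xi) - qinf B V L xi| ≤
        eps * (∑ i, |xi i|) ^ 2 := fun xi => abs_sub_le_of_near (hlow xi) (hZ xi)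
    have hm : ∀ i j, |B ((L + Z) i) ((L + Z) j) - qmat B V L i j| ≤ 3 * eps := by
      intro i j
      have e1 : B (cmb (L + Z) (Pi.single i 1 + Pi.single j 1))
          (cmb (L + Z) (Pi.single i 1 + Pi.single j 1)) =
          B ((L + Z) i) ((L + Z) i) + 2 * B ((L + Z) i) ((L + Z) j) +
            B ((L + Z) j) ((L + Z) j) := by
        rw [cmb_add, cmb_single, cmb_single, hB.add_sq']
      have a1 := hd (Pi.single i 1 + Pi.single j 1)
      have a2 := hd (Pi.single i 1)
      have a3 := hd (Pi.single j 1)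
      rw [hs1, cmb_single] at a2 a3
      rw [e1] at a1
      have a4 : eps * (∑ k, |(Pi.single i (1 : ℝ) + Pi.single j 1 : κ → ℝ) k|) ^ 2 ≤ eps * 4 := by
        refine mul_le_mul_of_nonneg_left ?_ he.le
        have h0 : 0 ≤ ∑ k, |(Pi.single i (1 : ℝ) + Pi.single j 1 : κ → ℝ) k| :=
          Finset.sum_nonneg fun _ _ => abs_nonneg _
        nlinarith [hs2 i j]
      have a1' := a1.trans a4
      rw [abs_le] at a1' a2 a3 ⊢
      simp only [qmat, Matrix.of_apply]
      constructor <;> linarith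
    have h1 := hd xi
    rw [B_cmb] at h1
    have h2 : |∑ i, ∑ j, xi i * xi j * B ((L + Z) i) ((L + Z) j) -
        ∑ i, ∑ j, xi i * xi j * qmat B V L i j| ≤ 3 * eps * S ^ 2 := by
      rw [← Finset.sum_sub_distrib]
      calc _ ≤ ∑ i, |∑ j, xi i * xi j * B ((L + Z) i) ((L + Z) j) -
            ∑ j, xi i * xi j * qmat B V L i j| := Finset.abs_sum_le_sum_abs _ _
        _ ≤ ∑ i, ∑ j, |xi i| * |xi j| * (3 * eps) := by
            refine Finset.sum_le_sum fun i _ => ?_
            rw [← Finset.sum_sub_distrib]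
            refine (Finset.abs_sum_le_sum_abs _ _).trans (Finset.sum_le_sum fun j _ => ?_)
            rw [← mul_sub, abs_mul, abs_mul]
            exact mul_le_mul_of_nonneg_left (hm i j) (by positivity)
        _ = 3 * eps * S ^ 2 := by
            simp only [← Finset.sum_mul, ← Finset.mul_sum]
            rw [← hS]; ring
    calc |qinf B V L xi - ∑ i, ∑ j, xi i * xi j * qmat B V L i j|
        = |(∑ i, ∑ j, xi i * xi j * B ((L + Z) i) ((L + Z) j) -
            ∑ i, ∑ j, xi i * xi j * qmat B V L i j) -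
          (∑ i, ∑ j, xi i * xi j * B ((L + Z) i) ((L + Z) j) - qinf B V L xi)| := by
          congr 1; ring
      _ ≤ _ := abs_sub _ _
      _ ≤ 3 * eps * S ^ 2 + eps * S ^ 2 := add_le_add h2 h1
      _ = eps * (4 * S ^ 2) := by ring
  by_contra hne
  have hpos : 0 < |qinf B V L xi - ∑ i, ∑ j, xi i * xi j * qmat B V L i j| :=
    abs_pos.mpr (sub_ne_zero.mpr hne)
  set D := |qinf B V L xi - ∑ i, ∑ j, xi i * xi j * qmat B V L i j|
  have h4 : 0 < 4 * S ^ 2 + 1 := by positivity
  have := key (D / (2 * (4 * S ^ 2 + 1))) (by positivity)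
  have h5 : D / (2 * (4 * S ^ 2 + 1)) * (4 * S ^ 2) < D := by
    rw [div_mul_eq_mul_div, div_lt_iff₀ (by positivity)]
    nlinarith [sq_nonneg S]
  linarith

theorem qmat_symm [DecidableEq κ] (L : κ → M) : (qmat B V L).IsSymm := by
  ext i j
  simp only [qmat, Matrix.transpose_apply, Matrix.of_apply]
  have e : (Pi.single j (1 : ℝ) + Pi.single i 1 : κ → ℝ) = Pi.single i 1 + Pi.single j 1 :=
    add_comm _ _
  rw [e]; ring

theorem qinf_eq_dot [DecidableEq κ] (hB : IsPSD B) (L : κ → M) (xi : κ → ℝ) :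
    qinf B V L xi = xi ⬝ᵥ (qmat B V L *ᵥ xi) := by
  rw [qinf_eq hB]
  simp only [dotProduct, Matrix.mulVec, Finset.mul_sum]
  exact Finset.sum_congr rfl fun i _ => Finset.sum_congr rfl fun j _ => by ring

theorem qmat_psd [DecidableEq κ] (hB : IsPSD B) (L : κ → M) : (qmat B V L).PosSemidef := by
  refine Matrix.PosSemidef.of_dotProduct_mulVec_nonneg ?_ fun x => ?_
  · rw [Matrix.IsHermitian, Matrix.conjTranspose_eq_transpose_of_trivial]
    exact qmat_symm L
  · simp only [star_trivial]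
    rw [← qinf_eq_dot hB]; exact qinf_nonneg hB L x

/-- Upper bound by the energy of the particular solution. -/
theorem qinf_le_gram (hB : IsPSD B) (L : κ → M) (xi : κ → ℝ) :
    qinf B V L xi ≤ ∑ i, ∑ j, xi i * xi j * B (L i) (L j) := by
  rw [← B_cmb]
  exact qinf_le hB L xi (by simp)

theorem qmat_diag_le [DecidableEq κ] (hB : IsPSD B) (L : κ → M) (i : κ) :
    qmat B V L i i ≤ B (L i) (L i) := by
  have h1 := qinf_eq (V := V) hB L (Pi.single i 1)
  have h2 : ∑ k, ∑ l, (Pi.single i (1 : ℝ) : κ → ℝ) k * (Pi.single i (1 : ℝ) : κ → ℝ) l *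
      qmat B V L k l = qmat B V L i i := by
    rw [Finset.sum_eq_single i, Finset.sum_eq_single i]
    · simp
    · intro b _ hb; simp [hb]
    · simp
    · intro b _ hb; simp [hb]
    · simp
  rw [h2] at h1
  rw [← h1]
  refine qinf_le hB L _ ?_
  rw [cmb_single]; simp

theorem qmat_diag_nonneg [DecidableEq κ] (hB : IsPSD B) (L : κ → M) (i : κ) :
    0 ≤ qmat B V L i i := (qmat_psd hB L).diag_nonneg

theorem qmat_trace_le [DecidableEq κ] (hB : IsPSD B) (L : κ → M) :
    (qmat B V L).trace ≤ ∑ i, B (L i) (L i) :=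
  Finset.sum_le_sum fun i _ => qmat_diag_le hB L i

/-- The class only matters through the labels: changing the particular solutions by elements of `V`
does not change the infimum. -/
theorem qinf_congr {L L' : κ → M} (h : ∀ i, L' i - L i ∈ V) (xi : κ → ℝ) :
    qinf B V L' xi = qinf B V L xi := by
  have hd : cmb L' xi - cmb L xi ∈ V := by
    have : cmb L' xi - cmb L xi = cmb (fun i => L' i - L i) xi := by
      simp [cmb, smul_sub, Finset.sum_sub_distrib]
    rw [this]; exact cmb_mem h xi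
  unfold qinf
  refine Equiv.iInf_congr (Equiv.addRight (⟨cmb L' xi - cmb L xi, hd⟩ : V)) fun z => ?_
  have : cmb L xi + ((Equiv.addRight (⟨cmb L' xi - cmb L xi, hd⟩ : V)) z : M) =
      cmb L' xi + z := by
    simp only [Equiv.coe_addRight, Submodule.coe_add]; abel
  rw [this]

end Crest.Agent.R144.BQ565
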