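import Crest.Agent.R144.Lw2_425
import Mathlib.MeasureTheory.Measure.CharacteristicFunction.Basic

/-!
R144 (S0197), helper425.  Lw3: equality case of Brunn–Minkowski, conclusion: the uniform laws of two
convex bodies `K₀, K₁` with `K₀/2 + K₁/2 ⊆ K`, `vol K ^ 2 ≤ vol K₀ vol K₁` are translates of one another.
-/

set_option autoImplicit false

open MeasureTheory Set Filter Topology
open scoped ENNReal

noncomputable section

namespace Crest.Agent.R144.Lw425

variable {ι : Type*} [Fintype ι]

/-- Uniform probability law on `K`. -/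
def uP (K : Set (ι → ℝ)) : Measure (ι → ℝ) := (volume K)⁻¹ • volume.restrict K

variable {K : Set (ι → ℝ)} {L : (ι → ℝ) →L[ℝ] ℝ}

theorem isProb_uP (h0 : volume K ≠ 0) (hf : volume K ≠ ∞) : IsProbabilityMeasure (uP K) := by
  constructor
  rw [uP, Measure.smul_apply, Measure.restrict_apply_univ, smul_eq_mul]
  exact ENNReal.inv_mul_cancel h0 hf

theorem uP_apply {A : Set (ι → ℝ)} (hA : MeasurableSet A) :
    uP K A = volume (K ∩ A) / volume K := by
  rw [uP, Measure.smul_apply, Measure.restrict_apply hA, smul_eq_mul, inter_comm, div_eq_mul_inv,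
    mul_comm]

theorem measurableSet_half (L : (ι → ℝ) →L[ℝ] ℝ) (s : ℝ) : MeasurableSet {x | L x ≤ s} :=
  measurableSet_le L.continuous.measurable measurable_const

theorem uP_real_cut (s : ℝ) : (uP K).real {x | L x ≤ s} = cdfOf K L s := by
  rw [Measure.real, uP_apply (measurableSet_half L s), ENNReal.toReal_div]
  rfl

theorem ne_top_of_real_pos (h0 : 0 < volume.real K) : volume K ≠ ∞ := by
  intro h
  rw [Measure.real, h] at h0
  simp at h0

theorem ne_zero_of_real_pos (h0 : 0 < volume.real K) : volume K ≠ 0 := by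
  intro h
  rw [Measure.real, h] at h0
  simp at h0

/-- The law of `L` under `uP K1` is the law of `L + c` under `uP K0`. -/
theorem map_shift {K0 K1 : Set (ι → ℝ)} (p0 : 0 < volume.real K0) (p1 : 0 < volume.real K1) {c : ℝ}
    (h : ∀ x, cdfOf K1 L (x + c) = cdfOf K0 L x) :
    (uP K1).map (fun x => L x) = (uP K0).map (fun x => L x + c) := by
  have := isProb_uP (ne_zero_of_real_pos p0) (ne_top_of_real_pos p0)
  have := isProb_uP (ne_zero_of_real_pos p1) (ne_top_of_real_pos p1)
  have hm : Measurable (fun x : ι → ℝ => L x) := L.continuous.measurable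
  have hm' : Measurable (fun x : ι → ℝ => L x + c) := hm.add_const c
  have : IsProbabilityMeasure ((uP K1).map (fun x => L x)) :=
    Measure.isProbabilityMeasure_map hm.aemeasurable
  have : IsProbabilityMeasure ((uP K0).map (fun x => L x + c)) :=
    Measure.isProbabilityMeasure_map hm'.aemeasurable
  refine Measure.ext_of_Iic _ _ fun a => ?_
  rw [Measure.map_apply hm measurableSet_Iic, Measure.map_apply hm' measurableSet_Iic]
  have e1 : (fun x : ι → ℝ => L x) ⁻¹' Iic a = {x | L x ≤ a} := rfl
  have e2 : (fun x : ι → ℝ => L x + c) ⁻¹' Iic a = {x | L x ≤ a - c} := by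
    ext x
    change L x + c ≤ a ↔ L x ≤ a - c
    constructor <;> intro h <;> linarith
  rw [e1, e2]
  have h1 := h (a - c)
  rw [sub_add_cancel, ← uP_real_cut, ← uP_real_cut] at h1
  exact (measureReal_eq_measureReal_iff (measure_ne_top _ _) (measure_ne_top _ _)).mp h1

theorem integrable_of_bdd (hk : IsCompact K) (h0 : 0 < volume.real K) {E : Type*}
    [NormedAddCommGroup E] {f : (ι → ℝ) → E} (hf : Continuous f) : Integrable f (uP K) := by
  have := isProb_uP (ne_zero_of_real_pos h0) (ne_top_of_real_pos h0)
  have h1 : IntegrableOn f K volume := hf.continuousOn.integrableOn_compact hk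
  have h2 : Integrable f (volume.restrict K) := h1
  exact h2.smul_measure (ENNReal.inv_ne_top.mpr (ne_zero_of_real_pos h0))

/-- The constant of the shift. -/
theorem shift_const {K0 K1 : Set (ι → ℝ)} (hk0 : IsCompact K0) (hk1 : IsCompact K1)
    (p0 : 0 < volume.real K0) (p1 : 0 < volume.real K1) {c : ℝ}
    (h : (uP K1).map (fun x => L x) = (uP K0).map (fun x => L x + c)) :
    c = L ((∫ x, x ∂(uP K1)) - ∫ x, x ∂(uP K0)) := by
  have := isProb_uP (ne_zero_of_real_pos p0) (ne_top_of_real_pos p0)
  have := isProb_uP (ne_zero_of_real_pos p1) (ne_top_of_real_pos p1)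
  have hm : Measurable (fun x : ι → ℝ => L x) := L.continuous.measurable
  have hm' : Measurable (fun x : ι → ℝ => L x + c) := hm.add_const c
  have h1 : ∫ x, L x ∂(uP K1) = ∫ x, (L x + c) ∂(uP K0) := by
    have e1 := integral_map (μ := uP K1) hm.aemeasurable
      (f := fun y : ℝ => y) measurable_id.aestronglyMeasurable
    have e2 := integral_map (μ := uP K0) hm'.aemeasurable
      (f := fun y : ℝ => y) measurable_id.aestronglyMeasurable
    rw [← e1, ← e2, h]
  have i0 : Integrable (fun x : ι → ℝ => x) (uP K0) := integrable_of_bdd hk0 p0 continuous_id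
  have i1 : Integrable (fun x : ι → ℝ => x) (uP K1) := integrable_of_bdd hk1 p1 continuous_id
  have iL : Integrable (fun x : ι → ℝ => L x) (uP K0) := integrable_of_bdd hk0 p0 L.continuous
  rw [integral_add iL (integrable_const c), integral_const] at h1
  rw [map_sub, ← L.integral_comp_comm i0, ← L.integral_comp_comm i1, h1]
  simp

/-- **Equality in Brunn–Minkowski**: the uniform laws are translates of one another. -/
theorem bm_translate {K0 K1 : Set (ι → ℝ)} (hc0 : Convex ℝ K0) (hc1 : Convex ℝ K1)
    (hc : Convex ℝ K) (hk0 : IsCompact K0) (hk1 : IsCompact K1) (hk : IsCompact K)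
    (p0 : 0 < volume.real K0) (p1 : 0 < volume.real K1)
    (H : ∀ x ∈ K0, ∀ y ∈ K1, (1 / 2 : ℝ) • x + (1 / 2 : ℝ) • y ∈ K)
    (heq : volume.real K ^ 2 ≤ volume.real K0 * volume.real K1) :
    ∃ w : ι → ℝ, uP K1 = (uP K0).map (fun x => x + w) := by
  have := isProb_uP (ne_zero_of_real_pos p0) (ne_top_of_real_pos p0)
  have := isProb_uP (ne_zero_of_real_pos p1) (ne_top_of_real_pos p1)
  set w : ι → ℝ := (∫ x, x ∂(uP K1)) - ∫ x, x ∂(uP K0) with hw
  refine ⟨w, ?_⟩
  have hmw : Measurable (fun x : ι → ℝ => x + w) := measurable_id.add_const w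
  have : IsProbabilityMeasure ((uP K0).map (fun x => x + w)) :=
    Measure.isProbabilityMeasure_map hmw.aemeasurable
  refine Measure.ext_of_charFunDual ?_
  funext L
  rw [charFunDual_eq_charFun_map_one, charFunDual_eq_charFun_map_one]
  have key : (uP K1).map (fun x => L x) = ((uP K0).map (fun x => x + w)).map (fun x => L x) := by
    rw [Measure.map_map L.continuous.measurable hmw]
    have e : (fun x => L x) ∘ (fun x : ι → ℝ => x + w) = fun x => L x + L w := by
      funext x; simp
    rw [e]
    by_cases hL : L = 0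
    · subst hL
      simp
    · obtain ⟨c, hcc⟩ := bm_shift hc0 hc1 hc hk0 hk1 hk p0 p1 H heq hL
      have h1 := map_shift p0 p1 hcc
      have h2 := shift_const hk0 hk1 p0 p1 h1
      rw [← hw] at h2
      rw [h1, h2]
  rw [key]

/-- Support comparison. -/
theorem le_zero_of_sup {K0 K1 : Set (ι → ℝ)}
    (p0 : 0 < volume.real K0) {w : ι → ℝ}
    (h : uP K1 = (uP K0).map (fun x => x + w)) {m : ℝ} (hle : ∀ x ∈ K1, L x ≤ m)
    (hpos : ∀ s < m, 0 < volume (K0 ∩ {x | s < L x})) : L w ≤ 0 := by
  by_contra hcon
  push Not at hcon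
  have h1 := hpos (m - L w) (by linarith)
  have hmw : Measurable (fun x : ι → ℝ => x + w) := measurable_id.add_const w
  have hms : MeasurableSet {x : ι → ℝ | m < L x} :=
    measurableSet_lt measurable_const L.continuous.measurable
  have h2 : uP K1 {x | m < L x} = 0 := by
    rw [uP_apply hms]
    have : K1 ∩ {x | m < L x} = ∅ := by
      ext x
      constructor
      · rintro ⟨hx, hx'⟩
        have h3 : m < L x := hx'
        have := hle x hx
        linarith
      · intro hx; exact absurd hx (notMem_empty x)
    rw [this]; simp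
  rw [h, Measure.map_apply hmw hms] at h2
  have h3 : (fun x : ι → ℝ => x + w) ⁻¹' {x | m < L x} = {x | m - L w < L x} := by
    ext x
    change m < L (x + w) ↔ m - L w < L x
    rw [map_add]
    constructor <;> intro h <;> linarith
  rw [h3, uP_apply (measurableSet_lt measurable_const L.continuous.measurable)] at h2
  rw [ENNReal.div_eq_zero_iff] at h2
  rcases h2 with h2 | h2
  · exact h1.ne' h2
  · exact ne_top_of_real_pos p0 h2

/-- Consequence for integrals of observables invariant under the translation. -/
theorem integral_eq_of_translate {K0 K1 : Set (ι → ℝ)} {w : ι → ℝ}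
    (h : uP K1 = (uP K0).map (fun x => x + w)) {f : (ι → ℝ) → ℝ} (hf : Measurable f)
    (hinv : ∀ x, f (x + w) = f x) : ∫ x, f x ∂(uP K1) = ∫ x, f x ∂(uP K0) := by
  have hmw : Measurable (fun x : ι → ℝ => x + w) := measurable_id.add_const w
  rw [h, integral_map hmw.aemeasurable hf.aestronglyMeasurable]
  simp only [hinv]

end Crest.Agent.R144.Lw425
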