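import Crest.Agent.R144.Ham5_560
import Crest.Agent.R144.Lw3_425

/-!
R144 (S0197), helper425.  Lw4: the WINDOW LEMMA.

`F` free sites, `E` edges, `Z` the boundary sites of the window; data `z : Z → ℝ`, `dat z = ext Z 0 z`.
For a closed, shift invariant set `𝒢` of flexible data and an observable `f` of the core gradients:
for every `ε > 0` there is `κ > 0` such that for `z, z' ∈ 𝒢`, if the means of `f` under the uniform laws with
data `z, z'` differ by at least `ε` then the Brunn–Minkowski deficit is at least `κ`.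
-/

set_option autoImplicit false

open MeasureTheory Set Filter Topology
open scoped ENNReal

noncomputable section

namespace Crest.Agent.R144.Lw425

open Crest.Agent.R144.Ham560

variable {U : Type*} [DecidableEq U] {F Z : Finset U} {E : Finset (U × U)} {ξ η : U → ℝ}

/-- `ham` only depends on the data at the non-free endpoints. -/
theorem ham_congr (h : ∀ p ∈ E, (p.1 ∉ F → ξ p.1 = η p.1) ∧ (p.2 ∉ F → ξ p.2 = η p.2)) :
    ham F E ξ = ham F E η := by
  ext x
  simp only [ham, mem_ofPred_eq]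
  refine forall₂_congr fun p hp => ?_
  have h1 : ext F ξ x p.1 = ext F η x p.1 := by
    by_cases h' : p.1 ∈ F
    · rw [ext_mem h', ext_mem h']
    · rw [ext_notMem h', ext_notMem h', (h p hp).1 h']
  have h2 : ext F ξ x p.2 = ext F η x p.2 := by
    by_cases h' : p.2 ∈ F
    · rw [ext_mem h', ext_mem h']
    · rw [ext_notMem h', ext_notMem h', (h p hp).2 h']
  rw [h1, h2]

/-- Edges are not loops and touch the free sites. -/
def Proper (F : Finset U) (E : Finset (U × U)) : Prop :=
  ∀ p ∈ E, p.1 ≠ p.2 ∧ (p.1 ∈ F ∨ p.2 ∈ F)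

/-- `extL` as a continuous functional. -/
def extC (F : Finset U) (u : U) : (F → ℝ) →L[ℝ] ℝ := LinearMap.toContinuousLinearMap (extL F u)

@[simp] theorem extC_apply (u : U) (x : F → ℝ) : extC F u x = ext F 0 x u := rfl

theorem ext_split (x : F → ℝ) (u : U) : ext F ξ x u = ext F 0 x u + (if u ∈ F then 0 else ξ u) := by
  by_cases h : u ∈ F
  · rw [ext_mem h, ext_mem h, if_pos h, add_zero]
  · rw [ext_notMem h, ext_notMem h, if_neg h]; simp

theorem extC_sub_ne {a b : U} (hab : a ≠ b) (h : a ∈ F ∨ b ∈ F) : extC F a - extC F b ≠ 0 := by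
  intro h0
  rcases h with h | h
  · have := congrArg (fun l : (F → ℝ) →L[ℝ] ℝ => l (Pi.single ⟨a, h⟩ 1)) h0
    simp only [_root_.sub_apply, extC_apply, _root_.zero_apply] at this
    rw [ext_mem h, Pi.single_eq_same] at this
    by_cases hb : b ∈ F
    · rw [ext_mem hb, Pi.single_eq_of_ne (by simpa using hab.symm)] at this
      norm_num at this
    · rw [ext_notMem hb] at this
      simp at this
  · have := congrArg (fun l : (F → ℝ) →L[ℝ] ℝ => l (Pi.single ⟨b, h⟩ 1)) h0
    simp only [_root_.sub_apply, extC_apply, _root_.zero_apply] at this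
    rw [ext_mem h, Pi.single_eq_same] at this
    by_cases ha : a ∈ F
    · rw [ext_mem ha, Pi.single_eq_of_ne (by simpa using hab)] at this
      norm_num at this
    · rw [ext_notMem ha] at this
      simp at this

/-- A gradient takes a given value with probability zero. -/
theorem volume_grad_eq {a b : U} (hab : a ≠ b) (h : a ∈ F ∨ b ∈ F) (s : ℝ) :
    volume {x : F → ℝ | ext F ξ x a - ext F ξ x b = s} = 0 := by
  have h1 := volume_hyper (extC_sub_ne (F := F) hab h)
    (s - ((if a ∈ F then 0 else ξ a) - (if b ∈ F then 0 else ξ b)))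
  have e : {x : F → ℝ | ext F ξ x a - ext F ξ x b = s} =
      {x : F → ℝ | (extC F a - extC F b) x =
        s - ((if a ∈ F then 0 else ξ a) - (if b ∈ F then 0 else ξ b))} := by
    ext x
    simp only [mem_ofPred_eq, _root_.sub_apply, extC_apply]
    rw [ext_split x a, ext_split x b]
    constructor <;> intro h <;> linarith
  rw [e, h1]

theorem volume_tight_eq {a b : U} (hab : a ≠ b) (h : a ∈ F ∨ b ∈ F) :
    volume {x : F → ℝ | |ext F ξ x a - ext F ξ x b| = 1} = 0 := by
  have h1 := volume_grad_eq (ξ := ξ) hab h 1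
  have h2 := volume_grad_eq (ξ := ξ) hab h (-1)
  refine measure_mono_null ?_ (measure_union_null h1 h2)
  intro x hx
  have hx' : |ext F ξ x a - ext F ξ x b| = 1 := hx
  rcases (abs_eq (by norm_num : (0:ℝ) ≤ 1)).mp hx' with h | h
  · exact Or.inl h
  · exact Or.inr h

/-- Data supported on `Z`. -/
def dat (Z : Finset U) (z : Z → ℝ) : U → ℝ := ext Z 0 z

theorem continuous_dat_ext (x : F → ℝ) (u : U) : Continuous fun z : Z → ℝ => ext F (dat Z z) x u := by
  by_cases h : u ∈ F
  · simp only [ext_mem h]; exact continuous_const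
  · simp only [ext_notMem h]; exact continuous_ext (F := Z) (ξ := 0) u

theorem dat_bound {z : Z → ℝ} {M : ℝ} (hM : 0 ≤ M) (h : ∀ y, |z y| ≤ M) (u : U) : |dat Z z u| ≤ M := by
  by_cases hu : u ∈ Z
  · rw [dat, ext_mem hu]; exact h _
  · rw [dat, ext_notMem hu]; simpa using hM

/-- Continuity in the data. -/
theorem continuous_int (hA : Anch F E) (hE : Proper F E) {f : (F → ℝ) → ℝ} (hf : Measurable f)
    {C : ℝ} (hC : ∀ x, |f x| ≤ C) :
    Continuous fun z : Z → ℝ => ∫ x in ham F E (dat Z z), f x := by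
  rw [continuous_iff_continuousAt]
  intro z0
  obtain ⟨R, hR⟩ := ham_bound (F := F) hA (‖z0‖ + 1)
  have e : (fun z : Z → ℝ => ∫ x in ham F E (dat Z z), f x) =
      fun z : Z → ℝ => ∫ x, (ham F E (dat Z z)).indicator f x := by
    funext z
    rw [integral_indicator measurableSet_ham]
  rw [e]
  set B : Set (F → ℝ) := Metric.closedBall 0 (max R 0) with hB
  have hBm : MeasurableSet B := Metric.isClosed_closedBall.measurableSet
  refine continuousAt_of_dominated (bound := B.indicator fun _ => C) ?_ ?_ ?_ ?_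
  · exact Eventually.of_forall fun z => (hf.indicator measurableSet_ham).aestronglyMeasurable
  · filter_upwards [Metric.ball_mem_nhds z0 one_pos] with z hz
    refine Eventually.of_forall fun x => ?_
    by_cases hx : x ∈ ham F E (dat Z z)
    · have hxB : x ∈ B := by
        rw [hB, mem_closedBall_zero_iff, pi_norm_le_iff_of_nonneg (le_max_right _ _)]
        intro v
        rw [Real.norm_eq_abs]
        refine (hR (dat Z z) ?_ x hx v).trans (le_max_left _ _)
        have hz' : ‖z‖ ≤ ‖z0‖ + 1 := by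
          have h1 : ‖z - z0‖ < 1 := by rwa [← dist_eq_norm]
          have h2 := norm_le_norm_add_norm_sub' z z0
          linarith
        refine dat_bound (by positivity) fun y => ?_
        have := norm_le_pi_norm z y
        rw [Real.norm_eq_abs] at this
        linarith
      rw [indicator_of_mem hx, indicator_of_mem hxB, Real.norm_eq_abs]
      exact hC x
    · rw [indicator_of_notMem hx, norm_zero]
      by_cases hxB : x ∈ B
      · rw [indicator_of_mem hxB]
        exact (abs_nonneg _).trans (hC x)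
      · rw [indicator_of_notMem hxB]
  · rw [integrable_indicator_iff hBm]
    exact integrableOn_const (isCompact_closedBall _ _).measure_lt_top.ne
  · have hae : ∀ᵐ x : F → ℝ, ∀ p ∈ E, |ext F (dat Z z0) x p.1 - ext F (dat Z z0) x p.2| ≠ 1 := by
      rw [Filter.eventually_all_finset]
      intro p hp
      rw [ae_iff]
      simpa using volume_tight_eq (ξ := dat Z z0) (hE p hp).1 (hE p hp).2
    filter_upwards [hae] with x hx
    have hcont : ∀ p : U × U, Continuous fun z : Z → ℝ =>
        |ext F (dat Z z) x p.1 - ext F (dat Z z) x p.2| := fun p =>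
      ((continuous_dat_ext x p.1).sub (continuous_dat_ext x p.2)).abs
    by_cases hx0 : x ∈ ham F E (dat Z z0)
    · have hev : ∀ᶠ z in 𝓝 z0, x ∈ ham F E (dat Z z) := by
        have : ∀ᶠ z in 𝓝 z0, ∀ p ∈ E, |ext F (dat Z z) x p.1 - ext F (dat Z z) x p.2| < 1 := by
          rw [eventually_all_finset]
          intro p hp
          exact (hcont p).continuousAt.eventually_lt continuousAt_const
            (lt_of_le_of_ne (hx0 p hp) (hx p hp))
        filter_upwards [this] with z hz p hp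
        exact (hz p hp).le
      refine (continuousAt_const (y := f x)).congr ?_
      filter_upwards [hev] with z hz
      rw [indicator_of_mem hz]
    · have hex : ∃ p ∈ E, 1 < |ext F (dat Z z0) x p.1 - ext F (dat Z z0) x p.2| := by
        by_contra hcon
        push Not at hcon
        exact hx0 hcon
      obtain ⟨p, hp, hlt⟩ := hex
      refine (continuousAt_const (y := (0 : ℝ))).congr ?_
      filter_upwards [continuousAt_const.eventually_lt (hcont p).continuousAt hlt] with z hz
      rw [indicator_of_notMem]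
      intro hmem
      exact absurd (hmem p hp) (not_le.mpr hz)

/-- A strict configuration gives positive volume. -/
theorem pos_of_strict {P : Set (F → ℝ)} (hP : IsOpen P) {x : F → ℝ} (hxP : x ∈ P)
    (hx : ∀ q ∈ E, |ext F ξ x q.1 - ext F ξ x q.2| < 1) : 0 < volume (ham F E ξ ∩ P) := by
  set O : Set (F → ℝ) := (⋂ q ∈ E, {x | |ext F ξ x q.1 - ext F ξ x q.2| < 1}) ∩ P with hO
  have hOo : IsOpen O := by
    refine IsOpen.inter ?_ hP
    exact isOpen_biInter_finset fun q _ =>
      isOpen_lt (((continuous_ext q.1).sub (continuous_ext q.2)).abs) continuous_const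
  have hxO : x ∈ O := ⟨by simpa using hx, hxP⟩
  refine lt_of_lt_of_le (hOo.measure_pos volume ⟨x, hxO⟩) (measure_mono ?_)
  rintro y ⟨hy, hyP⟩
  refine ⟨fun q hq => ?_, hyP⟩
  have := mem_iInter₂.mp hy q hq
  exact (show |ext F ξ y q.1 - ext F ξ y q.2| < 1 from this).le

/-- Volume as a real number. -/
def Vr (F : Finset U) (E : Finset (U × U)) (ξ : U → ℝ) : ℝ := volume.real (ham F E ξ)

/-- Brunn–Minkowski deficit. -/
def Del (F : Finset U) (E : Finset (U × U)) (ξ η : U → ℝ) : ℝ :=
  Real.log (Vr F E ((1 / 2 : ℝ) • ξ + (1 / 2 : ℝ) • η)) - 1 / 2 * Real.log (Vr F E ξ) -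
    1 / 2 * Real.log (Vr F E η)

theorem Vr_nonneg : 0 ≤ Vr F E ξ := measureReal_nonneg

theorem Vr_mul_le (hA : Anch F E) :
    Vr F E ξ * Vr F E η ≤ Vr F E ((1 / 2 : ℝ) • ξ + (1 / 2 : ℝ) • η) ^ 2 := by
  have h1 := vol_mul_le_sq (A₁ := ham F E ξ) (A₂ := ham F E η)
    (B := ham F E ((1 / 2 : ℝ) • ξ + (1 / 2 : ℝ) • η)) measurableSet_ham measurableSet_ham
    measurableSet_ham (fun x hx y hy =>
      ham_comb (by norm_num) (by norm_num) (by norm_num) hx hy)
  have h2 := ENNReal.toReal_mono (ENNReal.pow_ne_top (volume_ham_lt_top hA).ne) h1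
  rw [ENNReal.toReal_mul, ENNReal.toReal_pow] at h2
  exact h2

theorem Vr_mid_pos (hA : Anch F E) (h1 : 0 < Vr F E ξ) (h2 : 0 < Vr F E η) :
    0 < Vr F E ((1 / 2 : ℝ) • ξ + (1 / 2 : ℝ) • η) := by
  have h3 := Vr_mul_le (ξ := ξ) (η := η) hA
  have h4 : 0 < Vr F E ((1 / 2 : ℝ) • ξ + (1 / 2 : ℝ) • η) ^ 2 := lt_of_lt_of_le (mul_pos h1 h2) h3
  have h5 := Vr_nonneg (F := F) (E := E) (ξ := (1 / 2 : ℝ) • ξ + (1 / 2 : ℝ) • η)
  rcases eq_or_lt_of_le h5 with h6 | h6
  · rw [← h6] at h4; norm_num at h4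
  · exact h6

theorem Del_nonneg (hA : Anch F E) (h1 : 0 < Vr F E ξ) (h2 : 0 < Vr F E η) : 0 ≤ Del F E ξ η := by
  have h3 := Vr_mul_le (ξ := ξ) (η := η) hA
  have h4 := Vr_mid_pos hA h1 h2
  have h5 := Real.log_le_log (mul_pos h1 h2) h3
  rw [Real.log_mul h1.ne' h2.ne', Real.log_pow] at h5
  push_cast at h5
  unfold Del
  linarith

theorem sq_le_of_Del (hA : Anch F E) (h1 : 0 < Vr F E ξ) (h2 : 0 < Vr F E η)
    (h : Del F E ξ η ≤ 0) :
    Vr F E ((1 / 2 : ℝ) • ξ + (1 / 2 : ℝ) • η) ^ 2 ≤ Vr F E ξ * Vr F E η := by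
  have h4 := Vr_mid_pos hA h1 h2
  unfold Del at h
  have h5 : Real.log (Vr F E ((1 / 2 : ℝ) • ξ + (1 / 2 : ℝ) • η) ^ 2) ≤
      Real.log (Vr F E ξ * Vr F E η) := by
    rw [Real.log_mul h1.ne' h2.ne', Real.log_pow]
    push_cast
    linarith
  exact (Real.log_le_log_iff (by positivity) (mul_pos h1 h2)).mp h5

/-- Mean of `f` under the uniform law with data `ξ`. -/
def mean (F : Finset U) (E : Finset (U × U)) (f : (F → ℝ) → ℝ) (ξ : U → ℝ) : ℝ :=
  ∫ x, f x ∂(hamP F E ξ)

theorem mean_eq (f : (F → ℝ) → ℝ) : mean F E f ξ = (∫ x in ham F E ξ, f x) / Vr F E ξ :=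
  integral_hamP_real f

/-- `f` only depends on the gradients of the core. -/
def CoreObs (core : Finset (U × U)) (f : (F → ℝ) → ℝ) : Prop :=
  ∀ w : F → ℝ, (∀ p ∈ core, ext F 0 w p.1 = ext F 0 w p.2) → ∀ x, f (x + w) = f x

/-- Flexible data: every core gradient can be made close to `1`. -/
def Flex (F : Finset U) (E : Finset (U × U)) (core : Finset (U × U)) (ξ : U → ℝ) : Prop :=
  ∀ p ∈ core, ∀ s < 1, ∃ x : F → ℝ, (∀ q ∈ E, |ext F ξ x q.1 - ext F ξ x q.2| < 1) ∧
    s < ext F ξ x p.1 - ext F ξ x p.2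

/-- Equality case for the window. -/
theorem mean_eq_of_Del {core : Finset (U × U)} (hA : Anch F E) (hcF : ∀ p ∈ core, p.1 ∈ F ∧ p.2 ∈ F)
    (hcE : core ⊆ E) (hξ : Flex F E core ξ) (hη : Flex F E core η)
    (h1 : 0 < Vr F E ξ) (h2 : 0 < Vr F E η) (h : Del F E ξ η ≤ 0)
    {f : (F → ℝ) → ℝ} (hf : Measurable f) (hfc : CoreObs core f) :
    mean F E f ξ = mean F E f η := by
  obtain ⟨w, hw⟩ := bm_translate (K0 := ham F E ξ) (K1 := ham F E η)
    (K := ham F E ((1 / 2 : ℝ) • ξ + (1 / 2 : ℝ) • η)) convex_ham convex_ham convex_ham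
    (isCompact_ham hA) (isCompact_ham hA) (isCompact_ham hA) h1 h2
    (fun x hx y hy => ham_comb (by norm_num) (by norm_num) (by norm_num) hx hy)
    (sq_le_of_Del hA h1 h2 h)
  -- the reverse translation
  have hw' : uP (ham F E ξ) = (uP (ham F E η)).map (fun x => x + (-w)) := by
    rw [hw, Measure.map_map (measurable_add_const _) (measurable_add_const _)]
    have : (fun x : F → ℝ => x + -w) ∘ (fun x => x + w) = id := by
      funext x; simp
    rw [this, Measure.map_id]
  have hcore : ∀ p ∈ core, ext F 0 w p.1 = ext F 0 w p.2 := by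
    intro p hp
    obtain ⟨hp1, hp2⟩ := hcF p hp
    have hval : ∀ (ζ : U → ℝ) (x : F → ℝ), (extC F p.1 - extC F p.2) x =
        ext F ζ x p.1 - ext F ζ x p.2 := by
      intro ζ x
      simp only [_root_.sub_apply, extC_apply]
      rw [ext_mem hp1, ext_mem hp2, ext_mem hp1, ext_mem hp2]
    have hle : ∀ (ζ : U → ℝ), ∀ x ∈ ham F E ζ, (extC F p.1 - extC F p.2) x ≤ 1 := by
      intro ζ x hx
      rw [hval ζ x]
      exact (abs_le.mp (hx p (hcE hp))).2
    have hpos : ∀ (ζ : U → ℝ), Flex F E core ζ → ∀ s < 1,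
        0 < volume (ham F E ζ ∩ {x | s < (extC F p.1 - extC F p.2) x}) := by
      intro ζ hζ s hs
      obtain ⟨x, hx, hxs⟩ := hζ p hp s hs
      refine pos_of_strict (isOpen_lt continuous_const (ContinuousLinearMap.continuous _)) ?_ hx
      show s < (extC F p.1 - extC F p.2) x
      rw [hval ζ x]; exact hxs
    have a1 := le_zero_of_sup (L := extC F p.1 - extC F p.2) h1 hw (hle η) (hpos ξ hξ)
    have a2 := le_zero_of_sup (L := extC F p.1 - extC F p.2) h2 hw' (hle ξ) (hpos η hη)
    rw [map_neg] at a2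
    have a3 : (extC F p.1 - extC F p.2) w = 0 := by linarith
    simp only [_root_.sub_apply, extC_apply] at a3
    linarith
  exact (integral_eq_of_translate hw hf (fun x => hfc w hcore x)).symm

/-- The data enters only through `Z`. -/
def Bd (F Z : Finset U) (E : Finset (U × U)) : Prop :=
  ∀ p ∈ E, (p.1 ∉ F → p.1 ∈ Z) ∧ (p.2 ∉ F → p.2 ∈ Z)

theorem dat_mid (z z' : Z → ℝ) :
    (1 / 2 : ℝ) • dat Z z + (1 / 2 : ℝ) • dat Z z' = dat Z ((1 / 2 : ℝ) • z + (1 / 2 : ℝ) • z') := by
  funext u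
  simp only [dat, Pi.add_apply, Pi.smul_apply, smul_eq_mul]
  by_cases h : u ∈ Z
  · rw [ext_mem h, ext_mem h, ext_mem h]; simp
  · rw [ext_notMem h, ext_notMem h, ext_notMem h]; simp

/-- Restriction of the data to `Z`. -/
theorem ham_dat (hB : Bd F Z E) (ξ : U → ℝ) :
    ham F E (dat Z fun y => ξ y) = ham F E ξ := by
  refine ham_congr fun p hp => ⟨fun h => ?_, fun h => ?_⟩
  · rw [dat, ext_mem ((hB p hp).1 h)]
  · rw [dat, ext_mem ((hB p hp).2 h)]

/-- Adding a constant to the data. -/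
theorem ham_shift (hB : Bd F Z E) (z : Z → ℝ) (c : ℝ) :
    ham F E (dat Z fun y => z y + c) = (fun x => x + fun _ => -c) ⁻¹' ham F E (dat Z z) := by
  ext x
  simp only [ham, mem_ofPred_eq, mem_preimage]
  refine forall₂_congr fun p hp => ?_
  have key : ∀ u, (u ∉ F → u ∈ Z) →
      ext F (dat Z fun y => z y + c) x u = ext F (dat Z z) (x + fun _ => -c) u + c := by
    intro u hu
    by_cases h : u ∈ F
    · rw [ext_mem h, ext_mem h]; simp
    · rw [ext_notMem h, ext_notMem h, dat, dat, ext_mem (hu h), ext_mem (hu h)]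
  rw [key _ (hB p hp).1, key _ (hB p hp).2]
  rw [show ∀ a b : ℝ, a + c - (b + c) = a - b from fun a b => by ring]

theorem Vr_shift (hB : Bd F Z E) (z : Z → ℝ) (c : ℝ) :
    Vr F E (dat Z fun y => z y + c) = Vr F E (dat Z z) := by
  unfold Vr
  rw [ham_shift hB z c, Measure.real, Measure.real, measure_preimage_add_right]

theorem mean_shift {core : Finset (U × U)} (hB : Bd F Z E)
    (hcF : ∀ p ∈ core, p.1 ∈ F ∧ p.2 ∈ F) {f : (F → ℝ) → ℝ}
    (hfc : CoreObs core f) (z : Z → ℝ) (c : ℝ) :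
    mean F E f (dat Z fun y => z y + c) = mean F E f (dat Z z) := by
  rw [mean_eq, mean_eq, Vr_shift hB z c]
  congr 1
  rw [ham_shift hB z c]
  have hmp : MeasurePreserving (fun x : F → ℝ => x + fun _ => -c) volume volume :=
    measurePreserving_add_right volume _
  have hemb : MeasurableEmbedding (fun x : F → ℝ => x + fun _ => -c) :=
    measurableEmbedding_addRight _
  rw [← hmp.setIntegral_preimage_emb hemb f (ham F E (dat Z z))]
  refine setIntegral_congr_fun (hmp.measurable measurableSet_ham) fun x _ => ?_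
  refine (hfc (fun _ => -c) (fun p hp => ?_) x).symm
  rw [ext_mem (hcF p hp).1, ext_mem (hcF p hp).2]

theorem Del_shift (hB : Bd F Z E) (z z' : Z → ℝ) (c c' : ℝ) :
    Del F E (dat Z fun y => z y + c) (dat Z fun y => z' y + c') = Del F E (dat Z z) (dat Z z') := by
  unfold Del
  rw [Vr_shift hB, Vr_shift hB, dat_mid, dat_mid]
  have : (1 / 2 : ℝ) • (fun y => z y + c) + (1 / 2 : ℝ) • (fun y => z' y + c') =
      fun y : Z => ((1 / 2 : ℝ) • z + (1 / 2 : ℝ) • z') y + (c + c') / 2 := by
    funext y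
    simp only [Pi.add_apply, Pi.smul_apply, smul_eq_mul]
    ring
  rw [this, Vr_shift hB]

/-- **WINDOW LEMMA**. -/
theorem window_kappa {core : Finset (U × U)} (hA : Anch F E) (hE : Proper F E) (hB : Bd F Z E)
    (hcF : ∀ p ∈ core, p.1 ∈ F ∧ p.2 ∈ F) (hcE : core ⊆ E)
    {G : Set (Z → ℝ)} (hGc : IsClosed G) (hGs : ∀ z ∈ G, ∀ c : ℝ, (fun y => z y + c) ∈ G)
    {D : ℝ} (hD : ∀ z ∈ G, ∀ y y', |z y - z y'| ≤ D)
    (hGf : ∀ z ∈ G, Flex F E core (dat Z z)) (hGp : ∀ z ∈ G, 0 < Vr F E (dat Z z))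
    {f : (F → ℝ) → ℝ} (hf : Measurable f) {C : ℝ} (hfC : ∀ x, |f x| ≤ C) (hfc : CoreObs core f)
    {ε : ℝ} (hε : 0 < ε) :
    ∃ κ > 0, ∀ z ∈ G, ∀ z' ∈ G, ε ≤ |mean F E f (dat Z z) - mean F E f (dat Z z')| →
      κ ≤ Del F E (dat Z z) (dat Z z') := by
  -- continuity
  have hV : Continuous fun z : Z → ℝ => Vr F E (dat Z z) := by
    have := continuous_int (Z := Z) hA hE (f := fun _ => (1 : ℝ)) measurable_const (C := 1) (by simp)
    refine this.congr fun z => ?_
    simp [Vr]
  have hM : ContinuousOn (fun z : Z → ℝ => mean F E f (dat Z z)) G := by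
    have h1 : (fun z : Z → ℝ => mean F E f (dat Z z)) =
        fun z => (∫ x in ham F E (dat Z z), f x) / Vr F E (dat Z z) := by
      funext z; exact mean_eq f
    rw [h1]
    exact (continuous_int hA hE hf hfC).continuousOn.div hV.continuousOn
      fun z hz => (hGp z hz).ne'
  set D' := max D 0 with hD'
  set G0 := G ∩ Metric.closedBall 0 D' with hG0
  have hG0c : IsCompact G0 := (isCompact_closedBall _ _).inter_left hGc
  have hnorm : ∀ z ∈ G, ∃ c : ℝ, (fun y => z y + c) ∈ G0 := by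
    intro z hz
    by_cases hne : Nonempty Z
    · obtain ⟨y0⟩ := hne
      refine ⟨-z y0, hGs z hz _, ?_⟩
      rw [mem_closedBall_zero_iff, pi_norm_le_iff_of_nonneg (le_max_right _ _)]
      intro y
      rw [Real.norm_eq_abs, ← sub_eq_add_neg]
      exact (hD z hz y y0).trans (le_max_left _ _)
    · refine ⟨0, hGs z hz _, ?_⟩
      rw [mem_closedBall_zero_iff, pi_norm_le_iff_of_nonneg (le_max_right _ _)]
      intro y
      exact absurd ⟨y⟩ hne
  set K0 := G0 ×ˢ G0 with hK0
  have hK0c : IsCompact K0 := hG0c.prod hG0c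
  have hdiff : ContinuousOn (fun q : (Z → ℝ) × (Z → ℝ) =>
      |mean F E f (dat Z q.1) - mean F E f (dat Z q.2)|) K0 := by
    refine (ContinuousOn.sub ?_ ?_).abs
    · exact hM.comp continuous_fst.continuousOn fun q hq => hq.1.1
    · exact hM.comp continuous_snd.continuousOn fun q hq => hq.2.1
  set K := K0 ∩ (fun q : (Z → ℝ) × (Z → ℝ) =>
      |mean F E f (dat Z q.1) - mean F E f (dat Z q.2)|) ⁻¹' Ici ε with hK
  have hKclosed : IsClosed K := hdiff.preimage_isClosed_of_isClosed hK0c.isClosed isClosed_Ici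
  have hKc : IsCompact K := hK0c.of_isClosed_subset hKclosed inter_subset_left
  have hDel : ContinuousOn (fun q : (Z → ℝ) × (Z → ℝ) => Del F E (dat Z q.1) (dat Z q.2)) K := by
    unfold Del
    refine ((ContinuousOn.log ?_ ?_).sub (continuousOn_const.mul (ContinuousOn.log ?_ ?_))).sub
      (continuousOn_const.mul (ContinuousOn.log ?_ ?_))
    · have : (fun q : (Z → ℝ) × (Z → ℝ) =>
          Vr F E ((1 / 2 : ℝ) • dat Z q.1 + (1 / 2 : ℝ) • dat Z q.2)) =
          fun q => Vr F E (dat Z ((1 / 2 : ℝ) • q.1 + (1 / 2 : ℝ) • q.2)) := by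
        funext q; rw [dat_mid]
      rw [this]
      exact (hV.comp (by fun_prop)).continuousOn
    · intro q hq
      exact (Vr_mid_pos hA (hGp _ hq.1.1.1) (hGp _ hq.1.2.1)).ne'
    · exact (hV.comp continuous_fst).continuousOn
    · intro q hq; exact (hGp _ hq.1.1.1).ne'
    · exact (hV.comp continuous_snd).continuousOn
    · intro q hq; exact (hGp _ hq.1.2.1).ne'
  -- minimum
  have hmain : ∃ κ > 0, ∀ q ∈ K, κ ≤ Del F E (dat Z q.1) (dat Z q.2) := by
    rcases K.eq_empty_or_nonempty with hemp | hne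
    · exact ⟨1, one_pos, fun q hq => by rw [hemp] at hq; exact absurd hq (notMem_empty q)⟩
    · obtain ⟨q0, hq0, hmin⟩ := hKc.exists_isMinOn hne hDel
      refine ⟨Del F E (dat Z q0.1) (dat Z q0.2), ?_, fun q hq => hmin hq⟩
      by_contra hcon
      push Not at hcon
      have h1 := mean_eq_of_Del hA hcF hcE (hGf _ hq0.1.1.1) (hGf _ hq0.1.2.1)
        (hGp _ hq0.1.1.1) (hGp _ hq0.1.2.1) hcon hf hfc
      have h2 : ε ≤ |mean F E f (dat Z q0.1) - mean F E f (dat Z q0.2)| := hq0.2
      rw [h1, sub_self, abs_zero] at h2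
      linarith
  obtain ⟨κ, hκ, hmin⟩ := hmain
  refine ⟨κ, hκ, fun z hz z' hz' hεz => ?_⟩
  obtain ⟨c, hc⟩ := hnorm z hz
  obtain ⟨c', hc'⟩ := hnorm z' hz'
  have h1 := hmin ((fun y => z y + c), (fun y => z' y + c')) ⟨⟨hc, hc'⟩, by
    show ε ≤ _
    simp only
    rw [mean_shift hB hcF hfc, mean_shift hB hcF hfc]
    exact hεz⟩
  simp only at h1
  rwa [Del_shift hB] at h1

end Crest.Agent.R144.Lw425
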