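import Mathlib

/-!
# R144, shift (Mermin-Wagner) block, part 1 (helper121)

Abstract calculus of Lipschitz shifts `h ↦ h + t • Y h` on `V → ℝ`, `V` a finite type.
Only Rademacher's theorem and the area formula for injective maps are used.

* `MW121.lintegral_shift_le`: `∫ F (h + Y h) |det (1 + DY h)| ≤ ∫ F` for `Lip Y < 1`.
* `MW121.integral_trace`, `MW121.ibp`: divergence theorem for tangent fields.
* `MW121.reilly`: `∫_K (div Y)^2 ≤ ∫_K tr (DY DY)`.
* `MW121.cramer_rao`.
-/

set_option autoImplicit false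

open MeasureTheory Filter Set
open scoped ENNReal NNReal Topology

namespace Crest.Agent.R144.MW121

noncomputable section

section Det

variable {V : Type*} [Fintype V] [DecidableEq V]

/-- `M ↦ det (1 + M)` as a function on `V → V → ℝ`. -/
def detf (M : V → V → ℝ) : ℝ := (1 + Matrix.of M : Matrix V V ℝ).det

lemma contDiff_detf : ContDiff ℝ 1 (detf (V := V)) := by
  unfold detf
  simp only [Matrix.det_apply]
  refine ContDiff.sum fun σ _ => ?_
  refine ContDiff.const_smul _ ?_
  refine contDiff_prod fun i _ => ?_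
  simp only [Matrix.add_apply, Matrix.of_apply]
  fun_prop

lemma detf_zero : detf (0 : V → V → ℝ) = 1 := by
  unfold detf
  have : (Matrix.of (0 : V → V → ℝ) : Matrix V V ℝ) = 0 := rfl
  rw [this]; simp

/-- Lipschitz bound for `det (1 + M)` at `0`, uniformly for `‖M‖ ≤ R`. -/
lemma exists_detf_bound (R : ℝ) : ∃ C : ℝ, 0 ≤ C ∧ ∀ M : V → V → ℝ, ‖M‖ ≤ R →
    |detf M - 1| ≤ C * ‖M‖ := by
  by_cases hR : R < 0
  · exact ⟨0, le_rfl, fun M hM => absurd (norm_nonneg M) (by linarith)⟩
  push Not at hR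
  have hc : IsCompact (Metric.closedBall (0 : V → V → ℝ) R) := isCompact_closedBall _ _
  have hcont : Continuous (fderiv ℝ (detf (V := V))) :=
    contDiff_detf.continuous_fderiv (by norm_num)
  obtain ⟨C, hC⟩ := hc.exists_bound_of_continuousOn hcont.continuousOn
  have h0 : (0 : V → V → ℝ) ∈ Metric.closedBall (0 : V → V → ℝ) R := by
    simp [hR]
  refine ⟨C, le_trans (norm_nonneg _) (hC 0 h0), fun M hM => ?_⟩
  have hMm : M ∈ Metric.closedBall (0 : V → V → ℝ) R := by simpa using hM
  have := (convex_closedBall (0 : V → V → ℝ) R).norm_image_sub_le_of_norm_fderiv_le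
    (f := detf (V := V)) (𝕜 := ℝ) (C := C)
    (fun x _ => (contDiff_detf.differentiable (by norm_num)) x) hC h0 hMm
  rw [detf_zero, sub_zero] at this
  simpa [Real.norm_eq_abs] using this

lemma tendsto_det_sub_div (A : Matrix V V ℝ) :
    Tendsto (fun t : ℝ => ((1 + t • A).det - 1) / t) (𝓝[≠] 0) (𝓝 A.trace) := by
  have hc : Continuous (fun t : ℝ => A.trace +
      ((1 + (Polynomial.X : Polynomial ℝ) • A.map Polynomial.C).det.divX.divX).eval t * t) := by
    fun_prop
  have h1 : Tendsto (fun t : ℝ => A.trace +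
      ((1 + (Polynomial.X : Polynomial ℝ) • A.map Polynomial.C).det.divX.divX).eval t * t)
      (𝓝[≠] 0) (𝓝 A.trace) := by
    have := hc.tendsto 0
    simp only [mul_zero, add_zero] at this
    exact this.mono_left nhdsWithin_le_nhds
  refine h1.congr' ?_
  filter_upwards [self_mem_nhdsWithin] with t ht
  have ht' : t ≠ 0 := ht
  have e := Matrix.det_one_add_smul t A
  rw [e]
  field_simp
  ring

lemma detf_eq (A : Matrix V V ℝ) : (1 + A).det = detf (fun u v => A u v) := rfl

end Det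

section Shift

variable {V : Type*} [Fintype V] [DecidableEq V]

/-- The Jacobian matrix of `Y` at `h`. -/
def jac (Y : (V → ℝ) → (V → ℝ)) (h : V → ℝ) : Matrix V V ℝ :=
  LinearMap.toMatrix' (fderiv ℝ Y h : (V → ℝ) →ₗ[ℝ] (V → ℝ))

lemma jac_apply (Y : (V → ℝ) → (V → ℝ)) (h : V → ℝ) (u v : V) :
    jac Y h u v = fderiv ℝ Y h (Pi.single v 1) u := by
  simp [jac, LinearMap.toMatrix'_apply]

lemma abs_jac_le {Y : (V → ℝ) → (V → ℝ)} {c : ℝ≥0} (hY : LipschitzWith c Y) (h : V → ℝ)
    (u v : V) : |jac Y h u v| ≤ c := by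
  rw [jac_apply]
  have h1 : ‖fderiv ℝ Y h (Pi.single v 1)‖ ≤ c * ‖(Pi.single v (1 : ℝ) : V → ℝ)‖ :=
    (ContinuousLinearMap.le_opNorm _ _).trans
      (mul_le_mul_of_nonneg_right (norm_fderiv_le_of_lipschitz ℝ hY) (norm_nonneg _))
  have h2 : ‖(Pi.single v (1 : ℝ) : V → ℝ)‖ = 1 := by
    rw [Pi.norm_single]; simp
  rw [h2, mul_one] at h1
  exact (norm_le_pi_norm (fderiv ℝ Y h (Pi.single v 1)) u).trans h1

lemma measurable_jac (Y : (V → ℝ) → (V → ℝ)) (u v : V) :
    Measurable fun h => jac Y h u v := by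
  simp only [jac_apply]
  exact (measurable_pi_apply u).comp (measurable_fderiv_apply_const ℝ Y _)

lemma measurable_jac' (Y : (V → ℝ) → (V → ℝ)) :
    Measurable fun h => (fun u v => jac Y h u v : V → V → ℝ) :=
  measurable_pi_lambda _ fun u => measurable_pi_lambda _ fun v => measurable_jac Y u v

lemma jac_smul {Y : (V → ℝ) → (V → ℝ)} {h : V → ℝ} (hd : DifferentiableAt ℝ Y h) (t : ℝ) :
    jac (fun h => t • Y h) h = t • jac Y h := by
  ext u v
  rw [jac_apply, Matrix.smul_apply, jac_apply, fderiv_fun_const_smul hd]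
  simp

/-- The area formula inequality for a Lipschitz shift. -/
theorem lintegral_shift_le {Y : (V → ℝ) → (V → ℝ)} {c : ℝ≥0} (hc : c < 1)
    (hY : LipschitzWith c Y) (F : (V → ℝ) → ℝ≥0∞) :
    ∫⁻ h, ENNReal.ofReal |(1 + jac Y h).det| * F (h + Y h) ≤ ∫⁻ h, F h := by
  set S : Set (V → ℝ) := {h | DifferentiableAt ℝ Y h} with hS
  have hSm : MeasurableSet S := measurableSet_of_differentiableAt ℝ Y
  have hae : ∀ᵐ h : V → ℝ, h ∈ S := hY.ae_differentiableAt
  set Φ : (V → ℝ) → (V → ℝ) := fun h => h + Y h with hΦ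
  have hinj : InjOn Φ S := by
    intro h _ h' _ he
    have h1 : h - h' = Y h' - Y h := by
      have : h + Y h = h' + Y h' := he
      linear_combination (exp := 1) this
    have h2 : ‖h - h'‖ ≤ c * ‖h - h'‖ := by
      calc ‖h - h'‖ = ‖Y h' - Y h‖ := by rw [h1]
        _ ≤ c * ‖h' - h‖ := by
            have := hY.dist_le_mul h' h
            simpa [dist_eq_norm] using this
        _ = c * ‖h - h'‖ := by rw [norm_sub_rev]
    have h3 : (c : ℝ) < 1 := by exact_mod_cast hc
    have h4 : ‖h - h'‖ = 0 := by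
      by_contra hne
      have hpos : 0 < ‖h - h'‖ := lt_of_le_of_ne (norm_nonneg _) (Ne.symm hne)
      nlinarith
    exact sub_eq_zero.mp (norm_eq_zero.mp h4)
  have hder : ∀ h ∈ S, HasFDerivWithinAt Φ
      (ContinuousLinearMap.id ℝ (V → ℝ) + fderiv ℝ Y h) S h := by
    intro h hh
    exact ((hasFDerivAt_id h).add (DifferentiableAt.hasFDerivAt hh)).hasFDerivWithinAt
  have key := lintegral_image_eq_lintegral_abs_det_fderiv_mul volume hSm hder hinj F
  have hdet : ∀ h, (ContinuousLinearMap.id ℝ (V → ℝ) + fderiv ℝ Y h).det =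
      (1 + jac Y h).det := by
    intro h
    rw [ContinuousLinearMap.det, ← LinearMap.det_toMatrix']
    congr 1
    simp [jac]
  calc ∫⁻ h, ENNReal.ofReal |(1 + jac Y h).det| * F (h + Y h)
      = ∫⁻ h in S, ENNReal.ofReal |(1 + jac Y h).det| * F (h + Y h) := by
        rw [Measure.restrict_eq_self_of_ae_mem hae]
    _ = ∫⁻ h in Φ '' S, F h := by
        rw [key]
        simp only [hdet, hΦ]
    _ ≤ ∫⁻ h, F h := setLIntegral_le_lintegral _ _

omit [DecidableEq V] in
lemma lipschitz_smul {Y : (V → ℝ) → (V → ℝ)} {c : ℝ≥0} (hY : LipschitzWith c Y) (t : ℝ) :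
    LipschitzWith (‖t‖₊ * c) (fun h => t • Y h) := by
  refine LipschitzWith.of_dist_le_mul fun x y => ?_
  rw [dist_smul₀]
  have := hY.dist_le_mul x y
  simp only [NNReal.coe_mul, coe_nnnorm]
  nlinarith [norm_nonneg t]

/-- Scaled version: `|t| c < 1`. -/
theorem lintegral_shift_smul_le {Y : (V → ℝ) → (V → ℝ)} {c : ℝ≥0}
    (hY : LipschitzWith c Y) {t : ℝ} (ht : |t| * c < 1) (F : (V → ℝ) → ℝ≥0∞) :
    ∫⁻ h, ENNReal.ofReal |(1 + t • jac Y h).det| * F (h + t • Y h) ≤ ∫⁻ h, F h := by
  have hc : ‖t‖₊ * c < 1 := by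
    rw [← NNReal.coe_lt_coe]
    simpa using ht
  refine le_trans (le_of_eq ?_) (lintegral_shift_le hc (lipschitz_smul hY t) F)
  refine lintegral_congr_ae ?_
  filter_upwards [hY.ae_differentiableAt (μ := volume)] with h hd
  rw [jac_smul hd]

/-- Version on an invariant set. -/
theorem setLIntegral_shift_smul_le {Y : (V → ℝ) → (V → ℝ)} {c : ℝ≥0}
    (hY : LipschitzWith c Y) {K : Set (V → ℝ)} (hK : MeasurableSet K) {t : ℝ}
    (ht : |t| * c < 1) (hinv : ∀ h ∈ K, h + t • Y h ∈ K) (F : (V → ℝ) → ℝ≥0∞) :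
    ∫⁻ h in K, ENNReal.ofReal |(1 + t • jac Y h).det| * F (h + t • Y h) ≤ ∫⁻ h in K, F h := by
  have h1 := lintegral_shift_smul_le hY ht (K.indicator F)
  rw [lintegral_indicator hK] at h1
  refine le_trans ?_ h1
  rw [← lintegral_indicator hK]
  refine lintegral_mono fun h => ?_
  by_cases hh : h ∈ K
  · rw [indicator_of_mem hh, indicator_of_mem (hinv h hh)]
  · rw [indicator_of_notMem hh]; exact zero_le

/-- A tangent field on `K`: globally Lipschitz, and `h ↦ h + t • Y h` maps `K` to itself for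
small `t` of both signs. -/
structure Tan (K : Set (V → ℝ)) (Y : (V → ℝ) → (V → ℝ)) (c : ℝ≥0) (t0 : ℝ) : Prop where
  lip : LipschitzWith c Y
  pos : 0 < t0
  inv : ∀ h ∈ K, ∀ t : ℝ, |t| ≤ t0 → h + t • Y h ∈ K

lemma norm_jac_le {Y : (V → ℝ) → (V → ℝ)} {c : ℝ≥0} (hY : LipschitzWith c Y) (h : V → ℝ) :
    ‖(fun u v => jac Y h u v : V → V → ℝ)‖ ≤ c := by
  refine (pi_norm_le_iff_of_nonneg c.2).2 fun u => ?_
  refine (pi_norm_le_iff_of_nonneg c.2).2 fun v => ?_
  rw [Real.norm_eq_abs]
  exact abs_jac_le hY h u v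

/-- Uniform first order bound for `det (1 + t A)`. -/
lemma exists_det_bound (R : ℝ) (hR : 0 ≤ R) : ∃ C : ℝ, 0 ≤ C ∧ ∀ A : Matrix V V ℝ,
    ‖(fun u v => A u v : V → V → ℝ)‖ ≤ R → ∀ t : ℝ, |t| ≤ 1 →
      |(1 + t • A).det - 1| ≤ C * |t| := by
  obtain ⟨C, hC0, hC⟩ := exists_detf_bound (V := V) R
  refine ⟨C * R, by positivity, fun A hA t ht => ?_⟩
  have e : (1 + t • A).det = detf (t • (fun u v => A u v : V → V → ℝ)) := rfl
  have hn : ‖t • (fun u v => A u v : V → V → ℝ)‖ ≤ |t| * R := by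
    rw [norm_smul, Real.norm_eq_abs]
    exact mul_le_mul_of_nonneg_left hA (abs_nonneg _)
  have h1 := hC (t • (fun u v => A u v : V → V → ℝ)) (hn.trans (by nlinarith [abs_nonneg t]))
  rw [e]
  calc _ ≤ C * ‖t • (fun u v => A u v : V → V → ℝ)‖ := h1
    _ ≤ C * (|t| * R) := mul_le_mul_of_nonneg_left hn hC0
    _ = C * R * |t| := by ring

lemma measurable_det {Y : (V → ℝ) → (V → ℝ)} (t : ℝ) :
    Measurable fun h => (1 + t • jac Y h).det := by
  have : (fun h => (1 + t • jac Y h).det) =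
      fun h => detf (t • (fun u v => jac Y h u v : V → V → ℝ)) := rfl
  rw [this]
  exact (contDiff_detf.continuous.measurable).comp ((measurable_jac' Y).const_smul t)

lemma measurable_trace (Y : (V → ℝ) → (V → ℝ)) : Measurable fun h => (jac Y h).trace := by
  simp only [Matrix.trace, Matrix.diag]
  exact Finset.measurable_sum _ fun u _ => measurable_jac Y u u

lemma abs_trace_le {Y : (V → ℝ) → (V → ℝ)} {c : ℝ≥0} (hY : LipschitzWith c Y) (h : V → ℝ) :
    |(jac Y h).trace| ≤ Fintype.card V * c := by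
  simp only [Matrix.trace, Matrix.diag]
  refine (Finset.abs_sum_le_sum_abs _ _).trans ?_
  refine (Finset.sum_le_sum fun u _ => abs_jac_le hY h u u).trans ?_
  simp

omit [DecidableEq V] in
lemma volume_lt_top {K : Set (V → ℝ)} (hKb : Bornology.IsBounded K) : volume K < ∞ :=
  hKb.measure_lt_top

/-- Real valued inequality for bounded nonnegative functions. -/
theorem setIntegral_shift_le {Y : (V → ℝ) → (V → ℝ)} {c : ℝ≥0} {K : Set (V → ℝ)} {t0 : ℝ}
    (hT : Tan K Y c t0) (hK : MeasurableSet K) (hKb : Bornology.IsBounded K)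
    {G : (V → ℝ) → ℝ} (hG : Measurable G) (hG0 : ∀ h ∈ K, 0 ≤ G h) {M : ℝ}
    (hGM : ∀ h ∈ K, G h ≤ M) {t : ℝ} (ht : |t| ≤ t0) (htc : |t| * c < 1) :
    ∫ h in K, |(1 + t • jac Y h).det| * G (h + t • Y h) ≤ ∫ h in K, G h := by
  have hinv : ∀ h ∈ K, h + t • Y h ∈ K := fun h hh => hT.inv h hh t ht
  have hYm : Measurable Y := hT.lip.continuous.measurable
  have hm1 : Measurable fun h => |(1 + t • jac Y h).det| * G (h + t • Y h) := by
    refine Measurable.mul ?_ (hG.comp (measurable_id.add (hYm.const_smul t)))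
    exact (measurable_det t).abs
  have h1 := setLIntegral_shift_smul_le hT.lip hK htc hinv (fun h => ENNReal.ofReal (G h))
  rw [integral_eq_lintegral_of_nonneg_ae, integral_eq_lintegral_of_nonneg_ae]
  · refine ENNReal.toReal_mono ?_ ?_
    · refine ne_of_lt ?_
      calc ∫⁻ h in K, ENNReal.ofReal (G h) ≤ ∫⁻ h in K, ENNReal.ofReal M :=
            setLIntegral_mono measurable_const fun h hh => ENNReal.ofReal_le_ofReal (hGM h hh)
        _ = ENNReal.ofReal M * volume K := by rw [setLIntegral_const]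
        _ < ∞ := ENNReal.mul_lt_top ENNReal.ofReal_lt_top (volume_lt_top hKb)
    · refine le_trans (le_of_eq ?_) h1
      refine setLIntegral_congr_fun hK fun h hh => ?_
      show ENNReal.ofReal (|(1 + t • jac Y h).det| * G (h + t • Y h)) = _
      rw [ENNReal.ofReal_mul (abs_nonneg _)]
  · exact (ae_restrict_iff' hK).2 (Eventually.of_forall fun h hh => hG0 h hh)
  · exact hG.aestronglyMeasurable
  · exact (ae_restrict_iff' hK).2 (Eventually.of_forall fun h hh =>
      mul_nonneg (abs_nonneg _) (hG0 _ (hinv h hh)))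
  · exact hm1.aestronglyMeasurable

lemma exists_pos_det {c : ℝ≥0} {Y : (V → ℝ) → (V → ℝ)} (hY : LipschitzWith c Y) :
    ∃ C : ℝ, 0 ≤ C ∧ ∃ τ : ℝ, 0 < τ ∧ τ ≤ 1 ∧ τ * c < 1 ∧ (∀ t : ℝ, |t| ≤ 1 → ∀ h,
      |(1 + t • jac Y h).det - 1| ≤ C * |t|) ∧ ∀ t : ℝ, |t| ≤ τ → ∀ h,
      1 / 2 ≤ (1 + t • jac Y h).det ∧ (1 + t • jac Y h).det ≤ 3 / 2 := by
  obtain ⟨C, hC0, hC⟩ := exists_det_bound (V := V) c c.2
  refine ⟨C, hC0, min 1 (1 / (2 * (C + c + 1))), by positivity, min_le_left _ _, ?_,
    fun t ht h => hC _ (norm_jac_le hY h) t ht, ?_⟩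
  · have h1 : (min 1 (1 / (2 * (C + c + 1))) : ℝ) ≤ 1 / (2 * (C + c + 1)) := min_le_right _ _
    have h2 : (0 : ℝ) < 2 * (C + c + 1) := by positivity
    calc (min 1 (1 / (2 * (C + c + 1))) : ℝ) * c ≤ 1 / (2 * (C + c + 1)) * c :=
          mul_le_mul_of_nonneg_right h1 c.2
      _ = c / (2 * (C + c + 1)) := by ring
      _ < 1 := by
        rw [div_lt_one h2]
        have := c.2
        linarith [show (0 : ℝ) ≤ c from c.2]
  · intro t ht h
    have h1 : |t| ≤ 1 / (2 * (C + c + 1)) := ht.trans (min_le_right _ _)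
    have h2 : (0 : ℝ) < 2 * (C + c + 1) := by positivity
    have h3 := hC _ (norm_jac_le hY h) t (ht.trans (min_le_left _ _))
    have h4 : C * |t| ≤ 1 / 2 := by
      calc C * |t| ≤ C * (1 / (2 * (C + c + 1))) := mul_le_mul_of_nonneg_left h1 hC0
        _ = C / (2 * (C + c + 1)) := by ring
        _ ≤ 1 / 2 := by
          rw [div_le_iff₀ h2]
          have := c.2
          linarith [show (0 : ℝ) ≤ c from c.2]
    have h5 := abs_le.1 (h3.trans h4)
    constructor <;> linarith [h5.1, h5.2]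

/-- Integration by parts for nonnegative Lipschitz functions. -/
theorem ibp_nonneg {Y : (V → ℝ) → (V → ℝ)} {c : ℝ≥0} {K : Set (V → ℝ)} {t0 : ℝ}
    (hT : Tan K Y c t0) (hK : MeasurableSet K) (hKb : Bornology.IsBounded K)
    {G : (V → ℝ) → ℝ} {L : ℝ≥0} (hG : LipschitzWith L G) (hG0 : ∀ h ∈ K, 0 ≤ G h) :
    ∫ h in K, (fderiv ℝ G h (Y h) + G h * (jac Y h).trace) = 0 := by
  obtain ⟨C, hC0, τ, hτ0, hτ1, hτc, hC, hdet⟩ := exists_pos_det hT.lip
  have hYm : Measurable Y := hT.lip.continuous.measurable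
  -- bounds on K
  obtain ⟨R, hR⟩ := hKb.subset_closedBall 0
  have hKR : ∀ h ∈ K, ‖h‖ ≤ R := fun h hh => by simpa using hR hh
  set B : ℝ := ‖Y 0‖ + c * |R| with hB
  have hB0 : 0 ≤ B := by positivity
  have hYB : ∀ h ∈ K, ‖Y h‖ ≤ B := by
    intro h hh
    have h1 := hT.lip.dist_le_mul h 0
    rw [dist_eq_norm, dist_eq_norm, sub_zero] at h1
    have h2 : ‖Y h‖ ≤ ‖Y 0‖ + ‖Y h - Y 0‖ := by
      calc ‖Y h‖ = ‖Y 0 + (Y h - Y 0)‖ := by congr 1; abel
        _ ≤ _ := norm_add_le _ _
    have h3 : (c : ℝ) * ‖h‖ ≤ c * |R| :=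
      mul_le_mul_of_nonneg_left ((hKR h hh).trans (le_abs_self _)) c.2
    linarith
  set M : ℝ := |G 0| + L * |R| with hM
  have hM0 : 0 ≤ M := by positivity
  have hGM : ∀ h ∈ K, |G h| ≤ M := by
    intro h hh
    have h1 := hG.dist_le_mul h 0
    rw [dist_eq_norm, dist_eq_norm, sub_zero, Real.norm_eq_abs] at h1
    have h2 : |G h| ≤ |G 0| + |G h - G 0| := by
      calc |G h| = |G 0 + (G h - G 0)| := by congr 1; ring
        _ ≤ _ := abs_add_le _ _
    have h3 : (L : ℝ) * ‖h‖ ≤ L * |R| :=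
      mul_le_mul_of_nonneg_left ((hKR h hh).trans (le_abs_self _)) L.2
    linarith
  have hGM' : ∀ h ∈ K, G h ≤ M := fun h hh => (le_abs_self _).trans (hGM h hh)
  -- the difference quotients
  set D : ℝ → (V → ℝ) → ℝ := fun t h =>
    ((1 + t • jac Y h).det * G (h + t • Y h) - G h) / t with hD
  have hlim : Tendsto (fun t : ℝ => ∫ h in K, D t h) (𝓝[≠] 0)
      (𝓝 (∫ h in K, (fderiv ℝ G h (Y h) + G h * (jac Y h).trace))) := by
    have hbd_small : ∀ᶠ t : ℝ in 𝓝[≠] 0, |t| ≤ min τ t0 := by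
      refine nhdsWithin_le_nhds ?_
      have : (0 : ℝ) < min τ t0 := lt_min hτ0 hT.pos
      filter_upwards [Metric.closedBall_mem_nhds (0 : ℝ) this] with t ht
      simpa [Real.dist_eq] using ht
    refine tendsto_integral_filter_of_dominated_convergence
      (bound := fun _ => 3 / 2 * (L * B) + M * C) ?_ ?_ ?_ ?_
    · refine Eventually.of_forall fun t => ?_
      refine Measurable.aestronglyMeasurable ?_
      refine Measurable.div_const ?_ _
      refine Measurable.sub ?_ hG.continuous.measurable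
      exact (measurable_det t).mul (hG.continuous.measurable.comp
        (measurable_id.add (hYm.const_smul t)))
    · filter_upwards [hbd_small, self_mem_nhdsWithin] with t ht ht0
      have ht0' : t ≠ 0 := ht0
      have htp : 0 < |t| := abs_pos.2 ht0'
      refine (ae_restrict_iff' hK).2 (Eventually.of_forall fun h hh => ?_)
      have hd := hdet t (ht.trans (min_le_left _ _)) h
      have e : D t h = (1 + t • jac Y h).det * ((G (h + t • Y h) - G h) / t) +
          G h * (((1 + t • jac Y h).det - 1) / t) := by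
        simp only [hD]; field_simp; ring
      rw [e, Real.norm_eq_abs]
      refine (abs_add_le _ _).trans (add_le_add ?_ ?_)
      · rw [abs_mul]
        refine mul_le_mul ?_ ?_ (abs_nonneg _) (by norm_num)
        · rw [abs_le]; constructor <;> linarith [hd.1, hd.2]
        · rw [abs_div, div_le_iff₀ htp]
          have h1 := hG.dist_le_mul (h + t • Y h) h
          rw [Real.dist_eq, dist_eq_norm, add_sub_cancel_left, norm_smul, Real.norm_eq_abs] at h1
          refine h1.trans ?_
          have : |t| * ‖Y h‖ ≤ |t| * B := mul_le_mul_of_nonneg_left (hYB h hh) (abs_nonneg _)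
          calc (L : ℝ) * (|t| * ‖Y h‖) ≤ L * (|t| * B) := mul_le_mul_of_nonneg_left this L.2
            _ = L * B * |t| := by ring
      · rw [abs_mul]
        refine mul_le_mul (hGM h hh) ?_ (abs_nonneg _) hM0
        rw [abs_div, div_le_iff₀ htp]
        exact hC t ((ht.trans (min_le_left _ _)).trans hτ1) h
    · have : IsFiniteMeasure (volume.restrict K) := ⟨by simpa using volume_lt_top hKb⟩
      exact integrable_const _
    · have h1 : ∀ᵐ h ∂(volume : Measure (V → ℝ)), DifferentiableAt ℝ G h :=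
        hG.ae_differentiableAt
      refine (ae_restrict_iff' hK).2 ?_
      filter_upwards [h1] with h hd _
      have e : (fun t : ℝ => D t h) =ᶠ[𝓝[≠] 0] fun t =>
          (1 + t • jac Y h).det * (t⁻¹ • (G (h + t • Y h) - G h)) +
          G h * (((1 + t • jac Y h).det - 1) / t) := by
        filter_upwards [self_mem_nhdsWithin] with t ht0
        have ht0' : t ≠ 0 := ht0
        simp only [hD, smul_eq_mul]; field_simp; ring
      refine Tendsto.congr' e.symm ?_
      have hdir : Tendsto (fun t : ℝ => t⁻¹ • (G (h + t • Y h) - G h)) (𝓝[≠] 0)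
          (𝓝 (fderiv ℝ G h (Y h))) := by
        have := (hd.hasFDerivAt.hasLineDerivAt (Y h))
        exact this.tendsto_slope_zero
      have hdt : Tendsto (fun t : ℝ => (1 + t • jac Y h).det) (𝓝[≠] 0) (𝓝 1) := by
        have hcont : Continuous fun t : ℝ => (1 + t • jac Y h).det := by fun_prop
        have := hcont.tendsto 0
        simp only [zero_smul, add_zero, Matrix.det_one] at this
        exact this.mono_left nhdsWithin_le_nhds
      have h2 := (hdt.mul hdir).add ((tendsto_det_sub_div (jac Y h)).const_mul (G h))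
      simpa using h2
  -- signs
  have hsign : ∀ t : ℝ, |t| ≤ min τ t0 →
      ∫ h in K, ((1 + t • jac Y h).det * G (h + t • Y h) - G h) ≤ 0 := by
    intro t ht
    have htc : |t| * c < 1 := lt_of_le_of_lt
      (mul_le_mul_of_nonneg_right (ht.trans (min_le_left _ _)) c.2) hτc
    have h1 := setIntegral_shift_le hT hK hKb hG.continuous.measurable hG0 hGM'
      (ht.trans (min_le_right _ _)) htc
    have h2 : ∫ h in K, |(1 + t • jac Y h).det| * G (h + t • Y h) =
        ∫ h in K, (1 + t • jac Y h).det * G (h + t • Y h) := by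
      refine setIntegral_congr_fun hK fun h _ => ?_
      have := (hdet t (ht.trans (min_le_left _ _)) h).1
      show |(1 + t • jac Y h).det| * G (h + t • Y h) = _
      rw [abs_of_nonneg (by linarith)]
    have : IsFiniteMeasure (volume.restrict K) := ⟨by simpa using volume_lt_top hKb⟩
    rw [integral_sub, ← h2]
    · linarith
    · refine Integrable.of_bound (C := 3 / 2 * M) ?_ ?_
      · exact ((measurable_det t).mul (hG.continuous.measurable.comp
          (measurable_id.add (hYm.const_smul t)))).aestronglyMeasurable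
      · refine (ae_restrict_iff' hK).2 (Eventually.of_forall fun h hh => ?_)
        have hd := hdet t (ht.trans (min_le_left _ _)) h
        rw [norm_mul, Real.norm_eq_abs, Real.norm_eq_abs]
        refine mul_le_mul ?_ (hGM _ (hT.inv h hh t (ht.trans (min_le_right _ _))))
          (abs_nonneg _) (by norm_num)
        rw [abs_le]; constructor <;> linarith [hd.1, hd.2]
    · refine Integrable.of_bound (C := M) hG.continuous.measurable.aestronglyMeasurable ?_
      exact (ae_restrict_iff' hK).2 (Eventually.of_forall fun h hh => by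
        rw [Real.norm_eq_abs]; exact hGM h hh)
  have hmin : (0 : ℝ) < min τ t0 := lt_min hτ0 hT.pos
  apply le_antisymm
  · have hl : Tendsto (fun t : ℝ => ∫ h in K, D t h) (𝓝[>] 0)
      (𝓝 (∫ h in K, (fderiv ℝ G h (Y h) + G h * (jac Y h).trace))) :=
      hlim.mono_left (nhdsWithin_mono _ fun x hx => ne_of_gt hx)
    refine le_of_tendsto hl ?_
    filter_upwards [Ioo_mem_nhdsGT hmin] with t ht
    have ht' : |t| ≤ min τ t0 := by rw [abs_of_pos ht.1]; exact ht.2.le
    simp only [hD]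
    rw [integral_div]
    exact div_nonpos_of_nonpos_of_nonneg (hsign t ht') ht.1.le
  · have hl : Tendsto (fun t : ℝ => ∫ h in K, D t h) (𝓝[<] 0)
      (𝓝 (∫ h in K, (fderiv ℝ G h (Y h) + G h * (jac Y h).trace))) :=
      hlim.mono_left (nhdsWithin_mono _ fun x hx => ne_of_lt hx)
    refine ge_of_tendsto hl ?_
    filter_upwards [Ioo_mem_nhdsLT (show -(min τ t0) < 0 by linarith)] with t ht
    have ht' : |t| ≤ min τ t0 := by rw [abs_of_neg ht.2]; linarith [ht.1]
    simp only [hD]
    rw [integral_div]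
    exact div_nonneg_of_nonpos (hsign t ht') ht.2.le

omit [DecidableEq V] in
lemma exists_lip_bound {K : Set (V → ℝ)} (hKb : Bornology.IsBounded K) {F : Type*}
    [SeminormedAddCommGroup F] {G : (V → ℝ) → F} {L : ℝ≥0} (hG : LipschitzWith L G) :
    ∃ M : ℝ, 0 ≤ M ∧ ∀ h ∈ K, ‖G h‖ ≤ M := by
  obtain ⟨R, hR⟩ := hKb.subset_closedBall 0
  refine ⟨‖G 0‖ + L * |R|, by positivity, fun h hh => ?_⟩
  have h0 : ‖h‖ ≤ R := by simpa using hR hh
  have h1 := hG.dist_le_mul h 0
  rw [dist_eq_norm, dist_eq_norm, sub_zero] at h1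
  have h2 : ‖G h‖ ≤ ‖G 0‖ + ‖G h - G 0‖ := by
    calc ‖G h‖ = ‖G 0 + (G h - G 0)‖ := by congr 1; abel
      _ ≤ _ := norm_add_le _ _
  have h3 : (L : ℝ) * ‖h‖ ≤ L * |R| :=
    mul_le_mul_of_nonneg_left (h0.trans (le_abs_self _)) L.2
  linarith

omit [DecidableEq V] in
/-- Integrability of bounded measurable functions on a bounded set. -/
lemma integrableOn_of_bound {K : Set (V → ℝ)} (hK : MeasurableSet K)
    (hKb : Bornology.IsBounded K) {f : (V → ℝ) → ℝ} (hf : AEStronglyMeasurable f volume)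
    {M : ℝ} (hM : ∀ h ∈ K, |f h| ≤ M) : IntegrableOn f K := by
  have : IsFiniteMeasure (volume.restrict K) := ⟨by simpa using volume_lt_top hKb⟩
  exact Integrable.of_bound (C := M) hf.restrict
    ((ae_restrict_iff' hK).2 (Eventually.of_forall fun h hh => by
      rw [Real.norm_eq_abs]; exact hM h hh))

lemma measurable_fderiv_apply {G : (V → ℝ) → ℝ} {Y : (V → ℝ) → (V → ℝ)} (hY : Measurable Y) :
    Measurable fun h => fderiv ℝ G h (Y h) := by
  have e : (fun h => fderiv ℝ G h (Y h)) =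
      fun h => ∑ v, Y h v * fderiv ℝ G h (Pi.single v 1) := by
    funext h
    conv_lhs => rw [pi_eq_sum_univ (Y h)]
    rw [map_sum]
    refine Finset.sum_congr rfl fun v _ => ?_
    rw [map_smul, smul_eq_mul]
    congr 2
    ext j
    simp only [Pi.single_apply, eq_comm]
  rw [e]
  refine Finset.measurable_sum _ fun v _ => ?_
  exact ((measurable_pi_apply v).comp hY).mul (measurable_fderiv_apply_const ℝ G _)

lemma integrableOn_fderiv_apply {Y : (V → ℝ) → (V → ℝ)} {c : ℝ≥0} (hY : LipschitzWith c Y)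
    {K : Set (V → ℝ)} (hK : MeasurableSet K) (hKb : Bornology.IsBounded K)
    {G : (V → ℝ) → ℝ} {L : ℝ≥0} (hG : LipschitzWith L G) :
    IntegrableOn (fun h => fderiv ℝ G h (Y h)) K := by
  obtain ⟨B, hB0, hB⟩ := exists_lip_bound hKb hY
  refine integrableOn_of_bound hK hKb
    (measurable_fderiv_apply hY.continuous.measurable).aestronglyMeasurable (M := L * B) ?_
  intro h hh
  calc |fderiv ℝ G h (Y h)| = ‖fderiv ℝ G h (Y h)‖ := (Real.norm_eq_abs _).symm
    _ ≤ ‖fderiv ℝ G h‖ * ‖Y h‖ := ContinuousLinearMap.le_opNorm _ _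
    _ ≤ L * B := mul_le_mul (norm_fderiv_le_of_lipschitz ℝ hG) (hB h hh) (norm_nonneg _) L.2

lemma integrableOn_mul_trace {Y : (V → ℝ) → (V → ℝ)} {c : ℝ≥0} (hY : LipschitzWith c Y)
    {K : Set (V → ℝ)} (hK : MeasurableSet K) (hKb : Bornology.IsBounded K)
    {G : (V → ℝ) → ℝ} {L : ℝ≥0} (hG : LipschitzWith L G) :
    IntegrableOn (fun h => G h * (jac Y h).trace) K := by
  obtain ⟨M, hM0, hM⟩ := exists_lip_bound hKb hG
  refine integrableOn_of_bound hK hKb
    (hG.continuous.measurable.mul (measurable_trace Y)).aestronglyMeasurable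
    (M := M * (Fintype.card V * c)) ?_
  intro h hh
  rw [abs_mul]
  exact mul_le_mul (by simpa using hM h hh) (abs_trace_le hY h) (abs_nonneg _) hM0

/-- Integration by parts: `∫_K DG·Y = - ∫_K G div Y` for Lipschitz `G` and tangent `Y`. -/
theorem ibp {Y : (V → ℝ) → (V → ℝ)} {c : ℝ≥0} {K : Set (V → ℝ)} {t0 : ℝ}
    (hT : Tan K Y c t0) (hK : MeasurableSet K) (hKb : Bornology.IsBounded K)
    {G : (V → ℝ) → ℝ} {L : ℝ≥0} (hG : LipschitzWith L G) :
    ∫ h in K, fderiv ℝ G h (Y h) = - ∫ h in K, G h * (jac Y h).trace := by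
  obtain ⟨M, hM0, hM⟩ := exists_lip_bound hKb hG
  have h1 := ibp_nonneg hT hK hKb (G := fun _ => (1 : ℝ)) (L := 0) (LipschitzWith.const 1)
    (fun _ _ => zero_le_one)
  have h2 := ibp_nonneg hT hK hKb (G := fun h => G h + M) (L := L)
    (by simpa using hG.add (LipschitzWith.const M)) (fun h hh => by
      have := (abs_le.1 (by simpa using hM h hh : |G h| ≤ M)).1
      linarith)
  simp only [fderiv_fun_const, Pi.zero_apply, zero_apply, zero_add, one_mul] at h1
  have hi1 := integrableOn_fderiv_apply hT.lip hK hKb hG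
  have hi2 := integrableOn_mul_trace hT.lip hK hKb hG
  have hi3 : IntegrableOn (fun h => M * (jac Y h).trace) K :=
    integrableOn_mul_trace hT.lip hK hKb (LipschitzWith.const M)
  have e : ∀ h, fderiv ℝ (fun h => G h + M) h (Y h) + (G h + M) * (jac Y h).trace =
      fderiv ℝ G h (Y h) + (G h * (jac Y h).trace + M * (jac Y h).trace) := by
    intro h
    rw [fderiv_add_const]
    ring
  simp only [e] at h2
  have hi23 : IntegrableOn (fun h => G h * (jac Y h).trace + M * (jac Y h).trace) K :=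
    hi2.add hi3
  rw [integral_add hi1 hi23, integral_add hi2 hi3, integral_const_mul, h1] at h2
  linarith

/-- The divergence theorem for tangent fields. -/
theorem integral_trace {Y : (V → ℝ) → (V → ℝ)} {c : ℝ≥0} {K : Set (V → ℝ)} {t0 : ℝ}
    (hT : Tan K Y c t0) (hK : MeasurableSet K) (hKb : Bornology.IsBounded K) :
    ∫ h in K, (jac Y h).trace = 0 := by
  have h1 := ibp_nonneg hT hK hKb (G := fun _ => (1 : ℝ)) (L := 0) (LipschitzWith.const 1)
    (fun _ _ => zero_le_one)
  simpa using h1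

lemma norm_sq_le {Y : (V → ℝ) → (V → ℝ)} {c : ℝ≥0} (hY : LipschitzWith c Y) (h : V → ℝ) :
    ‖(fun u v => (jac Y h * jac Y h) u v : V → V → ℝ)‖ ≤ Fintype.card V * (c * c) := by
  have h0 : (0 : ℝ) ≤ Fintype.card V * (c * c) := by positivity
  refine (pi_norm_le_iff_of_nonneg h0).2 fun u => ?_
  refine (pi_norm_le_iff_of_nonneg h0).2 fun v => ?_
  rw [Real.norm_eq_abs, Matrix.mul_apply]
  refine (Finset.abs_sum_le_sum_abs _ _).trans ?_
  refine (Finset.sum_le_sum fun w _ => ?_ : _ ≤ ∑ _w : V, (c * c : ℝ)).trans ?_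
  · rw [abs_mul]
    exact mul_le_mul (abs_jac_le hY h u w) (abs_jac_le hY h w v) (abs_nonneg _) c.2
  · simp

lemma measurable_trace_sq (Y : (V → ℝ) → (V → ℝ)) :
    Measurable fun h => (jac Y h * jac Y h).trace := by
  simp only [Matrix.trace, Matrix.diag, Matrix.mul_apply]
  exact Finset.measurable_sum _ fun u _ => Finset.measurable_sum _ fun w _ =>
    (measurable_jac Y u w).mul (measurable_jac Y w u)

lemma abs_trace_sq_le {Y : (V → ℝ) → (V → ℝ)} {c : ℝ≥0} (hY : LipschitzWith c Y)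
    (h : V → ℝ) : |(jac Y h * jac Y h).trace| ≤ Fintype.card V * (Fintype.card V * (c * c)) := by
  simp only [Matrix.trace, Matrix.diag]
  refine (Finset.abs_sum_le_sum_abs _ _).trans ?_
  refine (Finset.sum_le_sum fun u _ => ?_ :
    _ ≤ ∑ _u : V, (Fintype.card V * (c * c) : ℝ)).trans ?_
  · have h1 := norm_sq_le hY h
    refine le_trans ?_ h1
    have h2 := norm_le_pi_norm (fun u v => (jac Y h * jac Y h) u v : V → V → ℝ) u
    have h3 := norm_le_pi_norm ((fun u v => (jac Y h * jac Y h) u v : V → V → ℝ) u) u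
    exact h3.trans h2
  · simp

lemma det_mul_det (A : Matrix V V ℝ) (t : ℝ) :
    (1 + t • A).det * (1 + (-t) • A).det = (1 + (-t ^ 2) • (A * A)).det := by
  rw [← Matrix.det_mul]
  congr 1
  rw [add_mul, mul_add, mul_add, one_mul, mul_one, one_mul, smul_mul_smul_comm]
  have : t * -t = -t ^ 2 := by ring
  rw [this, neg_smul]
  abel

/-- Pointwise second order expansion of `det (1 + t A) + det (1 - t A)`. -/
lemma exists_second_order {c : ℝ≥0} {Y : (V → ℝ) → (V → ℝ)} (hY : LipschitzWith c Y) :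
    ∃ C : ℝ, 0 ≤ C ∧ ∃ τ : ℝ, 0 < τ ∧ τ ≤ 1 ∧ τ * c < 1 ∧
      (∀ t : ℝ, |t| ≤ τ → t ≠ 0 → ∀ h,
        0 < (1 + t • jac Y h).det ∧
        |((1 + t • jac Y h).det + (1 + (-t) • jac Y h).det - 2) / t ^ 2| ≤ C) ∧
      ∀ h, Tendsto (fun t : ℝ =>
        ((1 + t • jac Y h).det + (1 + (-t) • jac Y h).det - 2) / t ^ 2) (𝓝[≠] 0)
        (𝓝 ((jac Y h).trace ^ 2 - (jac Y h * jac Y h).trace)) := by
  obtain ⟨C, hC0, τ, hτ0, hτ1, hτc, hC, hdet⟩ := exists_pos_det hY
  obtain ⟨C', hC'0, hC'⟩ := exists_det_bound (V := V) (Fintype.card V * (c * c)) (by positivity)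
  set X : ℝ → (V → ℝ) → ℝ := fun t h =>
    (((1 + t • jac Y h).det - (1 + (-t) • jac Y h).det) / (2 * t)) ^ 2 +
      ((1 + (-t ^ 2) • (jac Y h * jac Y h)).det - 1) / t ^ 2 with hX
  have key : ∀ t : ℝ, |t| ≤ τ → t ≠ 0 → ∀ h,
      ((1 + t • jac Y h).det + (1 + (-t) • jac Y h).det - 2) / t ^ 2 =
        X t h / ((((1 + t • jac Y h).det + (1 + (-t) • jac Y h).det) / 2 + 1) / 2) := by
    intro t ht ht0 h
    have h1 := hdet t ht h
    have h2 := hdet (-t) (by rwa [abs_neg]) h
    have h3 := det_mul_det (jac Y h) t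
    set p := (1 + t • jac Y h).det
    set q := (1 + (-t) • jac Y h).det
    have hpos : (0 : ℝ) < ((p + q) / 2 + 1) / 2 := by
      linarith [h1.1, h2.1]
    rw [eq_div_iff hpos.ne']
    simp only [hX]
    rw [← h3]
    change (p + q - 2) / t ^ 2 * (((p + q) / 2 + 1) / 2) = ((p - q) / (2 * t)) ^ 2 + (p * q - 1) / t ^ 2
    field_simp
    ring
  have hXb : ∀ t : ℝ, |t| ≤ τ → t ≠ 0 → ∀ h, |X t h| ≤ C ^ 2 + C' := by
    intro t ht ht0 h
    have htp : 0 < |t| := abs_pos.2 ht0
    simp only [hX]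
    refine (abs_add_le _ _).trans (add_le_add ?_ ?_)
    · rw [abs_pow]
      refine pow_le_pow_left₀ (abs_nonneg _) ?_ 2
      rw [abs_div, div_le_iff₀ (by positivity)]
      have h1 := hC t (ht.trans hτ1) h
      have h2 := hC (-t) (by rw [abs_neg]; exact ht.trans hτ1) h
      rw [abs_neg] at h2
      have e : (1 + t • jac Y h).det - (1 + (-t) • jac Y h).det =
        ((1 + t • jac Y h).det - 1) - ((1 + (-t) • jac Y h).det - 1) := by ring
      rw [e]
      refine (abs_sub _ _).trans ?_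
      rw [abs_mul, abs_two]
      linarith
    · rw [abs_div, abs_of_pos (show (0 : ℝ) < t ^ 2 by positivity), div_le_iff₀ (by positivity)]
      have h1 := hC' _ (norm_sq_le hY h) (-t ^ 2) (by
        rw [abs_neg, abs_pow]
        exact pow_le_one₀ (abs_nonneg _) (ht.trans hτ1))
      refine h1.trans (le_of_eq ?_)
      rw [abs_neg, abs_pow, sq_abs]
  refine ⟨(C ^ 2 + C') * (4 / 3), by positivity, τ, hτ0, hτ1, hτc, ?_, ?_⟩
  · intro t ht ht0 h
    have h1 := hdet t ht h
    have h2 := hdet (-t) (by rwa [abs_neg]) h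
    refine ⟨by linarith [h1.1], ?_⟩
    rw [key t ht ht0 h, abs_div]
    set p := (1 + t • jac Y h).det
    set q := (1 + (-t) • jac Y h).det
    have hge : (3 / 4 : ℝ) ≤ |((p + q) / 2 + 1) / 2| := by
      rw [abs_of_pos (by linarith [h1.1, h2.1])]
      linarith [h1.1, h2.1]
    rw [div_le_iff₀ (by linarith)]
    have h3 := hXb t ht ht0 h
    have h4 : 0 ≤ C ^ 2 + C' := by positivity
    nlinarith
  · intro h
    have hev : ∀ᶠ t : ℝ in 𝓝[≠] 0, |t| ≤ τ := by
      refine nhdsWithin_le_nhds ?_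
      filter_upwards [Metric.closedBall_mem_nhds (0 : ℝ) hτ0] with t ht
      simpa [Real.dist_eq] using ht
    have hT1 : Tendsto (fun t : ℝ => ((1 + t • jac Y h).det - 1) / t) (𝓝[≠] 0)
        (𝓝 (jac Y h).trace) := tendsto_det_sub_div _
    have hneg : Tendsto (fun t : ℝ => -t) (𝓝[≠] 0) (𝓝[≠] 0) := by
      refine tendsto_nhdsWithin_iff.2 ⟨?_, ?_⟩
      · have : Tendsto (fun t : ℝ => -t) (𝓝 0) (𝓝 0) := by
          simpa using (continuous_neg.tendsto (0 : ℝ))
        exact this.mono_left nhdsWithin_le_nhds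
      · filter_upwards [self_mem_nhdsWithin] with t ht
        simpa using ht
    have hT2 : Tendsto (fun t : ℝ => ((1 + (-t) • jac Y h).det - 1) / (-t)) (𝓝[≠] 0)
        (𝓝 (jac Y h).trace) := (tendsto_det_sub_div (jac Y h)).comp hneg
    have hsq : Tendsto (fun t : ℝ => -t ^ 2) (𝓝[≠] 0) (𝓝[≠] 0) := by
      refine tendsto_nhdsWithin_iff.2 ⟨?_, ?_⟩
      · have hcc : Continuous (fun t : ℝ => -t ^ 2) := by fun_prop
        have : Tendsto (fun t : ℝ => -t ^ 2) (𝓝 0) (𝓝 0) := by
          have := hcc.tendsto (0 : ℝ)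
          simpa using this
        exact this.mono_left nhdsWithin_le_nhds
      · filter_upwards [self_mem_nhdsWithin] with t ht
        have : t ≠ 0 := ht
        simpa using this
    have hT3 : Tendsto (fun t : ℝ => ((1 + (-t ^ 2) • (jac Y h * jac Y h)).det - 1) / (-t ^ 2))
        (𝓝[≠] 0) (𝓝 (jac Y h * jac Y h).trace) :=
      (tendsto_det_sub_div (jac Y h * jac Y h)).comp hsq
    have hXlim : Tendsto (fun t : ℝ => X t h) (𝓝[≠] 0)
        (𝓝 ((jac Y h).trace ^ 2 - (jac Y h * jac Y h).trace)) := by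
      have h1 := ((hT1.add hT2).div_const 2).pow 2
      have h2 := h1.add hT3.neg
      have e1 : (((jac Y h).trace + (jac Y h).trace) / 2) ^ 2 + -(jac Y h * jac Y h).trace =
        (jac Y h).trace ^ 2 - (jac Y h * jac Y h).trace := by ring
      rw [e1] at h2
      refine h2.congr' ?_
      filter_upwards [self_mem_nhdsWithin] with t ht
      have ht0 : t ≠ 0 := ht
      simp only [hX]
      congr 1
      · congr 1
        field_simp
        ring
      · rw [div_neg, neg_neg]
    have hdt : ∀ s : ℝ, Tendsto (fun t : ℝ => (1 + (s * t) • jac Y h).det) (𝓝[≠] 0) (𝓝 1) := by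
      intro s
      have hcont : Continuous fun t : ℝ => (1 + (s * t) • jac Y h).det := by fun_prop
      have := hcont.tendsto 0
      simp only [mul_zero, zero_smul, add_zero, Matrix.det_one] at this
      exact this.mono_left nhdsWithin_le_nhds
    have hden : Tendsto (fun t : ℝ =>
        (((1 + t • jac Y h).det + (1 + (-t) • jac Y h).det) / 2 + 1) / 2) (𝓝[≠] 0) (𝓝 1) := by
      have h1 := hdt 1
      have h2 := hdt (-1)
      simp only [one_mul, neg_mul] at h1 h2
      have := (((h1.add h2).div_const 2).add_const 1).div_const 2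
      simpa using this
    have hfin := hXlim.div hden one_ne_zero
    rw [div_one] at hfin
    refine hfin.congr' ?_
    filter_upwards [hev, self_mem_nhdsWithin] with t ht ht0
    exact (key t ht ht0 h).symm

/-- Reilly inequality on a set invariant under small shifts of both signs:
`∫_K (div Y)^2 ≤ ∫_K tr (DY DY)`. -/
theorem reilly {Y : (V → ℝ) → (V → ℝ)} {c : ℝ≥0} {K : Set (V → ℝ)} {t0 : ℝ}
    (hT : Tan K Y c t0) (hK : MeasurableSet K) (hKb : Bornology.IsBounded K) :
    ∫ h in K, (jac Y h).trace ^ 2 ≤ ∫ h in K, (jac Y h * jac Y h).trace := by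
  obtain ⟨C, hC0, τ, hτ0, hτ1, hτc, hC, hlim⟩ := exists_second_order hT.lip
  have hfin : IsFiniteMeasure (volume.restrict K) := ⟨by simpa using volume_lt_top hKb⟩
  have hmin : (0 : ℝ) < min τ t0 := lt_min hτ0 hT.pos
  have hev : ∀ᶠ t : ℝ in 𝓝[≠] 0, |t| ≤ min τ t0 := by
    refine nhdsWithin_le_nhds ?_
    filter_upwards [Metric.closedBall_mem_nhds (0 : ℝ) hmin] with t ht
    simpa [Real.dist_eq] using ht
  have hL : Tendsto (fun t : ℝ => ∫ h in K,
      ((1 + t • jac Y h).det + (1 + (-t) • jac Y h).det - 2) / t ^ 2) (𝓝[≠] 0)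
      (𝓝 (∫ h in K, ((jac Y h).trace ^ 2 - (jac Y h * jac Y h).trace))) := by
    refine tendsto_integral_filter_of_dominated_convergence (bound := fun _ => C) ?_ ?_ ?_ ?_
    · refine Eventually.of_forall fun t => Measurable.aestronglyMeasurable ?_
      exact (((measurable_det t).add (measurable_det (-t))).sub_const 2).div_const _
    · filter_upwards [hev, self_mem_nhdsWithin] with t ht ht0
      exact Eventually.of_forall fun h => by
        rw [Real.norm_eq_abs]
        exact (hC t (ht.trans (min_le_left _ _)) ht0 h).2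
    · exact integrable_const _
    · exact Eventually.of_forall fun h => hlim h
  have hle : ∫ h in K, ((jac Y h).trace ^ 2 - (jac Y h * jac Y h).trace) ≤ 0 := by
    refine le_of_tendsto hL ?_
    filter_upwards [hev, self_mem_nhdsWithin] with t ht ht0
    have ht0' : t ≠ 0 := ht0
    have hone : ∀ s : ℝ, |s| ≤ min τ t0 → s ≠ 0 → ∫ h in K, (1 + s • jac Y h).det ≤
        ∫ _h in K, (1 : ℝ) := by
      intro s hs hs0
      have hsc : |s| * c < 1 := lt_of_le_of_lt
        (mul_le_mul_of_nonneg_right (hs.trans (min_le_left _ _)) c.2) hτc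
      have h1 := setIntegral_shift_le hT hK hKb (G := fun _ => (1 : ℝ)) measurable_const
        (fun _ _ => zero_le_one) (M := 1) (fun _ _ => le_rfl) (hs.trans (min_le_right _ _)) hsc
      simp only [mul_one] at h1
      refine le_trans (le_of_eq ?_) h1
      refine setIntegral_congr_fun hK fun h _ => ?_
      show _ = |(1 + s • jac Y h).det|
      rw [abs_of_pos (hC s (hs.trans (min_le_left _ _)) hs0 h).1]
    have h1 := hone t ht ht0'
    have h2 := hone (-t) (by rwa [abs_neg]) (neg_ne_zero.2 ht0')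
    rw [integral_div]
    refine div_nonpos_of_nonpos_of_nonneg ?_ (sq_nonneg t)
    have hint : ∀ s : ℝ, |s| ≤ min τ t0 → Integrable (fun h => (1 + s • jac Y h).det)
        (volume.restrict K) := by
      intro s hs
      obtain ⟨C1, hC10, hC1⟩ := exists_det_bound (V := V) c c.2
      refine Integrable.of_bound (C := 1 + C1) (measurable_det s).aestronglyMeasurable
        (Eventually.of_forall fun h => ?_)
      have hs1 : |s| ≤ 1 := (hs.trans (min_le_left _ _)).trans hτ1
      have h3 := hC1 _ (norm_jac_le hT.lip h) s hs1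
      have h4 := abs_le.1 h3
      have h5 : C1 * |s| ≤ C1 := by nlinarith [abs_nonneg s]
      rw [Real.norm_eq_abs, abs_le]
      constructor <;> linarith [h4.1, h4.2]
    have hi12 : Integrable (fun h => (1 + t • jac Y h).det + (1 + (-t) • jac Y h).det)
        (volume.restrict K) := (hint t ht).add (hint (-t) (by rwa [abs_neg]))
    rw [integral_sub hi12 (integrable_const _),
      integral_add (hint t ht) (hint (-t) (by rwa [abs_neg]))]
    have h3 : ∫ _h in K, (2 : ℝ) = 2 * ∫ _h in K, (1 : ℝ) := by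
      rw [← integral_const_mul]; simp
    rw [h3]
    linarith
  have hi1 : IntegrableOn (fun h => (jac Y h).trace ^ 2) K :=
    integrableOn_of_bound hK hKb ((measurable_trace Y).pow_const 2).aestronglyMeasurable
      (M := (Fintype.card V * c) ^ 2) (fun h _ => by
        rw [abs_pow]
        exact pow_le_pow_left₀ (abs_nonneg _) (abs_trace_le hT.lip h) 2)
  have hi2 : IntegrableOn (fun h => (jac Y h * jac Y h).trace) K :=
    integrableOn_of_bound hK hKb (measurable_trace_sq Y).aestronglyMeasurable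
      (fun h _ => abs_trace_sq_le hT.lip h)
  rw [integral_sub hi1 hi2] at hle
  linarith

/-- The Hilbert-Schmidt energy density of a field. -/
def en (Y : (V → ℝ) → (V → ℝ)) (h : V → ℝ) : ℝ := ∑ u, ∑ v, jac Y h u v ^ 2

lemma trace_sq_le_en (Y : (V → ℝ) → (V → ℝ)) (h : V → ℝ) :
    (jac Y h * jac Y h).trace ≤ en Y h := by
  simp only [Matrix.trace, Matrix.diag, Matrix.mul_apply, en]
  have h1 : ∑ u, ∑ v, jac Y h u v * jac Y h v u ≤
      ∑ u, ∑ v, (jac Y h u v ^ 2 + jac Y h v u ^ 2) / 2 :=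
    Finset.sum_le_sum fun u _ => Finset.sum_le_sum fun v _ => by
      nlinarith [sq_nonneg (jac Y h u v - jac Y h v u)]
  refine h1.trans (le_of_eq ?_)
  have h2 : ∑ u, ∑ v, jac Y h v u ^ 2 = ∑ u, ∑ v, jac Y h u v ^ 2 := Finset.sum_comm
  simp only [← Finset.sum_div, Finset.sum_add_distrib]
  rw [h2]
  ring

lemma measurable_en (Y : (V → ℝ) → (V → ℝ)) : Measurable (en Y) := by
  unfold en
  exact Finset.measurable_sum _ fun u _ => Finset.measurable_sum _ fun v _ =>
    (measurable_jac Y u v).pow_const 2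

lemma en_nonneg (Y : (V → ℝ) → (V → ℝ)) (h : V → ℝ) : 0 ≤ en Y h := by
  unfold en; positivity

lemma en_le {Y : (V → ℝ) → (V → ℝ)} {c : ℝ≥0} (hY : LipschitzWith c Y) (h : V → ℝ) :
    en Y h ≤ Fintype.card V * (Fintype.card V * (c : ℝ) ^ 2) := by
  unfold en
  refine (Finset.sum_le_sum fun u _ => Finset.sum_le_sum fun v _ =>
    (?_ : jac Y h u v ^ 2 ≤ (c : ℝ) ^ 2)).trans ?_
  · rw [← sq_abs]
    exact pow_le_pow_left₀ (abs_nonneg _) (abs_jac_le hY h u v) 2
  · simp

/-- Cramer-Rao (Dirichlet) lower bound for the uniform law on `K`. -/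
theorem cramer_rao {Y : (V → ℝ) → (V → ℝ)} {c : ℝ≥0} {K : Set (V → ℝ)} {t0 : ℝ}
    (hT : Tan K Y c t0) (hK : MeasurableSet K) (hKb : Bornology.IsBounded K)
    {G : (V → ℝ) → ℝ} {L : ℝ≥0} (hG : LipschitzWith L G) (m : ℝ) :
    2 * (∫ h in K, fderiv ℝ G h (Y h)) - (∫ h in K, en Y h) ≤ ∫ h in K, (G h - m) ^ 2 := by
  have hGm : LipschitzWith L (fun h => G h - m) := by
    refine LipschitzWith.of_dist_le_mul fun x y => ?_
    have := hG.dist_le_mul x y
    simpa [Real.dist_eq] using this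
  have h1 := ibp hT hK hKb hGm
  have e1 : ∀ h, fderiv ℝ (fun h => G h - m) h = fderiv ℝ G h := fun h => by
    rw [fderiv_sub_const]
  simp only [e1] at h1
  have h2 := reilly hT hK hKb
  obtain ⟨M, hM0, hM⟩ := exists_lip_bound hKb hGm
  have hi1 := integrableOn_mul_trace hT.lip hK hKb hGm
  have hi2 : IntegrableOn (fun h => (jac Y h).trace ^ 2) K :=
    integrableOn_of_bound hK hKb ((measurable_trace Y).pow_const 2).aestronglyMeasurable
      (M := (Fintype.card V * c) ^ 2) (fun h _ => by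
        rw [abs_pow]
        exact pow_le_pow_left₀ (abs_nonneg _) (abs_trace_le hT.lip h) 2)
  have hi3 : IntegrableOn (fun h => (jac Y h * jac Y h).trace) K :=
    integrableOn_of_bound hK hKb (measurable_trace_sq Y).aestronglyMeasurable
      (fun h _ => abs_trace_sq_le hT.lip h)
  have hi4 : IntegrableOn (en Y) K :=
    integrableOn_of_bound hK hKb (measurable_en Y).aestronglyMeasurable
      (fun h _ => by rw [abs_of_nonneg (en_nonneg Y h)]; exact en_le hT.lip h)
  have hi5 : IntegrableOn (fun h => (G h - m) ^ 2) K :=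
    integrableOn_of_bound hK hKb (hGm.continuous.measurable.pow_const 2).aestronglyMeasurable
      (M := M ^ 2) (fun h hh => by
        rw [abs_pow]
        exact pow_le_pow_left₀ (abs_nonneg _) (by simpa using hM h hh) 2)
  have h3 : ∫ h in K, (jac Y h * jac Y h).trace ≤ ∫ h in K, en Y h :=
    setIntegral_mono hi3 hi4 fun h => trace_sq_le_en Y h
  have h4 : 0 ≤ ∫ h in K, ((G h - m) + (jac Y h).trace) ^ 2 :=
    integral_nonneg fun h => sq_nonneg _
  have e2 : ∀ h, ((G h - m) + (jac Y h).trace) ^ 2 =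
      (G h - m) ^ 2 + (2 * ((G h - m) * (jac Y h).trace) + (jac Y h).trace ^ 2) := fun h => by
    ring
  simp only [e2] at h4
  have hi6 : IntegrableOn (fun h => 2 * ((G h - m) * (jac Y h).trace) + (jac Y h).trace ^ 2) K :=
    (hi1.const_mul 2).add hi2
  rw [integral_add hi5 hi6, integral_add (hi1.const_mul 2) hi2, integral_const_mul] at h4
  linarith

end Shift

end

end Crest.Agent.R144.MW121
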