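import Crest.Agent.R144.BQ1_565
import Crest.Agent.R144.MW1_121
import Crest.Agent.R144.Lw4_425

/-!
R144 (S0197), helper565.  The quadratic-form block (Q) of doc 1613, part 2: the concrete class.

Fields `Y : (I → ℝ) → (I → ℝ)` on the inside `I` of a block with frozen data `ζ` and boundary labels
`W`; the labels are `ext I W (Y x)`.

* `llip`: the space of locally Lipschitz fields; `nrgB μ`: the energy form `∫ ∑ jac Y u v * jac Y' u v ∂μ`.
* `Adm I E ζ W Y`: rigid near the walls.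
* `bqm μ I E ζ W`: infimum of `∫ en Y ∂μ`; `bq` for `μ = hamP I E ζ`.
* `bqm_quad`: quadratic form; `bqm_linear_near`.
-/

set_option autoImplicit false
set_option linter.unusedSectionVars false

open MeasureTheory Set Filter Topology
open scoped ENNReal NNReal

noncomputable section

namespace Crest.Agent.R144.BQ565

open Crest.Agent.R144.Ham560
open Crest.Agent.R144.MW121 (jac jac_apply en measurable_jac measurable_en en_nonneg)

section LL

variable {ι : Type*} [Fintype ι] [DecidableEq ι]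

theorem llip_onball {Y : (ι → ℝ) → (ι → ℝ)} (hY : LocallyLipschitz Y) (R : ℝ) :
    ∃ C : ℝ≥0, LipschitzOnWith C Y (Metric.closedBall 0 R) :=
  (hY.locallyLipschitzOn).exists_lipschitzOnWith_of_compact (isCompact_closedBall _ _)

theorem ae_differentiableAt {Y : (ι → ℝ) → (ι → ℝ)} (hY : LocallyLipschitz Y) :
    ∀ᵐ x, DifferentiableAt ℝ Y x := by
  have h : ∀ n : ℕ, ∀ᵐ x : ι → ℝ, x ∈ Metric.closedBall (0 : ι → ℝ) n →
      DifferentiableWithinAt ℝ Y (Metric.closedBall 0 n) x := by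
    intro n
    obtain ⟨C, hC⟩ := llip_onball hY n
    exact hC.ae_differentiableWithinAt_of_mem
  filter_upwards [ae_all_iff.mpr h] with x hx
  obtain ⟨n, hn⟩ := exists_nat_gt ‖x‖
  have hb : Metric.closedBall (0 : ι → ℝ) n ∈ 𝓝 x := by
    refine mem_of_superset (Metric.isOpen_ball.mem_nhds ?_) Metric.ball_subset_closedBall
    simpa using hn
  exact (hx n (by simpa using hn.le)).differentiableAt hb

theorem exists_jac_bound {Y : (ι → ℝ) → (ι → ℝ)} (hY : LocallyLipschitz Y) {K : Set (ι → ℝ)}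
    (hK : Bornology.IsBounded K) : ∃ C : ℝ, 0 ≤ C ∧ ∀ x ∈ K, ∀ u v, |jac Y x u v| ≤ C := by
  obtain ⟨R, hR⟩ := hK.subset_ball 0
  obtain ⟨C, hC⟩ := llip_onball hY R
  refine ⟨C, C.2, fun x hx u v => ?_⟩
  have hb : Metric.closedBall (0 : ι → ℝ) R ∈ 𝓝 x :=
    mem_of_superset (Metric.isOpen_ball.mem_nhds (hR hx)) Metric.ball_subset_closedBall
  have h1 : ‖fderiv ℝ Y x‖ ≤ C := norm_fderiv_le_of_lipschitzOn ℝ hb hC
  rw [jac_apply]
  have h2 : ‖fderiv ℝ Y x (Pi.single v 1)‖ ≤ C := by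
    refine (ContinuousLinearMap.le_opNorm _ _).trans ?_
    rw [Pi.norm_single, norm_one, mul_one]; exact h1
  exact (norm_le_pi_norm (fderiv ℝ Y x (Pi.single v 1)) u).trans h2

theorem jac_add {Y Z : (ι → ℝ) → (ι → ℝ)} {x : ι → ℝ} (hY : DifferentiableAt ℝ Y x)
    (hZ : DifferentiableAt ℝ Z x) (u v : ι) :
    jac (Y + Z) x u v = jac Y x u v + jac Z x u v := by
  simp only [jac_apply]
  rw [fderiv_add hY hZ]; rfl

theorem jac_smul' {Y : (ι → ℝ) → (ι → ℝ)} {x : ι → ℝ} (hY : DifferentiableAt ℝ Y x) (t : ℝ)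
    (u v : ι) : jac (t • Y) x u v = t * jac Y x u v := by
  simp only [jac_apply]
  rw [fderiv_const_smul hY]; rfl

theorem locallyLipschitz_const_smul {Y : (ι → ℝ) → (ι → ℝ)} (hY : LocallyLipschitz Y) (t : ℝ) :
    LocallyLipschitz (t • Y) := by
  have h : LipschitzWith ‖t‖₊ (fun y : ι → ℝ => t • y) := by
    refine LipschitzWith.of_dist_le_mul fun a b => ?_
    rw [dist_smul₀]; rfl
  exact h.locallyLipschitz.comp hY

variable (ι) in
/-- The space of locally Lipschitz fields. -/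
def llip : Submodule ℝ ((ι → ℝ) → (ι → ℝ)) where
  carrier := {Y | LocallyLipschitz Y}
  add_mem' := fun ha hb => LocallyLipschitz.add ha hb
  zero_mem' := LocallyLipschitz.const 0
  smul_mem' := fun t _ h => locallyLipschitz_const_smul h t

/-- A finite measure, absolutely continuous, concentrated on a bounded set. -/
structure GoodLaw (μ : Measure (ι → ℝ)) : Prop where
  fin : IsFiniteMeasure μ
  ac : μ ≪ volume
  conc : ∃ K : Set (ι → ℝ), Bornology.IsBounded K ∧ ∀ᵐ x ∂μ, x ∈ K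

variable {μ : Measure (ι → ℝ)}

theorem GoodLaw.ae_diff (hμ : GoodLaw μ) {Y : (ι → ℝ) → (ι → ℝ)} (hY : LocallyLipschitz Y) :
    ∀ᵐ x ∂μ, DifferentiableAt ℝ Y x := hμ.ac.ae_le (ae_differentiableAt hY)

theorem GoodLaw.integrable_jac_mul (hμ : GoodLaw μ) {Y Z : (ι → ℝ) → (ι → ℝ)}
    (hY : LocallyLipschitz Y) (hZ : LocallyLipschitz Z) (u v : ι) :
    Integrable (fun x => jac Y x u v * jac Z x u v) μ := by
  have := hμ.fin
  obtain ⟨K, hK, hae⟩ := hμ.conc
  obtain ⟨C, hC0, hC⟩ := exists_jac_bound hY hK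
  obtain ⟨D, hD0, hD⟩ := exists_jac_bound hZ hK
  refine Integrable.of_bound (C := C * D)
    ((measurable_jac Y u v).mul (measurable_jac Z u v)).aestronglyMeasurable ?_
  filter_upwards [hae] with x hx
  rw [Real.norm_eq_abs, abs_mul]
  exact mul_le_mul (hC x hx u v) (hD x hx u v) (abs_nonneg _) hC0

/-- The pointwise energy form. -/
def enB (Y Z : (ι → ℝ) → (ι → ℝ)) (x : ι → ℝ) : ℝ := ∑ u, ∑ v, jac Y x u v * jac Z x u v

theorem enB_self (Y : (ι → ℝ) → (ι → ℝ)) (x : ι → ℝ) : enB Y Y x = en Y x := by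
  simp [enB, en, sq]

theorem GoodLaw.integrable_enB (hμ : GoodLaw μ) {Y Z : (ι → ℝ) → (ι → ℝ)}
    (hY : LocallyLipschitz Y) (hZ : LocallyLipschitz Z) : Integrable (enB Y Z) μ :=
  integrable_finsetSum _ fun u _ => integrable_finsetSum _ fun v _ =>
    hμ.integrable_jac_mul hY hZ u v

theorem GoodLaw.integrable_en (hμ : GoodLaw μ) {Y : (ι → ℝ) → (ι → ℝ)}
    (hY : LocallyLipschitz Y) : Integrable (en Y) μ := by
  have := hμ.integrable_enB hY hY
  exact this.congr (Eventually.of_forall fun x => enB_self Y x)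

/-- The energy form. -/
def nrgB (μ : Measure (ι → ℝ)) (hμ : GoodLaw μ) : llip ι →ₗ[ℝ] llip ι →ₗ[ℝ] ℝ :=
  LinearMap.mk₂ ℝ (fun Y Z => ∫ x, enB Y.1 Z.1 x ∂μ)
    (by
      intro Y Y' Z
      rw [← integral_add (hμ.integrable_enB Y.2 Z.2) (hμ.integrable_enB Y'.2 Z.2)]
      refine integral_congr_ae ?_
      filter_upwards [hμ.ae_diff Y.2, hμ.ae_diff Y'.2] with x h1 h2
      simp only [enB, ← Finset.sum_add_distrib]
      refine Finset.sum_congr rfl fun u _ => Finset.sum_congr rfl fun v _ => ?_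
      rw [show ((Y + Y' : llip ι) : (ι → ℝ) → (ι → ℝ)) = Y.1 + Y'.1 from rfl, jac_add h1 h2]
      ring)
    (by
      intro t Y Z
      rw [smul_eq_mul, ← integral_const_mul]
      refine integral_congr_ae ?_
      filter_upwards [hμ.ae_diff Y.2] with x h1
      simp only [enB, Finset.mul_sum]
      refine Finset.sum_congr rfl fun u _ => Finset.sum_congr rfl fun v _ => ?_
      rw [show ((t • Y : llip ι) : (ι → ℝ) → (ι → ℝ)) = t • Y.1 from rfl, jac_smul' h1]
      ring)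
    (by
      intro Z Y Y'
      rw [← integral_add (hμ.integrable_enB Z.2 Y.2) (hμ.integrable_enB Z.2 Y'.2)]
      refine integral_congr_ae ?_
      filter_upwards [hμ.ae_diff Y.2, hμ.ae_diff Y'.2] with x h1 h2
      simp only [enB, ← Finset.sum_add_distrib]
      refine Finset.sum_congr rfl fun u _ => Finset.sum_congr rfl fun v _ => ?_
      rw [show ((Y + Y' : llip ι) : (ι → ℝ) → (ι → ℝ)) = Y.1 + Y'.1 from rfl, jac_add h1 h2]
      ring)
    (by
      intro t Z Y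
      rw [smul_eq_mul, ← integral_const_mul]
      refine integral_congr_ae ?_
      filter_upwards [hμ.ae_diff Y.2] with x h1
      simp only [enB, Finset.mul_sum]
      refine Finset.sum_congr rfl fun u _ => Finset.sum_congr rfl fun v _ => ?_
      rw [show ((t • Y : llip ι) : (ι → ℝ) → (ι → ℝ)) = t • Y.1 from rfl, jac_smul' h1]
      ring)

theorem nrgB_apply (hμ : GoodLaw μ) (Y Z : llip ι) : nrgB μ hμ Y Z = ∫ x, enB Y.1 Z.1 x ∂μ := rfl

theorem nrgB_self (hμ : GoodLaw μ) (Y : llip ι) : nrgB μ hμ Y Y = ∫ x, en Y.1 x ∂μ := by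
  rw [nrgB_apply]
  exact integral_congr_ae (Eventually.of_forall fun x => enB_self _ x)

theorem isPSD_nrgB (hμ : GoodLaw μ) : IsPSD (nrgB μ hμ) where
  symm := fun Y Z => by
    rw [nrgB_apply, nrgB_apply]
    refine integral_congr_ae (Eventually.of_forall fun x => ?_)
    simp only [enB, mul_comm]
  nonneg := fun Y => by
    rw [nrgB_self]
    exact integral_nonneg fun x => en_nonneg _ _

end LL

section Class

variable {U : Type*} [DecidableEq U] {I : Finset U} {E : Finset (U × U)} {ζ W W' : U → ℝ}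

/-- Fields with boundary labels `W`, rigid near the walls. -/
structure Adm (I : Finset U) (E : Finset (U × U)) (ζ W : U → ℝ) (Y : (I → ℝ) → (I → ℝ)) : Prop where
  lip : LocallyLipschitz Y
  rig : ∃ ρ > 0, ∀ x ∈ ham I E ζ, ∀ p ∈ E, 1 - ρ ≤ |ext I ζ x p.1 - ext I ζ x p.2| →
    ext I W (Y x) p.1 = ext I W (Y x) p.2

theorem Adm.comb {Y Y' : (I → ℝ) → (I → ℝ)} (h : Adm I E ζ W Y) (h' : Adm I E ζ W' Y') (a b : ℝ) :
    Adm I E ζ (a • W + b • W') (a • Y + b • Y') where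
  lip := LocallyLipschitz.add (locallyLipschitz_const_smul h.lip a)
    (locallyLipschitz_const_smul h'.lip b)
  rig := by
    obtain ⟨r, hr, h1⟩ := h.rig
    obtain ⟨r', hr', h2⟩ := h'.rig
    refine ⟨min r r', lt_min hr hr', fun x hx p hp hq => ?_⟩
    have e1 := h1 x hx p hp (by have := min_le_left r r'; linarith)
    have e2 := h2 x hx p hp (by have := min_le_right r r'; linarith)
    change ext I (a • W + b • W') (a • Y x + b • Y' x) p.1 =
      ext I (a • W + b • W') (a • Y x + b • Y' x) p.2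
    rw [ext_comb, ext_comb, e1, e2]

theorem Adm.add {Y Y' : (I → ℝ) → (I → ℝ)} (h : Adm I E ζ W Y) (h' : Adm I E ζ W' Y') :
    Adm I E ζ (W + W') (Y + Y') := by simpa using h.comb h' 1 1

theorem Adm.sub {Y Y' : (I → ℝ) → (I → ℝ)} (h : Adm I E ζ W Y) (h' : Adm I E ζ W' Y') :
    Adm I E ζ (W - W') (Y - Y') := by
  have := h.comb h' 1 (-1)
  simpa [sub_eq_add_neg] using this

theorem Adm.smul {Y : (I → ℝ) → (I → ℝ)} (h : Adm I E ζ W Y) (a : ℝ) :
    Adm I E ζ (a • W) (a • Y) := by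
  have := h.comb h a 0
  simpa using this

theorem adm_const (c : ℝ) : Adm I E ζ (fun _ => c) (fun _ _ => c) where
  lip := LocallyLipschitz.const _
  rig := ⟨1, one_pos, fun x _ p _ _ => by
    have : ∀ u : U, ext I (fun _ => c) (fun _ => c) u = c := fun u => by
      by_cases h : u ∈ I
      · rw [ext_mem h]
      · rw [ext_notMem h]
    rw [this, this]⟩

theorem adm_zero : Adm I E ζ 0 0 := adm_const 0

variable (I E ζ) in
/-- The linear space of admissible fields with zero boundary labels. -/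
def V0 : Submodule ℝ (llip I) where
  carrier := {Y | Adm I E ζ 0 Y.1}
  add_mem' := fun ha hb => by
    have := Adm.add ha hb
    simpa using this
  zero_mem' := adm_zero
  smul_mem' := fun t a h => by
    have := Adm.smul h t
    simpa using this

theorem mem_V0 {Y : llip I} : Y ∈ V0 I E ζ ↔ Adm I E ζ 0 Y.1 := Iff.rfl

/-- The infimum of the energy under `μ` over the fields with boundary labels `W`. -/
def bqm (μ : Measure (I → ℝ)) (E : Finset (U × U)) (ζ W : U → ℝ) : ℝ :=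
  sInf ((fun Y => ∫ x, en Y x ∂μ) '' {Y | Adm I E ζ W Y})

variable {μ : Measure (I → ℝ)}

theorem bqm_bdd (μ : Measure (I → ℝ)) (E : Finset (U × U)) (ζ W : U → ℝ) :
    BddBelow ((fun Y => ∫ x, en Y x ∂μ) '' {Y | Adm I E ζ W Y}) := by
  refine ⟨0, ?_⟩
  rintro _ ⟨Y, _, rfl⟩
  exact integral_nonneg fun x => en_nonneg _ _

theorem bqm_nonneg : 0 ≤ bqm μ E ζ W := by
  refine Real.sInf_nonneg ?_
  rintro _ ⟨Y, _, rfl⟩
  exact integral_nonneg fun x => en_nonneg _ _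

theorem bqm_le {Y : (I → ℝ) → (I → ℝ)} (h : Adm I E ζ W Y) :
    bqm μ E ζ W ≤ ∫ x, en Y x ∂μ :=
  csInf_le (bqm_bdd μ E ζ W) ⟨Y, h, rfl⟩

theorem le_bqm {c : ℝ} (hne : ∃ Y, Adm I E ζ W Y)
    (h : ∀ Y, Adm I E ζ W Y → c ≤ ∫ x, en Y x ∂μ) : c ≤ bqm μ E ζ W := by
  obtain ⟨Y0, hY0⟩ := hne
  refine le_csInf ⟨_, Y0, hY0, rfl⟩ ?_
  rintro _ ⟨Y, hY, rfl⟩
  exact h Y hY

theorem exists_bqm_near (hne : ∃ Y, Adm I E ζ W Y) {eps : ℝ} (he : 0 < eps) :
    ∃ Y, Adm I E ζ W Y ∧ ∫ x, en Y x ∂μ < bqm μ E ζ W + eps := by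
  obtain ⟨Y0, hY0⟩ := hne
  obtain ⟨_, ⟨Y, hY, rfl⟩, hlt⟩ := exists_lt_of_csInf_lt
    (s := (fun Y => ∫ x, en Y x ∂μ) '' {Y | Adm I E ζ W Y}) ⟨_, Y0, hY0, rfl⟩
    (show sInf _ < bqm μ E ζ W + eps by unfold bqm; linarith)
  exact ⟨Y, hY, hlt⟩

/-- Linear combination of label families. -/
def lab {κ : Type*} [Fintype κ] (W : κ → U → ℝ) (xi : κ → ℝ) : U → ℝ := ∑ i, xi i • W i

theorem adm_sum {κ : Type*} [Fintype κ] {W : κ → U → ℝ} {Y : κ → (I → ℝ) → (I → ℝ)}
    (h : ∀ i, Adm I E ζ (W i) (Y i)) (xi : κ → ℝ) :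
    Adm I E ζ (lab W xi) (∑ i, xi i • Y i) := by
  classical
  have : ∀ s : Finset κ, Adm I E ζ (∑ i ∈ s, xi i • W i) (∑ i ∈ s, xi i • Y i) := by
    intro s
    induction s using Finset.induction_on with
    | empty => simpa using adm_zero
    | insert a s ha ih =>
      rw [Finset.sum_insert ha, Finset.sum_insert ha]
      exact ((h a).smul (xi a)).add ih
  exact this Finset.univ

/-- The particular solutions as elements of `llip`. -/
def toLL {κ : Type*} {W : κ → U → ℝ} {Y : κ → (I → ℝ) → (I → ℝ)}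
    (h : ∀ i, Adm I E ζ (W i) (Y i)) (i : κ) : llip I := ⟨Y i, (h i).lip⟩

theorem coe_cmb {κ : Type*} [Fintype κ] (L : κ → llip I) (xi : κ → ℝ) :
    ((cmb L xi : llip I) : (I → ℝ) → (I → ℝ)) = ∑ i, xi i • (L i : (I → ℝ) → (I → ℝ)) := by
  simp [cmb]

/-- `bqm` is the abstract infimum. -/
theorem bqm_eq_qinf (hμ : GoodLaw μ) {κ : Type*} [Fintype κ] {W : κ → U → ℝ}
    {Y : κ → (I → ℝ) → (I → ℝ)} (h : ∀ i, Adm I E ζ (W i) (Y i)) (xi : κ → ℝ) :
    bqm μ E ζ (lab W xi) = qinf (nrgB μ hμ) (V0 I E ζ) (toLL h) xi := by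
  have hsum := adm_sum h xi
  refine le_antisymm ?_ ?_
  · refine le_qinf fun Z hZ => ?_
    rw [nrgB_self]
    refine bqm_le ?_
    have h1 := hsum.add (mem_V0.mp hZ)
    have e : (∑ i, xi i • Y i) + ((Z - cmb (toLL h) xi : llip I) : (I → ℝ) → (I → ℝ)) = Z.1 := by
      rw [Submodule.coe_sub, coe_cmb]
      simp [toLL]
    rw [e, add_zero] at h1
    exact h1
  · refine le_bqm ⟨_, hsum⟩ fun Z hZ => ?_
    have h1 := qinf_le (V := V0 I E ζ) (isPSD_nrgB hμ) (toLL h) xi (x := ⟨Z, hZ.lip⟩) ?_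
    · rw [nrgB_self] at h1; exact h1
    · have h2 := hZ.sub hsum
      rw [sub_self] at h2
      rw [mem_V0]
      have e : ((⟨Z, hZ.lip⟩ - cmb (toLL h) xi : llip I) : (I → ℝ) → (I → ℝ)) =
          Z - ∑ i, xi i • Y i := by
        rw [Submodule.coe_sub, coe_cmb]; simp [toLL]
      rw [e]; exact h2

/-- The matrix of the quadratic form. -/
def bqMat (μ : Measure (I → ℝ)) (E : Finset (U × U)) (ζ : U → ℝ) {κ : Type*} [DecidableEq κ]
    (W : κ → U → ℝ) : Matrix κ κ ℝ := Matrix.of fun i j =>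
  (bqm μ E ζ (W i + W j) - bqm μ E ζ (W i) - bqm μ E ζ (W j)) / 2

theorem lab_single {κ : Type*} [Fintype κ] [DecidableEq κ] (W : κ → U → ℝ) (i : κ) :
    lab W (Pi.single i 1) = W i := by
  simp [lab, Pi.single_apply]

theorem lab_add {κ : Type*} [Fintype κ] (W : κ → U → ℝ) (xi eta : κ → ℝ) :
    lab W (xi + eta) = lab W xi + lab W eta := by
  simp [lab, add_smul, Finset.sum_add_distrib]

theorem bqMat_eq_qmat (hμ : GoodLaw μ) {κ : Type*} [Fintype κ] [DecidableEq κ] {W : κ → U → ℝ}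
    {Y : κ → (I → ℝ) → (I → ℝ)} (h : ∀ i, Adm I E ζ (W i) (Y i)) :
    bqMat μ E ζ W = qmat (nrgB μ hμ) (V0 I E ζ) (toLL h) := by
  ext i j
  simp only [bqMat, qmat, Matrix.of_apply, ← bqm_eq_qinf hμ h, lab_add, lab_single]

/-- **(Q)** `b` is a quadratic form in the slope. -/
theorem bqm_quad (hμ : GoodLaw μ) {κ : Type*} [Fintype κ] [DecidableEq κ] {W : κ → U → ℝ}
    (h : ∀ i, ∃ Y, Adm I E ζ (W i) Y) (xi : κ → ℝ) :
    bqm μ E ζ (lab W xi) = ∑ i, ∑ j, xi i * xi j * bqMat μ E ζ W i j := by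
  choose Y hY using h
  rw [bqm_eq_qinf hμ hY, bqMat_eq_qmat hμ hY]
  exact qinf_eq (isPSD_nrgB hμ) _ _

open Matrix in
theorem bqm_quad' (hμ : GoodLaw μ) {κ : Type*} [Fintype κ] [DecidableEq κ] {W : κ → U → ℝ}
    (h : ∀ i, ∃ Y, Adm I E ζ (W i) Y) (xi : κ → ℝ) :
    bqm μ E ζ (lab W xi) = xi ⬝ᵥ (bqMat μ E ζ W *ᵥ xi) := by
  choose Y hY using h
  rw [bqm_eq_qinf hμ hY, bqMat_eq_qmat hμ hY]
  exact qinf_eq_dot (isPSD_nrgB hμ) _ _

theorem bqMat_psd (hμ : GoodLaw μ) {κ : Type*} [Fintype κ] [DecidableEq κ] {W : κ → U → ℝ}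
    (h : ∀ i, ∃ Y, Adm I E ζ (W i) Y) : (bqMat μ E ζ W).PosSemidef := by
  choose Y hY using h
  rw [bqMat_eq_qmat hμ hY]
  exact qmat_psd (isPSD_nrgB hμ) _

theorem bqMat_symm {κ : Type*} [DecidableEq κ] (μ : Measure (I → ℝ)) (E : Finset (U × U))
    (ζ : U → ℝ) (W : κ → U → ℝ) : (bqMat μ E ζ W).IsSymm := by
  ext i j
  simp only [bqMat, Matrix.transpose_apply, Matrix.of_apply, add_comm (W j) (W i)]
  ring

/-- Upper bound of the trace by the energies of any admissible (reference) fields. -/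
theorem bqMat_trace_le (hμ : GoodLaw μ) {κ : Type*} [Fintype κ] [DecidableEq κ] {W : κ → U → ℝ}
    {Y : κ → (I → ℝ) → (I → ℝ)} (h : ∀ i, Adm I E ζ (W i) (Y i)) :
    (bqMat μ E ζ W).trace ≤ ∑ i, ∫ x, en (Y i) x ∂μ := by
  rw [bqMat_eq_qmat hμ h]
  refine (qmat_trace_le (isPSD_nrgB hμ) _).trans (le_of_eq ?_)
  refine Finset.sum_congr rfl fun i _ => ?_
  rw [nrgB_self]; rfl

theorem bqMat_diag {κ : Type*} [Fintype κ] [DecidableEq κ] (hμ : GoodLaw μ) {W : κ → U → ℝ}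
    (h : ∀ i, ∃ Y, Adm I E ζ (W i) Y) (i : κ) : bqMat μ E ζ W i i = bqm μ E ζ (W i) := by
  have h1 := bqm_quad hμ h (Pi.single i 1)
  rw [lab_single] at h1
  rw [h1, Finset.sum_eq_single i, Finset.sum_eq_single i]
  · simp
  · intro b _ hb; simp [hb]
  · simp
  · intro b _ hb; simp [hb]
  · simp

/-- **Near-minimisers which are linear in the slope.** -/
theorem bqm_linear_near (hμ : GoodLaw μ) {κ : Type*} [Fintype κ] {W : κ → U → ℝ}
    (h : ∀ i, ∃ Y, Adm I E ζ (W i) Y) {eps : ℝ} (he : 0 < eps) :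
    ∃ Y : κ → (I → ℝ) → (I → ℝ), (∀ i, Adm I E ζ (W i) (Y i)) ∧ ∀ xi : κ → ℝ,
      ∫ x, en (∑ i, xi i • Y i) x ∂μ ≤ bqm μ E ζ (lab W xi) + eps * (∑ i, |xi i|) ^ 2 := by
  choose Y hY using h
  obtain ⟨Z, hZ, hn⟩ := exists_linear_near (V := V0 I E ζ) (isPSD_nrgB hμ) (toLL hY) he
  refine ⟨fun i => Y i + (Z i : (I → ℝ) → (I → ℝ)), fun i => ?_, fun xi => ?_⟩
  · have := (hY i).add (mem_V0.mp (hZ i))
    rwa [add_zero] at this
  · have h1 := hn xi
    rw [nrgB_self, ← bqm_eq_qinf hμ hY] at h1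
    rwa [coe_cmb] at h1

/-! ### The uniform law of the block -/

theorem goodLaw_hamP (hA : Anch I E) (hv : volume (ham I E ζ) ≠ 0) : GoodLaw (hamP I E ζ) where
  fin := by
    constructor
    rw [hamP, Measure.smul_apply, smul_eq_mul, Measure.restrict_apply_univ]
    exact ENNReal.mul_lt_top (ENNReal.inv_lt_top.mpr (pos_iff_ne_zero.mpr hv)) (volume_ham_lt_top hA)
  ac := by
    rw [hamP]
    exact (Measure.smul_absolutelyContinuous).trans Measure.absolutelyContinuous_restrict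
  conc := ⟨ham I E ζ, isBounded_ham hA, by
    rw [hamP]
    refine Measure.ae_smul_measure ?_ _
    exact ae_restrict_mem measurableSet_ham⟩

/-- The frozen Dirichlet energy of the block. -/
def bq (I : Finset U) (E : Finset (U × U)) (ζ W : U → ℝ) : ℝ := bqm (hamP I E ζ) E ζ W

theorem bq_le {Y : (I → ℝ) → (I → ℝ)} (h : Adm I E ζ W Y) :
    bq I E ζ W ≤ ∫ x, en Y x ∂(hamP I E ζ) := bqm_le h

theorem bq_le' {Y : (I → ℝ) → (I → ℝ)} (h : Adm I E ζ W Y) :
    bq I E ζ W ≤ (∫ x in ham I E ζ, en Y x) / Lw425.Vr I E ζ := by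
  have := bq_le h
  rwa [integral_hamP_real] at this

theorem bq_nonneg : 0 ≤ bq I E ζ W := bqm_nonneg

/-- Comparison of laws: if `μ ≤ c • μ'` then `bqm μ ≤ c * bqm μ'`. -/
theorem bqm_mono {μ μ' : Measure (I → ℝ)} (hμ' : GoodLaw μ') {c : ℝ≥0}
    (h : μ ≤ (c : ℝ≥0∞) • μ') (hne : ∃ Y, Adm I E ζ W Y) :
    bqm μ E ζ W ≤ c * bqm μ' E ζ W := by
  refine le_of_forall_pos_le_add fun eps he => ?_
  obtain ⟨Y, hY, hlt⟩ := exists_bqm_near (μ := μ') hne (eps := eps / (c + 1)) (by positivity)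
  have h1 : ∫ x, en Y x ∂μ ≤ c * ∫ x, en Y x ∂μ' := by
    have h2 : ∫ x, en Y x ∂μ ≤ ∫ x, en Y x ∂((c : ℝ≥0∞) • μ') := by
      refine integral_mono_measure h (Eventually.of_forall fun x => en_nonneg _ _) ?_
      exact (hμ'.integrable_en hY.lip).smul_measure ENNReal.coe_ne_top
    rw [integral_smul_measure] at h2
    simpa using h2
  have h3 := bqm_le (μ := μ) hY
  have hc : (0 : ℝ) ≤ c := c.2
  have h4 : (c : ℝ) * (eps / (c + 1)) ≤ eps := by
    rw [mul_div_assoc', div_le_iff₀ (by positivity)]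
    nlinarith
  nlinarith [mul_le_mul_of_nonneg_left hlt.le hc]

end Class

end Crest.Agent.R144.BQ565
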