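import Crest.Agent.R144.BQ2_565

/-!
R144 (S0197), helper565.  The quadratic-form block (Q) of doc 1613, part 3.

* `LL.mul`, `LL.pi`, `LL.sum`: closure properties of locally Lipschitz functions;
* `adm_nonempty`: if `W b = W b'` whenever `ζ b - ζ b' ∈ ℤ` (boundary sites) then there is an
  admissible field.  In particular every `W` is admissible for almost every `ζ`;
* `Adm.exists_rep`: globally Lipschitz bounded representatives;
* `Adm.add_const`, `bqm_add_const`, `Adm.shift`, `bq_shift`: invariance under constants.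
-/

set_option autoImplicit false
set_option linter.unusedSectionVars false

open MeasureTheory Set Filter Topology
open scoped ENNReal NNReal

noncomputable section

namespace Crest.Agent.R144.BQ565

open Crest.Agent.R144.Ham560
open Crest.Agent.R144.MW121 (jac jac_apply en measurable_jac measurable_en en_nonneg)

section LLsec

variable {X : Type*} [PseudoMetricSpace X]

theorem LL.mul {f g : X → ℝ} (hf : LocallyLipschitz f) (hg : LocallyLipschitz g) :
    LocallyLipschitz fun x => f x * g x := by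
  have h1 : LocallyLipschitz (fun p : ℝ × ℝ => p.1 * p.2) :=
    ContDiff.locallyLipschitz (𝕂 := ℝ) (by fun_prop)
  exact h1.comp (hf.prodMk hg)

theorem LL.sum {κ : Type*} {s : Finset κ} {f : κ → X → ℝ} (hf : ∀ i ∈ s, LocallyLipschitz (f i)) :
    LocallyLipschitz fun x => ∑ i ∈ s, f i x := by
  classical
  induction s using Finset.induction_on with
  | empty => simpa using LocallyLipschitz.const (0 : ℝ)
  | insert a s ha ih =>
    simp only [Finset.sum_insert ha]
    exact (hf a (Finset.mem_insert_self a s)).add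
      (ih fun i hi => hf i (Finset.mem_insert_of_mem hi))

theorem LL.pi {κ : Type*} [Fintype κ] {f : X → κ → ℝ}
    (hf : ∀ i, LocallyLipschitz fun x => f x i) : LocallyLipschitz f := by
  intro x
  choose K t ht hK using fun i => hf i x
  refine ⟨∑ i, K i, ⋂ i, t i, Filter.iInter_mem.mpr ht, ?_⟩
  refine LipschitzOnWith.of_dist_le_mul fun y hy z hz => ?_
  rw [dist_pi_le_iff (by positivity)]
  intro i
  have h1 := (hK i).dist_le_mul y (mem_iInter.mp hy i) z (mem_iInter.mp hz i)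
  refine h1.trans (mul_le_mul_of_nonneg_right ?_ dist_nonneg)
  exact_mod_cast Finset.single_le_sum (f := K) (fun _ _ => zero_le) (Finset.mem_univ i)

theorem LL.comp_apply {κ : Type*} [Fintype κ] {f : X → κ → ℝ} (hf : LocallyLipschitz f) (i : κ) :
    LocallyLipschitz fun x => f x i :=
  (LipschitzWith.eval i).locallyLipschitz.comp hf

/-- `s ↦ (max δ s)⁻¹` is Lipschitz. -/
theorem lip_inv_max {d : ℝ} (hd : 0 < d) : LipschitzWith ⟨(d ^ 2)⁻¹, by positivity⟩
    (fun s : ℝ => (max d s)⁻¹) := by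
  refine LipschitzWith.of_dist_le_mul fun a b => ?_
  have ha : 0 < max d a := lt_max_of_lt_left hd
  have hb : 0 < max d b := lt_max_of_lt_left hd
  rw [Real.dist_eq, Real.dist_eq]
  have e : (max d a)⁻¹ - (max d b)⁻¹ = (max d b - max d a) * ((max d a)⁻¹ * (max d b)⁻¹) := by
    field_simp
  rw [e, abs_mul]
  have h1 : |max d b - max d a| ≤ |a - b| := by
    rw [abs_sub_comm]
    exact abs_max_sub_max_le_abs a b d |>.trans_eq' (by rw [max_comm d a, max_comm d b])
  have h2 : |(max d a)⁻¹ * (max d b)⁻¹| ≤ (d ^ 2)⁻¹ := by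
    rw [abs_of_pos (by positivity), ← mul_inv]
    refine inv_anti₀ (by positivity) ?_
    rw [sq]
    exact mul_le_mul (le_max_left _ _) (le_max_left _ _) hd.le ha.le
  change _ ≤ (d ^ 2)⁻¹ * |a - b|
  rw [mul_comm]
  exact mul_le_mul h2 h1 (abs_nonneg _) (by positivity)

end LLsec

section Nonempty

variable {U : Type*} [DecidableEq U] {I : Finset U} {E : Finset (U × U)} {ζ W : U → ℝ}

/-- Endpoints of the edges. -/
def IsEnd (E : Finset (U × U)) (b : U) : Prop := ∃ p ∈ E, p.1 = b ∨ p.2 = b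

/-- Tight edges of the configuration `x`. -/
def TightR (I : Finset U) (E : Finset (U × U)) (ζ : U → ℝ) (x : I → ℝ) (a b : U) : Prop :=
  (a, b) ∈ E ∧ |ext I ζ x a - ext I ζ x b| = 1

theorem eqv_int {x : I → ℝ} {a b : U} (h : Relation.EqvGen (TightR I E ζ x) a b) :
    ∃ n : ℤ, ext I ζ x a - ext I ζ x b = n := by
  induction h with
  | rel a b h =>
    rcases (abs_eq (by norm_num : (0:ℝ) ≤ 1)).mp h.2 with h | h
    · exact ⟨1, by rw [h]; norm_num⟩
    · exact ⟨-1, by rw [h]; norm_num⟩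
  | refl a => exact ⟨0, by simp⟩
  | symm a b _ ih =>
    obtain ⟨n, hn⟩ := ih
    exact ⟨-n, by push_cast; linarith⟩
  | trans a b c _ _ ih1 ih2 =>
    obtain ⟨n, hn⟩ := ih1
    obtain ⟨m, hm⟩ := ih2
    exact ⟨n + m, by push_cast; linarith⟩

/-- The labels compatible with the tight clusters of `x`. -/
theorem exists_label (hW : ∀ b b', b ∉ I → b' ∉ I → IsEnd E b → IsEnd E b' →
    (∃ n : ℤ, ζ b - ζ b' = n) → W b = W b') (x : I → ℝ) :
    ∃ l : U → ℝ, (∀ p ∈ E, |ext I ζ x p.1 - ext I ζ x p.2| = 1 → l p.1 = l p.2) ∧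
      ∀ b, b ∉ I → IsEnd E b → l b = W b := by
  classical
  set T := Relation.EqvGen (TightR I E ζ x)
  have tsymm : ∀ {a b}, T a b → T b a := fun h => Relation.EqvGen.symm _ _ h
  have ttrans : ∀ {a b c}, T a b → T b c → T a c := fun h h' => Relation.EqvGen.trans _ _ _ h h'
  let P : U → Prop := fun u => ∃ b, b ∉ I ∧ IsEnd E b ∧ T u b
  have key : ∀ b b', b ∉ I → IsEnd E b → b' ∉ I → IsEnd E b' → T b b' → W b = W b' := by
    intro b b' h1 h2 h3 h4 h5
    obtain ⟨n, hn⟩ := eqv_int h5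
    rw [ext_notMem h1, ext_notMem h3] at hn
    exact hW b b' h1 h3 h2 h4 ⟨n, hn⟩
  refine ⟨fun u => if h : P u then W h.choose else 0, ?_, ?_⟩
  · intro p hp ht
    have hT : T p.1 p.2 := Relation.EqvGen.rel _ _ ⟨hp, ht⟩
    by_cases h1 : P p.1
    · have h2 : P p.2 := by
        obtain ⟨b, hb1, hb2, hb3⟩ := h1
        exact ⟨b, hb1, hb2, ttrans (tsymm hT) hb3⟩
      simp only [h1, h2, dif_pos]
      have s1 := h1.choose_spec
      have s2 := h2.choose_spec
      exact key _ _ s1.1 s1.2.1 s2.1 s2.2.1 (ttrans (ttrans (tsymm s1.2.2) hT) s2.2.2)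
    · have h2 : ¬ P p.2 := by
        rintro ⟨b, hb1, hb2, hb3⟩
        exact h1 ⟨b, hb1, hb2, ttrans hT hb3⟩
      simp only [h1, h2, dif_neg, not_false_eq_true]
  · intro b hb hE
    have h1 : P b := ⟨b, hb, hE, Relation.EqvGen.refl b⟩
    simp only [h1, dif_pos]
    have s1 := h1.choose_spec
    exact (key b _ hb hE s1.1 s1.2.1 s1.2.2).symm

/-- Near a configuration `x0` only the tight edges of `x0` can be nearly tight. -/
theorem exists_nbhd (x0 : I → ℝ) : ∃ r > 0, ∃ ρ > 0, ∀ x : I → ℝ, dist x x0 < r → ∀ p ∈ E,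
    1 - ρ ≤ |ext I ζ x p.1 - ext I ζ x p.2| → 1 ≤ |ext I ζ x0 p.1 - ext I ζ x0 p.2| := by
  classical
  have h : ∀ p ∈ E, ∃ r > 0, ∃ ρ > 0, ∀ x : I → ℝ, dist x x0 < r →
      1 - ρ ≤ |ext I ζ x p.1 - ext I ζ x p.2| → 1 ≤ |ext I ζ x0 p.1 - ext I ζ x0 p.2| := by
    intro p _
    by_cases h1 : 1 ≤ |ext I ζ x0 p.1 - ext I ζ x0 p.2|
    · exact ⟨1, one_pos, 1, one_pos, fun _ _ _ => h1⟩
    · push Not at h1
      set g := |ext I ζ x0 p.1 - ext I ζ x0 p.2| with hg
      have hc : Continuous fun x : I → ℝ => |ext I ζ x p.1 - ext I ζ x p.2| :=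
        ((continuous_ext p.1).sub (continuous_ext p.2)).abs
      have hev : ∀ᶠ x in 𝓝 x0, |ext I ζ x p.1 - ext I ζ x p.2| < (1 + g) / 2 :=
        hc.continuousAt.eventually_lt continuousAt_const (by rw [← hg]; linarith)
      obtain ⟨r, hr, hr'⟩ := Metric.eventually_nhds_iff.mp hev
      refine ⟨r, hr, (1 - g) / 2, by linarith, fun x hx hle => ?_⟩
      have := hr' hx
      linarith
  choose! r hr ρ hρ hh using h
  rcases E.eq_empty_or_nonempty with rfl | hE
  · exact ⟨1, one_pos, 1, one_pos, fun x _ p hp => absurd hp (by simp)⟩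
  · refine ⟨E.inf' hE r, ?_, E.inf' hE ρ, ?_, fun x hx p hp hle => ?_⟩
    · exact (Finset.lt_inf'_iff hE).mpr fun p hp => hr p hp
    · exact (Finset.lt_inf'_iff hE).mpr fun p hp => hρ p hp
    · refine hh p hp x (lt_of_lt_of_le hx (Finset.inf'_le _ hp)) ?_
      have := Finset.inf'_le ρ hp
      linarith

/-- **Existence of admissible fields.** -/
theorem adm_nonempty (hK : IsCompact (ham I E ζ))
    (hW : ∀ b b', b ∉ I → b' ∉ I → IsEnd E b → IsEnd E b' →
      (∃ n : ℤ, ζ b - ζ b' = n) → W b = W b') :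
    ∃ Y, Adm I E ζ W Y := by
  classical
  choose l hl1 hl2 using fun x => exists_label (x := x) hW
  choose r hr ρ hρ hnb using fun x0 : I → ℝ => exists_nbhd (E := E) (ζ := ζ) x0
  obtain ⟨t, htK, htc⟩ := hK.elim_nhds_subcover (fun x => Metric.ball x (r x))
    (fun x _ => Metric.ball_mem_nhds x (hr x))
  set f : (I → ℝ) → (I → ℝ) → ℝ := fun y x => max 0 (r y - dist x y) with hf
  have hf0 : ∀ y x, 0 ≤ f y x := fun y x => le_max_left _ _
  have hfl : ∀ y, LocallyLipschitz (f y) := by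
    intro y
    have h1 : LipschitzWith 1 (fun x : I → ℝ => r y - dist x y) := by
      refine LipschitzWith.of_dist_le_mul fun a b => ?_
      rw [Real.dist_eq, NNReal.coe_one, one_mul]
      have := abs_dist_sub_le b a y
      rw [show r y - dist a y - (r y - dist b y) = dist b y - dist a y by ring, dist_comm a b]
      exact this
    exact (h1.const_max 0).locallyLipschitz
  set S : (I → ℝ) → ℝ := fun x => ∑ y ∈ t, f y x with hS
  have hSl : LocallyLipschitz S := LL.sum fun y _ => hfl y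
  have hSpos : ∀ x ∈ ham I E ζ, 0 < S x := by
    intro x hx
    obtain ⟨y, hy, hxy⟩ := mem_iUnion₂.mp (htc hx)
    refine Finset.sum_pos' (fun y _ => hf0 y x) ⟨y, hy, ?_⟩
    have : dist x y < r y := hxy
    exact lt_max_of_lt_right (by linarith)
  obtain ⟨d, hd, hdS⟩ : ∃ d > 0, ∀ x ∈ ham I E ζ, d ≤ S x := by
    rcases (ham I E ζ).eq_empty_or_nonempty with h | h
    · exact ⟨1, one_pos, fun x hx => by rw [h] at hx; exact absurd hx (notMem_empty x)⟩
    · obtain ⟨x0, hx0, hmin⟩ := hK.exists_isMinOn h hSl.continuous.continuousOn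
      exact ⟨S x0, hSpos x0 hx0, fun x hx => hmin hx⟩
  set Y : (I → ℝ) → (I → ℝ) := fun x u => (∑ y ∈ t, f y x * l y u) * (max d (S x))⁻¹ with hY
  obtain ⟨ρ0, hρ0, hρt⟩ : ∃ ρ0 > 0, ∀ y ∈ t, ρ0 ≤ ρ y := by
    rcases t.eq_empty_or_nonempty with h | h
    · exact ⟨1, one_pos, fun y hy => by rw [h] at hy; simp at hy⟩
    · exact ⟨t.inf' h ρ, (Finset.lt_inf'_iff h).mpr fun y _ => hρ y, fun y hy => Finset.inf'_le _ hy⟩
  refine ⟨Y, ⟨?_, ρ0, hρ0, ?_⟩⟩
  · refine LL.pi fun u => ?_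
    refine LL.mul (LL.sum fun y _ => LL.mul (hfl y) (LocallyLipschitz.const _)) ?_
    exact (lip_inv_max hd).locallyLipschitz.comp hSl
  · intro x hx p hp hge
    have hlab : ∀ u, (u ∈ I ∨ (u ∉ I ∧ IsEnd E u)) →
        ext I W (Y x) u = (∑ y ∈ t, f y x * l y u) * (max d (S x))⁻¹ := by
      rintro u (hu | ⟨hu, hu'⟩)
      · rw [ext_mem hu]
      · rw [ext_notMem hu]
        have h1 : ∑ y ∈ t, f y x * l y u = S x * W u := by
          rw [hS, Finset.sum_mul]
          exact Finset.sum_congr rfl fun y _ => by rw [hl2 y u hu hu']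
        rw [h1, max_eq_right (hdS x hx)]
        have := (hSpos x hx).ne'
        field_simp
    have hmem : ∀ u, IsEnd E u → (u ∈ I ∨ (u ∉ I ∧ IsEnd E u)) := fun u hu => by
      by_cases h : u ∈ I
      · exact Or.inl h
      · exact Or.inr ⟨h, hu⟩
    rw [hlab p.1 (hmem _ ⟨p, hp, Or.inl rfl⟩), hlab p.2 (hmem _ ⟨p, hp, Or.inr rfl⟩)]
    congr 1
    refine Finset.sum_congr rfl fun y hy => ?_
    by_cases hxy : dist x y < r y
    · have h1 := hnb y x hxy p hp (by have := hρt y hy; linarith)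
      have h2 : |ext I ζ y p.1 - ext I ζ y p.2| = 1 := le_antisymm (htK y hy p hp) h1
      rw [hl1 y p hp h2]
    · have : f y x = 0 := max_eq_left (by push Not at hxy; linarith)
      rw [this, zero_mul, zero_mul]

theorem adm_nonempty' (hA : Anch I E)
    (hW : ∀ b b', b ∉ I → b' ∉ I → IsEnd E b → IsEnd E b' →
      (∃ n : ℤ, ζ b - ζ b' = n) → W b = W b') :
    ∃ Y, Adm I E ζ W Y := adm_nonempty (isCompact_ham hA) hW

/-- For data without integer differences every label is admissible. -/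
theorem adm_nonempty_of_nonint (hA : Anch I E)
    (hζ : ∀ b b', b ∉ I → b' ∉ I → IsEnd E b → IsEnd E b' → b ≠ b' → ∀ n : ℤ, ζ b - ζ b' ≠ n) :
    ∃ Y, Adm I E ζ W Y :=
  adm_nonempty' hA fun b b' h1 h2 h3 h4 ⟨n, hn⟩ => by
    by_contra hne
    exact hζ b b' h1 h2 h3 h4 (fun h => hne (by rw [h])) n hn

end Nonempty

section Rep

variable {ι : Type*} [Fintype ι]

/-- Coordinatewise truncation to the box. -/
def clampB (R : ℝ) (x : ι → ℝ) : ι → ℝ := fun i => max (-R) (min R (x i))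

theorem lip_clampB (R : ℝ) : LipschitzWith 1 (clampB (ι := ι) R) := by
  refine LipschitzWith.of_dist_le_mul fun x y => ?_
  rw [NNReal.coe_one, one_mul, dist_pi_le_iff dist_nonneg]
  intro i
  have h1 : dist (clampB R x i) (clampB R y i) ≤ dist (x i) (y i) := by
    have h : LipschitzWith 1 (fun t : ℝ => max (-R) (min R t)) :=
      (LipschitzWith.id.const_min R).const_max (-R)
    have := h.dist_le_mul (x i) (y i)
    rw [NNReal.coe_one, one_mul] at this
    exact this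
  exact h1.trans (dist_le_pi_dist x y i)

theorem clampB_mem {R : ℝ} (hR : 0 ≤ R) (x : ι → ℝ) :
    clampB R x ∈ Metric.closedBall (0 : ι → ℝ) R := by
  rw [mem_closedBall_zero_iff, pi_norm_le_iff_of_nonneg hR]
  intro i
  rw [Real.norm_eq_abs, abs_le]
  exact ⟨le_max_left _ _, max_le (by linarith) (min_le_left _ _)⟩

theorem clampB_eq {R : ℝ} {x : ι → ℝ} (hx : ‖x‖ ≤ R) : clampB R x = x := by
  funext i
  have h := (norm_le_pi_norm x i).trans hx
  rw [Real.norm_eq_abs, abs_le] at h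
  rw [clampB, min_eq_right h.2, max_eq_right h.1]

theorem exists_lip_rep [DecidableEq ι] {Y : (ι → ℝ) → (ι → ℝ)} (hY : LocallyLipschitz Y)
    {K : Set (ι → ℝ)} (hK : Bornology.IsBounded K) :
    ∃ (Y' : (ι → ℝ) → (ι → ℝ)) (c : ℝ≥0), LipschitzWith c Y' ∧ (∃ M, ∀ x, ‖Y' x‖ ≤ M) ∧
      (∀ x ∈ K, Y' =ᶠ[𝓝 x] Y) := by
  obtain ⟨R0, hR0⟩ := hK.subset_ball 0
  set R := max R0 0
  have hR : 0 ≤ R := le_max_right _ _
  obtain ⟨C, hC⟩ := llip_onball hY R
  have hcont : ContinuousOn Y (Metric.closedBall 0 R) := hC.continuousOn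
  obtain ⟨M, hM⟩ := (isCompact_closedBall (0 : ι → ℝ) R).exists_bound_of_continuousOn hcont
  refine ⟨fun x => Y (clampB R x), C, ?_, ⟨M, fun x => hM _ (clampB_mem hR x)⟩, fun x hx => ?_⟩
  · have h := hC.comp ((lip_clampB (ι := ι) R).lipschitzOnWith (s := univ))
      (fun x _ => clampB_mem hR x)
    rw [mul_one, lipschitzOnWith_univ] at h
    exact h
  · have hb : Metric.ball (0 : ι → ℝ) R ∈ 𝓝 x := by
      refine Metric.isOpen_ball.mem_nhds ?_
      have := hR0 hx
      rw [mem_ball_zero_iff] at this ⊢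
      exact lt_of_lt_of_le this (le_max_left _ _)
    filter_upwards [hb] with y hy
    rw [mem_ball_zero_iff] at hy
    rw [clampB_eq hy.le]

theorem jac_congr [DecidableEq ι] {Y Y' : (ι → ℝ) → (ι → ℝ)} {x : ι → ℝ} (h : Y' =ᶠ[𝓝 x] Y) :
    jac Y' x = jac Y x := by
  ext u v
  rw [jac_apply, jac_apply, h.fderiv_eq]

theorem en_congr [DecidableEq ι] {Y Y' : (ι → ℝ) → (ι → ℝ)} {x : ι → ℝ} (h : Y' =ᶠ[𝓝 x] Y) :
    en Y' x = en Y x := by
  simp only [MW121.en, jac_congr h]

end Rep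

section Inv

variable {U : Type*} [DecidableEq U] {I : Finset U} {E : Finset (U × U)} {ζ ζ' W W' : U → ℝ}

/-- **Globally Lipschitz bounded representatives.** -/
theorem Adm.exists_rep {Y : (I → ℝ) → (I → ℝ)} (h : Adm I E ζ W Y) (hA : Anch I E) :
    ∃ (Y' : (I → ℝ) → (I → ℝ)) (c : ℝ≥0), Adm I E ζ W Y' ∧ LipschitzWith c Y' ∧
      (∃ M, ∀ x, ‖Y' x‖ ≤ M) ∧ (∀ x ∈ ham I E ζ, Y' x = Y x) ∧
      (∀ x ∈ ham I E ζ, jac Y' x = jac Y x) ∧ ∀ x ∈ ham I E ζ, en Y' x = en Y x := by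
  obtain ⟨Y', c, hc, hM, he⟩ := exists_lip_rep h.lip (isBounded_ham (ξ := ζ) hA)
  obtain ⟨ρ, hρ, hr⟩ := h.rig
  refine ⟨Y', c, ⟨hc.locallyLipschitz, ρ, hρ, fun x hx p hp hge => ?_⟩, hc, hM,
    fun x hx => (he x hx).eq_of_nhds, fun x hx => jac_congr (he x hx),
    fun x hx => en_congr (he x hx)⟩
  rw [(he x hx).eq_of_nhds]
  exact hr x hx p hp hge

/-- Admissible fields with zero labels are tangent (in the sense of `MW121.Tan`) after passing to
the bounded representative. -/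
theorem Adm.tan {Y : (I → ℝ) → (I → ℝ)} {c : ℝ≥0} (hc : LipschitzWith c Y)
    (h : Adm I E ζ 0 Y) {M : ℝ} (hM : ∀ x, ‖Y x‖ ≤ M) :
    ∃ t0, MW121.Tan (ham I E ζ) Y c t0 := by
  obtain ⟨ρ, hρ, hr⟩ := h.rig
  have hM0 : 0 ≤ M := (norm_nonneg _).trans (hM 0)
  refine ⟨ρ / (2 * M + 1), hc, by positivity, fun x hx t ht p hp => ?_⟩
  have e : ∀ u, ext I ζ (x + t • Y x) u = ext I ζ x u + t * ext I 0 (Y x) u := by
    intro u
    have := ext_comb (F := I) (ξ := ζ) (η := 0) 1 t x (Y x) u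
    simpa using this
  rw [e, e]
  have h1 := hx p hp
  have hb : ∀ u, |ext I 0 (Y x) u| ≤ M := by
    intro u
    by_cases hu : u ∈ I
    · rw [ext_mem hu]; exact (norm_le_pi_norm (Y x) _).trans (hM x)
    · rw [ext_notMem hu]; simpa using hM0
  by_cases hq : 1 - ρ ≤ |ext I ζ x p.1 - ext I ζ x p.2|
  · rw [hr x hx p hp hq]
    rw [show ext I ζ x p.1 + t * ext I 0 (Y x) p.2 - (ext I ζ x p.2 + t * ext I 0 (Y x) p.2) =
      ext I ζ x p.1 - ext I ζ x p.2 by ring]
    exact h1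
  · push Not at hq
    have h2 : |t * (ext I 0 (Y x) p.1 - ext I 0 (Y x) p.2)| ≤ ρ := by
      rw [abs_mul]
      have h3 : |ext I 0 (Y x) p.1 - ext I 0 (Y x) p.2| ≤ 2 * M := by
        have := abs_sub (ext I 0 (Y x) p.1) (ext I 0 (Y x) p.2)
        linarith [hb p.1, hb p.2]
      calc _ ≤ ρ / (2 * M + 1) * (2 * M) :=
            mul_le_mul ht h3 (abs_nonneg _) (by positivity)
        _ ≤ ρ := by
            rw [div_mul_eq_mul_div, div_le_iff₀ (by positivity)]; nlinarith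
    rw [show ext I ζ x p.1 + t * ext I 0 (Y x) p.1 - (ext I ζ x p.2 + t * ext I 0 (Y x) p.2) =
      (ext I ζ x p.1 - ext I ζ x p.2) + t * (ext I 0 (Y x) p.1 - ext I 0 (Y x) p.2) by ring]
    refine (abs_add_le _ _).trans ?_
    linarith

theorem en_add_const {ι : Type*} [Fintype ι] [DecidableEq ι] (Y : (ι → ℝ) → (ι → ℝ)) (c : ι → ℝ)
    (x : ι → ℝ) : en (fun x => Y x + c) x = en Y x := by
  simp only [MW121.en, jac_apply, fderiv_add_const]

theorem Adm.add_const {Y : (I → ℝ) → (I → ℝ)} (h : Adm I E ζ W Y) (c : ℝ) :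
    Adm I E ζ (fun u => W u + c) (fun x => Y x + fun _ => c) :=
  h.add (adm_const c)

/-- Adding a constant to the labels does not change the infimum. -/
theorem bqm_add_const (μ : Measure (I → ℝ)) (c : ℝ) :
    bqm μ E ζ (fun u => W u + c) = bqm μ E ζ W := by
  unfold bqm
  congr 1
  ext r
  constructor
  · rintro ⟨Y, hY, rfl⟩
    refine ⟨fun x => Y x + fun _ => -c, ?_, ?_⟩
    · have := Adm.add_const hY (-c)
      simpa using this
    · simp only [en_add_const]
  · rintro ⟨Y, hY, rfl⟩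
    exact ⟨fun x => Y x + fun _ => c, Adm.add_const hY c, by simp only [en_add_const]⟩

/-- Only the labels and the data at the endpoints outside `I` matter. -/
theorem Adm.congr {Y : (I → ℝ) → (I → ℝ)} (h : Adm I E ζ W Y)
    (hζ : ∀ b, b ∉ I → IsEnd E b → ζ' b = ζ b) (hW : ∀ b, b ∉ I → IsEnd E b → W' b = W b) :
    Adm I E ζ' W' Y := by
  have e : ∀ (x : I → ℝ) (u : U), IsEnd E u → ext I ζ' x u = ext I ζ x u := by
    intro x u hu
    by_cases h : u ∈ I
    · rw [ext_mem h, ext_mem h]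
    · rw [ext_notMem h, ext_notMem h, hζ u h hu]
  have e' : ∀ (x : I → ℝ) (u : U), IsEnd E u → ext I W' x u = ext I W x u := by
    intro x u hu
    by_cases h : u ∈ I
    · rw [ext_mem h, ext_mem h]
    · rw [ext_notMem h, ext_notMem h, hW u h hu]
  obtain ⟨ρ, hρ, hr⟩ := h.rig
  refine ⟨h.lip, ρ, hρ, fun x hx p hp hge => ?_⟩
  have i1 : IsEnd E p.1 := ⟨p, hp, Or.inl rfl⟩
  have i2 : IsEnd E p.2 := ⟨p, hp, Or.inr rfl⟩
  rw [e' _ _ i1, e' _ _ i2]
  rw [e _ _ i1, e _ _ i2] at hge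
  refine hr x (fun q hq => ?_) p hp hge
  have := hx q hq
  rwa [e _ _ ⟨q, hq, Or.inl rfl⟩, e _ _ ⟨q, hq, Or.inr rfl⟩] at this

theorem bqm_congr (μ : Measure (I → ℝ))
    (hζ : ∀ b, b ∉ I → IsEnd E b → ζ' b = ζ b) (hW : ∀ b, b ∉ I → IsEnd E b → W' b = W b) :
    bqm μ E ζ' W' = bqm μ E ζ W := by
  unfold bqm
  congr 1
  ext r
  constructor
  · rintro ⟨Y, hY, rfl⟩
    exact ⟨Y, Adm.congr hY (fun b h1 h2 => (hζ b h1 h2).symm) (fun b h1 h2 => (hW b h1 h2).symm),
      rfl⟩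
  · rintro ⟨Y, hY, rfl⟩
    exact ⟨Y, Adm.congr hY hζ hW, rfl⟩

end Inv

end Crest.Agent.R144.BQ565
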