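import Crest.Agent.R144.BQ3_565

/-!
R144 (S0197), helper565.  The quadratic-form block (Q) of doc 1613, part 4: dilations,
semicontinuity in the data, Borel measurability, invariance under constants.

* `dil x0 s x = (1 - s) x0 + s x`, `jac_dil`, `en_dil`, `setIntegral_en_dil_le`;
* `exists_strict`: a strict configuration in a block of positive volume;
* `adm_near_data`: near-minimisers survive small changes of the data (dilation argument);
* `measurable_bqr`, `measurable_bq`, `measurable_bqMat`: Borel measurability in the data;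
* `bqm_le_of_face`: fields which are rigid only at `|grad| ≥ 1` near `ham` are allowed;
* `bq_shift`: invariance under adding a constant to the data.
-/

set_option autoImplicit false
set_option linter.unusedSectionVars false

open MeasureTheory Set Filter Topology
open scoped ENNReal NNReal Pointwise

noncomputable section

namespace Crest.Agent.R144.BQ565

open Crest.Agent.R144.Ham560
open Crest.Agent.R144.MW121 (jac jac_apply en measurable_jac measurable_en en_nonneg)
open Crest.Agent.R144.Lw425 (dat Proper Vr continuous_int dat_bound volume_tight_eq ham_congr)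

section Dil

variable {ι : Type*} [Fintype ι] [DecidableEq ι]

/-- The dilation with centre `x0` and ratio `s`. -/
def dil (x0 : ι → ℝ) (s : ℝ) (x : ι → ℝ) : ι → ℝ := (1 - s) • x0 + s • x

theorem jac_dil (Y : (ι → ℝ) → (ι → ℝ)) (x0 : ι → ℝ) (s : ℝ) (x : ι → ℝ) (u v : ι) :
    jac (fun x => Y (dil x0 s x)) x u v = s * jac Y (dil x0 s x) u v := by
  rw [jac_apply, jac_apply]
  have h1 : (fun x => Y (dil x0 s x)) = fun x => (fun y => Y ((1 - s) • x0 + y)) (s • x) := rfl
  rw [h1, fderiv_comp_smul (f := fun y => Y ((1 - s) • x0 + y)), fderiv_comp_add_left]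
  rfl

theorem en_dil (Y : (ι → ℝ) → (ι → ℝ)) (x0 : ι → ℝ) (s : ℝ) (x : ι → ℝ) :
    en (fun x => Y (dil x0 s x)) x = s ^ 2 * en Y (dil x0 s x) := by
  simp only [MW121.en, jac_dil, Finset.mul_sum, mul_pow]

theorem integral_dil (f : (ι → ℝ) → ℝ) (x0 : ι → ℝ) {s : ℝ} (hs : 0 < s) :
    ∫ x, f (dil x0 s x) = (s ^ Fintype.card ι)⁻¹ * ∫ x, f x := by
  have h := Measure.integral_comp_smul volume (fun y => f ((1 - s) • x0 + y)) s
  rw [integral_add_left_eq_self (fun y => f y) ((1 - s) • x0)] at h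
  rw [Module.finrank_fintype_fun_eq_card, abs_of_nonneg (by positivity), smul_eq_mul] at h
  exact h

theorem integrable_dil {f : (ι → ℝ) → ℝ} (hf : Integrable f) (x0 : ι → ℝ) {s : ℝ} (hs : s ≠ 0) :
    Integrable fun x => f (dil x0 s x) :=
  (hf.comp_add_left ((1 - s) • x0)).comp_smul hs

theorem continuous_dil (x0 : ι → ℝ) (s : ℝ) : Continuous (dil x0 s) := by
  unfold dil; fun_prop

theorem ll_dil {Y : (ι → ℝ) → (ι → ℝ)} (hY : LocallyLipschitz Y) (x0 : ι → ℝ) (s : ℝ) :
    LocallyLipschitz fun x => Y (dil x0 s x) := by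
  have h : LocallyLipschitz (dil x0 s) := by
    have : ContDiff ℝ 1 (dil x0 s) := by unfold dil; fun_prop
    exact this.locallyLipschitz
  exact hY.comp h

theorem integrableOn_en {Y : (ι → ℝ) → (ι → ℝ)} (hY : LocallyLipschitz Y) {K : Set (ι → ℝ)}
    (hKb : Bornology.IsBounded K) (hK : MeasurableSet K) : IntegrableOn (en Y) K := by
  have hμ : GoodLaw (volume.restrict K) :=
    ⟨⟨by rw [Measure.restrict_apply_univ]; exact hKb.measure_lt_top⟩,
      Measure.absolutelyContinuous_restrict, ⟨K, hKb, ae_restrict_mem hK⟩⟩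
  exact hμ.integrable_en hY

/-- Change of variables for the energy. -/
theorem setIntegral_en_dil_le {Y : (ι → ℝ) → (ι → ℝ)} (hY : LocallyLipschitz Y)
    {K K' : Set (ι → ℝ)} (hK : MeasurableSet K) (hK' : MeasurableSet K')
    (hK'b : Bornology.IsBounded K') (x0 : ι → ℝ) {s : ℝ} (hs : 0 < s)
    (hmap : ∀ x ∈ K, dil x0 s x ∈ K') :
    ∫ x in K, en (fun x => Y (dil x0 s x)) x ≤
      s ^ 2 * (s ^ Fintype.card ι)⁻¹ * ∫ x in K', en Y x := by
  have hint : Integrable (K'.indicator (en Y)) :=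
    (integrable_indicator_iff hK').mpr (integrableOn_en hY hK'b hK')
  rw [← integral_indicator hK, ← integral_indicator hK', mul_assoc, ← integral_dil _ x0 hs,
    ← integral_const_mul]
  refine integral_mono_of_nonneg (Eventually.of_forall fun x => ?_)
    ((integrable_dil hint x0 hs.ne').const_mul _) (Eventually.of_forall fun x => ?_)
  · exact indicator_nonneg (fun x _ => en_nonneg _ _) x
  · by_cases hx : x ∈ K
    · simp only [indicator_of_mem hx, en_dil, indicator_of_mem (hmap x hx)]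
      exact le_rfl
    · simp only [indicator_of_notMem hx]
      exact mul_nonneg (sq_nonneg _) (indicator_nonneg (fun x _ => en_nonneg _ _) _)

end Dil

section Data

variable {U : Type*} [DecidableEq U] {I Z : Finset U} {E : Finset (U × U)} {ζ ζ' W : U → ℝ}

theorem ext_dil (x0 : I → ℝ) (s : ℝ) (x : I → ℝ) (u : U) :
    ext I ζ (dil x0 s x) u = (1 - s) * ext I ζ x0 u + s * ext I ζ x u := by
  have h := ext_comb (F := I) (ξ := ζ) (η := ζ) (1 - s) s x0 x u
  have e : (1 - s) • ζ + s • ζ = ζ := by rw [← add_smul]; simp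
  rw [e] at h
  exact h

/-- A strict configuration. -/
theorem exists_strict (hE : Proper I E) (hv : 0 < volume (ham I E ζ)) :
    ∃ x0 : I → ℝ, x0 ∈ ham I E ζ ∧ ∃ c > 0, ∀ p ∈ E, |ext I ζ x0 p.1 - ext I ζ x0 p.2| ≤ 1 - c := by
  have hae : ∀ᵐ x : I → ℝ, ∀ p ∈ E, |ext I ζ x p.1 - ext I ζ x p.2| ≠ 1 := by
    rw [Filter.eventually_all_finset]
    intro p hp
    rw [ae_iff]
    simpa using volume_tight_eq (ξ := ζ) (hE p hp).1 (hE p hp).2
  obtain ⟨x0, hx0, hne⟩ : ∃ x0 ∈ ham I E ζ, ∀ p ∈ E, |ext I ζ x0 p.1 - ext I ζ x0 p.2| ≠ 1 := by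
    by_contra hcon
    push Not at hcon
    refine hv.ne' (measure_mono_null (fun x hx => ?_) (ae_iff.mp hae))
    obtain ⟨p, hp, h1⟩ := hcon x hx
    intro hall
    exact hall p hp h1
  refine ⟨x0, hx0, ?_⟩
  rcases E.eq_empty_or_nonempty with rfl | hEn
  · exact ⟨1, one_pos, fun p hp => absurd hp (by simp)⟩
  · refine ⟨E.inf' hEn fun p => 1 - |ext I ζ x0 p.1 - ext I ζ x0 p.2|, ?_, fun p hp => ?_⟩
    · rw [gt_iff_lt, Finset.lt_inf'_iff]
      intro p hp
      have := lt_of_le_of_ne (hx0 p hp) (hne p hp)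
      linarith
    · have := Finset.inf'_le (fun p => 1 - |ext I ζ x0 p.1 - ext I ζ x0 p.2|) hp
      linarith

theorem ext_data_le {d : ℝ} (hd0 : 0 ≤ d) (hd : ∀ b, b ∉ I → IsEnd E b → |ζ' b - ζ b| ≤ d) (x : I → ℝ)
    {u : U} (hu : IsEnd E u) : |ext I ζ' x u - ext I ζ x u| ≤ d := by
  by_cases h : u ∈ I
  · rw [ext_mem h, ext_mem h]; simpa using hd0
  · rw [ext_notMem h, ext_notMem h]; exact hd u h hu

theorem grad_data_le {d : ℝ} (hd0 : 0 ≤ d) (hd : ∀ b, b ∉ I → IsEnd E b → |ζ' b - ζ b| ≤ d)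
    (x : I → ℝ) {p : U × U} (hp : p ∈ E) :
    |(ext I ζ' x p.1 - ext I ζ' x p.2) - (ext I ζ x p.1 - ext I ζ x p.2)| ≤ 2 * d := by
  have h1 := ext_data_le hd0 hd x (u := p.1) ⟨p, hp, Or.inl rfl⟩
  have h2 := ext_data_le hd0 hd x (u := p.2) ⟨p, hp, Or.inr rfl⟩
  rw [abs_le] at *
  constructor <;> linarith [h1.1, h1.2, h2.1, h2.2]

/-- **Stability of admissible fields under changes of the data.** -/
theorem adm_near_data (hA : Anch I E) (hE : Proper I E) (hv : 0 < volume (ham I E ζ))
    {Y : (I → ℝ) → (I → ℝ)} (hY : Adm I E ζ W Y) {A : ℝ} (hlt : ∫ x in ham I E ζ, en Y x < A) :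
    ∃ d > 0, ∀ ζ' : U → ℝ, (∀ b, b ∉ I → IsEnd E b → |ζ' b - ζ b| ≤ d) →
      ∃ Y', Adm I E ζ' W Y' ∧ ∫ x in ham I E ζ', en Y' x < A := by
  obtain ⟨x0, hx0, c, hc, hs⟩ := exists_strict hE hv
  obtain ⟨ρ, hρ, hr⟩ := hY.rig
  set n := Fintype.card I with hn
  set J := ∫ x in ham I E ζ, en Y x with hJ
  -- choose the ratio
  have hcont : ContinuousAt (fun s : ℝ => s ^ 2 * (s ^ n)⁻¹ * J) 1 := by
    have : (1 : ℝ) ^ n ≠ 0 := by simp
    exact ((continuousAt_id.pow 2).mul ((continuousAt_id.pow n).inv₀ this)).mul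
      continuousAt_const
  have hev : ∀ᶠ s in 𝓝 (1 : ℝ), s ^ 2 * (s ^ n)⁻¹ * J < A := by
    refine hcont.eventually_lt continuousAt_const ?_
    simpa using hlt
  obtain ⟨r, hr0, hr1⟩ := Metric.eventually_nhds_iff.mp hev
  set t : ℝ := min (min (r / 2) (1 / 2)) (ρ / 8) with ht
  have ht0 : 0 < t := by positivity
  have ht1 : t ≤ r / 2 := (min_le_left _ _).trans (min_le_left _ _)
  have ht2 : t ≤ 1 / 2 := (min_le_left _ _).trans (min_le_right _ _)
  have ht3 : t ≤ ρ / 8 := min_le_right _ _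
  set s : ℝ := 1 - t with hsd
  have hs0 : 0 < s := by rw [hsd]; linarith
  have hs1 : s < 1 := by rw [hsd]; linarith
  have hA' : s ^ 2 * (s ^ n)⁻¹ * J < A := by
    refine hr1 ?_
    rw [Real.dist_eq, hsd, show 1 - t - 1 = -t by ring, abs_neg, abs_of_pos ht0]
    linarith
  refine ⟨min (t * c / 2) (ρ / 16), by positivity, fun ζ' hζ' => ?_⟩
  set d := min (t * c / 2) (ρ / 16) with hd
  have hd0 : 0 ≤ d := by positivity
  have hd1 : 2 * d ≤ t * c := by have := min_le_left (t * c / 2) (ρ / 16); linarith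
  have hd2 : 2 * d ≤ ρ / 8 := by have := min_le_right (t * c / 2) (ρ / 16); linarith
  have hgr : ∀ (x : I → ℝ) {p : U × U}, p ∈ E →
      ext I ζ (dil x0 s x) p.1 - ext I ζ (dil x0 s x) p.2 =
        (1 - s) * (ext I ζ x0 p.1 - ext I ζ x0 p.2) + s * (ext I ζ x p.1 - ext I ζ x p.2) := by
    intro x p _
    rw [ext_dil, ext_dil]; ring
  have hmap : ∀ x ∈ ham I E ζ', dil x0 s x ∈ ham I E ζ := by
    intro x hx p hp
    rw [hgr x hp]
    have h1 := abs_le.mp (hs p hp)
    have h2 := abs_le.mp (hx p hp)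
    have h3 := abs_le.mp (grad_data_le hd0 hζ' x hp)
    have h4 : 1 - s = t := by rw [hsd]; ring
    rw [h4, abs_le]
    constructor
    · nlinarith [h1.1, h2.1, h3.1, h3.2]
    · nlinarith [h1.2, h2.2, h3.1, h3.2]
  refine ⟨fun x => Y (dil x0 s x), ⟨ll_dil hY.lip x0 s, ρ / 2, by positivity, ?_⟩, ?_⟩
  · intro x hx p hp hge
    refine hr _ (hmap x hx) p hp ?_
    rw [hgr x hp]
    have h1 := abs_le.mp (hs p hp)
    have h3 := abs_le.mp (grad_data_le hd0 hζ' x hp)
    have h4 : 1 - s = t := by rw [hsd]; ring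
    rw [h4]
    have h5 := abs_le.mp (hx p hp)
    set g := ext I ζ x p.1 - ext I ζ x p.2
    set g' := ext I ζ' x p.1 - ext I ζ' x p.2
    set g0 := ext I ζ x0 p.1 - ext I ζ x0 p.2
    have h6 : |g'| ≤ |g| + 2 * d := by
      have : g' = g + (g' - g) := by ring
      calc |g'| = |g + (g' - g)| := by rw [← this]
        _ ≤ |g| + |g' - g| := abs_add_le _ _
        _ ≤ |g| + 2 * d := by have := abs_le.mpr h3; linarith
    have h7 : |g0| ≤ 1 := (abs_le.mpr ⟨by linarith [h1.1], by linarith [h1.2]⟩)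
    have h8 : s * |g| ≤ |t * g0 + s * g| + t := by
      have : s * g = (t * g0 + s * g) - t * g0 := by ring
      calc s * |g| = |s * g| := by rw [abs_mul, abs_of_pos hs0]
        _ = |(t * g0 + s * g) - t * g0| := by rw [← this]
        _ ≤ |t * g0 + s * g| + |t * g0| := abs_sub _ _
        _ ≤ |t * g0 + s * g| + t := by
            rw [abs_mul, abs_of_pos ht0]; nlinarith [abs_nonneg g0]
    have h9 : 1 - ρ / 2 - 2 * d ≤ |g| := by linarith
    have h10 : |g| ≤ 1 + 2 * d := by
      have h11 : |g'| ≤ 1 := abs_le.mpr h5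
      have : g = g' - (g' - g) := by ring
      calc |g| = |g' - (g' - g)| := by rw [← this]
        _ ≤ |g'| + |g' - g| := abs_sub _ _
        _ ≤ 1 + 2 * d := by have := abs_le.mpr h3; linarith
    have h12 : |g| - t * (1 + 2 * d) ≤ s * |g| := by
      rw [hsd]; nlinarith [abs_nonneg g]
    have hd3 : 2 * d ≤ 1 ∨ 1 < 2 * d := le_or_gt _ _
    have h13 : t * (1 + 2 * d) ≤ 2 * t ∨ 1 < 2 * d := by
      rcases hd3 with h | h
      · left; nlinarith
      · exact Or.inr h
    rcases h13 with h | h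
    · linarith
    · -- then `ρ` is large and the statement is trivial
      have : 8 < ρ := by linarith
      have h14 := abs_nonneg (t * g0 + s * g)
      linarith
  · have h := setIntegral_en_dil_le hY.lip (measurableSet_ham (F := I) (E := E) (ξ := ζ'))
      (measurableSet_ham (F := I) (E := E) (ξ := ζ)) (isBounded_ham hA) x0 hs0 hmap
    exact lt_of_le_of_lt h hA'

/-- Unnormalised infimum. -/
def bqr (I : Finset U) (E : Finset (U × U)) (ζ W : U → ℝ) : ℝ :=
  bqm (volume.restrict (ham I E ζ)) E ζ W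

theorem bqm_smul (μ : Measure (I → ℝ)) (a : ℝ≥0∞) :
    bqm (a • μ) E ζ W = a.toReal * bqm μ E ζ W := by
  unfold bqm
  have : (fun Y => ∫ x, en Y x ∂(a • μ)) '' {Y : (I → ℝ) → (I → ℝ) | Adm I E ζ W Y} =
      a.toReal • ((fun Y => ∫ x, en Y x ∂μ) '' {Y : (I → ℝ) → (I → ℝ) | Adm I E ζ W Y}) := by
    rw [← image_smul, image_image]
    refine image_congr fun Y _ => ?_
    rw [integral_smul_measure]
  rw [this, Real.sInf_smul_of_nonneg ENNReal.toReal_nonneg, smul_eq_mul]

theorem bq_eq : bq I E ζ W = (Vr I E ζ)⁻¹ * bqr I E ζ W := by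
  rw [bq, hamP, bqm_smul, ENNReal.toReal_inv]
  rfl

theorem bqr_eq_zero (hv : volume (ham I E ζ) = 0) : bqr I E ζ W = 0 := by
  unfold bqr bqm
  have h0 : volume.restrict (ham I E ζ) = 0 := Measure.restrict_eq_zero.mpr hv
  rw [h0]
  rcases ({Y : (I → ℝ) → (I → ℝ) | Adm I E ζ W Y}).eq_empty_or_nonempty with h | h
  · rw [h, image_empty, Real.sInf_empty]
  · have : (fun Y => ∫ x, en Y x ∂(0 : Measure (I → ℝ))) '' {Y : (I → ℝ) → (I → ℝ) | Adm I E ζ W Y} =
        {0} := by
      ext r
      simp only [integral_zero_measure, mem_image, mem_singleton_iff]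
      constructor
      · rintro ⟨_, _, rfl⟩; rfl
      · rintro rfl
        obtain ⟨Y, hY⟩ := h
        exact ⟨Y, hY, rfl⟩
    rw [this, csInf_singleton]

/-- The set of data with positive volume and a field of energy less than `c`. -/
def lowS (I : Finset U) (E : Finset (U × U)) (Z : Finset U) (W : U → ℝ) (c : ℝ) : Set (Z → ℝ) :=
  {z | 0 < volume (ham I E (dat Z z)) ∧
    ∃ Y, Adm I E (dat Z z) W Y ∧ ∫ x in ham I E (dat Z z), en Y x < c}

theorem continuous_Vr (hA : Anch I E) (hE : Proper I E) :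
    Continuous fun z : Z → ℝ => Vr I E (dat Z z) := by
  have := continuous_int (Z := Z) hA hE (f := fun _ => (1 : ℝ)) measurable_const (C := 1)
    (fun _ => by simp)
  refine this.congr fun z => ?_
  rw [setIntegral_const, smul_eq_mul, mul_one]
  rfl

theorem volume_pos_iff (hA : Anch I E) : 0 < volume (ham I E ζ) ↔ 0 < Vr I E ζ := by
  unfold Lw425.Vr
  rw [Measure.real, ENNReal.toReal_pos_iff]
  exact ⟨fun h => ⟨h, volume_ham_lt_top hA⟩, fun h => h.1⟩

theorem isOpen_pos (hA : Anch I E) (hE : Proper I E) :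
    IsOpen {z : Z → ℝ | 0 < volume (ham I E (dat Z z))} := by
  have : {z : Z → ℝ | 0 < volume (ham I E (dat Z z))} = {z | 0 < Vr I E (dat Z z)} := by
    ext z; exact volume_pos_iff hA
  rw [this]
  exact isOpen_lt continuous_const (continuous_Vr hA hE)

theorem isOpen_lowS (hA : Anch I E) (hE : Proper I E) (c : ℝ) : IsOpen (lowS I E Z W c) := by
  rw [isOpen_iff_mem_nhds]
  rintro z0 ⟨hv, Y, hY, hlt⟩
  obtain ⟨d, hd, h⟩ := adm_near_data hA hE hv hY hlt
  filter_upwards [(isOpen_pos hA hE).mem_nhds hv, Metric.closedBall_mem_nhds z0 hd] with z hz1 hz2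
  refine ⟨hz1, h (dat Z z) fun b _ _ => ?_⟩
  have h1 : ‖z - z0‖ ≤ d := by rwa [← dist_eq_norm]
  by_cases hb : b ∈ Z
  · simp only [dat]
    rw [ext_mem hb, ext_mem hb]
    exact (norm_le_pi_norm (z - z0) ⟨b, hb⟩).trans h1
  · simp only [dat]
    rw [ext_notMem hb, ext_notMem hb]
    simpa using hd.le

/-- **Borel measurability in the data** (unnormalised). -/
theorem measurable_bqr (hA : Anch I E) (hE : Proper I E) (W : U → ℝ) :
    Measurable fun z : Z → ℝ => bqr I E (dat Z z) W := by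
  refine measurable_of_Iio fun c => ?_
  by_cases hc : c ≤ 0
  · have : (fun z : Z → ℝ => bqr I E (dat Z z) W) ⁻¹' Iio c = ∅ := by
      ext z
      simp only [mem_preimage, mem_Iio, mem_empty_iff_false, iff_false, not_lt]
      exact hc.trans bqm_nonneg
    rw [this]; exact MeasurableSet.empty
  · push Not at hc
    set G : Set (Z → ℝ) := {z | 0 < volume (ham I E (dat Z z))} with hG
    have hGo : IsOpen G := isOpen_pos hA hE
    have : (fun z : Z → ℝ => bqr I E (dat Z z) W) ⁻¹' Iio c =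
        Gᶜ ∪ (lowS I E Z W c ∪ (G \ ⋃ n : ℕ, lowS I E Z W n)) := by
      ext z
      simp only [mem_preimage, mem_Iio, mem_union, mem_compl_iff, Set.mem_sdiff, mem_iUnion]
      by_cases hz : z ∈ G
      · by_cases hne : ∃ Y, Adm I E (dat Z z) W Y
        · have hn : ∃ n : ℕ, z ∈ lowS I E Z W n := by
            obtain ⟨Y, hY⟩ := hne
            obtain ⟨n, hn⟩ := exists_nat_gt (∫ x in ham I E (dat Z z), en Y x)
            exact ⟨n, hz, Y, hY, hn⟩
          constructor
          · intro h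
            right; left
            obtain ⟨Y, hY, hlt⟩ := exists_bqm_near
              (μ := volume.restrict (ham I E (dat Z z))) hne
              (eps := c - bqr I E (dat Z z) W) (by linarith)
            refine ⟨hz, Y, hY, ?_⟩
            have : bqm (volume.restrict (ham I E (dat Z z))) E (dat Z z) W =
              bqr I E (dat Z z) W := rfl
            linarith
          · rintro (h | h | h)
            · exact absurd hz h
            · obtain ⟨_, Y, hY, hlt⟩ := h
              exact lt_of_le_of_lt (bqm_le hY) hlt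
            · exact absurd hn h.2
        · have hemp : {Y : (I → ℝ) → (I → ℝ) | Adm I E (dat Z z) W Y} = ∅ := by
            ext Y
            simp only [mem_ofPred_eq, mem_empty_iff_false, iff_false]
            exact fun h => hne ⟨Y, h⟩
          have h0 : bqr I E (dat Z z) W = 0 := by
            unfold bqr bqm
            rw [hemp, image_empty, Real.sInf_empty]
          rw [h0]
          refine iff_of_true hc (Or.inr (Or.inr ⟨hz, ?_⟩))
          rintro ⟨n, _, Y, hY, _⟩
          exact hne ⟨Y, hY⟩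
      · have h0 : bqr I E (dat Z z) W = 0 := by
          refine bqr_eq_zero ?_
          by_contra h
          exact hz (pos_iff_ne_zero.mpr h)
        rw [h0]
        exact iff_of_true hc (Or.inl hz)
    rw [this]
    refine hGo.measurableSet.compl.union ((isOpen_lowS hA hE c).measurableSet.union
      (hGo.measurableSet.diff ?_))
    exact (isOpen_iUnion fun n : ℕ => isOpen_lowS hA hE (n : ℝ)).measurableSet

theorem measurable_bq_dat (hA : Anch I E) (hE : Proper I E) (W : U → ℝ) :
    Measurable fun z : Z → ℝ => bq I E (dat Z z) W := by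
  have : (fun z : Z → ℝ => bq I E (dat Z z) W) =
      fun z => (Vr I E (dat Z z))⁻¹ * bqr I E (dat Z z) W := funext fun z => bq_eq
  rw [this]
  exact (continuous_Vr hA hE).measurable.inv.mul (measurable_bqr hA hE W)

variable (E) in
/-- All endpoints. -/
def endS : Finset U := E.image Prod.fst ∪ E.image Prod.snd

theorem mem_endS {b : U} : b ∈ endS E ↔ IsEnd E b := by
  simp only [endS, Finset.mem_union, Finset.mem_image, IsEnd]
  constructor
  · rintro (⟨p, hp, h⟩ | ⟨p, hp, h⟩)
    · exact ⟨p, hp, Or.inl h⟩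
    · exact ⟨p, hp, Or.inr h⟩
  · rintro ⟨p, hp, h | h⟩
    · exact Or.inl ⟨p, hp, h⟩
    · exact Or.inr ⟨p, hp, h⟩

theorem ham_congr' (h : ∀ b, b ∉ I → IsEnd E b → ζ' b = ζ b) : ham I E ζ' = ham I E ζ :=
  ham_congr fun p hp => ⟨fun h1 => h _ h1 ⟨p, hp, Or.inl rfl⟩, fun h1 => h _ h1 ⟨p, hp, Or.inr rfl⟩⟩

theorem bq_congr {W' : U → ℝ} (h : ∀ b, b ∉ I → IsEnd E b → ζ' b = ζ b)
    (hW : ∀ b, b ∉ I → IsEnd E b → W' b = W b) : bq I E ζ' W' = bq I E ζ W := by
  unfold bq
  rw [bqm_congr _ h hW, hamP, hamP, ham_congr' h]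

/-- The data restricted to the endpoints. -/
theorem dat_endS (ζ : U → ℝ) {b : U} (hb : IsEnd E b) :
    dat (endS E) (fun y => ζ y) b = ζ b := by
  rw [dat, ext_mem (mem_endS.mpr hb)]

/-- **Borel measurability of the frozen energy in the data.** -/
theorem measurable_bq (hA : Anch I E) (hE : Proper I E) (W : U → ℝ) :
    Measurable fun ζ : U → ℝ => bq I E ζ W := by
  have h : (fun ζ : U → ℝ => bq I E ζ W) =
      fun ζ : U → ℝ => (fun z : endS E → ℝ => bq I E (dat (endS E) z) W) (fun y => ζ y) := by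
    funext ζ
    exact bq_congr (fun b _ hb => (dat_endS ζ hb).symm) (fun b _ _ => rfl)
  rw [h]
  exact (measurable_bq_dat hA hE W).comp (measurable_pi_lambda _ fun y => measurable_pi_apply _)

/-- **Borel measurability of the entries of the block matrix.** -/
theorem measurable_bqMat {κ : Type*} [DecidableEq κ] (hA : Anch I E) (hE : Proper I E)
    (W : κ → U → ℝ) (i j : κ) : Measurable fun ζ : U → ℝ => bqMat (hamP I E ζ) E ζ W i j := by
  simp only [bqMat, Matrix.of_apply]
  exact (((measurable_bq hA hE (W i + W j)).sub (measurable_bq hA hE (W i))).sub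
    (measurable_bq hA hE (W j))).div_const 2

end Data

end Crest.Agent.R144.BQ565
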