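import Crest.Agent.R144.BQ4_565

/-!
R144 (S0197), helper565.  The quadratic-form block (Q) of doc 1613, part 5: relabelling of blocks
(translations, rotations, embeddings into another lattice), invariance under constants of the data,
and fields which are rigid only on the faces.

* `Rl σ I I' E E'`: `σ : U → V` injective, `I' = σ I`, `E' = σ E`;
* `Rl.ham`, `Rl.vol`, `Rl.adm_iff`, `Rl.integral_en`, `Rl.bq`, `Rl.bqMat`;
* `bq_shift`: `bq I E (ζ + c) W = bq I E ζ W`;
* `bqr_le_of_face`, `bq_le_of_face`.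
-/

set_option autoImplicit false
set_option linter.unusedSectionVars false

open MeasureTheory Set Filter Topology
open scoped ENNReal NNReal Pointwise

noncomputable section

namespace Crest.Agent.R144.BQ565

open Crest.Agent.R144.Ham560
open Crest.Agent.R144.MW121 (jac jac_apply en measurable_jac measurable_en en_nonneg)
open Crest.Agent.R144.Lw425 (dat Proper Vr continuous_int dat_bound volume_tight_eq ham_congr)

section Relabel

/-! ### Reindexing coordinates -/

variable {ι κ : Type*} [Fintype ι] [Fintype κ] [DecidableEq ι] [DecidableEq κ]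

/-- Reindexing of the coordinates as a continuous linear equivalence `x' ↦ x' ∘ e`. -/
def pullL (e : ι ≃ κ) : (κ → ℝ) ≃L[ℝ] (ι → ℝ) :=
  (LinearEquiv.funCongrLeft ℝ ℝ e).toContinuousLinearEquiv

@[simp] theorem pullL_apply (e : ι ≃ κ) (x : κ → ℝ) (i : ι) : pullL e x i = x (e i) := rfl

@[simp] theorem pullL_symm_apply (e : ι ≃ κ) (x : ι → ℝ) (k : κ) :
    (pullL e).symm x k = x (e.symm k) := rfl

theorem mp_pullL (e : ι ≃ κ) : MeasurePreserving (pullL e) := by
  have h := (volume_measurePreserving_piCongrLeft (fun _ : κ => ℝ) e).symm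
  have e1 : (⇑(pullL e) : (κ → ℝ) → (ι → ℝ)) =
      ⇑(MeasurableEquiv.piCongrLeft (fun _ : κ => ℝ) e).symm := by
    funext x
    rfl
  rw [e1]; exact h

/-- Transport of a field. -/
def trF (e : ι ≃ κ) (Y' : (κ → ℝ) → (κ → ℝ)) : (ι → ℝ) → (ι → ℝ) :=
  fun x => pullL e (Y' ((pullL e).symm x))

theorem jac_trF (e : ι ≃ κ) (Y' : (κ → ℝ) → (κ → ℝ)) (x : ι → ℝ) (u v : ι) :
    jac (trF e Y') x u v = jac Y' ((pullL e).symm x) (e u) (e v) := by
  rw [jac_apply, jac_apply]
  have h1 : trF e Y' = (pullL e) ∘ (Y' ∘ (pullL e).symm) := rfl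
  rw [h1, (pullL e).comp_fderiv, (pullL e).symm.comp_right_fderiv]
  have h2 : (pullL e).symm (Pi.single v 1) = Pi.single (e v) 1 := by
    funext k
    rw [pullL_symm_apply]
    by_cases h : k = e v
    · subst h; simp
    · rw [Pi.single_eq_of_ne h, Pi.single_eq_of_ne]
      intro h'
      exact h (by rw [← h', Equiv.apply_symm_apply])
  simp only [ContinuousLinearMap.comp_apply, ContinuousLinearEquiv.coe_coe, h2, pullL_apply]

theorem en_trF (e : ι ≃ κ) (Y' : (κ → ℝ) → (κ → ℝ)) (x : ι → ℝ) :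
    en (trF e Y') x = en Y' ((pullL e).symm x) := by
  simp only [MW121.en, jac_trF]
  rw [← Equiv.sum_comp e (fun a => ∑ b, jac Y' ((pullL e).symm x) a b ^ 2)]
  exact Finset.sum_congr rfl fun u _ =>
    Equiv.sum_comp e (fun b => jac Y' ((pullL e).symm x) (e u) b ^ 2)

theorem ll_trF (e : ι ≃ κ) {Y' : (κ → ℝ) → (κ → ℝ)} (h : LocallyLipschitz Y') :
    LocallyLipschitz (trF e Y') := by
  have h1 : LocallyLipschitz (pullL e) := (pullL e).lipschitz.locallyLipschitz
  have h2 : LocallyLipschitz (pullL e).symm := (pullL e).symm.lipschitz.locallyLipschitz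
  exact h1.comp (h.comp h2)

theorem trF_symm (e : ι ≃ κ) (Y : (ι → ℝ) → (ι → ℝ)) : trF e (trF e.symm Y) = Y := by
  funext x i
  simp only [trF, pullL_apply]
  have h1 : (pullL e.symm).symm ((pullL e).symm x) = x := by
    funext j; simp
  rw [h1]; simp

/-! ### Blocks -/

variable {U V : Type*} [DecidableEq U] [DecidableEq V]

/-- `σ` maps the block `(I, E)` to the block `(I', E')`. -/
structure Rl (σ : U → V) (I : Finset U) (I' : Finset V) (E : Finset (U × U))
    (E' : Finset (V × V)) : Prop where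
  inj : Function.Injective σ
  memI : ∀ v, v ∈ I' ↔ ∃ u ∈ I, σ u = v
  memE : ∀ q, q ∈ E' ↔ ∃ p ∈ E, (σ p.1, σ p.2) = q

variable {σ : U → V} {I : Finset U} {I' : Finset V} {E : Finset (U × U)} {E' : Finset (V × V)}
variable {ζ W : V → ℝ}

theorem Rl.mem_iff (h : Rl σ I I' E E') {u : U} : σ u ∈ I' ↔ u ∈ I := by
  rw [h.memI]
  exact ⟨fun ⟨u', hu', he⟩ => h.inj he ▸ hu', fun hu => ⟨u, hu, rfl⟩⟩

/-- The equivalence of the index types. -/
def Rl.eq (h : Rl σ I I' E E') : I ≃ I' :=
  Equiv.ofBijective (fun u => ⟨σ u, h.mem_iff.mpr u.2⟩)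
    ⟨fun a b hab => Subtype.ext (h.inj (congrArg Subtype.val hab)), fun v => by
      obtain ⟨u, hu, he⟩ := (h.memI v).mp v.2
      exact ⟨⟨u, hu⟩, Subtype.ext he⟩⟩

@[simp] theorem Rl.eq_apply (h : Rl σ I I' E E') (u : I) : ((h.eq u : I') : V) = σ u := rfl

theorem Rl.ext_eq (h : Rl σ I I' E E') (x : I' → ℝ) (u : U) :
    ext I' ζ x (σ u) = ext I (ζ ∘ σ) (pullL h.eq x) u := by
  by_cases hu : u ∈ I
  · rw [ext_mem hu, ext_mem (h.mem_iff.mpr hu)]; rfl
  · rw [ext_notMem hu, ext_notMem (fun h' => hu (h.mem_iff.mp h'))]; rfl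

theorem Rl.forall_edge (h : Rl σ I I' E E') {P : V → V → Prop} :
    (∀ q ∈ E', P q.1 q.2) ↔ ∀ p ∈ E, P (σ p.1) (σ p.2) := by
  constructor
  · intro hq p hp
    exact hq (σ p.1, σ p.2) ((h.memE _).mpr ⟨p, hp, rfl⟩)
  · intro hp q hq
    obtain ⟨p, hpE, rfl⟩ := (h.memE q).mp hq
    exact hp p hpE

theorem Rl.ham_iff (h : Rl σ I I' E E') (x : I' → ℝ) :
    x ∈ ham I' E' ζ ↔ pullL h.eq x ∈ ham I E (ζ ∘ σ) := by
  change (∀ q ∈ E', |ext I' ζ x q.1 - ext I' ζ x q.2| ≤ 1) ↔ _
  rw [h.forall_edge (P := fun a b => |ext I' ζ x a - ext I' ζ x b| ≤ 1)]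
  simp only [h.ext_eq]
  rfl

theorem Rl.ham_eq (h : Rl σ I I' E E') : ham I' E' ζ = pullL h.eq ⁻¹' ham I E (ζ ∘ σ) := by
  ext x; exact h.ham_iff x

theorem Rl.vol (h : Rl σ I I' E E') : volume (ham I' E' ζ) = volume (ham I E (ζ ∘ σ)) := by
  rw [h.ham_eq, (mp_pullL h.eq).measure_preimage measurableSet_ham.nullMeasurableSet]

theorem Rl.Vr_eq (h : Rl σ I I' E E') : Vr I' E' ζ = Vr I E (ζ ∘ σ) := by
  unfold Lw425.Vr; rw [Measure.real, Measure.real, h.vol]

/-- Integrals over the block. -/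
theorem Rl.setIntegral (h : Rl σ I I' E E') (f : (I → ℝ) → ℝ) :
    ∫ x in ham I' E' ζ, f (pullL h.eq x) = ∫ x in ham I E (ζ ∘ σ), f x := by
  rw [h.ham_eq]
  have hemb : MeasurableEmbedding (pullL h.eq) :=
    (pullL h.eq).toHomeomorph.measurableEmbedding
  exact (mp_pullL h.eq).setIntegral_preimage_emb hemb f (ham I E (ζ ∘ σ))

theorem Rl.adm_iff (h : Rl σ I I' E E') {Y' : (I' → ℝ) → (I' → ℝ)} :
    Adm I' E' ζ W Y' ↔ Adm I E (ζ ∘ σ) (W ∘ σ) (trF h.eq Y') := by
  have key : ∀ (ρ : ℝ), (∀ x ∈ ham I' E' ζ, ∀ q ∈ E',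
      1 - ρ ≤ |ext I' ζ x q.1 - ext I' ζ x q.2| → ext I' W (Y' x) q.1 = ext I' W (Y' x) q.2) ↔
      (∀ x ∈ ham I E (ζ ∘ σ), ∀ p ∈ E, 1 - ρ ≤ |ext I (ζ ∘ σ) x p.1 - ext I (ζ ∘ σ) x p.2| →
        ext I (W ∘ σ) (trF h.eq Y' x) p.1 = ext I (W ∘ σ) (trF h.eq Y' x) p.2) := by
    intro ρ
    constructor
    · intro H x hx p hp hge
      have hx' : (pullL h.eq).symm x ∈ ham I' E' ζ := by
        rw [h.ham_iff]; simpa using hx
      have e1 : ∀ u, ext I' ζ ((pullL h.eq).symm x) (σ u) = ext I (ζ ∘ σ) x u := by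
        intro u; rw [h.ext_eq]; simp
      have := H _ hx' (σ p.1, σ p.2) ((h.memE _).mpr ⟨p, hp, rfl⟩)
        (by simpa only [e1] using hge)
      simp only [h.ext_eq] at this
      exact this
    · intro H x hx q hq hge
      obtain ⟨p, hp, rfl⟩ := (h.memE q).mp hq
      have hx' := (h.ham_iff x).mp hx
      simp only [h.ext_eq] at hge ⊢
      have := H _ hx' p hp hge
      simpa [trF] using this
  constructor
  · rintro ⟨h1, ρ, hρ, h2⟩
    exact ⟨ll_trF _ h1, ρ, hρ, (key ρ).mp h2⟩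
  · rintro ⟨h1, ρ, hρ, h2⟩
    refine ⟨?_, ρ, hρ, (key ρ).mpr h2⟩
    have h3 := ll_trF h.eq.symm h1
    have h4 : trF h.eq.symm (trF h.eq Y') = Y' := trF_symm h.eq.symm Y'
    rwa [h4] at h3

theorem Rl.integral_en (h : Rl σ I I' E E') (Y' : (I' → ℝ) → (I' → ℝ)) :
    ∫ x in ham I' E' ζ, en Y' x = ∫ x in ham I E (ζ ∘ σ), en (trF h.eq Y') x := by
  rw [← h.setIntegral]
  refine integral_congr_ae (Eventually.of_forall fun x => ?_)
  simp only [en_trF, ContinuousLinearEquiv.symm_apply_apply]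

theorem Rl.bqr_eq (h : Rl σ I I' E E') : bqr I' E' ζ W = bqr I E (ζ ∘ σ) (W ∘ σ) := by
  unfold bqr bqm
  congr 1
  ext r
  constructor
  · rintro ⟨Y', hY', rfl⟩
    exact ⟨trF h.eq Y', h.adm_iff.mp hY', (h.integral_en Y').symm⟩
  · rintro ⟨Y, hY, rfl⟩
    refine ⟨trF h.eq.symm Y, h.adm_iff.mpr ?_, ?_⟩
    · rw [trF_symm]; exact hY
    · simp only [h.integral_en, trF_symm]

/-- **Relabelling invariance of the frozen energy.** -/
theorem Rl.bq_eq (h : Rl σ I I' E E') : bq I' E' ζ W = bq I E (ζ ∘ σ) (W ∘ σ) := by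
  rw [BQ565.bq_eq, BQ565.bq_eq, h.bqr_eq, h.Vr_eq]

theorem bqMat_hamP_apply {μ : Type*} [DecidableEq μ] (ζ : U → ℝ) (W : μ → U → ℝ) (i j : μ) :
    bqMat (hamP I E ζ) E ζ W i j =
      (bq I E ζ (W i + W j) - bq I E ζ (W i) - bq I E ζ (W j)) / 2 := rfl

theorem Rl.bqMat_eq {μ : Type*} [DecidableEq μ] (h : Rl σ I I' E E') (W : μ → V → ℝ) :
    bqMat (hamP I' E' ζ) E' ζ W =
      bqMat (hamP I E (ζ ∘ σ)) E (ζ ∘ σ) (fun i => W i ∘ σ) := by
  ext i j
  rw [bqMat_hamP_apply, bqMat_hamP_apply, h.bq_eq, h.bq_eq, h.bq_eq]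
  rfl

end Relabel

section Shift

variable {U : Type*} [DecidableEq U] {I : Finset U} {E : Finset (U × U)} {ζ W : U → ℝ}

theorem ext_shift (x : I → ℝ) (c : ℝ) (u : U) :
    ext I (fun u => ζ u + c) (fun v => x v + c) u = ext I ζ x u + c := by
  by_cases h : u ∈ I
  · rw [ext_mem h, ext_mem h]
  · rw [ext_notMem h, ext_notMem h]

theorem ham_shift_iff (x : I → ℝ) (c : ℝ) :
    (fun v => x v + c) ∈ ham I E (fun u => ζ u + c) ↔ x ∈ ham I E ζ := by
  simp only [ham, mem_ofPred_eq, ext_shift, add_sub_add_right_eq_sub]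

theorem adm_shift_iff {Y : (I → ℝ) → (I → ℝ)} (c : ℝ) :
    Adm I E (fun u => ζ u + c) W Y ↔ Adm I E ζ W (fun x => Y (fun v => x v + c)) := by
  have hll : ∀ (Y : (I → ℝ) → (I → ℝ)) (c : ℝ), LocallyLipschitz Y →
      LocallyLipschitz (fun x : I → ℝ => Y (fun v => x v + c)) := by
    intro Y c hY
    have : LocallyLipschitz (fun x : I → ℝ => fun v => x v + c) := by
      have h : ContDiff ℝ 1 (fun x : I → ℝ => fun v => x v + c) := by fun_prop
      exact h.locallyLipschitz
    exact hY.comp this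
  constructor
  · rintro ⟨h1, ρ, hρ, h2⟩
    refine ⟨hll Y c h1, ρ, hρ, fun x hx p hp hge => ?_⟩
    refine h2 _ ((ham_shift_iff x c).mpr hx) p hp ?_
    rw [ext_shift, ext_shift, add_sub_add_right_eq_sub]
    exact hge
  · rintro ⟨h1, ρ, hρ, h2⟩
    refine ⟨?_, ρ, hρ, fun x hx p hp hge => ?_⟩
    · have := hll _ (-c) h1
      simpa using this
    · have e : x = fun v => (fun v => x v - c) v + c := by funext v; simp
      rw [e] at hx hge ⊢
      rw [ham_shift_iff] at hx
      rw [ext_shift, ext_shift, add_sub_add_right_eq_sub] at hge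
      exact h2 _ hx p hp hge

theorem en_shift (Y : (I → ℝ) → (I → ℝ)) (c : ℝ) (x : I → ℝ) :
    en (fun x => Y (fun v => x v + c)) x = en Y (fun v => x v + c) := by
  have e : (fun x : I → ℝ => Y (fun v => x v + c)) = fun x => Y (x + fun _ => c) := rfl
  have e2 : ∀ x : I → ℝ, (fun v => x v + c) = x + fun _ => c := fun _ => rfl
  simp only [MW121.en, jac_apply]
  rw [e, fderiv_comp_add_right, e2]

theorem setIntegral_shift (f : (I → ℝ) → ℝ) (c : ℝ) :
    ∫ x in ham I E (fun u => ζ u + c), f x = ∫ x in ham I E ζ, f (fun v => x v + c) := by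
  rw [← integral_indicator measurableSet_ham, ← integral_indicator measurableSet_ham,
    ← integral_add_right_eq_self _ (fun _ : I => c)]
  refine integral_congr_ae (Eventually.of_forall fun x => ?_)
  have e2 : (x + fun _ : I => c) = fun v => x v + c := rfl
  simp only [e2]
  by_cases hx : x ∈ ham I E ζ
  · rw [indicator_of_mem hx, indicator_of_mem ((ham_shift_iff x c).mpr hx)]
  · rw [indicator_of_notMem hx, indicator_of_notMem (fun h => hx ((ham_shift_iff x c).mp h))]

theorem Vr_shift' (c : ℝ) : Vr I E (fun u => ζ u + c) = Vr I E ζ := by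
  have := setIntegral_shift (I := I) (E := E) (ζ := ζ) (fun _ => (1 : ℝ)) c
  simp only [setIntegral_const, smul_eq_mul, mul_one] at this
  exact this

theorem bqr_shift (c : ℝ) : bqr I E (fun u => ζ u + c) W = bqr I E ζ W := by
  unfold bqr bqm
  congr 1
  ext r
  constructor
  · rintro ⟨Y, hY, rfl⟩
    refine ⟨fun x => Y (fun v => x v + c), (adm_shift_iff c).mp hY, ?_⟩
    simp only [en_shift]
    rw [setIntegral_shift]
  · rintro ⟨Y, hY, rfl⟩
    have e : (fun x : I → ℝ => (fun x : I → ℝ => Y (fun v => x v - c)) (fun v => x v + c)) = Y := by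
      funext x; simp
    refine ⟨fun x => Y (fun v => x v - c), (adm_shift_iff c).mpr ?_, ?_⟩
    · rw [e]; exact hY
    · simp only
      rw [setIntegral_shift]
      refine integral_congr_ae (Eventually.of_forall fun x => ?_)
      have := en_shift (fun x => Y (fun v => x v - c)) c x
      rw [e] at this
      exact this.symm

/-- **Invariance under constants of the data.** -/
theorem bq_shift (c : ℝ) : bq I E (fun u => ζ u + c) W = bq I E ζ W := by
  rw [BQ565.bq_eq, BQ565.bq_eq, bqr_shift, Vr_shift']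

theorem bqMat_shift {μ : Type*} [DecidableEq μ] (c : ℝ) (W : μ → U → ℝ) :
    bqMat (hamP I E (fun u => ζ u + c)) E (fun u => ζ u + c) W = bqMat (hamP I E ζ) E ζ W := by
  ext i j
  rw [bqMat_hamP_apply, bqMat_hamP_apply, bq_shift, bq_shift, bq_shift]

/-- Adding constants to the labels does not change the matrix. -/
theorem bqMat_add_const {μ : Type*} [DecidableEq μ] (c : μ → ℝ) (W : μ → U → ℝ) :
    bqMat (hamP I E ζ) E ζ (fun i u => W i u + c i) = bqMat (hamP I E ζ) E ζ W := by
  ext i j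
  rw [bqMat_hamP_apply, bqMat_hamP_apply]
  have h1 : ∀ i, bq I E ζ (fun u => W i u + c i) = bq I E ζ (W i) := fun i => by
    unfold bq; exact bqm_add_const _ _
  have h2 : bq I E ζ ((fun u => W i u + c i) + fun u => W j u + c j) = bq I E ζ (W i + W j) := by
    have h3 := bqm_add_const (E := E) (ζ := ζ) (W := W i + W j) (hamP I E ζ) (c i + c j)
    have e : (fun u => (W i + W j) u + (c i + c j)) =
        (fun u => W i u + c i) + fun u => W j u + c j := by
      funext u; simp only [Pi.add_apply]; ring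
    rw [e] at h3
    exact h3
  rw [h1, h1]
  exact congrArg (fun t => (t - bq I E ζ (W i) - bq I E ζ (W j)) / 2) h2

end Shift

section Face

variable {U : Type*} [DecidableEq U] {I : Finset U} {E : Finset (U × U)} {ζ W : U → ℝ}

/-- A locally Lipschitz field which is rigid at `|grad| ≥ 1` in a neighbourhood of `ham` can be
made rigid near the walls at arbitrarily small cost. -/
theorem exists_adm_of_face (hA : Anch I E) (hE : Proper I E) (hv : 0 < volume (ham I E ζ))
    {Y : (I → ℝ) → (I → ℝ)} (hY : LocallyLipschitz Y) {O : Set (I → ℝ)} (hO : IsOpen O)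
    (hKO : ham I E ζ ⊆ O) (hface : ∀ x ∈ O, ∀ p ∈ E, 1 ≤ |ext I ζ x p.1 - ext I ζ x p.2| →
      ext I W (Y x) p.1 = ext I W (Y x) p.2) {A : ℝ} (hlt : ∫ x in ham I E ζ, en Y x < A) :
    ∃ (x0 : I → ℝ) (s0 : ℝ), 1 < s0 ∧ ∀ s, 1 < s → s < s0 →
      Adm I E ζ W (fun x => Y (dil x0 s x)) ∧
        ∫ x in ham I E ζ, en (fun x => Y (dil x0 s x)) x < A := by
  obtain ⟨x0, hx0, c, hc, hs⟩ := exists_strict hE hv
  have hKc : IsCompact (ham I E ζ) := isCompact_ham hA
  set n := Fintype.card I with hn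
  set J := ∫ x in ham I E ζ, en Y x with hJ
  obtain ⟨R, hR⟩ := (isBounded_ham (ξ := ζ) hA).subset_closedBall 0
  have hR0 : 0 ≤ R := by
    have := hR hx0
    rw [mem_closedBall_zero_iff] at this
    exact (norm_nonneg _).trans this
  -- the energy is bounded on a big ball
  obtain ⟨C, hC0, hC⟩ := exists_jac_bound hY (K := Metric.closedBall (0 : I → ℝ) (3 * R + 1))
    Metric.isBounded_closedBall
  set M : ℝ := ∑ _u : I, ∑ _v : I, C ^ 2 with hM
  have hM0 : 0 ≤ M := Finset.sum_nonneg fun _ _ => Finset.sum_nonneg fun _ _ => sq_nonneg _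
  have hen : ∀ x ∈ Metric.closedBall (0 : I → ℝ) (3 * R + 1), en Y x ≤ M := by
    intro x hx
    refine Finset.sum_le_sum fun u _ => Finset.sum_le_sum fun v _ => ?_
    rw [← sq_abs]
    exact pow_le_pow_left₀ (abs_nonneg _) (hC x hx u v) 2
  set vK := volume.real (ham I E ζ) with hvK
  have hcont : ContinuousAt (fun s : ℝ => s ^ 2 * (s ^ n)⁻¹ * (J + M * ((s ^ n - 1) * vK))) 1 := by
    have : (1 : ℝ) ^ n ≠ 0 := by simp
    refine ((continuousAt_id.pow 2).mul ((continuousAt_id.pow n).inv₀ this)).mul ?_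
    exact continuousAt_const.add (continuousAt_const.mul
      (((continuousAt_id.pow n).sub continuousAt_const).mul continuousAt_const))
  have hev : ∀ᶠ s in 𝓝 (1 : ℝ), s ^ 2 * (s ^ n)⁻¹ * (J + M * ((s ^ n - 1) * vK)) < A := by
    refine hcont.eventually_lt continuousAt_const ?_
    simpa using hlt
  -- the dilated polytope stays in `O`
  have hev2 : ∀ᶠ s in 𝓝 (1 : ℝ), ∀ x ∈ ham I E ζ, dil x0 s x ∈ O := by
    have hc2 : Continuous fun q : ℝ × (I → ℝ) => dil x0 q.1 q.2 := by unfold dil; fun_prop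
    have := hKc.eventually_forall_of_forall_eventually (x₀ := (1 : ℝ))
      (P := fun s x => dil x0 s x ∈ O) (fun x hx => by
        have h1 : (fun q : ℝ × (I → ℝ) => dil x0 q.1 q.2) (1, x) ∈ O := by
          have : dil x0 1 x = x := by simp [dil]
          simp only [this]; exact hKO hx
        exact hc2.continuousAt.eventually (hO.mem_nhds h1))
    exact this
  obtain ⟨r, hr0, hr1⟩ := Metric.eventually_nhds_iff.mp (hev.and hev2)
  refine ⟨x0, min (1 + r) 2, lt_min (by linarith) (by norm_num), fun s hs1 hs2 => ?_⟩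
  have hsr : s < 1 + r := lt_of_lt_of_le hs2 (min_le_left _ _)
  have hs2' : s < 2 := lt_of_lt_of_le hs2 (min_le_right _ _)
  have hs0 : 0 < s := by linarith
  obtain ⟨hA', hO'⟩ := hr1 (y := s) (by
    rw [Real.dist_eq, abs_of_pos (by linarith)]; linarith)
  have hgr : ∀ (x : I → ℝ) (p : U × U),
      ext I ζ (dil x0 s x) p.1 - ext I ζ (dil x0 s x) p.2 =
        (1 - s) * (ext I ζ x0 p.1 - ext I ζ x0 p.2) + s * (ext I ζ x p.1 - ext I ζ x p.2) := by
    intro x p
    rw [ext_dil, ext_dil]; ring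
  refine ⟨⟨ll_dil hY x0 s, (s - 1) * c / s, by
    have : 0 < s - 1 := by linarith
    positivity, ?_⟩, ?_⟩
  · intro x hx p hp hge
    refine hface _ (hO' x hx) p hp ?_
    rw [hgr]
    set g := ext I ζ x p.1 - ext I ζ x p.2
    set g0 := ext I ζ x0 p.1 - ext I ζ x0 p.2
    have h1 : |g0| ≤ 1 - c := hs p hp
    have h2 : s * |g| ≤ |(1 - s) * g0 + s * g| + (s - 1) * |g0| := by
      have : s * g = ((1 - s) * g0 + s * g) - (1 - s) * g0 := by ring
      calc s * |g| = |s * g| := by rw [abs_mul, abs_of_pos hs0]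
        _ = |((1 - s) * g0 + s * g) - (1 - s) * g0| := by rw [← this]
        _ ≤ |(1 - s) * g0 + s * g| + |(1 - s) * g0| := abs_sub _ _
        _ = _ := by rw [abs_mul, abs_of_neg (by linarith : 1 - s < 0)]; ring
    have h3 : s * (1 - (s - 1) * c / s) = s - (s - 1) * c := by field_simp
    have h4 : s - (s - 1) * c ≤ s * |g| := by
      rw [← h3]; exact mul_le_mul_of_nonneg_left hge hs0.le
    nlinarith
  · -- the energy
    set K := ham I E ζ with hK
    set K' : Set (I → ℝ) := dil x0 s '' K with hK'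
    have hinv : ∀ x, dil x0 s⁻¹ (dil x0 s x) = x := by
      intro x
      funext i
      simp only [dil, Pi.add_apply, Pi.smul_apply, smul_eq_mul]
      field_simp
      ring
    have hinv' : ∀ x, dil x0 s (dil x0 s⁻¹ x) = x := by
      intro x
      funext i
      simp only [dil, Pi.add_apply, Pi.smul_apply, smul_eq_mul]
      field_simp
      ring
    have hK'eq : K' = dil x0 s⁻¹ ⁻¹' K := by
      ext x
      constructor
      · rintro ⟨y, hy, rfl⟩
        rw [mem_preimage, hinv]; exact hy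
      · intro hx
        exact ⟨_, hx, hinv' x⟩
    have hK'm : MeasurableSet K' := by
      rw [hK'eq]; exact (continuous_dil x0 s⁻¹).measurable measurableSet_ham
    have hKK' : K ⊆ K' := by
      rw [hK'eq]
      intro x hx
      have : dil x0 s⁻¹ x = (1 - s⁻¹) • x0 + s⁻¹ • x := rfl
      rw [mem_preimage, this]
      exact convex_ham hx0 hx (by
        rw [sub_nonneg]; exact inv_le_one_of_one_le₀ hs1.le) (by positivity) (by ring)
    have hK'sub : K' ⊆ Metric.closedBall (0 : I → ℝ) (3 * R + 1) := by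
      rintro _ ⟨y, hy, rfl⟩
      rw [mem_closedBall_zero_iff]
      have h1 := hR hy
      have h2 := hR hx0
      rw [mem_closedBall_zero_iff] at h1 h2
      calc ‖dil x0 s y‖ ≤ ‖(1 - s) • x0‖ + ‖s • y‖ := norm_add_le _ _
        _ = (s - 1) * ‖x0‖ + s * ‖y‖ := by
            rw [norm_smul, norm_smul, Real.norm_eq_abs, Real.norm_eq_abs,
              abs_of_neg (by linarith : 1 - s < 0), abs_of_pos hs0]
            ring
        _ ≤ 1 * R + 2 * R := by
            refine add_le_add (mul_le_mul (by linarith) h2 (norm_nonneg _) (by norm_num))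
              (mul_le_mul hs2'.le h1 (norm_nonneg _) (by norm_num))
        _ ≤ 3 * R + 1 := by linarith
    have hK'b : Bornology.IsBounded K' := Metric.isBounded_closedBall.subset hK'sub
    have h := setIntegral_en_dil_le hY (measurableSet_ham (F := I) (E := E) (ξ := ζ)) hK'm hK'b x0
      hs0 (fun x hx => mem_image_of_mem _ hx)
    refine lt_of_le_of_lt (h.trans ?_) hA'
    refine mul_le_mul_of_nonneg_left ?_ (by positivity)
    -- split the integral
    have hi : IntegrableOn (en Y) K' := integrableOn_en hY hK'b hK'm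
    have hKm : MeasurableSet K := measurableSet_ham
    have hsplit : ∫ x in K', en Y x = (∫ x in K, en Y x) + ∫ x in K' \ K, en Y x := by
      rw [← setIntegral_union disjoint_sdiff_right (hK'm.diff hKm)
        (hi.mono_set hKK') (hi.mono_set sdiff_subset), union_sdiff_cancel hKK']
    rw [hsplit]
    refine add_le_add le_rfl ?_
    have hvol' : volume.real K' = s ^ n * vK := by
      have h1 := integral_dil ((K'.indicator fun _ => (1 : ℝ))) x0 hs0
      rw [integral_indicator hK'm, setIntegral_const, smul_eq_mul, mul_one] at h1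
      have h2 : (fun x => K'.indicator (fun _ => (1 : ℝ)) (dil x0 s x)) =
          K.indicator fun _ => (1 : ℝ) := by
        funext x
        by_cases hx : x ∈ K
        · rw [indicator_of_mem hx, indicator_of_mem (mem_image_of_mem _ hx)]
        · rw [indicator_of_notMem hx, indicator_of_notMem]
          intro hx'
          rw [hK'eq, mem_preimage, hinv] at hx'
          exact hx hx'
      rw [h2, integral_indicator hKm, setIntegral_const, smul_eq_mul, mul_one] at h1
      change vK = (s ^ n)⁻¹ * volume.real K' at h1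
      rw [h1]
      field_simp
    have hvd : volume.real (K' \ K) = (s ^ n - 1) * vK := by
      have h1 := measureReal_sdiff_add_inter (μ := volume) (s := K') hKm
        (h := (hK'b.measure_lt_top).ne)
      rw [inter_eq_self_of_subset_right hKK', hvol'] at h1
      change _ + vK = _ at h1
      linarith
    have hfin : volume (K' \ K) < ∞ :=
      lt_of_le_of_lt (measure_mono sdiff_subset) hK'b.measure_lt_top
    calc ∫ x in K' \ K, en Y x ≤ ∫ _x in K' \ K, M := by
          refine setIntegral_mono_on (hi.mono_set sdiff_subset)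
            (integrableOn_const hfin.ne) (hK'm.diff hKm) fun x hx => hen x (hK'sub hx.1)
      _ = M * ((s ^ n - 1) * vK) := by
          rw [setIntegral_const, smul_eq_mul, hvd]; ring

theorem bqr_le_of_face (hA : Anch I E) (hE : Proper I E) (hv : 0 < volume (ham I E ζ))
    {Y : (I → ℝ) → (I → ℝ)} (hY : LocallyLipschitz Y) {O : Set (I → ℝ)} (hO : IsOpen O)
    (hKO : ham I E ζ ⊆ O) (hface : ∀ x ∈ O, ∀ p ∈ E, 1 ≤ |ext I ζ x p.1 - ext I ζ x p.2| →
      ext I W (Y x) p.1 = ext I W (Y x) p.2) :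
    bqr I E ζ W ≤ ∫ x in ham I E ζ, en Y x := by
  refine le_of_forall_pos_lt_add fun eps he => ?_
  obtain ⟨x0, s0, hs0, h⟩ := exists_adm_of_face hA hE hv hY hO hKO hface
    (A := (∫ x in ham I E ζ, en Y x) + eps) (by linarith)
  obtain ⟨h1, h2⟩ := h ((1 + s0) / 2) (by linarith) (by linarith)
  exact lt_of_le_of_lt (bqm_le h1) h2

theorem bq_le_of_face (hA : Anch I E) (hE : Proper I E) (hv : 0 < volume (ham I E ζ))
    {Y : (I → ℝ) → (I → ℝ)} (hY : LocallyLipschitz Y) {O : Set (I → ℝ)} (hO : IsOpen O)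
    (hKO : ham I E ζ ⊆ O) (hface : ∀ x ∈ O, ∀ p ∈ E, 1 ≤ |ext I ζ x p.1 - ext I ζ x p.2| →
      ext I W (Y x) p.1 = ext I W (Y x) p.2) :
    bq I E ζ W ≤ ∫ x, en Y x ∂(hamP I E ζ) := by
  rw [BQ565.bq_eq, integral_hamP_real, div_eq_inv_mul]
  exact mul_le_mul_of_nonneg_left (bqr_le_of_face hA hE hv hY hO hKO hface)
    (inv_nonneg.mpr measureReal_nonneg)

end Face

end Crest.Agent.R144.BQ565
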