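import Crest.Agent.R144.BQ5_565

/-!
R144 (S0197), helper565.  Block energies in the form (T2) of doc 1760 (helper540), part 1.

* `V0f I E C Y`: bounded Lipschitz fields, rigid near the walls inside `I`, zero off the core `C`;
  no reference to the data.  `V0m`: the submodule.
* `AdT I E C ζ Y`: the same on ONE fibre (locally Lipschitz, rigid near the interior walls of
  `ham I E ζ`, zero off the core).
* `retr`: a locally Lipschitz retraction of the whole space onto `ham I E ζ`.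
* `AdT.exists_V0`: every `AdT` field coincides on `ham I E ζ` with a `V0f` field.
* `bT`, `bT_le`, `bT_le_of_AdT`, `bT_quad`, `bTm` (matrix), ...
-/

set_option autoImplicit false
set_option linter.unusedSectionVars false

open MeasureTheory Set Filter Topology
open scoped ENNReal NNReal Pointwise

noncomputable section

namespace Crest.Agent.R144.BQ565

open Crest.Agent.R144.Ham560
open Crest.Agent.R144.MW121 (jac jac_apply en measurable_jac measurable_en en_nonneg)
open Crest.Agent.R144.Lw425 (dat Proper Vr continuous_int dat_bound volume_tight_eq ham_congr)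

variable {U : Type*} [DecidableEq U] {I : Finset U} {E : Finset (U × U)} {C : Finset U}
  {ζ : U → ℝ}

/-- Both endpoints inside `I`. -/
def Inn (I : Finset U) (p : U × U) : Prop := p.1 ∈ I ∧ p.2 ∈ I

/-- For interior edges the gradient does not see the data. -/
theorem Inn.grad {p : U × U} (hp : Inn I p) (ζ ζ' : U → ℝ) (x : I → ℝ) :
    ext I ζ x p.1 - ext I ζ x p.2 = ext I ζ' x p.1 - ext I ζ' x p.2 := by
  rw [ext_mem hp.1, ext_mem hp.1, ext_mem hp.2, ext_mem hp.2]

/-- The class `V₀` of doc 1760 (T2). -/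
structure V0f (I : Finset U) (E : Finset (U × U)) (C : Finset U) (Y : (I → ℝ) → (I → ℝ)) :
    Prop where
  lip : ∃ c : ℝ≥0, LipschitzWith c Y
  bdd : ∃ M : ℝ, ∀ x u, |Y x u| ≤ M
  rig : ∃ ρ > 0, ∀ x : I → ℝ, (∀ p ∈ E, Inn I p → |ext I 0 x p.1 - ext I 0 x p.2| ≤ 1) →
    ∀ p ∈ E, Inn I p → 1 - ρ ≤ |ext I 0 x p.1 - ext I 0 x p.2| →
      ext I 0 (Y x) p.1 = ext I 0 (Y x) p.2
  core : ∀ x (w : I), (w : U) ∉ C → Y x w = 0

/-- The class on one fibre. -/
structure AdT (I : Finset U) (E : Finset (U × U)) (C : Finset U) (ζ : U → ℝ)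
    (Y : (I → ℝ) → (I → ℝ)) : Prop where
  lip : LocallyLipschitz Y
  rig : ∃ ρ > 0, ∀ x ∈ ham I E ζ, ∀ p ∈ E, Inn I p →
    1 - ρ ≤ |ext I 0 x p.1 - ext I 0 x p.2| → ext I 0 (Y x) p.1 = ext I 0 (Y x) p.2
  core : ∀ x ∈ ham I E ζ, ∀ w : I, (w : U) ∉ C → Y x w = 0

theorem V0f.comb {Y Y' : (I → ℝ) → (I → ℝ)} (h : V0f I E C Y) (h' : V0f I E C Y') (a b : ℝ) :
    V0f I E C (a • Y + b • Y') where
  lip := by
    obtain ⟨c, hc⟩ := h.lip
    obtain ⟨c', hc'⟩ := h'.lip
    have h1 : LipschitzWith (‖a‖₊ * c) (a • Y) := by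
      refine LipschitzWith.of_dist_le_mul fun x y => ?_
      change dist (a • Y x) (a • Y y) ≤ _
      rw [dist_smul₀, NNReal.coe_mul, mul_assoc]
      exact mul_le_mul_of_nonneg_left (hc.dist_le_mul x y) (norm_nonneg _)
    have h2 : LipschitzWith (‖b‖₊ * c') (b • Y') := by
      refine LipschitzWith.of_dist_le_mul fun x y => ?_
      change dist (b • Y' x) (b • Y' y) ≤ _
      rw [dist_smul₀, NNReal.coe_mul, mul_assoc]
      exact mul_le_mul_of_nonneg_left (hc'.dist_le_mul x y) (norm_nonneg _)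
    exact ⟨_, h1.add h2⟩
  bdd := by
    obtain ⟨M, hM⟩ := h.bdd
    obtain ⟨M', hM'⟩ := h'.bdd
    refine ⟨|a| * M + |b| * M', fun x u => ?_⟩
    change |a * Y x u + b * Y' x u| ≤ _
    refine (abs_add_le _ _).trans ?_
    rw [abs_mul, abs_mul]
    exact add_le_add (mul_le_mul_of_nonneg_left (hM x u) (abs_nonneg _))
      (mul_le_mul_of_nonneg_left (hM' x u) (abs_nonneg _))
  rig := by
    obtain ⟨r, hr, h1⟩ := h.rig
    obtain ⟨r', hr', h2⟩ := h'.rig
    refine ⟨min r r', lt_min hr hr', fun x hx p hp hi hq => ?_⟩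
    have e1 := h1 x hx p hp hi (by have := min_le_left r r'; linarith)
    have e2 := h2 x hx p hp hi (by have := min_le_right r r'; linarith)
    have e3 : ∀ u, ext I 0 ((a • Y + b • Y') x) u = a * ext I 0 (Y x) u + b * ext I 0 (Y' x) u := by
      intro u
      have := ext_comb (F := I) (ξ := 0) (η := 0) a b (Y x) (Y' x) u
      simpa using this
    rw [e3, e3, e1, e2]
  core := fun x w hw => by
    change a * Y x w + b * Y' x w = 0
    rw [h.core x w hw, h'.core x w hw]; ring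

theorem V0f.zero : V0f I E C (0 : (I → ℝ) → (I → ℝ)) where
  lip := ⟨0, LipschitzWith.const 0⟩
  bdd := ⟨0, fun x u => by simp⟩
  rig := ⟨1, one_pos, fun _ _ p _ _ _ => by
    have : ∀ u, ext I 0 ((0 : (I → ℝ) → (I → ℝ)) 0) u = 0 := fun u => by
      by_cases h : u ∈ I
      · rw [ext_mem h]; rfl
      · rw [ext_notMem h]; rfl
    exact (this p.1).trans (this p.2).symm⟩
  core := fun _ _ _ => rfl

theorem V0f.add {Y Y' : (I → ℝ) → (I → ℝ)} (h : V0f I E C Y) (h' : V0f I E C Y') :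
    V0f I E C (Y + Y') := by simpa using h.comb h' 1 1

theorem V0f.smul {Y : (I → ℝ) → (I → ℝ)} (h : V0f I E C Y) (a : ℝ) : V0f I E C (a • Y) := by
  simpa using h.comb h a 0

theorem V0f.ll {Y : (I → ℝ) → (I → ℝ)} (h : V0f I E C Y) : LocallyLipschitz Y := by
  obtain ⟨c, hc⟩ := h.lip
  exact hc.locallyLipschitz

/-- A `V₀` field belongs to the class of every fibre. -/
theorem V0f.adT {Y : (I → ℝ) → (I → ℝ)} (h : V0f I E C Y) (ζ : U → ℝ) : AdT I E C ζ Y where
  lip := h.ll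
  rig := by
    obtain ⟨ρ, hρ, hr⟩ := h.rig
    refine ⟨ρ, hρ, fun x hx p hp hi hge => hr x (fun q hq hqi => ?_) p hp hi hge⟩
    rw [hqi.grad 0 ζ]; exact hx q hq
  core := fun x _ w hw => h.core x w hw

variable (I E C) in
/-- The submodule of `V₀` fields. -/
def V0m : Submodule ℝ (llip I) where
  carrier := {Y | V0f I E C Y.1}
  add_mem' := fun ha hb => ha.add hb
  zero_mem' := V0f.zero
  smul_mem' := fun t _ h => V0f.smul h t

theorem mem_V0m {Y : llip I} : Y ∈ V0m I E C ↔ V0f I E C Y.1 := Iff.rfl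

/-! ### The retraction onto the fibre -/

/-- The maximal gradient, at least `1`. -/
def mxg (I : Finset U) (E : Finset (U × U)) (ζ : U → ℝ) (x : I → ℝ) : ℝ :=
  (insert 1 (E.image fun p => |ext I ζ x p.1 - ext I ζ x p.2|)).max' (Finset.insert_nonempty _ _)

theorem one_le_mxg (x : I → ℝ) : 1 ≤ mxg I E ζ x :=
  Finset.le_max' _ _ (Finset.mem_insert_self _ _)

theorem le_mxg (x : I → ℝ) {p : U × U} (hp : p ∈ E) :
    |ext I ζ x p.1 - ext I ζ x p.2| ≤ mxg I E ζ x :=
  Finset.le_max' _ _ (Finset.mem_insert_of_mem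
    (Finset.mem_image_of_mem (fun p : U × U => |ext I ζ x p.1 - ext I ζ x p.2|) hp))

theorem mxg_le {x : I → ℝ} {c : ℝ} (h1 : 1 ≤ c)
    (h : ∀ p ∈ E, |ext I ζ x p.1 - ext I ζ x p.2| ≤ c) : mxg I E ζ x ≤ c := by
  refine Finset.max'_le _ _ _ fun y hy => ?_
  rcases Finset.mem_insert.mp hy with rfl | hy
  · exact h1
  · obtain ⟨q, hq, rfl⟩ := Finset.mem_image.mp hy
    exact h q hq

theorem mxg_eq_one {x : I → ℝ} (hx : x ∈ ham I E ζ) : mxg I E ζ x = 1 :=
  le_antisymm (mxg_le le_rfl hx) (one_le_mxg x)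

theorem mem_ham_iff_mxg {x : I → ℝ} : x ∈ ham I E ζ ↔ mxg I E ζ x ≤ 1 :=
  ⟨fun h => (mxg_eq_one h).le, fun h p hp => (le_mxg x hp).trans h⟩

theorem abs_ext_sub_le (x y : I → ℝ) (u : U) : |ext I ζ x u - ext I ζ y u| ≤ dist x y := by
  by_cases h : u ∈ I
  · rw [ext_mem h, ext_mem h, ← Real.dist_eq]; exact dist_le_pi_dist x y _
  · rw [ext_notMem h, ext_notMem h]; simp

theorem mxg_lip : LipschitzWith 2 (mxg I E ζ) := by
  have key : ∀ x y, mxg I E ζ x ≤ mxg I E ζ y + 2 * dist x y := by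
    intro x y
    refine mxg_le ?_ fun p hp => ?_
    · have := one_le_mxg (E := E) (ζ := ζ) y
      have := dist_nonneg (x := x) (y := y)
      linarith
    · have h1 := le_mxg (ζ := ζ) y hp
      have h2 := abs_ext_sub_le (ζ := ζ) x y p.1
      have h3 := abs_ext_sub_le (ζ := ζ) x y p.2
      rw [abs_le] at *
      constructor <;> linarith [h1.1, h1.2, h2.1, h2.2, h3.1, h3.2]
  refine LipschitzWith.of_dist_le_mul fun x y => ?_
  rw [Real.dist_eq, abs_le]
  have h1 := key x y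
  have h2 := key y x
  rw [dist_comm y x] at h2
  constructor
  · change -(2 * dist x y) ≤ _; linarith
  · change _ ≤ 2 * dist x y; linarith

/-- The ratio of the retraction. -/
def rat (I : Finset U) (E : Finset (U × U)) (ζ : U → ℝ) (c : ℝ) (x : I → ℝ) : ℝ :=
  c * (max c (c + (mxg I E ζ x - 1)))⁻¹

/-- The retraction onto the fibre with centre `x0`. -/
def retr (I : Finset U) (E : Finset (U × U)) (ζ : U → ℝ) (x0 : I → ℝ) (c : ℝ) (x : I → ℝ) :
    I → ℝ := dil x0 (rat I E ζ c x) x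

theorem rat_eq {c : ℝ} (x : I → ℝ) : rat I E ζ c x = c * (c + (mxg I E ζ x - 1))⁻¹ := by
  rw [rat, max_eq_right (by have := one_le_mxg (E := E) (ζ := ζ) x; linarith)]

theorem rat_pos {c : ℝ} (hc : 0 < c) (x : I → ℝ) : 0 < rat I E ζ c x := by
  rw [rat_eq]
  have := one_le_mxg (E := E) (ζ := ζ) x
  have : 0 < c + (mxg I E ζ x - 1) := by linarith
  positivity

theorem rat_mul {c : ℝ} (hc : 0 < c) (x : I → ℝ) :
    rat I E ζ c x * (c + (mxg I E ζ x - 1)) = c := by
  rw [rat_eq]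
  have := one_le_mxg (E := E) (ζ := ζ) x
  have : 0 < c + (mxg I E ζ x - 1) := by linarith
  field_simp

theorem rat_le_one {c : ℝ} (hc : 0 < c) (x : I → ℝ) : rat I E ζ c x ≤ 1 := by
  have h1 := rat_mul (E := E) (ζ := ζ) hc x
  have h2 := one_le_mxg (E := E) (ζ := ζ) x
  have h3 := rat_pos (E := E) (ζ := ζ) hc x
  nlinarith

theorem one_sub_rat_le {c : ℝ} (hc : 0 < c) (x : I → ℝ) :
    1 - rat I E ζ c x ≤ (mxg I E ζ x - 1) / c := by
  have h1 := rat_mul (E := E) (ζ := ζ) hc x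
  have h2 := one_le_mxg (E := E) (ζ := ζ) x
  have h3 := rat_pos (E := E) (ζ := ζ) hc x
  have h4 := rat_le_one (E := E) (ζ := ζ) hc x
  rw [le_div_iff₀ hc]
  nlinarith

theorem retr_mem {x0 : I → ℝ} {c : ℝ} (hc : 0 < c)
    (h0 : ∀ p ∈ E, |ext I ζ x0 p.1 - ext I ζ x0 p.2| ≤ 1 - c) (x : I → ℝ) :
    retr I E ζ x0 c x ∈ ham I E ζ := by
  intro p hp
  rw [retr, ext_dil, ext_dil]
  set s := rat I E ζ c x
  have h1 := rat_mul (E := E) (ζ := ζ) hc x
  have h3 : 0 < s := rat_pos (E := E) (ζ := ζ) hc x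
  have h4 : s ≤ 1 := rat_le_one (E := E) (ζ := ζ) hc x
  have h5 := h0 p hp
  have h6 := le_mxg (ζ := ζ) x hp
  have e : (1 - s) * ext I ζ x0 p.1 + s * ext I ζ x p.1 -
      ((1 - s) * ext I ζ x0 p.2 + s * ext I ζ x p.2) =
      (1 - s) * (ext I ζ x0 p.1 - ext I ζ x0 p.2) + s * (ext I ζ x p.1 - ext I ζ x p.2) := by ring
  rw [e]
  refine (abs_add_le _ _).trans ?_
  rw [abs_mul, abs_mul, abs_of_nonneg (by linarith : 0 ≤ 1 - s), abs_of_pos h3]
  have h7 := mul_le_mul_of_nonneg_left h5 (by linarith : 0 ≤ 1 - s)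
  have h8 := mul_le_mul_of_nonneg_left h6 h3.le
  nlinarith

theorem retr_eq_self {x0 : I → ℝ} {c : ℝ} (hc : 0 < c) {x : I → ℝ} (hx : x ∈ ham I E ζ) :
    retr I E ζ x0 c x = x := by
  have h1 : rat I E ζ c x = 1 := by
    rw [rat_eq, mxg_eq_one hx]; field_simp; simp
  rw [retr, h1]; simp [dil]

theorem ll_rat {c : ℝ} (hc : 0 < c) : LocallyLipschitz (rat I E ζ c) := by
  refine LL.mul (LocallyLipschitz.const c) ?_
  have h1 : LipschitzWith 2 fun x : I → ℝ => c + (mxg I E ζ x - 1) := by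
    refine LipschitzWith.of_dist_le_mul fun x y => ?_
    have := (mxg_lip (I := I) (E := E) (ζ := ζ)).dist_le_mul x y
    rw [Real.dist_eq] at this ⊢
    rw [show c + (mxg I E ζ x - 1) - (c + (mxg I E ζ y - 1)) = mxg I E ζ x - mxg I E ζ y by ring]
    exact this
  exact (lip_inv_max hc).locallyLipschitz.comp h1.locallyLipschitz

theorem ll_retr (x0 : I → ℝ) {c : ℝ} (hc : 0 < c) : LocallyLipschitz (retr I E ζ x0 c) := by
  refine LL.pi fun u => ?_
  have e : (fun x : I → ℝ => retr I E ζ x0 c x u) =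
      fun x => x0 u + rat I E ζ c x * (x u + -(x0 u)) := by
    funext x
    simp only [retr, dil, Pi.add_apply, Pi.smul_apply, smul_eq_mul]; ring
  rw [e]
  refine (LocallyLipschitz.const _).add (LL.mul (ll_rat hc) ?_)
  exact (LL.comp_apply LocallyLipschitz.id u).add (LocallyLipschitz.const _)

/-- The cut-off. -/
def cuto (I : Finset U) (E : Finset (U × U)) (ζ : U → ℝ) (eta : ℝ) (x : I → ℝ) : ℝ :=
  max 0 (min 1 (2 - eta⁻¹ * (mxg I E ζ x - 1)))

theorem cuto_lip (eta : ℝ) : ∃ c : ℝ≥0, LipschitzWith c (cuto I E ζ eta) := by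
  have h1 : LipschitzWith (‖eta⁻¹‖₊ * 2) fun x : I → ℝ => 2 - eta⁻¹ * (mxg I E ζ x - 1) := by
    refine LipschitzWith.of_dist_le_mul fun x y => ?_
    have := (mxg_lip (I := I) (E := E) (ζ := ζ)).dist_le_mul x y
    rw [Real.dist_eq] at this ⊢
    rw [show 2 - eta⁻¹ * (mxg I E ζ x - 1) - (2 - eta⁻¹ * (mxg I E ζ y - 1)) =
      -(eta⁻¹ * (mxg I E ζ x - mxg I E ζ y)) by ring, abs_neg, abs_mul, NNReal.coe_mul, mul_assoc]
    exact mul_le_mul_of_nonneg_left this (abs_nonneg _)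
  exact ⟨_, (h1.const_min 1).const_max 0⟩

theorem cuto_nonneg (eta : ℝ) (x : I → ℝ) : 0 ≤ cuto I E ζ eta x := le_max_left _ _

theorem cuto_le_one (eta : ℝ) (x : I → ℝ) : cuto I E ζ eta x ≤ 1 :=
  max_le zero_le_one (min_le_left _ _)

theorem cuto_eq_one {eta : ℝ} (he : 0 < eta) {x : I → ℝ} (hx : mxg I E ζ x ≤ 1 + eta) :
    cuto I E ζ eta x = 1 := by
  have : eta⁻¹ * (mxg I E ζ x - 1) ≤ 1 := by
    rw [inv_mul_le_iff₀ he]; linarith
  rw [cuto, min_eq_left (by linarith), max_eq_right zero_le_one]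

theorem cuto_eq_zero {eta : ℝ} (he : 0 < eta) {x : I → ℝ} (hx : 1 + 2 * eta ≤ mxg I E ζ x) :
    cuto I E ζ eta x = 0 := by
  have : 2 ≤ eta⁻¹ * (mxg I E ζ x - 1) := by
    rw [← div_eq_inv_mul, le_div_iff₀ he]; linarith
  rw [cuto, max_eq_left]
  exact (min_le_right _ _).trans (by linarith)

/-- The enlarged polytope is bounded. -/
theorem isBounded_mxg (hA : Anch I E) {m : ℝ} (hm : 0 < m) :
    Bornology.IsBounded {x : I → ℝ | mxg I E ζ x ≤ m} := by
  have h1 : {x : I → ℝ | mxg I E ζ x ≤ m} ⊆ m • ham I E (m⁻¹ • ζ) := by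
    intro x hx
    refine ⟨m⁻¹ • x, fun p hp => ?_, by simp [smul_smul, hm.ne']⟩
    have h2 := (le_mxg (ζ := ζ) x hp).trans hx
    have e : ∀ u, ext I (m⁻¹ • ζ) (m⁻¹ • x) u = m⁻¹ * ext I ζ x u := by
      intro u
      by_cases h : u ∈ I
      · rw [ext_mem h, ext_mem h]; rfl
      · rw [ext_notMem h, ext_notMem h]; rfl
    rw [e, e, ← mul_sub, abs_mul, abs_of_pos (inv_pos.mpr hm), inv_mul_le_iff₀ hm, mul_one]
    exact h2
  exact ((isBounded_ham hA).smul₀ m).subset h1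

/-- **Every fibre field coincides on the fibre with a `V₀` field.** -/
theorem AdT.exists_V0 (hA : Anch I E) {x0 : I → ℝ} {c : ℝ} (hc : 0 < c)
    (h0 : ∀ p ∈ E, |ext I ζ x0 p.1 - ext I ζ x0 p.2| ≤ 1 - c)
    {Y : (I → ℝ) → (I → ℝ)} (h : AdT I E C ζ Y) :
    ∃ Y', V0f I E C Y' ∧ ∀ x ∈ ham I E ζ, Y' x = Y x := by
  obtain ⟨ρ, hρ, hr⟩ := h.rig
  set eta : ℝ := c * ρ / 16 with heta
  have he : 0 < eta := by positivity
  -- globally Lipschitz bounded representative of `Y ∘ retr`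
  have hll : LocallyLipschitz fun x => Y (retr I E ζ x0 c x) := h.lip.comp (ll_retr x0 hc)
  obtain ⟨Z, cZ, hZl, ⟨M, hM⟩, hZe⟩ := exists_lip_rep hll
    (isBounded_mxg (ζ := ζ) hA (m := 1 + 2 * eta) (by positivity))
  have hM0 : 0 ≤ M := (norm_nonneg _).trans (hM 0)
  obtain ⟨cc, hcc⟩ := cuto_lip (I := I) (E := E) (ζ := ζ) eta
  set Y' : (I → ℝ) → (I → ℝ) := fun x => cuto I E ζ eta x • Z x with hY'
  have hY'eq : ∀ x, Y' x = cuto I E ζ eta x • Y (retr I E ζ x0 c x) := by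
    intro x
    by_cases hx : mxg I E ζ x ≤ 1 + 2 * eta
    · simp only [hY']
      rw [(hZe x hx).eq_of_nhds]
    · simp only [hY']
      rw [cuto_eq_zero he (not_le.mp hx).le, zero_smul, zero_smul]
  refine ⟨Y', ⟨?_, ⟨M, fun x u => ?_⟩, ⟨ρ / 2, by positivity, fun x hx p hp hi hge => ?_⟩,
    fun x w hw => ?_⟩, fun x hx => ?_⟩
  · -- Lipschitz
    refine ⟨cZ + cc * ⟨M, hM0⟩, LipschitzWith.of_dist_le_mul fun x y => ?_⟩
    have h1 := hZl.dist_le_mul x y
    have h2 := hcc.dist_le_mul x y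
    have h3 : dist (Y' x) (Y' y) ≤ dist (Z x) (Z y) + dist (cuto I E ζ eta x) (cuto I E ζ eta y) * M := by
      rw [dist_eq_norm, dist_eq_norm, dist_eq_norm]
      have e : Y' x - Y' y = cuto I E ζ eta x • (Z x - Z y) +
          (cuto I E ζ eta x - cuto I E ζ eta y) • Z y := by
        simp only [hY', smul_sub, sub_smul]; abel
      rw [e]
      refine (norm_add_le _ _).trans ?_
      rw [norm_smul, norm_smul, Real.norm_eq_abs (cuto I E ζ eta x),
        abs_of_nonneg (cuto_nonneg eta x)]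
      refine add_le_add ?_ (mul_le_mul_of_nonneg_left (hM y) (norm_nonneg _))
      exact mul_le_of_le_one_left (norm_nonneg _) (cuto_le_one eta x)
    refine h3.trans ?_
    have e2 : ((cZ + cc * ⟨M, hM0⟩ : ℝ≥0) : ℝ) = cZ + cc * M := by push_cast; rfl
    rw [e2]
    nlinarith [mul_le_mul_of_nonneg_right h2 hM0]
  · -- bounded
    change |cuto I E ζ eta x * Z x u| ≤ M
    rw [abs_mul, abs_of_nonneg (cuto_nonneg eta x)]
    calc _ ≤ 1 * |Z x u| := mul_le_mul_of_nonneg_right (cuto_le_one eta x) (abs_nonneg _)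
      _ ≤ M := by rw [one_mul]; exact (norm_le_pi_norm (Z x) u).trans (hM x)
  · -- rigid near the interior walls
    have ee : ∀ u, ext I 0 (Y' x) u = cuto I E ζ eta x * ext I 0 (Y (retr I E ζ x0 c x)) u := by
      intro u
      rw [hY'eq x]
      by_cases h : u ∈ I
      · rw [ext_mem h, ext_mem h]; rfl
      · rw [ext_notMem h, ext_notMem h]; simp
    rw [ee, ee]
    by_cases hm : 1 + 2 * eta ≤ mxg I E ζ x
    · rw [cuto_eq_zero he hm]; ring
    · push Not at hm
      congr 1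
      refine hr _ (retr_mem hc h0 x) p hp hi ?_
      rw [retr, hi.grad 0 ζ, ext_dil, ext_dil]
      have h3 := rat_pos (E := E) (ζ := ζ) hc x
      have h4 := rat_le_one (E := E) (ζ := ζ) hc x
      have h5 := one_sub_rat_le (E := E) (ζ := ζ) hc x
      set s := rat I E ζ c x
      have h6 : 1 - s ≤ ρ / 8 := by
        refine h5.trans ?_
        rw [div_le_iff₀ hc]
        have : 2 * eta = ρ / 8 * c := by rw [heta]; ring
        linarith
      have h7 := h0 p hp
      have hg0 : |ext I ζ x0 p.1 - ext I ζ x0 p.2| ≤ 1 := by linarith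
      have hgx : |ext I ζ x p.1 - ext I ζ x p.2| ≤ 1 := by
        rw [hi.grad ζ 0]; exact hx p hp hi
      rw [hi.grad 0 ζ] at hge
      set g0 := ext I ζ x0 p.1 - ext I ζ x0 p.2
      set g := ext I ζ x p.1 - ext I ζ x p.2
      have e : (1 - s) * ext I ζ x0 p.1 + s * ext I ζ x p.1 -
          ((1 - s) * ext I ζ x0 p.2 + s * ext I ζ x p.2) = (1 - s) * g0 + s * g := by
        simp only [g0, g]; ring
      rw [e]
      have h8 : s * |g| ≤ |(1 - s) * g0 + s * g| + (1 - s) * |g0| := by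
        have : s * g = ((1 - s) * g0 + s * g) - (1 - s) * g0 := by ring
        calc s * |g| = |s * g| := by rw [abs_mul, abs_of_pos h3]
          _ = |((1 - s) * g0 + s * g) - (1 - s) * g0| := by rw [← this]
          _ ≤ |(1 - s) * g0 + s * g| + |(1 - s) * g0| := abs_sub _ _
          _ = _ := by rw [abs_mul, abs_of_nonneg (by linarith : 0 ≤ 1 - s)]
      have h9 : |g| - (1 - s) ≤ s * |g| := by nlinarith [abs_nonneg g]
      have h10 : (1 - s) * |g0| ≤ 1 - s := by nlinarith [abs_nonneg g0]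
      linarith
  · -- zero off the core
    rw [hY'eq x]
    change cuto I E ζ eta x * Y (retr I E ζ x0 c x) w = 0
    rw [h.core _ (retr_mem hc h0 x) w hw, mul_zero]
  · -- equal on the fibre
    rw [hY'eq x, retr_eq_self hc hx, cuto_eq_one he, one_smul]
    rw [mxg_eq_one hx]; linarith

/-- The strict part of the fibre has full measure. -/
theorem ae_strict (hE : Proper I E) (ζ : U → ℝ) : ∀ᵐ x ∂(volume.restrict (ham I E ζ)),
    ham I E ζ ∈ 𝓝 x := by
  have hae : ∀ᵐ x : I → ℝ, ∀ p ∈ E, |ext I ζ x p.1 - ext I ζ x p.2| ≠ 1 := by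
    rw [Filter.eventually_all_finset]
    intro p hp
    rw [ae_iff]
    simpa using volume_tight_eq (ξ := ζ) (hE p hp).1 (hE p hp).2
  filter_upwards [ae_restrict_of_ae hae, ae_restrict_mem measurableSet_ham] with x hx hm
  have : ∀ᶠ y in 𝓝 x, ∀ p ∈ E, |ext I ζ y p.1 - ext I ζ y p.2| < 1 := by
    rw [eventually_all_finset]
    intro p hp
    exact (((continuous_ext p.1).sub (continuous_ext p.2)).abs).continuousAt.eventually_lt
      continuousAt_const (lt_of_le_of_ne (hm p hp) (hx p hp))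
  filter_upwards [this] with y hy p hp
  exact (hy p hp).le

theorem hamP_ac_restrict (ζ : U → ℝ) : hamP I E ζ ≪ volume.restrict (ham I E ζ) := by
  rw [hamP]; exact Measure.smul_absolutelyContinuous

/-- Fields which agree on the fibre have the same jacobian almost everywhere on it. -/
theorem ae_jac_eq (hE : Proper I E) {Y Y' : (I → ℝ) → (I → ℝ)} (h : ∀ x ∈ ham I E ζ, Y' x = Y x) :
    ∀ᵐ x ∂(hamP I E ζ), jac Y' x = jac Y x := by
  refine (hamP_ac_restrict ζ).ae_le ?_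
  filter_upwards [ae_strict hE ζ] with x hx
  refine jac_congr ?_
  filter_upwards [hx] with y hy
  exact h y hy

/-- The uniform law is good for all data. -/
theorem goodLaw_hamP' (hA : Anch I E) (ζ : U → ℝ) : GoodLaw (hamP I E ζ) := by
  by_cases hv : volume (ham I E ζ) = 0
  · have h0 : hamP I E ζ = 0 := by
      rw [hamP, Measure.restrict_eq_zero.mpr hv, smul_zero]
    rw [h0]
    exact ⟨inferInstance, Measure.AbsolutelyContinuous.zero _, ⟨∅, Bornology.isBounded_empty, by simp⟩⟩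
  · exact goodLaw_hamP hA hv

/-! ### The block energy -/

/-- The field as an element of `llip`. -/
def mkL (L : (I → ℝ) → (I → ℝ)) (hL : LocallyLipschitz L) : llip I := ⟨L, hL⟩

variable (C) in
/-- The block energy (T2): infimum over `V₀`. -/
def bT (hA : Anch I E) (ζ : U → ℝ) {κ : Type*} [Fintype κ] (L : κ → llip I) (xi : κ → ℝ) : ℝ :=
  qinf (nrgB (hamP I E ζ) (goodLaw_hamP' hA ζ)) (V0m I E C) L xi

variable {κ : Type*} [Fintype κ] {L : κ → llip I} {xi : κ → ℝ}

theorem bT_nonneg (hA : Anch I E) : 0 ≤ bT C hA ζ L xi := qinf_nonneg (isPSD_nrgB _) _ _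

theorem bT_le (hA : Anch I E) {Y : (I → ℝ) → (I → ℝ)} (h : V0f I E C Y) :
    bT C hA ζ L xi ≤ ∫ x, en ((cmb L xi : llip I).1 + Y) x ∂(hamP I E ζ) := by
  have := qinf_le (V := V0m I E C) (isPSD_nrgB (goodLaw_hamP' hA ζ)) L xi
    (x := cmb L xi + ⟨Y, h.ll⟩) (by rw [add_sub_cancel_left]; exact h)
  rw [nrgB_self] at this
  exact this

/-- The energy of the reference field is an upper bound. -/
theorem bT_le_ref (hA : Anch I E) :
    bT C hA ζ L xi ≤ ∫ x, en ((cmb L xi : llip I).1) x ∂(hamP I E ζ) := by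
  have := bT_le (C := C) (ζ := ζ) (L := L) (xi := xi) hA V0f.zero
  simpa using this

/-- **Competitors on one fibre are allowed.**  `X` is any field such that `X - ξ·L` is locally
Lipschitz, rigid near the interior walls of the fibre and zero off the core. -/
theorem bT_le_of_AdT (hA : Anch I E) (hE : Proper I E) (hv : 0 < volume (ham I E ζ))
    {Y : (I → ℝ) → (I → ℝ)} (h : AdT I E C ζ Y) :
    bT C hA ζ L xi ≤ ∫ x, en ((cmb L xi : llip I).1 + Y) x ∂(hamP I E ζ) := by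
  obtain ⟨x0, _, c, hc, h0⟩ := exists_strict hE hv
  obtain ⟨Y', hY', he⟩ := h.exists_V0 hA hc h0
  refine (bT_le hA hY').trans (le_of_eq (integral_congr_ae ?_))
  filter_upwards [ae_jac_eq hE (Y := (cmb L xi : llip I).1 + Y)
    (Y' := (cmb L xi : llip I).1 + Y') (fun x hx => by
      change _ + Y' x = _ + Y x
      rw [he x hx])] with x hx
  simp only [MW121.en, hx]

theorem bT_le_of_AdT' (hA : Anch I E) (hE : Proper I E) (hv : 0 < volume (ham I E ζ))
    {X : (I → ℝ) → (I → ℝ)} (h : AdT I E C ζ (fun x => X x - (cmb L xi : llip I).1 x)) :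
    bT C hA ζ L xi ≤ ∫ x, en X x ∂(hamP I E ζ) := by
  have h1 := bT_le_of_AdT (L := L) (xi := xi) hA hE hv h
  have e : (cmb L xi : llip I).1 + (fun x => X x - (cmb L xi : llip I).1 x) = X := by
    funext x; simp
  rwa [e] at h1

variable (C) in
/-- The block matrix. -/
def bTm [DecidableEq κ] (hA : Anch I E) (ζ : U → ℝ) (L : κ → llip I) : Matrix κ κ ℝ :=
  qmat (nrgB (hamP I E ζ) (goodLaw_hamP' hA ζ)) (V0m I E C) L

theorem bT_quad [DecidableEq κ] (hA : Anch I E) :
    bT C hA ζ L xi = ∑ i, ∑ j, xi i * xi j * bTm C hA ζ L i j := qinf_eq (isPSD_nrgB _) _ _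

open Matrix in
theorem bT_quad' [DecidableEq κ] (hA : Anch I E) :
    bT C hA ζ L xi = xi ⬝ᵥ (bTm C hA ζ L *ᵥ xi) := qinf_eq_dot (isPSD_nrgB _) _ _

theorem bTm_psd [DecidableEq κ] (hA : Anch I E) : (bTm C hA ζ L).PosSemidef :=
  qmat_psd (isPSD_nrgB _) _

theorem bTm_symm [DecidableEq κ] (hA : Anch I E) : (bTm C hA ζ L).IsSymm := qmat_symm _

theorem bTm_diag_le [DecidableEq κ] (hA : Anch I E) (i : κ) :
    bTm C hA ζ L i i ≤ ∫ x, en (L i).1 x ∂(hamP I E ζ) := by
  have := qmat_diag_le (V := V0m I E C) (isPSD_nrgB (goodLaw_hamP' hA ζ)) L i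
  rwa [nrgB_self] at this

theorem bTm_trace_le [DecidableEq κ] (hA : Anch I E) :
    (bTm C hA ζ L).trace ≤ ∑ i, ∫ x, en (L i).1 x ∂(hamP I E ζ) :=
  Finset.sum_le_sum fun i _ => bTm_diag_le hA i

theorem bTm_apply [DecidableEq κ] (hA : Anch I E) (i j : κ) : bTm C hA ζ L i j =
    (bT C hA ζ L (Pi.single i 1 + Pi.single j 1) - bT C hA ζ L (Pi.single i 1) -
      bT C hA ζ L (Pi.single j 1)) / 2 := rfl

end Crest.Agent.R144.BQ565
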