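import Crest.Agent.R144.BQ6_565

/-!
R144 (S0197), helper565.  Block energies in the form (T2) of doc 1760 (helper540), part 2:
ONE countable family of `V₀` fields which is near-optimal for every law and every reference field.

* `exists_seq_dense`: countable dense sequences for maps into second countable spaces;
* `exists_seq_nrg`: the energy seminorms on a submodule of `llip` are separable;
* `exists_seq`: the near-minimising sequence (linear in the slope);
* `exists_seq_bT`: the instance for `bT`.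
-/

set_option autoImplicit false
set_option linter.unusedSectionVars false

open MeasureTheory Set Filter Topology
open scoped ENNReal NNReal Pointwise

noncomputable section

namespace Crest.Agent.R144.BQ565

open Crest.Agent.R144.Ham560
open Crest.Agent.R144.MW121 (jac jac_apply en measurable_jac measurable_en en_nonneg)

theorem exists_seq_dense {V X : Type*} [PseudoMetricSpace X] [SecondCountableTopology X]
    [Nonempty V] (f : V → X) : ∃ d : ℕ → V, ∀ v, ∀ δ > 0, ∃ n, dist (f v) (f (d n)) < δ := by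
  let _ : TopologicalSpace V := TopologicalSpace.induced f inferInstance
  have : SecondCountableTopology V := TopologicalSpace.secondCountableTopology_induced V X f
  refine ⟨TopologicalSpace.denseSeq V, fun v δ hδ => ?_⟩
  have ho : IsOpen (f ⁻¹' Metric.ball (f v) δ) := Metric.isOpen_ball.preimage continuous_induced_dom
  obtain ⟨n, hn⟩ := (TopologicalSpace.denseRange_denseSeq V).exists_mem_open ho
    ⟨v, Metric.mem_ball_self hδ⟩
  refine ⟨n, ?_⟩
  rw [dist_comm]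
  exact hn

section PSD

variable {M : Type*} [AddCommGroup M] [Module ℝ M] {B : M →ₗ[ℝ] M →ₗ[ℝ] ℝ}
  {κ : Type*} [Fintype κ]

theorem IsPSD.cs_sq (hB : IsPSD B) (x y : M) : (B x y) ^ 2 ≤ B x x * B y y := by
  have h : ∀ t : ℝ, 0 ≤ B y y * (t * t) + 2 * B x y * t + B x x := by
    intro t
    have h1 := hB.nonneg (x + t • y)
    rw [hB.add_sq] at h1
    nlinarith
  have := discrim_le_zero h
  unfold discrim at this
  nlinarith

theorem IsPSD.cs_le (hB : IsPSD B) {x y : M} {a : ℝ} (ha : 0 ≤ a) (hx : B x x ≤ a)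
    (hy : B y y ≤ a) : |B x y| ≤ a := by
  refine abs_le_of_sq_le_sq ?_ ha
  calc (B x y) ^ 2 ≤ B x x * B y y := hB.cs_sq x y
    _ ≤ a * a := mul_le_mul hx hy (hB.nonneg _) ha
    _ = a ^ 2 := by ring

theorem IsPSD.cmb_le (hB : IsPSD B) {L : κ → M} {a : ℝ} (ha : 0 ≤ a)
    (h : ∀ i, B (L i) (L i) ≤ a) (xi : κ → ℝ) :
    B (cmb L xi) (cmb L xi) ≤ a * (∑ i, |xi i|) ^ 2 := by
  rw [B_cmb]
  calc _ ≤ ∑ i, ∑ j, |xi i| * |xi j| * a := by
        refine Finset.sum_le_sum fun i _ => Finset.sum_le_sum fun j _ => ?_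
        refine (le_abs_self _).trans ?_
        rw [abs_mul, abs_mul]
        exact mul_le_mul_of_nonneg_left (hB.cs_le ha (h i) (h j)) (by positivity)
    _ = a * (∑ i, |xi i|) ^ 2 := by
        simp only [← Finset.sum_mul, ← Finset.mul_sum]; ring

/-- Perturbation of the energy of a linear combination. -/
theorem IsPSD.cmb_add_le (hB : IsPSD B) {L Z : κ → M} {a d : ℝ} (ha : 0 ≤ a) (hd : 0 ≤ d)
    (h : ∀ i, B (L i) (L i) ≤ a) (h' : ∀ i, B (Z i) (Z i) ≤ d ^ 2) (xi : κ → ℝ) :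
    B (cmb (L + Z) xi) (cmb (L + Z) xi) ≤
      B (cmb L xi) (cmb L xi) + (2 * Real.sqrt a * d + d ^ 2) * (∑ i, |xi i|) ^ 2 := by
  rw [cmb_add_fam, hB.add_sq']
  set S := ∑ i, |xi i|
  have hS : 0 ≤ S := Finset.sum_nonneg fun _ _ => abs_nonneg _
  have h1 := hB.cmb_le ha h xi
  have h2 := hB.cmb_le (sq_nonneg d) h' xi
  have h3 : B (cmb L xi) (cmb Z xi) ≤ Real.sqrt a * d * S ^ 2 := by
    refine (le_abs_self _).trans (abs_le_of_sq_le_sq ?_ (by positivity))
    calc _ ≤ B (cmb L xi) (cmb L xi) * B (cmb Z xi) (cmb Z xi) := hB.cs_sq _ _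
      _ ≤ (a * S ^ 2) * (d ^ 2 * S ^ 2) := mul_le_mul h1 h2 (hB.nonneg _) (by positivity)
      _ = (Real.sqrt a * d * S ^ 2) ^ 2 := by
          rw [mul_pow, mul_pow, Real.sq_sqrt ha]; ring
  nlinarith

end PSD

section Sep

variable {ι : Type*} [Fintype ι] [DecidableEq ι]

theorem goodLaw_ball (R : ℝ) : GoodLaw (volume.restrict (Metric.closedBall (0 : ι → ℝ) R)) :=
  ⟨⟨by rw [Measure.restrict_apply_univ]; exact (isCompact_closedBall _ _).measure_lt_top⟩,
    Measure.absolutelyContinuous_restrict,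
    ⟨Metric.closedBall 0 R, Metric.isBounded_closedBall,
      ae_restrict_mem Metric.isClosed_closedBall.measurableSet⟩⟩

theorem memLp_jac {μ : Measure (ι → ℝ)} (hμ : GoodLaw μ) {Y : (ι → ℝ) → (ι → ℝ)}
    (hY : LocallyLipschitz Y) (u v : ι) : MemLp (fun x => jac Y x u v) 2 μ := by
  have := hμ.fin
  obtain ⟨K, hK, hae⟩ := hμ.conc
  obtain ⟨C, hC0, hC⟩ := exists_jac_bound hY hK
  refine MemLp.of_bound (measurable_jac Y u v).aestronglyMeasurable C ?_
  filter_upwards [hae] with x hx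
  rw [Real.norm_eq_abs]; exact hC x hx u v

/-- The jacobian as an element of a product of `L²` spaces. -/
def jL {μ : Measure (ι → ℝ)} (hμ : GoodLaw μ) (Y : llip ι) : ι → ι → Lp ℝ 2 μ :=
  fun u v => (memLp_jac hμ Y.2 u v).toLp _

theorem norm_toLp_sq {α : Type*} [MeasurableSpace α] {μ : Measure α} {f : α → ℝ}
    (hf : MemLp f 2 μ) : ‖hf.toLp f‖ ^ 2 = ∫ x, f x ^ 2 ∂μ := by
  rw [← real_inner_self_eq_norm_sq, L2.inner_def]
  refine integral_congr_ae ?_
  filter_upwards [hf.coeFn_toLp] with x hx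
  rw [hx]
  simp [sq]

theorem nrgB_sub_self {μ : Measure (ι → ℝ)} (hμ : GoodLaw μ) (Y Z : llip ι) :
    nrgB μ hμ (Y - Z) (Y - Z) = ∑ u, ∑ v, ‖jL hμ Y u v - jL hμ Z u v‖ ^ 2 := by
  rw [nrgB_self]
  have h1 : ∀ u v, ‖jL hμ Y u v - jL hμ Z u v‖ ^ 2 =
      ∫ x, (jac Y.1 x u v - jac Z.1 x u v) ^ 2 ∂μ := by
    intro u v
    have := norm_toLp_sq ((memLp_jac hμ Y.2 u v).sub (memLp_jac hμ Z.2 u v))
    rw [MemLp.toLp_sub] at this
    exact this
  simp only [h1]
  have hint : ∀ u v, Integrable (fun x => (jac Y.1 x u v - jac Z.1 x u v) ^ 2) μ := fun u v => by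
    have := ((memLp_jac hμ Y.2 u v).sub (memLp_jac hμ Z.2 u v)).integrable_sq
    exact this
  have e0 : ∑ u, ∑ v, ∫ x, (jac Y.1 x u v - jac Z.1 x u v) ^ 2 ∂μ =
      ∫ x, ∑ u, ∑ v, (jac Y.1 x u v - jac Z.1 x u v) ^ 2 ∂μ := by
    rw [integral_finsetSum _ (fun u _ => integrable_finsetSum _ fun v _ => hint u v)]
    refine Finset.sum_congr rfl fun u _ => ?_
    rw [integral_finsetSum _ (fun v _ => hint u v)]
  rw [e0]
  refine integral_congr_ae ?_
  filter_upwards [hμ.ae_diff Y.2, hμ.ae_diff Z.2] with x h1 h2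
  simp only [MW121.en]
  refine Finset.sum_congr rfl fun u _ => Finset.sum_congr rfl fun v _ => ?_
  have e : ((Y - Z : llip ι) : (ι → ℝ) → (ι → ℝ)) = Y.1 + (-1 : ℝ) • Z.1 := by
    funext x; simp [sub_eq_add_neg]
  rw [e, jac_add h1 (h2.const_smul (-1 : ℝ)), jac_smul' h2]
  ring

/-- The energy seminorm of a good law on any set of fields is separable. -/
theorem exists_seq_nrg {μ : Measure (ι → ℝ)} (hμ : GoodLaw μ) (V : Submodule ℝ (llip ι)) :
    ∃ d : ℕ → llip ι, (∀ n, d n ∈ V) ∧ ∀ Y ∈ V, ∀ δ > 0, ∃ n,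
      nrgB μ hμ (Y - d n) (Y - d n) < δ := by
  have := hμ.fin
  have : Fact ((1 : ℝ≥0∞) ≤ 2) := ⟨by norm_num⟩
  have : Fact ((2 : ℝ≥0∞) ≠ ∞) := ⟨by norm_num⟩
  have s1 : SecondCountableTopology (Lp ℝ 2 μ) := inferInstance
  have s2 : SecondCountableTopology (ι → Lp ℝ 2 μ) := inferInstance
  have s3 : SecondCountableTopology (ι → ι → Lp ℝ 2 μ) := inferInstance
  obtain ⟨d, hd⟩ := exists_seq_dense (fun Y : V => jL hμ Y.1)
  refine ⟨fun n => (d n).1, fun n => (d n).2, fun Y hY δ hδ => ?_⟩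
  set N : ℝ := ((Fintype.card ι : ℕ) : ℝ) with hN
  have hN0 : 0 ≤ N := Nat.cast_nonneg _
  obtain ⟨n, hn⟩ := hd ⟨Y, hY⟩ (Real.sqrt (δ / (N * N + 1))) (by positivity)
  refine ⟨n, ?_⟩
  rw [nrgB_sub_self]
  have hb : ∀ u v, ‖jL hμ Y u v - jL hμ (d n).1 u v‖ ^ 2 ≤ δ / (N * N + 1) := by
    intro u v
    have h1 : ‖jL hμ Y u v - jL hμ (d n).1 u v‖ ≤ Real.sqrt (δ / (N * N + 1)) := by
      rw [← dist_eq_norm]
      exact ((dist_le_pi_dist _ _ v).trans (dist_le_pi_dist _ _ u)).trans hn.le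
    calc _ ≤ (Real.sqrt (δ / (N * N + 1))) ^ 2 := pow_le_pow_left₀ (norm_nonneg _) h1 2
      _ = _ := Real.sq_sqrt (by positivity)
  calc ∑ u, ∑ v, ‖jL hμ Y u v - jL hμ (d n).1 u v‖ ^ 2
      ≤ ∑ _u : ι, ∑ _v : ι, δ / (N * N + 1) :=
        Finset.sum_le_sum fun u _ => Finset.sum_le_sum fun v _ => hb u v
    _ = N * N * (δ / (N * N + 1)) := by
        simp only [Finset.sum_const, Finset.card_univ, nsmul_eq_mul]; ring
    _ < δ := by
        rw [mul_div_assoc', div_lt_iff₀ (by positivity)]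
        nlinarith

/-- Comparison of energies of two laws. -/
theorem nrgB_le_of_le {μ ν : Measure (ι → ℝ)} (hμ : GoodLaw μ) (hν : GoodLaw ν) {c : ℝ≥0}
    (h : μ ≤ (c : ℝ≥0∞) • ν) (Y : llip ι) : nrgB μ hμ Y Y ≤ c * nrgB ν hν Y Y := by
  rw [nrgB_self, nrgB_self]
  have h2 : ∫ x, en Y.1 x ∂μ ≤ ∫ x, en Y.1 x ∂((c : ℝ≥0∞) • ν) := by
    refine integral_mono_measure h (Eventually.of_forall fun x => en_nonneg _ _) ?_
    exact (hν.integrable_en Y.2).smul_measure ENNReal.coe_ne_top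
  rw [integral_smul_measure] at h2
  simpa using h2

/-- **One sequence of tuples which is near-optimal for every law and every reference field.** -/
theorem exists_seq {κ : Type*} [Fintype κ] (V : Submodule ℝ (llip ι)) :
    ∃ D : ℕ → κ → llip ι, (∀ n i, D n i ∈ V) ∧
      ∀ (μ : Measure (ι → ℝ)) (hμ : GoodLaw μ), (∃ c : ℝ≥0, μ ≤ (c : ℝ≥0∞) • volume) →
        ∀ (L : κ → llip ι), ∀ eps > 0, ∃ n, ∀ xi : κ → ℝ,
          nrgB μ hμ (cmb (L + D n) xi) (cmb (L + D n) xi) ≤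
            qinf (nrgB μ hμ) V L xi + eps * (∑ i, |xi i|) ^ 2 := by
  classical
  choose d hdV hd using fun R : ℕ => exists_seq_nrg (goodLaw_ball (ι := ι) R) V
  have : Nonempty (ℕ × (κ → ℕ)) := ⟨(0, fun _ => 0)⟩
  obtain ⟨e, he⟩ := exists_surjective_nat (ℕ × (κ → ℕ))
  refine ⟨fun n i => d (e n).1 ((e n).2 i), fun n i => hdV _ _, ?_⟩
  intro μ hμ hc L eps heps
  obtain ⟨c, hc⟩ := hc
  obtain ⟨K, hK, hKae⟩ := hμ.conc
  obtain ⟨R0, hR0⟩ := hK.subset_closedBall 0
  obtain ⟨R, hR⟩ := exists_nat_ge R0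
  have hμb : μ ≤ (c : ℝ≥0∞) • volume.restrict (Metric.closedBall (0 : ι → ℝ) R) := by
    have h1 : μ = μ.restrict (Metric.closedBall (0 : ι → ℝ) R) := by
      symm
      refine Measure.restrict_eq_self_of_ae_mem ?_
      filter_upwards [hKae] with x hx
      exact Metric.closedBall_subset_closedBall hR (hR0 hx)
    calc μ = μ.restrict (Metric.closedBall (0 : ι → ℝ) R) := h1
      _ ≤ ((c : ℝ≥0∞) • volume).restrict (Metric.closedBall (0 : ι → ℝ) R) :=
          Measure.restrict_mono le_rfl hc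
      _ = _ := Measure.restrict_smul _ _ _
  obtain ⟨Z, hZV, hZ⟩ := exists_linear_near (V := V) (isPSD_nrgB hμ) L (half_pos heps)
  -- a bound for the energies
  set a : ℝ := ∑ i, nrgB μ hμ (L i + Z i) (L i + Z i) with ha
  have ha0 : 0 ≤ a := Finset.sum_nonneg fun i _ => (isPSD_nrgB hμ).nonneg _
  have hai : ∀ i, nrgB μ hμ ((L + Z) i) ((L + Z) i) ≤ a := fun i =>
    Finset.single_le_sum (f := fun i => nrgB μ hμ (L i + Z i) (L i + Z i))
      (fun i _ => (isPSD_nrgB hμ).nonneg _) (Finset.mem_univ i)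
  obtain ⟨dl, hdl0, hdl⟩ : ∃ dl > 0, 2 * Real.sqrt a * dl + dl ^ 2 ≤ eps / 2 := by
    refine ⟨min 1 (eps / (2 * (2 * Real.sqrt a + 1))), by positivity, ?_⟩
    set dl := min 1 (eps / (2 * (2 * Real.sqrt a + 1))) with hdl
    have h0 : 0 < dl := by positivity
    have h1 : dl ≤ 1 := min_le_left _ _
    have h2 : dl ≤ eps / (2 * (2 * Real.sqrt a + 1)) := min_le_right _ _
    have h3 : dl * (2 * (2 * Real.sqrt a + 1)) ≤ eps := by
      rwa [le_div_iff₀ (by positivity)] at h2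
    nlinarith [Real.sqrt_nonneg a]
  have hcp : 0 < (c : ℝ) + 1 := by have : (0 : ℝ) ≤ c := c.2; linarith
  choose n hn using fun i => hd R (Z i) (hZV i) (dl ^ 2 / (c + 1)) (by positivity)
  obtain ⟨m, hm⟩ := he (R, n)
  refine ⟨m, fun xi => ?_⟩
  have hD : (fun i => d (e m).1 ((e m).2 i)) = fun i => d R (n i) := by
    funext i; rw [hm]
  set D : κ → llip ι := fun i => d R (n i) with hDd
  have hdiff : ∀ i, nrgB μ hμ ((D - Z) i) ((D - Z) i) ≤ dl ^ 2 := by
    intro i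
    have h1 := nrgB_le_of_le hμ (goodLaw_ball (ι := ι) R) hμb ((D - Z) i)
    have h2 := hn i
    have h3 : nrgB _ (goodLaw_ball (ι := ι) R) ((D - Z) i) ((D - Z) i) =
        nrgB _ (goodLaw_ball (ι := ι) R) (Z i - d R (n i)) (Z i - d R (n i)) := by
      have : (D - Z) i = -(Z i - d R (n i)) := by simp [hDd]
      rw [this]; simp; ring
    rw [h3] at h1
    have hc0 : (0 : ℝ) ≤ c := c.2
    calc _ ≤ (c : ℝ) * nrgB _ (goodLaw_ball (ι := ι) R) (Z i - d R (n i)) (Z i - d R (n i)) := h1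
      _ ≤ (c : ℝ) * (dl ^ 2 / (c + 1)) := mul_le_mul_of_nonneg_left h2.le hc0
      _ ≤ dl ^ 2 := by
          rw [mul_div_assoc', div_le_iff₀ hcp]; nlinarith [sq_nonneg dl]
  have h1 := (isPSD_nrgB hμ).cmb_add_le ha0 hdl0.le hai hdiff xi
  have e1 : L + Z + (D - Z) = L + D := by abel
  rw [e1] at h1
  have e2 : (L + fun i => d (e m).1 ((e m).2 i)) = L + D := by rw [hD]
  simp only [e2]
  have h2 := hZ xi
  have hS : 0 ≤ (∑ i, |xi i|) ^ 2 := sq_nonneg _
  nlinarith [mul_le_mul_of_nonneg_right hdl hS]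

end Sep

section Inst

variable {U : Type*} [DecidableEq U] {I : Finset U} {E : Finset (U × U)} {C : Finset U}

theorem hamP_le_smul (_hA : Anch I E) (ζ : U → ℝ) :
    ∃ c : ℝ≥0, hamP I E ζ ≤ (c : ℝ≥0∞) • (volume : Measure (I → ℝ)) := by
  by_cases hv : volume (ham I E ζ) = 0
  · refine ⟨0, ?_⟩
    have h0 : hamP I E ζ = 0 := by
      rw [hamP, Measure.restrict_eq_zero.mpr hv, smul_zero]
    rw [h0]; exact Measure.zero_le _
  · refine ⟨((volume (ham I E ζ))⁻¹).toNNReal, ?_⟩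
    rw [ENNReal.coe_toNNReal (ENNReal.inv_ne_top.mpr hv), hamP]
    exact Measure.le_iff.mpr fun s hs => by
      rw [Measure.smul_apply, Measure.smul_apply]
      exact mul_le_mul_right (Measure.restrict_apply_le _ _) _

variable (I E C) in
/-- **The universal near-minimising sequence of `V₀` tuples.** -/
theorem exists_seq_bT (κ : Type*) [Fintype κ] :
    ∃ D : ℕ → κ → (I → ℝ) → (I → ℝ), (∀ n i, V0f I E C (D n i)) ∧
      ∀ (hA : Anch I E) (ζ : U → ℝ) (L : κ → llip I), ∀ eps > 0, ∃ n, ∀ xi : κ → ℝ,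
        ∫ x, en (∑ i, xi i • ((L i).1 + D n i)) x ∂(hamP I E ζ) ≤
          bT C hA ζ L xi + eps * (∑ i, |xi i|) ^ 2 := by
  obtain ⟨D, hD, h⟩ := exists_seq (κ := κ) (V0m I E C)
  refine ⟨fun n i => (D n i).1, fun n i => hD n i, fun hA ζ L eps heps => ?_⟩
  obtain ⟨n, hn⟩ := h (hamP I E ζ) (goodLaw_hamP' hA ζ) (hamP_le_smul hA ζ) L eps heps
  refine ⟨n, fun xi => ?_⟩
  have h1 := hn xi
  rw [nrgB_self, coe_cmb] at h1
  exact h1

end Inst

end Crest.Agent.R144.BQ565
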