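import Crest.Agent.R144.BQ7_565

/-!
R144 (S0197), helper565.  Block energies in the form (T2) of doc 1760 (helper540), part 3: Borel
measurability in the data, covariance under relabelling and under constants.

* `RefF I Z`: a reference field family `Z i : (U → ℝ) → U → ℝ` (continuous, locally Lipschitz on
  fibres); `refL`: its restriction to a fibre; `bb`, `bbm`: the block energy / matrix;
* `measurable_bb`, `measurable_bbm`;
* `Rl.bT_eq`: relabelling; `bT_shift`: constants; `bT_congr_add_const`: constants in the labels.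
-/

set_option autoImplicit false
set_option linter.unusedSectionVars false

open MeasureTheory Set Filter Topology
open scoped ENNReal NNReal Pointwise

noncomputable section

namespace Crest.Agent.R144.BQ565

open Crest.Agent.R144.Ham560
open Crest.Agent.R144.MW121 (jac jac_apply en measurable_jac measurable_en en_nonneg)
open Crest.Agent.R144.Lw425 (Proper Vr)

section Meas

variable {U : Type*} [DecidableEq U] {I : Finset U} {E : Finset (U × U)} {C : Finset U}

theorem continuous_ext_uncurry (u : U) :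
    Continuous fun p : (U → ℝ) × (I → ℝ) => ext I p.1 p.2 u := by
  by_cases h : u ∈ I
  · simp only [ext_mem h]; exact (continuous_apply _).comp continuous_snd
  · simp only [ext_notMem h]; exact (continuous_apply _).comp continuous_fst

theorem continuous_ext_pi : Continuous fun p : (U → ℝ) × (I → ℝ) => (ext I p.1 p.2 : U → ℝ) :=
  continuous_pi fun u => continuous_ext_uncurry u

/-- A family of reference fields, as functions of the whole configuration. -/
structure RefF (I : Finset U) {κ : Type*} (Z : κ → (U → ℝ) → U → ℝ) : Prop where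
  cont : ∀ i u, Continuous fun h : U → ℝ => Z i h u
  ll : ∀ i (ζ : U → ℝ), LocallyLipschitz fun (x : I → ℝ) (u : I) => Z i (ext I ζ x) u

variable {κ : Type*} {Z : κ → (U → ℝ) → U → ℝ}

/-- The reference field on a fibre. -/
def refL (hZ : RefF I Z) (ζ : U → ℝ) (i : κ) : llip I :=
  ⟨fun (x : I → ℝ) (u : I) => Z i (ext I ζ x) u, hZ.ll i ζ⟩

theorem measurable_en_param [Countable U] {g : (U → ℝ) → (I → ℝ) → (I → ℝ)}
    (hg : Continuous (Function.uncurry g)) :
    Measurable fun p : (U → ℝ) × (I → ℝ) => en (g p.1) p.2 := by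
  have h1 : Measurable fun p : (U → ℝ) × (I → ℝ) => fderiv ℝ (g p.1) p.2 :=
    measurable_fderiv_with_param ℝ hg
  simp only [MW121.en]
  refine Finset.measurable_sum _ fun u _ => Finset.measurable_sum _ fun v _ => ?_
  simp only [jac_apply]
  have h2 : Measurable fun p : (U → ℝ) × (I → ℝ) => (fderiv ℝ (g p.1) p.2) (Pi.single v 1) :=
    h1.apply_continuousLinearMap _
  exact ((measurable_pi_apply u).comp h2).pow_const 2

theorem isClosed_hamGraph : IsClosed {p : (U → ℝ) × (I → ℝ) | p.2 ∈ ham I E p.1} := by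
  have : {p : (U → ℝ) × (I → ℝ) | p.2 ∈ ham I E p.1} =
      ⋂ q ∈ E, {p : (U → ℝ) × (I → ℝ) | |ext I p.1 p.2 q.1 - ext I p.1 p.2 q.2| ≤ 1} := by
    ext p; simp [ham]
  rw [this]
  exact isClosed_biInter fun q _ =>
    isClosed_le ((continuous_ext_uncurry q.1).sub (continuous_ext_uncurry q.2)).abs
      continuous_const

theorem measurable_setIntegral_param [Countable U] {f : (U → ℝ) → (I → ℝ) → ℝ}
    (hf : Measurable (Function.uncurry f)) :
    Measurable fun ζ : U → ℝ => ∫ x in ham I E ζ, f ζ x := by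
  have h1 : (fun ζ : U → ℝ => ∫ x in ham I E ζ, f ζ x) =
      fun ζ => ∫ x, {p : (U → ℝ) × (I → ℝ) | p.2 ∈ ham I E p.1}.indicator
        (Function.uncurry f) (ζ, x) := by
    funext ζ
    rw [← integral_indicator measurableSet_ham]
    refine integral_congr_ae (Eventually.of_forall fun x => ?_)
    change _ = {p : (U → ℝ) × (I → ℝ) | p.2 ∈ ham I E p.1}.indicator (Function.uncurry f) (ζ, x)
    by_cases hx : x ∈ ham I E ζ
    · rw [indicator_of_mem hx, indicator_of_mem (s := {p : (U → ℝ) × (I → ℝ) | p.2 ∈ ham I E p.1})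
        (a := (ζ, x)) hx]; rfl
    · rw [indicator_of_notMem hx,
        indicator_of_notMem (s := {p : (U → ℝ) × (I → ℝ) | p.2 ∈ ham I E p.1}) (a := (ζ, x)) hx]
  rw [h1]
  have h2 : StronglyMeasurable ({p : (U → ℝ) × (I → ℝ) | p.2 ∈ ham I E p.1}.indicator
      (Function.uncurry f)) := (hf.indicator isClosed_hamGraph.measurableSet).stronglyMeasurable
  exact (StronglyMeasurable.integral_prod_right (f := fun ζ x =>
    {p : (U → ℝ) × (I → ℝ) | p.2 ∈ ham I E p.1}.indicator (Function.uncurry f) (ζ, x)) h2).measurable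

theorem measurable_Vr [Countable U] : Measurable fun ζ : U → ℝ => Vr I E ζ := by
  have := measurable_setIntegral_param (I := I) (E := E) (f := fun _ _ => (1 : ℝ))
    measurable_const
  have e : (fun ζ : U → ℝ => Vr I E ζ) = fun ζ => ∫ _x in ham I E ζ, (1 : ℝ) := by
    funext ζ
    rw [setIntegral_const, smul_eq_mul, mul_one]; rfl
  rw [e]; exact this

/-- Parametric means are Borel. -/
theorem measurable_mean_param [Countable U] {f : (U → ℝ) → (I → ℝ) → ℝ}
    (hf : Measurable (Function.uncurry f)) :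
    Measurable fun ζ : U → ℝ => ∫ x, f ζ x ∂(hamP I E ζ) := by
  simp only [integral_hamP_real]
  exact (measurable_setIntegral_param hf).div measurable_Vr

variable (C) in
/-- The block energy with reference field `Z`. -/
def bb [Fintype κ] (hA : Anch I E) (hZ : RefF I Z) (ζ : U → ℝ) (xi : κ → ℝ) : ℝ :=
  bT C hA ζ (refL hZ ζ) xi

variable (C) in
/-- The block matrix with reference field `Z`. -/
def bbm [Fintype κ] [DecidableEq κ] (hA : Anch I E) (hZ : RefF I Z) (ζ : U → ℝ) :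
    Matrix κ κ ℝ := bTm C hA ζ (refL hZ ζ)

/-- **Borel measurability of the block energy.** -/
theorem measurable_bb [Fintype κ] [Countable U] (hA : Anch I E) (hZ : RefF I Z) (xi : κ → ℝ) :
    Measurable fun ζ : U → ℝ => bb C hA hZ ζ xi := by
  obtain ⟨D, hD, hseq⟩ := exists_seq_bT I E C κ
  set G : ℕ → (U → ℝ) → ℝ := fun n ζ =>
    ∫ x, en (∑ i, xi i • ((refL hZ ζ i).1 + D n i)) x ∂(hamP I E ζ) with hG
  have hGm : ∀ n, Measurable (G n) := by
    intro n
    refine measurable_mean_param (f := fun ζ x => en (∑ i, xi i • ((refL hZ ζ i).1 + D n i)) x) ?_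
    refine measurable_en_param (g := fun ζ => ∑ i, xi i • ((refL hZ ζ i).1 + D n i)) ?_
    have e : (Function.uncurry fun ζ : U → ℝ => ∑ i, xi i • ((refL hZ ζ i).1 + D n i)) =
        fun p : (U → ℝ) × (I → ℝ) => fun u : I =>
          ∑ i, xi i * (Z i (ext I p.1 p.2) u + D n i p.2 u) := by
      funext p u
      simp only [Function.uncurry, Finset.sum_apply, Pi.smul_apply, Pi.add_apply, smul_eq_mul]
      rfl
    rw [e]
    refine continuous_pi fun u => continuous_finsetSum _ fun i _ => ?_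
    refine continuous_const.mul (((hZ.cont i u).comp continuous_ext_pi).add ?_)
    exact (continuous_apply u).comp ((hD n i).ll.continuous.comp continuous_snd)
  refine measurable_of_Iio fun c => ?_
  have : (fun ζ : U → ℝ => bb C hA hZ ζ xi) ⁻¹' Iio c = ⋃ n, (G n) ⁻¹' Iio c := by
    ext ζ
    simp only [mem_preimage, mem_Iio, mem_iUnion]
    constructor
    · intro h
      set S : ℝ := (∑ i, |xi i|) ^ 2 with hS
      have hS0 : 0 ≤ S := sq_nonneg _
      obtain ⟨n, hn⟩ := hseq hA ζ (refL hZ ζ) ((c - bb C hA hZ ζ xi) / (S + 1))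
        (div_pos (by linarith) (by linarith))
      refine ⟨n, lt_of_le_of_lt (hn xi) ?_⟩
      have h1 : (c - bb C hA hZ ζ xi) / (S + 1) * S < c - bb C hA hZ ζ xi := by
        rw [div_mul_eq_mul_div, div_lt_iff₀ (by linarith)]
        nlinarith
      change bb C hA hZ ζ xi + _ < c
      linarith
    · rintro ⟨n, hn⟩
      refine lt_of_le_of_lt ?_ hn
      have h1 : V0f I E C (∑ i, xi i • D n i) := by
        have : ∀ s : Finset κ, V0f I E C (∑ i ∈ s, xi i • D n i) := by
          classical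
          intro s
          induction s using Finset.induction_on with
          | empty => simpa using V0f.zero
          | insert a s ha ih =>
            rw [Finset.sum_insert ha]
            exact ((hD n a).smul (xi a)).add ih
        exact this Finset.univ
      have h2 := bT_le (ζ := ζ) (L := refL hZ ζ) (xi := xi) hA h1
      have e : (cmb (refL hZ ζ) xi : llip I).1 + ∑ i, xi i • D n i =
          ∑ i, xi i • ((refL hZ ζ i).1 + D n i) := by
        rw [coe_cmb, ← Finset.sum_add_distrib]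
        exact Finset.sum_congr rfl fun i _ => (smul_add _ _ _).symm
      rw [e] at h2
      exact h2
  rw [this]
  exact MeasurableSet.iUnion fun n => hGm n measurableSet_Iio

theorem measurable_bbm [Fintype κ] [DecidableEq κ] [Countable U] (hA : Anch I E)
    (hZ : RefF I Z) (i j : κ) : Measurable fun ζ : U → ℝ => bbm C hA hZ ζ i j := by
  have : (fun ζ : U → ℝ => bbm C hA hZ ζ i j) = fun ζ =>
      (bb C hA hZ ζ (Pi.single i 1 + Pi.single j 1) - bb C hA hZ ζ (Pi.single i 1) -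
        bb C hA hZ ζ (Pi.single j 1)) / 2 := rfl
  rw [this]
  exact (((measurable_bb hA hZ _).sub (measurable_bb hA hZ _)).sub
    (measurable_bb hA hZ _)).div_const 2

end Meas

section Cov

variable {U V : Type*} [DecidableEq U] [DecidableEq V] {κ : Type*} [Fintype κ]
  {σ : U → V} {I : Finset U} {I' : Finset V} {E : Finset (U × U)} {E' : Finset (V × V)}
  {C : Finset U} {C' : Finset V}

theorem le_bT {hA : Anch I E} {ζ : U → ℝ} {L : κ → llip I} {xi : κ → ℝ} {c : ℝ}
    (h : ∀ Y, V0f I E C Y → c ≤ ∫ x, en ((cmb L xi : llip I).1 + Y) x ∂(hamP I E ζ)) :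
    c ≤ bT C hA ζ L xi := by
  refine le_qinf fun Z hZ => ?_
  rw [nrgB_self]
  have h1 := h _ hZ
  have e : (cmb L xi : llip I).1 + ((Z - cmb L xi : llip I) : (I → ℝ) → (I → ℝ)) = Z.1 := by
    funext x; simp
  rwa [e] at h1

/-- Adding constants to the reference fields does not change the energies. -/
theorem bT_le_of_const {hA : Anch I E} {ζ : U → ℝ} {L L' : κ → llip I} {xi : κ → ℝ}
    (h : ∀ i, ∃ c : ℝ, ∀ x u, (L' i).1 x u = (L i).1 x u + c) :
    bT C hA ζ L' xi = bT C hA ζ L xi := by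
  choose c hc using h
  have key : ∀ Y : (I → ℝ) → (I → ℝ), ∀ x, en ((cmb L' xi : llip I).1 + Y) x =
      en ((cmb L xi : llip I).1 + Y) x := by
    intro Y x
    have e : (cmb L' xi : llip I).1 + Y =
        fun x => ((cmb L xi : llip I).1 + Y) x + fun _ => ∑ i, xi i * c i := by
      funext x u
      rw [coe_cmb, coe_cmb]
      simp only [Pi.add_apply, Finset.sum_apply, Pi.smul_apply, smul_eq_mul, hc]
      simp only [mul_add, Finset.sum_add_distrib]
      ring
    rw [e, en_add_const]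
  refine le_antisymm (le_bT fun Y hY => ?_) (le_bT fun Y hY => ?_)
  · have := bT_le (ζ := ζ) (L := L') (xi := xi) hA hY
    simp only [key] at this
    exact this
  · have := bT_le (ζ := ζ) (L := L) (xi := xi) hA hY
    simp only [key]
    exact this

theorem Rl.mean_en (h : Rl σ I I' E E') (ζ : V → ℝ) (Y' : (I' → ℝ) → (I' → ℝ)) :
    ∫ x, en Y' x ∂(hamP I' E' ζ) = ∫ x, en (trF h.eq Y') x ∂(hamP I E (ζ ∘ σ)) := by
  rw [integral_hamP_real, integral_hamP_real, h.integral_en]
  congr 1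
  exact h.Vr_eq

theorem Rl.ext0 (h : Rl σ I I' E E') (x : I' → ℝ) (u : U) :
    ext I' 0 x (σ u) = ext I 0 (pullL h.eq x) u := h.ext_eq (ζ := 0) x u

theorem Rl.inn_iff (h : Rl σ I I' E E') {p : U × U} : Inn I' (σ p.1, σ p.2) ↔ Inn I p :=
  and_congr h.mem_iff h.mem_iff

theorem lip_trF {ι κ' : Type*} [Fintype ι] [Fintype κ'] [DecidableEq ι] [DecidableEq κ']
    (e : ι ≃ κ') {Y' : (κ' → ℝ) → (κ' → ℝ)} {c : ℝ≥0} (h : LipschitzWith c Y') :
    LipschitzWith c (trF e Y') := by
  have h1 : ∀ x y : ι → ℝ, dist ((pullL e).symm x) ((pullL e).symm y) ≤ dist x y := by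
    intro x y
    rw [dist_pi_le_iff dist_nonneg]
    intro k
    exact dist_le_pi_dist x y (e.symm k)
  have h2 : ∀ x y : κ' → ℝ, dist (pullL e x) (pullL e y) ≤ dist x y := by
    intro x y
    rw [dist_pi_le_iff dist_nonneg]
    intro k
    exact dist_le_pi_dist x y (e k)
  refine LipschitzWith.of_dist_le_mul fun x y => ?_
  exact (h2 _ _).trans ((h.dist_le_mul _ _).trans (mul_le_mul_of_nonneg_left (h1 x y) c.2))

/-- Transport of the class `V₀`. -/
theorem Rl.v0f (h : Rl σ I I' E E') (hC : ∀ u ∈ I, σ u ∈ C' ↔ u ∈ C)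
    {Y' : (I' → ℝ) → (I' → ℝ)} (hY : V0f I' E' C' Y') : V0f I E C (trF h.eq Y') where
  lip := by
    obtain ⟨c, hc⟩ := hY.lip
    exact ⟨c, lip_trF h.eq hc⟩
  bdd := by
    obtain ⟨M, hM⟩ := hY.bdd
    exact ⟨M, fun x u => hM _ _⟩
  rig := by
    obtain ⟨ρ, hρ, hr⟩ := hY.rig
    refine ⟨ρ, hρ, fun x hx p hp hi hge => ?_⟩
    have e1 : ∀ u, ext I' 0 ((pullL h.eq).symm x) (σ u) = ext I 0 x u := by
      intro u; rw [h.ext0]; simp
    have h1 := hr ((pullL h.eq).symm x) (fun q hq hqi => ?_) (σ p.1, σ p.2)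
      ((h.memE _).mpr ⟨p, hp, rfl⟩) (h.inn_iff.mpr hi) (by simpa only [e1] using hge)
    · simp only [h.ext0] at h1
      exact h1
    · obtain ⟨p', hp', rfl⟩ := (h.memE q).mp hq
      simp only [e1]
      exact hx p' hp' (h.inn_iff.mp hqi)
  core := fun x w hw => by
    refine hY.core _ (h.eq w) ?_
    rw [h.eq_apply, hC _ w.2]; exact hw

theorem Rl.v0f' (h : Rl σ I I' E E') (hC : ∀ u ∈ I, σ u ∈ C' ↔ u ∈ C)
    {Y : (I → ℝ) → (I → ℝ)} (hY : V0f I E C Y) : V0f I' E' C' (trF h.eq.symm Y) where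
  lip := by
    obtain ⟨c, hc⟩ := hY.lip
    exact ⟨c, lip_trF h.eq.symm hc⟩
  bdd := by
    obtain ⟨M, hM⟩ := hY.bdd
    exact ⟨M, fun x u => hM _ _⟩
  rig := by
    obtain ⟨ρ, hρ, hr⟩ := hY.rig
    refine ⟨ρ, hρ, fun x hx q hq hi hge => ?_⟩
    obtain ⟨p, hp, rfl⟩ := (h.memE q).mp hq
    have e2 : pullL h.eq (trF h.eq.symm Y x) = Y (pullL h.eq x) := by
      funext j
      simp only [pullL_apply, trF]
      rw [Equiv.symm_apply_apply]
      congr 1
    rw [h.ext0, h.ext0, e2]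
    rw [h.ext0, h.ext0] at hge
    refine hr (pullL h.eq x) (fun p' hp' hpi => ?_) p hp (h.inn_iff.mp hi) hge
    rw [← h.ext0, ← h.ext0]
    exact hx (σ p'.1, σ p'.2) ((h.memE _).mpr ⟨p', hp', rfl⟩) (h.inn_iff.mpr hpi)
  core := fun x w hw => by
    refine hY.core _ (h.eq.symm w) ?_
    rw [← hC _ (h.eq.symm w).2, ← h.eq_apply, Equiv.apply_symm_apply]
    exact hw

theorem trF_add {ι κ' : Type*} [Fintype ι] [Fintype κ'] [DecidableEq ι] [DecidableEq κ']
    (e : ι ≃ κ') (Y Z : (κ' → ℝ) → (κ' → ℝ)) : trF e (Y + Z) = trF e Y + trF e Z := rfl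

/-- **Relabelling covariance of the block energies.** -/
theorem Rl.bT_eq (h : Rl σ I I' E E') (hC : ∀ u ∈ I, σ u ∈ C' ↔ u ∈ C) (hA : Anch I E)
    (hA' : Anch I' E') {ζ : V → ℝ} {L : κ → llip I} {L' : κ → llip I'} {xi : κ → ℝ}
    (hL : ∀ i, ∃ c : ℝ, ∀ x u, trF h.eq (L' i).1 x u = (L i).1 x u + c) :
    bT C' hA' ζ L' xi = bT C hA (ζ ∘ σ) L xi := by
  set L'' : κ → llip I := fun i => ⟨trF h.eq (L' i).1, ll_trF h.eq (L' i).2⟩ with hL''
  rw [← bT_le_of_const (L := L) (L' := L'') hL]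
  have hcmb : trF h.eq (cmb L' xi : llip I').1 = (cmb L'' xi : llip I).1 := by
    rw [coe_cmb, coe_cmb]
    funext x u
    simp only [trF, pullL_apply, Finset.sum_apply, Pi.smul_apply, hL'']
  refine le_antisymm (le_bT fun Y hY => ?_) (le_bT fun Y' hY' => ?_)
  · have h1 := bT_le (ζ := ζ) (L := L') (xi := xi) hA' (h.v0f' hC hY)
    rw [h.mean_en, trF_add, hcmb, trF_symm] at h1
    exact h1
  · have h1 := bT_le (ζ := ζ ∘ σ) (L := L'') (xi := xi) hA (h.v0f hC hY')
    rw [h.mean_en, trF_add, hcmb]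
    exact h1

theorem Rl.bTm_eq [DecidableEq κ] (h : Rl σ I I' E E') (hC : ∀ u ∈ I, σ u ∈ C' ↔ u ∈ C)
    (hA : Anch I E) (hA' : Anch I' E') {ζ : V → ℝ} {L : κ → llip I} {L' : κ → llip I'}
    (hL : ∀ i, ∃ c : ℝ, ∀ x u, trF h.eq (L' i).1 x u = (L i).1 x u + c) :
    bTm C' hA' ζ L' = bTm C hA (ζ ∘ σ) L := by
  ext i j
  rw [bTm_apply, bTm_apply, h.bT_eq hC hA hA' hL, h.bT_eq hC hA hA' hL, h.bT_eq hC hA hA' hL]

end Cov

section Shift

variable {U : Type*} [DecidableEq U] {κ : Type*} [Fintype κ] {I : Finset U}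
  {E : Finset (U × U)} {C : Finset U} {ζ : U → ℝ}

/-- Translation of a field. -/
def shF (c : ℝ) (Y : (I → ℝ) → (I → ℝ)) : (I → ℝ) → (I → ℝ) := fun x => Y fun v => x v + c

theorem shF_shF (c : ℝ) (Y : (I → ℝ) → (I → ℝ)) : shF c (shF (-c) Y) = Y := by
  funext x; simp [shF]

theorem V0f.shF {Y : (I → ℝ) → (I → ℝ)} (h : V0f I E C Y) (c : ℝ) : V0f I E C (shF c Y) where
  lip := by
    obtain ⟨k, hk⟩ := h.lip
    refine ⟨k, LipschitzWith.of_dist_le_mul fun x y => ?_⟩
    have h1 : dist (fun v => x v + c) (fun v => y v + c) ≤ dist x y := by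
      rw [dist_pi_le_iff dist_nonneg]
      intro v
      rw [dist_add_right]; exact dist_le_pi_dist x y v
    exact (hk.dist_le_mul _ _).trans (mul_le_mul_of_nonneg_left h1 k.2)
  bdd := by
    obtain ⟨M, hM⟩ := h.bdd
    exact ⟨M, fun x u => hM _ _⟩
  rig := by
    obtain ⟨ρ, hρ, hr⟩ := h.rig
    have e : ∀ (x : I → ℝ) (p : U × U), Inn I p →
        ext I 0 (fun v => x v + c) p.1 - ext I 0 (fun v => x v + c) p.2 =
          ext I 0 x p.1 - ext I 0 x p.2 := by
      intro x p hp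
      rw [ext_mem hp.1, ext_mem hp.2, ext_mem hp.1, ext_mem hp.2]; ring
    refine ⟨ρ, hρ, fun x hx p hp hi hge => ?_⟩
    refine hr (fun v => x v + c) (fun q hq hqi => ?_) p hp hi ?_
    · rw [e x q hqi]; exact hx q hq hqi
    · rw [e x p hi]; exact hge
  core := fun x w hw => h.core _ w hw

theorem mean_en_shift (Y : (I → ℝ) → (I → ℝ)) (c : ℝ) :
    ∫ x, en Y x ∂(hamP I E fun u => ζ u + c) = ∫ x, en (shF c Y) x ∂(hamP I E ζ) := by
  rw [integral_hamP_real, integral_hamP_real, setIntegral_shift]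
  have h1 : ∫ x in ham I E ζ, en Y (fun v => x v + c) = ∫ x in ham I E ζ, en (shF c Y) x :=
    integral_congr_ae (Eventually.of_forall fun x => (en_shift Y c x).symm)
  rw [h1]
  congr 1
  exact Vr_shift' c

/-- **Invariance under constants of the data**, for reference fields with
`L' i (x + c) = L i x`. -/
theorem bT_shift (hA : Anch I E) (c : ℝ) {L L' : κ → llip I} {xi : κ → ℝ}
    (hL : ∀ i x, (L' i).1 (fun v => x v + c) = (L i).1 x) :
    bT C hA (fun u => ζ u + c) L' xi = bT C hA ζ L xi := by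
  have hcmb : shF c (cmb L' xi : llip I).1 = (cmb L xi : llip I).1 := by
    rw [coe_cmb, coe_cmb]
    funext x u
    simp only [shF, Finset.sum_apply, Pi.smul_apply, hL]
  refine le_antisymm (le_bT fun Y hY => ?_) (le_bT fun Y' hY' => ?_)
  · have h1 := bT_le (ζ := fun u => ζ u + c) (L := L') (xi := xi) hA (hY.shF (-c))
    rw [mean_en_shift] at h1
    have e : shF c ((cmb L' xi : llip I).1 + shF (-c) Y) = (cmb L xi : llip I).1 + Y := by
      have : shF c ((cmb L' xi : llip I).1 + shF (-c) Y) =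
          shF c (cmb L' xi : llip I).1 + shF c (shF (-c) Y) := rfl
      rw [this, hcmb, shF_shF]
    rw [e] at h1
    exact h1
  · have h1 := bT_le (ζ := ζ) (L := L) (xi := xi) hA (hY'.shF c)
    rw [mean_en_shift]
    have e : shF c ((cmb L' xi : llip I).1 + Y') = (cmb L xi : llip I).1 + shF c Y' := by
      have : shF c ((cmb L' xi : llip I).1 + Y') = shF c (cmb L' xi : llip I).1 + shF c Y' := rfl
      rw [this, hcmb]
    rw [e]
    exact h1

/-- For shift-covariant reference fields the block energy only depends on the gradients of the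
data. -/
theorem bb_shift {Z : κ → (U → ℝ) → U → ℝ} (hA : Anch I E) (hZ : RefF I Z)
    (hinv : ∀ i (h : U → ℝ) (c : ℝ) (u : U), Z i (fun v => h v + c) u = Z i h u) (c : ℝ)
    (xi : κ → ℝ) : bb C hA hZ (fun u => ζ u + c) xi = bb C hA hZ ζ xi := by
  refine bT_shift hA c fun i x => ?_
  funext u
  change Z i (ext I (fun u => ζ u + c) (fun v => x v + c)) u = Z i (ext I ζ x) u
  have e : ext I (fun u => ζ u + c) (fun v => x v + c) = fun u => ext I ζ x u + c := by
    funext v; exact ext_shift x c v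
  rw [e, hinv]

theorem bbm_shift [DecidableEq κ] {Z : κ → (U → ℝ) → U → ℝ} (hA : Anch I E) (hZ : RefF I Z)
    (hinv : ∀ i (h : U → ℝ) (c : ℝ) (u : U), Z i (fun v => h v + c) u = Z i h u) (c : ℝ) :
    bbm C hA hZ (fun u => ζ u + c) = bbm C hA hZ ζ := by
  ext i j
  have h1 : ∀ xi, bb C hA hZ (fun u => ζ u + c) xi = bb C hA hZ ζ xi :=
    fun xi => bb_shift hA hZ hinv c xi
  change (bb C hA hZ (fun u => ζ u + c) _ - bb C hA hZ (fun u => ζ u + c) _ -
    bb C hA hZ (fun u => ζ u + c) _) / 2 = (bb C hA hZ ζ _ - bb C hA hZ ζ _ - bb C hA hZ ζ _) / 2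
  rw [h1, h1, h1]

end Shift

section Relab

variable {U V : Type*} [DecidableEq U] [DecidableEq V] {κ : Type*} [Fintype κ]
  {σ : U → V} {I : Finset U} {I' : Finset V} {E : Finset (U × U)} {E' : Finset (V × V)}
  {C : Finset U} {C' : Finset V}

/-- **Relabelling covariance** in terms of the reference fields: `Z' i h (σ u) = Z i (h ∘ σ) u + c_i`
on `I`. -/
theorem Rl.bb_eq (h : Rl σ I I' E E') (hC : ∀ u ∈ I, σ u ∈ C' ↔ u ∈ C) (hA : Anch I E)
    (hA' : Anch I' E') {Z : κ → (U → ℝ) → U → ℝ} {Z' : κ → (V → ℝ) → V → ℝ}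
    (hZ : RefF I Z) (hZ' : RefF I' Z') (ζ : V → ℝ)
    (hcov : ∀ i, ∃ c : ℝ, ∀ (g : V → ℝ), ∀ u ∈ I, Z' i g (σ u) = Z i (g ∘ σ) u + c) (xi : κ → ℝ) :
    bb C' hA' hZ' ζ xi = bb C hA hZ (ζ ∘ σ) xi := by
  refine h.bT_eq hC hA hA' fun i => ?_
  obtain ⟨c, hc⟩ := hcov i
  refine ⟨c, fun x u => ?_⟩
  change Z' i (ext I' ζ ((pullL h.eq).symm x)) (h.eq u) = Z i (ext I (ζ ∘ σ) x) u + c
  rw [h.eq_apply, hc _ _ u.2]
  congr 2
  funext v
  change ext I' ζ ((pullL h.eq).symm x) (σ v) = _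
  rw [h.ext_eq]; simp

theorem Rl.bbm_eq [DecidableEq κ] (h : Rl σ I I' E E') (hC : ∀ u ∈ I, σ u ∈ C' ↔ u ∈ C)
    (hA : Anch I E) (hA' : Anch I' E') {Z : κ → (U → ℝ) → U → ℝ} {Z' : κ → (V → ℝ) → V → ℝ}
    (hZ : RefF I Z) (hZ' : RefF I' Z') (ζ : V → ℝ)
    (hcov : ∀ i, ∃ c : ℝ, ∀ (g : V → ℝ), ∀ u ∈ I, Z' i g (σ u) = Z i (g ∘ σ) u + c) :
    bbm C' hA' hZ' ζ = bbm C hA hZ (ζ ∘ σ) := by
  ext i j
  have h1 : ∀ xi, bb C' hA' hZ' ζ xi = bb C hA hZ (ζ ∘ σ) xi :=
    fun xi => h.bb_eq hC hA hA' hZ hZ' ζ hcov xi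
  change (bb C' hA' hZ' ζ _ - bb C' hA' hZ' ζ _ - bb C' hA' hZ' ζ _) / 2 =
    (bb C hA hZ (ζ ∘ σ) _ - bb C hA hZ (ζ ∘ σ) _ - bb C hA hZ (ζ ∘ σ) _) / 2
  rw [h1, h1, h1]

end Relab

end Crest.Agent.R144.BQ565
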