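import Crest.Agent.R144.Lw4_425

/-!
R144 (S0197), helper425.  Lw5: the standard hexagonal window of the triangular lattice `ℤ × ℤ`
(neighbours `±(1,0), ±(0,1), ±(1,-1)`).

* `hd a b` : the lattice distance; `hball R`, `inn R` (interior), `sph R` (boundary), `wE R` (edges);
* `good R r δ` : the closed set of good data;
* `std_kappa`, `std_lin` : the window inequality for the standard window.
-/

set_option autoImplicit false

open MeasureTheory Set Filter Topology
open scoped ENNReal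

noncomputable section

namespace Crest.Agent.R144.Lw425

open Crest.Agent.R144.Ham560

/-! ### Hexagonal distance -/

/-- Distance of the triangular lattice. -/
def hd (a b : ℤ × ℤ) : ℤ :=
  max (max |a.1 - b.1| |a.2 - b.2|) |a.1 - b.1 + (a.2 - b.2)|

theorem hd_comm (a b : ℤ × ℤ) : hd a b = hd b a := by
  unfold hd
  rw [abs_sub_comm a.1 b.1, abs_sub_comm a.2 b.2,
    show a.1 - b.1 + (a.2 - b.2) = -(b.1 - a.1 + (b.2 - a.2)) by ring, abs_neg]

theorem hd_self (a : ℤ × ℤ) : hd a a = 0 := by simp [hd]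

theorem hd_nonneg (a b : ℤ × ℤ) : 0 ≤ hd a b :=
  le_trans (abs_nonneg _) (le_max_right _ _)

theorem hd_triangle (a b c : ℤ × ℤ) : hd a c ≤ hd a b + hd b c := by
  unfold hd
  have h1 : |a.1 - c.1| ≤ |a.1 - b.1| + |b.1 - c.1| := abs_sub_le _ _ _
  have h2 : |a.2 - c.2| ≤ |a.2 - b.2| + |b.2 - c.2| := abs_sub_le _ _ _
  have h3 : |a.1 - c.1 + (a.2 - c.2)| ≤ |a.1 - b.1 + (a.2 - b.2)| + |b.1 - c.1 + (b.2 - c.2)| := by
    have : a.1 - c.1 + (a.2 - c.2) = (a.1 - b.1 + (a.2 - b.2)) + (b.1 - c.1 + (b.2 - c.2)) := by ring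
    rw [this]; exact abs_add_le _ _
  refine max_le (max_le ?_ ?_) ?_
  · exact h1.trans (add_le_add ((le_max_left _ _).trans (le_max_left _ _))
      ((le_max_left _ _).trans (le_max_left _ _)))
  · exact h2.trans (add_le_add ((le_max_right _ _).trans (le_max_left _ _))
      ((le_max_right _ _).trans (le_max_left _ _)))
  · exact h3.trans (add_le_add (le_max_right _ _) (le_max_right _ _))

theorem hd_eq_zero {a b : ℤ × ℤ} (h : hd a b = 0) : a = b := by
  have h1 : |a.1 - b.1| ≤ hd a b := (le_max_left _ _).trans (le_max_left _ _)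
  have h2 : |a.2 - b.2| ≤ hd a b := (le_max_right _ _).trans (le_max_left _ _)
  rw [h] at h1 h2
  have h3 := abs_nonpos_iff.mp h1
  have h4 := abs_nonpos_iff.mp h2
  ext
  · omega
  · omega

theorem hd_pos {a b : ℤ × ℤ} (h : a ≠ b) : 1 ≤ hd a b := by
  have := hd_nonneg a b
  rcases eq_or_lt_of_le this with h1 | h1
  · exact absurd (hd_eq_zero h1.symm) h
  · omega

theorem hd_sub_le (a b c : ℤ × ℤ) (h : hd b c = 1) : hd a b ≤ hd a c + 1 := by
  have := hd_triangle a c b
  rw [hd_comm c b, h] at this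
  exact this

theorem hd_le_iff {a b : ℤ × ℤ} {k : ℤ} : hd a b ≤ k ↔
    (-k ≤ a.1 - b.1 ∧ a.1 - b.1 ≤ k) ∧ (-k ≤ a.2 - b.2 ∧ a.2 - b.2 ≤ k) ∧
      (-k ≤ a.1 - b.1 + (a.2 - b.2) ∧ a.1 - b.1 + (a.2 - b.2) ≤ k) := by
  unfold hd
  rw [max_le_iff, max_le_iff, abs_le, abs_le, abs_le]
  tauto

theorem hd_eq_of {a b : ℤ × ℤ} {k : ℤ} (h1 : hd a b ≤ k) (h2 : k ≤ hd a b) : hd a b = k :=
  le_antisymm h1 h2

theorem hd_adj {a c : ℤ × ℤ} (e1 e2 : ℤ) (hc1 : c.1 = a.1 + e1) (hc2 : c.2 = a.2 + e2)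
    (he : (e1 = 1 ∧ e2 = 0) ∨ (e1 = -1 ∧ e2 = 0) ∨ (e1 = 0 ∧ e2 = 1) ∨ (e1 = 0 ∧ e2 = -1) ∨
      (e1 = 1 ∧ e2 = -1) ∨ (e1 = -1 ∧ e2 = 1)) : hd a c = 1 := by
  have hle : hd a c ≤ 1 := by
    rw [hd_le_iff]
    rcases he with h | h | h | h | h | h <;> omega
  have hne : a ≠ c := by
    rintro rfl
    rcases he with h | h | h | h | h | h <;> omega
  exact le_antisymm hle (hd_pos hne)

/-- One geodesic step from `a` towards `b`: it stays in every ball containing `a` and `b`. -/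
theorem exists_step {a b : ℤ × ℤ} (h : a ≠ b) :
    ∃ c, hd a c = 1 ∧ hd c b = hd a b - 1 ∧ ∀ o k, hd a o ≤ k → hd b o ≤ k → hd c o ≤ k := by
  have hne : ¬ (a.1 = b.1 ∧ a.2 = b.2) := fun hh => h (Prod.ext hh.1 hh.2)
  have hH := hd_le_iff.mp (le_refl (hd a b))
  have hpos := hd_pos h
  set H := hd a b with hHdef
  -- choice of the step
  have key : ∀ (e1 e2 : ℤ), ((e1 = 1 ∧ e2 = 0) ∨ (e1 = -1 ∧ e2 = 0) ∨ (e1 = 0 ∧ e2 = 1) ∨
      (e1 = 0 ∧ e2 = -1) ∨ (e1 = 1 ∧ e2 = -1) ∨ (e1 = -1 ∧ e2 = 1)) →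
      ((-(H - 1) ≤ a.1 + e1 - b.1 ∧ a.1 + e1 - b.1 ≤ H - 1) ∧
        (-(H - 1) ≤ a.2 + e2 - b.2 ∧ a.2 + e2 - b.2 ≤ H - 1) ∧
        (-(H - 1) ≤ a.1 + e1 - b.1 + (a.2 + e2 - b.2) ∧
          a.1 + e1 - b.1 + (a.2 + e2 - b.2) ≤ H - 1)) →
      (min a.1 b.1 ≤ a.1 + e1 ∧ a.1 + e1 ≤ max a.1 b.1) →
      (min a.2 b.2 ≤ a.2 + e2 ∧ a.2 + e2 ≤ max a.2 b.2) →
      (min (a.1 + a.2) (b.1 + b.2) ≤ a.1 + e1 + (a.2 + e2) ∧
        a.1 + e1 + (a.2 + e2) ≤ max (a.1 + a.2) (b.1 + b.2)) →
      ∃ c, hd a c = 1 ∧ hd c b = H - 1 ∧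
        ∀ o k, hd a o ≤ k → hd b o ≤ k → hd c o ≤ k := by
    intro e1 e2 he h2 h3 h4 h5
    have h1 : hd a (a.1 + e1, a.2 + e2) = 1 := hd_adj e1 e2 rfl rfl he
    refine ⟨(a.1 + e1, a.2 + e2), h1, ?_, fun o k ha hb => ?_⟩
    · refine le_antisymm (hd_le_iff.mpr h2) ?_
      have := hd_triangle a (a.1 + e1, a.2 + e2) b
      omega
    · rw [hd_le_iff] at ha hb ⊢
      simp only
      omega
  rcases lt_trichotomy a.1 b.1 with h1 | h1 | h1
  · rcases lt_trichotomy a.2 b.2 with h2 | h2 | h2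
    · exact key 1 0 (by omega) (by omega) (by omega) (by omega) (by omega)
    · exact key 1 0 (by omega) (by omega) (by omega) (by omega) (by omega)
    · exact key 1 (-1) (by omega) (by omega) (by omega) (by omega) (by omega)
  · rcases lt_trichotomy a.2 b.2 with h2 | h2 | h2
    · exact key 0 1 (by omega) (by omega) (by omega) (by omega) (by omega)
    · exact absurd ⟨h1, h2⟩ hne
    · exact key 0 (-1) (by omega) (by omega) (by omega) (by omega) (by omega)
  · rcases lt_trichotomy a.2 b.2 with h2 | h2 | h2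
    · exact key (-1) 1 (by omega) (by omega) (by omega) (by omega) (by omega)
    · exact key (-1) 0 (by omega) (by omega) (by omega) (by omega) (by omega)
    · exact key (-1) 0 (by omega) (by omega) (by omega) (by omega) (by omega)


/-! ### The standard window -/

/-- Closed ball of radius `R`. -/
def hball (R : ℕ) : Finset (ℤ × ℤ) :=
  ((Finset.Icc (-(R : ℤ)) R) ×ˢ (Finset.Icc (-(R : ℤ)) R)).filter fun a => hd a 0 ≤ R

theorem mem_hball {R : ℕ} {a : ℤ × ℤ} : a ∈ hball R ↔ hd a 0 ≤ R := by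
  unfold hball
  rw [Finset.mem_filter, Finset.mem_product, Finset.mem_Icc, Finset.mem_Icc, and_iff_right_iff_imp]
  intro h
  rw [hd_le_iff] at h
  simp only [Prod.fst_zero, Prod.snd_zero, sub_zero] at h
  omega

/-- Interior of the window. -/
def inn (R : ℕ) : Finset (ℤ × ℤ) := (hball R).filter fun a => hd a 0 < R

/-- Boundary of the window. -/
def sph (R : ℕ) : Finset (ℤ × ℤ) := (hball R).filter fun a => hd a 0 = R

/-- Edges of the window: lattice edges of the closed ball touching the interior. -/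
def wE (R : ℕ) : Finset ((ℤ × ℤ) × (ℤ × ℤ)) :=
  (hball R ×ˢ hball R).filter fun p => hd p.1 p.2 = 1 ∧ (hd p.1 0 < R ∨ hd p.2 0 < R)

/-- Edges of the ball of radius `r`. -/
def core (r : ℕ) : Finset ((ℤ × ℤ) × (ℤ × ℤ)) :=
  (hball r ×ˢ hball r).filter fun p => hd p.1 p.2 = 1

theorem mem_inn {R : ℕ} {a : ℤ × ℤ} : a ∈ inn R ↔ hd a 0 < R := by
  rw [inn, Finset.mem_filter, mem_hball]
  exact ⟨fun h => h.2, fun h => ⟨h.le, h⟩⟩

theorem mem_sph {R : ℕ} {a : ℤ × ℤ} : a ∈ sph R ↔ hd a 0 = R := by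
  rw [sph, Finset.mem_filter, mem_hball]
  exact ⟨fun h => h.2, fun h => ⟨h.le, h⟩⟩

theorem mem_wE {R : ℕ} {p : (ℤ × ℤ) × (ℤ × ℤ)} : p ∈ wE R ↔
    (hd p.1 0 ≤ R ∧ hd p.2 0 ≤ R) ∧ hd p.1 p.2 = 1 ∧ (hd p.1 0 < R ∨ hd p.2 0 < R) := by
  rw [wE, Finset.mem_filter, Finset.mem_product, mem_hball, mem_hball]

theorem mem_core {r : ℕ} {p : (ℤ × ℤ) × (ℤ × ℤ)} : p ∈ core r ↔
    (hd p.1 0 ≤ r ∧ hd p.2 0 ≤ r) ∧ hd p.1 p.2 = 1 := by
  rw [core, Finset.mem_filter, Finset.mem_product, mem_hball, mem_hball]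

theorem inn_subset {R : ℕ} : inn R ⊆ hball R := Finset.filter_subset _ _

theorem sph_subset {R : ℕ} : sph R ⊆ hball R := Finset.filter_subset _ _

theorem inn_or_sph {R : ℕ} {a : ℤ × ℤ} (h : hd a 0 ≤ R) : a ∈ inn R ∨ a ∈ sph R := by
  rw [mem_inn, mem_sph]; exact lt_or_eq_of_le h

theorem sph_nonempty (R : ℕ) : (sph R).Nonempty := by
  refine ⟨((R : ℤ), 0), mem_sph.mpr ?_⟩
  refine le_antisymm ?_ ?_
  · rw [hd_le_iff]
    simp only [Prod.fst_zero, Prod.snd_zero, sub_zero]
    omega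
  · have := hd_le_iff.mp (le_refl (hd ((R : ℤ), (0:ℤ)) 0))
    simp only [Prod.fst_zero, Prod.snd_zero, sub_zero] at this
    exact this.1.2

theorem wE_nbr {R : ℕ} {a b : ℤ × ℤ} (ha : a ∈ inn R) (hb : hd b 0 ≤ R) (hab : hd a b = 1) :
    b ∈ nbr (wE R) a := by
  rw [mem_nbr]
  refine ⟨?_, Or.inl (mem_wE.mpr ⟨⟨(mem_inn.mp ha).le, hb⟩, hab, Or.inl (mem_inn.mp ha)⟩)⟩
  rintro rfl
  rw [hd_self] at hab
  omega

theorem anch_window (R : ℕ) : Anch (inn R) (wE R) := by
  have key : ∀ (n : ℕ) (v : ℤ × ℤ), v ∈ inn R → (R : ℤ) - v.1 ≤ n → ∃ u, u ∉ inn R ∧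
      Relation.ReflTransGen (fun a b => b ∈ nbr (wE R) a) v u := by
    intro n
    induction n with
    | zero =>
      intro v hv hn
      exfalso
      have h1 := hd_le_iff.mp (le_refl (hd v 0))
      have h2 := mem_inn.mp hv
      simp only [Prod.fst_zero, Prod.snd_zero, sub_zero] at h1
      push_cast at hn
      omega
    | succ n ih =>
      intro v hv hn
      have hstep : hd v (v.1 + 1, v.2) = 1 := hd_adj 1 0 rfl (by simp) (by omega)
      have h2 := mem_inn.mp hv
      have h3 : hd (v.1 + 1, v.2) 0 ≤ R := by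
        have := hd_triangle (v.1 + 1, v.2) v 0
        rw [hd_comm _ v, hstep] at this
        omega
      have hnb := wE_nbr hv h3 hstep
      by_cases h4 : (v.1 + 1, v.2) ∈ inn R
      · obtain ⟨u, hu, hp⟩ := ih (v.1 + 1, v.2) h4 (by push_cast at hn; simp only; omega)
        exact ⟨u, hu, Relation.ReflTransGen.head hnb hp⟩
      · exact ⟨_, h4, Relation.ReflTransGen.single hnb⟩
  intro v hv
  exact key ((R : ℤ) - v.1).toNat v hv (Int.self_le_toNat _)

theorem proper_window (R : ℕ) : Proper (inn R) (wE R) := by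
  intro p hp
  rw [mem_wE] at hp
  refine ⟨?_, ?_⟩
  · intro h
    rw [h, hd_self] at hp
    omega
  · rw [mem_inn, mem_inn]; exact hp.2.2

theorem bd_window (R : ℕ) : Bd (inn R) (sph R) (wE R) := by
  intro p hp
  rw [mem_wE] at hp
  exact ⟨fun h => (inn_or_sph hp.1.1).resolve_left h, fun h => (inn_or_sph hp.1.2).resolve_left h⟩

theorem core_inn {r R : ℕ} (h : r < R) : ∀ p ∈ core r, p.1 ∈ inn R ∧ p.2 ∈ inn R := by
  intro p hp
  rw [mem_core] at hp
  rw [mem_inn, mem_inn]
  omega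

theorem core_subset {r R : ℕ} (h : r < R) : core r ⊆ wE R := by
  intro p hp
  rw [mem_core] at hp
  rw [mem_wE]
  omega

/-- Strict McShane extension. -/
theorem strict_ext {A : Finset (ℤ × ℤ)} (hA : A.Nonempty) {g : ℤ × ℤ → ℝ}
    (hg : ∀ a ∈ A, ∀ b ∈ A, a ≠ b → |g a - g b| < hd a b) :
    ∃ h : ℤ × ℤ → ℝ, (∀ a ∈ A, h a = g a) ∧ ∀ a b, hd a b = 1 → |h a - h b| < 1 := by
  -- a uniform factor
  have hev : ∀ᶠ t in 𝓝[<] (1:ℝ), 0 ≤ t ∧ ∀ a ∈ A, ∀ b ∈ A, |g a - g b| ≤ t * hd a b := by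
    refine Filter.Eventually.and ?_ ?_
    · exact eventually_nhdsWithin_of_eventually_nhds
        ((eventually_gt_nhds (show (0:ℝ) < 1 by norm_num)).mono fun t ht => ht.le)
    · rw [Filter.eventually_all_finset]
      intro a ha
      rw [Filter.eventually_all_finset]
      intro b hb
      refine eventually_nhdsWithin_of_eventually_nhds ?_
      by_cases hab : a = b
      · subst hab
        refine Eventually.of_forall fun t => ?_
        rw [hd_self]; simp
      · have h1 := hg a ha b hb hab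
        have h2 : ContinuousAt (fun t : ℝ => t * (hd a b : ℝ)) 1 := by fun_prop
        have h3 := (continuousAt_const (y := |g a - g b|)).eventually_lt h2 (by simpa using h1)
        exact h3.mono fun t ht => ht.le
  obtain ⟨t, ⟨ht0, htA⟩, ht1⟩ := (hev.and self_mem_nhdsWithin).exists
  have ht1' : t < 1 := ht1
  refine ⟨fun w => A.inf' hA fun a => g a + t * hd a w, ?_, ?_⟩
  · intro a ha
    refine le_antisymm ?_ ?_
    · have := Finset.inf'_le (fun b => g b + t * (hd b a : ℝ)) ha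
      refine this.trans ?_
      rw [hd_self]; simp
    · refine Finset.le_inf' _ _ fun b hb => ?_
      have := htA b hb a ha
      have := (abs_le.mp this).1
      linarith
  · have key : ∀ a b, hd a b = 1 → A.inf' hA (fun c => g c + t * (hd c a : ℝ)) ≤
        A.inf' hA (fun c => g c + t * (hd c b : ℝ)) + t := by
      intro a b hab
      rw [← sub_le_iff_le_add]
      refine Finset.le_inf' _ _ fun c hc => ?_
      have h1 := Finset.inf'_le (fun c => g c + t * (hd c a : ℝ)) hc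
      have h2 : (hd c a : ℝ) ≤ hd c b + 1 := by exact_mod_cast hd_sub_le c a b hab
      have h3 : t * (hd c a : ℝ) ≤ t * (hd c b + 1) := mul_le_mul_of_nonneg_left h2 ht0
      linarith
    intro a b hab
    have h1 := key a b hab
    have h2 := key b a (by rw [hd_comm]; exact hab)
    rw [abs_lt]; constructor <;> linarith

/-- Good data. -/
def good (R r : ℕ) (δ : ℝ) : Set (sph R → ℝ) :=
  {z | ∀ y y' : sph R, y ≠ y' → |z y - z y'| ≤ hd y y' - δ ∧
    |z y - z y'| ≤ 2 * (R : ℝ) - 2 * (r : ℝ) - 4}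

theorem isClosed_good (R r : ℕ) (δ : ℝ) : IsClosed (good R r δ) := by
  have : good R r δ = ⋂ y : sph R, ⋂ y' : sph R, ⋂ _ : y ≠ y',
      ({z : sph R → ℝ | |z y - z y'| ≤ hd y y' - δ} ∩
        {z : sph R → ℝ | |z y - z y'| ≤ 2 * (R : ℝ) - 2 * (r : ℝ) - 4}) := by
    ext z
    simp only [good, mem_ofPred_eq, mem_iInter, mem_inter_iff]
  rw [this]
  refine isClosed_iInter fun y => isClosed_iInter fun y' => isClosed_iInter fun _ => ?_
  have hc : Continuous fun z : sph R → ℝ => |z y - z y'| :=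
    ((continuous_apply y).sub (continuous_apply y')).abs
  exact (isClosed_le hc continuous_const).inter (isClosed_le hc continuous_const)

theorem good_shift {R r : ℕ} {δ : ℝ} : ∀ z ∈ good R r δ, ∀ c : ℝ, (fun y => z y + c) ∈ good R r δ := by
  intro z hz c y y' hyy
  have := hz y y' hyy
  simp only [add_sub_add_right_eq_sub]
  exact this

theorem good_diff {R r : ℕ} {δ : ℝ} : ∀ z ∈ good R r δ, ∀ y y' : sph R, |z y - z y'| ≤ 2 * R := by
  intro z hz y y'
  by_cases h : y = y'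
  · subst h; simp
  · have := (hz y y' h).2
    have h2 : (0:ℝ) ≤ r := Nat.cast_nonneg r
    linarith

/-- The data `z` as a function on `ℤ × ℤ`. -/
theorem dat_sph {R : ℕ} (z : sph R → ℝ) (y : sph R) : dat (sph R) z y = z y := by
  rw [dat, ext_mem y.2]

theorem ext_of_agree {R : ℕ} {z : sph R → ℝ} {h : ℤ × ℤ → ℝ} (hz : ∀ y : sph R, h y = z y)
    {a : ℤ × ℤ} (ha : hd a 0 ≤ R) :
    Ham560.ext (inn R) (dat (sph R) z) (fun v => h v) a = h a := by
  rcases inn_or_sph ha with h' | h'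
  · rw [ext_mem h']
  · have : a ∉ inn R := by
      rw [mem_inn, mem_sph.mp h']; exact lt_irrefl _
    rw [ext_notMem this]
    have := dat_sph z ⟨a, h'⟩
    rw [this, ← hz]

theorem good_pos {R r : ℕ} {δ : ℝ} (hδ : 0 < δ) : ∀ z ∈ good R r δ,
    0 < Vr (inn R) (wE R) (dat (sph R) z) := by
  intro z hz
  obtain ⟨h, h1, h2⟩ := strict_ext (sph_nonempty R) (g := dat (sph R) z) (by
    intro a ha b hb hab
    have := (hz ⟨a, ha⟩ ⟨b, hb⟩ (by simpa using hab)).1
    rw [← dat_sph z ⟨a, ha⟩, ← dat_sph z ⟨b, hb⟩] at this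
    simp only at this
    linarith)
  have h3 := pos_of_strict (F := inn R) (E := wE R) (ξ := dat (sph R) z) isOpen_univ
    (x := fun v => h v) (mem_univ _) (by
      intro q hq
      rw [mem_wE] at hq
      rw [ext_of_agree (h := h) (fun y => by rw [h1 y y.2, dat_sph]) hq.1.1,
        ext_of_agree (h := h) (fun y => by rw [h1 y y.2, dat_sph]) hq.1.2]
      exact h2 _ _ hq.2.1)
  rw [inter_univ] at h3
  exact ENNReal.toReal_pos h3.ne' (volume_ham_lt_top (anch_window R)).ne

/-- The middle of a finite family. -/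
theorem exists_mid {α : Type*} [Fintype α] [Nonempty α] (z : α → ℝ) {D : ℝ}
    (h : ∀ y y', |z y - z y'| ≤ D) : ∃ c, ∀ y, |c - z y| ≤ D / 2 := by
  obtain ⟨yM, hM⟩ := Finite.exists_max z
  obtain ⟨ym, hm⟩ := Finite.exists_min z
  refine ⟨(z yM + z ym) / 2, fun y => ?_⟩
  have h1 := hM y
  have h2 := hm y
  have h3 := (abs_le.mp (h yM ym)).2
  rw [abs_le]; constructor <;> linarith

theorem good_flex {R r : ℕ} (hr : r + 2 ≤ R) {δ : ℝ} (hδ : 0 < δ) : ∀ z ∈ good R r δ,
    Flex (inn R) (wE R) (core r) (dat (sph R) z) := by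
  classical
  intro z hz p hp s hs
  rw [mem_core] at hp
  obtain ⟨⟨hu, hv⟩, huv⟩ := hp
  set s' : ℝ := max ((s + 1) / 2) (1 / 2) with hs'
  have hs1 : s' < 1 := max_lt (by linarith) (by norm_num)
  have hs2 : s < s' := lt_of_lt_of_le (by linarith) (le_max_left _ _)
  have hs3 : 0 < s' := lt_of_lt_of_le (by norm_num) (le_max_right _ _)
  have : Nonempty (sph R) := (sph_nonempty R).to_subtype
  have hRr : (r : ℝ) + 2 ≤ R := by exact_mod_cast hr
  obtain ⟨c, hc⟩ := exists_mid z (D := 2 * R - 2 * r - 4) (by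
    intro y y'
    by_cases h : y = y'
    · subst h; simp; linarith
    · exact (hz y y' h).2)
  have hfar : ∀ w : ℤ × ℤ, hd w 0 ≤ r → ∀ y ∈ sph R, (R : ℝ) - r ≤ hd w y := by
    intro w hw y hy
    have h1 := hd_triangle y w 0
    rw [mem_sph.mp hy, hd_comm y w] at h1
    have : (R : ℤ) - r ≤ hd w y := by omega
    exact_mod_cast this
  have hsph : ∀ w : ℤ × ℤ, hd w 0 ≤ r → w ∉ sph R := by
    intro w hw h
    have := mem_sph.mp h
    omega
  set u := p.1 with hu'
  set v := p.2 with hv'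
  have huvne : u ≠ v := by
    intro h
    rw [h, hd_self] at huv
    omega
  set g : ℤ × ℤ → ℝ := fun w => if w = u then c else if w = v then c - s' else dat (sph R) z w
    with hg
  have gu : g u = c := by simp [hg]
  have gv : g v = c - s' := by simp [hg, huvne.symm]
  have gy : ∀ y (hy : y ∈ sph R), g y = z ⟨y, hy⟩ := by
    intro y hy
    have h1 : y ≠ u := fun h => hsph u hu (h ▸ hy)
    have h2 : y ≠ v := fun h => hsph v hv (h ▸ hy)
    simp only [hg, if_neg h1, if_neg h2]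
    exact dat_sph z ⟨y, hy⟩
  have hcy : ∀ y (hy : y ∈ sph R), |c - z ⟨y, hy⟩| ≤ R - r - 2 := by
    intro y hy
    have := hc ⟨y, hy⟩
    linarith
  have key : ∀ a ∈ insert u (insert v (sph R)), ∀ b ∈ insert u (insert v (sph R)), a ≠ b →
      |g a - g b| < hd a b := by
    have huvr : ((hd u v : ℤ) : ℝ) = 1 := by exact_mod_cast huv
    have hvur : ((hd v u : ℤ) : ℝ) = 1 := by rw [hd_comm]; exact_mod_cast huv
    have kuy : ∀ y ∈ sph R, |g u - g y| < hd u y := by
      intro y hy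
      rw [gu, gy y hy]
      have h1 := hcy y hy
      have h2 := hfar u hu y hy
      linarith
    have kvy : ∀ y ∈ sph R, |g v - g y| < hd v y := by
      intro y hy
      rw [gv, gy y hy]
      have h1 := abs_le.mp (hcy y hy)
      have h2 := hfar v hv y hy
      rw [abs_lt]; constructor <;> linarith
    have kyy : ∀ y ∈ sph R, ∀ y' ∈ sph R, y ≠ y' → |g y - g y'| < hd y y' := by
      intro y hy y' hy' hne
      rw [gy y hy, gy y' hy']
      have := (hz ⟨y, hy⟩ ⟨y', hy'⟩ (by simpa using hne)).1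
      simp only at this
      linarith
    have kuv : |g u - g v| < hd u v := by
      rw [gu, gv, huvr]
      rw [abs_lt]; constructor <;> linarith
    intro a ha b hb hab
    rw [Finset.mem_insert, Finset.mem_insert] at ha hb
    rcases ha with rfl | rfl | ha <;> rcases hb with hb | hb | hb
    · exact absurd hb.symm hab
    · rw [hb]; exact kuv
    · exact kuy b hb
    · rw [hb, abs_sub_comm, hd_comm]; exact kuv
    · exact absurd hb.symm hab
    · exact kvy b hb
    · rw [hb, abs_sub_comm, hd_comm]; exact kuy a ha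
    · rw [hb, abs_sub_comm, hd_comm]; exact kvy a ha
    · exact kyy a ha b hb hab
  obtain ⟨h, h1, h2⟩ := strict_ext ⟨u, Finset.mem_insert_self _ _⟩ key
  have hagree : ∀ y : sph R, h y = z y := by
    intro y
    rw [h1 y (Finset.mem_insert_of_mem (Finset.mem_insert_of_mem y.2)), gy y y.2]
  refine ⟨fun w => h w, ?_, ?_⟩
  · intro q hq
    rw [mem_wE] at hq
    rw [ext_of_agree hagree hq.1.1, ext_of_agree hagree hq.1.2]
    exact h2 _ _ hq.2.1
  · rw [ext_of_agree hagree (by omega), ext_of_agree hagree (by omega),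
      h1 u (Finset.mem_insert_self _ _),
      h1 v (Finset.mem_insert_of_mem (Finset.mem_insert_self _ _)), gu, gv]
    linarith

/-! ### Local observables -/

/-- Local bounded gradient observable with radius `r`. -/
structure LObs (r : ℕ) (f : (ℤ × ℤ → ℝ) → ℝ) : Prop where
  meas : Measurable f
  bd : ∀ h, |f h| ≤ 1
  loc : ∀ h h', (∀ a ∈ hball r, h a = h' a) → f h = f h'
  shift : ∀ h (c : ℝ), f (fun a => h a + c) = f h

/-- The observable on the window. -/
def wobs (R : ℕ) (f : (ℤ × ℤ → ℝ) → ℝ) (x : inn R → ℝ) : ℝ := f (Ham560.ext (inn R) 0 x)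

theorem measurable_wobs {r : ℕ} {f : (ℤ × ℤ → ℝ) → ℝ} (hf : LObs r f) (R : ℕ) :
    Measurable (wobs R f) := by
  refine hf.meas.comp (measurable_pi_lambda _ fun a => ?_)
  exact (continuous_ext (F := inn R) (ξ := 0) a).measurable

/-- A function which is constant along the edges of the ball is constant on the ball. -/
theorem const_of_core {r : ℕ} {w : ℤ × ℤ → ℝ} (h : ∀ p ∈ core r, w p.1 = w p.2) :
    ∀ a ∈ hball r, w a = w 0 := by
  have key : ∀ (n : ℕ) (a : ℤ × ℤ), hd a 0 ≤ n → a ∈ hball r → w a = w 0 := by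
    intro n
    induction n with
    | zero =>
      intro a ha _
      have : hd a 0 = 0 := le_antisymm (by simpa using ha) (hd_nonneg _ _)
      rw [hd_eq_zero this]
    | succ n ih =>
      intro a ha har
      by_cases h0 : a = 0
      · rw [h0]
      obtain ⟨c, hc1, hc2, hc3⟩ := exists_step h0
      have hcr : hd c 0 ≤ r := by rw [mem_hball] at har; omega
      rw [h (a, c) (mem_core.mpr ⟨⟨mem_hball.mp har, hcr⟩, hc1⟩)]
      exact ih c (by push_cast at ha; omega) (mem_hball.mpr hcr)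
  intro a ha
  exact key (hd a 0).toNat a (Int.self_le_toNat _) ha

theorem coreObs_wobs {r R : ℕ} (hr : r < R) {f : (ℤ × ℤ → ℝ) → ℝ} (hf : LObs r f) :
    CoreObs (core r) (wobs R f) := by
  intro w hw x
  have hconst := const_of_core (w := Ham560.ext (inn R) 0 w) hw
  have hmem : ∀ a ∈ hball r, a ∈ inn R := by
    intro a ha
    rw [mem_inn]; rw [mem_hball] at ha; omega
  unfold wobs
  rw [← hf.shift (Ham560.ext (inn R) 0 x) (Ham560.ext (inn R) 0 w 0)]
  refine hf.loc _ _ fun a ha => ?_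
  rw [← hconst a ha, ext_mem (hmem a ha), ext_mem (hmem a ha), ext_mem (hmem a ha)]
  rfl

/-- Window inequality for the standard window, linear form. -/
theorem std_lin {r R : ℕ} (hr : r + 2 ≤ R) {δ : ℝ} (hδ : 0 < δ) {f : (ℤ × ℤ → ℝ) → ℝ}
    (hf : LObs r f) {ε : ℝ} (hε : 0 < ε) :
    ∃ C > 0, ∀ z ∈ good R r δ, ∀ z' ∈ good R r δ,
      |mean (inn R) (wE R) (wobs R f) (dat (sph R) z) -
        mean (inn R) (wE R) (wobs R f) (dat (sph R) z')| ≤
      ε + C * Del (inn R) (wE R) (dat (sph R) z) (dat (sph R) z') := by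
  obtain ⟨κ, hκ, h⟩ := window_kappa (F := inn R) (Z := sph R) (E := wE R) (core := core r)
    (anch_window R) (proper_window R) (bd_window R) (core_inn (by omega)) (core_subset (by omega))
    (isClosed_good R r δ) good_shift good_diff (good_flex hr hδ) (good_pos hδ)
    (measurable_wobs hf R) (C := 1) (fun x => hf.bd _) (coreObs_wobs (by omega) hf) hε
  refine ⟨2 / κ, by positivity, fun z hz z' hz' => ?_⟩
  have hD := Del_nonneg (anch_window R) (good_pos hδ z hz) (good_pos hδ z' hz')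
  by_cases hc : ε ≤ |mean (inn R) (wE R) (wobs R f) (dat (sph R) z) -
        mean (inn R) (wE R) (wobs R f) (dat (sph R) z')|
  · have h1 := h z hz z' hz' hc
    have hm : ∀ z ∈ good R r δ, |mean (inn R) (wE R) (wobs R f) (dat (sph R) z)| ≤ 1 := by
      intro z hz
      have hp := good_pos hδ z hz
      have : IsProbabilityMeasure (hamP (inn R) (wE R) (dat (sph R) z)) :=
        isProb_uP (ne_zero_of_real_pos hp) (ne_top_of_real_pos hp)
      rw [mean, ← Real.norm_eq_abs]
      have := norm_integral_le_of_norm_le_const (μ := hamP (inn R) (wE R) (dat (sph R) z))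
        (f := wobs R f) (C := 1) (Eventually.of_forall fun x => by
          rw [Real.norm_eq_abs]; exact hf.bd _)
      simpa using this
    have h2 := abs_le.mp (hm z hz)
    have h3 := abs_le.mp (hm z' hz')
    have h4 : 2 ≤ 2 / κ * Del (inn R) (wE R) (dat (sph R) z) (dat (sph R) z') := by
      rw [div_mul_eq_mul_div, le_div_iff₀ hκ]
      linarith
    rw [abs_le]; constructor <;> linarith
  · push Not at hc
    have : 0 ≤ 2 / κ * Del (inn R) (wE R) (dat (sph R) z) (dat (sph R) z') := by positivity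
    linarith

end Crest.Agent.R144.Lw425
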