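import Crest.Agent.R144.Lc5_279
import Crest.Agent.R144.Lw5_425

/-!
R144 (S0197), helper279.  Block LC, file 6: lattice edges and transport.

* `lat W` : the edges of the triangular lattice touching `W` (both orientations);
* `Place` : a map `φ : V → U` injective on a set `D` which identifies the configurations of two systems;
* `Place.J_eq`, `Place.vr_eq`, `Place.Dl_eq`, `Place.Ev_eq`, `Place.win` : transport.
-/

set_option autoImplicit false
set_option linter.unusedSectionVars false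
set_option linter.unusedVariables false

open MeasureTheory Set
open scoped ENNReal

noncomputable section

namespace Crest.Agent.R144.Lc279

open Crest.Agent.R144.Ham560
open Crest.Agent.R144.Lw425 (hd hd_comm hd_le_iff mem_hball hball mem_inn inn mem_sph sph hd_self
  hd_triangle hd_pos hd_adj)

/-! ### Lattice edges -/

abbrev P2 := ℤ × ℤ

/-- The six neighbours. -/
def nb6 (v : P2) : Finset P2 :=
  {(v.1 + 1, v.2), (v.1 - 1, v.2), (v.1, v.2 + 1), (v.1, v.2 - 1), (v.1 + 1, v.2 - 1),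
    (v.1 - 1, v.2 + 1)}

theorem mem_nb6 {v w : P2} : w ∈ nb6 v ↔ hd v w = 1 := by
  constructor
  · intro h
    simp only [nb6, Finset.mem_insert, Finset.mem_singleton] at h
    rcases h with h | h | h | h | h | h <;> rw [h]
    · exact hd_adj 1 0 rfl (by simp) (by omega)
    · exact hd_adj (-1) 0 (by simp; ring) (by simp) (by omega)
    · exact hd_adj 0 1 (by simp) rfl (by omega)
    · exact hd_adj 0 (-1) (by simp) (by simp; ring) (by omega)
    · exact hd_adj 1 (-1) rfl (by simp; ring) (by omega)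
    · exact hd_adj (-1) 1 (by simp; ring) rfl (by omega)
  · intro h
    have h1 := hd_le_iff.mp h.le
    have h2 : v ≠ w := by
      rintro rfl
      rw [hd_self] at h
      omega
    have h3 : ¬ (v.1 = w.1 ∧ v.2 = w.2) := fun hh => h2 (Prod.ext hh.1 hh.2)
    simp only [nb6, Finset.mem_insert, Finset.mem_singleton, Prod.ext_iff]
    omega

theorem hd_eq_one_iff_adj {v w : P2} : hd v w = 1 ↔ Crest.ProbabilityR.HexHeights.Adj v w := by
  rw [← mem_nb6]
  simp only [nb6, Finset.mem_insert, Finset.mem_singleton, Prod.ext_iff,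
    Crest.ProbabilityR.HexHeights.Adj]
  omega

/-- Lattice edges touching `W`. -/
def lat (W : Finset P2) : Finset (P2 × P2) :=
  W.biUnion fun v => (nb6 v).image (fun w => (v, w)) ∪ (nb6 v).image fun w => (w, v)

theorem mem_lat {W : Finset P2} {p : P2 × P2} :
    p ∈ lat W ↔ hd p.1 p.2 = 1 ∧ (p.1 ∈ W ∨ p.2 ∈ W) := by
  simp only [lat, Finset.mem_biUnion, Finset.mem_union, Finset.mem_image, mem_nb6]
  constructor
  · rintro ⟨v, hv, ⟨w, hw, rfl⟩ | ⟨w, hw, rfl⟩⟩
    · exact ⟨hw, Or.inl hv⟩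
    · exact ⟨by rw [hd_comm]; exact hw, Or.inr hv⟩
  · rintro ⟨h, h1 | h1⟩
    · exact ⟨p.1, h1, Or.inl ⟨p.2, h, rfl⟩⟩
    · exact ⟨p.2, h1, Or.inr ⟨p.1, by rw [hd_comm]; exact h, rfl⟩⟩

theorem mem_nbr_lat {W : Finset P2} {a b : P2} :
    b ∈ nbr (lat W) a ↔ hd a b = 1 ∧ (a ∈ W ∨ b ∈ W) := by
  rw [mem_nbr, mem_lat, mem_lat]
  constructor
  · rintro ⟨h, h' | h'⟩
    · exact h'
    · exact ⟨by rw [hd_comm]; exact h'.1, h'.2.symm⟩
  · rintro ⟨h, h'⟩
    refine ⟨?_, Or.inl ⟨h, h'⟩⟩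
    rintro rfl
    rw [hd_self] at h
    omega

theorem card_nb6_le (v : P2) : (nb6 v).card ≤ 6 := Finset.card_le_six

theorem card_nbr_lat_le (W : Finset P2) (a : P2) : (nbr (lat W) a).card ≤ 6 := by
  refine (Finset.card_le_card ?_).trans (card_nb6_le a)
  intro b hb
  rw [mem_nb6]; exact (mem_nbr_lat.mp hb).1

/-! ### Transport -/

variable {V U : Type*} [DecidableEq V] [DecidableEq U]

/-- `φ` identifies the system `(W, E')` on `V` with the system `(W.image φ, E)` on `U`; everything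
depends only on the sites of `D`, where `φ` is injective. -/
structure Place (W : Finset V) (E' : Finset (V × V)) (E : Finset (U × U)) (φ : V → U)
    (D : Set V) : Prop where
  sub : (W : Set V) ⊆ D
  inj : Set.InjOn φ D
  edge : ∀ p ∈ E', p.1 ∈ D ∧ p.2 ∈ D
  lip : ∀ h : U → ℝ, h ∈ HS E ↔ h ∘ φ ∈ HS E'

variable {W : Finset V} {E' : Finset (V × V)} {E : Finset (U × U)} {φ : V → U} {D : Set V}

/-- The bijection `W ≃ W.image φ`. -/
def eqv (h : Place W E' E φ D) : W ≃ ↥(W.image φ) :=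
  Equiv.ofBijective (fun w => ⟨φ w, Finset.mem_image_of_mem _ w.2⟩) (by
    constructor
    · intro a b hab
      have h1 : φ a = φ b := congrArg Subtype.val hab
      exact Subtype.ext (h.inj (h.sub a.2) (h.sub b.2) h1)
    · rintro ⟨u, hu⟩
      obtain ⟨w, hw, rfl⟩ := Finset.mem_image.mp hu
      exact ⟨⟨w, hw⟩, rfl⟩)

/-- The measurable bijection of the configuration spaces. -/
def meqv (h : Place W E' E φ D) : (W → ℝ) ≃ᵐ (↥(W.image φ) → ℝ) :=
  MeasurableEquiv.piCongrLeft (fun _ => ℝ) (eqv h)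

theorem meqv_apply (h : Place W E' E φ D) (y : W → ℝ) (w : W) :
    meqv h y ⟨φ w, Finset.mem_image_of_mem _ w.2⟩ = y w := by
  have := Equiv.piCongrLeft_apply_apply (P := fun _ : ↥(W.image φ) => ℝ) (eqv h) y w
  exact this

theorem meqv_mp (h : Place W E' E φ D) :
    MeasurePreserving (meqv h) (volume : Measure (W → ℝ)) volume :=
  volume_measurePreserving_piCongrLeft (fun _ => ℝ) (eqv h)

theorem ext_meqv (h : Place W E' E φ D) (ζ : U → ℝ) (y : W → ℝ) {v : V} (hv : v ∈ D) :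
    ext (W.image φ) ζ (meqv h y) (φ v) = ext W (ζ ∘ φ) y v := by
  by_cases hW : v ∈ W
  · rw [ext_mem (Finset.mem_image_of_mem φ hW), ext_mem hW]
    exact meqv_apply h y ⟨v, hW⟩
  · have : φ v ∉ W.image φ := by
      intro h1
      obtain ⟨w, hw, hwv⟩ := Finset.mem_image.mp h1
      exact hW (h.inj (h.sub hw) hv hwv ▸ hw)
    rw [ext_notMem this, ext_notMem hW]; rfl

theorem Place.comp_eq (h : Place W E' E φ D) {β : Type*} {G : (V → ℝ) → β} (hG : DependsOn G D)
    (ζ : U → ℝ) (y : W → ℝ) :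
    G (ext (W.image φ) ζ (meqv h y) ∘ φ) = G (ext W (ζ ∘ φ) y) :=
  hG fun v hv => ext_meqv h ζ y hv

theorem Place.J_eq (h : Place W E' E φ D) {G : (V → ℝ) → ℝ≥0∞} (hG : DependsOn G D)
    (ζ : U → ℝ) : J (W.image φ) (fun z => G (z ∘ φ)) ζ = J W G (ζ ∘ φ) := by
  unfold J
  rw [← (meqv_mp h).lintegral_comp_emb (meqv h).measurableEmbedding]
  exact lintegral_congr fun y => h.comp_eq hG ζ y

theorem Place.mem_ham (h : Place W E' E φ D) (ζ : U → ℝ) (y : W → ℝ) :
    meqv h y ∈ ham (W.image φ) E ζ ↔ y ∈ ham W E' (ζ ∘ φ) := by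
  rw [← ext_mem_HS, ← ext_mem_HS, h.lip]
  have : DependsOn (fun z => z ∈ HS E') D := by
    intro z z' hz
    have h1 := dep_hI (A := D) h.edge hz
    by_cases h2 : z ∈ HS E'
    · rw [hI_of_mem h2] at h1
      by_cases h3 : z' ∈ HS E'
      · simp [h2, h3]
      · rw [hI_of_notMem h3] at h1; simp at h1
    · rw [hI_of_notMem h2] at h1
      by_cases h3 : z' ∈ HS E'
      · rw [hI_of_mem h3] at h1; simp at h1
      · simp [h2, h3]
  rw [← h.comp_eq this]

theorem Place.volume_eq (h : Place W E' E φ D) (ζ : U → ℝ) :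
    volume (ham (W.image φ) E ζ) = volume (ham W E' (ζ ∘ φ)) := by
  rw [← (meqv_mp h).measure_preimage measurableSet_ham.nullMeasurableSet]
  congr 1
  ext y
  exact h.mem_ham ζ y

theorem Place.vr_eq (h : Place W E' E φ D) (ζ : U → ℝ) :
    vr (W.image φ) E ζ = vr W E' (ζ ∘ φ) := by
  unfold vr; rw [h.volume_eq]

theorem Place.Dl_eq (h : Place W E' E φ D) (ζ ζ' : U → ℝ) :
    Dl (W.image φ) E ζ ζ' = Dl W E' (ζ ∘ φ) (ζ' ∘ φ) := by
  unfold Dl
  rw [h.vr_eq, h.vr_eq, h.vr_eq]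
  rfl

theorem Place.Ev_eq (h : Place W E' E φ D) {G : (V → ℝ) → ℝ} (hG : DependsOn G D)
    (ζ : U → ℝ) : Ev (W.image φ) E ζ (fun z => G (z ∘ φ)) = Ev W E' (ζ ∘ φ) G := by
  rw [Lc279.Ev_eq, Lc279.Ev_eq, h.vr_eq]
  congr 1
  rw [← (meqv_mp h).setIntegral_preimage_emb (meqv h).measurableEmbedding]
  have e : (meqv h) ⁻¹' ham (W.image φ) E ζ = ham W E' (ζ ∘ φ) := by
    ext y; exact h.mem_ham ζ y
  rw [e]
  exact setIntegral_congr_fun measurableSet_ham fun y _ => h.comp_eq hG ζ y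

theorem measurable_comp (φ : V → U) : Measurable fun z : U → ℝ => z ∘ φ :=
  measurable_pi_lambda _ fun v => measurable_pi_apply _

theorem Place.anch (h : Place W E' E φ D) (hA : Anch W E')
    (he : ∀ p ∈ E', (φ p.1, φ p.2) ∈ E ∨ (φ p.2, φ p.1) ∈ E) (hl : ∀ p ∈ E', p.1 ≠ p.2) :
    Anch (W.image φ) E := by
  intro u hu
  obtain ⟨v, hv, rfl⟩ := Finset.mem_image.mp hu
  obtain ⟨w, hw, hp⟩ := hA v hv
  clear hu
  revert hv
  refine Relation.ReflTransGen.head_induction_on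
    (motive := fun v _ => v ∈ W → ∃ u, u ∉ W.image φ ∧
      Relation.ReflTransGen (fun a b => b ∈ nbr E a) (φ v) u) hp ?_ ?_
  · intro hw'; exact absurd hw' hw
  · intro a b hab _ ih ha
    have hab' := mem_nbr.mp hab
    have hD : a ∈ D ∧ b ∈ D := by
      rcases hab'.2 with h1 | h1
      · exact h.edge _ h1
      · exact ⟨(h.edge _ h1).2, (h.edge _ h1).1⟩
    have hne : φ b ≠ φ a := fun h1 => hab'.1 (h.inj hD.2 hD.1 h1)
    have hnb : φ b ∈ nbr E (φ a) := by
      rw [mem_nbr]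
      refine ⟨hne, ?_⟩
      rcases hab'.2 with h1 | h1
      · exact he _ h1
      · exact (he _ h1).symm
    by_cases hb : b ∈ W
    · obtain ⟨u, hu, hpu⟩ := ih hb
      exact ⟨u, hu, Relation.ReflTransGen.head hnb hpu⟩
    · refine ⟨φ b, ?_, Relation.ReflTransGen.single hnb⟩
      intro h1
      obtain ⟨c, hc, hcb⟩ := Finset.mem_image.mp h1
      exact hb (h.inj (h.sub hc) hD.2 hcb ▸ hc)

/-- Transport of the window inequality. -/
theorem Place.win (h : Place W E' E φ D) {f : (V → ℝ) → ℝ} {B : Set (V → ℝ)} {ε C : ℝ}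
    (H : Win W E' f B ε C) (hA : Anch (W.image φ) E) (hf : DependsOn f D)
    (hB : DependsOn (fun z => z ∈ B) (D \ W)) :
    Win (W.image φ) E (fun z => f (z ∘ φ)) {z | z ∘ φ ∈ B} ε C where
  anch := hA
  meas := H.meas.comp (measurable_comp φ)
  bdd := fun z => H.bdd _
  mB := measurable_comp φ H.mB
  dB := by
    intro z z' hz
    refine hB fun v hv => hz _ fun h1 => ?_
    obtain ⟨c, hc, hcb⟩ := Finset.mem_image.mp (Finset.mem_coe.mp h1)
    exact hv.2 (h.inj (h.sub hc) hv.1 hcb ▸ hc)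
  ineq := by
    intro z z' h1 h2
    rw [h.vr_eq] at h1 h2
    have h3 := H.ineq (z ∘ φ) (z' ∘ φ) h1 h2
    rw [h.Ev_eq hf, h.Ev_eq hf, h.Dl_eq]
    have e : ∀ w : U → ℝ, ({z | z ∘ φ ∈ B} : Set (U → ℝ)).indicator (1 : (U → ℝ) → ℝ) w =
        B.indicator 1 (w ∘ φ) := by
      intro w
      by_cases hw : w ∘ φ ∈ B
      · rw [indicator_of_mem hw, indicator_of_mem (show w ∈ {z | z ∘ φ ∈ B} from hw)]; rfl
      · rw [indicator_of_notMem hw, indicator_of_notMem (show w ∉ {z | z ∘ φ ∈ B} from hw)]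
    rw [e, e]
    exact h3

end Crest.Agent.R144.Lc279
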