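import Crest.Agent.R144.Zb1_560

/-!
R144 (S0197), helper560, Z-BLOCK, file 2: the field `Z`, the gap and the scalar cut-off `gq`.

`Z V E ρ ε Λ φ h u` (`h : U → ℝ` the heights, `V` the window): tangent and rigid
(`Z_sub_le`, `Z_rigid`), Lipschitz (`Z_lip`), local (`Z_congr`), `|∂_z Z_u| ≤ 2Λ/ε` and
`∂_z Z_u = 0` off the optimal path (`pd_Z_eq_zero`, `abs_pd_Z_le`, `row_Z_le`).

`gq V E N k ρ ε Λ c0 φ h` : scalar, in `[0,1]`, Lipschitz; `0 < gq` forces all the optimal paths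
from `N` to have at most `k` vertices (`opt_short`), `gq < 1` forces a long almost optimal path.
-/

set_option autoImplicit false

open MeasureTheory Set Filter Topology
open scoped ENNReal NNReal
open Crest.Agent.R144.Ham560
open Crest.Agent.R144.Tri560

noncomputable section

namespace Crest.Agent.R144.Zb560

variable {U : Type*} [DecidableEq U] {V W : Finset U} {E : Finset (U × U)}
variable {ρ ε Λ : ℝ} {φ : U → ℝ}

/-- Step cost. -/
def cz (ρ ε Λ : ℝ) (h : U → ℝ) (a b : U) : ℝ := Λ * sr ρ ε (h a - h b)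

omit [DecidableEq U] in
theorem cz_nonneg (hΛ : 0 ≤ Λ) (h : U → ℝ) (a b : U) : 0 ≤ cz ρ ε Λ h a b :=
  mul_nonneg hΛ (sr_nonneg _ _ _)

omit [DecidableEq U] in
theorem cz_symm (h : U → ℝ) (a b : U) : cz ρ ε Λ h a b = cz ρ ε Λ h b a := by
  rw [cz, cz, ← sr_neg, neg_sub]

/-- The field. -/
def Z (V : Finset U) (E : Finset (U × U)) (ρ ε Λ : ℝ) (φ : U → ℝ) (h : U → ℝ) (u : U) : ℝ :=
  iv V E φ (cz ρ ε Λ h) u

variable {h h' : U → ℝ}

theorem Z_le (u : U) : Z V E ρ ε Λ φ h u ≤ φ u := iv_le u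

theorem Z_notMem {u : U} (hu : u ∉ V) : Z V E ρ ε Λ φ h u = φ u := iv_notMem hu

theorem Z_sub_le (hΛ : 0 ≤ Λ) {a b : U} (hab : b ∈ nbr E a) (ha : a ∈ V) (hb : b ∈ V) :
    |Z V E ρ ε Λ φ h a - Z V E ρ ε Λ φ h b| ≤ Λ * sr ρ ε (h a - h b) :=
  iv_sub_le (cz_nonneg hΛ h) (cz_symm h) hab ha hb

/-- Rigidity near the walls. -/
theorem Z_rigid (hε : 0 < ε) (hΛ : 0 ≤ Λ) {a b : U} (hab : b ∈ nbr E a) (ha : a ∈ V)
    (hb : b ∈ V) (hr : 1 - ρ ≤ |h a - h b|) : Z V E ρ ε Λ φ h a = Z V E ρ ε Λ φ h b := by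
  have h1 := Z_sub_le (V := V) (E := E) (ρ := ρ) (ε := ε) (φ := φ) (h := h) hΛ hab ha hb
  rw [sr_eq_zero hε hr, mul_zero] at h1
  exact sub_eq_zero.mp (abs_nonpos_iff.mp h1)

omit [DecidableEq U] in
/-- Comparison of costs along a path. -/
theorem cost_cz_le (hε : 0 < ε) (hΛ : 0 ≤ Λ) {M : ℝ} (hM0 : 0 ≤ M) : ∀ l : List U,
    (∀ a ∈ l, |h a - h' a| ≤ M) →
      |cost φ (cz ρ ε Λ h) l - cost φ (cz ρ ε Λ h') l| ≤ l.length * (2 * Λ / ε * M)
  | [], _ => by simp [cost]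
  | [a], _ => by simp only [cost, sub_self, abs_zero]; positivity
  | a :: b :: t, hM => by
    have ih := cost_cz_le hε hΛ hM0 (b :: t)
      fun d hd => hM d (List.mem_cons_of_mem _ hd)
    have h1 := sr_lip (ρ := ρ) hε (h a - h b) (h' a - h' b)
    have h2 : |h a - h b - (h' a - h' b)| ≤ 2 * M := by
      have e1 := abs_le.mp (hM a (by simp))
      have e2 := abs_le.mp (hM b (by simp))
      rw [abs_le]; constructor <;> linarith [e1.1, e1.2, e2.1, e2.2]
    have h3 : |cz ρ ε Λ h a b - cz ρ ε Λ h' a b| ≤ 2 * Λ / ε * M := by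
      rw [cz, cz, ← mul_sub, abs_mul, abs_of_nonneg hΛ]
      calc Λ * |sr ρ ε (h a - h b) - sr ρ ε (h' a - h' b)| ≤ Λ * (2 * M / ε) := by
            gcongr
            exact h1.trans (div_le_div_of_nonneg_right h2 hε.le)
        _ = 2 * Λ / ε * M := by ring
    rw [cost_cons, cost_cons, List.length_cons]
    push_cast
    rw [abs_le] at ih h3 ⊢
    constructor <;> nlinarith [ih.1, ih.2, h3.1, h3.2]

/-- The field is Lipschitz in the heights of the window. -/
theorem Z_lip (hε : 0 < ε) (hΛ : 0 ≤ Λ) {M : ℝ} (hM0 : 0 ≤ M)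
    (hM : ∀ a ∈ V, |h a - h' a| ≤ M) (u : U) :
    |Z V E ρ ε Λ φ h u - Z V E ρ ε Λ φ h' u| ≤ (V.card + 1) * (2 * Λ / ε * M) := by
  by_cases hu : u ∈ V
  · have key : ∀ h h' : U → ℝ, (∀ a ∈ V, |h a - h' a| ≤ M) →
        Z V E ρ ε Λ φ h u ≤ Z V E ρ ε Λ φ h' u + (V.card + 1) * (2 * Λ / ε * M) := by
      intro h h' hM
      obtain ⟨l, hl⟩ := exists_isOpt V E φ (cz ρ ε Λ h') u
      have h1 := (abs_le.mp (cost_cz_le (ρ := ρ) (φ := φ) hε hΛ hM0 l
        fun a ha => hM a (pt_mem' hl.1 hu a ha))).2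
      have h2 : Z V E ρ ε Λ φ h u ≤ cost φ (cz ρ ε Λ h) l := iv_le_cost hl.1
      have h3 : Z V E ρ ε Λ φ h' u = cost φ (cz ρ ε Λ h') l := hl.2
      have h4 : (l.length : ℝ) ≤ V.card + 1 := by exact_mod_cast length_pt hl.1
      have h5 : (l.length : ℝ) * (2 * Λ / ε * M) ≤ (V.card + 1) * (2 * Λ / ε * M) := by
        gcongr
      linarith
    have h1 := key h h' hM
    have h2 := key h' h fun a ha => by rw [abs_sub_comm]; exact hM a ha
    rw [abs_le]; constructor <;> linarith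
  · rw [Z_notMem hu, Z_notMem hu]
    simp only [sub_self, abs_zero]
    positivity

/-- The field only depends on the heights of the window. -/
theorem Z_congr (hh : ∀ a ∈ V, h a = h' a) (u : U) :
    Z V E ρ ε Λ φ h u = Z V E ρ ε Λ φ h' u := by
  by_cases hu : u ∈ V
  · refine iv_congr_cost fun l hl => ?_
    have hV := pt_mem' hl hu
    clear hl
    induction l with
    | nil => rfl
    | cons a s ih =>
      match s with
      | [] => rfl
      | b :: t =>
        rw [cost_cons, cost_cons, ih fun d hd => hV d (List.mem_cons_of_mem _ hd), cz, cz,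
          hh a (hV a (by simp)), hh b (hV b (by simp))]
  · rw [Z_notMem hu, Z_notMem hu]

theorem continuous_Z (u : U) :
    Continuous fun h : U → ℝ => Z V E ρ ε Λ φ h u := by
  unfold Z iv
  refine Continuous.finset_inf'_apply _ fun l hl => ?_
  clear hl
  induction l with
  | nil => exact continuous_const
  | cons a s ih =>
    match s with
    | [] => exact continuous_const
    | b :: t =>
      simp only [cost_cons]
      refine Continuous.add ?_ ih
      unfold cz sr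
      fun_prop

/-! ### Functions of the free heights -/

variable {F : Finset U} {ξ : U → ℝ}

/-- Partial derivative. -/
def pd (G : (F → ℝ) → ℝ) (x : F → ℝ) (z : F) : ℝ := fderiv ℝ G x (Pi.single z 1)

theorem abs_pd_le {G : (F → ℝ) → ℝ} {x : F → ℝ} (hd : DifferentiableAt ℝ G x) (z : F) {L : ℝ}
    (hle : ∀ t : ℝ, G (x + t • Pi.single z 1) ≤ G x + L * |t|) : |pd G x z| ≤ L := by
  have h1 : HasFDerivAt G (fderiv ℝ G x) (x + (0 : ℝ) • Pi.single z 1) := by
    simpa using hd.hasFDerivAt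
  have h2 : HasDerivAt (fun t : ℝ => x + t • (Pi.single z 1 : F → ℝ)) (Pi.single z 1) 0 := by
    have := ((hasDerivAt_id (0 : ℝ)).smul_const (Pi.single z 1 : F → ℝ)).const_add x
    simpa using this
  have h3 := h1.comp_hasDerivAt (0 : ℝ) h2
  refine abs_deriv_le_of_le (f := fun t : ℝ => G (x + t • Pi.single z 1)) h3 fun t => ?_
  simpa using hle t

theorem pd_eq_zero_of_le {G : (F → ℝ) → ℝ} {x : F → ℝ} (hd : DifferentiableAt ℝ G x) (z : F)
    (hle : ∀ t : ℝ, G (x + t • Pi.single z 1) ≤ G x) : pd G x z = 0 :=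
  abs_nonpos_iff.mp (abs_pd_le hd z (L := 0) (by simpa using hle))

theorem pd_eq_zero_of_ge {G : (F → ℝ) → ℝ} {x : F → ℝ} (hd : DifferentiableAt ℝ G x) (z : F)
    (hle : ∀ t : ℝ, G x ≤ G (x + t • Pi.single z 1)) : pd G x z = 0 := by
  have h1 := pd_eq_zero_of_le (G := fun y => -G y) hd.neg z
    (fun t => by simpa using hle t)
  have h2 : pd (fun y => -G y) x z = - pd G x z := by
    rw [pd, pd]
    rw [show (fun y => -G y) = -G from rfl, fderiv_neg]
    rfl
  rw [h2] at h1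
  linarith

section line

variable {x : F → ℝ} {z : F} {t : ℝ}

theorem cz_line_of_ne {a b : U} (ha : a ≠ z) (hb : b ≠ z) :
    cz ρ ε Λ (ext F ξ (x + t • Pi.single z 1)) a b = cz ρ ε Λ (ext F ξ x) a b := by
  rw [cz, cz, ext_add_single, ext_add_single, if_neg ha, if_neg hb, add_zero, add_zero]

theorem cz_line_le (hε : 0 < ε) (hΛ : 0 ≤ Λ) {a b : U} (hab : a ≠ b) :
    cz ρ ε Λ (ext F ξ (x + t • Pi.single z 1)) a b ≤
      cz ρ ε Λ (ext F ξ x) a b + Λ / ε * |t| := by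
  have h1 := sr_lip (ρ := ρ) hε (ext F ξ (x + t • Pi.single z 1) a -
    ext F ξ (x + t • Pi.single z 1) b) (ext F ξ x a - ext F ξ x b)
  have h2 : |ext F ξ (x + t • Pi.single z 1) a - ext F ξ (x + t • Pi.single z 1) b -
      (ext F ξ x a - ext F ξ x b)| ≤ |t| := by
    rw [ext_add_single, ext_add_single]
    by_cases ha : a = z
    · have hb : b ≠ z := fun h => hab (ha.trans h.symm)
      rw [if_pos ha, if_neg hb]
      apply le_of_eq; congr 1; ring
    · by_cases hb : b = z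
      · rw [if_neg ha, if_pos hb, ← abs_neg]
        apply le_of_eq; congr 1; ring
      · rw [if_neg ha, if_neg hb]
        simp
  have h3 := h1.trans (div_le_div_of_nonneg_right h2 hε.le)
  rw [cz, cz]
  have h4 := mul_le_mul_of_nonneg_left (abs_le.mp h3).2 hΛ
  have h5 : Λ * (|t| / ε) = Λ / ε * |t| := by ring
  rw [h5, mul_sub] at h4
  linarith

theorem cost_line_of_notMem : ∀ l : List U, (z : U) ∉ l →
    cost φ (cz ρ ε Λ (ext F ξ (x + t • Pi.single z 1))) l =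
      cost φ (cz ρ ε Λ (ext F ξ x)) l
  | [], _ => rfl
  | [a], _ => rfl
  | a :: b :: s, h => by
    have h1 : a ≠ z := fun e => h (e ▸ List.mem_cons_self)
    have h2 : (z : U) ∉ b :: s := fun e => h (List.mem_cons_of_mem _ e)
    have h3 : b ≠ z := fun e => h2 (e ▸ List.mem_cons_self)
    rw [cost_cons, cost_cons, cz_line_of_ne h1 h3, cost_line_of_notMem (b :: s) h2]

theorem cost_line_head (hε : 0 < ε) (hΛ : 0 ≤ Λ) {s : List U} (hs : ((z : U) :: s).Nodup) :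
    cost φ (cz ρ ε Λ (ext F ξ (x + t • Pi.single z 1))) (z :: s) ≤
      cost φ (cz ρ ε Λ (ext F ξ x)) (z :: s) + Λ / ε * |t| := by
  match s with
  | [] => simp only [cost]; have : 0 ≤ Λ / ε * |t| := by positivity
          linarith
  | b :: s =>
    rw [List.nodup_cons] at hs
    have h1 : (z : U) ≠ b := fun e => hs.1 (e ▸ List.mem_cons_self)
    rw [cost_cons, cost_cons, cost_line_of_notMem (b :: s) hs.1]
    have := cz_line_le (ρ := ρ) (ξ := ξ) (x := x) (z := z) (t := t) hε hΛ h1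
    linarith

theorem cost_line_le (hε : 0 < ε) (hΛ : 0 ≤ Λ) :
    ∀ l : List U, l.Nodup → cost φ (cz ρ ε Λ (ext F ξ (x + t • Pi.single z 1))) l ≤
      cost φ (cz ρ ε Λ (ext F ξ x)) l + 2 * Λ / ε * |t|
  | [], _ => by simp only [cost]; positivity
  | [a], _ => by simp only [cost]; have : 0 ≤ 2 * Λ / ε * |t| := by positivity
                 linarith
  | a :: b :: s, hs => by
    have h0 : 0 ≤ Λ / ε * |t| := by positivity
    have h2 : 2 * Λ / ε * |t| = Λ / ε * |t| + Λ / ε * |t| := by ring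
    rw [List.nodup_cons] at hs
    by_cases ha : a = z
    · subst ha
      have := cost_line_head (ρ := ρ) (ξ := ξ) (φ := φ) (x := x) (z := z) (t := t) hε hΛ
        (List.nodup_cons.mpr hs)
      linarith
    · by_cases hb : b = z
      · subst hb
        have h3 := cost_line_head (ρ := ρ) (ξ := ξ) (φ := φ) (x := x) (z := z) (t := t) hε hΛ
          hs.2
        have h4 := cz_line_le (ρ := ρ) (ξ := ξ) (x := x) (z := z) (t := t) hε hΛ ha
        rw [cost_cons, cost_cons]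
        linarith
      · have ih := cost_line_le hε hΛ (b :: s) hs.2
        rw [cost_cons, cost_cons, cz_line_of_ne ha hb]
        linarith

end line

/-- The field as a function of the free heights. -/
def Zx (V : Finset U) (E : Finset (U × U)) (ρ ε Λ : ℝ) (φ : U → ℝ) (F : Finset U) (ξ : U → ℝ)
    (u : U) (x : F → ℝ) : ℝ := Z V E ρ ε Λ φ (ext F ξ x) u

section pd

variable {x : F → ℝ} {u : U}

theorem pd_Z_eq_zero (hd : DifferentiableAt ℝ (Zx V E ρ ε Λ φ F ξ u) x) {l : List U}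
    (hl : IsOpt V E φ (cz ρ ε Λ (ext F ξ x)) u l) {z : F} (hz : (z : U) ∉ l) :
    pd (Zx V E ρ ε Λ φ F ξ u) x z = 0 := by
  refine pd_eq_zero_of_le hd z fun t => ?_
  have h1 : Zx V E ρ ε Λ φ F ξ u (x + t • Pi.single z 1) ≤
      cost φ (cz ρ ε Λ (ext F ξ (x + t • Pi.single z 1))) l := iv_le_cost hl.1
  have h2 : Zx V E ρ ε Λ φ F ξ u x = cost φ (cz ρ ε Λ (ext F ξ x)) l := hl.2
  rw [cost_line_of_notMem l hz, ← h2] at h1
  exact h1

theorem abs_pd_Z_le (hε : 0 < ε) (hΛ : 0 ≤ Λ)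
    (hd : DifferentiableAt ℝ (Zx V E ρ ε Λ φ F ξ u) x) (z : F) :
    |pd (Zx V E ρ ε Λ φ F ξ u) x z| ≤ 2 * Λ / ε := by
  obtain ⟨l, hl⟩ := exists_isOpt V E φ (cz ρ ε Λ (ext F ξ x)) u
  refine abs_pd_le hd z fun t => ?_
  have h1 : Zx V E ρ ε Λ φ F ξ u (x + t • Pi.single z 1) ≤
      cost φ (cz ρ ε Λ (ext F ξ (x + t • Pi.single z 1))) l := iv_le_cost hl.1
  have h2 : Zx V E ρ ε Λ φ F ξ u x = cost φ (cz ρ ε Λ (ext F ξ x)) l := hl.2
  have h3 := cost_line_le (ρ := ρ) (ξ := ξ) (φ := φ) (x := x) (z := z) (t := t) hε hΛ l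
    (pt_spec hl.1).1
  rw [h2]
  exact h1.trans h3

/-- Counting the free sites on a list. -/
theorem card_filter_list (F : Finset U) (l : List U) :
    ((Finset.univ : Finset ↥F).filter fun z : ↥F => (z : U) ∈ l).card ≤ l.length := by
  have h2 : ((Finset.univ : Finset ↥F).filter fun z : ↥F => (z : U) ∈ l).card ≤
      l.toFinset.card := by
    refine Finset.card_le_card_of_injOn (fun z : ↥F => (z : U)) ?_ ?_
    · intro z hz
      exact Finset.mem_coe.mpr (List.mem_toFinset.mpr (Finset.mem_filter.mp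
        (Finset.mem_coe.mp hz)).2)
    · exact fun z _ z' _ h => Subtype.ext h
  exact h2.trans (List.toFinset_card_le _)

theorem sum_sq_le_of_list {g : F → ℝ} {K : ℝ} (l : List U) (h0 : ∀ z : F, (z : U) ∉ l → g z = 0)
    (h1 : ∀ z : F, |g z| ≤ K) : ∑ z, g z ^ 2 ≤ K ^ 2 * l.length := by
  have h2 : ∀ z : F, g z ^ 2 ≤ if (z : U) ∈ l then K ^ 2 else 0 := by
    intro z
    split_ifs with hz
    · rw [← sq_abs]
      exact pow_le_pow_left₀ (abs_nonneg _) (h1 z) 2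
    · rw [h0 z hz]; simp
  refine (Finset.sum_le_sum fun z _ => h2 z).trans ?_
  rw [← Finset.sum_filter, Finset.sum_const, nsmul_eq_mul, mul_comm]
  have := card_filter_list F l
  gcongr

theorem row_Z_le (hε : 0 < ε) (hΛ : 0 ≤ Λ)
    (hd : DifferentiableAt ℝ (Zx V E ρ ε Λ φ F ξ u) x) {l : List U}
    (hl : IsOpt V E φ (cz ρ ε Λ (ext F ξ x)) u l) :
    ∑ z, pd (Zx V E ρ ε Λ φ F ξ u) x z ^ 2 ≤ (2 * Λ / ε) ^ 2 * l.length :=
  sum_sq_le_of_list l (fun _ hz => pd_Z_eq_zero hd hl hz) (abs_pd_Z_le hε hΛ hd)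

end pd

/-- Lipschitz constant of `Z` as a function of the free heights. -/
def lcz (V : Finset U) (ε Λ : ℝ) : ℝ≥0 := Real.toNNReal ((V.card + 1) * (2 * Λ / ε))

omit [DecidableEq U] in
theorem coe_lcz (V : Finset U) (hε : 0 < ε) (hΛ : 0 ≤ Λ) :
    ((lcz V ε Λ : ℝ≥0) : ℝ) = (V.card + 1) * (2 * Λ / ε) := by
  rw [lcz, Real.coe_toNNReal _ (by positivity)]

theorem lip_Zx (hε : 0 < ε) (hΛ : 0 ≤ Λ) (u : U) :
    LipschitzWith (lcz V ε Λ) (Zx V E ρ ε Λ φ F ξ u) := by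
  refine LipschitzWith.of_dist_le_mul fun x y => ?_
  rw [Real.dist_eq, dist_eq_norm, coe_lcz V hε hΛ]
  have := Z_lip (V := V) (E := E) (ρ := ρ) (φ := φ) (h := ext F ξ x) (h' := ext F ξ y) hε hΛ
    (norm_nonneg (x - y)) (fun a _ => ext_lip x y a) u
  calc _ ≤ _ := this
    _ = _ := by ring

/-! ### Long almost optimal paths and the scalar cut-off -/

/-- Paths with more than `k` vertices starting in `N`. -/
def lp (V : Finset U) (E : Finset (U × U)) (N : Finset U) (k : ℕ) : Finset (U × List U) :=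
  N.biUnion fun w => ((pt V E w).filter fun l => k < l.length).image (Prod.mk w)

theorem mem_lp {N : Finset U} {k : ℕ} {p : U × List U} :
    p ∈ lp V E N k ↔ p.1 ∈ N ∧ p.2 ∈ pt V E p.1 ∧ k < p.2.length := by
  simp only [lp, Finset.mem_biUnion, Finset.mem_image, Finset.mem_filter]
  constructor
  · rintro ⟨w, hw, l, ⟨h1, h2⟩, rfl⟩
    exact ⟨hw, h1, h2⟩
  · rintro ⟨h1, h2, h3⟩
    exact ⟨p.1, h1, p.2, ⟨h2, h3⟩, rfl⟩

variable {ι : Type*} [Fintype ι] {φs : ι → U → ℝ} {N : Finset U} {k : ℕ} {c0 : ℝ}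

/-- The smallest excess of the long paths. -/
def gap (V : Finset U) (E : Finset (U × U)) (N : Finset U) (k : ℕ) (ρ ε Λ c0 : ℝ)
    (φs : ι → U → ℝ) (h : U → ℝ) : ℝ :=
  ((Finset.univ : Finset ι) ×ˢ lp V E N k).fold min 1
    (fun p => (cost (φs p.1) (cz ρ ε Λ h) p.2.2 - φs p.1 p.2.1) / c0)

/-- The scalar cut-off. -/
def gq (V : Finset U) (E : Finset (U × U)) (N : Finset U) (k : ℕ) (ρ ε Λ c0 : ℝ)
    (φs : ι → U → ℝ) (h : U → ℝ) : ℝ := max 0 (gap V E N k ρ ε Λ c0 φs h)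

omit [DecidableEq U] in
theorem fold_min_le_left {α : Type*} (s : Finset α) (f : α → ℝ) (b : ℝ) :
    s.fold min b f ≤ b := (Finset.fold_min_le b).mpr (Or.inl le_rfl)

omit [DecidableEq U] in
theorem fold_min_le_of_mem {α : Type*} {s : Finset α} {f : α → ℝ} {b : ℝ} {a : α}
    (ha : a ∈ s) : s.fold min b f ≤ f a := (Finset.fold_min_le _).mpr (Or.inr ⟨a, ha, le_rfl⟩)

theorem gq_nonneg : 0 ≤ gq V E N k ρ ε Λ c0 φs h := le_max_left _ _

theorem gq_le_one : gq V E N k ρ ε Λ c0 φs h ≤ 1 :=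
  max_le zero_le_one (fold_min_le_left _ _ _)

/-- On `0 < gq` a long path costs strictly more than staying. -/
theorem lt_cost_of_gq_pos (hc0 : 0 < c0) (hg : 0 < gq V E N k ρ ε Λ c0 φs h) (i : ι) {w : U}
    (hw : w ∈ N) {l : List U} (hl : l ∈ pt V E w) (hk : k < l.length) :
    φs i w < cost (φs i) (cz ρ ε Λ h) l := by
  have h1 : 0 < gap V E N k ρ ε Λ c0 φs h := by
    rcases lt_max_iff.mp hg with h | h
    · exact absurd h (lt_irrefl _)
    · exact h
  have h2 : gap V E N k ρ ε Λ c0 φs h ≤ (cost (φs i) (cz ρ ε Λ h) l - φs i w) / c0 :=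
    fold_min_le_of_mem (f := fun p : ι × U × List U =>
      (cost (φs p.1) (cz ρ ε Λ h) p.2.2 - φs p.1 p.2.1) / c0) (a := (i, w, l))
      (Finset.mem_product.mpr ⟨Finset.mem_univ _, mem_lp.mpr ⟨hw, hl, hk⟩⟩)
  have h3 := h1.trans_le h2
  have h4 := (div_pos_iff_of_pos_right hc0).mp h3
  linarith

/-- On `0 < gq` the optimal paths from `N` are short. -/
theorem opt_short (hc0 : 0 < c0) (hg : 0 < gq V E N k ρ ε Λ c0 φs h) (i : ι) {w : U}
    (hw : w ∈ N) {l : List U} (hl : IsOpt V E (φs i) (cz ρ ε Λ h) w l) : l.length ≤ k := by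
  by_contra hk
  push Not at hk
  have h1 := lt_cost_of_gq_pos hc0 hg i hw hl.1 hk
  have h2 := iv_le (V := V) (E := E) (φ := φs i) (c := cz ρ ε Λ h) w
  rw [hl.2] at h2
  linarith

/-- `gq < 1` : there is a long almost optimal path. -/
theorem exists_of_gq_lt (hc0 : 0 < c0) (hg : gq V E N k ρ ε Λ c0 φs h < 1) :
    ∃ i, ∃ w ∈ N, ∃ l ∈ pt V E w, k < l.length ∧
      cost (φs i) (cz ρ ε Λ h) l < φs i w + c0 := by
  by_contra hne
  push Not at hne
  refine absurd hg (not_lt.mpr (le_max_of_le_right ?_))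
  rw [gap, Finset.le_fold_min]
  refine ⟨le_rfl, fun p hp => ?_⟩
  obtain ⟨_, h2⟩ := Finset.mem_product.mp hp
  obtain ⟨h3, h4, h5⟩ := mem_lp.mp h2
  have h6 := hne p.1 p.2.1 h3 p.2.2 h4 h5
  rw [le_div_iff₀ hc0]
  linarith

/-- Minimiser of the gap. -/
theorem exists_gap_eq (hg : gap V E N k ρ ε Λ c0 φs h < 1) :
    ∃ i, ∃ w ∈ N, ∃ l ∈ pt V E w, k < l.length ∧
      gap V E N k ρ ε Λ c0 φs h = (cost (φs i) (cz ρ ε Λ h) l - φs i w) / c0 := by
  obtain ⟨p, hp, h1⟩ : ∃ p ∈ (Finset.univ : Finset ι) ×ˢ lp V E N k,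
      (cost (φs p.1) (cz ρ ε Λ h) p.2.2 - φs p.1 p.2.1) / c0 ≤ gap V E N k ρ ε Λ c0 φs h := by
    have := (Finset.fold_min_le (s := (Finset.univ : Finset ι) ×ˢ lp V E N k) (b := 1)
      (f := fun p => (cost (φs p.1) (cz ρ ε Λ h) p.2.2 - φs p.1 p.2.1) / c0)
      (gap V E N k ρ ε Λ c0 φs h)).mp le_rfl
    rcases this with h1 | h1
    · linarith
    · exact h1
  obtain ⟨_, h2⟩ := Finset.mem_product.mp hp
  obtain ⟨h3, h4, h5⟩ := mem_lp.mp h2
  exact ⟨p.1, p.2.1, h3, p.2.2, h4, h5, le_antisymm (fold_min_le_of_mem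
    (f := fun p : ι × U × List U =>
      (cost (φs p.1) (cz ρ ε Λ h) p.2.2 - φs p.1 p.2.1) / c0) hp) h1⟩

/-- The cut-off only depends on the heights of the window. -/
theorem gq_congr (hN : N ⊆ V) (hh : ∀ a ∈ V, h a = h' a) :
    gq V E N k ρ ε Λ c0 φs h = gq V E N k ρ ε Λ c0 φs h' := by
  rw [gq, gq, gap, gap]
  congr 1
  refine Finset.fold_congr fun p hp => ?_
  obtain ⟨_, h2⟩ := Finset.mem_product.mp hp
  obtain ⟨h3, h4, _⟩ := mem_lp.mp h2
  have hV := pt_mem' h4 (hN h3)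
  have : ∀ l : List U, (∀ a ∈ l, a ∈ V) →
      cost (φs p.1) (cz ρ ε Λ h) l = cost (φs p.1) (cz ρ ε Λ h') l := by
    intro l hl
    induction l with
    | nil => rfl
    | cons a s ih =>
      match s with
      | [] => rfl
      | b :: t =>
        rw [cost_cons, cost_cons, ih fun d hd => hl d (List.mem_cons_of_mem _ hd), cz, cz,
          hh a (hl a (by simp)), hh b (hl b (by simp))]
  rw [this _ hV]

theorem gq_lip (hε : 0 < ε) (hΛ : 0 ≤ Λ) (hc0 : 0 < c0) (hN : N ⊆ V) {M : ℝ} (hM0 : 0 ≤ M)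
    (hM : ∀ a ∈ V, |h a - h' a| ≤ M) :
    |gq V E N k ρ ε Λ c0 φs h - gq V E N k ρ ε Λ c0 φs h'| ≤
      (V.card + 1) * (2 * Λ / ε * M) / c0 := by
  have key : ∀ h h' : U → ℝ, (∀ a ∈ V, |h a - h' a| ≤ M) →
      gap V E N k ρ ε Λ c0 φs h - (V.card + 1) * (2 * Λ / ε * M) / c0 ≤
        gap V E N k ρ ε Λ c0 φs h' := by
    intro h h' hM
    have hK : 0 ≤ (V.card + 1) * (2 * Λ / ε * M) / c0 := by positivity
    conv_rhs => rw [gap]
    rw [Finset.le_fold_min]
    refine ⟨?_, fun p hp => ?_⟩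
    · have := fold_min_le_left ((Finset.univ : Finset ι) ×ˢ lp V E N k)
        (fun p => (cost (φs p.1) (cz ρ ε Λ h) p.2.2 - φs p.1 p.2.1) / c0) 1
      rw [gap]; linarith
    · obtain ⟨_, h2⟩ := Finset.mem_product.mp hp
      obtain ⟨h3, h4, h5⟩ := mem_lp.mp h2
      have h6 : gap V E N k ρ ε Λ c0 φs h ≤
          (cost (φs p.1) (cz ρ ε Λ h) p.2.2 - φs p.1 p.2.1) / c0 :=
        fold_min_le_of_mem (f := fun p : ι × U × List U =>
          (cost (φs p.1) (cz ρ ε Λ h) p.2.2 - φs p.1 p.2.1) / c0) hp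
      have h7 := (abs_le.mp (cost_cz_le (ρ := ρ) (φ := φs p.1) hε hΛ hM0 p.2.2
        fun a ha => hM a (pt_mem' h4 (hN h3) a ha))).2
      have h8 : (p.2.2.length : ℝ) ≤ V.card + 1 := by exact_mod_cast length_pt h4
      have h9 : (p.2.2.length : ℝ) * (2 * Λ / ε * M) ≤ (V.card + 1) * (2 * Λ / ε * M) := by
        gcongr
      refine (sub_le_sub_right h6 _).trans ?_
      rw [← sub_div]
      exact div_le_div_of_nonneg_right (by linarith) hc0.le
  have h1 := key h h' hM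
  have h2 := key h' h fun a ha => by rw [abs_sub_comm]; exact hM a ha
  rw [gq, gq]
  refine (abs_max_sub_max_le_max _ _ _ _).trans (max_le (by simp; positivity) ?_)
  rw [abs_le]; constructor <;> linarith

/-- The cut-off as a function of the free heights. -/
def gx (V : Finset U) (E : Finset (U × U)) (N : Finset U) (k : ℕ) (ρ ε Λ c0 : ℝ)
    (φs : ι → U → ℝ) (F : Finset U) (ξ : U → ℝ) (x : F → ℝ) : ℝ :=
  gq V E N k ρ ε Λ c0 φs (ext F ξ x)

theorem lip_gx (hε : 0 < ε) (hΛ : 0 ≤ Λ) (hc0 : 0 < c0) (hN : N ⊆ V) :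
    LipschitzWith (Real.toNNReal ((V.card + 1) * (2 * Λ / ε) / c0))
      (gx V E N k ρ ε Λ c0 φs F ξ) := by
  refine LipschitzWith.of_dist_le_mul fun x y => ?_
  rw [Real.dist_eq, dist_eq_norm, Real.coe_toNNReal _ (by positivity)]
  have := gq_lip (V := V) (E := E) (N := N) (k := k) (ρ := ρ) (φs := φs) (h := ext F ξ x)
    (h' := ext F ξ y) hε hΛ hc0 hN (norm_nonneg (x - y)) (fun a _ => ext_lip x y a)
  calc _ ≤ _ := this
    _ = _ := by ring

/-- Gradient of the cut-off: it lives on one long almost optimal path. -/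
theorem row_gx_le (hε : 0 < ε) (hΛ : 0 ≤ Λ) (hc0 : 0 < c0) {x : F → ℝ}
    (hd : DifferentiableAt ℝ (gx V E N k ρ ε Λ c0 φs F ξ) x) :
    (∀ z, pd (gx V E N k ρ ε Λ c0 φs F ξ) x z = 0) ∨
      ∃ i, ∃ w ∈ N, ∃ l ∈ pt V E w, k < l.length ∧
        cost (φs i) (cz ρ ε Λ (ext F ξ x)) l < φs i w + c0 ∧
        (∀ z : F, (z : U) ∉ l → pd (gx V E N k ρ ε Λ c0 φs F ξ) x z = 0) ∧
        ∑ z, pd (gx V E N k ρ ε Λ c0 φs F ξ) x z ^ 2 ≤
          (2 * Λ / ε / c0) ^ 2 * l.length := by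
  have hle1 : ∀ y, gx V E N k ρ ε Λ c0 φs F ξ y ≤ 1 := fun y => gq_le_one
  have hge0 : ∀ y, 0 ≤ gx V E N k ρ ε Λ c0 φs F ξ y := fun y => gq_nonneg
  rcases (hle1 x).eq_or_lt with h1 | h1
  · exact Or.inl fun z => pd_eq_zero_of_le hd z fun t => by rw [h1]; exact hle1 _
  rcases (hge0 x).eq_or_lt with h2 | h2
  · exact Or.inl fun z => pd_eq_zero_of_ge hd z fun t => by rw [← h2]; exact hge0 _
  · refine Or.inr ?_
    have h3 : 0 < gap V E N k ρ ε Λ c0 φs (ext F ξ x) := by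
      rcases lt_max_iff.mp h2 with h | h
      · exact absurd h (lt_irrefl _)
      · exact h
    have h4 : gx V E N k ρ ε Λ c0 φs F ξ x = gap V E N k ρ ε Λ c0 φs (ext F ξ x) :=
      max_eq_right h3.le
    rw [h4] at h1
    obtain ⟨i, w, hw, l, hl, hk, he⟩ := exists_gap_eq h1
    have h5 : cost (φs i) (cz ρ ε Λ (ext F ξ x)) l < φs i w + c0 := by
      rw [he, div_lt_one hc0] at h1
      linarith
    have hfold : ∀ y : F → ℝ, gap V E N k ρ ε Λ c0 φs (ext F ξ y) ≤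
        (cost (φs i) (cz ρ ε Λ (ext F ξ y)) l - φs i w) / c0 := fun y =>
      fold_min_le_of_mem (f := fun p : ι × U × List U =>
        (cost (φs p.1) (cz ρ ε Λ (ext F ξ y)) p.2.2 - φs p.1 p.2.1) / c0) (a := (i, w, l))
        (Finset.mem_product.mpr ⟨Finset.mem_univ _, mem_lp.mpr ⟨hw, hl, hk⟩⟩)
    have hz0 : ∀ z : F, (z : U) ∉ l → pd (gx V E N k ρ ε Λ c0 φs F ξ) x z = 0 := by
      intro z hz
      refine pd_eq_zero_of_le hd z fun t => ?_
      have h6 := hfold (x + t • Pi.single z 1)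
      rw [cost_line_of_notMem l hz, ← he] at h6
      rw [h4]
      exact max_le h3.le h6
    have hzb : ∀ z : F, |pd (gx V E N k ρ ε Λ c0 φs F ξ) x z| ≤ 2 * Λ / ε / c0 := by
      intro z
      refine abs_pd_le hd z fun t => ?_
      have h6 := hfold (x + t • Pi.single z 1)
      have h7 := cost_line_le (ρ := ρ) (ξ := ξ) (φ := φs i) (x := x) (z := z) (t := t) hε hΛ l
        (pt_spec hl).1
      have h8 : 0 ≤ 2 * Λ / ε / c0 * |t| := by positivity
      rw [h4]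
      refine max_le (by linarith) (h6.trans ?_)
      rw [he]
      have h9 : (cost (φs i) (cz ρ ε Λ (ext F ξ (x + t • Pi.single z 1))) l - φs i w) / c0 ≤
          (cost (φs i) (cz ρ ε Λ (ext F ξ x)) l - φs i w + 2 * Λ / ε * |t|) / c0 :=
        div_le_div_of_nonneg_right (by linarith) hc0.le
      refine h9.trans (le_of_eq ?_)
      field_simp
    exact ⟨i, w, hw, l, hl, hk, h5, hz0, sum_sq_le_of_list l hz0 hzb⟩

end Crest.Agent.R144.Zb560
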