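import Crest.Agent.R144.BQ8_565
import Crest.Agent.R144.Zb2_560
import Crest.Agent.R144.Lc6_279

/-!
R144 (S0197), helper565.  The shared block matrices, part 1: transport of the inf-convolution
fields of `Zb2_560`, the symmetric reference fields and the shapes of the blocks.

* `Z_map`, `Z_congr_edges`, `Z_shift`, `Z_add_const` : transport, edges, constants;
* `Par`, `ps k` (k : Fin 3): the three lattice coordinates `x, y, -x-y`;
* `Zk`, `Lf P V E k = Zk k - (Zk 0 + Zk 1 + Zk 2)/3`;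
* `sg s o`, `blk r o`, `win m I`, `cor m I`.
-/

set_option autoImplicit false
set_option linter.unusedSectionVars false

open MeasureTheory Set Filter Topology
open scoped ENNReal NNReal

noncomputable section

namespace Crest.Agent.R144.Bl565

open Crest.Agent.R144.Ham560 Crest.Agent.R144.Tri560 Crest.Agent.R144.Zb560
open Crest.Agent.R144.BQ565
open Crest.Agent.R144.Lc279 (lat mem_lat mem_nbr_lat P2)
open Crest.Agent.R144.Lw425 (hd hd_comm hd_le_iff mem_hball hball hd_self hd_triangle hd_pos)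

/-! ### Transport of the fields -/

section Tr

variable {U U' : Type*} [DecidableEq U] [DecidableEq U']

theorem cost_map (σ : U → U') (φ : U' → ℝ) (c : U' → U' → ℝ) : ∀ l : List U,
    cost φ c (l.map σ) = cost (φ ∘ σ) (fun a b => c (σ a) (σ b)) l
  | [] => rfl
  | [_] => rfl
  | a :: b :: t => by
    have ih := cost_map σ φ c (b :: t)
    simp only [List.map_cons] at ih ⊢
    rw [cost_cons, cost_cons, ih]

variable {σ : U → U'} {V : Finset U} {V' : Finset U'} {E : Finset (U × U)}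
  {E' : Finset (U' × U')}

theorem pt_map (hσ : Function.Injective σ) (hV : ∀ v, v ∈ V' ↔ ∃ u ∈ V, σ u = v)
    (hE : ∀ a ∈ V, ∀ b ∈ V, σ b ∈ nbr E' (σ a) ↔ b ∈ nbr E a) (u : U) {l : List U} :
    l.map σ ∈ pt V' E' (σ u) ↔ l ∈ pt V E u := by
  have hV1 : ∀ a, σ a ∈ V' ↔ a ∈ V := fun a => by
    rw [hV]
    exact ⟨fun ⟨b, hb, he⟩ => hσ he ▸ hb, fun h => ⟨a, h, rfl⟩⟩
  rw [mem_pt, mem_pt]
  have e1 : l.map σ = [σ u] ↔ l = [u] := by
    constructor
    · intro h
      match l, h with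
      | [a], h =>
        simp only [List.map_cons, List.map_nil, List.cons.injEq, and_true] at h
        rw [hσ h]
      | a :: b :: t, h => simp at h
    · rintro rfl; rfl
  have e2 : (l.map σ).head? = some (σ u) ↔ l.head? = some u := by
    match l with
    | [] => simp
    | a :: t => simp [hσ.eq_iff]
  have e3 : (∀ a ∈ l.map σ, a ∈ V') ↔ ∀ a ∈ l, a ∈ V := by
    simp [hV1]
  have e4 : (∀ a ∈ l, a ∈ V) → ((l.map σ).IsChain (fun a b => b ∈ nbr E' a) ↔
      l.IsChain (fun a b => b ∈ nbr E a)) := by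
    intro hl
    clear e1 e2 e3
    induction l with
    | nil => simp
    | cons a t ih =>
      match t with
      | [] => simp
      | b :: s =>
        have ih' := ih fun c hc => hl c (List.mem_cons_of_mem _ hc)
        simp only [List.map_cons, List.isChain_cons_cons] at ih' ⊢
        rw [ih', hE a (hl a (by simp)) b (hl b (by simp))]
  rw [e1, List.nodup_map_iff hσ, e2, e3]
  constructor
  · rintro (h | ⟨h1, h2, h3, h4⟩)
    · exact Or.inl h
    · exact Or.inr ⟨h1, h2, h3, (e4 h2).mp h4⟩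
  · rintro (h | ⟨h1, h2, h3, h4⟩)
    · exact Or.inl h
    · exact Or.inr ⟨h1, h2, h3, (e4 h2).mpr h4⟩

/-- Transport of the inf-convolution fields. -/
theorem Z_map (hσ : Function.Injective σ) (hV : ∀ v, v ∈ V' ↔ ∃ u ∈ V, σ u = v)
    (hE : ∀ a ∈ V, ∀ b ∈ V, σ b ∈ nbr E' (σ a) ↔ b ∈ nbr E a) (ρ ε Λ : ℝ) (φ : U' → ℝ)
    (h : U' → ℝ) (u : U) :
    Z V' E' ρ ε Λ φ h (σ u) = Z V E ρ ε Λ (φ ∘ σ) (h ∘ σ) u := by
  have hc : (fun a b => cz ρ ε Λ h (σ a) (σ b)) = cz ρ ε Λ (h ∘ σ) := rfl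
  refine le_antisymm (le_iv fun l hl => ?_) (le_iv fun l hl => ?_)
  · rw [← hc, ← cost_map]
    exact iv_le_cost ((pt_map hσ hV hE u).mpr hl)
  · have hex : ∀ l : List U', (∀ a ∈ l, a ∈ V') → ∃ l' : List U, l = l'.map σ := by
      intro l
      induction l with
      | nil => exact fun _ => ⟨[], rfl⟩
      | cons a t ih =>
        intro h2
        obtain ⟨t', rfl⟩ := ih fun b hb => h2 b (List.mem_cons_of_mem _ hb)
        obtain ⟨b, _, rfl⟩ := (hV a).mp (h2 a List.mem_cons_self)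
        exact ⟨b :: t', rfl⟩
    obtain ⟨l', rfl⟩ : ∃ l' : List U, l = l'.map σ := by
      rcases mem_pt.mp hl with rfl | ⟨_, h2, _⟩
      · exact ⟨[u], rfl⟩
      · exact hex l h2
    rw [cost_map]
    exact iv_le_cost ((pt_map hσ hV hE u).mp hl)

/-- Only the edges inside the window matter. -/
theorem Z_congr_edges {E₂ : Finset (U × U)} (hE : ∀ a ∈ V, ∀ b ∈ V, b ∈ nbr E₂ a ↔ b ∈ nbr E a)
    (ρ ε Λ : ℝ) (φ h : U → ℝ) (u : U) : Z V E₂ ρ ε Λ φ h u = Z V E ρ ε Λ φ h u :=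
  Z_map (σ := id) (V := V) (V' := V) (E := E) (E' := E₂) Function.injective_id (by simp)
    (by simpa using hE) ρ ε Λ φ h u

theorem cost_add_const (φ : U → ℝ) (c : U → U → ℝ) (t : ℝ) : ∀ l : List U, l ≠ [] →
    cost (fun v => φ v + t) c l = cost φ c l + t
  | [], h => absurd rfl h
  | [_], _ => rfl
  | a :: b :: s, _ => by
    rw [cost_cons, cost_cons, cost_add_const φ c t (b :: s) (by simp)]; ring

/-- Constants in the terminal values. -/
theorem Z_add_const (ρ ε Λ : ℝ) (φ h : U → ℝ) (t : ℝ) (u : U) :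
    Z V E ρ ε Λ (fun v => φ v + t) h u = Z V E ρ ε Λ φ h u + t := by
  refine le_antisymm ?_ (le_iv fun l hl => ?_)
  · rw [← sub_le_iff_le_add]
    refine le_iv fun l hl => ?_
    rw [sub_le_iff_le_add, ← cost_add_const _ _ _ _ (pt_ne_nil hl)]
    exact iv_le_cost hl
  · rw [cost_add_const _ _ _ _ (pt_ne_nil hl)]
    gcongr
    exact iv_le_cost hl

/-- Constants in the heights. -/
theorem Z_shift (ρ ε Λ : ℝ) (φ h : U → ℝ) (t : ℝ) (u : U) :
    Z V E ρ ε Λ φ (fun v => h v + t) u = Z V E ρ ε Λ φ h u := by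
  have : cz ρ ε Λ (fun v => h v + t) = cz ρ ε Λ h := by
    funext a b
    simp only [cz]
    congr 2
    ring
  rw [Z, Z, this]

end Tr

/-! ### The three coordinates and the symmetric fields -/

/-- The parameters of the inf-convolution fields. -/
structure Par where
  rho : ℝ
  eps : ℝ
  Lam : ℝ
  rho_pos : 0 < rho
  eps_pos : 0 < eps
  Lam_nonneg : 0 ≤ Lam

/-- The three lattice coordinates `x`, `y`, `-x-y`. -/
def ps (k : Fin 3) (v : P2) : ℝ := ![(v.1 : ℝ), (v.2 : ℝ), -((v.1 : ℝ) + v.2)] k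

@[simp] theorem ps_zero (v : P2) : ps 0 v = v.1 := rfl
@[simp] theorem ps_one (v : P2) : ps 1 v = v.2 := rfl
@[simp] theorem ps_two (v : P2) : ps 2 v = -((v.1 : ℝ) + v.2) := rfl

theorem ps_sum (v : P2) : ps 0 v + ps 1 v + ps 2 v = 0 := by simp

theorem abs_ps_sub_le (k : Fin 3) (a b : P2) : |ps k a - ps k b| ≤ (hd a b : ℝ) := by
  have h := hd_le_iff.mp (le_refl (hd a b))
  obtain ⟨⟨h1, h2⟩, ⟨h3, h4⟩, h5, h6⟩ := h
  have f1 : (-(hd a b : ℝ)) ≤ a.1 - b.1 := by exact_mod_cast h1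
  have f2 : (a.1 : ℝ) - b.1 ≤ hd a b := by exact_mod_cast h2
  have f3 : (-(hd a b : ℝ)) ≤ a.2 - b.2 := by exact_mod_cast h3
  have f4 : (a.2 : ℝ) - b.2 ≤ hd a b := by exact_mod_cast h4
  have f5 : (-(hd a b : ℝ)) ≤ a.1 - b.1 + (a.2 - b.2) := by exact_mod_cast h5
  have f6 : (a.1 : ℝ) - b.1 + (a.2 - b.2) ≤ hd a b := by exact_mod_cast h6
  fin_cases k
  · change |(a.1 : ℝ) - b.1| ≤ _
    rw [abs_le]; exact ⟨f1, f2⟩
  · change |(a.2 : ℝ) - b.2| ≤ _
    rw [abs_le]; exact ⟨f3, f4⟩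
  · change |-((a.1 : ℝ) + a.2) - -((b.1 : ℝ) + b.2)| ≤ _
    rw [abs_le]; constructor <;> linarith

variable (P : Par)

/-- The inf-convolution field of the coordinate `k`. -/
def Zk (V : Finset P2) (E : Finset (P2 × P2)) (k : Fin 3) (h : P2 → ℝ) (u : P2) : ℝ :=
  Z V E P.rho P.eps P.Lam (ps k) h u

/-- The symmetric field: the three fields minus their mean. -/
def Lf (V : Finset P2) (E : Finset (P2 × P2)) (k : Fin 3) (h : P2 → ℝ) (u : P2) : ℝ :=
  Zk P V E k h u - (Zk P V E 0 h u + Zk P V E 1 h u + Zk P V E 2 h u) / 3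

/-- The position field (index coordinates). -/
def L2 (V : Finset P2) (E : Finset (P2 × P2)) (i : Fin 2) (h : P2 → ℝ) (u : P2) : ℝ :=
  Lf P V E i.castSucc h u

theorem Lf_sum (V : Finset P2) (E : Finset (P2 × P2)) (h : P2 → ℝ) (u : P2) :
    Lf P V E 0 h u + Lf P V E 1 h u + Lf P V E 2 h u = 0 := by
  unfold Lf; ring

theorem L2_zero (V : Finset P2) (E : Finset (P2 × P2)) (h : P2 → ℝ) (u : P2) :
    L2 P V E 0 h u = Lf P V E 0 h u := rfl

theorem L2_one (V : Finset P2) (E : Finset (P2 × P2)) (h : P2 → ℝ) (u : P2) :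
    L2 P V E 1 h u = Lf P V E 1 h u := rfl

theorem Lf_two (V : Finset P2) (E : Finset (P2 × P2)) (h : P2 → ℝ) (u : P2) :
    Lf P V E 2 h u = -L2 P V E 0 h u - L2 P V E 1 h u := by
  rw [L2_zero, L2_one]
  linarith [Lf_sum P V E h u]

variable {V : Finset P2} {E : Finset (P2 × P2)}

theorem abs_Lf_sub_le {k : Fin 3} {h : P2 → ℝ} {u : P2} {N : ℝ}
    (hN : ∀ k, |Zk P V E k h u - ps k u| ≤ N) : |Lf P V E k h u - ps k u| ≤ 4 / 3 * N := by
  have h0 := abs_le.mp (hN 0)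
  have h1 := abs_le.mp (hN 1)
  have h2 := abs_le.mp (hN 2)
  have hs := ps_sum u
  have hk := abs_le.mp (hN k)
  unfold Lf
  have hN0 : 0 ≤ N := (abs_nonneg _).trans (hN 0)
  rw [abs_le]
  fin_cases k <;> simp only [Fin.zero_eta, Fin.mk_one, Fin.reduceFinMk] at hk ⊢ <;>
    constructor <;> linarith [h0.1, h0.2, h1.1, h1.2, h2.1, h2.2]

theorem L2_rigid {a b : P2} {i : Fin 2} {h : P2 → ℝ} (hab : b ∈ nbr E a) (ha : a ∈ V)
    (hb : b ∈ V) (hr : 1 - P.rho ≤ |h a - h b|) : L2 P V E i h a = L2 P V E i h b := by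
  have : ∀ k, Zk P V E k h a = Zk P V E k h b := fun k =>
    Z_rigid P.eps_pos P.Lam_nonneg hab ha hb hr
  simp only [L2, Lf, this]

theorem Lf_congr {h h' : P2 → ℝ} (hh : ∀ a ∈ V, h a = h' a) (k : Fin 3) (u : P2) :
    Lf P V E k h u = Lf P V E k h' u := by
  have : ∀ k, Zk P V E k h u = Zk P V E k h' u := fun k => Z_congr hh u
  simp only [Lf, this]

theorem L2_congr {h h' : P2 → ℝ} (hh : ∀ a ∈ V, h a = h' a) (i : Fin 2) (u : P2) :
    L2 P V E i h u = L2 P V E i h' u := Lf_congr P hh _ u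

theorem Lf_congr_edges {E₂ : Finset (P2 × P2)}
    (hE : ∀ a ∈ V, ∀ b ∈ V, b ∈ nbr E₂ a ↔ b ∈ nbr E a) (k : Fin 3) (h : P2 → ℝ) (u : P2) :
    Lf P V E₂ k h u = Lf P V E k h u := by
  have : ∀ k, Zk P V E₂ k h u = Zk P V E k h u := fun k => Z_congr_edges hE _ _ _ _ _ _
  simp only [Lf, this]

theorem L2_congr_edges {E₂ : Finset (P2 × P2)}
    (hE : ∀ a ∈ V, ∀ b ∈ V, b ∈ nbr E₂ a ↔ b ∈ nbr E a) (i : Fin 2) (h : P2 → ℝ) (u : P2) :
    L2 P V E₂ i h u = L2 P V E i h u := Lf_congr_edges P hE _ h u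

theorem L2_shift (i : Fin 2) (h : P2 → ℝ) (t : ℝ) (u : P2) :
    L2 P V E i (fun v => h v + t) u = L2 P V E i h u := by
  have : ∀ k, Zk P V E k (fun v => h v + t) u = Zk P V E k h u := fun k => Z_shift _ _ _ _ _ _ _
  simp only [L2, Lf, this]

theorem continuous_L2 (i : Fin 2) (u : P2) : Continuous fun h : P2 → ℝ => L2 P V E i h u := by
  have : ∀ k, Continuous fun h : P2 → ℝ => Zk P V E k h u := fun k => continuous_Z u
  unfold L2 Lf
  exact (this _).sub ((((this 0).add (this 1)).add (this 2)).div_const 3)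

theorem ll_L2 (I : Finset P2) (ζ : P2 → ℝ) (i : Fin 2) :
    LocallyLipschitz fun (x : I → ℝ) (u : I) => L2 P V E i (ext I ζ x) u := by
  have hz : ∀ k (u : P2), LipschitzWith (lcz V P.eps P.Lam)
      fun x : I → ℝ => Zk P V E k (ext I ζ x) u := fun k u =>
    lip_Zx P.eps_pos P.Lam_nonneg u
  have : LipschitzWith (lcz V P.eps P.Lam + (lcz V P.eps P.Lam + lcz V P.eps P.Lam +
      lcz V P.eps P.Lam)) fun (x : I → ℝ) (u : I) => L2 P V E i (ext I ζ x) u := by
    refine LipschitzWith.of_dist_le_mul fun x y => ?_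
    rw [dist_pi_le_iff (by positivity)]
    intro u
    have h1 := (hz i.castSucc u).dist_le_mul x y
    have h2 := (hz 0 u).dist_le_mul x y
    have h3 := (hz 1 u).dist_le_mul x y
    have h4 := (hz 2 u).dist_le_mul x y
    rw [Real.dist_eq, abs_le] at h1 h2 h3 h4 ⊢
    push_cast
    unfold L2 Lf
    have h0 : 0 ≤ (lcz V P.eps P.Lam : ℝ) * dist x y := by positivity
    constructor <;> nlinarith [h1.1, h1.2, h2.1, h2.2, h3.1, h3.2, h4.1, h4.2]
  exact this.locallyLipschitz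

/-- The reference family of a block. -/
theorem refF_L2 (I : Finset P2) (V : Finset P2) (E : Finset (P2 × P2)) :
    RefF I (L2 P V E) where
  cont i u := continuous_L2 P i u
  ll i ζ := ll_L2 P I ζ i

end Crest.Agent.R144.Bl565
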