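import Crest.Agent.R144.Bl1_565

/-!
R144 (S0197), helper565.  The shared block matrices, part 2: windows, cores, lattice symmetries.

* `anch_lat`, `win m I`, `cor m I`;
* `Sym σ π c`: a lattice automorphism, with its action on the three coordinates;
* `bbB P m I h xi`, `bbM P m I h`: block energy / matrix of a finite set `I` of sites (index
  coordinates), `bbB_sym`: covariance, `bbB_shift`, `bbB_congr`: locality.
-/

set_option autoImplicit false
set_option linter.unusedSectionVars false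

open MeasureTheory Set Filter Topology
open scoped ENNReal NNReal

noncomputable section

namespace Crest.Agent.R144.Bl565

open Crest.Agent.R144.Ham560 Crest.Agent.R144.Tri560 Crest.Agent.R144.Zb560
open Crest.Agent.R144.BQ565
open Crest.Agent.R144.MW121 (en)
open Crest.Agent.R144.Lc279 (lat mem_lat mem_nbr_lat P2)
open Crest.Agent.R144.Lw425 (hd hd_comm hd_le_iff mem_hball hball hd_self hd_triangle hd_pos
  hd_eq_zero hd_nonneg hd_adj Proper)

/-! ### Sets of sites -/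

theorem anch_lat (I : Finset P2) : Anch I (lat I) := by
  intro v hv
  have hex : ∃ n : ℕ, (v.1 + n, v.2) ∉ I := by
    by_contra hcon
    push Not at hcon
    have hinj : Function.Injective fun n : ℕ => ((v.1 + n, v.2) : P2) := by
      intro a b hab
      have := (Prod.ext_iff.mp hab).1
      simpa using this
    exact not_injective_infinite_finite (fun n : ℕ => (⟨(v.1 + n, v.2), hcon n⟩ : I))
      fun a b hab => hinj (congrArg Subtype.val hab)
  classical
  have hn := Nat.find_spec hex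
  have hmin : ∀ m < Nat.find hex, (v.1 + (m : ℤ), v.2) ∈ I := fun m hm => by
    have := Nat.find_min hex hm
    push Not at this
    exact this
  refine ⟨_, hn, ?_⟩
  have key : ∀ n : ℕ, (∀ m < n, (v.1 + (m : ℤ), v.2) ∈ I) →
      Relation.ReflTransGen (fun a b => b ∈ nbr (lat I) a) v (v.1 + (n : ℤ), v.2) := by
    intro n
    induction n with
    | zero => intro _; simpa using Relation.ReflTransGen.refl
    | succ n ih =>
      intro h
      refine (ih fun m hm => h m (by omega)).tail ?_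
      rw [mem_nbr_lat]
      exact ⟨hd_adj 1 0 (by push_cast; ring) (by simp) (by omega), Or.inl (h n (by omega))⟩
  exact key _ hmin

/-- The window of radius `m` around `I`. -/
def win (m : ℕ) (I : Finset P2) : Finset P2 := I.biUnion fun a => (hball m).image (a + ·)

theorem hd_sub (a b : P2) : hd (a - b) 0 = hd a b := by
  unfold hd; simp

theorem mem_win {m : ℕ} {I : Finset P2} {v : P2} : v ∈ win m I ↔ ∃ a ∈ I, hd v a ≤ m := by
  simp only [win, Finset.mem_biUnion, Finset.mem_image, mem_hball]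
  constructor
  · rintro ⟨a, ha, e, he, rfl⟩
    refine ⟨a, ha, ?_⟩
    rw [← hd_sub]
    simpa using he
  · rintro ⟨a, ha, h⟩
    exact ⟨a, ha, v - a, by rw [hd_sub]; exact h, by simp⟩

theorem subset_win (m : ℕ) (I : Finset P2) : I ⊆ win m I := fun v hv =>
  mem_win.mpr ⟨v, hv, by rw [hd_self]; positivity⟩

/-- The core of `I`: the sites whose `2m`-neighbourhood is in `I`. -/
def cor (m : ℕ) (I : Finset P2) : Finset P2 :=
  I.filter fun w => ∀ v ∈ (hball (2 * m)).image (w + ·), v ∈ I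

theorem mem_cor {m : ℕ} {I : Finset P2} {w : P2} :
    w ∈ cor m I ↔ w ∈ I ∧ ∀ v, hd v w ≤ 2 * m → v ∈ I := by
  simp only [cor, Finset.mem_filter, Finset.mem_image, mem_hball]
  refine and_congr Iff.rfl ⟨fun h v hv => ?_, fun h v hv => ?_⟩
  · refine h v ⟨v - w, ?_, by simp⟩
    rw [hd_sub]; exact_mod_cast hv
  · obtain ⟨e, he, rfl⟩ := hv
    refine h _ ?_
    rw [← hd_sub]
    simpa using he

theorem cor_subset (m : ℕ) (I : Finset P2) : cor m I ⊆ I := Finset.filter_subset _ _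

/-! ### Lattice symmetries -/

/-- A lattice automorphism with its action on the coordinates. -/
structure Sym (σ : P2 → P2) (π : Equiv.Perm (Fin 3)) (c : Fin 3 → ℝ) : Prop where
  surj : Function.Surjective σ
  hd_eq : ∀ a b, hd (σ a) (σ b) = hd a b
  ps_eq : ∀ k v, ps k (σ v) = ps (π k) v + c k

section Sym

variable {σ : P2 → P2} {π : Equiv.Perm (Fin 3)} {c : Fin 3 → ℝ} {I I' : Finset P2} {m : ℕ}

theorem Sym.inj (h : Sym σ π c) : Function.Injective σ := fun a b hab => by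
  have := h.hd_eq a b
  rw [hab, hd_self] at this
  exact hd_eq_zero this.symm

theorem Sym.mem_iff (h : Sym σ π c) (hI : ∀ v, v ∈ I' ↔ ∃ u ∈ I, σ u = v) (u : P2) :
    σ u ∈ I' ↔ u ∈ I := by
  rw [hI]
  exact ⟨fun ⟨b, hb, he⟩ => h.inj he ▸ hb, fun h => ⟨u, h, rfl⟩⟩

theorem Sym.rl (h : Sym σ π c) (hI : ∀ v, v ∈ I' ↔ ∃ u ∈ I, σ u = v) :
    Rl σ I I' (lat I) (lat I') where
  inj := h.inj
  memI := hI
  memE q := by
    rw [mem_lat]
    constructor
    · rintro ⟨h1, h2⟩
      obtain ⟨a, ha⟩ := h.surj q.1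
      obtain ⟨b, hb⟩ := h.surj q.2
      refine ⟨(a, b), ?_, by simp [ha, hb]⟩
      rw [mem_lat]
      rw [← ha, ← hb, h.hd_eq] at h1
      rw [← ha, ← hb, h.mem_iff hI, h.mem_iff hI] at h2
      exact ⟨h1, h2⟩
    · rintro ⟨p, hp, rfl⟩
      rw [mem_lat] at hp
      simp only [h.hd_eq, h.mem_iff hI]
      exact hp

theorem Sym.mem_win (h : Sym σ π c) (hI : ∀ v, v ∈ I' ↔ ∃ u ∈ I, σ u = v) (v : P2) :
    v ∈ win m I' ↔ ∃ u ∈ win m I, σ u = v := by
  simp only [Bl565.mem_win]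
  constructor
  · rintro ⟨a', ha', hd'⟩
    obtain ⟨a, ha, rfl⟩ := (hI a').mp ha'
    obtain ⟨u, rfl⟩ := h.surj v
    exact ⟨u, ⟨a, ha, by rwa [h.hd_eq] at hd'⟩, rfl⟩
  · rintro ⟨u, ⟨a, ha, hd'⟩, rfl⟩
    exact ⟨σ a, (h.mem_iff hI a).mpr ha, by rwa [h.hd_eq]⟩

theorem Sym.mem_cor (h : Sym σ π c) (hI : ∀ v, v ∈ I' ↔ ∃ u ∈ I, σ u = v) (u : P2) :
    σ u ∈ cor m I' ↔ u ∈ cor m I := by
  rw [Bl565.mem_cor, Bl565.mem_cor, h.mem_iff hI]
  refine and_congr Iff.rfl ⟨fun h1 v hv => ?_, fun h1 v hv => ?_⟩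
  · exact (h.mem_iff hI v).mp (h1 (σ v) (by rwa [h.hd_eq]))
  · obtain ⟨w, rfl⟩ := h.surj v
    exact (h.mem_iff hI w).mpr (h1 w (by rwa [h.hd_eq] at hv))

theorem Sym.Zk_eq (P : Par) (h : Sym σ π c) {V V' : Finset P2}
    (hV : ∀ v, v ∈ V' ↔ ∃ u ∈ V, σ u = v) {E E' : Finset (P2 × P2)}
    (hE : ∀ a ∈ V, ∀ b ∈ V, σ b ∈ nbr E' (σ a) ↔ b ∈ nbr E a) (k : Fin 3) (g : P2 → ℝ) (u : P2) :
    Zk P V' E' k g (σ u) = Zk P V E (π k) (g ∘ σ) u + c k := by
  unfold Zk
  rw [Z_map h.inj hV hE]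
  have : ps k ∘ σ = fun v => ps (π k) v + c k := by funext v; exact h.ps_eq k v
  rw [this, Z_add_const]

theorem Sym.Lf_eq (P : Par) (h : Sym σ π c) {V V' : Finset P2}
    (hV : ∀ v, v ∈ V' ↔ ∃ u ∈ V, σ u = v) {E E' : Finset (P2 × P2)}
    (hE : ∀ a ∈ V, ∀ b ∈ V, σ b ∈ nbr E' (σ a) ↔ b ∈ nbr E a) (k : Fin 3) (g : P2 → ℝ) (u : P2) :
    Lf P V' E' k g (σ u) = Lf P V E (π k) (g ∘ σ) u + (c k - (c 0 + c 1 + c 2) / 3) := by
  have h1 : ∀ k, Zk P V' E' k g (σ u) = Zk P V E (π k) (g ∘ σ) u + c k := fun k =>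
    h.Zk_eq P hV hE k g u
  have h2 : Zk P V E (π 0) (g ∘ σ) u + Zk P V E (π 1) (g ∘ σ) u + Zk P V E (π 2) (g ∘ σ) u =
      Zk P V E 0 (g ∘ σ) u + Zk P V E 1 (g ∘ σ) u + Zk P V E 2 (g ∘ σ) u := by
    have := Equiv.sum_comp π fun k => Zk P V E k (g ∘ σ) u
    rw [Fin.sum_univ_three, Fin.sum_univ_three] at this
    exact this
  unfold Lf
  rw [h1, h1, h1, h1]
  linarith

theorem Sym.nbr_win (h : Sym σ π c) (hI : ∀ v, v ∈ I' ↔ ∃ u ∈ I, σ u = v) :
    ∀ a ∈ win m I, ∀ b ∈ win m I,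
      σ b ∈ nbr (lat (win m I')) (σ a) ↔ b ∈ nbr (lat (win m I)) a := by
  intro a _ b _
  rw [mem_nbr_lat, mem_nbr_lat, h.hd_eq, h.mem_iff (h.mem_win hI), h.mem_iff (h.mem_win hI)]

end Sym

/-- Coefficients of the three coordinates in terms of the first two. -/
def ek (k : Fin 3) (j : Fin 2) : ℝ := (![![1, 0], ![0, 1], ![-1, -1]] : Fin 3 → Fin 2 → ℝ) k j

/-- Action of a symmetry on slopes. -/
def tw (π : Equiv.Perm (Fin 3)) (xi : Fin 2 → ℝ) (j : Fin 2) : ℝ :=
  ∑ i, xi i * ek (π i.castSucc) j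

theorem Lf_eq_ek (P : Par) (V : Finset P2) (E : Finset (P2 × P2)) (k : Fin 3) (h : P2 → ℝ)
    (u : P2) : Lf P V E k h u = ∑ j, ek k j * L2 P V E j h u := by
  rw [Fin.sum_univ_two]
  fin_cases k
  · change Lf P V E 0 h u = (1 : ℝ) * L2 P V E 0 h u + 0 * L2 P V E 1 h u
    rw [L2_zero]; ring
  · change Lf P V E 1 h u = (0 : ℝ) * L2 P V E 0 h u + 1 * L2 P V E 1 h u
    rw [L2_one]; ring
  · change Lf P V E 2 h u = (-1 : ℝ) * L2 P V E 0 h u + -1 * L2 P V E 1 h u
    rw [Lf_two]; ring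

/-! ### Block energies of finite sets of sites -/

/-- Only the combination matters. -/
theorem bT_congr_cmb {U : Type*} [DecidableEq U] {κ κ' : Type*} [Fintype κ] [Fintype κ']
    {I : Finset U} {E : Finset (U × U)} {C : Finset U} (hA : Anch I E) {ζ : U → ℝ}
    {L : κ → llip I} {L' : κ' → llip I} {xi : κ → ℝ} {xi' : κ' → ℝ}
    (h : ∃ c : ℝ, ∀ x u, (cmb L' xi' : llip I).1 x u = (cmb L xi : llip I).1 x u + c) :
    bT C hA ζ L' xi' = bT C hA ζ L xi := by
  obtain ⟨c, hc⟩ := h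
  have key : ∀ Y : (I → ℝ) → (I → ℝ), ∀ x, en ((cmb L' xi' : llip I).1 + Y) x =
      en ((cmb L xi : llip I).1 + Y) x := by
    intro Y x
    have e : (cmb L' xi' : llip I).1 + Y =
        fun x => ((cmb L xi : llip I).1 + Y) x + fun _ => c := by
      funext x u
      simp only [Pi.add_apply]
      rw [hc]; ring
    rw [e, en_add_const]
  refine le_antisymm (le_bT fun Y hY => ?_) (le_bT fun Y hY => ?_)
  · have := bT_le (ζ := ζ) (L := L') (xi := xi') hA hY
    simp only [key] at this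
    exact this
  · have := bT_le (ζ := ζ) (L := L) (xi := xi) hA hY
    simp only [key]
    exact this

variable (P : Par) (m : ℕ)

/-- The block energy of a finite set of sites, slope `xi` in index coordinates. -/
def bbB (I : Finset P2) (h : P2 → ℝ) (xi : Fin 2 → ℝ) : ℝ :=
  bb (cor m I) (anch_lat I) (refF_L2 P I (win m I) (lat (win m I))) h xi

/-- The block matrix of a finite set of sites, index coordinates. -/
def bbM (I : Finset P2) (h : P2 → ℝ) : Matrix (Fin 2) (Fin 2) ℝ :=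
  bbm (cor m I) (anch_lat I) (refF_L2 P I (win m I) (lat (win m I))) h

variable {P m}

theorem bbB_nonneg {I : Finset P2} {h : P2 → ℝ} {xi : Fin 2 → ℝ} : 0 ≤ bbB P m I h xi :=
  bT_nonneg (anch_lat I)

theorem bbM_psd {I : Finset P2} {h : P2 → ℝ} : (bbM P m I h).PosSemidef :=
  bTm_psd (anch_lat I)

theorem bbM_symm {I : Finset P2} {h : P2 → ℝ} (i j : Fin 2) :
    bbM P m I h i j = bbM P m I h j i := (bTm_symm (anch_lat I)).apply j i

theorem bbB_eq {I : Finset P2} {h : P2 → ℝ} {xi : Fin 2 → ℝ} :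
    bbB P m I h xi = ∑ i, ∑ j, bbM P m I h i j * xi i * xi j := by
  rw [bbB, bb, bT_quad]
  refine Finset.sum_congr rfl fun i _ => Finset.sum_congr rfl fun j _ => ?_
  change _ * bbM P m I h i j = _
  ring

theorem bbM_apply {I : Finset P2} {h : P2 → ℝ} (i j : Fin 2) : bbM P m I h i j =
    (bbB P m I h (Pi.single i 1 + Pi.single j 1) - bbB P m I h (Pi.single i 1) -
      bbB P m I h (Pi.single j 1)) / 2 := rfl

theorem measurable_bbB (I : Finset P2) (xi : Fin 2 → ℝ) :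
    Measurable fun h : P2 → ℝ => bbB P m I h xi := measurable_bb _ _ _

theorem measurable_bbM (I : Finset P2) (i j : Fin 2) :
    Measurable fun h : P2 → ℝ => bbM P m I h i j := measurable_bbm _ _ _ _

/-- Invariance under constants. -/
theorem bbB_shift (I : Finset P2) (h : P2 → ℝ) (c : ℝ) (xi : Fin 2 → ℝ) :
    bbB P m I (fun v => h v + c) xi = bbB P m I h xi :=
  bb_shift _ _ (fun i g t u => L2_shift P i g t u) c xi

theorem bbM_shift (I : Finset P2) (h : P2 → ℝ) (c : ℝ) :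
    bbM P m I (fun v => h v + c) = bbM P m I h :=
  bbm_shift _ _ (fun i g t u => L2_shift P i g t u) c

/-- **Locality**: only the heights of the window outside the block matter. -/
theorem bbB_congr {I : Finset P2} (hm : 1 ≤ m) {h h' : P2 → ℝ}
    (hh : ∀ v ∈ win m I, v ∉ I → h v = h' v) (xi : Fin 2 → ℝ) :
    bbB P m I h xi = bbB P m I h' xi := by
  have hext : ∀ (x : I → ℝ) (v : P2), v ∈ win m I → ext I h x v = ext I h' x v := by
    intro x v hv
    by_cases hI : v ∈ I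
    · rw [ext_mem hI, ext_mem hI]
    · rw [ext_notMem hI, ext_notMem hI, hh v hv hI]
  have hedge : ∀ p ∈ lat I, p.1 ∈ win m I ∧ p.2 ∈ win m I := by
    intro p hp
    rw [mem_lat] at hp
    obtain ⟨h1, h2⟩ := hp
    have hm' : (1 : ℤ) ≤ m := by exact_mod_cast hm
    rcases h2 with h2 | h2
    · exact ⟨subset_win m I h2, mem_win.mpr ⟨p.1, h2, by rw [hd_comm, h1]; exact hm'⟩⟩
    · exact ⟨mem_win.mpr ⟨p.2, h2, by rw [h1]; exact hm'⟩, subset_win m I h2⟩
  have hham : ham I (lat I) h = ham I (lat I) h' := by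
    ext x
    change (∀ p ∈ lat I, |ext I h x p.1 - ext I h x p.2| ≤ 1) ↔
      ∀ p ∈ lat I, |ext I h' x p.1 - ext I h' x p.2| ≤ 1
    refine forall₂_congr fun p hp => ?_
    rw [hext x _ (hedge p hp).1, hext x _ (hedge p hp).2]
  have hP : hamP I (lat I) h = hamP I (lat I) h' := by
    unfold hamP; rw [hham]
  have hL : ∀ x u, (cmb (refL (refF_L2 P I (win m I) (lat (win m I))) h) xi : llip I).1 x u =
      (cmb (refL (refF_L2 P I (win m I) (lat (win m I))) h') xi : llip I).1 x u := by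
    intro x u
    rw [coe_cmb, coe_cmb]
    simp only [Finset.sum_apply, Pi.smul_apply, smul_eq_mul]
    refine Finset.sum_congr rfl fun i _ => ?_
    congr 1
    exact L2_congr P (fun a ha => hext x a ha) i u
  have key : ∀ Y : (I → ℝ) → (I → ℝ),
      ∫ x, en ((cmb (refL (refF_L2 P I (win m I) (lat (win m I))) h) xi : llip I).1 + Y) x
        ∂(hamP I (lat I) h) =
      ∫ x, en ((cmb (refL (refF_L2 P I (win m I) (lat (win m I))) h') xi : llip I).1 + Y) x
        ∂(hamP I (lat I) h') := by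
    intro Y
    have e : (cmb (refL (refF_L2 P I (win m I) (lat (win m I))) h) xi : llip I).1 =
      (cmb (refL (refF_L2 P I (win m I) (lat (win m I))) h') xi : llip I).1 := by
      funext x u; exact hL x u
    rw [e, hP]
  refine le_antisymm (le_bT (hA := anch_lat I) fun Y hY => ?_)
    (le_bT (hA := anch_lat I) fun Y hY => ?_)
  · rw [← key]
    exact bT_le (anch_lat I) hY
  · rw [key]
    exact bT_le (anch_lat I) hY

theorem bbM_congr {I : Finset P2} (hm : 1 ≤ m) {h h' : P2 → ℝ}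
    (hh : ∀ v ∈ win m I, v ∉ I → h v = h' v) : bbM P m I h = bbM P m I h' := by
  ext i j
  rw [bbM_apply, bbM_apply, bbB_congr hm hh, bbB_congr hm hh, bbB_congr hm hh]

/-- **Covariance** under lattice symmetries. -/
theorem bbB_sym {σ : P2 → P2} {π : Equiv.Perm (Fin 3)} {c : Fin 3 → ℝ} (hs : Sym σ π c)
    {I I' : Finset P2} (hI : ∀ v, v ∈ I' ↔ ∃ u ∈ I, σ u = v) (h : P2 → ℝ) (xi : Fin 2 → ℝ) :
    bbB P m I' h xi = bbB P m I (h ∘ σ) (tw π xi) := by
  have hR := hs.rl hI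
  set L : Fin 2 → llip I := refL (refF_L2 P I (win m I) (lat (win m I))) (h ∘ σ) with hL
  set L' : Fin 2 → llip I' := refL (refF_L2 P I' (win m I') (lat (win m I'))) h with hL'
  set L'' : Fin 2 → llip I := fun i => ⟨trF hR.eq (L' i).1, ll_trF hR.eq (L' i).2⟩ with hL''
  have h1 : bT (cor m I') (anch_lat I') h L' xi = bT (cor m I) (anch_lat I) (h ∘ σ) L'' xi :=
    hR.bT_eq (fun u _ => hs.mem_cor hI u) _ _ fun i => ⟨0, fun x u => by simp [hL'']⟩
  change bT (cor m I') (anch_lat I') h L' xi = bT (cor m I) (anch_lat I) (h ∘ σ) L (tw π xi)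
  rw [h1]
  refine bT_congr_cmb (anch_lat I) ?_
  refine ⟨∑ i : Fin 2, xi i * (c i.castSucc - (c 0 + c 1 + c 2) / 3), fun x u => ?_⟩
  have h2 : ∀ i, (L'' i).1 x u = Lf P (win m I) (lat (win m I)) (π i.castSucc)
      (ext I (h ∘ σ) x) u + (c i.castSucc - (c 0 + c 1 + c 2) / 3) := by
    intro i
    change Lf P (win m I') (lat (win m I')) i.castSucc
      (ext I' h ((pullL hR.eq).symm x)) (hR.eq u) = _
    rw [hR.eq_apply, hs.Lf_eq P (hs.mem_win hI) (hs.nbr_win hI)]
    congr 2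
    funext v
    change ext I' h ((pullL hR.eq).symm x) (σ v) = _
    rw [hR.ext_eq]; simp
  have h3 : ∀ j, (L j).1 x u = L2 P (win m I) (lat (win m I)) j (ext I (h ∘ σ) x) u :=
    fun j => rfl
  rw [coe_cmb, coe_cmb]
  simp only [Finset.sum_apply, Pi.smul_apply, smul_eq_mul, h2, h3, Lf_eq_ek, tw, mul_add,
    Finset.sum_add_distrib]
  congr 1
  simp only [Finset.mul_sum, Finset.sum_mul, mul_assoc]
  rw [Finset.sum_comm]

end Crest.Agent.R144.Bl565
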