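import Crest.Agent.R144.Bl2_565

/-!
R144 (S0197), helper565.  The shared block matrices, part 3: the three rhombi, the truncated
matrices, the shared scalar `abT` and isotropy.

* `rh s`, `sg s o`, `bk r o` : rhombus of side `r / 2` and its two rotated copies;
* `bbO P r o h` : block matrix per site, window / collar width `Nat.sqrt r`;
* `trE B = B 0 0 + B 0 1 + B 1 1` : Euclidean trace; `bbL P r o L h` : truncated at `trE ≤ L`;
* `abT P μ r L` : the shared scalar; `sum_A_eq` : isotropy.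
-/

set_option autoImplicit false
set_option linter.unusedSectionVars false

open MeasureTheory Set Filter Topology
open scoped ENNReal NNReal

noncomputable section

namespace Crest.Agent.R144.Bl565

open Crest.Agent.R144.Ham560 Crest.Agent.R144.Tri560 Crest.Agent.R144.Zb560
open Crest.Agent.R144.BQ565
open Crest.Agent.R144.Lc279 (lat mem_lat mem_nbr_lat P2)
open Crest.Agent.R144.Lw425 (hd hd_comm hd_le_iff mem_hball hball hd_self hd_triangle hd_pos
  hd_eq_zero hd_nonneg hd_adj Proper)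

/-! ### Translations and rotations -/

theorem hd_add (x a b : P2) : hd (x + a) (x + b) = hd a b := by
  unfold hd; simp

theorem ps_add (k : Fin 3) (a b : P2) : ps k (a + b) = ps k a + ps k b := by
  fin_cases k
  · change (((a.1 + b.1 : ℤ) : ℝ)) = a.1 + b.1
    push_cast; ring
  · change (((a.2 + b.2 : ℤ) : ℝ)) = a.2 + b.2
    push_cast; ring
  · change -(((a.1 + b.1 : ℤ) : ℝ) + ((a.2 + b.2 : ℤ) : ℝ)) = -((a.1 : ℝ) + a.2) + -((b.1 : ℝ) + b.2)
    push_cast; ring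

theorem sym_add (x : P2) : Sym (x + ·) (Equiv.refl _) (fun k => ps k x) where
  surj v := ⟨v - x, by simp⟩
  hd_eq := hd_add x
  ps_eq k v := by rw [ps_add, Equiv.refl_apply]; ring

/-- Rotation by 120 degrees. -/
def rot (v : P2) : P2 := (-v.1 - v.2, v.1)

theorem sym_rot : Sym rot (Equiv.subRight 1) (fun _ => 0) where
  surj v := ⟨(v.2, -v.1 - v.2), Prod.ext (by simp only [rot]; ring) (by simp only [rot])⟩
  hd_eq a b := by
    have h : ∀ k : ℤ, hd (rot a) (rot b) ≤ k ↔ hd a b ≤ k := fun k => by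
      rw [hd_le_iff, hd_le_iff]; simp only [rot]; omega
    exact le_antisymm ((h _).mpr le_rfl) ((h _).mp le_rfl)
  ps_eq k v := by
    fin_cases k
    · change (((-v.1 - v.2 : ℤ) : ℝ)) = ps (0 - 1) v + 0
      rw [show (0 - 1 : Fin 3) = 2 from rfl, ps_two]; push_cast; ring
    · change ((v.1 : ℤ) : ℝ) = ps (1 - 1) v + 0
      rw [show (1 - 1 : Fin 3) = 0 from rfl, ps_zero]; ring
    · change -(((-v.1 - v.2 : ℤ) : ℝ) + (v.1 : ℝ)) = ps (2 - 1) v + 0
      rw [show (2 - 1 : Fin 3) = 1 from rfl, ps_one]; push_cast; ring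

theorem Sym.comp {σ τ : P2 → P2} {π ρ : Equiv.Perm (Fin 3)} {c d : Fin 3 → ℝ} (h : Sym σ π c)
    (h' : Sym τ ρ d) : Sym (σ ∘ τ) (π.trans ρ) (fun k => d (π k) + c k) where
  surj := h.surj.comp h'.surj
  hd_eq a b := (h.hd_eq _ _).trans (h'.hd_eq _ _)
  ps_eq k v := by
    change ps k (σ (τ v)) = ps (ρ (π k)) v + _
    rw [h.ps_eq, h'.ps_eq]; ring

/-- The offset of the orientation `o`. -/
def off (s : ℕ) (o : Fin 3) : P2 := (![(0, 0), (2 * s - 2, 0), (0, 2 * s - 2)] : Fin 3 → P2) o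

/-- The linear part of the orientation `o`. -/
def rt (o : Fin 3) : P2 → P2 := (![id, rot, rot ∘ rot] : Fin 3 → P2 → P2) o

/-- The lattice symmetry defining the orientation `o`. -/
def sg (s : ℕ) (o : Fin 3) (v : P2) : P2 := off s o + rt o v

theorem sg_zero (s : ℕ) (v : P2) : sg s 0 v = v := by
  change ((0, 0) : P2) + v = v
  ext <;> simp

theorem sg_one (s : ℕ) (v : P2) : sg s 1 v = (2 * s - 2 - v.1 - v.2, v.1) := by
  change ((2 * s - 2, 0) : P2) + rot v = _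
  ext <;> simp [rot]; ring

theorem sg_two (s : ℕ) (v : P2) : sg s 2 v = (v.2, 2 * s - 2 - v.1 - v.2) := by
  change ((0, 2 * s - 2) : P2) + rot (rot v) = _
  ext <;> simp [rot]; ring

/-- The permutation of the coordinates for the orientation `o`. -/
def prm (o : Fin 3) : Equiv.Perm (Fin 3) := Equiv.subRight o

@[simp] theorem prm_apply (o k : Fin 3) : prm o k = k - o := rfl

theorem exists_sym_rt (o : Fin 3) : ∃ c, Sym (rt o) (prm o) c := by
  fin_cases o
  · refine ⟨fun _ => 0, ⟨fun v => ⟨v, rfl⟩, fun _ _ => rfl, fun k v => ?_⟩⟩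
    change ps k v = ps (k - 0) v + 0
    rw [sub_zero, add_zero]
  · exact ⟨_, sym_rot⟩
  · have h := sym_rot.comp sym_rot
    have e : (Equiv.subRight (1 : Fin 3)).trans (Equiv.subRight 1) = prm 2 := by
      ext k; fin_cases k <;> rfl
    rw [e] at h
    exact ⟨_, h⟩

theorem exists_sym (s : ℕ) (o : Fin 3) : ∃ c, Sym (sg s o) (prm o) c := by
  obtain ⟨c, hc⟩ := exists_sym_rt o
  exact ⟨_, (sym_add (off s o)).comp hc⟩

/-! ### The blocks -/

/-- The rhombus of side `s`. -/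
def rh (s : ℕ) : Finset P2 := Finset.Ico (0 : ℤ) s ×ˢ Finset.Ico (0 : ℤ) s

theorem mem_rh {s : ℕ} {v : P2} : v ∈ rh s ↔ (0 ≤ v.1 ∧ v.1 < s) ∧ (0 ≤ v.2 ∧ v.2 < s) := by
  rw [rh, Finset.mem_product, Finset.mem_Ico, Finset.mem_Ico]

theorem card_rh (s : ℕ) : (rh s).card = s ^ 2 := by
  rw [rh, Finset.card_product]; simp [sq]

/-- The block of orientation `o` inside the square of side `r`. -/
def bk (r : ℕ) (o : Fin 3) : Finset P2 := (rh (r / 2)).image (sg (r / 2) o)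

theorem mem_bk {r : ℕ} {o : Fin 3} {v : P2} : v ∈ bk r o ↔ ∃ u ∈ rh (r / 2), sg (r / 2) o u = v :=
  Finset.mem_image

theorem bk_zero (r : ℕ) : bk r 0 = rh (r / 2) := by
  ext v
  rw [mem_bk]
  simp [sg_zero]

theorem card_bk (r : ℕ) (o : Fin 3) : (bk r o).card = (r / 2) ^ 2 := by
  obtain ⟨c, hc⟩ := exists_sym (r / 2) o
  rw [bk, Finset.card_image_of_injective _ hc.inj, card_rh]

theorem bk_bound {r : ℕ} {o : Fin 3} {v : P2} (hv : v ∈ bk r o) :
    (0 ≤ v.1 ∧ v.1 < r) ∧ (0 ≤ v.2 ∧ v.2 < r) := by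
  obtain ⟨u, hu, rfl⟩ := mem_bk.mp hv
  rw [mem_rh] at hu
  obtain ⟨⟨h1, h2⟩, h3, h4⟩ := hu
  have h5 : 2 * (((r / 2 : ℕ)) : ℤ) ≤ r := by
    have := Nat.mul_div_le r 2
    exact_mod_cast this
  fin_cases o
  · change (0 ≤ (sg (r / 2) 0 u).1 ∧ (sg (r / 2) 0 u).1 < r) ∧
      (0 ≤ (sg (r / 2) 0 u).2 ∧ (sg (r / 2) 0 u).2 < r)
    rw [sg_zero]; omega
  · change (0 ≤ (sg (r / 2) 1 u).1 ∧ (sg (r / 2) 1 u).1 < r) ∧
      (0 ≤ (sg (r / 2) 1 u).2 ∧ (sg (r / 2) 1 u).2 < r)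
    rw [sg_one]; simp only; omega
  · change (0 ≤ (sg (r / 2) 2 u).1 ∧ (sg (r / 2) 2 u).1 < r) ∧
      (0 ≤ (sg (r / 2) 2 u).2 ∧ (sg (r / 2) 2 u).2 < r)
    rw [sg_two]; simp only; omega

/-- The width of the collars. -/
def cw (r : ℕ) : ℕ := Nat.sqrt r

variable (P : Par)

/-- **The block matrix per site** (index coordinates). -/
def bbO (r : ℕ) (o : Fin 3) (h : P2 → ℝ) : Matrix (Fin 2) (Fin 2) ℝ :=
  ((((r / 2 : ℕ) : ℝ)) ^ 2)⁻¹ • bbM P (cw r) (bk r o) h

/-- Euclidean trace of a form in index coordinates. -/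
def trE (B : Matrix (Fin 2) (Fin 2) ℝ) : ℝ := B 0 0 + B 0 1 + B 1 1

/-- The quadratic form of a matrix. -/
def qd (B : Matrix (Fin 2) (Fin 2) ℝ) (y : Fin 2 → ℝ) : ℝ := ∑ i, ∑ j, B i j * y i * y j

theorem qd_eq (B : Matrix (Fin 2) (Fin 2) ℝ) (y : Fin 2 → ℝ) : qd B y =
    B 0 0 * y 0 * y 0 + B 0 1 * y 0 * y 1 + (B 1 0 * y 1 * y 0 + B 1 1 * y 1 * y 1) := by
  simp [qd, Fin.sum_univ_two]

/-- The truncated block matrix. -/
def bbL (r : ℕ) (o : Fin 3) (L : ℝ) (h : P2 → ℝ) : Matrix (Fin 2) (Fin 2) ℝ :=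
  if trE (bbO P r o h) ≤ L then bbO P r o h else 0

variable {P}

theorem bbO_psd (r : ℕ) (o : Fin 3) (h : P2 → ℝ) : (bbO P r o h).PosSemidef :=
  (bbM_psd (P := P) (m := cw r) (I := bk r o) (h := h)).smul (by positivity)

theorem bbO_symm (r : ℕ) (o : Fin 3) (h : P2 → ℝ) (i j : Fin 2) :
    bbO P r o h i j = bbO P r o h j i := by
  simp only [bbO, Matrix.smul_apply]
  rw [bbM_symm]

theorem qd_bbO (r : ℕ) (o : Fin 3) (h : P2 → ℝ) (y : Fin 2 → ℝ) :
    qd (bbO P r o h) y = ((((r / 2 : ℕ) : ℝ)) ^ 2)⁻¹ * bbB P (cw r) (bk r o) h y := by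
  rw [bbB_eq, qd, Finset.mul_sum]
  refine Finset.sum_congr rfl fun i _ => ?_
  rw [Finset.mul_sum]
  refine Finset.sum_congr rfl fun j _ => ?_
  simp only [bbO, Matrix.smul_apply, smul_eq_mul]
  ring

theorem qd_bbO_nonneg (r : ℕ) (o : Fin 3) (h : P2 → ℝ) (y : Fin 2 → ℝ) :
    0 ≤ qd (bbO P r o h) y := by
  rw [qd_bbO]
  exact mul_nonneg (by positivity) bbB_nonneg

theorem trE_eq_sum {B : Matrix (Fin 2) (Fin 2) ℝ} (hB : B 0 1 = B 1 0) :
    trE B = (1 / 2) * ∑ k, qd B (ek k) := by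
  rw [Fin.sum_univ_three, qd_eq, qd_eq, qd_eq, trE]
  simp only [ek, Matrix.cons_val_zero, Matrix.cons_val_one, Matrix.cons_val]
  rw [hB]; ring

theorem trE_nonneg {B : Matrix (Fin 2) (Fin 2) ℝ} (hB : B 0 1 = B 1 0) (h0 : ∀ y, 0 ≤ qd B y) :
    0 ≤ trE B := by
  rw [trE_eq_sum hB]
  exact mul_nonneg (by norm_num) (Finset.sum_nonneg fun k _ => h0 _)

theorem abs_entry_le {B : Matrix (Fin 2) (Fin 2) ℝ} (hB : B 0 1 = B 1 0) (h0 : ∀ y, 0 ≤ qd B y)
    (i j : Fin 2) : |B i j| ≤ 2 * trE B := by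
  have h1 := h0 ![1, 0]
  have h2 := h0 ![0, 1]
  have h3 := h0 ![1, 1]
  have h4 := h0 ![1, -1]
  have h5 := h0 ![2, 1]
  have h6 := h0 ![1, 2]
  rw [qd_eq] at h1 h2 h3 h4 h5 h6
  simp only [Matrix.cons_val_zero, Matrix.cons_val_one] at h1 h2 h3 h4 h5 h6
  rw [trE]
  rw [abs_le]
  fin_cases i <;> fin_cases j <;> simp only [Fin.zero_eta, Fin.mk_one, Fin.isValue] <;>
    constructor <;> linarith

theorem trE_bbO_nonneg (r : ℕ) (o : Fin 3) (h : P2 → ℝ) : 0 ≤ trE (bbO P r o h) :=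
  trE_nonneg (bbO_symm r o h 0 1) (qd_bbO_nonneg r o h)

theorem measurable_bbO (r : ℕ) (o : Fin 3) (i j : Fin 2) :
    Measurable fun h : P2 → ℝ => bbO P r o h i j := by
  simp only [bbO, Matrix.smul_apply, smul_eq_mul]
  exact (measurable_bbM _ _ _).const_mul _

theorem measurable_trE (r : ℕ) (o : Fin 3) : Measurable fun h : P2 → ℝ => trE (bbO P r o h) :=
  ((measurable_bbO r o 0 0).add (measurable_bbO r o 0 1)).add (measurable_bbO r o 1 1)

theorem bbL_apply (r : ℕ) (o : Fin 3) (L : ℝ) (h : P2 → ℝ) (i j : Fin 2) :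
    bbL P r o L h i j = if trE (bbO P r o h) ≤ L then bbO P r o h i j else 0 := by
  unfold bbL; split_ifs <;> rfl

theorem measurable_bbL (r : ℕ) (o : Fin 3) (L : ℝ) (i j : Fin 2) :
    Measurable fun h : P2 → ℝ => bbL P r o L h i j := by
  simp only [bbL_apply]
  exact Measurable.ite (measurable_trE r o measurableSet_Iic) (measurable_bbO r o i j)
    measurable_const

theorem bbL_symm (r : ℕ) (o : Fin 3) (L : ℝ) (h : P2 → ℝ) (i j : Fin 2) :
    bbL P r o L h i j = bbL P r o L h j i := by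
  rw [bbL_apply, bbL_apply, bbO_symm]

theorem abs_bbL_le {r : ℕ} {o : Fin 3} {L : ℝ} (hL : 0 ≤ L) (h : P2 → ℝ) (i j : Fin 2) :
    |bbL P r o L h i j| ≤ 2 * L := by
  rw [bbL_apply]
  split_ifs with hc
  · exact (abs_entry_le (bbO_symm r o h 0 1) (qd_bbO_nonneg r o h) i j).trans (by linarith)
  · rw [abs_zero]; positivity

theorem qd_bbL (r : ℕ) (o : Fin 3) (L : ℝ) (h : P2 → ℝ) (y : Fin 2 → ℝ) :
    qd (bbL P r o L h) y = if trE (bbO P r o h) ≤ L then qd (bbO P r o h) y else 0 := by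
  unfold bbL
  split_ifs
  · rfl
  · simp [qd]

theorem qd_bbL_nonneg (r : ℕ) (o : Fin 3) (L : ℝ) (h : P2 → ℝ) (y : Fin 2 → ℝ) :
    0 ≤ qd (bbL P r o L h) y := by
  rw [qd_bbL]; split_ifs
  · exact qd_bbO_nonneg r o h y
  · exact le_rfl

theorem qd_bbL_le (r : ℕ) (o : Fin 3) (L : ℝ) (h : P2 → ℝ) (y : Fin 2 → ℝ) :
    qd (bbL P r o L h) y ≤ qd (bbO P r o h) y := by
  rw [qd_bbL]; split_ifs
  · exact le_rfl
  · exact qd_bbO_nonneg r o h y

/-! ### Invariance -/

theorem bbO_shift (r : ℕ) (o : Fin 3) (h : P2 → ℝ) (c : ℝ) :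
    bbO P r o (fun v => h v + c) = bbO P r o h := by
  simp only [bbO]; rw [bbM_shift]

theorem bbL_shift (r : ℕ) (o : Fin 3) (L : ℝ) (h : P2 → ℝ) (c : ℝ) :
    bbL P r o L (fun v => h v + c) = bbL P r o L h := by
  simp only [bbL, bbO_shift]

/-- Locality. -/
theorem bbO_congr {r : ℕ} (hr : 1 ≤ r) {o : Fin 3} {h h' : P2 → ℝ}
    (hh : ∀ v ∈ win (cw r) (bk r o), v ∉ bk r o → h v = h' v) : bbO P r o h = bbO P r o h' := by
  have hc : 1 ≤ cw r := Nat.sqrt_pos.mpr hr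
  simp only [bbO]
  rw [bbM_congr hc hh]

theorem tw_refl (xi : Fin 2 → ℝ) : tw (Equiv.refl _) xi = xi := by
  funext j
  simp only [tw, Fin.sum_univ_two, Equiv.refl_apply]
  fin_cases j
  · change xi 0 * 1 + xi 1 * 0 = xi 0
    ring
  · change xi 0 * 0 + xi 1 * 1 = xi 1
    ring

/-- **Translation**: the block matrix of the block at `x`. -/
theorem bbM_translate {m : ℕ} (I : Finset P2) (x : P2) (h : P2 → ℝ) :
    bbM P m (I.image (x + ·)) h = bbM P m I (fun v => h (x + v)) := by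
  have key : ∀ xi, bbB P m (I.image (x + ·)) h xi = bbB P m I (fun v => h (x + v)) xi := by
    intro xi
    have := bbB_sym (P := P) (m := m) (sym_add x) (I := I) (I' := I.image (x + ·))
      (fun v => Finset.mem_image) h xi
    rw [tw_refl] at this
    exact this
  ext i j
  rw [bbM_apply, bbM_apply, key, key, key]

theorem qd_bbO_rot (r : ℕ) (o : Fin 3) (h : P2 → ℝ) (y : Fin 2 → ℝ) :
    qd (bbO P r o h) y = qd (bbO P r 0 (h ∘ sg (r / 2) o)) (tw (prm o) y) := by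
  obtain ⟨c, hc⟩ := exists_sym (r / 2) o
  rw [qd_bbO, qd_bbO, bk_zero, bbB_sym hc (fun v => mem_bk)]

@[simp] theorem ek00 : ek 0 0 = 1 := rfl
@[simp] theorem ek01 : ek 0 1 = 0 := rfl
@[simp] theorem ek10 : ek 1 0 = 0 := rfl
@[simp] theorem ek11 : ek 1 1 = 1 := rfl
@[simp] theorem ek20 : ek 2 0 = -1 := rfl
@[simp] theorem ek21 : ek 2 1 = -1 := rfl

theorem tw_apply (π : Equiv.Perm (Fin 3)) (y : Fin 2 → ℝ) (j : Fin 2) :
    tw π y j = y 0 * ek (π 0) j + y 1 * ek (π 1) j := by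
  rw [tw, Fin.sum_univ_two]; rfl

theorem ek_sum (j : Fin 2) : ek 0 j + ek 1 j + ek 2 j = 0 := by
  fin_cases j
  · change ek 0 0 + ek 1 0 + ek 2 0 = 0
    simp
  · change ek 0 1 + ek 1 1 + ek 2 1 = 0
    simp

theorem tw_ek (π : Equiv.Perm (Fin 3)) (k : Fin 3) : tw π (ek k) = ek (π k) := by
  have hsum : ∀ j, ek (π 0) j + ek (π 1) j + ek (π 2) j = 0 := by
    intro j
    have h1 := Equiv.sum_comp π fun k => ek k j
    rw [Fin.sum_univ_three, Fin.sum_univ_three] at h1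
    rw [h1, ek_sum]
  funext j
  rw [tw_apply]
  have hs := hsum j
  have hk : k = 0 ∨ k = 1 ∨ k = 2 := by fin_cases k <;> simp
  rcases hk with rfl | rfl | rfl
  · rw [ek00, ek01]; ring
  · rw [ek10, ek11]; ring
  · rw [ek20, ek21]; linarith

theorem trE_bbO_rot (r : ℕ) (o : Fin 3) (h : P2 → ℝ) :
    trE (bbO P r o h) = trE (bbO P r 0 (h ∘ sg (r / 2) o)) := by
  have h1 : ∀ k, qd (bbO P r o h) (ek k) =
      qd (bbO P r 0 (h ∘ sg (r / 2) o)) (ek (prm o k)) := fun k => by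
    rw [qd_bbO_rot, tw_ek]
  have h2 : ∑ k, qd (bbO P r o h) (ek k) = ∑ k, qd (bbO P r 0 (h ∘ sg (r / 2) o)) (ek k) := by
    rw [Finset.sum_congr rfl fun k _ => h1 k]
    exact Equiv.sum_comp (prm o) fun k => qd (bbO P r 0 (h ∘ sg (r / 2) o)) (ek k)
  rw [trE_eq_sum (bbO_symm r o h 0 1), trE_eq_sum (bbO_symm r 0 _ 0 1), h2]

theorem qd_bbL_rot (r : ℕ) (o : Fin 3) (L : ℝ) (h : P2 → ℝ) (y : Fin 2 → ℝ) :
    qd (bbL P r o L h) y = qd (bbL P r 0 L (h ∘ sg (r / 2) o)) (tw (prm o) y) := by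
  rw [qd_bbL, qd_bbL, ← trE_bbO_rot, ← qd_bbO_rot]

theorem sum_tw {B : Matrix (Fin 2) (Fin 2) ℝ} (hB : B 0 1 = B 1 0) (y : Fin 2 → ℝ) :
    ∑ o, qd B (tw (prm o) y) = 2 * trE B * (y 0 ^ 2 - y 0 * y 1 + y 1 ^ 2) := by
  have p00 : prm 0 0 = 0 := rfl
  have p01 : prm 0 1 = 1 := rfl
  have p10 : prm 1 0 = 2 := rfl
  have p11 : prm 1 1 = 0 := rfl
  have p20 : prm 2 0 = 1 := rfl
  have p21 : prm 2 1 = 2 := rfl
  have t : ∀ (o : Fin 3) (a b : ℝ), tw (prm o) y 0 = a → tw (prm o) y 1 = b →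
      tw (prm o) y = ![a, b] := by
    intro o a b h0 h1
    funext j
    have hj : j = 0 ∨ j = 1 := by fin_cases j <;> simp
    rcases hj with rfl | rfl
    · simpa using h0
    · simpa using h1
  have t0 : tw (prm 0) y = ![y 0, y 1] := by
    refine t 0 _ _ ?_ ?_ <;> rw [tw_apply, p00, p01] <;> simp
  have t1 : tw (prm 1) y = ![y 1 - y 0, -y 0] := by
    refine t 1 _ _ ?_ ?_ <;> rw [tw_apply, p10, p11]
    · rw [ek20, ek00]; ring
    · rw [ek21, ek01]; ring
  have t2 : tw (prm 2) y = ![-y 1, y 0 - y 1] := by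
    refine t 2 _ _ ?_ ?_ <;> rw [tw_apply, p20, p21]
    · rw [ek10, ek20]; ring
    · rw [ek11, ek21]; ring
  rw [Fin.sum_univ_three, t0, t1, t2, qd_eq, qd_eq, qd_eq, trE]
  simp only [Matrix.cons_val_zero, Matrix.cons_val_one]
  rw [hB]; ring

/-! ### The law of the plane -/

/-- Invariance of a law on pinned heights under translations and the rotation. -/
structure Inv (μ : Measure (P2 → ℝ)) : Prop where
  prob : IsProbabilityMeasure μ
  trans : ∀ x : P2, μ.map (fun h a => h (x + a) - h x) = μ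
  rot : μ.map (fun h a => h (rot a)) = μ

theorem measurable_tr (x : P2) : Measurable fun (h : P2 → ℝ) (a : P2) => h (x + a) - h x :=
  measurable_pi_lambda _ fun _ => (measurable_pi_apply _).sub (measurable_pi_apply _)

theorem measurable_rt (σ : P2 → P2) : Measurable fun (h : P2 → ℝ) (a : P2) => h (σ a) :=
  measurable_pi_lambda _ fun _ => measurable_pi_apply _

variable {μ : Measure (P2 → ℝ)}

theorem Inv.integral_tr (hμ : Inv μ) {F : (P2 → ℝ) → ℝ} (hF : Measurable F)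
    (hs : ∀ h c, F (fun v => h v + c) = F h) (x : P2) :
    ∫ h, F (fun v => h (x + v)) ∂μ = ∫ h, F h ∂μ := by
  have h1 : ∫ h, F h ∂(μ.map fun h a => h (x + a) - h x) =
      ∫ h, F (fun a => h (x + a) - h x) ∂μ :=
    integral_map (measurable_tr x).aemeasurable hF.aestronglyMeasurable
  rw [hμ.trans x] at h1
  rw [h1]
  refine integral_congr_ae (Eventually.of_forall fun h => ?_)
  have := hs (fun a => h (x + a) - h x) (h x)
  simp only [sub_add_cancel] at this
  exact this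

theorem Inv.integral_rot (hμ : Inv μ) {F : (P2 → ℝ) → ℝ} (hF : Measurable F) :
    ∫ h, F (fun v => h (Bl565.rot v)) ∂μ = ∫ h, F h ∂μ := by
  have h1 : ∫ h, F h ∂(μ.map fun h a => h (Bl565.rot a)) = ∫ h, F (fun a => h (Bl565.rot a)) ∂μ :=
    integral_map (measurable_rt _).aemeasurable hF.aestronglyMeasurable
  rw [hμ.rot] at h1
  exact h1.symm

theorem Inv.integral_sg (hμ : Inv μ) {F : (P2 → ℝ) → ℝ} (hF : Measurable F)
    (hs : ∀ h c, F (fun v => h v + c) = F h) (s : ℕ) (o : Fin 3) :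
    ∫ h, F (h ∘ sg s o) ∂μ = ∫ h, F h ∂μ := by
  have h1 : ∫ h, F (h ∘ sg s o) ∂μ = ∫ h, F (h ∘ rt o) ∂μ := by
    exact hμ.integral_tr (F := fun h => F (h ∘ rt o)) (hF.comp (measurable_rt _))
      (fun h c => hs (h ∘ rt o) c) (off s o)
  rw [h1]
  fin_cases o
  · rfl
  · exact hμ.integral_rot hF
  · have h2 := hμ.integral_rot (F := fun h => F (fun v => h (Bl565.rot v)))
      (hF.comp (measurable_rt _))
    rw [hμ.integral_rot hF] at h2
    exact h2

/-! ### The shared scalar -/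

variable (P μ) in
/-- The mean truncated matrix of the orientation `o`. -/
def Amat (r : ℕ) (L : ℝ) (o : Fin 3) (i j : Fin 2) : ℝ := ∫ h, bbL P r o L h i j ∂μ

variable (P μ) in
/-- **The shared scalar.** -/
def abT (r : ℕ) (L : ℝ) : ℝ :=
  (1 / 6) * ∑ o, ∫ h, (if trE (bbO P r o h) ≤ L then trE (bbO P r o h) else 0) ∂μ

theorem trE_bbL (r : ℕ) (o : Fin 3) (L : ℝ) (h : P2 → ℝ) : trE (bbL P r o L h) =
    if trE (bbO P r o h) ≤ L then trE (bbO P r o h) else 0 := by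
  simp only [bbL]
  split_ifs with hc
  · rfl
  · simp [trE]

theorem integrable_bbL [IsProbabilityMeasure μ] (r : ℕ) (o : Fin 3) {L : ℝ} (hL : 0 ≤ L)
    (i j : Fin 2) : Integrable (fun h => bbL P r o L h i j) μ :=
  Integrable.of_bound (measurable_bbL r o L i j).aestronglyMeasurable (2 * L)
    (Eventually.of_forall fun h => by rw [Real.norm_eq_abs]; exact abs_bbL_le hL h i j)

theorem bbL_of_neg {L : ℝ} (hL : L < 0) (r : ℕ) (o : Fin 3) (h : P2 → ℝ) : bbL P r o L h = 0 := by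
  unfold bbL
  rw [if_neg]
  have := trE_bbO_nonneg (P := P) r o h
  linarith

theorem integrable_bbL' [IsProbabilityMeasure μ] (r : ℕ) (o : Fin 3) (L : ℝ)
    (i j : Fin 2) : Integrable (fun h => bbL P r o L h i j) μ := by
  rcases lt_or_ge L 0 with hL | hL
  · simp only [bbL_of_neg hL]
    exact integrable_const _
  · exact integrable_bbL r o hL i j

theorem integrable_trE [IsProbabilityMeasure μ] (r : ℕ) (o : Fin 3) (L : ℝ) :
    Integrable (fun h => trE (bbL P r o L h)) μ :=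
  ((integrable_bbL' r o L 0 0).add (integrable_bbL' r o L 0 1)).add (integrable_bbL' r o L 1 1)

theorem integral_trE [IsProbabilityMeasure μ] (r : ℕ) (o : Fin 3) (L : ℝ) :
    ∫ h, trE (bbL P r o L h) ∂μ = Amat P μ r L o 0 0 + Amat P μ r L o 0 1 + Amat P μ r L o 1 1 := by
  set f : Fin 2 → Fin 2 → (P2 → ℝ) → ℝ := fun i j h => bbL P r o L h i j with hf
  have hi : ∀ i j, Integrable (f i j) μ := fun i j => integrable_bbL' r o L i j
  change ∫ h, ((f 0 0 h + f 0 1 h) + f 1 1 h) ∂μ =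
    ∫ h, f 0 0 h ∂μ + ∫ h, f 0 1 h ∂μ + ∫ h, f 1 1 h ∂μ
  rw [integral_add (show Integrable (fun h => f 0 0 h + f 0 1 h) μ from (hi 0 0).add (hi 0 1))
    (hi 1 1), integral_add (hi 0 0) (hi 0 1)]

theorem abT_eq [IsProbabilityMeasure μ] (r : ℕ) (L : ℝ) : abT P μ r L =
    (1 / 6) * ∑ o, trE (Matrix.of (Amat P μ r L o)) := by
  unfold abT
  congr 1
  refine Finset.sum_congr rfl fun o _ => ?_
  have := integral_trE (P := P) (μ := μ) r o L
  simp only [trE_bbL] at this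
  rw [this]; rfl

theorem qd_Amat [IsProbabilityMeasure μ] (r : ℕ) (L : ℝ) (o : Fin 3) (y : Fin 2 → ℝ) :
    qd (Matrix.of (Amat P μ r L o)) y = ∫ h, qd (bbL P r o L h) y ∂μ := by
  simp only [qd, Matrix.of_apply, Amat]
  rw [integral_finsetSum]
  · refine Finset.sum_congr rfl fun i _ => ?_
    rw [integral_finsetSum]
    · refine Finset.sum_congr rfl fun j _ => ?_
      rw [integral_mul_const, integral_mul_const]
    · intro j _
      exact ((integrable_bbL' r o L i j).mul_const _).mul_const _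
  · intro i _
    exact integrable_finsetSum _ fun j _ => ((integrable_bbL' r o L i j).mul_const _).mul_const _

theorem integrable_qd [IsProbabilityMeasure μ] (r : ℕ) (L : ℝ) (o : Fin 3) (y : Fin 2 → ℝ) :
    Integrable (fun h => qd (bbL P r o L h) y) μ :=
  integrable_finsetSum _ fun i _ => integrable_finsetSum _ fun j _ =>
    ((integrable_bbL' r o L i j).mul_const _).mul_const _

/-- **Isotropy** of the mean over the three orientations. -/
theorem sum_A_eq (hμ : Inv μ) (r : ℕ) (L : ℝ) (y : Fin 2 → ℝ) :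
    ∑ o, qd (Matrix.of (Amat P μ r L o)) y =
      4 * abT P μ r L * (y 0 ^ 2 - y 0 * y 1 + y 1 ^ 2) := by
  have := hμ.prob
  have h1 : ∀ o, qd (Matrix.of (Amat P μ r L o)) y =
      ∫ h, qd (bbL P r 0 L h) (tw (prm o) y) ∂μ := by
    intro o
    rw [qd_Amat]
    simp only [qd_bbL_rot r o L]
    refine hμ.integral_sg (F := fun h => qd (bbL P r 0 L h) (tw (prm o) y)) ?_ ?_ (r / 2) o
    · unfold qd
      exact Finset.measurable_fun_sum _ fun i _ => Finset.measurable_fun_sum _ fun j _ =>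
        ((measurable_bbL r 0 L i j).mul_const _).mul_const _
    · intro h c; simp only [bbL_shift]
  have h2 : abT P μ r L = (1 / 2) * ∫ h, trE (bbL P r 0 L h) ∂μ := by
    unfold abT
    have h3 : ∀ o, ∫ h, (if trE (bbO P r o h) ≤ L then trE (bbO P r o h) else 0) ∂μ =
        ∫ h, trE (bbL P r 0 L h) ∂μ := by
      intro o
      simp only [trE_bbL]
      have h4 : ∀ h : P2 → ℝ, (if trE (bbO P r o h) ≤ L then trE (bbO P r o h) else 0) =
          (fun g : P2 → ℝ => if trE (bbO P r 0 g) ≤ L then trE (bbO P r 0 g) else 0)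
            (h ∘ sg (r / 2) o) := by
        intro h; simp only [← trE_bbO_rot]
      simp only [h4]
      refine hμ.integral_sg (F := fun g : P2 → ℝ =>
        if trE (bbO P r 0 g) ≤ L then trE (bbO P r 0 g) else 0) ?_ ?_ (r / 2) o
      · exact Measurable.ite (measurable_trE r 0 measurableSet_Iic) (measurable_trE r 0)
          measurable_const
      · intro h c; simp only [bbO_shift]
    simp only [h3, Finset.sum_const, Finset.card_univ, Fintype.card_fin, nsmul_eq_mul]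
    push_cast
    ring
  simp only [h1]
  rw [← integral_finsetSum]
  · simp only [sum_tw (bbL_symm r 0 L _ 0 1)]
    rw [integral_mul_const, integral_const_mul, h2]
    ring
  · intro o _
    exact integrable_qd r L 0 _

end Crest.Agent.R144.Bl565
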