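import Crest.Agent.R144.LoB4_95
import Crest.Agent.R144.Zb2_560

/-!
# R144 (S0197), helper95, lower bound (trace form), file 5: 560's field and the cheap paths

`mc S E ρ ε Λ c0 φs h w` : the largest number of vertices of a simple path from `w` in `S` whose cost
is `< φ w + c0` (for one of the functions `φs i`).  Optimal paths, the gradient of the cut-off and
the event `gq < 1` are all controlled by `mc`.
-/

set_option autoImplicit false
set_option linter.unusedSectionVars false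

open MeasureTheory Set Filter Topology
open scoped ENNReal NNReal

noncomputable section

namespace Crest.Agent.R144.LoB95

open Crest.Agent.R144.Ham560
open Crest.Agent.R144.Tri560
open Crest.Agent.R144.Zb560 (sr iv IsOpt pt cz Zx gx gq lp pt_spec pt_mem' op isOpt_op no_visit
  cz_nonneg mem_lp single_mem_pt)
open Crest.Agent.R144.Fib674 (pd)

variable {U : Type*} [DecidableEq U] {κ : Type*} [Fintype κ]

open Classical in
/-- length of the longest cheap path -/
def mc (S : Finset U) (E : Finset (U × U)) (ρ ε Λ c0 : ℝ) (φs : κ → U → ℝ) (h : U → ℝ) (w : U) : ℕ :=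
  ((pt S E w).filter fun l => ∃ i, cost (φs i) (cz ρ ε Λ h) l < φs i w + c0).sup List.length

section

variable {S S' : Finset U} {E : Finset (U × U)} {ρ ε Λ c0 : ℝ} {φs : κ → U → ℝ} {h : U → ℝ} {w : U}

theorem length_le_mc {l : List U} (hl : l ∈ pt S E w) {i : κ}
    (hc : cost (φs i) (cz ρ ε Λ h) l < φs i w + c0) : l.length ≤ mc S E ρ ε Λ c0 φs h w := by
  classical
  exact Finset.le_sup (f := List.length) (Finset.mem_filter.mpr ⟨hl, i, hc⟩)

theorem opt_le_mc (hc0 : 0 < c0) {l : List U} {i : κ}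
    (hl : IsOpt S E (φs i) (cz ρ ε Λ h) w l) : l.length ≤ mc S E ρ ε Λ c0 φs h w := by
  refine length_le_mc (i := i) hl.1 ?_
  have h1 := Zb560.iv_le (V := S) (E := E) (φ := φs i) (c := cz ρ ε Λ h) w
  rw [hl.2] at h1
  linarith

theorem exists_mc {K : ℕ} (h1 : 0 < K) (hK : K ≤ mc S E ρ ε Λ c0 φs h w) :
    ∃ i, ∃ l ∈ pt S E w, K ≤ l.length ∧ cost (φs i) (cz ρ ε Λ h) l < φs i w + c0 := by
  classical
  obtain ⟨l, hl, h2⟩ := (Finset.le_sup_iff (show (⊥ : ℕ) < K from h1)).mp hK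
  obtain ⟨h3, i, h4⟩ := Finset.mem_filter.mp hl
  exact ⟨i, l, h3, h2, h4⟩

/-- the longest cheap path of a set of sites, when it is long -/
def tl (N : Finset U) (k : ℕ) (m : U → ℕ) : ℝ := ∑ z ∈ N, if k < m z then (m z : ℝ) else 0

omit [DecidableEq U] in
theorem tl_nonneg (N : Finset U) (k : ℕ) (m : U → ℕ) : 0 ≤ tl N k m :=
  Finset.sum_nonneg fun _ _ => by split_ifs <;> positivity

omit [DecidableEq U] in
theorem le_tl {N : Finset U} {k : ℕ} {m : U → ℕ} {z : U} (hz : z ∈ N) (h : k < m z) :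
    (m z : ℝ) ≤ tl N k m := by
  have := Finset.single_le_sum (f := fun z => if k < m z then (m z : ℝ) else 0)
    (fun z _ => by split_ifs <;> positivity) hz
  rwa [if_pos h] at this

variable {F : Finset U} {ξ : U → ℝ} {x : F → ℝ} {N : Finset U} {k : ℕ}

/-- the event `g < 1` -/
theorem tl_of_gx_lt (hc0 : 0 < c0) (hg : gx S E N k ρ ε Λ c0 φs F ξ x < 1) :
    (k : ℝ) + 1 ≤ tl N k (mc S E ρ ε Λ c0 φs (ext F ξ x)) := by
  obtain ⟨i, w, hw, l, hl, hk, hc⟩ := Zb560.exists_of_gq_lt hc0 hg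
  have h1 := length_le_mc (i := i) hl hc
  have h2 : k < mc S E ρ ε Λ c0 φs (ext F ξ x) w := lt_of_lt_of_le hk h1
  have h3 := le_tl hw h2
  have h4 : (k : ℝ) + 1 ≤ mc S E ρ ε Λ c0 φs (ext F ξ x) w := by exact_mod_cast h2
  linarith

theorem tl_ge_one (hc0 : 0 < c0) (hg : gx S E N k ρ ε Λ c0 φs F ξ x < 1) :
    1 ≤ tl N k (mc S E ρ ε Λ c0 φs (ext F ξ x)) := by
  have := tl_of_gx_lt hc0 hg
  have h : (0 : ℝ) ≤ k := Nat.cast_nonneg k
  linarith

/-- the gradient of the cut-off -/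
theorem eg_le (hε : 0 < ε) (hΛ : 0 ≤ Λ) (hc0 : 0 < c0)
    (hd : DifferentiableAt ℝ (gx S E N k ρ ε Λ c0 φs F ξ) x) :
    ∑ v, pd v (gx S E N k ρ ε Λ c0 φs F ξ) x ^ 2 ≤
      (2 * Λ / ε / c0) ^ 2 * tl N k (mc S E ρ ε Λ c0 φs (ext F ξ x)) := by
  rcases Zb560.row_gx_le (N := N) (k := k) (φs := φs) hε hΛ hc0 hd with h | h
  · have : ∑ v, pd v (gx S E N k ρ ε Λ c0 φs F ξ) x ^ 2 = 0 := by
      refine Finset.sum_eq_zero fun v _ => ?_
      have := h v
      rw [show pd v (gx S E N k ρ ε Λ c0 φs F ξ) x =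
        Zb560.pd (gx S E N k ρ ε Λ c0 φs F ξ) x v from rfl, this]
      simp
    rw [this]
    exact mul_nonneg (sq_nonneg _) (tl_nonneg _ _ _)
  · obtain ⟨i, w, hw, l, hl, hk, hc, _, hs⟩ := h
    refine le_trans hs (mul_le_mul_of_nonneg_left ?_ (sq_nonneg _))
    have h1 := length_le_mc (i := i) hl hc
    have h2 : k < mc S E ρ ε Λ c0 φs (ext F ξ x) w := lt_of_lt_of_le hk h1
    have h3 := le_tl hw h2
    have h4 : (l.length : ℝ) ≤ mc S E ρ ε Λ c0 φs (ext F ξ x) w := by exact_mod_cast h1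
    linarith

/-- rows of the derivative of the explicit field -/
theorem row_le (hε : 0 < ε) (hΛ : 0 ≤ Λ) (hc0 : 0 < c0) {i : κ} {w : F}
    (hd : DifferentiableAt ℝ (Zx S E ρ ε Λ (φs i) F ξ w) x) :
    ∑ v, pd v (Zx S E ρ ε Λ (φs i) F ξ w) x ^ 2 ≤
      (2 * Λ / ε) ^ 2 * mc S E ρ ε Λ c0 φs (ext F ξ x) w := by
  have ho := isOpt_op S E (φs i) (cz ρ ε Λ (ext F ξ x)) w
  have h1 := Zb560.row_Z_le hε hΛ hd ho
  have h2 := opt_le_mc (c0 := c0) (φs := φs) hc0 ho
  refine le_trans h1 (mul_le_mul_of_nonneg_left ?_ (sq_nonneg _))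
  exact_mod_cast h2

/-- sum over crossing pairs -/
theorem cross_le {ι : Type*} {I dp : ι → Finset U} (hε : 0 < ε) (hΛ : 0 ≤ Λ) (hc0 : 0 < c0)
    (dd : U → U → ℕ) (h0 : ∀ a, dd a a = 0) (hsy : ∀ a b, dd a b = dd b a)
    (ht : ∀ a b d, dd a d ≤ dd a b + dd b d) (h1 : ∀ a b, b ∈ nbr E a → dd a b ≤ 1)
    (hdeep : ∀ q, ∀ w ∈ dp q, ∀ z, z ∉ I q → k ≤ dd z w) {i : κ} {w : F}
    (hd : DifferentiableAt ℝ (Zx S E ρ ε Λ (φs i) F ξ w) x)
    [∀ w v, Decidable (Crs (fun q => inF F (I q)) (fun q => inF F (dp q)) w v)] :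
    ∑ v, (if Crs (fun q => inF F (I q)) (fun q => inF F (dp q)) w v then
      pd v (Zx S E ρ ε Λ (φs i) F ξ w) x ^ 2 else 0) ≤
      (2 * Λ / ε) ^ 2 * (if k < mc S E ρ ε Λ c0 φs (ext F ξ x) w then
        (mc S E ρ ε Λ c0 φs (ext F ξ x) w : ℝ) else 0) := by
  classical
  have ho := isOpt_op S E (φs i) (cz ρ ε Λ (ext F ξ x)) w
  set l := op S E (φs i) (cz ρ ε Λ (ext F ξ x)) w
  have h2 := opt_le_mc (c0 := c0) (φs := φs) hc0 ho
  obtain ⟨_, h3, h4⟩ := pt_spec ho.1
  by_cases hk : k < l.length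
  · rw [if_pos (lt_of_lt_of_le hk h2)]
    refine le_trans (Finset.sum_le_sum fun v _ => ?_) (row_le (c0 := c0) (φs := φs) hε hΛ hc0 hd)
    split_ifs
    · exact le_rfl
    · exact sq_nonneg _
  · have hz : ∑ v, (if Crs (fun q => inF F (I q)) (fun q => inF F (dp q)) w v then
        pd v (Zx S E ρ ε Λ (φs i) F ξ w) x ^ 2 else 0) = 0 := by
      refine Finset.sum_eq_zero fun v _ => ?_
      split_ifs with hcr
      · have hv : (v : U) ∉ l := by
          intro hv
          have h5 := dd_le' dd h0 ht h1 l w h3 h4 v hv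
          obtain ⟨q, h6⟩ := hcr
          simp only [mem_inF] at h6
          rcases h6 with ⟨h7, h8⟩ | ⟨h7, h8⟩
          · have := hdeep q w h7 v h8
            rw [hsy] at this
            omega
          · have := hdeep q v h7 w h8
            omega
        have := Zb560.pd_Z_eq_zero hd ho hv
        rw [show pd v (Zx S E ρ ε Λ (φs i) F ξ w) x =
          Zb560.pd (Zx S E ρ ε Λ (φs i) F ξ w) x v from rfl, this]
        simp
      · rfl
    rw [hz]
    refine mul_nonneg (sq_nonneg _) ?_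
    split_ifs <;> positivity
where
  dd_le' (dd : U → U → ℕ) (h0 : ∀ a, dd a a = 0) (ht : ∀ a b d, dd a d ≤ dd a b + dd b d)
      (h1 : ∀ a b, b ∈ nbr E a → dd a b ≤ 1) (l : List U) (u : U) (h3 : l.head? = some u)
      (h4 : l.IsChain (fun a b => b ∈ nbr E a)) (w : U) (hw : w ∈ l) : dd u w + 1 ≤ l.length :=
    Zb560.dd_le dd h0 ht (R := fun a b => b ∈ nbr E a) h1 l u h3 h4 w hw

/-- displacement of the field -/
theorem disp_le (hΛ : 0 ≤ Λ) (hc0 : 0 < c0) {i : κ} {L : ℝ}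
    (hL0 : 0 ≤ L) (hφ : ∀ a b, b ∈ nbr E a → |φs i a - φs i b| ≤ L) (w : F) :
    |Zx S E ρ ε Λ (φs i) F ξ w x - φs i w| ≤ L * mc S E ρ ε Λ c0 φs (ext F ξ x) w := by
  have ho := isOpt_op S E (φs i) (cz ρ ε Λ (ext F ξ x)) w
  have h1 := Zb560.iv_sub_abs_le (cz_nonneg hΛ (ext F ξ x)) hφ ho
  have h2 := opt_le_mc (c0 := c0) (φs := φs) hc0 ho
  refine le_trans h1 (mul_le_mul_of_nonneg_left ?_ hL0)
  have h3 := pe_length _ (Zb560.pt_ne_nil ho.1)
  have h4 : (pe (op S E (φs i) (cz ρ ε Λ (ext F ξ x)) ↑w)).length ≤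
      mc S E ρ ε Λ c0 φs (ext F ξ x) w := by omega
  exact_mod_cast h4

theorem measurable_cost (φ : U → ℝ) : ∀ l : List U,
    Measurable fun h : U → ℝ => cost φ (cz ρ ε Λ h) l
  | [] => measurable_const
  | [a] => measurable_const
  | a :: b :: t => by
    simp only [cost_cons]
    refine Measurable.add ?_ (measurable_cost φ (b :: t))
    unfold cz sr
    fun_prop

theorem measurable_sup_nat {α β : Type*} [MeasurableSpace α] (s : Finset β) (f : β → α → ℕ)
    (hf : ∀ b ∈ s, Measurable (f b)) : Measurable fun a => s.sup fun b => f b a := by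
  classical
  induction s using Finset.induction_on with
  | empty => simp
  | insert b s hb ih =>
    simp only [Finset.sup_insert]
    exact (hf b (Finset.mem_insert_self b s)).sup
      (ih fun c hc => hf c (Finset.mem_insert_of_mem hc))

theorem measurable_mc (S : Finset U) (E : Finset (U × U)) (w : U) :
    Measurable fun h : U → ℝ => mc S E ρ ε Λ c0 φs h w := by
  classical
  have e : (fun h : U → ℝ => mc S E ρ ε Λ c0 φs h w) = fun h =>
      (pt S E w).sup fun l => if ∃ i, cost (φs i) (cz ρ ε Λ h) l < φs i w + c0 then l.length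
        else 0 := by
    funext h
    unfold mc
    apply le_antisymm
    · refine Finset.sup_le fun l hl => ?_
      obtain ⟨h1, h2⟩ := Finset.mem_filter.mp hl
      refine le_trans ?_ (Finset.le_sup h1)
      rw [if_pos h2]
    · refine Finset.sup_le fun l hl => ?_
      split_ifs with h2
      · exact Finset.le_sup (f := List.length) (Finset.mem_filter.mpr ⟨hl, h2⟩)
      · exact Nat.zero_le _
  rw [e]
  refine measurable_sup_nat _ _ fun l _ => ?_
  refine Measurable.ite ?_ measurable_const measurable_const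
  have : {h : U → ℝ | ∃ i, cost (φs i) (cz ρ ε Λ h) l < φs i w + c0} =
      ⋃ i, {h : U → ℝ | cost (φs i) (cz ρ ε Λ h) l < φs i w + c0} := by
    ext h; simp
  rw [this]
  exact MeasurableSet.iUnion fun i => measurableSet_lt (measurable_cost _ l) measurable_const

end

end Crest.Agent.R144.LoB95
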