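import Crest.Agent.R144.Lc1_279

/-!
R144 (S0197), helper279.  Block LC, file 2: tensorisation of the window inequality.

* `vr F E ξ` : volume of the polytope as a real number; `Dl` : the deficit
  `log vr (mid ξ η) - (log vr ξ + log vr η) / 2`;
* `Ev F E ξ f` : expectation of `f` under the uniform law;
* `Win Q E f B ε C` : the window inequality
  `Ev Q E z f - Ev Q E z' f ≤ ε + C * Dl Q E z z' + 2 1_B z + 2 1_B z'`;
* `Sys.two_exp` : `E^b e^{-tX-2tN} * E^{b'} e^{tX-2tN} ≤ exp (n (tε + 2t²) + 2 Dl b b')`,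
  `X = ∑ a_i f_i`, `N` = number of bad windows;
* `Sys.mean_le`, `Sys.tail_le` : comparison of the means and concentration.
-/

set_option autoImplicit false
set_option linter.unusedSectionVars false
set_option linter.unusedVariables false

open MeasureTheory Set
open scoped ENNReal

noncomputable section

namespace Crest.Agent.R144.Lc279

open Crest.Agent.R144.Ham560

variable {U : Type*} [DecidableEq U] {F : Finset U} {E : Finset (U × U)} {ξ η : U → ℝ}

/-- Volume of the polytope as a real number. -/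
def vr (F : Finset U) (E : Finset (U × U)) (ξ : U → ℝ) : ℝ := (volume (ham F E ξ)).toReal

/-- The deficit. -/
def Dl (F : Finset U) (E : Finset (U × U)) (ξ η : U → ℝ) : ℝ :=
  Real.log (vr F E (mid ξ η)) - (Real.log (vr F E ξ) + Real.log (vr F E η)) / 2

/-- Expectation. -/
def Ev (F : Finset U) (E : Finset (U × U)) (ξ : U → ℝ) (f : (U → ℝ) → ℝ) : ℝ :=
  ∫ x, f (ext F ξ x) ∂(hamP F E ξ)

theorem Ev_eq (f : (U → ℝ) → ℝ) :
    Ev F E ξ f = (∫ x in ham F E ξ, f (ext F ξ x)) / vr F E ξ := integral_hamP_real _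

theorem vr_nonneg : 0 ≤ vr F E ξ := ENNReal.toReal_nonneg

theorem ofReal_vr (hA : Anch F E) : ENNReal.ofReal (vr F E ξ) = volume (ham F E ξ) :=
  ENNReal.ofReal_toReal (volume_ham_lt_top hA).ne

theorem vol_mul_le_mid : volume (ham F E ξ) * volume (ham F E η) ≤
    volume (ham F E (mid ξ η)) ^ 2 := by
  refine vol_mul_le_sq measurableSet_ham measurableSet_ham measurableSet_ham ?_
  intro x hx y hy
  exact ham_comb (by norm_num) (by norm_num) (by norm_num) hx hy

theorem vr_mul_le (hA : Anch F E) : vr F E ξ * vr F E η ≤ vr F E (mid ξ η) ^ 2 := by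
  have h := ENNReal.toReal_mono (by
    exact ENNReal.pow_ne_top (volume_ham_lt_top hA).ne) (vol_mul_le_mid (F := F) (E := E)
      (ξ := ξ) (η := η))
  rw [ENNReal.toReal_mul, ENNReal.toReal_pow] at h
  exact h

theorem vr_mid_pos (hA : Anch F E) (h1 : 0 < vr F E ξ) (h2 : 0 < vr F E η) :
    0 < vr F E (mid ξ η) := by
  have h := vr_mul_le (ξ := ξ) (η := η) hA
  have h3 : 0 < vr F E ξ * vr F E η := mul_pos h1 h2
  rcases vr_nonneg.eq_or_lt (a := (0 : ℝ)) (b := vr F E (mid ξ η)) with h4 | h4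
  · rw [← h4] at h; norm_num at h; linarith
  · exact h4

theorem Dl_nonneg (hA : Anch F E) (h1 : 0 < vr F E ξ) (h2 : 0 < vr F E η) : 0 ≤ Dl F E ξ η := by
  have h := Real.log_le_log (mul_pos h1 h2) (vr_mul_le hA)
  rw [Real.log_mul h1.ne' h2.ne', Real.log_pow] at h
  unfold Dl
  push_cast at h
  linarith

theorem exp_two_Dl (hA : Anch F E) (h1 : 0 < vr F E ξ) (h2 : 0 < vr F E η) :
    vr F E ξ * vr F E η * Real.exp (2 * Dl F E ξ η) = vr F E (mid ξ η) ^ 2 := by
  have h3 := vr_mid_pos hA h1 h2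
  have e : 2 * Dl F E ξ η = 2 * Real.log (vr F E (mid ξ η)) - Real.log (vr F E ξ) -
      Real.log (vr F E η) := by unfold Dl; ring
  rw [e, Real.exp_sub, Real.exp_sub, Real.exp_log h1, Real.exp_log h2, two_mul, Real.exp_add,
    Real.exp_log h3]
  field_simp

/-- The window inequality. -/
structure Win (Q : Finset U) (E : Finset (U × U)) (f : (U → ℝ) → ℝ) (B : Set (U → ℝ))
    (ε C : ℝ) : Prop where
  anch : Anch Q E
  meas : Measurable f
  bdd : ∀ z, |f z| ≤ 1
  mB : MeasurableSet B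
  dB : DependsOn (fun z => z ∈ B) (Q : Set U)ᶜ
  ineq : ∀ z z', 0 < vr Q E z → 0 < vr Q E z' →
    |Ev Q E z f - Ev Q E z' f| ≤ ε + C * Dl Q E z z' + 2 * B.indicator 1 z + 2 * B.indicator 1 z'

theorem ind_ext {Q : Finset U} {B : Set (U → ℝ)} (dB : DependsOn (fun z => z ∈ B) (Q : Set U)ᶜ)
    (z : U → ℝ) (x : Q → ℝ) :
    B.indicator (1 : (U → ℝ) → ℝ) (ext Q z x) = B.indicator 1 z := by
  have h : (ext Q z x ∈ B) = (z ∈ B) := dB fun u hu => ext_notMem (fun h => hu h) x
  by_cases hz : z ∈ B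
  · rw [indicator_of_mem hz, indicator_of_mem (h ▸ hz : ext Q z x ∈ B)]; rfl
  · rw [indicator_of_notMem hz, indicator_of_notMem (fun h' => hz (h ▸ h'))]

theorem integrableOn_ham (hA : Anch F E) {g : (U → ℝ) → ℝ} (hg : Measurable g) {M : ℝ}
    (hM : ∀ z, |g z| ≤ M) : IntegrableOn (fun x : F → ℝ => g (ext F ξ x)) (ham F E ξ) := by
  refine Measure.integrableOn_of_bounded (M := M) (volume_ham_lt_top hA).ne
    (hg.comp (measurable_ext F ξ)).aestronglyMeasurable ?_
  exact Filter.Eventually.of_forall fun x => by rw [Real.norm_eq_abs]; exact hM _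

/-- One block. -/
theorem block_one {Q : Finset U} {f : (U → ℝ) → ℝ} (hA : Anch Q E) (hf : Measurable f)
    (hb : ∀ z, |f z| ≤ 1) {B : Set (U → ℝ)} (dB : DependsOn (fun z => z ∈ B) (Q : Set U)ᶜ)
    {a t : ℝ} (ha : |a| ≤ 1) (ht0 : 0 ≤ t) (ht1 : t ≤ 1) (z : U → ℝ) :
    J Q (fun z => hI E z * ENNReal.ofReal (Real.exp (t * a * f z - 2 * t * B.indicator 1 z))) z ≤
      volume (ham Q E z) *
        ENNReal.ofReal (Real.exp (t * a * Ev Q E z f + t ^ 2 - 2 * t * B.indicator 1 z)) := by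
  rw [J_hI_mul]
  have hfin := volume_ham_lt_top (ξ := z) hA
  rcases eq_or_ne (volume (ham Q E z)) 0 with h0 | h0
  · rw [h0, zero_mul]
    have : (volume : Measure (Q → ℝ)).restrict (ham Q E z) = 0 := by
      rw [Measure.restrict_eq_zero]; exact h0
    rw [this, lintegral_zero_measure]
  have hvr : 0 < vr Q E z := ENNReal.toReal_pos h0 hfin.ne
  have hta : |t * a| ≤ t := by
    rw [abs_mul, abs_of_nonneg ht0]; nlinarith [abs_nonneg a]
  set b : ℝ := B.indicator (1 : (U → ℝ) → ℝ) z with hbdef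
  have i1 : IntegrableOn (fun x : Q → ℝ => f (ext Q z x)) (ham Q E z) :=
    integrableOn_ham hA hf hb
  have i2 : IntegrableOn (fun x : Q → ℝ => 1 + t * a * f (ext Q z x) + t ^ 2) (ham Q E z) := by
    refine Integrable.add (Integrable.add ?_ (i1.const_mul _)) ?_
    · exact integrableOn_const hfin.ne
    · exact integrableOn_const hfin.ne
  have i3 : IntegrableOn (fun x : Q → ℝ => Real.exp (t * a * f (ext Q z x))) (ham Q E z) := by
    refine integrableOn_ham (g := fun z => Real.exp (t * a * f z)) hA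
      (Real.measurable_exp.comp (hf.const_mul _)) (M := Real.exp 1) fun w => ?_
    rw [abs_of_pos (Real.exp_pos _)]
    refine Real.exp_le_exp.mpr ?_
    have h1 : |t * a * f w| ≤ 1 := by
      rw [abs_mul]; nlinarith [hb w, abs_nonneg (f w), abs_nonneg (t * a)]
    exact (le_abs_self _).trans h1
  have e1 : ∫⁻ x in ham Q E z, ENNReal.ofReal
      (Real.exp (t * a * f (ext Q z x) - 2 * t * B.indicator 1 (ext Q z x))) =
      ENNReal.ofReal (Real.exp (-(2 * t * b)) *
        ∫ x in ham Q E z, Real.exp (t * a * f (ext Q z x))) := by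
    rw [← integral_const_mul, ofReal_integral_eq_lintegral_ofReal (i3.const_mul _)
      (Filter.Eventually.of_forall fun x => by positivity)]
    refine lintegral_congr fun x => ?_
    rw [ind_ext dB, ← Real.exp_add]
    congr 2
    ring
  rw [e1]
  have e2 : ∫ x in ham Q E z, Real.exp (t * a * f (ext Q z x)) ≤
      ∫ x in ham Q E z, (1 + t * a * f (ext Q z x) + t ^ 2) := by
    refine setIntegral_mono i3 i2 fun x => ?_
    have h1 : |t * a * f (ext Q z x)| ≤ t := by
      rw [abs_mul]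
      nlinarith [hb (ext Q z x), abs_nonneg (f (ext Q z x)), abs_nonneg (t * a)]
    have h2 := Real.abs_exp_sub_one_sub_id_le (h1.trans ht1)
    have h3 := abs_le.mp h2
    have h4 : (t * a * f (ext Q z x)) ^ 2 ≤ t ^ 2 := by
      rw [← sq_abs (t * a * f (ext Q z x))]
      exact pow_le_pow_left₀ (abs_nonneg _) h1 2
    show Real.exp (t * a * f (ext Q z x)) ≤ 1 + t * a * f (ext Q z x) + t ^ 2
    linarith [h3.2]
  have e3 : ∫ x in ham Q E z, (1 + t * a * f (ext Q z x) + t ^ 2) =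
      vr Q E z * (1 + t * a * Ev Q E z f + t ^ 2) := by
    have hc : ∀ c : ℝ, ∫ x in ham Q E z, c = vr Q E z * c := by
      intro c
      rw [setIntegral_const, smul_eq_mul]; rfl
    have e5 : ∫ x in ham Q E z, (1 + t * a * f (ext Q z x) + t ^ 2) =
        ∫ x in ham Q E z, ((1 + t ^ 2) + t * a * f (ext Q z x)) :=
      integral_congr_ae (Filter.Eventually.of_forall fun x => by ring)
    have e6 : ∫ x in ham Q E z, ((1 + t ^ 2) + t * a * f (ext Q z x)) =
        (∫ x in ham Q E z, (1 + t ^ 2)) + ∫ x in ham Q E z, t * a * f (ext Q z x) :=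
      integral_add (integrableOn_const hfin.ne) (i1.const_mul _)
    rw [e5, e6, hc, integral_const_mul, Ev_eq]
    field_simp
    ring
  have e4 : 1 + t * a * Ev Q E z f + t ^ 2 ≤ Real.exp (t * a * Ev Q E z f + t ^ 2) := by
    have := Real.add_one_le_exp (t * a * Ev Q E z f + t ^ 2)
    linarith
  rw [← ofReal_vr hA, ← ENNReal.ofReal_mul vr_nonneg]
  refine ENNReal.ofReal_le_ofReal ?_
  rw [e3] at e2
  calc Real.exp (-(2 * t * b)) * ∫ x in ham Q E z, Real.exp (t * a * f (ext Q z x))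
      ≤ Real.exp (-(2 * t * b)) * (vr Q E z * Real.exp (t * a * Ev Q E z f + t ^ 2)) := by
        refine mul_le_mul_of_nonneg_left (e2.trans ?_) (Real.exp_pos _).le
        exact mul_le_mul_of_nonneg_left e4 vr_nonneg
    _ = _ := by
        have : Real.exp (t * a * Ev Q E z f + t ^ 2 - 2 * t * b) =
            Real.exp (-(2 * t * b)) * Real.exp (t * a * Ev Q E z f + t ^ 2) := by
          rw [← Real.exp_add]; congr 1; ring
        rw [this]; ring

/-- Two blocks. -/
theorem Win.two {Q : Finset U} {f : (U → ℝ) → ℝ} {B : Set (U → ℝ)} {ε C : ℝ}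
    (W : Win Q E f B ε C) {a t : ℝ} (ha : |a| ≤ 1) (ht0 : 0 ≤ t) (ht1 : t ≤ 1)
    (htC : t * C ≤ 2) (hε : 0 ≤ ε) (z z' : U → ℝ) :
    J Q (fun z => hI E z * ENNReal.ofReal (Real.exp (t * a * f z - 2 * t * B.indicator 1 z))) z *
      J Q (fun z => hI E z *
        ENNReal.ofReal (Real.exp (t * (-a) * f z - 2 * t * B.indicator 1 z))) z' ≤
      ENNReal.ofReal (Real.exp (t * ε + 2 * t ^ 2)) * volume (ham Q E (mid z z')) ^ 2 := by
  have h1 := block_one W.anch W.meas W.bdd W.dB ha ht0 ht1 z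
  have h2 := block_one W.anch W.meas W.bdd W.dB (a := -a) (by rwa [abs_neg]) ht0 ht1 z'
  refine (mul_le_mul' h1 h2).trans ?_
  rcases eq_or_ne (volume (ham Q E z)) 0 with h0 | h0
  · rw [h0]; simp
  rcases eq_or_ne (volume (ham Q E z')) 0 with h0' | h0'
  · rw [h0']; simp
  have hv : 0 < vr Q E z := ENNReal.toReal_pos h0 (volume_ham_lt_top W.anch).ne
  have hv' : 0 < vr Q E z' := ENNReal.toReal_pos h0' (volume_ham_lt_top W.anch).ne
  rw [← ofReal_vr W.anch, ← ofReal_vr W.anch, ← ofReal_vr W.anch, ← ENNReal.ofReal_pow vr_nonneg,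
    ← ENNReal.ofReal_mul vr_nonneg, ← ENNReal.ofReal_mul vr_nonneg,
    ← ENNReal.ofReal_mul (by positivity [vr_nonneg (F := Q) (E := E) (ξ := z)]),
    ← ENNReal.ofReal_mul (Real.exp_pos _).le, ← exp_two_Dl W.anch hv hv']
  refine ENNReal.ofReal_le_ofReal ?_
  have hD := Dl_nonneg W.anch hv hv'
  have hi := W.ineq z z' hv hv'
  set D := Dl Q E z z'
  set G := Ev Q E z f
  set G' := Ev Q E z' f
  set β := B.indicator (1 : (U → ℝ) → ℝ) z
  set β' := B.indicator (1 : (U → ℝ) → ℝ) z'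
  have h3 : a * (G - G') ≤ |G - G'| := by
    have h4 : |a * (G - G')| ≤ |G - G'| := by
      rw [abs_mul]; nlinarith [abs_nonneg (G - G')]
    exact (le_abs_self _).trans h4
  have hexp : (t * a * G + t ^ 2 - 2 * t * β) + (t * (-a) * G' + t ^ 2 - 2 * t * β') ≤
      2 * D + (t * ε + 2 * t ^ 2) := by
    have h5 : t * (a * (G - G')) ≤ t * (ε + C * D + 2 * β + 2 * β') :=
      mul_le_mul_of_nonneg_left (h3.trans hi) ht0
    have h6 : t * C * D ≤ 2 * D := mul_le_mul_of_nonneg_right htC hD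
    nlinarith
  calc vr Q E z * Real.exp (t * a * G + t ^ 2 - 2 * t * β) *
        (vr Q E z' * Real.exp (t * (-a) * G' + t ^ 2 - 2 * t * β'))
      = vr Q E z * vr Q E z' *
        Real.exp ((t * a * G + t ^ 2 - 2 * t * β) + (t * (-a) * G' + t ^ 2 - 2 * t * β')) := by
        rw [Real.exp_add]; ring
    _ ≤ vr Q E z * vr Q E z' * Real.exp (2 * D + (t * ε + 2 * t ^ 2)) := by
        refine mul_le_mul_of_nonneg_left (Real.exp_le_exp.mpr hexp) ?_
        positivity
    _ = _ := by rw [Real.exp_add]; ring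

end Crest.Agent.R144.Lc279
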