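import Crest.Agent.R144.Lw6_425
import Crest.Agent.R144.Lc2_279
import Crest.Prelude.Def_HexHeights

/-!
R144 (S0197), helper425.  Lw7: the window input in the literal form of helper279 (block LC).

For a bounded measurable shift invariant local observable `f` on `ℤ × ℤ`, all `ε > 0`, `q > 0` there are
`R`, `C ≥ 0`, a bad set `B` (an event for the heights on `sph R`) and a finite set `FF` of fresh lists such
that `Win (inn R) (lat (inn R)) f B ε C` and `B` is covered by the tight events of `FF`, whose weights sum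
up to at most `q`.
-/

set_option autoImplicit false

open MeasureTheory Set Filter Topology
open scoped ENNReal

noncomputable section

namespace Crest.Agent.R144.Lw425

open Crest.Agent.R144.Ham560

/-- Adjacency is distance one. -/
theorem adj_iff_hd (a b : ℤ × ℤ) : Crest.ProbabilityR.HexHeights.Adj a b ↔ hd a b = 1 := by
  unfold Crest.ProbabilityR.HexHeights.Adj
  constructor
  · intro h
    refine hd_adj (b.1 - a.1) (b.2 - a.2) (by ring) (by ring) ?_
    omega
  · intro h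
    have h1 := hd_le_iff.mp (le_of_eq h)
    have h2 : a ≠ b := by rintro rfl; rw [hd_self] at h; omega
    have h3 : ¬ (a.1 = b.1 ∧ a.2 = b.2) := fun hh => h2 (Prod.ext hh.1 hh.2)
    omega

/-- All ordered lattice edges touching `W`. -/
def lat (W : Finset (ℤ × ℤ)) : Finset ((ℤ × ℤ) × (ℤ × ℤ)) :=
  ((W.biUnion fun a => (hball 1).image fun e => (a, a + e)) ∪
    (W.biUnion fun a => (hball 1).image fun e => (a + e, a))).filter fun p => hd p.1 p.2 = 1

theorem hd_add_left (a e : ℤ × ℤ) : hd (a + e) a = hd e 0 := by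
  unfold hd; simp

theorem mem_lat {W : Finset (ℤ × ℤ)} {p : (ℤ × ℤ) × (ℤ × ℤ)} :
    p ∈ lat W ↔ hd p.1 p.2 = 1 ∧ (p.1 ∈ W ∨ p.2 ∈ W) := by
  unfold lat
  rw [Finset.mem_filter, Finset.mem_union, Finset.mem_biUnion, Finset.mem_biUnion]
  constructor
  · rintro ⟨h, h1⟩
    refine ⟨h1, ?_⟩
    rcases h with ⟨a, ha, h⟩ | ⟨a, ha, h⟩
    · obtain ⟨e, _, rfl⟩ := Finset.mem_image.mp h
      exact Or.inl ha
    · obtain ⟨e, _, rfl⟩ := Finset.mem_image.mp h
      exact Or.inr ha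
  · rintro ⟨h1, h⟩
    refine ⟨?_, h1⟩
    rcases h with h | h
    · refine Or.inl ⟨p.1, h, Finset.mem_image.mpr ⟨p.2 - p.1, ?_, ?_⟩⟩
      · rw [mem_hball, ← hd_add_left p.1, add_sub_cancel, hd_comm, h1]; simp
      · rw [add_sub_cancel]
    · refine Or.inr ⟨p.2, h, Finset.mem_image.mpr ⟨p.1 - p.2, ?_, ?_⟩⟩
      · rw [mem_hball, ← hd_add_left p.2, add_sub_cancel, h1]; simp
      · rw [add_sub_cancel]

theorem lat_inn (R : ℕ) : lat (inn R) = wE R := by
  ext p
  rw [mem_lat, mem_wE, mem_inn, mem_inn]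
  constructor
  · rintro ⟨h1, h2⟩
    have h3 := hd_triangle p.1 p.2 0
    have h4 := hd_triangle p.2 p.1 0
    rw [hd_comm p.2 p.1] at h4
    omega
  · rintro ⟨_, h1, h2⟩
    exact ⟨h1, h2⟩

theorem nbr_lat {W : Finset (ℤ × ℤ)} {a b : ℤ × ℤ} (h : hd a b = 1) (hW : a ∈ W ∨ b ∈ W) :
    b ∈ nbr (lat W) a := by
  rw [mem_nbr]
  refine ⟨?_, Or.inl (mem_lat.mpr ⟨h, hW⟩)⟩
  rintro rfl
  rw [hd_self] at h
  omega

/-- The identity placement of the window in its closed ball. -/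
theorem win_id (R : ℕ) : Win (hball R) (lat (hball R)) R (fun a => a) where
  inj := fun a _ b _ h => h
  free := fun a ha => ha
  edge := fun a ha b _ h => nbr_lat h (Or.inl ha)
  only := by
    intro p hp a ha
    rw [mem_lat] at hp
    have ha' := mem_inn.mp ha
    constructor
    · intro h
      refine ⟨p.2, ?_, by rw [← h]; exact hp.1, rfl⟩
      have h4 := hd_triangle p.2 p.1 0
      rw [hd_comm p.2 p.1, hp.1, h] at h4
      rw [mem_hball]; omega
    · intro h
      refine ⟨p.1, ?_, by rw [← h, hd_comm]; exact hp.1, rfl⟩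
      have h4 := hd_triangle p.1 p.2 0
      rw [hp.1, h] at h4
      rw [mem_hball]; omega

/-! ### Weights -/

theorem card_hball_le (R : ℕ) : (hball R).card ≤ (2 * R + 1) ^ 2 := by
  refine (Finset.card_filter_le _ _).trans ?_
  rw [Finset.card_product, Int.card_Icc, sq]
  have : ((R : ℤ) + 1 - -(R : ℤ)).toNat = 2 * R + 1 := by omega
  rw [this]

theorem sq_le_pow (R : ℕ) : (2 * R + 1) ^ 2 ≤ 9 * 2 ^ R := by
  induction R with
  | zero => norm_num
  | succ n ih =>
    rcases Nat.lt_or_ge n 2 with h | h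
    · interval_cases n <;> norm_num
    · rw [pow_succ 2 n]
      nlinarith

variable {U : Type*} [DecidableEq U]

omit [DecidableEq U] in
theorem wgt_map_const (n : ℕ) (φ : ℤ × ℤ → U) (w : ℝ) (L : List ((ℤ × ℤ) × (ℤ × ℤ))) :
    wgt n (L.map fun p => ((φ p.1, φ p.2), w)) =
      ENNReal.ofReal (64 * (n : ℝ) ^ 2 * w) ^ L.length := by
  induction L with
  | nil => simp [wgt]
  | cons p L ih =>
    rw [List.map_cons, wgt_cons, ih, List.length_cons]
    exact (pow_succ' _ _).symm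

theorem sum_fam1_le (R : ℕ) (φ : ℤ × ℤ → U) (δ : ℝ) :
    ∑ S ∈ fam1 R φ δ, wgt 6 S ≤ ((2 * R + 1) ^ 4 : ℕ) * ENNReal.ofReal (2304 * δ) := by
  classical
  have hcard : (fam1 R φ δ).card ≤ (2 * R + 1) ^ 4 := by
    unfold fam1
    refine Finset.card_image_le.trans ((Finset.card_filter_le _ _).trans ?_)
    rw [Finset.card_product]
    have := card_hball_le R
    calc (hball R).card * (hball R).card ≤ (2 * R + 1) ^ 2 * (2 * R + 1) ^ 2 :=
          Nat.mul_le_mul this this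
      _ = (2 * R + 1) ^ 4 := by ring
  have h1 : ∀ S ∈ fam1 R φ δ, wgt 6 S ≤ ENNReal.ofReal (2304 * δ) := by
    intro S hS
    obtain ⟨a, _, b, _, _, rfl⟩ := Win.mem_fam1.mp hS
    rw [wgt_cons, wgt_nil, mul_one]
    norm_num
  refine (Finset.sum_le_card_nsmul _ _ _ h1).trans ?_
  rw [nsmul_eq_mul]
  gcongr

theorem sum_fam2_le {R : ℕ} (φ : ℤ × ℤ → U) {w : ℝ} (hw : 2304 * w ≤ 1 / 64) :
    ∑ S ∈ fam2 R φ w, wgt 6 S ≤ 9 * (1 / 2 : ℝ≥0∞) ^ R := by
  classical
  have h1 : ∀ S ∈ fam2 R φ w, wgt 6 S ≤ (1 / 8 : ℝ≥0∞) ^ R := by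
    intro S hS
    obtain ⟨y, _, L, _, hlen, rfl⟩ := Win.mem_fam2.mp hS
    rw [wgt_map_const]
    have h2 : ENNReal.ofReal (64 * ((6 : ℕ) : ℝ) ^ 2 * w) ≤ (1 / 8 : ℝ≥0∞) ^ 2 := by
      have e : ((1 / 8 : ℝ≥0∞)) ^ 2 = ENNReal.ofReal (1 / 64) := by
        have : (1 / 8 : ℝ≥0∞) = ENNReal.ofReal (1 / 8) := by
          rw [ENNReal.ofReal_div_of_pos (by norm_num)]; simp
        rw [this, ← ENNReal.ofReal_pow (by norm_num)]
        norm_num
      rw [e]
      refine ENNReal.ofReal_le_ofReal ?_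
      have : (64 * ((6 : ℕ) : ℝ) ^ 2 * w) = 2304 * w := by push_cast; ring
      rw [this]; exact hw
    calc ENNReal.ofReal (64 * ((6 : ℕ) : ℝ) ^ 2 * w) ^ L.length
        ≤ ((1 / 8 : ℝ≥0∞) ^ 2) ^ L.length := by gcongr
      _ = (1 / 8 : ℝ≥0∞) ^ (2 * L.length) := by rw [pow_mul]
      _ ≤ (1 / 8 : ℝ≥0∞) ^ R := by
          refine pow_le_pow_of_le_one bot_le ?_ hlen
          rw [ENNReal.div_le_iff (by norm_num) (by norm_num)]
          norm_num
  have hcard : (fam2 R φ w).card ≤ (2 * R + 1) ^ 2 * 2 ^ R := by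
    unfold fam2
    refine Finset.card_biUnion_le.trans ?_
    have h3 : ∀ y ∈ sph R, ((((geo R y).sublists.filter fun L => decide (R ≤ 2 * L.length)).map
        fun L => L.map fun p => ((φ p.1, φ p.2), w)).toFinset).card ≤ 2 ^ R := by
      intro y _
      refine (List.toFinset_card_le _).trans ?_
      rw [List.length_map]
      refine (List.length_filter_le _ _).trans ?_
      rw [List.length_sublists, geo_length]
    refine (Finset.sum_le_card_nsmul _ _ _ h3).trans ?_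
    rw [smul_eq_mul]
    exact Nat.mul_le_mul_right _ ((Finset.card_le_card sph_subset).trans (card_hball_le R))
  refine (Finset.sum_le_card_nsmul _ _ _ h1).trans ?_
  rw [nsmul_eq_mul]
  have h4 : (((fam2 R φ w).card : ℕ) : ℝ≥0∞) ≤ 9 * 2 ^ R * 2 ^ R := by
    have : (fam2 R φ w).card ≤ 9 * 2 ^ R * 2 ^ R :=
      hcard.trans (Nat.mul_le_mul_right _ (sq_le_pow R))
    exact_mod_cast this
  calc ((fam2 R φ w).card : ℝ≥0∞) * (1 / 8) ^ R ≤ 9 * 2 ^ R * 2 ^ R * (1 / 8) ^ R := by gcongr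
    _ = 9 * (2 * 2 * (1 / 8)) ^ R := by rw [mul_pow, mul_pow]; ring
    _ = 9 * (1 / 2 : ℝ≥0∞) ^ R := by
        congr 2
        have h8 : (1 / 8 : ℝ≥0∞) = ENNReal.ofReal (1 / 8) := by
          rw [ENNReal.ofReal_div_of_pos (by norm_num)]; simp
        have h2 : (1 / 2 : ℝ≥0∞) = ENNReal.ofReal (1 / 2) := by
          rw [ENNReal.ofReal_div_of_pos (by norm_num)]; simp
        have h22 : (2 : ℝ≥0∞) = ENNReal.ofReal 2 := by simp
        rw [h8, h2, h22, ← ENNReal.ofReal_mul (by norm_num), ← ENNReal.ofReal_mul (by norm_num)]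
        norm_num

/-! ### The literal form of helper279 -/

/-- The bad event. -/
def badS (R r : ℕ) (δ : ℝ) : Set (ℤ × ℤ → ℝ) := {h | (fun y : sph R => h y) ∉ good R r δ}

theorem measurableSet_badS (R r : ℕ) (δ : ℝ) : MeasurableSet (badS R r δ) := by
  have : badS R r δ = ((fun (h : ℤ × ℤ → ℝ) (y : sph R) => h y) ⁻¹' good R r δ)ᶜ := rfl
  rw [this]
  refine MeasurableSet.compl ?_
  exact (isClosed_good R r δ).measurableSet.preimage
    (measurable_pi_lambda _ fun y => measurable_pi_apply _)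

theorem dependsOn_badS (R r : ℕ) (δ : ℝ) :
    DependsOn (fun h => h ∈ badS R r δ) (sph R : Set (ℤ × ℤ)) := by
  intro h h' hh
  have : (fun y : sph R => h y) = fun y : sph R => h' y := by
    funext y; exact hh y y.2
  simp only [badS, mem_ofPred_eq, this]

theorem Ev_std {r R : ℕ} (hr : r < R) {f : (ℤ × ℤ → ℝ) → ℝ} (hf : LObs r f) (z : ℤ × ℤ → ℝ) :
    Lc279.Ev (inn R) (lat (inn R)) z f =
      mean (inn R) (wE R) (wobs R f) (dat (sph R) fun y => z y) := by
  rw [lat_inn, Lc279.Ev, mean]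
  have e1 : hamP (inn R) (wE R) (dat (sph R) fun y => z y) = hamP (inn R) (wE R) z := by
    unfold hamP
    rw [ham_dat (bd_window R) z]
  rw [e1]
  refine integral_congr_ae (Eventually.of_forall fun x => ?_)
  refine hf.loc _ _ fun a ha => ?_
  have h2 : a ∈ inn R := by rw [mem_inn]; rw [mem_hball] at ha; omega
  rw [ext_mem h2, ext_mem h2]

theorem vr_std (R : ℕ) (z : ℤ × ℤ → ℝ) :
    Lc279.vr (inn R) (lat (inn R)) z = Vr (inn R) (wE R) (dat (sph R) fun y => z y) := by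
  rw [lat_inn, Lc279.vr, Vr, ham_dat (bd_window R) z]
  rfl

theorem Dl_std (R : ℕ) (z z' : ℤ × ℤ → ℝ) :
    Lc279.Dl (inn R) (lat (inn R)) z z' =
      Del (inn R) (wE R) (dat (sph R) fun y => z y) (dat (sph R) fun y => z' y) := by
  unfold Lc279.Dl Del
  rw [vr_std, vr_std, vr_std, dat_mid]
  have : (fun y : sph R => Lc279.mid z z' y) =
      (1 / 2 : ℝ) • (fun y : sph R => z y) + (1 / 2 : ℝ) • fun y : sph R => z' y := by
    funext y; rfl
  rw [this]
  ring

/-- **Window input of block LC.** -/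
theorem window_input {K0 : Finset (ℤ × ℤ)} {f : (ℤ × ℤ → ℝ) → ℝ} (hm : Measurable f)
    (hb : ∀ h, |f h| ≤ 1) (hs : ∀ h (c : ℝ), f (fun a => h a + c) = f h)
    (hloc : ∀ h h', (∀ a ∈ K0, h a = h' a) → f h = f h') {ε : ℝ} (hε : 0 < ε) {q : ℝ≥0∞}
    (hq : 0 < q) :
    ∃ (R : ℕ) (C : ℝ) (B : Set (ℤ × ℤ → ℝ)) (FF : Finset (List (((ℤ × ℤ) × (ℤ × ℤ)) × ℝ))),
      1 ≤ R ∧ K0 ⊆ inn R ∧ 0 ≤ C ∧ Lc279.Win (inn R) (lat (inn R)) f B ε C ∧
      DependsOn (fun h => h ∈ B) (sph R : Set (ℤ × ℤ)) ∧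
      (∀ h ∈ Lc279.HS (lat (hball R)), h ∈ B → ∃ S ∈ FF, ∀ p ∈ S, 1 - p.2 ≤ |h p.1.1 - h p.1.2|) ∧
      (∀ S ∈ FF, FreshR (hball R) (lat (hball R)) S) ∧
      (∀ S ∈ FF, ∀ p ∈ S, p.1.1 ∈ hball R ∧ p.1.2 ∈ hball R) ∧
      ∑ S ∈ FF, wgt 6 S ≤ q := by
  classical
  -- radius of the observable
  set r : ℕ := K0.sup fun a => (hd a 0).toNat with hr
  have hK0 : ∀ a ∈ K0, a ∈ hball r := by
    intro a ha
    rw [mem_hball]
    have h1 : (hd a 0).toNat ≤ r := Finset.le_sup (f := fun a => (hd a 0).toNat) ha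
    have h2 := hd_nonneg a 0
    omega
  have hf : LObs r f := ⟨hm, hb, fun h h' hh => hloc h h' fun a ha => hh a (hK0 a ha), hs⟩
  -- choice of the radius
  have hq2 : 0 < q / 2 := ENNReal.div_pos hq.ne' (by norm_num)
  obtain ⟨q0, hq0, hq0'⟩ : ∃ q0 : ℝ, 0 < q0 ∧ ENNReal.ofReal q0 ≤ q / 2 := by
    rcases eq_or_ne (q / 2) ∞ with h | h
    · exact ⟨1, one_pos, by rw [h]; exact le_top⟩
    · exact ⟨(q / 2).toReal, ENNReal.toReal_pos hq2.ne' h, by rw [ENNReal.ofReal_toReal h]⟩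
  have hlim : Tendsto (fun R : ℕ => 9 * (1 / 2 : ℝ≥0∞) ^ R) atTop (𝓝 0) := by
    have := ENNReal.Tendsto.const_mul (a := (9 : ℝ≥0∞))
      (ENNReal.tendsto_pow_atTop_nhds_zero_of_lt_one (r := (1 / 2 : ℝ≥0∞)) (by
        rw [ENNReal.div_lt_iff (by norm_num) (by norm_num)]; norm_num)) (Or.inr (by norm_num))
    simpa using this
  obtain ⟨R1, hR1⟩ := (hlim.eventually (gt_mem_nhds hq2)).exists_forall_of_atTop
  set R : ℕ := max R1 (max (r + 2) (64 * 2304 * (4 * r + 8))) with hR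
  have hRR1 : R1 ≤ R := le_max_left _ _
  have hRr : r + 2 ≤ R := (le_max_left _ _).trans (le_max_right _ _)
  have hRb : 64 * 2304 * (4 * r + 8) ≤ R := (le_max_right _ _).trans (le_max_right _ _)
  have hR0 : (0 : ℝ) < R := by
    have : 0 < R := by omega
    exact_mod_cast this
  set w : ℝ := (4 * (r : ℝ) + 8) / R with hw
  have hw0 : 0 < w := by positivity
  have hwR : 4 * (r : ℝ) + 8 ≤ w * R := by rw [hw, div_mul_cancel₀ _ hR0.ne']
  have hwle : 2304 * w ≤ 1 / 64 := by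
    have h1 : 64 * 2304 * (4 * (r : ℝ) + 8) ≤ R := by exact_mod_cast hRb
    rw [hw, mul_div_assoc', div_le_iff₀ hR0]
    linarith
  set δ : ℝ := q0 / (2304 * ((2 * (R : ℝ) + 1) ^ 4)) with hδ
  have hδ0 : 0 < δ := by positivity
  obtain ⟨C, hC, hlin⟩ := std_lin hRr hδ0 hf hε
  refine ⟨R, C, badS R r δ, fam R (fun a => a) δ w, by omega, ?_, hC.le, ?_, ?_, ?_, ?_, ?_, ?_⟩
  · intro a ha
    have := mem_hball.mp (hK0 a ha)
    rw [mem_inn]; omega
  · refine ⟨by rw [lat_inn]; exact anch_window R, hm, hb, measurableSet_badS R r δ, ?_, ?_⟩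
    · intro h h' hh
      refine dependsOn_badS R r δ fun a ha => hh a ?_
      intro hcon
      have h1 := mem_inn.mp hcon
      have h2 := mem_sph.mp (Finset.mem_coe.mp ha)
      omega
    · intro z z' hz hz'
      rw [Ev_std (by omega) hf, Ev_std (by omega) hf, Dl_std]
      rw [vr_std] at hz hz'
      have hD := Del_nonneg (anch_window R) hz hz'
      have hm1 : ∀ z : ℤ × ℤ → ℝ, 0 < Vr (inn R) (wE R) (dat (sph R) fun y => z y) →
          |mean (inn R) (wE R) (wobs R f) (dat (sph R) fun y => z y)| ≤ 1 := by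
        intro z hp
        have : IsProbabilityMeasure (hamP (inn R) (wE R) (dat (sph R) fun y => z y)) :=
          isProb_uP (ne_zero_of_real_pos hp) (ne_top_of_real_pos hp)
        rw [mean, ← Real.norm_eq_abs]
        have := norm_integral_le_of_norm_le_const
          (μ := hamP (inn R) (wE R) (dat (sph R) fun y => z y))
          (f := wobs R f) (C := 1) (Eventually.of_forall fun x => by
            rw [Real.norm_eq_abs]; exact hf.bd _)
        simpa using this
      have h1 := abs_le.mp (hm1 z hz)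
      have h2 := abs_le.mp (hm1 z' hz')
      have hCD : 0 ≤ C * Del (inn R) (wE R) (dat (sph R) fun y => z y)
          (dat (sph R) fun y => z' y) := mul_nonneg hC.le hD
      have i0 : ∀ z : ℤ × ℤ → ℝ, (0:ℝ) ≤ (badS R r δ).indicator 1 z := fun z =>
        indicator_nonneg (fun _ _ => zero_le_one) z
      by_cases hg : z ∈ badS R r δ
      · rw [indicator_of_mem hg]
        have := i0 z'
        simp only [Pi.one_apply]
        rw [abs_le]; constructor <;> linarith
      by_cases hg' : z' ∈ badS R r δ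
      · rw [indicator_of_mem hg']
        have := i0 z
        simp only [Pi.one_apply]
        rw [abs_le]; constructor <;> linarith
      rw [indicator_of_notMem hg, indicator_of_notMem hg']
      have hzg : (fun y : sph R => z y) ∈ good R r δ := by
        by_contra h; exact hg h
      have hzg' : (fun y : sph R => z' y) ∈ good R r δ := by
        by_contra h; exact hg' h
      have := hlin _ hzg _ hzg'
      linarith
  · exact dependsOn_badS R r δ
  · intro h hh hB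
    have hx : (fun v : hball R => h v) ∈ ham (hball R) (lat (hball R)) h := by
      intro p hp
      have e : ∀ u, Ham560.ext (hball R) h (fun v : hball R => h v) u = h u := by
        intro u
        by_cases hu : u ∈ hball R
        · rw [ext_mem hu]
        · rw [ext_notMem hu]
      rw [e, e]
      exact hh p hp
    have e : Ham560.ext (hball R) h (fun v : hball R => h v) = h := by
      funext u
      by_cases hu : u ∈ hball R
      · rw [ext_mem hu]
      · rw [ext_notMem hu]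
    obtain ⟨S, hS, hx', hS'⟩ := (win_id R).bad_cover hRr hw0 hwR (δ := δ) hx (by
      rw [e]; exact hB)
    refine ⟨S, hS, fun p hp => ?_⟩
    have := hS' p hp
    rwa [e] at this
  · exact fun S hS => (win_id R).fam_fresh hδ0 hw0 S hS
  · intro S hS p hp
    obtain ⟨⟨a, ha, ha'⟩, b, hb', hb''⟩ := Win.fam_sites hS p hp
    have h1 : a = p.1.1 := ha'
    have h2 : b = p.1.2 := hb''
    rw [← h1, ← h2]
    exact ⟨ha, hb'⟩
  · have h1 : ∑ S ∈ fam R (fun a => a) δ w, wgt 6 S ≤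
        ∑ S ∈ fam1 R (fun a : ℤ × ℤ => a) δ, wgt 6 S + ∑ S ∈ fam2 R (fun a : ℤ × ℤ => a) w, wgt 6 S := by
      unfold fam
      rw [← Finset.sum_union_inter]
      exact le_self_add
    refine h1.trans ?_
    have h2 : ∑ S ∈ fam1 R (fun a : ℤ × ℤ => a) δ, wgt 6 S ≤ q / 2 := by
      refine (sum_fam1_le R _ δ).trans (le_trans (le_of_eq ?_) hq0')
      rw [← ENNReal.ofReal_natCast, ← ENNReal.ofReal_mul (by positivity)]
      congr 1
      rw [hδ]
      push_cast
      have : (2 * (R : ℝ) + 1) ≠ 0 := by positivity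
      field_simp
    have h3 : ∑ S ∈ fam2 R (fun a : ℤ × ℤ => a) w, wgt 6 S ≤ q / 2 :=
      (sum_fam2_le _ hwle).trans (hR1 R hRR1).le
    calc _ ≤ q / 2 + q / 2 := add_le_add h2 h3
      _ = q := ENNReal.add_halves q

/-- The same for `LObs`. -/
theorem window_input' {r : ℕ} {f : (ℤ × ℤ → ℝ) → ℝ} (hf : LObs r f) {ε : ℝ} (hε : 0 < ε)
    {q : ℝ≥0∞} (hq : 0 < q) :
    ∃ (R : ℕ) (C : ℝ) (B : Set (ℤ × ℤ → ℝ)) (FF : Finset (List (((ℤ × ℤ) × (ℤ × ℤ)) × ℝ))),
      r < R ∧ 0 ≤ C ∧ Lc279.Win (inn R) (lat (inn R)) f B ε C ∧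
      DependsOn (fun h => h ∈ B) (sph R : Set (ℤ × ℤ)) ∧
      (∀ h ∈ Lc279.HS (lat (hball R)), h ∈ B → ∃ S ∈ FF, ∀ p ∈ S, 1 - p.2 ≤ |h p.1.1 - h p.1.2|) ∧
      (∀ S ∈ FF, FreshR (hball R) (lat (hball R)) S) ∧
      (∀ S ∈ FF, ∀ p ∈ S, p.1.1 ∈ hball R ∧ p.1.2 ∈ hball R) ∧
      ∑ S ∈ FF, wgt 6 S ≤ q := by
  obtain ⟨R, C, B, FF, h1, h2, h3, h4, h5, h6, h7, h8, h9⟩ :=
    window_input hf.meas hf.bd hf.shift hf.loc hε hq
  refine ⟨R, C, B, FF, ?_, h3, h4, h5, h6, h7, h8, h9⟩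
  have h0 : ((r : ℤ), (0 : ℤ)) ∈ hball r := by
    rw [mem_hball, hd_le_iff]
    simp only [Prod.fst_zero, Prod.snd_zero, sub_zero]
    omega
  have h10 := mem_inn.mp (h2 h0)
  have h11 := hd_le_iff.mp (le_refl (hd ((r : ℤ), (0 : ℤ)) 0))
  simp only [Prod.fst_zero, Prod.snd_zero, sub_zero] at h11
  omega

end Crest.Agent.R144.Lw425
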