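import Crest.Agent.R144.Zb2_560

/-!
R144 (S0197), helper560, Z-BLOCK, file 3: tails.

* `tS F ξ ε' S` : all the edges of `S` are `ε'`-tight;
* `tight_half` : half of the edges of an almost optimal path are `(ρ + ε)`-tight;
* `Fam V E m u` : finite family of edge lists (independent of the configuration) with
  `Fam_fresh`, `Fam_len`, `Fam_near`, `Fam_card`, covering the almost optimal paths with `m` edges
  from `u` (`bad_subset`);
* `measure_bad_le`, `lintegral_op_le`, `measure_gx_lt_le`, `lintegral_row_gx_le`.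
-/

set_option autoImplicit false

open MeasureTheory Set Filter Topology
open scoped ENNReal NNReal
open Crest.Agent.R144.Ham560
open Crest.Agent.R144.Tri560

noncomputable section

namespace Crest.Agent.R144.Zb560

variable {U : Type*} [DecidableEq U] {V W : Finset U} {E : Finset (U × U)}
variable {ρ ε Λ κ c0 : ℝ} {φ : U → ℝ} {h : U → ℝ}

/-- All the edges of the list are tight. -/
def tS (F : Finset U) (ξ : U → ℝ) (e : ℝ) (S : List (U × U)) : Set (F → ℝ) :=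
  {x | ∀ q ∈ S, 1 - e ≤ |ext F ξ x q.1 - ext F ξ x q.2|}

omit [DecidableEq U] in
theorem stp_ge (hε : 0 < ε) (hΛ : 0 ≤ Λ) (h : U → ℝ) : ∀ l : List U,
    Λ * ((pe l).length - ((pe l).filter fun q =>
      decide (1 - (ρ + ε) ≤ |h q.1 - h q.2|)).length) ≤ stp (cz ρ ε Λ h) l
  | [] => by simp [pe, stp]
  | [a] => by simp [pe, stp]
  | a :: b :: t => by
    have ih := stp_ge hε hΛ h (b :: t)
    rw [pe_cons, stp_cons, List.filter_cons, List.length_cons]
    by_cases ht : 1 - (ρ + ε) ≤ |h a - h b|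
    · rw [if_pos (by simpa using ht), List.length_cons]
      push_cast
      have h2 := cz_nonneg (ρ := ρ) (ε := ε) hΛ h a b
      nlinarith
    · rw [if_neg (by simpa using ht)]
      have h2 : cz ρ ε Λ h a b = Λ := by
        rw [cz, sr_eq_one hε (by push Not at ht; linarith), mul_one]
      rw [h2]
      push_cast
      nlinarith

/-- Half of the edges of an almost optimal path are tight. -/
theorem tight_half (hε : 0 < ε) (hΛ : 0 < Λ) (hκ : 4 * κ ≤ Λ)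
    (hφL : ∀ a b, b ∈ nbr E a → |φ a - φ b| ≤ κ) {l : List U} {u : U}
    (hc : l.IsChain (fun a b => b ∈ nbr E a)) (hu : l.head? = some u)
    (h1 : cost φ (cz ρ ε Λ h) l ≤ φ u + c0) (h2 : 4 * c0 ≤ Λ * (pe l).length) :
    (pe l).length ≤ 2 * ((pe l).filter fun q =>
      decide (1 - (ρ + ε) ≤ |h q.1 - h q.2|)).length := by
  have h3 := cost_ge_stp (c := cz ρ ε Λ h) hφL l hc u hu
  have h4 := stp_ge (ρ := ρ) hε hΛ.le h l
  have h5 : Λ * (((pe l).length : ℝ) - 2 * ((pe l).filter fun q =>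
      decide (1 - (ρ + ε) ≤ |h q.1 - h q.2|)).length) ≤ 0 := by
    have h6 : 4 * κ * ((pe l).length : ℝ) ≤ Λ * (pe l).length := by gcongr
    nlinarith
  have h7 : (((pe l).length : ℝ) - 2 * ((pe l).filter fun q =>
      decide (1 - (ρ + ε) ≤ |h q.1 - h q.2|)).length) ≤ 0 := by
    by_contra hlt
    push Not at hlt
    nlinarith
  have h8 : ((pe l).length : ℝ) ≤ 2 * ((pe l).filter fun q =>
      decide (1 - (ρ + ε) ≤ |h q.1 - h q.2|)).length := by linarith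
  exact_mod_cast h8

/-! ### The covering family -/

/-- Edge lists covering the almost optimal paths with `m` edges from `u`. -/
def Fam (V : Finset U) (E : Finset (U × U)) (m : ℕ) (u : U) : Finset (List (U × U)) :=
  ((wf V E m u).filter fun l => l ∈ pt V E u ∧ l.length = m + 1).biUnion fun l =>
    (pe l).sublists.toFinset.filter fun S => m ≤ 2 * S.length

theorem mem_Fam {m : ℕ} {u : U} {S : List (U × U)} : S ∈ Fam V E m u ↔
    ∃ l ∈ wf V E m u, l ∈ pt V E u ∧ l.length = m + 1 ∧ S.Sublist (pe l) ∧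
      m ≤ 2 * S.length := by
  simp only [Fam, Finset.mem_biUnion, Finset.mem_filter, List.mem_toFinset, List.mem_sublists]
  constructor
  · rintro ⟨l, ⟨h1, h2, h3⟩, h4, h5⟩
    exact ⟨l, h1, h2, h3, h4, h5⟩
  · rintro ⟨l, h1, h2, h3, h4, h5⟩
    exact ⟨l, ⟨h1, h2, h3⟩, h4, h5⟩

theorem Fam_card {n : ℕ} (hn : ∀ v ∈ V, (nbr E v).card ≤ n) (m : ℕ) (u : U) :
    (Fam V E m u).card ≤ (2 * n) ^ m := by
  calc (Fam V E m u).card
      ≤ ((wf V E m u).filter fun l => l ∈ pt V E u ∧ l.length = m + 1).card * 2 ^ m := by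
        refine Finset.card_biUnion_le_card_mul _ _ _ fun l hl => ?_
        refine (Finset.card_filter_le _ _).trans ((List.toFinset_card_le _).trans ?_)
        rw [List.length_sublists]
        rw [Finset.mem_filter] at hl
        have := pe_length l (pt_ne_nil hl.2.1)
        have h1 : (pe l).length = m := by omega
        rw [h1]
    _ ≤ n ^ m * 2 ^ m := by
        gcongr
        exact (Finset.card_filter_le _ _).trans (card_wf hn m u)
    _ = (2 * n) ^ m := by rw [mul_pow, mul_comm]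

theorem Fam_len {m : ℕ} {u : U} {S : List (U × U)} (hS : S ∈ Fam V E m u) :
    m ≤ 2 * S.length ∧ S.length ≤ m := by
  obtain ⟨l, _, h2, h3, h4, h5⟩ := mem_Fam.mp hS
  refine ⟨h5, h4.length_le.trans ?_⟩
  have := pe_length l (pt_ne_nil h2)
  omega

theorem Fam_fresh {m : ℕ} {u : U} {S : List (U × U)} (hS : S ∈ Fam V E m u) :
    Fresh V E S := by
  obtain ⟨l, _, h2, h3, h4, h5⟩ := mem_Fam.mp hS
  rcases Nat.eq_zero_or_pos m with rfl | hm
  · have h6 := pe_length l (pt_ne_nil h2)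
    have h7 : pe l = [] := List.length_eq_zero_iff.mp (by omega)
    rw [h7] at h4
    rw [List.sublist_nil.mp h4]
    exact Fresh.nil
  · have hV := pt_mem h2 (by omega)
    obtain ⟨h6, _, h8⟩ := pt_spec h2
    refine Fresh_sublist (fresh_pe l h6 h8 fun l1 l2 b c hl => ?_) h4
    exact hV b (by rw [hl]; simp)

theorem Fresh_mono {F F' : Finset U} (hF : F ⊆ F') {S : List (U × U)} (h : Fresh F E S) :
    Fresh F' E S := by
  induction h with
  | nil => exact Fresh.nil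
  | @cons v u S hS hv hu hf ih => exact Fresh.cons ih (hF hv) hu hf

theorem Fam_mem {m : ℕ} {u : U} {S : List (U × U)} (hS : S ∈ Fam V E m u) :
    ∀ q ∈ S, q.1 ∈ V ∧ q.2 ∈ V := by
  obtain ⟨l, _, h2, h3, h4, h5⟩ := mem_Fam.mp hS
  intro q hq
  have h6 := pe_mem l q (h4.subset hq)
  rcases Nat.eq_zero_or_pos m with rfl | hm
  · exfalso
    have h7 := pe_length l (pt_ne_nil h2)
    have h8 : pe l = [] := List.length_eq_zero_iff.mp (by omega)
    rw [h8] at h4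
    rw [List.sublist_nil.mp h4] at hq
    simp at hq
  · have hV := pt_mem h2 (by omega)
    exact ⟨hV _ h6.1, hV _ h6.2⟩

theorem Fam_near (dd : U → U → ℕ) (h0 : ∀ a, dd a a = 0)
    (ht : ∀ a b d, dd a d ≤ dd a b + dd b d) (h1 : ∀ a b, b ∈ nbr E a → dd a b ≤ 1)
    {m : ℕ} {u : U} {S : List (U × U)} (hS : S ∈ Fam V E m u) :
    ∀ q ∈ S, dd u q.1 ≤ m ∧ dd u q.2 ≤ m := by
  obtain ⟨l, _, h2, h3, h4, h5⟩ := mem_Fam.mp hS
  intro q hq
  have h6 := pe_mem l q (h4.subset hq)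
  obtain ⟨_, h7, h8⟩ := pt_spec h2
  have h9 := dd_le dd h0 ht (R := fun a b => b ∈ nbr E a) h1 l u h7 h8
  have e1 := h9 _ h6.1
  have e2 := h9 _ h6.2
  constructor <;> omega

/-- Almost optimal paths with `m` edges. -/
def bad (V : Finset U) (E : Finset (U × U)) (ρ ε Λ c0 : ℝ) (φ : U → ℝ) (F : Finset U)
    (ξ : U → ℝ) (m : ℕ) (u : U) : Set (F → ℝ) :=
  ⋃ l ∈ (pt V E u).filter (fun l => l.length = m + 1),
    {x | cost φ (cz ρ ε Λ (ext F ξ x)) l ≤ φ u + c0}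

variable {F : Finset U} {ξ : U → ℝ} {m : ℕ} {u : U}

theorem continuous_cost (l : List U) :
    Continuous fun x : F → ℝ => cost φ (cz ρ ε Λ (ext F ξ x)) l := by
  induction l with
  | nil => exact continuous_const
  | cons a s ih =>
    match s with
    | [] => exact continuous_const
    | b :: t =>
      simp only [cost_cons]
      refine Continuous.add ?_ ih
      have ha := continuous_ext (F := F) (ξ := ξ) a
      have hb := continuous_ext (F := F) (ξ := ξ) b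
      unfold cz sr
      fun_prop

theorem measurableSet_bad : MeasurableSet (bad V E ρ ε Λ c0 φ F ξ m u) := by
  refine Finset.measurableSet_biUnion _ fun l _ => ?_
  exact (isClosed_le (continuous_cost l) continuous_const).measurableSet

theorem mem_bad {x : F → ℝ} {l : List U} (hl : l ∈ pt V E u) (hlen : l.length = m + 1)
    (hx : cost φ (cz ρ ε Λ (ext F ξ x)) l ≤ φ u + c0) : x ∈ bad V E ρ ε Λ c0 φ F ξ m u := by
  simp only [bad, mem_iUnion]
  exact ⟨l, Finset.mem_filter.mpr ⟨hl, hlen⟩, hx⟩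

/-- The covering. -/
theorem bad_subset (hε : 0 < ε) (hΛ : 0 < Λ) (hκ : 4 * κ ≤ Λ)
    (hφL : ∀ a b, b ∈ nbr E a → |φ a - φ b| ≤ κ) (hm : 4 * c0 ≤ Λ * m) :
    bad V E ρ ε Λ c0 φ F ξ m u ⊆ ⋃ S ∈ Fam V E m u, tS F ξ (ρ + ε) S := by
  intro x hx
  simp only [bad, mem_iUnion, Set.mem_ofPred_eq] at hx
  obtain ⟨l, hl, hx⟩ := hx
  obtain ⟨hl, hlen⟩ := Finset.mem_filter.mp hl
  obtain ⟨h1, h2, h3⟩ := pt_spec hl
  have h4 := pe_length l (pt_ne_nil hl)
  have h5 : (pe l).length = m := by omega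
  have h6 := tight_half (h := ext F ξ x) (ρ := ρ) hε hΛ hκ hφL h3 h2 hx (by rw [h5]; exact hm)
  have hwf : l ∈ wf V E m u := by
    refine mem_wf m u l hlen h2 h3 fun l1 l2 b c hbc => ?_
    have hV := pt_mem hl (by rw [hbc]; simp; omega)
    exact hV b (by rw [hbc]; simp)
  simp only [mem_iUnion]
  refine ⟨(pe l).filter fun q => decide (1 - (ρ + ε) ≤ |ext F ξ x q.1 - ext F ξ x q.2|),
    mem_Fam.mpr ⟨l, hwf, hl, hlen, List.filter_sublist, ?_⟩, ?_⟩
  · rw [← h5]; exact h6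
  · intro q hq
    simpa using (List.mem_filter.mp hq).2

/-! ### Measure bounds -/

variable {μ : Measure (F → ℝ)} {n : ℕ} {b : ℕ → ℝ≥0∞}

theorem measure_bad_le (hε : 0 < ε) (hΛ : 0 < Λ) (hκ : 4 * κ ≤ Λ)
    (hφL : ∀ a b, b ∈ nbr E a → |φ a - φ b| ≤ κ) (hm : 4 * c0 ≤ Λ * m)
    (hn : ∀ v ∈ V, (nbr E v).card ≤ n) (H : ∀ S ∈ Fam V E m u, μ (tS F ξ (ρ + ε) S) ≤ b m) :
    μ (bad V E ρ ε Λ c0 φ F ξ m u) ≤ (2 * n : ℕ) ^ m * b m := by
  calc μ (bad V E ρ ε Λ c0 φ F ξ m u)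
      ≤ μ (⋃ S ∈ Fam V E m u, tS F ξ (ρ + ε) S) :=
        measure_mono (bad_subset hε hΛ hκ hφL hm)
    _ ≤ ∑ S ∈ Fam V E m u, μ (tS F ξ (ρ + ε) S) := measure_biUnion_finset_le _ _
    _ ≤ ∑ _S ∈ Fam V E m u, b m := Finset.sum_le_sum H
    _ = (Fam V E m u).card * b m := by rw [Finset.sum_const, nsmul_eq_mul]
    _ ≤ (2 * n : ℕ) ^ m * b m := by
        gcongr
        exact_mod_cast Fam_card hn m u

/-- Optimal paths of `m` edges. -/
theorem isOpt_mem_bad {x : F → ℝ} {l : List U}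
    (hl : IsOpt V E φ (cz ρ ε Λ (ext F ξ x)) u l) (hlen : l.length = m + 1) (hc0 : 0 ≤ c0) :
    x ∈ bad V E ρ ε Λ c0 φ F ξ m u := by
  refine mem_bad hl.1 hlen ?_
  rw [← hl.2]
  linarith [iv_le (V := V) (E := E) (φ := φ) (c := cz ρ ε Λ (ext F ξ x)) u]

/-- Moments of the length of the optimal path. -/
theorem lintegral_op_le (hε : 0 < ε) (hΛ : 0 < Λ) (hκ : 4 * κ ≤ Λ)
    (hφL : ∀ a b, b ∈ nbr E a → |φ a - φ b| ≤ κ)
    (hn : ∀ v ∈ V, (nbr E v).card ≤ n)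
    (H : ∀ m, ∀ S ∈ Fam V E m u, μ (tS F ξ (ρ + ε) S) ≤ b m) (g : ℕ → ℝ≥0∞) :
    ∫⁻ x, g (op V E φ (cz ρ ε Λ (ext F ξ x)) u).length ∂μ ≤
      ∑' m : ℕ, g (m + 1) * ((2 * n : ℕ) ^ m * b m) := by
  have h1 : ∀ x : F → ℝ, g (op V E φ (cz ρ ε Λ (ext F ξ x)) u).length ≤
      ∑' m, g (m + 1) * (bad V E ρ ε Λ 0 φ F ξ m u).indicator 1 x := by
    intro x
    have ho := isOpt_op V E φ (cz ρ ε Λ (ext F ξ x)) u
    have hp := List.length_pos_iff.mpr (pt_ne_nil ho.1)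
    obtain ⟨m, hm⟩ : ∃ m, (op V E φ (cz ρ ε Λ (ext F ξ x)) u).length = m + 1 :=
      ⟨(op V E φ (cz ρ ε Λ (ext F ξ x)) u).length - 1, by omega⟩
    refine le_trans ?_ (ENNReal.le_tsum m)
    rw [indicator_of_mem (isOpt_mem_bad ho hm le_rfl), hm]
    simp
  calc ∫⁻ x, g (op V E φ (cz ρ ε Λ (ext F ξ x)) u).length ∂μ
      ≤ ∫⁻ x, ∑' m, g (m + 1) * (bad V E ρ ε Λ 0 φ F ξ m u).indicator 1 x ∂μ :=
        lintegral_mono h1
    _ = ∑' m, ∫⁻ x, g (m + 1) * (bad V E ρ ε Λ 0 φ F ξ m u).indicator 1 x ∂μ := by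
        refine lintegral_tsum fun m => ?_
        exact ((measurable_one.indicator measurableSet_bad).const_mul _).aemeasurable
    _ = ∑' m, g (m + 1) * μ (bad V E ρ ε Λ 0 φ F ξ m u) := by
        refine tsum_congr fun m => ?_
        rw [lintegral_const_mul _ (measurable_one.indicator measurableSet_bad),
          lintegral_indicator_one measurableSet_bad]
    _ ≤ ∑' m : ℕ, g (m + 1) * ((2 * n : ℕ) ^ m * b m) := by
        refine ENNReal.tsum_le_tsum fun m => ?_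
        gcongr
        exact measure_bad_le hε hΛ hκ hφL (by rw [mul_zero]; positivity) hn (H m)

variable {ι : Type*} [Fintype ι] {φs : ι → U → ℝ} {N : Finset U} {k : ℕ}

/-- The rare event on which the cut-off is not `1`. -/
theorem gx_lt_subset (hc0 : 0 < c0) :
    {x : F → ℝ | gx V E N k ρ ε Λ c0 φs F ξ x < 1} ⊆
      ⋃ i, ⋃ w ∈ N, ⋃ j : ℕ, bad V E ρ ε Λ c0 (φs i) F ξ (k + j) w := by
  intro x hx
  obtain ⟨i, w, hw, l, hl, hk, hcost⟩ := exists_of_gq_lt hc0 hx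
  simp only [mem_iUnion]
  exact ⟨i, w, hw, l.length - 1 - k, mem_bad hl (by omega) hcost.le⟩

theorem measure_gx_lt_le (hε : 0 < ε) (hΛ : 0 < Λ) (hc0 : 0 < c0) (hκ : 4 * κ ≤ Λ)
    (hφL : ∀ i, ∀ a b, b ∈ nbr E a → |φs i a - φs i b| ≤ κ) (hk : 4 * c0 ≤ Λ * k)
    (hn : ∀ v ∈ V, (nbr E v).card ≤ n)
    (H : ∀ m, k ≤ m → ∀ w ∈ N, ∀ S ∈ Fam V E m w, μ (tS F ξ (ρ + ε) S) ≤ b m) :
    μ {x : F → ℝ | gx V E N k ρ ε Λ c0 φs F ξ x < 1} ≤
      Fintype.card ι * (N.card * ∑' j : ℕ, (2 * n : ℕ) ^ (k + j) * b (k + j)) := by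
  have hk' : ∀ j : ℕ, 4 * c0 ≤ Λ * ((k + j : ℕ) : ℝ) := by
    intro j
    push_cast
    have : 0 ≤ Λ * (j : ℝ) := by positivity
    linarith
  calc μ {x : F → ℝ | gx V E N k ρ ε Λ c0 φs F ξ x < 1}
      ≤ μ (⋃ i, ⋃ w ∈ N, ⋃ j : ℕ, bad V E ρ ε Λ c0 (φs i) F ξ (k + j) w) :=
        measure_mono (gx_lt_subset hc0)
    _ ≤ ∑ i : ι, μ (⋃ w ∈ N, ⋃ j : ℕ, bad V E ρ ε Λ c0 (φs i) F ξ (k + j) w) := by
        refine (measure_iUnion_le _).trans ?_
        rw [tsum_fintype]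
    _ ≤ ∑ _i : ι, (N.card * ∑' j : ℕ, (2 * n : ℕ) ^ (k + j) * b (k + j)) := by
        refine Finset.sum_le_sum fun i _ => ?_
        refine (measure_biUnion_finset_le _ _).trans ?_
        calc ∑ w ∈ N, μ (⋃ j : ℕ, bad V E ρ ε Λ c0 (φs i) F ξ (k + j) w)
            ≤ ∑ _w ∈ N, ∑' j : ℕ, (2 * n : ℕ) ^ (k + j) * b (k + j) := by
              refine Finset.sum_le_sum fun w hw => ?_
              refine (measure_iUnion_le _).trans ?_
              refine ENNReal.tsum_le_tsum fun j => ?_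
              exact measure_bad_le hε hΛ hκ (hφL i) (hk' j) hn (H _ (Nat.le_add_right _ _) w hw)
          _ = _ := by rw [Finset.sum_const, nsmul_eq_mul]
    _ = _ := by rw [Finset.sum_const, nsmul_eq_mul, Finset.card_univ]

/-- Pointwise bound of the gradient of the cut-off by measurable indicators. -/
theorem row_gx_le_tsum (hε : 0 < ε) (hΛ : 0 ≤ Λ) (hc0 : 0 < c0) {x : F → ℝ}
    (hd : DifferentiableAt ℝ (gx V E N k ρ ε Λ c0 φs F ξ) x) :
    ENNReal.ofReal (∑ z, pd (gx V E N k ρ ε Λ c0 φs F ξ) x z ^ 2) ≤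
      ENNReal.ofReal ((2 * Λ / ε / c0) ^ 2) * ∑ i, ∑ w ∈ N, ∑' j : ℕ,
        ((k + j + 1 : ℕ) : ℝ≥0∞) * (bad V E ρ ε Λ c0 (φs i) F ξ (k + j) w).indicator 1 x := by
  rcases row_gx_le hε hΛ hc0 hd with h1 | ⟨i, w, hw, l, hl, hk, hcost, _, h1⟩
  · have : ∑ z, pd (gx V E N k ρ ε Λ c0 φs F ξ) x z ^ 2 = 0 :=
      Finset.sum_eq_zero fun z _ => by rw [h1 z]; simp
    rw [this, ENNReal.ofReal_zero]
    exact bot_le
  · refine (ENNReal.ofReal_le_ofReal h1).trans ?_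
    rw [ENNReal.ofReal_mul (by positivity)]
    gcongr
    have hb : x ∈ bad V E ρ ε Λ c0 (φs i) F ξ (k + (l.length - 1 - k)) w :=
      mem_bad hl (by omega) hcost.le
    calc ENNReal.ofReal (l.length : ℝ)
        ≤ ∑' j : ℕ, ((k + j + 1 : ℕ) : ℝ≥0∞) *
            (bad V E ρ ε Λ c0 (φs i) F ξ (k + j) w).indicator 1 x := by
          refine le_trans ?_ (ENNReal.le_tsum (l.length - 1 - k))
          rw [indicator_of_mem hb, Pi.one_apply, mul_one, ENNReal.ofReal_natCast]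
          exact_mod_cast (by omega : l.length ≤ k + (l.length - 1 - k) + 1)
      _ ≤ ∑ w ∈ N, ∑' j : ℕ, ((k + j + 1 : ℕ) : ℝ≥0∞) *
            (bad V E ρ ε Λ c0 (φs i) F ξ (k + j) w).indicator 1 x :=
          Finset.single_le_sum (f := fun w => ∑' j : ℕ, ((k + j + 1 : ℕ) : ℝ≥0∞) *
            (bad V E ρ ε Λ c0 (φs i) F ξ (k + j) w).indicator 1 x)
            (fun _ _ => bot_le) hw
      _ ≤ _ := Finset.single_le_sum (f := fun i => ∑ w ∈ N, ∑' j : ℕ, ((k + j + 1 : ℕ) : ℝ≥0∞) *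
            (bad V E ρ ε Λ c0 (φs i) F ξ (k + j) w).indicator 1 x)
            (fun _ _ => bot_le) (Finset.mem_univ i)

/-- Mean energy of the cut-off. -/
theorem lintegral_row_gx_le (hε : 0 < ε) (hΛ : 0 < Λ) (hc0 : 0 < c0) (hκ : 4 * κ ≤ Λ)
    (hφL : ∀ i, ∀ a b, b ∈ nbr E a → |φs i a - φs i b| ≤ κ) (hk : 4 * c0 ≤ Λ * k)
    (hn : ∀ v ∈ V, (nbr E v).card ≤ n)
    (H : ∀ m, k ≤ m → ∀ w ∈ N, ∀ S ∈ Fam V E m w, μ (tS F ξ (ρ + ε) S) ≤ b m)
    (hN : N ⊆ V) (hμ : μ ≪ volume) :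
    ∫⁻ x, ENNReal.ofReal (∑ z, pd (gx V E N k ρ ε Λ c0 φs F ξ) x z ^ 2) ∂μ ≤
      ENNReal.ofReal ((2 * Λ / ε / c0) ^ 2) * (Fintype.card ι * (N.card *
        ∑' j : ℕ, ((k + j + 1 : ℕ) : ℝ≥0∞) * ((2 * n : ℕ) ^ (k + j) * b (k + j)))) := by
  have hk' : ∀ j : ℕ, 4 * c0 ≤ Λ * ((k + j : ℕ) : ℝ) := by
    intro j
    push_cast
    have : 0 ≤ Λ * (j : ℝ) := by positivity
    linarith
  have hae : ∀ᵐ x ∂μ, DifferentiableAt ℝ (gx V E N k ρ ε Λ c0 φs F ξ) x :=
    hμ.ae_le (lip_gx hε hΛ.le hc0 hN).ae_differentiableAt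
  have hmeas : ∀ i : ι, ∀ w : U, Measurable fun x : F → ℝ => ∑' j : ℕ,
      ((k + j + 1 : ℕ) : ℝ≥0∞) *
        (bad V E ρ ε Λ c0 (φs i) F ξ (k + j) w).indicator (1 : (F → ℝ) → ℝ≥0∞) x := by
    intro i w
    exact Measurable.tsum fun j =>
      (measurable_one.indicator measurableSet_bad).const_mul _
  calc ∫⁻ x, ENNReal.ofReal (∑ z, pd (gx V E N k ρ ε Λ c0 φs F ξ) x z ^ 2) ∂μ
      ≤ ∫⁻ x, ENNReal.ofReal ((2 * Λ / ε / c0) ^ 2) * ∑ i, ∑ w ∈ N, ∑' j : ℕ,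
          ((k + j + 1 : ℕ) : ℝ≥0∞) *
            (bad V E ρ ε Λ c0 (φs i) F ξ (k + j) w).indicator 1 x ∂μ := by
        refine lintegral_mono_ae ?_
        filter_upwards [hae] with x hx
        exact row_gx_le_tsum hε hΛ.le hc0 hx
    _ = ENNReal.ofReal ((2 * Λ / ε / c0) ^ 2) * ∑ i, ∑ w ∈ N, ∑' j : ℕ,
          ((k + j + 1 : ℕ) : ℝ≥0∞) * μ (bad V E ρ ε Λ c0 (φs i) F ξ (k + j) w) := by
        rw [lintegral_const_mul _ (Finset.measurable_sum _ fun i _ =>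
          Finset.measurable_sum _ fun w _ => hmeas i w)]
        congr 1
        rw [lintegral_finsetSum _ fun i _ => Finset.measurable_sum _ fun w _ => hmeas i w]
        refine Finset.sum_congr rfl fun i _ => ?_
        rw [lintegral_finsetSum _ fun w _ => hmeas i w]
        refine Finset.sum_congr rfl fun w _ => ?_
        rw [lintegral_tsum fun j =>
          ((measurable_one.indicator measurableSet_bad).const_mul _).aemeasurable]
        refine tsum_congr fun j => ?_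
        rw [lintegral_const_mul _ (measurable_one.indicator measurableSet_bad),
          lintegral_indicator_one measurableSet_bad]
    _ ≤ ENNReal.ofReal ((2 * Λ / ε / c0) ^ 2) * ∑ _i : ι, ∑ _w ∈ N, ∑' j : ℕ,
          ((k + j + 1 : ℕ) : ℝ≥0∞) * ((2 * n : ℕ) ^ (k + j) * b (k + j)) := by
        gcongr with i _ w hw j
        exact measure_bad_le hε hΛ hκ (hφL i) (hk' j) hn (H _ (Nat.le_add_right _ _) w hw)
    _ = _ := by
        rw [Finset.sum_const, Finset.sum_const, nsmul_eq_mul, nsmul_eq_mul, Finset.card_univ]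

/-- Lemma T gives the hypothesis `H` of the tail estimates. -/
theorem H_of_fresh {B : ℝ≥0∞} {d : ℝ≥0∞} (hd : d ≤ 1) (hVF : V ⊆ F)
    (HT : ∀ S : List (U × U), Fresh F E S →
      μ (tS F ξ (ρ + ε) S) ≤ (d ^ 2) ^ S.length * B) :
    ∀ m, ∀ w, ∀ S ∈ Fam V E m w, μ (tS F ξ (ρ + ε) S) ≤ d ^ m * B := by
  intro m w S hS
  refine (HT S (Fresh_mono hVF (Fam_fresh hS))).trans ?_
  refine mul_le_mul' ?_ le_rfl
  rw [← pow_mul]
  exact pow_le_pow_right_of_le_one' hd (Fam_len hS).1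

end Crest.Agent.R144.Zb560
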