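import Crest.Agent.R144.Bl3_565
import Crest.Agent.R144.LoB5_95
import Crest.Agent.R144.Zb3_560
import Crest.Agent.R144.Lw7_425

/-!
R144 (S0197), helper565.  POS, part 1: the energies of the blocks are bounded by the lengths of the
cheap paths.

* `mcw P c0 V h w` : `LoB95.mc` for the three coordinates;
* `ae_en_le`, `bbB_ek_le` : the block energy with the trivial competitor;
* `trE_bbO_le`.
-/

set_option autoImplicit false
set_option linter.unusedSectionVars false

open MeasureTheory Set Filter Topology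
open scoped ENNReal NNReal

noncomputable section

namespace Crest.Agent.R144.Bl565

open Crest.Agent.R144.Ham560 Crest.Agent.R144.Tri560
open Crest.Agent.R144.Zb560 (Z Zx cz lcz lip_Zx pt Fam mem_Fam Fam_card Fam_len Fam_fresh Fam_mem tS
  bad measurableSet_bad mem_bad measure_bad_le pt_mem' pt_ne_nil length_pt)
open Crest.Agent.R144.BQ565
open Crest.Agent.R144.MW121 (jac jac_apply en measurable_jac measurable_en en_nonneg)
open Crest.Agent.R144.Lc279 (lat mem_lat mem_nbr_lat P2 card_nbr_lat_le)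
open Crest.Agent.R144.LoB95 (mc opt_le_mc exists_mc measurable_mc row_le)
open Crest.Agent.R144.Fib674 (pd)

variable (P : Par) (c0 : ℝ)

/-- The length of the longest cheap path for the three coordinates. -/
def mcw (V : Finset P2) (h : P2 → ℝ) (w : P2) : ℕ :=
  mc V (lat V) P.rho P.eps P.Lam c0 ps h w

variable {P c0} {V K : Finset P2} {m : ℕ}

theorem measurable_mcw (V : Finset P2) (w : P2) : Measurable fun h : P2 → ℝ => mcw P c0 V h w :=
  measurable_mc V (lat V) w

theorem mcw_le (V : Finset P2) (h : P2 → ℝ) (w : P2) : mcw P c0 V h w ≤ V.card + 1 := by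
  unfold mcw LoB95.mc
  refine Finset.sup_le fun l hl => ?_
  simp only [Finset.mem_filter] at hl
  exact length_pt hl.1

theorem cz_congr {h h' : P2 → ℝ} {φ : P2 → ℝ} {l : List P2} (hl : ∀ a ∈ l, h a = h' a) :
    cost φ (cz P.rho P.eps P.Lam h) l = cost φ (cz P.rho P.eps P.Lam h') l := by
  induction l with
  | nil => rfl
  | cons a s ih =>
    match s with
    | [] => rfl
    | b :: t =>
      rw [cost_cons, cost_cons, ih fun d hd => hl d (List.mem_cons_of_mem _ hd), cz, cz,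
        hl a (by simp), hl b (by simp)]

theorem mcw_congr {h h' : P2 → ℝ} (hh : ∀ a ∈ V, h a = h' a) {w : P2} (hw : w ∈ V) :
    mcw P c0 V h w = mcw P c0 V h' w := by
  unfold mcw LoB95.mc
  refine congrArg (fun s : Finset (List P2) => s.sup List.length) ?_
  ext l
  simp only [Finset.mem_filter]
  refine and_congr_right fun hl => exists_congr fun i => ?_
  rw [cz_congr fun a ha => hh a (pt_mem' hl hw a ha)]

theorem mcw_shift (h : P2 → ℝ) (c : ℝ) (w : P2) :
    mcw P c0 V (fun v => h v + c) w = mcw P c0 V h w := by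
  have : cz P.rho P.eps P.Lam (fun v => h v + c) = cz P.rho P.eps P.Lam h := by
    funext a b
    simp only [Zb560.cz]
    congr 2
    ring
  unfold mcw LoB95.mc
  rw [this]

/-! ### The energy of the reference fields -/

/-- The reference field of the coordinate `k` on a fibre. -/
def fL (P : Par) (V : Finset P2) (E : Finset (P2 × P2)) (K : Finset P2) (ζ : P2 → ℝ) (k : Fin 3)
    (x : K → ℝ) (u : K) : ℝ := Lf P V E k (ext K ζ x) u

theorem ae_diff (V : Finset P2) (E : Finset (P2 × P2)) (K : Finset P2) (ζ : P2 → ℝ) :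
    ∀ᵐ x : K → ℝ, ∀ (k : Fin 3) (u : K),
      DifferentiableAt ℝ (Zx V E P.rho P.eps P.Lam (ps k) K ζ u) x := by
  rw [ae_all_iff]; intro k
  rw [ae_all_iff]; intro u
  exact (lip_Zx P.eps_pos P.Lam_nonneg (u : P2)).ae_differentiableAt

theorem en_fL_le (hc0 : 0 < c0) {ζ : P2 → ℝ} {k : Fin 3} {x : K → ℝ}
    (hd : ∀ (k : Fin 3) (u : K), DifferentiableAt ℝ
      (Zx V (lat V) P.rho P.eps P.Lam (ps k) K ζ u) x) :
    en (fL P V (lat V) K ζ k) x ≤
      3 * (2 * P.Lam / P.eps) ^ 2 * ∑ u : K, (mcw P c0 V (ext K ζ x) u : ℝ) := by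
  set Zf : Fin 3 → K → (K → ℝ) → ℝ := fun k u => Zx V (lat V) P.rho P.eps P.Lam (ps k) K ζ u
    with hZf
  have hF : ∀ u : K, HasFDerivAt (fun x => fL P V (lat V) K ζ k x u)
      (fderiv ℝ (Zf k u) x - (3 : ℝ)⁻¹ • ((fderiv ℝ (Zf 0 u) x + fderiv ℝ (Zf 1 u) x) +
          fderiv ℝ (Zf 2 u) x)) x := by
    intro u
    have h4 := ((((hd 0 u).hasFDerivAt).add ((hd 1 u).hasFDerivAt)).add
      ((hd 2 u).hasFDerivAt)).const_mul (3 : ℝ)⁻¹
    refine ((hd k u).hasFDerivAt.sub h4).congr_of_eventuallyEq (Eventually.of_forall fun y => ?_)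
    change Zf k u y - (Zf 0 u y + Zf 1 u y + Zf 2 u y) / 3 =
      Zf k u y - (3 : ℝ)⁻¹ * (Zf 0 u y + Zf 1 u y + Zf 2 u y)
    ring
  have hjac : ∀ u v : K, jac (fL P V (lat V) K ζ k) x u v =
      pd v (Zf k u) x - (pd v (Zf 0 u) x + pd v (Zf 1 u) x + pd v (Zf 2 u) x) / 3 := by
    intro u v
    rw [jac_apply]
    have h1 : fderiv ℝ (fL P V (lat V) K ζ k) x (Pi.single v 1) u =
        fderiv ℝ (fun x => fL P V (lat V) K ζ k x u) x (Pi.single v 1) := by
      have h2 : HasFDerivAt (fL P V (lat V) K ζ k)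
          (ContinuousLinearMap.pi fun u => fderiv ℝ (fun x => fL P V (lat V) K ζ k x u) x) x :=
        hasFDerivAt_pi.mpr fun u => (hF u).differentiableAt.hasFDerivAt
      rw [h2.fderiv]; rfl
    rw [h1, (hF u).fderiv]
    simp only [Fib674.pd, sub_apply, smul_apply, add_apply, smul_eq_mul]
    ring
  have hsq : ∀ u v : K, jac (fL P V (lat V) K ζ k) x u v ^ 2 ≤
      pd v (Zf 0 u) x ^ 2 + pd v (Zf 1 u) x ^ 2 + pd v (Zf 2 u) x ^ 2 := by
    intro u v
    rw [hjac]
    set a := pd v (Zf 0 u) x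
    set b := pd v (Zf 1 u) x
    set c := pd v (Zf 2 u) x
    have hk : k = 0 ∨ k = 1 ∨ k = 2 := by fin_cases k <;> simp
    rcases hk with rfl | rfl | rfl
    · change (a - (a + b + c) / 3) ^ 2 ≤ a ^ 2 + b ^ 2 + c ^ 2
      nlinarith [sq_nonneg (a + b), sq_nonneg (a + c), sq_nonneg (b - c), sq_nonneg a,
        sq_nonneg b, sq_nonneg c]
    · change (b - (a + b + c) / 3) ^ 2 ≤ a ^ 2 + b ^ 2 + c ^ 2
      nlinarith [sq_nonneg (b + a), sq_nonneg (b + c), sq_nonneg (a - c), sq_nonneg a,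
        sq_nonneg b, sq_nonneg c]
    · change (c - (a + b + c) / 3) ^ 2 ≤ a ^ 2 + b ^ 2 + c ^ 2
      nlinarith [sq_nonneg (c + a), sq_nonneg (c + b), sq_nonneg (a - b), sq_nonneg a,
        sq_nonneg b, sq_nonneg c]
  have hrow : ∀ (j : Fin 3) (u : K), ∑ v, pd v (Zf j u) x ^ 2 ≤
      (2 * P.Lam / P.eps) ^ 2 * (mcw P c0 V (ext K ζ x) u : ℝ) := fun j u =>
    row_le (φs := ps) (i := j) P.eps_pos P.Lam_nonneg hc0 (hd j u)
  calc en (fL P V (lat V) K ζ k) x = ∑ u, ∑ v, jac (fL P V (lat V) K ζ k) x u v ^ 2 := rfl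
    _ ≤ ∑ u : K, ∑ v : K, (pd v (Zf 0 u) x ^ 2 + pd v (Zf 1 u) x ^ 2 + pd v (Zf 2 u) x ^ 2) :=
        Finset.sum_le_sum fun u _ => Finset.sum_le_sum fun v _ => hsq u v
    _ ≤ ∑ u : K, (3 * (2 * P.Lam / P.eps) ^ 2 * (mcw P c0 V (ext K ζ x) u : ℝ)) := by
        refine Finset.sum_le_sum fun u _ => ?_
        rw [Finset.sum_add_distrib, Finset.sum_add_distrib]
        linarith [hrow 0 u, hrow 1 u, hrow 2 u]
    _ = _ := by rw [Finset.mul_sum]

theorem cmb_ek (ζ : P2 → ℝ) (k : Fin 3) :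
    (cmb (refL (refF_L2 P K V (lat V)) ζ) (ek k) : llip K).1 = fL P V (lat V) K ζ k := by
  rw [coe_cmb]
  funext x u
  simp only [Finset.sum_apply, Pi.smul_apply, smul_eq_mul]
  exact (Lf_eq_ek P V (lat V) k (ext K ζ x) u).symm

theorem integrable_mcw (hA : Anch K (lat K)) (ζ : P2 → ℝ) (u : P2) :
    Integrable (fun x : K → ℝ => (mcw P c0 V (ext K ζ x) u : ℝ)) (hamP K (lat K) ζ) := by
  have hfin : IsFiniteMeasure (hamP K (lat K) ζ) := by
    have := (goodLaw_hamP' hA ζ).fin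
    exact this
  refine Integrable.of_bound (C := V.card + 1) ?_ (Eventually.of_forall fun x => ?_)
  · have h1 : Measurable fun x : K → ℝ => mcw P c0 V (ext K ζ x) u :=
      (measurable_mcw V u).comp (measurable_pi_lambda _ fun v => (continuous_ext v).measurable)
    exact (measurable_from_top.comp h1).aestronglyMeasurable
  · rw [Real.norm_eq_abs, abs_of_nonneg (Nat.cast_nonneg _)]
    exact_mod_cast mcw_le V _ u

/-- **(E1)** The block energy in a coordinate direction. -/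
theorem bbB_ek_le (hc0 : 0 < c0) (m : ℕ) (K : Finset P2) (ζ : P2 → ℝ) (k : Fin 3) :
    bbB P m K ζ (ek k) ≤ 3 * (2 * P.Lam / P.eps) ^ 2 *
      ∑ u : K, ∫ x, (mcw P c0 (win m K) (ext K ζ x) u : ℝ) ∂(hamP K (lat K) ζ) := by
  have hA := anch_lat K
  have h1 := bT_le_ref (C := cor m K) (ζ := ζ)
    (L := refL (refF_L2 P K (win m K) (lat (win m K))) ζ) (xi := ek k) hA
  refine le_trans h1 ?_
  have hi : ∀ u ∈ (Finset.univ : Finset K), Integrable
      (fun x : K → ℝ => (mcw P c0 (win m K) (ext K ζ x) u : ℝ)) (hamP K (lat K) ζ) :=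
    fun u _ => integrable_mcw hA ζ (u : P2)
  rw [cmb_ek, ← integral_finsetSum _ hi, ← integral_const_mul]
  refine integral_mono_of_nonneg (Eventually.of_forall fun x => en_nonneg _ _) ?_ ?_
  · exact (integrable_finsetSum _ hi).const_mul _
  · have hac : hamP K (lat K) ζ ≪ volume := (goodLaw_hamP' hA ζ).ac
    filter_upwards [hac.ae_le (ae_diff (P := P) (win m K) (lat (win m K)) K ζ)] with x hx
    exact en_fL_le hc0 hx

end Crest.Agent.R144.Bl565
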