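import Crest.Agent.R144.Bl5_565

/-!
R144 (S0197), helper565.  POS, part 2: tails of the cheap paths from the tight-list bound, and the
bound of the shared scalar.

* `Small P` : `2304 (ρ + ε) ≤ 1 / 576`, `4 ≤ Λ`;
* `TightL ν` : `ν {S tight} ≤ (2304 e) ^ #S` for fresh lists; `DLR μ`;
* `mcw_tail`, `mcw_mean`;
* `abT_le` : POS.
-/

set_option autoImplicit false
set_option linter.unusedSectionVars false

open MeasureTheory Set Filter Topology
open scoped ENNReal NNReal

noncomputable section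

namespace Crest.Agent.R144.Bl565

open Crest.Agent.R144.Ham560 Crest.Agent.R144.Tri560
open Crest.Agent.R144.Zb560 (Z Zx cz lcz lip_Zx pt Fam mem_Fam Fam_card Fam_len Fam_fresh Fam_mem tS
  bad measurableSet_bad mem_bad measure_bad_le pt_mem' pt_ne_nil length_pt H_of_fresh)
open Crest.Agent.R144.BQ565
open Crest.Agent.R144.MW121 (jac jac_apply en measurable_jac measurable_en en_nonneg)
open Crest.Agent.R144.Lc279 (lat mem_lat mem_nbr_lat P2 card_nbr_lat_le)
open Crest.Agent.R144.Lw425 (hd hd_comm hd_le_iff mem_hball hball LObs)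
open Crest.Agent.R144.LoB95 (mc opt_le_mc exists_mc measurable_mc row_le)

/-- Smallness of the parameters. -/
structure Small (P : Par) : Prop where
  tiny : 2304 * (P.rho + P.eps) ≤ 1 / 576
  big : 4 ≤ P.Lam

/-- Tight-list bound. -/
def TightL (ν : Measure (P2 → ℝ)) : Prop :=
  ∀ (V : Finset P2) (S : List (P2 × P2)), Fresh V (lat V) S → ∀ e : ℝ, 0 < e →
    ν {h | ∀ q ∈ S, 1 - e ≤ |h q.1 - h q.2|} ≤ ENNReal.ofReal (2304 * e) ^ S.length

/-- The DLR equations. -/
def DLR (ν : Measure (P2 → ℝ)) : Prop :=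
  ∀ (K : Finset P2) (r : ℕ) (f : (P2 → ℝ) → ℝ), LObs r f →
    ∫ h, f h ∂ν = ∫ h, (∫ x, f (ext K h x) ∂(hamP K (lat K) h)) ∂ν

variable {P : Par} {c0 : ℝ} {V : Finset P2} {ν : Measure (P2 → ℝ)}

/-- Restriction to a window. -/
def rsV (V : Finset P2) (h : P2 → ℝ) : V → ℝ := fun v => h v

theorem measurable_rsV (V : Finset P2) : Measurable (rsV V) :=
  measurable_pi_lambda _ fun _ => measurable_pi_apply _

theorem ext_rsV {h : P2 → ℝ} {v : P2} (hv : v ∈ V) : ext V 0 (rsV V h) v = h v := by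
  rw [ext_mem hv]; rfl

theorem mem_of_Fam {m : ℕ} {w : P2} (hw : w ∈ V) {S : List (P2 × P2)}
    (hS : S ∈ Fam V (lat V) m w) : ∀ q ∈ S, q.1 ∈ V ∧ q.2 ∈ V := by
  obtain ⟨l, _, hl, _, hsub, _⟩ := mem_Fam.mp hS
  intro q hq
  have h1 := pt_mem' hl hw
  have h2 : q ∈ pe l := hsub.subset hq
  have key : ∀ l : List P2, (∀ a ∈ l, a ∈ V) → q ∈ pe l → q.1 ∈ V ∧ q.2 ∈ V := by
    intro l
    induction l with
    | nil => intro _ h2; simp [pe] at h2
    | cons a s ih =>
      intro h1 h2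
      match s with
      | [] => simp [pe] at h2
      | b :: t =>
        rw [pe_cons] at h2
        rcases List.mem_cons.mp h2 with rfl | h2
        · exact ⟨h1 a (by simp), h1 b (by simp)⟩
        · exact ih (fun d hd => h1 d (List.mem_cons_of_mem _ hd)) h2
  exact key l h1 h2

theorem bad_le [IsProbabilityMeasure ν] (hP : Small P) (hT : TightL ν) (hc1 : c0 ≤ 1)
    {w : P2} (hw : w ∈ V) {m : ℕ} (hm : 1 ≤ m) (i : Fin 3) :
    (ν.map (rsV V)) (bad V (lat V) P.rho P.eps P.Lam c0 (ps i) V 0 m w) ≤ (1 / 2) ^ m := by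
  have he : 0 < P.rho + P.eps := add_pos P.rho_pos P.eps_pos
  have hH : ∀ S ∈ Fam V (lat V) m w, (ν.map (rsV V)) (tS V 0 (P.rho + P.eps) S) ≤
      (fun m : ℕ => ENNReal.ofReal (1 / 24) ^ m) m := by
    intro S hS
    have h1 := hT V S (Fam_fresh hS) _ he
    have hmS : MeasurableSet (tS V (0 : P2 → ℝ) (P.rho + P.eps) S) := by
      have : tS V (0 : P2 → ℝ) (P.rho + P.eps) S =
          ⋂ q ∈ {q | q ∈ S}, {x | 1 - (P.rho + P.eps) ≤ |ext V 0 x q.1 - ext V 0 x q.2|} := by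
        ext x; simp [tS]
      rw [this]
      exact (isClosed_biInter fun q _ => isClosed_le continuous_const
        (((continuous_ext q.1).sub (continuous_ext q.2)).abs)).measurableSet
    rw [Measure.map_apply (measurable_rsV V) hmS]
    have hset : rsV V ⁻¹' tS V 0 (P.rho + P.eps) S ⊆
        {h | ∀ q ∈ S, 1 - (P.rho + P.eps) ≤ |h q.1 - h q.2|} := by
      intro h hh q hq
      have := hh q hq
      rw [ext_rsV (mem_of_Fam hw hS q hq).1, ext_rsV (mem_of_Fam hw hS q hq).2] at this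
      exact this
    refine (measure_mono hset).trans (h1.trans ?_)
    have h2 : ENNReal.ofReal (2304 * (P.rho + P.eps)) ≤ ENNReal.ofReal (1 / 24) ^ 2 := by
      rw [← ENNReal.ofReal_pow (by norm_num)]
      exact ENNReal.ofReal_le_ofReal (hP.tiny.trans (by norm_num))
    have h3 : ENNReal.ofReal (1 / 24) ≤ 1 := by
      rw [← ENNReal.ofReal_one]; exact ENNReal.ofReal_le_ofReal (by norm_num)
    calc ENNReal.ofReal (2304 * (P.rho + P.eps)) ^ S.length
        ≤ (ENNReal.ofReal (1 / 24) ^ 2) ^ S.length := by gcongr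
      _ = ENNReal.ofReal (1 / 24) ^ (2 * S.length) := by rw [← pow_mul]
      _ ≤ ENNReal.ofReal (1 / 24) ^ m := pow_le_pow_right_of_le_one' h3 (Fam_len hS).1
  have hLam : 0 < P.Lam := by linarith [hP.big]
  have h4 := measure_bad_le (V := V) (E := lat V) (F := V) (ξ := 0) (κ := 1) (ρ := P.rho)
    (φ := ps i) (c0 := c0) (u := w) (m := m) (n := 6) (μ := ν.map (rsV V))
    (b := fun m : ℕ => ENNReal.ofReal (1 / 24) ^ m) P.eps_pos hLam (by linarith [hP.big])
    (fun a b hab => by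
      have := abs_ps_sub_le i a b
      rw [(mem_nbr_lat.mp hab).1] at this
      exact_mod_cast this)
    (by
      have h5 : (1 : ℝ) ≤ m := by exact_mod_cast hm
      nlinarith [hP.big])
    (fun v _ => card_nbr_lat_le V v) hH
  refine h4.trans (le_of_eq ?_)
  rw [← mul_pow]
  congr 1
  rw [show ((2 * 6 : ℕ) : ℝ≥0∞) = ENNReal.ofReal 12 by
    rw [show ((2 * 6 : ℕ) : ℝ≥0∞) = ((12 : ℕ) : ℝ≥0∞) by norm_num, ← ENNReal.ofReal_natCast]
    norm_num]
  rw [← ENNReal.ofReal_mul (by norm_num)]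
  rw [show (12 : ℝ) * (1 / 24) = 1 / 2 by norm_num]
  rw [ENNReal.ofReal_div_of_pos (by norm_num)]
  simp

theorem geo_sum (j N : ℕ) : ∑ m ∈ Finset.Ico j N, (1 / 2 : ℝ) ^ m ≤ 2 * (1 / 2) ^ j := by
  rcases le_or_gt N j with h | h
  · rw [Finset.Ico_eq_empty_of_le h, Finset.sum_empty]; positivity
  · have h1 := geom_sum_Ico (x := (1 / 2 : ℝ)) (by norm_num) h.le
    rw [h1]
    have h2 : (0 : ℝ) ≤ (1 / 2) ^ N := by positivity
    rw [div_le_iff_of_neg (by norm_num)]
    linarith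

/-- **Tails of the cheap paths.** -/
theorem mcw_tail [IsProbabilityMeasure ν] (hP : Small P) (hT : TightL ν) (hc1 : c0 ≤ 1)
    {w : P2} (hw : w ∈ V) {j : ℕ} (hj : 1 ≤ j) :
    ν.real {h | j < mcw P c0 V h w} ≤ 6 * (1 / 2) ^ j := by
  have hsub : {h | j < mcw P c0 V h w} ⊆ rsV V ⁻¹' ⋃ i : Fin 3, ⋃ m ∈ Finset.Ico j (V.card + 1),
      bad V (lat V) P.rho P.eps P.Lam c0 (ps i) V 0 m w := by
    intro h hh
    obtain ⟨i, l, hl, hlen, hc⟩ := exists_mc (Nat.succ_pos j) (Nat.succ_le_of_lt hh)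
    simp only [mem_preimage, mem_iUnion]
    have hle := length_pt hl
    refine ⟨i, l.length - 1, Finset.mem_Ico.mpr ⟨by omega, by omega⟩, ?_⟩
    refine mem_bad hl (by omega) ?_
    refine le_trans (le_of_eq ?_) hc.le
    exact cz_congr fun a ha => ext_rsV (pt_mem' hl hw a ha)
  have hmeas : ∀ (i : Fin 3) (m : ℕ),
      MeasurableSet (bad V (lat V) P.rho P.eps P.Lam c0 (ps i) V 0 m w) :=
    fun i m => measurableSet_bad
  have h1 : ν {h | j < mcw P c0 V h w} ≤
      ENNReal.ofReal (6 * (1 / 2) ^ j) := by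
    calc ν {h | j < mcw P c0 V h w}
        ≤ ν (rsV V ⁻¹' ⋃ i : Fin 3, ⋃ m ∈ Finset.Ico j (V.card + 1),
            bad V (lat V) P.rho P.eps P.Lam c0 (ps i) V 0 m w) := measure_mono hsub
      _ = (ν.map (rsV V)) (⋃ i : Fin 3, ⋃ m ∈ Finset.Ico j (V.card + 1),
            bad V (lat V) P.rho P.eps P.Lam c0 (ps i) V 0 m w) := by
          rw [Measure.map_apply (measurable_rsV V)]
          exact MeasurableSet.iUnion fun i => Finset.measurableSet_biUnion _ fun m _ => hmeas i m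
      _ ≤ ∑ i : Fin 3, (ν.map (rsV V)) (⋃ m ∈ Finset.Ico j (V.card + 1),
            bad V (lat V) P.rho P.eps P.Lam c0 (ps i) V 0 m w) := measure_iUnion_fintype_le _ _
      _ ≤ ∑ _i : Fin 3, ENNReal.ofReal (2 * (1 / 2) ^ j) := by
          refine Finset.sum_le_sum fun i _ => ?_
          refine (measure_biUnion_finset_le _ _).trans ?_
          calc ∑ m ∈ Finset.Ico j (V.card + 1), (ν.map (rsV V))
                (bad V (lat V) P.rho P.eps P.Lam c0 (ps i) V 0 m w)
              ≤ ∑ m ∈ Finset.Ico j (V.card + 1), ENNReal.ofReal ((1 / 2) ^ m) := by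
                refine Finset.sum_le_sum fun m hm => ?_
                have hm1 := (Finset.mem_Ico.mp hm).1
                refine (bad_le hP hT hc1 hw (by omega) i).trans (le_of_eq ?_)
                rw [ENNReal.ofReal_pow (by norm_num), ENNReal.ofReal_div_of_pos (by norm_num)]
                simp
            _ = ENNReal.ofReal (∑ m ∈ Finset.Ico j (V.card + 1), (1 / 2) ^ m) :=
                (ENNReal.ofReal_sum_of_nonneg fun _ _ => by positivity).symm
            _ ≤ ENNReal.ofReal (2 * (1 / 2) ^ j) := ENNReal.ofReal_le_ofReal (geo_sum _ _)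
      _ = ENNReal.ofReal (6 * (1 / 2) ^ j) := by
          rw [Finset.sum_const, Finset.card_univ, Fintype.card_fin, nsmul_eq_mul]
          rw [show ((3 : ℕ) : ℝ≥0∞) = ENNReal.ofReal 3 by
            rw [← ENNReal.ofReal_natCast]; norm_num]
          rw [← ENNReal.ofReal_mul (by norm_num)]
          congr 1; ring
  rw [Measure.real]
  exact ENNReal.toReal_le_of_le_ofReal (by positivity) h1

theorem nat_eq_sum {n N : ℕ} (h : n ≤ N) :
    (n : ℝ) = ∑ j ∈ Finset.range N, if j < n then (1 : ℝ) else 0 := by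
  rw [Finset.sum_boole]
  congr 1
  have : (Finset.range N).filter (fun j => j < n) = Finset.range n := by
    ext j; simp; omega
  rw [this, Finset.card_range]

theorem integrable_mcw' [IsProbabilityMeasure ν] (w : P2) :
    Integrable (fun h => (mcw P c0 V h w : ℝ)) ν := by
  refine Integrable.of_bound (C := V.card + 1) ?_ (Eventually.of_forall fun h => ?_)
  · exact (measurable_from_top.comp (measurable_mcw V w)).aestronglyMeasurable
  · rw [Real.norm_eq_abs, abs_of_nonneg (Nat.cast_nonneg _)]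
    exact_mod_cast mcw_le V _ w

/-- **Mean length of the cheap paths.** -/
theorem mcw_mean [IsProbabilityMeasure ν] (hP : Small P) (hT : TightL ν) (hc1 : c0 ≤ 1)
    {w : P2} (hw : w ∈ V) : ∫ h, (mcw P c0 V h w : ℝ) ∂ν ≤ 7 := by
  have hms : ∀ j, MeasurableSet {h : P2 → ℝ | j < mcw P c0 V h w} := fun j =>
    (measurable_mcw V w) (measurableSet_Ioi (a := j))
  have h1 : ∀ h : P2 → ℝ, (mcw P c0 V h w : ℝ) = ∑ j ∈ Finset.range (V.card + 1),
      {h : P2 → ℝ | j < mcw P c0 V h w}.indicator (fun _ => (1 : ℝ)) h := by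
    intro h
    rw [nat_eq_sum (mcw_le V h w)]
    refine Finset.sum_congr rfl fun j _ => ?_
    by_cases hj : j < mcw P c0 V h w
    · rw [if_pos hj, indicator_of_mem (s := {h : P2 → ℝ | j < mcw P c0 V h w}) hj]
    · rw [if_neg hj, indicator_of_notMem (s := {h : P2 → ℝ | j < mcw P c0 V h w}) hj]
  simp only [h1]
  rw [integral_finsetSum]
  · have h2 : ∀ j, ∫ h, {h : P2 → ℝ | j < mcw P c0 V h w}.indicator (fun _ => (1 : ℝ)) h ∂ν =
        ν.real {h : P2 → ℝ | j < mcw P c0 V h w} := fun j => by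
      rw [integral_indicator (hms j)]; simp
    simp only [h2]
    rw [Finset.range_eq_Ico, Finset.sum_eq_sum_Ico_succ_bot (Nat.succ_pos _)]
    have h3 : ν.real {h : P2 → ℝ | 0 < mcw P c0 V h w} ≤ 1 := measureReal_le_one
    have h4 : ∑ j ∈ Finset.Ico (0 + 1) (V.card + 1), ν.real {h : P2 → ℝ | j < mcw P c0 V h w} ≤
        ∑ j ∈ Finset.Ico (0 + 1) (V.card + 1), 6 * (1 / 2 : ℝ) ^ j :=
      Finset.sum_le_sum fun j hj => mcw_tail hP hT hc1 hw (Finset.mem_Ico.mp hj).1
    rw [← Finset.mul_sum] at h4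
    have h5 := geo_sum (0 + 1) (V.card + 1)
    linarith
  · intro j _
    exact (integrable_const (1 : ℝ)).indicator (hms j)

/-! ### POS -/

theorem trE_bbO_le (hc0 : 0 < c0) (r : ℕ) (o : Fin 3) (h : P2 → ℝ) :
    trE (bbO P r o h) ≤ 9 / 2 * (2 * P.Lam / P.eps) ^ 2 * ((((r / 2 : ℕ) : ℝ)) ^ 2)⁻¹ *
      ∑ u : bk r o, ∫ x, (mcw P c0 (win (cw r) (bk r o)) (ext (bk r o) h x) u : ℝ)
        ∂(hamP (bk r o) (lat (bk r o)) h) := by
  rw [trE_eq_sum (bbO_symm r o h 0 1)]
  simp only [qd_bbO]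
  rw [← Finset.mul_sum]
  have h1 : ∑ k, bbB P (cw r) (bk r o) h (ek k) ≤ ∑ _k : Fin 3, (3 * (2 * P.Lam / P.eps) ^ 2 *
      ∑ u : bk r o, ∫ x, (mcw P c0 (win (cw r) (bk r o)) (ext (bk r o) h x) u : ℝ)
        ∂(hamP (bk r o) (lat (bk r o)) h)) :=
    Finset.sum_le_sum fun k _ => bbB_ek_le hc0 (cw r) (bk r o) h k
  rw [Finset.sum_const, Finset.card_univ, Fintype.card_fin, nsmul_eq_mul] at h1
  have h2 : (0 : ℝ) ≤ ((((r / 2 : ℕ) : ℝ)) ^ 2)⁻¹ := by positivity
  have h3 := mul_le_mul_of_nonneg_left h1 h2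
  push_cast at h3 ⊢
  linarith

theorem mean_mcw_meas (r : ℕ) (o : Fin 3) (u : P2) :
    Measurable fun h : P2 → ℝ => ∫ x, (mcw P c0 (win (cw r) (bk r o)) (ext (bk r o) h x) u : ℝ)
        ∂(hamP (bk r o) (lat (bk r o)) h) := by
  refine measurable_mean_param (f := fun h x =>
    (mcw P c0 (win (cw r) (bk r o)) (ext (bk r o) h x) u : ℝ)) ?_
  exact measurable_from_top.comp ((measurable_mcw _ u).comp continuous_ext_pi.measurable)

theorem lobs_mcw {r : ℕ} {V : Finset P2} (hV : V ⊆ hball r) {u : P2} (hu : u ∈ V) :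
    LObs r fun h => ((V.card + 1 : ℕ) : ℝ)⁻¹ * (mcw P c0 V h u : ℝ) where
  meas := (measurable_from_top.comp (measurable_mcw V u)).const_mul _
  bd h := by
    have h1 : (0 : ℝ) < ((V.card + 1 : ℕ) : ℝ) := by positivity
    have h2 : (mcw P c0 V h u : ℝ) ≤ ((V.card + 1 : ℕ) : ℝ) := by exact_mod_cast mcw_le V h u
    rw [abs_mul, abs_of_pos (inv_pos.mpr h1), abs_of_nonneg (Nat.cast_nonneg _),
      inv_mul_le_iff₀ h1]
    simpa using h2
  loc h h' hh := by rw [mcw_congr (fun a ha => hh a (hV ha)) hu]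
  shift h c := by rw [mcw_shift]

end Crest.Agent.R144.Bl565
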