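import Mathlib.Algebra.BigOperators.Ring.Finset
import Mathlib.Algebra.Order.BigOperators.Ring.Finset
import Mathlib.Analysis.SpecialFunctions.Log.Basic
import Mathlib.Analysis.SpecialFunctions.Exp
import Mathlib.Analysis.Complex.ExponentialBounds
import Mathlib.Tactic

/-!
# R144, closed-contour Ward identity: counting good blocks and barriers (helper311)

Abstract successive conditioning for a positive normalised linear functional `E` on a class `A` of
real functions on a type `Om` (`Law A E`; for finite volume laws `A = ⊤`).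

* `Law.prod_le`, `Law.le_prod` : product bounds for block functions;
* `Law.few_good` : few good blocks are exponentially rare;
* `Law.many_bad` : among good blocks, more than a fraction `1 / K` without barrier is exponentially rare;
* `Law.kap_two` : the two-replica bound `E2 [kap ^ |J|] ≤ ...` (what the swap chain consumes).
-/

set_option autoImplicit false

noncomputable section

namespace Crest.Agent.R144.Ccnt311

open Finset

variable {Om : Type*}

/-- an algebra of functions containing the constants -/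
structure Alg (A : (Om → ℝ) → Prop) : Prop where
  const : ∀ a : ℝ, A fun _ => a
  add : ∀ f g, A f → A g → A fun w => f w + g w
  mul : ∀ f g, A f → A g → A fun w => f w * g w

/-- positive normalised linear functional on the algebra `A` -/
structure Law (A : (Om → ℝ) → Prop) (E : (Om → ℝ) → ℝ) : Prop where
  add : ∀ f g, A f → A g → E (fun w => f w + g w) = E f + E g
  smul : ∀ (a : ℝ) f, A f → E (fun w => a * f w) = a * E f
  mono : ∀ f g, A f → A g → (∀ w, f w ≤ g w) → E f ≤ E g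
  one : E (fun _ => 1) = 1

theorem alg_top : Alg (fun _ : Om → ℝ => True) :=
  ⟨fun _ => trivial, fun _ _ _ _ => trivial, fun _ _ _ _ => trivial⟩

theorem Alg.smul {A : (Om → ℝ) → Prop} (hA : Alg A) (a : ℝ) {f : Om → ℝ} (hf : A f) :
    A fun w => a * f w := hA.mul _ _ (hA.const a) hf

theorem Alg.sub {A : (Om → ℝ) → Prop} (hA : Alg A) {f g : Om → ℝ} (hf : A f) (hg : A g) :
    A fun w => f w - g w := by
  have h := hA.add _ _ hf (hA.smul (-1) hg)
  convert h using 2 with w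
  ring

theorem Alg.prod {A : (Om → ℝ) → Prop} (hA : Alg A) {ι : Type*} (s : Finset ι)
    {f : ι → Om → ℝ} (hf : ∀ i ∈ s, A (f i)) : A fun w => ∏ i ∈ s, f i w := by
  classical
  induction s using Finset.induction_on with
  | empty => simpa using hA.const 1
  | insert a s ha ih =>
    have h1 := ih fun i hi => hf i (Finset.mem_insert_of_mem hi)
    have h2 := hA.mul _ _ (hf a (Finset.mem_insert_self _ _)) h1
    convert h2 using 2 with w
    rw [Finset.prod_insert ha]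

theorem Alg.sum {A : (Om → ℝ) → Prop} (hA : Alg A) {ι : Type*} (s : Finset ι)
    {f : ι → Om → ℝ} (hf : ∀ i ∈ s, A (f i)) : A fun w => ∑ i ∈ s, f i w := by
  classical
  induction s using Finset.induction_on with
  | empty => simpa using hA.const 0
  | insert a s ha ih =>
    have h1 := ih fun i hi => hf i (Finset.mem_insert_of_mem hi)
    have h2 := hA.add _ _ (hf a (Finset.mem_insert_self _ _)) h1
    convert h2 using 2 with w
    rw [Finset.sum_insert ha]

namespace Law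

variable {A : (Om → ℝ) → Prop} {E : (Om → ℝ) → ℝ}

theorem sub (hA : Alg A) (hE : Law A E) {f g : Om → ℝ} (hf : A f) (hg : A g) :
    E (fun w => f w - g w) = E f - E g := by
  have h := hE.add f (fun w => (-1) * g w) hf (hA.smul (-1) hg)
  rw [hE.smul (-1) g hg] at h
  have e : (fun w => f w - g w) = fun w => f w + (-1) * g w := by
    funext w; ring
  rw [e, h]; ring

theorem const (hA : Alg A) (hE : Law A E) (a : ℝ) : E (fun _ => a) = a := by
  have h := hE.smul a (fun _ => 1) (hA.const 1)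
  simpa [hE.one] using h

theorem nonneg (hA : Alg A) (hE : Law A E) {f : Om → ℝ} (hf : A f) (h : ∀ w, 0 ≤ f w) :
    0 ≤ E f := by
  have := hE.mono (fun _ => 0) f (hA.const 0) hf h
  rwa [hE.const hA] at this

/-- **Successive conditioning, upper form.** -/
theorem prod_le (hA : Alg A) (_hE : Law A E) {ι : Type*} (S : Finset ι) (φ : ι → Om → ℝ)
    (a : ι → ℝ) (Off : ι → (Om → ℝ) → Prop)
    (hOm : ∀ j f g, Off j f → Off j g → Off j (fun w => f w * g w))
    (hφA : ∀ j ∈ S, A (φ j)) (hφ0 : ∀ j ∈ S, ∀ w, 0 ≤ φ j w) (ha : ∀ j ∈ S, 0 ≤ a j)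
    (hoff : ∀ i ∈ S, ∀ j ∈ S, i ≠ j → Off j (φ i))
    (hb : ∀ j ∈ S, ∀ g, A g → (∀ w, 0 ≤ g w) → Off j g →
      E (fun w => g w * φ j w) ≤ a j * E g)
    (g : Om → ℝ) (hgA : A g) (hg0 : ∀ w, 0 ≤ g w) (hg : ∀ j ∈ S, Off j g) :
    E (fun w => g w * ∏ j ∈ S, φ j w) ≤ (∏ j ∈ S, a j) * E g := by
  classical
  induction S using Finset.induction_on generalizing g with
  | empty => simp
  | insert j S hj ih =>
    have hsub : ∀ i ∈ S, i ∈ insert j S := fun i hi => Finset.mem_insert_of_mem hi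
    have hjm : j ∈ insert j S := Finset.mem_insert_self _ _
    have ih' := ih (fun i hi => hφA i (hsub i hi)) (fun i hi => hφ0 i (hsub i hi))
      (fun i hi => ha i (hsub i hi))
      (fun i hi k hk hik => hoff i (hsub i hi) k (hsub k hk) hik)
      (fun i hi => hb i (hsub i hi)) g hgA hg0 (fun i hi => hg i (hsub i hi))
    -- the function `g * prod_S` is off `j`
    have hoffS : ∀ T : Finset ι, T ⊆ S → Off j (fun w => g w * ∏ i ∈ T, φ i w) := by
      intro T
      induction T using Finset.induction_on with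
      | empty => intro _; simpa using hg j hjm
      | insert k T hk ihT =>
        intro hT
        have h1 := ihT fun i hi => hT (Finset.mem_insert_of_mem hi)
        have hkS : k ∈ S := hT (Finset.mem_insert_self _ _)
        have h2 : Off j (φ k) := hoff k (hsub k hkS) j hjm (fun h => hj (h ▸ hkS))
        have h3 := hOm j _ _ h1 h2
        have e : (fun w => (g w * ∏ i ∈ T, φ i w) * φ k w) =
            fun w => g w * ∏ i ∈ insert k T, φ i w := by
          funext w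
          rw [Finset.prod_insert hk]; ring
        rwa [e] at h3
    have hAS : A (fun w => g w * ∏ i ∈ S, φ i w) :=
      hA.mul _ _ hgA (hA.prod S fun i hi => hφA i (hsub i hi))
    have h1 := hb j hjm _ hAS
      (fun w => mul_nonneg (hg0 w) (Finset.prod_nonneg fun i hi => hφ0 i (hsub i hi) w))
      (hoffS S Finset.Subset.rfl)
    have e : (fun w => g w * ∏ i ∈ insert j S, φ i w) =
        fun w => (g w * ∏ i ∈ S, φ i w) * φ j w := by
      funext w
      rw [Finset.prod_insert hj]; ring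
    rw [e, Finset.prod_insert hj]
    calc E (fun w => (g w * ∏ i ∈ S, φ i w) * φ j w)
        ≤ a j * E (fun w => g w * ∏ i ∈ S, φ i w) := h1
      _ ≤ a j * ((∏ i ∈ S, a i) * E g) := mul_le_mul_of_nonneg_left ih' (ha j hjm)
      _ = a j * (∏ i ∈ S, a i) * E g := by ring

/-- **Successive conditioning, lower form.** -/
theorem le_prod (hA : Alg A) (_hE : Law A E) {ι : Type*} (S : Finset ι) (φ : ι → Om → ℝ)
    (a : ι → ℝ) (Off : ι → (Om → ℝ) → Prop)
    (hOm : ∀ j f g, Off j f → Off j g → Off j (fun w => f w * g w))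
    (hφA : ∀ j ∈ S, A (φ j)) (hφ0 : ∀ j ∈ S, ∀ w, 0 ≤ φ j w) (ha : ∀ j ∈ S, 0 ≤ a j)
    (hoff : ∀ i ∈ S, ∀ j ∈ S, i ≠ j → Off j (φ i))
    (hb : ∀ j ∈ S, ∀ g, A g → (∀ w, 0 ≤ g w) → Off j g →
      a j * E g ≤ E (fun w => g w * φ j w))
    (g : Om → ℝ) (hgA : A g) (hg0 : ∀ w, 0 ≤ g w) (hg : ∀ j ∈ S, Off j g) :
    (∏ j ∈ S, a j) * E g ≤ E (fun w => g w * ∏ j ∈ S, φ j w) := by
  classical
  induction S using Finset.induction_on generalizing g with
  | empty => simp
  | insert j S hj ih =>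
    have hsub : ∀ i ∈ S, i ∈ insert j S := fun i hi => Finset.mem_insert_of_mem hi
    have hjm : j ∈ insert j S := Finset.mem_insert_self _ _
    have ih' := ih (fun i hi => hφA i (hsub i hi)) (fun i hi => hφ0 i (hsub i hi))
      (fun i hi => ha i (hsub i hi))
      (fun i hi k hk hik => hoff i (hsub i hi) k (hsub k hk) hik)
      (fun i hi => hb i (hsub i hi)) g hgA hg0 (fun i hi => hg i (hsub i hi))
    have hoffS : ∀ T : Finset ι, T ⊆ S → Off j (fun w => g w * ∏ i ∈ T, φ i w) := by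
      intro T
      induction T using Finset.induction_on with
      | empty => intro _; simpa using hg j hjm
      | insert k T hk ihT =>
        intro hT
        have h1 := ihT fun i hi => hT (Finset.mem_insert_of_mem hi)
        have hkS : k ∈ S := hT (Finset.mem_insert_self _ _)
        have h2 : Off j (φ k) := hoff k (hsub k hkS) j hjm (fun h => hj (h ▸ hkS))
        have h3 := hOm j _ _ h1 h2
        have e : (fun w => (g w * ∏ i ∈ T, φ i w) * φ k w) =
            fun w => g w * ∏ i ∈ insert k T, φ i w := by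
          funext w
          rw [Finset.prod_insert hk]; ring
        rwa [e] at h3
    have hAS : A (fun w => g w * ∏ i ∈ S, φ i w) :=
      hA.mul _ _ hgA (hA.prod S fun i hi => hφA i (hsub i hi))
    have h1 := hb j hjm _ hAS
      (fun w => mul_nonneg (hg0 w) (Finset.prod_nonneg fun i hi => hφ0 i (hsub i hi) w))
      (hoffS S Finset.Subset.rfl)
    have e : (fun w => g w * ∏ i ∈ insert j S, φ i w) =
        fun w => (g w * ∏ i ∈ S, φ i w) * φ j w := by
      funext w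
      rw [Finset.prod_insert hj]; ring
    rw [e, Finset.prod_insert hj]
    calc a j * (∏ i ∈ S, a i) * E g = a j * ((∏ i ∈ S, a i) * E g) := by ring
      _ ≤ a j * E (fun w => g w * ∏ i ∈ S, φ i w) := mul_le_mul_of_nonneg_left ih' (ha j hjm)
      _ ≤ _ := h1

end Law

/-! ### indicators and counts -/

open Classical in
/-- indicator -/
def ind (G : Set Om) (w : Om) : ℝ := if w ∈ G then 1 else 0

theorem ind_nonneg (G : Set Om) (w : Om) : 0 ≤ ind G w := by unfold ind; split_ifs <;> norm_num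
theorem ind_le_one (G : Set Om) (w : Om) : ind G w ≤ 1 := by unfold ind; split_ifs <;> norm_num
theorem ind_mem {G : Set Om} {w : Om} (h : w ∈ G) : ind G w = 1 := if_pos h
theorem ind_not {G : Set Om} {w : Om} (h : w ∉ G) : ind G w = 0 := if_neg h
theorem ind_compl (G : Set Om) (w : Om) : ind Gᶜ w = 1 - ind G w := by
  by_cases h : w ∈ G
  · rw [ind_mem h, ind_not (by simpa using h)]; ring
  · rw [ind_not h, ind_mem (by simpa using h)]; ring
theorem ind_inter (G H : Set Om) (w : Om) : ind (G ∩ H) w = ind G w * ind H w := by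
  by_cases h : w ∈ G <;> by_cases h' : w ∈ H <;> simp [ind, h, h']
theorem ind_mono {G H : Set Om} (hGH : G ⊆ H) (w : Om) : ind G w ≤ ind H w := by
  by_cases h : w ∈ G
  · rw [ind_mem h, ind_mem (hGH h)]
  · rw [ind_not h]; exact ind_nonneg _ _

open Classical in
/-- number of the events `G j`, `j ∈ S`, that occur -/
def cnt {ι : Type*} (S : Finset ι) (G : ι → Set Om) (w : Om) : ℕ := (S.filter fun j => w ∈ G j).card

theorem cnt_le_card {ι : Type*} (S : Finset ι) (G : ι → Set Om) (w : Om) :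
    cnt S G w ≤ S.card := by
  classical
  exact Finset.card_filter_le _ _

theorem prod_cnt {ι : Type*} (S : Finset ι) (G : ι → Set Om) (r : ℝ) (w : Om) :
    ∏ j ∈ S, (1 + (r - 1) * ind (G j) w) = r ^ cnt S G w := by
  classical
  unfold cnt
  rw [← Finset.prod_filter_mul_prod_filter_not S (fun j => w ∈ G j)]
  have h1 : ∏ j ∈ S.filter (fun j => w ∈ G j), (1 + (r - 1) * ind (G j) w) =
      r ^ (S.filter (fun j => w ∈ G j)).card := by
    rw [← Finset.prod_const]
    refine Finset.prod_congr rfl fun j hj => ?_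
    rw [ind_mem (Finset.mem_filter.1 hj).2]; ring
  have h2 : ∏ j ∈ S.filter (fun j => ¬ w ∈ G j), (1 + (r - 1) * ind (G j) w) = 1 := by
    refine Finset.prod_eq_one fun j hj => ?_
    rw [ind_not (Finset.mem_filter.1 hj).2]; ring
  rw [h1, h2, mul_one]

theorem cnt_mono {ι : Type*} (S : Finset ι) {G H : ι → Set Om} (w : Om)
    (h : ∀ j ∈ S, w ∈ G j → w ∈ H j) : cnt S G w ≤ cnt S H w := by
  classical
  unfold cnt
  refine Finset.card_le_card fun j hj => ?_
  rw [Finset.mem_filter] at hj ⊢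
  exact ⟨hj.1, h j hj.1 hj.2⟩

theorem mem_cnt {ι : Type*} (S : Finset ι) (G : ι → Set Om) (w : Om) :
    (cnt S G w : ℝ) = ∑ j ∈ S, ind (G j) w := by
  classical
  unfold cnt ind
  rw [Finset.card_filter]
  push_cast
  exact Finset.sum_congr rfl fun j _ => by congr

theorem cnt_mono' {ι : Type*} (S : Finset ι) {G : ι → Set Om} (w : Om × Om)
    (h : ∀ j ∈ S, w.2 ∈ G j → w.1 ∈ G j) : cnt S G w.2 ≤ cnt S G w.1 := by
  classical
  unfold cnt
  refine Finset.card_le_card fun j hj => ?_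
  rw [Finset.mem_filter] at hj ⊢
  exact ⟨hj.1, h j hj.1 hj.2⟩

theorem cnt_mono'' {ι : Type*} (S : Finset ι) {G : ι → Set Om} (w : Om × Om)
    (h : ∀ j ∈ S, w.1 ∈ G j → w.2 ∈ G j) : cnt S G w.1 ≤ cnt S G w.2 := by
  classical
  unfold cnt
  refine Finset.card_le_card fun j hj => ?_
  rw [Finset.mem_filter] at hj ⊢
  exact ⟨hj.1, h j hj.1 hj.2⟩

/-- good blocks split in those with and without barrier -/
theorem cnt_split {ι : Type*} (S : Finset ι) (G X : ι → Set Om) (w : Om) :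
    cnt S G w = cnt S (fun j => G j ∩ X j) w + cnt S (fun j => G j ∩ (X j)ᶜ) w := by
  have h : (cnt S G w : ℝ) =
      ((cnt S (fun j => G j ∩ X j) w + cnt S (fun j => G j ∩ (X j)ᶜ) w : ℕ) : ℝ) := by
    rw [Nat.cast_add, mem_cnt, mem_cnt, mem_cnt, ← Finset.sum_add_distrib]
    refine Finset.sum_congr rfl fun j _ => ?_
    rw [ind_inter, ind_inter, ind_compl]; ring
  exact_mod_cast h

namespace Law

variable {A : (Om → ℝ) → Prop} {E : (Om → ℝ) → ℝ}

/-- Markov's inequality. -/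
theorem markov (hA : Alg A) (hE : Law A E) {f : Om → ℝ} (hf : A f) (h0 : ∀ w, 0 ≤ f w)
    {D : Set Om} (hD : A (ind D)) {r : ℝ} (hr : 0 < r) (h : ∀ w ∈ D, r ≤ f w) :
    E (ind D) ≤ r⁻¹ * E f := by
  have h1 : E (fun w => r * ind D w) ≤ E f := by
    refine hE.mono _ _ (hA.smul r hD) hf fun w => ?_
    by_cases hw : w ∈ D
    · rw [ind_mem hw, mul_one]; exact h w hw
    · rw [ind_not hw, mul_zero]; exact h0 w
  rw [hE.smul r _ hD] at h1
  rw [← div_eq_inv_mul, le_div_iff₀ hr]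
  linarith

section Counts
variable {ι : Type*} (S : Finset ι) (Off : ι → (Om → ℝ) → Prop)

/-- **MGF of the number of good blocks.** -/
theorem mgf_good (hA : Alg A) (hE : Law A E)
    (hOm : ∀ j f g, Off j f → Off j g → Off j (fun w => f w * g w))
    {G : ι → Set Om} (hGA : ∀ j ∈ S, A (ind (G j)))
    (hOind : ∀ i ∈ S, ∀ j ∈ S, i ≠ j → ∀ a b : ℝ, Off j (fun w => a + b * ind (G i) w))
    {p : ℝ} (hp1 : p ≤ 1)
    (hb : ∀ j ∈ S, ∀ g, A g → (∀ w, 0 ≤ g w) → Off j g → p * E g ≤ E (fun w => g w * ind (G j) w))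
    {r : ℝ} (hr0 : 0 ≤ r) (hr1 : r ≤ 1)
    (g : Om → ℝ) (hgA : A g) (hg0 : ∀ w, 0 ≤ g w) (hg : ∀ j ∈ S, Off j g) :
    E (fun w => g w * r ^ cnt S G w) ≤ (1 - (1 - r) * p) ^ S.card * E g := by
  classical
  have h := hE.prod_le hA S (fun j w => 1 + (r - 1) * ind (G j) w)
    (fun _ => 1 - (1 - r) * p) Off hOm
    (fun j hj => hA.add _ _ (hA.const 1) (hA.smul _ (hGA j hj)))
    (fun j _ w => by
      have h1 := ind_nonneg (G j) w
      have h2 := ind_le_one (G j) w
      nlinarith)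
    (fun j _ => by nlinarith)
    (fun i hi j hj hij => hOind i hi j hj hij 1 (r - 1))
    (fun j hj g hgA hg0 hg => by
      have e : (fun w => g w * (1 + (r - 1) * ind (G j) w)) =
          fun w => g w + (r - 1) * (g w * ind (G j) w) := by
        funext w; ring
      have h1 := hb j hj g hgA hg0 hg
      rw [e, hE.add _ _ hgA (hA.smul _ (hA.mul _ _ hgA (hGA j hj))),
        hE.smul _ _ (hA.mul _ _ hgA (hGA j hj))]
      nlinarith)
    g hgA hg0 hg
  rw [Finset.prod_const] at h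
  simp only [prod_cnt] at h
  exact h

theorem exp_aux {p : ℝ} (hp0 : 0 ≤ p) (hp1 : p ≤ 1) {n m : ℕ} (hn : (n : ℝ) ≤ p * m / 4) :
    (2 : ℝ) ^ n * (1 - p / 2) ^ m ≤ Real.exp (-(p * m / 4)) := by
  have h1 : (2 : ℝ) ^ n ≤ Real.exp (0.7 * (p * m / 4)) := by
    have h2 : (2 : ℝ) ^ n = Real.exp (Real.log 2 * n) := by
      rw [Real.exp_mul, Real.exp_log (by norm_num), Real.rpow_natCast]
    rw [h2]
    apply Real.exp_le_exp.2
    have h3 : Real.log 2 ≤ 0.7 := by
      have := Real.log_two_lt_d9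
      linarith
    have h4 : 0 ≤ Real.log 2 := Real.log_nonneg (by norm_num)
    have h5 : (0 : ℝ) ≤ n := Nat.cast_nonneg n
    nlinarith
  have h2 : (1 - p / 2) ^ m ≤ Real.exp (-(p * m / 2)) := by
    have h3 : 1 - p / 2 ≤ Real.exp (-(p / 2)) := by
      have := Real.add_one_le_exp (-(p / 2))
      linarith
    calc (1 - p / 2) ^ m ≤ Real.exp (-(p / 2)) ^ m :=
          pow_le_pow_left₀ (by linarith) h3 m
      _ = Real.exp (-(p * m / 2)) := by
          rw [← Real.exp_nat_mul]; congr 1; ring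
  calc (2 : ℝ) ^ n * (1 - p / 2) ^ m
      ≤ Real.exp (0.7 * (p * m / 4)) * Real.exp (-(p * m / 2)) :=
        mul_le_mul h1 h2 (pow_nonneg (by linarith) _) (Real.exp_pos _).le
    _ = Real.exp (0.7 * (p * m / 4) + -(p * m / 2)) := (Real.exp_add _ _).symm
    _ ≤ Real.exp (-(p * m / 4)) := by
        apply Real.exp_le_exp.2
        have : 0 ≤ p * m := mul_nonneg hp0 (Nat.cast_nonneg m)
        nlinarith

/-- **Few good blocks are exponentially rare.** -/
theorem few_good (hA : Alg A) (hE : Law A E)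
    (hOm : ∀ j f g, Off j f → Off j g → Off j (fun w => f w * g w))
    {G : ι → Set Om} (hGA : ∀ j ∈ S, A (ind (G j)))
    (hOind : ∀ i ∈ S, ∀ j ∈ S, i ≠ j → ∀ a b : ℝ, Off j (fun w => a + b * ind (G i) w))
    (hOone : ∀ j ∈ S, Off j (fun _ => 1))
    {p : ℝ} (hp0 : 0 ≤ p) (hp1 : p ≤ 1)
    (hb : ∀ j ∈ S, ∀ g, A g → (∀ w, 0 ≤ g w) → Off j g → p * E g ≤ E (fun w => g w * ind (G j) w))
    {n : ℕ} (hn : (n : ℝ) ≤ p * S.card / 4) (hD : A (ind {w | cnt S G w ≤ n}))
    (hCA : A fun w => (1 / 2 : ℝ) ^ cnt S G w) :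
    E (ind {w | cnt S G w ≤ n}) ≤ Real.exp (-(p * S.card / 4)) := by
  have h := hE.mgf_good S Off hA hOm hGA hOind hp1 hb (r := 1 / 2) (by norm_num) (by norm_num)
    (fun _ => 1) (hA.const 1) (fun _ => zero_le_one) hOone
  simp only [one_mul] at h
  rw [hE.one, mul_one] at h
  have h2 := hE.markov hA hCA (fun w => by positivity) hD (r := (1 / 2 : ℝ) ^ n) (by positivity)
    (fun w hw => pow_le_pow_of_le_one (by norm_num) (by norm_num) hw)
  have h3 : ((1 / 2 : ℝ) ^ n)⁻¹ = 2 ^ n := by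
    rw [← inv_pow]; norm_num
  rw [h3] at h2
  have h4 : (1 : ℝ) - (1 - 1 / 2) * p = 1 - p / 2 := by ring
  rw [h4] at h
  exact h2.trans ((mul_le_mul_of_nonneg_left h (by positivity)).trans (exp_aux hp0 hp1 hn))

/-- **Exponential supermartingale for good blocks without barrier.** -/
theorem mgf_bad (hA : Alg A) (hE : Law A E)
    (hOm : ∀ j f g, Off j f → Off j g → Off j (fun w => f w * g w))
    {G X : ι → Set Om} (hGA : ∀ j ∈ S, A (ind (G j))) (hXA : ∀ j ∈ S, A (ind (G j ∩ (X j)ᶜ)))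
    (hOind : ∀ i ∈ S, ∀ j ∈ S, i ≠ j → ∀ a b : ℝ,
      Off j (fun w => 1 + a * ind (G i) w + b * ind (G i ∩ (X i)ᶜ) w))
    {ε : ℝ} (hε : 0 ≤ ε)
    (hb : ∀ j ∈ S, ∀ g, A g → (∀ w, 0 ≤ g w) → Off j g →
      E (fun w => g w * ind (G j ∩ (X j)ᶜ) w) ≤ ε * E (fun w => g w * ind (G j) w))
    {lam : ℝ} (hl : 1 ≤ lam)
    (g : Om → ℝ) (hgA : A g) (hg0 : ∀ w, 0 ≤ g w) (hg : ∀ j ∈ S, Off j g) :
    E (fun w => g w * ((1 + (lam - 1) * ε)⁻¹ ^ cnt S G w *
      lam ^ cnt S (fun j => G j ∩ (X j)ᶜ) w)) ≤ E g := by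
  classical
  have hs : 0 < 1 + (lam - 1) * ε := by nlinarith
  set s := (1 + (lam - 1) * ε)⁻¹ with hsdef
  have hs0 : 0 < s := inv_pos.2 hs
  have hs1 : s * (1 + (lam - 1) * ε) = 1 := inv_mul_cancel₀ hs.ne'
  have key : ∀ j w, (1 + (s - 1) * ind (G j) w) * (1 + (lam - 1) * ind (G j ∩ (X j)ᶜ) w) =
      1 + (s - 1) * ind (G j) w + s * (lam - 1) * ind (G j ∩ (X j)ᶜ) w := by
    intro j w
    by_cases h1 : w ∈ G j
    · rw [ind_mem h1]; ring
    · have h3 : w ∉ G j ∩ (X j)ᶜ := fun h => h1 h.1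
      rw [ind_not h1, ind_not h3]; ring
  have h := hE.prod_le hA S
    (fun j w => 1 + (s - 1) * ind (G j) w + s * (lam - 1) * ind (G j ∩ (X j)ᶜ) w)
    (fun _ => 1) Off hOm
    (fun j hj => hA.add _ _ (hA.add _ _ (hA.const 1) (hA.smul _ (hGA j hj)))
      (hA.smul _ (hXA j hj)))
    (fun j _ w => by
      rw [← key]
      have b1 := ind_nonneg (G j) w
      have b2 := ind_le_one (G j) w
      have b3 := ind_nonneg (G j ∩ (X j)ᶜ) w
      have b4 : 0 ≤ (lam - 1) * ind (G j ∩ (X j)ᶜ) w := mul_nonneg (by linarith) b3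
      exact mul_nonneg (by nlinarith) (by linarith))
    (fun _ _ => zero_le_one)
    (fun i hi j hj hij => hOind i hi j hj hij (s - 1) (s * (lam - 1)))
    (fun j hj g hgA hg0 hg => by
      have e : (fun w => g w * (1 + (s - 1) * ind (G j) w + s * (lam - 1) * ind (G j ∩ (X j)ᶜ) w)) =
          fun w => (g w + (s - 1) * (g w * ind (G j) w)) +
            s * (lam - 1) * (g w * ind (G j ∩ (X j)ᶜ) w) := by
        funext w; ring
      have a1 := hA.mul _ _ hgA (hGA j hj)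
      have a2 := hA.mul _ _ hgA (hXA j hj)
      rw [e, hE.add _ _ (hA.add _ _ hgA (hA.smul _ a1)) (hA.smul _ a2),
        hE.add _ _ hgA (hA.smul _ a1), hE.smul _ _ a1, hE.smul _ _ a2, one_mul]
      have h1 := hb j hj g hgA hg0 hg
      have h2 : s * (lam - 1) * E (fun w => g w * ind (G j ∩ (X j)ᶜ) w) ≤
          s * (lam - 1) * (ε * E (fun w => g w * ind (G j) w)) :=
        mul_le_mul_of_nonneg_left h1 (mul_nonneg hs0.le (by linarith))
      have h3 : s * (lam - 1) * (ε * E (fun w => g w * ind (G j) w)) =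
          (1 - s) * E (fun w => g w * ind (G j) w) := by
        have : s * ((lam - 1) * ε) = 1 - s := by linarith
        calc _ = (s * ((lam - 1) * ε)) * E (fun w => g w * ind (G j) w) := by ring
          _ = _ := by rw [this]
      linarith)
    g hgA hg0 hg
  rw [Finset.prod_const_one, one_mul] at h
  refine le_trans (le_of_eq ?_) h
  congr 1
  funext w
  rw [← prod_cnt, ← prod_cnt, ← Finset.prod_mul_distrib]
  congr 1
  exact Finset.prod_congr rfl fun j _ => key j w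

/-- **Many good blocks without barrier are exponentially rare**: if given everything off the block a
good block has no barrier with probability at most `ε`, `(2 ^ K - 1) ε ≤ 1 / 2`, then the event
"at least `n` good blocks, and at least the fraction `1 / K` of them without barrier" has
probability at most `(3 / 4) ^ n`. -/
theorem many_bad (hA : Alg A) (hE : Law A E)
    (hOm : ∀ j f g, Off j f → Off j g → Off j (fun w => f w * g w))
    {G X : ι → Set Om} (hGA : ∀ j ∈ S, A (ind (G j))) (hXA : ∀ j ∈ S, A (ind (G j ∩ (X j)ᶜ)))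
    (hOind : ∀ i ∈ S, ∀ j ∈ S, i ≠ j → ∀ a b : ℝ,
      Off j (fun w => 1 + a * ind (G i) w + b * ind (G i ∩ (X i)ᶜ) w))
    (hOone : ∀ j ∈ S, Off j (fun _ => 1))
    {ε : ℝ} (hε : 0 ≤ ε)
    (hb : ∀ j ∈ S, ∀ g, A g → (∀ w, 0 ≤ g w) → Off j g →
      E (fun w => g w * ind (G j ∩ (X j)ᶜ) w) ≤ ε * E (fun w => g w * ind (G j) w))
    {K : ℕ} (hK : ((2 : ℝ) ^ K - 1) * ε ≤ 1 / 2) (n : ℕ)
    (hD : A (ind {w | n ≤ cnt S G w ∧ cnt S G w ≤ K * cnt S (fun j => G j ∩ (X j)ᶜ) w}))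
    (hCA : A fun w => ((1 + ((2 : ℝ) ^ K - 1) * ε)⁻¹ ^ cnt S G w *
      ((2 : ℝ) ^ K) ^ cnt S (fun j => G j ∩ (X j)ᶜ) w)) :
    E (ind {w | n ≤ cnt S G w ∧ cnt S G w ≤ K * cnt S (fun j => G j ∩ (X j)ᶜ) w}) ≤
      (3 / 4 : ℝ) ^ n := by
  have h2K : (1 : ℝ) ≤ 2 ^ K := one_le_pow₀ (by norm_num)
  have h := hE.mgf_bad S Off hA hOm hGA hXA hOind hε hb (lam := 2 ^ K) h2K
    (fun _ => 1) (hA.const 1) (fun _ => zero_le_one) hOone
  simp only [one_mul] at h
  rw [hE.one] at h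
  have hs : 0 < 1 + ((2 : ℝ) ^ K - 1) * ε := by nlinarith
  have h2 := hE.markov hA hCA (fun w => by positivity) hD (r := (4 / 3 : ℝ) ^ n) (by positivity)
    (fun w hw => by
      obtain ⟨h1, h2⟩ := hw
      have e1 : (2 : ℝ) ^ cnt S G w ≤ ((2 : ℝ) ^ K) ^ cnt S (fun j => G j ∩ (X j)ᶜ) w := by
        rw [← pow_mul]
        exact pow_le_pow_right₀ (by norm_num) h2
      have e2 : (4 / 3 : ℝ) ≤ (1 + ((2 : ℝ) ^ K - 1) * ε)⁻¹ * 2 := by
        rw [← div_eq_inv_mul, le_div_iff₀ hs]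
        linarith
      calc (4 / 3 : ℝ) ^ n ≤ (4 / 3 : ℝ) ^ cnt S G w := pow_le_pow_right₀ (by norm_num) h1
        _ ≤ ((1 + ((2 : ℝ) ^ K - 1) * ε)⁻¹ * 2) ^ cnt S G w :=
            pow_le_pow_left₀ (by norm_num) e2 _
        _ = (1 + ((2 : ℝ) ^ K - 1) * ε)⁻¹ ^ cnt S G w * 2 ^ cnt S G w := mul_pow _ _ _
        _ ≤ _ := mul_le_mul_of_nonneg_left e1 (by positivity))
  have h3 : ((4 / 3 : ℝ) ^ n)⁻¹ = (3 / 4) ^ n := by
    rw [← inv_pow]; norm_num
  rw [h3] at h2
  calc _ ≤ (3 / 4 : ℝ) ^ n * E (fun w => ((1 + ((2 : ℝ) ^ K - 1) * ε)⁻¹ ^ cnt S G w *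
        ((2 : ℝ) ^ K) ^ cnt S (fun j => G j ∩ (X j)ᶜ) w)) := h2
    _ ≤ (3 / 4 : ℝ) ^ n * 1 := mul_le_mul_of_nonneg_left h (by positivity)
    _ = _ := mul_one _

end Counts

end Law

/-! ### two replicas -/

/-- number of good blocks with a barrier in both replicas -/
def cnt2 {ι : Type*} (S : Finset ι) (G X : ι → Set Om) (w : Om × Om) : ℕ :=
  cnt S (fun j => {w : Om × Om | w.1 ∈ G j ∩ X j ∧ w.2 ∈ G j ∩ X j}) w

theorem cnt2_lower {ι : Type*} (S : Finset ι) (G X : ι → Set Om) (w : Om × Om)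
    (h : ∀ j ∈ S, (w.1 ∈ G j ↔ w.2 ∈ G j)) :
    cnt S G w.1 ≤ cnt2 S G X w + cnt S (fun j => G j ∩ (X j)ᶜ) w.1 +
      cnt S (fun j => G j ∩ (X j)ᶜ) w.2 := by
  have h : (cnt S G w.1 : ℝ) ≤ ((cnt2 S G X w + cnt S (fun j => G j ∩ (X j)ᶜ) w.1 +
      cnt S (fun j => G j ∩ (X j)ᶜ) w.2 : ℕ) : ℝ) := by
    unfold cnt2
    rw [Nat.cast_add, Nat.cast_add, mem_cnt, mem_cnt, mem_cnt, mem_cnt, ← Finset.sum_add_distrib,
      ← Finset.sum_add_distrib]
    refine Finset.sum_le_sum fun j hj => ?_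
    have b1 := ind_nonneg (G j ∩ (X j)ᶜ) w.1
    have b2 := ind_nonneg (G j ∩ (X j)ᶜ) w.2
    have b3 := ind_nonneg {w : Om × Om | w.1 ∈ G j ∩ X j ∧ w.2 ∈ G j ∩ X j} w
    by_cases h1 : w.1 ∈ G j
    · have h2 : w.2 ∈ G j := (h j hj).1 h1
      rw [ind_mem h1]
      by_cases h3 : w.1 ∈ X j
      · by_cases h4 : w.2 ∈ X j
        · have : w ∈ {w : Om × Om | w.1 ∈ G j ∩ X j ∧ w.2 ∈ G j ∩ X j} := ⟨⟨h1, h3⟩, ⟨h2, h4⟩⟩
          rw [ind_mem this]; linarith
        · have : w.2 ∈ G j ∩ (X j)ᶜ := ⟨h2, h4⟩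
          rw [ind_mem this]; linarith
      · have : w.1 ∈ G j ∩ (X j)ᶜ := ⟨h1, h3⟩
        rw [ind_mem this]; linarith
    · rw [ind_not h1]; linarith
  exact_mod_cast h

/-- **Two-replica bound.** `E2` a law on pairs with both marginals `E`, carried by pairs with the
same good blocks. -/
theorem kap_two {A : (Om → ℝ) → Prop} {E : (Om → ℝ) → ℝ} {A2 : (Om × Om → ℝ) → Prop}
    {E2 : (Om × Om → ℝ) → ℝ} (hA2 : Alg A2) (hE2 : Law A2 E2)
    (m1 : ∀ f, A f → A2 (fun w => f w.1) ∧ E2 (fun w => f w.1) = E f)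
    (m2 : ∀ f, A f → A2 (fun w => f w.2) ∧ E2 (fun w => f w.2) = E f)
    {Supp : Set (Om × Om)}
    (hsupp : ∀ f g, A2 f → A2 g → (∀ w ∈ Supp, f w ≤ g w) → E2 f ≤ E2 g)
    {ι : Type*} (S : Finset ι) {G X : ι → Set Om}
    (hsame : ∀ w ∈ Supp, ∀ j ∈ S, (w.1 ∈ G j ↔ w.2 ∈ G j))
    {K n n1 : ℕ} (hK : 2 ≤ K) (hn : K * n1 + 2 * n ≤ K * n)
    (hD1 : A (ind {w | cnt S G w ≤ n}))
    (hD2 : A (ind {w | n ≤ cnt S G w ∧ cnt S G w ≤ K * cnt S (fun j => G j ∩ (X j)ᶜ) w}))
    {r : ℝ} (hr0 : 0 ≤ r) (hr1 : r ≤ 1) (hCA : A2 fun w => r ^ cnt2 S G X w) :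
    E2 (fun w => r ^ cnt2 S G X w) ≤ r ^ n1 + E (ind {w | cnt S G w ≤ n}) +
      2 * E (ind {w | n ≤ cnt S G w ∧ cnt S G w ≤ K * cnt S (fun j => G j ∩ (X j)ᶜ) w}) := by
  set D1 : Set Om := {w | cnt S G w ≤ n} with hD1def
  set D2 : Set Om :=
    {w | n ≤ cnt S G w ∧ cnt S G w ≤ K * cnt S (fun j => G j ∩ (X j)ᶜ) w} with hD2def
  have hpt : ∀ w ∈ Supp, r ^ cnt2 S G X w ≤ ((r ^ n1 + ind D1 w.1) + ind D2 w.1) + ind D2 w.2 := by
    intro w hw
    have p1 : r ^ cnt2 S G X w ≤ 1 := pow_le_one₀ hr0 hr1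
    have p2 : 0 ≤ r ^ n1 := pow_nonneg hr0 _
    have q1 := ind_nonneg D1 w.1
    have q2 := ind_nonneg D2 w.1
    have q3 := ind_nonneg D2 w.2
    by_cases h1 : w.1 ∈ D1
    · rw [ind_mem h1]; linarith
    by_cases h2 : w.1 ∈ D2
    · rw [ind_mem h2]; linarith
    by_cases h3 : w.2 ∈ D2
    · rw [ind_mem h3]; linarith
    have hN : cnt S G w.2 = cnt S G w.1 :=
      le_antisymm (cnt_mono' S w fun j hj => (hsame w hw j hj).2)
        (cnt_mono'' S w fun j hj => (hsame w hw j hj).1)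
    have e1 : n < cnt S G w.1 := by
      by_contra h
      exact h1 (not_lt.1 h)
    have e2 : K * cnt S (fun j => G j ∩ (X j)ᶜ) w.1 < cnt S G w.1 := by
      by_contra h
      exact h2 ⟨e1.le, not_lt.1 h⟩
    have e3 : K * cnt S (fun j => G j ∩ (X j)ᶜ) w.2 < cnt S G w.1 := by
      by_contra h
      exact h3 ⟨by rw [hN]; exact e1.le, by rw [hN]; exact not_lt.1 h⟩
    have e4 := cnt2_lower S G X w (hsame w hw)
    have e5 : K * cnt S G w.1 ≤ K * (cnt2 S G X w + cnt S (fun j => G j ∩ (X j)ᶜ) w.1 +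
      cnt S (fun j => G j ∩ (X j)ᶜ) w.2) := Nat.mul_le_mul_left K e4
    have e6 : n1 ≤ cnt2 S G X w := by
      by_contra hlt
      push Not at hlt
      have hK1 : K * cnt2 S G X w ≤ K * n1 := Nat.mul_le_mul_left K hlt.le
      obtain ⟨d, hd⟩ : ∃ d, cnt S G w.1 = n + d := ⟨cnt S G w.1 - n, by omega⟩
      rw [hd] at e5 e2 e3
      have e7 : K * (n + d) = K * n + K * d := by ring
      have e8 : K * (cnt2 S G X w + cnt S (fun j => G j ∩ (X j)ᶜ) w.1 +
          cnt S (fun j => G j ∩ (X j)ᶜ) w.2) = K * cnt2 S G X w +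
          K * cnt S (fun j => G j ∩ (X j)ᶜ) w.1 + K * cnt S (fun j => G j ∩ (X j)ᶜ) w.2 := by ring
      rw [e7, e8] at e5
      have e9 : 2 * d ≤ K * d := Nat.mul_le_mul_right d hK
      omega
    have e7 : r ^ cnt2 S G X w ≤ r ^ n1 := pow_le_pow_of_le_one hr0 hr1 e6
    linarith
  obtain ⟨a1, b1⟩ := m1 _ hD1
  obtain ⟨a2, b2⟩ := m1 _ hD2
  obtain ⟨a3, b3⟩ := m2 _ hD2
  have c0 : A2 fun _ => r ^ n1 := hA2.const _
  have h := hsupp _ _ hCA (hA2.add _ _ (hA2.add _ _ (hA2.add _ _ c0 a1) a2) a3) hpt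
  rw [hE2.add _ _ (hA2.add _ _ (hA2.add _ _ c0 a1) a2) a3,
    hE2.add _ _ (hA2.add _ _ c0 a1) a2, hE2.add _ _ c0 a1, hE2.const hA2, b1, b2, b3] at h
  linarith

end Crest.Agent.R144.Ccnt311
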