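import Mathlib

/-!
# R144, closed-contour Ward identity (doc 1620), step (A2): abstract density lemma, kernel form

* `density` : if `E[X Y] = Σ_a E[q_a X y_a]` with a sub-probability kernel `q_a ≥ 0`, `Σ_a q_a ≤ 1`,
  `p_a = E q_a`, `|y_a| ≤ 1`, and off a set of mass `η` we have `q_a ≤ C p_a`, then `E[X Y]` is small as
  soon as `E[φ X y_a]` is small for the test functions `φ = min(q_a, C p_a)/(C p_a) ∈ [0,1]`.
* `fourier` : expansion of `1{H = k}` in characters.
* `level` : `|E[X φ ψ 1{|H| ≤ M}]| ≤ (2M+1) ε` if `|E[X φ 1.. ψ_k e^{iαH}]| ≤ ε` for all `α`, `k`.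
-/

namespace Crest.Agent.R144.Ccw435

open MeasureTheory Finset
open scoped BigOperators

noncomputable section

section Density

variable {Ω : Type*} [MeasurableSpace Ω] {P : Measure Ω} [IsProbabilityMeasure P] {A : Type*}

/-- **Density lemma, kernel form.** -/
theorem density (s : Finset A) (q : A → Ω → ℝ) (hqm : ∀ a ∈ s, Measurable (q a))
    (hq0 : ∀ a ∈ s, ∀ ω, 0 ≤ q a ω) (hq1 : ∀ ω, ∑ a ∈ s, q a ω ≤ 1)
    (X : Ω → ℝ) (hX : MemLp X 2 P) (y : A → Ω → ℂ) (hym : ∀ a ∈ s, Measurable (y a))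
    (hy : ∀ a ∈ s, ∀ ω, ‖y a ω‖ ≤ 1) {C η ε : ℝ} (hC : 0 < C) (hε0 : 0 ≤ ε)
    (hη : ∑ a ∈ s, ∫ ω, (if C * (∫ ω', q a ω' ∂P) < q a ω then q a ω else 0) ∂P ≤ η)
    (hε : ∀ a ∈ s, ∀ φ : Ω → ℝ, (∃ g : ℝ → ℝ, Measurable g ∧ φ = fun ω => g (q a ω)) →
      (∀ ω, 0 ≤ φ ω) → (∀ ω, φ ω ≤ 1) →
      ‖∫ ω, ((φ ω * X ω : ℝ) : ℂ) * y a ω ∂P‖ ≤ ε) :
    ‖∫ ω, ∑ a ∈ s, ((q a ω * X ω : ℝ) : ℂ) * y a ω ∂P‖
      ≤ C * ε + √(∫ ω, X ω ^ 2 ∂P) * √η := by
  classical
  set p : A → ℝ := fun a => ∫ ω, q a ω ∂P with hp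
  have hXi : Integrable X P := hX.integrable (by norm_num)
  have hXm := hX.aestronglyMeasurable
  have hq_le : ∀ a ∈ s, ∀ ω, q a ω ≤ 1 := fun a ha ω =>
    (single_le_sum (fun b hb => hq0 b hb ω) ha).trans (hq1 ω)
  have hqi : ∀ a ∈ s, Integrable (q a) P := fun a ha =>
    Integrable.of_bound (hqm a ha).aestronglyMeasurable 1 (ae_of_all _ fun ω => by
      rw [Real.norm_eq_abs, abs_of_nonneg (hq0 a ha ω)]; exact hq_le a ha ω)
  have hp0 : ∀ a ∈ s, 0 ≤ p a := fun a ha => integral_nonneg fun ω => hq0 a ha ω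
  have hp1 : ∑ a ∈ s, p a ≤ 1 := by
    simp only [hp]
    rw [← integral_finsetSum s hqi]
    have := integral_mono (integrable_finsetSum s hqi) (integrable_const (1 : ℝ)) hq1
    simpa using this
  -- the two pieces
  set lo : A → Ω → ℝ := fun a ω => if C * p a < q a ω then 0 else q a ω with hlo
  set hi : A → Ω → ℝ := fun a ω => if C * p a < q a ω then q a ω else 0 with hhi
  have hsplit : ∀ a ω, q a ω = lo a ω + hi a ω := fun a ω => by
    simp only [hlo, hhi]; split_ifs <;> simp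
  have hlom : ∀ a ∈ s, Measurable (lo a) := fun a ha =>
    Measurable.ite (measurableSet_lt measurable_const (hqm a ha)) measurable_const (hqm a ha)
  have hhim : ∀ a ∈ s, Measurable (hi a) := fun a ha =>
    Measurable.ite (measurableSet_lt measurable_const (hqm a ha)) (hqm a ha) measurable_const
  have hlo0 : ∀ a ∈ s, ∀ ω, 0 ≤ lo a ω := fun a ha ω => by
    simp only [hlo]; split_ifs; exacts [le_rfl, hq0 a ha ω]
  have hhi0 : ∀ a ∈ s, ∀ ω, 0 ≤ hi a ω := fun a ha ω => by
    simp only [hhi]; split_ifs; exacts [hq0 a ha ω, le_rfl]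
  have hlo1 : ∀ a ∈ s, ∀ ω, lo a ω ≤ 1 := fun a ha ω => by
    simp only [hlo]; split_ifs; exacts [zero_le_one, hq_le a ha ω]
  have hhi1 : ∀ a ∈ s, ∀ ω, hi a ω ≤ q a ω := fun a ha ω => by
    simp only [hhi]; split_ifs; exacts [le_rfl, hq0 a ha ω]
  have hint : ∀ (f : A → Ω → ℝ), (∀ a ∈ s, Measurable (f a)) → (∀ a ∈ s, ∀ ω, 0 ≤ f a ω) →
      (∀ a ∈ s, ∀ ω, f a ω ≤ 1) → ∀ a ∈ s, Integrable (fun ω => ((f a ω * X ω : ℝ) : ℂ) * y a ω) P := by
    intro f hfm hf0 hf1 a ha
    have h1 : Integrable (fun ω => ((X ω : ℝ) : ℂ)) P := hXi.ofReal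
    have h2 : (fun ω => ((f a ω * X ω : ℝ) : ℂ) * y a ω)
        = fun ω => (((f a ω : ℝ) : ℂ) * y a ω) * ((X ω : ℝ) : ℂ) := by
      funext ω; push_cast; ring
    rw [h2]
    refine h1.bdd_mul (c := 1) ?_ (ae_of_all _ fun ω => ?_)
    · exact ((Complex.measurable_ofReal.comp (hfm a ha)).mul (hym a ha)).aestronglyMeasurable
    · rw [norm_mul, Complex.norm_real, Real.norm_eq_abs, abs_of_nonneg (hf0 a ha ω)]
      have := hf0 a ha ω
      have := hf1 a ha ω
      have := hy a ha ω
      have := norm_nonneg (y a ω)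
      nlinarith
  have hIlo := hint lo hlom hlo0 hlo1
  have hIhi := hint hi hhim hhi0 fun a ha ω => (hhi1 a ha ω).trans (hq_le a ha ω)
  have e1 : (fun ω => ∑ a ∈ s, ((q a ω * X ω : ℝ) : ℂ) * y a ω)
      = fun ω => (∑ a ∈ s, ((lo a ω * X ω : ℝ) : ℂ) * y a ω)
        + ∑ a ∈ s, ((hi a ω * X ω : ℝ) : ℂ) * y a ω := by
    funext ω
    rw [← sum_add_distrib]
    refine sum_congr rfl fun a _ => ?_
    conv_lhs => rw [hsplit a ω]
    push_cast; ring
  rw [e1, integral_add (integrable_finsetSum s hIlo) (integrable_finsetSum s hIhi)]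
  refine (norm_add_le _ _).trans (add_le_add ?_ ?_)
  · -- low part
    rw [integral_finsetSum s hIlo]
    have hterm : ∀ a ∈ s, ‖∫ ω, ((lo a ω * X ω : ℝ) : ℂ) * y a ω ∂P‖ ≤ p a * (C * ε) := by
      intro a ha
      rcases (hp0 a ha).eq_or_lt with h0 | hpos
      · -- q a = 0 a.e.
        have hz : q a =ᵐ[P] 0 := by
          exact (integral_eq_zero_iff_of_nonneg (fun ω => hq0 a ha ω) (hqi a ha)).1 h0.symm
        have : ∫ ω, ((lo a ω * X ω : ℝ) : ℂ) * y a ω ∂P = 0 := by
          refine (integral_congr_ae (g := fun _ => (0 : ℂ)) ?_).trans (by simp)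
          filter_upwards [hz] with ω hω
          have : lo a ω = 0 := by
            simp only [hlo, hω]; simp
          rw [this]; simp
        rw [this, ← h0]; simp
      · have hcp : 0 < C * p a := mul_pos hC hpos
        have := hε a ha (fun ω => lo a ω / (C * p a))
          ⟨fun t => (if C * p a < t then 0 else t) / (C * p a), by
            refine (Measurable.ite measurableSet_Ioi measurable_const measurable_id).div_const _, rfl⟩
          (fun ω => div_nonneg (hlo0 a ha ω) hcp.le)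
          (fun ω => by
            rw [div_le_one hcp]
            simp only [hlo]; split_ifs with h
            · exact hcp.le
            · exact not_lt.1 h)
        have e : ∫ ω, ((lo a ω / (C * p a) * X ω : ℝ) : ℂ) * y a ω ∂P
            = ((C * p a : ℝ) : ℂ)⁻¹ * ∫ ω, ((lo a ω * X ω : ℝ) : ℂ) * y a ω ∂P := by
          rw [← integral_const_mul (((C * p a : ℝ) : ℂ)⁻¹)]
          refine integral_congr_ae (ae_of_all P fun ω => ?_)
          change ((lo a ω / (C * p a) * X ω : ℝ) : ℂ) * y a ω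
            = ((C * p a : ℝ) : ℂ)⁻¹ * (((lo a ω * X ω : ℝ) : ℂ) * y a ω)
          push_cast
          rw [div_eq_mul_inv]
          ring
        rw [e, norm_mul, norm_inv, Complex.norm_real, Real.norm_eq_abs, abs_of_pos hcp,
          inv_mul_le_iff₀ hcp] at this
        linarith [this]
    refine (norm_sum_le _ _).trans ((sum_le_sum hterm).trans ?_)
    rw [← sum_mul]
    have : 0 ≤ C * ε := mul_nonneg hC.le hε0
    nlinarith
  · -- high part
    set h : Ω → ℝ := fun ω => ∑ a ∈ s, hi a ω with hh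
    have hhm : Measurable h := Finset.measurable_sum _ fun a ha => hhim a ha
    have hh0 : ∀ ω, 0 ≤ h ω := fun ω => sum_nonneg fun a ha => hhi0 a ha ω
    have hh1 : ∀ ω, h ω ≤ 1 := fun ω => (sum_le_sum fun a ha => hhi1 a ha ω).trans (hq1 ω)
    have hhL : MemLp h 2 P := MemLp.of_bound hhm.aestronglyMeasurable 1 (ae_of_all _ fun ω => by
      rw [Real.norm_eq_abs, abs_of_nonneg (hh0 ω)]; exact hh1 ω)
    have b1 : ‖∫ ω, ∑ a ∈ s, ((hi a ω * X ω : ℝ) : ℂ) * y a ω ∂P‖ ≤ ∫ ω, |X ω| * h ω ∂P := by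
      refine (norm_integral_le_integral_norm _).trans ?_
      refine integral_mono_of_nonneg (ae_of_all _ fun ω => norm_nonneg _) ?_
        (ae_of_all _ fun ω => ?_)
      · exact hX.abs.integrable_mul hhL
      · simp only
        refine (norm_sum_le _ _).trans ?_
        rw [hh, mul_sum]
        refine sum_le_sum fun a ha => ?_
        rw [norm_mul, Complex.norm_real, Real.norm_eq_abs, abs_mul, abs_of_nonneg (hhi0 a ha ω)]
        have := hhi0 a ha ω
        have := hy a ha ω
        have := norm_nonneg (y a ω)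
        have := abs_nonneg (X ω)
        calc hi a ω * |X ω| * ‖y a ω‖ ≤ hi a ω * |X ω| * 1 :=
              mul_le_mul_of_nonneg_left (hy a ha ω) (by positivity)
          _ = |X ω| * hi a ω := by ring
    have b2 : ∫ ω, |X ω| * h ω ∂P ≤ √(∫ ω, X ω ^ 2 ∂P) * √(∫ ω, h ω ^ 2 ∂P) := by
      have := integral_mul_le_Lp_mul_Lq_of_nonneg (μ := P) (p := 2) (q := 2)
        Real.HolderConjugate.two_two (f := fun ω => |X ω|) (g := h)
        (ae_of_all _ fun ω => abs_nonneg _) (ae_of_all _ hh0)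
        (by
          have : MemLp (fun ω => |X ω|) (ENNReal.ofReal 2) P := by
            have h2 : ENNReal.ofReal 2 = 2 := by norm_num
            rw [h2]; exact hX.abs
          exact this) (by simpa using hhL)
      simpa [Real.sqrt_eq_rpow, sq_abs] using this
    have b3 : ∫ ω, h ω ^ 2 ∂P ≤ η := by
      have : ∫ ω, h ω ^ 2 ∂P ≤ ∫ ω, h ω ∂P := by
        refine integral_mono ?_ ?_ fun ω => ?_
        · simpa using hhL.integrable_sq
        · exact hhL.integrable (by norm_num)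
        · simp only; have := hh0 ω; have := hh1 ω; nlinarith
      refine this.trans ?_
      rw [hh, integral_finsetSum s fun a ha => ?_]
      · exact hη
      · exact Integrable.of_bound (hhim a ha).aestronglyMeasurable 1 (ae_of_all _ fun ω => by
          rw [Real.norm_eq_abs, abs_of_nonneg (hhi0 a ha ω)]
          exact (hhi1 a ha ω).trans (hq_le a ha ω))
    exact b1.trans (b2.trans (mul_le_mul_of_nonneg_left (Real.sqrt_le_sqrt b3) (Real.sqrt_nonneg _)))

end Density

section Characters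

/-- discrete Fourier inversion: the indicator of `d = 0` for `|d| < m` -/
theorem char_sum {m : ℕ} {d : ℤ} (hd : |d| < m) :
    (m : ℂ)⁻¹ * ∑ j ∈ range m, Complex.exp (Complex.I * (((2 * Real.pi * j / m : ℝ) * d : ℝ) : ℂ))
      = if d = 0 then 1 else 0 := by
  have hm : 0 < m := by
    have := abs_nonneg d
    exact_mod_cast this.trans_lt hd
  have hm0 : (m : ℂ) ≠ 0 := by exact_mod_cast hm.ne'
  by_cases h0 : d = 0
  · subst h0
    simp [hm0]
  · rw [if_neg h0]
    set ζ : ℂ := Complex.exp (2 * Real.pi * Complex.I * (d / m)) with hζ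
    have e1 : ∀ j ∈ range m, Complex.exp (Complex.I * (((2 * Real.pi * j / m : ℝ) * d : ℝ) : ℂ))
        = ζ ^ j := by
      intro j _
      rw [hζ, ← Complex.exp_nat_mul]
      congr 1
      push_cast
      field_simp
    have hζm : ζ ^ m = 1 := by
      rw [hζ, ← Complex.exp_nat_mul, Complex.exp_eq_one_iff]
      exact ⟨d, by field_simp⟩
    have hζ1 : ζ ≠ 1 := by
      intro h
      rw [hζ, Complex.exp_eq_one_iff] at h
      obtain ⟨n, hn⟩ := h
      have h2 : (2 * Real.pi * Complex.I : ℂ) ≠ 0 := Complex.two_pi_I_ne_zero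
      have h3 : ((d : ℂ) / m) = n := by
        have : (2 * Real.pi * Complex.I : ℂ) * (d / m) = (2 * Real.pi * Complex.I) * n := by
          rw [hn]; ring
        exact mul_left_cancel₀ h2 this
      rw [div_eq_iff hm0] at h3
      have h4 : d = n * m := by exact_mod_cast h3
      rcases eq_or_ne n 0 with hn0 | hn0
      · rw [hn0, zero_mul] at h4; exact h0 h4
      · have h5 : (1 : ℤ) ≤ |n| := Int.one_le_abs hn0
        rw [h4, abs_mul, Nat.abs_cast] at hd
        nlinarith
    rw [sum_congr rfl e1, geom_sum_eq hζ1, hζm]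
    simp

end Characters

end

end Crest.Agent.R144.Ccw435
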