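import Crest.Agent.R144.Ga5c_885

/-!
# R144, CCW (C2CCW), abstract part (helper617)

The closed contour Ward identity `CCW` from a bound for one cell.
-/

set_option autoImplicit false

open MeasureTheory Metric Set Filter Topology Laplacian InnerProductSpace

noncomputable section

namespace Crest.Agent.R144.Cd617

open Crest.Agent.R144.Ga5885

/-! ### from a filtration to the limit sigma-algebra -/

/-- clipping to `[-A, A]` -/
def clipA (A x : ℝ) : ℝ := max (-A) (min A x)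

theorem abs_clipA_le {A : ℝ} (hA : 0 ≤ A) (x : ℝ) : |clipA A x| ≤ A := by
  unfold clipA
  rw [abs_le]
  exact ⟨le_max_left _ _, max_le (by linarith) (min_le_left _ _)⟩

theorem clipA_of_abs_le {A x : ℝ} (hx : |x| ≤ A) : clipA A x = x := by
  obtain ⟨h1, h2⟩ := abs_le.1 hx
  unfold clipA
  rw [min_eq_right h2, max_eq_right h1]

theorem continuous_clipA (A : ℝ) : Continuous (clipA A) :=
  continuous_const.max (continuous_const.min continuous_id)

theorem abs_clipA_sub {A x y : ℝ} (hy : |y| ≤ A) : |clipA A x - y| ≤ |x - y| := by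
  obtain ⟨h1, h2⟩ := abs_le.1 hy
  unfold clipA
  rcases le_total x A with hx | hx
  · rw [min_eq_right hx]
    rcases le_total (-A) x with hx' | hx'
    · rw [max_eq_right hx']
    · rw [max_eq_left hx', abs_of_nonpos (by linarith), abs_of_nonpos (by linarith)]
      linarith
  · rw [min_eq_left hx, max_eq_right (by linarith), abs_of_nonneg (by linarith),
      abs_of_nonneg (by linarith)]
    linarith

/-- a bound for `∫ F G` extends from a filtration to its limit, `F` a.e. bounded -/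
theorem int_of_filtration {Ω : Type*} [m0 : MeasurableSpace Ω] {Q : Measure Ω}
    [IsProbabilityMeasure Q] (𝒢 : Filtration ℕ m0) {F G : Ω → ℝ} (hF : Measurable F) {A : ℝ}
    (hA : ∀ᵐ ω ∂Q, |F ω| ≤ A) (hG : Measurable[⨆ n, 𝒢 n] G) (hG1 : ∀ ω, |G ω| ≤ 1) {ε : ℝ}
    (h : ∀ n, ∀ G' : Ω → ℝ, Measurable[𝒢 n] G' → (∀ ω, |G' ω| ≤ 1) → |∫ ω, F ω * G' ω ∂Q| ≤ ε) :
    |∫ ω, F ω * G ω ∂Q| ≤ ε := by
  have hGm : Measurable G := hG.mono (iSup_le 𝒢.le) le_rfl
  have hGi : Integrable G Q := Integrable.of_bound hGm.aestronglyMeasurable 1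
    (Eventually.of_forall fun ω => by rw [Real.norm_eq_abs]; exact hG1 ω)
  have ht := hGi.tendsto_eLpNorm_condExp (ℱ := 𝒢) hG.stronglyMeasurable
  let g : ℕ → Ω → ℝ := fun n ω => clipA 1 ((Q[G | 𝒢 n]) ω)
  have hgm : ∀ n, Measurable[𝒢 n] (g n) := fun n =>
    (continuous_clipA 1).measurable.comp stronglyMeasurable_condExp.measurable
  have hgm' : ∀ n, Measurable (g n) := fun n => (hgm n).mono (𝒢.le n) le_rfl
  have hg1 : ∀ n ω, |g n ω| ≤ 1 := fun n ω => abs_clipA_le zero_le_one _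
  have hgi : ∀ n, Integrable (g n) Q := fun n => Integrable.of_bound
    (hgm' n).aestronglyMeasurable 1 (Eventually.of_forall fun ω => by
      rw [Real.norm_eq_abs]; exact hg1 n ω)
  have hL1 : Tendsto (fun n => ∫ ω, |g n ω - G ω| ∂Q) atTop (𝓝 0) := by
    have e1 : ∀ n, ∫ ω, |(Q[G | 𝒢 n]) ω - G ω| ∂Q = (eLpNorm (Q[G | 𝒢 n] - G) 1 Q).toReal := by
      intro n
      rw [eLpNorm_one_eq_lintegral_enorm, ← integral_norm_eq_lintegral_enorm
        (integrable_condExp.sub hGi).aestronglyMeasurable]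
      rfl
    have h2 : Tendsto (fun n => (eLpNorm (Q[G | 𝒢 n] - G) 1 Q).toReal) atTop (𝓝 0) := by
      have := (ENNReal.tendsto_toReal ENNReal.zero_ne_top).comp ht
      simpa [Function.comp_def] using this
    refine squeeze_zero (fun n => integral_nonneg fun ω => abs_nonneg _) (fun n => ?_) h2
    rw [← e1]
    exact integral_mono ((hgi n).sub hGi).abs (integrable_condExp.sub hGi).abs
      fun ω => abs_clipA_sub (hG1 ω)
  have hA' : ∀ᵐ ω ∂Q, |F ω| ≤ |A| := hA.mono fun ω hω => hω.trans (le_abs_self A)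
  have hprod : ∀ n, Integrable (fun ω => F ω * g n ω) Q := fun n =>
    Integrable.of_bound (hF.mul (hgm' n)).aestronglyMeasurable (|A| * 1)
      (hA'.mono fun ω hω => by
        rw [Real.norm_eq_abs, abs_mul]
        exact mul_le_mul hω (hg1 n ω) (abs_nonneg _) (abs_nonneg A))
  have hprodG : Integrable (fun ω => F ω * G ω) Q :=
    Integrable.of_bound (hF.mul hGm).aestronglyMeasurable (|A| * 1)
      (hA'.mono fun ω hω => by
        rw [Real.norm_eq_abs, abs_mul]
        exact mul_le_mul hω (hG1 ω) (abs_nonneg _) (abs_nonneg A))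
  have t1 : Tendsto (fun n => ∫ ω, F ω * g n ω ∂Q) atTop (𝓝 (∫ ω, F ω * G ω ∂Q)) := by
    rw [tendsto_iff_norm_sub_tendsto_zero]
    have hlim : Tendsto (fun n => |A| * ∫ ω, |g n ω - G ω| ∂Q) atTop (𝓝 0) := by
      simpa using hL1.const_mul |A|
    refine squeeze_zero (fun n => norm_nonneg _) (fun n => ?_) hlim
    rw [← integral_sub (hprod n) hprodG, ← integral_const_mul]
    refine (norm_integral_le_integral_norm _).trans ?_
    refine integral_mono_ae ((hprod n).sub hprodG).norm (((hgi n).sub hGi).abs.const_mul |A|)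
      (hA'.mono fun ω hω => ?_)
    show ‖F ω * g n ω - F ω * G ω‖ ≤ |A| * |g n ω - G ω|
    rw [← mul_sub, Real.norm_eq_abs, abs_mul]
    exact mul_le_mul_of_nonneg_right hω (abs_nonneg _)
  exact le_of_tendsto t1.abs (Eventually.of_forall fun n => h n (g n) (hgm n) (hg1 n))

/-! ### sums of test functions -/

theorem tst_zero : Tst (fun _ => (0 : ℝ)) := by
  refine ⟨contDiff_const, ?_⟩
  have : (fun _ : ℂ => (0 : ℝ)) = 0 := rfl
  rw [this]
  exact HasCompactSupport.zero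

theorem Tst.add' {u v : ℂ → ℝ} (hu : Tst u) (hv : Tst v) : Tst (fun z => u z + v z) :=
  ⟨hu.1.add hv.1, hu.2.add hv.2⟩

theorem tst_sum {ι : Type*} (s : Finset ι) {f : ι → ℂ → ℝ} (hf : ∀ k, Tst (f k)) :
    Tst (fun z => ∑ k ∈ s, f k z) := by
  classical
  induction s using Finset.induction_on with
  | empty => simpa using tst_zero
  | insert a s ha ih =>
    simp only [Finset.sum_insert ha]
    exact Tst.add' (hf a) ih

theorem X_sum {Ω ι κ' : Type*} {X : ι → (ℂ → ℝ) → Ω → ℝ}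
    (hadd : ∀ n u v, Tst u → Tst v → ∀ ω, X n (fun z => u z + v z) ω = X n u ω + X n v ω) (n : ι)
    (s : Finset κ') {f : κ' → ℂ → ℝ} (hf : ∀ k, Tst (f k)) (ω : Ω) :
    X n (fun z => ∑ k ∈ s, f k z) ω = ∑ k ∈ s, X n (f k) ω := by
  classical
  have h0 : X n (fun _ => (0 : ℝ)) ω = 0 := by
    have h1 := hadd n _ _ tst_zero tst_zero ω
    simp only [add_zero] at h1
    linarith
  induction s using Finset.induction_on with
  | empty => simpa using h0
  | insert a s ha ih =>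
    simp only [Finset.sum_insert ha]
    rw [hadd n _ _ (hf a) (tst_sum s hf), ih]

/-! ### the scale -/

/-- polynomial times exponential -/
theorem exists_m {A B α ε : ℝ} (_hA : 0 ≤ A) (_hB : 0 ≤ B) (hα : 0 < α) (hε : 0 < ε) :
    ∃ m : ℕ, 1 ≤ m ∧ A * (m : ℝ) ^ 2 * (Real.exp (-(α * m / 2)) * B) ≤ ε := by
  have h1 : Tendsto (fun m : ℕ => (α / 2 * (m : ℝ)) ^ 2 * Real.exp (-(α / 2 * (m : ℝ)))) atTop (𝓝 0) :=
    (Real.tendsto_pow_mul_exp_neg_atTop_nhds_zero 2).comp
      (tendsto_natCast_atTop_atTop.const_mul_atTop (by positivity))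
  have h2 : Tendsto (fun m : ℕ => A * B * (2 / α) ^ 2 *
      ((α / 2 * (m : ℝ)) ^ 2 * Real.exp (-(α / 2 * (m : ℝ))))) atTop (𝓝 0) := by
    simpa using h1.const_mul (A * B * (2 / α) ^ 2)
  obtain ⟨m, hm1, hm⟩ := ((eventually_ge_atTop 1).and (h2.eventually (gt_mem_nhds hε))).exists
  refine ⟨m, hm1, le_trans (le_of_eq ?_) hm.le⟩
  have e : α * (m : ℝ) / 2 = α / 2 * m := by ring
  rw [e]
  field_simp

/-- **`CCW` from the cell bound**, abstract form -/
theorem ccw_abs {Ω : Type*} [m0 : MeasurableSpace Ω] {Q : Measure Ω} {X : ℕ → (ℂ → ℝ) → Ω → ℝ}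
    {𝓕 : ℕ → Set ℂ → MeasurableSpace Ω} {κ : ℝ} (hM : Mdl atTop (fun _ => Q) X 𝓕 κ)
    (𝒢 : ℕ → Set ℂ → Filtration ℕ m0) (h𝒢 : ∀ n V, 𝓕 n V ≤ ⨆ k, 𝒢 n V k)
    {a0 a1 C α : ℝ} (ha0 : 0 < a0) (ha1 : 0 < a1) (hC : 0 < C) (hα : 0 < α)
    (hcell : ∀ (m : ℕ) (η : ℝ) (z0 : ℂ) (u : ℂ → ℝ), 1 ≤ m → 0 < η → Tst u →
      tsupport u ⊆ closedBall z0 (2 * η) → ∀ ε > 0, ∀ᶠ n in atTop, ∀ V : Set ℂ,
        V ⊆ (ball z0 ((a0 + a1 * m) * η))ᶜ → ∀ (k : ℕ) (G : Ω → ℝ), Measurable[𝒢 n V k] G →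
          (∀ ω, |G ω| ≤ 1) → ∀ t : ℝ, 0 < t →
            |∫ ω, X n u ω * G ω ∂Q| ≤
              t * (C * Real.exp (-(α * m))) + t⁻¹ * ∫ ω, X n u ω ^ 2 ∂Q + ε) :
    CCW atTop (fun _ => Q) X 𝓕 := by
  intro u c r r' hu hr hrr' hsupp ε hε
  have hQ : IsProbabilityMeasure Q := hM.prob 0
  obtain ⟨Cu, hCu, hcells⟩ := exists_cells hu
  -- constants
  set B : ℝ := C + (κ * (16 * Cu ^ 2) + 1) with hB
  have hκ := hM.kpos
  have hB0 : 0 < B := by
    have : 0 ≤ κ * (16 * Cu ^ 2) := by positivity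
    rw [hB]; linarith
  set d : ℝ := r' - r with hd
  have hd0 : 0 < d := by rw [hd]; linarith
  set D : ℝ := 1 + (a0 + a1 + 4) / d with hD
  have hD0 : 0 < D := by rw [hD]; positivity
  obtain ⟨m, hm1, hm⟩ := exists_m (A := Cu * D ^ 2) (B := B) (by positivity) hB0.le hα
    (show 0 < ε / 4 by positivity)
  have hm1' : (1 : ℝ) ≤ m := by exact_mod_cast hm1
  -- the mesh
  set η : ℝ := 1 / (D * m) with hη
  have hη0 : 0 < η := by rw [hη]; positivity
  have hη1 : η ≤ 1 := by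
    rw [hη, div_le_one (by positivity)]
    have h1 : 1 ≤ D := by
      have : 0 ≤ (a0 + a1 + 4) / d := by positivity
      rw [hD]; linarith
    nlinarith
  have hηd : (a0 + a1 * m + 4) * η ≤ d := by
    rw [hη, mul_one_div, div_le_iff₀ (by positivity)]
    have h1 : d * D = d + (a0 + a1 + 4) := by
      rw [hD]; field_simp
    have h2 : d * (D * m) = (d + (a0 + a1 + 4)) * m := by rw [← h1]; ring
    rw [h2]
    nlinarith [mul_nonneg ha0.le (sub_nonneg.2 hm1'), mul_nonneg hd0.le (show (0 : ℝ) ≤ m by linarith)]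
  obtain ⟨s, f, g, hc⟩ := hcells η hη0 hη1
  have hcard : (s.card : ℝ) * (Real.exp (-(α * m / 2)) * B) ≤ ε / 4 := by
    refine le_trans ?_ hm
    refine mul_le_mul_of_nonneg_right ?_ (by positivity)
    refine hc.card.trans (le_of_eq ?_)
    rw [hη]
    field_simp
  set ε0 : ℝ := ε / (4 * (s.card + 1)) with hε0
  have hε00 : 0 < ε0 := by rw [hε0]; positivity
  have hε0s : (s.card : ℝ) * ε0 ≤ ε / 4 := by
    rw [hε0, mul_div_assoc', div_le_div_iff₀ (by positivity) (by positivity)]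
    nlinarith [(Nat.cast_nonneg s.card : (0 : ℝ) ≤ s.card)]
  -- eventually
  have q1 : ∀ᶠ n in atTop, ∀ k ∈ s, ∫ ω, X n (f k) ω ^ 2 ∂Q ≤ κ * (16 * Cu ^ 2) + 1 := by
    refine (s.finite_toSet.eventually_all).2 fun k _ => ?_
    have h1 := hM.var (f k) (f k) (hc.tf k) (hc.tf k)
    have h2 : κ * ∫ z, f k z * (-(Δ (f k)) z) < κ * (16 * Cu ^ 2) + 1 := by
      have := mul_le_mul_of_nonneg_left (hc.en_f hη0 k) hκ
      linarith
    filter_upwards [h1.eventually (gt_mem_nhds h2)] with n hn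
    refine le_trans (le_of_eq ?_) hn.le
    exact integral_congr_ae (Eventually.of_forall fun ω => by
      show X n (f k) ω ^ 2 = X n (f k) ω * X n (f k) ω
      ring)
  have q2 : ∀ᶠ n in atTop, ∀ k ∈ s, ∀ V : Set ℂ,
      V ⊆ (ball (ctr η k) ((a0 + a1 * m) * η))ᶜ → ∀ (j : ℕ) (G : Ω → ℝ), Measurable[𝒢 n V j] G →
          (∀ ω, |G ω| ≤ 1) → ∀ t : ℝ, 0 < t →
            |∫ ω, X n (f k) ω * G ω ∂Q| ≤
              t * (C * Real.exp (-(α * m))) + t⁻¹ * ∫ ω, X n (f k) ω ^ 2 ∂Q + ε0 :=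
    (s.finite_toSet.eventually_all).2 fun k _ =>
      hcell m η (ctr η k) (f k) hm1 hη0 (hc.tf k) (hc.sf k) ε0 hε00
  filter_upwards [q1, q2] with n hn1 hn2
  have hfun : (fun z => ∑ k ∈ s, f k z) = u := funext hc.sum
  -- real functions measurable for the filtration
  have hV : ∀ k ∈ s, (ball c r')ᶜ ⊆ (ball (ctr η k) ((a0 + a1 * m) * η))ᶜ := by
    intro k hk z hz hz'
    apply hz
    obtain ⟨w, hw, hwd⟩ := hc.near k hk
    have h1 := mem_closedBall.1 (hsupp hw)
    have h2 := mem_ball.1 hz'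
    rw [mem_ball]
    have h3 := dist_triangle z (ctr η k) c
    have h4 := dist_triangle (ctr η k) w c
    rw [dist_comm (ctr η k) w] at h4
    have h5 : (a0 + a1 * m) * η + 4 * η ≤ d := by linarith [hηd, (by ring : (a0 + a1 * m + 4) * η = (a0 + a1 * m) * η + 4 * η)]
    have h6 : d = r' - r := hd
    linarith
  have hloc : ∀ (j : ℕ) (G : Ω → ℝ), Measurable[𝒢 n (ball c r')ᶜ j] G → (∀ ω, |G ω| ≤ 1) →
      |∫ ω, X n u ω * G ω ∂Q| ≤ ε / 2 := by
    intro j G hG hG1
    have hGm : Measurable G := hG.mono ((𝒢 n (ball c r')ᶜ).le j) le_rfl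
    have hint : ∀ k ∈ s, Integrable (fun ω => X n (f k) ω * G ω) Q := by
      intro k _
      obtain ⟨A, hA⟩ := hM.bdd n (f k) (hc.tf k)
      refine Integrable.of_bound ((hM.meas n (f k) (hc.tf k)).mul hGm).aestronglyMeasurable |A|
        (hA.mono fun ω hω => ?_)
      rw [Real.norm_eq_abs, abs_mul]
      calc |X n (f k) ω| * |G ω| ≤ |A| * 1 :=
            mul_le_mul (hω.trans (le_abs_self A)) (hG1 ω) (abs_nonneg _) (abs_nonneg A)
        _ = |A| := mul_one _
    have e1 : ∫ ω, X n u ω * G ω ∂Q = ∑ k ∈ s, ∫ ω, X n (f k) ω * G ω ∂Q := by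
      rw [← integral_finsetSum s hint]
      refine integral_congr_ae (Eventually.of_forall fun ω => ?_)
      show X n u ω * G ω = ∑ k ∈ s, X n (f k) ω * G ω
      rw [← Finset.sum_mul, ← X_sum hM.add n s hc.tf ω, hfun]
    rw [e1]
    refine (Finset.abs_sum_le_sum_abs _ _).trans ?_
    have hcb : ∀ k ∈ s, |∫ ω, X n (f k) ω * G ω ∂Q| ≤ Real.exp (-(α * m / 2)) * B + ε0 := by
      intro k hk
      have h1 := hn2 k hk _ (hV k hk) j G hG hG1 (Real.exp (α * m / 2)) (Real.exp_pos _)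
      have h2 := hn1 k hk
      have e2 : Real.exp (α * m / 2) * (C * Real.exp (-(α * m))) = Real.exp (-(α * m / 2)) * C := by
        rw [mul_comm C, ← mul_assoc, ← Real.exp_add]
        congr 2
        ring
      have e3 : (Real.exp (α * m / 2))⁻¹ = Real.exp (-(α * m / 2)) := (Real.exp_neg _).symm
      rw [e2, e3] at h1
      have h3 : Real.exp (-(α * m / 2)) * ∫ ω, X n (f k) ω ^ 2 ∂Q ≤
          Real.exp (-(α * m / 2)) * (κ * (16 * Cu ^ 2) + 1) :=
        mul_le_mul_of_nonneg_left h2 (Real.exp_pos _).le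
      have h4 : Real.exp (-(α * m / 2)) * B = Real.exp (-(α * m / 2)) * C +
          Real.exp (-(α * m / 2)) * (κ * (16 * Cu ^ 2) + 1) := by rw [hB]; ring
      linarith
    refine (Finset.sum_le_sum hcb).trans ?_
    rw [Finset.sum_const, nsmul_eq_mul, mul_add]
    linarith
  -- real functions
  obtain ⟨A, hA⟩ := hM.bdd n u hu
  have hreal : ∀ G : Ω → ℝ, Measurable[𝓕 n (ball c r')ᶜ] G → (∀ ω, |G ω| ≤ 1) →
      |∫ ω, X n u ω * G ω ∂Q| ≤ ε / 2 := fun G hG hG1 =>
    int_of_filtration (𝒢 n (ball c r')ᶜ) (hM.meas n u hu) hA (hG.mono (h𝒢 n _) le_rfl) hG1 hloc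
  -- complex functions
  intro Z hZ hZ1
  have hre : Measurable[𝓕 n (ball c r')ᶜ] fun ω => (Z ω).re := Complex.measurable_re.comp hZ
  have him : Measurable[𝓕 n (ball c r')ᶜ] fun ω => (Z ω).im := Complex.measurable_im.comp hZ
  have h1 := hreal _ hre fun ω => (Complex.abs_re_le_norm _).trans (hZ1 ω)
  have h2 := hreal _ him fun ω => (Complex.abs_im_le_norm _).trans (hZ1 ω)
  have hZm : Measurable Z := hZ.mono (hM.le n _) le_rfl
  have hXm : Measurable (X n u) := hM.meas n u hu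
  have hint : Integrable (fun ω => Z ω * (X n u ω : ℂ)) Q := by
    refine Integrable.of_bound (hZm.mul (Complex.measurable_ofReal.comp hXm)).aestronglyMeasurable |A|
      (hA.mono fun ω hω => ?_)
    rw [norm_mul, Complex.norm_real, Real.norm_eq_abs]
    calc ‖Z ω‖ * |X n u ω| ≤ 1 * |A| :=
          mul_le_mul (hZ1 ω) (hω.trans (le_abs_self A)) (abs_nonneg _) zero_le_one
      _ = |A| := one_mul _
  have e1 : (∫ ω, Z ω * (X n u ω : ℂ) ∂Q).re = ∫ ω, X n u ω * (Z ω).re ∂Q := by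
    have := integral_re hint
    rw [← RCLike.re_eq_complex_re, ← this]
    refine integral_congr_ae (Eventually.of_forall fun ω => ?_)
    simp [mul_comm]
  have e2 : (∫ ω, Z ω * (X n u ω : ℂ) ∂Q).im = ∫ ω, X n u ω * (Z ω).im ∂Q := by
    have := integral_im hint
    rw [← RCLike.im_eq_complex_im, ← this]
    refine integral_congr_ae (Eventually.of_forall fun ω => ?_)
    simp [mul_comm]
  refine (Complex.norm_le_abs_re_add_abs_im _).trans ?_
  rw [e1, e2]
  linarith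

end Crest.Agent.R144.Cd617
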