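import Mathlib

/-!
R144 (S0197), helper761.  Coercivity on frozen patches, part 1: homotheties and segments.

* `lintegral_hom` : change of variables for `x ↦ (1-s) x + s r`;
* `lintegral_hom_le` : the same with a weight `w` with `w x ≤ C w ((1-s) x + s r)`;
* `sub_sq_le_segment` : `(g x - g (hom r t x))² ≤ t ∫_0^t |Dg|² |x - r|²` along the segment;
* `lintegral_sq_le_hom` : `∫_K g² ≤ 2 t² R² (1-t)^{-N} ∫_K |Dg|² + 2 ∫_K g(hom r t x)²`.
-/

set_option autoImplicit false

open MeasureTheory Set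
open scoped ENNReal

noncomputable section

namespace Crest.Agent.R144.Coer761

set_option linter.unusedSectionVars false

variable {ι : Type*} [Fintype ι]

/-- The homothety of centre `r` and ratio `1 - s`. -/
def hom (r : ι → ℝ) (s : ℝ) (x : ι → ℝ) : ι → ℝ := (1 - s) • x + s • r

theorem hom_apply (r : ι → ℝ) (s : ℝ) (x : ι → ℝ) (i : ι) :
    hom r s x i = (1 - s) * x i + s * r i := rfl

theorem hom_zero (r x : ι → ℝ) : hom r 0 x = x := by simp [hom]

theorem continuous_hom (r : ι → ℝ) (s : ℝ) : Continuous (hom r s) := by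
  unfold hom; fun_prop

theorem hom_mem {K : Set (ι → ℝ)} (hK : Convex ℝ K) {r x : ι → ℝ} (hr : r ∈ K) (hx : x ∈ K)
    {s : ℝ} (h0 : 0 ≤ s) (h1 : s ≤ 1) : hom r s x ∈ K :=
  hK hx hr (by linarith) h0 (by ring)

/-- The Jacobian constant. -/
def jac (ι : Type*) [Fintype ι] (s : ℝ) : ℝ≥0∞ := ENNReal.ofReal (((1 - s) ^ Fintype.card ι)⁻¹)

theorem lintegral_hom (r : ι → ℝ) {s : ℝ} (hs : s < 1) (φ : (ι → ℝ) → ℝ≥0∞) :
    ∫⁻ x, φ (hom r s x) = jac ι s * ∫⁻ x, φ x := by
  have h1 : (1 - s) ≠ 0 := by linarith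
  let e : (ι → ℝ) ≃ᵐ (ι → ℝ) :=
    ((Homeomorph.smulOfNeZero (1 - s) h1).trans (Homeomorph.addRight (s • r))).toMeasurableEquiv
  have he : ∀ x, e x = hom r s x := fun x => rfl
  have hmap : Measure.map e volume = jac ι s • (volume : Measure (ι → ℝ)) := by
    have h2 : (e : (ι → ℝ) → (ι → ℝ)) = (fun x => x + s • r) ∘ (fun x => (1 - s) • x) := rfl
    rw [h2, ← Measure.map_map (measurable_add_const _) (measurable_const_smul _),
      Measure.map_addHaar_smul volume h1, Measure.map_smul, map_add_right_eq_self]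
    congr 1
    rw [jac, Module.finrank_pi, abs_of_nonneg]
    have : 0 ≤ 1 - s := by linarith
    positivity
  calc ∫⁻ x, φ (hom r s x) = ∫⁻ x, φ (e x) := rfl
    _ = ∫⁻ y, φ y ∂(Measure.map e volume) := (lintegral_map_equiv φ e).symm
    _ = jac ι s * ∫⁻ x, φ x := by rw [hmap, lintegral_smul_measure, smul_eq_mul]

theorem lintegral_hom_le (r : ι → ℝ) {s : ℝ} (hs : s < 1) (φ w : (ι → ℝ) → ℝ≥0∞) {C : ℝ≥0∞}
    (hC : C ≠ ∞) (hw : ∀ x, w x ≤ C * w (hom r s x)) :
    ∫⁻ x, φ (hom r s x) * w x ≤ C * jac ι s * ∫⁻ x, φ x * w x := by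
  calc ∫⁻ x, φ (hom r s x) * w x ≤ ∫⁻ x, φ (hom r s x) * (C * w (hom r s x)) := by
        gcongr with x; exact hw x
    _ = jac ι s * ∫⁻ x, φ x * (C * w x) :=
        lintegral_hom r hs (fun y => φ y * (C * w y))
    _ = jac ι s * (C * ∫⁻ x, φ x * w x) := by
        rw [← lintegral_const_mul' _ _ hC]
        congr 1
        refine lintegral_congr fun x => ?_
        rw [mul_left_comm]
    _ = C * jac ι s * ∫⁻ x, φ x * w x := by ring

/-- Squared Euclidean norm on `ι → ℝ`. -/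
def nsq (v : ι → ℝ) : ℝ := ∑ i, v i ^ 2

theorem nsq_nonneg (v : ι → ℝ) : 0 ≤ nsq v := Finset.sum_nonneg fun _ _ => sq_nonneg _

/-- Cauchy–Schwarz for the pairing `∑ a i * b i`. -/
theorem pair_sq_le (a b : ι → ℝ) : (∑ i, a i * b i) ^ 2 ≤ nsq a * nsq b := by
  simpa [nsq] using Finset.sum_mul_sq_le_sq_mul_sq Finset.univ a b

/-- `G` is the (continuous) gradient of `g`. -/
structure IsGrad (g : (ι → ℝ) → ℝ) (G : (ι → ℝ) → ι → ℝ) : Prop where
  cont : Continuous G
  deriv : ∀ x v : ι → ℝ, HasDerivAt (fun t : ℝ => g (x + t • v)) (∑ i, G x i * v i) 0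

theorem IsGrad.hasDerivAt {g : (ι → ℝ) → ℝ} {G : (ι → ℝ) → ι → ℝ} (h : IsGrad g G)
    (x v : ι → ℝ) (t : ℝ) :
    HasDerivAt (fun t : ℝ => g (x + t • v)) (∑ i, G (x + t • v) i * v i) t := by
  have h1 := h.deriv (x + t • v) v
  have h2 : HasDerivAt (fun s : ℝ => s - t) 1 t := by simpa using (hasDerivAt_id t).sub_const t
  have h3 : HasDerivAt (fun s : ℝ => g (x + t • v + (s - t) • v))
      ((∑ i, G (x + t • v) i * v i) * 1) t := by
    have h4 : HasDerivAt (fun t' : ℝ => g (x + t • v + t' • v)) (∑ i, G (x + t • v) i * v i)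
        (t - t) := by rw [sub_self]; exact h1
    exact HasDerivAt.comp (h₂ := fun t' : ℝ => g (x + t • v + t' • v)) (h := fun s : ℝ => s - t)
      t h4 h2
  rw [mul_one] at h3
  have h5 : (fun s : ℝ => g (x + t • v + (s - t) • v)) = fun s : ℝ => g (x + s • v) := by
    funext s
    congr 1
    rw [add_assoc, ← add_smul]
    congr 2
    ring
  rwa [h5] at h3

theorem IsGrad.of_contDiff [DecidableEq ι] {g : (ι → ℝ) → ℝ} (h : ContDiff ℝ 1 g) :
    IsGrad g (fun x i => fderiv ℝ g x (Pi.single i 1)) where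
  cont := continuous_pi fun i => (h.continuous_fderiv one_ne_zero).clm_apply continuous_const
  deriv x v := by
    have h1 : HasFDerivAt g (fderiv ℝ g x) x := (h.differentiable one_ne_zero x).hasFDerivAt
    have h2 : HasDerivAt (fun t : ℝ => x + t • v) v 0 := by
      simpa using ((hasDerivAt_id (0:ℝ)).smul_const v).const_add x
    have h3 : HasDerivAt (fun t : ℝ => g (x + t • v)) (fderiv ℝ g x v) 0 := by
      refine HasFDerivAt.comp_hasDerivAt (l := g) (f := fun t : ℝ => x + t • v) 0 ?_ h2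
      simpa using h1
    have h4 : fderiv ℝ g x v = ∑ i, fderiv ℝ g x (Pi.single i 1) * v i := by
      conv_lhs => rw [show v = ∑ i, v i • (Pi.single i 1 : ι → ℝ) by
        ext j; simp [Finset.sum_apply, Pi.single_apply]]
      rw [map_sum]
      refine Finset.sum_congr rfl fun i _ => ?_
      rw [map_smul, smul_eq_mul, mul_comm]
    rw [← h4]; exact h3

theorem IsGrad.sub {g₁ g₂ : (ι → ℝ) → ℝ} {G₁ G₂ : (ι → ℝ) → ι → ℝ} (h₁ : IsGrad g₁ G₁)
    (h₂ : IsGrad g₂ G₂) : IsGrad (fun x => g₁ x - g₂ x) (fun x i => G₁ x i - G₂ x i) where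
  cont := by
    have := h₁.cont; have := h₂.cont
    fun_prop
  deriv x v := by
    have h := (h₁.deriv x v).sub (h₂.deriv x v)
    have e : (∑ i, (G₁ x i - G₂ x i) * v i) = (∑ i, G₁ x i * v i) - ∑ i, G₂ x i * v i := by
      rw [← Finset.sum_sub_distrib]; exact Finset.sum_congr rfl fun i _ => by ring
    rw [e]; exact h

/-- Along a segment: `(g (x + t v) - g x)² ≤ t ∫_0^t |Dg(x + s v)|² |v|² ds`. -/
theorem sub_sq_le_segment {g : (ι → ℝ) → ℝ} {G : (ι → ℝ) → ι → ℝ} (h : IsGrad g G)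
    (x v : ι → ℝ) {t : ℝ} (ht : 0 ≤ t) :
    (g (x + t • v) - g x) ^ 2 ≤ t * ∫ s in (0:ℝ)..t, nsq (G (x + s • v)) * nsq v := by
  have hG : Continuous fun s : ℝ => ∑ i, G (x + s • v) i * v i := by
    have := h.cont
    fun_prop
  have hG2 : Continuous fun s : ℝ => nsq (G (x + s • v)) * nsq v := by
    have := h.cont
    unfold nsq
    fun_prop
  have h1 : ∫ s in (0:ℝ)..t, (∑ i, G (x + s • v) i * v i) = g (x + t • v) - g x := by
    have := intervalIntegral.integral_eq_sub_of_hasDerivAt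
      (f := fun s : ℝ => g (x + s • v)) (a := 0) (b := t)
      (fun s _ => h.hasDerivAt x v s) (hG.intervalIntegrable _ _)
    simpa using this
  rw [← h1]
  -- Cauchy–Schwarz
  have h2 : (∫ s in (0:ℝ)..t, (∑ i, G (x + s • v) i * v i)) ^ 2 ≤
      t * ∫ s in (0:ℝ)..t, (∑ i, G (x + s • v) i * v i) ^ 2 := by
    set f : ℝ → ℝ := fun s => ∑ i, G (x + s • v) i * v i with hf
    set A := ∫ s in (0:ℝ)..t, f s with hA
    have hff : IntervalIntegrable (fun s => f s ^ 2) volume 0 t :=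
      (hG.pow 2).intervalIntegrable _ _
    have hfi : IntervalIntegrable f volume 0 t := hG.intervalIntegrable _ _
    rcases eq_or_lt_of_le ht with h0 | h0
    · rw [← h0] at hA ⊢
      simp [hA]
    have h3 : 0 ≤ ∫ s in (0:ℝ)..t, (f s - A / t) ^ 2 :=
      intervalIntegral.integral_nonneg ht fun s _ => sq_nonneg _
    have h4 : ∫ s in (0:ℝ)..t, (f s - A / t) ^ 2 =
        (∫ s in (0:ℝ)..t, f s ^ 2) - 2 * (A / t) * A + (A / t) ^ 2 * t := by
      have e : (fun s => (f s - A / t) ^ 2) =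
          fun s => f s ^ 2 - 2 * (A / t) * f s + (A / t) ^ 2 := by
        funext s; ring
      rw [e, intervalIntegral.integral_add (hff.sub (hfi.const_mul _)) (by simp),
        intervalIntegral.integral_sub hff (hfi.const_mul _),
        intervalIntegral.integral_const_mul]
      simp [hA]
      ring
    rw [h4] at h3
    have h5 : (∫ s in (0:ℝ)..t, f s ^ 2) - A ^ 2 / t ≥ 0 := by
      have : (∫ s in (0:ℝ)..t, f s ^ 2) - 2 * (A / t) * A + (A / t) ^ 2 * t =
          (∫ s in (0:ℝ)..t, f s ^ 2) - A ^ 2 / t := by field_simp; ring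
      linarith
    have h6 : A ^ 2 / t ≤ ∫ s in (0:ℝ)..t, f s ^ 2 := by linarith
    rw [div_le_iff₀ h0] at h6
    linarith [mul_comm (∫ s in (0:ℝ)..t, f s ^ 2) t]
  refine h2.trans ?_
  refine mul_le_mul_of_nonneg_left ?_ ht
  refine intervalIntegral.integral_mono_on ht ((hG.pow 2).intervalIntegrable _ _)
    (hG2.intervalIntegrable _ _) fun s _ => pair_sq_le _ _

theorem hom_eq (r : ι → ℝ) (s : ℝ) (x : ι → ℝ) : hom r s x = x + s • (r - x) := by
  ext i
  simp only [hom, Pi.add_apply, Pi.smul_apply, Pi.sub_apply, smul_eq_mul]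
  ring

theorem jac_mono {s t : ℝ} (hst : s ≤ t) (ht : t < 1) : jac ι s ≤ jac ι t := by
  unfold jac
  apply ENNReal.ofReal_le_ofReal
  have h1 : 0 < 1 - t := by linarith
  have h2 : (1 - t) ^ Fintype.card ι ≤ (1 - s) ^ Fintype.card ι :=
    pow_le_pow_left₀ h1.le (by linarith) _
  exact inv_anti₀ (by positivity) h2

theorem jac_ne_top (s : ℝ) : jac ι s ≠ ∞ := ENNReal.ofReal_ne_top

theorem measurable_nsq_comp {G : (ι → ℝ) → ι → ℝ} (hG : Continuous G) :
    Continuous fun x => nsq (G x) := by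
  unfold nsq; fun_prop

/-- The main comparison along a homothety, with a weight. -/
theorem lintegral_sq_le_hom {g : (ι → ℝ) → ℝ} {G : (ι → ℝ) → ι → ℝ} (h : IsGrad g G)
    {K A : Set (ι → ℝ)} {r : ι → ℝ} {t R2 : ℝ} (ht0 : 0 ≤ t) (ht1 : t < 1)
    {w : (ι → ℝ) → ℝ≥0∞} (hwm : Measurable w) (hwK : ∀ x ∉ K, w x = 0)
    (hR : ∀ x ∈ K, nsq (r - x) ≤ R2) (hR0 : 0 ≤ R2) {C : ℝ≥0∞} (hC : C ≠ ∞)
    (hw : ∀ s, 0 ≤ s → s ≤ t → ∀ x, w x ≤ C * w (hom r s x))
    (hA : ∀ x ∈ K, hom r t x ∈ A) :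
    ∫⁻ x, ENNReal.ofReal (g x ^ 2) * w x ≤
      2 * (ENNReal.ofReal (t ^ 2 * R2) * (C * jac ι t)) *
        (∫⁻ x, ENNReal.ofReal (nsq (G x)) * w x) +
      2 * (C * jac ι t) * ∫⁻ x, A.indicator (fun x => ENNReal.ofReal (g x ^ 2)) x * w x := by
  have hGc := h.cont
  have hGn : Continuous fun x => nsq (G x) := measurable_nsq_comp hGc
  -- pointwise
  have hpt : ∀ x, ENNReal.ofReal (g x ^ 2) * w x ≤
      2 * ((ENNReal.ofReal (t * R2) * ∫⁻ s in Ioc (0:ℝ) t,
        ENNReal.ofReal (nsq (G (hom r s x)))) * w x) +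
      2 * (A.indicator (fun y => ENNReal.ofReal (g y ^ 2)) (hom r t x) * w x) := by
    intro x
    by_cases hx : x ∈ K
    swap
    · simp [hwK x hx]
    have h1 : g x ^ 2 ≤ 2 * (g (x + t • (r - x)) - g x) ^ 2 + 2 * g (hom r t x) ^ 2 := by
      rw [hom_eq]
      nlinarith [sq_nonneg (2 * g (x + t • (r - x)) - g x)]
    have h2 := sub_sq_le_segment h x (r - x) ht0
    have hc : Continuous fun s : ℝ => nsq (G (x + s • (r - x))) * nsq (r - x) := by
      unfold nsq; fun_prop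
    have hc' : Continuous fun s : ℝ => nsq (G (hom r s x)) := by
      simp only [hom_eq]
      unfold nsq; fun_prop
    have h3 : (∫ s in (0:ℝ)..t, nsq (G (x + s • (r - x))) * nsq (r - x)) ≤
        R2 * ∫ s in (0:ℝ)..t, nsq (G (hom r s x)) := by
      rw [← intervalIntegral.integral_const_mul]
      refine intervalIntegral.integral_mono_on ht0 (hc.intervalIntegrable _ _)
        ((continuous_const.mul hc').intervalIntegrable _ _) fun s _ => ?_
      rw [hom_eq, mul_comm]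
      exact mul_le_mul_of_nonneg_right (hR x hx) (nsq_nonneg _)
    have h4 : ENNReal.ofReal (∫ s in (0:ℝ)..t, nsq (G (hom r s x))) =
        ∫⁻ s in Ioc (0:ℝ) t, ENNReal.ofReal (nsq (G (hom r s x))) := by
      rw [intervalIntegral.integral_of_le ht0,
        ofReal_integral_eq_lintegral_ofReal]
      · exact (hc'.intervalIntegrable 0 t).1
      · exact Filter.Eventually.of_forall fun s => nsq_nonneg _
    have h5 : g x ^ 2 ≤ 2 * (t * R2 * ∫ s in (0:ℝ)..t, nsq (G (hom r s x))) +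
        2 * g (hom r t x) ^ 2 := by
      have : t * (R2 * ∫ s in (0:ℝ)..t, nsq (G (hom r s x))) =
        t * R2 * ∫ s in (0:ℝ)..t, nsq (G (hom r s x)) := by ring
      nlinarith [mul_le_mul_of_nonneg_left h3 ht0]
    have hInn : 0 ≤ ∫ s in (0:ℝ)..t, nsq (G (hom r s x)) :=
      intervalIntegral.integral_nonneg ht0 fun s _ => nsq_nonneg _
    rw [indicator_of_mem (hA x hx)]
    calc ENNReal.ofReal (g x ^ 2) * w x
        ≤ ENNReal.ofReal (2 * (t * R2 * ∫ s in (0:ℝ)..t, nsq (G (hom r s x))) +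
          2 * g (hom r t x) ^ 2) * w x := by gcongr
      _ = (2 * (ENNReal.ofReal (t * R2) * ∫⁻ s in Ioc (0:ℝ) t,
            ENNReal.ofReal (nsq (G (hom r s x)))) +
          2 * ENNReal.ofReal (g (hom r t x) ^ 2)) * w x := by
          have htR : 0 ≤ t * R2 := mul_nonneg ht0 hR0
          rw [ENNReal.ofReal_add (by positivity) (by positivity),
            ENNReal.ofReal_mul (by norm_num : (0:ℝ) ≤ 2), ENNReal.ofReal_mul htR,
            ENNReal.ofReal_mul (by norm_num : (0:ℝ) ≤ 2), h4]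
          simp
      _ = _ := by ring
  -- measurability on the product
  have hmeas : Measurable fun p : (ι → ℝ) × ℝ => ENNReal.ofReal (nsq (G (hom r p.2 p.1))) := by
    have : Continuous fun p : (ι → ℝ) × ℝ => nsq (G (hom r p.2 p.1)) := by
      simp only [hom_eq]
      unfold nsq; fun_prop
    exact this.measurable.ennreal_ofReal
  have hmw : Measurable fun p : (ι → ℝ) × ℝ =>
      ENNReal.ofReal (nsq (G (hom r p.2 p.1))) * w p.1 :=
    hmeas.mul (hwm.comp measurable_fst)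
  have hI1 : ∫⁻ x, (ENNReal.ofReal (t * R2) * ∫⁻ s in Ioc (0:ℝ) t,
      ENNReal.ofReal (nsq (G (hom r s x)))) * w x ≤
      ENNReal.ofReal (t ^ 2 * R2) * (C * jac ι t) * ∫⁻ x, ENNReal.ofReal (nsq (G x)) * w x := by
    have e1 : ∀ x, (ENNReal.ofReal (t * R2) * ∫⁻ s in Ioc (0:ℝ) t,
        ENNReal.ofReal (nsq (G (hom r s x)))) * w x =
        ENNReal.ofReal (t * R2) * ∫⁻ s in Ioc (0:ℝ) t,
          ENNReal.ofReal (nsq (G (hom r s x))) * w x := by
      intro x
      rw [mul_assoc]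
      congr 1
      have hcx : Continuous fun s : ℝ => nsq (G (hom r s x)) := by
        simp only [hom_eq]
        unfold nsq; fun_prop
      rw [lintegral_mul_const _ hcx.measurable.ennreal_ofReal]
    simp_rw [e1]
    rw [lintegral_const_mul' _ _ ENNReal.ofReal_ne_top, lintegral_lintegral_swap hmw.aemeasurable]
    calc ENNReal.ofReal (t * R2) * ∫⁻ s in Ioc (0:ℝ) t, ∫⁻ x,
          ENNReal.ofReal (nsq (G (hom r s x))) * w x
        ≤ ENNReal.ofReal (t * R2) * ∫⁻ s in Ioc (0:ℝ) t,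
          (C * jac ι t * ∫⁻ x, ENNReal.ofReal (nsq (G x)) * w x) := by
          refine mul_le_mul_right ?_ _
          refine setLIntegral_mono measurable_const fun s hs => ?_
          calc ∫⁻ x, ENNReal.ofReal (nsq (G (hom r s x))) * w x
              ≤ C * jac ι s * ∫⁻ x, ENNReal.ofReal (nsq (G x)) * w x :=
                lintegral_hom_le r (lt_of_le_of_lt hs.2 ht1)
                  (fun y => ENNReal.ofReal (nsq (G y))) w hC (hw s hs.1.le hs.2)
            _ ≤ _ := by gcongr; exact jac_mono hs.2 ht1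
      _ = ENNReal.ofReal (t ^ 2 * R2) * (C * jac ι t) *
          ∫⁻ x, ENNReal.ofReal (nsq (G x)) * w x := by
          rw [setLIntegral_const, Real.volume_Ioc, sub_zero]
          rw [show t ^ 2 * R2 = (t * R2) * t by ring, ENNReal.ofReal_mul (mul_nonneg ht0 hR0)]
          ring
  have hI2 : ∫⁻ x, A.indicator (fun y => ENNReal.ofReal (g y ^ 2)) (hom r t x) * w x ≤
      C * jac ι t * ∫⁻ x, A.indicator (fun x => ENNReal.ofReal (g x ^ 2)) x * w x :=
    lintegral_hom_le r ht1 _ w hC (hw t ht0 le_rfl)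
  calc ∫⁻ x, ENNReal.ofReal (g x ^ 2) * w x
      ≤ ∫⁻ x, (2 * ((ENNReal.ofReal (t * R2) * ∫⁻ s in Ioc (0:ℝ) t,
        ENNReal.ofReal (nsq (G (hom r s x)))) * w x) +
      2 * (A.indicator (fun y => ENNReal.ofReal (g y ^ 2)) (hom r t x) * w x)) :=
        lintegral_mono hpt
    _ = 2 * (∫⁻ x, (ENNReal.ofReal (t * R2) * ∫⁻ s in Ioc (0:ℝ) t,
        ENNReal.ofReal (nsq (G (hom r s x)))) * w x) +
        2 * ∫⁻ x, A.indicator (fun y => ENNReal.ofReal (g y ^ 2)) (hom r t x) * w x := by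
        rw [lintegral_add_left, lintegral_const_mul' _ _ (by simp),
          lintegral_const_mul' _ _ (by simp)]
        have := (hmeas.lintegral_prod_right' (ν := volume.restrict (Ioc (0:ℝ) t)))
        exact ((this.const_mul _).mul hwm).const_mul _
    _ ≤ 2 * (ENNReal.ofReal (t ^ 2 * R2) * (C * jac ι t) *
          (∫⁻ x, ENNReal.ofReal (nsq (G x)) * w x)) +
        2 * (C * jac ι t * ∫⁻ x, A.indicator (fun x => ENNReal.ofReal (g x ^ 2)) x * w x) := by
        gcongr
    _ = _ := by ring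

end Crest.Agent.R144.Coer761
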