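import Crest.Agent.R144.RegR_136
import Mathlib.MeasureTheory.Integral.DominatedConvergence
import Mathlib.Analysis.SpecialFunctions.Integrals.Basic

/-!
# R144, CONST block (helper725), part 1

`RC.sinB` : for a reflection positive covariance `C`,
`|sin φ| * u_C(κ, φ + κ/2) ≤ (2π)⁻¹ ∫ u_C(κ, θ) dθ` (the row self-covariance at momentum `κ`).
It is `1 - |sin φ| P_λ(φ) = ((√(1+|sin φ|)) λ ∓ √(1-|sin φ|))² / (1 - 2 λ cos φ + λ²) ≥ 0` for the
Poisson kernel `P_λ`.
-/

set_option autoImplicit false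

noncomputable section

namespace Crest.Agent.R144.Cst725

open Finset Filter Topology MeasureTheory
open Crest.Agent.R144.Reg136
open scoped Real BigOperators

/-- the Hankel square behind the bound -/
theorem hp_trin {g : ℕ → ℝ} (hg : HP g) (c σ : ℝ) (hσ0 : 0 ≤ σ) (hσ1 : σ ^ 2 + c ^ 2 = 1) :
    0 ≤ (1 - σ) * g 0 - 2 * c * g 1 + (1 + σ) * g 2 := by
  have hσ : σ ≤ 1 := by nlinarith [sq_nonneg c]
  obtain ⟨a, b, ha, hb, hab⟩ : ∃ a b : ℝ, a ^ 2 = 1 - σ ∧ b ^ 2 = 1 + σ ∧ a * b = -c := by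
    have h1 : Real.sqrt (1 - σ) ^ 2 = 1 - σ := Real.sq_sqrt (by linarith)
    have h2 : Real.sqrt (1 + σ) ^ 2 = 1 + σ := Real.sq_sqrt (by linarith)
    have h3 : Real.sqrt (1 - σ) * Real.sqrt (1 + σ) = |c| := by
      rw [← Real.sqrt_mul (by linarith), show (1 - σ) * (1 + σ) = c ^ 2 by linarith, Real.sqrt_sq_eq_abs]
    rcases le_total 0 c with hc | hc
    · refine ⟨-Real.sqrt (1 - σ), Real.sqrt (1 + σ), by rw [neg_sq, h1], h2, ?_⟩
      rw [neg_mul, h3, abs_of_nonneg hc]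
    · refine ⟨Real.sqrt (1 - σ), Real.sqrt (1 + σ), h1, h2, ?_⟩
      rw [h3, abs_of_nonpos hc]
  have h := hg (range 2) (fun n => if n = 0 then a else b)
  simp only [sum_range_succ, range_zero, sum_empty, zero_add] at h
  norm_num at h
  have e : (1 - σ) * g 0 - 2 * c * g 1 + (1 + σ) * g 2 = a ^ 2 * g 0 + 2 * (a * b) * g 1 + b ^ 2 * g 2 := by
    rw [ha, hb, hab]; ring
  rw [e]
  nlinarith [h]

theorem uv_sin_le {F : ℕ → ℝ} {M ρ : ℝ} (hρ0 : 0 ≤ ρ) (hρ1 : ρ < 1) (h : Dec M ρ F) (hp : HP F)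
    (φ : ℝ) : |Real.sin φ| * uv (fun n => F n - F (n + 2)) φ ≤ F 0 := by
  have hg := hp.G hρ0 hρ1 h φ
  have hA := A_G hρ0 hρ1 h φ 0
  have hu : uv (fun n => F n - F (n + 2)) φ = G φ F 0 - G φ F 2 := by
    have e2 := G_shift φ F 0 2
    rw [zero_add] at e2
    rw [← e2]
    unfold uv G
    have hs0 := h.summable hρ0 hρ1 φ 0
    have hs2 := (h.shift hρ0 hρ1 2).summable hρ0 hρ1 φ 0
    rw [← hs0.tsum_sub hs2]
    exact tsum_congr fun m => by ring
  have key := hp_trin hg (Real.cos φ) |Real.sin φ| (abs_nonneg _)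
    (by rw [sq_abs]; exact Real.sin_sq_add_cos_sq φ)
  rw [hu]
  unfold A at hA
  rw [← hA]
  simp only [zero_add]
  linarith

/-- the row self-covariance as an integral -/
theorem integral_uC {M ρ : ℝ} {C : ℤ × ℤ → ℝ} (h : RC M ρ C) (κ : ℝ) :
    ∫ θ in (-π)..π, uC C κ θ = 2 * π * Fz C κ 0 := by
  have hπ := Real.pi_pos
  -- termwise integration
  have hterm : ∀ p : ℤ × ℤ, ∫ θ in (-π)..π, C p * Real.cos (κ * p.1 + θ * p.2)
      = if p.2 = 0 then 2 * π * (C p * Real.cos (κ * p.1)) else 0 := by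
    intro p
    by_cases hp : p.2 = 0
    · rw [if_pos hp, hp]
      simp only [Int.cast_zero, mul_zero, add_zero, intervalIntegral.integral_const, smul_eq_mul]
      ring
    · rw [if_neg hp, intervalIntegral.integral_const_mul]
      have hp' : (p.2 : ℝ) ≠ 0 := by exact_mod_cast hp
      have e1 : ∫ θ in (-π)..π, Real.cos (κ * p.1 + θ * p.2) = 0 := by
        have e2 : ∀ θ : ℝ, κ * p.1 + θ * p.2 = (p.2 : ℝ) * θ + κ * p.1 := fun θ => by ring
        simp_rw [e2]
        rw [intervalIntegral.integral_comp_mul_add (fun x => Real.cos x) hp' (κ * p.1), integral_cos]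
        have e3 : (p.2 : ℝ) * π + κ * p.1 = (p.2 : ℝ) * -π + κ * p.1 + p.2 * (2 * π) := by ring
        rw [e3, Real.sin_add_int_mul_two_pi, sub_self, smul_zero]
      rw [e1, mul_zero]
  have hsum := intervalIntegral.hasSum_intervalIntegral_of_summable_norm
    (a := -π) (b := π)
    (f := fun p : ℤ × ℤ =>
      (⟨fun θ : ℝ => C p * Real.cos (κ * p.1 + θ * p.2), by fun_prop⟩ : C(ℝ, ℝ))) ?_
  · simp only [ContinuousMap.coe_mk] at hsum
    have h1 := hsum.tsum_eq
    have e0 : ∫ θ in (-π)..π, uC C κ θ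
        = ∫ θ in (-π)..π, ∑' p : ℤ × ℤ, C p * Real.cos (κ * p.1 + θ * p.2) := rfl
    rw [e0, ← h1]
    simp_rw [hterm]
    have hs : Summable fun p : ℤ × ℤ => if p.2 = 0 then 2 * π * (C p * Real.cos (κ * p.1)) else 0 := by
      refine Summable.of_norm_bounded (h.summable_abs.mul_left (2 * π)) fun p => ?_
      split_ifs
      · rw [Real.norm_eq_abs, abs_mul (2 * π), abs_mul (C p), abs_of_pos (by positivity : 0 < 2 * π)]
        refine mul_le_mul_of_nonneg_left ?_ (by positivity)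
        calc |C p| * |Real.cos (κ * p.1)| ≤ |C p| * 1 :=
              mul_le_mul_of_nonneg_left (Real.abs_cos_le_one _) (abs_nonneg _)
          _ = _ := mul_one _
      · simp only [norm_zero]
        positivity
    rw [hs.tsum_prod]
    unfold Fz
    rw [← tsum_mul_left]
    refine tsum_congr fun x => ?_
    rw [tsum_eq_single 0]
    · simp
    · intro y hy
      simp [hy]
  · refine Summable.of_nonneg_of_le (fun p => norm_nonneg _) (fun p => ?_) h.summable_abs
    refine (ContinuousMap.norm_le _ (abs_nonneg _)).2 fun x => ?_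
    simp only [ContinuousMap.restrict_apply, ContinuousMap.coe_mk, Real.norm_eq_abs, abs_mul]
    calc |C p| * |Real.cos _| ≤ |C p| * 1 :=
          mul_le_mul_of_nonneg_left (Real.abs_cos_le_one _) (abs_nonneg _)
      _ = _ := mul_one _

theorem _root_.Crest.Agent.R144.Reg136.RC.sinB {M ρ : ℝ} {C : ℤ × ℤ → ℝ} (h : RC M ρ C) (κ φ : ℝ) :
    |Real.sin φ| * uC C κ (φ + κ / 2) ≤ (∫ θ in (-π)..π, uC C κ θ) / (2 * π) := by
  rw [integral_uC h κ, h.uC_eq_uv]
  have hπ := Real.pi_pos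
  rw [mul_div_cancel_left₀ _ (by positivity : (2 * π) ≠ 0)]
  have := uv_sin_le h.ρ0 h.ρ1 (h.dec_F κ) (h.hp_F κ) φ
  simpa using this

end Crest.Agent.R144.Cst725
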