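import Crest.Agent.R144.Tp4_952

/-!
# R144, block TP, helper952 (5): spectral representation of the variogram

* `Reg.exists_spec` : the quadratic form `-1/2 ∑∑ f f V` is `(2π)^{-2} ∫_{N k < r²} |f^|² u` up to
  `C / r² * sup_{N k ≥ r²} |f^|²`.
-/

set_option autoImplicit false

open Filter Topology MeasureTheory
open scoped Real BigOperators

noncomputable section

namespace Crest.Agent.R144.Tp952

variable {V : ℤ × ℤ → ℝ} {U : ℕ → ℝ → ℝ → ℝ}

/-! ### elementary bounds -/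

theorem NN_ge (k1 k2 : ℝ) : (k1 ^ 2 + k2 ^ 2) / 2 ≤ NN k1 k2 := by
  unfold NN; nlinarith [sq_nonneg (k1 - k2)]

theorem NN_le (k1 k2 : ℝ) : NN k1 k2 ≤ 3 / 2 * (k1 ^ 2 + k2 ^ 2) := by
  unfold NN; nlinarith [sq_nonneg (k1 + k2)]

theorem NN_nonneg (k1 k2 : ℝ) : 0 ≤ NN k1 k2 :=
  le_trans (by positivity) (NN_ge k1 k2)

theorem continuous_NN : Continuous (fun k : ℝ × ℝ => NN k.1 k.2) := by unfold NN; fun_prop

/-- `sg x ≥ (4/π²) x²` for `|x| ≤ π` -/
theorem sg_ge_jordan {x : ℝ} (hx : |x| ≤ π) : 4 / π ^ 2 * x ^ 2 ≤ sg x := by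
  have hπ := Real.pi_pos
  have h1 : sg x = 4 * Real.sin (|x| / 2) ^ 2 := by
    have h2 : Real.cos |x| = 1 - 2 * Real.sin (|x| / 2) ^ 2 := by
      have := Real.cos_two_mul (|x| / 2)
      rw [show 2 * (|x| / 2) = |x| by ring] at this
      rw [this, Real.cos_sq']; ring
    rw [Real.cos_abs] at h2
    unfold sg; rw [h2]; ring
  have h3 : 2 / π * (|x| / 2) ≤ Real.sin (|x| / 2) :=
    Real.mul_le_sin (by positivity) (by linarith)
  have h4 : 0 ≤ 2 / π * (|x| / 2) := by positivity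
  have h5 : (2 / π * (|x| / 2)) ^ 2 ≤ Real.sin (|x| / 2) ^ 2 := pow_le_pow_left₀ h4 h3 2
  have h6 : (2 / π * (|x| / 2)) ^ 2 = x ^ 2 / π ^ 2 := by
    rw [show 2 / π * (|x| / 2) = |x| / π by field_simp, div_pow, sq_abs]
  rw [h6] at h5
  rw [h1]
  calc 4 / π ^ 2 * x ^ 2 = 4 * (x ^ 2 / π ^ 2) := by ring
    _ ≤ _ := by linarith

theorem sg_sum_ge {k1 k2 r : ℝ} (h1 : |k1| ≤ π) (h2 : |k2| ≤ π) (hN : r ^ 2 ≤ NN k1 k2) :
    r ^ 2 / 4 ≤ sg k1 + sg k2 := by
  have e1 := sg_ge_jordan h1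
  have e2 := sg_ge_jordan h2
  have e3 := hN.trans (NN_le k1 k2)
  have hπ : (0 : ℝ) < π ^ 2 := by positivity
  have hπ' : π ^ 2 ≤ 10 := by nlinarith [Real.pi_lt_d2, Real.pi_pos]
  have e4 : (4 : ℝ) / 10 ≤ 4 / π ^ 2 := by
    apply div_le_div_of_nonneg_left (by norm_num) hπ hπ'
  have e5 : 4 / 10 * (k1 ^ 2 + k2 ^ 2) ≤ 4 / π ^ 2 * (k1 ^ 2 + k2 ^ 2) :=
    mul_le_mul_of_nonneg_right e4 (by positivity)
  nlinarith

/-! ### the Fourier transform -/

theorem continuous_fh (s : Finset (ℤ × ℤ)) (f : ℤ × ℤ → ℝ) :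
    Continuous (fun k : ℝ × ℝ => fh s f k.1 k.2) := by
  unfold fh
  refine continuous_finsetSum _ fun p _ => ?_
  refine continuous_const.mul (Complex.continuous_exp.comp ?_)
  refine continuous_const.mul (Complex.continuous_ofReal.comp ?_)
  fun_prop

/-- first-moment norm of a test function -/
def mom (s : Finset (ℤ × ℤ)) (f : ℤ × ℤ → ℝ) : ℝ := ∑ p ∈ s, |f p| * (|(p.1 : ℝ)| + |(p.2 : ℝ)|)

theorem mom_nonneg (s : Finset (ℤ × ℤ)) (f : ℤ × ℤ → ℝ) : 0 ≤ mom s f :=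
  Finset.sum_nonneg fun p _ => by positivity

theorem norm_fh_le {s : Finset (ℤ × ℤ)} {f : ℤ × ℤ → ℝ} (h0 : ∑ p ∈ s, f p = 0) (k1 k2 : ℝ) :
    ‖fh s f k1 k2‖ ≤ mom s f * max |k1| |k2| := by
  have h1 : fh s f k1 k2 = ∑ p ∈ s, (f p : ℂ) *
      (Complex.exp (Complex.I * ((p.1 : ℝ) * k1 + (p.2 : ℝ) * k2 : ℝ)) - 1) := by
    unfold fh
    have h2 : ∑ p ∈ s, (f p : ℂ) = 0 := by
      have := congrArg (fun x : ℝ => (x : ℂ)) h0
      simpa using this
    simp only [mul_sub, mul_one, Finset.sum_sub_distrib, h2, sub_zero]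
  rw [h1]
  refine (norm_sum_le _ _).trans ?_
  unfold mom
  rw [Finset.sum_mul]
  refine Finset.sum_le_sum fun p _ => ?_
  rw [norm_mul, Complex.norm_real, Real.norm_eq_abs, mul_assoc]
  refine mul_le_mul_of_nonneg_left ?_ (abs_nonneg _)
  have h3 : ‖Complex.exp (Complex.I * (((p.1 : ℝ) * k1 + (p.2 : ℝ) * k2 : ℝ) : ℂ)) - 1‖
      ≤ ‖((p.1 : ℝ) * k1 + (p.2 : ℝ) * k2 : ℝ)‖ := Real.norm_exp_I_mul_ofReal_sub_one_le
  refine h3.trans ?_
  rw [Real.norm_eq_abs]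
  calc |(p.1 : ℝ) * k1 + (p.2 : ℝ) * k2| ≤ |(p.1 : ℝ) * k1| + |(p.2 : ℝ) * k2| := abs_add_le _ _
    _ = |(p.1 : ℝ)| * |k1| + |(p.2 : ℝ)| * |k2| := by rw [abs_mul, abs_mul]
    _ ≤ |(p.1 : ℝ)| * max |k1| |k2| + |(p.2 : ℝ)| * max |k1| |k2| := by
        gcongr
        · exact le_max_left _ _
        · exact le_max_right _ _
    _ = _ := by ring

theorem normSq_fh_le {s : Finset (ℤ × ℤ)} {f : ℤ × ℤ → ℝ} (h0 : ∑ p ∈ s, f p = 0) (k1 k2 : ℝ) :
    Complex.normSq (fh s f k1 k2) ≤ 2 * mom s f ^ 2 * NN k1 k2 := by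
  rw [Complex.normSq_eq_norm_sq]
  have h1 := norm_fh_le h0 k1 k2
  have h2 : ‖fh s f k1 k2‖ ^ 2 ≤ (mom s f * max |k1| |k2|) ^ 2 := pow_le_pow_left₀ (norm_nonneg _) h1 2
  have h3 : (max |k1| |k2|) ^ 2 ≤ k1 ^ 2 + k2 ^ 2 := by
    rcases max_cases |k1| |k2| with ⟨h, -⟩ | ⟨h, -⟩
    · rw [h, sq_abs]; nlinarith [sq_nonneg k2]
    · rw [h, sq_abs]; nlinarith [sq_nonneg k1]
  have h4 := NN_ge k1 k2
  calc ‖fh s f k1 k2‖ ^ 2 ≤ mom s f ^ 2 * (max |k1| |k2|) ^ 2 := by rw [← mul_pow]; exact h2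
    _ ≤ mom s f ^ 2 * (2 * NN k1 k2) := by gcongr; linarith
    _ = _ := by ring

/-! ### the fundamental square and the disc -/

/-- the fundamental square -/
def JJ : Set (ℝ × ℝ) := Set.Ioc (-π) π ×ˢ Set.Ioc (-π) π

/-- the disc `N k < r²` -/
def BB (r : ℝ) : Set (ℝ × ℝ) := {k | NN k.1 k.2 < r ^ 2}

theorem measurableSet_JJ : MeasurableSet JJ := measurableSet_Ioc.prod measurableSet_Ioc

theorem isOpen_BB (r : ℝ) : IsOpen (BB r) := isOpen_lt continuous_NN continuous_const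

theorem measurableSet_BB (r : ℝ) : MeasurableSet (BB r) := (isOpen_BB r).measurableSet

theorem abs_le_of_mem_BB {r : ℝ} (hr : 0 ≤ r) {k : ℝ × ℝ} (hk : k ∈ BB r) :
    |k.1| ≤ 2 * r ∧ |k.2| ≤ 2 * r := by
  have h1 : NN k.1 k.2 < r ^ 2 := hk
  have h2 := NN_ge k.1 k.2
  constructor
  · apply abs_le_of_sq_le_sq _ (by linarith)
    nlinarith [sq_nonneg k.2]
  · apply abs_le_of_sq_le_sq _ (by linarith)
    nlinarith [sq_nonneg k.1]

theorem BB_subset_JJ {r : ℝ} (hr : 0 ≤ r) (hr' : r ≤ 1) : BB r ⊆ JJ := by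
  intro k hk
  have hπ := Real.pi_gt_three
  obtain ⟨h1, h2⟩ := abs_le_of_mem_BB hr hk
  rw [abs_le] at h1 h2
  exact ⟨⟨by linarith, by linarith⟩, ⟨by linarith, by linarith⟩⟩

theorem JJ_subset : JJ ⊆ Set.Icc (-π) π ×ˢ Set.Icc (-π) π :=
  Set.prod_mono Set.Ioc_subset_Icc_self Set.Ioc_subset_Icc_self

theorem integrableOn_JJ {G : ℝ × ℝ → ℝ} (hG : Continuous G) : IntegrableOn G JJ := by
  have h1 : IsCompact (Set.Icc (-π) π ×ˢ Set.Icc (-π) π) := isCompact_Icc.prod isCompact_Icc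
  exact (hG.continuousOn.integrableOn_compact h1).mono_set JJ_subset

theorem integral_JJ {G : ℝ × ℝ → ℝ} (hG : Continuous G) :
    ∫ k1 in (-π)..π, ∫ k2 in (-π)..π, G (k1, k2) = ∫ k in JJ, G k := by
  have hπ : -π ≤ π := by linarith [Real.pi_pos]
  have h1 := integrableOn_JJ hG
  unfold JJ at *
  rw [Measure.volume_eq_prod] at h1 ⊢
  rw [setIntegral_prod _ h1, intervalIntegral.integral_of_le hπ]
  congr 1; funext k1
  rw [intervalIntegral.integral_of_le hπ]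

theorem volume_BB_lt_top {r : ℝ} (hr : 0 ≤ r) (hr' : r ≤ 1) : volume (BB r) < ⊤ := by
  have h1 : IsCompact (Set.Icc (-π) π ×ˢ Set.Icc (-π) π) := isCompact_Icc.prod isCompact_Icc
  exact lt_of_le_of_lt (measure_mono ((BB_subset_JJ hr hr').trans JJ_subset)) h1.measure_lt_top

namespace Reg

/-- **spectral representation near `0`** -/
theorem exists_spec (h : Reg V U) : ∃ (u : ℝ × ℝ → ℝ) (L C : ℝ), 0 ≤ L ∧ 0 < C ∧ (∀ k, 0 ≤ u k) ∧
    ContinuousOn u {k | k ≠ 0 ∧ NN k.1 k.2 < 1 / 100} ∧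
    (∀ k : ℝ × ℝ, NN k.1 k.2 < 1 / 100 → NN k.1 k.2 * u k ≤ C) ∧
    Tendsto (fun k : ℝ × ℝ => NN k.1 k.2 * u k) (𝓝[≠] 0) (𝓝 L) ∧
    ∀ (r : ℝ) (s : Finset (ℤ × ℤ)) (f : ℤ × ℤ → ℝ) (M : ℝ), 0 < r → r ≤ 1 / 10 →
      ∑ p ∈ s, f p = 0 →
      (∀ k1 k2 : ℝ, |k1| ≤ π → |k2| ≤ π → r ^ 2 ≤ NN k1 k2 → Complex.normSq (fh s f k1 k2) ≤ M) →
      IntegrableOn (fun k : ℝ × ℝ => Complex.normSq (fh s f k.1 k.2) * u k) (BB r) ∧
      |(-(1 / 2) * ∑ p ∈ s, ∑ q ∈ s, f p * f q * V (p - q))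
        - (∫ k in BB r, Complex.normSq (fh s f k.1 k.2) * u k) / (2 * π) ^ 2| ≤ C / r ^ 2 * M := by
  obtain ⟨φ, u, L, C, hφ, hL, hC, hu, hlim, hcont, hIR, hIRn, hT⟩ := h.exists_density
  obtain ⟨CS, hCS, hS1, hS2⟩ := h.exists_S_bound
  refine ⟨u, L, C + 8 * CS, hL, by linarith, hu, ?_, ?_, hT, ?_⟩
  · intro k hk
    exact (hcont k hk.1 hk.2).continuousWithinAt
  · intro k hk
    linarith [hIR k hk]
  intro r s f M hr hr' h0 hM
  have hr1 : r ≤ 1 := by linarith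
  have hrr : r ^ 2 ≤ 1 / 100 := by nlinarith
  have hBB : ∀ k ∈ BB r, NN k.1 k.2 < 1 / 100 := fun k hk => lt_of_lt_of_le hk hrr
  set F : ℝ × ℝ → ℝ := fun k => Complex.normSq (fh s f k.1 k.2) with hF
  have hFc : Continuous F := Complex.continuous_normSq.comp (continuous_fh s f)
  have hF0 : ∀ k, 0 ≤ F k := fun k => Complex.normSq_nonneg _
  have hFN : ∀ k : ℝ × ℝ, F k ≤ 2 * mom s f ^ 2 * NN k.1 k.2 := fun k => normSq_fh_le h0 k.1 k.2
  have hFz : F 0 = 0 := by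
    have h1 := hFN 0
    have h2 : NN (0 : ℝ × ℝ).1 (0 : ℝ × ℝ).2 = 0 := by simp [NN]
    rw [h2, mul_zero] at h1
    exact le_antisymm h1 (hF0 0)
  have hM0 : 0 ≤ M := by
    refine le_trans (Complex.normSq_nonneg (fh s f π π)) (hM π π ?_ ?_ ?_)
    · rw [abs_of_pos Real.pi_pos]
    · rw [abs_of_pos Real.pi_pos]
    · unfold NN; nlinarith [Real.pi_gt_three]
  have hGc : ∀ n, Continuous (fun k : ℝ × ℝ => F k * U n k.1 k.2) := fun n => hFc.mul (h.cont n)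
  -- dominated convergence on the disc
  have hfin : volume (BB r) < ⊤ := volume_BB_lt_top hr.le hr1
  have : IsFiniteMeasure (volume.restrict (BB r)) := ⟨by rwa [Measure.restrict_apply_univ]⟩
  have hbd : ∀ n, ∀ k ∈ BB r, ‖F k * U n k.1 k.2‖ ≤ 2 * mom s f ^ 2 * C := by
    intro n k hk
    rw [Real.norm_eq_abs, abs_of_nonneg (mul_nonneg (hF0 k) (h.nonneg _ _ _))]
    calc F k * U n k.1 k.2 ≤ (2 * mom s f ^ 2 * NN k.1 k.2) * U n k.1 k.2 :=
          mul_le_mul_of_nonneg_right (hFN k) (h.nonneg _ _ _)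
      _ = 2 * mom s f ^ 2 * (NN k.1 k.2 * U n k.1 k.2) := by ring
      _ ≤ _ := mul_le_mul_of_nonneg_left (hIRn k (hBB k hk) n) (by positivity)
  have hpt : ∀ k ∈ BB r, Tendsto (fun n => F k * U (φ n) k.1 k.2) atTop (𝓝 (F k * u k)) := by
    intro k hk
    by_cases hk0 : k = 0
    · subst hk0
      simp only [hFz, zero_mul]
      exact tendsto_const_nhds
    · exact (hlim k hk0 (hBB k hk)).const_mul _
  have haem : ∀ n, AEStronglyMeasurable (fun k : ℝ × ℝ => F k * U (φ n) k.1 k.2)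
      (volume.restrict (BB r)) := fun n => (hGc (φ n)).aestronglyMeasurable
  have hdct : Tendsto (fun n => ∫ k in BB r, F k * U (φ n) k.1 k.2) atTop
      (𝓝 (∫ k in BB r, F k * u k)) := by
    refine tendsto_integral_of_dominated_convergence (fun _ => 2 * mom s f ^ 2 * C) haem
      (integrable_const _) ?_ ?_
    · intro n
      filter_upwards [ae_restrict_mem (measurableSet_BB r)] with k hk
      exact hbd (φ n) k hk
    · filter_upwards [ae_restrict_mem (measurableSet_BB r)] with k hk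
      exact hpt k hk
  have hint : IntegrableOn (fun k : ℝ × ℝ => F k * u k) (BB r) := by
    have hae : AEStronglyMeasurable (fun k : ℝ × ℝ => F k * u k) (volume.restrict (BB r)) := by
      refine aestronglyMeasurable_of_tendsto_ae atTop haem ?_
      filter_upwards [ae_restrict_mem (measurableSet_BB r)] with k hk
      exact hpt k hk
    refine Integrable.mono' (integrable_const (2 * mom s f ^ 2 * C)) hae ?_
    filter_upwards [ae_restrict_mem (measurableSet_BB r)] with k hk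
    rw [Real.norm_eq_abs, abs_of_nonneg (mul_nonneg (hF0 k) (hu k))]
    calc F k * u k ≤ (2 * mom s f ^ 2 * NN k.1 k.2) * u k :=
          mul_le_mul_of_nonneg_right (hFN k) (hu _)
      _ = 2 * mom s f ^ 2 * (NN k.1 k.2 * u k) := by ring
      _ ≤ _ := mul_le_mul_of_nonneg_left (hIR k (hBB k hk)) (by positivity)
  refine ⟨hint, ?_⟩
  -- outside
  have hout : ∀ n, |(∫ k in JJ, F k * U n k.1 k.2) - ∫ k in BB r, F k * U n k.1 k.2|
      ≤ M * (4 / r ^ 2) * (2 * CS) := by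
    intro n
    have hsub := BB_subset_JJ hr.le hr1
    have hi := integrableOn_JJ (hGc n)
    have h1 : (∫ k in JJ, F k * U n k.1 k.2) - ∫ k in BB r, F k * U n k.1 k.2
        = ∫ k in JJ \ BB r, F k * U n k.1 k.2 := by
      rw [setIntegral_sdiff (measurableSet_BB r) hi hsub]
    rw [h1]
    have h2 : 0 ≤ ∫ k in JJ \ BB r, F k * U n k.1 k.2 :=
      setIntegral_nonneg (measurableSet_JJ.diff (measurableSet_BB r))
        fun k _ => mul_nonneg (hF0 k) (h.nonneg _ _ _)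
    rw [abs_of_nonneg h2]
    have hcs : Continuous (fun k : ℝ × ℝ => (sg k.1 + sg k.2) * U n k.1 k.2) :=
      ((continuous_sg.comp continuous_fst).add (continuous_sg.comp continuous_snd)).mul (h.cont n)
    have hcs1 : Continuous (fun k : ℝ × ℝ => sg k.1 * U n k.1 k.2) :=
      (continuous_sg.comp continuous_fst).mul (h.cont n)
    have hcs2 : Continuous (fun k : ℝ × ℝ => sg k.2 * U n k.1 k.2) :=
      (continuous_sg.comp continuous_snd).mul (h.cont n)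
    have hJ : ∫ k in JJ, (sg k.1 + sg k.2) * U n k.1 k.2 ≤ 2 * CS := by
      have e1 : ∫ k in JJ, (sg k.1 + sg k.2) * U n k.1 k.2
          = (∫ k in JJ, sg k.1 * U n k.1 k.2) + ∫ k in JJ, sg k.2 * U n k.1 k.2 := by
        rw [← integral_add (integrableOn_JJ hcs1) (integrableOn_JJ hcs2)]
        congr 1; funext k; ring
      rw [e1, ← integral_JJ hcs1, ← integral_JJ hcs2]
      linarith [hS1 n, hS2 n]
    calc ∫ k in JJ \ BB r, F k * U n k.1 k.2
        ≤ ∫ k in JJ \ BB r, M * (4 / r ^ 2) * ((sg k.1 + sg k.2) * U n k.1 k.2) := by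
          refine setIntegral_mono_on (hi.mono_set Set.sdiff_subset)
            (((integrableOn_JJ hcs).mono_set Set.sdiff_subset).const_mul _)
            (measurableSet_JJ.diff (measurableSet_BB r)) ?_
          intro k hk
          have hk1 : |k.1| ≤ π := abs_le.2 ⟨hk.1.1.1.le, hk.1.1.2⟩
          have hk2 : |k.2| ≤ π := abs_le.2 ⟨hk.1.2.1.le, hk.1.2.2⟩
          have hkN : r ^ 2 ≤ NN k.1 k.2 := not_lt.1 hk.2
          have e1 : F k ≤ M := hM _ _ hk1 hk2 hkN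
          have e2 := sg_sum_ge hk1 hk2 hkN
          have e3 : 1 ≤ 4 / r ^ 2 * (sg k.1 + sg k.2) := by
            rw [div_mul_eq_mul_div, le_div_iff₀ (by positivity)]; linarith
          have e4 : 0 ≤ U n k.1 k.2 := h.nonneg _ _ _
          calc F k * U n k.1 k.2 ≤ M * U n k.1 k.2 := mul_le_mul_of_nonneg_right e1 e4
            _ = M * (1 * U n k.1 k.2) := by ring
            _ ≤ M * ((4 / r ^ 2 * (sg k.1 + sg k.2)) * U n k.1 k.2) := by gcongr
            _ = _ := by ring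
      _ = M * (4 / r ^ 2) * ∫ k in JJ \ BB r, (sg k.1 + sg k.2) * U n k.1 k.2 :=
          integral_const_mul _ _
      _ ≤ M * (4 / r ^ 2) * ∫ k in JJ, (sg k.1 + sg k.2) * U n k.1 k.2 := by
          refine mul_le_mul_of_nonneg_left ?_ (by positivity)
          refine setIntegral_mono_set (integrableOn_JJ hcs) ?_ (Filter.Eventually.of_forall Set.sdiff_subset)
          exact Filter.Eventually.of_forall fun k =>
            mul_nonneg (add_nonneg (sg_nonneg _) (sg_nonneg _)) (h.nonneg _ _ _)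
      _ ≤ _ := mul_le_mul_of_nonneg_left hJ (by positivity)
  -- the limit
  have hπ2 : (0 : ℝ) < (2 * π) ^ 2 := by positivity
  have hlim2 := (h.lim s f h0).comp hφ.tendsto_atTop
  have hlim3 : Tendsto (fun n => (∫ k in JJ, F k * U (φ n) k.1 k.2) / (2 * π) ^ 2) atTop
      (𝓝 (-(1 / 2) * ∑ p ∈ s, ∑ q ∈ s, f p * f q * V (p - q))) := by
    refine hlim2.congr fun n => ?_
    simp only [Function.comp_apply]
    rw [← integral_JJ (hGc (φ n))]
  have hlim4 := (hlim3.sub (hdct.div_const ((2 * π) ^ 2))).abs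
  refine le_of_tendsto hlim4 (Filter.Eventually.of_forall fun n => ?_)
  rw [← sub_div, abs_div, abs_of_pos hπ2, div_le_iff₀ hπ2]
  refine (hout (φ n)).trans ?_
  have e5 : M * (4 / r ^ 2) * (2 * CS) = 8 * CS / r ^ 2 * M := by ring
  rw [e5]
  have e6 : 8 * CS / r ^ 2 * M ≤ (C + 8 * CS) / r ^ 2 * M := by
    gcongr; linarith
  have e7 : (1 : ℝ) ≤ (2 * π) ^ 2 := by nlinarith [Real.pi_gt_three]
  have e8 : 0 ≤ (C + 8 * CS) / r ^ 2 * M := by positivity
  nlinarith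

end Reg

end Crest.Agent.R144.Tp952
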