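import Crest.Agent.R144.Cst1_725
import Crest.Agent.R144.Tp5_952

/-!
# R144, CONST block (helper725), part 2

`SinB U` : the row bound for the regularised densities.
`Reg.const_le` : `L * (2 / π) ≤ V (1, 0)`.
`Reg.exists_spec_const` : 952's spectral representation together with `L * (2 / π) ≤ V (1, 0)`.
-/

set_option autoImplicit false

open Filter Topology MeasureTheory
open scoped Real BigOperators

noncomputable section

namespace Crest.Agent.R144.Tp952

variable {V : ℤ × ℤ → ℝ} {U : ℕ → ℝ → ℝ → ℝ}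

/-- the row bound: `|sin φ| u(κ, φ + κ/2) ≤ (2π)⁻¹ ∫ u(κ, θ) dθ`. -/
def SinB (U : ℕ → ℝ → ℝ → ℝ) : Prop :=
  ∀ (n : ℕ) (κ φ : ℝ), |Real.sin φ| * U n κ (φ + κ / 2) ≤ (∫ θ in (-π)..π, U n κ θ) / (2 * π)

/-- for densities which are structure functions of reflection positive covariances -/
theorem SinB.of_RC (hU : ∀ n, ∃ (M ρ : ℝ) (C : ℤ × ℤ → ℝ), Reg136.RC M ρ C ∧ U n = Reg136.uC C) :
    SinB U := by
  intro n κ φ
  obtain ⟨M, ρ, C, hC, e⟩ := hU n
  rw [e]
  exact hC.sinB κ φ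

namespace Reg

/-- **spectral representation near `0`** (952's `exists_spec`, keeping the subsequence and the
pointwise convergence of the regularised densities). -/
theorem exists_spec_full (h : Reg V U) : ∃ (φ : ℕ → ℕ) (u : ℝ × ℝ → ℝ) (L C : ℝ), StrictMono φ ∧
    (∀ k : ℝ × ℝ, k ≠ 0 → NN k.1 k.2 < 1 / 100 →
      Tendsto (fun n => U (φ n) k.1 k.2) atTop (𝓝 (u k))) ∧
    0 ≤ L ∧ 0 < C ∧ (∀ k, 0 ≤ u k) ∧
    ContinuousOn u {k | k ≠ 0 ∧ NN k.1 k.2 < 1 / 100} ∧
    (∀ k : ℝ × ℝ, NN k.1 k.2 < 1 / 100 → NN k.1 k.2 * u k ≤ C) ∧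
    Tendsto (fun k : ℝ × ℝ => NN k.1 k.2 * u k) (𝓝[≠] 0) (𝓝 L) ∧
    ∀ (r : ℝ) (s : Finset (ℤ × ℤ)) (f : ℤ × ℤ → ℝ) (M : ℝ), 0 < r → r ≤ 1 / 10 →
      ∑ p ∈ s, f p = 0 →
      (∀ k1 k2 : ℝ, |k1| ≤ π → |k2| ≤ π → r ^ 2 ≤ NN k1 k2 → Complex.normSq (fh s f k1 k2) ≤ M) →
      IntegrableOn (fun k : ℝ × ℝ => Complex.normSq (fh s f k.1 k.2) * u k) (BB r) ∧
      |(-(1 / 2) * ∑ p ∈ s, ∑ q ∈ s, f p * f q * V (p - q))
        - (∫ k in BB r, Complex.normSq (fh s f k.1 k.2) * u k) / (2 * π) ^ 2| ≤ C / r ^ 2 * M := by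
  obtain ⟨φ, u, L, C, hφ, hL, hC, hu, hlim, hcont, hIR, hIRn, hT⟩ := h.exists_density
  obtain ⟨CS, hCS, hS1, hS2⟩ := h.exists_S_bound
  refine ⟨φ, u, L, C + 8 * CS, hφ, hlim, hL, by linarith, hu, ?_, ?_, hT, ?_⟩
  · intro k hk
    exact (hcont k hk.1 hk.2).continuousWithinAt
  · intro k hk
    linarith [hIR k hk]
  intro r s f M hr hr' h0 hM
  have hr1 : r ≤ 1 := by linarith
  have hrr : r ^ 2 ≤ 1 / 100 := by nlinarith
  have hBB : ∀ k ∈ BB r, NN k.1 k.2 < 1 / 100 := fun k hk => lt_of_lt_of_le hk hrr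
  set F : ℝ × ℝ → ℝ := fun k => Complex.normSq (fh s f k.1 k.2) with hF
  have hFc : Continuous F := Complex.continuous_normSq.comp (continuous_fh s f)
  have hF0 : ∀ k, 0 ≤ F k := fun k => Complex.normSq_nonneg _
  have hFN : ∀ k : ℝ × ℝ, F k ≤ 2 * mom s f ^ 2 * NN k.1 k.2 := fun k => normSq_fh_le h0 k.1 k.2
  have hFz : F 0 = 0 := by
    have h1 := hFN 0
    have h2 : NN (0 : ℝ × ℝ).1 (0 : ℝ × ℝ).2 = 0 := by simp [NN]
    rw [h2, mul_zero] at h1
    exact le_antisymm h1 (hF0 0)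
  have hM0 : 0 ≤ M := by
    refine le_trans (Complex.normSq_nonneg (fh s f π π)) (hM π π ?_ ?_ ?_)
    · rw [abs_of_pos Real.pi_pos]
    · rw [abs_of_pos Real.pi_pos]
    · unfold NN; nlinarith [Real.pi_gt_three]
  have hGc : ∀ n, Continuous (fun k : ℝ × ℝ => F k * U n k.1 k.2) := fun n => hFc.mul (h.cont n)
  -- dominated convergence on the disc
  have hfin : volume (BB r) < ⊤ := volume_BB_lt_top hr.le hr1
  have : IsFiniteMeasure (volume.restrict (BB r)) := ⟨by rwa [Measure.restrict_apply_univ]⟩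
  have hbd : ∀ n, ∀ k ∈ BB r, ‖F k * U n k.1 k.2‖ ≤ 2 * mom s f ^ 2 * C := by
    intro n k hk
    rw [Real.norm_eq_abs, abs_of_nonneg (mul_nonneg (hF0 k) (h.nonneg _ _ _))]
    calc F k * U n k.1 k.2 ≤ (2 * mom s f ^ 2 * NN k.1 k.2) * U n k.1 k.2 :=
          mul_le_mul_of_nonneg_right (hFN k) (h.nonneg _ _ _)
      _ = 2 * mom s f ^ 2 * (NN k.1 k.2 * U n k.1 k.2) := by ring
      _ ≤ _ := mul_le_mul_of_nonneg_left (hIRn k (hBB k hk) n) (by positivity)
  have hpt : ∀ k ∈ BB r, Tendsto (fun n => F k * U (φ n) k.1 k.2) atTop (𝓝 (F k * u k)) := by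
    intro k hk
    by_cases hk0 : k = 0
    · subst hk0
      simp only [hFz, zero_mul]
      exact tendsto_const_nhds
    · exact (hlim k hk0 (hBB k hk)).const_mul _
  have haem : ∀ n, AEStronglyMeasurable (fun k : ℝ × ℝ => F k * U (φ n) k.1 k.2)
      (volume.restrict (BB r)) := fun n => (hGc (φ n)).aestronglyMeasurable
  have hdct : Tendsto (fun n => ∫ k in BB r, F k * U (φ n) k.1 k.2) atTop
      (𝓝 (∫ k in BB r, F k * u k)) := by
    refine tendsto_integral_of_dominated_convergence (fun _ => 2 * mom s f ^ 2 * C) haem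
      (integrable_const _) ?_ ?_
    · intro n
      filter_upwards [ae_restrict_mem (measurableSet_BB r)] with k hk
      exact hbd (φ n) k hk
    · filter_upwards [ae_restrict_mem (measurableSet_BB r)] with k hk
      exact hpt k hk
  have hint : IntegrableOn (fun k : ℝ × ℝ => F k * u k) (BB r) := by
    have hae : AEStronglyMeasurable (fun k : ℝ × ℝ => F k * u k) (volume.restrict (BB r)) := by
      refine aestronglyMeasurable_of_tendsto_ae atTop haem ?_
      filter_upwards [ae_restrict_mem (measurableSet_BB r)] with k hk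
      exact hpt k hk
    refine Integrable.mono' (integrable_const (2 * mom s f ^ 2 * C)) hae ?_
    filter_upwards [ae_restrict_mem (measurableSet_BB r)] with k hk
    rw [Real.norm_eq_abs, abs_of_nonneg (mul_nonneg (hF0 k) (hu k))]
    calc F k * u k ≤ (2 * mom s f ^ 2 * NN k.1 k.2) * u k :=
          mul_le_mul_of_nonneg_right (hFN k) (hu _)
      _ = 2 * mom s f ^ 2 * (NN k.1 k.2 * u k) := by ring
      _ ≤ _ := mul_le_mul_of_nonneg_left (hIR k (hBB k hk)) (by positivity)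
  refine ⟨hint, ?_⟩
  -- outside
  have hout : ∀ n, |(∫ k in JJ, F k * U n k.1 k.2) - ∫ k in BB r, F k * U n k.1 k.2|
      ≤ M * (4 / r ^ 2) * (2 * CS) := by
    intro n
    have hsub := BB_subset_JJ hr.le hr1
    have hi := integrableOn_JJ (hGc n)
    have h1 : (∫ k in JJ, F k * U n k.1 k.2) - ∫ k in BB r, F k * U n k.1 k.2
        = ∫ k in JJ \ BB r, F k * U n k.1 k.2 := by
      rw [setIntegral_sdiff (measurableSet_BB r) hi hsub]
    rw [h1]
    have h2 : 0 ≤ ∫ k in JJ \ BB r, F k * U n k.1 k.2 :=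
      setIntegral_nonneg (measurableSet_JJ.diff (measurableSet_BB r))
        fun k _ => mul_nonneg (hF0 k) (h.nonneg _ _ _)
    rw [abs_of_nonneg h2]
    have hcs : Continuous (fun k : ℝ × ℝ => (sg k.1 + sg k.2) * U n k.1 k.2) :=
      ((continuous_sg.comp continuous_fst).add (continuous_sg.comp continuous_snd)).mul (h.cont n)
    have hcs1 : Continuous (fun k : ℝ × ℝ => sg k.1 * U n k.1 k.2) :=
      (continuous_sg.comp continuous_fst).mul (h.cont n)
    have hcs2 : Continuous (fun k : ℝ × ℝ => sg k.2 * U n k.1 k.2) :=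
      (continuous_sg.comp continuous_snd).mul (h.cont n)
    have hJ : ∫ k in JJ, (sg k.1 + sg k.2) * U n k.1 k.2 ≤ 2 * CS := by
      have e1 : ∫ k in JJ, (sg k.1 + sg k.2) * U n k.1 k.2
          = (∫ k in JJ, sg k.1 * U n k.1 k.2) + ∫ k in JJ, sg k.2 * U n k.1 k.2 := by
        rw [← integral_add (integrableOn_JJ hcs1) (integrableOn_JJ hcs2)]
        congr 1; funext k; ring
      rw [e1, ← integral_JJ hcs1, ← integral_JJ hcs2]
      linarith [hS1 n, hS2 n]
    calc ∫ k in JJ \ BB r, F k * U n k.1 k.2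
        ≤ ∫ k in JJ \ BB r, M * (4 / r ^ 2) * ((sg k.1 + sg k.2) * U n k.1 k.2) := by
          refine setIntegral_mono_on (hi.mono_set Set.sdiff_subset)
            (((integrableOn_JJ hcs).mono_set Set.sdiff_subset).const_mul _)
            (measurableSet_JJ.diff (measurableSet_BB r)) ?_
          intro k hk
          have hk1 : |k.1| ≤ π := abs_le.2 ⟨hk.1.1.1.le, hk.1.1.2⟩
          have hk2 : |k.2| ≤ π := abs_le.2 ⟨hk.1.2.1.le, hk.1.2.2⟩
          have hkN : r ^ 2 ≤ NN k.1 k.2 := not_lt.1 hk.2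
          have e1 : F k ≤ M := hM _ _ hk1 hk2 hkN
          have e2 := sg_sum_ge hk1 hk2 hkN
          have e3 : 1 ≤ 4 / r ^ 2 * (sg k.1 + sg k.2) := by
            rw [div_mul_eq_mul_div, le_div_iff₀ (by positivity)]; linarith
          have e4 : 0 ≤ U n k.1 k.2 := h.nonneg _ _ _
          calc F k * U n k.1 k.2 ≤ M * U n k.1 k.2 := mul_le_mul_of_nonneg_right e1 e4
            _ = M * (1 * U n k.1 k.2) := by ring
            _ ≤ M * ((4 / r ^ 2 * (sg k.1 + sg k.2)) * U n k.1 k.2) := by gcongr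
            _ = _ := by ring
      _ = M * (4 / r ^ 2) * ∫ k in JJ \ BB r, (sg k.1 + sg k.2) * U n k.1 k.2 :=
          integral_const_mul _ _
      _ ≤ M * (4 / r ^ 2) * ∫ k in JJ, (sg k.1 + sg k.2) * U n k.1 k.2 := by
          refine mul_le_mul_of_nonneg_left ?_ (by positivity)
          refine setIntegral_mono_set (integrableOn_JJ hcs) ?_ (Filter.Eventually.of_forall Set.sdiff_subset)
          exact Filter.Eventually.of_forall fun k =>
            mul_nonneg (add_nonneg (sg_nonneg _) (sg_nonneg _)) (h.nonneg _ _ _)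
      _ ≤ _ := mul_le_mul_of_nonneg_left hJ (by positivity)
  -- the limit
  have hπ2 : (0 : ℝ) < (2 * π) ^ 2 := by positivity
  have hlim2 := (h.lim s f h0).comp hφ.tendsto_atTop
  have hlim3 : Tendsto (fun n => (∫ k in JJ, F k * U (φ n) k.1 k.2) / (2 * π) ^ 2) atTop
      (𝓝 (-(1 / 2) * ∑ p ∈ s, ∑ q ∈ s, f p * f q * V (p - q))) := by
    refine hlim2.congr fun n => ?_
    simp only [Function.comp_apply]
    rw [← integral_JJ (hGc (φ n))]
  have hlim4 := (hlim3.sub (hdct.div_const ((2 * π) ^ 2))).abs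
  refine le_of_tendsto hlim4 (Filter.Eventually.of_forall fun n => ?_)
  rw [← sub_div, abs_div, abs_of_pos hπ2, div_le_iff₀ hπ2]
  refine (hout (φ n)).trans ?_
  have e5 : M * (4 / r ^ 2) * (2 * CS) = 8 * CS / r ^ 2 * M := by ring
  rw [e5]
  have e6 : 8 * CS / r ^ 2 * M ≤ (C + 8 * CS) / r ^ 2 * M := by
    gcongr; linarith
  have e7 : (1 : ℝ) ≤ (2 * π) ^ 2 := by nlinarith [Real.pi_gt_three]
  have e8 : 0 ≤ (C + 8 * CS) / r ^ 2 * M := by positivity
  nlinarith


/-- lower bound for the sum rule -/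
theorem J_ge (h : Reg V U) (hs : SinB U) (n : ℕ) {x : ℝ} (hx : 0 < x) (hx' : x ≤ π) :
    8 * π * Real.cos (x / 2) * (sg x * U n x 0)
      ≤ ∫ k1 in (-π)..π, ∫ k2 in (-π)..π, sg k1 * U n k1 k2 := by
  have hπ := Real.pi_pos
  set R : ℝ → ℝ := fun k1 => ∫ k2 in (-π)..π, sg k1 * U n k1 k2 with hR
  have hGc : Continuous (fun k : ℝ × ℝ => sg k.1 * U n k.1 k.2) :=
    (continuous_sg.comp continuous_fst).mul (h.cont n)
  have hRc : Continuous R :=
    intervalIntegral.continuous_parametric_intervalIntegral_of_continuous' hGc _ _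
  have hRi : ∀ a b : ℝ, IntervalIntegrable R volume a b := fun a b => hRc.intervalIntegrable a b
  have hR0 : ∀ k, 0 ≤ R k := fun k =>
    intervalIntegral.integral_nonneg (by linarith) fun u _ => mul_nonneg (sg_nonneg _) (h.nonneg _ _ _)
  set c : ℝ := sg x * U n x 0 with hc
  have hc0 : 0 ≤ c := mul_nonneg (sg_nonneg _) (h.nonneg _ _ _)
  -- row bound
  have hrow : ∀ k : ℝ, 2 * π * (|Real.sin (k / 2)| * (sg k * U n k 0)) ≤ R k := by
    intro k
    have h1 := hs n k (-(k / 2))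
    rw [Real.sin_neg, abs_neg, show -(k / 2) + k / 2 = 0 by ring, le_div_iff₀ (by positivity)] at h1
    have h2 : R k = sg k * ∫ θ in (-π)..π, U n k θ := by
      simp only [hR]
      rw [intervalIntegral.integral_const_mul]
    rw [h2]
    have h3 := mul_le_mul_of_nonneg_left h1 (sg_nonneg k)
    calc 2 * π * (|Real.sin (k / 2)| * (sg k * U n k 0))
        = sg k * (|Real.sin (k / 2)| * U n k 0 * (2 * π)) := by ring
      _ ≤ _ := h3
  -- axis bound
  have haxis : ∀ k, x ≤ k → k ≤ π → c ≤ sg k * U n k 0 := by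
    intro k hxk hk
    have hF := h.frame n 0
    have hcont : Continuous (fun φ => U n 0 (φ + 0 / 2)) :=
      (h.cont n).comp (by fun_prop : Continuous fun φ : ℝ => ((0 : ℝ), φ + 0 / 2))
    have := frame_mono hF hcont (fun _ => h.nonneg _ _ _) hx hxk hk
    simp only [zero_div, add_zero] at this
    rw [h.swap n x 0, h.swap n k 0] at this
    exact this
  have hneg : ∀ k, sg (-k) * U n (-k) 0 = sg k * U n k 0 := by
    intro k
    have h1 := h.neg n k 0
    rw [neg_zero] at h1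
    rw [h1]
    simp [sg]
  have hpos_row : ∀ k, x ≤ k → k ≤ π → 2 * π * c * Real.sin (k / 2) ≤ R k := by
    intro k hxk hk
    refine le_trans ?_ (hrow k)
    have h1 : 0 ≤ Real.sin (k / 2) := Real.sin_nonneg_of_nonneg_of_le_pi (by linarith) (by linarith)
    rw [abs_of_nonneg h1]
    have h2 := mul_le_mul_of_nonneg_left (haxis k hxk hk) h1
    nlinarith [mul_le_mul_of_nonneg_left h2 (by positivity : (0:ℝ) ≤ 2 * π)]
  have hneg_row : ∀ k, -π ≤ k → k ≤ -x → 2 * π * c * Real.sin (-k / 2) ≤ R k := by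
    intro k hk hxk
    refine le_trans ?_ (hrow k)
    have h1 : 0 ≤ Real.sin (-k / 2) := Real.sin_nonneg_of_nonneg_of_le_pi (by linarith) (by linarith)
    have h3 : |Real.sin (k / 2)| = Real.sin (-k / 2) := by
      rw [← abs_of_nonneg h1, neg_div, Real.sin_neg, abs_neg]
    rw [h3]
    have h4 := haxis (-k) (by linarith) (by linarith)
    rw [hneg] at h4
    have h2 := mul_le_mul_of_nonneg_left h4 h1
    nlinarith [mul_le_mul_of_nonneg_left h2 (by positivity : (0:ℝ) ≤ 2 * π)]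
  -- split
  have hsplit : ∫ k in (-π)..π, R k = (∫ k in (-π)..(-x), R k) + (∫ k in (-x)..x, R k)
      + ∫ k in x..π, R k := by
    rw [intervalIntegral.integral_add_adjacent_intervals (hRi _ _) (hRi _ _),
      intervalIntegral.integral_add_adjacent_intervals (hRi _ _) (hRi _ _)]
  have hmid : 0 ≤ ∫ k in (-x)..x, R k :=
    intervalIntegral.integral_nonneg (by linarith) fun u _ => hR0 u
  have hI1 : ∫ k in x..π, 2 * π * c * Real.sin (k / 2) = 4 * π * Real.cos (x / 2) * c := by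
    rw [intervalIntegral.integral_const_mul,
      intervalIntegral.integral_comp_div (fun y => Real.sin y) (by norm_num : (2:ℝ) ≠ 0), integral_sin,
      Real.cos_pi_div_two, sub_zero, smul_eq_mul]
    ring
  have hI2 : ∫ k in (-π)..(-x), 2 * π * c * Real.sin (-k / 2) = 4 * π * Real.cos (x / 2) * c := by
    have e := intervalIntegral.integral_comp_neg (a := x) (b := π)
      (fun k => 2 * π * c * Real.sin (-k / 2))
    rw [← e, ← hI1]
    simp only [neg_neg]
  have h1 : ∫ k in x..π, 2 * π * c * Real.sin (k / 2) ≤ ∫ k in x..π, R k :=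
    intervalIntegral.integral_mono_on hx' ((by fun_prop : Continuous fun k : ℝ =>
      2 * π * c * Real.sin (k / 2)).intervalIntegrable _ _) (hRi _ _) fun k hk => hpos_row k hk.1 hk.2
  have h2 : ∫ k in (-π)..(-x), 2 * π * c * Real.sin (-k / 2) ≤ ∫ k in (-π)..(-x), R k :=
    intervalIntegral.integral_mono_on (by linarith) ((by fun_prop : Continuous fun k : ℝ =>
      2 * π * c * Real.sin (-k / 2)).intervalIntegrable _ _) (hRi _ _) fun k hk => hneg_row k hk.1 hk.2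
  show _ ≤ ∫ k in (-π)..π, R k
  rw [hsplit]
  rw [hI1] at h1
  rw [hI2] at h2
  nlinarith

/-- **the constant** : `L * (2 / π) ≤ V (1, 0)`. -/
theorem const_le (h : Reg V U) (hV : Two V) (hs : SinB U) {φ : ℕ → ℕ} (hφ : StrictMono φ)
    {u : ℝ × ℝ → ℝ} {L : ℝ}
    (hlim : ∀ k : ℝ × ℝ, k ≠ 0 → NN k.1 k.2 < 1 / 100 →
      Tendsto (fun n => U (φ n) k.1 k.2) atTop (𝓝 (u k)))
    (hT : Tendsto (fun k : ℝ × ℝ => NN k.1 k.2 * u k) (𝓝[≠] 0) (𝓝 L)) :
    L * (2 / π) ≤ V (1, 0) := by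
  have hπ := Real.pi_pos
  -- the sum rule converges
  have hJ : Tendsto (fun n => (∫ k1 in (-π)..π, ∫ k2 in (-π)..π, sg k1 * U n k1 k2) / (2 * π) ^ 2)
      atTop (𝓝 (V (1, 0))) := by
    have h1 := h.lim {((1, 0) : ℤ × ℤ), 0} (dd (1, 0)) (sum_dd (by decide))
    have e : -(1 / 2) * ∑ p ∈ ({((1, 0) : ℤ × ℤ), 0} : Finset (ℤ × ℤ)),
        ∑ q ∈ ({((1, 0) : ℤ × ℤ), 0} : Finset (ℤ × ℤ)), dd (1, 0) p * dd (1, 0) q * V (p - q)
        = V (1, 0) := by
      rw [Finset.sum_pair (by decide), Finset.sum_pair (by decide), Finset.sum_pair (by decide)]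
      have a1 : dd (1, 0) (1, 0) = 1 := by simp [dd]
      have a2 : dd (1, 0) 0 = -1 := by
        unfold dd; rw [if_neg (by decide)]
      have a3 := hV.neg (1, 0)
      rw [a1, a2, sub_self, sub_zero, sub_self, zero_sub, hV.zero, a3]
      ring
    rw [e] at h1
    refine h1.congr fun n => ?_
    congr 1
    congr 1; funext k1; congr 1; funext k2
    rw [fh_dd (by decide)]
    have e : (((1, 0) : ℤ × ℤ).1 : ℝ) * k1 + (((1, 0) : ℤ × ℤ).2 : ℝ) * k2 = k1 := by simp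
    rw [e, normSq_one_sub_exp]
  have hJφ := hJ.comp hφ.tendsto_atTop
  -- fixed x
  have hx : ∀ x : ℝ, 0 < x → x < 1 / 10 → 2 / π * Real.cos (x / 2) * (sg x * u (x, 0)) ≤ V (1, 0) := by
    intro x hx hx'
    have hne : ((x, 0) : ℝ × ℝ) ≠ 0 := by
      intro e; exact hx.ne' (congrArg Prod.fst e)
    have hN : NN ((x, 0) : ℝ × ℝ).1 ((x, 0) : ℝ × ℝ).2 < 1 / 100 := by
      simp only [NN]; nlinarith
    have h1 := hlim (x, 0) hne hN
    simp only at h1
    have h2 : Tendsto (fun n => 2 / π * Real.cos (x / 2) * (sg x * U (φ n) x 0)) atTop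
        (𝓝 (2 / π * Real.cos (x / 2) * (sg x * u (x, 0)))) :=
      (h1.const_mul (sg x)).const_mul _
    refine le_of_tendsto_of_tendsto' h2 hJφ fun n => ?_
    have h3 := h.J_ge hs (φ n) hx (by linarith [Real.pi_gt_three])
    simp only [Function.comp_apply]
    rw [le_div_iff₀ (by positivity)]
    refine le_trans (le_of_eq ?_) h3
    field_simp
    ring
  -- x → 0
  have hTx : Tendsto (fun x : ℝ => ((x, 0) : ℝ × ℝ)) (𝓝[>] 0) (𝓝[≠] 0) := by
    refine tendsto_nhdsWithin_iff.2 ⟨?_, ?_⟩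
    · have : Tendsto (fun x : ℝ => ((x, 0) : ℝ × ℝ)) (𝓝 0) (𝓝 (0, 0)) :=
        (by fun_prop : Continuous fun x : ℝ => ((x, 0) : ℝ × ℝ)).tendsto 0
      exact this.mono_left nhdsWithin_le_nhds
    · filter_upwards [self_mem_nhdsWithin] with x hx e
      exact (ne_of_gt hx) (congrArg Prod.fst e)
  have hT1 := hT.comp hTx
  have hT2 : Tendsto (fun x : ℝ => 2 / π * Real.cos (x / 2) * ((1 - x ^ 2) * (x ^ 2 * u (x, 0))))
      (𝓝[>] 0) (𝓝 (2 / π * Real.cos (0 / 2) * ((1 - 0 ^ 2) * L))) := by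
    have c1 : Tendsto (fun x : ℝ => 2 / π * Real.cos (x / 2)) (𝓝[>] 0)
        (𝓝 (2 / π * Real.cos (0 / 2))) :=
      ((by fun_prop : Continuous fun x : ℝ => 2 / π * Real.cos (x / 2)).tendsto 0).mono_left
        nhdsWithin_le_nhds
    have c2 : Tendsto (fun x : ℝ => 1 - x ^ 2) (𝓝[>] 0) (𝓝 (1 - 0 ^ 2)) :=
      ((by fun_prop : Continuous fun x : ℝ => 1 - x ^ 2).tendsto 0).mono_left nhdsWithin_le_nhds
    refine c1.mul (c2.mul (hT1.congr fun x => ?_))
    simp [NN, Function.comp]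
  have hfin : 2 / π * Real.cos (0 / 2) * ((1 - 0 ^ 2) * L) ≤ V (1, 0) := by
    refine le_of_tendsto hT2 ?_
    filter_upwards [Ioo_mem_nhdsGT (show (0 : ℝ) < 1 / 10 by norm_num)] with x hx1
    have hu0 : 0 ≤ u (x, 0) := by
      refine ge_of_tendsto' (hlim (x, 0) ?_ ?_) fun n => h.nonneg _ _ _
      · intro e; exact hx1.1.ne' (congrArg Prod.fst e)
      · simp only [NN]; nlinarith [hx1.1, hx1.2]
    refine le_trans ?_ (hx x hx1.1 hx1.2)
    have h4 : (1 - x ^ 2) * x ^ 2 ≤ sg x := sg_ge_sq (by rw [abs_of_pos hx1.1]; linarith [hx1.2])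
    have h5 : 0 ≤ 2 / π * Real.cos (x / 2) := by
      refine mul_nonneg (by positivity) (Real.cos_nonneg_of_mem_Icc ⟨?_, ?_⟩)
      · linarith [hx1.1]
      · linarith [hx1.2, Real.pi_gt_three]
    refine mul_le_mul_of_nonneg_left ?_ h5
    calc (1 - x ^ 2) * (x ^ 2 * u (x, 0)) = ((1 - x ^ 2) * x ^ 2) * u (x, 0) := by ring
      _ ≤ _ := mul_le_mul_of_nonneg_right h4 hu0
  have e : 2 / π * Real.cos (0 / 2) * ((1 - 0 ^ 2) * L) = L * (2 / π) := by
    rw [zero_div, Real.cos_zero]; ring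
  rwa [e] at hfin

/-- 952's spectral representation with the bound on the constant. -/
theorem exists_spec_const (h : Reg V U) (hV : Two V) (hs : SinB U) :
    ∃ (u : ℝ × ℝ → ℝ) (L C : ℝ), L * (2 / π) ≤ V (1, 0) ∧ 0 ≤ L ∧ 0 < C ∧ (∀ k, 0 ≤ u k) ∧
    ContinuousOn u {k | k ≠ 0 ∧ NN k.1 k.2 < 1 / 100} ∧
    (∀ k : ℝ × ℝ, NN k.1 k.2 < 1 / 100 → NN k.1 k.2 * u k ≤ C) ∧
    Tendsto (fun k : ℝ × ℝ => NN k.1 k.2 * u k) (𝓝[≠] 0) (𝓝 L) ∧
    ∀ (r : ℝ) (s : Finset (ℤ × ℤ)) (f : ℤ × ℤ → ℝ) (M : ℝ), 0 < r → r ≤ 1 / 10 →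
      ∑ p ∈ s, f p = 0 →
      (∀ k1 k2 : ℝ, |k1| ≤ π → |k2| ≤ π → r ^ 2 ≤ NN k1 k2 → Complex.normSq (fh s f k1 k2) ≤ M) →
      IntegrableOn (fun k : ℝ × ℝ => Complex.normSq (fh s f k.1 k.2) * u k) (BB r) ∧
      |(-(1 / 2) * ∑ p ∈ s, ∑ q ∈ s, f p * f q * V (p - q))
        - (∫ k in BB r, Complex.normSq (fh s f k.1 k.2) * u k) / (2 * π) ^ 2| ≤ C / r ^ 2 * M := by
  obtain ⟨φ, u, L, C, hφ, hlim, hL, hC, hu, h1, h2, h3, h4⟩ := h.exists_spec_full
  exact ⟨u, L, C, h.const_le hV hs hφ hlim h3, hL, hC, hu, h1, h2, h3, h4⟩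

end Reg

end Crest.Agent.R144.Tp952
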