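import Crest.Agent.R144.Tp5_952

/-!
# R144 (helper643), CW block, file 2: lattice Fourier transforms of shifts and of the discrete Laplacian

* `fh_eq_tsum`, `fh_add`, `fh_sub`, `fh_smul`, `fh_shift`;
* `Dop φ = (1/√3) (6 φ - ∑_{six neighbours} φ)`, `fh_Dop : fh s (Dop φ) k = (1/√3) E(k) fh s φ k`,
  `sum_Dop = 0`;
* `Es k = 6 - 2 cos k₁ - 2 cos k₂ - 2 cos (k₁ - k₂)`, bounds, `Es k * u k → 2 L`;
* `outer_le`: `normSq (fh s f k) ≤ (3π²/(4r²)) (∑ |∂f|)²` for `k` in the square with `NN k ≥ r²`.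
-/

set_option autoImplicit false

noncomputable section

namespace Crest.Agent.R144.Cw643

open Finset Filter Topology
open Crest.Agent.R144.Tp952
open scoped Real ComplexConjugate

/-- the character `e^{i p·k}` -/
def ch (k1 k2 : ℝ) (p : ℤ × ℤ) : ℂ :=
  Complex.exp (Complex.I * ((p.1 : ℝ) * k1 + (p.2 : ℝ) * k2 : ℝ))

theorem ch_add (k1 k2 : ℝ) (p q : ℤ × ℤ) : ch k1 k2 (p + q) = ch k1 k2 p * ch k1 k2 q := by
  unfold ch
  rw [← Complex.exp_add]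
  congr 1
  push_cast [Prod.fst_add, Prod.snd_add]
  ring

theorem norm_ch (k1 k2 : ℝ) (p : ℤ × ℤ) : ‖ch k1 k2 p‖ = 1 := by
  unfold ch
  rw [mul_comm, Complex.norm_exp_ofReal_mul_I]

theorem fh_def (s : Finset (ℤ × ℤ)) (f : ℤ × ℤ → ℝ) (k1 k2 : ℝ) :
    fh s f k1 k2 = ∑ p ∈ s, (f p : ℂ) * ch k1 k2 p := rfl

theorem fh_add (s : Finset (ℤ × ℤ)) (f g : ℤ × ℤ → ℝ) (k1 k2 : ℝ) :
    fh s (fun p => f p + g p) k1 k2 = fh s f k1 k2 + fh s g k1 k2 := by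
  simp only [fh_def, Complex.ofReal_add, add_mul, Finset.sum_add_distrib]

theorem fh_sub (s : Finset (ℤ × ℤ)) (f g : ℤ × ℤ → ℝ) (k1 k2 : ℝ) :
    fh s (fun p => f p - g p) k1 k2 = fh s f k1 k2 - fh s g k1 k2 := by
  simp only [fh_def, Complex.ofReal_sub, sub_mul, Finset.sum_sub_distrib]

theorem fh_smul (s : Finset (ℤ × ℤ)) (c : ℝ) (f : ℤ × ℤ → ℝ) (k1 k2 : ℝ) :
    fh s (fun p => c * f p) k1 k2 = c * fh s f k1 k2 := by
  simp only [fh_def, Complex.ofReal_mul, mul_assoc, Finset.mul_sum]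

theorem fh_eq_tsum {s : Finset (ℤ × ℤ)} {f : ℤ × ℤ → ℝ} (hf : ∀ p, p ∉ s → f p = 0) (k1 k2 : ℝ) :
    fh s f k1 k2 = ∑' p, (f p : ℂ) * ch k1 k2 p := by
  rw [fh_def, tsum_eq_sum]
  intro p hp
  rw [hf p hp, Complex.ofReal_zero, zero_mul]

theorem fh_shift {s : Finset (ℤ × ℤ)} {f : ℤ × ℤ → ℝ} (e : ℤ × ℤ) (hf : ∀ p, p ∉ s → f p = 0)
    (hf' : ∀ p, p ∉ s → f (p - e) = 0) (k1 k2 : ℝ) :
    fh s (fun p => f (p - e)) k1 k2 = ch k1 k2 e * fh s f k1 k2 := by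
  rw [fh_eq_tsum hf, fh_eq_tsum hf', ← tsum_mul_left]
  rw [← (Equiv.addRight e).tsum_eq]
  refine tsum_congr fun p => ?_
  simp only [Equiv.coe_addRight, add_sub_cancel_right, ch_add]
  ring

theorem norm_fh_le_sum (s : Finset (ℤ × ℤ)) (f : ℤ × ℤ → ℝ) (k1 k2 : ℝ) :
    ‖fh s f k1 k2‖ ≤ ∑ p ∈ s, |f p| := by
  rw [fh_def]
  refine (norm_sum_le _ _).trans (Finset.sum_le_sum fun p _ => ?_)
  rw [norm_mul, norm_ch, mul_one, Complex.norm_real, Real.norm_eq_abs]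

/-! ### the symbol -/

/-- symbol of the lattice Laplacian -/
def Es (k : ℝ × ℝ) : ℝ := sg k.1 + sg k.2 + sg (k.1 - k.2)

theorem continuous_Es : Continuous Es := by
  unfold Es sg
  fun_prop

theorem sg_le_sq (x : ℝ) : sg x ≤ x ^ 2 := by
  unfold sg
  have := Real.one_sub_sq_div_two_le_cos (x := x)
  linarith

theorem sg_nn (x : ℝ) : 0 ≤ sg x := by
  unfold sg
  linarith [Real.cos_le_one x]

theorem Es_nonneg (k : ℝ × ℝ) : 0 ≤ Es k :=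
  add_nonneg (add_nonneg (sg_nn _) (sg_nn _)) (sg_nn _)

theorem Es_le (k : ℝ × ℝ) : Es k ≤ 2 * NN k.1 k.2 := by
  have h1 := sg_le_sq k.1
  have h2 := sg_le_sq k.2
  have h3 := sg_le_sq (k.1 - k.2)
  unfold Es NN
  nlinarith

/-- lower bound on the square -/
theorem Es_ge {k : ℝ × ℝ} (h1 : |k.1| ≤ π) (h2 : |k.2| ≤ π) : 8 / (3 * π ^ 2) * NN k.1 k.2 ≤ Es k := by
  have h3 := sg_ge_jordan h1
  have h4 := sg_ge_jordan h2
  have h5 := sg_nn (k.1 - k.2)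
  have h6 := NN_le k.1 k.2
  have h7 : 8 / (3 * π ^ 2) * NN k.1 k.2 ≤ 8 / (3 * π ^ 2) * (3 / 2 * (k.1 ^ 2 + k.2 ^ 2)) :=
    mul_le_mul_of_nonneg_left h6 (by positivity)
  have h8 : 8 / (3 * π ^ 2) * (3 / 2 * (k.1 ^ 2 + k.2 ^ 2)) = 4 / π ^ 2 * k.1 ^ 2 + 4 / π ^ 2 * k.2 ^ 2 := by
    field_simp; ring
  unfold Es
  linarith

/-- second order expansion of `sg` -/
theorem abs_sg_sub_sq {x : ℝ} (hx : |x| ≤ 1) : |sg x - x ^ 2| ≤ x ^ 4 / 9 := by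
  have h1 := Real.cos_bound hx
  have h4 : |x| ^ 4 = x ^ 4 := by rw [show |x| ^ 4 = (|x| ^ 2) ^ 2 by ring, sq_abs]; ring
  rw [h4] at h1
  have h2 : sg x - x ^ 2 = -2 * (Real.cos x - (1 - x ^ 2 / 2)) := by unfold sg; ring
  rw [h2, abs_mul, abs_neg, abs_two]
  have h5 : 0 ≤ x ^ 4 := by positivity
  linarith

theorem sq_le_NN1 (k : ℝ × ℝ) : k.1 ^ 2 ≤ 4 / 3 * NN k.1 k.2 := by
  unfold NN; nlinarith [sq_nonneg (k.1 - 2 * k.2)]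

theorem sq_le_NN2 (k : ℝ × ℝ) : k.2 ^ 2 ≤ 4 / 3 * NN k.1 k.2 := by
  unfold NN; nlinarith [sq_nonneg (k.2 - 2 * k.1)]

theorem sq_le_NN3 (k : ℝ × ℝ) : (k.1 - k.2) ^ 2 ≤ 4 / 3 * NN k.1 k.2 := by
  unfold NN; nlinarith [sq_nonneg (k.1 + k.2)]

theorem abs_Es_sub {k : ℝ × ℝ} (hk : NN k.1 k.2 ≤ 3 / 4) :
    |Es k - 2 * NN k.1 k.2| ≤ NN k.1 k.2 ^ 2 := by
  have a1 := sq_le_NN1 k
  have a2 := sq_le_NN2 k
  have a3 := sq_le_NN3 k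
  have le1 : ∀ x : ℝ, x ^ 2 ≤ 4 / 3 * NN k.1 k.2 → |x| ≤ 1 := by
    intro x hx
    rw [← sq_le_one_iff_abs_le_one]
    linarith
  have b : ∀ x : ℝ, x ^ 2 ≤ 4 / 3 * NN k.1 k.2 → |sg x - x ^ 2| ≤ 16 / 81 * NN k.1 k.2 ^ 2 := by
    intro x hx
    refine (abs_sg_sub_sq (le1 x hx)).trans ?_
    have h0 := NN_nonneg k.1 k.2
    have : x ^ 4 ≤ (4 / 3 * NN k.1 k.2) ^ 2 := by
      rw [show x ^ 4 = (x ^ 2) ^ 2 by ring]
      exact pow_le_pow_left₀ (sq_nonneg _) hx 2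
    nlinarith
  have e : Es k - 2 * NN k.1 k.2 = (sg k.1 - k.1 ^ 2) + (sg k.2 - k.2 ^ 2) +
      (sg (k.1 - k.2) - (k.1 - k.2) ^ 2) := by
    unfold Es NN; ring
  rw [e]
  refine (abs_add_three _ _ _).trans ?_
  have := b _ a1
  have := b _ a2
  have := b _ a3
  nlinarith [sq_nonneg (NN k.1 k.2)]

theorem tendsto_NN : Tendsto (fun k : ℝ × ℝ => NN k.1 k.2) (𝓝[≠] 0) (𝓝 0) := by
  have h := (continuous_NN.tendsto (0 : ℝ × ℝ)).mono_left (nhdsWithin_le_nhds (s := {0}ᶜ))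
  have e : NN (0 : ℝ × ℝ).1 (0 : ℝ × ℝ).2 = 0 := by simp [NN]
  rwa [e] at h

/-- `Es k * u k → 2 L` -/
theorem tendsto_Es_mul {u : ℝ × ℝ → ℝ} {L C : ℝ} (hu : ∀ k, 0 ≤ u k)
    (hb : ∀ k : ℝ × ℝ, NN k.1 k.2 < 1 / 100 → NN k.1 k.2 * u k ≤ C)
    (hl : Tendsto (fun k : ℝ × ℝ => NN k.1 k.2 * u k) (𝓝[≠] 0) (𝓝 L)) :
    Tendsto (fun k : ℝ × ℝ => Es k * u k) (𝓝[≠] 0) (𝓝 (2 * L)) := by
  have h1 : Tendsto (fun k : ℝ × ℝ => 2 * (NN k.1 k.2 * u k)) (𝓝[≠] 0) (𝓝 (2 * L)) :=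
    hl.const_mul 2
  have h2 : Tendsto (fun k : ℝ × ℝ => (Es k - 2 * NN k.1 k.2) * u k) (𝓝[≠] 0) (𝓝 0) := by
    have h3 : Tendsto (fun k : ℝ × ℝ => NN k.1 k.2 * C) (𝓝[≠] 0) (𝓝 0) := by
      have := tendsto_NN.mul_const C
      rwa [zero_mul] at this
    refine squeeze_zero_norm' ?_ h3
    have h4 : ∀ᶠ k : ℝ × ℝ in 𝓝[≠] 0, NN k.1 k.2 < 1 / 100 :=
      tendsto_NN.eventually (gt_mem_nhds (by norm_num))
    filter_upwards [h4] with k hk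
    rw [norm_mul, Real.norm_eq_abs, Real.norm_eq_abs, abs_of_nonneg (hu k)]
    have h5 := abs_Es_sub (k := k) (by linarith)
    have h6 := NN_nonneg k.1 k.2
    calc |Es k - 2 * NN k.1 k.2| * u k ≤ NN k.1 k.2 ^ 2 * u k :=
          mul_le_mul_of_nonneg_right h5 (hu k)
      _ = NN k.1 k.2 * (NN k.1 k.2 * u k) := by ring
      _ ≤ NN k.1 k.2 * C := mul_le_mul_of_nonneg_left (hb k hk) h6
  have := h2.add h1
  rw [zero_add] at this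
  refine this.congr fun k => by ring

/-! ### the discrete Laplacian -/

/-- `(1/√3) (6 φ - ∑_{six neighbours} φ)` -/
def Dop (φ : ℤ × ℤ → ℝ) (p : ℤ × ℤ) : ℝ :=
  (1 / Real.sqrt 3) * (6 * φ p - ((φ (p - (1, 0)) + φ (p - (-1, 0))) + (φ (p - (0, 1)) + φ (p - (0, -1))) +
    (φ (p - (1, -1)) + φ (p - (-1, 1)))))

/-- the six directions -/
def six : Finset (ℤ × ℤ) := {(1, 0), (-1, 0), (0, 1), (0, -1), (1, -1), (-1, 1)}

/-- `s` contains the support of `φ` and its six translates -/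
def Sup7 (s : Finset (ℤ × ℤ)) (φ : ℤ × ℤ → ℝ) : Prop :=
  (∀ p, p ∉ s → φ p = 0) ∧ ∀ e ∈ six, ∀ p, p ∉ s → φ (p - e) = 0

theorem ch_add_neg (k1 k2 : ℝ) (a b : ℤ) :
    ch k1 k2 (a, b) + ch k1 k2 (-a, -b) = (2 - sg (a * k1 + b * k2) : ℝ) := by
  unfold ch sg
  have e1 : Complex.I * (((((a, b) : ℤ × ℤ).1 : ℝ) * k1 + (((a, b) : ℤ × ℤ).2 : ℝ) * k2 : ℝ) : ℂ) =
      ((a * k1 + b * k2 : ℝ) : ℂ) * Complex.I := by push_cast; ring
  have e2 : Complex.I * (((((-a, -b) : ℤ × ℤ).1 : ℝ) * k1 + (((-a, -b) : ℤ × ℤ).2 : ℝ) * k2 : ℝ) : ℂ) =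
      -((a * k1 + b * k2 : ℝ) : ℂ) * Complex.I := by push_cast; ring
  rw [e1, e2]
  have h := Complex.two_cos ((a * k1 + b * k2 : ℝ) : ℂ)
  rw [← h, ← Complex.ofReal_cos]
  push_cast
  ring

theorem fh_Dop {s : Finset (ℤ × ℤ)} {φ : ℤ × ℤ → ℝ} (h : Sup7 s φ) (k1 k2 : ℝ) :
    fh s (Dop φ) k1 k2 = (1 / Real.sqrt 3 * Es (k1, k2) : ℝ) * fh s φ k1 k2 := by
  have hs : ∀ e ∈ six, fh s (fun p => φ (p - e)) k1 k2 = ch k1 k2 e * fh s φ k1 k2 :=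
    fun e he => fh_shift e h.1 (h.2 e he) k1 k2
  have e1 := ch_add_neg k1 k2 1 0
  have e2 := ch_add_neg k1 k2 0 1
  have e3 := ch_add_neg k1 k2 1 (-1)
  have h0 : fh s (Dop φ) k1 k2 = (1 / Real.sqrt 3 : ℝ) * (6 * fh s φ k1 k2 -
      ((fh s (fun p => φ (p - (1, 0))) k1 k2 + fh s (fun p => φ (p - (-1, 0))) k1 k2) +
      (fh s (fun p => φ (p - (0, 1))) k1 k2 + fh s (fun p => φ (p - (0, -1))) k1 k2) +
      (fh s (fun p => φ (p - (1, -1))) k1 k2 + fh s (fun p => φ (p - (-1, 1))) k1 k2))) := by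
    simp only [fh_def, Dop, Finset.mul_sum, ← Finset.sum_add_distrib, ← Finset.sum_sub_distrib]
    refine Finset.sum_congr rfl fun p _ => ?_
    push_cast
    ring
  rw [h0, hs _ (by decide), hs _ (by decide), hs _ (by decide), hs _ (by decide), hs _ (by decide),
    hs _ (by decide)]
  have e4 : (6 * fh s φ k1 k2 - ((ch k1 k2 (1, 0) * fh s φ k1 k2 + ch k1 k2 (-1, 0) * fh s φ k1 k2) +
      (ch k1 k2 (0, 1) * fh s φ k1 k2 + ch k1 k2 (0, -1) * fh s φ k1 k2) +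
      (ch k1 k2 (1, -1) * fh s φ k1 k2 + ch k1 k2 (-1, 1) * fh s φ k1 k2))) =
      (6 - ((ch k1 k2 (1, 0) + ch k1 k2 (-1, 0)) + (ch k1 k2 (0, 1) + ch k1 k2 (0, -1)) +
      (ch k1 k2 (1, -1) + ch k1 k2 (-1, 1)))) * fh s φ k1 k2 := by ring
  rw [e4]
  norm_num at e1 e2 e3
  rw [e1, e2, e3]
  unfold Es
  simp only
  push_cast
  have : k1 + -k2 = k1 - k2 := by ring
  rw [this]
  ring

theorem sum_Dop {s : Finset (ℤ × ℤ)} {φ : ℤ × ℤ → ℝ} (h : Sup7 s φ) : ∑ p ∈ s, Dop φ p = 0 := by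
  have h1 := fh_Dop h 0 0
  have h2 : Es ((0 : ℝ), (0 : ℝ)) = 0 := by simp [Es, sg]
  rw [h2, mul_zero, Complex.ofReal_zero, zero_mul] at h1
  have h3 : fh s (Dop φ) 0 0 = ((∑ p ∈ s, Dop φ p : ℝ) : ℂ) := by
    simp [fh_def, ch]
  rw [h3] at h1
  exact_mod_cast h1

/-! ### the outer region -/

/-- total variation in the two coordinate directions -/
def tv (s : Finset (ℤ × ℤ)) (f : ℤ × ℤ → ℝ) : ℝ :=
  ∑ p ∈ s, (|f (p - (1, 0)) - f p| + |f (p - (0, 1)) - f p|)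

theorem tv_nonneg (s : Finset (ℤ × ℤ)) (f : ℤ × ℤ → ℝ) : 0 ≤ tv s f :=
  Finset.sum_nonneg fun _ _ => by positivity

theorem normSq_ch_sub_one (k1 k2 : ℝ) (a b : ℤ) :
    Complex.normSq (ch k1 k2 (a, b) - 1) = sg (a * k1 + b * k2) := by
  unfold ch sg
  have e1 : Complex.I * (((((a, b) : ℤ × ℤ).1 : ℝ) * k1 + (((a, b) : ℤ × ℤ).2 : ℝ) * k2 : ℝ) : ℂ) =
      ((a * k1 + b * k2 : ℝ) : ℂ) * Complex.I := by push_cast; ring
  rw [e1, Complex.normSq_apply, Complex.sub_re, Complex.sub_im, Complex.exp_ofReal_mul_I_re,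
    Complex.exp_ofReal_mul_I_im, Complex.one_re, Complex.one_im]
  nlinarith [Real.sin_sq_add_cos_sq (a * k1 + b * k2 : ℝ)]

theorem outer_le {s : Finset (ℤ × ℤ)} {f : ℤ × ℤ → ℝ} (h : Sup7 s f) {k1 k2 r : ℝ}
    (h1 : |k1| ≤ π) (h2 : |k2| ≤ π) (hr : 0 < r) (hk : r ^ 2 ≤ NN k1 k2) :
    Complex.normSq (fh s f k1 k2) ≤ 3 * π ^ 2 / (4 * r ^ 2) * tv s f ^ 2 := by
  have hπ := Real.pi_pos
  have hmain : ∀ (a b : ℤ), (a, b) ∈ six →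
      ∑ p ∈ s, |f (p - (a, b)) - f p| ≤ tv s f →
      sg (a * k1 + b * k2) * Complex.normSq (fh s f k1 k2) ≤ tv s f ^ 2 := by
    intro a b he hle
    rw [← normSq_ch_sub_one, ← Complex.normSq_mul]
    have e : (ch k1 k2 (a, b) - 1) * fh s f k1 k2 = fh s (fun p => f (p - (a, b)) - f p) k1 k2 := by
      rw [fh_sub, fh_shift _ h.1 (h.2 _ he)]; ring
    rw [e, Complex.normSq_eq_norm_sq]
    exact pow_le_pow_left₀ (norm_nonneg _) ((norm_fh_le_sum _ _ _ _).trans hle) 2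
  have hx := hmain 1 0 (by decide) (by
    unfold tv; exact Finset.sum_le_sum fun p _ => le_add_of_nonneg_right (abs_nonneg _))
  have hy := hmain 0 1 (by decide) (by
    unfold tv; exact Finset.sum_le_sum fun p _ => le_add_of_nonneg_left (abs_nonneg _))
  norm_num at hx hy
  have h3 := NN_le k1 k2
  have h4 := Complex.normSq_nonneg (fh s f k1 k2)
  have key : ∀ x : ℝ, |x| ≤ π → r ^ 2 / 3 ≤ x ^ 2 →
      sg x * Complex.normSq (fh s f k1 k2) ≤ tv s f ^ 2 →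
      Complex.normSq (fh s f k1 k2) ≤ 3 * π ^ 2 / (4 * r ^ 2) * tv s f ^ 2 := by
    intro x hx1 hx2 hx3
    have h5 := sg_ge_jordan hx1
    have h6 : 4 * r ^ 2 / (3 * π ^ 2) ≤ sg x := by
      refine le_trans ?_ h5
      have : 4 * r ^ 2 / (3 * π ^ 2) = 4 / π ^ 2 * (r ^ 2 / 3) := by field_simp
      rw [this]
      exact mul_le_mul_of_nonneg_left hx2 (by positivity)
    have h7 : 4 * r ^ 2 / (3 * π ^ 2) * Complex.normSq (fh s f k1 k2) ≤ tv s f ^ 2 :=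
      (mul_le_mul_of_nonneg_right h6 h4).trans hx3
    have h8 : 3 * π ^ 2 / (4 * r ^ 2) * (4 * r ^ 2 / (3 * π ^ 2) * Complex.normSq (fh s f k1 k2)) ≤
        3 * π ^ 2 / (4 * r ^ 2) * tv s f ^ 2 := mul_le_mul_of_nonneg_left h7 (by positivity)
    refine le_trans (le_of_eq ?_) h8
    field_simp
  by_cases hc : r ^ 2 / 3 ≤ k1 ^ 2
  · exact key k1 h1 hc hx
  · push Not at hc
    exact key k2 h2 (by nlinarith) hy

end Crest.Agent.R144.Cw643
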