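import Crest.Agent.R144.Tp6_952
import Crest.Agent.R144.Cw2_643

/-!
# R144 (helper643), CW block, file 3: the main estimate

`CV V s f t g = -(1/2) ∑ p ∈ s, ∑ q ∈ t, f p g q V (p - q)`.

`main_est`: for `φ, a` on the finite set `s` (`a` of mass zero),
`|CV V s (Dop φ) s a - (2 L/√3) ∑ φ a|` is bounded by the outer error, the error of `Es u → 2L` on the small
disc and a Parseval tail.
-/

set_option autoImplicit false

noncomputable section

namespace Crest.Agent.R144.Cw643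

open Finset Filter Topology MeasureTheory
open Crest.Agent.R144.Tp952
open scoped Real ComplexConjugate

/-- the bilinear form of the variogram -/
def CV (V : ℤ × ℤ → ℝ) (s : Finset (ℤ × ℤ)) (f : ℤ × ℤ → ℝ) (t : Finset (ℤ × ℤ)) (g : ℤ × ℤ → ℝ) : ℝ :=
  -(1 / 2) * ∑ p ∈ s, ∑ q ∈ t, f p * g q * V (p - q)

theorem continuous_fh (s : Finset (ℤ × ℤ)) (f : ℤ × ℤ → ℝ) :
    Continuous (fun k : ℝ × ℝ => fh s f k.1 k.2) := by
  unfold fh
  fun_prop

/-! ### Parseval -/

theorem integral_exp_int (n : ℤ) :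
    ∫ x in Set.Ioc (-π) π, Complex.exp (Complex.I * ((n : ℝ) * x : ℝ)) =
      if n = 0 then ((2 * π : ℝ) : ℂ) else 0 := by
  have hπ : -π ≤ π := by linarith [Real.pi_pos]
  rw [← intervalIntegral.integral_of_le hπ]
  split_ifs with h
  · subst h
    simp only [Int.cast_zero, zero_mul, Complex.ofReal_zero, mul_zero, Complex.exp_zero,
      intervalIntegral.integral_const]
    rw [Complex.real_smul, mul_one]
    push_cast
    ring
  · have hc : Complex.I * (n : ℂ) ≠ 0 := mul_ne_zero Complex.I_ne_zero (by exact_mod_cast h)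
    have h1 : ∀ x : ℝ, Complex.exp (Complex.I * ((n : ℝ) * x : ℝ)) =
        Complex.exp (Complex.I * (n : ℂ) * x) := by
      intro x; congr 1; push_cast; ring
    simp only [h1]
    rw [integral_exp_mul_complex hc]
    have h2 : Complex.I * (n : ℂ) * ((π : ℝ) : ℂ) = Complex.I * (n : ℂ) * ((-π : ℝ) : ℂ) +
        (n : ℂ) * (2 * π * Complex.I) := by push_cast; ring
    rw [h2, Complex.exp_add, Complex.exp_int_mul_two_pi_mul_I, mul_one, sub_self, zero_div]

theorem integral_ch (p : ℤ × ℤ) :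
    ∫ k in JJ, ch k.1 k.2 p = if p = 0 then (((2 * π) ^ 2 : ℝ) : ℂ) else 0 := by
  have h1 : ∀ k : ℝ × ℝ, ch k.1 k.2 p = Complex.exp (Complex.I * ((p.1 : ℝ) * k.1 : ℝ)) *
      Complex.exp (Complex.I * ((p.2 : ℝ) * k.2 : ℝ)) := by
    intro k
    unfold ch
    rw [← Complex.exp_add]
    congr 1; push_cast; ring
  simp only [h1]
  unfold JJ
  rw [Measure.volume_eq_prod, setIntegral_prod_mul (fun x : ℝ => Complex.exp (Complex.I * ((p.1 : ℝ) * x : ℝ)))
    (fun y : ℝ => Complex.exp (Complex.I * ((p.2 : ℝ) * y : ℝ))), integral_exp_int, integral_exp_int]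
  by_cases h1 : p.1 = 0 <;> by_cases h2 : p.2 = 0
  · have : p = 0 := Prod.ext h1 h2
    rw [if_pos h1, if_pos h2, if_pos this]
    push_cast; ring
  · have : p ≠ 0 := fun h => h2 (by rw [h]; rfl)
    rw [if_neg h2, if_neg this, mul_zero]
  · have : p ≠ 0 := fun h => h1 (by rw [h]; rfl)
    rw [if_neg h1, if_neg this, zero_mul]
  · have : p ≠ 0 := fun h => h1 (by rw [h]; rfl)
    rw [if_neg h1, if_neg this, zero_mul]

theorem conj_ch (k1 k2 : ℝ) (p : ℤ × ℤ) : conj (ch k1 k2 p) = ch k1 k2 (-p) := by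
  unfold ch
  rw [← Complex.exp_conj]
  congr 1
  rw [map_mul, Complex.conj_I, Complex.conj_ofReal]
  push_cast [Prod.fst_neg, Prod.snd_neg]
  ring

theorem continuous_ch (p : ℤ × ℤ) : Continuous (fun k : ℝ × ℝ => ch k.1 k.2 p) := by
  unfold ch
  fun_prop

theorem integrableOn_JJ' {G : ℝ × ℝ → ℂ} (hG : Continuous G) : IntegrableOn G JJ := by
  have h1 : IsCompact (Set.Icc (-π) π ×ˢ Set.Icc (-π) π) := isCompact_Icc.prod isCompact_Icc
  exact (hG.continuousOn.integrableOn_compact h1).mono_set JJ_subset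

theorem parsevalC (s : Finset (ℤ × ℤ)) (f g : ℤ × ℤ → ℝ) :
    ∫ k in JJ, fh s f k.1 k.2 * conj (fh s g k.1 k.2) = (((2 * π) ^ 2 * ∑ p ∈ s, f p * g p : ℝ) : ℂ) := by
  have h1 : ∀ k : ℝ × ℝ, fh s f k.1 k.2 * conj (fh s g k.1 k.2) =
      ∑ p ∈ s, ∑ q ∈ s, ((f p * g q : ℝ) : ℂ) * ch k.1 k.2 (p - q) := by
    intro k
    rw [fh_def, fh_def, map_sum, Finset.sum_mul_sum]
    refine Finset.sum_congr rfl fun p _ => Finset.sum_congr rfl fun q _ => ?_
    rw [map_mul, Complex.conj_ofReal, conj_ch, sub_eq_add_neg, ch_add]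
    push_cast
    ring
  simp only [h1]
  have hi : ∀ p q : ℤ × ℤ, IntegrableOn (fun k : ℝ × ℝ => ((f p * g q : ℝ) : ℂ) * ch k.1 k.2 (p - q)) JJ :=
    fun p q => integrableOn_JJ' ((continuous_ch _).const_mul _)
  rw [integral_finsetSum _ fun p _ => integrable_finsetSum _ fun q _ => hi p q]
  have h2 : ∀ p ∈ s, ∫ k in JJ, ∑ q ∈ s, ((f p * g q : ℝ) : ℂ) * ch k.1 k.2 (p - q) =
      (((2 * π) ^ 2 * (f p * g p) : ℝ) : ℂ) := by
    intro p hp
    rw [integral_finsetSum _ fun q _ => hi p q, Finset.sum_eq_single p]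
    · rw [integral_const_mul, integral_ch, if_pos (sub_self p)]
      push_cast; ring
    · intro q _ hq
      rw [integral_const_mul, integral_ch, if_neg (fun h => hq (sub_eq_zero.1 h).symm), mul_zero]
    · exact fun h => absurd hp h
  rw [Finset.sum_congr rfl h2]
  push_cast
  rw [Finset.mul_sum]

theorem parseval (s : Finset (ℤ × ℤ)) (f g : ℤ × ℤ → ℝ) :
    ∫ k in JJ, (fh s f k.1 k.2 * conj (fh s g k.1 k.2)).re = (2 * π) ^ 2 * ∑ p ∈ s, f p * g p := by
  have hi : IntegrableOn (fun k : ℝ × ℝ => fh s f k.1 k.2 * conj (fh s g k.1 k.2)) JJ :=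
    integrableOn_JJ' ((continuous_fh s f).mul (Complex.continuous_conj.comp (continuous_fh s g)))
  have h1 := integral_re (𝕜 := ℂ) hi
  simp only [RCLike.re_to_complex] at h1
  rw [h1, parsevalC, Complex.ofReal_re]

theorem parseval_normSq (s : Finset (ℤ × ℤ)) (f : ℤ × ℤ → ℝ) :
    ∫ k in JJ, Complex.normSq (fh s f k.1 k.2) = (2 * π) ^ 2 * ∑ p ∈ s, f p ^ 2 := by
  have h := parseval s f f
  simp only [Complex.mul_conj, Complex.ofReal_re] at h
  rw [h]
  simp only [sq]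

/-! ### bilinear form of the spectral representation -/

theorem CV_comm {V : ℤ × ℤ → ℝ} (hneg : ∀ p, V (-p) = V p) (s : Finset (ℤ × ℤ)) (f : ℤ × ℤ → ℝ)
    (t : Finset (ℤ × ℤ)) (g : ℤ × ℤ → ℝ) : CV V s f t g = CV V t g s f := by
  unfold CV
  rw [Finset.sum_comm]
  congr 1
  refine Finset.sum_congr rfl fun p _ => Finset.sum_congr rfl fun q _ => ?_
  rw [← hneg (p - q), neg_sub]
  ring

theorem CV_add_left (V : ℤ × ℤ → ℝ) (s : Finset (ℤ × ℤ)) (f f' : ℤ × ℤ → ℝ)
    (t : Finset (ℤ × ℤ)) (g : ℤ × ℤ → ℝ) :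
    CV V s (fun p => f p + f' p) t g = CV V s f t g + CV V s f' t g := by
  unfold CV
  rw [← mul_add, ← Finset.sum_add_distrib]
  congr 1
  refine Finset.sum_congr rfl fun p _ => ?_
  rw [← Finset.sum_add_distrib]
  refine Finset.sum_congr rfl fun q _ => ?_
  ring

theorem CV_sub_left (V : ℤ × ℤ → ℝ) (s : Finset (ℤ × ℤ)) (f f' : ℤ × ℤ → ℝ)
    (t : Finset (ℤ × ℤ)) (g : ℤ × ℤ → ℝ) :
    CV V s (fun p => f p - f' p) t g = CV V s f t g - CV V s f' t g := by
  unfold CV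
  rw [← mul_sub, ← Finset.sum_sub_distrib]
  congr 1
  refine Finset.sum_congr rfl fun p _ => ?_
  rw [← Finset.sum_sub_distrib]
  refine Finset.sum_congr rfl fun q _ => ?_
  ring

theorem CV_smul_left (V : ℤ × ℤ → ℝ) (s : Finset (ℤ × ℤ)) (c : ℝ) (f : ℤ × ℤ → ℝ)
    (t : Finset (ℤ × ℤ)) (g : ℤ × ℤ → ℝ) :
    CV V s (fun p => c * f p) t g = c * CV V s f t g := by
  unfold CV
  simp only [Finset.mul_sum]
  refine Finset.sum_congr rfl fun p _ => Finset.sum_congr rfl fun q _ => ?_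
  ring

theorem CV_add_right {V : ℤ × ℤ → ℝ} (hneg : ∀ p, V (-p) = V p) (s : Finset (ℤ × ℤ)) (f : ℤ × ℤ → ℝ)
    (t : Finset (ℤ × ℤ)) (g g' : ℤ × ℤ → ℝ) :
    CV V s f t (fun p => g p + g' p) = CV V s f t g + CV V s f t g' := by
  rw [CV_comm hneg, CV_add_left, CV_comm hneg t g, CV_comm hneg t g']

theorem CV_sub_right {V : ℤ × ℤ → ℝ} (hneg : ∀ p, V (-p) = V p) (s : Finset (ℤ × ℤ)) (f : ℤ × ℤ → ℝ)
    (t : Finset (ℤ × ℤ)) (g g' : ℤ × ℤ → ℝ) :
    CV V s f t (fun p => g p - g' p) = CV V s f t g - CV V s f t g' := by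
  rw [CV_comm hneg, CV_sub_left, CV_comm hneg t g, CV_comm hneg t g']

theorem CV_superset (V : ℤ × ℤ → ℝ) {s s' t t' : Finset (ℤ × ℤ)} {f g : ℤ × ℤ → ℝ}
    (hs : s ⊆ s') (ht : t ⊆ t') (hf : ∀ p, p ∉ s → f p = 0) (hg : ∀ p, p ∉ t → g p = 0) :
    CV V s f t g = CV V s' f t' g := by
  unfold CV
  congr 1
  rw [← Finset.sum_subset hs]
  · refine Finset.sum_congr rfl fun p _ => ?_
    refine Finset.sum_subset ht fun q _ hq => ?_
    rw [hg q hq, mul_zero, zero_mul]
  · intro p _ hp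
    refine Finset.sum_eq_zero fun q _ => ?_
    rw [hf p hp, zero_mul, zero_mul]

theorem normSq_add_sub (z w : ℂ) :
    Complex.normSq (z + w) - Complex.normSq (z - w) = 4 * (z * conj w).re := by
  rw [Complex.normSq_add, Complex.normSq_sub]
  ring

theorem normSq_add_le' (z w : ℂ) {M : ℝ} (hz : Complex.normSq z ≤ M) (hw : Complex.normSq w ≤ M) :
    Complex.normSq (z + w) ≤ 4 * M ∧ Complex.normSq (z - w) ≤ 4 * M := by
  have h : Complex.normSq (z + w) + Complex.normSq (z - w) =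
      2 * (Complex.normSq z + Complex.normSq w) := by
    rw [Complex.normSq_add, Complex.normSq_sub]; ring
  have h1 := Complex.normSq_nonneg (z + w)
  have h2 := Complex.normSq_nonneg (z - w)
  constructor <;> linarith

theorem spec_bil {V : ℤ × ℤ → ℝ} {u : ℝ × ℝ → ℝ} {L C : ℝ} (hS : Spec V u L C) (hneg : ∀ p, V (-p) = V p)
    {r : ℝ} {s : Finset (ℤ × ℤ)} {f g : ℤ × ℤ → ℝ} {M : ℝ} (hr : 0 < r) (hr' : r ≤ 1 / 10)
    (hf : ∑ p ∈ s, f p = 0) (hg : ∑ p ∈ s, g p = 0)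
    (hfM : ∀ k1 k2 : ℝ, |k1| ≤ π → |k2| ≤ π → r ^ 2 ≤ NN k1 k2 → Complex.normSq (fh s f k1 k2) ≤ M)
    (hgM : ∀ k1 k2 : ℝ, |k1| ≤ π → |k2| ≤ π → r ^ 2 ≤ NN k1 k2 → Complex.normSq (fh s g k1 k2) ≤ M) :
    IntegrableOn (fun k : ℝ × ℝ => (fh s f k.1 k.2 * conj (fh s g k.1 k.2)).re * u k) (BB r) ∧
    |CV V s f s g - (∫ k in BB r, (fh s f k.1 k.2 * conj (fh s g k.1 k.2)).re * u k) / (2 * π) ^ 2|
      ≤ 2 * C / r ^ 2 * M := by
  obtain ⟨i1, b1⟩ := hS.rep r s (fun p => f p + g p) (4 * M) hr hr'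
    (by rw [Finset.sum_add_distrib, hf, hg, add_zero]) (fun k1 k2 h1 h2 h3 => by
      rw [fh_add]; exact (normSq_add_le' _ _ (hfM k1 k2 h1 h2 h3) (hgM k1 k2 h1 h2 h3)).1)
  obtain ⟨i2, b2⟩ := hS.rep r s (fun p => f p - g p) (4 * M) hr hr'
    (by rw [Finset.sum_sub_distrib, hf, hg, sub_zero]) (fun k1 k2 h1 h2 h3 => by
      rw [fh_sub]; exact (normSq_add_le' _ _ (hfM k1 k2 h1 h2 h3) (hgM k1 k2 h1 h2 h3)).2)
  have e : ∀ k : ℝ × ℝ, (fh s f k.1 k.2 * conj (fh s g k.1 k.2)).re * u k =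
      1 / 4 * (Complex.normSq (fh s (fun p => f p + g p) k.1 k.2) * u k -
        Complex.normSq (fh s (fun p => f p - g p) k.1 k.2) * u k) := by
    intro k
    rw [← sub_mul, fh_add, fh_sub, normSq_add_sub]; ring
  have hcv : ∀ h : ℤ × ℤ → ℝ, -(1 / 2) * ∑ p ∈ s, ∑ q ∈ s, h p * h q * V (p - q) = CV V s h s h :=
    fun h => rfl
  have epol : CV V s f s g = 1 / 4 * (CV V s (fun p => f p + g p) s (fun p => f p + g p) -
      CV V s (fun p => f p - g p) s (fun p => f p - g p)) := by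
    rw [CV_add_left, CV_sub_left, CV_add_right hneg, CV_add_right hneg, CV_sub_right hneg,
      CV_sub_right hneg, CV_comm hneg s g s f]
    ring
  have hint : IntegrableOn (fun k : ℝ × ℝ => 1 / 4 *
      (Complex.normSq (fh s (fun p => f p + g p) k.1 k.2) * u k -
        Complex.normSq (fh s (fun p => f p - g p) k.1 k.2) * u k)) (BB r) := (i1.sub i2).const_mul _
  refine ⟨by simp only [e]; exact hint, ?_⟩
  simp only [e]
  rw [integral_const_mul, integral_sub i1 i2, epol]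
  rw [hcv] at b1 b2
  set A := CV V s (fun p => f p + g p) s (fun p => f p + g p)
  set B := CV V s (fun p => f p - g p) s (fun p => f p - g p)
  set I := ∫ k in BB r, Complex.normSq (fh s (fun p => f p + g p) k.1 k.2) * u k
  set J := ∫ k in BB r, Complex.normSq (fh s (fun p => f p - g p) k.1 k.2) * u k
  have e2 : 1 / 4 * (A - B) - 1 / 4 * (I - J) / (2 * π) ^ 2 =
      1 / 4 * ((A - I / (2 * π) ^ 2) - (B - J / (2 * π) ^ 2)) := by ring
  rw [e2, abs_mul, abs_of_pos (by norm_num : (0 : ℝ) < 1 / 4)]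
  have h3 := abs_sub (A - I / (2 * π) ^ 2) (B - J / (2 * π) ^ 2)
  have h4 : C / r ^ 2 * (4 * M) = 4 * (C / r ^ 2 * M) := by ring
  have h5 : 2 * C / r ^ 2 * M = 2 * (C / r ^ 2 * M) := by ring
  rw [h4] at b1 b2
  rw [h5]
  linarith

/-- pointwise AM-GM -/
theorem abs_re_mul_conj_le (z w : ℂ) {t : ℝ} (ht : 0 < t) :
    ‖z‖ * ‖w‖ ≤ 1 / 2 * (t * Complex.normSq z + Complex.normSq w / t) := by
  rw [Complex.normSq_eq_norm_sq, Complex.normSq_eq_norm_sq]
  have h : 0 ≤ (t * ‖z‖ - ‖w‖) ^ 2 / t := by positivity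
  have e : (t * ‖z‖ - ‖w‖) ^ 2 / t = t * ‖z‖ ^ 2 + ‖w‖ ^ 2 / t - 2 * (‖z‖ * ‖w‖) := by
    field_simp; ring
  rw [e] at h
  linarith

theorem main_est {V : ℤ × ℤ → ℝ} {u : ℝ × ℝ → ℝ} {L C : ℝ} (hS : Spec V u L C) (hneg : ∀ p, V (-p) = V p)
    {s : Finset (ℤ × ℤ)} {φ a : ℤ × ℤ → ℝ} (hφ : Sup7 s φ) (ha : ∑ p ∈ s, a p = 0)
    {r ρ η M t : ℝ} (hr : 0 < r) (hr' : r ≤ 1 / 10) (hρ : 0 < ρ) (hρr : ρ ≤ r) (hη : 0 ≤ η) (ht : 0 < t)
    (hfM : ∀ k1 k2 : ℝ, |k1| ≤ π → |k2| ≤ π → r ^ 2 ≤ NN k1 k2 →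
      Complex.normSq (fh s (Dop φ) k1 k2) ≤ M)
    (haM : ∀ k1 k2 : ℝ, |k1| ≤ π → |k2| ≤ π → r ^ 2 ≤ NN k1 k2 → Complex.normSq (fh s a k1 k2) ≤ M)
    (hsmall : ∀ k : ℝ × ℝ, k ≠ 0 → NN k.1 k.2 < ρ ^ 2 → |Es k * u k - 2 * L| ≤ η) :
    |CV V s (Dop φ) s a - 2 * L / Real.sqrt 3 * ∑ p ∈ s, φ p * a p| ≤
      2 * C / r ^ 2 * M + η / 2 * (t * ∑ p ∈ s, φ p ^ 2 + (∑ p ∈ s, a p ^ 2) / t) +
      π ^ 2 * (C + L) / ρ ^ 2 * (∑ p ∈ s, Dop φ p ^ 2 + ∑ p ∈ s, a p ^ 2) := by
  have hπ := Real.pi_pos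
  have h3 : (0 : ℝ) < Real.sqrt 3 := by positivity
  have h31 : 1 / Real.sqrt 3 ≤ 1 := by
    rw [div_le_one h3]
    exact Real.one_le_sqrt.2 (by norm_num)
  have hC := hS.C_pos
  have hL := hS.L_nonneg
  obtain ⟨i1, b1⟩ := spec_bil hS hneg hr hr' (sum_Dop hφ) ha hfM haM
  -- notation
  set F : ℝ × ℝ → ℂ := fun k => fh s φ k.1 k.2 with hF
  set A : ℝ × ℝ → ℂ := fun k => fh s a k.1 k.2 with hA
  set D : ℝ × ℝ → ℂ := fun k => fh s (Dop φ) k.1 k.2 with hD
  have hDF : ∀ k, D k = (1 / Real.sqrt 3 * Es k : ℝ) * F k := fun k => fh_Dop hφ k.1 k.2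
  have cF : Continuous F := continuous_fh s φ
  have cA : Continuous A := continuous_fh s a
  have cD : Continuous D := continuous_fh s (Dop φ)
  set G : ℝ × ℝ → ℝ := fun k => (F k * conj (A k)).re with hG
  have cG : Continuous G := by
    exact Complex.continuous_re.comp (cF.mul (Complex.continuous_conj.comp cA))
  have hGle : ∀ k, |G k| ≤ ‖F k‖ * ‖A k‖ := by
    intro k
    refine (Complex.abs_re_le_norm _).trans ?_
    rw [norm_mul, Complex.norm_conj]
  have e1 : ∀ k, (D k * conj (A k)).re * u k = 1 / Real.sqrt 3 * (G k * (Es k * u k)) := by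
    intro k
    rw [hDF, mul_assoc, Complex.re_ofReal_mul]
    ring
  have hpar : ∫ k in JJ, G k = (2 * π) ^ 2 * ∑ p ∈ s, φ p * a p := parseval s φ a
  have hBJ : BB r ⊆ JJ := BB_subset_JJ hr.le (by linarith)
  -- the integrand on the square
  have i1' : IntegrableOn (fun k => (BB r).indicator (fun k => (D k * conj (A k)).re * u k) k) JJ := by
    rw [IntegrableOn, integrable_indicator_iff (measurableSet_BB r), IntegrableOn,
      Measure.restrict_restrict (measurableSet_BB r), Set.inter_eq_left.2 hBJ]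
    exact i1
  have e2 : ∫ k in BB r, (D k * conj (A k)).re * u k =
      ∫ k in JJ, (BB r).indicator (fun k => (D k * conj (A k)).re * u k) k := by
    rw [setIntegral_indicator (measurableSet_BB r), Set.inter_eq_right.2 hBJ]
  have iG : IntegrableOn G JJ := integrableOn_JJ cG
  set Hh : ℝ × ℝ → ℝ := fun k => (BB r).indicator (fun k => (D k * conj (A k)).re * u k) k -
    2 * L / Real.sqrt 3 * G k with hH
  have e3 : ∫ k in JJ, Hh k = (∫ k in BB r, (D k * conj (A k)).re * u k) -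
      2 * L / Real.sqrt 3 * ((2 * π) ^ 2 * ∑ p ∈ s, φ p * a p) := by
    rw [integral_sub i1' (iG.const_mul _), integral_const_mul, hpar, e2]
  -- the dominating function
  set K1 : ℝ := π ^ 2 * (C + L) / ρ ^ 2 with hK1
  have hK1p : 0 ≤ K1 := by positivity
  set Dm : ℝ × ℝ → ℝ := fun k => η / 2 * (t * Complex.normSq (F k) + Complex.normSq (A k) / t) +
    K1 * (Complex.normSq (D k) + Complex.normSq (A k)) with hDm
  have cDm : Continuous Dm := by
    have c1 : Continuous fun k => Complex.normSq (F k) := Complex.continuous_normSq.comp cF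
    have c2 : Continuous fun k => Complex.normSq (A k) := Complex.continuous_normSq.comp cA
    have c3 : Continuous fun k => Complex.normSq (D k) := Complex.continuous_normSq.comp cD
    exact (((c1.const_mul _).add (c2.div_const _)).const_mul _).add ((c3.add c2).const_mul _)
  have hdom : ∀ k ∈ JJ, k ≠ 0 → ‖Hh k‖ ≤ Dm k := by
    intro k hk hk0
    have hkb : |k.1| ≤ π ∧ |k.2| ≤ π := by
      have := JJ_subset hk
      exact ⟨abs_le.2 ⟨this.1.1, this.1.2⟩, abs_le.2 ⟨this.2.1, this.2.2⟩⟩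
    have hN0 := NN_nonneg k.1 k.2
    have hF0 := Complex.normSq_nonneg (F k)
    have hA0 := Complex.normSq_nonneg (A k)
    have hD0 := Complex.normSq_nonneg (D k)
    rw [Real.norm_eq_abs]
    by_cases hc : NN k.1 k.2 < ρ ^ 2
    · have hkB : k ∈ BB r := lt_of_lt_of_le hc (pow_le_pow_left₀ hρ.le hρr 2)
      have e4 : Hh k = 1 / Real.sqrt 3 * (G k * (Es k * u k - 2 * L)) := by
        simp only [hH, Set.indicator_of_mem hkB, e1]
        ring
      rw [e4, abs_mul, abs_of_pos (by positivity : 0 < 1 / Real.sqrt 3), abs_mul]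
      have h5 : |G k| * |Es k * u k - 2 * L| ≤ (1 / 2 * (t * Complex.normSq (F k) + Complex.normSq (A k) / t)) * η :=
        mul_le_mul ((hGle k).trans (abs_re_mul_conj_le _ _ ht)) (hsmall k hk0 hc) (abs_nonneg _)
          (by positivity)
      have h6 : 0 ≤ |G k| * |Es k * u k - 2 * L| := by positivity
      have h7 : 1 / Real.sqrt 3 * (|G k| * |Es k * u k - 2 * L|) ≤ |G k| * |Es k * u k - 2 * L| :=
        mul_le_of_le_one_left h6 h31
      have h8 : 0 ≤ K1 * (Complex.normSq (D k) + Complex.normSq (A k)) := by positivity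
      simp only [hDm]
      linarith
    · push Not at hc
      -- bound `|Hh| ≤ (1/√3) |G| (2C + 2L)`
      have h5 : |Hh k| ≤ 1 / Real.sqrt 3 * (|G k| * (2 * C + 2 * L)) := by
        by_cases hkB : k ∈ BB r
        · have e4 : Hh k = 1 / Real.sqrt 3 * (G k * (Es k * u k - 2 * L)) := by
            simp only [hH, Set.indicator_of_mem hkB, e1]
            ring
          rw [e4, abs_mul, abs_of_pos (by positivity : 0 < 1 / Real.sqrt 3), abs_mul]
          have h6 : NN k.1 k.2 < 1 / 100 := by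
            have : NN k.1 k.2 < r ^ 2 := hkB
            nlinarith
          have h7 := hS.bound k h6
          have h8 : Es k * u k ≤ 2 * C := by
            calc Es k * u k ≤ 2 * NN k.1 k.2 * u k := mul_le_mul_of_nonneg_right (Es_le k) (hS.nonneg k)
              _ ≤ 2 * C := by linarith
          have h9 : 0 ≤ Es k * u k := mul_nonneg (Es_nonneg k) (hS.nonneg k)
          have h10 : |Es k * u k - 2 * L| ≤ 2 * C + 2 * L := by
            rw [abs_le]; constructor <;> linarith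
          gcongr
        · have e4 : Hh k = -(1 / Real.sqrt 3 * (G k * (2 * L))) := by
            simp only [hH, Set.indicator_of_notMem hkB]
            ring
          rw [e4, abs_neg, abs_mul, abs_of_pos (by positivity : 0 < 1 / Real.sqrt 3), abs_mul,
            abs_of_nonneg (by positivity : 0 ≤ 2 * L)]
          gcongr
          linarith
      -- `‖F‖ = √3 ‖D‖ / E`
      have hE : 8 / (3 * π ^ 2) * ρ ^ 2 ≤ Es k :=
        (mul_le_mul_of_nonneg_left hc (by positivity)).trans (Es_ge hkb.1 hkb.2)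
      have hEp : 0 < Es k := lt_of_lt_of_le (by positivity) hE
      have h6 : ‖D k‖ = 1 / Real.sqrt 3 * Es k * ‖F k‖ := by
        rw [hDF, norm_mul, Complex.norm_real, Real.norm_eq_abs,
          abs_of_nonneg (mul_nonneg (by positivity) hEp.le)]
      have h7 : 1 / Real.sqrt 3 * ‖F k‖ ≤ 3 * π ^ 2 / (8 * ρ ^ 2) * ‖D k‖ := by
        have h8 : 3 * π ^ 2 / (8 * ρ ^ 2) * ‖D k‖ =
            (3 * π ^ 2 / (8 * ρ ^ 2) * Es k) * (1 / Real.sqrt 3 * ‖F k‖) := by rw [h6]; ring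
        rw [h8]
        refine le_mul_of_one_le_left (by positivity) ?_
        have h9 : 3 * π ^ 2 / (8 * ρ ^ 2) * (8 / (3 * π ^ 2) * ρ ^ 2) = 1 := by field_simp
        rw [← h9]
        exact mul_le_mul_of_nonneg_left hE (by positivity)
      have h8 : ‖D k‖ * ‖A k‖ ≤ 1 / 2 * (Complex.normSq (D k) + Complex.normSq (A k)) := by
        have := abs_re_mul_conj_le (D k) (A k) one_pos
        simpa using this
      have h9 : 1 / Real.sqrt 3 * (|G k| * (2 * C + 2 * L)) ≤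
          3 * π ^ 2 / (8 * ρ ^ 2) * (‖D k‖ * ‖A k‖) * (2 * C + 2 * L) := by
        calc 1 / Real.sqrt 3 * (|G k| * (2 * C + 2 * L))
            ≤ 1 / Real.sqrt 3 * ((‖F k‖ * ‖A k‖) * (2 * C + 2 * L)) := by gcongr; exact hGle k
          _ = (1 / Real.sqrt 3 * ‖F k‖) * (‖A k‖ * (2 * C + 2 * L)) := by ring
          _ ≤ (3 * π ^ 2 / (8 * ρ ^ 2) * ‖D k‖) * (‖A k‖ * (2 * C + 2 * L)) := by gcongr
          _ = _ := by ring
      have h10 : 3 * π ^ 2 / (8 * ρ ^ 2) * (‖D k‖ * ‖A k‖) * (2 * C + 2 * L) ≤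
          K1 * (Complex.normSq (D k) + Complex.normSq (A k)) := by
        calc 3 * π ^ 2 / (8 * ρ ^ 2) * (‖D k‖ * ‖A k‖) * (2 * C + 2 * L)
            ≤ 3 * π ^ 2 / (8 * ρ ^ 2) * (1 / 2 * (Complex.normSq (D k) + Complex.normSq (A k))) *
              (2 * C + 2 * L) := by gcongr
          _ = 3 / 8 * (K1 * (Complex.normSq (D k) + Complex.normSq (A k))) := by
              rw [hK1]; field_simp
          _ ≤ K1 * (Complex.normSq (D k) + Complex.normSq (A k)) := by
              have : 0 ≤ K1 * (Complex.normSq (D k) + Complex.normSq (A k)) := by positivity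
              linarith
      have h11 : 0 ≤ η / 2 * (t * Complex.normSq (F k) + Complex.normSq (A k) / t) := by positivity
      simp only [hDm]
      linarith
  have hae : ∀ᵐ k ∂(volume.restrict JJ), ‖Hh k‖ ≤ Dm k := by
    rw [ae_restrict_iff' measurableSet_JJ]
    have : ∀ᵐ k : ℝ × ℝ ∂volume, k ≠ 0 := by
      rw [ae_iff]
      simp
    filter_upwards [this] with k hk hkJ using hdom k hkJ hk
  have hle := norm_integral_le_of_norm_le (integrableOn_JJ cDm) hae
  have iF : IntegrableOn (fun k => Complex.normSq (F k)) JJ :=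
    integrableOn_JJ (Complex.continuous_normSq.comp cF)
  have iA : IntegrableOn (fun k => Complex.normSq (A k)) JJ :=
    integrableOn_JJ (Complex.continuous_normSq.comp cA)
  have iD : IntegrableOn (fun k => Complex.normSq (D k)) JJ :=
    integrableOn_JJ (Complex.continuous_normSq.comp cD)
  have hDmI : ∫ k in JJ, Dm k = (2 * π) ^ 2 * (η / 2 * (t * ∑ p ∈ s, φ p ^ 2 + (∑ p ∈ s, a p ^ 2) / t) +
      K1 * (∑ p ∈ s, Dop φ p ^ 2 + ∑ p ∈ s, a p ^ 2)) := by
    have pF := parseval_normSq s φ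
    have pA := parseval_normSq s a
    have pD := parseval_normSq s (Dop φ)
    simp only [hDm]
    have k1 : IntegrableOn (fun k => t * Complex.normSq (F k)) JJ := iF.const_mul _
    have k2 : IntegrableOn (fun k => Complex.normSq (A k) / t) JJ := iA.div_const _
    have j1 : IntegrableOn (fun k => t * Complex.normSq (F k) + Complex.normSq (A k) / t) JJ :=
      k1.add k2
    have j2 : IntegrableOn (fun k => Complex.normSq (D k) + Complex.normSq (A k)) JJ := iD.add iA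
    have j3 : IntegrableOn (fun k => η / 2 * (t * Complex.normSq (F k) + Complex.normSq (A k) / t)) JJ :=
      j1.const_mul _
    have j4 : IntegrableOn (fun k => K1 * (Complex.normSq (D k) + Complex.normSq (A k))) JJ :=
      j2.const_mul _
    rw [integral_add j3 j4, integral_const_mul, integral_const_mul, integral_add k1 k2,
      integral_add iD iA, integral_const_mul, integral_div]
    simp only [hF, hA, hD]
    rw [pF, pA, pD]
    ring
  rw [e3, Real.norm_eq_abs, hDmI] at hle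
  set I := ∫ k in BB r, (D k * conj (A k)).re * u k
  set S := ∑ p ∈ s, φ p * a p
  set E := η / 2 * (t * ∑ p ∈ s, φ p ^ 2 + (∑ p ∈ s, a p ^ 2) / t) +
      K1 * (∑ p ∈ s, Dop φ p ^ 2 + ∑ p ∈ s, a p ^ 2) with hE
  have h2π : (0 : ℝ) < (2 * π) ^ 2 := by positivity
  have h12 : |I / (2 * π) ^ 2 - 2 * L / Real.sqrt 3 * S| ≤ E := by
    have e5 : I - 2 * L / Real.sqrt 3 * ((2 * π) ^ 2 * S) =
        (2 * π) ^ 2 * (I / (2 * π) ^ 2 - 2 * L / Real.sqrt 3 * S) := by field_simp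
    rw [e5, abs_mul, abs_of_pos h2π] at hle
    exact le_of_mul_le_mul_left hle h2π
  have h13 : CV V s (Dop φ) s a - 2 * L / Real.sqrt 3 * S =
      (CV V s (Dop φ) s a - I / (2 * π) ^ 2) + (I / (2 * π) ^ 2 - 2 * L / Real.sqrt 3 * S) := by ring
  rw [h13]
  refine (abs_add_le _ _).trans ?_
  rw [hE] at h12
  linarith

end Crest.Agent.R144.Cw643
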