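import Crest.Agent.R144.Cw3_643

/-!
# R144 (helper643), CW block, file 4: Cauchy-Schwarz and the a-priori bound

* `CV_cs : CV V s f s g ^ 2 ≤ CV V s f s f * CV V s g s g` for mass-zero weights (`Two V`);
* `apriori`: a constant `K` (depending on `C` of `Spec` only) such that for mass-zero weights with
  `|f p| ≤ ε δ²`, supported in `|p.1|, |p.2| ≤ m`, `m + 1 ≤ R / δ`: `CV V s f s f ≤ K R⁶ ε²`.
-/

set_option autoImplicit false

noncomputable section

namespace Crest.Agent.R144.Cw643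

open Finset Filter Topology MeasureTheory
open Crest.Agent.R144.Tp952
open scoped Real ComplexConjugate

variable {V : ℤ × ℤ → ℝ}

theorem CV_self_nonneg (hV : Two V) {s : Finset (ℤ × ℤ)} {f : ℤ × ℤ → ℝ} (hf : ∑ p ∈ s, f p = 0) :
    0 ≤ CV V s f s f := by
  have := hV.pd s f hf
  unfold CV
  linarith

theorem CV_cs (hV : Two V) {s : Finset (ℤ × ℤ)} {f g : ℤ × ℤ → ℝ} (hf : ∑ p ∈ s, f p = 0)
    (hg : ∑ p ∈ s, g p = 0) : CV V s f s g ^ 2 ≤ CV V s f s f * CV V s g s g := by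
  have h1 : ∀ x : ℝ, 0 ≤ CV V s g s g * (x * x) + 2 * CV V s f s g * x + CV V s f s f := by
    intro x
    have h2 := CV_self_nonneg hV (s := s) (f := fun p => f p + x * g p)
      (by rw [Finset.sum_add_distrib, hf, ← Finset.mul_sum, hg, mul_zero, add_zero])
    have h3 : CV V s (fun p => f p + x * g p) s (fun p => f p + x * g p) =
        CV V s g s g * (x * x) + 2 * CV V s f s g * x + CV V s f s f := by
      rw [CV_add_left, CV_add_right hV.neg, CV_add_right hV.neg, CV_smul_left, CV_smul_left,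
        CV_comm hV.neg s f s (fun p => x * g p), CV_smul_left, CV_comm hV.neg s g s (fun p => x * g p),
        CV_smul_left, CV_comm hV.neg s g s f]
      ring
    rwa [h3] at h2
  have h4 := discrim_le_zero h1
  unfold discrim at h4
  nlinarith

/-- the box of half side `m` -/
def BX (m : ℕ) : Finset (ℤ × ℤ) := Finset.Icc (-(m : ℤ)) m ×ˢ Finset.Icc (-(m : ℤ)) m

theorem mem_BX {m : ℕ} {p : ℤ × ℤ} : p ∈ BX m ↔ |p.1| ≤ m ∧ |p.2| ≤ m := by
  unfold BX
  rw [Finset.mem_product, Finset.mem_Icc, Finset.mem_Icc, abs_le, abs_le]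

theorem card_BX (m : ℕ) : ((BX m).card : ℝ) = (2 * m + 1) ^ 2 := by
  unfold BX
  rw [Finset.card_product, Int.card_Icc]
  have : ((m : ℤ) + 1 - -(m : ℤ)).toNat = 2 * m + 1 := by omega
  rw [this]
  push_cast
  ring

theorem volume_BB_le {d : ℝ} (hd : 0 ≤ d) : (volume (BB d)).toReal ≤ 16 * d ^ 2 := by
  have h1 : BB d ⊆ Set.Icc (-(2 * d)) (2 * d) ×ˢ Set.Icc (-(2 * d)) (2 * d) := by
    intro k hk
    have := abs_le_of_mem_BB hd hk
    exact ⟨abs_le.1 this.1, abs_le.1 this.2⟩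
  have h2 : volume (Set.Icc (-(2 * d)) (2 * d) ×ˢ Set.Icc (-(2 * d)) (2 * d) : Set (ℝ × ℝ)) =
      ENNReal.ofReal (16 * d ^ 2) := by
    rw [Measure.volume_eq_prod, Measure.prod_prod, Real.volume_Icc, ← ENNReal.ofReal_mul (by linarith)]
    congr 1; ring
  have h3 := measure_mono (μ := volume) h1
  rw [h2] at h3
  exact (ENNReal.toReal_mono ENNReal.ofReal_ne_top h3).trans (by rw [ENNReal.toReal_ofReal (by positivity)])

/-- **a-priori bound** -/
theorem apriori {u : ℝ × ℝ → ℝ} {L C : ℝ} (hS : Spec V u L C) {m : ℕ} {f : ℤ × ℤ → ℝ}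
    (hf : ∑ p ∈ BX m, f p = 0) {ε δ R : ℝ} (hδ : 0 < δ) (hδ1 : δ ≤ 1 / 10) (hε : 0 ≤ ε)
    (hm : (2 * m + 1) * δ ≤ R) (hR : 1 ≤ R) (hb : ∀ p ∈ BX m, |f p| ≤ ε * δ ^ 2) :
    CV V (BX m) f (BX m) f ≤ 200 * C * R ^ 6 * ε ^ 2 := by
  have hπ := Real.pi_pos
  have hC := hS.C_pos
  have hm0 : (0 : ℝ) ≤ m := Nat.cast_nonneg m
  have hcard : ((BX m).card : ℝ) * δ ^ 2 ≤ R ^ 2 := by
    rw [card_BX, ← mul_pow]
    exact pow_le_pow_left₀ (by positivity) hm 2
  have hsum : ∑ p ∈ BX m, |f p| ≤ R ^ 2 * ε := by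
    calc ∑ p ∈ BX m, |f p| ≤ ∑ _p ∈ BX m, ε * δ ^ 2 := Finset.sum_le_sum hb
      _ = ((BX m).card * δ ^ 2) * ε := by rw [Finset.sum_const, nsmul_eq_mul]; ring
      _ ≤ R ^ 2 * ε := mul_le_mul_of_nonneg_right hcard hε
  have hsq : ∑ p ∈ BX m, f p ^ 2 ≤ R ^ 2 * ε ^ 2 * δ ^ 2 := by
    calc ∑ p ∈ BX m, f p ^ 2 ≤ ∑ _p ∈ BX m, (ε * δ ^ 2) ^ 2 := by
          refine Finset.sum_le_sum fun p hp => ?_
          rw [← sq_abs]
          exact pow_le_pow_left₀ (abs_nonneg _) (hb p hp) 2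
      _ = ((BX m).card * δ ^ 2) * (ε ^ 2 * δ ^ 2) := by rw [Finset.sum_const, nsmul_eq_mul]; ring
      _ ≤ R ^ 2 * (ε ^ 2 * δ ^ 2) := mul_le_mul_of_nonneg_right hcard (by positivity)
      _ = _ := by ring
  have hmom : mom (BX m) f * δ ≤ R ^ 3 * ε := by
    have h1 : mom (BX m) f ≤ (∑ p ∈ BX m, |f p|) * (2 * m + 1) := by
      unfold mom
      rw [Finset.sum_mul]
      refine Finset.sum_le_sum fun p hp => ?_
      refine mul_le_mul_of_nonneg_left ?_ (abs_nonneg _)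
      obtain ⟨h1, h2⟩ := mem_BX.1 hp
      have h3 : |(p.1 : ℝ)| ≤ m := by exact_mod_cast h1
      have h4 : |(p.2 : ℝ)| ≤ m := by exact_mod_cast h2
      linarith
    calc mom (BX m) f * δ ≤ (∑ p ∈ BX m, |f p|) * (2 * m + 1) * δ := mul_le_mul_of_nonneg_right h1 hδ.le
      _ = (∑ p ∈ BX m, |f p|) * ((2 * m + 1) * δ) := by ring
      _ ≤ (R ^ 2 * ε) * R := mul_le_mul hsum hm (by positivity) (by positivity)
      _ = _ := by ring
  have hsum0 : 0 ≤ ∑ p ∈ BX m, |f p| := Finset.sum_nonneg fun _ _ => abs_nonneg _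
  -- the spectral representation with `r = 1/10`
  obtain ⟨i1, b1⟩ := hS.rep (1 / 10) (BX m) f ((R ^ 2 * ε) ^ 2) (by norm_num) le_rfl hf
    (fun k1 k2 _ _ _ => by
      rw [Complex.normSq_eq_norm_sq]
      exact pow_le_pow_left₀ (norm_nonneg _) ((norm_fh_le_sum _ _ _ _).trans hsum) 2)
  set r : ℝ := 1 / 10 with hr
  set F : ℝ × ℝ → ℂ := fun k => fh (BX m) f k.1 k.2 with hF
  have cF : Continuous fun k => Complex.normSq (F k) :=
    Complex.continuous_normSq.comp (continuous_fh (BX m) f)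
  have hBJ : BB r ⊆ JJ := BB_subset_JJ (by norm_num) (by norm_num)
  have iF : IntegrableOn (fun k => Complex.normSq (F k)) (BB r) := (integrableOn_JJ cF).mono_set hBJ
  have hvol : (volume (BB r)) < ⊤ := volume_BB_lt_top (by norm_num) (by norm_num)
  -- pointwise bound
  have hpt : ∀ k ∈ BB r, k ≠ 0 → Complex.normSq (F k) * u k ≤
      (BB δ).indicator (fun _ => 2 * mom (BX m) f ^ 2 * C) k + C / δ ^ 2 * Complex.normSq (F k) := by
    intro k hk hk0
    have hN := NN_pos hk0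
    have hk1 : NN k.1 k.2 < 1 / 100 := by
      have : NN k.1 k.2 < r ^ 2 := hk
      rw [hr] at this; norm_num at this; linarith
    have hb1 := hS.bound k hk1
    have hu := hS.nonneg k
    have hn := Complex.normSq_nonneg (F k)
    by_cases hc : k ∈ BB δ
    · rw [Set.indicator_of_mem hc]
      have h2 := normSq_fh_le hf k.1 k.2
      have h3 : Complex.normSq (F k) * u k ≤ 2 * mom (BX m) f ^ 2 * NN k.1 k.2 * u k :=
        mul_le_mul_of_nonneg_right h2 hu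
      have h4 : 2 * mom (BX m) f ^ 2 * NN k.1 k.2 * u k ≤ 2 * mom (BX m) f ^ 2 * C := by
        rw [mul_assoc]
        exact mul_le_mul_of_nonneg_left hb1 (by positivity)
      have h5 : 0 ≤ C / δ ^ 2 * Complex.normSq (F k) := by positivity
      linarith
    · rw [Set.indicator_of_notMem hc, zero_add]
      have h2 : δ ^ 2 ≤ NN k.1 k.2 := not_lt.1 hc
      have h3 : u k ≤ C / δ ^ 2 := by
        rw [le_div_iff₀ (by positivity)]
        calc u k * δ ^ 2 ≤ u k * NN k.1 k.2 := mul_le_mul_of_nonneg_left h2 hu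
          _ = NN k.1 k.2 * u k := mul_comm _ _
          _ ≤ C := hb1
      rw [mul_comm]
      exact mul_le_mul_of_nonneg_right h3 hn
  have hδr : BB δ ⊆ BB r := fun k hk => lt_of_lt_of_le hk (pow_le_pow_left₀ hδ.le hδ1 2)
  have iI : IntegrableOn ((BB δ).indicator (fun _ : ℝ × ℝ => 2 * mom (BX m) f ^ 2 * C)) (BB r) := by
    refine (integrable_indicator_iff (measurableSet_BB δ)).2 ?_
    rw [IntegrableOn, Measure.restrict_restrict (measurableSet_BB δ), Set.inter_eq_left.2 hδr]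
    exact integrableOn_const (by
      exact (lt_of_le_of_lt (measure_mono hδr) hvol).ne)
  have i2 : IntegrableOn (fun k => C / δ ^ 2 * Complex.normSq (F k)) (BB r) := iF.const_mul _
  have h6 : ∫ k in BB r, Complex.normSq (F k) * u k ≤
      ∫ k in BB r, ((BB δ).indicator (fun _ => 2 * mom (BX m) f ^ 2 * C) k +
        C / δ ^ 2 * Complex.normSq (F k)) := by
    refine integral_mono_ae i1 (iI.add i2) ?_
    rw [EventuallyLE, ae_restrict_iff' (measurableSet_BB r)]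
    have : ∀ᵐ k : ℝ × ℝ ∂volume, k ≠ 0 := by
      rw [ae_iff]; simp
    filter_upwards [this] with k hk hkB using hpt k hkB hk
  rw [integral_add iI i2, integral_const_mul, setIntegral_indicator (measurableSet_BB δ),
    Set.inter_eq_right.2 hδr, setIntegral_const, smul_eq_mul] at h6
  have h7 : ∫ k in BB r, Complex.normSq (F k) ≤ (2 * π) ^ 2 * ∑ p ∈ BX m, f p ^ 2 := by
    rw [← parseval_normSq]
    exact setIntegral_mono_set (integrableOn_JJ cF) (ae_of_all _ fun k => Complex.normSq_nonneg _)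
      (LE.le.eventuallyLE hBJ)
  have h8 : (volume.real (BB δ)) * (2 * mom (BX m) f ^ 2 * C) ≤ 32 * C * (R ^ 3 * ε) ^ 2 := by
    have h9 : volume.real (BB δ) ≤ 16 * δ ^ 2 := volume_BB_le hδ.le
    calc volume.real (BB δ) * (2 * mom (BX m) f ^ 2 * C) ≤ 16 * δ ^ 2 * (2 * mom (BX m) f ^ 2 * C) :=
          mul_le_mul_of_nonneg_right h9 (by positivity)
      _ = 32 * C * (mom (BX m) f * δ) ^ 2 := by ring
      _ ≤ 32 * C * (R ^ 3 * ε) ^ 2 := by
          refine mul_le_mul_of_nonneg_left ?_ (by positivity)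
          exact pow_le_pow_left₀ (mul_nonneg (mom_nonneg _ _) hδ.le) hmom 2
  have h9 : C / δ ^ 2 * ∫ k in BB r, Complex.normSq (F k) ≤ C * (2 * π) ^ 2 * (R ^ 2 * ε ^ 2) := by
    calc C / δ ^ 2 * ∫ k in BB r, Complex.normSq (F k)
        ≤ C / δ ^ 2 * ((2 * π) ^ 2 * (R ^ 2 * ε ^ 2 * δ ^ 2)) := by
          refine mul_le_mul_of_nonneg_left (h7.trans ?_) (by positivity)
          exact mul_le_mul_of_nonneg_left hsq (by positivity)
      _ = _ := by field_simp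
  have h10 : (∫ k in BB r, Complex.normSq (F k) * u k) / (2 * π) ^ 2 ≤
      C * (R ^ 3 * ε) ^ 2 + C * (R ^ 2 * ε ^ 2) := by
    rw [div_le_iff₀ (by positivity)]
    have h11 : (32 : ℝ) ≤ (2 * π) ^ 2 := by nlinarith [Real.pi_gt_three]
    have h12 : 32 * (C * (R ^ 3 * ε) ^ 2) ≤ (2 * π) ^ 2 * (C * (R ^ 3 * ε) ^ 2) :=
      mul_le_mul_of_nonneg_right h11 (by positivity)
    linarith
  have h13 := (abs_le.1 b1).2
  have h14 : CV V (BX m) f (BX m) f ≤
      (C * (R ^ 3 * ε) ^ 2 + C * (R ^ 2 * ε ^ 2)) + C / r ^ 2 * (R ^ 2 * ε) ^ 2 := by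
    have e : CV V (BX m) f (BX m) f = -(1 / 2) * ∑ p ∈ BX m, ∑ q ∈ BX m, f p * f q * V (p - q) := rfl
    rw [e]
    have h13' : -(1 / 2) * ∑ p ∈ BX m, ∑ q ∈ BX m, f p * f q * V (p - q) -
        (∫ k in BB r, Complex.normSq (F k) * u k) / (2 * π) ^ 2 ≤ C / r ^ 2 * (R ^ 2 * ε) ^ 2 := h13
    linarith
  refine h14.trans ?_
  have hr2 : C / r ^ 2 = 100 * C := by rw [hr]; ring
  rw [hr2]
  have hR2 : R ^ 2 ≤ R ^ 6 := pow_le_pow_right₀ hR (by norm_num)
  have hR4 : R ^ 4 ≤ R ^ 6 := pow_le_pow_right₀ hR (by norm_num)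
  have hCe : 0 ≤ C * ε ^ 2 := by positivity
  have a1 : C * ε ^ 2 * R ^ 2 ≤ C * ε ^ 2 * R ^ 6 := mul_le_mul_of_nonneg_left hR2 hCe
  have a2 : C * ε ^ 2 * R ^ 4 ≤ C * ε ^ 2 * R ^ 6 := mul_le_mul_of_nonneg_left hR4 hCe
  have a3 : 0 ≤ C * ε ^ 2 * R ^ 6 := by positivity
  nlinarith

end Crest.Agent.R144.Cw643
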