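import Crest.Agent.R144.Geo4_268
import Crest.Agent.R144.Cw1_643
import Crest.Agent.R144.Cw4_643

/-!
# R144 (helper643), CW block, file 5: boxes, Riemann sums, near families
-/

set_option autoImplicit false

noncomputable section

namespace Crest.Agent.R144.Cw643

open Finset Filter Topology MeasureTheory
open Crest.Agent.R144.Tp952
open Crest.ProbabilityR.HexHeights (centre)
open Crest.Agent.R144.HexTil353 Crest.Agent.R144.Geo268
open scoped Real ContDiff Laplacian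

/-! ### boxes -/

/-- half side of the box containing all sites with centre in the ball of radius `R` -/
def mm (R δ : ℝ) : ℕ := ⌈2 * R / δ⌉₊ + 1

theorem coord_le {δ R : ℝ} (hδ : 0 < δ) {p : ℤ × ℤ} (h : ‖centre δ p‖ ≤ R) :
    |(p.1 : ℝ)| ≤ 2 * R / δ ∧ |(p.2 : ℝ)| ≤ 2 * R / δ := by
  have hR : 0 ≤ R := (norm_nonneg _).trans h
  have h1 : ‖centre δ p‖ ^ 2 ≤ R ^ 2 := pow_le_pow_left₀ (norm_nonneg _) h 2
  rw [centre_eq, norm_cen_sq] at h1
  have h2 := N_ge (p.1 : ℝ) (p.2 : ℝ)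
  have h3 : δ ^ 2 * ((1 / 2) * ((p.1 : ℝ) ^ 2 + (p.2 : ℝ) ^ 2)) ≤ R ^ 2 :=
    (mul_le_mul_of_nonneg_left h2 (sq_nonneg _)).trans h1
  have key : ∀ x : ℝ, δ ^ 2 * (1 / 2 * x ^ 2) ≤ R ^ 2 → |x| ≤ 2 * R / δ := by
    intro x hx
    rw [le_div_iff₀ hδ]
    apply le_of_sq_le_sq _ (by positivity)
    rw [mul_pow, sq_abs]
    nlinarith
  constructor
  · apply key
    nlinarith [mul_nonneg (sq_nonneg δ) (sq_nonneg (p.2 : ℝ))]
  · apply key
    nlinarith [mul_nonneg (sq_nonneg δ) (sq_nonneg (p.1 : ℝ))]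

theorem mem_BX_of_norm {δ R : ℝ} (hδ : 0 < δ) {p : ℤ × ℤ} (h : ‖centre δ p‖ ≤ R) :
    p ∈ BX ⌈2 * R / δ⌉₊ := by
  obtain ⟨h1, h2⟩ := coord_le hδ h
  have h3 := Nat.le_ceil (2 * R / δ)
  rw [mem_BX]
  constructor
  · have := h1.trans h3
    exact_mod_cast this
  · have := h2.trans h3
    exact_mod_cast this

theorem BX_mono {m n : ℕ} (h : m ≤ n) : BX m ⊆ BX n := by
  intro p hp
  rw [mem_BX] at hp ⊢
  have : (m : ℤ) ≤ n := by exact_mod_cast h
  exact ⟨hp.1.trans this, hp.2.trans this⟩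

theorem mem_BX_six {m : ℕ} {p e : ℤ × ℤ} (he : e ∈ six) (h : p - e ∈ BX m) : p ∈ BX (m + 1) := by
  rw [mem_BX] at h ⊢
  obtain ⟨h1, h2⟩ := h
  rw [Prod.fst_sub, abs_le] at h1
  rw [Prod.snd_sub, abs_le] at h2
  rw [abs_le, abs_le]
  simp only [six, Finset.mem_insert, Finset.mem_singleton] at he
  push_cast
  rcases he with rfl | rfl | rfl | rfl | rfl | rfl <;> simp only at h1 h2 <;>
    refine ⟨⟨?_, ?_⟩, ⟨?_, ?_⟩⟩ <;> omega

theorem sup7_of_norm {δ R : ℝ} (hδ : 0 < δ) {φ : ℤ × ℤ → ℝ} (h : ∀ p, φ p ≠ 0 → ‖centre δ p‖ ≤ R) :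
    Sup7 (BX (mm R δ)) φ := by
  constructor
  · intro p hp
    by_contra h1
    exact hp (BX_mono (Nat.le_succ _) (mem_BX_of_norm hδ (h p h1)))
  · intro e he p hp
    by_contra h1
    exact hp (mem_BX_six he (mem_BX_of_norm hδ (h _ h1)))

theorem mm_le {R δ : ℝ} (hR : 0 ≤ R) (hδ : 0 < δ) (hδ1 : δ ≤ 1) :
    (2 * (mm R δ : ℝ) + 1) * δ ≤ 4 * R + 5 := by
  have h1 := (Nat.ceil_lt_add_one (by positivity : 0 ≤ 2 * R / δ)).le
  unfold mm
  push_cast
  have h2 : 2 * R / δ * δ = 2 * R := by field_simp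
  nlinarith

theorem card_mul_le {R δ : ℝ} (hR : 0 ≤ R) (hδ : 0 < δ) (hδ1 : δ ≤ 1) :
    ((BX (mm R δ)).card : ℝ) * δ ^ 2 ≤ (4 * R + 5) ^ 2 := by
  rw [card_BX, ← mul_pow]
  exact pow_le_pow_left₀ (by positivity) (mm_le hR hδ hδ1) 2

/-! ### Riemann sums -/

/-- unit square at `v` -/
def Sq (v : ℤ × ℤ) : Set (ℝ × ℝ) := Set.Ico (v.1 : ℝ) (v.1 + 1) ×ˢ Set.Ico (v.2 : ℝ) (v.2 + 1)

theorem mem_Sq {v : ℤ × ℤ} {p : ℝ × ℝ} : p ∈ Sq v ↔ v = (⌊p.1⌋, ⌊p.2⌋) := by
  unfold Sq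
  rw [Set.mem_prod, Set.mem_Ico, Set.mem_Ico, ← Int.floor_eq_iff, ← Int.floor_eq_iff]
  constructor
  · rintro ⟨h1, h2⟩; exact Prod.ext h1.symm h2.symm
  · rintro rfl; exact ⟨rfl, rfl⟩

theorem measurableSet_Sq (v : ℤ × ℤ) : MeasurableSet (Sq v) :=
  measurableSet_Ico.prod measurableSet_Ico

theorem volume_Sq (v : ℤ × ℤ) : volume (Sq v) = 1 := by
  unfold Sq
  rw [Measure.volume_eq_prod, Measure.prod_prod, Real.volume_Ico, Real.volume_Ico]
  simp

/-- quantitative Riemann sum -/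
theorem riemann {g : ℂ → ℝ} (hg : Continuous g) {δ κ : ℝ} (hδ : 0 < δ)
    (hκ : ∀ z w : ℂ, ‖z - w‖ ≤ 2 * δ → |g z - g w| ≤ κ) {m : ℕ}
    (hm : ∀ z, g z ≠ 0 → (⌊ca δ z⌋, ⌊cb δ z⌋) ∈ BX m) :
    |(∫ z, g z) - Real.sqrt 3 / 2 * δ ^ 2 * ∑ p ∈ BX m, g (centre δ p)| ≤
      Real.sqrt 3 / 2 * δ ^ 2 * (κ * (2 * m + 1) ^ 2) := by
  have hκ0 : 0 ≤ κ := (abs_nonneg _).trans (hκ 0 0 (by simp; positivity))
  set G : ℝ × ℝ → ℝ := fun p => g (cen δ p.1 p.2) with hG
  have e1 : ∫ z, g z = (Real.sqrt 3 / 2 * δ ^ 2) * ∫ p, G p := by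
    rw [integral_cen hδ g, smul_eq_mul]
  set T : ℝ × ℝ → ℝ := fun p => ∑ v ∈ BX m, (Sq v).indicator (fun _ => g (centre δ v)) p with hT
  have iT : ∀ v ∈ BX m, Integrable ((Sq v).indicator (fun _ : ℝ × ℝ => g (centre δ v))) := by
    intro v _
    rw [integrable_indicator_iff (measurableSet_Sq v)]
    exact integrableOn_const (by rw [volume_Sq]; exact ENNReal.one_ne_top)
  have e2 : ∫ p, T p = ∑ v ∈ BX m, g (centre δ v) := by
    simp only [hT]
    rw [integral_finsetSum _ iT]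
    refine Finset.sum_congr rfl fun v _ => ?_
    rw [integral_indicator_const _ (measurableSet_Sq v), Measure.real, volume_Sq]
    simp
  have iTT : Integrable T := integrable_finsetSum _ iT
  -- the big square
  set Q : Set (ℝ × ℝ) := Set.Ico (-(m : ℝ)) (m + 1) ×ˢ Set.Ico (-(m : ℝ)) (m + 1) with hQ
  have hQm : MeasurableSet Q := measurableSet_Ico.prod measurableSet_Ico
  have hQv : volume Q = ENNReal.ofReal ((2 * m + 1) ^ 2) := by
    rw [hQ, Measure.volume_eq_prod, Measure.prod_prod, Real.volume_Ico,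
      ← ENNReal.ofReal_mul (by have : (0 : ℝ) ≤ m := Nat.cast_nonneg m; linarith)]
    congr 1; ring
  have hQi : ∀ p : ℝ × ℝ, p ∈ Q ↔ (⌊p.1⌋, ⌊p.2⌋) ∈ BX m := by
    intro p
    have key : ∀ x : ℝ, (-(m : ℝ) ≤ x ∧ x < m + 1) ↔ |⌊x⌋| ≤ (m : ℤ) := by
      intro x
      rw [abs_le]
      constructor
      · rintro ⟨h1, h2⟩
        refine ⟨Int.le_floor.2 (by push_cast; exact h1), ?_⟩
        have : ⌊x⌋ < (m : ℤ) + 1 := Int.floor_lt.2 (by push_cast; exact h2)
        omega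
      · rintro ⟨h1, h2⟩
        have h3 := Int.le_floor.1 h1
        push_cast at h3
        have h4 : x < ((m : ℤ) + 1 : ℤ) := Int.floor_lt.1 (by omega)
        push_cast at h4
        exact ⟨h3, h4⟩
    rw [hQ, Set.mem_prod, Set.mem_Ico, Set.mem_Ico, key, key, mem_BX]
  have hdiff : ∀ p, ‖G p - T p‖ ≤ Q.indicator (fun _ => κ) p := by
    intro p
    by_cases hp : (⌊p.1⌋, ⌊p.2⌋) ∈ BX m
    · rw [Set.indicator_of_mem ((hQi p).2 hp)]
      have hTp : T p = g (centre δ (⌊p.1⌋, ⌊p.2⌋)) := by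
        simp only [hT]
        rw [Finset.sum_eq_single (⌊p.1⌋, ⌊p.2⌋)]
        · rw [Set.indicator_of_mem (mem_Sq.2 rfl)]
        · intro v _ hv
          rw [Set.indicator_of_notMem]
          rwa [mem_Sq]
        · exact fun h => absurd hp h
      rw [hTp, Real.norm_eq_abs]
      apply hκ
      rw [centre_eq, cen_sub]
      apply le_of_sq_le_sq _ (by positivity)
      rw [norm_cen_sq, mul_pow]
      have h1 := Int.floor_le p.1
      have h2 := Int.lt_floor_add_one p.1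
      have h3 := Int.floor_le p.2
      have h4 := Int.lt_floor_add_one p.2
      have h5 : N (p.1 - ⌊p.1⌋) (p.2 - ⌊p.2⌋) ≤ 4 := by
        unfold N
        have a1 : 0 ≤ p.1 - ⌊p.1⌋ := by linarith
        have a2 : p.1 - ⌊p.1⌋ ≤ 1 := by linarith
        have a3 : 0 ≤ p.2 - ⌊p.2⌋ := by linarith
        have a4 : p.2 - ⌊p.2⌋ ≤ 1 := by linarith
        nlinarith [mul_nonneg a1 a3, mul_nonneg (sub_nonneg.2 a2) (sub_nonneg.2 a4)]
      nlinarith [sq_nonneg δ]
    · rw [Set.indicator_of_notMem (fun h => hp ((hQi p).1 h))]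
      have h1 : G p = 0 := by
        by_contra h2
        apply hp
        have := hm _ h2
        rwa [ca_cen hδ, cb_cen hδ] at this
      have h2 : T p = 0 := by
        simp only [hT]
        refine Finset.sum_eq_zero fun v hv => ?_
        rw [Set.indicator_of_notMem]
        rw [mem_Sq]
        rintro rfl
        exact hp hv
      rw [h1, h2, sub_zero, norm_zero]
  have iQ : Integrable (Q.indicator (fun _ : ℝ × ℝ => κ)) := by
    rw [integrable_indicator_iff hQm]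
    exact integrableOn_const (by rw [hQv]; exact ENNReal.ofReal_ne_top)
  have iD : Integrable (fun p => G p - T p) := by
    have hGc : Continuous G := by
      have : Continuous (fun p : ℝ × ℝ => cen δ p.1 p.2) := by unfold cen; fun_prop
      exact hg.comp this
    exact iQ.mono' (hGc.aestronglyMeasurable.sub iTT.aestronglyMeasurable) (ae_of_all _ hdiff)
  have iG : Integrable G := by
    have := iD.add iTT
    refine this.congr (ae_of_all _ fun p => ?_)
    simp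
  have h1 := norm_integral_le_of_norm_le iQ (ae_of_all _ hdiff)
  rw [integral_sub iG iTT, e2, integral_indicator_const _ hQm, Measure.real, hQv,
    ENNReal.toReal_ofReal (by positivity), smul_eq_mul, Real.norm_eq_abs] at h1
  rw [e1, ← mul_sub, abs_mul, abs_of_nonneg (by positivity)]
  refine mul_le_mul_of_nonneg_left (h1.trans (le_of_eq (mul_comm _ _))) (by positivity)

end Crest.Agent.R144.Cw643
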