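import Crest.Agent.R144.Cw5_643

/-!
# R144 (helper643), CW block, file 6: near families and the limit of the covariances

`Near δ b g`: the weights `b n` are supported in a bounded region of the plane and
`b n v = (√3/2) δ_n² g(centre v) + o(δ_n²)` uniformly in `v`.

**`cv_tendsto`**: for a variogram `V` with spectral representation `Spec V u L C`, mass-zero families
`Near δ b (-Δψ)`, `Near δ a f` : `CV V (s n) (b n) (t n) (a n) → (2 L/√3) ∫ ψ f`.
-/

set_option autoImplicit false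

noncomputable section

namespace Crest.Agent.R144.Cw643

open Finset Filter Topology MeasureTheory
open Crest.Agent.R144.Tp952
open Crest.ProbabilityR.HexHeights (centre)
open Crest.Agent.R144.HexTil353 Crest.Agent.R144.Geo268
open scoped Real ContDiff Laplacian

/-- near family -/
structure Near (δ : ℕ → ℝ) (b : ℕ → ℤ × ℤ → ℝ) (g : ℂ → ℝ) : Prop where
  supp : ∃ R : ℝ, ∀ᶠ n in atTop, ∀ v, b n v ≠ 0 → ‖centre (δ n) v‖ ≤ R
  near : ∀ ε > 0, ∀ᶠ n in atTop, ∀ v, |b n v - Real.sqrt 3 / 2 * δ n ^ 2 * g (centre (δ n) v)| ≤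
    ε * δ n ^ 2

/-- mass-zero weight on `s` -/
def Wt (s : Finset (ℤ × ℤ)) (b : ℤ × ℤ → ℝ) : Prop := (∀ p, p ∉ s → b p = 0) ∧ ∑ p ∈ s, b p = 0

theorem Wt.sum_eq {s t : Finset (ℤ × ℤ)} {b : ℤ × ℤ → ℝ} (h : Wt s b) (ht : ∀ p, p ∉ t → b p = 0) :
    Wt t b := by
  classical
  refine ⟨ht, ?_⟩
  rw [← h.2]
  have h1 : ∑ p ∈ t, b p = ∑ p ∈ s ∪ t, b p :=
    Finset.sum_subset Finset.subset_union_right fun p _ hp => ht p hp
  have h2 : ∑ p ∈ s, b p = ∑ p ∈ s ∪ t, b p :=
    Finset.sum_subset Finset.subset_union_left fun p _ hp => h.1 p hp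
  rw [h1, h2]

theorem CV_eq_of_supp (V : ℤ × ℤ → ℝ) {s s' t t' : Finset (ℤ × ℤ)} {f g : ℤ × ℤ → ℝ}
    (hs : ∀ p, p ∉ s → f p = 0) (hs' : ∀ p, p ∉ s' → f p = 0)
    (ht : ∀ p, p ∉ t → g p = 0) (ht' : ∀ p, p ∉ t' → g p = 0) :
    CV V s f t g = CV V s' f t' g := by
  classical
  rw [CV_superset V (s' := s ∪ s') (t' := t ∪ t') Finset.subset_union_left Finset.subset_union_left
    hs ht]
  exact (CV_superset V Finset.subset_union_right Finset.subset_union_right hs' ht').symm

variable {δ : ℕ → ℝ} {b b' : ℕ → ℤ × ℤ → ℝ} {g g' : ℂ → ℝ}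

namespace Near

theorem add (h : Near δ b g) (h' : Near δ b' g') :
    Near δ (fun n v => b n v + b' n v) (fun z => g z + g' z) := by
  obtain ⟨R, hR⟩ := h.supp
  obtain ⟨R', hR'⟩ := h'.supp
  refine ⟨⟨max R R', ?_⟩, fun ε hε => ?_⟩
  · filter_upwards [hR, hR'] with n h1 h2 v hv
    by_cases hb : b n v = 0
    · exact (h2 v (by rintro h3; exact hv (by rw [hb, h3, add_zero]))).trans (le_max_right _ _)
    · exact (h1 v hb).trans (le_max_left _ _)
  · filter_upwards [h.near (ε / 2) (by positivity), h'.near (ε / 2) (by positivity)] with n h1 h2 v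
    have e : b n v + b' n v - Real.sqrt 3 / 2 * δ n ^ 2 * (g (centre (δ n) v) + g' (centre (δ n) v)) =
      (b n v - Real.sqrt 3 / 2 * δ n ^ 2 * g (centre (δ n) v)) +
      (b' n v - Real.sqrt 3 / 2 * δ n ^ 2 * g' (centre (δ n) v)) := by ring
    rw [e]
    refine (abs_add_le _ _).trans ?_
    linarith [h1 v, h2 v]

theorem smul (h : Near δ b g) (c : ℝ) : Near δ (fun n v => c * b n v) (fun z => c * g z) := by
  obtain ⟨R, hR⟩ := h.supp
  refine ⟨⟨R, ?_⟩, fun ε hε => ?_⟩
  · filter_upwards [hR] with n h1 v hv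
    exact h1 v (by rintro h3; exact hv (by rw [h3, mul_zero]))
  · filter_upwards [h.near (ε / (|c| + 1)) (by positivity)] with n h1 v
    have e : c * b n v - Real.sqrt 3 / 2 * δ n ^ 2 * (c * g (centre (δ n) v)) =
      c * (b n v - Real.sqrt 3 / 2 * δ n ^ 2 * g (centre (δ n) v)) := by ring
    rw [e, abs_mul]
    have h2 : |c| * (ε / (|c| + 1) * δ n ^ 2) ≤ ε * δ n ^ 2 := by
      have h3 : |c| * (ε / (|c| + 1)) ≤ ε := by
        rw [mul_div_assoc', div_le_iff₀ (by positivity)]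
        nlinarith [abs_nonneg c]
      rw [← mul_assoc]
      exact mul_le_mul_of_nonneg_right h3 (sq_nonneg _)
    exact (mul_le_mul_of_nonneg_left (h1 v) (abs_nonneg _)).trans h2

theorem neg (h : Near δ b g) : Near δ (fun n v => -b n v) (fun z => -g z) := by
  have := h.smul (-1)
  simpa only [neg_one_mul] using this

theorem sub (h : Near δ b g) (h' : Near δ b' g') :
    Near δ (fun n v => b n v - b' n v) (fun z => g z - g' z) := by
  have := h.add h'.neg
  simpa only [← sub_eq_add_neg] using this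

theorem congr (h : Near δ b g) (hg : ∀ z, g z = g' z) : Near δ b g' := by
  have : g = g' := funext hg
  rwa [← this]

theorem congr' (h : Near δ b g) (hb : ∀ᶠ n in atTop, ∀ v, b n v = b' n v) : Near δ b' g := by
  obtain ⟨R, hR⟩ := h.supp
  refine ⟨⟨R, ?_⟩, fun ε hε => ?_⟩
  · filter_upwards [hR, hb] with n h1 h2 v hv
    exact h1 v (by rwa [h2])
  · filter_upwards [h.near ε hε, hb] with n h1 h2 v
    rw [← h2]
    exact h1 v

/-- uniform bound -/
theorem bdd (h : Near δ b g) {A : ℝ} (hA : ∀ z, |g z| ≤ A) :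
    ∀ᶠ n in atTop, ∀ v, |b n v| ≤ (A + 1) * δ n ^ 2 := by
  have hA0 : 0 ≤ A := (abs_nonneg _).trans (hA 0)
  have h31 : Real.sqrt 3 / 2 ≤ 1 := by
    have : Real.sqrt 3 ≤ 2 := by
      rw [Real.sqrt_le_left (by norm_num)]; norm_num
    linarith
  filter_upwards [h.near 1 one_pos] with n h1 v
  have e : b n v = (b n v - Real.sqrt 3 / 2 * δ n ^ 2 * g (centre (δ n) v)) +
      Real.sqrt 3 / 2 * δ n ^ 2 * g (centre (δ n) v) := by ring
  rw [e]
  refine (abs_add_le _ _).trans ?_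
  have h2 : |Real.sqrt 3 / 2 * δ n ^ 2 * g (centre (δ n) v)| ≤ A * δ n ^ 2 := by
    rw [abs_mul, abs_of_nonneg (by positivity)]
    calc Real.sqrt 3 / 2 * δ n ^ 2 * |g (centre (δ n) v)| ≤ 1 * δ n ^ 2 * A := by
          gcongr
          exact hA _
      _ = _ := by ring
  linarith [h1 v]

/-- transport by maps of the lattice approximating a map of the plane -/
theorem comp (h : Near δ b g) (hg : UniformContinuous g) {σ : ℕ → ℤ × ℤ → ℤ × ℤ} {τ : ℂ → ℂ} {K : ℝ}
    (hK : ∀ z, ‖z‖ ≤ ‖τ z‖ + K)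
    (hτ : ∀ ε > 0, ∀ᶠ n in atTop, ∀ v, ‖centre (δ n) (σ n v) - τ (centre (δ n) v)‖ ≤ ε) :
    Near δ (fun n v => b n (σ n v)) (fun z => g (τ z)) := by
  obtain ⟨R, hR⟩ := h.supp
  refine ⟨⟨R + 1 + K, ?_⟩, fun ε hε => ?_⟩
  · filter_upwards [hR, hτ 1 one_pos] with n h1 h2 v hv
    have h3 := h1 _ hv
    have h4 := h2 v
    have h5 := hK (centre (δ n) v)
    have h6 : ‖τ (centre (δ n) v)‖ ≤ ‖centre (δ n) (σ n v)‖ + 1 := by
      have := norm_sub_norm_le (τ (centre (δ n) v)) (centre (δ n) (σ n v))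
      rw [norm_sub_rev] at this
      linarith
    linarith
  · have h31 : Real.sqrt 3 / 2 ≤ 1 := by
      have : Real.sqrt 3 ≤ 2 := by
        rw [Real.sqrt_le_left (by norm_num)]; norm_num
      linarith
    obtain ⟨η, hη, hη'⟩ := Metric.uniformContinuous_iff.1 hg (ε / 2) (by positivity)
    filter_upwards [h.near (ε / 2) (by positivity), hτ (η / 2) (by positivity)] with n h1 h2 v
    have e : b n (σ n v) - Real.sqrt 3 / 2 * δ n ^ 2 * g (τ (centre (δ n) v)) =
      (b n (σ n v) - Real.sqrt 3 / 2 * δ n ^ 2 * g (centre (δ n) (σ n v))) +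
      Real.sqrt 3 / 2 * δ n ^ 2 * (g (centre (δ n) (σ n v)) - g (τ (centre (δ n) v))) := by ring
    rw [e]
    refine (abs_add_le _ _).trans ?_
    have h3 : |g (centre (δ n) (σ n v)) - g (τ (centre (δ n) v))| ≤ ε / 2 := by
      have h4 : dist (centre (δ n) (σ n v)) (τ (centre (δ n) v)) < η := by
        rw [dist_eq_norm]
        linarith [h2 v]
      have := hη' h4
      rw [Real.dist_eq] at this
      exact this.le
    have h5 : |Real.sqrt 3 / 2 * δ n ^ 2 * (g (centre (δ n) (σ n v)) - g (τ (centre (δ n) v)))| ≤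
        ε / 2 * δ n ^ 2 := by
      rw [abs_mul, abs_of_nonneg (by positivity)]
      calc Real.sqrt 3 / 2 * δ n ^ 2 * |g (centre (δ n) (σ n v)) - g (τ (centre (δ n) v))|
          ≤ 1 * δ n ^ 2 * (ε / 2) := by gcongr
        _ = _ := by ring
    linarith [h1 (σ n v)]

end Near

/-! ### the six neighbours in the plane -/

theorem centre_sub (d : ℝ) (p q : ℤ × ℤ) : centre d (p - q) = centre d p - centre d q := by
  rw [centre_eq, centre_eq, centre_eq, cen_sub]
  push_cast [Prod.fst_sub, Prod.snd_sub]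
  rfl

theorem cen_om (d : ℝ) (a b : ℝ) : cen d a b = d * (a + b * om) := by
  unfold cen om
  rfl

theorem norm_centre_six {d : ℝ} (hd : 0 ≤ d) {e : ℤ × ℤ} (he : e ∈ six) : ‖centre d e‖ ≤ d := by
  apply le_of_sq_le_sq _ hd
  rw [centre_eq, norm_cen_sq]
  simp only [six, Finset.mem_insert, Finset.mem_singleton] at he
  have : N (e.1 : ℝ) (e.2 : ℝ) = 1 := by
    rcases he with rfl | rfl | rfl | rfl | rfl | rfl <;> norm_num [N]
  rw [this, mul_one]

theorem Dop_samp (d : ℝ) (ψ : ℂ → ℝ) (p : ℤ × ℤ) :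
    Dop (fun v => ψ (centre d v)) p = -(1 / Real.sqrt 3 * lap7 d ψ (centre d p)) := by
  unfold Dop lap7
  have e1 : centre d (p - (1, 0)) = centre d p - d * 1 := by
    rw [centre_sub, centre_eq d (1, 0), cen_om]; push_cast; ring_nf
  have e2 : centre d (p - (-1, 0)) = centre d p + d * 1 := by
    rw [centre_sub, centre_eq d (-1, 0), cen_om]; push_cast; ring_nf
  have e3 : centre d (p - (0, 1)) = centre d p - d * om := by
    rw [centre_sub, centre_eq d (0, 1), cen_om]; push_cast; ring_nf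
  have e4 : centre d (p - (0, -1)) = centre d p + d * om := by
    rw [centre_sub, centre_eq d (0, -1), cen_om]; push_cast; ring_nf
  have e5 : centre d (p - (1, -1)) = centre d p + d * (om - 1) := by
    rw [centre_sub, centre_eq d (1, -1), cen_om]; push_cast; ring_nf
  have e6 : centre d (p - (-1, 1)) = centre d p - d * (om - 1) := by
    rw [centre_sub, centre_eq d (-1, 1), cen_om]; push_cast; ring_nf
  beta_reduce
  rw [e1, e2, e3, e4, e5, e6]
  ring

/-- **the lattice Laplacian of a sampled function** -/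
theorem near_Dop (hδ : ∀ n, 0 < δ n) (hδ0 : Tendsto δ atTop (𝓝 0)) {ψ : ℂ → ℝ}
    (hψ : ContDiff ℝ ∞ ψ) (hc : HasCompactSupport ψ) :
    Near δ (fun n => Dop (fun v => ψ (centre (δ n) v))) (fun z => -(Δ ψ) z) := by
  obtain ⟨C, hC0, hC⟩ := lap7_sub_le hψ hc
  obtain ⟨R, hR⟩ := hc.isBounded.exists_norm_le
  have hR' : ∀ z, ψ z ≠ 0 → ‖z‖ ≤ R := fun z hz => hR z (subset_tsupport _ hz)
  refine ⟨⟨R + 1, ?_⟩, fun ε hε => ?_⟩
  · filter_upwards [hδ0.eventually (gt_mem_nhds (show (0 : ℝ) < 1 by norm_num))] with n hn v hv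
    by_contra hcon
    push Not at hcon
    apply hv
    have z0 : ∀ e ∈ six, ψ (centre (δ n) (v - e)) = 0 := by
      intro e he
      by_contra h1
      have h2 := hR' _ h1
      have h3 := norm_centre_six (hδ n).le he
      rw [centre_sub] at h2
      have h4 := norm_sub_norm_le (centre (δ n) v) (centre (δ n) e)
      linarith
    have z1 : ψ (centre (δ n) v) = 0 := by
      by_contra h1
      linarith [hR' _ h1]
    unfold Dop
    beta_reduce
    rw [z1, z0 _ (by decide), z0 _ (by decide), z0 _ (by decide), z0 _ (by decide),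
      z0 _ (by decide), z0 _ (by decide)]
    ring
  · have h3 : (0 : ℝ) < Real.sqrt 3 := by positivity
    have h31 : 1 / Real.sqrt 3 ≤ 1 := by
      rw [div_le_one h3]
      exact Real.one_le_sqrt.2 (by norm_num)
    have hlim : Tendsto (fun n => C * δ n ^ 2) atTop (𝓝 0) := by
      have := (hδ0.pow 2).const_mul C
      simpa using this
    filter_upwards [hlim.eventually (gt_mem_nhds hε)] with n hn v
    rw [Dop_samp]
    have h4 := hC (δ n) (centre (δ n) v) (hδ n).le
    have e : -(1 / Real.sqrt 3 * lap7 (δ n) ψ (centre (δ n) v)) -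
        Real.sqrt 3 / 2 * δ n ^ 2 * -(Δ ψ) (centre (δ n) v) =
        -(1 / Real.sqrt 3) * (lap7 (δ n) ψ (centre (δ n) v) -
          3 / 2 * δ n ^ 2 * (Δ ψ) (centre (δ n) v)) := by
      have h5 : Real.sqrt 3 * Real.sqrt 3 = 3 := Real.mul_self_sqrt (by norm_num)
      have h6 : 1 / Real.sqrt 3 * 3 = Real.sqrt 3 := by
        rw [one_div, inv_mul_eq_div, div_eq_iff h3.ne']; exact h5.symm
      linear_combination (-(δ n ^ 2 * (Δ ψ) (centre (δ n) v)) / 2) * h6
    rw [e, abs_mul, abs_neg, abs_of_pos (by positivity : 0 < 1 / Real.sqrt 3)]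
    calc 1 / Real.sqrt 3 * |lap7 (δ n) ψ (centre (δ n) v) - 3 / 2 * δ n ^ 2 * (Δ ψ) (centre (δ n) v)|
        ≤ 1 * (C * δ n ^ 4) := by gcongr
      _ = (C * δ n ^ 2) * δ n ^ 2 := by ring
      _ ≤ ε * δ n ^ 2 := mul_le_mul_of_nonneg_right hn.le (sq_nonneg _)

end Crest.Agent.R144.Cw643
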