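import Crest.Agent.R144.Cw6_643

/-!
# R144 (helper643), CW block, file 7: the limit theorem

* `sum_tendsto`: `∑ ψ(centre v) a n v → ∫ ψ f` for `Near δ a f`;
* `tv_tendsto`: the total variation of a near family tends to `0`;
* **`cv_tendsto`**: `CV V (s n) (b n) (t n) (a n) → (2 L/√3) ∫ ψ f`;
* **`ward_tendsto`**: `CV V (b n) (a n) → 0` when the profiles `-Δψ`, `f` satisfy `ψ f = 0`.
-/

set_option autoImplicit false

noncomputable section

namespace Crest.Agent.R144.Cw643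

open Finset Filter Topology MeasureTheory
open Crest.Agent.R144.Tp952
open Crest.ProbabilityR.HexHeights (centre)
open Crest.Agent.R144.HexTil353 Crest.Agent.R144.Geo268
open scoped Real ContDiff Laplacian

theorem sqrt3_half_le : Real.sqrt 3 / 2 ≤ 1 := by
  have : Real.sqrt 3 ≤ 2 := by
    rw [Real.sqrt_le_left (by norm_num)]; norm_num
  linarith

/-- modulus of continuity -/
theorem exists_mod {g : ℂ → ℝ} (hg : UniformContinuous g) {δ : ℕ → ℝ} (hδ0 : Tendsto δ atTop (𝓝 0))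
    {ε : ℝ} (hε : 0 < ε) : ∀ᶠ n in atTop, ∀ z w : ℂ, ‖z - w‖ ≤ 2 * δ n → |g z - g w| ≤ ε := by
  obtain ⟨η, hη, hη'⟩ := Metric.uniformContinuous_iff.1 hg ε hε
  filter_upwards [hδ0.eventually (gt_mem_nhds (show (0 : ℝ) < η / 2 by positivity))] with n hn z w hzw
  have h1 : dist z w < η := by
    rw [dist_eq_norm]; linarith
  have := hη' h1
  rw [Real.dist_eq] at this
  exact this.le

/-- floor coordinates of a point of the ball -/
theorem floor_mem {d R : ℝ} (hd : 0 < d) {z : ℂ} (hz : ‖z‖ ≤ R) :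
    (⌊ca d z⌋, ⌊cb d z⌋) ∈ BX (mm R d) := by
  have hR : 0 ≤ R := (norm_nonneg _).trans hz
  have h1 : ‖z‖ ^ 2 ≤ R ^ 2 := pow_le_pow_left₀ (norm_nonneg _) hz 2
  rw [← cen_ca_cb hd z, norm_cen_sq] at h1
  have h2 := N_ge (ca d z) (cb d z)
  have h3 : d ^ 2 * ((1 / 2) * (ca d z ^ 2 + cb d z ^ 2)) ≤ R ^ 2 :=
    (mul_le_mul_of_nonneg_left h2 (sq_nonneg _)).trans h1
  have key : ∀ x : ℝ, d ^ 2 * (1 / 2 * x ^ 2) ≤ R ^ 2 → |⌊x⌋| ≤ (mm R d : ℤ) := by
    intro x hx
    have h4 : |x| ≤ 2 * R / d := by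
      rw [le_div_iff₀ hd]
      apply le_of_sq_le_sq _ (by positivity)
      rw [mul_pow, sq_abs]
      nlinarith
    have h5 := h4.trans (Nat.le_ceil (2 * R / d))
    obtain ⟨h6, h7⟩ := abs_le.1 h5
    unfold mm
    rw [abs_le]
    push_cast
    constructor
    · refine Int.le_floor.2 ?_
      push_cast
      linarith
    · have : (⌊x⌋ : ℝ) ≤ x := Int.floor_le x
      have h8 : (⌊x⌋ : ℝ) ≤ ((⌈2 * R / d⌉₊ : ℤ) + 1 : ℤ) := by push_cast; linarith
      exact_mod_cast h8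
  rw [mem_BX]
  constructor
  · apply key
    nlinarith [mul_nonneg (sq_nonneg d) (sq_nonneg (cb d z))]
  · apply key
    nlinarith [mul_nonneg (sq_nonneg d) (sq_nonneg (ca d z))]

/-- Riemann sums of continuous functions with compact support -/
theorem riemann_tendsto {g : ℂ → ℝ} (hg : Continuous g) (hc : HasCompactSupport g) {δ : ℕ → ℝ}
    (hδ : ∀ n, 0 < δ n) (hδ0 : Tendsto δ atTop (𝓝 0)) {R : ℝ} (hR : ∀ z, g z ≠ 0 → ‖z‖ ≤ R)
    (hR0 : 0 ≤ R) :
    Tendsto (fun n => Real.sqrt 3 / 2 * δ n ^ 2 * ∑ p ∈ BX (mm R (δ n)), g (centre (δ n) p)) atTop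
      (𝓝 (∫ z, g z)) := by
  have hu := hc.uniformContinuous_of_continuous hg
  rw [Metric.tendsto_nhds]
  intro ε hε
  set K := (4 * R + 5) ^ 2 with hK
  have hKp : 0 < K := by positivity
  filter_upwards [exists_mod hu hδ0 (show 0 < ε / (2 * K) by positivity),
    hδ0.eventually (gt_mem_nhds (show (0 : ℝ) < 1 by norm_num))] with n h1 h2
  have h3 := riemann hg (hδ n) h1 (m := mm R (δ n)) (fun z hz => floor_mem (hδ n) (hR z hz))
  rw [Real.dist_eq, abs_sub_comm]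
  refine lt_of_le_of_lt h3 ?_
  have h4 := card_mul_le hR0 (hδ n) h2.le
  rw [card_BX] at h4
  calc Real.sqrt 3 / 2 * δ n ^ 2 * (ε / (2 * K) * (2 * (mm R (δ n) : ℝ) + 1) ^ 2)
      = Real.sqrt 3 / 2 * (ε / (2 * K)) * ((2 * (mm R (δ n) : ℝ) + 1) ^ 2 * δ n ^ 2) := by ring
    _ ≤ 1 * (ε / (2 * K)) * K := by
        gcongr
        exact sqrt3_half_le
    _ = ε / 2 := by field_simp
    _ < ε := by linarith

/-- `∑ ψ(centre v) a n v → ∫ ψ f` -/
theorem sum_tendsto {δ : ℕ → ℝ} (hδ : ∀ n, 0 < δ n) (hδ0 : Tendsto δ atTop (𝓝 0))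
    {ψ f : ℂ → ℝ} (hψ : Continuous ψ) (hψc : HasCompactSupport ψ) (hf : Continuous f)
    {a : ℕ → ℤ × ℤ → ℝ} (ha : Near δ a f) {R : ℝ} (hR0 : 0 ≤ R) (hR : ∀ z, ψ z ≠ 0 → ‖z‖ ≤ R) :
    Tendsto (fun n => ∑ p ∈ BX (mm R (δ n)), ψ (centre (δ n) p) * a n p) atTop
      (𝓝 (∫ z, ψ z * f z)) := by
  obtain ⟨A, hA⟩ := hψ.bounded_above_of_compact_support hψc
  have hA0 : 0 ≤ A := (norm_nonneg _).trans (hA 0)
  have h1 : Tendsto (fun n => Real.sqrt 3 / 2 * δ n ^ 2 * ∑ p ∈ BX (mm R (δ n)),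
      ψ (centre (δ n) p) * f (centre (δ n) p)) atTop (𝓝 (∫ z, ψ z * f z)) :=
    riemann_tendsto (hψ.mul hf) hψc.mul_right hδ hδ0
      (fun z hz => hR z (left_ne_zero_of_mul hz)) hR0
  have h2 : Tendsto (fun n => (∑ p ∈ BX (mm R (δ n)), ψ (centre (δ n) p) * a n p) -
      Real.sqrt 3 / 2 * δ n ^ 2 * ∑ p ∈ BX (mm R (δ n)), ψ (centre (δ n) p) * f (centre (δ n) p))
      atTop (𝓝 0) := by
    rw [Metric.tendsto_nhds]
    intro ε hε
    set K := (4 * R + 5) ^ 2 with hK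
    have hKp : 0 < K := by positivity
    filter_upwards [ha.near (ε / (2 * K * (A + 1))) (by positivity),
      hδ0.eventually (gt_mem_nhds (show (0 : ℝ) < 1 by norm_num))] with n h3 h4
    rw [Real.dist_eq, sub_zero]
    have e : (∑ p ∈ BX (mm R (δ n)), ψ (centre (δ n) p) * a n p) -
      Real.sqrt 3 / 2 * δ n ^ 2 * ∑ p ∈ BX (mm R (δ n)), ψ (centre (δ n) p) * f (centre (δ n) p) =
      ∑ p ∈ BX (mm R (δ n)), ψ (centre (δ n) p) *
        (a n p - Real.sqrt 3 / 2 * δ n ^ 2 * f (centre (δ n) p)) := by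
      rw [Finset.mul_sum, ← Finset.sum_sub_distrib]
      refine Finset.sum_congr rfl fun p _ => by ring
    rw [e]
    have h5 : ∀ p ∈ BX (mm R (δ n)), |ψ (centre (δ n) p) *
        (a n p - Real.sqrt 3 / 2 * δ n ^ 2 * f (centre (δ n) p))| ≤
        (A + 1) * (ε / (2 * K * (A + 1)) * δ n ^ 2) := by
      intro p _
      rw [abs_mul]
      have := hA (centre (δ n) p)
      rw [Real.norm_eq_abs] at this
      exact mul_le_mul (by linarith) (h3 p) (abs_nonneg _) (by linarith)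
    refine lt_of_le_of_lt ((Finset.abs_sum_le_sum_abs _ _).trans (Finset.sum_le_sum h5)) ?_
    rw [Finset.sum_const, nsmul_eq_mul]
    have h6 := card_mul_le hR0 (hδ n) h4.le
    calc ((BX (mm R (δ n))).card : ℝ) * ((A + 1) * (ε / (2 * K * (A + 1)) * δ n ^ 2))
        = (((BX (mm R (δ n))).card : ℝ) * δ n ^ 2) * (ε / (2 * K)) := by field_simp
      _ ≤ K * (ε / (2 * K)) := mul_le_mul_of_nonneg_right h6 (by positivity)
      _ = ε / 2 := by field_simp
      _ < ε := by linarith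
  have := h2.add h1
  rw [zero_add] at this
  refine this.congr fun n => by ring

/-- the total variation tends to `0` -/
theorem tv_tendsto {δ : ℕ → ℝ} (hδ : ∀ n, 0 < δ n) (hδ0 : Tendsto δ atTop (𝓝 0))
    {f : ℂ → ℝ} (hf : UniformContinuous f) {a : ℕ → ℤ × ℤ → ℝ} (ha : Near δ a f) {R : ℝ} (hR0 : 0 ≤ R) :
    Tendsto (fun n => tv (BX (mm R (δ n))) (a n)) atTop (𝓝 0) := by
  rw [Metric.tendsto_nhds]
  intro ε hε
  set K := (4 * R + 5) ^ 2 with hK
  have hKp : 0 < K := by positivity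
  filter_upwards [ha.near (ε / (12 * K)) (by positivity),
    exists_mod hf hδ0 (show 0 < ε / (12 * K) by positivity),
    hδ0.eventually (gt_mem_nhds (show (0 : ℝ) < 1 by norm_num))] with n h1 h2 h3
  rw [Real.dist_eq, sub_zero, abs_of_nonneg (tv_nonneg _ _)]
  have key : ∀ e ∈ six, ∀ p, |a n (p - e) - a n p| ≤ 3 * (ε / (12 * K)) * δ n ^ 2 := by
    intro e he p
    have h4 : |f (centre (δ n) (p - e)) - f (centre (δ n) p)| ≤ ε / (12 * K) := by
      apply h2
      rw [centre_sub]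
      have := norm_centre_six (hδ n).le he
      rw [show centre (δ n) p - centre (δ n) e - centre (δ n) p = -centre (δ n) e by ring, norm_neg]
      linarith [hδ n]
    have e1 : a n (p - e) - a n p =
        (a n (p - e) - Real.sqrt 3 / 2 * δ n ^ 2 * f (centre (δ n) (p - e))) -
        (a n p - Real.sqrt 3 / 2 * δ n ^ 2 * f (centre (δ n) p)) +
        Real.sqrt 3 / 2 * δ n ^ 2 * (f (centre (δ n) (p - e)) - f (centre (δ n) p)) := by ring
    rw [e1]
    refine (abs_add_le _ _).trans ?_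
    have h5 := abs_sub (a n (p - e) - Real.sqrt 3 / 2 * δ n ^ 2 * f (centre (δ n) (p - e)))
      (a n p - Real.sqrt 3 / 2 * δ n ^ 2 * f (centre (δ n) p))
    have h6 : |Real.sqrt 3 / 2 * δ n ^ 2 * (f (centre (δ n) (p - e)) - f (centre (δ n) p))| ≤
        ε / (12 * K) * δ n ^ 2 := by
      rw [abs_mul, abs_of_nonneg (by positivity)]
      calc Real.sqrt 3 / 2 * δ n ^ 2 * |f (centre (δ n) (p - e)) - f (centre (δ n) p)|
          ≤ 1 * δ n ^ 2 * (ε / (12 * K)) := by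
            gcongr
            exact sqrt3_half_le
        _ = _ := by ring
    linarith [h1 (p - e), h1 p]
  have h7 : tv (BX (mm R (δ n))) (a n) ≤ ∑ _p ∈ BX (mm R (δ n)), 6 * (ε / (12 * K)) * δ n ^ 2 := by
    unfold tv
    refine Finset.sum_le_sum fun p _ => ?_
    have h8 := key (1, 0) (by decide) p
    have h9 := key (0, 1) (by decide) p
    linarith
  refine lt_of_le_of_lt h7 ?_
  rw [Finset.sum_const, nsmul_eq_mul]
  have h6 := card_mul_le hR0 (hδ n) h3.le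
  calc ((BX (mm R (δ n))).card : ℝ) * (6 * (ε / (12 * K)) * δ n ^ 2)
      = (((BX (mm R (δ n))).card : ℝ) * δ n ^ 2) * (ε / (2 * K)) := by field_simp; ring
    _ ≤ K * (ε / (2 * K)) := mul_le_mul_of_nonneg_right h6 (by positivity)
    _ = ε / 2 := by field_simp
    _ < ε := by linarith

end Crest.Agent.R144.Cw643
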