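import Crest.Agent.R144.Cw7_643

/-!
# R144 (helper643), CW block, file 8: the limit theorem for the covariances

**`cv_tendsto`**: `Two V`, `Spec V u L C`, `Near δ b (-Δψ)`, `Near δ a f`, mass zero
⟹ `CV V (s n) (b n) (t n) (a n) → (2 L/√3) ∫ ψ f`.
-/

set_option autoImplicit false

noncomputable section

namespace Crest.Agent.R144.Cw643

open Finset Filter Topology MeasureTheory
open Crest.Agent.R144.Tp952
open Crest.ProbabilityR.HexHeights (centre)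
open Crest.Agent.R144.HexTil353 Crest.Agent.R144.Geo268
open scoped Real ContDiff Laplacian

variable {V : ℤ × ℤ → ℝ} {u : ℝ × ℝ → ℝ} {L C : ℝ} {δ : ℕ → ℝ}

/-- a-priori bound for near families -/
theorem cv_self_le (hS : Spec V u L C) (hδ : ∀ n, 0 < δ n) (hδ0 : Tendsto δ atTop (𝓝 0))
    {R : ℝ} (hR0 : 0 ≤ R) {a : ℕ → ℤ × ℤ → ℝ} {A : ℝ} (hA : 0 ≤ A)
    (ha : ∀ᶠ n in atTop, ∀ v, |a n v| ≤ A * δ n ^ 2)
    (ha0 : ∀ᶠ n in atTop, Wt (BX (mm R (δ n))) (a n)) :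
    ∀ᶠ n in atTop, CV V (BX (mm R (δ n))) (a n) (BX (mm R (δ n))) (a n) ≤
      200 * C * (4 * R + 5) ^ 6 * A ^ 2 := by
  filter_upwards [ha, ha0, hδ0.eventually (gt_mem_nhds (show (0 : ℝ) < 1 / 10 by norm_num))]
    with n h1 h2 h3
  exact apriori hS h2.2 (hδ n) h3.le hA (mm_le hR0 (hδ n) (by linarith)) (by linarith)
    fun p _ => h1 p

/-- covariance with a negligible family -/
theorem cv_tendsto_zero (hV : Two V) (hS : Spec V u L C) (hδ : ∀ n, 0 < δ n)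
    (hδ0 : Tendsto δ atTop (𝓝 0)) {R : ℝ} (hR0 : 0 ≤ R) {x a : ℕ → ℤ × ℤ → ℝ} {A : ℝ} (hA : 0 ≤ A)
    (hx : ∀ ε > 0, ∀ᶠ n in atTop, ∀ v, |x n v| ≤ ε * δ n ^ 2)
    (ha : ∀ᶠ n in atTop, ∀ v, |a n v| ≤ A * δ n ^ 2)
    (hx0 : ∀ᶠ n in atTop, Wt (BX (mm R (δ n))) (x n))
    (ha0 : ∀ᶠ n in atTop, Wt (BX (mm R (δ n))) (a n)) :
    Tendsto (fun n => CV V (BX (mm R (δ n))) (x n) (BX (mm R (δ n))) (a n)) atTop (𝓝 0) := by
  have hC := hS.C_pos
  rw [Metric.tendsto_nhds]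
  intro ε hε
  set K : ℝ := 200 * C * (4 * R + 5) ^ 6 with hK
  have hKp : 0 < K := by positivity
  set η : ℝ := ε / (2 * K * (A + 1)) with hη
  have hηp : 0 < η := by positivity
  filter_upwards [cv_self_le hS hδ hδ0 hR0 hA ha ha0, cv_self_le hS hδ hδ0 hR0 hηp.le (hx η hηp) hx0,
    hx0, ha0] with n h1 h2 h3 h4
  have h5 := CV_cs hV h3.2 h4.2
  have h6 := CV_self_nonneg hV h4.2
  rw [Real.dist_eq, sub_zero]
  have h7 : CV V (BX (mm R (δ n))) (x n) (BX (mm R (δ n))) (a n) ^ 2 ≤ (K * η * A) ^ 2 := by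
    calc _ ≤ _ := h5
      _ ≤ (K * η ^ 2) * (K * A ^ 2) := mul_le_mul h2 h1 h6 (by positivity)
      _ = _ := by ring
  have h8 : |CV V (BX (mm R (δ n))) (x n) (BX (mm R (δ n))) (a n)| ≤ K * η * A :=
    abs_le_of_sq_le_sq h7 (by positivity)
  refine lt_of_le_of_lt h8 ?_
  have h9 : K * η * (A + 1) = ε / 2 := by rw [hη]; field_simp
  have h10 : K * η * A ≤ K * η * (A + 1) := mul_le_mul_of_nonneg_left (by linarith) (by positivity)
  linarith

theorem Dop_zero {s : Finset (ℤ × ℤ)} {φ : ℤ × ℤ → ℝ} (h : Sup7 s φ) {p : ℤ × ℤ} (hp : p ∉ s) :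
    Dop φ p = 0 := by
  unfold Dop
  rw [h.1 p hp, h.2 (1, 0) (by decide) p hp, h.2 (-1, 0) (by decide) p hp, h.2 (0, 1) (by decide) p hp,
    h.2 (0, -1) (by decide) p hp, h.2 (1, -1) (by decide) p hp, h.2 (-1, 1) (by decide) p hp]
  ring

theorem sum_sq_le {s : Finset (ℤ × ℤ)} {f : ℤ × ℤ → ℝ} {A : ℝ} (h : ∀ p, |f p| ≤ A) :
    ∑ p ∈ s, f p ^ 2 ≤ s.card * A ^ 2 := by
  rw [← nsmul_eq_mul, ← Finset.sum_const]
  refine Finset.sum_le_sum fun p _ => ?_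
  rw [← sq_abs]
  exact pow_le_pow_left₀ (abs_nonneg _) (h p) 2

theorem continuous_dirD {ψ : ℂ → ℝ} (hψ : ContDiff ℝ ∞ ψ) (e : ℂ) : Continuous (dirD 2 ψ e) := by
  have h1 : Continuous (iteratedFDeriv ℝ 2 ψ) := hψ.continuous_iteratedFDeriv (m := 2)
    (WithTop.coe_le_coe.2 (le_top : ((2 : ℕ) : ℕ∞) ≤ ⊤))
  exact (ContinuousMultilinearMap.apply ℝ (fun _ : Fin 2 => ℂ) ℝ (fun _ => e)).continuous.comp h1

theorem continuous_lap {ψ : ℂ → ℝ} (hψ : ContDiff ℝ ∞ ψ) : Continuous (Δ ψ) := by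
  have : (Δ ψ) = fun z => dirD 2 ψ 1 z + dirD 2 ψ Complex.I z := funext fun z => laplacian_eq ψ z
  rw [this]
  exact (continuous_dirD hψ _).add (continuous_dirD hψ _)

theorem hasCompactSupport_lap {ψ : ℂ → ℝ} (hc : HasCompactSupport ψ) : HasCompactSupport (Δ ψ) := by
  have : (Δ ψ) = fun z => dirD 2 ψ 1 z + dirD 2 ψ Complex.I z := funext fun z => laplacian_eq ψ z
  rw [this]
  have h1 : HasCompactSupport (iteratedFDeriv ℝ 2 ψ) := hc.iteratedFDeriv 2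
  have h2 : ∀ e : ℂ, HasCompactSupport (dirD 2 ψ e) := fun e =>
    h1.comp_left (g := fun (M : ContinuousMultilinearMap ℝ (fun _ : Fin 2 => ℂ) ℝ) => M (fun _ => e)) rfl
  exact (h2 _).add (h2 _)

set_option maxHeartbeats 1600000 in
/-- the limit for the lattice Laplacian of a sampled function -/
theorem cv_Dop_tendsto (hV : Two V) (hS : Spec V u L C) (hδ : ∀ n, 0 < δ n)
    (hδ0 : Tendsto δ atTop (𝓝 0)) {ψ f : ℂ → ℝ} (hψ : ContDiff ℝ ∞ ψ) (hψc : HasCompactSupport ψ)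
    (hf : Continuous f) (hfc : HasCompactSupport f) {a : ℕ → ℤ × ℤ → ℝ} (ha : Near δ a f)
    {R : ℝ} (hR0 : 0 ≤ R) (hRψ : ∀ z, ψ z ≠ 0 → ‖z‖ ≤ R)
    (hRD : ∀ᶠ n in atTop, ∀ v, Dop (fun v => ψ (centre (δ n) v)) v ≠ 0 → ‖centre (δ n) v‖ ≤ R)
    (hRa : ∀ᶠ n in atTop, ∀ v, a n v ≠ 0 → ‖centre (δ n) v‖ ≤ R)
    (ha0 : ∀ᶠ n in atTop, ∑ p ∈ BX (mm R (δ n)), a n p = 0) :
    Tendsto (fun n => CV V (BX (mm R (δ n))) (Dop fun v => ψ (centre (δ n) v)) (BX (mm R (δ n))) (a n))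
      atTop (𝓝 (2 * L / Real.sqrt 3 * ∫ z, ψ z * f z)) := by
  have hC := hS.C_pos
  have hL := hS.L_nonneg
  have hπ := Real.pi_pos
  have hsum := sum_tendsto hδ hδ0 hψ.continuous hψc hf ha hR0 hRψ
  have hmain : Tendsto (fun n => CV V (BX (mm R (δ n))) (Dop fun v => ψ (centre (δ n) v))
      (BX (mm R (δ n))) (a n) - 2 * L / Real.sqrt 3 *
        ∑ p ∈ BX (mm R (δ n)), ψ (centre (δ n) p) * a n p) atTop (𝓝 0) := by
    obtain ⟨A1, hA1⟩ := hψ.continuous.bounded_above_of_compact_support hψc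
    have hA1' : ∀ z, |ψ z| ≤ A1 := fun z => by rw [← Real.norm_eq_abs]; exact hA1 z
    have hA10 : 0 ≤ A1 := (norm_nonneg _).trans (hA1 0)
    obtain ⟨A2, hA2⟩ := hf.bounded_above_of_compact_support hfc
    have hA2' : ∀ z, |f z| ≤ A2 := fun z => by rw [← Real.norm_eq_abs]; exact hA2 z
    have hA20 : 0 ≤ A2 := (norm_nonneg _).trans (hA2 0)
    have hND := near_Dop hδ hδ0 hψ hψc
    have hΔc : Continuous (fun z => -(Δ ψ) z) := (continuous_lap hψ).neg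
    have hΔs : HasCompactSupport (fun z => -(Δ ψ) z) := (hasCompactSupport_lap hψc).neg
    obtain ⟨A3, hA3⟩ := hΔc.bounded_above_of_compact_support hΔs
    have hA3' : ∀ z, |(-(Δ ψ) z)| ≤ A3 := fun z => by rw [← Real.norm_eq_abs]; exact hA3 z
    have hA30 : 0 ≤ A3 := (norm_nonneg _).trans (hA3 0)
    have hUf := hfc.uniformContinuous_of_continuous hf
    have hUΔ := hΔs.uniformContinuous_of_continuous hΔc
    have htv1 := tv_tendsto hδ hδ0 hUf ha hR0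
    have htv2 := tv_tendsto hδ hδ0 hUΔ hND hR0
    rw [Metric.tendsto_nhds]
    intro ε hε
    set K := (4 * R + 5) ^ 2 with hK
    have hKp : 0 < K := by positivity
    -- parameters
    set Q1 : ℝ := K * (A1 ^ 2 + (A2 + 1) ^ 2) + 1 with hQ1
    set Q2 : ℝ := π ^ 2 * (C + L) * (K * ((A3 + 1) ^ 2 + (A2 + 1) ^ 2)) with hQ2
    have hQ1p : 0 < Q1 := by positivity
    have hQ2p : 0 ≤ Q2 := by positivity
    set η : ℝ := ε / (2 * Q1) with hη
    have hηp : 0 < η := by positivity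
    obtain ⟨Λ, hΛ1, hΛ2⟩ : ∃ Λ : ℝ, 0 < Λ ∧ Q2 / Λ ^ 2 ≤ ε / 4 := by
      refine ⟨Real.sqrt (4 * (Q2 + 1) / ε), by positivity, ?_⟩
      rw [Real.sq_sqrt (by positivity), div_div_eq_mul_div, div_le_iff₀ (by positivity)]
      nlinarith
    set κ : ℝ := 3 * π ^ 2 / (4 * (1 / 10) ^ 2) with hκ
    have hκp : 0 < κ := by positivity
    have hE := tendsto_Es_mul hS.nonneg hS.bound hS.lim
    rw [Metric.tendsto_nhds] at hE
    have hE1 := hE η hηp
    rw [eventually_nhdsWithin_iff, Metric.eventually_nhds_iff] at hE1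
    obtain ⟨d, hd, hd'⟩ := hE1
    have htv : Tendsto (fun n => 2 * C / (1 / 10) ^ 2 *
        (κ * (tv (BX (mm R (δ n))) (a n) + tv (BX (mm R (δ n))) (Dop fun v => ψ (centre (δ n) v))) ^ 2))
        atTop (𝓝 0) := by
      have := (((htv1.add htv2).pow 2).const_mul κ).const_mul (2 * C / (1 / 10) ^ 2)
      simpa using this
    filter_upwards [htv.eventually (gt_mem_nhds (show (0 : ℝ) < ε / 4 by positivity)),
      hδ0.eventually (gt_mem_nhds (show (0 : ℝ) < 1 by norm_num)),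
      hδ0.eventually (gt_mem_nhds (show (0 : ℝ) < 1 / (10 * Λ) by positivity)),
      hδ0.eventually (gt_mem_nhds (show (0 : ℝ) < d / (4 * Λ) by positivity)),
      hRD, hRa, ha0, ha.bdd hA2', hND.bdd hA3'] with n e1 e2 e3 e4 e5 e6 e7 e8 e9
    rw [Real.dist_eq, sub_zero]
    have hδn := hδ n
    set S := BX (mm R (δ n)) with hSd
    have hS7 : Sup7 S (fun v => ψ (centre (δ n) v)) := sup7_of_norm hδn fun p hp => hRψ _ hp
    have hS7a : Sup7 S (a n) := sup7_of_norm hδn e6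
    have hS7D : Sup7 S (Dop fun v => ψ (centre (δ n) v)) := sup7_of_norm hδn e5
    have htva := tv_nonneg S (a n)
    have htvD := tv_nonneg S (Dop fun v => ψ (centre (δ n) v))
    have hρ : Λ * δ n ≤ 1 / 10 := by
      rw [lt_div_iff₀ (by positivity)] at e3
      nlinarith
    have h1 := main_est hS hV.neg hS7 e7 (r := 1 / 10) (ρ := Λ * δ n) (η := η) (t := δ n ^ 2)
      (M := κ * (tv S (a n) + tv S (Dop fun v => ψ (centre (δ n) v))) ^ 2)
      (by norm_num) le_rfl (by positivity) hρ hηp.le (by positivity)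
      (fun k1 k2 a1 a2 a3 => (outer_le hS7D a1 a2 (by norm_num) a3).trans
        (mul_le_mul_of_nonneg_left (pow_le_pow_left₀ htvD (by linarith) 2) hκp.le))
      (fun k1 k2 a1 a2 a3 => (outer_le hS7a a1 a2 (by norm_num) a3).trans
        (mul_le_mul_of_nonneg_left (pow_le_pow_left₀ htva (by linarith) 2) hκp.le))
      (by
        intro k hk0 hk
        have h2 := abs_le_of_mem_BB (r := Λ * δ n) (by positivity) hk
        have h3 : dist k 0 < d := by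
          rw [dist_zero_right, Prod.norm_def, max_lt_iff, Real.norm_eq_abs, Real.norm_eq_abs]
          have h4 : 2 * (Λ * δ n) < d := by
            rw [lt_div_iff₀ (by positivity)] at e4
            nlinarith
          exact ⟨lt_of_le_of_lt h2.1 h4, lt_of_le_of_lt h2.2 h4⟩
        have h5 := hd' h3 hk0
        rw [Real.dist_eq] at h5
        exact h5.le)
    refine lt_of_le_of_lt h1 ?_
    have hcard := card_mul_le hR0 hδn e2.le
    rw [← hSd] at hcard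
    have s1 : δ n ^ 2 * ∑ p ∈ S, ψ (centre (δ n) p) ^ 2 ≤ K * A1 ^ 2 := by
      calc δ n ^ 2 * ∑ p ∈ S, ψ (centre (δ n) p) ^ 2 ≤ δ n ^ 2 * (S.card * A1 ^ 2) :=
            mul_le_mul_of_nonneg_left (sum_sq_le fun p => hA1' _) (sq_nonneg _)
        _ = (S.card * δ n ^ 2) * A1 ^ 2 := by ring
        _ ≤ K * A1 ^ 2 := mul_le_mul_of_nonneg_right hcard (sq_nonneg _)
    have s2 : ∑ p ∈ S, a n p ^ 2 ≤ K * (A2 + 1) ^ 2 * δ n ^ 2 := by
      calc ∑ p ∈ S, a n p ^ 2 ≤ S.card * ((A2 + 1) * δ n ^ 2) ^ 2 := sum_sq_le e8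
        _ = (S.card * δ n ^ 2) * ((A2 + 1) ^ 2 * δ n ^ 2) := by ring
        _ ≤ K * ((A2 + 1) ^ 2 * δ n ^ 2) := mul_le_mul_of_nonneg_right hcard (by positivity)
        _ = _ := by ring
    have s3 : ∑ p ∈ S, Dop (fun v => ψ (centre (δ n) v)) p ^ 2 ≤ K * (A3 + 1) ^ 2 * δ n ^ 2 := by
      calc ∑ p ∈ S, Dop (fun v => ψ (centre (δ n) v)) p ^ 2 ≤ S.card * ((A3 + 1) * δ n ^ 2) ^ 2 :=
            sum_sq_le e9
        _ = (S.card * δ n ^ 2) * ((A3 + 1) ^ 2 * δ n ^ 2) := by ring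
        _ ≤ K * ((A3 + 1) ^ 2 * δ n ^ 2) := mul_le_mul_of_nonneg_right hcard (by positivity)
        _ = _ := by ring
    have s4 : η / 2 * (δ n ^ 2 * ∑ p ∈ S, ψ (centre (δ n) p) ^ 2 + (∑ p ∈ S, a n p ^ 2) / δ n ^ 2) ≤
        ε / 4 := by
      have s5 : (∑ p ∈ S, a n p ^ 2) / δ n ^ 2 ≤ K * (A2 + 1) ^ 2 := by
        rw [div_le_iff₀ (by positivity)]; exact s2
      calc _ ≤ η / 2 * (K * A1 ^ 2 + K * (A2 + 1) ^ 2) :=
            mul_le_mul_of_nonneg_left (add_le_add s1 s5) (by positivity)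
        _ ≤ η / 2 * Q1 := mul_le_mul_of_nonneg_left (by rw [hQ1]; linarith) (by positivity)
        _ = ε / 4 := by rw [hη]; field_simp; norm_num
    have s6 : π ^ 2 * (C + L) / (Λ * δ n) ^ 2 *
        (∑ p ∈ S, Dop (fun v => ψ (centre (δ n) v)) p ^ 2 + ∑ p ∈ S, a n p ^ 2) ≤ ε / 4 := by
      calc _ ≤ π ^ 2 * (C + L) / (Λ * δ n) ^ 2 *
            (K * (A3 + 1) ^ 2 * δ n ^ 2 + K * (A2 + 1) ^ 2 * δ n ^ 2) :=
            mul_le_mul_of_nonneg_left (add_le_add s3 s2) (by positivity)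
        _ = Q2 / Λ ^ 2 := by rw [hQ2]; field_simp
        _ ≤ ε / 4 := hΛ2
    linarith
  have := hmain.add (hsum.const_mul (2 * L / Real.sqrt 3))
  rw [zero_add] at this
  refine this.congr fun n => by ring

end Crest.Agent.R144.Cw643
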