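import Crest.Agent.R144.Cw8_643

/-!
# R144 (helper643), CW block, file 9: `cv_tendsto`, Ward corollary, variances
-/

set_option autoImplicit false

noncomputable section

namespace Crest.Agent.R144.Cw643

open Finset Filter Topology MeasureTheory
open Crest.Agent.R144.Tp952
open Crest.ProbabilityR.HexHeights (centre)
open Crest.Agent.R144.HexTil353 Crest.Agent.R144.Geo268
open scoped Real ContDiff Laplacian

variable {V : ℤ × ℤ → ℝ} {u : ℝ × ℝ → ℝ} {L C : ℝ} {δ : ℕ → ℝ}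

/-- **limit of the covariances** -/
theorem cv_tendsto (hV : Two V) (hS : Spec V u L C) (hδ : ∀ n, 0 < δ n)
    (hδ0 : Tendsto δ atTop (𝓝 0)) {ψ f : ℂ → ℝ} (hψ : ContDiff ℝ ∞ ψ) (hψc : HasCompactSupport ψ)
    (hf : Continuous f) (hfc : HasCompactSupport f) {b a : ℕ → ℤ × ℤ → ℝ}
    (hb : Near δ b (fun z => -(Δ ψ) z)) (ha : Near δ a f) {s t : ℕ → Finset (ℤ × ℤ)}
    (hs : ∀ᶠ n in atTop, Wt (s n) (b n)) (ht : ∀ᶠ n in atTop, Wt (t n) (a n)) :
    Tendsto (fun n => CV V (s n) (b n) (t n) (a n)) atTop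
      (𝓝 (2 * L / Real.sqrt 3 * ∫ z, ψ z * f z)) := by
  have hND := near_Dop hδ hδ0 hψ hψc
  obtain ⟨Rb, hRb⟩ := hb.supp
  obtain ⟨Ra, hRa⟩ := ha.supp
  obtain ⟨RD, hRD⟩ := hND.supp
  obtain ⟨Rψ, hRψ⟩ := hψc.isBounded.exists_norm_le
  have hRψ' : ∀ z, ψ z ≠ 0 → ‖z‖ ≤ Rψ := fun z hz => hRψ z (subset_tsupport _ hz)
  set R : ℝ := |Rb| + |Ra| + |RD| + |Rψ| with hR
  have hR0 : 0 ≤ R := by positivity
  have r1 : Rb ≤ R := by
    have := le_abs_self Rb; have := abs_nonneg Ra; have := abs_nonneg RD; have := abs_nonneg Rψ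
    linarith
  have r2 : Ra ≤ R := by
    have := abs_nonneg Rb; have := le_abs_self Ra; have := abs_nonneg RD; have := abs_nonneg Rψ
    linarith
  have r3 : RD ≤ R := by
    have := abs_nonneg Rb; have := abs_nonneg Ra; have := le_abs_self RD; have := abs_nonneg Rψ
    linarith
  have r4 : Rψ ≤ R := by
    have := abs_nonneg Rb; have := abs_nonneg Ra; have := abs_nonneg RD; have := le_abs_self Rψ
    linarith
  have hRb' : ∀ᶠ n in atTop, ∀ v, b n v ≠ 0 → ‖centre (δ n) v‖ ≤ R :=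
    hRb.mono fun n h v hv => (h v hv).trans r1
  have hRa' : ∀ᶠ n in atTop, ∀ v, a n v ≠ 0 → ‖centre (δ n) v‖ ≤ R :=
    hRa.mono fun n h v hv => (h v hv).trans r2
  have hRD' : ∀ᶠ n in atTop, ∀ v, Dop (fun v => ψ (centre (δ n) v)) v ≠ 0 → ‖centre (δ n) v‖ ≤ R :=
    hRD.mono fun n h v hv => (h v hv).trans r3
  have hRψ'' : ∀ z, ψ z ≠ 0 → ‖z‖ ≤ R := fun z hz => (hRψ' z hz).trans r4
  have wb : ∀ᶠ n in atTop, Wt (BX (mm R (δ n))) (b n) := by
    filter_upwards [hs, hRb'] with n h1 h2 using h1.sum_eq (sup7_of_norm (hδ n) h2).1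
  have wa : ∀ᶠ n in atTop, Wt (BX (mm R (δ n))) (a n) := by
    filter_upwards [ht, hRa'] with n h1 h2 using h1.sum_eq (sup7_of_norm (hδ n) h2).1
  have wD : ∀ᶠ n in atTop, Wt (BX (mm R (δ n))) (Dop fun v => ψ (centre (δ n) v)) := by
    refine Eventually.of_forall fun n => ?_
    have h7 : Sup7 (BX (mm R (δ n))) (fun v => ψ (centre (δ n) v)) :=
      sup7_of_norm (hδ n) fun p hp => hRψ'' _ hp
    exact ⟨fun p hp => Dop_zero h7 hp, sum_Dop h7⟩
  obtain ⟨A2, hA2⟩ := hf.bounded_above_of_compact_support hfc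
  have hA2' : ∀ z, |f z| ≤ A2 := fun z => by rw [← Real.norm_eq_abs]; exact hA2 z
  have hA20 : 0 ≤ A2 := (norm_nonneg _).trans (hA2 0)
  have hx : Near δ (fun n v => b n v - Dop (fun v => ψ (centre (δ n) v)) v) (fun _ => 0) :=
    (hb.sub hND).congr fun z => sub_self _
  have h1 := cv_tendsto_zero hV hS hδ hδ0 hR0 (x := fun n v => b n v - Dop (fun v => ψ (centre (δ n) v)) v)
    (a := a) (A := A2 + 1) (by linarith)
    (fun ε hε => by
      filter_upwards [hx.near ε hε] with n h v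
      have := h v
      rwa [mul_zero, sub_zero] at this)
    (ha.bdd hA2')
    (by
      filter_upwards [wb, wD] with n h1 h2
      exact ⟨fun p hp => by beta_reduce; rw [h1.1 p hp, h2.1 p hp, sub_zero],
        by rw [Finset.sum_sub_distrib, h1.2, h2.2, sub_zero]⟩) wa
  have h2 := cv_Dop_tendsto hV hS hδ hδ0 hψ hψc hf hfc ha hR0 hRψ'' hRD' hRa' (wa.mono fun n h => h.2)
  have h3 := h1.add h2
  rw [zero_add] at h3
  refine h3.congr' ?_
  filter_upwards [hs, ht, wb, wa] with n h4 h5 h6 h7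
  rw [CV_sub_left, sub_add_cancel]
  exact CV_eq_of_supp V h6.1 h4.1 h7.1 h5.1

/-- **Ward identity, second moments**: `ψ f = 0` (e.g. disjoint supports) -/
theorem ward_tendsto (hV : Two V) (hS : Spec V u L C) (hδ : ∀ n, 0 < δ n)
    (hδ0 : Tendsto δ atTop (𝓝 0)) {ψ f : ℂ → ℝ} (hψ : ContDiff ℝ ∞ ψ) (hψc : HasCompactSupport ψ)
    (hf : Continuous f) (hfc : HasCompactSupport f) (h0 : ∀ z, ψ z * f z = 0) {b a : ℕ → ℤ × ℤ → ℝ}
    (hb : Near δ b (fun z => -(Δ ψ) z)) (ha : Near δ a f) {s t : ℕ → Finset (ℤ × ℤ)}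
    (hs : ∀ᶠ n in atTop, Wt (s n) (b n)) (ht : ∀ᶠ n in atTop, Wt (t n) (a n)) :
    Tendsto (fun n => CV V (s n) (b n) (t n) (a n)) atTop (𝓝 0) := by
  have := cv_tendsto hV hS hδ hδ0 hψ hψc hf hfc hb ha hs ht
  simpa only [h0, integral_zero, mul_zero] using this

/-- a-priori bound of the variances: `Near δ a f`, mass zero ⟹ the variances stay bounded -/
theorem cv_bdd (hS : Spec V u L C) (hδ : ∀ n, 0 < δ n) (hδ0 : Tendsto δ atTop (𝓝 0))
    {f : ℂ → ℝ} {A R : ℝ} (hA : 0 ≤ A) (hfA : ∀ z, |f z| ≤ A) (hR : 0 ≤ R)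
    {a : ℕ → ℤ × ℤ → ℝ} (ha : Near δ a f)
    (hRa : ∀ᶠ n in atTop, ∀ v, a n v ≠ 0 → ‖centre (δ n) v‖ ≤ R) {t : ℕ → Finset (ℤ × ℤ)}
    (ht : ∀ᶠ n in atTop, Wt (t n) (a n)) :
    ∀ᶠ n in atTop, CV V (t n) (a n) (t n) (a n) ≤ 200 * C * (4 * R + 5) ^ 6 * (A + 1) ^ 2 := by
  have wa : ∀ᶠ n in atTop, Wt (BX (mm R (δ n))) (a n) := by
    filter_upwards [ht, hRa] with n h1 h2 using h1.sum_eq (sup7_of_norm (hδ n) h2).1
  filter_upwards [cv_self_le hS hδ hδ0 hR (by linarith : (0 : ℝ) ≤ A + 1) (ha.bdd hfA) wa, wa, ht]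
    with n h1 h2 h3
  rwa [CV_eq_of_supp V h3.1 h2.1 h3.1 h2.1]

end Crest.Agent.R144.Cw643
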