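import Mathlib

/-!
# R144 (helper136), block D1 (DOM), file 1: means of asymptotically Gaussian variables

`mean_tendsto_zero`: if `∫ cos (t X n) → exp (- s t² / 2)`, `∫ sin (t X n) → 0` for every `t`, and the
variances of the `X n` are bounded, then `∫ X n → 0` (no symmetry, no a priori bound on the means).
-/

set_option autoImplicit false

noncomputable section

namespace Crest.Agent.R144.Dom136

open MeasureTheory Filter Topology Set

/-! ### elementary inequalities -/

theorem abs_cos_sub_cos_le (a b : ℝ) : |Real.cos a - Real.cos b| ≤ |a - b| := by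
  rw [Real.cos_sub_cos]
  have h1 : |Real.sin ((a + b) / 2)| ≤ 1 := Real.abs_sin_le_one _
  have h2 : |Real.sin ((a - b) / 2)| ≤ |(a - b) / 2| := Real.abs_sin_le_abs
  rw [abs_mul, abs_mul, abs_neg]
  have e2 : |(2 : ℝ)| = 2 := abs_of_pos two_pos
  have e3 : |(a - b) / 2| = |a - b| / 2 := by rw [abs_div, e2]
  rw [e2]
  rw [e3] at h2
  have h3 : |Real.sin ((a + b) / 2)| * |Real.sin ((a - b) / 2)| ≤ 1 * (|a - b| / 2) :=
    mul_le_mul h1 h2 (abs_nonneg _) zero_le_one
  have h4 : 2 * |Real.sin ((a + b) / 2)| * |Real.sin ((a - b) / 2)| =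
      2 * (|Real.sin ((a + b) / 2)| * |Real.sin ((a - b) / 2)|) := by ring
  rw [h4]
  linarith

theorem one_sub_cos_le (y : ℝ) : 1 - Real.cos y ≤ y ^ 2 / 2 := by
  have := Real.one_sub_sq_div_two_le_cos (x := y)
  linarith

/-- `|y - sin y| ≤ y ^ 2` -/
theorem abs_sub_sin_le (y : ℝ) : |y - Real.sin y| ≤ y ^ 2 := by
  rcases le_or_gt |y| 1 with h | h
  · -- small y : |y - sin y| ≤ |y|^3/4 ≤ y^2
    have key : ∀ z : ℝ, 0 ≤ z → z ≤ 1 → |z - Real.sin z| ≤ z ^ 2 := by
      intro z hz0 hz1
      rcases hz0.eq_or_lt with rfl | hz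
      · simp
      · have h1 : z - z ^ 3 / 6 < Real.sin z := Real.sin_gt_sub_cube hz
        have h2 : Real.sin z ≤ z := Real.sin_le hz.le
        rw [abs_of_nonneg (by linarith)]
        nlinarith [pow_pos hz 2, pow_pos hz 3]
    rcases le_total 0 y with hy | hy
    · exact key y hy (by rwa [abs_of_nonneg hy] at h)
    · have h3 := key (-y) (by linarith) (by rwa [abs_of_nonpos hy] at h)
      rw [Real.sin_neg] at h3
      have e : -y - -Real.sin y = -(y - Real.sin y) := by ring
      rw [e, abs_neg] at h3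
      nlinarith
  · have h1 : |Real.sin y| ≤ 1 := Real.abs_sin_le_one y
    have hy2 : 1 < y ^ 2 := by
      rw [← sq_abs]; nlinarith
    have h2 : |y - Real.sin y| ≤ |y| + |Real.sin y| := abs_sub _ _
    rcases le_or_gt 2 |y| with h5 | h5
    · have : |y| + 1 ≤ y ^ 2 := by rw [← sq_abs]; nlinarith
      linarith
    · -- 1 < |y| < 2 : |y - sin y| ≤ |y| (same signs) ≤ y^2
      have hs : ∀ z : ℝ, 1 < z → z < 2 → |z - Real.sin z| ≤ z ^ 2 := by
        intro z h1z h2z
        have h6 : 0 < Real.sin z := Real.sin_pos_of_pos_of_lt_pi (by linarith)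
          (by have := Real.pi_gt_three; linarith)
        have h7 : Real.sin z ≤ z := Real.sin_le (by linarith)
        rw [abs_of_nonneg (by linarith)]
        nlinarith
      rcases le_total 0 y with hy | hy
      · rw [abs_of_nonneg hy] at h h5
        exact hs y h h5
      · rw [abs_of_nonpos hy] at h h5
        have h3 := hs (-y) h h5
        rw [Real.sin_neg] at h3
        have e : -y - -Real.sin y = -(y - Real.sin y) := by ring
        rw [e, abs_neg] at h3
        nlinarith

/-! ### bounded means -/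

theorem integral_cos_le {T m : ℝ} (hm : m ≠ 0) :
    |∫ t in (0 : ℝ)..T, Real.cos (t * m)| ≤ 1 / |m| := by
  have h1 : (∫ t in (0 : ℝ)..T, Real.cos (t * m)) = m⁻¹ * (Real.sin (T * m) - Real.sin (0 * m)) := by
    rw [intervalIntegral.integral_comp_mul_right (fun t => Real.cos t) hm, integral_cos, smul_eq_mul]
  rw [h1, zero_mul, Real.sin_zero, sub_zero, abs_mul, abs_inv, one_div]
  have := Real.abs_sin_le_one (T * m)
  exact mul_le_of_le_one_right (by positivity) this

variable {Ω : ℕ → Type*} [∀ n, MeasurableSpace (Ω n)] {ν : ∀ n, Measure (Ω n)}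

/-- the means are bounded -/
theorem exists_mean_bound (hν : ∀ n, IsProbabilityMeasure (ν n)) {X : ∀ n, Ω n → ℝ}
    (hX : ∀ n, MemLp (X n) 2 (ν n)) {C s : ℝ}
    (hC : ∀ᶠ n in atTop, ∫ o, (X n o - ∫ o, X n o ∂(ν n)) ^ 2 ∂(ν n) ≤ C)
    (hcos : ∀ t : ℝ, Tendsto (fun n => ∫ o, Real.cos (t * X n o) ∂(ν n)) atTop
      (𝓝 (Real.exp (-(s * t ^ 2 / 2))))) :
    ∃ R : ℝ, ∀ᶠ n in atTop, |∫ o, X n o ∂(ν n)| ≤ R := by
  classical
  set m : ℕ → ℝ := fun n => ∫ o, X n o ∂(ν n) with hm
  have hXi : ∀ n, Integrable (X n) (ν n) := fun n => by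
    have := hν n
    exact (hX n).integrable one_le_two
  have hXm : ∀ n, AEStronglyMeasurable (X n) (ν n) := fun n => (hX n).aestronglyMeasurable
  -- constants
  set C' : ℝ := max C 0 with hC'
  have hC'0 : 0 ≤ C' := le_max_right _ _
  set B : ℝ := Real.sqrt C' with hB
  have hB0 : 0 ≤ B := Real.sqrt_nonneg _
  -- first absolute moment
  have hL1 : ∀ᶠ n in atTop, ∫ o, |X n o - m n| ∂(ν n) ≤ B := by
    filter_upwards [hC] with n hn
    have := hν n
    have hY : MemLp (fun o => X n o - m n) 2 (ν n) := (hX n).sub (memLp_const _)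
    have h1 : (∫ o, |X n o - m n| ∂(ν n)) ^ 2 ≤ ∫ o, |X n o - m n| ^ 2 ∂(ν n) := by
      have h2 := ProbabilityTheory.variance_nonneg (fun o => |X n o - m n|) (ν n)
      rw [ProbabilityTheory.variance_eq_sub (by exact hY.abs)] at h2
      simp only [Pi.pow_apply] at h2
      linarith
    have h3 : ∫ o, |X n o - m n| ^ 2 ∂(ν n) = ∫ o, (X n o - m n) ^ 2 ∂(ν n) := by
      simp only [sq_abs]
    rw [h3] at h1
    have h4 : 0 ≤ ∫ o, |X n o - m n| ∂(ν n) := integral_nonneg fun o => abs_nonneg _
    rw [hB]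
    refine Real.le_sqrt_of_sq_le ?_
    exact h1.trans (hn.trans (le_max_left _ _))
  -- comparison of the characteristic function with that of the mean
  have hcmp : ∀ᶠ n in atTop, ∀ t : ℝ, |(∫ o, Real.cos (t * X n o) ∂(ν n)) - Real.cos (t * m n)| ≤
      |t| * B := by
    filter_upwards [hL1] with n hn t
    have := hν n
    have hci : Integrable (fun o => Real.cos (t * X n o)) (ν n) := by
      refine Integrable.of_bound (C := 1) ?_ (Eventually.of_forall fun o => ?_)
      · exact Real.continuous_cos.comp_aestronglyMeasurable ((hXm n).const_mul t)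
      · rw [Real.norm_eq_abs]; exact Real.abs_cos_le_one _
    have h1 : (∫ o, Real.cos (t * X n o) ∂(ν n)) - Real.cos (t * m n) =
        ∫ o, (Real.cos (t * X n o) - Real.cos (t * m n)) ∂(ν n) := by
      rw [integral_sub hci (integrable_const _), integral_const]
      simp
    rw [h1]
    calc |∫ o, (Real.cos (t * X n o) - Real.cos (t * m n)) ∂(ν n)|
        ≤ ∫ o, |Real.cos (t * X n o) - Real.cos (t * m n)| ∂(ν n) := abs_integral_le_integral_abs
      _ ≤ ∫ o, |t| * |X n o - m n| ∂(ν n) := by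
          refine integral_mono ((hci.sub (integrable_const _)).abs)
            ((((hXi n).sub (integrable_const _)).abs).const_mul _) fun o => ?_
          refine (abs_cos_sub_cos_le _ _).trans (le_of_eq ?_)
          rw [← mul_sub, abs_mul]
      _ = |t| * ∫ o, |X n o - m n| ∂(ν n) := integral_const_mul _ _
      _ ≤ |t| * B := mul_le_mul_of_nonneg_left hn (abs_nonneg _)
  -- choose T
  set T : ℝ := min 1 (1 / (4 * (B + |s| + 1))) with hT
  have hden : 0 < 4 * (B + |s| + 1) := by positivity
  have hT0 : 0 < T := lt_min one_pos (by positivity)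
  have hT1 : T ≤ 1 := min_le_left _ _
  have hT2 : T * (4 * (B + |s| + 1)) ≤ 1 := by
    have := min_le_right (1 : ℝ) (1 / (4 * (B + |s| + 1)))
    calc T * (4 * (B + |s| + 1)) ≤ 1 / (4 * (B + |s| + 1)) * (4 * (B + |s| + 1)) :=
          mul_le_mul_of_nonneg_right this hden.le
      _ = 1 := by field_simp
  -- the integrated characteristic functions
  have hlim : Tendsto (fun n => ∫ t in (0 : ℝ)..T, ∫ o, Real.cos (t * X n o) ∂(ν n)) atTop
      (𝓝 (∫ t in (0 : ℝ)..T, Real.exp (-(s * t ^ 2 / 2)))) := by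
    refine intervalIntegral.tendsto_integral_filter_of_dominated_convergence (fun _ => (1 : ℝ)) ?_ ?_ ?_ ?_
    · refine Eventually.of_forall fun n => ?_
      have := hν n
      refine Continuous.aestronglyMeasurable ?_
      refine continuous_of_dominated (bound := fun _ => (1 : ℝ)) (fun t => ?_) (fun t => ?_)
        (integrable_const _) ?_
      · exact Real.continuous_cos.comp_aestronglyMeasurable ((hXm n).const_mul t)
      · exact Eventually.of_forall fun o => by
          rw [Real.norm_eq_abs]; exact Real.abs_cos_le_one _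
      · exact Eventually.of_forall fun o => by fun_prop
    · refine Eventually.of_forall fun n => Eventually.of_forall fun t _ => ?_
      have := hν n
      rw [Real.norm_eq_abs]
      refine (abs_integral_le_integral_abs).trans ?_
      calc ∫ o, |Real.cos (t * X n o)| ∂(ν n) ≤ ∫ _, (1 : ℝ) ∂(ν n) := by
            refine integral_mono_of_nonneg (Eventually.of_forall fun o => abs_nonneg _)
              (integrable_const _) (Eventually.of_forall fun o => Real.abs_cos_le_one _)
        _ = 1 := by simp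
    · exact intervalIntegrable_const
    · exact Eventually.of_forall fun t _ => hcos t
  have hlow : 3 / 4 * T ≤ ∫ t in (0 : ℝ)..T, Real.exp (-(s * t ^ 2 / 2)) := by
    have h1 : ∫ _ in (0 : ℝ)..T, (3 / 4 : ℝ) = 3 / 4 * T := by
      rw [intervalIntegral.integral_const, smul_eq_mul]; ring
    rw [← h1]
    refine intervalIntegral.integral_mono_on hT0.le intervalIntegrable_const
      (Continuous.intervalIntegrable (by fun_prop) _ _) fun t ht => ?_
    have h2 : -(s * t ^ 2 / 2) + 1 ≤ Real.exp (-(s * t ^ 2 / 2)) := Real.add_one_le_exp _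
    have ht0 := ht.1
    have ht1 := ht.2
    have h3 : s * t ^ 2 ≤ |s| * T := by
      have h4 : t ^ 2 ≤ T := by nlinarith
      calc s * t ^ 2 ≤ |s| * t ^ 2 := mul_le_mul_of_nonneg_right (le_abs_self s) (sq_nonneg _)
        _ ≤ |s| * T := mul_le_mul_of_nonneg_left h4 (abs_nonneg _)
    have h5 : |s| * T ≤ 1 / 4 := by nlinarith [abs_nonneg s]
    linarith
  have hev : ∀ᶠ n in atTop, T / 2 ≤ ∫ t in (0 : ℝ)..T, ∫ o, Real.cos (t * X n o) ∂(ν n) := by
    refine (hlim.eventually (lt_mem_nhds (a := T / 2) ?_)).mono fun n hn => hn.le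
    have : T / 2 < 3 / 4 * T := by linarith
    exact this.trans_le hlow
  refine ⟨4 / T, ?_⟩
  filter_upwards [hcmp, hev] with n h1 h2
  have := hν n
  show |m n| ≤ 4 / T
  by_cases hm0 : m n = 0
  · rw [hm0, abs_zero]; positivity
  have hmp : 0 < |m n| := abs_pos.2 hm0
  have hcont : Continuous fun t : ℝ => ∫ o, Real.cos (t * X n o) ∂(ν n) := by
    refine continuous_of_dominated (bound := fun _ => (1 : ℝ)) (fun t => ?_) (fun t => ?_)
      (integrable_const _) ?_
    · exact Real.continuous_cos.comp_aestronglyMeasurable ((hXm n).const_mul t)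
    · exact Eventually.of_forall fun o => by
        rw [Real.norm_eq_abs]; exact Real.abs_cos_le_one _
    · exact Eventually.of_forall fun o => by fun_prop
  have h3 : (∫ t in (0 : ℝ)..T, ∫ o, Real.cos (t * X n o) ∂(ν n)) ≤
      (∫ t in (0 : ℝ)..T, (Real.cos (t * m n) + T * B)) := by
    refine intervalIntegral.integral_mono_on hT0.le (hcont.intervalIntegrable _ _)
      (Continuous.intervalIntegrable (by fun_prop) _ _) fun t ht => ?_
    have h4 := h1 t
    rw [abs_le] at h4
    have h5 : |t| * B ≤ T * B := by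
      refine mul_le_mul_of_nonneg_right ?_ hB0
      rw [abs_of_nonneg ht.1]; exact ht.2
    linarith [h4.2]
  have h6 : (∫ t in (0 : ℝ)..T, (Real.cos (t * m n) + T * B)) =
      (∫ t in (0 : ℝ)..T, Real.cos (t * m n)) + T * (T * B) := by
    rw [intervalIntegral.integral_add (Continuous.intervalIntegrable (by fun_prop) _ _)
      intervalIntegrable_const, intervalIntegral.integral_const, smul_eq_mul, sub_zero]
  have h7 := integral_cos_le (T := T) hm0
  have h8 : T * (T * B) ≤ T / 4 := by
    have : T * B ≤ 1 / 4 := by nlinarith [abs_nonneg s]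
    nlinarith
  have h9 : T / 4 ≤ 1 / |m n| := by
    have := (le_abs_self (∫ t in (0 : ℝ)..T, Real.cos (t * m n))).trans h7
    rw [h6] at h3
    linarith
  rw [le_div_iff₀ hT0]
  rw [le_div_iff₀ hmp] at h9
  linarith [mul_comm (|m n|) T]

/-- **the means tend to zero** -/
theorem mean_tendsto_zero (hν : ∀ n, IsProbabilityMeasure (ν n)) {X : ∀ n, Ω n → ℝ}
    (hX : ∀ n, MemLp (X n) 2 (ν n)) {C s : ℝ}
    (hC : ∀ᶠ n in atTop, ∫ o, (X n o - ∫ o, X n o ∂(ν n)) ^ 2 ∂(ν n) ≤ C)
    (hcos : ∀ t : ℝ, Tendsto (fun n => ∫ o, Real.cos (t * X n o) ∂(ν n)) atTop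
      (𝓝 (Real.exp (-(s * t ^ 2 / 2)))))
    (hsin : ∀ t : ℝ, Tendsto (fun n => ∫ o, Real.sin (t * X n o) ∂(ν n)) atTop (𝓝 0)) :
    Tendsto (fun n => ∫ o, X n o ∂(ν n)) atTop (𝓝 0) := by
  obtain ⟨R, hR⟩ := exists_mean_bound hν hX hC hcos
  set m : ℕ → ℝ := fun n => ∫ o, X n o ∂(ν n) with hm
  have hXi : ∀ n, Integrable (X n) (ν n) := fun n => by
    have := hν n
    exact (hX n).integrable one_le_two
  have hsq : ∀ n, Integrable (fun o => X n o ^ 2) (ν n) := fun n => (hX n).integrable_sq
  -- second moments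
  set Q : ℝ := |C| + R ^ 2 with hQ
  have h2 : ∀ᶠ n in atTop, ∫ o, X n o ^ 2 ∂(ν n) ≤ Q := by
    filter_upwards [hC, hR] with n h1 h3
    have := hν n
    have e : ∫ o, (X n o - m n) ^ 2 ∂(ν n) = ∫ o, X n o ^ 2 ∂(ν n) - m n ^ 2 := by
      have e1 : ∀ o, (X n o - m n) ^ 2 = X n o ^ 2 - (2 * m n * X n o - m n ^ 2) := fun o => by ring
      simp only [e1]
      have i1 : Integrable (fun o => 2 * m n * X n o) (ν n) := (hXi n).const_mul _
      have i2 : Integrable (fun _ : Ω n => m n ^ 2) (ν n) := integrable_const _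
      have i3 : Integrable (fun o => 2 * m n * X n o - m n ^ 2) (ν n) := i1.sub i2
      rw [integral_sub (hsq n) i3, integral_sub i1 i2, integral_const_mul, integral_const]
      simp only [probReal_univ, smul_eq_mul, one_mul]
      have : ∫ o, X n o ∂(ν n) = m n := rfl
      rw [this]; ring
    rw [e] at h1
    have h4 : m n ^ 2 ≤ R ^ 2 := by
      rw [← sq_abs]
      exact pow_le_pow_left₀ (abs_nonneg _) h3 2
    have := le_abs_self C
    linarith
  have hQ0 : 0 ≤ Q := by positivity
  rw [Metric.tendsto_atTop]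
  intro ε hε
  -- choose t
  set t : ℝ := ε / (2 * (Q + 1)) with ht
  have ht0 : 0 < t := by positivity
  have htQ : t * Q < ε / 2 + 0 := by
    rw [add_zero, ht, div_mul_eq_mul_div, div_lt_div_iff₀ (by positivity) (by norm_num)]
    nlinarith
  have h3 := (hsin t)
  rw [Metric.tendsto_atTop] at h3
  obtain ⟨N1, hN1⟩ := h3 (t * (ε / 2)) (by positivity)
  obtain ⟨N2, hN2⟩ := eventually_atTop.1 h2
  refine ⟨max N1 N2, fun n hn => ?_⟩
  have := hν n
  have a1 := hN1 n ((le_max_left _ _).trans hn)
  have a2 := hN2 n ((le_max_right _ _).trans hn)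
  rw [Real.dist_eq, sub_zero] at a1 ⊢
  have hsi : Integrable (fun o => Real.sin (t * X n o)) (ν n) := by
    refine Integrable.of_bound (C := 1) ?_ (Eventually.of_forall fun o => ?_)
    · exact Real.continuous_sin.comp_aestronglyMeasurable ((hX n).aestronglyMeasurable.const_mul t)
    · rw [Real.norm_eq_abs]; exact Real.abs_sin_le_one _
  have e1 : t * m n = (∫ o, (t * X n o - Real.sin (t * X n o)) ∂(ν n)) +
      ∫ o, Real.sin (t * X n o) ∂(ν n) := by
    rw [integral_sub ((hXi n).const_mul t) hsi, integral_const_mul]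
    ring
  have e2 : |∫ o, (t * X n o - Real.sin (t * X n o)) ∂(ν n)| ≤ t ^ 2 * Q := by
    calc |∫ o, (t * X n o - Real.sin (t * X n o)) ∂(ν n)|
        ≤ ∫ o, |t * X n o - Real.sin (t * X n o)| ∂(ν n) := abs_integral_le_integral_abs
      _ ≤ ∫ o, t ^ 2 * X n o ^ 2 ∂(ν n) := by
          refine integral_mono ((((hXi n).const_mul t).sub hsi).abs) ((hsq n).const_mul _)
            fun o => ?_
          have := abs_sub_sin_le (t * X n o)
          rwa [mul_pow] at this
      _ = t ^ 2 * ∫ o, X n o ^ 2 ∂(ν n) := integral_const_mul _ _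
      _ ≤ t ^ 2 * Q := mul_le_mul_of_nonneg_left a2 (sq_nonneg _)
  have e3 : t * |m n| < t * ε := by
    have h5 : |t * m n| = t * |m n| := by rw [abs_mul, abs_of_pos ht0]
    rw [← h5, e1]
    calc |(∫ o, (t * X n o - Real.sin (t * X n o)) ∂(ν n)) + ∫ o, Real.sin (t * X n o) ∂(ν n)|
        ≤ t ^ 2 * Q + |∫ o, Real.sin (t * X n o) ∂(ν n)| :=
          (abs_add_le _ _).trans (add_le_add e2 le_rfl)
      _ < t ^ 2 * Q + t * (ε / 2) := by linarith
      _ ≤ t * (ε / 2) + t * (ε / 2) := by
          have : t ^ 2 * Q = t * (t * Q) := by ring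
          rw [this]
          have h6 : t * (t * Q) ≤ t * (ε / 2) := mul_le_mul_of_nonneg_left (by linarith) ht0.le
          linarith
      _ = t * ε := by ring
  exact lt_of_mul_lt_mul_left e3 ht0.le

end Crest.Agent.R144.Dom136
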