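import Mathlib

/-!
# R144: the one dimensional discrete Prékopa–Leindler inequality of Klartag–Lehec (helper702)

If `F s * G t ≤ z (s+t) * z (s+t+1)` for all integers `s, t` (`F, G, z ≥ 0`), then
`(∑ F) (∑ G) ≤ (∑_{even} z) (∑_{odd} z)`.

Proof: north-west corner coupling of the two laws (a monotone chain of atoms), the entropy
inequality is a one line induction using convexity of `t log t`, Gibbs' inequality at the end.
-/

set_option autoImplicit false

noncomputable section

namespace Crest.Agent.R144.Dpl702

/-! ### the function `t log t` -/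

def phi (t : ℝ) : ℝ := t * Real.log t

@[simp] theorem phi_zero : phi 0 = 0 := by simp [phi]

theorem phi_exch {c r w : ℝ} (hc : 0 ≤ c) (hcr : c ≤ r) (hw : 0 ≤ w) :
    phi r + phi (c + w) ≤ phi c + phi (r + w) := by
  rcases eq_or_lt_of_le (show c ≤ r + w by linarith) with h | h
  · have h1 : r = c := by linarith
    have h2 : w = 0 := by linarith
    subst h1; subst h2; simp
  · have hd : 0 < r + w - c := by linarith
    have conv := Real.convexOn_mul_log
    have hmem1 : c ∈ Set.Ici (0 : ℝ) := hc
    have hmem2 : r + w ∈ Set.Ici (0 : ℝ) := by simp only [Set.mem_Ici]; linarith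
    -- `r = (1-l) c + l (r+w)` with `l = (r-c)/(r+w-c)`
    set l : ℝ := (r - c) / (r + w - c) with hl
    have hl0 : 0 ≤ l := div_nonneg (by linarith) hd.le
    have hl1 : l ≤ 1 := by rw [hl, div_le_one hd]; linarith
    have e1 : (1 - l) * c + l * (r + w) = r := by
      rw [hl]; field_simp; ring
    have e2 : l * c + (1 - l) * (r + w) = c + w := by
      rw [hl]; field_simp; ring
    have i1 := conv.2 hmem1 hmem2 (show (0 : ℝ) ≤ 1 - l by linarith) hl0 (by ring)
    have i2 := conv.2 hmem1 hmem2 hl0 (show (0 : ℝ) ≤ 1 - l by linarith) (by ring)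
    simp only [smul_eq_mul, e1, e2] at i1 i2
    simp only [phi]
    nlinarith [i1, i2]

theorem phi_super {a b : ℝ} (ha : 0 ≤ a) (hb : 0 ≤ b) : phi a + phi b ≤ phi (a + b) := by
  have := phi_exch (le_refl 0) ha hb
  simpa using this

/-! ### chains of atoms -/

/-- an atom: `(x, y, w)` -/
abbrev Atm : Type := ℤ × ℤ × ℝ

/-- `x`-cost: sum of `phi` over the maximal runs of equal first coordinate, `r` being the mass of
the current run at `x0` -/
def Vx : ℝ → ℤ → List Atm → ℝ
  | r, _, [] => phi r
  | r, x0, a :: M => if a.1 = x0 then Vx (r + a.2.2) x0 M else phi r + Vx a.2.2 a.1 M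

def Vy : ℝ → ℤ → List Atm → ℝ
  | r, _, [] => phi r
  | r, y0, a :: M => if a.2.1 = y0 then Vy (r + a.2.2) y0 M else phi r + Vy a.2.2 a.2.1 M

/-- cost of the alternating partition -/
def Psi : ℝ → ℤ → List Atm → ℝ
  | c, _, [] => phi c
  | c, s0, a :: M => if a.1 + a.2.1 = s0 + 1 then phi (c + a.2.2) + Psi a.2.2 (a.1 + a.2.1) M
      else phi c + phi a.2.2 + Psi a.2.2 (a.1 + a.2.1) M

/-- `M` is a monotone chain starting after `(x0,y0)` with nonnegative weights -/
def Mon : ℤ → ℤ → List Atm → Prop
  | _, _, [] => True
  | x0, y0, a :: M => x0 ≤ a.1 ∧ y0 ≤ a.2.1 ∧ x0 + y0 < a.1 + a.2.1 ∧ 0 < a.2.2 ∧ Mon a.1 a.2.1 M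

theorem cost_ineq (M : List Atm) : ∀ (x0 y0 : ℤ) (rx ry c : ℝ), Mon x0 y0 M → 0 ≤ c →
    ((rx = c ∧ c ≤ ry) ∨ (ry = c ∧ c ≤ rx)) →
    phi (max rx ry) + Psi c (x0 + y0) M ≤ Vx rx x0 M + Vy ry y0 M := by
  induction M with
  | nil =>
    intro x0 y0 rx ry c _ hc h
    simp only [Psi, Vx, Vy]
    rcases h with ⟨rfl, h⟩ | ⟨rfl, h⟩
    · rw [max_eq_right h]; linarith
    · rw [max_eq_left h]
  | cons a M ih =>
    intro x0 y0 rx ry c hM hc h
    obtain ⟨hx, hy, hs, hw, hM'⟩ := hM
    obtain ⟨x, y, w⟩ := a
    simp only at hx hy hs hw hM'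
    have hrx : 0 ≤ rx := by rcases h with ⟨rfl, h⟩ | ⟨rfl, h⟩ <;> linarith
    have hry : 0 ≤ ry := by rcases h with ⟨rfl, h⟩ | ⟨rfl, h⟩ <;> linarith
    have hmm : phi (max rx ry) + phi c = phi rx + phi ry := by
      rcases h with ⟨rfl, h⟩ | ⟨rfl, h⟩
      · rw [max_eq_right h]; ring
      · rw [max_eq_left h]
    -- the two exchange inequalities
    have hX : phi (max rx ry) + phi (c + w) ≤ phi (rx + w) + phi ry := by
      rcases h with ⟨rfl, h⟩ | ⟨rfl, h⟩
      · rw [max_eq_right h]; linarith
      · rw [max_eq_left h]; have := phi_exch hc h hw.le; linarith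
    have hY : phi (max rx ry) + phi (c + w) ≤ phi rx + phi (ry + w) := by
      rcases h with ⟨rfl, h⟩ | ⟨rfl, h⟩
      · rw [max_eq_right h]; have := phi_exch hc h hw.le; linarith
      · rw [max_eq_left h]
    have sx := phi_super hrx hw.le
    have sy := phi_super hry hw.le
    simp only [Psi, Vx, Vy]
    by_cases hxe : x = x0
    · by_cases hye : y = y0
      · exfalso; omega
      · rw [if_pos hxe, if_neg hye]
        have ih' := ih x y (rx + w) w w hM' hw.le (Or.inr ⟨rfl, by linarith⟩)
        rw [max_eq_left (show w ≤ rx + w by linarith)] at ih'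
        rw [hxe] at ih' ⊢
        by_cases hu : x0 + y = x0 + y0 + 1
        · rw [if_pos hu]; linarith
        · rw [if_neg hu]; linarith
    · by_cases hye : y = y0
      · rw [if_neg hxe, if_pos hye]
        have ih' := ih x y w (ry + w) w hM' hw.le (Or.inl ⟨rfl, by linarith⟩)
        rw [max_eq_right (show w ≤ ry + w by linarith)] at ih'
        rw [hye] at ih' ⊢
        by_cases hu : x + y0 = x0 + y0 + 1
        · rw [if_pos hu]; linarith
        · rw [if_neg hu]; linarith
      · rw [if_neg hxe, if_neg hye]
        have ih' := ih x y w w w hM' hw.le (Or.inl ⟨rfl, le_refl _⟩)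
        rw [max_self] at ih'
        have hu : ¬ (x + y = x0 + y0 + 1) := by omega
        rw [if_neg hu]; linarith

/-! ### the classes of the alternating partition as a list of `(position, mass)` -/

def Cls : ℝ → ℤ → List Atm → List (ℤ × ℝ)
  | c, s0, [] => [(s0 + 1, c)]
  | c, s0, a :: M => if a.1 + a.2.1 = s0 + 1 then (s0 + 1, c + a.2.2) :: Cls a.2.2 (a.1 + a.2.1) M
      else (s0 + 1, c) :: (a.1 + a.2.1, a.2.2) :: Cls a.2.2 (a.1 + a.2.1) M

theorem Cls_phi (M : List Atm) : ∀ (c : ℝ) (s0 : ℤ),
    ((Cls c s0 M).map fun p => phi p.2).sum = Psi c s0 M := by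
  induction M with
  | nil => intro c s0; simp [Cls, Psi]
  | cons a M ih =>
    intro c s0
    simp only [Cls, Psi]
    split_ifs with h
    · simp [ih]
    · simp [ih, add_assoc]

/-- linear functionals of the classes -/
theorem Cls_lin (f : ℤ → ℝ) (M : List Atm) : ∀ (c : ℝ) (s0 : ℤ),
    ((Cls c s0 M).map fun p => p.2 * f p.1).sum =
      c * f (s0 + 1) + (M.map fun a => a.2.2 * (f (a.1 + a.2.1) + f (a.1 + a.2.1 + 1))).sum := by
  induction M with
  | nil => intro c s0; simp [Cls]
  | cons a M ih =>
    intro c s0
    simp only [Cls]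
    split_ifs with h
    · simp only [List.map_cons, List.sum_cons, ih]
      rw [h]; ring
    · simp only [List.map_cons, List.sum_cons, ih]
      ring

/-- the positions are strictly increasing, larger than `s0`, and the masses positive -/
theorem Cls_pos (M : List Atm) : ∀ (c : ℝ) (x0 y0 : ℤ), Mon x0 y0 M → 0 < c →
    (∀ p ∈ Cls c (x0 + y0) M, x0 + y0 < p.1 ∧ 0 < p.2) ∧
    ((Cls c (x0 + y0) M).map Prod.fst).Pairwise (· < ·) := by
  induction M with
  | nil => intro c x0 y0 _ hc; simp [Cls, hc]
  | cons a M ih =>
    intro c x0 y0 hM hc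
    obtain ⟨hx, hy, hs, hw, hM'⟩ := hM
    obtain ⟨ih1, ih2⟩ := ih a.2.2 a.1 a.2.1 hM' hw
    simp only [Cls]
    split_ifs with h
    · refine ⟨?_, ?_⟩
      · intro p hp
        rcases List.mem_cons.1 hp with rfl | hp
        · exact ⟨by simp, by simp only; linarith⟩
        · obtain ⟨h1, h2⟩ := ih1 p hp
          exact ⟨by omega, h2⟩
      · simp only [List.map_cons, List.pairwise_cons]
        refine ⟨?_, ih2⟩
        intro q hq
        obtain ⟨p, hp, rfl⟩ := List.mem_map.1 hq
        have := (ih1 p hp).1
        omega
    · refine ⟨?_, ?_⟩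
      · intro p hp
        rcases List.mem_cons.1 hp with rfl | hp
        · exact ⟨by simp, hc⟩
        · rcases List.mem_cons.1 hp with rfl | hp
          · exact ⟨hs, hw⟩
          · obtain ⟨h1, h2⟩ := ih1 p hp
            exact ⟨by omega, h2⟩
      · simp only [List.map_cons, List.pairwise_cons]
        refine ⟨?_, ?_, ih2⟩
        · intro q hq
          rcases List.mem_cons.1 hq with rfl | hq
          · omega
          · obtain ⟨p, hp, rfl⟩ := List.mem_map.1 hq
            have := (ih1 p hp).1
            omega
        · intro q hq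
          obtain ⟨p, hp, rfl⟩ := List.mem_map.1 hq
          exact (ih1 p hp).1

/-! ### north-west corner coupling -/

def nw : List (ℤ × ℝ) → List (ℤ × ℝ) → List Atm
  | [], _ => []
  | _ :: _, [] => []
  | a :: l1, b :: l2 =>
    if a.2 < b.2 then (a.1, b.1, a.2) :: nw l1 ((b.1, b.2 - a.2) :: l2)
    else if b.2 < a.2 then (a.1, b.1, b.2) :: nw ((a.1, a.2 - b.2) :: l1) l2
    else (a.1, b.1, a.2) :: nw l1 l2
termination_by l1 l2 => l1.length + l2.length

/-- sorted list of positive atoms -/
def Srt (l : List (ℤ × ℝ)) : Prop := (l.map Prod.fst).Pairwise (· < ·) ∧ ∀ p ∈ l, 0 < p.2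

def tot (l : List (ℤ × ℝ)) : ℝ := (l.map Prod.snd).sum

@[simp] theorem tot_nil : tot [] = 0 := rfl
@[simp] theorem tot_cons (a : ℤ × ℝ) (l : List (ℤ × ℝ)) : tot (a :: l) = a.2 + tot l := by
  simp [tot]

theorem Srt.tail {a : ℤ × ℝ} {l : List (ℤ × ℝ)} (h : Srt (a :: l)) : Srt l := by
  refine ⟨?_, fun p hp => h.2 p (List.mem_cons_of_mem _ hp)⟩
  have := h.1
  rw [List.map_cons, List.pairwise_cons] at this
  exact this.2

theorem Srt.lt {a b : ℤ × ℝ} {l : List (ℤ × ℝ)} (h : Srt (a :: b :: l)) : a.1 < b.1 := by
  have := h.1
  rw [List.map_cons, List.pairwise_cons] at this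
  exact this.1 _ (by simp)

theorem Srt.repl {a : ℤ × ℝ} {l : List (ℤ × ℝ)} (h : Srt (a :: l)) {w : ℝ} (hw : 0 < w) :
    Srt ((a.1, w) :: l) := by
  refine ⟨by simpa using h.1, fun p hp => ?_⟩
  rcases List.mem_cons.1 hp with rfl | hp
  · exact hw
  · exact h.2 p (List.mem_cons_of_mem _ hp)

theorem tot_nonneg {l : List (ℤ × ℝ)} (h : Srt l) : 0 ≤ tot l :=
  List.sum_nonneg (by
    intro x hx
    obtain ⟨p, hp, rfl⟩ := List.mem_map.1 hx
    exact (h.2 p hp).le)

theorem eq_nil_of_tot {l : List (ℤ × ℝ)} (h : Srt l) (h0 : tot l ≤ 0) : l = [] := by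
  cases l with
  | nil => rfl
  | cons a l =>
    exfalso
    have h1 := h.2 a (by simp)
    have h2 := tot_nonneg h.tail
    simp only [tot_cons] at h0
    linarith

/-- the chain of the north west corner coupling is monotone: it starts weakly after the heads -/
def Ahead (x0 : ℤ) (l : List (ℤ × ℝ)) : Prop := ∀ p ∈ l.head?, x0 ≤ p.1

theorem nw_mon : ∀ (n : ℕ) (l1 l2 : List (ℤ × ℝ)), l1.length + l2.length ≤ n → Srt l1 → Srt l2 →
    ∀ x0 y0 : ℤ, (∀ p ∈ l1.head?, x0 ≤ p.1) → (∀ p ∈ l2.head?, y0 ≤ p.1) →
      (∀ p ∈ l1.head?, ∀ q ∈ l2.head?, x0 + y0 < p.1 + q.1) → Mon x0 y0 (nw l1 l2) := by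
  intro n
  induction n with
  | zero =>
    intro l1 l2 hn h1 h2 x0 y0 hx hy hs
    have : l1 = [] := List.length_eq_zero_iff.1 (by omega)
    subst this
    simp [nw, Mon]
  | succ n ih =>
    intro l1 l2 hn h1 h2 x0 y0 hx hy hs
    match l1, l2 with
    | [], _ => simp [nw, Mon]
    | _ :: _, [] => simp [nw, Mon]
    | a :: l1, b :: l2 =>
      simp only [List.head?_cons, Option.mem_def, Option.some.injEq, forall_eq'] at hx hy hs
      have ha := h1.2 a (by simp)
      have hb := h2.2 b (by simp)
      simp only [List.length_cons] at hn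
      rw [nw]
      split_ifs with c1 c2
      · refine ⟨hx, hy, hs, ha, ih _ _ (by simp only [List.length_cons]; omega) h1.tail
          (h2.repl (by linarith)) _ _ ?_ ?_ ?_⟩
        · intro p hp
          cases l1 with
          | nil => simp at hp
          | cons a' l1 => simp only [List.head?_cons, Option.mem_def, Option.some.injEq] at hp
                          subst hp; exact h1.lt.le
        · simp
        · intro p hp q hq
          simp only [List.head?_cons, Option.mem_def, Option.some.injEq] at hq
          subst hq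
          cases l1 with
          | nil => simp at hp
          | cons a' l1 => simp only [List.head?_cons, Option.mem_def, Option.some.injEq] at hp
                          subst hp; have := h1.lt; simp only; omega
      · refine ⟨hx, hy, hs, hb, ih _ _ (by simp only [List.length_cons]; omega)
          (h1.repl (by linarith)) h2.tail _ _ ?_ ?_ ?_⟩
        · simp
        · intro p hp
          cases l2 with
          | nil => simp at hp
          | cons a' l1 => simp only [List.head?_cons, Option.mem_def, Option.some.injEq] at hp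
                          subst hp; exact h2.lt.le
        · intro p hp q hq
          simp only [List.head?_cons, Option.mem_def, Option.some.injEq] at hp
          subst hp
          cases l2 with
          | nil => simp at hq
          | cons a' l1 => simp only [List.head?_cons, Option.mem_def, Option.some.injEq] at hq
                          subst hq; have := h2.lt; simp only; omega
      · refine ⟨hx, hy, hs, ha, ih _ _ (by omega) h1.tail h2.tail _ _ ?_ ?_ ?_⟩
        · intro p hp
          cases l1 with
          | nil => simp at hp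
          | cons a' l1 => simp only [List.head?_cons, Option.mem_def, Option.some.injEq] at hp
                          subst hp; exact h1.lt.le
        · intro p hp
          cases l2 with
          | nil => simp at hp
          | cons a' l1 => simp only [List.head?_cons, Option.mem_def, Option.some.injEq] at hp
                          subst hp; exact h2.lt.le
        · intro p hp q hq
          cases l1 with
          | nil => simp at hp
          | cons a' l1 =>
            cases l2 with
            | nil => simp at hq
            | cons b' l2 =>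
              simp only [List.head?_cons, Option.mem_def, Option.some.injEq] at hp hq
              subst hp; subst hq
              have i1 := h1.lt
              have i2 := h2.lt
              simp only at *
              omega

/-- first marginal -/
theorem nw_fst (f : ℤ → ℝ) : ∀ (n : ℕ) (l1 l2 : List (ℤ × ℝ)), l1.length + l2.length ≤ n →
    Srt l1 → Srt l2 → tot l1 = tot l2 →
    ((nw l1 l2).map fun a => a.2.2 * f a.1).sum = (l1.map fun p => p.2 * f p.1).sum := by
  intro n
  induction n with
  | zero =>
    intro l1 l2 hn h1 h2 ht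
    have : l1 = [] := List.length_eq_zero_iff.1 (by omega)
    subst this
    simp [nw]
  | succ n ih =>
    intro l1 l2 hn h1 h2 ht
    match l1, l2 with
    | [], _ => simp [nw]
    | a :: l1, [] =>
      have := eq_nil_of_tot h1 (by rw [ht]; simp)
      simp at this
    | a :: l1, b :: l2 =>
      have ha := h1.2 a (by simp)
      have hb := h2.2 b (by simp)
      simp only [List.length_cons] at hn
      simp only [tot_cons] at ht
      rw [nw]
      split_ifs with c1 c2
      · rw [List.map_cons, List.sum_cons, ih _ _ (by simp only [List.length_cons]; omega) h1.tail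
          (h2.repl (by linarith)) (by simp only [tot_cons]; linarith)]
        simp
      · rw [List.map_cons, List.sum_cons, ih _ _ (by simp only [List.length_cons]; omega)
          (h1.repl (by linarith)) h2.tail (by simp only [tot_cons]; linarith)]
        simp only [List.map_cons, List.sum_cons]
        ring
      · rw [List.map_cons, List.sum_cons, ih _ _ (by omega) h1.tail h2.tail (by linarith)]
        simp

/-- second marginal -/
theorem nw_snd (f : ℤ → ℝ) : ∀ (n : ℕ) (l1 l2 : List (ℤ × ℝ)), l1.length + l2.length ≤ n →
    Srt l1 → Srt l2 → tot l1 = tot l2 →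
    ((nw l1 l2).map fun a => a.2.2 * f a.2.1).sum = (l2.map fun p => p.2 * f p.1).sum := by
  intro n
  induction n with
  | zero =>
    intro l1 l2 hn h1 h2 ht
    have : l1 = [] := List.length_eq_zero_iff.1 (by omega)
    subst this
    have : l2 = [] := List.length_eq_zero_iff.1 (by omega)
    subst this
    simp [nw]
  | succ n ih =>
    intro l1 l2 hn h1 h2 ht
    match l1, l2 with
    | [], [] => simp [nw]
    | [], b :: l2 =>
      have := eq_nil_of_tot h2 (by rw [← ht]; simp)
      simp at this
    | a :: l1, [] =>
      have := eq_nil_of_tot h1 (by rw [ht]; simp)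
      simp at this
    | a :: l1, b :: l2 =>
      have ha := h1.2 a (by simp)
      have hb := h2.2 b (by simp)
      simp only [List.length_cons] at hn
      simp only [tot_cons] at ht
      rw [nw]
      split_ifs with c1 c2
      · rw [List.map_cons, List.sum_cons, ih _ _ (by simp only [List.length_cons]; omega) h1.tail
          (h2.repl (by linarith)) (by simp only [tot_cons]; linarith)]
        simp only [List.map_cons, List.sum_cons]
        ring
      · rw [List.map_cons, List.sum_cons, ih _ _ (by simp only [List.length_cons]; omega)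
          (h1.repl (by linarith)) h2.tail (by simp only [tot_cons]; linarith)]
        simp
      · have hab : a.2 = b.2 := le_antisymm (not_lt.1 c2) (not_lt.1 c1)
        rw [List.map_cons, List.sum_cons, ih _ _ (by omega) h1.tail h2.tail (by linarith)]
        simp [hab]

theorem Vx_fresh (r : ℝ) (x0 s : ℤ) (hs : x0 ≠ s) (M : List Atm) (hM : ∀ a ∈ M.head?, a.1 = s)
    (hne : M ≠ []) : Vx r x0 M = phi r + Vx 0 s M := by
  cases M with
  | nil => exact absurd rfl hne
  | cons a M =>
    have h : a.1 = s := hM a (by simp)
    rw [Vx, if_neg (by rw [h]; exact fun h => hs h.symm), Vx, if_pos h, zero_add, h]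

theorem Vy_fresh (r : ℝ) (x0 s : ℤ) (hs : x0 ≠ s) (M : List Atm) (hM : ∀ a ∈ M.head?, a.2.1 = s)
    (hne : M ≠ []) : Vy r x0 M = phi r + Vy 0 s M := by
  cases M with
  | nil => exact absurd rfl hne
  | cons a M =>
    have h : a.2.1 = s := hM a (by simp)
    rw [Vy, if_neg (by rw [h]; exact fun h => hs h.symm), Vy, if_pos h, zero_add, h]

theorem nw_head {a b : ℤ × ℝ} {l1 l2 : List (ℤ × ℝ)} :
    nw (a :: l1) (b :: l2) ≠ [] ∧ ∀ c ∈ (nw (a :: l1) (b :: l2)).head?, c.1 = a.1 ∧ c.2.1 = b.1 := by
  rw [nw]
  split_ifs <;> simp

theorem nw_Vx : ∀ (n : ℕ) (a : ℤ × ℝ) (l1 l2 : List (ℤ × ℝ)), l1.length + l2.length ≤ n →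
    Srt (a :: l1) → Srt l2 → tot (a :: l1) = tot l2 → ∀ p : ℝ,
    Vx p a.1 (nw (a :: l1) l2) = phi (p + a.2) + (l1.map fun q => phi q.2).sum := by
  intro n
  induction n with
  | zero =>
    intro a l1 l2 hn h1 h2 ht p
    have : l2 = [] := List.length_eq_zero_iff.1 (by omega)
    subst this
    have := eq_nil_of_tot h1 (by rw [ht]; simp)
    simp at this
  | succ n ih =>
    intro a l1 l2 hn h1 h2 ht p
    match l2 with
    | [] =>
      have := eq_nil_of_tot h1 (by rw [ht]; simp)
      simp at this
    | b :: l2 =>
      have ha := h1.2 a (by simp)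
      have hb := h2.2 b (by simp)
      simp only [List.length_cons] at hn
      simp only [tot_cons] at ht
      rw [nw]
      split_ifs with c1 c2
      · rw [Vx, if_pos rfl]
        cases l1 with
        | nil =>
          exfalso
          have := tot_nonneg h2.tail
          simp only [tot_nil] at ht
          linarith
        | cons a' l1 =>
          have hl := h1.lt
          obtain ⟨hne, hh⟩ := @nw_head a' (b.1, b.2 - a.2) l1 l2
          rw [Vx_fresh _ _ a'.1 hl.ne _ (fun c hc => (hh c hc).1) hne]
          rw [ih a' l1 ((b.1, b.2 - a.2) :: l2) (by simp only [List.length_cons] at hn ⊢; omega)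
            h1.tail (h2.repl (by linarith)) (by simp only [tot_cons] at ht ⊢; linarith)]
          simp
      · rw [Vx, if_pos rfl]
        have := ih (a.1, a.2 - b.2) l1 l2 (by omega) (h1.repl (by linarith)) h2.tail
          (by simp only [tot_cons]; linarith) (p + b.2)
        simp only at this
        rw [this]
        ring_nf
      · rw [Vx, if_pos rfl]
        cases l1 with
        | nil =>
          have : l2 = [] := eq_nil_of_tot h2.tail (by simp only [tot_nil] at ht; linarith)
          subst this
          simp [nw, Vx]
        | cons a' l1 =>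
          cases l2 with
          | nil =>
            exfalso
            have := tot_nonneg h1.tail.tail
            have := h1.tail.2 a' (by simp)
            simp only [tot_nil, tot_cons] at ht
            linarith
          | cons b' l2 =>
            have hl := h1.lt
            obtain ⟨hne, hh⟩ := @nw_head a' b' l1 l2
            rw [Vx_fresh _ _ a'.1 hl.ne _ (fun c hc => (hh c hc).1) hne]
            rw [ih a' l1 (b' :: l2) (by simp only [List.length_cons] at hn ⊢; omega)
              h1.tail h2.tail (by linarith)]
            simp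

theorem nw_Vy : ∀ (n : ℕ) (b : ℤ × ℝ) (l1 l2 : List (ℤ × ℝ)), l1.length + l2.length ≤ n →
    Srt l1 → Srt (b :: l2) → tot l1 = tot (b :: l2) → ∀ p : ℝ,
    Vy p b.1 (nw l1 (b :: l2)) = phi (p + b.2) + (l2.map fun q => phi q.2).sum := by
  intro n
  induction n with
  | zero =>
    intro b l1 l2 hn h1 h2 ht p
    have : l1 = [] := List.length_eq_zero_iff.1 (by omega)
    subst this
    have := eq_nil_of_tot h2 (by rw [← ht]; simp)
    simp at this
  | succ n ih =>
    intro b l1 l2 hn h1 h2 ht p
    match l1 with
    | [] =>
      have := eq_nil_of_tot h2 (by rw [← ht]; simp)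
      simp at this
    | a :: l1 =>
      have ha := h1.2 a (by simp)
      have hb := h2.2 b (by simp)
      simp only [List.length_cons] at hn
      simp only [tot_cons] at ht
      rw [nw]
      split_ifs with c1 c2
      · rw [Vy, if_pos rfl]
        have := ih (b.1, b.2 - a.2) l1 l2 (by omega) h1.tail (h2.repl (by linarith))
          (by simp only [tot_cons]; linarith) (p + a.2)
        simp only at this
        rw [this]
        ring_nf
      · rw [Vy, if_pos rfl]
        cases l2 with
        | nil =>
          exfalso
          have := tot_nonneg h1.tail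
          simp only [tot_nil] at ht
          linarith
        | cons b' l2 =>
          have hl := h2.lt
          obtain ⟨hne, hh⟩ := @nw_head (a.1, a.2 - b.2) b' l1 l2
          rw [Vy_fresh _ _ b'.1 hl.ne _ (fun c hc => (hh c hc).2) hne]
          rw [ih b' ((a.1, a.2 - b.2) :: l1) l2 (by simp only [List.length_cons] at hn ⊢; omega)
            (h1.repl (by linarith)) h2.tail (by simp only [tot_cons] at ht ⊢; linarith)]
          simp
      · have hab : a.2 = b.2 := le_antisymm (not_lt.1 c2) (not_lt.1 c1)
        rw [Vy, if_pos rfl]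
        cases l2 with
        | nil =>
          have : l1 = [] := eq_nil_of_tot h1.tail (by simp only [tot_nil] at ht; linarith)
          subst this
          simp [nw, Vy, hab]
        | cons b' l2 =>
          cases l1 with
          | nil =>
            exfalso
            have := tot_nonneg h2.tail.tail
            have := h2.tail.2 b' (by simp)
            simp only [tot_nil, tot_cons] at ht
            linarith
          | cons a' l1 =>
            have hl := h2.lt
            obtain ⟨hne, hh⟩ := @nw_head a' b' l1 l2
            rw [Vy_fresh _ _ b'.1 hl.ne _ (fun c hc => (hh c hc).2) hne]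
            rw [ih b' (a' :: l1) l2 (by simp only [List.length_cons] at hn ⊢; omega)
              h1.tail h2.tail (by linarith)]
            simp [hab]

end Crest.Agent.R144.Dpl702
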