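import Crest.Agent.R144.Dpl1_702

/-!
# R144: one dimensional Klartag–Lehec inequality (real form), helper702
-/

set_option autoImplicit false

noncomputable section

namespace Crest.Agent.R144.Dpl702

open Finset

theorem Cls_mem (M : List Atm) : ∀ (c : ℝ) (s0 : ℤ), ∀ p ∈ Cls c s0 M,
    p.1 = s0 + 1 ∨ ∃ a ∈ M, p.1 = a.1 + a.2.1 ∨ p.1 = a.1 + a.2.1 + 1 := by
  induction M with
  | nil => intro c s0 p hp; simp only [Cls, List.mem_singleton] at hp; left; rw [hp]
  | cons a M ih =>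
    intro c s0 p hp
    simp only [Cls] at hp
    split_ifs at hp with h
    · rcases List.mem_cons.1 hp with rfl | hp
      · left; rfl
      · right
        rcases ih _ _ p hp with h1 | ⟨b, hb, h1⟩
        · exact ⟨a, by simp, Or.inr h1⟩
        · exact ⟨b, List.mem_cons_of_mem _ hb, h1⟩
    · rcases List.mem_cons.1 hp with rfl | hp
      · left; rfl
      · right
        rcases List.mem_cons.1 hp with rfl | hp
        · exact ⟨a, by simp, Or.inl rfl⟩
        · rcases ih _ _ p hp with h1 | ⟨b, hb, h1⟩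
          · exact ⟨a, by simp, Or.inr h1⟩
          · exact ⟨b, List.mem_cons_of_mem _ hb, h1⟩

theorem nw_mem : ∀ (n : ℕ) (l1 l2 : List (ℤ × ℝ)), l1.length + l2.length ≤ n →
    ∀ a ∈ nw l1 l2, a.1 ∈ l1.map Prod.fst ∧ a.2.1 ∈ l2.map Prod.fst := by
  intro n
  induction n with
  | zero =>
    intro l1 l2 hn a ha
    have : l1 = [] := List.length_eq_zero_iff.1 (by omega)
    subst this
    simp [nw] at ha
  | succ n ih =>
    intro l1 l2 hn c hc
    match l1, l2 with
    | [], _ => simp [nw] at hc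
    | _ :: _, [] => simp [nw] at hc
    | a :: l1, b :: l2 =>
      simp only [List.length_cons] at hn
      rw [nw] at hc
      split_ifs at hc with c1 c2
      · rcases List.mem_cons.1 hc with rfl | hc
        · simp
        · obtain ⟨h1, h2⟩ := ih _ _ (by simp only [List.length_cons]; omega) c hc
          refine ⟨by rw [List.map_cons]; exact List.mem_cons_of_mem _ h1, by simpa using h2⟩
      · rcases List.mem_cons.1 hc with rfl | hc
        · simp
        · obtain ⟨h1, h2⟩ := ih _ _ (by simp only [List.length_cons]; omega) c hc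
          refine ⟨by simpa using h1, by rw [List.map_cons]; exact List.mem_cons_of_mem _ h2⟩
      · rcases List.mem_cons.1 hc with rfl | hc
        · simp
        · obtain ⟨h1, h2⟩ := ih _ _ (by omega) c hc
          exact ⟨by rw [List.map_cons]; exact List.mem_cons_of_mem _ h1,
            by rw [List.map_cons]; exact List.mem_cons_of_mem _ h2⟩

/-- the sorted list of atoms of a function on a finite set -/
def mkL (A : Finset ℤ) (F : ℤ → ℝ) : List (ℤ × ℝ) := (A.sort (· ≤ ·)).map fun s => (s, F s)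

theorem mkL_sum (A : Finset ℤ) (F : ℤ → ℝ) (g : ℤ × ℝ → ℝ) :
    ((mkL A F).map g).sum = ∑ s ∈ A, g (s, F s) := by
  unfold mkL
  rw [List.map_map, Finset.sum_eq_multiset_sum, ← Finset.sort_eq A (· ≤ ·), Multiset.map_coe,
    Multiset.sum_coe]
  rfl

theorem mkL_fst (A : Finset ℤ) (F : ℤ → ℝ) : (mkL A F).map Prod.fst = A.sort (· ≤ ·) := by
  unfold mkL
  rw [List.map_map]
  simp [Function.comp_def]

theorem mkL_srt (A : Finset ℤ) (F : ℤ → ℝ) (hF : ∀ s ∈ A, 0 < F s) : Srt (mkL A F) := by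
  refine ⟨?_, ?_⟩
  · rw [mkL_fst]
    exact (Finset.sortedLT_sort A).pairwise
  · intro p hp
    obtain ⟨s, hs, rfl⟩ := List.mem_map.1 hp
    exact hF s ((Finset.mem_sort _).1 hs)

theorem mkL_tot (A : Finset ℤ) (F : ℤ → ℝ) : tot (mkL A F) = ∑ s ∈ A, F s :=
  mkL_sum A F Prod.snd

theorem mkL_ne {A : Finset ℤ} (hA : A.Nonempty) (F : ℤ → ℝ) : mkL A F ≠ [] := by
  intro h
  have := mkL_fst A F
  rw [h] at this
  have h2 : A.sort (· ≤ ·) = [] := by simpa using this.symm
  obtain ⟨s, hs⟩ := hA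
  have : s ∈ A.sort (· ≤ ·) := (Finset.mem_sort _).2 hs
  rw [h2] at this
  simp at this

theorem sum_map_sub' {α : Type*} (l : List α) (f g : α → ℝ) :
    (l.map fun a => f a - g a).sum = (l.map f).sum - (l.map g).sum := by
  induction l with
  | nil => simp
  | cons a l ih => simp only [List.map_cons, List.sum_cons, ih]; ring

/-- the normalised form: `ΣF = ΣG = 1` -/
theorem kl1_aux (F G z : ℤ → ℝ) (A B C : Finset ℤ) (a b : ℝ) (ha : 0 < a) (hb : 0 < b)
    (hF : ∀ s ∈ A, 0 < F s) (hG : ∀ s ∈ B, 0 < G s) (hFa : ∑ s ∈ A, F s = 1)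
    (hGb : ∑ s ∈ B, G s = 1)
    (hz : ∀ j, 0 ≤ z j) (h : ∀ s ∈ A, ∀ t ∈ B, (a * F s) * (b * G t) ≤ z (s + t) * z (s + t + 1))
    (hC : ∀ s ∈ A, ∀ t ∈ B, s + t ∈ C ∧ s + t + 1 ∈ C) :
    a * b ≤ (∑ j ∈ C with Even j, z j) * (∑ j ∈ C with ¬ Even j, z j) := by
  classical
  have hAne : A.Nonempty := by
    rw [Finset.nonempty_iff_ne_empty]; rintro rfl; simp at hFa
  have hBne : B.Nonempty := by
    rw [Finset.nonempty_iff_ne_empty]; rintro rfl; simp at hGb
  set L1 := mkL A F with hL1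
  set L2 := mkL B G with hL2
  have s1 : Srt L1 := mkL_srt A F hF
  have s2 : Srt L2 := mkL_srt B G hG
  have ht : tot L1 = tot L2 := by rw [hL1, hL2, mkL_tot, mkL_tot, hFa, hGb]
  obtain ⟨p1, l1, e1⟩ := List.exists_cons_of_ne_nil (mkL_ne hAne F)
  obtain ⟨p2, l2, e2⟩ := List.exists_cons_of_ne_nil (mkL_ne hBne G)
  rw [← hL1] at e1
  rw [← hL2] at e2
  obtain ⟨hMne, hMh⟩ := @nw_head p1 p2 l1 l2
  obtain ⟨a1, M, eM⟩ := List.exists_cons_of_ne_nil hMne
  have ha1 : a1.1 = p1.1 ∧ a1.2.1 = p2.1 := hMh a1 (by rw [eM]; simp)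
  rw [← e1, ← e2] at eM
  -- membership
  have hmem : ∀ c ∈ a1 :: M, c.1 ∈ A ∧ c.2.1 ∈ B := by
    intro c hc
    rw [← eM] at hc
    obtain ⟨h1, h2⟩ := nw_mem _ L1 L2 le_rfl c hc
    rw [hL1, mkL_fst] at h1
    rw [hL2, mkL_fst] at h2
    exact ⟨(Finset.mem_sort _).1 h1, (Finset.mem_sort _).1 h2⟩
  -- monotone
  have hmon : Mon (p1.1 - 1) p2.1 (a1 :: M) := by
    rw [← eM]
    refine nw_mon _ L1 L2 le_rfl s1 s2 _ _ ?_ ?_ ?_
    · rw [e1]; simp
    · rw [e2]; simp
    · rw [e1, e2]; simp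
  obtain ⟨-, -, -, hw1, hmon1⟩ := hmon
  -- costs
  have cx := nw_Vx _ p1 l1 L2 le_rfl (e1 ▸ s1) s2 (e1 ▸ ht) 0
  have cy := nw_Vy _ p2 L1 l2 le_rfl s1 (e2 ▸ s2) (e2 ▸ ht) 0
  rw [← e1, eM, Vx, if_pos ha1.1, zero_add, zero_add] at cx
  rw [← e2, eM, Vy, if_pos ha1.2, zero_add, zero_add] at cy
  have cost := cost_ineq M a1.1 a1.2.1 a1.2.2 a1.2.2 a1.2.2 hmon1 hw1.le (Or.inl ⟨rfl, le_rfl⟩)
  rw [max_self] at cost
  rw [ha1.1] at cost
  rw [ha1.2] at cost
  have sF : ∑ s ∈ A, phi (F s) = phi p1.2 + (l1.map fun q => phi q.2).sum := by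
    have := mkL_sum A F (fun q => phi q.2)
    rw [← hL1, e1, List.map_cons, List.sum_cons] at this
    exact this.symm
  have sG : ∑ s ∈ B, phi (G s) = phi p2.2 + (l2.map fun q => phi q.2).sum := by
    have := mkL_sum B G (fun q => phi q.2)
    rw [← hL2, e2, List.map_cons, List.sum_cons] at this
    exact this.symm
  set R : List (ℤ × ℝ) := (a1.1 + a1.2.1, a1.2.2) :: Cls a1.2.2 (a1.1 + a1.2.1) M with hR
  have hRphi : (R.map fun p => phi p.2).sum ≤ ∑ s ∈ A, phi (F s) + ∑ s ∈ B, phi (G s) := by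
    rw [hR, List.map_cons, List.sum_cons, Cls_phi, sF, sG, ← cx, ← cy, ha1.1, ha1.2]
    linarith
  have hRlin : ∀ f : ℤ → ℝ, (R.map fun p => p.2 * f p.1).sum =
      ((a1 :: M).map fun c => c.2.2 * (f (c.1 + c.2.1) + f (c.1 + c.2.1 + 1))).sum := by
    intro f
    rw [hR, List.map_cons, List.sum_cons, Cls_lin, List.map_cons, List.sum_cons]
    ring
  obtain ⟨hp1, hp2⟩ := Cls_pos M a1.2.2 a1.1 a1.2.1 hmon1 hw1
  have hRpos : ∀ p ∈ R, 0 < p.2 := by
    intro p hp
    rcases List.mem_cons.1 hp with rfl | hp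
    · exact hw1
    · exact (hp1 p hp).2
  have hRnd : (R.map Prod.fst).Nodup := by
    rw [hR, List.map_cons, List.nodup_cons]
    refine ⟨?_, hp2.imp fun h => ne_of_lt h⟩
    intro hmem
    obtain ⟨p, hp, he⟩ := List.mem_map.1 hmem
    have := (hp1 p hp).1
    rw [he] at this
    exact lt_irrefl _ this
  have hRC : ∀ p ∈ R, ∃ c ∈ a1 :: M, p.1 = c.1 + c.2.1 ∨ p.1 = c.1 + c.2.1 + 1 := by
    intro p hp
    rcases List.mem_cons.1 hp with rfl | hp
    · exact ⟨a1, by simp, Or.inl rfl⟩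
    · rcases Cls_mem M _ _ p hp with h1 | ⟨c, hc, h1⟩
      · exact ⟨a1, by simp, Or.inr h1⟩
      · exact ⟨c, List.mem_cons_of_mem _ hc, h1⟩
  -- positivity of z
  have hzz : ∀ c ∈ a1 :: M, 0 < z (c.1 + c.2.1) ∧ 0 < z (c.1 + c.2.1 + 1) := by
    intro c hc
    obtain ⟨h1, h2⟩ := hmem c hc
    have h3 := h _ h1 _ h2
    have h4 : 0 < (a * F c.1) * (b * G c.2.1) :=
      mul_pos (mul_pos ha (hF _ h1)) (mul_pos hb (hG _ h2))
    have h5 := lt_of_lt_of_le h4 h3
    constructor
    · rcases (hz (c.1 + c.2.1)).eq_or_lt with h6 | h6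
      · rw [← h6, zero_mul] at h5; exact absurd h5 (lt_irrefl _)
      · exact h6
    · rcases (hz (c.1 + c.2.1 + 1)).eq_or_lt with h6 | h6
      · rw [← h6, mul_zero] at h5; exact absurd h5 (lt_irrefl _)
      · exact h6
  have hRz : ∀ p ∈ R, 0 < z p.1 ∧ p.1 ∈ C := by
    intro p hp
    obtain ⟨c, hc, h1⟩ := hRC p hp
    obtain ⟨h2, h3⟩ := hzz c hc
    obtain ⟨h4, h5⟩ := hmem c hc
    obtain ⟨h6, h7⟩ := hC _ h4 _ h5
    rcases h1 with h1 | h1
    · rw [h1]; exact ⟨h2, h6⟩
    · rw [h1]; exact ⟨h3, h7⟩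
  -- the two totals
  set Ze : ℝ := ∑ j ∈ C with Even j, z j with hZe
  set Zo : ℝ := ∑ j ∈ C with ¬ Even j, z j with hZo
  have hpos : 0 < Ze ∧ 0 < Zo := by
    obtain ⟨h2, h3⟩ := hzz a1 (by simp)
    obtain ⟨h4, h5⟩ := hmem a1 (by simp)
    obtain ⟨h6, h7⟩ := hC _ h4 _ h5
    by_cases hev : Even (a1.1 + a1.2.1)
    · have hod : ¬ Even (a1.1 + a1.2.1 + 1) := by
        rw [Int.even_add_one]; simpa using hev
      exact ⟨Finset.sum_pos' (fun j _ => hz j) ⟨_, Finset.mem_filter.2 ⟨h6, hev⟩, h2⟩,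
        Finset.sum_pos' (fun j _ => hz j) ⟨_, Finset.mem_filter.2 ⟨h7, hod⟩, h3⟩⟩
    · have hod : Even (a1.1 + a1.2.1 + 1) := by
        rw [Int.even_add_one]; simpa using hev
      exact ⟨Finset.sum_pos' (fun j _ => hz j) ⟨_, Finset.mem_filter.2 ⟨h7, hod⟩, h3⟩,
        Finset.sum_pos' (fun j _ => hz j) ⟨_, Finset.mem_filter.2 ⟨h6, hev⟩, h2⟩⟩
  obtain ⟨hZe0, hZo0⟩ := hpos
  set Zp : ℤ → ℝ := fun j => if Even j then Ze else Zo with hZp
  have hZp0 : ∀ j, 0 < Zp j := by
    intro j; simp only [hZp]; split_ifs <;> assumption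
  -- Gibbs
  have gibbs : ∀ p ∈ R, p.2 * Real.log (z p.1) - phi p.2 - p.2 * Real.log (Zp p.1) ≤
      z p.1 / Zp p.1 - p.2 := by
    intro p hp
    have h1 := hRpos p hp
    have h2 := (hRz p hp).1
    have h3 := hZp0 p.1
    have h4 := Real.log_le_sub_one_of_pos (show 0 < z p.1 / (p.2 * Zp p.1) by positivity)
    rw [Real.log_div h2.ne' (by positivity), Real.log_mul h1.ne' h3.ne'] at h4
    have h5 := mul_le_mul_of_nonneg_left h4 h1.le
    have h6 : p.2 * (z p.1 / (p.2 * Zp p.1) - 1) = z p.1 / Zp p.1 - p.2 := by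
      field_simp
    rw [h6] at h5
    simp only [phi]
    linarith
  have sumw : ((a1 :: M).map fun c => c.2.2).sum = 1 := by
    have := nw_fst (fun _ => 1) _ L1 L2 le_rfl s1 s2 ht
    rw [eM] at this
    simp only [mul_one] at this
    rw [this, ← hFa, ← mkL_tot]
    rfl
  have hRone : (R.map fun p => p.2).sum = 2 := by
    have := hRlin (fun _ => 1)
    simp only [mul_one] at this
    rw [this]
    have h2 : ((a1 :: M).map fun c : Atm => c.2.2 * ((1 : ℝ) + 1)).sum =
        2 * ((a1 :: M).map fun c => c.2.2).sum := by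
      rw [← List.sum_map_mul_left]
      congr 1
      refine List.map_congr_left fun c _ => by ring
    rw [h2, sumw, mul_one]
  have hRq : (R.map fun p => z p.1 / Zp p.1).sum ≤ 2 := by
    have e0 : (R.map fun p => z p.1 / Zp p.1) = (R.map Prod.fst).map fun j => z j / Zp j := by
      rw [List.map_map]; rfl
    rw [e0]
    have e3 : ((R.map Prod.fst).map fun j => z j / Zp j).sum =
        ∑ j ∈ (R.map Prod.fst).toFinset, z j / Zp j := by
      rw [List.sum_toFinset _ hRnd]
    rw [e3]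
    have e4 : (R.map Prod.fst).toFinset ⊆ C := by
      intro j hj
      rw [List.mem_toFinset] at hj
      obtain ⟨p, hp, rfl⟩ := List.mem_map.1 hj
      exact (hRz p hp).2
    refine (Finset.sum_le_sum_of_subset_of_nonneg e4 fun j _ _ =>
      div_nonneg (hz j) (hZp0 j).le).trans ?_
    rw [← Finset.sum_filter_add_sum_filter_not C (fun j => Even j)]
    have e5 : ∑ j ∈ C with Even j, z j / Zp j = 1 := by
      have : ∑ j ∈ C with Even j, z j / Zp j = ∑ j ∈ C with Even j, z j / Ze :=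
        Finset.sum_congr rfl fun j hj => by
          simp only [hZp]; rw [if_pos (Finset.mem_filter.1 hj).2]
      rw [this, ← Finset.sum_div, ← hZe, div_self hZe0.ne']
    have e6 : ∑ j ∈ C with ¬ Even j, z j / Zp j = 1 := by
      have : ∑ j ∈ C with ¬ Even j, z j / Zp j = ∑ j ∈ C with ¬ Even j, z j / Zo :=
        Finset.sum_congr rfl fun j hj => by
          simp only [hZp]; rw [if_neg (Finset.mem_filter.1 hj).2]
      rw [this, ← Finset.sum_div, ← hZo, div_self hZo0.ne']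
    rw [e5, e6]; norm_num
  have hsum : (R.map fun p => p.2 * Real.log (z p.1)).sum - (R.map fun p => phi p.2).sum -
      (R.map fun p => p.2 * Real.log (Zp p.1)).sum ≤ 0 := by
    have h1 : (R.map fun p => p.2 * Real.log (z p.1) - phi p.2 - p.2 * Real.log (Zp p.1)).sum ≤
        (R.map fun p => z p.1 / Zp p.1 - p.2).sum := List.sum_le_sum gibbs
    rw [sum_map_sub' R (fun p => p.2 * Real.log (z p.1) - phi p.2) (fun p => p.2 * Real.log (Zp p.1)),
      sum_map_sub' R (fun p => p.2 * Real.log (z p.1)) (fun p => phi p.2),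
      sum_map_sub' R (fun p => z p.1 / Zp p.1) (fun p => p.2)] at h1
    linarith
  -- the Z-part
  have hZlog : (R.map fun p => p.2 * Real.log (Zp p.1)).sum = Real.log Ze + Real.log Zo := by
    rw [hRlin (fun j => Real.log (Zp j))]
    have : ((a1 :: M).map fun c : Atm =>
        c.2.2 * (Real.log (Zp (c.1 + c.2.1)) + Real.log (Zp (c.1 + c.2.1 + 1)))).sum =
        ((a1 :: M).map fun c => (Real.log Ze + Real.log Zo) * c.2.2).sum := by
      congr 1
      refine List.map_congr_left fun c _ => ?_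
      simp only [hZp, Int.even_add_one]
      by_cases hev : Even (c.1 + c.2.1)
      · simp only [hev, not_true_eq_false, if_true, if_false]; ring
      · simp only [hev, not_false_eq_true, if_true, if_false]; ring
    rw [this, List.sum_map_mul_left, sumw, mul_one]
  -- the z-part
  have hzlog : Real.log a + Real.log b + ∑ s ∈ A, phi (F s) + ∑ s ∈ B, phi (G s) ≤
      (R.map fun p => p.2 * Real.log (z p.1)).sum := by
    rw [hRlin (fun j => Real.log (z j))]
    have m1 := nw_fst (fun s => Real.log (a * F s)) _ L1 L2 le_rfl s1 s2 ht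
    have m2 := nw_snd (fun s => Real.log (b * G s)) _ L1 L2 le_rfl s1 s2 ht
    rw [eM] at m1 m2
    have q1 : (L1.map fun p => p.2 * Real.log (a * F p.1)).sum =
        Real.log a + ∑ s ∈ A, phi (F s) := by
      rw [hL1, mkL_sum A F (fun p => p.2 * Real.log (a * F p.1))]
      have : ∀ s ∈ A, F s * Real.log (a * F s) = Real.log a * F s + phi (F s) := by
        intro s hs
        rw [Real.log_mul ha.ne' (hF s hs).ne', phi]; ring
      rw [Finset.sum_congr rfl this, Finset.sum_add_distrib, ← Finset.mul_sum, hFa, mul_one]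
    have q2 : (L2.map fun p => p.2 * Real.log (b * G p.1)).sum =
        Real.log b + ∑ s ∈ B, phi (G s) := by
      rw [hL2, mkL_sum B G (fun p => p.2 * Real.log (b * G p.1))]
      have : ∀ s ∈ B, G s * Real.log (b * G s) = Real.log b * G s + phi (G s) := by
        intro s hs
        rw [Real.log_mul hb.ne' (hG s hs).ne', phi]; ring
      rw [Finset.sum_congr rfl this, Finset.sum_add_distrib, ← Finset.mul_sum, hGb, mul_one]
    have q3 : Real.log a + Real.log b + ∑ s ∈ A, phi (F s) + ∑ s ∈ B, phi (G s) =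
        ((a1 :: M).map fun c : Atm => c.2.2 * Real.log (a * F c.1) +
          c.2.2 * Real.log (b * G c.2.1)).sum := by
      rw [List.sum_map_add, m1, m2, q1, q2]; ring
    rw [q3]
    refine List.sum_le_sum fun c hc => ?_
    obtain ⟨h1, h2⟩ := hmem c hc
    obtain ⟨h3, h4⟩ := hzz c hc
    have hcw : 0 < c.2.2 := by
      have hall : ∀ (N : List Atm) (x y : ℤ), Mon x y N → ∀ c ∈ N, 0 < c.2.2 := by
        intro N
        induction N with
        | nil => intro x y _ c hc; simp at hc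
        | cons d N ih =>
          intro x y hN c hc
          obtain ⟨-, -, -, hd, hN'⟩ := hN
          rcases List.mem_cons.1 hc with rfl | hc
          · exact hd
          · exact ih _ _ hN' c hc
      rcases List.mem_cons.1 hc with rfl | hc
      · exact hw1
      · exact hall M _ _ hmon1 c hc
    rw [← mul_add]
    refine mul_le_mul_of_nonneg_left ?_ hcw.le
    have h5 := h _ h1 _ h2
    have p1 := mul_pos ha (hF _ h1)
    have p2 := mul_pos hb (hG _ h2)
    rw [← Real.log_mul p1.ne' p2.ne', ← Real.log_mul h3.ne' h4.ne']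
    exact Real.log_le_log (mul_pos p1 p2) h5
  have final : Real.log (a * b) ≤ Real.log (Ze * Zo) := by
    rw [Real.log_mul ha.ne' hb.ne', Real.log_mul hZe0.ne' hZo0.ne']
    linarith
  exact (Real.log_le_log_iff (mul_pos ha hb) (mul_pos hZe0 hZo0)).1 final

/-- one dimensional Klartag–Lehec inequality, real form -/
theorem kl1_real (F G z : ℤ → ℝ) (A B C : Finset ℤ) (hF : ∀ s, 0 ≤ F s) (hG : ∀ s, 0 ≤ G s)
    (hz : ∀ j, 0 ≤ z j) (h : ∀ s ∈ A, ∀ t ∈ B, F s * G t ≤ z (s + t) * z (s + t + 1))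
    (hC : ∀ s ∈ A, ∀ t ∈ B, s + t ∈ C ∧ s + t + 1 ∈ C) :
    (∑ s ∈ A, F s) * (∑ s ∈ B, G s) ≤
      (∑ j ∈ C with Even j, z j) * (∑ j ∈ C with ¬ Even j, z j) := by
  classical
  have hR : 0 ≤ (∑ j ∈ C with Even j, z j) * (∑ j ∈ C with ¬ Even j, z j) :=
    mul_nonneg (Finset.sum_nonneg fun j _ => hz j) (Finset.sum_nonneg fun j _ => hz j)
  rcases (Finset.sum_nonneg fun s (_ : s ∈ A) => hF s).eq_or_lt with hA | hA
  · rw [← hA, zero_mul]; exact hR
  rcases (Finset.sum_nonneg fun s (_ : s ∈ B) => hG s).eq_or_lt with hB | hB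
  · rw [← hB, mul_zero]; exact hR
  set A' := A.filter fun s => 0 < F s with hA'
  set B' := B.filter fun s => 0 < G s with hB'
  set a := ∑ s ∈ A, F s with haa
  set b := ∑ s ∈ B, G s with hbb
  have eA : ∑ s ∈ A', F s = a := by
    rw [hA', Finset.sum_filter, haa]
    refine Finset.sum_congr rfl fun s _ => ?_
    split_ifs with h0
    · rfl
    · exact le_antisymm (hF s) (not_lt.1 h0)
  have eB : ∑ s ∈ B', G s = b := by
    rw [hB', Finset.sum_filter, hbb]
    refine Finset.sum_congr rfl fun s _ => ?_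
    split_ifs with h0
    · rfl
    · exact le_antisymm (hG s) (not_lt.1 h0)
  refine kl1_aux (fun s => F s / a) (fun s => G s / b) z A' B' C a b hA hB ?_ ?_ ?_ ?_ hz ?_ ?_
  · intro s hs; exact div_pos (Finset.mem_filter.1 hs).2 hA
  · intro s hs; exact div_pos (Finset.mem_filter.1 hs).2 hB
  · rw [← Finset.sum_div, eA, div_self hA.ne']
  · rw [← Finset.sum_div, eB, div_self hB.ne']
  · intro s hs t ht
    have : a * (F s / a) * (b * (G t / b)) = F s * G t := by field_simp
    rw [this]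
    exact h s (Finset.mem_filter.1 hs).1 t (Finset.mem_filter.1 ht).1
  · intro s hs t ht
    exact hC s (Finset.mem_filter.1 hs).1 t (Finset.mem_filter.1 ht).1

end Crest.Agent.R144.Dpl702
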