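import Crest.Agent.R144.Dpl2_702

/-!
# R144: Klartag–Lehec discrete Prékopa–Leindler on `ι → ℤ`, `ℝ≥0∞`-valued (helper702)

`kl_pi` : if `f x * g y ≤ h ⌊(x+y)/2⌋ * k ⌈(x+y)/2⌉` for all `x y : ι → ℤ` then
`(∑' f) * (∑' g) ≤ (∑' h) * (∑' k)`.
-/

set_option autoImplicit false

noncomputable section

namespace Crest.Agent.R144.Dpl702

open Finset
open scoped ENNReal

theorem kl1 (F G H K : ℤ → ℝ≥0∞)
    (hh : ∀ s t : ℤ, F s * G t ≤ H ((s + t) / 2) * K ((s + t + 1) / 2)) :
    (∑' s, F s) * (∑' s, G s) ≤ (∑' s, H s) * (∑' s, K s) := by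
  classical
  by_cases hH0 : ∑' s, H s = 0
  · have hH : ∀ s, H s = 0 := ENNReal.tsum_eq_zero.1 hH0
    have hFG : ∀ s t, F s * G t = 0 := fun s t => le_antisymm (by
      have := hh s t; rw [hH, zero_mul] at this; exact this) bot_le
    rw [← ENNReal.tsum_mul_right]
    simp_rw [← ENNReal.tsum_mul_left, hFG]
    simp
  by_cases hK0 : ∑' s, K s = 0
  · have hK : ∀ s, K s = 0 := ENNReal.tsum_eq_zero.1 hK0
    have hFG : ∀ s t, F s * G t = 0 := fun s t => le_antisymm (by
      have := hh s t; rw [hK, mul_zero] at this; exact this) bot_le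
    rw [← ENNReal.tsum_mul_right]
    simp_rw [← ENNReal.tsum_mul_left, hFG]
    simp
  by_cases hH1 : ∑' s, H s = ⊤
  · rw [hH1, ENNReal.top_mul hK0]; exact le_top
  by_cases hK1 : ∑' s, K s = ⊤
  · rw [hK1, ENNReal.mul_top hH0]; exact le_top
  have hHf : ∀ s, H s ≠ ⊤ := fun s => ne_top_of_le_ne_top hH1 (ENNReal.le_tsum s)
  have hKf : ∀ s, K s ≠ ⊤ := fun s => ne_top_of_le_ne_top hK1 (ENNReal.le_tsum s)
  by_cases hFt : ∃ s, F s = ⊤
  · obtain ⟨s, hs⟩ := hFt
    have hG : ∀ t, G t = 0 := by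
      intro t
      by_contra h0
      have := hh s t
      rw [hs, ENNReal.top_mul h0] at this
      exact (ENNReal.mul_lt_top (hHf _).lt_top (hKf _).lt_top).ne (le_antisymm le_top this)
    simp [hG]
  by_cases hGt : ∃ t, G t = ⊤
  · obtain ⟨t, ht⟩ := hGt
    have hF : ∀ s, F s = 0 := by
      intro s
      by_contra h0
      have := hh s t
      rw [ht, ENNReal.mul_top h0] at this
      exact (ENNReal.mul_lt_top (hHf _).lt_top (hKf _).lt_top).ne (le_antisymm le_top this)
    simp [hF]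
  push Not at hFt hGt
  -- reduce to finite sets
  rw [ENNReal.tsum_eq_iSup_sum (f := F), ENNReal.iSup_mul]
  refine iSup_le fun A => ?_
  rw [ENNReal.tsum_eq_iSup_sum (f := G), ENNReal.mul_iSup]
  refine iSup_le fun B => ?_
  -- real version
  set z : ℤ → ℝ := fun j => if Even j then (K (j / 2)).toReal else (H (j / 2)).toReal with hz
  set C : Finset ℤ := ((A ×ˢ B).image fun p => p.1 + p.2) ∪ ((A ×ˢ B).image fun p => p.1 + p.2 + 1)
    with hC
  have key := kl1_real (fun s => (F s).toReal) (fun s => (G s).toReal) z A B C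
    (fun _ => ENNReal.toReal_nonneg) (fun _ => ENNReal.toReal_nonneg)
    (fun j => by simp only [hz]; split_ifs <;> exact ENNReal.toReal_nonneg)
    (by
      intro s _ t _
      have h1 := hh s t
      have h2 := ENNReal.toReal_mono
        (ENNReal.mul_lt_top (hHf ((s + t) / 2)).lt_top (hKf ((s + t + 1) / 2)).lt_top).ne h1
      rw [ENNReal.toReal_mul, ENNReal.toReal_mul] at h2
      refine h2.trans (le_of_eq ?_)
      simp only [hz]
      by_cases hev : Even (s + t)
      · have hod : ¬ Even (s + t + 1) := by rw [Int.even_add_one]; simpa using hev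
        rw [if_pos hev, if_neg hod]
        obtain ⟨m, hm⟩ := hev
        have e1 : (s + t) / 2 = m := by omega
        have e2 : (s + t + 1) / 2 = m := by omega
        rw [e1, e2, mul_comm]
      · have hod : Even (s + t + 1) := by rw [Int.even_add_one]; simpa using hev
        rw [if_neg hev, if_pos hod])
    (by
      intro s hs t ht
      refine ⟨Finset.mem_union_left _ (Finset.mem_image.2 ⟨(s, t), by simp [hs, ht], rfl⟩),
        Finset.mem_union_right _ (Finset.mem_image.2 ⟨(s, t), by simp [hs, ht], rfl⟩)⟩)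
  -- compare the two factors
  have bK : ENNReal.ofReal (∑ j ∈ C with Even j, z j) ≤ ∑' s, K s := by
    rw [ENNReal.ofReal_sum_of_nonneg (fun j _ => by
      simp only [hz]; split_ifs <;> exact ENNReal.toReal_nonneg)]
    have e1 : ∑ j ∈ C with Even j, ENNReal.ofReal (z j) = ∑ j ∈ C with Even j, K (j / 2) := by
      refine Finset.sum_congr rfl fun j hj => ?_
      simp only [hz]
      rw [if_pos (Finset.mem_filter.1 hj).2, ENNReal.ofReal_toReal (hKf _)]
    have e2 : ∑ j ∈ C with Even j, K (j / 2) =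
        ∑ m ∈ (C.filter fun j => Even j).image (fun j => j / 2), K m := by
      rw [Finset.sum_image]
      intro j hj j' hj' he
      have h1 := (Finset.mem_filter.1 hj).2
      have h2 := (Finset.mem_filter.1 hj').2
      rw [Int.even_iff] at h1 h2
      simp only at he
      omega
    rw [e1, e2]
    exact ENNReal.sum_le_tsum _
  have bH : ENNReal.ofReal (∑ j ∈ C with ¬ Even j, z j) ≤ ∑' s, H s := by
    rw [ENNReal.ofReal_sum_of_nonneg (fun j _ => by
      simp only [hz]; split_ifs <;> exact ENNReal.toReal_nonneg)]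
    have e1 : ∑ j ∈ C with ¬ Even j, ENNReal.ofReal (z j) = ∑ j ∈ C with ¬ Even j, H (j / 2) := by
      refine Finset.sum_congr rfl fun j hj => ?_
      simp only [hz]
      rw [if_neg (Finset.mem_filter.1 hj).2, ENNReal.ofReal_toReal (hHf _)]
    have e2 : ∑ j ∈ C with ¬ Even j, H (j / 2) =
        ∑ m ∈ (C.filter fun j => ¬ Even j).image (fun j => j / 2), H m := by
      rw [Finset.sum_image]
      intro j hj j' hj' he
      have h1 := (Finset.mem_filter.1 hj).2
      have h2 := (Finset.mem_filter.1 hj').2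
      rw [Int.even_iff] at h1 h2
      simp only at he
      omega
    rw [e1, e2]
    exact ENNReal.sum_le_tsum _
  have eF : ∑ s ∈ A, F s = ENNReal.ofReal (∑ s ∈ A, (F s).toReal) := by
    rw [ENNReal.ofReal_sum_of_nonneg (fun _ _ => ENNReal.toReal_nonneg)]
    exact Finset.sum_congr rfl fun s _ => (ENNReal.ofReal_toReal (hFt s)).symm
  have eG : ∑ s ∈ B, G s = ENNReal.ofReal (∑ s ∈ B, (G s).toReal) := by
    rw [ENNReal.ofReal_sum_of_nonneg (fun _ _ => ENNReal.toReal_nonneg)]
    exact Finset.sum_congr rfl fun s _ => (ENNReal.ofReal_toReal (hGt s)).symm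
  rw [eF, eG, ← ENNReal.ofReal_mul (Finset.sum_nonneg fun _ _ => ENNReal.toReal_nonneg)]
  refine (ENNReal.ofReal_le_ofReal key).trans ?_
  rw [ENNReal.ofReal_mul (Finset.sum_nonneg fun j _ => by
      simp only [hz]; split_ifs <;> exact ENNReal.toReal_nonneg), mul_comm]
  exact mul_le_mul' bH bK

/-- floor of the midpoint -/
def fl {ι : Type*} (x y : ι → ℤ) : ι → ℤ := fun i => (x i + y i) / 2

/-- ceiling of the midpoint -/
def ce {ι : Type*} (x y : ι → ℤ) : ι → ℤ := fun i => (x i + y i + 1) / 2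

theorem fl_add_ce {ι : Type*} (x y : ι → ℤ) (i : ι) : fl x y i + ce x y i = x i + y i := by
  simp only [fl, ce]; omega

theorem ce_sub_fl {ι : Type*} (x y : ι → ℤ) (i : ι) :
    ce x y i - fl x y i = 0 ∨ ce x y i - fl x y i = 1 := by
  simp only [fl, ce]; omega

theorem klFin : ∀ (n : ℕ) (f g h k : (Fin n → ℤ) → ℝ≥0∞),
    (∀ x y, f x * g y ≤ h (fl x y) * k (ce x y)) →
    (∑' x, f x) * (∑' x, g x) ≤ (∑' x, h x) * (∑' x, k x) := by
  intro n
  induction n with
  | zero =>
    intro f g h k hh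
    have e : ∀ q : (Fin 0 → ℤ) → ℝ≥0∞, ∑' x, q x = q 0 := fun q => by
      rw [tsum_eq_single (0 : Fin 0 → ℤ) (fun b hb => absurd (Subsingleton.elim b 0) hb)]
    rw [e, e, e, e]
    have := hh 0 0
    have e1 : fl (0 : Fin 0 → ℤ) 0 = 0 := Subsingleton.elim _ _
    have e2 : ce (0 : Fin 0 → ℤ) 0 = 0 := Subsingleton.elim _ _
    rwa [e1, e2] at this
  | succ n ih =>
    intro f g h k hh
    have e : ∀ q : (Fin (n + 1) → ℤ) → ℝ≥0∞, ∑' x, q x = ∑' s : ℤ, ∑' x : Fin n → ℤ,
        q (Fin.cons s x) := fun q => by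
      rw [← (Fin.consEquiv (fun _ => ℤ)).tsum_eq q, ENNReal.tsum_prod']
      rfl
    rw [e f, e g, e h, e k]
    refine kl1 _ _ _ _ fun s t => ih _ _ _ _ fun x y => ?_
    have h1 := hh (Fin.cons s x) (Fin.cons t y)
    have e1 : fl (Fin.cons s x : Fin (n + 1) → ℤ) (Fin.cons t y) =
        Fin.cons ((s + t) / 2) (fl x y) := by
      funext i
      refine Fin.cases ?_ (fun i => ?_) i
      · simp [fl]
      · simp [fl]
    have e2 : ce (Fin.cons s x : Fin (n + 1) → ℤ) (Fin.cons t y) =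
        Fin.cons ((s + t + 1) / 2) (ce x y) := by
      funext i
      refine Fin.cases ?_ (fun i => ?_) i
      · simp [ce]
      · simp [ce]
    rwa [e1, e2] at h1

/-- Klartag–Lehec inequality -/
theorem kl_pi {ι : Type*} [Finite ι] (f g h k : (ι → ℤ) → ℝ≥0∞)
    (hh : ∀ x y, f x * g y ≤ h (fl x y) * k (ce x y)) :
    (∑' x, f x) * (∑' x, g x) ≤ (∑' x, h x) * (∑' x, k x) := by
  obtain ⟨n, ⟨e⟩⟩ := Finite.exists_equiv_fin ι
  let E : (Fin n → ℤ) ≃ (ι → ℤ) := e.symm.arrowCongr (Equiv.refl ℤ)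
  have hE : ∀ (x : Fin n → ℤ) (i : ι), E x i = x (e i) := fun x i => rfl
  rw [← E.tsum_eq f, ← E.tsum_eq g, ← E.tsum_eq h, ← E.tsum_eq k]
  exact klFin n _ _ _ _ fun x y => hh (E x) (E y)

/-- the set form for an `L`-natural log-concave weight -/
theorem kl_set {ι : Type*} [Finite ι] (W : (ι → ℤ) → ℝ≥0∞)
    (hW : ∀ x y, W x * W y ≤ W (fl x y) * W (ce x y)) (A B A' B' : Set (ι → ℤ))
    (hAB : ∀ x ∈ A, ∀ y ∈ B, W x ≠ 0 → W y ≠ 0 → fl x y ∈ A' ∧ ce x y ∈ B') :
    (∑' x, A.indicator W x) * (∑' x, B.indicator W x) ≤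
      (∑' x, A'.indicator W x) * (∑' x, B'.indicator W x) := by
  classical
  refine kl_pi _ _ _ _ fun x y => ?_
  by_cases hx : x ∈ A
  · by_cases hy : y ∈ B
    · by_cases h1 : W x = 0
      · rw [Set.indicator_of_mem hx, h1, zero_mul]; exact bot_le
      · by_cases h2 : W y = 0
        · rw [Set.indicator_of_mem hy, h2, mul_zero]; exact bot_le
        · obtain ⟨h3, h4⟩ := hAB x hx y hy h1 h2
          rw [Set.indicator_of_mem hx, Set.indicator_of_mem hy, Set.indicator_of_mem h3,
            Set.indicator_of_mem h4]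
          exact hW x y
    · rw [Set.indicator_of_notMem hy, mul_zero]; exact bot_le
  · rw [Set.indicator_of_notMem hx, zero_mul]; exact bot_le

end Crest.Agent.R144.Dpl702
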