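import Mathlib

/-!
# R144 (helper121): the four functions theorem (Ahlswede-Daykin / Holley) on `ι → ℝ`

`FF E μ`: for measurable `f₁ f₂ f₃ f₄ : E → ℝ≥0∞` with
`f₁ x * f₂ y ≤ f₃ (x ⊓ y) * f₄ (x ⊔ y)` one has `∫ f₁ * ∫ f₂ ≤ ∫ f₃ * ∫ f₄`.

* `FF_real`, `FF.prod`, `FF_pi`, `FF_fintype`;
* `vol_ff`: the version for sets.
-/

set_option autoImplicit false

open MeasureTheory Set
open scoped ENNReal

noncomputable section

namespace Crest.Agent.R144.FF121

/-- The four functions property. -/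
def FF (E : Type*) [Lattice E] [MeasurableSpace E] (μ : Measure E) : Prop :=
  ∀ f₁ f₂ f₃ f₄ : E → ℝ≥0∞, Measurable f₁ → Measurable f₂ → Measurable f₃ → Measurable f₄ →
    (∀ x y, f₁ x * f₂ y ≤ f₃ (x ⊓ y) * f₄ (x ⊔ y)) →
    (∫⁻ x, f₁ x ∂μ) * (∫⁻ x, f₂ x ∂μ) ≤ (∫⁻ x, f₃ x ∂μ) * ∫⁻ x, f₄ x ∂μ

/-- `a, b ≤ c` and `a b ≤ c d` imply `a + b ≤ c + d`. -/
lemma add_le_add_of_mul {a b c d : ℝ≥0∞} (ha : a ≤ c) (hb : b ≤ c) (hab : a * b ≤ c * d) :
    a + b ≤ c + d := by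
  rcases eq_or_ne c ∞ with hc | hc
  · rw [hc]; simp
  rcases eq_or_ne c 0 with hc0 | hc0
  · rw [hc0, nonpos_iff_eq_zero] at ha hb
    simp [ha, hb]
  rcases eq_or_ne d ∞ with hd | hd
  · rw [hd]; simp
  have ha' : a ≠ ∞ := ne_top_of_le_ne_top hc ha
  have hb' : b ≠ ∞ := ne_top_of_le_ne_top hc hb
  lift a to NNReal using ha'
  lift b to NNReal using hb'
  lift c to NNReal using hc
  lift d to NNReal using hd
  have ha1 : (a : ℝ) ≤ c := by exact_mod_cast ha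
  have hb1 : (b : ℝ) ≤ c := by exact_mod_cast hb
  have hab1 : (a : ℝ) * b ≤ c * d := by
    have : a * b ≤ c * d := by exact_mod_cast hab
    exact_mod_cast this
  have hc1 : (0 : ℝ) < c := by
    have : c ≠ 0 := by exact_mod_cast hc0
    exact_mod_cast pos_iff_ne_zero.mpr this
  have key : (a : ℝ) + b ≤ c + d := by
    have h1 : 0 ≤ ((c : ℝ) - a) * (c - b) := mul_nonneg (by linarith) (by linarith)
    have h2 : (c : ℝ) * (a + b) ≤ c * (c + d) := by nlinarith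
    exact le_of_mul_le_mul_left h2 hc1
  exact_mod_cast key

theorem FF_real : FF ℝ volume := by
  intro f₁ f₂ f₃ f₄ h1 h2 h3 h4 H
  have hp : ∀ f g : ℝ → ℝ≥0∞, Measurable f → Measurable g →
      (∫⁻ x, f x) * (∫⁻ x, g x) = ∫⁻ z : ℝ × ℝ, f z.1 * g z.2 := by
    intro f g hf hg
    rw [Measure.volume_eq_prod, lintegral_prod_mul hf.aemeasurable hg.aemeasurable]
  have hsw : ∀ f g : ℝ → ℝ≥0∞, Measurable f → Measurable g →
      ∫⁻ z : ℝ × ℝ, f z.1 * g z.2 = ∫⁻ z : ℝ × ℝ, f z.2 * g z.1 := by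
    intro f g hf hg
    rw [← hp f g hf hg, mul_comm, hp g f hg hf]
    exact lintegral_congr fun z => mul_comm _ _
  have two : ∀ f g : ℝ → ℝ≥0∞, Measurable f → Measurable g →
      2 * ((∫⁻ x, f x) * (∫⁻ x, g x)) = ∫⁻ z : ℝ × ℝ, (f z.1 * g z.2 + f z.2 * g z.1) := by
    intro f g hf hg
    rw [lintegral_add_left (by fun_prop), ← hsw f g hf hg, ← hp f g hf hg, two_mul]
  have key : 2 * ((∫⁻ x, f₁ x) * (∫⁻ x, f₂ x)) ≤ 2 * ((∫⁻ x, f₃ x) * ∫⁻ x, f₄ x) := by
    rw [two f₁ f₂ h1 h2, two f₃ f₄ h3 h4]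
    refine lintegral_mono fun z => ?_
    have main : ∀ x y : ℝ, x ≤ y →
        f₁ x * f₂ y + f₁ y * f₂ x ≤ f₃ x * f₄ y + f₃ y * f₄ x := by
      intro x y hxy
      have e1 := H x y
      have e2 := H y x
      have e3 := H x x
      have e4 := H y y
      rw [inf_eq_left.mpr hxy, sup_eq_right.mpr hxy] at e1
      rw [inf_eq_right.mpr hxy, sup_eq_left.mpr hxy] at e2
      rw [inf_idem, sup_idem] at e3 e4
      refine add_le_add_of_mul e1 e2 ?_
      calc f₁ x * f₂ y * (f₁ y * f₂ x) = (f₁ x * f₂ x) * (f₁ y * f₂ y) := by ring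
        _ ≤ (f₃ x * f₄ x) * (f₃ y * f₄ y) := mul_le_mul' e3 e4
        _ = f₃ x * f₄ y * (f₃ y * f₄ x) := by ring
    rcases le_total z.1 z.2 with h | h
    · exact main _ _ h
    · have := main _ _ h
      rw [add_comm (f₁ z.2 * f₂ z.1), add_comm (f₃ z.2 * f₄ z.1)] at this
      exact this
  exact (ENNReal.mul_le_mul_iff_right (by norm_num) (by norm_num)).1 key

theorem FF.prod {E F : Type*} [Lattice E] [MeasurableSpace E] [Lattice F] [MeasurableSpace F]
    {μ : Measure E} {ν : Measure F} [SFinite ν] [SFinite μ] (hE : FF E μ) (hF : FF F ν) :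
    FF (E × F) (μ.prod ν) := by
  intro f₁ f₂ f₃ f₄ h1 h2 h3 h4 H
  rw [lintegral_prod _ h1.aemeasurable, lintegral_prod _ h2.aemeasurable,
    lintegral_prod _ h3.aemeasurable, lintegral_prod _ h4.aemeasurable]
  refine hE _ _ _ _ h1.lintegral_prod_right' h2.lintegral_prod_right' h3.lintegral_prod_right'
    h4.lintegral_prod_right' fun x x' => ?_
  exact hF _ _ _ _ (h1.comp measurable_prodMk_left) (h2.comp measurable_prodMk_left)
    (h3.comp measurable_prodMk_left) (h4.comp measurable_prodMk_left)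
    fun y y' => H (x, y) (x', y')

theorem FF.of_measurePreserving {E E' : Type*} [Lattice E] [MeasurableSpace E] [Lattice E']
    [MeasurableSpace E'] {μ : Measure E} {μ' : Measure E'} (e : E ≃ᵐ E')
    (he : MeasurePreserving e μ μ') (hinf : ∀ x y, e (x ⊓ y) = e x ⊓ e y)
    (hsup : ∀ x y, e (x ⊔ y) = e x ⊔ e y) (h : FF E μ) : FF E' μ' := by
  intro f₁ f₂ f₃ f₄ h1 h2 h3 h4 H
  rw [← he.lintegral_comp h1, ← he.lintegral_comp h2, ← he.lintegral_comp h3,
    ← he.lintegral_comp h4]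
  refine h _ _ _ _ (h1.comp e.measurable) (h2.comp e.measurable) (h3.comp e.measurable)
    (h4.comp e.measurable) fun x y => ?_
  rw [hinf, hsup]
  exact H (e x) (e y)

theorem FF_pi (n : ℕ) : FF (Fin n → ℝ) volume := by
  induction n with
  | zero =>
    intro f₁ f₂ f₃ f₄ _ _ _ _ H
    have hv : (volume : Measure (Fin 0 → ℝ)) = Measure.dirac default := by
      rw [volume_pi]; exact Measure.pi_of_empty _ _
    rw [hv]
    simp only [lintegral_dirac]
    have := H default default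
    rw [inf_idem, sup_idem] at this
    exact this
  | succ n ih =>
    have hmp := volume_preserving_piFinSuccAbove (fun _ : Fin (n + 1) => ℝ) 0
    refine FF.of_measurePreserving
      (MeasurableEquiv.piFinSuccAbove (fun _ : Fin (n + 1) => ℝ) 0).symm
      (hmp.symm _) ?_ ?_ (FF_real.prod ih)
    · intro x y
      ext i
      refine Fin.cases ?_ (fun j => ?_) i <;> simp [MeasurableEquiv.piFinSuccAbove]
    · intro x y
      ext i
      refine Fin.cases ?_ (fun j => ?_) i <;> simp [MeasurableEquiv.piFinSuccAbove]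

theorem FF_fintype {ι : Type*} [Fintype ι] : FF (ι → ℝ) volume := by
  classical
  refine FF.of_measurePreserving (E := Fin (Fintype.card ι) → ℝ)
    (MeasurableEquiv.piCongrLeft (fun _ : ι => ℝ) (Fintype.equivFin ι).symm)
    (volume_measurePreserving_piCongrLeft (fun _ : ι => ℝ) (Fintype.equivFin ι).symm) ?_ ?_
    (FF_pi _)
  · intro x y
    ext i
    obtain ⟨j, rfl⟩ := (Fintype.equivFin ι).symm.surjective i
    simp [MeasurableEquiv.coe_piCongrLeft, Equiv.piCongrLeft_apply_apply]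
  · intro x y
    ext i
    obtain ⟨j, rfl⟩ := (Fintype.equivFin ι).symm.surjective i
    simp [MeasurableEquiv.coe_piCongrLeft, Equiv.piCongrLeft_apply_apply]

/-- Four functions theorem for sets. -/
theorem vol_ff {ι : Type*} [Fintype ι] {A B C D : Set (ι → ℝ)} (hA : MeasurableSet A)
    (hB : MeasurableSet B) (hC : MeasurableSet C) (hD : MeasurableSet D)
    (H : ∀ x ∈ A, ∀ y ∈ B, x ⊓ y ∈ C ∧ x ⊔ y ∈ D) :
    volume A * volume B ≤ volume C * volume D := by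
  have key := FF_fintype (ι := ι) (A.indicator 1) (B.indicator 1) (C.indicator 1) (D.indicator 1)
    (measurable_one.indicator hA) (measurable_one.indicator hB) (measurable_one.indicator hC)
    (measurable_one.indicator hD) ?_
  · simpa [lintegral_indicator_one hA, lintegral_indicator_one hB, lintegral_indicator_one hC,
      lintegral_indicator_one hD] using key
  · intro x y
    by_cases hx : x ∈ A
    · by_cases hy : y ∈ B
      · obtain ⟨h1, h2⟩ := H x hx y hy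
        simp [hx, hy, h1, h2]
      · simp [hy]
    · simp [hx]

/-- FKG inequality for log-supermodular densities on `ι → ℝ`. -/
theorem fkg {ι : Type*} [Fintype ι] {ρ f g : (ι → ℝ) → ℝ≥0∞} (hρ : Measurable ρ)
    (hf : Measurable f) (hg : Measurable g) (hfm : Monotone f) (hgm : Monotone g)
    (H : ∀ x y, ρ x * ρ y ≤ ρ (x ⊓ y) * ρ (x ⊔ y)) :
    (∫⁻ x, f x * ρ x) * (∫⁻ x, g x * ρ x) ≤ (∫⁻ x, ρ x) * ∫⁻ x, f x * g x * ρ x := by
  refine FF_fintype (ι := ι) _ _ _ _ (hf.mul hρ) (hg.mul hρ) hρ ((hf.mul hg).mul hρ)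
    fun x y => ?_
  calc f x * ρ x * (g y * ρ y) = f x * g y * (ρ x * ρ y) := by ring
    _ ≤ f (x ⊔ y) * g (x ⊔ y) * (ρ (x ⊓ y) * ρ (x ⊔ y)) :=
        mul_le_mul' (mul_le_mul' (hfm le_sup_left) (hgm le_sup_right)) (H x y)
    _ = ρ (x ⊓ y) * (f (x ⊔ y) * g (x ⊔ y) * ρ (x ⊔ y)) := by ring

/-- Holley's inequality on `ι → ℝ`. -/
theorem holley {ι : Type*} [Fintype ι] {ρ₁ ρ₂ f : (ι → ℝ) → ℝ≥0∞} (h1 : Measurable ρ₁)
    (h2 : Measurable ρ₂) (hf : Measurable f) (hfm : Monotone f)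
    (H : ∀ x y, ρ₁ x * ρ₂ y ≤ ρ₁ (x ⊓ y) * ρ₂ (x ⊔ y)) :
    (∫⁻ x, f x * ρ₁ x) * (∫⁻ x, ρ₂ x) ≤ (∫⁻ x, ρ₁ x) * ∫⁻ x, f x * ρ₂ x := by
  refine FF_fintype (ι := ι) _ _ _ _ (hf.mul h1) h2 h1 (hf.mul h2) fun x y => ?_
  calc f x * ρ₁ x * ρ₂ y = f x * (ρ₁ x * ρ₂ y) := by ring
    _ ≤ f (x ⊔ y) * (ρ₁ (x ⊓ y) * ρ₂ (x ⊔ y)) := mul_le_mul' (hfm le_sup_left) (H x y)
    _ = ρ₁ (x ⊓ y) * (f (x ⊔ y) * ρ₂ (x ⊔ y)) := by ring

end Crest.Agent.R144.FF121
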