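import Crest.Agent.R144.Ham2_560
import Crest.Prelude.Def_TriHeights

/-!
R144 (S0197), helper560.  The hammock polytope: boundedness, positive finite volume, and the bridge
to `realExpect`.

* `Anch F E` : every free vertex is joined to a non-free vertex;
* `isCompact_ham`, `volume_ham_lt_top`, `volume_ham_pos`;
* `triE T` : the edges of `T`; `triXi Ap Am lam` : the boundary data;
* `realExtend_eq`, `isRealHeight_iff`, `realExpect_eq`.
-/

set_option autoImplicit false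

open MeasureTheory Set
open scoped ENNReal

noncomputable section

namespace Crest.Agent.R144.Ham560

variable {U : Type*} [DecidableEq U] {F : Finset U} {E : Finset (U × U)} {ξ : U → ℝ}

/-- Slopes along `nbr`. -/
theorem ham_nbr {x : F → ℝ} (hx : x ∈ ham F E ξ) {a b : U} (h : b ∈ nbr E a) :
    |ext F ξ x a - ext F ξ x b| ≤ 1 := by
  rcases (mem_nbr.mp h).2 with h | h
  · exact hx _ h
  · rw [abs_sub_comm]; exact hx _ h

/-- Every free vertex is joined to a vertex with a prescribed value. -/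
def Anch (F : Finset U) (E : Finset (U × U)) : Prop :=
  ∀ v ∈ F, ∃ u, u ∉ F ∧ Relation.ReflTransGen (fun a b => b ∈ nbr E a) v u

/-- Heights differ by at most the length of a path. -/
theorem ham_path {v u : U} (h : Relation.ReflTransGen (fun a b => b ∈ nbr E a) v u) :
    ∃ n : ℕ, ∀ (ξ : U → ℝ) (x : F → ℝ), x ∈ ham F E ξ → |ext F ξ x v - ext F ξ x u| ≤ n := by
  induction h with
  | refl => exact ⟨0, fun ξ x _ => by simp⟩
  | @tail b c _ hbc ih =>
    obtain ⟨n, hn⟩ := ih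
    refine ⟨n + 1, fun ξ x hx => ?_⟩
    have h1 := abs_le.mp (hn ξ x hx)
    have h2 := abs_le.mp (ham_nbr hx hbc)
    rw [abs_le]; push_cast; constructor <;> linarith

theorem ham_bound (hA : Anch F E) (M : ℝ) : ∃ R : ℝ, ∀ (ξ : U → ℝ), (∀ u, |ξ u| ≤ M) →
    ∀ x ∈ ham F E ξ, ∀ v, |x v| ≤ R := by
  have h1 : ∀ v : F, ∃ n : ℕ, ∀ (ξ : U → ℝ), (∀ u, |ξ u| ≤ M) → ∀ x ∈ ham F E ξ, |x v| ≤ n + M := by
    rintro ⟨v, hv⟩
    obtain ⟨u, hu, hp⟩ := hA v hv
    obtain ⟨n, hn⟩ := ham_path (F := F) hp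
    refine ⟨n, fun ξ hξ x hx => ?_⟩
    have h2 := hn ξ x hx
    rw [ext_mem hv, ext_notMem hu] at h2
    have h3 := hξ u
    rw [abs_le] at h2 h3 ⊢
    constructor <;> linarith
  choose n hn using h1
  refine ⟨(Finset.univ.sum fun v : F => (n v : ℝ)) + M, fun ξ hξ x hx v => ?_⟩
  refine (hn v ξ hξ x hx).trans ?_
  have : (n v : ℝ) ≤ Finset.univ.sum fun v : F => (n v : ℝ) :=
    Finset.single_le_sum (f := fun v : F => (n v : ℝ)) (fun i _ => Nat.cast_nonneg _)
      (Finset.mem_univ v)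
  linarith

theorem isBounded_ham (hA : Anch F E) : Bornology.IsBounded (ham F E ξ) := by
  -- replace `ξ` by a bounded function
  have key : ∀ v : F, ∃ R : ℝ, ∀ x ∈ ham F E ξ, |x v| ≤ R := by
    rintro ⟨v, hv⟩
    obtain ⟨u, hu, hp⟩ := hA v hv
    obtain ⟨n, hn⟩ := ham_path (F := F) hp
    refine ⟨n + |ξ u|, fun x hx => ?_⟩
    have h2 := hn ξ x hx
    rw [ext_mem hv, ext_notMem hu] at h2
    have h3 := abs_le.mp (le_refl |ξ u|)
    rw [abs_le] at h2 ⊢
    constructor <;> linarith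
  choose R hR using key
  refine (Metric.isBounded_closedBall (x := (0 : F → ℝ))
    (r := Finset.univ.sum fun v : F => |R v|)).subset ?_
  intro x hx
  rw [mem_closedBall_zero_iff, pi_norm_le_iff_of_nonneg (Finset.sum_nonneg fun v _ => abs_nonneg _)]
  intro v
  rw [Real.norm_eq_abs]
  refine (hR v x hx).trans ((le_abs_self _).trans ?_)
  exact Finset.single_le_sum (f := fun v : F => |R v|) (fun i _ => abs_nonneg _)
    (Finset.mem_univ v)

theorem isCompact_ham (hA : Anch F E) : IsCompact (ham F E ξ) :=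
  Metric.isCompact_of_isClosed_isBounded isClosed_ham (isBounded_ham hA)

theorem volume_ham_lt_top (hA : Anch F E) : volume (ham F E ξ) < ∞ :=
  (isCompact_ham hA).measure_lt_top

/-- The cube `[-1/4, 1/4]^F` is contained in the polytope if `|ξ| ≤ 1/2`. -/
theorem cube_subset_ham (hξ : ∀ u, |ξ u| ≤ 1 / 2) :
    Set.pi Set.univ (fun _ : F => Set.Icc (-(1 / 4) : ℝ) (1 / 4)) ⊆ ham F E ξ := by
  intro x hx p _
  have h1 : ∀ u, |ext F ξ x u| ≤ 1 / 2 ∧ (u ∈ F → |ext F ξ x u| ≤ 1 / 4) := by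
    intro u
    by_cases hu : u ∈ F
    · rw [ext_mem hu]
      have := hx ⟨u, hu⟩ (mem_univ _)
      rw [mem_Icc] at this
      constructor
      · rw [abs_le]; constructor <;> linarith [this.1, this.2]
      · intro _; rw [abs_le]; constructor <;> linarith [this.1, this.2]
    · rw [ext_notMem hu]; exact ⟨hξ u, fun h => absurd h hu⟩
  have h2 := abs_le.mp (h1 p.1).1
  have h3 := abs_le.mp (h1 p.2).1
  rw [abs_le]; constructor <;> linarith

theorem volume_ham_pos (hξ : ∀ u, |ξ u| ≤ 1 / 2) : 0 < volume (ham F E ξ) := by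
  refine lt_of_lt_of_le ?_ (measure_mono (cube_subset_ham (F := F) (E := E) hξ))
  rw [volume_pi_pi]
  simp only [Real.volume_Icc]
  rw [Finset.prod_const]
  refine ENNReal.pow_pos ?_ _
  rw [ENNReal.ofReal_pos]; norm_num

theorem volume_ham_ne_zero (hξ : ∀ u, |ξ u| ≤ 1 / 2) : volume (ham F E ξ) ≠ 0 :=
  (volume_ham_pos hξ).ne'

/-! ### Bridge to the frozen definitions -/

open Crest.ProbabilityR.TriHeights

/-- The edges of `T`, as ordered pairs (both orientations). -/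
def triE (T : Finset Tri) : Finset ((ℤ × ℤ) × (ℤ × ℤ)) :=
  haveI := Classical.decPred fun p : (ℤ × ℤ) × (ℤ × ℤ) => IsEdge T p.1 p.2
  (verts T ×ˢ verts T).filter fun p => IsEdge T p.1 p.2

theorem mem_triE {T : Finset Tri} {p : (ℤ × ℤ) × (ℤ × ℤ)} : p ∈ triE T ↔ IsEdge T p.1 p.2 := by
  classical
  rw [triE, Finset.mem_filter, Finset.mem_product]
  constructor
  · exact fun h => h.2
  · intro h
    obtain ⟨t, ht, h1, h2⟩ := h.2
    exact ⟨⟨Finset.mem_biUnion.mpr ⟨t, ht, h1⟩, Finset.mem_biUnion.mpr ⟨t, ht, h2⟩⟩, h⟩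

theorem mem_nbr_triE {T : Finset Tri} {a b : ℤ × ℤ} : b ∈ nbr (triE T) a ↔ IsEdge T a b := by
  rw [mem_nbr, mem_triE, mem_triE]
  constructor
  · rintro ⟨h, h' | h'⟩
    · exact h'
    · obtain ⟨h1, t, ht, h2, h3⟩ := h'
      exact ⟨h1.symm, t, ht, h3, h2⟩
  · intro h
    exact ⟨h.1.symm, Or.inl h⟩

/-- Boundary data: `lam` on the plus arc, `-lam` on the minus arc. -/
def triXi (Ap Am : Set (ℤ × ℤ)) (lam : ℝ) (u : ℤ × ℤ) : ℝ :=
  haveI := Classical.decPred fun v : ℤ × ℤ => v ∈ Ap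
  haveI := Classical.decPred fun v : ℤ × ℤ => v ∈ Am
  if u ∈ Ap then lam else if u ∈ Am then -lam else 0

theorem abs_triXi_le {Ap Am : Set (ℤ × ℤ)} {lam : ℝ} (h0 : 0 ≤ lam) (u : ℤ × ℤ) :
    |triXi Ap Am lam u| ≤ lam := by
  rw [triXi]
  split_ifs
  · rw [abs_of_nonneg h0]
  · rw [abs_neg, abs_of_nonneg h0]
  · rw [abs_zero]; exact h0

theorem mem_freeVerts' {T : Finset Tri} {Ap Am : Set (ℤ × ℤ)} {v : ℤ × ℤ} :
    v ∈ freeVerts T Ap Am ↔ v ∈ verts T ∧ v ∉ Ap ∧ v ∉ Am := by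
  exact @Finset.mem_filter _ _ (Classical.decPred fun v : ℤ × ℤ => v ∉ Ap ∧ v ∉ Am) _ _

theorem realExtend_eq (T : Finset Tri) (Ap Am : Set (ℤ × ℤ)) (lam : ℝ)
    (x : freeVerts T Ap Am → ℝ) :
    realExtend T Ap Am lam x = ext (freeVerts T Ap Am) (triXi Ap Am lam) x := by
  classical
  funext u
  by_cases hu : u ∈ freeVerts T Ap Am
  · rw [ext_mem hu]
    have h : u ∉ Ap ∧ u ∉ Am := (mem_freeVerts'.mp hu).2
    rw [realExtend, if_neg h.1, if_neg h.2, dif_pos hu]
  · rw [ext_notMem hu, realExtend, triXi]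
    split_ifs <;> rfl

theorem isRealHeight_iff (T : Finset Tri) (Ap Am : Set (ℤ × ℤ)) (lam : ℝ)
    (hd : ∀ v, v ∈ Ap → v ∉ Am) (x : freeVerts T Ap Am → ℝ) :
    IsRealHeight T Ap Am lam (realExtend T Ap Am lam x) ↔
      x ∈ ham (freeVerts T Ap Am) (triE T) (triXi Ap Am lam) := by
  classical
  rw [realExtend_eq]
  constructor
  · rintro ⟨_, _, h⟩ p hp
    exact h _ _ (mem_triE.mp hp)
  · intro h
    refine ⟨fun v hv => ?_, fun v hv => ?_, fun v w hvw => h (v, w) (mem_triE.mpr hvw)⟩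
    · have : v ∉ freeVerts T Ap Am := fun h => (mem_freeVerts'.mp h).2.1 hv
      rw [ext_notMem this, triXi, if_pos hv]
    · have : v ∉ freeVerts T Ap Am := fun h => (mem_freeVerts'.mp h).2.2 hv
      rw [ext_notMem this, triXi, if_neg (fun h' => hd v h' hv), if_pos hv]

/-- `realExpect` is the average over the hammock polytope. -/
theorem realExpect_eq (T : Finset Tri) (Ap Am : Set (ℤ × ℤ)) (lam : ℝ)
    (hd : ∀ v, v ∈ Ap → v ∉ Am) (g : (ℤ × ℤ → ℝ) → ℂ) :
    realExpect T Ap Am lam g =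
      (∫ x in ham (freeVerts T Ap Am) (triE T) (triXi Ap Am lam),
        g (ext (freeVerts T Ap Am) (triXi Ap Am lam) x)) /
      ((volume (ham (freeVerts T Ap Am) (triE T) (triXi Ap Am lam))).toReal : ℂ) := by
  have h1 : {x : freeVerts T Ap Am → ℝ | IsRealHeight T Ap Am lam (realExtend T Ap Am lam x)} =
      ham (freeVerts T Ap Am) (triE T) (triXi Ap Am lam) := by
    ext x; exact isRealHeight_iff T Ap Am lam hd x
  rw [realExpect, h1]
  simp only [realExtend_eq]

/-- The uniform probability law on the polytope. -/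
def hamP (F : Finset U) (E : Finset (U × U)) (ξ : U → ℝ) : Measure (F → ℝ) :=
  (volume (ham F E ξ))⁻¹ • volume.restrict (ham F E ξ)

theorem isProbabilityMeasure_hamP (hA : Anch F E) (hξ : ∀ u, |ξ u| ≤ 1 / 2) :
    IsProbabilityMeasure (hamP F E ξ) := by
  constructor
  rw [hamP, Measure.smul_apply, Measure.restrict_apply_univ, smul_eq_mul]
  exact ENNReal.inv_mul_cancel (volume_ham_ne_zero hξ) (volume_ham_lt_top hA).ne

theorem integral_hamP (G : (F → ℝ) → ℂ) :
    ∫ x, G x ∂(hamP F E ξ) = (∫ x in ham F E ξ, G x) / ((volume (ham F E ξ)).toReal : ℂ) := by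
  rw [hamP, integral_smul_measure, ENNReal.toReal_inv, div_eq_inv_mul]
  rw [Complex.real_smul]
  push_cast
  rfl

theorem integral_hamP_real (G : (F → ℝ) → ℝ) :
    ∫ x, G x ∂(hamP F E ξ) = (∫ x in ham F E ξ, G x) / (volume (ham F E ξ)).toReal := by
  rw [hamP, integral_smul_measure, ENNReal.toReal_inv, div_eq_inv_mul]
  rfl

theorem realExpect_eq' (T : Finset Tri) (Ap Am : Set (ℤ × ℤ)) (lam : ℝ)
    (hd : ∀ v, v ∈ Ap → v ∉ Am) (g : (ℤ × ℤ → ℝ) → ℂ) :
    realExpect T Ap Am lam g =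
      ∫ x, g (ext (freeVerts T Ap Am) (triXi Ap Am lam) x)
        ∂(hamP (freeVerts T Ap Am) (triE T) (triXi Ap Am lam)) := by
  rw [realExpect_eq T Ap Am lam hd, integral_hamP]

end Crest.Agent.R144.Ham560
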