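import Crest.Agent.R144.Fi3_865
import Crest.Agent.R144.Ham5_560

/-!
# R144 (S0197), helper812: Poincaré inequality on a hammock fibre with a log-concave weight

* `pw_convexW`, `pw_piW` : 865's Payne–Weinberger inequality with a log-concave weight `W` on a
  bounded convex set of an inner product space / of `V → ℝ`;
* `pw_piNu` : the same for a probability measure `ν = (volume.restrict K).withDensity W`;
* `pw_piTilt` : the same for `ν = (volume.restrict K).tilted l`, `l` concave on `K`;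
* `anch_dist` : in an anchored block `I` every site is within `|I|` (in height) of a boundary value;
* `pw_ham`, `var_ham_tilted` : the Poincaré inequality on `ham I E ξ`, constant `2 |I|³`.
-/

set_option autoImplicit false
set_option linter.unusedSectionVars false

open MeasureTheory Set Filter Topology
open scoped ENNReal NNReal RealInnerProductSpace

namespace Crest.Agent.R144.Hpw812

open Crest.Agent.R144.Fi865 Crest.Agent.R144.Ham560

noncomputable section

/-- midpoint log-concavity of a weight on a set -/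
def MLC {E : Type*} [AddCommGroup E] [Module ℝ E] (K : Set E) (W : E → ℝ) : Prop :=
  ∀ x ∈ K, ∀ y ∈ K, √(W x) * √(W y) ≤ W ((1 / 2 : ℝ) • (x + y))

theorem mlc_exp {E : Type*} [AddCommGroup E] [Module ℝ E] {K : Set E} {l : E → ℝ}
    (hl : ConcaveOn ℝ K l) : MLC K fun x => Real.exp (l x) := by
  intro x hx y hy
  have h := hl.2 hx hy (by norm_num : (0 : ℝ) ≤ 1 / 2) (by norm_num : (0 : ℝ) ≤ 1 / 2)
    (by norm_num)
  rw [smul_eq_mul, smul_eq_mul] at h
  show √(Real.exp (l x)) * √(Real.exp (l y)) ≤ Real.exp (l ((1 / 2 : ℝ) • (x + y)))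
  rw [← Real.exp_half, ← Real.exp_half, ← Real.exp_add, Real.exp_le_exp, smul_add]
  linarith

theorem MLC.const_mul {E : Type*} [AddCommGroup E] [Module ℝ E] {K : Set E} {W : E → ℝ}
    (h : MLC K W) {c : ℝ} (hc : 0 ≤ c) : MLC K fun x => c * W x := by
  intro x hx y hy
  show √(c * W x) * √(c * W y) ≤ c * W ((1 / 2 : ℝ) • (x + y))
  rw [Real.sqrt_mul hc, Real.sqrt_mul hc]
  calc √c * √(W x) * (√c * √(W y)) = (√c * √c) * (√(W x) * √(W y)) := by ring
    _ = c * (√(W x) * √(W y)) := by rw [Real.mul_self_sqrt hc]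
    _ ≤ _ := mul_le_mul_of_nonneg_left (h x hx y hy) hc

theorem MLC.mul {E : Type*} [AddCommGroup E] [Module ℝ E] {K : Set E} {W W' : E → ℝ}
    (h : MLC K W) (h' : MLC K W') (hW : ∀ x, 0 ≤ W x) :
    MLC K fun x => W x * W' x := by
  intro x hx y hy
  show √(W x * W' x) * √(W y * W' y) ≤ _
  rw [Real.sqrt_mul (hW x), Real.sqrt_mul (hW y)]
  calc √(W x) * √(W' x) * (√(W y) * √(W' y)) = (√(W x) * √(W y)) * (√(W' x) * √(W' y)) := by ring
    _ ≤ _ := mul_le_mul (h x hx y hy) (h' x hx y hy) (by positivity) (hW _)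

section main

variable {E : Type*} [NormedAddCommGroup E] [InnerProductSpace ℝ E] [FiniteDimensional ℝ E]
  [MeasurableSpace E] [BorelSpace E]

theorem slc_of_mlc {K : Set E} (hK : Convex ℝ K) {W : E → ℝ} (hW0 : ∀ x, 0 ≤ W x)
    (hW : MLC K W) : SLC 0 (K.indicator W) := by
  intro x y
  rw [zero_div, zero_mul, neg_zero, Real.exp_zero, one_mul]
  by_cases hx : x ∈ K
  · by_cases hy : y ∈ K
    · have : (1 / 2 : ℝ) • (x + y) ∈ K := by
        rw [smul_add]
        exact hK hx hy (by norm_num) (by norm_num) (by norm_num)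
      rw [indicator_of_mem hx, indicator_of_mem hy, indicator_of_mem this]
      exact hW x hx y hy
    · rw [indicator_of_notMem hy, Real.sqrt_zero, mul_zero]
      exact indicator_nonneg (fun _ _ => hW0 _) _
  · rw [indicator_of_notMem hx, Real.sqrt_zero, zero_mul]
    exact indicator_nonneg (fun _ _ => hW0 _) _

theorem int_mul_indicatorW {α : Type*} [MeasurableSpace α] {μ : Measure α} {K : Set α}
    (mK : MeasurableSet K) (φ W : α → ℝ) :
    ∫ x, φ x * K.indicator W x ∂μ = ∫ x in K, φ x * W x ∂μ := by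
  rw [← integral_indicator mK]
  refine integral_congr_ae (ae_of_all _ fun x => ?_)
  by_cases hx : x ∈ K
  · simp [hx]
  · simp [hx]

/-- **Payne–Weinberger** on a bounded convex set with a log-concave weight -/
theorem pw_convexW {K : Set E} (hK : Convex ℝ K) (mK : MeasurableSet K) {d : ℝ} (hd : 0 < d)
    {x₀ : E} (hb : ∀ x ∈ K, ‖x - x₀‖ ≤ d) {W : E → ℝ} (hW0 : ∀ x, 0 ≤ W x) (mW : Measurable W)
    (iW : IntegrableOn W K) (hW : MLC K W) {f : E → ℝ} {L : ℝ≥0} (hf : LipschitzOnWith L f K) :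
    (∫ x in K, W x) * (∫ x in K, f x ^ 2 * W x) - (∫ x in K, f x * W x) ^ 2 ≤
      2 * d ^ 2 * (∫ x in K, W x) * ∫ x in K, ‖fderiv ℝ f x‖ ^ 2 * W x := by
  obtain ⟨F, hF, hFf⟩ := hf.extend_real
  have h := pw_weight hd x₀ (W := K.indicator W)
    (fun x => indicator_nonneg (fun _ _ => hW0 _) _)
    (mW.indicator mK) ((integrable_indicator_iff mK).2 iW) (slc_of_mlc hK hW0 hW)
    (fun x hx => hb x (by
      by_contra h; exact hx (indicator_of_notMem h _))) hF
  rw [int_mul_indicatorW mK, int_mul_indicatorW mK, int_mul_indicatorW mK,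
    integral_indicator mK] at h
  have e1 : ∫ x in K, F x ^ 2 * W x = ∫ x in K, f x ^ 2 * W x :=
    setIntegral_congr_fun mK fun x hx => by
      show F x ^ 2 * W x = f x ^ 2 * W x
      rw [hFf hx]
  have e2 : ∫ x in K, F x * W x = ∫ x in K, f x * W x :=
    setIntegral_congr_fun mK fun x hx => by
      show F x * W x = f x * W x
      rw [hFf hx]
  have e3 : ∫ x in K, ‖fderiv ℝ F x‖ ^ 2 * W x = ∫ x in K, ‖fderiv ℝ f x‖ ^ 2 * W x := by
    have h0 : volume (frontier K) = 0 := hK.addHaar_frontier _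
    refine setIntegral_congr_ae mK ?_
    have h1 : ∀ᵐ x, x ∉ frontier K := measure_eq_zero_iff_ae_notMem.1 h0
    filter_upwards [h1] with x hx hxK
    have hxi : x ∈ interior K := by
      by_contra hxi
      exact hx ⟨subset_closure hxK, hxi⟩
    have h2 : F =ᶠ[𝓝 x] f := by
      filter_upwards [mem_interior_iff_mem_nhds.1 hxi] with y hy
      exact (hFf hy).symm
    rw [h2.fderiv_eq]
  rw [e1, e2, e3] at h
  exact h

end main

section pi

variable {V : Type*} [Fintype V]

/-- **Payne–Weinberger** on a bounded convex set of `V → ℝ`, with a log-concave weight -/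
theorem pw_piW [DecidableEq V] {K : Set (V → ℝ)} (hK : Convex ℝ K) (mK : MeasurableSet K) {d : ℝ}
    (hd : 0 < d) {x₀ : V → ℝ} (hb : ∀ x ∈ K, ∑ v, (x v - x₀ v) ^ 2 ≤ d ^ 2)
    {W : (V → ℝ) → ℝ} (hW0 : ∀ x, 0 ≤ W x) (mW : Measurable W)
    (iW : IntegrableOn W K) (hW : MLC K W) {f : (V → ℝ) → ℝ}
    {L : ℝ≥0} (hf : LipschitzOnWith L f K) :
    (∫ x in K, W x) * (∫ x in K, f x ^ 2 * W x) - (∫ x in K, f x * W x) ^ 2 ≤
      2 * d ^ 2 * (∫ x in K, W x) *
        ∫ x in K, (∑ v, fderiv ℝ f x (Pi.single v 1) ^ 2) * W x := by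
  set e : EuclideanSpace ℝ V ≃L[ℝ] (V → ℝ) := EuclideanSpace.equiv V ℝ with he
  have hmp : MeasurePreserving (fun x : EuclideanSpace ℝ V => e x) volume volume :=
    PiLp.volume_preserving_ofLp V
  have hme : MeasurableEmbedding (fun x : EuclideanSpace ℝ V => e x) :=
    e.toHomeomorph.measurableEmbedding
  set K' : Set (EuclideanSpace ℝ V) := (fun x => e x) ⁻¹' K with hK'
  have hcK : Convex ℝ K' := hK.linear_preimage (e : EuclideanSpace ℝ V →ₗ[ℝ] (V → ℝ))
  have mK' : MeasurableSet K' := hmp.measurable mK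
  have hb' : ∀ x ∈ K', ‖x - e.symm x₀‖ ≤ d := by
    intro x hx
    have h1 := hb _ hx
    have h2 : ‖x - e.symm x₀‖ ^ 2 ≤ d ^ 2 := by
      rw [EuclideanSpace.norm_sq_eq]
      refine le_trans (le_of_eq ?_) h1
      refine Finset.sum_congr rfl fun v _ => ?_
      rw [Real.norm_eq_abs, sq_abs]
      rfl
    exact (pow_le_pow_iff_left₀ (norm_nonneg _) hd.le two_ne_zero).1 h2
  have hlip : LipschitzOnWith (L * 1) (fun x : EuclideanSpace ℝ V => f (e x)) K' := by
    refine hf.comp (s := K') (f := fun x : EuclideanSpace ℝ V => e x) ?_ fun x hx => hx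
    exact (PiLp.lipschitzWith_ofLp 2 (fun _ : V => ℝ)).lipschitzOnWith
  have mlc' : MLC K' (fun x : EuclideanSpace ℝ V => W (e x)) := by
    intro x hx y hy
    have := hW _ hx _ hy
    show √(W (e x)) * √(W (e y)) ≤ W (e ((1 / 2 : ℝ) • (x + y)))
    rw [map_smul, map_add]
    exact this
  have iW' : IntegrableOn (fun x : EuclideanSpace ℝ V => W (e x)) K' :=
    (hmp.integrableOn_comp_preimage hme).2 iW
  have h := pw_convexW hcK mK' hd hb' (fun x => hW0 (e x)) (mW.comp hmp.measurable) iW' mlc' hlip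
  have t : ∀ φ : (V → ℝ) → ℝ, ∫ x in K', φ (e x) = ∫ x in K, φ x := fun φ =>
    hmp.setIntegral_preimage_emb hme φ K
  have hD : ∀ x : EuclideanSpace ℝ V, ‖fderiv ℝ (fun x => f (e x)) x‖ ^ 2 =
      ∑ v, fderiv ℝ f (e x) (Pi.single v 1) ^ 2 := by
    intro x
    rw [norm_sq_functional]
    refine Finset.sum_congr rfl fun v _ => ?_
    have h1 : fderiv ℝ (f ∘ e) x = (fderiv ℝ f (e x)).comp (e : EuclideanSpace ℝ V →L[ℝ] (V → ℝ)) :=
      e.comp_right_fderiv
    have h2 : fderiv ℝ (fun x => f (e x)) x = fderiv ℝ (f ∘ e) x := rfl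
    rw [h2, h1]
    show (fderiv ℝ f (e x) (e (EuclideanSpace.single v 1))) ^ 2 = _
    congr 2
  simp_rw [hD] at h
  rw [t fun x => f x ^ 2 * W x, t fun x => f x * W x,
    t fun x => (∑ v, fderiv ℝ f x (Pi.single v 1) ^ 2) * W x, t W] at h
  exact h


/-- variance inequality under a probability law `ν` with density `W` on `K` -/
theorem pw_piNu [DecidableEq V] {K : Set (V → ℝ)} (hK : Convex ℝ K) (mK : MeasurableSet K) {d : ℝ}
    (hd : 0 < d) {x₀ : V → ℝ} (hb : ∀ x ∈ K, ∑ v, (x v - x₀ v) ^ 2 ≤ d ^ 2)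
    {W : (V → ℝ) → ℝ} (hW0 : ∀ x, 0 ≤ W x) (mW : Measurable W) (hW : MLC K W)
    {ν : Measure (V → ℝ)} [IsProbabilityMeasure ν]
    (hν : ν = (volume.restrict K).withDensity fun x => ENNReal.ofReal (W x)) {f : (V → ℝ) → ℝ}
    {L : ℝ≥0} (hf : LipschitzOnWith L f K) :
    ∫ x, f x ^ 2 ∂ν - (∫ x, f x ∂ν) ^ 2 ≤
      2 * d ^ 2 * ∫ x, ∑ v, fderiv ℝ f x (Pi.single v 1) ^ 2 ∂ν := by
  have t : ∀ φ : (V → ℝ) → ℝ, ∫ x, φ x ∂ν = ∫ x in K, φ x * W x := by
    intro φ
    rw [hν, integral_withDensity_eq_integral_toReal_smul mW.ennreal_ofReal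
      (ae_of_all _ fun x => ENNReal.ofReal_lt_top)]
    refine integral_congr_ae (ae_of_all _ fun x => ?_)
    show (ENNReal.ofReal (W x)).toReal • φ x = φ x * W x
    rw [ENNReal.toReal_ofReal (hW0 x), smul_eq_mul, mul_comm]
  have iW : IntegrableOn W K := by
    refine ⟨mW.aestronglyMeasurable, ?_⟩
    rw [hasFiniteIntegral_iff_norm]
    have h1 : ν univ = 1 := measure_univ
    rw [hν, withDensity_apply _ MeasurableSet.univ, Measure.restrict_univ] at h1
    have h2 : ∀ x, ENNReal.ofReal ‖W x‖ = ENNReal.ofReal (W x) := fun x => by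
      rw [Real.norm_of_nonneg (hW0 x)]
    simp_rw [h2]
    rw [h1]
    exact ENNReal.one_lt_top
  have h1 : ∫ x in K, W x = 1 := by
    have := t fun _ => (1 : ℝ)
    rw [integral_const, probReal_univ, one_smul] at this
    rw [this]
    simp
  have h := pw_piW hK mK hd hb hW0 mW iW hW hf
  rw [h1, one_mul, mul_one] at h
  rw [t fun x => f x ^ 2, t f, t fun x => ∑ v, fderiv ℝ f x (Pi.single v 1) ^ 2]
  exact h

/-- variance inequality under the tilted law `(volume.restrict K).tilted l`, `l` concave -/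
theorem pw_piTilt [DecidableEq V] {K : Set (V → ℝ)} (hK : Convex ℝ K) (mK : MeasurableSet K)
    {d : ℝ} (hd : 0 < d) {x₀ : V → ℝ} (hb : ∀ x ∈ K, ∑ v, (x v - x₀ v) ^ 2 ≤ d ^ 2)
    {l : (V → ℝ) → ℝ} (ml : Measurable l) (hl : ConcaveOn ℝ K l)
    (il : IntegrableOn (fun x => Real.exp (l x)) K) {f : (V → ℝ) → ℝ}
    {L : ℝ≥0} (hf : LipschitzOnWith L f K) :
    ∫ x, f x ^ 2 ∂((volume.restrict K).tilted l) - (∫ x, f x ∂((volume.restrict K).tilted l)) ^ 2 ≤
      2 * d ^ 2 *
        ∫ x, ∑ v, fderiv ℝ f x (Pi.single v 1) ^ 2 ∂((volume.restrict K).tilted l) := by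
  by_cases h0 : volume.restrict K = 0
  · rw [h0, tilted_zero_measure]
    simp
  have : NeZero (volume.restrict K) := ⟨h0⟩
  have : IsProbabilityMeasure ((volume.restrict K).tilted l) := isProbabilityMeasure_tilted il
  refine pw_piNu (ν := (volume.restrict K).tilted l) hK mK hd hb
    (W := fun x => Real.exp (l x) / ∫ x in K, Real.exp (l x)) (fun x => ?_) ?_ ?_ rfl hf
  · have : 0 ≤ ∫ x in K, Real.exp (l x) := integral_nonneg fun x => (Real.exp_pos _).le
    positivity
  · fun_prop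
  · have h1 : 0 ≤ (∫ x in K, Real.exp (l x))⁻¹ :=
      inv_nonneg.2 (integral_nonneg fun x => (Real.exp_pos _).le)
    have h2 := (mlc_exp hl).const_mul h1
    have e : (fun x => Real.exp (l x) / ∫ x in K, Real.exp (l x)) =
        fun x => (∫ x in K, Real.exp (l x))⁻¹ * Real.exp (l x) := by
      funext x; rw [div_eq_inv_mul]
    rw [e]
    exact h2

end pi

section ham

variable {U : Type*} [DecidableEq U] {I : Finset U} {E : Finset (U × U)}

open Classical in
/-- sites of `I` from which the outside of `I` is reached in at most `k` steps -/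
def lay (I : Finset U) (E : Finset (U × U)) : ℕ → Finset U
  | 0 => ∅
  | k + 1 => I.filter fun v => ∃ w ∈ nbr E v, w ∉ I ∨ w ∈ lay I E k

theorem mem_lay_succ {k : ℕ} {v : U} :
    v ∈ lay I E (k + 1) ↔ v ∈ I ∧ ∃ w ∈ nbr E v, w ∉ I ∨ w ∈ lay I E k := by
  simp [lay]

theorem lay_subset (k : ℕ) : lay I E k ⊆ I := by
  cases k with
  | zero => simp [lay]
  | succ k => intro v hv; exact (mem_lay_succ.1 hv).1

theorem lay_mono (k : ℕ) : lay I E k ⊆ lay I E (k + 1) := by
  induction k with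
  | zero => simp [lay]
  | succ k ih =>
    intro v hv
    obtain ⟨h1, w, hw, h2⟩ := mem_lay_succ.1 hv
    exact mem_lay_succ.2 ⟨h1, w, hw, h2.imp id fun h => ih h⟩

theorem lay_full (hA : Anch I E) {k : ℕ} (h : lay I E (k + 1) ⊆ lay I E k) : I ⊆ lay I E k := by
  intro v hv
  obtain ⟨u, hu, hp⟩ := hA v hv
  have key : v ∉ I ∨ v ∈ lay I E k := by
    induction hp using Relation.ReflTransGen.head_induction_on with
    | refl => exact Or.inl hu
    | head hac hcb ih =>
      rename_i a c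
      by_cases ha : a ∈ I
      · exact Or.inr (h (mem_lay_succ.2 ⟨ha, c, hac, by
          by_cases hc : c ∈ I
          · exact Or.inr ((ih hc).resolve_left (fun h => h hc))
          · exact Or.inl hc⟩))
      · exact Or.inl ha
  exact key.resolve_left (fun h => h hv)

theorem lay_card (hA : Anch I E) (k : ℕ) : lay I E k = I ∨ k ≤ (lay I E k).card := by
  induction k with
  | zero => right; exact Nat.zero_le _
  | succ k ih =>
    by_cases h : lay I E (k + 1) ⊆ lay I E k
    · left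
      exact (lay_subset _).antisymm ((lay_full hA h).trans (lay_mono k))
    · rcases ih with ih | ih
      · exact absurd (by rw [ih]; exact lay_subset _) h
      · right
        exact Nat.succ_le_of_lt (ih.trans_lt (Finset.card_lt_card ⟨lay_mono k, h⟩))

theorem lay_eq (hA : Anch I E) : lay I E I.card = I := by
  rcases lay_card hA I.card with h | h
  · exact h
  · exact Finset.eq_of_subset_of_card_le (lay_subset _) h

theorem lay_dist (k : ℕ) : ∀ v ∈ lay I E k, ∃ u, u ∉ I ∧
    ∀ (ξ : U → ℝ) (x : I → ℝ), x ∈ ham I E ξ → |ext I ξ x v - ξ u| ≤ k := by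
  induction k with
  | zero => intro v hv; simp [lay] at hv
  | succ k ih =>
    intro v hv
    obtain ⟨h1, w, hw, h2 | h2⟩ := mem_lay_succ.1 hv
    · refine ⟨w, h2, fun ξ x hx => ?_⟩
      have h3 := ham_nbr hx hw
      rw [ext_notMem h2] at h3
      refine h3.trans ?_
      push_cast
      linarith [Nat.cast_nonneg (α := ℝ) k]
    · obtain ⟨u, hu, h⟩ := ih w h2
      refine ⟨u, hu, fun ξ x hx => ?_⟩
      have h3 := abs_le.1 (ham_nbr hx hw)
      have h4 := abs_le.1 (h ξ x hx)
      rw [abs_le]; push_cast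
      constructor <;> linarith

/-- in an anchored block every height is within `|I|` of a boundary value, whatever the data -/
theorem anch_dist (hA : Anch I E) : ∃ b : I → U, (∀ v, b v ∉ I) ∧
    ∀ (ξ : U → ℝ) (x : I → ℝ), x ∈ ham I E ξ → ∀ v, |x v - ξ (b v)| ≤ I.card := by
  have h : ∀ v : I, ∃ u, u ∉ I ∧
      ∀ (ξ : U → ℝ) (x : I → ℝ), x ∈ ham I E ξ → |x v - ξ u| ≤ I.card := by
    rintro ⟨v, hv⟩
    obtain ⟨u, hu, h⟩ := lay_dist (E := E) I.card v (by rw [lay_eq hA]; exact hv)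
    refine ⟨u, hu, fun ξ x hx => ?_⟩
    have := h ξ x hx
    rwa [ext_mem hv] at this
  choose b hb1 hb2 using h
  exact ⟨b, hb1, fun ξ x hx v => hb2 v ξ x hx⟩

/-- the fibre is contained in a ball of radius `|I|^{3/2}` whose centre is given by the data -/
theorem ham_ball (hA : Anch I E) : ∃ b : I → U, (∀ v, b v ∉ I) ∧
    ∀ (ξ : U → ℝ) (x : I → ℝ), x ∈ ham I E ξ →
      ∑ v, (x v - ξ (b v)) ^ 2 ≤ (I.card : ℝ) ^ 3 := by
  obtain ⟨b, hb1, hb2⟩ := anch_dist hA
  refine ⟨b, hb1, fun ξ x hx => ?_⟩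
  calc ∑ v, (x v - ξ (b v)) ^ 2 ≤ ∑ _v : I, (I.card : ℝ) ^ 2 := by
        refine Finset.sum_le_sum fun v _ => ?_
        rw [← sq_abs]
        exact pow_le_pow_left₀ (abs_nonneg _) (hb2 ξ x hx v) 2
    _ = (I.card : ℝ) ^ 3 := by
        rw [Finset.sum_const, Finset.card_univ, Fintype.card_coe, nsmul_eq_mul]; ring

/-- **Poincaré inequality on a hammock fibre with a log-concave weight** -/
theorem pw_ham (hA : Anch I E) (ξ : U → ℝ) {W : (I → ℝ) → ℝ} (hW0 : ∀ x, 0 ≤ W x)
    (mW : Measurable W) (iW : IntegrableOn W (ham I E ξ)) (hW : MLC (ham I E ξ) W)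
    {f : (I → ℝ) → ℝ} {L : ℝ≥0} (hf : LipschitzOnWith L f (ham I E ξ)) :
    (∫ x in ham I E ξ, W x) * (∫ x in ham I E ξ, f x ^ 2 * W x) -
        (∫ x in ham I E ξ, f x * W x) ^ 2 ≤
      2 * (I.card : ℝ) ^ 3 * (∫ x in ham I E ξ, W x) *
        ∫ x in ham I E ξ, (∑ v, fderiv ℝ f x (Pi.single v 1) ^ 2) * W x := by
  rcases I.eq_empty_or_nonempty with rfl | hI
  · -- a one point space
    have h1 : ∀ x : ((∅ : Finset U) → ℝ), f x = f 0 := fun x => by
      congr 1; exact Subsingleton.elim _ _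
    simp_rw [h1, integral_const_mul]
    simp
    refine le_of_eq ?_
    ring
  · have hc : (0 : ℝ) < (I.card : ℝ) ^ 3 := by
      have : 0 < I.card := hI.card_pos
      positivity
    obtain ⟨b, -, hb⟩ := ham_ball hA
    have hs : √((I.card : ℝ) ^ 3) ^ 2 = (I.card : ℝ) ^ 3 := Real.sq_sqrt hc.le
    have := pw_piW (d := √((I.card : ℝ) ^ 3)) (x₀ := fun v => ξ (b v)) convex_ham
      measurableSet_ham (Real.sqrt_pos.2 hc)
      (fun x hx => by rw [hs]; exact hb ξ x hx) hW0 mW iW hW hf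
    rwa [hs] at this

/-- **Variance inequality under a tilted hammock law** -/
theorem var_ham_tilted (hA : Anch I E) (ξ : U → ℝ) {l : (I → ℝ) → ℝ} (ml : Measurable l)
    (hl : ConcaveOn ℝ (ham I E ξ) l)
    (il : IntegrableOn (fun x => Real.exp (l x)) (ham I E ξ))
    {f : (I → ℝ) → ℝ} {L : ℝ≥0} (hf : LipschitzOnWith L f (ham I E ξ)) :
    ∫ x, f x ^ 2 ∂((volume.restrict (ham I E ξ)).tilted l) -
        (∫ x, f x ∂((volume.restrict (ham I E ξ)).tilted l)) ^ 2 ≤
      2 * (I.card : ℝ) ^ 3 * ∫ x, ∑ v, fderiv ℝ f x (Pi.single v 1) ^ 2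
        ∂((volume.restrict (ham I E ξ)).tilted l) := by
  rcases I.eq_empty_or_nonempty with rfl | hI
  · have h1 : ∀ x : ((∅ : Finset U) → ℝ), f x = f 0 := fun x => by
      congr 1; exact Subsingleton.elim _ _
    by_cases h0 : volume.restrict (ham ∅ E ξ) = 0
    · rw [h0, tilted_zero_measure]
      simp
    have : NeZero (volume.restrict (ham ∅ E ξ)) := ⟨h0⟩
    have : IsProbabilityMeasure ((volume.restrict (ham ∅ E ξ)).tilted l) :=
      isProbabilityMeasure_tilted il
    simp_rw [h1, integral_const, probReal_univ]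
    simp
  · have hc : (0 : ℝ) < (I.card : ℝ) ^ 3 := by
      have : 0 < I.card := hI.card_pos
      positivity
    obtain ⟨b, -, hb⟩ := ham_ball hA
    have hs : √((I.card : ℝ) ^ 3) ^ 2 = (I.card : ℝ) ^ 3 := Real.sq_sqrt hc.le
    have := pw_piTilt (d := √((I.card : ℝ) ^ 3)) (x₀ := fun v => ξ (b v)) convex_ham
      measurableSet_ham (Real.sqrt_pos.2 hc)
      (fun x hx => by rw [hs]; exact hb ξ x hx) ml hl il hf
    rwa [hs] at this


/-- continuous functions on `ham` are bounded, hence integrable for a tilted law -/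
theorem integrable_tilted_of_continuousOn (hA : Anch I E) (ξ : U → ℝ) {l : (I → ℝ) → ℝ}
    {f : (I → ℝ) → ℝ} (hf : ContinuousOn f (ham I E ξ)) :
    Integrable f ((volume.restrict (ham I E ξ)).tilted l) := by
  have hac : (volume.restrict (ham I E ξ)).tilted l ≪ volume.restrict (ham I E ξ) :=
    tilted_absolutelyContinuous _ _
  have hfin : IsFiniteMeasure ((volume.restrict (ham I E ξ)).tilted l) := by
    by_cases h0 : volume.restrict (ham I E ξ) = 0
    · rw [h0, tilted_zero_measure]; infer_instance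
    by_cases h1 : Integrable (fun x => Real.exp (l x)) (volume.restrict (ham I E ξ))
    · have : NeZero (volume.restrict (ham I E ξ)) := ⟨h0⟩
      have := isProbabilityMeasure_tilted h1
      infer_instance
    · rw [tilted_of_not_integrable h1]; infer_instance
  obtain ⟨C, hC⟩ := (isCompact_ham (ξ := ξ) hA).exists_bound_of_continuousOn hf
  refine Integrable.of_bound (C := C) ?_ ?_
  · exact (hf.aestronglyMeasurable measurableSet_ham).mono_ac hac
  · exact hac.ae_le ((ae_restrict_iff' measurableSet_ham).2 (ae_of_all _ hC))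

/-- **Variance inequality under a tilted hammock law**, centred form -/
theorem var_ham_tilted' (hA : Anch I E) (ξ : U → ℝ) {l : (I → ℝ) → ℝ} (cl : Continuous l)
    (hl : ConcaveOn ℝ (ham I E ξ) l)
    {f : (I → ℝ) → ℝ} {L : ℝ≥0} (hf : LipschitzOnWith L f (ham I E ξ)) :
    ∫ x, (f x - ∫ y, f y ∂((volume.restrict (ham I E ξ)).tilted l)) ^ 2
        ∂((volume.restrict (ham I E ξ)).tilted l) ≤
      2 * (I.card : ℝ) ^ 3 * ∫ x, ∑ v, fderiv ℝ f x (Pi.single v 1) ^ 2
        ∂((volume.restrict (ham I E ξ)).tilted l) := by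
  have il : IntegrableOn (fun x => Real.exp (l x)) (ham I E ξ) :=
    (Real.continuous_exp.comp cl).continuousOn.integrableOn_compact (isCompact_ham hA)
  have h := var_ham_tilted hA ξ cl.measurable hl il hf
  set ν := (volume.restrict (ham I E ξ)).tilted l with hν
  set m := ∫ y, f y ∂ν with hm
  by_cases h0 : volume.restrict (ham I E ξ) = 0
  · have : ν = 0 := by rw [hν, h0, tilted_zero_measure]
    rw [this]
    simp
  have : NeZero (volume.restrict (ham I E ξ)) := ⟨h0⟩
  have : IsProbabilityMeasure ν := isProbabilityMeasure_tilted il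
  have i1 : Integrable f ν := integrable_tilted_of_continuousOn hA ξ hf.continuousOn
  have i2 : Integrable (fun x => f x ^ 2) ν :=
    integrable_tilted_of_continuousOn hA ξ (hf.continuousOn.pow 2)
  have e : ∫ x, (f x - m) ^ 2 ∂ν = ∫ x, f x ^ 2 ∂ν - m ^ 2 := by
    have e1 : ∀ x, (f x - m) ^ 2 = f x ^ 2 - 2 * m * f x + m ^ 2 := fun x => by ring
    have e2 : ∫ x, (f x - m) ^ 2 ∂ν = ∫ x, (f x ^ 2 - 2 * m * f x) ∂ν + ∫ _x, m ^ 2 ∂ν := by
      simp_rw [e1]
      exact integral_add (i2.sub (i1.const_mul _)) (integrable_const _)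
    have e3 : ∫ x, (f x ^ 2 - 2 * m * f x) ∂ν = ∫ x, f x ^ 2 ∂ν - 2 * m * m := by
      rw [integral_sub i2 (i1.const_mul _), integral_const_mul]
    rw [e2, e3, integral_const, probReal_univ, one_smul]
    ring
  rw [e]
  exact h

/-- uniform law -/
theorem hamP_eq_tilted (ξ : U → ℝ) :
    hamP I E ξ = (volume.restrict (ham I E ξ)).tilted fun _ => (0 : ℝ) := by
  rw [tilted_const', hamP, Measure.restrict_apply_univ]

/-- **Variance inequality under the uniform hammock law** -/
theorem var_hamP (hA : Anch I E) (ξ : U → ℝ) {f : (I → ℝ) → ℝ} {L : ℝ≥0}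
    (hf : LipschitzOnWith L f (ham I E ξ)) :
    ∫ x, (f x - ∫ y, f y ∂(hamP I E ξ)) ^ 2 ∂(hamP I E ξ) ≤
      2 * (I.card : ℝ) ^ 3 * ∫ x, ∑ v, fderiv ℝ f x (Pi.single v 1) ^ 2 ∂(hamP I E ξ) := by
  rw [hamP_eq_tilted]
  exact var_ham_tilted' hA ξ continuous_const (concaveOn_const _ convex_ham) hf

end ham

end

end Crest.Agent.R144.Hpw812
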