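import Crest.Agent.R144.Fib4_674
import Crest.Agent.R144.Hpw1_812

/-!
# R144 (S0197), helper674: block Poincaré inequality

`block_poincare_wl`, `block_poincare` : for `I ⊆ F` anchored, `g` Lipschitz on the polytope,
`P = (hamP F E ξ).tilted l`, `l` continuous and concave on the polytope:
`∫ (g - Eb g)² dP ≤ 2 |I|³ ∫ ∑_{v ∈ I} (∂_v g)² dP`, `Eb` = conditional expectation given the
coordinates outside `I`.
-/

set_option autoImplicit false
set_option linter.unusedSectionVars false

open MeasureTheory Set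
open scoped ENNReal NNReal

noncomputable section

namespace Crest.Agent.R144.Fib674

open Crest.Agent.R144.Ham560 Crest.Agent.R144.Hpw812

variable {U : Type*} [DecidableEq U] {F I : Finset U} {E : Finset (U × U)} {ξ : U → ℝ}

theorem concave_fibre (hI : I ⊆ F) {l : (↥F → ℝ) → ℝ} (hl : ConcaveOn ℝ (ham F E ξ) l)
    (z : ↥(F \ I) → ℝ) :
    ConcaveOn ℝ (ham I E (ext (F \ I) ξ z)) fun x => l (glue F I z x) := by
  refine ⟨convex_ham, fun x hx y hy a b ha hb hab => ?_⟩
  have h := hl.2 ((glue_mem_ham hI).2 hx) ((glue_mem_ham hI).2 hy) ha hb hab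
  have e : glue F I z (a • x + b • y) = a • glue F I z x + b • glue F I z y := by
    funext v
    by_cases hv : (v : U) ∈ I
    · simp [glue, hv]
    · simp only [Pi.add_apply, Pi.smul_apply, smul_eq_mul, glue_out hv]
      rw [← add_mul, hab, one_mul]
  beta_reduce
  rw [e]
  exact h

theorem integrable_gI_wl (hI : I ⊆ F) {l : (↥F → ℝ) → ℝ} (ml : Measurable l)
    (il : IntegrableOn (fun y => Real.exp (l y)) (ham F E ξ)) {g : (↥F → ℝ) → ℝ} {L : ℝ≥0}
    (hg : LipschitzOnWith L g (ham F E ξ)) :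
    Integrable fun y => gI hI g y * wl F E ξ l y := by
  have h0 : volume (frontier (ham F E ξ)) = 0 :=
    (convex_ham (F := F) (E := E) (ξ := ξ)).addHaar_frontier _
  have h1 : ∀ᵐ y, y ∉ frontier (ham F E ξ) := measure_eq_zero_iff_ae_notMem.1 h0
  refine ((integrable_wl il).const_mul ((Fintype.card ↥I : ℝ) * L ^ 2)).mono'
    ((measurable_gI hI g).mul (measurable_wl ml)).aestronglyMeasurable ?_
  filter_upwards [h1] with y hy
  rw [Real.norm_of_nonneg (mul_nonneg (gI_nonneg hI g y) (wl_nonneg l y))]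
  by_cases hyK : y ∈ ham F E ξ
  · refine mul_le_mul_of_nonneg_right ?_ (wl_nonneg l y)
    have hyi : y ∈ interior (ham F E ξ) := by
      by_contra hyi
      exact hy ⟨subset_closure hyK, hyi⟩
    unfold gI
    calc ∑ v : ↥I, pd ⟨(v : U), hI v.2⟩ g y ^ 2 ≤ ∑ _v : ↥I, (L : ℝ) ^ 2 := by
          refine Finset.sum_le_sum fun v _ => ?_
          rw [← sq_abs]
          exact pow_le_pow_left₀ (abs_nonneg _) (abs_pd_le hg hyi _) 2
      _ = (Fintype.card ↥I : ℝ) * L ^ 2 := by
          rw [Finset.sum_const, Finset.card_univ, nsmul_eq_mul]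
  · rw [wl_of_notMem hyK, mul_zero, mul_zero]

/-- **block Poincaré inequality**, weight form -/
theorem block_poincare_wl (hI : I ⊆ F) (hAI : Anch I E) {l : (↥F → ℝ) → ℝ} (ml : Measurable l)
    (hl : ConcaveOn ℝ (ham F E ξ) l)
    (il : IntegrableOn (fun y => Real.exp (l y)) (ham F E ξ)) {g : (↥F → ℝ) → ℝ} {L : ℝ≥0}
    (mg : Measurable g) (hg : LipschitzOnWith L g (ham F E ξ))
    (ig2 : Integrable fun y => g y ^ 2 * wl F E ξ l y) :
    Integrable (fun y => (g y - Eb F I (wl F E ξ l) g y) ^ 2 * wl F E ξ l y) ∧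
      ∫ y, (g y - Eb F I (wl F E ξ l) g y) ^ 2 * wl F E ξ l y ≤
        2 * (I.card : ℝ) ^ 3 * ∫ y, gI hI g y * wl F E ξ l y := by
  have mW := measurable_wl (F := F) (E := E) (ξ := ξ) ml
  have iW := integrable_wl il
  have ig := integrable_of_sq mW (wl_nonneg l) iW mg ig2
  refine block_of_fibre hI (wl_nonneg l) mW iW mg ig2 (integrable_gI_wl hI ml il hg)
    (gI_nonneg hI g) (by positivity) ?_
  filter_upwards [ae_okF hI iW ig, ae_glue hI (ae_diff_ham hg)] with z hz hzd
  simp only [wl_glue hI]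
  have hW1 := hz.W1
  simp only [wl_glue hI] at hW1
  have iW' : IntegrableOn (fun x => Real.exp (l (glue F I z x))) (ham I E (ext (F \ I) ξ z)) :=
    (integrable_indicator_iff measurableSet_ham).1 hW1
  have key := pw_ham hAI (ext (F \ I) ξ z) (W := fun x => Real.exp (l (glue F I z x)))
    (fun _ => (Real.exp_pos _).le)
    (Real.measurable_exp.comp (ml.comp (measurable_glue_right z))) iW'
    (mlc_exp (concave_fibre hI hl z)) (lip_fibre hI hg z)
  have e1 := integral_wl (F := I) (E := E) (ξ := ext (F \ I) ξ z) fun x => l (glue F I z x)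
  have e2 := integral_mul_wl (F := I) (E := E) (ξ := ext (F \ I) ξ z) (fun x => l (glue F I z x))
    fun x => g (glue F I z x) ^ 2
  have e3 := integral_mul_wl (F := I) (E := E) (ξ := ext (F \ I) ξ z) (fun x => l (glue F I z x))
    fun x => g (glue F I z x)
  have e4 := integral_mul_wl (F := I) (E := E) (ξ := ext (F \ I) ξ z) (fun x => l (glue F I z x))
    fun x => gI hI g (glue F I z x)
  rw [e1, e2, e3, e4]
  refine key.trans (le_of_eq ?_)
  congr 1
  refine setIntegral_congr_ae measurableSet_ham ?_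
  filter_upwards [hzd] with x hx hxK
  rw [gI_glue hI (hx ((glue_mem_ham hI).2 hxK))]

/-- **block Poincaré inequality** -/
theorem block_poincare (hA : Anch F E) (hξ : ∀ u, |ξ u| ≤ 1 / 2) (hI : I ⊆ F) (hAI : Anch I E)
    {l : (↥F → ℝ) → ℝ} (cl : Continuous l) (hl : ConcaveOn ℝ (ham F E ξ) l)
    {g : (↥F → ℝ) → ℝ} {L : ℝ≥0} (mg : Measurable g) (hg : LipschitzOnWith L g (ham F E ξ)) :
    Integrable (fun y => (g y - Eb F I (wl F E ξ l) g y) ^ 2) ((hamP F E ξ).tilted l) ∧
      ∫ y, (g y - Eb F I (wl F E ξ l) g y) ^ 2 ∂((hamP F E ξ).tilted l) ≤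
        2 * (I.card : ℝ) ^ 3 * ∫ y, gI hI g y ∂((hamP F E ξ).tilted l) := by
  have hP := isLaw_tilted' hA hξ cl
  have il : IntegrableOn (fun y => Real.exp (l y)) (ham F E ξ) :=
    (Real.continuous_exp.comp cl).continuousOn.integrableOn_compact (isCompact_ham hA)
  have ig2 : Integrable fun y => g y ^ 2 * wl F E ξ l y := by
    have h1 : IntegrableOn (fun y => g y ^ 2 * Real.exp (l y)) (ham F E ξ) :=
      ((hg.continuousOn.pow 2).mul (Real.continuous_exp.comp cl).continuousOn).integrableOn_compact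
        (isCompact_ham hA)
    refine ((integrable_indicator_iff measurableSet_ham).2 h1).congr (ae_of_all _ fun y => ?_)
    beta_reduce
    by_cases h : y ∈ ham F E ξ
    · rw [indicator_of_mem h, wl_of_mem h]
    · rw [indicator_of_notMem h, wl_of_notMem h, mul_zero]
  obtain ⟨h1, h2⟩ := block_poincare_wl hI hAI cl.measurable hl il mg hg ig2
  refine ⟨hP.integrable_iff.2 h1, ?_⟩
  rw [hP.integral, hP.integral, ← mul_div_assoc]
  exact div_le_div_of_nonneg_right h2 hP.pos.le

/-- uniform law -/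
theorem block_poincare_hamP (hA : Anch F E) (hξ : ∀ u, |ξ u| ≤ 1 / 2) (hI : I ⊆ F)
    (hAI : Anch I E) {g : (↥F → ℝ) → ℝ} {L : ℝ≥0} (mg : Measurable g)
    (hg : LipschitzOnWith L g (ham F E ξ)) :
    Integrable (fun y => (g y - Eb F I (wl F E ξ 0) g y) ^ 2) (hamP F E ξ) ∧
      ∫ y, (g y - Eb F I (wl F E ξ 0) g y) ^ 2 ∂(hamP F E ξ) ≤
        2 * (I.card : ℝ) ^ 3 * ∫ y, gI hI g y ∂(hamP F E ξ) := by
  have hp : IsProbabilityMeasure (hamP F E ξ) := isProbabilityMeasure_hamP hA hξ
  have h := block_poincare hA hξ hI hAI (l := 0) continuous_const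
    (concaveOn_const 0 convex_ham) mg hg
  rwa [tilted_zero] at h

/-- the energy matrix of 121: rows = labels; `gI` of a label is the part of its row in the block -/
theorem gI_eq_sum (hI : I ⊆ F) (g : (↥F → ℝ) → ℝ) (y : ↥F → ℝ) :
    gI hI g y = ∑ v ∈ Finset.univ.filter (fun v : ↥F => (v : U) ∈ I),
      fderiv ℝ g y (Pi.single v 1) ^ 2 := by
  unfold gI pd
  refine Finset.sum_bij (fun (v : ↥I) _ => (⟨(v : U), hI v.2⟩ : ↥F)) ?_ ?_ ?_ ?_
  · intro v _
    simp
  · intro a _ b _ hab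
    exact Subtype.ext (congrArg (fun w : ↥F => (w : U)) hab)
  · intro b hb
    exact ⟨⟨(b : U), (Finset.mem_filter.1 hb).2⟩, Finset.mem_univ _, rfl⟩
  · intro v _
    rfl

end Crest.Agent.R144.Fib674
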