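import Crest.Agent.R144.StB3_348

/-!
R144 (S0197), helper348.  STEP B, part 3: the cut function of a polygon.

`inn a lo p = min_j (a_j · p - lo_j)`, `chi a lo s p = max 0 (min 1 (inn a lo p / s))`.
`boxA`, `boxLo` : the rhombus `lo ≤ p ≤ hi` in the index coordinates.
-/

set_option autoImplicit false
set_option linter.unusedSectionVars false

open MeasureTheory Set Filter Topology
open scoped ENNReal NNReal

noncomputable section

namespace Crest.Agent.R144.StB348

section Poly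

variable {κ J : Type*} [Fintype κ] [Fintype J] [Nonempty J]

/-- Distance-like function to the complement of the polygon `a_j · p ≥ lo_j`. -/
def inn (a : J → κ → ℝ) (lo : J → ℝ) (p : κ → ℝ) : ℝ :=
  Finset.univ.inf' Finset.univ_nonempty fun j => ∑ i, a j i * p i - lo j

theorem inn_le (a : J → κ → ℝ) (lo : J → ℝ) (p : κ → ℝ) (j : J) :
    inn a lo p ≤ ∑ i, a j i * p i - lo j := Finset.inf'_le _ (Finset.mem_univ j)

theorem le_inn {a : J → κ → ℝ} {lo : J → ℝ} {p : κ → ℝ} {c : ℝ}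
    (h : ∀ j, c ≤ ∑ i, a j i * p i - lo j) : c ≤ inn a lo p :=
  Finset.le_inf' _ _ fun j _ => h j

theorem inn_sub_le {a : J → κ → ℝ} {lo : J → ℝ} {C d : ℝ} (ha : ∀ j, ∑ i, |a j i| ≤ C)
    (hd : 0 ≤ d) {p q : κ → ℝ} (hpq : ∀ i, |p i - q i| ≤ d) :
    inn a lo q - C * d ≤ inn a lo p := by
  refine le_inn fun j => ?_
  have h1 := inn_le a lo q j
  have h2 : |∑ i, a j i * p i - ∑ i, a j i * q i| ≤ C * d := by
    rw [← Finset.sum_sub_distrib]
    refine (Finset.abs_sum_le_sum_abs _ _).trans ?_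
    calc ∑ i, |a j i * p i - a j i * q i| ≤ ∑ i, |a j i| * d := by
          refine Finset.sum_le_sum fun i _ => ?_
          rw [← mul_sub, abs_mul]
          exact mul_le_mul_of_nonneg_left (hpq i) (abs_nonneg _)
      _ = (∑ i, |a j i|) * d := by rw [Finset.sum_mul]
      _ ≤ _ := mul_le_mul_of_nonneg_right (ha j) hd
  rw [abs_le] at h2
  linarith [h2.1]

theorem abs_inn_sub_le {a : J → κ → ℝ} {lo : J → ℝ} {C : ℝ} (ha : ∀ j, ∑ i, |a j i| ≤ C)
    (p q : κ → ℝ) : |inn a lo p - inn a lo q| ≤ C * dist p q := by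
  have h1 : ∀ i, |p i - q i| ≤ dist p q := fun i => by
    rw [← Real.dist_eq]; exact dist_le_pi_dist p q i
  have h2 : ∀ i, |q i - p i| ≤ dist p q := fun i => by rw [abs_sub_comm]; exact h1 i
  have a1 := inn_sub_le (lo := lo) ha dist_nonneg h1
  have a2 := inn_sub_le (lo := lo) ha dist_nonneg h2
  rw [abs_le]
  constructor <;> linarith

/-- The cut function. -/
def chi (a : J → κ → ℝ) (lo : J → ℝ) (s : ℝ) (p : κ → ℝ) : ℝ := max 0 (min 1 (inn a lo p / s))

theorem chi_mem (a : J → κ → ℝ) (lo : J → ℝ) (s : ℝ) (p : κ → ℝ) :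
    chi a lo s p ∈ Icc (0 : ℝ) 1 :=
  ⟨le_max_left _ _, max_le zero_le_one (min_le_left _ _)⟩

theorem chi_eq_zero {a : J → κ → ℝ} {lo : J → ℝ} {s : ℝ} (hs : 0 < s) {p : κ → ℝ}
    (h : inn a lo p ≤ 0) : chi a lo s p = 0 := by
  have h1 : inn a lo p / s ≤ 0 := div_nonpos_of_nonpos_of_nonneg h hs.le
  exact max_eq_left ((min_le_right _ _).trans h1)

theorem chi_eq_one {a : J → κ → ℝ} {lo : J → ℝ} {s : ℝ} (hs : 0 < s) {p : κ → ℝ}
    (h : s ≤ inn a lo p) : chi a lo s p = 1 := by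
  have h1 : 1 ≤ inn a lo p / s := (one_le_div hs).mpr h
  rw [chi, min_eq_left h1]; exact max_eq_right zero_le_one

/-- The Lipschitz constant `C / s`. -/
theorem lip_chi {a : J → κ → ℝ} (lo : J → ℝ) {C s : ℝ} (hC : 0 ≤ C) (hs : 0 < s)
    (ha : ∀ j, ∑ i, |a j i| ≤ C) : LipschitzWith ⟨C / s, div_nonneg hC hs.le⟩ (chi a lo s) := by
  have h1 : LipschitzWith ⟨C / s, div_nonneg hC hs.le⟩ (fun p => inn a lo p / s) := by
    refine LipschitzWith.of_dist_le_mul fun p q => ?_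
    change dist (inn a lo p / s) (inn a lo q / s) ≤ C / s * dist p q
    rw [Real.dist_eq, ← sub_div, abs_div, abs_of_pos hs, div_mul_eq_mul_div]
    exact div_le_div_of_nonneg_right (abs_inn_sub_le ha p q) hs.le
  have h2 := (h1.const_min 1).const_max 0
  exact h2

/-- Outside the collar the cut function is `1`, uniformly over positions at distance `≤ C₀`. -/
theorem chi_eq_one_near {a : J → κ → ℝ} {lo : J → ℝ} {C s C0 : ℝ} (hs : 0 < s)
    (ha : ∀ j, ∑ i, |a j i| ≤ C) {y P : κ → ℝ} (hC0 : 0 ≤ C0) (hP : ∀ i, |P i - y i| ≤ C0)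
    (h : s + C * C0 ≤ inn a lo y) : chi a lo s P = 1 := by
  refine chi_eq_one hs ?_
  have := inn_sub_le (lo := lo) ha hC0 hP
  linarith

end Poly

section Box

/-- The rhombus `lo ≤ p ≤ hi` in index coordinates. -/
def boxA : Fin 4 → Fin 2 → ℝ := ![![1, 0], ![-1, 0], ![0, 1], ![0, -1]]

/-- The rhombus `lo ≤ p ≤ hi` in index coordinates. -/
def boxLo (lo hi : Fin 2 → ℝ) : Fin 4 → ℝ := ![lo 0, -hi 0, lo 1, -hi 1]

theorem boxA_sum (j : Fin 4) : ∑ i, |boxA j i| ≤ 1 := by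
  fin_cases j <;> simp [boxA]

theorem inn_box (lo hi p : Fin 2 → ℝ) : inn boxA (boxLo lo hi) p =
    min (min (p 0 - lo 0) (hi 0 - p 0)) (min (p 1 - lo 1) (hi 1 - p 1)) := by
  apply le_antisymm
  · have h0 := inn_le boxA (boxLo lo hi) p 0
    have h1 := inn_le boxA (boxLo lo hi) p 1
    have h2 := inn_le boxA (boxLo lo hi) p 2
    have h3 := inn_le boxA (boxLo lo hi) p 3
    generalize inn boxA (boxLo lo hi) p = m at h0 h1 h2 h3 ⊢
    simp [boxA, boxLo] at h0 h1 h2 h3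
    refine le_min (le_min ?_ ?_) (le_min ?_ ?_) <;> linarith
  · refine le_inn fun j => ?_
    have a0 := min_le_left (min (p 0 - lo 0) (hi 0 - p 0)) (min (p 1 - lo 1) (hi 1 - p 1))
    have a1 := min_le_right (min (p 0 - lo 0) (hi 0 - p 0)) (min (p 1 - lo 1) (hi 1 - p 1))
    have b0 := min_le_left (p 0 - lo 0) (hi 0 - p 0)
    have b1 := min_le_right (p 0 - lo 0) (hi 0 - p 0)
    have b2 := min_le_left (p 1 - lo 1) (hi 1 - p 1)
    have b3 := min_le_right (p 1 - lo 1) (hi 1 - p 1)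
    fin_cases j <;> simp [boxA, boxLo] <;> linarith

end Box

end Crest.Agent.R144.StB348
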