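import Crest.Agent.R144.Upp3_296
import Crest.Agent.R144.StB4_348
import Crest.Agent.R144.Fib5_674

/-!
# R144 (S0197), helper812: fibre assembly FA, part 1

Blocks `blk S a = a + S` (`S` any finite set of displacements), the field `uf Y` of a vector field
`Y`, the block slopes `Gs`, and the bound of the gradient of the slopes in the directions of the
block:  `Σ_{a ∈ K} Σ_{v ∈ a + S} (∂_v G_i(a))² ≤ 4 |S| R⁻² en Y`.
-/

set_option autoImplicit false
set_option linter.unusedSectionVars false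

open MeasureTheory Set Filter Topology
open scoped ENNReal NNReal

namespace Crest.Agent.R144.Fa812

open Crest.Agent.R144.Ham560 Crest.Agent.R144.Flat296 Crest.Agent.R144.Upp296
open Crest.Agent.R144.Fib674 Crest.Agent.R144.StB348

noncomputable section

/-! ### blocks -/

/-- the block with base point `a` and shape `S` -/
def blk (S : Finset (ℕ × ℕ)) (a : P2) : Finset P2 := S.image fun p => a + pt p

theorem pt_injective : Function.Injective pt := by
  rintro ⟨a, b⟩ ⟨c, d⟩ h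
  simp only [pt, Prod.mk.injEq] at h
  simp only [Prod.mk.injEq]
  exact ⟨by exact_mod_cast h.1, by exact_mod_cast h.2⟩

theorem mem_blk {S : Finset (ℕ × ℕ)} {a v : P2} : v ∈ blk S a ↔ ∃ p ∈ S, a + pt p = v := by
  simp [blk]

theorem blk_inj (a : P2) : Function.Injective fun p : ℕ × ℕ => a + pt p := fun _ _ h =>
  pt_injective (add_left_cancel h)

theorem card_blk (S : Finset (ℕ × ℕ)) (a : P2) : (blk S a).card = S.card :=
  Finset.card_image_of_injective _ (blk_inj a)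

theorem sum_blk (S : Finset (ℕ × ℕ)) (a : P2) (h : P2 → ℝ) :
    ∑ v ∈ blk S a, h v = ∑ p ∈ S, h (a + pt p) :=
  Finset.sum_image fun _ _ _ _ e => blk_inj a e

/-- **covering**: every site belongs to at most `|S|` translates of the block -/
theorem cover {S : Finset (ℕ × ℕ)} {K F : Finset P2} (hK : ∀ a ∈ K, blk S a ⊆ F) {h : P2 → ℝ}
    (h0 : ∀ v ∈ F, 0 ≤ h v) : ∑ a ∈ K, ∑ v ∈ blk S a, h v ≤ S.card * ∑ v ∈ F, h v := by
  simp_rw [sum_blk]
  rw [Finset.sum_comm]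
  calc ∑ p ∈ S, ∑ a ∈ K, h (a + pt p) ≤ ∑ _p ∈ S, ∑ v ∈ F, h v := by
        refine Finset.sum_le_sum fun p hp => ?_
        have e : ∑ a ∈ K, h (a + pt p) = ∑ v ∈ K.image (· + pt p), h v :=
          (Finset.sum_image fun _ _ _ _ e => add_right_cancel e).symm
        rw [e]
        refine Finset.sum_le_sum_of_subset_of_nonneg ?_ fun v hv _ => h0 v hv
        intro v hv
        obtain ⟨a, ha, rfl⟩ := Finset.mem_image.1 hv
        exact hK a ha (mem_blk.2 ⟨p, hp, rfl⟩)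
    _ = S.card * ∑ v ∈ F, h v := by rw [Finset.sum_const, nsmul_eq_mul]

variable {F : Finset P2} {E : Finset (P2 × P2)} {ξ : P2 → ℝ}

/-! ### the field -/

/-- the field of a vector field, `0` off the free set -/
def uf (Y : (F → ℝ) → (F → ℝ)) : Fld (F → ℝ) := fun a h => ext F 0 (Y h) a

/-- the gradient of the field -/
def du (Y : (F → ℝ) → (F → ℝ)) (v : F) (a : P2) (h : F → ℝ) : ℝ :=
  if ha : a ∈ F then MW121.jac Y h ⟨a, ha⟩ v else 0

theorem uf_mem (Y : (F → ℝ) → (F → ℝ)) {a : P2} (ha : a ∈ F) (h : F → ℝ) :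
    uf Y a h = Y h ⟨a, ha⟩ := ext_mem ha _

theorem uf_notMem (Y : (F → ℝ) → (F → ℝ)) {a : P2} (ha : a ∉ F) (h : F → ℝ) : uf Y a h = 0 := by
  rw [uf, ext_notMem ha]; rfl

theorem hasFDerivAt_uf {Y : (F → ℝ) → (F → ℝ)} {h : F → ℝ} (hY : DifferentiableAt ℝ Y h) (a : P2) :
    DifferentiableAt ℝ (uf Y a) h ∧ ∀ v : F, pd v (uf Y a) h = du Y v a h := by
  by_cases ha : a ∈ F
  · have e : uf Y a = fun h => Y h ⟨a, ha⟩ := funext fun h => uf_mem Y ha h
    have h1 : DifferentiableAt ℝ (fun h => Y h ⟨a, ha⟩) h := differentiableAt_pi.1 hY _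
    refine ⟨by rw [e]; exact h1, fun v => ?_⟩
    rw [e, du, dif_pos ha, jac_eq hY]
    rfl
  · have e : uf Y a = fun _ => 0 := funext fun h => uf_notMem Y ha h
    refine ⟨by rw [e]; exact differentiableAt_const _, fun v => ?_⟩
    rw [e, du, dif_neg ha, pd]
    simp

theorem bd_uf {Y : (F → ℝ) → (F → ℝ)} (hY : Measurable Y) {M : ℝ} (hM : ∀ h v, |Y h v| ≤ M) :
    Bd (uf Y) := by
  refine ⟨fun a => ?_, |M|, fun a h => ?_⟩
  · by_cases ha : a ∈ F
    · have e : uf Y a = fun h => Y h ⟨a, ha⟩ := funext fun h => uf_mem Y ha h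
      rw [e]; exact (measurable_pi_apply _).comp hY
    · have e : uf Y a = fun _ => 0 := funext fun h => uf_notMem Y ha h
      rw [e]; exact measurable_const
  · by_cases ha : a ∈ F
    · rw [uf_mem Y ha]; exact (hM _ _).trans (le_abs_self _)
    · rw [uf_notMem Y ha]; simp

theorem lip_uf {Y : (F → ℝ) → (F → ℝ)} {c : ℝ≥0} (hY : LipschitzWith c Y) (a : P2) :
    LipschitzWith c (uf Y a) := by
  refine LipschitzWith.of_dist_le_mul fun x y => ?_
  by_cases ha : a ∈ F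
  · rw [uf_mem Y ha, uf_mem Y ha]
    exact (dist_le_pi_dist _ _ _).trans (hY.dist_le_mul x y)
  · rw [uf_notMem Y ha, uf_notMem Y ha, dist_self]
    positivity

theorem sum_du_sq (Y : (F → ℝ) → (F → ℝ)) (h : F → ℝ) :
    ∑ v : F, ∑ a ∈ F, du Y v a h ^ 2 = MW121.en Y h := by
  unfold MW121.en
  rw [Finset.sum_comm]
  rw [← Finset.sum_coe_sort F (fun a => ∑ v : F, du Y v a h ^ 2)]
  refine Finset.sum_congr rfl fun a _ => Finset.sum_congr rfl fun v _ => ?_
  rw [du, dif_pos a.2]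

/-- all the sites, not only the free ones -/
theorem sum_du_sq_le (Y : (F → ℝ) → (F → ℝ)) (h : F → ℝ) (v : F) (T : Finset P2) :
    ∑ a ∈ T, du Y v a h ^ 2 ≤ ∑ a ∈ F, du Y v a h ^ 2 := by
  classical
  have e : ∑ a ∈ T, du Y v a h ^ 2 = ∑ a ∈ T ∩ F, du Y v a h ^ 2 := by
    symm
    refine Finset.sum_subset Finset.inter_subset_left fun a ha ha' => ?_
    have : a ∉ F := fun hc => ha' (Finset.mem_inter.2 ⟨ha, hc⟩)
    rw [du, dif_neg this]; ring
  rw [e]
  exact Finset.sum_le_sum_of_subset_of_nonneg Finset.inter_subset_right fun _ _ _ => sq_nonneg _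

/-! ### the slopes -/

/-- the slope at scale `R` in the direction `e` -/
def Gs (R : ℕ) (K' : Finset P2) (e : P2) (Y : (F → ℝ) → (F → ℝ)) : Fld (F → ℝ) :=
  bm R (rst K' (dd e (uf Y)))

theorem Gs_apply (R : ℕ) (K' : Finset P2) (e : P2) (Y : (F → ℝ) → (F → ℝ)) (a : P2) (h : F → ℝ) :
    Gs R K' e Y a h = ((R * R : ℕ) : ℝ)⁻¹ * ∑ p ∈ sq R,
      (if a + pt p ∈ K' then uf Y (a + pt p + e) h - uf Y (a + pt p) h else 0) := by
  rw [Gs, bm_apply]
  congr 1
  refine Finset.sum_congr rfl fun p _ => ?_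
  by_cases hp : a + pt p ∈ K'
  · rw [rst_mem hp, if_pos hp]; rfl
  · rw [rst_notMem hp, if_neg hp]; rfl

theorem bd_Gs (R : ℕ) (K' : Finset P2) (e : P2) {Y : (F → ℝ) → (F → ℝ)} (hY : Bd (uf Y)) :
    Bd (Gs R K' e Y) := ((hY.dd e).rst K').bm R

theorem lip_Gs (R : ℕ) (K' : Finset P2) (e : P2) {Y : (F → ℝ) → (F → ℝ)} {c : ℝ≥0}
    (hY : LipschitzWith c Y) (a : P2) : ∃ c' : ℝ≥0, LipschitzWith c' (Gs R K' e Y a) := by
  have h1 : ∀ p : ℕ × ℕ, LipschitzWith (c + c) fun h =>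
      (if a + pt p ∈ K' then uf Y (a + pt p + e) h - uf Y (a + pt p) h else 0) := by
    intro p
    by_cases hp : a + pt p ∈ K'
    · simp only [hp, if_true]
      exact (lip_uf hY _).sub (lip_uf hY _)
    · simp only [hp, if_false]
      exact (LipschitzWith.const 0).weaken zero_le
  have h2 : ∀ s : Finset (ℕ × ℕ), ∃ c' : ℝ≥0, LipschitzWith c' fun h => ∑ p ∈ s,
      (if a + pt p ∈ K' then uf Y (a + pt p + e) h - uf Y (a + pt p) h else 0) := by
    classical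
    intro s
    induction s using Finset.induction_on with
    | empty => exact ⟨0, by simp⟩
    | insert p s hp ih =>
      obtain ⟨c', hc'⟩ := ih
      refine ⟨(c + c) + c', ?_⟩
      simp_rw [Finset.sum_insert hp]
      exact (h1 p).add hc'
  obtain ⟨c', hc'⟩ := h2 (sq R)
  have e1 : Gs R K' e Y a = fun h => ((R * R : ℕ) : ℝ)⁻¹ * ∑ p ∈ sq R,
      (if a + pt p ∈ K' then uf Y (a + pt p + e) h - uf Y (a + pt p) h else 0) :=
    funext fun h => Gs_apply R K' e Y a h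
  refine ⟨‖((R * R : ℕ) : ℝ)⁻¹‖₊ * c', ?_⟩
  rw [e1]
  refine LipschitzWith.of_dist_le_mul fun x y => ?_
  rw [Real.dist_eq, ← mul_sub, abs_mul, NNReal.coe_mul, coe_nnnorm, Real.norm_eq_abs, mul_assoc]
  refine mul_le_mul_of_nonneg_left ?_ (abs_nonneg _)
  rw [← Real.dist_eq]
  exact hc'.dist_le_mul x y

theorem pd_Gs (R : ℕ) (K' : Finset P2) (e : P2) {Y : (F → ℝ) → (F → ℝ)} {h : F → ℝ}
    (hY : DifferentiableAt ℝ Y h) (a : P2) (v : F) :
    DifferentiableAt ℝ (Gs R K' e Y a) h ∧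
    pd v (Gs R K' e Y a) h = ((R * R : ℕ) : ℝ)⁻¹ * ∑ p ∈ sq R,
      (if a + pt p ∈ K' then du Y v (a + pt p + e) h - du Y v (a + pt p) h else 0) := by
  have h1 : ∀ p : ℕ × ℕ, HasFDerivAt (fun h =>
      (if a + pt p ∈ K' then uf Y (a + pt p + e) h - uf Y (a + pt p) h else 0))
      (if a + pt p ∈ K' then fderiv ℝ (uf Y (a + pt p + e)) h - fderiv ℝ (uf Y (a + pt p)) h
        else 0) h := by
    intro p
    by_cases hp : a + pt p ∈ K'
    · simp only [hp, if_true]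
      exact (hasFDerivAt_uf hY _).1.hasFDerivAt.sub (hasFDerivAt_uf hY _).1.hasFDerivAt
    · simp only [hp, if_false]
      exact hasFDerivAt_const _ _
  have h2 := (HasFDerivAt.fun_sum (u := sq R) fun p _ => h1 p).const_mul (((R * R : ℕ) : ℝ)⁻¹)
  have e1 : Gs R K' e Y a = fun h => ((R * R : ℕ) : ℝ)⁻¹ * ∑ p ∈ sq R,
      (if a + pt p ∈ K' then uf Y (a + pt p + e) h - uf Y (a + pt p) h else 0) :=
    funext fun h => Gs_apply R K' e Y a h
  refine ⟨by rw [e1]; exact h2.differentiableAt, ?_⟩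
  rw [pd, e1, h2.fderiv]
  rw [_root_.smul_apply, smul_eq_mul]
  congr 1
  rw [_root_.sum_apply]
  refine Finset.sum_congr rfl fun p _ => ?_
  by_cases hp : a + pt p ∈ K'
  · rw [if_pos hp, if_pos hp, _root_.sub_apply]
    rw [← (hasFDerivAt_uf hY (a + pt p + e)).2 v, ← (hasFDerivAt_uf hY (a + pt p)).2 v]
    rfl
  · rw [if_neg hp, if_neg hp]; rfl

/-- pointwise bound of one partial derivative of the slope -/
theorem pd_Gs_sq_le {R : ℕ} (hR : 0 < R) (K' : Finset P2) (e : P2) {Y : (F → ℝ) → (F → ℝ)}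
    {h : F → ℝ} (hY : DifferentiableAt ℝ Y h) (a : P2) (v : F) :
    pd v (Gs R K' e Y a) h ^ 2 ≤ 4 * ((R * R : ℕ) : ℝ)⁻¹ * ∑ x ∈ F, du Y v x h ^ 2 := by
  rw [(pd_Gs R K' e hY a v).2, mul_pow]
  have hRR : (0 : ℝ) < ((R * R : ℕ) : ℝ) := by positivity
  have h1 := sq_sum_le_card_mul_sum_sq (s := sq R) (f := fun p =>
    (if a + pt p ∈ K' then du Y v (a + pt p + e) h - du Y v (a + pt p) h else 0))
  rw [card_sq] at h1
  have h2 : ∑ p ∈ sq R,
      (if a + pt p ∈ K' then du Y v (a + pt p + e) h - du Y v (a + pt p) h else 0) ^ 2 ≤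
      4 * ∑ x ∈ F, du Y v x h ^ 2 := by
    have h3 : ∀ p ∈ sq R,
        (if a + pt p ∈ K' then du Y v (a + pt p + e) h - du Y v (a + pt p) h else 0) ^ 2 ≤
        2 * du Y v (a + pt p + e) h ^ 2 + 2 * du Y v (a + pt p) h ^ 2 := by
      intro p _
      split_ifs
      · nlinarith [sq_nonneg (du Y v (a + pt p + e) h + du Y v (a + pt p) h)]
      · nlinarith [sq_nonneg (du Y v (a + pt p + e) h), sq_nonneg (du Y v (a + pt p) h)]
    refine (Finset.sum_le_sum h3).trans ?_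
    rw [Finset.sum_add_distrib, ← Finset.mul_sum, ← Finset.mul_sum]
    have i1 : Function.Injective fun p : ℕ × ℕ => a + pt p + e := fun p q hpq =>
      blk_inj a (add_right_cancel hpq)
    have h4 : ∑ p ∈ sq R, du Y v (a + pt p + e) h ^ 2 ≤ ∑ x ∈ F, du Y v x h ^ 2 := by
      have := sum_du_sq_le Y h v ((Flat296.sq R).image fun p => a + pt p + e)
      rwa [Finset.sum_image fun _ _ _ _ hh => i1 hh] at this
    have h5 : ∑ p ∈ sq R, du Y v (a + pt p) h ^ 2 ≤ ∑ x ∈ F, du Y v x h ^ 2 := by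
      have := sum_du_sq_le Y h v ((Flat296.sq R).image fun p => a + pt p)
      rwa [Finset.sum_image fun _ _ _ _ hh => blk_inj a hh] at this
    linarith
  calc (((R * R : ℕ) : ℝ)⁻¹) ^ 2 * (∑ p ∈ sq R,
        (if a + pt p ∈ K' then du Y v (a + pt p + e) h - du Y v (a + pt p) h else 0)) ^ 2
      ≤ (((R * R : ℕ) : ℝ)⁻¹) ^ 2 * (((R * R : ℕ) : ℝ) * (4 * ∑ x ∈ F, du Y v x h ^ 2)) := by
        refine mul_le_mul_of_nonneg_left (h1.trans ?_) (by positivity)
        exact mul_le_mul_of_nonneg_left h2 hRR.le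
    _ = 4 * ((R * R : ℕ) : ℝ)⁻¹ * ∑ x ∈ F, du Y v x h ^ 2 := by field_simp

/-- **gradient of the slopes in the directions of the blocks** -/
theorem sum_gI_Gs_le {R : ℕ} (hR : 0 < R) {S : Finset (ℕ × ℕ)} {K K' : Finset P2}
    (hK : ∀ a ∈ K, blk S a ⊆ F) (e : P2) {Y : (F → ℝ) → (F → ℝ)}
    {h : F → ℝ} (hY : DifferentiableAt ℝ Y h) :
    ∑ a ∈ K.attach, gI (hK a.1 a.2) (Gs R K' e Y a.1) h ≤
      4 * S.card * ((R * R : ℕ) : ℝ)⁻¹ * MW121.en Y h := by
  classical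
  set H : P2 → ℝ := fun v => if hv : v ∈ F then
    4 * ((R * R : ℕ) : ℝ)⁻¹ * ∑ x ∈ F, du Y ⟨v, hv⟩ x h ^ 2 else 0 with hH
  have hH0 : ∀ v ∈ F, 0 ≤ H v := by
    intro v hv
    rw [hH]; simp only [hv, dif_pos]
    exact mul_nonneg (by positivity) (Finset.sum_nonneg fun _ _ => sq_nonneg _)
  have h1 : ∀ a : {a // a ∈ K}, gI (hK a.1 a.2) (Gs R K' e Y a.1) h ≤ ∑ v ∈ blk S a.1, H v := by
    intro a
    unfold gI
    rw [← Finset.sum_coe_sort (blk S a.1) H]
    refine Finset.sum_le_sum fun v _ => ?_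
    have hv : (v : P2) ∈ F := hK a.1 a.2 v.2
    rw [hH]; simp only [hv, dif_pos]
    exact pd_Gs_sq_le hR K' e hY a.1 ⟨v, hv⟩
  calc ∑ a ∈ K.attach, gI (hK a.1 a.2) (Gs R K' e Y a.1) h
      ≤ ∑ a ∈ K.attach, ∑ v ∈ blk S a.1, H v := Finset.sum_le_sum fun a _ => h1 a
    _ = ∑ a ∈ K, ∑ v ∈ blk S a, H v := Finset.sum_attach K fun a => ∑ v ∈ blk S a, H v
    _ ≤ S.card * ∑ v ∈ F, H v := cover hK hH0
    _ = 4 * S.card * ((R * R : ℕ) : ℝ)⁻¹ * MW121.en Y h := by
        have h2 : ∑ v ∈ F, H v = 4 * ((R * R : ℕ) : ℝ)⁻¹ * MW121.en Y h := by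
          rw [← sum_du_sq, Finset.mul_sum, ← Finset.sum_coe_sort F H]
          refine Finset.sum_congr rfl fun v _ => ?_
          rw [hH]; simp only [v.2, dif_pos]
        rw [h2]; ring

end

end Crest.Agent.R144.Fa812
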