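import Mathlib

/-!
R144 / S0197, approach P, Step F (label-space flatness), part 1: the L1 functional on random fields
over `ℤ × ℤ`, block means, translations.
-/

set_option autoImplicit false

open MeasureTheory Finset
open scoped ENNReal

namespace Crest.Agent.R144.Flat296

/-- sites (index coordinates) -/
abbrev P2 : Type := ℤ × ℤ

variable {Ω : Type*} [MeasurableSpace Ω]

/-- random fields -/
abbrev Fld (Ω : Type*) : Type _ := P2 → Ω → ℝ

/-- translation -/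
def tr (z : P2) (v : Fld Ω) : Fld Ω := fun a ω => v (a + z) ω

/-- weighted L1 functional -/
noncomputable def N (μ : Measure Ω) (w : P2 → ℝ≥0∞) (v : Fld Ω) : ℝ≥0∞ :=
  ∑' a, w a * ∫⁻ ω, ‖v a ω‖ₑ ∂μ

/-- weighted L2 functional -/
noncomputable def Q (μ : Measure Ω) (w : P2 → ℝ≥0∞) (v : Fld Ω) : ℝ≥0∞ :=
  ∑' a, w a * ∫⁻ ω, ENNReal.ofReal (v a ω ^ 2) ∂μ

/-- measurable fields -/
def Mb (v : Fld Ω) : Prop := ∀ a, Measurable (v a)

section basic

variable {μ : Measure Ω} {w w' : P2 → ℝ≥0∞} {v v' : Fld Ω}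

lemma Mb.tr {v : Fld Ω} (hv : Mb v) (z : P2) : Mb (tr z v) := fun a => hv (a + z)

lemma Mb.add {v v' : Fld Ω} (hv : Mb v) (hv' : Mb v') : Mb (v + v') :=
  fun a => (hv a).add (hv' a)

lemma Mb.sub {v v' : Fld Ω} (hv : Mb v) (hv' : Mb v') : Mb (v - v') :=
  fun a => (hv a).sub (hv' a)

lemma Mb.smul {v : Fld Ω} (c : ℝ) (hv : Mb v) : Mb (c • v) :=
  fun a => (hv a).const_smul c

lemma Mb.zero : Mb (0 : Fld Ω) := fun _ => measurable_const

lemma Mb.sum {ι : Type*} {s : Finset ι} {f : ι → Fld Ω} (h : ∀ i ∈ s, Mb (f i)) :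
    Mb (∑ i ∈ s, f i) := by
  intro a
  have : (∑ i ∈ s, f i) a = ∑ i ∈ s, f i a := by simp
  rw [this]
  have h2 : (∑ i ∈ s, f i a) = fun ω => ∑ i ∈ s, f i a ω := by ext ω; simp
  rw [h2]
  exact Finset.measurable_sum s fun i hi => h i hi a

lemma N_mono (h : ∀ a, w a ≤ w' a) : N μ w v ≤ N μ w' v :=
  ENNReal.tsum_le_tsum fun a => mul_le_mul_left (h a) _

lemma N_add (hv : Mb v) : N μ w (v + v') ≤ N μ w v + N μ w v' := by
  unfold N
  rw [← ENNReal.tsum_add]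
  refine ENNReal.tsum_le_tsum fun a => ?_
  rw [← mul_add, ← lintegral_add_left (hv a).enorm]
  gcongr
  exact enorm_add_le _ _

lemma N_smul (c : ℝ) : N μ w (c • v) = ‖c‖ₑ * N μ w v := by
  unfold N
  rw [← ENNReal.tsum_mul_left]
  refine tsum_congr fun a => ?_
  have : ∀ ω, ‖(c • v) a ω‖ₑ = ‖c‖ₑ * ‖v a ω‖ₑ := fun ω => by
    simp [enorm_mul]
  simp_rw [this]
  rw [lintegral_const_mul' _ _ (by simp)]
  ring

lemma N_zero : N μ w (0 : Fld Ω) = 0 := by simp [N]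

lemma N_neg : N μ w (-v) = N μ w v := by simp [N]

lemma N_sub (hv : Mb v) : N μ w (v - v') ≤ N μ w v + N μ w v' := by
  rw [sub_eq_add_neg]
  exact (N_add hv).trans (by rw [N_neg])

lemma N_sub_comm : N μ w (v - v') = N μ w (v' - v) := by
  rw [← neg_sub, N_neg]

lemma N_sum {ι : Type*} (s : Finset ι) (f : ι → Fld Ω) (h : ∀ i ∈ s, Mb (f i)) :
    N μ w (∑ i ∈ s, f i) ≤ ∑ i ∈ s, N μ w (f i) := by
  classical
  induction s using Finset.induction_on with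
  | empty => simp [N_zero]
  | insert i s hi ih =>
    rw [Finset.sum_insert hi, Finset.sum_insert hi]
    refine (N_add (h i (by simp))).trans ?_
    gcongr
    exact ih fun j hj => h j (by simp [hj])

lemma N_tr (z : P2) : N μ w (tr z v) = N μ (fun a => w (a - z)) v := by
  unfold N tr
  rw [← (Equiv.addRight z).tsum_eq (fun a => w (a - z) * ∫⁻ ω, ‖v a ω‖ₑ ∂μ)]
  simp

lemma N_tr_one (z : P2) : N μ (fun _ => 1) (tr z v) = N μ (fun _ => 1) v := N_tr z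

lemma Q_tr_one (z : P2) : Q μ (fun _ => 1) (tr z v) = Q μ (fun _ => 1) v := by
  unfold Q tr
  rw [← (Equiv.addRight z).tsum_eq (fun a => (1:ℝ≥0∞) * ∫⁻ ω, ENNReal.ofReal (v a ω ^ 2) ∂μ)]
  simp

/-- AM-GM: the L1 functional by the L2 functional and the total weight -/
lemma N_le_Q [IsProbabilityMeasure μ] (hw : ∀ a, w a ≤ 1) (hv : Mb v) {κ : ℝ} (hκ : 0 < κ) :
    N μ w v ≤ ENNReal.ofReal κ * ∑' a, w a + ENNReal.ofReal κ⁻¹ * Q μ (fun _ => 1) v := by
  unfold N Q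
  rw [← ENNReal.tsum_mul_left, ← ENNReal.tsum_mul_left, ← ENNReal.tsum_add]
  refine ENNReal.tsum_le_tsum fun a => ?_
  have hp : ∀ ω, ‖v a ω‖ₑ ≤ ENNReal.ofReal κ + ENNReal.ofReal κ⁻¹ * ENNReal.ofReal (v a ω ^ 2) := by
    intro ω
    rw [← ENNReal.ofReal_mul (by positivity), ← ENNReal.ofReal_add hκ.le (by positivity),
      Real.enorm_eq_ofReal_abs]
    apply ENNReal.ofReal_le_ofReal
    have h1 : 0 ≤ (|v a ω| - κ) ^ 2 := sq_nonneg _
    have h2 : κ * (κ⁻¹ * v a ω ^ 2) = v a ω ^ 2 := by field_simp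
    have h3 : |v a ω| ^ 2 = v a ω ^ 2 := sq_abs _
    have h4 : κ * |v a ω| ≤ κ * (κ + κ⁻¹ * v a ω ^ 2) := by
      rw [mul_add, h2]; nlinarith [abs_nonneg (v a ω)]
    exact le_of_mul_le_mul_left h4 hκ
  calc w a * ∫⁻ ω, ‖v a ω‖ₑ ∂μ
      ≤ w a * ∫⁻ ω, (ENNReal.ofReal κ + ENNReal.ofReal κ⁻¹ * ENNReal.ofReal (v a ω ^ 2)) ∂μ := by
        gcongr with ω; exact hp ω
    _ = w a * (ENNReal.ofReal κ + ENNReal.ofReal κ⁻¹ * ∫⁻ ω, ENNReal.ofReal (v a ω ^ 2) ∂μ) := by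
        rw [lintegral_add_left measurable_const, lintegral_const_mul' _ _ (by simp)]
        simp
    _ ≤ ENNReal.ofReal κ * w a + ENNReal.ofReal κ⁻¹ * (1 * ∫⁻ ω, ENNReal.ofReal (v a ω ^ 2) ∂μ) := by
        rw [mul_add, mul_comm (w a)]
        have h5 : ∀ X : ℝ≥0∞, w a * X ≤ X := fun X =>
          (mul_le_mul' (hw a) le_rfl).trans (one_mul X).le
        exact add_le_add le_rfl ((h5 _).trans (by rw [one_mul]))

end basic

end Crest.Agent.R144.Flat296
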