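import Mathlib
import Crest.Agent.R144.Flat1_296

/-!
R144 / S0197, approach P, Step F (label-space flatness), part 2: means over finite families, block
means, the variance identity, telescoping.
-/

set_option autoImplicit false
set_option linter.unusedSectionVars false
set_option linter.unusedVariables false

open MeasureTheory Finset
open scoped ENNReal

namespace Crest.Agent.R144.Flat296

variable {Ω : Type*} [MeasurableSpace Ω] {μ : Measure Ω} {w : P2 → ℝ≥0∞} {v v' : Fld Ω}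

/-- mean of a finite family of fields -/
noncomputable def mn {ι : Type*} (s : Finset ι) (X : ι → Fld Ω) : Fld Ω :=
  ((s.card : ℝ))⁻¹ • ∑ i ∈ s, X i

section mean

variable {ι : Type*} {s : Finset ι} {X : ι → Fld Ω}

lemma mn_apply (a : P2) (ω : Ω) : mn s X a ω = ((s.card : ℝ))⁻¹ * ∑ i ∈ s, X i a ω := by
  simp [mn]

lemma Mb.mn (h : ∀ i ∈ s, Mb (X i)) : Mb (mn s X) := (Mb.sum h).smul _

lemma enorm_inv_card_mul (n : ℕ) (B : ℝ≥0∞) : ‖((n : ℝ))⁻¹‖ₑ * (n * B) ≤ B := by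
  rcases Nat.eq_zero_or_pos n with h | h
  · subst h; simp
  · have h1 : ‖((n : ℝ))⁻¹‖ₑ = ((n : ℝ≥0∞))⁻¹ := by
      rw [enorm_inv (by positivity)]
      simp
    rw [h1, ← mul_assoc, ENNReal.inv_mul_cancel (by positivity) (by simp), one_mul]

lemma N_mn_le (h : ∀ i ∈ s, Mb (X i)) {B : ℝ≥0∞} (hB : ∀ i ∈ s, N μ w (X i) ≤ B) :
    N μ w (mn s X) ≤ B := by
  unfold Flat296.mn
  rw [N_smul]
  refine le_trans ?_ (enorm_inv_card_mul s.card B)
  gcongr
  refine (N_sum s X h).trans ((Finset.sum_le_sum hB).trans ?_)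
  simp

lemma mn_sub_const (hs : s.Nonempty) (v : Fld Ω) : mn s (fun i => X i - v) = mn s X - v := by
  have hc : (s.card : ℝ) ≠ 0 := by simpa using hs.ne_empty
  ext a ω
  have e : (mn s X - v) a ω = mn s X a ω - v a ω := rfl
  rw [e, mn_apply, mn_apply]
  have e2 : ∀ i, (X i - v) a ω = X i a ω - v a ω := fun i => rfl
  simp_rw [e2]
  rw [Finset.sum_sub_distrib, Finset.sum_const, nsmul_eq_mul]
  field_simp

/-- the variance identity -/
lemma Q_mn (hs : s.Nonempty) (h : ∀ i ∈ s, Mb (X i)) :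
    Q μ (fun _ => 1) (mn s X) + (s.card : ℝ≥0∞)⁻¹ * ∑ i ∈ s, Q μ (fun _ => 1) (X i - mn s X) =
      (s.card : ℝ≥0∞)⁻¹ * ∑ i ∈ s, Q μ (fun _ => 1) (X i) := by
  have hc : (s.card : ℝ) ≠ 0 := by simpa using hs.ne_empty
  have hcE : (s.card : ℝ≥0∞) ≠ 0 := by simpa using hs.ne_empty
  unfold Q
  simp only [one_mul]
  rw [← Summable.tsum_finsetSum (fun i _ => ENNReal.summable),
    ← Summable.tsum_finsetSum (fun i _ => ENNReal.summable), ← ENNReal.tsum_mul_left,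
    ← ENNReal.tsum_mul_left, ← ENNReal.tsum_add]
  refine tsum_congr fun a => ?_
  have hm : ∀ i ∈ s, Measurable (X i a) := fun i hi => h i hi a
  have hmm : Measurable (mn s X a) := Mb.mn h a
  have hA : ∑ i ∈ s, ∫⁻ ω, ENNReal.ofReal ((X i - mn s X) a ω ^ 2) ∂μ =
      ∫⁻ ω, ∑ i ∈ s, ENNReal.ofReal ((X i - mn s X) a ω ^ 2) ∂μ := by
    refine (lintegral_finsetSum' s fun i hi => ?_).symm
    exact ((((hm i hi).sub hmm).pow_const 2).ennreal_ofReal).aemeasurable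
  have hB : ∑ i ∈ s, ∫⁻ ω, ENNReal.ofReal (X i a ω ^ 2) ∂μ =
      ∫⁻ ω, ∑ i ∈ s, ENNReal.ofReal (X i a ω ^ 2) ∂μ := by
    refine (lintegral_finsetSum' s fun i hi => ?_).symm
    exact (((hm i hi).pow_const 2).ennreal_ofReal).aemeasurable
  rw [hA, hB, ← lintegral_const_mul' _ _ (by simp [hcE]), ← lintegral_const_mul' _ _ (by simp [hcE]),
    ← lintegral_add_left]
  · refine lintegral_congr fun ω => ?_
    have e1 : ((s.card : ℝ≥0∞))⁻¹ = ENNReal.ofReal ((s.card : ℝ))⁻¹ := by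
      rw [ENNReal.ofReal_inv_of_pos (by positivity), ENNReal.ofReal_natCast]
    rw [e1, ← ENNReal.ofReal_sum_of_nonneg (fun i _ => sq_nonneg _),
      ← ENNReal.ofReal_sum_of_nonneg (fun i _ => sq_nonneg _), ← ENNReal.ofReal_mul (by positivity),
      ← ENNReal.ofReal_mul (by positivity), ← ENNReal.ofReal_add (sq_nonneg _)
        (mul_nonneg (by positivity) (Finset.sum_nonneg fun i _ => sq_nonneg _))]
    congr 1
    have e2 : ∀ i, (X i - mn s X) a ω = X i a ω - mn s X a ω := fun i => rfl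
    simp_rw [e2]
    rw [mn_apply]
    set S := ∑ i ∈ s, X i a ω with hS
    have e3 : ∑ i ∈ s, (X i a ω - (s.card : ℝ)⁻¹ * S) ^ 2 =
        ∑ i ∈ s, X i a ω ^ 2 - 2 * ((s.card : ℝ)⁻¹ * S) * S + s.card * ((s.card : ℝ)⁻¹ * S) ^ 2 := by
      have : ∀ i, (X i a ω - (s.card : ℝ)⁻¹ * S) ^ 2 = X i a ω ^ 2 -
          2 * ((s.card : ℝ)⁻¹ * S) * X i a ω + ((s.card : ℝ)⁻¹ * S) ^ 2 := fun i => by ring
      simp_rw [this]
      rw [Finset.sum_add_distrib, Finset.sum_sub_distrib, ← Finset.mul_sum, ← hS,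
        Finset.sum_const, nsmul_eq_mul]
    rw [e3]
    field_simp
    ring
  · exact (hmm.pow_const 2).ennreal_ofReal

lemma Q_mn_le (hs : s.Nonempty) (h : ∀ i ∈ s, Mb (X i)) {B : ℝ≥0∞}
    (hB : ∀ i ∈ s, Q μ (fun _ => 1) (X i) ≤ B) : Q μ (fun _ => 1) (mn s X) ≤ B := by
  have h1 := Q_mn (μ := μ) hs h
  have hcE : (s.card : ℝ≥0∞) ≠ 0 := by simpa using hs.ne_empty
  calc Q μ (fun _ => 1) (mn s X) ≤ (s.card : ℝ≥0∞)⁻¹ * ∑ i ∈ s, Q μ (fun _ => 1) (X i) := by
        rw [← h1]; exact le_self_add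
    _ ≤ (s.card : ℝ≥0∞)⁻¹ * (s.card * B) := by
        gcongr
        refine (Finset.sum_le_sum hB).trans ?_
        simp
    _ = B := by
        rw [← mul_assoc, ENNReal.inv_mul_cancel hcE (by simp), one_mul]

end mean

/-! ### translations and block means -/

lemma tr_tr (z z' : P2) (v : Fld Ω) : tr z (tr z' v) = tr (z + z') v := by
  ext a ω
  show v (a + z + z') ω = v (a + (z + z')) ω
  rw [add_assoc]

lemma tr_zero' (v : Fld Ω) : tr 0 v = v := by ext a ω; simp [tr]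

lemma tr_sub (z : P2) (v v' : Fld Ω) : tr z (v - v') = tr z v - tr z v' := rfl

lemma tr_add (z : P2) (v v' : Fld Ω) : tr z (v + v') = tr z v + tr z v' := rfl

lemma tr_smul (z : P2) (c : ℝ) (v : Fld Ω) : tr z (c • v) = c • tr z v := rfl

lemma tr_sum {ι : Type*} (s : Finset ι) (X : ι → Fld Ω) (z : P2) :
    tr z (∑ i ∈ s, X i) = ∑ i ∈ s, tr z (X i) := by
  ext a ω
  simp [tr]

lemma tr_mn {ι : Type*} (s : Finset ι) (X : ι → Fld Ω) (z : P2) :
    tr z (mn s X) = mn s (fun i => tr z (X i)) := by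
  unfold Flat296.mn
  rw [tr_smul, tr_sum]

/-- the square of side `r` as an index set -/
def sq (r : ℕ) : Finset (ℕ × ℕ) := range r ×ˢ range r

/-- lattice point of a pair of naturals -/
def pt (p : ℕ × ℕ) : P2 := ((p.1 : ℤ), (p.2 : ℤ))

lemma mem_sq {r : ℕ} {p : ℕ × ℕ} : p ∈ sq r ↔ p.1 < r ∧ p.2 < r := by simp [sq]

lemma card_sq (r : ℕ) : (sq r).card = r * r := by simp [sq]

lemma sq_nonempty {r : ℕ} (hr : 0 < r) : (sq r).Nonempty := ⟨(0, 0), by simp [mem_sq, hr]⟩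

/-- block mean -/
noncomputable def bm (r : ℕ) (v : Fld Ω) : Fld Ω := mn (sq r) (fun p => tr (pt p) v)

lemma Mb.bm {v : Fld Ω} (hv : Mb v) (r : ℕ) : Mb (bm r v) := Mb.mn fun p _ => hv.tr _

lemma N_bm_le (hv : Mb v) (r : ℕ) : N μ (fun _ => 1) (bm r v) ≤ N μ (fun _ => 1) v :=
  N_mn_le (fun p _ => hv.tr _) fun p _ => (N_tr_one _).le

lemma Q_bm_le (hv : Mb v) {r : ℕ} (hr : 0 < r) : Q μ (fun _ => 1) (bm r v) ≤ Q μ (fun _ => 1) v :=
  Q_mn_le (sq_nonempty hr) (fun p _ => hv.tr _) fun p _ => (Q_tr_one _).le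

lemma tr_bm (z : P2) (r : ℕ) (v : Fld Ω) : tr z (bm r v) = bm r (tr z v) := by
  unfold Flat296.bm
  rw [tr_mn]
  congr 1
  ext p : 1
  rw [tr_tr, tr_tr, add_comm]

lemma mn_sub {ι : Type*} (s : Finset ι) (X Y : ι → Fld Ω) :
    mn s X - mn s Y = mn s (fun i => X i - Y i) := by
  unfold Flat296.mn
  rw [Finset.sum_sub_distrib, smul_sub]

lemma bm_sub (r : ℕ) (v v' : Fld Ω) : bm r (v - v') = bm r v - bm r v' := by
  unfold Flat296.bm
  rw [mn_sub]
  rfl

lemma bm_add (r : ℕ) (v v' : Fld Ω) : bm r (v + v') = bm r v + bm r v' := by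
  unfold Flat296.bm Flat296.mn
  rw [← smul_add, ← Finset.sum_add_distrib]
  rfl

lemma sum_range_mul' {M : Type*} [AddCommMonoid M] (f : ℕ → M) (ρ m : ℕ) :
    ∑ i ∈ range (ρ * m), f i = ∑ k ∈ range m, ∑ i ∈ range ρ, f (ρ * k + i) := by
  induction m with
  | zero => simp
  | succ m ih => rw [Nat.mul_succ, Finset.sum_range_add, ih, Finset.sum_range_succ]

/-- the block mean at scale `ρ m` is the mean over the sub-blocks of side `ρ` -/
lemma bm_mul (ρ m : ℕ) (v : Fld Ω) :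
    bm (ρ * m) v = mn (sq m) (fun k => tr (pt (ρ * k.1, ρ * k.2)) (bm ρ v)) := by
  unfold Flat296.bm
  simp_rw [tr_mn, tr_tr]
  unfold Flat296.mn
  rw [← Finset.smul_sum, smul_smul]
  have h1 : ((sq (ρ * m)).card : ℝ)⁻¹ = ((sq m).card : ℝ)⁻¹ * ((sq ρ).card : ℝ)⁻¹ := by
    rw [card_sq, card_sq, card_sq, ← mul_inv]
    congr 1
    push_cast
    ring
  rw [h1]
  congr 1
  unfold sq
  rw [Finset.sum_product, Finset.sum_product, sum_range_mul']
  refine Finset.sum_congr rfl fun k _ => ?_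
  simp_rw [sum_range_mul', Finset.sum_product]
  rw [Finset.sum_comm]
  refine Finset.sum_congr rfl fun l _ => ?_
  refine Finset.sum_congr rfl fun i _ => Finset.sum_congr rfl fun j _ => ?_
  congr 1

end Crest.Agent.R144.Flat296
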