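import Mathlib
import Crest.Agent.R144.Flat2_296

/-!
R144 / S0197, approach P, Step F (label-space flatness), part 3: increments, telescoping, almost
invariance of block means, the comparison of two scales.
-/

set_option autoImplicit false
set_option linter.unusedSectionVars false
set_option linter.unusedVariables false

open MeasureTheory Finset
open scoped ENNReal

namespace Crest.Agent.R144.Flat296

variable {Ω : Type*} [MeasurableSpace Ω] {μ : Measure Ω} {w : P2 → ℝ≥0∞} {v v' : Fld Ω}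

/-- increment -/
def dd (z : P2) (v : Fld Ω) : Fld Ω := tr z v - v

lemma Mb.dd {v : Fld Ω} (hv : Mb v) (z : P2) : Mb (dd z v) := (hv.tr z).sub hv

lemma dd_bm (z : P2) (r : ℕ) (v : Fld Ω) : dd z (bm r v) = bm r (dd z v) := by
  unfold Flat296.dd
  rw [tr_bm, bm_sub]

/-- staircase sum -/
def psum (i j : ℕ) (v1 v2 : Fld Ω) : Fld Ω :=
  ∑ k ∈ range i, tr (pt (k, 0)) v1 + ∑ l ∈ range j, tr (pt (i, l)) v2

lemma tele (i j : ℕ) (u : Fld Ω) :
    tr (pt (i, j)) u - u = psum i j (dd (1, 0) u) (dd (0, 1) u) := by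
  unfold psum dd
  have h1 : ∀ k : ℕ, tr (pt (k, 0)) (tr ((1 : ℤ), (0 : ℤ)) u - u) =
      tr (pt (k + 1, 0)) u - tr (pt (k, 0)) u := fun k => by
    rw [tr_sub, tr_tr]
    congr 2
  have h2 : ∀ l : ℕ, tr (pt (i, l)) (tr ((0 : ℤ), (1 : ℤ)) u - u) =
      tr (pt (i, l + 1)) u - tr (pt (i, l)) u := fun k => by
    rw [tr_sub, tr_tr]
    congr 2
  simp_rw [h1, h2]
  rw [Finset.sum_range_sub (fun k => tr (pt (k, 0)) u), Finset.sum_range_sub
    (fun l => tr (pt (i, l)) u)]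
  have h3 : tr (pt (0, 0)) u = u := by
    have : pt (0, 0) = 0 := by simp [pt]
    rw [this, tr_zero']
  rw [h3]
  abel

lemma N_psum (h1 : Mb v) (h2 : Mb v') (i j : ℕ) :
    N μ (fun _ => 1) (psum i j v v') ≤ i * N μ (fun _ => 1) v + j * N μ (fun _ => 1) v' := by
  unfold psum
  refine (N_add (Mb.sum fun k _ => h1.tr _)).trans ?_
  refine add_le_add ((N_sum _ _ fun k _ => h1.tr _).trans ?_) ((N_sum _ _ fun k _ => h2.tr _).trans ?_)
  · simp [N_tr_one]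
  · simp [N_tr_one]

lemma Mb.psum {v v' : Fld Ω} (h1 : Mb v) (h2 : Mb v') (i j : ℕ) : Mb (psum i j v v') :=
  (Mb.sum fun k _ => h1.tr _).add (Mb.sum fun k _ => h2.tr _)

lemma enorm_inv_sq (R : ℕ) (hR : 0 < R) (B : ℝ≥0∞) :
    ‖((R * R : ℕ) : ℝ)⁻¹‖ₑ * (R * (2 * B)) = 2 * B / R := by
  have h1 : ‖(((R * R : ℕ) : ℝ))⁻¹‖ₑ = ((R : ℝ≥0∞))⁻¹ * ((R : ℝ≥0∞))⁻¹ := by
    rw [enorm_inv (by positivity)]
    have : ‖((R * R : ℕ) : ℝ)‖ₑ = (R : ℝ≥0∞) * R := by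
      push_cast
      rw [enorm_mul]
      simp
    rw [this, ENNReal.mul_inv (by simp) (by simp)]
  have hR' : (R : ℝ≥0∞) ≠ 0 := by positivity
  rw [h1, mul_assoc, ← mul_assoc ((R : ℝ≥0∞))⁻¹ (R : ℝ≥0∞),
    ENNReal.inv_mul_cancel hR' (by simp), one_mul, ENNReal.div_eq_inv_mul]

lemma N_bm_dd1 (hv : Mb v) {R : ℕ} (hR : 0 < R) :
    N μ (fun _ => 1) (bm R (dd (1, 0) v)) ≤ 2 * N μ (fun _ => 1) v / R := by
  have e : bm R (dd (1, 0) v) = (((R * R : ℕ) : ℝ)⁻¹) •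
      ∑ j ∈ range R, (tr (pt (R, j)) v - tr (pt (0, j)) v) := by
    unfold bm mn
    rw [card_sq]
    congr 1
    unfold sq
    rw [Finset.sum_product_right]
    refine Finset.sum_congr rfl fun j _ => ?_
    unfold Flat296.dd
    have h1 : ∀ k : ℕ, tr (pt (k, j)) (tr ((1 : ℤ), (0 : ℤ)) v - v) =
        tr (pt (k + 1, j)) v - tr (pt (k, j)) v := fun k => by
      rw [tr_sub, tr_tr]
      congr 2
    simp_rw [h1]
    rw [Finset.sum_range_sub (fun k => tr (pt (k, j)) v)]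
  rw [e, N_smul, ← enorm_inv_sq R hR]
  gcongr
  refine (N_sum _ _ fun j _ => (hv.tr _).sub (hv.tr _)).trans ?_
  calc ∑ j ∈ range R, N μ (fun _ => 1) (tr (pt (R, j)) v - tr (pt (0, j)) v)
      ≤ ∑ j ∈ range R, 2 * N μ (fun _ => 1) v := by
        refine Finset.sum_le_sum fun j _ => (N_sub (hv.tr _)).trans ?_
        rw [N_tr_one, N_tr_one, two_mul]
    _ = _ := by simp

lemma N_bm_dd2 (hv : Mb v) {R : ℕ} (hR : 0 < R) :
    N μ (fun _ => 1) (bm R (dd (0, 1) v)) ≤ 2 * N μ (fun _ => 1) v / R := by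
  have e : bm R (dd (0, 1) v) = (((R * R : ℕ) : ℝ)⁻¹) •
      ∑ i ∈ range R, (tr (pt (i, R)) v - tr (pt (i, 0)) v) := by
    unfold bm mn
    rw [card_sq]
    congr 1
    unfold sq
    rw [Finset.sum_product]
    refine Finset.sum_congr rfl fun i _ => ?_
    unfold Flat296.dd
    have h1 : ∀ k : ℕ, tr (pt (i, k)) (tr ((0 : ℤ), (1 : ℤ)) v - v) =
        tr (pt (i, k + 1)) v - tr (pt (i, k)) v := fun k => by
      rw [tr_sub, tr_tr]
      congr 2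
    simp_rw [h1]
    rw [Finset.sum_range_sub (fun k => tr (pt (i, k)) v)]
  rw [e, N_smul, ← enorm_inv_sq R hR]
  gcongr
  refine (N_sum _ _ fun j _ => (hv.tr _).sub (hv.tr _)).trans ?_
  calc ∑ i ∈ range R, N μ (fun _ => 1) (tr (pt (i, R)) v - tr (pt (i, 0)) v)
      ≤ ∑ j ∈ range R, 2 * N μ (fun _ => 1) v := by
        refine Finset.sum_le_sum fun j _ => (N_sub (hv.tr _)).trans ?_
        rw [N_tr_one, N_tr_one, two_mul]
    _ = _ := by simp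

/-- block means at a large scale are almost invariant under shifts -/
lemma N_shift_bm (hv : Mb v) {R : ℕ} (hR : 0 < R) (i j : ℕ) :
    N μ (fun _ => 1) (tr (pt (i, j)) (bm R v) - bm R v) ≤
      ((i + j : ℕ) : ℝ≥0∞) * (2 * N μ (fun _ => 1) v / R) := by
  rw [tele]
  refine (N_psum ((hv.bm R).dd _) ((hv.bm R).dd _) i j).trans ?_
  rw [dd_bm, dd_bm]
  calc _ ≤ i * (2 * N μ (fun _ => 1) v / R) + j * (2 * N μ (fun _ => 1) v / R) :=
        add_le_add (mul_le_mul' le_rfl (N_bm_dd1 hv hR)) (mul_le_mul' le_rfl (N_bm_dd2 hv hR))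
    _ = _ := by push_cast; ring

/-- AM-GM for fields of finite support -/
lemma N_le_Q' [IsProbabilityMeasure μ] (hv : Mb v) {K : Finset P2} (hK : ∀ a ∉ K, v a = 0)
    {κ : ℝ} (hκ : 0 < κ) :
    N μ (fun _ => 1) v ≤ ENNReal.ofReal κ * K.card + ENNReal.ofReal κ⁻¹ * Q μ (fun _ => 1) v := by
  classical
  have h1 := N_le_Q (μ := μ) (w := fun a => if a ∈ K then 1 else 0) (by intro a; split_ifs <;> simp)
    hv hκ
  have h2 : N μ (fun a => if a ∈ K then 1 else 0) v = N μ (fun _ => 1) v := by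
    unfold N
    refine tsum_congr fun a => ?_
    by_cases ha : a ∈ K
    · simp [ha]
    · simp [ha, hK a ha]
  have h3 : ∑' a, (if a ∈ K then (1 : ℝ≥0∞) else 0) = K.card := by
    rw [tsum_eq_sum (s := K) (fun a ha => by simp [ha])]
    simp
  rwa [h2, h3] at h1

/-- the variance of the sub-block means of scale `ρ` inside the blocks of side `ρ m` -/
noncomputable def Wv (μ : Measure Ω) (ρ m : ℕ) (v : Fld Ω) : ℝ≥0∞ :=
  ((sq m).card : ℝ≥0∞)⁻¹ * ∑ k ∈ sq m,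
    Q μ (fun _ => 1) (tr (pt (ρ * k.1, ρ * k.2)) (bm ρ v) - bm (ρ * m) v)

lemma Q_add_Wv (hv : Mb v) {ρ m : ℕ} (hm : 0 < m) :
    Q μ (fun _ => 1) (bm (ρ * m) v) + Wv μ ρ m v = Q μ (fun _ => 1) (bm ρ v) := by
  unfold Wv
  rw [bm_mul]
  rw [Q_mn (sq_nonempty hm) fun k _ => (hv.bm ρ).tr _]
  simp_rw [Q_tr_one]
  have hcE : ((sq m).card : ℝ≥0∞) ≠ 0 := by
    simpa using (sq_nonempty hm).ne_empty
  rw [Finset.sum_const, nsmul_eq_mul, ← mul_assoc, ENNReal.inv_mul_cancel hcE (by simp), one_mul]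

/-- comparison of the block means at the scales `ρ` and `ρ m` -/
lemma N_bm_sub_le [IsProbabilityMeasure μ] (hv : Mb v) {K' K'' : Finset P2}
    (hK' : ∀ a ∉ K', v a = 0) {ρ m l : ℕ} (hρ : 0 < ρ) (hl : 0 < l) (hlm : l ≤ m)
    (hK'' : ∀ a ∈ K', ∀ p ∈ sq (ρ * m), a - pt p ∈ K'') {κ : ℝ} (hκ : 0 < κ) :
    N μ (fun _ => 1) (bm ρ v - bm (ρ * m) v) ≤
      ENNReal.ofReal κ * K''.card + ENNReal.ofReal κ⁻¹ * ((m * m : ℕ) / (l * l : ℕ) * Wv μ ρ m v) +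
        4 * (l : ℝ≥0∞) / m * N μ (fun _ => 1) v := by
  have hm : 0 < m := lt_of_lt_of_le hl hlm
  have hR : 0 < ρ * m := Nat.mul_pos hρ hm
  set E : ℕ × ℕ → Fld Ω := fun k => tr (pt (ρ * k.1, ρ * k.2)) (bm ρ v) - bm (ρ * m) v with hE
  have hEm : ∀ k, Mb (E k) := fun k => ((hv.bm ρ).tr _).sub (hv.bm _)
  -- support of `E k`
  have hsupp0 : ∀ (s : Finset (ℕ × ℕ)) (f : ℕ × ℕ → ℕ × ℕ) (a : P2),
      (∀ p ∈ s, a + pt (f p) ∉ K') → mn s (fun p => tr (pt (f p)) v) a = 0 := by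
    intro s f a h
    ext ω
    rw [mn_apply]
    have : ∑ i ∈ s, tr (pt (f i)) v a ω = 0 := Finset.sum_eq_zero fun p hp => by
      show v (a + pt (f p)) ω = 0
      rw [hK' _ (h p hp)]; rfl
    rw [this]; simp
  have hsupp : ∀ k ∈ sq m, ∀ a ∉ K'', E k a = 0 := by
    intro k hk a ha
    have hbig : ∀ p ∈ sq (ρ * m), a + pt p ∉ K' := by
      intro p hp hc
      apply ha
      have := hK'' _ hc p hp
      simpa using this
    have h1 : bm (ρ * m) v a = 0 := hsupp0 (sq (ρ * m)) id a hbig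
    have h2 : tr (pt (ρ * k.1, ρ * k.2)) (bm ρ v) a = 0 := by
      rw [tr_bm]
      unfold bm
      have h3 : (fun p => tr (pt p) (tr (pt (ρ * k.1, ρ * k.2)) v)) =
          fun p : ℕ × ℕ => tr (pt (p.1 + ρ * k.1, p.2 + ρ * k.2)) v := by
        ext p : 1
        rw [tr_tr]
        congr 1
      rw [h3]
      refine hsupp0 (sq ρ) (fun p => (p.1 + ρ * k.1, p.2 + ρ * k.2)) a fun p hp => ?_
      refine hbig _ ?_
      rw [mem_sq] at hp hk ⊢
      constructor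
      · have : ρ * k.1 + ρ ≤ ρ * m := by
          calc ρ * k.1 + ρ = ρ * (k.1 + 1) := by ring
            _ ≤ ρ * m := Nat.mul_le_mul_left _ hk.1
        show p.1 + ρ * k.1 < ρ * m
        omega
      · have : ρ * k.2 + ρ ≤ ρ * m := by
          calc ρ * k.2 + ρ = ρ * (k.2 + 1) := by ring
            _ ≤ ρ * m := Nat.mul_le_mul_left _ hk.2
        show p.2 + ρ * k.2 < ρ * m
        omega
    ext ω
    show tr (pt (ρ * k.1, ρ * k.2)) (bm ρ v) a ω - bm (ρ * m) v a ω = 0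
    rw [h1, h2]; simp
  have hsub : sq l ⊆ sq m := fun p hp => by
    rw [mem_sq] at hp ⊢; exact ⟨lt_of_lt_of_le hp.1 hlm, lt_of_lt_of_le hp.2 hlm⟩
  set D := N μ (fun _ => 1) (bm ρ v - bm (ρ * m) v) with hD
  -- one shift
  have hone : ∀ k ∈ sq l, D ≤ (ENNReal.ofReal κ * K''.card + 4 * (l : ℝ≥0∞) / m * N μ (fun _ => 1) v) +
      ENNReal.ofReal κ⁻¹ * Q μ (fun _ => 1) (E k) := by
    intro k hk
    have e1 : D = N μ (fun _ => 1) (tr (pt (ρ * k.1, ρ * k.2)) (bm ρ v - bm (ρ * m) v)) := by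
      rw [N_tr_one]
    have e2 : tr (pt (ρ * k.1, ρ * k.2)) (bm ρ v - bm (ρ * m) v) =
        E k - (tr (pt (ρ * k.1, ρ * k.2)) (bm (ρ * m) v) - bm (ρ * m) v) := by
      rw [hE, tr_sub]; simp only; abel
    rw [e1, e2]
    refine (N_sub (hEm k)).trans ?_
    have h3 := N_le_Q' (μ := μ) (hEm k) (hsupp k (hsub hk)) hκ
    have h4 := N_shift_bm (μ := μ) hv hR (ρ * k.1) (ρ * k.2)
    have h5 : ((ρ * k.1 + ρ * k.2 : ℕ) : ℝ≥0∞) * (2 * N μ (fun _ => 1) v / (ρ * m : ℕ)) ≤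
        4 * (l : ℝ≥0∞) / m * N μ (fun _ => 1) v := by
      rw [mem_sq] at hk
      have h6 : (ρ * k.1 + ρ * k.2 : ℕ) ≤ ρ * (2 * l) := by
        have : k.1 + k.2 ≤ 2 * l := by omega
        calc ρ * k.1 + ρ * k.2 = ρ * (k.1 + k.2) := by ring
          _ ≤ _ := Nat.mul_le_mul_left _ this
      calc ((ρ * k.1 + ρ * k.2 : ℕ) : ℝ≥0∞) * (2 * N μ (fun _ => 1) v / (ρ * m : ℕ))
          ≤ ((ρ * (2 * l) : ℕ) : ℝ≥0∞) * (2 * N μ (fun _ => 1) v / (ρ * m : ℕ)) := by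
            gcongr
        _ = _ := by
            have hρ' : (ρ : ℝ≥0∞) ≠ 0 := by positivity
            push_cast
            rw [ENNReal.div_eq_inv_mul, ENNReal.mul_inv (by simp) (by simp), ENNReal.div_eq_inv_mul]
            calc (ρ : ℝ≥0∞) * (2 * l) * ((ρ : ℝ≥0∞)⁻¹ * (m : ℝ≥0∞)⁻¹ * (2 * N μ (fun _ => 1) v))
                = ((ρ : ℝ≥0∞) * (ρ : ℝ≥0∞)⁻¹) * ((m : ℝ≥0∞)⁻¹ * (2 * 2 * l) * N μ (fun _ => 1) v) := by
                  ring
              _ = _ := by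
                  rw [ENNReal.mul_inv_cancel hρ' (by simp), one_mul]
                  norm_num
    calc _ ≤ (ENNReal.ofReal κ * K''.card + ENNReal.ofReal κ⁻¹ * Q μ (fun _ => 1) (E k)) +
          4 * (l : ℝ≥0∞) / m * N μ (fun _ => 1) v := add_le_add h3 (h4.trans h5)
      _ = _ := by ring
  -- average over `k ∈ sq l`
  have hsum : ((l * l : ℕ) : ℝ≥0∞) * D ≤ ((l * l : ℕ) : ℝ≥0∞) *
      (ENNReal.ofReal κ * K''.card + 4 * (l : ℝ≥0∞) / m * N μ (fun _ => 1) v) +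
      ENNReal.ofReal κ⁻¹ * (((m * m : ℕ) : ℝ≥0∞) * Wv μ ρ m v) := by
    have h1 : ∑ k ∈ sq l, D ≤ ∑ k ∈ sq l, ((ENNReal.ofReal κ * K''.card +
        4 * (l : ℝ≥0∞) / m * N μ (fun _ => 1) v) + ENNReal.ofReal κ⁻¹ * Q μ (fun _ => 1) (E k)) :=
      Finset.sum_le_sum hone
    rw [Finset.sum_const, Finset.sum_add_distrib, Finset.sum_const, ← Finset.mul_sum, card_sq,
      nsmul_eq_mul, nsmul_eq_mul] at h1
    refine h1.trans ?_
    gcongr
    have h2 : ∑ k ∈ sq l, Q μ (fun _ => 1) (E k) ≤ ∑ k ∈ sq m, Q μ (fun _ => 1) (E k) :=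
      Finset.sum_le_sum_of_subset hsub
    refine h2.trans (le_of_eq ?_)
    unfold Wv
    have hcE : ((m * m : ℕ) : ℝ≥0∞) ≠ 0 := by positivity
    rw [card_sq, ← mul_assoc, ENNReal.mul_inv_cancel hcE (ENNReal.natCast_ne_top _), one_mul]
  have hl0 : ((l * l : ℕ) : ℝ≥0∞) ≠ 0 := by positivity
  have hlt : ((l * l : ℕ) : ℝ≥0∞) ≠ ∞ := ENNReal.natCast_ne_top _
  calc D = ((l * l : ℕ) : ℝ≥0∞)⁻¹ * (((l * l : ℕ) : ℝ≥0∞) * D) := by
        rw [← mul_assoc, ENNReal.inv_mul_cancel hl0 hlt, one_mul]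
    _ ≤ ((l * l : ℕ) : ℝ≥0∞)⁻¹ * (((l * l : ℕ) : ℝ≥0∞) *
      (ENNReal.ofReal κ * K''.card + 4 * (l : ℝ≥0∞) / m * N μ (fun _ => 1) v) +
      ENNReal.ofReal κ⁻¹ * (((m * m : ℕ) : ℝ≥0∞) * Wv μ ρ m v)) := by gcongr
    _ = (ENNReal.ofReal κ * K''.card + 4 * (l : ℝ≥0∞) / m * N μ (fun _ => 1) v) +
        ((l * l : ℕ) : ℝ≥0∞)⁻¹ * (ENNReal.ofReal κ⁻¹ * (((m * m : ℕ) : ℝ≥0∞) * Wv μ ρ m v)) := by
        rw [mul_add, ← mul_assoc, ENNReal.inv_mul_cancel hl0 hlt, one_mul]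
    _ = _ := by
        simp only [ENNReal.div_eq_inv_mul]
        ring

end Crest.Agent.R144.Flat296
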