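import Mathlib
import Crest.Agent.R144.Flat3_296

/-!
R144 / S0197, approach P, Step F (label-space flatness), part 4: truncation, pigeonhole over a chain
of scales, the flatness theorem.
-/

set_option autoImplicit false
set_option linter.unusedSectionVars false
set_option linter.unusedVariables false

open MeasureTheory Finset
open scoped ENNReal

namespace Crest.Agent.R144.Flat296

variable {Ω : Type*} [MeasurableSpace Ω] {μ : Measure Ω} {w : P2 → ℝ≥0∞} {v v' : Fld Ω}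

/-- truncation at level `Λ` -/
noncomputable def tc (Λ : ℝ) (v : Fld Ω) : Fld Ω := fun a ω => max (-Λ) (min (v a ω) Λ)

lemma Mb.tc {v : Fld Ω} (hv : Mb v) (Λ : ℝ) : Mb (tc Λ v) :=
  fun a => measurable_const.max ((hv a).min measurable_const)

lemma abs_tc_le {Λ : ℝ} (hΛ : 0 ≤ Λ) (v : Fld Ω) (a : P2) (ω : Ω) : |tc Λ v a ω| ≤ Λ := by
  rw [abs_le]
  exact ⟨le_max_left _ _, max_le (by linarith) (min_le_right _ _)⟩

lemma abs_tc_le' {Λ : ℝ} (hΛ : 0 ≤ Λ) (v : Fld Ω) (a : P2) (ω : Ω) : |tc Λ v a ω| ≤ |v a ω| := by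
  show |max (-Λ) (min (v a ω) Λ)| ≤ _
  rcases le_total (v a ω) Λ with h | h
  · rw [min_eq_left h]
    rcases le_total (-Λ) (v a ω) with h' | h'
    · rw [max_eq_right h']
    · rw [max_eq_left h', abs_neg, abs_of_nonneg hΛ]
      rw [abs_of_nonpos (by linarith)]; linarith
  · rw [min_eq_right h, max_eq_right (by linarith), abs_of_nonneg hΛ]
    exact h.trans (le_abs_self _)

lemma tc_eq_zero {Λ : ℝ} (hΛ : 0 ≤ Λ) {v : Fld Ω} {a : P2} (h : v a = 0) : tc Λ v a = 0 := by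
  ext ω
  have : |tc Λ v a ω| ≤ |v a ω| := abs_tc_le' hΛ v a ω
  rw [h] at this
  simpa using this

lemma N_tc_le {Λ : ℝ} (hΛ : 0 ≤ Λ) : N μ w (tc Λ v) ≤ N μ w v := by
  unfold N
  gcongr with a ω
  rw [Real.enorm_eq_ofReal_abs, Real.enorm_eq_ofReal_abs]
  exact ENNReal.ofReal_le_ofReal (abs_tc_le' hΛ v a ω)

lemma Q_tc_le {Λ : ℝ} (hΛ : 0 ≤ Λ) :
    Q μ (fun _ => 1) (tc Λ v) ≤ ENNReal.ofReal Λ * N μ (fun _ => 1) v := by
  unfold Q N
  rw [← ENNReal.tsum_mul_left]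
  refine ENNReal.tsum_le_tsum fun a => ?_
  rw [one_mul, one_mul, ← lintegral_const_mul' _ _ (by simp)]
  refine lintegral_mono fun ω => ?_
  rw [Real.enorm_eq_ofReal_abs, ← ENNReal.ofReal_mul hΛ]
  refine ENNReal.ofReal_le_ofReal ?_
  rw [← sq_abs, pow_two]
  exact mul_le_mul (abs_tc_le hΛ v a ω) (abs_tc_le' hΛ v a ω) (abs_nonneg _) hΛ

/-- variances over a chain of scales sum up to at most the L2 norm at the first scale -/
lemma sum_Wv_le (hv : Mb v) {ρ m : ℕ → ℕ} (hm : ∀ j, 0 < m j)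
    (hρm : ∀ j, ρ (j + 1) = ρ j * m j) (J : ℕ) :
    ∑ j ∈ range J, Wv μ (ρ j) (m j) v + Q μ (fun _ => 1) (bm (ρ J) v) =
      Q μ (fun _ => 1) (bm (ρ 0) v) := by
  induction J with
  | zero => simp
  | succ J ih =>
    rw [Finset.sum_range_succ, ← ih, add_assoc, hρm J, add_comm (Wv μ (ρ J) (m J) v),
      Q_add_Wv hv (hm J)]

/-- pigeonhole: some scale of the chain has small variances for both components -/
lemma exists_scale {v1 v2 : Fld Ω} (h1 : Mb v1) (h2 : Mb v2) {Λ : ℝ} (hΛ : 0 ≤ Λ) {ρ m : ℕ → ℕ}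
    (hρ0 : 0 < ρ 0) (hm : ∀ j, 0 < m j) (hρm : ∀ j, ρ (j + 1) = ρ j * m j) {J : ℕ} (hJ : 0 < J) :
    ∃ j < J, Wv μ (ρ j) (m j) (tc Λ v1) + Wv μ (ρ j) (m j) (tc Λ v2) ≤
      ENNReal.ofReal Λ * (N μ (fun _ => 1) v1 + N μ (fun _ => 1) v2) / J := by
  by_contra hcon
  push Not at hcon
  have hJ0 : (J : ℝ≥0∞) ≠ 0 := by positivity
  have ha : ∀ v : Fld Ω, Mb v → ∑ j ∈ range J, Wv μ (ρ j) (m j) (tc Λ v) ≤
      ENNReal.ofReal Λ * N μ (fun _ => 1) v := fun v hv => by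
    calc _ ≤ Q μ (fun _ => 1) (bm (ρ 0) (tc Λ v)) := by
          rw [← sum_Wv_le (hv.tc Λ) hm hρm J]; exact le_self_add
      _ ≤ Q μ (fun _ => 1) (tc Λ v) := Q_bm_le (hv.tc Λ) hρ0
      _ ≤ _ := Q_tc_le hΛ
  have hb : ∑ j ∈ range J, (Wv μ (ρ j) (m j) (tc Λ v1) + Wv μ (ρ j) (m j) (tc Λ v2)) ≤
      ENNReal.ofReal Λ * (N μ (fun _ => 1) v1 + N μ (fun _ => 1) v2) := by
    rw [Finset.sum_add_distrib, mul_add]
    exact add_le_add (ha v1 h1) (ha v2 h2)
  set B := ENNReal.ofReal Λ * (N μ (fun _ => 1) v1 + N μ (fun _ => 1) v2) with hB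
  have hlt : B < B := by
    have hne : (range J).Nonempty := ⟨0, by simpa using hJ⟩
    have hfin : B / J ≠ ∞ := by
      intro h
      have := hcon 0 hJ
      rw [h] at this
      exact not_top_lt this
    calc B = ∑ j ∈ range J, B / J := by
          rw [Finset.sum_const, card_range, nsmul_eq_mul, ENNReal.mul_div_cancel hJ0 (by simp)]
      _ < ∑ j ∈ range J, (Wv μ (ρ j) (m j) (tc Λ v1) + Wv μ (ρ j) (m j) (tc Λ v2)) :=
          ENNReal.sum_lt_sum_of_nonempty hne fun j hj => hcon j (mem_range.mp hj)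
      _ ≤ B := hb
  exact lt_irrefl _ hlt

/-- the field restricted to a finite set of sites -/
def rst (K : Finset P2) (v : Fld Ω) : Fld Ω := fun a => if a ∈ K then v a else 0

lemma Mb.rst {v : Fld Ω} (hv : Mb v) (K : Finset P2) : Mb (rst K v) := by
  intro a
  unfold Flat296.rst
  split_ifs
  · exact hv a
  · exact measurable_const

lemma rst_notMem {K : Finset P2} {a : P2} (h : a ∉ K) (v : Fld Ω) : rst K v a = 0 := by
  simp [rst, h]

lemma rst_mem {K : Finset P2} {a : P2} (h : a ∈ K) (v : Fld Ω) : rst K v a = v a := by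
  simp [rst, h]

lemma N_rst (K : Finset P2) (v : Fld Ω) :
    N μ (fun _ => 1) (rst K v) = ∑ a ∈ K, ∫⁻ ω, ‖v a ω‖ₑ ∂μ := by
  unfold N
  rw [tsum_eq_sum (s := K) (fun a ha => by simp [rst_notMem ha])]
  refine Finset.sum_congr rfl fun a ha => ?_
  rw [rst_mem ha, one_mul]

lemma N_rst_le (K : Finset P2) (v : Fld Ω) :
    N μ (fun _ => 1) (rst K v) ≤ N μ (fun _ => 1) v := by
  unfold N
  refine ENNReal.tsum_le_tsum fun a => ?_
  by_cases ha : a ∈ K
  · rw [rst_mem ha]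
  · rw [rst_notMem ha]; simp

lemma N_rst_congr {K : Finset P2} {v v' : Fld Ω} (h : ∀ a ∈ K, v a = v' a) :
    N μ (fun _ => 1) (rst K v) = N μ (fun _ => 1) (rst K v') := by
  rw [N_rst, N_rst]
  exact Finset.sum_congr rfl fun a ha => by rw [h a ha]

lemma rst_sub (K : Finset P2) (v v' : Fld Ω) : rst K (v - v') = rst K v - rst K v' := by
  ext a ω
  by_cases ha : a ∈ K
  · show rst K (v - v') a ω = rst K v a ω - rst K v' a ω
    rw [rst_mem ha, rst_mem ha, rst_mem ha]; rfl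
  · show rst K (v - v') a ω = rst K v a ω - rst K v' a ω
    rw [rst_notMem ha, rst_notMem ha, rst_notMem ha]; simp

lemma rst_mn {ι : Type*} (K : Finset P2) (s : Finset ι) (X : ι → Fld Ω) :
    rst K (mn s X) = mn s (fun i => rst K (X i)) := by
  ext a ω
  rw [mn_apply]
  by_cases ha : a ∈ K
  · rw [rst_mem ha, mn_apply]
    simp_rw [rst_mem ha]
  · rw [rst_notMem ha]
    simp_rw [rst_notMem ha]
    simp

lemma psum_apply (i j : ℕ) (v v' : Fld Ω) (a : P2) (ω : Ω) : psum i j v v' a ω =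
    ∑ k ∈ range i, v (a + pt (k, 0)) ω + ∑ l ∈ range j, v' (a + pt (i, l)) ω := by
  unfold psum
  show (∑ k ∈ range i, tr (pt (k, 0)) v) a ω + (∑ l ∈ range j, tr (pt (i, l)) v') a ω = _
  simp [tr]

/-- staircase sums inside a set on which the fields agree -/
lemma psum_congr {i j : ℕ} {v1 v2 v1' v2' : Fld Ω} {a : P2}
    (h1 : ∀ k < i, v1 (a + pt (k, 0)) = v1' (a + pt (k, 0)))
    (h2 : ∀ l < j, v2 (a + pt (i, l)) = v2' (a + pt (i, l))) :
    psum i j v1 v2 a = psum i j v1' v2' a := by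
  ext ω
  rw [psum_apply, psum_apply]
  congr 1
  · exact Finset.sum_congr rfl fun k hk => by rw [h1 k (mem_range.mp hk)]
  · exact Finset.sum_congr rfl fun k hk => by rw [h2 k (mem_range.mp hk)]

/-- local increments of the block mean -/
lemma dd_bm_local {u v : Fld Ω} {z : P2} {ρ : ℕ} {a : P2}
    (h : ∀ p ∈ sq ρ, dd z u (a + pt p) = v (a + pt p)) : dd z (bm ρ u) a = bm ρ v a := by
  rw [dd_bm]
  ext ω
  unfold bm
  rw [mn_apply, mn_apply]
  congr 1
  refine Finset.sum_congr rfl fun p hp => ?_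
  show dd z u (a + pt p) ω = v (a + pt p) ω
  rw [h p hp]

end Crest.Agent.R144.Flat296
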