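import Mathlib
import Crest.Agent.R144.Flat4_296

/-!
R144 / S0197, approach P, Step F (label-space flatness), part 5: the flatness theorem.

For a random field `u` over `ℤ × ℤ` and a finite window `K'`, put `v_i = 1_{K'} ∂_i u`. Along a chain of
scales `ρ 0 ∣ ρ 1 ∣ … ∣ ρ J` there is `j < J` such that on the blocks of side `r j` (in the window) the
field `u` is `L¹` close to its block mean plus the affine function with slope the mean of `∂u` over a
block of side `ρ (j+1)`.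
-/

set_option autoImplicit false
set_option linter.unusedSectionVars false
set_option linter.unusedVariables false

open MeasureTheory Finset
open scoped ENNReal

namespace Crest.Agent.R144.Flat296

variable {Ω : Type*} [MeasurableSpace Ω] {μ : Measure Ω}

lemma N_tr_bm_sub {v : Fld Ω} (hv : Mb v) {ρ R : ℕ} (hR : 0 < R) (i j r : ℕ) (hi : i ≤ r)
    (hj : j ≤ r) :
    N μ (fun _ => 1) (tr (pt (i, j)) (bm ρ v) - bm R v) ≤
      N μ (fun _ => 1) (bm ρ v - bm R v) + 4 * (r : ℝ≥0∞) / R * N μ (fun _ => 1) v := by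
  have e : tr (pt (i, j)) (bm ρ v) - bm R v =
      tr (pt (i, j)) (bm ρ v - bm R v) + (tr (pt (i, j)) (bm R v) - bm R v) := by
    rw [tr_sub]; abel
  rw [e]
  refine (N_add (((hv.bm ρ).sub (hv.bm R)).tr _)).trans ?_
  rw [N_tr_one]
  gcongr
  refine (N_shift_bm hv hR i j).trans ?_
  calc ((i + j : ℕ) : ℝ≥0∞) * (2 * N μ (fun _ => 1) v / R)
      ≤ ((2 * r : ℕ) : ℝ≥0∞) * (2 * N μ (fun _ => 1) v / R) := by
        gcongr
        omega
    _ = _ := by
        simp only [ENNReal.div_eq_inv_mul]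
        push_cast
        ring_nf

lemma N_bm_sub_split {v : Fld Ω} (hv : Mb v) (ρ R : ℕ) (g : Fld Ω) (hg : Mb g) :
    N μ (fun _ => 1) (bm ρ v - bm R v) ≤
      N μ (fun _ => 1) (bm ρ g - bm R g) + 2 * N μ (fun _ => 1) (v - g) := by
  have e : bm ρ v - bm R v = (bm ρ g - bm R g) + (bm ρ (v - g) - bm R (v - g)) := by
    rw [bm_sub, bm_sub]; abel
  rw [e]
  refine (N_add ((hg.bm ρ).sub (hg.bm R))).trans ?_
  gcongr
  refine (N_sub ((hv.sub hg).bm ρ)).trans ?_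
  rw [two_mul]
  exact add_le_add (N_bm_le (hv.sub hg) ρ) (N_bm_le (hv.sub hg) R)

/-- deviation from the affine function with slopes `G1, G2` -/
noncomputable def dev (ρ : ℕ) (u G1 G2 : Fld Ω) (p : ℕ × ℕ) : Fld Ω :=
  tr (pt p) u - bm ρ u - ((p.1 : ℝ) • G1 + (p.2 : ℝ) • G2)

/-- flatness with the mean at scale `ρ` as centre -/
lemma N_dev_le {u v1 v2 : Fld Ω} (hu : Mb u) (h1 : Mb v1) (h2 : Mb v2) {K K' : Finset P2} {L : ℕ}
    (hK : ∀ a ∈ K, ∀ p : ℕ × ℕ, p.1 < L → p.2 < L → a + pt p ∈ K')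
    (hv1 : ∀ a ∈ K', dd (1, 0) u a = v1 a) (hv2 : ∀ a ∈ K', dd (0, 1) u a = v2 a)
    {ρ r R : ℕ} (hρ : 0 < ρ) (hR : 0 < R) (hL : r + ρ ≤ L) (p : ℕ × ℕ) (hp : p ∈ sq r) :
    N μ (fun _ => 1) (rst K (dev ρ u (bm R v1) (bm R v2) p)) ≤
      ρ * (N μ (fun _ => 1) v1 + N μ (fun _ => 1) v2) +
      r * (N μ (fun _ => 1) (bm ρ v1 - bm R v1) + N μ (fun _ => 1) (bm ρ v2 - bm R v2)) +
      r * (4 * (r : ℝ≥0∞) / R * (N μ (fun _ => 1) v1 + N μ (fun _ => 1) v2)) := by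
  rw [mem_sq] at hp
  obtain ⟨hpi, hpj⟩ := hp
  obtain ⟨i, j⟩ := p
  simp only at hpi hpj
  set A : Fld Ω := mn (sq ρ) (fun q => tr (pt (i, j)) (psum q.1 q.2 v1 v2)) with hA
  set B : Fld Ω := (∑ k ∈ range i, (tr (pt (k, 0)) (bm ρ v1) - bm R v1)) +
    ∑ l ∈ range j, (tr (pt (i, l)) (bm ρ v2) - bm R v2) with hB
  have hAm : Mb A := Mb.mn fun q _ => (h1.psum h2 _ _).tr _
  have hBm : Mb B := (Mb.sum fun k _ => ((h1.bm ρ).tr _).sub (h1.bm R)).add
    (Mb.sum fun k _ => ((h2.bm ρ).tr _).sub (h2.bm R))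
  -- pointwise identity on `K`
  have hkey : ∀ a ∈ K, dev ρ u (bm R v1) (bm R v2) (i, j) a = (B - A) a := by
    intro a ha
    have hz : ∀ x y : ℕ, ∀ x' y' : ℕ, pt (x, y) + pt (x', y') = pt (x + x', y + y') := by
      intro x y x' y'; simp [pt]
    -- first part
    have hA1 : (tr (pt (i, j)) (bm ρ u) - tr (pt (i, j)) u) a = A a := by
      have e1 : tr (pt (i, j)) (bm ρ u) - tr (pt (i, j)) u =
          tr (pt (i, j)) (mn (sq ρ) (fun q => psum q.1 q.2 (dd (1, 0) u) (dd (0, 1) u))) := by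
        rw [← tr_sub]
        congr 1
        unfold bm
        rw [← mn_sub_const (sq_nonempty hρ)]
        congr 1
        ext q : 1
        exact tele q.1 q.2 u
      rw [e1, tr_mn, hA]
      ext ω
      rw [mn_apply, mn_apply]
      congr 1
      refine Finset.sum_congr rfl fun q hq => ?_
      rw [mem_sq] at hq
      show psum q.1 q.2 (dd (1, 0) u) (dd (0, 1) u) (a + pt (i, j)) ω =
        psum q.1 q.2 v1 v2 (a + pt (i, j)) ω
      refine congrFun (psum_congr ?_ ?_) ω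
      · intro k hk
        refine hv1 _ ?_
        rw [add_assoc, hz]
        exact hK a ha _ (by show i + k < L; omega) (by show j + 0 < L; omega)
      · intro k hk
        refine hv2 _ ?_
        rw [add_assoc, hz]
        exact hK a ha _ (by show i + q.1 < L; omega) (by show j + k < L; omega)
    -- second part
    have hB1 : (tr (pt (i, j)) (bm ρ u) - bm ρ u) a = psum i j (bm ρ v1) (bm ρ v2) a := by
      rw [tele]
      refine psum_congr ?_ ?_
      · intro k hk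
        refine dd_bm_local fun q hq => ?_
        rw [mem_sq] at hq
        refine hv1 _ ?_
        obtain ⟨q1, q2⟩ := q
        rw [add_assoc, hz]
        exact hK a ha _ (by show k + q1 < L; simp only at hq; omega)
          (by show 0 + q2 < L; simp only at hq; omega)
      · intro k hk
        refine dd_bm_local fun q hq => ?_
        rw [mem_sq] at hq
        refine hv2 _ ?_
        obtain ⟨q1, q2⟩ := q
        rw [add_assoc, hz]
        exact hK a ha _ (by show i + q1 < L; simp only at hq; omega)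
          (by show k + q2 < L; simp only at hq; omega)
    have hB2 : B = psum i j (bm ρ v1) (bm ρ v2) - ((i : ℝ) • bm R v1 + (j : ℝ) • bm R v2) := by
      rw [hB]
      unfold psum
      rw [Finset.sum_sub_distrib, Finset.sum_sub_distrib, Finset.sum_const, Finset.sum_const,
        card_range, card_range, ← Nat.cast_smul_eq_nsmul ℝ, ← Nat.cast_smul_eq_nsmul ℝ]
      abel
    ext ω
    have c1 := congrFun hA1 ω
    have c2 := congrFun hB1 ω
    have c3 : B a ω = psum i j (bm ρ v1) (bm ρ v2) a ω - ((i : ℝ) * bm R v1 a ω +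
        (j : ℝ) * bm R v2 a ω) := by rw [hB2]; rfl
    show tr (pt (i, j)) u a ω - bm ρ u a ω - ((i : ℝ) * bm R v1 a ω + (j : ℝ) * bm R v2 a ω) =
      B a ω - A a ω
    have c1' : tr (pt (i, j)) (bm ρ u) a ω - tr (pt (i, j)) u a ω = A a ω := c1
    have c2' : tr (pt (i, j)) (bm ρ u) a ω - bm ρ u a ω = psum i j (bm ρ v1) (bm ρ v2) a ω := c2
    rw [c3, ← c1', ← c2']
    ring
  rw [N_rst_congr hkey]
  refine (N_rst_le K _).trans ((N_sub hBm).trans ?_)
  have hNA : N μ (fun _ => 1) A ≤ ρ * (N μ (fun _ => 1) v1 + N μ (fun _ => 1) v2) := by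
    refine N_mn_le (fun q _ => (h1.psum h2 _ _).tr _) fun q hq => ?_
    rw [N_tr_one]
    rw [mem_sq] at hq
    refine (N_psum h1 h2 _ _).trans ?_
    rw [mul_add]
    gcongr
    · exact_mod_cast hq.1.le
    · exact_mod_cast hq.2.le
  have hNB : N μ (fun _ => 1) B ≤
      r * (N μ (fun _ => 1) (bm ρ v1 - bm R v1) + N μ (fun _ => 1) (bm ρ v2 - bm R v2)) +
      r * (4 * (r : ℝ≥0∞) / R * (N μ (fun _ => 1) v1 + N μ (fun _ => 1) v2)) := by
    rw [hB]
    refine (N_add (Mb.sum fun k _ => ((h1.bm ρ).tr _).sub (h1.bm R))).trans ?_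
    have g1 : N μ (fun _ => 1) (∑ k ∈ range i, (tr (pt (k, 0)) (bm ρ v1) - bm R v1)) ≤
        r * (N μ (fun _ => 1) (bm ρ v1 - bm R v1) + 4 * (r : ℝ≥0∞) / R * N μ (fun _ => 1) v1) := by
      refine (N_sum _ _ fun k _ => ((h1.bm ρ).tr _).sub (h1.bm R)).trans ?_
      refine (Finset.sum_le_sum fun k hk => N_tr_bm_sub h1 hR k 0 r
        (by rw [mem_range] at hk; omega) (Nat.zero_le _)).trans ?_
      rw [Finset.sum_const, card_range, nsmul_eq_mul]
      gcongr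
    have g2 : N μ (fun _ => 1) (∑ l ∈ range j, (tr (pt (i, l)) (bm ρ v2) - bm R v2)) ≤
        r * (N μ (fun _ => 1) (bm ρ v2 - bm R v2) + 4 * (r : ℝ≥0∞) / R * N μ (fun _ => 1) v2) := by
      refine (N_sum _ _ fun k _ => ((h2.bm ρ).tr _).sub (h2.bm R)).trans ?_
      refine (Finset.sum_le_sum fun k hk => N_tr_bm_sub h2 hR i k r hpi.le
        (by rw [mem_range] at hk; omega)).trans ?_
      rw [Finset.sum_const, card_range, nsmul_eq_mul]
      gcongr
    refine (add_le_add g1 g2).trans (le_of_eq ?_)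
    ring
  refine (add_le_add hNB hNA).trans (le_of_eq ?_)
  ring

/-- the centred deviation -/
noncomputable def cdev (r : ℕ) (u G1 G2 : Fld Ω) (p : ℕ × ℕ) : Fld Ω :=
  tr (pt p) u - bm r u - (((p.1 : ℝ) - ((r : ℝ) - 1) / 2) • G1 + ((p.2 : ℝ) - ((r : ℝ) - 1) / 2) • G2)

lemma cdev_eq {r : ℕ} (hr : 0 < r) (ρ : ℕ) (u G1 G2 : Fld Ω) (p : ℕ × ℕ) :
    cdev r u G1 G2 p = dev ρ u G1 G2 p - mn (sq r) (fun q => dev ρ u G1 G2 q) := by
  ext a ω
  have hr' : (r : ℝ) ≠ 0 := by positivity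
  have e0 : ∀ q : ℕ × ℕ, dev ρ u G1 G2 q a ω = u (a + pt q) ω - bm ρ u a ω -
      ((q.1 : ℝ) * G1 a ω + (q.2 : ℝ) * G2 a ω) := fun q => rfl
  have hg : ∑ k ∈ range r, (k : ℝ) = (r : ℝ) * (r - 1) / 2 := by
    have := Finset.sum_range_id_mul_two r
    have h2 : ((∑ k ∈ range r, k : ℕ) : ℝ) * 2 = r * (r - 1) := by
      have h3 : (((∑ k ∈ range r, k) * 2 : ℕ) : ℝ) = ((r * (r - 1) : ℕ) : ℝ) := by rw [this]
      rw [Nat.cast_mul, Nat.cast_mul, Nat.cast_sub hr] at h3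
      simpa using h3
    rw [Nat.cast_sum] at h2
    linarith
  have e1 : mn (sq r) (fun q => dev ρ u G1 G2 q) a ω = bm r u a ω - bm ρ u a ω -
      (((r : ℝ) - 1) / 2 * G1 a ω + ((r : ℝ) - 1) / 2 * G2 a ω) := by
    rw [mn_apply]
    simp_rw [e0]
    rw [Finset.sum_sub_distrib, Finset.sum_sub_distrib, Finset.sum_add_distrib, ← Finset.sum_mul,
      ← Finset.sum_mul, Finset.sum_const, card_sq]
    have f1 : ∑ q ∈ sq r, (q.1 : ℝ) = (r : ℝ) * ((r : ℝ) * (r - 1) / 2) := by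
      unfold sq
      rw [Finset.sum_product]
      simp only [Finset.sum_const, card_range, nsmul_eq_mul]
      rw [← Finset.mul_sum, hg]
    have f2 : ∑ q ∈ sq r, (q.2 : ℝ) = (r : ℝ) * ((r : ℝ) * (r - 1) / 2) := by
      unfold sq
      rw [Finset.sum_product]
      simp only [hg]
      rw [Finset.sum_const, card_range, nsmul_eq_mul]
    rw [f1, f2]
    have f3 : bm r u a ω = ((r * r : ℕ) : ℝ)⁻¹ * ∑ q ∈ sq r, u (a + pt q) ω := by
      unfold bm
      rw [mn_apply, card_sq]; rfl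
    rw [f3, nsmul_eq_mul]
    push_cast
    field_simp
  show u (a + pt p) ω - bm r u a ω - (((p.1 : ℝ) - ((r : ℝ) - 1) / 2) * G1 a ω +
    ((p.2 : ℝ) - ((r : ℝ) - 1) / 2) * G2 a ω) = dev ρ u G1 G2 p a ω -
      mn (sq r) (fun q => dev ρ u G1 G2 q) a ω
  rw [e0, e1]
  ring

lemma Mb.dev {u G1 G2 : Fld Ω} (hu : Mb u) (h1 : Mb G1) (h2 : Mb G2) (ρ : ℕ) (p : ℕ × ℕ) :
    Mb (dev ρ u G1 G2 p) :=
  ((hu.tr _).sub (hu.bm _)).sub ((h1.smul _).add (h2.smul _))

/-- **Step F**: label-space flatness at one of the scales of a chain. -/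
theorem flat [IsProbabilityMeasure μ] {u : Fld Ω} (hu : Mb u) {K K' K'' : Finset P2} {L J : ℕ}
    {ρ m l r : ℕ → ℕ} (hρ0 : 0 < ρ 0) (hl : ∀ j, 0 < l j) (hlm : ∀ j, l j ≤ m j)
    (hρm : ∀ j, ρ (j + 1) = ρ j * m j) (hJ : 0 < J) (hr : ∀ j, 0 < r j)
    (hL : ∀ j < J, r j + ρ j ≤ L)
    (hK : ∀ a ∈ K, ∀ p : ℕ × ℕ, p.1 < L → p.2 < L → a + pt p ∈ K')
    (hK'' : ∀ a ∈ K', ∀ j < J, ∀ p ∈ sq (ρ (j + 1)), a - pt p ∈ K'')
    {κ Λ : ℝ} (hκ : 0 < κ) (hΛ : 0 ≤ Λ) :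
    ∃ j < J, ∀ p ∈ sq (r j),
      N μ (fun _ => 1) (rst K (cdev (r j) u (bm (ρ (j + 1)) (rst K' (dd (1, 0) u)))
        (bm (ρ (j + 1)) (rst K' (dd (0, 1) u))) p)) ≤
      2 * (ρ j * (N μ (fun _ => 1) (rst K' (dd (1, 0) u)) + N μ (fun _ => 1) (rst K' (dd (0, 1) u))) +
        r j * (2 * (ENNReal.ofReal κ * K''.card) +
          ENNReal.ofReal κ⁻¹ * ((m j * m j : ℕ) / (l j * l j : ℕ) *
            (ENNReal.ofReal Λ * (N μ (fun _ => 1) (rst K' (dd (1, 0) u)) +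
              N μ (fun _ => 1) (rst K' (dd (0, 1) u))) / J)) +
          4 * (l j : ℝ≥0∞) / m j * (N μ (fun _ => 1) (rst K' (dd (1, 0) u)) +
              N μ (fun _ => 1) (rst K' (dd (0, 1) u))) +
          2 * (N μ (fun _ => 1) (rst K' (dd (1, 0) u) - tc Λ (rst K' (dd (1, 0) u))) +
            N μ (fun _ => 1) (rst K' (dd (0, 1) u) - tc Λ (rst K' (dd (0, 1) u))))) +
        r j * (4 * (r j : ℝ≥0∞) / ρ (j + 1) * (N μ (fun _ => 1) (rst K' (dd (1, 0) u)) +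
              N μ (fun _ => 1) (rst K' (dd (0, 1) u))))) := by
  set v1 := rst K' (dd (1, 0) u) with hv1
  set v2 := rst K' (dd (0, 1) u) with hv2
  have h1 : Mb v1 := (hu.dd _).rst _
  have h2 : Mb v2 := (hu.dd _).rst _
  have hm : ∀ j, 0 < m j := fun j => lt_of_lt_of_le (hl j) (hlm j)
  have hρ : ∀ j, 0 < ρ j := by
    intro j
    induction j with
    | zero => exact hρ0
    | succ j ih => rw [hρm j]; exact Nat.mul_pos ih (hm j)
  obtain ⟨j, hj, hW⟩ := exists_scale (μ := μ) h1 h2 hΛ hρ0 hm hρm hJ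
  refine ⟨j, hj, fun p hp => ?_⟩
  set S := N μ (fun _ => 1) v1 + N μ (fun _ => 1) v2 with hS
  set T := N μ (fun _ => 1) (v1 - tc Λ v1) + N μ (fun _ => 1) (v2 - tc Λ v2) with hT
  set R := ρ (j + 1) with hR
  have hRpos : 0 < R := hρ _
  set Bd : ℝ≥0∞ := ρ j * S + r j * (2 * (ENNReal.ofReal κ * K''.card) +
          ENNReal.ofReal κ⁻¹ * ((m j * m j : ℕ) / (l j * l j : ℕ) * (ENNReal.ofReal Λ * S / J)) +
          4 * (l j : ℝ≥0∞) / m j * S + 2 * T) + r j * (4 * (r j : ℝ≥0∞) / R * S) with hBd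
  have hD : ∀ v : Fld Ω, Mb v → (∀ a ∉ K', v a = 0) →
      N μ (fun _ => 1) (bm (ρ j) v - bm R v) ≤ ENNReal.ofReal κ * K''.card +
        ENNReal.ofReal κ⁻¹ * ((m j * m j : ℕ) / (l j * l j : ℕ) * Wv μ (ρ j) (m j) (tc Λ v)) +
        4 * (l j : ℝ≥0∞) / m j * N μ (fun _ => 1) v + 2 * N μ (fun _ => 1) (v - tc Λ v) := by
    intro v hv hv0
    refine (N_bm_sub_split hv (ρ j) R (tc Λ v) (hv.tc Λ)).trans ?_
    gcongr
    have := N_bm_sub_le (μ := μ) (hv.tc Λ) (K' := K') (K'' := K'')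
      (fun a ha => tc_eq_zero hΛ (hv0 a ha)) (hρ j) (hl j) (hlm j)
      (by rw [← hρm j]; exact fun a ha p hp => hK'' a ha j hj p hp) hκ
    rw [← hρm j, ← hR] at this
    refine this.trans ?_
    gcongr
    exact N_tc_le hΛ
  have hmain : ∀ q ∈ sq (r j), N μ (fun _ => 1) (rst K (dev (ρ j) u (bm R v1) (bm R v2) q)) ≤ Bd := by
    intro q hq
    refine (N_dev_le (μ := μ) hu h1 h2 hK (fun a ha => (rst_mem ha _).symm)
      (fun a ha => (rst_mem ha _).symm) (hρ j) hRpos (hL j hj) q hq).trans ?_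
    rw [hBd]
    refine add_le_add (add_le_add le_rfl (mul_le_mul' le_rfl ?_)) le_rfl
    calc _ ≤ (ENNReal.ofReal κ * K''.card +
        ENNReal.ofReal κ⁻¹ * ((m j * m j : ℕ) / (l j * l j : ℕ) * Wv μ (ρ j) (m j) (tc Λ v1)) +
        4 * (l j : ℝ≥0∞) / m j * N μ (fun _ => 1) v1 + 2 * N μ (fun _ => 1) (v1 - tc Λ v1)) +
        (ENNReal.ofReal κ * K''.card +
        ENNReal.ofReal κ⁻¹ * ((m j * m j : ℕ) / (l j * l j : ℕ) * Wv μ (ρ j) (m j) (tc Λ v2)) +
        4 * (l j : ℝ≥0∞) / m j * N μ (fun _ => 1) v2 + 2 * N μ (fun _ => 1) (v2 - tc Λ v2)) :=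
          add_le_add (hD v1 h1 fun a ha => rst_notMem ha _) (hD v2 h2 fun a ha => rst_notMem ha _)
      _ = 2 * (ENNReal.ofReal κ * K''.card) +
        ENNReal.ofReal κ⁻¹ * ((m j * m j : ℕ) / (l j * l j : ℕ) *
          (Wv μ (ρ j) (m j) (tc Λ v1) + Wv μ (ρ j) (m j) (tc Λ v2))) +
        4 * (l j : ℝ≥0∞) / m j * S + 2 * T := by
          rw [hS, hT]; ring
      _ ≤ _ := by gcongr
  have hdm : ∀ q, Mb (dev (ρ j) u (bm R v1) (bm R v2) q) := fun q =>
    hu.dev (h1.bm R) (h2.bm R) (ρ j) q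
  rw [cdev_eq (hr j) (ρ j), rst_sub, rst_mn]
  refine (N_sub ((hdm p).rst K)).trans ?_
  rw [two_mul]
  exact add_le_add (hmain p hp) (N_mn_le (fun q _ => (hdm q).rst K) hmain)

end Crest.Agent.R144.Flat296
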