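import Mathlib
import Crest.Agent.R144.Flat5_296

/-!
R144 / S0197, approach P, assembly of the upper bound, part 1 (helper296): the cut-off `psi` of
slopes, quadratic forms, bounded random fields and their space-averages.
-/

set_option autoImplicit false
set_option linter.unusedSectionVars false
set_option linter.unusedVariables false

open MeasureTheory Finset
open scoped ENNReal

namespace Crest.Agent.R144.Upp296

open Crest.Agent.R144.Flat296

/-! ### the cut-off -/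

/-- cut-off function: 1 on `[0,Λ]`, 0 beyond `2Λ`, affine in between -/
noncomputable def tau (Λ t : ℝ) : ℝ := max 0 (min 1 (2 - t / Λ))

/-- sup norm of a slope -/
noncomputable def sn (G : Fin 2 → ℝ) : ℝ := max |G 0| |G 1|

/-- the slope cut off smoothly between `Λ` and `2Λ` -/
noncomputable def psi (Λ : ℝ) (G : Fin 2 → ℝ) (i : Fin 2) : ℝ := tau Λ (sn G) * G i

/-- clamping at level `c` -/
noncomputable def clp (c x : ℝ) : ℝ := max (-c) (min x c)

lemma tau_nonneg (Λ t : ℝ) : 0 ≤ tau Λ t := le_max_left _ _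

lemma tau_le_one (Λ t : ℝ) : tau Λ t ≤ 1 := max_le zero_le_one (min_le_left _ _)

lemma tau_eq_one {Λ t : ℝ} (hΛ : 0 < Λ) (h : t ≤ Λ) : tau Λ t = 1 := by
  unfold tau
  have : 1 ≤ 2 - t / Λ := by
    have : t / Λ ≤ 1 := by rw [div_le_one hΛ]; exact h
    linarith
  rw [min_eq_left this]
  simp

lemma tau_eq_zero {Λ t : ℝ} (hΛ : 0 < Λ) (h : 2 * Λ ≤ t) : tau Λ t = 0 := by
  unfold tau
  have : 2 - t / Λ ≤ 0 := by
    have : 2 ≤ t / Λ := by rw [le_div_iff₀ hΛ]; exact h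
    linarith
  rw [min_eq_right (by linarith)]
  exact max_eq_left this

lemma tau_lip {Λ : ℝ} (hΛ : 0 < Λ) (s t : ℝ) : |tau Λ s - tau Λ t| ≤ |s - t| / Λ := by
  unfold tau
  refine (abs_max_sub_max_le_max _ _ _ _).trans ?_
  rw [sub_self, abs_zero, max_eq_right (abs_nonneg _)]
  refine (abs_min_sub_min_le_max _ _ _ _).trans ?_
  rw [sub_self, abs_zero, max_eq_right (abs_nonneg _)]
  have : 2 - s / Λ - (2 - t / Λ) = -((s - t) / Λ) := by ring
  rw [this, abs_neg, abs_div, abs_of_pos hΛ]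

lemma abs_le_sn (G : Fin 2 → ℝ) (i : Fin 2) : |G i| ≤ sn G := by
  fin_cases i
  · exact le_max_left _ _
  · exact le_max_right _ _

lemma sn_nonneg (G : Fin 2 → ℝ) : 0 ≤ sn G := (abs_nonneg _).trans (abs_le_sn G 0)

lemma sn_sub_le (G G' : Fin 2 → ℝ) : |sn G - sn G'| ≤ |G 0 - G' 0| + |G 1 - G' 1| := by
  unfold sn
  refine (abs_max_sub_max_le_max _ _ _ _).trans ?_
  refine max_le ?_ ?_
  · exact (abs_abs_sub_abs_le_abs_sub _ _).trans (le_add_of_nonneg_right (abs_nonneg _))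
  · exact (abs_abs_sub_abs_le_abs_sub _ _).trans (le_add_of_nonneg_left (abs_nonneg _))

lemma abs_psi_le {Λ : ℝ} (hΛ : 0 < Λ) (G : Fin 2 → ℝ) (i : Fin 2) : |psi Λ G i| ≤ 2 * Λ := by
  unfold psi
  rw [abs_mul, abs_of_nonneg (tau_nonneg _ _)]
  rcases le_total (2 * Λ) (sn G) with h | h
  · rw [tau_eq_zero hΛ h]; simp; positivity
  · calc tau Λ (sn G) * |G i| ≤ 1 * sn G :=
        mul_le_mul (tau_le_one _ _) (abs_le_sn G i) (abs_nonneg _) zero_le_one
      _ ≤ 2 * Λ := by linarith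

lemma psi_lip_aux {Λ : ℝ} (hΛ : 0 < Λ) (G G' : Fin 2 → ℝ) (i : Fin 2) (h : sn G' ≤ 2 * Λ) :
    |psi Λ G i - psi Λ G' i| ≤ 3 * (|G 0 - G' 0| + |G 1 - G' 1|) := by
  have hd : |G i - G' i| ≤ |G 0 - G' 0| + |G 1 - G' 1| := by
    fin_cases i
    · exact le_add_of_nonneg_right (abs_nonneg _)
    · exact le_add_of_nonneg_left (abs_nonneg _)
  have e : psi Λ G i - psi Λ G' i = tau Λ (sn G) * (G i - G' i) +
      (tau Λ (sn G) - tau Λ (sn G')) * G' i := by unfold psi; ring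
  rw [e]
  refine (abs_add_le _ _).trans ?_
  rw [abs_mul, abs_mul, abs_of_nonneg (tau_nonneg _ _)]
  have h1 : tau Λ (sn G) * |G i - G' i| ≤ |G 0 - G' 0| + |G 1 - G' 1| := by
    calc _ ≤ 1 * |G i - G' i| := mul_le_mul_of_nonneg_right (tau_le_one _ _) (abs_nonneg _)
      _ ≤ _ := by rw [one_mul]; exact hd
  have h2 : |tau Λ (sn G) - tau Λ (sn G')| * |G' i| ≤ 2 * (|G 0 - G' 0| + |G 1 - G' 1|) := by
    calc |tau Λ (sn G) - tau Λ (sn G')| * |G' i| ≤ (|sn G - sn G'| / Λ) * (2 * Λ) :=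
          mul_le_mul (tau_lip hΛ _ _) ((abs_le_sn G' i).trans h) (abs_nonneg _) (by positivity)
      _ = 2 * |sn G - sn G'| := by field_simp
      _ ≤ _ := by
          have := sn_sub_le G G'
          linarith
  linarith

lemma psi_lip {Λ : ℝ} (hΛ : 0 < Λ) (G G' : Fin 2 → ℝ) (i : Fin 2) :
    |psi Λ G i - psi Λ G' i| ≤ 3 * (|G 0 - G' 0| + |G 1 - G' 1|) := by
  rcases le_total (sn G') (2 * Λ) with h | h
  · exact psi_lip_aux hΛ G G' i h
  · rcases le_total (sn G) (2 * Λ) with h' | h'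
    · have := psi_lip_aux hΛ G' G i h'
      rw [abs_sub_comm, abs_sub_comm (G 0), abs_sub_comm (G 1)]
      exact this
    · have e1 : psi Λ G i = 0 := by unfold psi; rw [tau_eq_zero hΛ h']; ring
      have e2 : psi Λ G' i = 0 := by unfold psi; rw [tau_eq_zero hΛ h]; ring
      rw [e1, e2]; simp; positivity

lemma abs_clp_le {c : ℝ} (hc : 0 ≤ c) (x : ℝ) : |clp c x| ≤ c := by
  rw [abs_le]
  exact ⟨le_max_left _ _, max_le (by linarith) (min_le_right _ _)⟩

lemma clp_of_abs_le {c x : ℝ} (h : |x| ≤ c) : clp c x = x := by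
  rw [abs_le] at h
  unfold clp
  rw [min_eq_left h.2, max_eq_right h.1]

lemma abs_clp_eq {c : ℝ} (hc : 0 ≤ c) {x : ℝ} (h : c ≤ |x|) : |clp c x| = c := by
  unfold clp
  rcases le_total 0 x with hx | hx
  · rw [abs_of_nonneg hx] at h
    rw [min_eq_right h, max_eq_right (by linarith), abs_of_nonneg hc]
  · rw [abs_of_nonpos hx] at h
    rw [min_eq_left (by linarith), max_eq_left (by linarith), abs_neg, abs_of_nonneg hc]

/-- `psi` does not see clamping at a level above `2Λ` -/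
lemma psi_clp {Λ c : ℝ} (hΛ : 0 < Λ) (hc : 2 * Λ ≤ c) (G : Fin 2 → ℝ) :
    psi Λ (fun i => clp c (G i)) = psi Λ G := by
  have hc0 : 0 ≤ c := by linarith
  ext i
  rcases le_total (sn G) c with h | h
  · have : (fun i => clp c (G i)) = G := by
      ext j; exact clp_of_abs_le ((abs_le_sn G j).trans h)
    rw [this]
  · have h1 : tau Λ (sn G) = 0 := tau_eq_zero hΛ (hc.trans h)
    have h2 : c ≤ sn (fun i => clp c (G i)) := by
      unfold sn at h ⊢
      rcases le_max_iff.mp h with h' | h'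
      · exact le_max_of_le_left (abs_clp_eq hc0 h').ge
      · exact le_max_of_le_right (abs_clp_eq hc0 h').ge
    have h3 : tau Λ (sn fun i => clp c (G i)) = 0 := tau_eq_zero hΛ (hc.trans h2)
    unfold psi
    rw [h1, h3]; ring

lemma abs_sub_psi_le {Λ : ℝ} (hΛ : 0 < Λ) (G : Fin 2 → ℝ) (i : Fin 2) :
    |G i - psi Λ G i| ≤ 2 * (max 0 (|G 0| - Λ / 2) + max 0 (|G 1| - Λ / 2)) := by
  have hnn : ∀ x : ℝ, 0 ≤ max 0 (x - Λ / 2) := fun x => le_max_left _ _
  rcases le_total (sn G) Λ with h | h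
  · have : psi Λ G i = G i := by unfold psi; rw [tau_eq_one hΛ h]; ring
    rw [this, sub_self, abs_zero]
    have := hnn |G 0|
    have := hnn |G 1|
    positivity
  · have e : G i - psi Λ G i = (1 - tau Λ (sn G)) * G i := by unfold psi; ring
    rw [e, abs_mul, abs_of_nonneg (by linarith [tau_le_one Λ (sn G)])]
    have h1 : (1 - tau Λ (sn G)) * |G i| ≤ sn G := by
      calc _ ≤ 1 * sn G := mul_le_mul (by linarith [tau_nonneg Λ (sn G)]) (abs_le_sn G i)
            (abs_nonneg _) zero_le_one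
        _ = _ := one_mul _
    refine h1.trans ?_
    have h2 : sn G ≤ 2 * max 0 (sn G - Λ / 2) := by
      have := le_max_right 0 (sn G - Λ / 2)
      linarith
    refine h2.trans ?_
    have h3 : max 0 (sn G - Λ / 2) ≤ max 0 (|G 0| - Λ / 2) + max 0 (|G 1| - Λ / 2) := by
      unfold sn
      rcases max_cases |G 0| |G 1| with ⟨h, _⟩ | ⟨h, _⟩
      · rw [h]; linarith [hnn |G 1|]
      · rw [h]; linarith [hnn |G 0|]
    linarith

/-! ### quadratic forms -/

/-- quadratic form of a 2×2 array -/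
noncomputable def qf (B : Fin 2 → Fin 2 → ℝ) (x : Fin 2 → ℝ) : ℝ := ∑ i, ∑ j, B i j * x i * x j

lemma qf_eq (B : Fin 2 → Fin 2 → ℝ) (x : Fin 2 → ℝ) : qf B x =
    B 0 0 * x 0 * x 0 + B 0 1 * x 0 * x 1 + (B 1 0 * x 1 * x 0 + B 1 1 * x 1 * x 1) := by
  simp [qf, Fin.sum_univ_two]

lemma qf_sub_le {B : Fin 2 → Fin 2 → ℝ} {b c : ℝ} (hb : ∀ i j, |B i j| ≤ b) {x y : Fin 2 → ℝ}
    (hx : ∀ i, |x i| ≤ c) (hy : ∀ i, |y i| ≤ c) :
    |qf B x - qf B y| ≤ 4 * b * c * (|x 0 - y 0| + |x 1 - y 1|) := by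
  have hb0 : 0 ≤ b := (abs_nonneg _).trans (hb 0 0)
  have hc0 : 0 ≤ c := (abs_nonneg _).trans (hx 0)
  have ht : ∀ i j, |B i j * x i * x j - B i j * y i * y j| ≤
      b * c * (|x i - y i| + |x j - y j|) := by
    intro i j
    have e : B i j * x i * x j - B i j * y i * y j =
        B i j * (x i * (x j - y j) + (x i - y i) * y j) := by ring
    rw [e, abs_mul]
    calc |B i j| * |x i * (x j - y j) + (x i - y i) * y j|
        ≤ b * (c * |x j - y j| + |x i - y i| * c) := by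
          refine mul_le_mul (hb i j) ?_ (abs_nonneg _) hb0
          refine (abs_add_le _ _).trans ?_
          rw [abs_mul, abs_mul]
          exact add_le_add (mul_le_mul_of_nonneg_right (hx i) (abs_nonneg _))
            (mul_le_mul_of_nonneg_left (hy j) (abs_nonneg _))
      _ = _ := by ring
  have e : qf B x - qf B y = (B 0 0 * x 0 * x 0 - B 0 0 * y 0 * y 0) +
      (B 0 1 * x 0 * x 1 - B 0 1 * y 0 * y 1) + ((B 1 0 * x 1 * x 0 - B 1 0 * y 1 * y 0) +
      (B 1 1 * x 1 * x 1 - B 1 1 * y 1 * y 1)) := by rw [qf_eq, qf_eq]; ring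
  rw [e]
  refine (abs_add_le _ _).trans ((add_le_add (abs_add_le _ _) (abs_add_le _ _)).trans ?_)
  have h00 := ht 0 0
  have h01 := ht 0 1
  have h10 := ht 1 0
  have h11 := ht 1 1
  linarith

lemma qf_sub_le' {B A : Fin 2 → Fin 2 → ℝ} {c : ℝ} {x : Fin 2 → ℝ} (hx : ∀ i, |x i| ≤ c) :
    |qf B x - qf A x| ≤ c ^ 2 * ∑ i, ∑ j, |B i j - A i j| := by
  have hc0 : 0 ≤ c := (abs_nonneg _).trans (hx 0)
  have ht : ∀ i j, |B i j * x i * x j - A i j * x i * x j| ≤ c ^ 2 * |B i j - A i j| := by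
    intro i j
    have e : B i j * x i * x j - A i j * x i * x j = (B i j - A i j) * (x i * x j) := by ring
    rw [e, abs_mul, mul_comm, abs_mul, pow_two]
    exact mul_le_mul_of_nonneg_right (mul_le_mul (hx i) (hx j) (abs_nonneg _) hc0) (abs_nonneg _)
  have e : qf B x - qf A x = (B 0 0 * x 0 * x 0 - A 0 0 * x 0 * x 0) +
      (B 0 1 * x 0 * x 1 - A 0 1 * x 0 * x 1) + ((B 1 0 * x 1 * x 0 - A 1 0 * x 1 * x 0) +
      (B 1 1 * x 1 * x 1 - A 1 1 * x 1 * x 1)) := by rw [qf_eq, qf_eq]; ring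
  rw [e]
  refine (abs_add_le _ _).trans ((add_le_add (abs_add_le _ _) (abs_add_le _ _)).trans ?_)
  have h00 := ht 0 0
  have h01 := ht 0 1
  have h10 := ht 1 0
  have h11 := ht 1 1
  simp only [Fin.sum_univ_two]
  linarith

/-! ### bounded measurable fields -/

variable {Ω : Type*} [MeasurableSpace Ω]

/-- bounded measurable random fields -/
structure Bd (f : Fld Ω) : Prop where
  mb : Mb f
  bd : ∃ C : ℝ, ∀ a ω, |f a ω| ≤ C

namespace Bd

variable {f g : Fld Ω}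

lemma const (c : ℝ) : Bd (fun (_ : P2) (_ : Ω) => c) := ⟨fun _ => measurable_const, |c|, fun _ _ => le_rfl⟩

lemma add (hf : Bd f) (hg : Bd g) : Bd (fun a ω => f a ω + g a ω) := by
  obtain ⟨C, hC⟩ := hf.bd
  obtain ⟨C', hC'⟩ := hg.bd
  exact ⟨fun a => (hf.mb a).add (hg.mb a), C + C', fun a ω =>
    (abs_add_le _ _).trans (add_le_add (hC a ω) (hC' a ω))⟩

lemma sub (hf : Bd f) (hg : Bd g) : Bd (fun a ω => f a ω - g a ω) := by
  obtain ⟨C, hC⟩ := hf.bd
  obtain ⟨C', hC'⟩ := hg.bd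
  exact ⟨fun a => (hf.mb a).sub (hg.mb a), C + C', fun a ω =>
    (abs_sub _ _).trans (add_le_add (hC a ω) (hC' a ω))⟩

lemma mul (hf : Bd f) (hg : Bd g) : Bd (fun a ω => f a ω * g a ω) := by
  obtain ⟨C, hC⟩ := hf.bd
  obtain ⟨C', hC'⟩ := hg.bd
  refine ⟨fun a => (hf.mb a).mul (hg.mb a), C * C', fun a ω => ?_⟩
  rw [abs_mul]
  exact mul_le_mul (hC a ω) (hC' a ω) (abs_nonneg _) ((abs_nonneg _).trans (hC a ω))

lemma abs (hf : Bd f) : Bd (fun a ω => |f a ω|) := by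
  obtain ⟨C, hC⟩ := hf.bd
  exact ⟨fun a => (hf.mb a).abs, C, fun a ω => by rw [abs_abs]; exact hC a ω⟩

lemma cmul (c : ℝ) (hf : Bd f) : Bd (fun a ω => c * f a ω) := (Bd.const c).mul hf

lemma max (hf : Bd f) (hg : Bd g) : Bd (fun a ω => Max.max (f a ω) (g a ω)) := by
  obtain ⟨C, hC⟩ := hf.bd
  obtain ⟨C', hC'⟩ := hg.bd
  refine ⟨fun a => (hf.mb a).max (hg.mb a), Max.max C C', fun a ω => ?_⟩
  exact (abs_max_le_max_abs_abs).trans (max_le_max (hC a ω) (hC' a ω))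

lemma min (hf : Bd f) (hg : Bd g) : Bd (fun a ω => Min.min (f a ω) (g a ω)) := by
  obtain ⟨C, hC⟩ := hf.bd
  obtain ⟨C', hC'⟩ := hg.bd
  refine ⟨fun a => (hf.mb a).min (hg.mb a), Max.max C C', fun a ω => ?_⟩
  exact (abs_min_le_max_abs_abs).trans (max_le_max (hC a ω) (hC' a ω))

lemma tr (hf : Bd f) (z : P2) : Bd (Flat296.tr z f) := by
  obtain ⟨C, hC⟩ := hf.bd
  exact ⟨hf.mb.tr z, C, fun a ω => hC _ ω⟩

lemma sum {ι : Type*} {s : Finset ι} {F : ι → Fld Ω} (h : ∀ i ∈ s, Bd (F i)) :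
    Bd (fun a ω => ∑ i ∈ s, F i a ω) := by
  classical
  induction s using Finset.induction_on with
  | empty => simpa using Bd.const (Ω := Ω) 0
  | insert i s hi ih =>
    simp_rw [Finset.sum_insert hi]
    exact (h i (by simp)).add (ih fun j hj => h j (by simp [hj]))

lemma bm (hf : Bd f) (r : ℕ) : Bd (Flat296.bm r f) := by
  have h := (Bd.sum (s := Flat296.sq r) (F := fun p => Flat296.tr (pt p) f) fun p _ => hf.tr _).cmul
    (((Flat296.sq r).card : ℝ)⁻¹)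
  refine ⟨hf.mb.bm r, ?_⟩
  obtain ⟨C, hC⟩ := h.bd
  refine ⟨C, fun a ω => ?_⟩
  have : Flat296.bm r f a ω = ((Flat296.sq r).card : ℝ)⁻¹ * ∑ p ∈ Flat296.sq r, Flat296.tr (pt p) f a ω :=
    mn_apply a ω
  rw [this]; exact hC a ω

lemma rst (hf : Bd f) (K : Finset P2) : Bd (Flat296.rst K f) := by
  obtain ⟨C, hC⟩ := hf.bd
  refine ⟨hf.mb.rst K, |C|, fun a ω => ?_⟩
  by_cases ha : a ∈ K
  · rw [rst_mem ha]; exact (hC a ω).trans (le_abs_self _)
  · rw [rst_notMem ha]; simp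

lemma dd (hf : Bd f) (z : P2) : Bd (Flat296.dd z f) := (hf.tr z).sub hf

lemma integrable (hf : Bd f) (μ : Measure Ω) [IsFiniteMeasure μ] (a : P2) : Integrable (f a) μ := by
  obtain ⟨C, hC⟩ := hf.bd
  exact Integrable.of_bound (hf.mb a).aestronglyMeasurable C
    (Filter.Eventually.of_forall fun ω => by rw [Real.norm_eq_abs]; exact hC a ω)

end Bd

lemma bd_tau {f : Fld Ω} (hf : Bd f) (Λ : ℝ) : Bd (fun a ω => tau Λ (f a ω)) := by
  unfold tau
  refine (Bd.const 0).max ((Bd.const 1).min ?_)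
  simp_rw [div_eq_inv_mul]
  exact (Bd.const 2).sub (hf.cmul _)

lemma bd_psi {G : Fin 2 → Fld Ω} (hG : ∀ i, Bd (G i)) (Λ : ℝ) (i : Fin 2) :
    Bd (fun a ω => psi Λ (fun k => G k a ω) i) := by
  unfold psi
  exact (bd_tau ((hG 0).abs.max (hG 1).abs) Λ).mul (hG i)

lemma bd_clp {f : Fld Ω} (hf : Bd f) (c : ℝ) : Bd (fun a ω => clp c (f a ω)) :=
  (Bd.const (-c)).max (hf.min (Bd.const c))

lemma bd_qf {B : Fin 2 → Fin 2 → Fld Ω} (hB : ∀ i j, Bd (B i j)) {G : Fin 2 → Fld Ω}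
    (hG : ∀ i, Bd (G i)) : Bd (fun a ω => qf (fun i j => B i j a ω) (fun i => G i a ω)) := by
  unfold qf
  exact Bd.sum fun i _ => Bd.sum fun j _ => ((hB i j).mul (hG i)).mul (hG j)

/-- sum over `K` of the expectations -/
noncomputable def Ex (μ : Measure Ω) (K : Finset P2) (f : Fld Ω) : ℝ := ∑ a ∈ K, ∫ ω, f a ω ∂μ

section Ex

variable {μ : Measure Ω} [IsFiniteMeasure μ] {K K' : Finset P2} {f g : Fld Ω}

lemma Ex_mono (hf : Bd f) (hg : Bd g) (h : ∀ a ∈ K, ∀ ω, f a ω ≤ g a ω) : Ex μ K f ≤ Ex μ K g :=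
  Finset.sum_le_sum fun a ha => integral_mono (hf.integrable μ a) (hg.integrable μ a) (h a ha)

lemma Ex_add (hf : Bd f) (hg : Bd g) : Ex μ K (fun a ω => f a ω + g a ω) = Ex μ K f + Ex μ K g := by
  unfold Ex
  rw [← Finset.sum_add_distrib]
  exact Finset.sum_congr rfl fun a _ => integral_add (hf.integrable μ a) (hg.integrable μ a)

lemma Ex_sub (hf : Bd f) (hg : Bd g) : Ex μ K (fun a ω => f a ω - g a ω) = Ex μ K f - Ex μ K g := by
  unfold Ex
  rw [← Finset.sum_sub_distrib]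
  exact Finset.sum_congr rfl fun a _ => integral_sub (hf.integrable μ a) (hg.integrable μ a)

lemma Ex_cmul (c : ℝ) (f : Fld Ω) : Ex μ K (fun a ω => c * f a ω) = c * Ex μ K f := by
  unfold Ex
  rw [Finset.mul_sum]
  exact Finset.sum_congr rfl fun a _ => integral_const_mul c _

lemma Ex_sum {ι : Type*} (s : Finset ι) (F : ι → Fld Ω) (h : ∀ i ∈ s, Bd (F i)) :
    Ex μ K (fun a ω => ∑ i ∈ s, F i a ω) = ∑ i ∈ s, Ex μ K (F i) := by
  unfold Ex
  rw [Finset.sum_comm]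
  exact Finset.sum_congr rfl fun a _ => integral_finsetSum _ fun i hi => (h i hi).integrable μ a

lemma Ex_subset (hf : ∀ a ∈ K', ∀ ω, 0 ≤ f a ω) (h : K ⊆ K') : Ex μ K f ≤ Ex μ K' f :=
  Finset.sum_le_sum_of_subset_of_nonneg h fun a ha _ => integral_nonneg (hf a ha)

lemma Ex_nonneg (hf : ∀ a ∈ K, ∀ ω, 0 ≤ f a ω) : 0 ≤ Ex μ K f :=
  Finset.sum_nonneg fun a ha => integral_nonneg (hf a ha)

/-- relation with the `ℝ≥0∞`-valued functional of Step F -/
lemma N_rst_eq (hf : Bd f) : N μ (fun _ => 1) (rst K f) = ENNReal.ofReal (Ex μ K fun a ω => |f a ω|) := by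
  rw [N_rst]
  unfold Ex
  rw [ENNReal.ofReal_sum_of_nonneg fun a _ => integral_nonneg fun ω => abs_nonneg _]
  refine Finset.sum_congr rfl fun a _ => ?_
  rw [ofReal_integral_eq_lintegral_ofReal (hf.abs.integrable μ a)
    (Filter.Eventually.of_forall fun ω => abs_nonneg _)]
  refine lintegral_congr fun ω => ?_
  rw [Real.enorm_eq_ofReal_abs]

lemma Ex_abs_le_of_N {c : ℝ} (hc : 0 ≤ c) (hf : Bd f)
    (h : N μ (fun _ => 1) (rst K f) ≤ ENNReal.ofReal c) : Ex μ K (fun a ω => |f a ω|) ≤ c := by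
  rw [N_rst_eq hf] at h
  exact (ENNReal.ofReal_le_ofReal_iff hc).mp h

end Ex

end Crest.Agent.R144.Upp296
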