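import Mathlib
import Crest.Agent.R144.Upp1_296

/-!
R144 / S0197, approach P, assembly of the upper bound, part 2 (helper296): the energy lower bound
after the law of large numbers (`energy_lln`), and the duality step (`duality`).
-/

set_option autoImplicit false
set_option linter.unusedSectionVars false
set_option linter.unusedVariables false

open MeasureTheory Finset
open scoped ENNReal

namespace Crest.Agent.R144.Upp296

open Crest.Agent.R144.Flat296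

variable {Ω : Type*} [MeasurableSpace Ω] {μ : Measure Ω} [IsFiniteMeasure μ]

lemma bm_apply (R : ℕ) (f : Fld Ω) (a : P2) (ω : Ω) :
    bm R f a ω = ((R * R : ℕ) : ℝ)⁻¹ * ∑ p ∈ Flat296.sq R, f (a + pt p) ω := by
  unfold bm
  rw [mn_apply, card_sq]; rfl

lemma mean_const {R : ℕ} (hR : 0 < R) (c : ℝ) :
    ((R * R : ℕ) : ℝ)⁻¹ * ∑ _p ∈ Flat296.sq R, c = c := by
  have : ((R * R : ℕ) : ℝ) ≠ 0 := by positivity
  rw [Finset.sum_const, card_sq, nsmul_eq_mul, ← mul_assoc, inv_mul_cancel₀ this, one_mul]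

lemma mean_le {R : ℕ} (hR : 0 < R) {f : ℕ × ℕ → ℝ} {c : ℝ} (h : ∀ p ∈ Flat296.sq R, f p ≤ c) :
    ((R * R : ℕ) : ℝ)⁻¹ * ∑ p ∈ Flat296.sq R, f p ≤ c := by
  calc _ ≤ ((R * R : ℕ) : ℝ)⁻¹ * ∑ _p ∈ Flat296.sq R, c :=
        mul_le_mul_of_nonneg_left (Finset.sum_le_sum h) (by positivity)
    _ = c := mean_const hR c

/-- expectations of block means -/
lemma Ex_bm (K : Finset P2) (R : ℕ) {f : Fld Ω} (hf : Bd f) :
    Ex μ K (bm R f) = ((R * R : ℕ) : ℝ)⁻¹ * ∑ p ∈ Flat296.sq R, Ex μ K (tr (pt p) f) := by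
  have h1 : Ex μ K (bm R f) = Ex μ K (fun a ω => ((R * R : ℕ) : ℝ)⁻¹ *
      ∑ p ∈ Flat296.sq R, tr (pt p) f a ω) := by
    unfold Ex
    refine Finset.sum_congr rfl fun a _ => integral_congr_ae (Filter.Eventually.of_forall fun ω => ?_)
    exact bm_apply R f a ω
  rw [h1, Ex_cmul, Ex_sum _ _ fun p _ => hf.tr _]

lemma Ex_tr_le {K K0 : Finset P2} {p : P2} (h : ∀ a ∈ K0, a + p ∈ K) {f : Fld Ω}
    (hf0 : ∀ a ω, 0 ≤ f a ω) : Ex μ K0 (tr p f) ≤ Ex μ K f := by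
  classical
  unfold Ex
  have h1 : ∑ a ∈ K0, ∫ ω, tr p f a ω ∂μ = ∑ x ∈ K0.image (· + p), ∫ ω, f x ω ∂μ := by
    rw [Finset.sum_image (fun a _ b _ hab => add_right_cancel hab)]
    rfl
  rw [h1]
  refine Finset.sum_le_sum_of_subset_of_nonneg ?_ fun a _ _ => integral_nonneg (hf0 a)
  intro x hx
  rw [Finset.mem_image] at hx
  obtain ⟨a, ha, rfl⟩ := hx
  exact h a ha

lemma Ex_bm_le {K K0 : Finset P2} {R : ℕ} (hR : 0 < R)
    (h : ∀ a ∈ K0, ∀ p ∈ Flat296.sq R, a + pt p ∈ K) {f : Fld Ω} (hf : Bd f)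
    (hf0 : ∀ a ω, 0 ≤ f a ω) : Ex μ K0 (bm R f) ≤ Ex μ K f := by
  rw [Ex_bm K0 R hf]
  exact mean_le hR fun p hp => Ex_tr_le (fun a ha => h a ha p hp) hf0

/-- energy lower bound after averaging the block matrices (law of large numbers) -/
theorem energy_lln {K K0 : Finset P2} {R' : ℕ} (hR' : 0 < R')
    (hK : ∀ a ∈ K0, ∀ p ∈ Flat296.sq R', a + pt p ∈ K)
    {B : Fin 2 → Fin 2 → Fld Ω} (hB : ∀ i j, Bd (B i j)) {Λ' : ℝ} (hΛ'n : 0 ≤ Λ')
    (hB' : ∀ i j a ω, |B i j a ω| ≤ Λ')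
    (hB0 : ∀ a ω x, 0 ≤ qf (fun i j => B i j a ω) x)
    {G ξ : Fin 2 → Fld Ω} (hG : ∀ i, Bd (G i)) (hξ : ∀ i, Bd (ξ i)) (A : Fin 2 → Fin 2 → ℝ)
    {Λ s t : ℝ} (hΛ : 0 < Λ)
    (hs : ∀ p ∈ Flat296.sq R', Ex μ K0 (fun a ω => |G 0 (a + pt p) ω - G 0 a ω|) +
      Ex μ K0 (fun a ω => |G 1 (a + pt p) ω - G 1 a ω|) ≤ s)
    (ht : Ex μ K (fun a ω => |clp (4 * Λ) (G 0 a ω) - ξ 0 a ω|) +
      Ex μ K (fun a ω => |clp (4 * Λ) (G 1 a ω) - ξ 1 a ω|) ≤ t) :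
    Ex μ K0 (fun a ω => qf A (psi Λ fun i => G i a ω)) ≤
      Ex μ K (fun a ω => qf (fun i j => B i j a ω) (psi Λ fun i => ξ i a ω)) +
      48 * Λ' * Λ * t + 48 * Λ' * Λ * s +
      (2 * Λ) ^ 2 * ∑ i, ∑ j, Ex μ K0 (fun a ω => |bm R' (B i j) a ω - A i j|) := by
  have hpsi : ∀ (y : Fin 2 → ℝ) i, |psi Λ y i| ≤ 2 * Λ := fun y i => abs_psi_le hΛ y i
  have hψG : ∀ i, Bd (fun a ω => psi Λ (fun k => G k a ω) i) := fun i => bd_psi hG Λ i
  have hψξ : ∀ i, Bd (fun a ω => psi Λ (fun k => ξ k a ω) i) := fun i => bd_psi hξ Λ i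
  have hAc : ∀ i j, Bd (fun (_ : P2) (_ : Ω) => A i j) := fun i j => Bd.const _
  have hBm : ∀ i j, Bd (bm R' (B i j)) := fun i j => (hB i j).bm R'
  -- step 1
  have hq1 : Bd (fun a ω => qf A (psi Λ fun i => G i a ω)) := bd_qf hAc hψG
  have hq2 : Bd (fun a ω => qf (fun i j => bm R' (B i j) a ω) (psi Λ fun i => G i a ω)) :=
    bd_qf hBm hψG
  have hdiff : ∀ i j, Bd (fun a ω => |bm R' (B i j) a ω - A i j|) := fun i j =>
    ((hBm i j).sub (hAc i j)).abs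
  have step1 : Ex μ K0 (fun a ω => qf A (psi Λ fun i => G i a ω)) ≤
      Ex μ K0 (fun a ω => qf (fun i j => bm R' (B i j) a ω) (psi Λ fun i => G i a ω)) +
      (2 * Λ) ^ 2 * ∑ i, ∑ j, Ex μ K0 (fun a ω => |bm R' (B i j) a ω - A i j|) := by
    have hsum : Bd (fun a ω => ∑ i, ∑ j, |bm R' (B i j) a ω - A i j|) :=
      Bd.sum fun i _ => Bd.sum fun j _ => hdiff i j
    have e1 : ∑ i, ∑ j, Ex μ K0 (fun a ω => |bm R' (B i j) a ω - A i j|) =
        Ex μ K0 (fun a ω => ∑ i, ∑ j, |bm R' (B i j) a ω - A i j|) := by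
      rw [Ex_sum _ _ fun i _ => Bd.sum fun j _ => hdiff i j]
      refine Finset.sum_congr rfl fun i _ => ?_
      rw [Ex_sum _ _ fun j _ => hdiff i j]
    rw [e1, ← Ex_cmul, ← Ex_add hq2 (hsum.cmul _)]
    refine Ex_mono hq1 (hq2.add (hsum.cmul _)) fun a _ ω => ?_
    have := qf_sub_le' (B := fun i j => bm R' (B i j) a ω) (A := A) (x := psi Λ fun i => G i a ω)
      (c := 2 * Λ) (hpsi _)
    have h2 := (abs_le.mp this).1
    linarith
  -- step 2 : unfold the block mean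
  set f : Fld Ω := fun a ω => qf (fun i j => B i j a ω) (psi Λ fun i => G i a ω) with hf
  have hfB : Bd f := bd_qf hB hψG
  have hf0 : ∀ a ω, 0 ≤ f a ω := fun a ω => hB0 a ω _
  set D : ℕ × ℕ → Fld Ω := fun p a ω => |G 0 (a + pt p) ω - G 0 a ω| + |G 1 (a + pt p) ω - G 1 a ω|
    with hD
  have hDB : ∀ p, Bd (D p) := fun p => (((hG 0).tr _).sub (hG 0)).abs.add (((hG 1).tr _).sub (hG 1)).abs
  have step2 : Ex μ K0 (fun a ω => qf (fun i j => bm R' (B i j) a ω) (psi Λ fun i => G i a ω)) ≤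
      Ex μ K0 (bm R' f) + 48 * Λ' * Λ * (((R' * R' : ℕ) : ℝ)⁻¹ * ∑ p ∈ Flat296.sq R', Ex μ K0 (D p)) := by
    have hsum : Bd (fun a ω => ∑ p ∈ Flat296.sq R', D p a ω) := Bd.sum fun p _ => hDB p
    have e1 : ((R' * R' : ℕ) : ℝ)⁻¹ * ∑ p ∈ Flat296.sq R', Ex μ K0 (D p) =
        Ex μ K0 (fun a ω => ((R' * R' : ℕ) : ℝ)⁻¹ * ∑ p ∈ Flat296.sq R', D p a ω) := by
      rw [Ex_cmul, Ex_sum _ _ fun p _ => hDB p]
    rw [e1, ← Ex_cmul, ← Ex_add (hfB.bm R') ((hsum.cmul _).cmul _)]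
    refine Ex_mono hq2 ((hfB.bm R').add ((hsum.cmul _).cmul _)) fun a _ ω => ?_
    -- pointwise
    set y : Fin 2 → ℝ := psi Λ fun i => G i a ω with hy
    have e2 : qf (fun i j => bm R' (B i j) a ω) y =
        ((R' * R' : ℕ) : ℝ)⁻¹ * ∑ p ∈ Flat296.sq R', qf (fun i j => B i j (a + pt p) ω) y := by
      simp only [qf_eq, bm_apply]
      rw [Finset.sum_add_distrib, Finset.sum_add_distrib, Finset.sum_add_distrib]
      simp_rw [← Finset.sum_mul]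
      ring
    rw [e2, bm_apply]
    have e3 : 48 * Λ' * Λ * (((R' * R' : ℕ) : ℝ)⁻¹ * ∑ p ∈ Flat296.sq R', D p a ω) =
        ((R' * R' : ℕ) : ℝ)⁻¹ * ∑ p ∈ Flat296.sq R', (48 * Λ' * Λ * D p a ω) := by
      rw [← Finset.mul_sum]; ring
    rw [e3, ← mul_add, ← Finset.sum_add_distrib]
    refine mul_le_mul_of_nonneg_left (Finset.sum_le_sum fun p _ => ?_) (by positivity)
    have h1 := qf_sub_le (B := fun i j => B i j (a + pt p) ω) (b := Λ') (c := 2 * Λ)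
      (fun i j => hB' i j _ _) (x := y) (y := psi Λ fun i => G i (a + pt p) ω) (hpsi _) (hpsi _)
    have h2 : ∀ i, |y i - psi Λ (fun i => G i (a + pt p) ω) i| ≤ 3 * D p a ω := fun i => by
      rw [abs_sub_comm]
      exact psi_lip hΛ _ _ i
    have h3 := (abs_le.mp h1).2
    have h4 := h2 0
    have h5 := h2 1
    have h6 : 4 * Λ' * (2 * Λ) * (|y 0 - psi Λ (fun i => G i (a + pt p) ω) 0| +
        |y 1 - psi Λ (fun i => G i (a + pt p) ω) 1|) ≤ 4 * Λ' * (2 * Λ) * (3 * D p a ω + 3 * D p a ω) := by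
      exact mul_le_mul_of_nonneg_left (add_le_add h4 h5) (by positivity)
    have h7 : f (a + pt p) ω = qf (fun i j => B i j (a + pt p) ω) (psi Λ fun i => G i (a + pt p) ω) :=
      rfl
    rw [h7]
    linarith
  have step2b : ((R' * R' : ℕ) : ℝ)⁻¹ * ∑ p ∈ Flat296.sq R', Ex μ K0 (D p) ≤ s := by
    refine mean_le hR' fun p hp => ?_
    refine le_trans (le_of_eq ?_) (hs p hp)
    exact Ex_add (((hG 0).tr (pt p)).sub (hG 0)).abs (((hG 1).tr (pt p)).sub (hG 1)).abs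
  -- step 3
  have step3 : Ex μ K0 (bm R' f) ≤ Ex μ K f := Ex_bm_le hR' hK hfB hf0
  -- step 4
  have step4 : Ex μ K f ≤ Ex μ K (fun a ω => qf (fun i j => B i j a ω) (psi Λ fun i => ξ i a ω)) +
      48 * Λ' * Λ * t := by
    set Dξ : Fld Ω := fun a ω => |clp (4 * Λ) (G 0 a ω) - ξ 0 a ω| + |clp (4 * Λ) (G 1 a ω) - ξ 1 a ω|
      with hDξ
    have hDξB : Bd Dξ := ((bd_clp (hG 0) _).sub (hξ 0)).abs.add ((bd_clp (hG 1) _).sub (hξ 1)).abs
    have hqξ : Bd (fun a ω => qf (fun i j => B i j a ω) (psi Λ fun i => ξ i a ω)) := bd_qf hB hψξ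
    have h1 : Ex μ K f ≤ Ex μ K (fun a ω => qf (fun i j => B i j a ω) (psi Λ fun i => ξ i a ω)) +
        48 * Λ' * Λ * Ex μ K Dξ := by
      rw [← Ex_cmul, ← Ex_add hqξ (hDξB.cmul _)]
      refine Ex_mono hfB (hqξ.add (hDξB.cmul _)) fun a _ ω => ?_
      have g1 := qf_sub_le (B := fun i j => B i j a ω) (b := Λ') (c := 2 * Λ)
        (fun i j => hB' i j _ _) (x := psi Λ fun i => G i a ω) (y := psi Λ fun i => ξ i a ω)
        (hpsi _) (hpsi _)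
      have g2 : ∀ i, |psi Λ (fun i => G i a ω) i - psi Λ (fun i => ξ i a ω) i| ≤ 3 * Dξ a ω := by
        intro i
        rw [← psi_clp hΛ (by linarith : 2 * Λ ≤ 4 * Λ) (fun i => G i a ω)]
        exact psi_lip hΛ _ _ i
      have g3 := (abs_le.mp g1).2
      have g4 : 4 * Λ' * (2 * Λ) * (|psi Λ (fun i => G i a ω) 0 - psi Λ (fun i => ξ i a ω) 0| +
          |psi Λ (fun i => G i a ω) 1 - psi Λ (fun i => ξ i a ω) 1|) ≤
          4 * Λ' * (2 * Λ) * (3 * Dξ a ω + 3 * Dξ a ω) :=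
        mul_le_mul_of_nonneg_left (add_le_add (g2 0) (g2 1)) (by positivity)
      have g5 : f a ω = qf (fun i j => B i j a ω) (psi Λ fun i => G i a ω) := rfl
      rw [g5]
      linarith
    have h2 : Ex μ K Dξ ≤ t := by
      refine le_trans (le_of_eq ?_) ht
      exact Ex_add ((bd_clp (hG 0) _).sub (hξ 0)).abs ((bd_clp (hG 1) _).sub (hξ 1)).abs
    refine h1.trans ?_
    gcongr
  have step2c : 48 * Λ' * Λ * (((R' * R' : ℕ) : ℝ)⁻¹ * ∑ p ∈ Flat296.sq R', Ex μ K0 (D p)) ≤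
      48 * Λ' * Λ * s := mul_le_mul_of_nonneg_left step2b (by positivity)
  linarith

end Crest.Agent.R144.Upp296
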