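import Mathlib
import Crest.Agent.R144.Upp2_296

/-!
R144 / S0197, approach P, assembly of the upper bound, part 3 (helper296): duality with a slowly
varying flow.
-/

set_option autoImplicit false
set_option linter.unusedSectionVars false
set_option linter.unusedVariables false

open MeasureTheory Finset
open scoped ENNReal

namespace Crest.Agent.R144.Upp296

open Crest.Agent.R144.Flat296

variable {Ω : Type*} [MeasurableSpace Ω] {μ : Measure Ω} [IsFiniteMeasure μ]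

lemma Ex_congr {K : Finset P2} {f g : Fld Ω} (h : ∀ a ∈ K, ∀ ω, f a ω = g a ω) :
    Ex μ K f = Ex μ K g := by
  unfold Ex
  exact Finset.sum_congr rfl fun a ha => integral_congr_ae (Filter.Eventually.of_forall (h a ha))

lemma Ex_union {K K' : Finset P2} (h : K' ⊆ K) (f : Fld Ω) :
    Ex μ K f = Ex μ K' f + Ex μ (K \ K') f := by
  unfold Ex
  rw [add_comm, Finset.sum_sdiff h]

/-- shift of a deterministic weight -/
lemma Ex_shift {K' K'' : Finset P2} {p : P2} (h : ∀ x ∈ K', x - p ∈ K'') {v : Fld Ω}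
    (hv : ∀ a ∉ K', v a = 0) (c : P2 → ℝ) :
    Ex μ K'' (fun a ω => c a * v (a + p) ω) = Ex μ K' (fun x ω => c (x - p) * v x ω) := by
  classical
  unfold Ex
  have h1 : ∑ x ∈ K', ∫ ω, c (x - p) * v x ω ∂μ =
      ∑ a ∈ K'.image (· - p), ∫ ω, c a * v (a + p) ω ∂μ := by
    rw [Finset.sum_image (fun a _ b _ hab => sub_left_injective hab)]
    refine Finset.sum_congr rfl fun x _ => ?_
    rw [sub_add_cancel]
  rw [h1]
  symm
  refine Finset.sum_subset ?_ ?_
  · intro a ha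
    rw [Finset.mem_image] at ha
    obtain ⟨x, hx, rfl⟩ := ha
    exact h x hx
  · intro a _ ha
    have : a + p ∉ K' := fun hc => ha (by
      rw [Finset.mem_image]
      exact ⟨a + p, hc, by simp⟩)
    rw [hv _ this]
    simp

lemma Ex_abs_le (K : Finset P2) {f : Fld Ω} (hf : Bd f) :
    |Ex μ K f| ≤ Ex μ K (fun a ω => |f a ω|) := by
  unfold Ex
  refine (Finset.abs_sum_le_sum_abs _ _).trans (Finset.sum_le_sum fun a _ => ?_)
  exact abs_integral_le_integral_abs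

/-- summation by parts against the block mean -/
lemma Ex_mul_bm {K' K'' : Finset P2} {R : ℕ} (hR : 0 < R)
    (h : ∀ x ∈ K', ∀ p ∈ Flat296.sq R, x - pt p ∈ K'') {v : Fld Ω} (hvB : Bd v)
    (hv : ∀ a ∉ K', v a = 0) {c : P2 → ℝ} {wj : ℝ}
    (hc : ∀ x ∈ K', ∀ p ∈ Flat296.sq R, |c x - c (x - pt p)| ≤ wj) :
    Ex μ K' (fun x ω => c x * v x ω) ≤ Ex μ K'' (fun a ω => c a * bm R v a ω) +
      wj * Ex μ K' (fun x ω => |v x ω|) := by
  have hcB : ∀ (K : Finset P2) (c' : P2 → ℝ) (w : Fld Ω), Bd w →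
      ∀ a ∈ K, Integrable (fun ω => c' a * w a ω) μ := fun K c' w hw a _ =>
    (hw.integrable μ a).const_mul _
  -- the block-mean side
  have e1 : Ex μ K'' (fun a ω => c a * bm R v a ω) =
      ((R * R : ℕ) : ℝ)⁻¹ * ∑ p ∈ Flat296.sq R, Ex μ K' (fun x ω => c (x - pt p) * v x ω) := by
    have e2 : ∀ a ω, c a * bm R v a ω =
        ((R * R : ℕ) : ℝ)⁻¹ * ∑ p ∈ Flat296.sq R, c a * v (a + pt p) ω := by
      intro a ω
      rw [bm_apply, ← Finset.mul_sum]; ring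
    rw [Ex_congr (g := fun a ω => ((R * R : ℕ) : ℝ)⁻¹ * ∑ p ∈ Flat296.sq R, c a * v (a + pt p) ω)
      fun a _ ω => e2 a ω, Ex_cmul]
    congr 1
    have e3 : Ex μ K'' (fun a ω => ∑ p ∈ Flat296.sq R, c a * v (a + pt p) ω) =
        ∑ p ∈ Flat296.sq R, Ex μ K'' (fun a ω => c a * v (a + pt p) ω) := by
      unfold Ex
      rw [Finset.sum_comm]
      refine Finset.sum_congr rfl fun a _ => integral_finsetSum _ fun p _ => ?_
      exact ((hvB.tr (pt p)).integrable μ a).const_mul _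
    rw [e3]
    exact Finset.sum_congr rfl fun p hp => Ex_shift (fun x hx => h x hx p hp) hv c
  rw [e1]
  have e4 : Ex μ K' (fun x ω => c x * v x ω) =
      ((R * R : ℕ) : ℝ)⁻¹ * ∑ p ∈ Flat296.sq R, Ex μ K' (fun x ω => c x * v x ω) :=
    (mean_const hR _).symm
  rw [e4]
  have e5 : wj * Ex μ K' (fun x ω => |v x ω|) =
      ((R * R : ℕ) : ℝ)⁻¹ * ∑ p ∈ Flat296.sq R, wj * Ex μ K' (fun x ω => |v x ω|) :=
    (mean_const hR _).symm
  rw [e5, ← mul_add, ← Finset.sum_add_distrib]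
  refine mul_le_mul_of_nonneg_left (Finset.sum_le_sum fun p hp => ?_) (by positivity)
  unfold Ex
  rw [Finset.mul_sum, ← Finset.sum_add_distrib]
  refine Finset.sum_le_sum fun x hx => ?_
  rw [← integral_const_mul, ← integral_add ((hvB.integrable μ x).const_mul _)
    ((hvB.abs.integrable μ x).const_mul _)]
  refine integral_mono ((hvB.integrable μ x).const_mul _)
    (((hvB.integrable μ x).const_mul _).add ((hvB.abs.integrable μ x).const_mul _)) fun ω => ?_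
  have h1 : (c x - c (x - pt p)) * v x ω ≤ wj * |v x ω| := by
    refine (le_abs_self _).trans ?_
    rw [abs_mul]
    exact mul_le_mul_of_nonneg_right (hc x hx p hp) (abs_nonneg _)
  show c x * v x ω ≤ c (x - pt p) * v x ω + wj * |v x ω|
  linarith

/-- block means far from `K1` only see the layer -/
lemma Ex_bm_layer {K' K'' K0 K1 : Finset P2} {R : ℕ} (hR : 0 < R)
    (h1 : ∀ x ∈ K1, ∀ p ∈ Flat296.sq R, x - pt p ∈ K0) {v : Fld Ω} (hvB : Bd v)
    (hv : ∀ a ∉ K', v a = 0) :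
    Ex μ (K'' \ K0) (fun a ω => |bm R v a ω|) ≤ Ex μ (K' \ K1) (fun x ω => |v x ω|) := by
  classical
  have hm : ∀ a ω, |bm R v a ω| ≤ bm R (fun a ω => |v a ω|) a ω := by
    intro a ω
    rw [bm_apply, bm_apply, abs_mul, abs_of_nonneg (by positivity : (0:ℝ) ≤ ((R * R : ℕ) : ℝ)⁻¹)]
    exact mul_le_mul_of_nonneg_left (Finset.abs_sum_le_sum_abs _ _) (by positivity)
  refine (Ex_mono (hvB.bm R).abs (hvB.abs.bm R) fun a _ ω => hm a ω).trans ?_
  rw [Ex_bm _ R hvB.abs]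
  refine mean_le hR fun p hp => ?_
  unfold Ex
  have e1 : ∑ a ∈ K'' \ K0, ∫ ω, tr (pt p) (fun a ω => |v a ω|) a ω ∂μ =
      ∑ x ∈ (K'' \ K0).image (· + pt p), ∫ ω, |v x ω| ∂μ := by
    rw [Finset.sum_image (fun a _ b _ hab => add_right_cancel hab)]
    rfl
  rw [e1]
  have e2 : ∑ x ∈ (K'' \ K0).image (· + pt p), ∫ ω, |v x ω| ∂μ =
      ∑ x ∈ ((K'' \ K0).image (· + pt p)) ∩ (K' \ K1), ∫ ω, |v x ω| ∂μ := by
    symm
    refine Finset.sum_subset Finset.inter_subset_left fun x hx hx' => ?_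
    rw [Finset.mem_image] at hx
    obtain ⟨a, ha, rfl⟩ := hx
    have hxK1 : a + pt p ∉ K1 := fun hc => by
      have := h1 _ hc p hp
      rw [add_sub_cancel_right] at this
      exact (Finset.mem_sdiff.mp ha).2 this
    have hxK' : a + pt p ∉ K' := fun hc => hx' (by
      rw [Finset.mem_inter, Finset.mem_sdiff]
      exact ⟨Finset.mem_image.mpr ⟨a, ha, rfl⟩, hc, hxK1⟩)
    rw [hv _ hxK']
    simp
  rw [e2]
  exact Finset.sum_le_sum_of_subset_of_nonneg Finset.inter_subset_right fun x _ _ =>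
    integral_nonneg fun ω => abs_nonneg _

/-- excess over a level of the block mean -/
lemma Ex_bm_excess {K' K'' : Finset P2} {R : ℕ} (hR : 0 < R) {v : Fld Ω} (hvB : Bd v)
    (hv : ∀ a ∉ K', v a = 0) {c : ℝ} (hc : 0 ≤ c) :
    Ex μ K'' (fun a ω => max 0 (|bm R v a ω| - c)) ≤ Ex μ K' (fun x ω => max 0 (|v x ω| - c)) := by
  classical
  set f : Fld Ω := fun a ω => max 0 (|v a ω| - c) with hf
  have hfB : Bd f := (Bd.const 0).max (hvB.abs.sub (Bd.const c))
  have hm : ∀ a ω, max 0 (|bm R v a ω| - c) ≤ bm R f a ω := by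
    intro a ω
    rw [bm_apply, bm_apply]
    have h0 : 0 ≤ ((R * R : ℕ) : ℝ)⁻¹ * ∑ p ∈ Flat296.sq R, f (a + pt p) ω :=
      mul_nonneg (by positivity) (Finset.sum_nonneg fun p _ => le_max_left _ _)
    refine max_le h0 ?_
    rw [abs_mul, abs_of_nonneg (by positivity : (0:ℝ) ≤ ((R * R : ℕ) : ℝ)⁻¹)]
    have h1 : c = ((R * R : ℕ) : ℝ)⁻¹ * ∑ _p ∈ Flat296.sq R, c := (mean_const hR c).symm
    have h2 : ((R * R : ℕ) : ℝ)⁻¹ * |∑ p ∈ Flat296.sq R, v (a + pt p) ω| ≤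
        ((R * R : ℕ) : ℝ)⁻¹ * ∑ p ∈ Flat296.sq R, |v (a + pt p) ω| :=
      mul_le_mul_of_nonneg_left (Finset.abs_sum_le_sum_abs _ _) (by positivity)
    have h3 : ((R * R : ℕ) : ℝ)⁻¹ * ∑ p ∈ Flat296.sq R, |v (a + pt p) ω| ≤
        ((R * R : ℕ) : ℝ)⁻¹ * ∑ p ∈ Flat296.sq R, (f (a + pt p) ω + c) := by
      refine mul_le_mul_of_nonneg_left (Finset.sum_le_sum fun p _ => ?_) (by positivity)
      have := le_max_right 0 (|v (a + pt p) ω| - c)
      show |v (a + pt p) ω| ≤ max 0 (|v (a + pt p) ω| - c) + c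
      linarith
    rw [Finset.sum_add_distrib, mul_add, ← h1] at h3
    linarith
  have hbB : Bd (fun a ω => max 0 (|bm R v a ω| - c)) :=
    (Bd.const 0).max ((hvB.bm R).abs.sub (Bd.const c))
  refine (Ex_mono hbB (hfB.bm R) fun a _ ω => hm a ω).trans ?_
  rw [Ex_bm _ R hfB]
  refine mean_le hR fun p hp => ?_
  -- shift and drop the sites outside `K'`
  unfold Ex
  have e1 : ∑ a ∈ K'', ∫ ω, tr (pt p) f a ω ∂μ = ∑ x ∈ K''.image (· + pt p), ∫ ω, f x ω ∂μ := by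
    rw [Finset.sum_image (fun a _ b _ hab => add_right_cancel hab)]
    rfl
  rw [e1]
  have e2 : ∑ x ∈ K''.image (· + pt p), ∫ ω, f x ω ∂μ =
      ∑ x ∈ (K''.image (· + pt p)) ∩ K', ∫ ω, f x ω ∂μ := by
    symm
    refine Finset.sum_subset Finset.inter_subset_left fun x hx hx' => ?_
    have hxK' : x ∉ K' := fun hc' => hx' (Finset.mem_inter.mpr ⟨hx, hc'⟩)
    have : ∀ ω, f x ω = 0 := fun ω => by
      show max 0 (|v x ω| - c) = 0
      rw [hv _ hxK']
      simp [hc]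
    simp [this]
  rw [e2]
  exact Finset.sum_le_sum_of_subset_of_nonneg Finset.inter_subset_right fun x _ _ =>
    integral_nonneg fun ω => le_max_left _ _

/-- **duality step**: from the variational upper bound with the energy `e` and the energy lower
bound in terms of the cut-off slopes, the variance is at most the dual energy of the flow. -/
theorem duality {K' K'' K0 K1 Kx : Finset P2} {R : ℕ} (hR : 0 < R) {u : Fld Ω} (hu : Bd u)
    (h01 : K1 ⊆ K') (hKx : K' ⊆ Kx) (h0'' : K0 ⊆ K'')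
    (hK1 : ∀ x ∈ K1, ∀ p ∈ Flat296.sq R, x - pt p ∈ K0)
    (hK'' : ∀ x ∈ K', ∀ p ∈ Flat296.sq R, x - pt p ∈ K'')
    {j : Fin 2 → P2 → ℝ} {Cj wj : ℝ} (hCj : 0 ≤ Cj) (hj : ∀ i x, |j i x| ≤ Cj)
    (hwj : 0 ≤ wj) (hjs : ∀ i, ∀ x ∈ K', ∀ p ∈ Flat296.sq R, |j i x - j i (x - pt p)| ≤ wj)
    {A : Fin 2 → Fin 2 → ℝ} {α δ V e ε0 ε1 ε2 S T Λ : ℝ} (hΛ : 0 < Λ) (hα : 0 ≤ α)
    {d : Fin 2 → P2} (qs : P2 → ℝ)
    (hV : V ≤ 2 * (δ ^ 2 * ∑ i, Ex μ Kx (fun x ω => j i x * dd (d i) u x ω)) - e + ε0)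
    (hlay : δ ^ 2 * ∑ i, Ex μ (Kx \ K1) (fun x ω => |dd (d i) u x ω|) ≤ ε1)
    (hS : δ ^ 2 * ∑ i, Ex μ K' (fun x ω => |dd (d i) u x ω|) ≤ S)
    (hT : δ ^ 2 * ∑ i, Ex μ K' (fun x ω => max 0 (|dd (d i) u x ω| - Λ / 2)) ≤ T)
    (hE : α * (δ ^ 2 * Ex μ K0 (fun a ω => qf A (psi Λ fun i => bm R (rst K' (dd (d i) u)) a ω)) - ε2)
      ≤ e)
    (hdual : ∀ a ∈ K0, ∀ y : Fin 2 → ℝ, 2 * ∑ i, j i a * y i - α * qf A y ≤ qs a) [IsProbabilityMeasure μ] :
    V ≤ δ ^ 2 * ∑ a ∈ K0, qs a + ε0 + α * ε2 + 4 * Cj * ε1 + 2 * wj * S + 8 * Cj * T := by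
  set v : Fin 2 → Fld Ω := fun i => rst K' (dd (d i) u) with hv
  have hvB : ∀ i, Bd (v i) := fun i => (hu.dd _).rst _
  have hv0 : ∀ i, ∀ a ∉ K', v i a = 0 := fun i a ha => rst_notMem ha _
  have hve : ∀ i, ∀ a ∈ K', ∀ ω, v i a ω = dd (d i) u a ω := fun i a ha ω => by
    rw [hv]; simp only; rw [rst_mem ha]
  set G : Fin 2 → Fld Ω := fun i => bm R (v i) with hG
  have hGB : ∀ i, Bd (G i) := fun i => (hvB i).bm R
  have hδ : 0 ≤ δ ^ 2 := sq_nonneg _
  have hjB : ∀ i (w : Fld Ω), Bd w → Bd (fun a ω => j i a * w a ω) := by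
    intro i w hw
    obtain ⟨C, hC⟩ := hw.bd
    refine ⟨fun a => (hw.mb a).const_mul _, Cj * |C|, fun a ω => ?_⟩
    rw [abs_mul]
    exact mul_le_mul (hj i a) ((hC a ω).trans (le_abs_self _)) (abs_nonneg _) hCj
  -- step 1 : drop the layer
  have s1 : ∀ i, Ex μ Kx (fun x ω => j i x * dd (d i) u x ω) ≤
      Ex μ K' (fun x ω => j i x * v i x ω) + Cj * Ex μ (Kx \ K1) (fun x ω => |dd (d i) u x ω|) := by
    intro i
    rw [Ex_union hKx]
    have e1 : Ex μ K' (fun x ω => j i x * dd (d i) u x ω) = Ex μ K' (fun x ω => j i x * v i x ω) :=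
      Ex_congr fun a ha ω => by rw [hve i a ha ω]
    rw [e1]
    have h2 : Ex μ (Kx \ K') (fun x ω => j i x * dd (d i) u x ω) ≤
        Cj * Ex μ (Kx \ K') (fun x ω => |dd (d i) u x ω|) := by
      rw [← Ex_cmul]
      refine Ex_mono (hjB i _ (hu.dd _)) ((hu.dd _).abs.cmul _) fun a _ ω => ?_
      refine (le_abs_self _).trans ?_
      rw [abs_mul]
      exact mul_le_mul_of_nonneg_right (hj i a) (abs_nonneg _)
    have h3 : Ex μ (Kx \ K') (fun x ω => |dd (d i) u x ω|) ≤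
        Ex μ (Kx \ K1) (fun x ω => |dd (d i) u x ω|) :=
      Ex_subset (fun a _ ω => abs_nonneg _) (Finset.sdiff_subset_sdiff (le_refl _) h01)
    have h4 := mul_le_mul_of_nonneg_left h3 hCj
    linarith
  -- step 2 : pass to block means
  have s2 : ∀ i, Ex μ K' (fun x ω => j i x * v i x ω) ≤ Ex μ K'' (fun a ω => j i a * G i a ω) +
      wj * Ex μ K' (fun x ω => |dd (d i) u x ω|) := by
    intro i
    have := Ex_mul_bm (μ := μ) hR hK'' (hvB i) (hv0 i) (c := j i) (wj := wj) (hjs i)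
    refine this.trans (le_of_eq ?_)
    congr 2
    exact Ex_congr fun a ha ω => by rw [hve i a ha ω]
  -- step 3 : drop the far block means
  have s3 : ∀ i, Ex μ K'' (fun a ω => j i a * G i a ω) ≤ Ex μ K0 (fun a ω => j i a * G i a ω) +
      Cj * Ex μ (Kx \ K1) (fun x ω => |dd (d i) u x ω|) := by
    intro i
    rw [Ex_union h0'']
    have h2 : Ex μ (K'' \ K0) (fun a ω => j i a * G i a ω) ≤
        Cj * Ex μ (K'' \ K0) (fun a ω => |G i a ω|) := by
      rw [← Ex_cmul]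
      refine Ex_mono (hjB i _ (hGB i)) ((hGB i).abs.cmul _) fun a _ ω => ?_
      refine (le_abs_self _).trans ?_
      rw [abs_mul]
      exact mul_le_mul_of_nonneg_right (hj i a) (abs_nonneg _)
    have h3 : Ex μ (K'' \ K0) (fun a ω => |G i a ω|) ≤ Ex μ (K' \ K1) (fun x ω => |v i x ω|) :=
      Ex_bm_layer hR hK1 (hvB i) (hv0 i)
    have h4 : Ex μ (K' \ K1) (fun x ω => |v i x ω|) = Ex μ (K' \ K1) (fun x ω => |dd (d i) u x ω|) :=
      Ex_congr fun a ha ω => by rw [hve i a (Finset.mem_sdiff.mp ha).1 ω]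
    have h5 : Ex μ (K' \ K1) (fun x ω => |dd (d i) u x ω|) ≤
        Ex μ (Kx \ K1) (fun x ω => |dd (d i) u x ω|) :=
      Ex_subset (fun a _ ω => abs_nonneg _) (Finset.sdiff_subset_sdiff hKx (le_refl _))
    have h6 := mul_le_mul_of_nonneg_left (h3.trans (h4.le.trans h5)) hCj
    linarith
  -- step 4 : cut-off slopes
  have s4 : ∀ i, Ex μ K0 (fun a ω => j i a * G i a ω) ≤
      Ex μ K0 (fun a ω => j i a * psi Λ (fun k => G k a ω) i) +
      2 * Cj * ∑ k, Ex μ K' (fun x ω => max 0 (|dd (d k) u x ω| - Λ / 2)) := by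
    intro i
    have hpB : Bd (fun a ω => psi Λ (fun k => G k a ω) i) := bd_psi hGB Λ i
    have hxB : ∀ k, Bd (fun a ω => max 0 (|G k a ω| - Λ / 2)) := fun k =>
      (Bd.const 0).max ((hGB k).abs.sub (Bd.const _))
    have h2 : Ex μ K0 (fun a ω => j i a * G i a ω) ≤
        Ex μ K0 (fun a ω => j i a * psi Λ (fun k => G k a ω) i) +
        2 * Cj * Ex μ K0 (fun a ω => max 0 (|G 0 a ω| - Λ / 2) + max 0 (|G 1 a ω| - Λ / 2)) := by
      rw [← Ex_cmul, ← Ex_add (hjB i _ hpB) (((hxB 0).add (hxB 1)).cmul _)]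
      refine Ex_mono (hjB i _ (hGB i)) ((hjB i _ hpB).add (((hxB 0).add (hxB 1)).cmul _))
        fun a _ ω => ?_
      have h3 := abs_sub_psi_le hΛ (fun k => G k a ω) i
      have h4 : j i a * (G i a ω - psi Λ (fun k => G k a ω) i) ≤
          Cj * (2 * (max 0 (|G 0 a ω| - Λ / 2) + max 0 (|G 1 a ω| - Λ / 2))) := by
        refine (le_abs_self _).trans ?_
        rw [abs_mul]
        exact mul_le_mul (hj i a) h3 (abs_nonneg _) hCj
      linarith
    have h5 : Ex μ K0 (fun a ω => max 0 (|G 0 a ω| - Λ / 2) + max 0 (|G 1 a ω| - Λ / 2)) ≤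
        ∑ k, Ex μ K' (fun x ω => max 0 (|dd (d k) u x ω| - Λ / 2)) := by
      rw [Ex_add (hxB 0) (hxB 1), Fin.sum_univ_two]
      have h6 : ∀ k, Ex μ K0 (fun a ω => max 0 (|G k a ω| - Λ / 2)) ≤
          Ex μ K' (fun x ω => max 0 (|dd (d k) u x ω| - Λ / 2)) := by
        intro k
        refine (Ex_bm_excess hR (hvB k) (hv0 k) (by positivity)).trans (le_of_eq ?_)
        exact Ex_congr fun a ha ω => by rw [hve k a ha ω]
      exact add_le_add (h6 0) (h6 1)
    have h7 := mul_le_mul_of_nonneg_left h5 (by positivity : (0:ℝ) ≤ 2 * Cj)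
    linarith
  -- step 5 : pointwise duality
  have hpB : ∀ i, Bd (fun a ω => psi Λ (fun k => G k a ω) i) := fun i => bd_psi hGB Λ i
  have hqB : Bd (fun a ω => qf A (psi Λ fun i => G i a ω)) := bd_qf (fun i j => Bd.const _) hpB
  have s5 : 2 * ∑ i, Ex μ K0 (fun a ω => j i a * psi Λ (fun k => G k a ω) i) -
      α * Ex μ K0 (fun a ω => qf A (psi Λ fun i => G i a ω)) ≤ ∑ a ∈ K0, qs a := by
    rw [← Ex_sum _ _ fun i _ => hjB i _ (hpB i), ← Ex_cmul, ← Ex_cmul,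
      ← Ex_sub ((Bd.sum fun i _ => hjB i _ (hpB i)).cmul _) (hqB.cmul _)]
    unfold Ex
    refine Finset.sum_le_sum fun a ha => ?_
    have h1 : ∫ ω, (2 * ∑ i, j i a * psi Λ (fun k => G k a ω) i -
        α * qf A (psi Λ fun i => G i a ω)) ∂μ ≤ ∫ _ω, qs a ∂μ := by
      refine integral_mono ?_ (integrable_const _) fun ω => hdual a ha _
      exact (((Bd.sum fun i _ => hjB i _ (hpB i)).cmul _).sub (hqB.cmul _)).integrable μ a
    refine h1.trans (le_of_eq ?_)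
    simp
  -- collect
  have t1 : ∑ i, Ex μ Kx (fun x ω => j i x * dd (d i) u x ω) ≤
      ∑ i, Ex μ K0 (fun a ω => j i a * psi Λ (fun k => G k a ω) i) +
      2 * Cj * ∑ i, Ex μ (Kx \ K1) (fun x ω => |dd (d i) u x ω|) +
      wj * ∑ i, Ex μ K' (fun x ω => |dd (d i) u x ω|) +
      4 * Cj * ∑ k, Ex μ K' (fun x ω => max 0 (|dd (d k) u x ω| - Λ / 2)) := by
    have h0 := (((s1 0).trans (add_le_add (s2 0) le_rfl)).trans
      (add_le_add (add_le_add (s3 0) le_rfl) le_rfl))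
    have h1 := (((s1 1).trans (add_le_add (s2 1) le_rfl)).trans
      (add_le_add (add_le_add (s3 1) le_rfl) le_rfl))
    have g0 := s4 0
    have g1 := s4 1
    simp only [Fin.sum_univ_two] at *
    linarith
  have t2 := mul_le_mul_of_nonneg_left t1 hδ
  have t3 := mul_le_mul_of_nonneg_left s5 hδ
  have l1 := mul_le_mul_of_nonneg_left hlay (by positivity : (0:ℝ) ≤ 4 * Cj)
  have l2 := mul_le_mul_of_nonneg_left hS (by positivity : (0:ℝ) ≤ 2 * wj)
  have l3 := mul_le_mul_of_nonneg_left hT (by positivity : (0:ℝ) ≤ 8 * Cj)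
  have hE' : α * (δ ^ 2 * Ex μ K0 (fun a ω => qf A (psi Λ fun i => G i a ω))) - α * ε2 ≤ e := by
    have := hE
    rw [mul_sub] at this
    exact this
  nlinarith [t2, t3, l1, l2, l3, hE', hV]

end Crest.Agent.R144.Upp296
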