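import Mathlib
import Crest.Agent.R144.Upp3_296

/-!
R144 / S0197, approach P, assembly of the upper bound, part 4 (helper296): real-valued form of the
flatness theorem and of the almost-invariance of block means.
-/

set_option autoImplicit false
set_option linter.unusedSectionVars false
set_option linter.unusedVariables false

open MeasureTheory Finset
open scoped ENNReal

namespace Crest.Agent.R144.Upp296

open Crest.Agent.R144.Flat296

variable {Ω : Type*} [MeasurableSpace Ω] {μ : Measure Ω}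

lemma Bd.tc {f : Fld Ω} (hf : Bd f) (Λ : ℝ) : Bd (Flat296.tc Λ f) :=
  (Bd.const (-Λ)).max (hf.min (Bd.const Λ))

lemma Bd.sub' {f g : Fld Ω} (hf : Bd f) (hg : Bd g) : Bd (f - g) := hf.sub hg

lemma abs_sub_tc_le {Λ : ℝ} (hΛ : 0 ≤ Λ) (f : Fld Ω) (a : P2) (ω : Ω) :
    |f a ω - tc Λ f a ω| ≤ max 0 (|f a ω| - Λ) := by
  show |f a ω - max (-Λ) (min (f a ω) Λ)| ≤ _
  rcases le_total (f a ω) Λ with h | h
  · rw [min_eq_left h]
    rcases le_total (-Λ) (f a ω) with h' | h'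
    · rw [max_eq_right h']; simp
    · rw [max_eq_left h', abs_of_nonpos (by linarith), abs_of_nonpos (by linarith : f a ω ≤ 0)]
      refine le_max_of_le_right (by linarith)
  · rw [min_eq_right h, max_eq_right (by linarith), abs_of_nonneg (by linarith),
      abs_of_nonneg (by linarith : 0 ≤ f a ω)]
    exact le_max_right _ _

lemma ofReal_two_mul_nat {κ : ℝ} (hκ : 0 ≤ κ) (n : ℕ) :
    (2 : ℝ≥0∞) * (ENNReal.ofReal κ * (n : ℝ≥0∞)) = ENNReal.ofReal (2 * (κ * n)) := by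
  have h2 : (2 : ℝ≥0∞) = ENNReal.ofReal 2 := by norm_num
  have hn : (n : ℝ≥0∞) = ENNReal.ofReal (n : ℝ) := (ENNReal.ofReal_natCast n).symm
  rw [h2, hn, ← ENNReal.ofReal_mul hκ, ← ENNReal.ofReal_mul (by norm_num)]

lemma ofReal_collect {a1 a2 a3 a4 a5 a6 : ℝ} (h1 : 0 ≤ a1) (h2 : 0 ≤ a2) (h3 : 0 ≤ a3)
    (h4 : 0 ≤ a4) (h5 : 0 ≤ a5) (h6 : 0 ≤ a6) (n : ℕ) :
    2 * (ENNReal.ofReal a1 + (n : ℝ≥0∞) * (ENNReal.ofReal a2 + ENNReal.ofReal a3 +
      ENNReal.ofReal a4 + ENNReal.ofReal a5) + (n : ℝ≥0∞) * ENNReal.ofReal a6) =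
    ENNReal.ofReal (2 * (a1 + n * (a2 + a3 + a4 + a5) + n * a6)) := by
  have h2' : (2 : ℝ≥0∞) = ENNReal.ofReal 2 := by norm_num
  have hn : (n : ℝ≥0∞) = ENNReal.ofReal (n : ℝ) := (ENNReal.ofReal_natCast n).symm
  rw [h2', hn, ← ENNReal.ofReal_add h2 h3, ← ENNReal.ofReal_add (by positivity) h4,
    ← ENNReal.ofReal_add (by positivity) h5, ← ENNReal.ofReal_mul (by positivity),
    ← ENNReal.ofReal_mul (by positivity), ← ENNReal.ofReal_add h1 (by positivity),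
    ← ENNReal.ofReal_add (by positivity) (by positivity), ← ENNReal.ofReal_mul (by norm_num)]

section

variable [IsProbabilityMeasure μ]

lemma N_rst_dd {u : Fld Ω} (hu : Bd u) (K : Finset P2) (z : P2) :
    N μ (fun _ => 1) (rst K (dd z u)) = ENNReal.ofReal (Ex μ K fun a ω => |dd z u a ω|) :=
  N_rst_eq (hu.dd z)

lemma N_rst_tc_le {u : Fld Ω} (hu : Bd u) (K : Finset P2) (z : P2) {Λ : ℝ} (hΛ : 0 ≤ Λ) :
    N μ (fun _ => 1) (rst K (dd z u) - tc Λ (rst K (dd z u))) ≤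
      ENNReal.ofReal (Ex μ K fun a ω => max 0 (|dd z u a ω| - Λ)) := by
  have e : rst K (dd z u) - tc Λ (rst K (dd z u)) = rst K (rst K (dd z u) - tc Λ (rst K (dd z u))) := by
    ext a ω
    by_cases ha : a ∈ K
    · rw [rst_mem ha (rst K (dd z u) - tc Λ (rst K (dd z u)))]
    · rw [rst_notMem ha]
      have h1 : rst K (dd z u) a = 0 := rst_notMem ha _
      have h2 : tc Λ (rst K (dd z u)) a = 0 := tc_eq_zero hΛ h1
      show rst K (dd z u) a ω - tc Λ (rst K (dd z u)) a ω = 0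
      rw [h1, h2]; simp
  have hb : Bd (rst K (dd z u) - tc Λ (rst K (dd z u))) := ((hu.dd z).rst K).sub' (((hu.dd z).rst K).tc Λ)
  rw [e, N_rst_eq hb]
  refine ENNReal.ofReal_le_ofReal (Ex_mono hb.abs ((Bd.const 0).max ((hu.dd z).abs.sub (Bd.const _)))
    fun a ha ω => ?_)
  have h1 : rst K (dd z u) a = dd z u a := rst_mem ha _
  have h2 := abs_sub_tc_le hΛ (rst K (dd z u)) a ω
  rw [h1] at h2
  have h3 : (rst K (dd z u) - tc Λ (rst K (dd z u))) a ω = dd z u a ω - tc Λ (rst K (dd z u)) a ω := by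
    show rst K (dd z u) a ω - _ = _
    rw [h1]
  rw [h3]
  exact h2

/-- real-valued form of Step F -/
theorem flat_real {u : Fld Ω} (hu : Bd u) {K K' K'' : Finset P2} {L J : ℕ}
    {ρ m l r : ℕ → ℕ} (hρ0 : 0 < ρ 0) (hl : ∀ j, 0 < l j) (hlm : ∀ j, l j ≤ m j)
    (hρm : ∀ j, ρ (j + 1) = ρ j * m j) (hJ : 0 < J) (hr : ∀ j, 0 < r j)
    (hL : ∀ j < J, r j + ρ j ≤ L)
    (hK : ∀ a ∈ K, ∀ p : ℕ × ℕ, p.1 < L → p.2 < L → a + pt p ∈ K')
    (hK'' : ∀ a ∈ K', ∀ j < J, ∀ p ∈ Flat296.sq (ρ (j + 1)), a - pt p ∈ K'')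
    {κ Λ S T δ W : ℝ} (hκ : 0 < κ) (hΛ : 0 ≤ Λ)
    (hS : δ ^ 2 * ∑ i : Fin 2, Ex μ K' (fun x ω => |dd (![(1, 0), (0, 1)] i) u x ω|) ≤ S)
    (hT : δ ^ 2 * ∑ i : Fin 2, Ex μ K' (fun x ω => max 0 (|dd (![(1, 0), (0, 1)] i) u x ω| - Λ)) ≤ T)
    (hW : δ ^ 2 * K''.card ≤ W) :
    ∃ j < J, ∀ p ∈ Flat296.sq (r j),
      δ ^ 2 * Ex μ K (fun a ω => |cdev (r j) u (bm (ρ (j + 1)) (rst K' (dd (1, 0) u)))
        (bm (ρ (j + 1)) (rst K' (dd (0, 1) u))) p a ω|) ≤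
      2 * (ρ j * S + r j * (2 * (κ * W) + κ⁻¹ * (((m j : ℝ) * m j) / ((l j : ℝ) * l j) *
        (Λ * S / J)) + 4 * (l j : ℝ) / m j * S + 2 * T) + r j * (4 * (r j : ℝ) / ρ (j + 1) * S)) := by
  obtain ⟨j, hj, hp⟩ := flat (μ := μ) hu.mb hρ0 hl hlm hρm hJ hr hL hK hK'' hκ hΛ
  refine ⟨j, hj, fun p hpr => ?_⟩
  have h0 := hp p hpr
  have hm : ∀ j, 0 < m j := fun j => lt_of_lt_of_le (hl j) (hlm j)
  have hρ : ∀ j, 0 < ρ j := by
    intro j
    induction j with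
    | zero => exact hρ0
    | succ j ih => rw [hρm j]; exact Nat.mul_pos ih (hm j)
  set s1 := Ex μ K' (fun x ω => |dd (1, 0) u x ω|) with hs1
  set s2 := Ex μ K' (fun x ω => |dd (0, 1) u x ω|) with hs2
  set t1 := Ex μ K' (fun x ω => max 0 (|dd (1, 0) u x ω| - Λ)) with ht1
  set t2 := Ex μ K' (fun x ω => max 0 (|dd (0, 1) u x ω| - Λ)) with ht2
  have hs1n : 0 ≤ s1 := Ex_nonneg fun a _ ω => abs_nonneg _
  have hs2n : 0 ≤ s2 := Ex_nonneg fun a _ ω => abs_nonneg _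
  have ht1n : 0 ≤ t1 := Ex_nonneg fun a _ ω => le_max_left _ _
  have ht2n : 0 ≤ t2 := Ex_nonneg fun a _ ω => le_max_left _ _
  have hS' : δ ^ 2 * (s1 + s2) ≤ S := by
    simpa [Fin.sum_univ_two] using hS
  have hT' : δ ^ 2 * (t1 + t2) ≤ T := by
    simpa [Fin.sum_univ_two] using hT
  set s := s1 + s2 with hs
  set t := t1 + t2 with ht
  have hsn : 0 ≤ s := add_nonneg hs1n hs2n
  have htn : 0 ≤ t := add_nonneg ht1n ht2n
  have hN : N μ (fun _ => 1) (rst K' (dd (1, 0) u)) + N μ (fun _ => 1) (rst K' (dd (0, 1) u)) =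
      ENNReal.ofReal s := by
    rw [N_rst_dd hu, N_rst_dd hu, ← ENNReal.ofReal_add hs1n hs2n]
  have hNt : N μ (fun _ => 1) (rst K' (dd (1, 0) u) - tc Λ (rst K' (dd (1, 0) u))) +
      N μ (fun _ => 1) (rst K' (dd (0, 1) u) - tc Λ (rst K' (dd (0, 1) u))) ≤ ENNReal.ofReal t := by
    rw [ht, ENNReal.ofReal_add ht1n ht2n]
    exact add_le_add (N_rst_tc_le hu K' _ hΛ) (N_rst_tc_le hu K' _ hΛ)
  set X : ℝ := 2 * (ρ j * s + r j * (2 * (κ * K''.card) + κ⁻¹ * (((m j : ℝ) * m j) / ((l j : ℝ) * l j) *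
        (Λ * s / J)) + 4 * (l j : ℝ) / m j * s + 2 * t) + r j * (4 * (r j : ℝ) / ρ (j + 1) * s)) with hX
  have hXn : 0 ≤ X := by positivity
  have hle : N μ (fun _ => 1) (rst K (cdev (r j) u (bm (ρ (j + 1)) (rst K' (dd (1, 0) u)))
        (bm (ρ (j + 1)) (rst K' (dd (0, 1) u))) p)) ≤ ENNReal.ofReal X := by
    refine h0.trans ?_
    rw [hN]
    have hmE : ∀ k : ℕ, ((k : ℕ) : ℝ≥0∞) = ENNReal.ofReal (k : ℝ) := fun k =>
      (ENNReal.ofReal_natCast k).symm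
    have hl0 : (0 : ℝ) < (l j : ℝ) := by exact_mod_cast hl j
    have hm0 : (0 : ℝ) < (m j : ℝ) := by exact_mod_cast hm j
    have hJ0 : (0 : ℝ) < (J : ℝ) := by exact_mod_cast hJ
    have hρ'0 : (0 : ℝ) < (ρ (j + 1) : ℝ) := by exact_mod_cast hρ (j + 1)
    have c1 : (ρ j : ℝ≥0∞) * ENNReal.ofReal s = ENNReal.ofReal (ρ j * s) := by
      rw [hmE, ← ENNReal.ofReal_mul (by positivity)]
    have c2 : (2 : ℝ≥0∞) * (ENNReal.ofReal κ * (K''.card : ℝ≥0∞)) =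
        ENNReal.ofReal (2 * (κ * K''.card)) := ofReal_two_mul_nat hκ.le _
    have c3 : ENNReal.ofReal κ⁻¹ * (((m j * m j : ℕ) : ℝ≥0∞) / ((l j * l j : ℕ) : ℝ≥0∞) *
        (ENNReal.ofReal Λ * ENNReal.ofReal s / J)) =
        ENNReal.ofReal (κ⁻¹ * (((m j : ℝ) * m j) / ((l j : ℝ) * l j) * (Λ * s / J))) := by
      rw [hmE, hmE, hmE, ← ENNReal.ofReal_mul hΛ, ← ENNReal.ofReal_div_of_pos hJ0,
        ← ENNReal.ofReal_div_of_pos (by push_cast; positivity), ← ENNReal.ofReal_mul (by positivity),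
        ← ENNReal.ofReal_mul (by positivity)]
      push_cast
      rfl
    have c4 : 4 * (l j : ℝ≥0∞) / (m j : ℝ≥0∞) * ENNReal.ofReal s =
        ENNReal.ofReal (4 * (l j : ℝ) / m j * s) := by
      rw [hmE, hmE, show (4 : ℝ≥0∞) = ENNReal.ofReal 4 by norm_num, ← ENNReal.ofReal_mul (by norm_num),
        ← ENNReal.ofReal_div_of_pos hm0, ← ENNReal.ofReal_mul (by positivity)]
    have c5 : 4 * (r j : ℝ≥0∞) / (ρ (j + 1) : ℝ≥0∞) * ENNReal.ofReal s =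
        ENNReal.ofReal (4 * (r j : ℝ) / ρ (j + 1) * s) := by
      rw [hmE, hmE, show (4 : ℝ≥0∞) = ENNReal.ofReal 4 by norm_num, ← ENNReal.ofReal_mul (by norm_num),
        ← ENNReal.ofReal_div_of_pos hρ'0, ← ENNReal.ofReal_mul (by positivity)]
    rw [c1, c2, c3, c4, c5]
    have c6 : (2 : ℝ≥0∞) * (N μ (fun _ => 1) (rst K' (dd (1, 0) u) - tc Λ (rst K' (dd (1, 0) u))) +
      N μ (fun _ => 1) (rst K' (dd (0, 1) u) - tc Λ (rst K' (dd (0, 1) u)))) ≤ ENNReal.ofReal (2 * t) := by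
      rw [ENNReal.ofReal_mul (by norm_num)]
      norm_num
      exact mul_le_mul' le_rfl hNt
    calc _ ≤ 2 * (ENNReal.ofReal (ρ j * s) + (r j : ℝ≥0∞) * (ENNReal.ofReal (2 * (κ * K''.card)) +
          ENNReal.ofReal (κ⁻¹ * (((m j : ℝ) * m j) / ((l j : ℝ) * l j) * (Λ * s / J))) +
          ENNReal.ofReal (4 * (l j : ℝ) / m j * s) + ENNReal.ofReal (2 * t)) +
          (r j : ℝ≥0∞) * ENNReal.ofReal (4 * (r j : ℝ) / ρ (j + 1) * s)) := by
          gcongr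
      _ = ENNReal.ofReal X := by
          exact ofReal_collect (by positivity) (by positivity) (by positivity) (by positivity)
            (by positivity) (by positivity) _
  have hcd : Bd (cdev (r j) u (bm (ρ (j + 1)) (rst K' (dd (1, 0) u)))
        (bm (ρ (j + 1)) (rst K' (dd (0, 1) u))) p) := by
    have e : cdev (r j) u (bm (ρ (j + 1)) (rst K' (dd (1, 0) u)))
        (bm (ρ (j + 1)) (rst K' (dd (0, 1) u))) p = fun a ω => (tr (pt p) u a ω - bm (r j) u a ω) -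
        (((p.1 : ℝ) - ((r j : ℝ) - 1) / 2) * bm (ρ (j + 1)) (rst K' (dd (1, 0) u)) a ω +
        ((p.2 : ℝ) - ((r j : ℝ) - 1) / 2) * bm (ρ (j + 1)) (rst K' (dd (0, 1) u)) a ω) := by
      ext a ω; rfl
    rw [e]
    exact ((hu.tr _).sub (hu.bm _)).sub ((((hu.dd _).rst _).bm _).cmul _ |>.add
      ((((hu.dd _).rst _).bm _).cmul _))
  have h1 := Ex_abs_le_of_N hXn hcd hle
  have hδ : 0 ≤ δ ^ 2 := sq_nonneg _
  refine (mul_le_mul_of_nonneg_left h1 hδ).trans ?_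
  have e : δ ^ 2 * X = 2 * (ρ j * (δ ^ 2 * s) + r j * (2 * (κ * (δ ^ 2 * K''.card)) +
      κ⁻¹ * (((m j : ℝ) * m j) / ((l j : ℝ) * l j) * (Λ * (δ ^ 2 * s) / J)) +
      4 * (l j : ℝ) / m j * (δ ^ 2 * s) + 2 * (δ ^ 2 * t)) +
      r j * (4 * (r j : ℝ) / ρ (j + 1) * (δ ^ 2 * s))) := by
    rw [hX]; ring
  rw [e]
  gcongr

/-- real-valued form of the almost invariance of block means under shifts -/
lemma shift_real {v : Fld Ω} (hv : Bd v) {K' : Finset P2} (hv0 : ∀ a ∉ K', v a = 0) (K0 : Finset P2)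
    {R : ℕ} (hR : 0 < R) (p : ℕ × ℕ) :
    Ex μ K0 (fun a ω => |bm R v (a + pt p) ω - bm R v a ω|) ≤
      (p.1 + p.2 : ℝ) * (2 * Ex μ K' (fun x ω => |v x ω|) / R) := by
  have hn : 0 ≤ Ex μ K' (fun x ω => |v x ω|) := Ex_nonneg fun a _ ω => abs_nonneg _
  have hR0 : (0 : ℝ) < R := by exact_mod_cast hR
  have hb : Bd (tr (pt p) (bm R v) - bm R v) := ((hv.bm R).tr _).sub' (hv.bm R)
  have hNv : N μ (fun _ => 1) v = ENNReal.ofReal (Ex μ K' (fun x ω => |v x ω|)) := by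
    rw [← N_rst_eq hv]
    congr 1
    ext a ω
    by_cases ha : a ∈ K'
    · rw [rst_mem ha]
    · rw [rst_notMem ha, hv0 a ha]
  refine Ex_abs_le_of_N (by positivity) hb ((N_rst_le K0 _).trans ?_)
  refine (N_shift_bm hv.mb hR p.1 p.2).trans (le_of_eq ?_)
  rw [hNv]
  have e1 : ((p.1 + p.2 : ℕ) : ℝ≥0∞) = ENNReal.ofReal (p.1 + p.2 : ℝ) := by
    rw [← ENNReal.ofReal_natCast]; push_cast; rfl
  rw [e1, ENNReal.ofReal_mul (by positivity), ENNReal.ofReal_div_of_pos hR0, ENNReal.ofReal_natCast,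
    ENNReal.ofReal_mul (by norm_num)]
  norm_num

end

end Crest.Agent.R144.Upp296
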