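import Mathlib
import Crest.Agent.R144.Upp4_296

/-!
R144 / S0197, approach P, assembly of the upper bound, part 5 (helper296): the limit theorem.
-/

set_option autoImplicit false
set_option linter.unusedSectionVars false
set_option linter.unusedVariables false

open MeasureTheory Finset Filter
open scoped ENNReal

namespace Crest.Agent.R144.Upp296

open Crest.Agent.R144.Flat296

/-- the two index directions -/
abbrev dir (i : Fin 2) : P2 := ![(1, 0), (0, 1)] i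

/-- the isotropic form in index coordinates (angle of 60 degrees between the axes) -/
noncomputable def iso (y : Fin 2 → ℝ) : ℝ := 4 / 3 * (y 0 ^ 2 + y 1 ^ 2 - y 0 * y 1)

/-- its dual form -/
noncomputable def isos (j : Fin 2 → ℝ) : ℝ := j 0 ^ 2 + j 1 ^ 2 + j 0 * j 1

lemma isos_nonneg (j : Fin 2 → ℝ) : 0 ≤ isos j := by
  unfold isos
  nlinarith [sq_nonneg (j 0 + j 1), sq_nonneg (j 0), sq_nonneg (j 1)]

lemma dual_iso {c : ℝ} (hc : 0 < c) (j y : Fin 2 → ℝ) :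
    2 * ∑ i, j i * y i - c * iso y ≤ c⁻¹ * isos j := by
  unfold iso isos
  rw [Fin.sum_univ_two]
  have hc' : c ≠ 0 := hc.ne'
  rw [← sub_nonneg]
  have e : c⁻¹ * (j 0 ^ 2 + j 1 ^ 2 + j 0 * j 1) - (2 * (j 0 * y 0 + j 1 * y 1) -
      c * (4 / 3 * (y 0 ^ 2 + y 1 ^ 2 - y 0 * y 1))) =
      c⁻¹ * ((j 0 + j 1 / 2 - c * y 0) ^ 2 + 3 * (j 1 / 2 + c * y 0 / 3 - 2 * c * y 1 / 3) ^ 2) := by
    field_simp
    ring
  rw [e]
  positivity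

lemma isos_le {C : ℝ} {j : Fin 2 → ℝ} (hj : ∀ i, |j i| ≤ C) : isos j ≤ 3 * C ^ 2 := by
  have hC : 0 ≤ C := (abs_nonneg _).trans (hj 0)
  unfold isos
  have h0 : j 0 ^ 2 ≤ C ^ 2 := by rw [← sq_abs]; exact pow_le_pow_left₀ (abs_nonneg _) (hj 0) 2
  have h1 : j 1 ^ 2 ≤ C ^ 2 := by rw [← sq_abs]; exact pow_le_pow_left₀ (abs_nonneg _) (hj 1) 2
  nlinarith [sq_nonneg (j 0 - j 1)]

/-- the slopes used at scale `R` with window index `k` -/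
noncomputable def Gk {Ω : Type*} [MeasurableSpace Ω] (u : Fld Ω) (K' : Finset P2) (R : ℕ)
    (i : Fin 2) : Fld Ω := bm R (rst K' (dd (dir i) u))

variable {Ω : ℕ → Type*} [∀ n, MeasurableSpace (Ω n)]

/-- hypotheses on the domains, the fields and the flow -/
structure UpHyp (μ : ∀ n, Measure (Ω n)) (δ : ℕ → ℝ) (u : ∀ n, Fld (Ω n)) (V e : ℕ → ℝ)
    (Kx : ℕ → Finset P2) (Kc : ℕ → ℕ → Finset P2) (j : ℕ → Fin 2 → P2 → ℝ) : Prop where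
  prob : ∀ n, IsProbabilityMeasure (μ n)
  bd : ∀ n, Bd (u n)
  marg : ∀ k L : ℕ, ∀ᶠ n in atTop, ∀ a ∈ Kc k n, ∀ z : P2, |z.1| ≤ L → |z.2| ≤ L →
    a + z ∈ Kc (k + 1) n
  sub : ∀ k, ∀ᶠ n in atTop, Kc k n ⊆ Kx n
  area : ∃ Ca : ℝ, ∀ k, ∀ᶠ n in atTop, δ n ^ 2 * (Kc k n).card ≤ Ca
  grad : ∃ S : ℝ, ∀ᶠ n in atTop,
    δ n ^ 2 * ∑ i, Ex (μ n) (Kx n) (fun x ω => |dd (dir i) (u n) x ω|) ≤ S
  ui : ∀ ε : ℝ, 0 < ε → ∃ Λ0 : ℝ, ∀ᶠ n in atTop,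
    δ n ^ 2 * ∑ i, Ex (μ n) (Kx n) (fun x ω => max 0 (|dd (dir i) (u n) x ω| - Λ0)) ≤ ε
  layer : ∀ ε : ℝ, 0 < ε → ∃ k, ∀ᶠ n in atTop,
    δ n ^ 2 * ∑ i, Ex (μ n) (Kx n \ Kc k n) (fun x ω => |dd (dir i) (u n) x ω|) ≤ ε
  var : ∀ ε : ℝ, 0 < ε → ∀ᶠ n in atTop,
    V n ≤ 2 * (δ n ^ 2 * ∑ i, Ex (μ n) (Kx n) (fun x ω => j n i x * dd (dir i) (u n) x ω)) - e n + ε
  jb : ∃ Cj : ℝ, ∀ n i x, |j n i x| ≤ Cj
  jc : ∀ R : ℕ, ∀ ε : ℝ, 0 < ε → ∀ᶠ n in atTop, ∀ i x, ∀ p ∈ Flat296.sq R,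
    |j n i x - j n i (x - pt p)| ≤ ε

/-- the two statements of the fibre assembly at stage `n` -/
def FasAt (μ : ∀ n, Measure (Ω n)) (δ : ℕ → ℝ) (u : ∀ n, Fld (Ω n)) (e : ℕ → ℝ)
    (Kc : ℕ → ℕ → Finset P2) (B : ∀ n, Fin 2 → Fin 2 → Fld (Ω n)) (θ Λ ε1 C ε2 : ℝ) (r R k n : ℕ) :
    Prop :=
  ∃ ξ : Fin 2 → Fld (Ω n), (∀ i, Bd (ξ i)) ∧
    δ n ^ 2 * ∑ i, Ex (μ n) (Kc k n) (fun a ω => |clp (4 * Λ) (Gk (u n) (Kc (k + 1) n) R i a ω) -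
      ξ i a ω|) ≤ ε2 ∧
    ∀ fl : ℝ, (∀ p ∈ Flat296.sq r, δ n ^ 2 * Ex (μ n) (Kc k n) (fun a ω =>
      |cdev r (u n) (Gk (u n) (Kc (k + 1) n) R 0) (Gk (u n) (Kc (k + 1) n) R 1) p a ω|) ≤ fl) →
      δ n ^ 2 * Ex (μ n) (Kc k n) (fun a ω => qf (fun i j => B n i j a ω)
        (psi Λ fun i => ξ i a ω)) ≤ (1 + θ) * e n + ε1 + C * (fl / r + ε2)

/-- hypotheses on the block matrices: law of large numbers and fibre assembly -/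
structure BlkHyp (μ : ∀ n, Measure (Ω n)) (δ : ℕ → ℝ) (u : ∀ n, Fld (Ω n)) (e : ℕ → ℝ)
    (Kc : ℕ → ℕ → Finset P2) (O : Type) (r0 : ℕ)
    (B : ℕ → O → ∀ n, Fin 2 → Fin 2 → Fld (Ω n)) (A : ℕ → O → Fin 2 → Fin 2 → ℝ) (Lr : ℕ → ℝ) :
    Prop where
  bd : ∀ r, r0 ≤ r → ∀ o n i j, Bd (B r o n i j)
  le : ∀ r, r0 ≤ r → ∀ o n i j a ω, |B r o n i j a ω| ≤ Lr r
  psd : ∀ r, r0 ≤ r → ∀ o n a ω x, 0 ≤ qf (fun i j => B r o n i j a ω) x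
  lln : ∀ r, r0 ≤ r → ∀ o k, ∀ ε : ℝ, 0 < ε → ∃ R0 : ℕ, ∀ R, R0 ≤ R → ∀ᶠ n in atTop,
    δ n ^ 2 * ∑ i, ∑ j, Ex (μ n) (Kc k n) (fun a ω => |bm R (B r o n i j) a ω - A r o i j|) ≤ ε
  fas : ∀ θ Λ ε1 : ℝ, 0 < θ → 1 ≤ Λ → 0 < ε1 → ∃ C : ℝ, 0 ≤ C ∧ ∃ r1 : ℕ, ∀ r, r1 ≤ r → r0 ≤ r →
    ∀ o k, ∀ ε2 : ℝ, 0 < ε2 → ∃ R1 : ℕ, ∀ R, R1 ≤ R → ∀ᶠ n in atTop,
      FasAt μ δ u e Kc (B r o) θ Λ ε1 C ε2 r R k n

lemma Ex_antitone_excess {Ω : Type*} [MeasurableSpace Ω] {μ : Measure Ω} [IsFiniteMeasure μ]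
    {K : Finset P2} {f : Fld Ω} (hf : Bd f) {c c' : ℝ} (h : c ≤ c') :
    Ex μ K (fun x ω => max 0 (|f x ω| - c')) ≤ Ex μ K (fun x ω => max 0 (|f x ω| - c)) := by
  refine Ex_mono ((Bd.const 0).max (hf.abs.sub (Bd.const _)))
    ((Bd.const 0).max (hf.abs.sub (Bd.const _))) fun a _ ω => ?_
  exact max_le_max le_rfl (by linarith)

lemma bd_Gk {Ω : Type*} [MeasurableSpace Ω] {u : Fld Ω} (hu : Bd u) (K' : Finset P2) (R : ℕ)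
    (i : Fin 2) : Bd (Gk u K' R i) := ((hu.dd _).rst _).bm _

/-- one scale at stage `n`: from the fibre assembly and the law of large numbers to the energy lower
bound in terms of the averaged matrices -/
lemma energy_at {Ω : Type*} [MeasurableSpace Ω] {μ : Measure Ω} [IsProbabilityMeasure μ] {O : Type}
    [Fintype O] [Nonempty O] {u : Fld Ω} (hu : Bd u) {K0 K K' : Finset P2} {δ e θ Λ ε1 C ε2 ε3 : ℝ}
    {r R R' : ℕ} (hr : 0 < r) (hR : 0 < R) (hR' : 0 < R') (hΛ : 0 < Λ) (hC : 0 ≤ C) {Lr : ℝ}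
    (hLr : 0 ≤ Lr)
    (hK : ∀ a ∈ K0, ∀ p ∈ Flat296.sq R', a + pt p ∈ K)
    {B : O → Fin 2 → Fin 2 → Fld Ω} {A : O → Fin 2 → Fin 2 → ℝ}
    (hB : ∀ o i j, Bd (B o i j)) (hB' : ∀ o i j a ω, |B o i j a ω| ≤ Lr)
    (hB0 : ∀ o a ω x, 0 ≤ qf (fun i j => B o i j a ω) x)
    (hlln : ∀ o, δ ^ 2 * ∑ i, ∑ j, Ex μ K0 (fun a ω => |bm R' (B o i j) a ω - A o i j|) ≤ ε3)
    {fl : ℝ}
    (hfas : ∀ o, ∃ ξ : Fin 2 → Fld Ω, (∀ i, Bd (ξ i)) ∧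
      δ ^ 2 * ∑ i, Ex μ K (fun a ω => |clp (4 * Λ) (Gk u K' R i a ω) - ξ i a ω|) ≤ ε2 ∧
      δ ^ 2 * Ex μ K (fun a ω => qf (fun i j => B o i j a ω) (psi Λ fun i => ξ i a ω)) ≤
        (1 + θ) * e + ε1 + C * (fl / r + ε2)) {S : ℝ}
    (hS : δ ^ 2 * ∑ i : Fin 2, Ex μ K' (fun x ω => |dd (dir i) u x ω|) ≤ S) :
    δ ^ 2 * Ex μ K0 (fun a ω => qf (fun i j => (Fintype.card O : ℝ)⁻¹ * ∑ o, A o i j)
      (psi Λ fun i => Gk u K' R i a ω)) ≤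
      (1 + θ) * e + (ε1 + C * (fl / r + ε2) + 48 * Lr * Λ * ε2 +
        48 * Lr * Λ * (4 * R' * S / R) + (2 * Λ) ^ 2 * ε3) := by
  set X : ℝ := (1 + θ) * e + (ε1 + C * (fl / r + ε2) + 48 * Lr * Λ * ε2 +
        48 * Lr * Λ * (4 * R' * S / R) + (2 * Λ) ^ 2 * ε3) with hX
  have hδ : 0 ≤ δ ^ 2 := sq_nonneg _
  have hG : ∀ i, Bd (Gk u K' R i) := fun i => bd_Gk hu K' R i
  have hR0 : (0 : ℝ) < R := by exact_mod_cast hR
  -- the shift bound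
  have hsh : ∀ p ∈ Flat296.sq R', Ex μ K0 (fun a ω => |Gk u K' R 0 (a + pt p) ω - Gk u K' R 0 a ω|) +
      Ex μ K0 (fun a ω => |Gk u K' R 1 (a + pt p) ω - Gk u K' R 1 a ω|) ≤
      4 * R' * (∑ i : Fin 2, Ex μ K' (fun x ω => |dd (dir i) u x ω|)) / R := by
    intro p hp
    rw [mem_sq] at hp
    have hv : ∀ i : Fin 2, Ex μ K0 (fun a ω => |Gk u K' R i (a + pt p) ω - Gk u K' R i a ω|) ≤
        (2 * R' : ℝ) * (2 * Ex μ K' (fun x ω => |dd (dir i) u x ω|) / R) := by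
      intro i
      have h1 := shift_real (μ := μ) (v := rst K' (dd (dir i) u)) ((hu.dd _).rst _)
        (K' := K') (fun a ha => rst_notMem ha _) K0 hR p
      have h2 : Ex μ K' (fun x ω => |rst K' (dd (dir i) u) x ω|) =
          Ex μ K' (fun x ω => |dd (dir i) u x ω|) :=
        Ex_congr fun a ha ω => by rw [rst_mem ha]
      rw [h2] at h1
      refine h1.trans ?_
      have h3 : 0 ≤ Ex μ K' (fun x ω => |dd (dir i) u x ω|) := Ex_nonneg fun a _ ω => abs_nonneg _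
      refine mul_le_mul_of_nonneg_right ?_ (by positivity)
      have g1 : (p.1 : ℝ) ≤ R' := by exact_mod_cast hp.1.le
      have g2 : (p.2 : ℝ) ≤ R' := by exact_mod_cast hp.2.le
      linarith
    refine (add_le_add (hv 0) (hv 1)).trans (le_of_eq ?_)
    rw [Fin.sum_univ_two]
    ring
  -- one orientation
  have hone : ∀ o, δ ^ 2 * Ex μ K0 (fun a ω => qf (A o) (psi Λ fun i => Gk u K' R i a ω)) ≤ X := by
    intro o
    obtain ⟨ξ, hξ, hξ1, hξ2⟩ := hfas o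
    have ht : Ex μ K (fun a ω => |clp (4 * Λ) (Gk u K' R 0 a ω) - ξ 0 a ω|) +
      Ex μ K (fun a ω => |clp (4 * Λ) (Gk u K' R 1 a ω) - ξ 1 a ω|) ≤
      ∑ i : Fin 2, Ex μ K (fun a ω => |clp (4 * Λ) (Gk u K' R i a ω) - ξ i a ω|) := by
      rw [Fin.sum_univ_two]
    have h1 := energy_lln (μ := μ) hR' hK (hB o) hLr (hB' o) (hB0 o) hG hξ (A o) hΛ hsh ht
    have h2 := mul_le_mul_of_nonneg_left h1 hδ
    have h3 := hlln o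
    have h4 : 48 * Lr * Λ * (δ ^ 2 * ∑ i : Fin 2, Ex μ K (fun a ω =>
        |clp (4 * Λ) (Gk u K' R i a ω) - ξ i a ω|)) ≤ 48 * Lr * Λ * ε2 :=
      mul_le_mul_of_nonneg_left hξ1 (by positivity)
    have h5 : 48 * Lr * Λ * (4 * R' * (δ ^ 2 * ∑ i : Fin 2, Ex μ K' (fun x ω =>
        |dd (dir i) u x ω|)) / R) ≤ 48 * Lr * Λ * (4 * R' * S / R) := by
      refine mul_le_mul_of_nonneg_left ?_ (by positivity)
      gcongr
    have h6 : (2 * Λ) ^ 2 * (δ ^ 2 * ∑ i, ∑ j, Ex μ K0 (fun a ω =>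
        |bm R' (B o i j) a ω - A o i j|)) ≤ (2 * Λ) ^ 2 * ε3 :=
      mul_le_mul_of_nonneg_left h3 (by positivity)
    rw [hX]
    calc _ ≤ δ ^ 2 * (Ex μ K (fun a ω => qf (fun i j => B o i j a ω) (psi Λ fun i => ξ i a ω)) +
          48 * Lr * Λ * (∑ i : Fin 2, Ex μ K (fun a ω => |clp (4 * Λ) (Gk u K' R i a ω) - ξ i a ω|)) +
          48 * Lr * Λ * (4 * R' * (∑ i : Fin 2, Ex μ K' (fun x ω => |dd (dir i) u x ω|)) / R) +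
          (2 * Λ) ^ 2 * ∑ i, ∑ j, Ex μ K0 (fun a ω => |bm R' (B o i j) a ω - A o i j|)) := h2
      _ = δ ^ 2 * Ex μ K (fun a ω => qf (fun i j => B o i j a ω) (psi Λ fun i => ξ i a ω)) +
          48 * Lr * Λ * (δ ^ 2 * ∑ i : Fin 2, Ex μ K (fun a ω =>
            |clp (4 * Λ) (Gk u K' R i a ω) - ξ i a ω|)) +
          48 * Lr * Λ * (4 * R' * (δ ^ 2 * ∑ i : Fin 2, Ex μ K' (fun x ω =>
            |dd (dir i) u x ω|)) / R) +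
          (2 * Λ) ^ 2 * (δ ^ 2 * ∑ i, ∑ j, Ex μ K0 (fun a ω =>
            |bm R' (B o i j) a ω - A o i j|)) := by ring
      _ ≤ _ := by linarith
  -- average over the orientations
  have hc0 : (0 : ℝ) < Fintype.card O := by exact_mod_cast Fintype.card_pos
  have hqB : ∀ o, Bd (fun a ω => qf (A o) (psi Λ fun i => Gk u K' R i a ω)) := fun o =>
    bd_qf (fun i j => Bd.const _) (bd_psi hG Λ)
  have e1 : ∀ y : Fin 2 → ℝ, qf (fun i j => (Fintype.card O : ℝ)⁻¹ * ∑ o, A o i j) y =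
      (Fintype.card O : ℝ)⁻¹ * ∑ o, qf (A o) y := by
    intro y
    simp only [qf_eq]
    rw [Finset.sum_add_distrib, Finset.sum_add_distrib, Finset.sum_add_distrib]
    simp_rw [← Finset.sum_mul]
    ring
  simp_rw [e1]
  rw [Ex_cmul, Ex_sum _ _ fun o _ => hqB o]
  calc δ ^ 2 * ((Fintype.card O : ℝ)⁻¹ * ∑ o, Ex μ K0 (fun a ω => qf (A o) (psi Λ fun i =>
        Gk u K' R i a ω)))
      = (Fintype.card O : ℝ)⁻¹ * ∑ o, δ ^ 2 * Ex μ K0 (fun a ω => qf (A o) (psi Λ fun i =>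
        Gk u K' R i a ω)) := by rw [← Finset.mul_sum]; ring
    _ ≤ (Fintype.card O : ℝ)⁻¹ * ∑ _o : O, X := by
        refine mul_le_mul_of_nonneg_left (Finset.sum_le_sum fun o _ => hone o) (by positivity)
    _ = X := by
        rw [Finset.sum_const, Finset.card_univ, nsmul_eq_mul, ← mul_assoc,
          inv_mul_cancel₀ hc0.ne', one_mul]

end Crest.Agent.R144.Upp296
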