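import Crest.Agent.R144.Fa1_812
import Crest.Agent.R144.Upp5_296

/-!
# R144 (S0197), helper812: fibre assembly FA, part 2: the statement (b) of (FAS)

The block values `ξ = E[clp c G | outside the block]` and
`δ² Σ_i Ex K |clp c (G_i) − ξ_i| ≤ ε` for `R ≥ R1(N, Ca, Ce, ε)`: block Poincaré inequality
(helper674, helper812) and the gradient bound of part 1.
-/

set_option autoImplicit false
set_option linter.unusedSectionVars false

open MeasureTheory Set Filter Topology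
open scoped ENNReal NNReal

namespace Crest.Agent.R144.Fa812

open Crest.Agent.R144.Ham560 Crest.Agent.R144.Flat296 Crest.Agent.R144.Upp296
open Crest.Agent.R144.Fib674 Crest.Agent.R144.StB348

noncomputable section

variable {F : Finset P2} {E : Finset (P2 × P2)} {ξ : P2 → ℝ}

theorem abs_Eb_le {I : Finset P2} {W g : (F → ℝ) → ℝ} (hW0 : ∀ y, 0 ≤ W y) {C : ℝ} (hC : 0 ≤ C)
    (hg : ∀ y, |g y| ≤ C) (y : F → ℝ) : |Eb F I W g y| ≤ C := by
  unfold Eb Ebz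
  by_cases iW : Integrable fun x : ↥I → ℝ => W (glue F I (outr F I y) x)
  · have h0 : 0 ≤ ∫ x : ↥I → ℝ, W (glue F I (outr F I y) x) := integral_nonneg fun _ => hW0 _
    rw [abs_div, abs_of_nonneg h0]
    refine div_le_of_le_mul₀ h0 hC ?_
    rw [← integral_const_mul]
    refine abs_integral_le_integral_abs.trans ?_
    refine integral_mono_of_nonneg (ae_of_all _ fun _ => abs_nonneg _) (iW.const_mul C)
      (ae_of_all _ fun x => ?_)
    beta_reduce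
    rw [abs_mul, abs_of_nonneg (hW0 _)]
    exact mul_le_mul_of_nonneg_right (hg _) (hW0 _)
  · rw [integral_undef iW, div_zero, abs_zero]
    exact hC

theorem lip_clp (c : ℝ) : LipschitzWith 1 (clp c) := (LipschitzWith.id.min_const c).const_max (-c)

theorem diff_Gs (R : ℕ) (K' : Finset P2) (e : P2) {Y : (F → ℝ) → (F → ℝ)} {h : F → ℝ}
    (hY : DifferentiableAt ℝ Y h) (a : P2) : DifferentiableAt ℝ (Gs R K' e Y a) h := by
  have e1 : Gs R K' e Y a = fun h => ((R * R : ℕ) : ℝ)⁻¹ * ∑ p ∈ Flat296.sq R,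
      (if a + pt p ∈ K' then uf Y (a + pt p + e) h - uf Y (a + pt p) h else 0) :=
    funext fun h => Gs_apply R K' e Y a h
  rw [e1]
  refine DifferentiableAt.const_mul (DifferentiableAt.fun_sum fun p _ => ?_) _
  by_cases hp : a + pt p ∈ K'
  · simp only [hp, if_true]
    exact (hasFDerivAt_uf hY _).1.sub (hasFDerivAt_uf hY _).1
  · simp only [hp, if_false]
    exact differentiableAt_const _

/-- the block values of a field: conditional expectations given the outside of the blocks -/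
def xiB (E : Finset (P2 × P2)) (ξ : P2 → ℝ) (S : Finset (ℕ × ℕ)) (K : Finset P2)
    (g : Fld (F → ℝ)) : Fld (F → ℝ) := fun a ω =>
  if a ∈ K then Eb F (blk S a) (wl F E ξ 0) (g a) ω else 0

theorem measurable_wl0 : Measurable (wl F E ξ 0) := measurable_wl measurable_const

theorem abs_xiB_le {S : Finset (ℕ × ℕ)} {K : Finset P2} {g : Fld (F → ℝ)} {C : ℝ} (hC : 0 ≤ C)
    (hg : ∀ a ω, |g a ω| ≤ C) (a : P2) (ω : F → ℝ) : |xiB E ξ S K g a ω| ≤ C := by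
  unfold xiB
  split_ifs
  · exact abs_Eb_le (wl_nonneg 0) hC (hg a) ω
  · rwa [abs_zero]

theorem bd_xiB {S : Finset (ℕ × ℕ)} {K : Finset P2} {g : Fld (F → ℝ)} (hg : Bd g) :
    Bd (xiB E ξ S K g) := by
  obtain ⟨C, hC⟩ := hg.bd
  refine ⟨fun a => ?_, max C 0, fun a ω =>
    abs_xiB_le (le_max_right _ _) (fun a ω => (hC a ω).trans (le_max_left _ _)) a ω⟩
  unfold xiB
  by_cases ha : a ∈ K
  · simp only [ha, if_true]
    exact measurable_Eb measurable_wl0 (hg.mb a)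
  · simp only [ha, if_false]
    exact measurable_const

theorem pd_comp_sq_le {T : ℝ → ℝ} (hT : LipschitzWith 1 T) {G : (F → ℝ) → ℝ} {y : F → ℝ}
    (hG : DifferentiableAt ℝ G y) (v : F) : pd v (fun y => T (G y)) y ^ 2 ≤ pd v G y ^ 2 := by
  by_cases hd : DifferentiableAt ℝ (fun y => T (G y)) y
  · have h := norm_fderiv_comp_le hT hG hd (Pi.single v 1)
    rw [NNReal.coe_one, one_mul, Real.norm_eq_abs, Real.norm_eq_abs] at h
    exact sq_le_sq.mpr h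
  · have : pd v (fun y => T (G y)) y = 0 := by
      rw [pd, fderiv_zero_of_not_differentiableAt hd]; rfl
    rw [this, zero_pow two_ne_zero]
    exact sq_nonneg _

theorem gI_comp_le {I : Finset P2} (hI : I ⊆ F) {T : ℝ → ℝ} (hT : LipschitzWith 1 T)
    {G : (F → ℝ) → ℝ} {y : F → ℝ} (hG : DifferentiableAt ℝ G y) :
    gI hI (fun y => T (G y)) y ≤ gI hI G y :=
  Finset.sum_le_sum fun _ _ => pd_comp_sq_le hT hG _

theorem abs_pd_lip {G : (F → ℝ) → ℝ} {c : ℝ≥0} (hG : LipschitzWith c G) (v : F) (y : F → ℝ) :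
    |pd v G y| ≤ c := by
  have h1 : ‖fderiv ℝ G y (Pi.single v 1)‖ ≤ ‖fderiv ℝ G y‖ * ‖(Pi.single v 1 : F → ℝ)‖ :=
    ContinuousLinearMap.le_opNorm _ _
  have h2 : ‖(Pi.single v 1 : F → ℝ)‖ ≤ 1 := by
    refine (pi_norm_le_iff_of_nonneg zero_le_one).2 fun u => ?_
    by_cases h : u = v
    · subst h; simp
    · rw [Pi.single_eq_of_ne h]; simp
  have h3 := norm_fderiv_le_of_lipschitz ℝ (x₀ := y) hG
  rw [← Real.norm_eq_abs]
  calc _ ≤ _ := h1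
    _ ≤ c * 1 := mul_le_mul h3 h2 (norm_nonneg _) c.2
    _ = c := mul_one _

theorem integrable_gI {μ : Measure (F → ℝ)} [IsFiniteMeasure μ] {I : Finset P2} (hI : I ⊆ F)
    {G : (F → ℝ) → ℝ} {c : ℝ≥0} (hG : LipschitzWith c G) : Integrable (gI hI G) μ := by
  refine Integrable.of_bound (measurable_gI hI G).aestronglyMeasurable
    ((Fintype.card ↥I : ℝ) * c ^ 2) (ae_of_all _ fun y => ?_)
  rw [Real.norm_of_nonneg (gI_nonneg hI G y)]
  unfold gI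
  calc ∑ v : ↥I, pd ⟨(v : P2), hI v.2⟩ G y ^ 2 ≤ ∑ _v : ↥I, (c : ℝ) ^ 2 := by
        refine Finset.sum_le_sum fun v _ => ?_
        rw [← sq_abs]
        exact pow_le_pow_left₀ (abs_nonneg _) (abs_pd_lip hG _ y) 2
    _ = (Fintype.card ↥I : ℝ) * c ^ 2 := by
        rw [Finset.sum_const, Finset.card_univ, nsmul_eq_mul]

theorem integrable_enY {μ : Measure (F → ℝ)} [IsFiniteMeasure μ] {Y : (F → ℝ) → (F → ℝ)} {c : ℝ≥0}
    (hY : LipschitzWith c Y) : Integrable (MW121.en Y) μ := by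
  refine Integrable.of_bound (MW121.measurable_en Y).aestronglyMeasurable
    ((Fintype.card F : ℝ) * ((Fintype.card F : ℝ) * c ^ 2)) (ae_of_all _ fun y => ?_)
  rw [Real.norm_of_nonneg (MW121.en_nonneg Y y)]
  unfold MW121.en
  calc ∑ u : F, ∑ v : F, MW121.jac Y y u v ^ 2 ≤ ∑ _u : F, ∑ _v : F, (c : ℝ) ^ 2 := by
        refine Finset.sum_le_sum fun u _ => Finset.sum_le_sum fun v _ => ?_
        rw [← sq_abs]
        exact pow_le_pow_left₀ (abs_nonneg _) (MW121.abs_jac_le hY y u v) 2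
    _ = _ := by
        rw [Finset.sum_const, Finset.card_univ, nsmul_eq_mul, Finset.sum_const, Finset.card_univ,
          nsmul_eq_mul]

/-- **Poincaré on all the blocks** -/
theorem sum_poincare (hA : Anch F E) (hξ : ∀ u, |ξ u| ≤ 1 / 2) {S : Finset (ℕ × ℕ)}
    {K K' : Finset P2} (hK : ∀ a ∈ K, blk S a ⊆ F) (hAK : ∀ a ∈ K, Anch (blk S a) E)
    {R : ℕ} (hR : 0 < R) (e : P2) {Y : (F → ℝ) → (F → ℝ)} {c : ℝ≥0} (hY : LipschitzWith c Y)
    (hYd : Differentiable ℝ Y) (Λ : ℝ) :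
    Ex (hamP F E ξ) K (fun a ω => (clp Λ (Gs R K' e Y a ω) -
      xiB E ξ S K (fun a ω => clp Λ (Gs R K' e Y a ω)) a ω) ^ 2) ≤
      8 * (S.card : ℝ) ^ 4 * ((R * R : ℕ) : ℝ)⁻¹ * ∫ y, MW121.en Y y ∂(hamP F E ξ) := by
  have hp : IsProbabilityMeasure (hamP F E ξ) := isProbabilityMeasure_hamP hA hξ
  have hLG : ∀ a, ∃ c' : ℝ≥0, LipschitzWith c' (Gs R K' e Y a) := fun a => lip_Gs R K' e hY a
  have h1 : ∀ a : {a // a ∈ K}, ∫ ω, (clp Λ (Gs R K' e Y a.1 ω) -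
      xiB E ξ S K (fun a ω => clp Λ (Gs R K' e Y a ω)) a.1 ω) ^ 2 ∂(hamP F E ξ) ≤
      2 * (S.card : ℝ) ^ 3 * ∫ ω, gI (hK a.1 a.2) (Gs R K' e Y a.1) ω ∂(hamP F E ξ) := by
    rintro ⟨a, ha⟩
    obtain ⟨c', hc'⟩ := hLG a
    have hcl : LipschitzWith (1 * c') fun y => clp Λ (Gs R K' e Y a y) := (lip_clp Λ).comp hc'
    have h2 := (block_poincare_hamP hA hξ (hK a ha) (hAK a ha) hcl.continuous.measurable
      (hcl.lipschitzOnWith (s := ham F E ξ))).2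
    simp only [xiB, ha, if_true]
    rw [card_blk] at h2
    refine h2.trans (mul_le_mul_of_nonneg_left ?_ (by positivity))
    refine integral_mono (integrable_gI (hK a ha) hcl) (integrable_gI (hK a ha) hc') fun ω => ?_
    exact gI_comp_le (hK a ha) (lip_clp Λ) (diff_Gs R K' e (hYd ω) a)
  have h3 : ∀ a : {a // a ∈ K}, Integrable (gI (hK a.1 a.2) (Gs R K' e Y a.1)) (hamP F E ξ) := by
    rintro ⟨a, ha⟩
    obtain ⟨c', hc'⟩ := hLG a
    exact integrable_gI (hK a ha) hc'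
  have h4 : ∑ a ∈ K.attach, ∫ ω, gI (hK a.1 a.2) (Gs R K' e Y a.1) ω ∂(hamP F E ξ) ≤
      4 * S.card * ((R * R : ℕ) : ℝ)⁻¹ * ∫ y, MW121.en Y y ∂(hamP F E ξ) := by
    rw [← integral_finsetSum _ fun a _ => h3 a, ← integral_const_mul]
    refine integral_mono (integrable_finsetSum _ fun a _ => h3 a)
      ((integrable_enY hY).const_mul _) fun ω => ?_
    exact sum_gI_Gs_le hR hK e (hYd ω)
  unfold Ex
  rw [← Finset.sum_attach K]
  calc _ ≤ ∑ a ∈ K.attach, 2 * (S.card : ℝ) ^ 3 *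
        ∫ ω, gI (hK a.1 a.2) (Gs R K' e Y a.1) ω ∂(hamP F E ξ) :=
        Finset.sum_le_sum fun a _ => h1 a
    _ = 2 * (S.card : ℝ) ^ 3 * ∑ a ∈ K.attach,
        ∫ ω, gI (hK a.1 a.2) (Gs R K' e Y a.1) ω ∂(hamP F E ξ) := by rw [Finset.mul_sum]
    _ ≤ 2 * (S.card : ℝ) ^ 3 * (4 * S.card * ((R * R : ℕ) : ℝ)⁻¹ *
        ∫ y, MW121.en Y y ∂(hamP F E ξ)) := mul_le_mul_of_nonneg_left h4 (by positivity)
    _ = _ := by ring

theorem abs_le_amgm {κ : ℝ} (hκ : 0 < κ) (x : ℝ) : |x| ≤ κ + κ⁻¹ * x ^ 2 := by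
  have h1 : κ * |x| ≤ κ * (κ + κ⁻¹ * x ^ 2) := by
    rw [mul_add, ← mul_assoc, mul_inv_cancel₀ hκ.ne', one_mul, ← sq_abs x]
    nlinarith [sq_nonneg (|x| - κ), abs_nonneg x, sq_nonneg (|x|), sq_nonneg κ]
  exact le_of_mul_le_mul_left h1 hκ

theorem Ex_abs_le_amgm {Ω : Type*} [MeasurableSpace Ω] {μ : Measure Ω} [IsProbabilityMeasure μ]
    {K : Finset P2} {f : Fld Ω} (hf : Bd f) {κ : ℝ} (hκ : 0 < κ) :
    Ex μ K (fun a ω => |f a ω|) ≤ κ * K.card + κ⁻¹ * Ex μ K (fun a ω => f a ω ^ 2) := by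
  have hf2 : Bd fun a ω => f a ω ^ 2 := by
    have := hf.mul hf
    simpa only [pow_two] using this
  refine (Ex_mono hf.abs ((Bd.const κ).add (hf2.cmul κ⁻¹)) fun a _ ω => abs_le_amgm hκ _).trans
    (le_of_eq ?_)
  rw [Ex_add (Bd.const κ) (hf2.cmul κ⁻¹), Ex_cmul]
  congr 1
  unfold Ex
  simp only [integral_const, probReal_univ, one_smul, Finset.sum_const, nsmul_eq_mul]
  ring

/-- **(b) of (FAS)**, fixed stage -/
theorem fas_b (hA : Anch F E) (hξ : ∀ u, |ξ u| ≤ 1 / 2) {S : Finset (ℕ × ℕ)}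
    {K K' : Finset P2} (hK : ∀ a ∈ K, blk S a ⊆ F) (hAK : ∀ a ∈ K, Anch (blk S a) E)
    {R : ℕ} (hR : 0 < R) {Y : (F → ℝ) → (F → ℝ)} (hYb : Bd (uf Y)) {c : ℝ≥0}
    (hY : LipschitzWith c Y) (hYd : Differentiable ℝ Y) (Λ : ℝ) {κ : ℝ} (hκ : 0 < κ) :
    ∑ i, Ex (hamP F E ξ) K (fun a ω => |clp Λ (Gk (uf Y) K' R i a ω) -
      xiB E ξ S K (fun a ω => clp Λ (Gk (uf Y) K' R i a ω)) a ω|) ≤
      2 * (κ * K.card) + κ⁻¹ * (16 * (S.card : ℝ) ^ 4 * ((R * R : ℕ) : ℝ)⁻¹ *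
        ∫ y, MW121.en Y y ∂(hamP F E ξ)) := by
  have hp : IsProbabilityMeasure (hamP F E ξ) := isProbabilityMeasure_hamP hA hξ
  have h1 : ∀ i : Fin 2, Ex (hamP F E ξ) K (fun a ω => |clp Λ (Gk (uf Y) K' R i a ω) -
      xiB E ξ S K (fun a ω => clp Λ (Gk (uf Y) K' R i a ω)) a ω|) ≤
      κ * K.card + κ⁻¹ * (8 * (S.card : ℝ) ^ 4 * ((R * R : ℕ) : ℝ)⁻¹ *
        ∫ y, MW121.en Y y ∂(hamP F E ξ)) := by
    intro i
    have hG : Bd (fun a ω => clp Λ (Gk (uf Y) K' R i a ω)) := bd_clp (bd_Gk hYb K' R i) Λ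
    refine (Ex_abs_le_amgm (hG.sub (bd_xiB (E := E) (ξ := ξ) (S := S) (K := K) hG)) hκ).trans ?_
    have h2 := sum_poincare hA hξ hK hAK hR (K' := K') (dir i) hY hYd Λ
    have h3 := mul_le_mul_of_nonneg_left h2 (inv_pos.2 hκ).le
    exact add_le_add le_rfl h3
  rw [Fin.sum_univ_two]
  linarith [h1 0, h1 1]

/-- **(b) of (FAS)** with its quantifiers: `R1` depends only on `N = |S|`, `Ca`, `Ce`, `ε` -/
theorem exists_fas_b (N : ℕ) (Ca Ce : ℝ) {ε : ℝ} (hε : 0 < ε) : ∃ R1 : ℕ, ∀ R, R1 ≤ R → 0 < R ∧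
    ∀ (F : Finset P2) (E : Finset (P2 × P2)) (ξ : P2 → ℝ), Anch F E → (∀ u, |ξ u| ≤ 1 / 2) →
    ∀ (S : Finset (ℕ × ℕ)) (K K' : Finset P2), S.card = N → (∀ a ∈ K, blk S a ⊆ F) →
    (∀ a ∈ K, Anch (blk S a) E) → ∀ (Y : (F → ℝ) → (F → ℝ)) (c : ℝ≥0), Bd (uf Y) →
    LipschitzWith c Y → Differentiable ℝ Y → ∀ (δ Λ : ℝ), δ ^ 2 * K.card ≤ Ca →
    δ ^ 2 * ∫ y, MW121.en Y y ∂(hamP F E ξ) ≤ Ce →
    δ ^ 2 * ∑ i, Ex (hamP F E ξ) K (fun a ω => |clp Λ (Gk (uf Y) K' R i a ω) -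
      xiB E ξ S K (fun a ω => clp Λ (Gk (uf Y) K' R i a ω)) a ω|) ≤ ε := by
  have hCa : 0 < 4 * |Ca| + 1 := by positivity
  set κ : ℝ := ε / (4 * |Ca| + 1) with hκdef
  have hκ : 0 < κ := div_pos hε hCa
  set T : ℝ := κ⁻¹ * (16 * (N : ℝ) ^ 4 * |Ce|) with hT
  have hT0 : 0 ≤ T := by positivity
  obtain ⟨R1, hR1⟩ := exists_nat_gt (T / (ε / 2))
  refine ⟨R1 + 1, fun R hR => ⟨by omega, ?_⟩⟩
  have hR0 : 0 < R := by omega
  intro F E ξ hA hξ S K K' hS hK hAK Y c hYb hY hYd δ Λ hCa' hCe'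
  have h := fas_b hA hξ hK hAK hR0 hYb hY hYd Λ hκ (K' := K')
  have h' := mul_le_mul_of_nonneg_left h (sq_nonneg δ)
  refine h'.trans ?_
  have hRR : (1 : ℝ) ≤ R := by exact_mod_cast hR0
  have hRR' : T / (ε / 2) < R := hR1.trans (by exact_mod_cast (by omega : R1 < R))
  have h4 : T * ((R * R : ℕ) : ℝ)⁻¹ ≤ ε / 2 := by
    rw [div_lt_iff₀ (by positivity)] at hRR'
    rw [← div_eq_mul_inv, div_le_iff₀ (by positivity)]
    push_cast
    nlinarith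
  have h5 : 2 * κ * (δ ^ 2 * K.card) ≤ ε / 2 := by
    have : 2 * κ * (δ ^ 2 * K.card) ≤ 2 * κ * |Ca| :=
      mul_le_mul_of_nonneg_left (hCa'.trans (le_abs_self _)) (by positivity)
    refine this.trans ?_
    rw [hκdef, mul_div_assoc', div_mul_eq_mul_div, div_le_iff₀ hCa]
    nlinarith [abs_nonneg Ca]
  have h6 : κ⁻¹ * (16 * (N : ℝ) ^ 4 * ((R * R : ℕ) : ℝ)⁻¹ *
      (δ ^ 2 * ∫ y, MW121.en Y y ∂(hamP F E ξ))) ≤ T * ((R * R : ℕ) : ℝ)⁻¹ := by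
    rw [hT]
    have : κ⁻¹ * (16 * (N : ℝ) ^ 4 * ((R * R : ℕ) : ℝ)⁻¹ *
      (δ ^ 2 * ∫ y, MW121.en Y y ∂(hamP F E ξ))) ≤ κ⁻¹ * (16 * (N : ℝ) ^ 4 * ((R * R : ℕ) : ℝ)⁻¹ *
      |Ce|) := by
      refine mul_le_mul_of_nonneg_left ?_ (inv_pos.2 hκ).le
      exact mul_le_mul_of_nonneg_left (hCe'.trans (le_abs_self _)) (by positivity)
    refine this.trans (le_of_eq ?_)
    ring
  rw [hS]
  calc _ = 2 * κ * (δ ^ 2 * K.card) + κ⁻¹ * (16 * (N : ℝ) ^ 4 * ((R * R : ℕ) : ℝ)⁻¹ *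
      (δ ^ 2 * ∫ y, MW121.en Y y ∂(hamP F E ξ))) := by ring
    _ ≤ ε / 2 + ε / 2 := add_le_add h5 (h6.trans h4)
    _ = ε := by ring

end

end Crest.Agent.R144.Fa812
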