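import Crest.Agent.R144.StB6_348
import Crest.Agent.R144.BQ6_565

/-!
R144 (S0197), helper348.  STEP B against 565's block energy `bT` (doc 1760, (T2), (T3)).

* `adT_cmpU` : the perturbation is in the class of the fibre;
* `bT_le_cut` : general cut families;
* `bT_le_stbG` : cut family `g χ(Z_w)` with an arbitrary scalar cut-off `g` (helper812's form);
* `bT_le_stb_split` : `g` = the explicit cut-off `gl crd m Z` of the deviations, `gR ≤ D`,
  splitting at level `M`.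
-/

set_option autoImplicit false
set_option linter.unusedSectionVars false

open MeasureTheory Set Filter Topology
open scoped ENNReal NNReal

noncomputable section

namespace Crest.Agent.R144.StB348

open Crest.Agent.R144.Ham560
open Crest.Agent.R144.BQ565
open Crest.Agent.R144.StB565
open Crest.Agent.R144.Lw425 (Proper)
open Crest.Agent.R144.MW121 (jac jac_apply en en_nonneg measurable_jac measurable_en)

section Gen

variable {U : Type*} [DecidableEq U] {I : Finset U} {E : Finset (U × U)} {ζ : U → ℝ}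
  {κ : Type*} [Fintype κ] {C : Finset U} {et : I → (I → ℝ) → ℝ} {T : ℝ → ℝ} {xi ctr : κ → ℝ}
  {Z : κ → (I → ℝ) → (I → ℝ)} {u : (I → ℝ) → (I → ℝ)} {LT : ℝ≥0}

/-- The two forms of rigidity agree. -/
theorem rig_iff {Y : (I → ℝ) → (I → ℝ)} : Rig I E ζ Y ↔ ∃ ρ > 0, ∀ x ∈ ham I E ζ, ∀ p ∈ E,
    Inn I p → 1 - ρ ≤ |ext I 0 x p.1 - ext I 0 x p.2| →
      ext I 0 (Y x) p.1 = ext I 0 (Y x) p.2 := by
  constructor
  · rintro ⟨ρ, hρ, h⟩
    refine ⟨ρ, hρ, fun x hx p hp hi hq => ?_⟩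
    rw [ext_mem hi.1, ext_mem hi.2] at hq ⊢
    exact h x hx ⟨p.1, hi.1⟩ ⟨p.2, hi.2⟩ hp hq
  · rintro ⟨ρ, hρ, h⟩
    refine ⟨ρ, hρ, fun x hx a b hab hq => ?_⟩
    have := h x hx (a.1, b.1) hab ⟨a.2, b.2⟩ (by rwa [ext_mem a.2, ext_mem b.2])
    rwa [ext_mem a.2, ext_mem b.2] at this

/-- **The perturbation is in the class of the fibre.** -/
theorem adT_cmpU (he : CutF I E ζ C et) (hT : LipschitzWith LT T)
    (hZ : ∀ i, LocallyLipschitz (Z i)) (hZr : ∀ i, Rig I E ζ (Z i)) (hu : LocallyLipschitz u)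
    (hur : Rig I E ζ u) : AdT I E C ζ (cmpU et T xi ctr Z u) where
  lip := ll_cmpU he.lip hT hZ hu
  rig := rig_iff.mp (rig_cmpU he hZr hur)
  core := fun _ hx _ hw => cmpU_core he hx hw

theorem measurable_gs {D : Finset I} {f : (I → ℝ) → ℝ} :
    Measurable fun x => gs D (dir I) f x := by
  unfold gs
  exact Finset.measurable_fun_sum _ fun v _ => (measurable_fderiv_apply_const ℝ f _).pow_const 2

/-- Squared gradients of locally Lipschitz functions are bounded on bounded sets. -/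
theorem exists_gs_bound {f : (I → ℝ) → ℝ} (hf : LocallyLipschitz f) {K : Set (I → ℝ)}
    (hK : Bornology.IsBounded K) :
    ∃ B, ∀ x ∈ K, DifferentiableAt ℝ f x → gs Finset.univ (dir I) f x ≤ B := by
  have hY : LocallyLipschitz (fun (x : I → ℝ) (_ : I) => f x) := LL.pi fun _ => hf
  obtain ⟨c, hc0, hc⟩ := exists_jac_bound hY hK
  refine ⟨Fintype.card I * c ^ 2, fun x hx hd => ?_⟩
  unfold gs
  calc ∑ v, (fderiv ℝ f x (dir I v)) ^ 2 ≤ ∑ _v : I, c ^ 2 := by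
        refine Finset.sum_le_sum fun v _ => ?_
        have h1 := hc x hx v v
        have hdY : DifferentiableAt ℝ (fun (x : I → ℝ) (_ : I) => f x) x :=
          differentiableAt_pi.mpr fun _ => hd
        rw [jac_eq hdY] at h1
        rw [← sq_abs]
        exact pow_le_pow_left₀ (abs_nonneg _) h1 2
    _ = _ := by simp

theorem integrable_gs {μ : Measure (I → ℝ)} (hμ : GoodLaw μ) {f : (I → ℝ) → ℝ}
    (hf : LocallyLipschitz f) : Integrable (fun x => gs Finset.univ (dir I) f x) μ := by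
  have := hμ.fin
  obtain ⟨K, hK, hae⟩ := hμ.conc
  obtain ⟨B, hB⟩ := exists_gs_bound hf hK
  refine Integrable.of_bound (C := B) measurable_gs.aestronglyMeasurable ?_
  filter_upwards [hae, hμ.ac.ae_le (ae_real hf)] with x hx hd
  rw [Real.norm_eq_abs, abs_of_nonneg (gs_nonneg _ _)]
  exact hB x hx hd

theorem integrable_mul_zz {μ : Measure (I → ℝ)} (hμ : GoodLaw μ) (hT : LipschitzWith LT T)
    (hZ : ∀ i, LocallyLipschitz (Z i)) (hu : LocallyLipschitz u) {f : (I → ℝ) → ℝ}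
    (hf : Integrable f μ) (w : I) :
    Integrable (fun x => f x * zz T xi ctr Z u w x ^ 2) μ := by
  have hc := (continuous_zz (xi := xi) (ctr := ctr) hT hZ hu w).pow 2
  obtain ⟨C, hC⟩ := GoodLaw.ae_bounded hμ hc
  refine hf.mul_bdd (c := C) hc.aestronglyMeasurable ?_
  filter_upwards [hC] with x hx
  simpa [Real.norm_eq_abs] using hx

end Gen

section BT

variable {U : Type*} [DecidableEq U] {I : Finset U} {E : Finset (U × U)} {ζ : U → ℝ}
  {κ : Type*} [Fintype κ] {C : Finset U} {et : I → (I → ℝ) → ℝ} {T : ℝ → ℝ} {xi ctr : κ → ℝ}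
  {L : κ → llip I} {u : (I → ℝ) → (I → ℝ)} {χ : (κ → ℝ) → ℝ} {Lc : ℝ≥0} {g : (I → ℝ) → ℝ}

/-- The reference fields. -/
abbrev rf (L : κ → llip I) : κ → (I → ℝ) → (I → ℝ) := fun i => (L i).1

/-- The block energy is at most the energy of the competitor. -/
theorem bT_le_cut (hA : Anch I E) (hE : Proper I E) (hv : 0 < volume (ham I E ζ))
    (he : CutF I E ζ C et) (hT : LipschitzWith 1 T) (hLr : ∀ i, Rig I E ζ (rf L i))
    (hu : LocallyLipschitz u) (hur : Rig I E ζ u) :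
    bT C hA ζ L xi ≤
      ∫ x, en ((∑ i, xi i • rf L i) + cmpU et T xi ctr (rf L) u) x ∂(hamP I E ζ) := by
  have h1 := bT_le_of_AdT (L := L) (xi := xi) hA hE hv
    (adT_cmpU (xi := xi) (ctr := ctr) he hT (fun i => (L i).2) hLr hu hur)
  rwa [coe_cmb] at h1

/-- The cut family `g χ(Z_w)` for an arbitrary scalar `g`. -/
def cutG (χ : (κ → ℝ) → ℝ) (g : (I → ℝ) → ℝ) (Z : κ → (I → ℝ) → (I → ℝ)) (w : I) (x : I → ℝ) :
    ℝ := g x * cut χ Z w x

theorem cutF_cutG {Z : κ → (I → ℝ) → (I → ℝ)} (hχ : LipschitzWith Lc χ)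
    (h01 : ∀ p, χ p ∈ Icc (0 : ℝ) 1) (hg : LocallyLipschitz g) (hg01 : ∀ x, g x ∈ Icc (0 : ℝ) 1)
    (hZ : ∀ i, LocallyLipschitz (Z i)) (hZr : ∀ i, Rig I E ζ (Z i))
    (hχ0 : ∀ x ∈ ham I E ζ, g x ≠ 0 → ∀ w : I, w.1 ∉ C → χ (fun i => Z i x w) = 0) :
    CutF I E ζ C (cutG χ g Z) where
  lip := fun w => LL.mul hg (ll_cut hχ hZ w)
  mem := fun w x => ⟨mul_nonneg (hg01 x).1 (h01 _).1, mul_le_one₀ (hg01 x).2 (h01 _).1 (h01 _).2⟩
  rig := by
    choose r hr h using hZr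
    obtain ⟨r3, hr3, h3⟩ : ∃ r3 > 0, ∀ i, r3 ≤ r i := by
      rcases isEmpty_or_nonempty κ with hκ | hκ
      · exact ⟨1, one_pos, fun i => (IsEmpty.false i).elim⟩
      · exact ⟨Finset.univ.inf' Finset.univ_nonempty r,
          (Finset.lt_inf'_iff _).mpr fun i _ => hr i,
          fun i => Finset.inf'_le _ (Finset.mem_univ i)⟩
    refine ⟨r3, hr3, fun x hx a b hab hq => ?_⟩
    have e3 : ∀ i, Z i x a = Z i x b := fun i => h i x hx a b hab (by have := h3 i; linarith)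
    simp only [cutG, cut, e3]
  core := by
    intro x hx w hw
    by_cases h : g x = 0
    · rw [cutG, h, zero_mul]
    · rw [cutG, cut, hχ0 x hx h w hw, mul_zero]

theorem gs_cutG_le {Z : κ → (I → ℝ) → (I → ℝ)} (hχ : LipschitzWith Lc χ)
    (h01 : ∀ p, χ p ∈ Icc (0 : ℝ) 1) (hg01 : ∀ x, g x ∈ Icc (0 : ℝ) 1)
    {x : I → ℝ} (dZ : ∀ i, DifferentiableAt ℝ (Z i) x) (dg : DifferentiableAt ℝ g x)
    (w : I) (dc : DifferentiableAt ℝ (cut χ Z w) x) :
    gs Finset.univ (dir I) (cutG χ g Z w) x ≤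
      if g x ≠ 0 then 2 * ((Lc : ℝ) ^ 2 * gR Z w x + gs Finset.univ (dir I) g x) else 0 := by
  have hce : ∀ y, cutG χ g Z w y ∈ Icc (0 : ℝ) 1 := fun y =>
    ⟨mul_nonneg (hg01 y).1 (h01 _).1, mul_le_one₀ (hg01 y).2 (h01 _).1 (h01 _).2⟩
  split_ifs with h0
  · have a1 := gs_mul_le (D := Finset.univ) (e := dir I) dg dc
      (by rw [abs_of_nonneg (hg01 x).1]; exact (hg01 x).2)
      (by rw [abs_of_nonneg (a := cut χ Z w x) (h01 _).1]; exact (h01 _).2)
    have a3 := gs_cut_le (D := Finset.univ) (e := dir I) hχ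
      (fun i => differentiableAt_pi.mp (dZ i) w) dc
    rw [← gR_eq dZ] at a3
    change gs Finset.univ (dir I) (fun y => g y * cut χ Z w y) x ≤ _
    change gs Finset.univ (dir I) (cut χ Z w) x ≤ _ at a3
    linarith
  · rw [not_not] at h0
    have h3 : cutG χ g Z w x = 0 := by rw [cutG, h0, zero_mul]
    exact (gs_eq_zero_of_extr hce (Or.inl h3)).le

/-- **STB for a general scalar cut-off, pointwise a.e.** -/
theorem ae_en_cutG_le {Z : κ → (I → ℝ) → (I → ℝ)} (hχ : LipschitzWith Lc χ)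
    (h01 : ∀ p, χ p ∈ Icc (0 : ℝ) 1) (hg : LocallyLipschitz g) (hg01 : ∀ x, g x ∈ Icc (0 : ℝ) 1)
    (hZ : ∀ i, LocallyLipschitz (Z i)) (hu : LocallyLipschitz u) (hT : LipschitzWith 1 T) :
    ∀ᵐ x : I → ℝ, ∀ th : ℝ, 0 < th →
      en ((∑ i, xi i • Z i) + cmpU (cutG χ g Z) T xi ctr Z u) x ≤ (1 + th) * en u x +
        (1 + th⁻¹) * 2 * ((∑ i, xi i ^ 2) * ∑ w, (if g x * cut χ Z w x ≠ 1 then gR Z w x else 0) +
          2 * (Lc : ℝ) ^ 2 * ∑ w, (if g x ≠ 0 then gR Z w x * zz T xi ctr Z u w x ^ 2 else 0) +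
          2 * ∑ w, (if g x ≠ 0 then
            gs Finset.univ (dir I) g x * zz T xi ctr Z u w x ^ 2 else 0)) := by
  have hlip : ∀ w, LocallyLipschitz (cutG χ g Z w) := fun w => LL.mul hg (ll_cut hχ hZ w)
  have hmem : ∀ (w : I) (y : I → ℝ), cutG χ g Z w y ∈ Icc (0 : ℝ) 1 := fun w y =>
    ⟨mul_nonneg (hg01 y).1 (h01 _).1, mul_le_one₀ (hg01 y).2 (h01 _).1 (h01 _).2⟩
  filter_upwards [ae_all_iff.mpr fun i => ae_differentiableAt (hZ i), ae_differentiableAt hu,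
    ae_all_iff.mpr fun w => ae_real (hlip w),
    ae_all_iff.mpr fun w => ae_real (ll_trunc hT hu w),
    ae_differentiableAt ((ll_lab (xi := xi) hZ).add
      (ll_cmpU (xi := xi) (ctr := ctr) hlip hT hZ hu)),
    ae_real hg, ae_all_iff.mpr fun w => ae_real (ll_cut hχ hZ w)]
    with x h1 h2 h3 h4 h5 h6 h7 th hth
  have hc : 0 ≤ (1 + th⁻¹) * 2 := by have := inv_pos.mpr hth; positivity
  have hxi : 0 ≤ ∑ i, xi i ^ 2 := Finset.sum_nonneg fun _ _ => sq_nonneg _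
  have key := en_cmpU_le (et := cutG χ g Z) (xi := xi) (ctr := ctr) (fun w => hmem w x) hT
    h1 h2 h3 h4 h5 hth
  refine key.trans (add_le_add le_rfl (mul_le_mul_of_nonneg_left ?_ hc))
  have k1 : ∑ w with cutG χ g Z w x ≠ 1, gR Z w x =
      ∑ w, (if g x * cut χ Z w x ≠ 1 then gR Z w x else 0) := by
    rw [Finset.sum_filter]; rfl
  have k2 : ∀ w : I, gs Finset.univ (dir I) (cutG χ g Z w) x * zz T xi ctr Z u w x ^ 2 ≤
      2 * (Lc : ℝ) ^ 2 * (if g x ≠ 0 then gR Z w x * zz T xi ctr Z u w x ^ 2 else 0) +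
      2 * (if g x ≠ 0 then gs Finset.univ (dir I) g x * zz T xi ctr Z u w x ^ 2 else 0) := by
    intro w
    have a1 := gs_cutG_le (Lc := Lc) hχ h01 hg01 h1 h6 w (h7 w)
    have a3 := mul_le_mul_of_nonneg_right a1 (sq_nonneg (zz T xi ctr Z u w x))
    refine a3.trans (le_of_eq ?_)
    split_ifs <;> ring
  have k3 := Finset.sum_le_sum fun w (_ : w ∈ (Finset.univ : Finset I)) => k2 w
  rw [Finset.sum_add_distrib, ← Finset.mul_sum, ← Finset.mul_sum] at k3
  rw [k1]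
  linarith

/-- **STB against `bT`** (helper812's form), with the indicators of `g ≠ 0`. -/
theorem bT_le_stbG (hA : Anch I E) (hE : Proper I E) (hv : 0 < volume (ham I E ζ))
    (hχ : LipschitzWith Lc χ) (h01 : ∀ p, χ p ∈ Icc (0 : ℝ) 1) (hg : LocallyLipschitz g)
    (hg01 : ∀ x, g x ∈ Icc (0 : ℝ) 1)
    (hχ0 : ∀ x ∈ ham I E ζ, g x ≠ 0 → ∀ w : I, w.1 ∉ C → χ (fun i => rf L i x w) = 0)
    (hT : LipschitzWith 1 T) (hLr : ∀ i, Rig I E ζ (rf L i))
    (hu : LocallyLipschitz u) (hur : Rig I E ζ u) {th : ℝ} (hth : 0 < th) :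
    bT C hA ζ L xi ≤ (1 + th) * ∫ x, en u x ∂(hamP I E ζ) +
      (1 + th⁻¹) * 2 * (
        (∑ i, xi i ^ 2) * ∑ w, ∫ x, (if g x * cut χ (rf L) w x ≠ 1 then gR (rf L) w x else 0)
          ∂(hamP I E ζ) +
        2 * (Lc : ℝ) ^ 2 * ∑ w, ∫ x, (if g x ≠ 0 then
          gR (rf L) w x * zz T xi ctr (rf L) u w x ^ 2 else 0) ∂(hamP I E ζ) +
        2 * ∑ w, ∫ x, (if g x ≠ 0 then
          gs Finset.univ (dir I) g x * zz T xi ctr (rf L) u w x ^ 2 else 0) ∂(hamP I E ζ)) := by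
  have hμ : GoodLaw (hamP I E ζ) := goodLaw_hamP' hA ζ
  have hfin := hμ.fin
  have hZ : ∀ i, LocallyLipschitz (rf L i) := fun i => (L i).2
  have hlip : ∀ w, LocallyLipschitz (cutG χ g (rf L) w) := fun w => LL.mul hg (ll_cut hχ hZ w)
  have he : CutF I E ζ C (cutG χ g (rf L)) := cutF_cutG hχ h01 hg hg01 hZ hLr hχ0
  refine (bT_le_cut (ctr := ctr) hA hE hv he hT hLr hu hur).trans ?_
  have hX : LocallyLipschitz ((∑ i, xi i • rf L i) + cmpU (cutG χ g (rf L)) T xi ctr (rf L) u) :=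
    (ll_lab (xi := xi) hZ).add (ll_cmpU (xi := xi) (ctr := ctr) hlip hT hZ hu)
  have hs0 : MeasurableSet {x | g x ≠ 0} :=
    (measurableSet_eq_fun hg.continuous.measurable measurable_const).compl
  have i1 := hμ.integrable_en hu
  have i2 : ∀ w : I, Integrable (fun x => if g x * cut χ (rf L) w x ≠ 1 then
      gR (rf L) w x else 0) (hamP I E ζ) := by
    intro w
    have hs : MeasurableSet {x | g x * cut χ (rf L) w x ≠ 1} :=
      (measurableSet_eq_fun (hg.continuous.mul (ll_cut hχ hZ w).continuous).measurable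
        measurable_const).compl
    refine ((integrable_gR hμ hZ w).indicator hs).congr (Eventually.of_forall fun x => ?_)
    simp [indicator_apply]
  have i3 : ∀ w : I, Integrable (fun x => if g x ≠ 0 then
      gR (rf L) w x * zz T xi ctr (rf L) u w x ^ 2 else 0) (hamP I E ζ) := by
    intro w
    refine ((integrable_gR_mul_sq (xi := xi) (ctr := ctr) hμ hT hZ hu w).indicator hs0).congr
      (Eventually.of_forall fun x => ?_)
    simp [indicator_apply]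
  have i4 : ∀ w : I, Integrable (fun x => if g x ≠ 0 then
      gs Finset.univ (dir I) g x * zz T xi ctr (rf L) u w x ^ 2 else 0) (hamP I E ζ) := by
    intro w
    refine ((integrable_mul_zz (xi := xi) (ctr := ctr) hμ hT hZ hu
      (integrable_gs hμ hg) w).indicator hs0).congr (Eventually.of_forall fun x => ?_)
    simp [indicator_apply]
  set K1 := (∑ i, xi i ^ 2)
  have j2 : Integrable (fun x => K1 * ∑ w, (if g x * cut χ (rf L) w x ≠ 1 then
      gR (rf L) w x else 0)) (hamP I E ζ) := (integrable_finsetSum _ fun w _ => i2 w).const_mul _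
  have j3 : Integrable (fun x => 2 * (Lc : ℝ) ^ 2 * ∑ w, (if g x ≠ 0 then
      gR (rf L) w x * zz T xi ctr (rf L) u w x ^ 2 else 0)) (hamP I E ζ) :=
    (integrable_finsetSum _ fun w _ => i3 w).const_mul _
  have j4 : Integrable (fun x => 2 * ∑ w, (if g x ≠ 0 then
      gs Finset.univ (dir I) g x * zz T xi ctr (rf L) u w x ^ 2 else 0)) (hamP I E ζ) :=
    (integrable_finsetSum _ fun w _ => i4 w).const_mul _
  have j5 : Integrable (fun x => K1 * ∑ w, (if g x * cut χ (rf L) w x ≠ 1 then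
      gR (rf L) w x else 0) + 2 * (Lc : ℝ) ^ 2 * ∑ w, (if g x ≠ 0 then
      gR (rf L) w x * zz T xi ctr (rf L) u w x ^ 2 else 0)) (hamP I E ζ) := j2.add j3
  have j6 : Integrable (fun x => K1 * ∑ w, (if g x * cut χ (rf L) w x ≠ 1 then
      gR (rf L) w x else 0) + 2 * (Lc : ℝ) ^ 2 * ∑ w, (if g x ≠ 0 then
      gR (rf L) w x * zz T xi ctr (rf L) u w x ^ 2 else 0) + 2 * ∑ w, (if g x ≠ 0 then
      gs Finset.univ (dir I) g x * zz T xi ctr (rf L) u w x ^ 2 else 0)) (hamP I E ζ) :=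
    j5.add j4
  have key : ∀ᵐ x ∂(hamP I E ζ),
      en ((∑ i, xi i • rf L i) + cmpU (cutG χ g (rf L)) T xi ctr (rf L) u) x ≤
      (1 + th) * en u x + (1 + th⁻¹) * 2 * (K1 * ∑ w, (if g x * cut χ (rf L) w x ≠ 1 then
        gR (rf L) w x else 0) + 2 * (Lc : ℝ) ^ 2 * ∑ w, (if g x ≠ 0 then
        gR (rf L) w x * zz T xi ctr (rf L) u w x ^ 2 else 0) + 2 * ∑ w, (if g x ≠ 0 then
        gs Finset.univ (dir I) g x * zz T xi ctr (rf L) u w x ^ 2 else 0)) := by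
    filter_upwards [hμ.ac.ae_le (ae_en_cutG_le (xi := xi) (ctr := ctr) hχ h01 hg hg01 hZ hu hT)]
      with x hx using hx th hth
  refine (integral_mono_ae (hμ.integrable_en hX) ((i1.const_mul (1 + th)).add
    (j6.const_mul ((1 + th⁻¹) * 2))) key).trans (le_of_eq ?_)
  have e0 : ∫ x, ((1 + th) * en u x + (1 + th⁻¹) * 2 * (K1 * ∑ w, (if g x * cut χ (rf L) w x ≠ 1
        then gR (rf L) w x else 0) + 2 * (Lc : ℝ) ^ 2 * ∑ w, (if g x ≠ 0 then
        gR (rf L) w x * zz T xi ctr (rf L) u w x ^ 2 else 0) + 2 * ∑ w, (if g x ≠ 0 then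
        gs Finset.univ (dir I) g x * zz T xi ctr (rf L) u w x ^ 2 else 0))) ∂(hamP I E ζ) =
      (∫ x, (1 + th) * en u x ∂(hamP I E ζ)) + ∫ x, (1 + th⁻¹) * 2 * (K1 * ∑ w,
        (if g x * cut χ (rf L) w x ≠ 1
        then gR (rf L) w x else 0) + 2 * (Lc : ℝ) ^ 2 * ∑ w, (if g x ≠ 0 then
        gR (rf L) w x * zz T xi ctr (rf L) u w x ^ 2 else 0) + 2 * ∑ w, (if g x ≠ 0 then
        gs Finset.univ (dir I) g x * zz T xi ctr (rf L) u w x ^ 2 else 0)) ∂(hamP I E ζ) :=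
    integral_add (i1.const_mul (1 + th)) (j6.const_mul ((1 + th⁻¹) * 2))
  have e1 : ∫ x, (K1 * ∑ w, (if g x * cut χ (rf L) w x ≠ 1
        then gR (rf L) w x else 0) + 2 * (Lc : ℝ) ^ 2 * ∑ w, (if g x ≠ 0 then
        gR (rf L) w x * zz T xi ctr (rf L) u w x ^ 2 else 0) + 2 * ∑ w, (if g x ≠ 0 then
        gs Finset.univ (dir I) g x * zz T xi ctr (rf L) u w x ^ 2 else 0)) ∂(hamP I E ζ) =
      (∫ x, (K1 * ∑ w, (if g x * cut χ (rf L) w x ≠ 1
        then gR (rf L) w x else 0) + 2 * (Lc : ℝ) ^ 2 * ∑ w, (if g x ≠ 0 then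
        gR (rf L) w x * zz T xi ctr (rf L) u w x ^ 2 else 0)) ∂(hamP I E ζ)) +
      ∫ x, 2 * ∑ w, (if g x ≠ 0 then
        gs Finset.univ (dir I) g x * zz T xi ctr (rf L) u w x ^ 2 else 0) ∂(hamP I E ζ) :=
    integral_add j5 j4
  have e2 : ∫ x, (K1 * ∑ w, (if g x * cut χ (rf L) w x ≠ 1
        then gR (rf L) w x else 0) + 2 * (Lc : ℝ) ^ 2 * ∑ w, (if g x ≠ 0 then
        gR (rf L) w x * zz T xi ctr (rf L) u w x ^ 2 else 0)) ∂(hamP I E ζ) =
      (∫ x, K1 * ∑ w, (if g x * cut χ (rf L) w x ≠ 1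
        then gR (rf L) w x else 0) ∂(hamP I E ζ)) +
      ∫ x, 2 * (Lc : ℝ) ^ 2 * ∑ w, (if g x ≠ 0 then
        gR (rf L) w x * zz T xi ctr (rf L) u w x ^ 2 else 0) ∂(hamP I E ζ) :=
    integral_add j2 j3
  refine e0.trans ?_
  rw [integral_const_mul, integral_const_mul, e1, e2, integral_const_mul, integral_const_mul,
    integral_const_mul, integral_finsetSum _ fun w _ => i2 w,
    integral_finsetSum _ fun w _ => i3 w, integral_finsetSum _ fun w _ => i4 w]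

/-- **STB against `bT`**, explicit cut-off `gl crd m Z`, `gR ≤ D`, splitting at level `M`. -/
theorem bT_le_stb_split (hA : Anch I E) (hE : Proper I E) (hv : 0 < volume (ham I E ζ))
    {crd : κ → U → ℝ} {m : ℝ} (hm : 0 < m)
    (hχ : LipschitzWith Lc χ) (h01 : ∀ p, χ p ∈ Icc (0 : ℝ) 1)
    (hχ0 : ∀ w : I, w.1 ∉ C → ∀ p : κ → ℝ, (∀ i, |p i - crd i w| < 2 * m) → χ p = 0)
    (hT : LipschitzWith 1 T) (hLr : ∀ i, Rig I E ζ (rf L i))
    (hu : LocallyLipschitz u) (hur : Rig I E ζ u)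
    {Col : Finset I}
    (hCol : ∀ w : I, w ∉ Col → ∀ p : κ → ℝ, (∀ i, |p i - crd i w| ≤ m) → χ p = 1)
    {B : ℝ} (hB : ∀ x, 0 < gl crd m (rf L) x → ∀ w, |zz T xi ctr (rf L) u w x| ≤ B)
    {D : I → (I → ℝ) → ℝ} (hDi : ∀ w, Integrable (D w) (hamP I E ζ))
    (hD : ∀ᵐ x ∂(hamP I E ζ), ∀ w, gR (rf L) w x ≤ D w x) {M : ℝ} (hM : 0 ≤ M) {th : ℝ}
    (hth : 0 < th) :
    bT C hA ζ L xi ≤ (1 + th) * ∫ x, en u x ∂(hamP I E ζ) +
      (1 + th⁻¹) * 2 * ((∑ i, xi i ^ 2) * ∑ w ∈ Col, ∫ x, D w x ∂(hamP I E ζ) +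
        2 * (Lc : ℝ) ^ 2 * ∑ w, ∫ x, (M * B * (if 0 < gl crd m (rf L) x then
            |zz T xi ctr (rf L) u w x| else 0) + B ^ 2 * (if M < D w x then D w x else 0))
              ∂(hamP I E ζ) +
        ((∑ i, xi i ^ 2) + 2 * (m ^ 2)⁻¹ * (Fintype.card I * B ^ 2)) *
          ∑ w, ∫ x, (if gl crd m (rf L) x < 1 then D w x else 0) ∂(hamP I E ζ)) := by
  have hμ : GoodLaw (hamP I E ζ) := goodLaw_hamP' hA ζ
  have hZ : ∀ i, LocallyLipschitz (rf L i) := fun i => (L i).2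
  have he : CutF I E ζ C (cutg χ crd m (rf L)) := cutF_cutg hm hχ h01 hZ hLr hχ0
  exact (bT_le_cut (ctr := ctr) hA hE hv he hT hLr hu hur).trans
    (int_en_cmpG_split hμ hm hχ h01 hZ hu hT hCol hB hDi hD hM hth)

end BT

end Crest.Agent.R144.StB348
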