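import Crest.Agent.R144.Fa2_812
import Crest.Agent.R144.StB7_348

/-!
# R144 (S0197), helper812: fibre assembly FA, part 3: one block

`RefB`: reference fields on the fibres of one block with their dominating observables `D` (squared
gradients) and `dv` (deviations).  `Hf`: the integrand.  `bT_le_Ebz`: on almost every fibre,
`bT ≤ E[Hf | outside]` (helper348's competitor).  `block_le`: the integrated inequality.
-/

set_option autoImplicit false
set_option linter.unusedSectionVars false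

open MeasureTheory Set Filter Topology
open scoped ENNReal NNReal

namespace Crest.Agent.R144.Fa812

open Crest.Agent.R144.Ham560 Crest.Agent.R144.Fib674
open Crest.Agent.R144.BQ565 (GoodLaw llip bT goodLaw_hamP' hamP_ac_restrict)
open Crest.Agent.R144.StB348 (Rig rf gR gR_nonneg gl zz cutg cmpU ups mn jac_eq)
open Crest.Agent.R144.Lw425 (Proper)
open Crest.Agent.R144.MW121 (jac en)

noncomputable section

section One

variable {U : Type*} [DecidableEq U] {F I : Finset U} {E : Finset (U × U)} {ξ : U → ℝ}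

/-- the field on a fibre -/
def fu (hI : I ⊆ F) (V : (F → ℝ) → (F → ℝ)) (z : ↥(F \ I) → ℝ) : (I → ℝ) → (I → ℝ) :=
  fun x w => V (glue F I z x) ⟨(w : U), hI w.2⟩

/-- the energy inside the block -/
def enI (hI : I ⊆ F) (V : (F → ℝ) → (F → ℝ)) (ω : F → ℝ) : ℝ :=
  ∑ w : I, ∑ v : I, jac V ω ⟨(w : U), hI w.2⟩ ⟨(v : U), hI v.2⟩ ^ 2

theorem enI_nonneg (hI : I ⊆ F) (V : (F → ℝ) → (F → ℝ)) (ω : F → ℝ) : 0 ≤ enI hI V ω :=
  Finset.sum_nonneg fun _ _ => Finset.sum_nonneg fun _ _ => sq_nonneg _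

theorem measurable_enI (hI : I ⊆ F) (V : (F → ℝ) → (F → ℝ)) : Measurable (enI hI V) :=
  Finset.measurable_fun_sum _ fun _ _ => Finset.measurable_fun_sum _ fun _ _ =>
    (MW121.measurable_jac V _ _).pow_const 2

theorem enI_le {V : (F → ℝ) → (F → ℝ)} {c : ℝ≥0} (hI : I ⊆ F) (hV : LipschitzWith c V)
    (ω : F → ℝ) : enI hI V ω ≤ (I.card : ℝ) * ((I.card : ℝ) * c ^ 2) := by
  unfold enI
  calc _ ≤ ∑ _w : I, ∑ _v : I, (c : ℝ) ^ 2 := by
        refine Finset.sum_le_sum fun u _ => Finset.sum_le_sum fun v _ => ?_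
        rw [← sq_abs]
        exact pow_le_pow_left₀ (abs_nonneg _) (MW121.abs_jac_le hV ω _ _) 2
    _ = _ := by
        rw [Finset.sum_const, Finset.card_univ, nsmul_eq_mul, Finset.sum_const, Finset.card_univ,
          nsmul_eq_mul, Fintype.card_coe]

theorem integrable_enI {μ : Measure (F → ℝ)} [IsFiniteMeasure μ] {V : (F → ℝ) → (F → ℝ)} {c : ℝ≥0}
    (hI : I ⊆ F) (hV : LipschitzWith c V) : Integrable (enI hI V) μ := by
  refine Integrable.of_bound (measurable_enI hI V).aestronglyMeasurable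
    ((I.card : ℝ) * ((I.card : ℝ) * c ^ 2)) (ae_of_all _ fun y => ?_)
  rw [Real.norm_of_nonneg (enI_nonneg hI V y)]
  exact enI_le hI hV y

theorem lip_fu {V : (F → ℝ) → (F → ℝ)} {c : ℝ≥0} (hI : I ⊆ F) (hV : LipschitzWith c V)
    (z : ↥(F \ I) → ℝ) : LipschitzWith c (fu hI V z) := by
  refine LipschitzWith.of_dist_le_mul fun x y => ?_
  refine (dist_pi_le_iff (by positivity)).2 fun w => ?_
  have h1 : dist (fu hI V z x w) (fu hI V z y w) ≤ dist (V (glue F I z x)) (V (glue F I z y)) :=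
    dist_le_pi_dist (V (glue F I z x)) (V (glue F I z y)) _
  refine h1.trans ((hV.dist_le_mul _ _).trans (mul_le_mul_of_nonneg_left ?_ c.2))
  have h2 := (lip_glue_right (F := F) (I := I) z).dist_le_mul x y
  rwa [NNReal.coe_one, one_mul] at h2

theorem diff_fu {V : (F → ℝ) → (F → ℝ)} (hI : I ⊆ F) {z : ↥(F \ I) → ℝ} {x : I → ℝ}
    (hV : DifferentiableAt ℝ V (glue F I z x)) : DifferentiableAt ℝ (fu hI V z) x := by
  refine differentiableAt_pi.2 fun w => ?_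
  have h1 : DifferentiableAt ℝ (fun ω => V ω ⟨(w : U), hI w.2⟩) (glue F I z x) :=
    differentiableAt_pi.1 hV _
  exact h1.comp x (hasFDerivAt_glue z x).differentiableAt

theorem en_fu {V : (F → ℝ) → (F → ℝ)} (hI : I ⊆ F) {z : ↥(F \ I) → ℝ} {x : I → ℝ}
    (hV : DifferentiableAt ℝ V (glue F I z x)) : en (fu hI V z) x = enI hI V (glue F I z x) := by
  unfold en enI
  refine Finset.sum_congr rfl fun w _ => Finset.sum_congr rfl fun v _ => ?_
  rw [jac_eq (diff_fu hI hV), jac_eq hV]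
  have h1 : DifferentiableAt ℝ (fun ω => V ω ⟨(w : U), hI w.2⟩) (glue F I z x) :=
    differentiableAt_pi.1 hV _
  have h2 := fderiv_glue hI h1 v
  unfold pd at h2
  rw [← h2]
  rfl

/-- rigidity near the walls of the whole system -/
def RigF (F : Finset U) (E : Finset (U × U)) (ξ : U → ℝ) (V : (F → ℝ) → (F → ℝ)) : Prop :=
  ∃ ρ > 0, ∀ x ∈ ham F E ξ, ∀ p ∈ E, 1 - ρ ≤ |ext F ξ x p.1 - ext F ξ x p.2| →
    ext F 0 (V x) p.1 = ext F 0 (V x) p.2

theorem rig_fu {V : (F → ℝ) → (F → ℝ)} (hI : I ⊆ F) (hV : RigF F E ξ V) {z : ↥(F \ I) → ℝ}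
    (hz : z ∈ ham (F \ I) (Eout I E) ξ) : Rig I (Ein I E) (ext (F \ I) ξ z) (fu hI V z) := by
  obtain ⟨ρ, hρ, h⟩ := hV
  refine ⟨ρ, hρ, fun x hx a b hab hq => ?_⟩
  have hg := (ham_split (F := F) (E := E) (ξ := ξ) hI).2 ⟨hz, hx⟩
  have h1 := h _ hg ((a : U), (b : U)) (mem_Ein.1 hab).1 (by
    rw [ext_glue hI, ext_mem a.2, ext_mem b.2]; exact hq)
  rwa [ext_mem (hI a.2), ext_mem (hI b.2)] at h1

/-- reference fields on the fibres of the block and dominating observables -/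
structure RefB (hI : I ⊆ F) (E : Finset (U × U)) (ξ : U → ℝ)
    (L : (↥(F \ I) → ℝ) → Fin 2 → llip I) (crd : Fin 2 → U → ℝ) (D dv : I → (F → ℝ) → ℝ) :
    Prop where
  rig : ∀ z ∈ ham (F \ I) (Eout I E) ξ, ∀ i, Rig I (Ein I E) (ext (F \ I) ξ z) (rf (L z) i)
  grad : ∀ z ∈ ham (F \ I) (Eout I E) ξ, ∀ᵐ x : I → ℝ, glue F I z x ∈ ham F E ξ →
    ∀ w, gR (rf (L z)) w x ≤ D w (glue F I z x)
  dev : ∀ z x, glue F I z x ∈ ham F E ξ → ∀ i w, |rf (L z) i x w - crd i w| ≤ dv w (glue F I z x)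
  mD : ∀ w, Measurable (D w)
  mdv : ∀ w, Measurable (dv w)
  iD : ∀ w, Integrable (D w) (hamP F E ξ)
  idv : ∀ w, Integrable (dv w) (hamP F E ξ)
  D0 : ∀ w ω, 0 ≤ D w ω
  dv0 : ∀ w ω, 0 ≤ dv w ω

/-- the error of the linear approximation, as an observable -/
def zw (hI : I ⊆ F) (V : (F → ℝ) → (F → ℝ)) (G xb : Fin 2 → (F → ℝ) → ℝ) (crd : Fin 2 → U → ℝ)
    (ctr : Fin 2 → ℝ) (dv : I → (F → ℝ) → ℝ) (Λ r : ℝ) (w : I) (ω : F → ℝ) : ℝ :=
  |V ω ⟨(w : U), hI w.2⟩ - (∑ w' : I, V ω ⟨(w' : U), hI w'.2⟩) / Fintype.card I -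
    ∑ i, G i ω * (crd i w - ctr i)| +
    5 * r * ∑ i, |StB348.tr (4 * Λ) (G i ω) - xb i ω| + 8 * Λ * dv w ω

/-- the integrand of the block inequality -/
def Hf (hI : I ⊆ F) (V : (F → ℝ) → (F → ℝ)) (G xb : Fin 2 → (F → ℝ) → ℝ) (crd : Fin 2 → U → ℝ)
    (ctr : Fin 2 → ℝ) (D dv : I → (F → ℝ) → ℝ) (Col : Finset I) (th Λ r m Lc M B : ℝ)
    (ω : F → ℝ) : ℝ :=
  (1 + th) * enI hI V ω + (1 + th⁻¹) * 2 * (8 * Λ ^ 2 * ∑ w ∈ Col, D w ω +
    2 * Lc ^ 2 * ∑ w, (M * B * zw hI V G xb crd ctr dv Λ r w ω +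
      B ^ 2 * (if M < D w ω then D w ω else 0)) +
    (8 * Λ ^ 2 + 2 * (m ^ 2)⁻¹ * (Fintype.card I * B ^ 2)) *
      ∑ w, (if ∃ w', m < dv w' ω then D w ω else 0))

variable {hI : I ⊆ F} {V : (F → ℝ) → (F → ℝ)} {G xb : Fin 2 → (F → ℝ) → ℝ} {crd : Fin 2 → U → ℝ}
  {ctr : Fin 2 → ℝ} {D dv : I → (F → ℝ) → ℝ} {Col : Finset I} {th Λ r m M B : ℝ} {Lc : ℝ≥0}
  {L : (↥(F \ I) → ℝ) → Fin 2 → llip I} {Co : Finset U} {χ : (Fin 2 → ℝ) → ℝ} {c : ℝ≥0}

theorem zw_nonneg (hΛ : 0 ≤ Λ) (hr : 0 ≤ r) (hdv : ∀ w ω, 0 ≤ dv w ω) (w : I) (ω : F → ℝ) :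
    0 ≤ zw hI V G xb crd ctr dv Λ r w ω := by
  unfold zw
  have h1 : 0 ≤ ∑ i, |StB348.tr (4 * Λ) (G i ω) - xb i ω| :=
    Finset.sum_nonneg fun _ _ => abs_nonneg _
  have h2 := hdv w ω
  positivity

theorem ite_nonneg' {p : Prop} [Decidable p] {a : ℝ} (ha : 0 ≤ a) : 0 ≤ (if p then a else 0) := by
  split_ifs
  · exact ha
  · exact le_rfl

theorem Hf_nonneg (hΛ : 0 ≤ Λ) (hr : 0 ≤ r) (hM : 0 ≤ M) (hB : 0 ≤ B) (hth : 0 < th)
    (hD : ∀ w ω, 0 ≤ D w ω) (hdv : ∀ w ω, 0 ≤ dv w ω) (ω : F → ℝ) :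
    0 ≤ Hf hI V G xb crd ctr D dv Col th Λ r m Lc M B ω := by
  unfold Hf
  have h0 := enI_nonneg hI V ω
  have h1 : 0 ≤ ∑ w ∈ Col, D w ω := Finset.sum_nonneg fun w _ => hD w ω
  have h2 : 0 ≤ ∑ w, (M * B * zw hI V G xb crd ctr dv Λ r w ω +
      B ^ 2 * (if M < D w ω then D w ω else 0)) := by
    refine Finset.sum_nonneg fun w _ => ?_
    have a1 := zw_nonneg (hI := hI) (V := V) (G := G) (xb := xb) (crd := crd) (ctr := ctr) hΛ hr
      hdv w ω
    have a2 := ite_nonneg' (p := M < D w ω) (hD w ω)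
    positivity
  have h3 : 0 ≤ ∑ w, (if ∃ w', m < dv w' ω then D w ω else 0) :=
    Finset.sum_nonneg fun w _ => ite_nonneg' (hD w ω)
  have h4 : 0 < th⁻¹ := inv_pos.2 hth
  positivity

/-- pointwise passage from helper348's inequality to `Hf` -/
theorem pt_le (RB : RefB hI E ξ L crd D dv) (hm : 0 < m) (hΛ : 0 ≤ Λ) (hr : 0 ≤ r) (hM : 0 ≤ M)
    (hth : 0 < th) (hy : ∀ i (w : I), |crd i w - ctr i| ≤ r / 2) {z : ↥(F \ I) → ℝ} {x : I → ℝ}
    (hx : glue F I z x ∈ ham F E ξ) (hgr : ∀ w, gR (rf (L z)) w x ≤ D w (glue F I z x))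
    {xi : Fin 2 → ℝ} (hxi : ∀ i, |xi i| ≤ 2 * Λ)
    (hxb : ∀ i, xb i (glue F I z x) = xi i) (hVd : DifferentiableAt ℝ V (glue F I z x))
    (hB : 10 * Λ * r + 8 * Λ * m ≤ B) :
    (1 + th) * en (fu hI V z) x +
        (1 + th⁻¹) * 2 * ((∑ i, xi i ^ 2) * ∑ w ∈ Col, gR (rf (L z)) w x +
          2 * (Lc : ℝ) ^ 2 * ∑ w, (if 0 < gl crd m (rf (L z)) x then
            gR (rf (L z)) w x * zz (StB348.tr (8 * Λ * r)) xi ctr (rf (L z)) (fu hI V z) w x ^ 2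
            else 0) +
          ((∑ i, xi i ^ 2) + 2 * (m ^ 2)⁻¹ * (Fintype.card I * B ^ 2)) *
            ∑ w, (if gl crd m (rf (L z)) x < 1 then gR (rf (L z)) w x else 0)) ≤
      Hf hI V G xb crd ctr D dv Col th Λ r m Lc M B (glue F I z x) := by
  have hth' : 0 < th⁻¹ := inv_pos.2 hth
  have hB0 : 0 ≤ B := le_trans (by positivity) hB
  have hxi2 : ∑ i, xi i ^ 2 ≤ 8 * Λ ^ 2 := by
    rw [Fin.sum_univ_two]
    have h0 : xi 0 ^ 2 ≤ (2 * Λ) ^ 2 := by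
      rw [← sq_abs]; exact pow_le_pow_left₀ (abs_nonneg _) (hxi 0) 2
    have h1 : xi 1 ^ 2 ≤ (2 * Λ) ^ 2 := by
      rw [← sq_abs]; exact pow_le_pow_left₀ (abs_nonneg _) (hxi 1) 2
    nlinarith
  have hxi0 : 0 ≤ ∑ i, xi i ^ 2 := Finset.sum_nonneg fun _ _ => sq_nonneg _
  unfold Hf
  rw [en_fu hI hVd]
  refine add_le_add le_rfl (mul_le_mul_of_nonneg_left (add_le_add (add_le_add ?_ ?_) ?_)
    (by positivity))
  · exact mul_le_mul hxi2 (Finset.sum_le_sum fun w _ => hgr w)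
      (Finset.sum_nonneg fun w _ => gR_nonneg _ w x) (by positivity)
  · refine mul_le_mul_of_nonneg_left (Finset.sum_le_sum fun w _ => ?_) (by positivity)
    have hz0 := zw_nonneg (hI := hI) (V := V) (G := G) (xb := xb) (crd := crd) (ctr := ctr) hΛ hr
      RB.dv0 w (glue F I z x)
    have hi0 := ite_nonneg' (p := M < D w (glue F I z x)) (RB.D0 w (glue F I z x))
    by_cases hg : 0 < gl crd m (rf (L z)) x
    · rw [if_pos hg]
      have h1 := StB348.zz_le_gl (ctr := ctr) (xi := xi) (u := fu hI V z) hm hΛ hr hxi hy x hg w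
      refine (StB348.mul_sq_le_split (gR_nonneg _ w x) (hgr w) hM
        (h1.trans hB)).trans (add_le_add (mul_le_mul_of_nonneg_left ?_ (by positivity)) le_rfl)
      refine (StB348.zz_le_dev (u := fu hI V z) (Z := rf (L z)) hΛ hr
        (fun i => G i (glue F I z x)) hxi hy x w).trans ?_
      unfold zw
      refine add_le_add (add_le_add le_rfl (le_of_eq ?_)) ?_
      · simp only [hxb]
      · have h2 : ∑ i, |rf (L z) i x w - crd i w| ≤ 2 * dv w (glue F I z x) := by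
          rw [Fin.sum_univ_two]
          linarith [RB.dev z x hx 0 w, RB.dev z x hx 1 w]
        have h3 := mul_le_mul_of_nonneg_left h2 (by positivity : 0 ≤ 4 * Λ)
        linarith
    · rw [if_neg hg]
      positivity
  · have hsum0 : 0 ≤ ∑ w, (if gl crd m (rf (L z)) x < 1 then gR (rf (L z)) w x else 0) :=
      Finset.sum_nonneg fun w _ => ite_nonneg' (gR_nonneg _ w x)
    refine mul_le_mul (by linarith) (Finset.sum_le_sum fun w _ => ?_) hsum0 (by positivity)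
    by_cases hg : gl crd m (rf (L z)) x < 1
    · obtain ⟨i, w', h1⟩ := StB348.exists_dev_of_gl_lt hm hg
      have h2 : ∃ w', m < dv w' (glue F I z x) := ⟨w', h1.trans_le (RB.dev z x hx i w')⟩
      rw [if_pos hg, if_pos h2]
      exact hgr w
    · rw [if_neg hg]
      exact ite_nonneg' (RB.D0 w _)

/-- integrability on the fibre -/
theorem integrable_fibre (hI : I ⊆ F) (hAI : Anch I E) {g : (F → ℝ) → ℝ} {z : ↥(F \ I) → ℝ}
    (hz : z ∈ ham (F \ I) (Eout I E) ξ) (hv : volume (ham I (Ein I E) (ext (F \ I) ξ z)) ≠ 0)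
    (hOk : OkF F I (wl F E ξ 0) g z) :
    Integrable (fun x => g (glue F I z x)) (hamP I (Ein I E) (ext (F \ I) ξ z)) := by
  have hl := isLaw_hamP (F := I) (E := Ein I E) (ξ := ext (F \ I) ξ z) hv
    (volume_ham_lt_top (Anch.ein hAI)).ne
  rw [hl.integrable_iff]
  refine hOk.gW.congr (ae_of_all _ fun x => ?_)
  beta_reduce
  rw [wl_glue hI]
  by_cases h : x ∈ ham I E (ext (F \ I) ξ z)
  · rw [wl_of_mem h, wl_of_mem (by rwa [← fibre_eq hz])]
    rfl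
  · rw [wl_of_notMem h, wl_of_notMem (by rwa [← fibre_eq hz])]

/-- **one fibre** -/
theorem bT_le_Ebz (hAI : Anch I E) (hE : Proper I (Ein I E)) (hV : LipschitzWith c V)
    (hVd : Differentiable ℝ V) (hVr : RigF F E ξ V) (RB : RefB hI E ξ L crd D dv) (hm : 0 < m)
    (hχ : LipschitzWith Lc χ) (h01 : ∀ p, χ p ∈ Icc (0 : ℝ) 1)
    (hχ0 : ∀ w : I, w.1 ∉ Co → ∀ p : Fin 2 → ℝ, (∀ i, |p i - crd i w| < 2 * m) → χ p = 0)
    (hCol : ∀ w : I, w ∉ Col → ∀ p : Fin 2 → ℝ, (∀ i, |p i - crd i w| ≤ m) → χ p = 1)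
    (hΛ : 0 ≤ Λ) (hr : 0 ≤ r) (hM : 0 ≤ M) (hth : 0 < th)
    (hy : ∀ i (w : I), |crd i w - ctr i| ≤ r / 2) (hB : 10 * Λ * r + 8 * Λ * m ≤ B)
    {z : ↥(F \ I) → ℝ} (hz : z ∈ ham (F \ I) (Eout I E) ξ)
    (hv : volume (ham I (Ein I E) (ext (F \ I) ξ z)) ≠ 0) {xi : Fin 2 → ℝ}
    (hxi : ∀ i, |xi i| ≤ 2 * Λ) (hxb : ∀ i x, xb i (glue F I z x) = xi i)
    (hOk : OkF F I (wl F E ξ 0) (Hf hI V G xb crd ctr D dv Col th Λ r m Lc M B) z) :
    bT Co (Anch.ein hAI) (ext (F \ I) ξ z) (L z) xi ≤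
      Ebz F I (wl F E ξ 0) (Hf hI V G xb crd ctr D dv Col th Λ r m Lc M B) z := by
  rw [Ebz_hamP hI hAI _ hz]
  set ζ := ext (F \ I) ξ z with hζ
  have hZ : ∀ i, LocallyLipschitz (rf (L z) i) := fun i => (L z i).2
  have hZr := RB.rig z hz
  have hT := StB348.lip_tr (8 * Λ * r)
  have hu : LocallyLipschitz (fu hI V z) := (lip_fu hI hV z).locallyLipschitz
  have hμ : GoodLaw (hamP I (Ein I E) ζ) := goodLaw_hamP' (Anch.ein hAI) ζ
  have he := StB348.cutF_cutg (crd := crd) (Z := rf (L z)) (C := Co) hm hχ h01 hZ hZr hχ0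
  refine (StB348.bT_le_cut (L := L z) (xi := xi) (ctr := ctr) (Anch.ein hAI) hE
    (pos_iff_ne_zero.2 hv) he hT hZr hu (rig_fu hI hVr hz)).trans ?_
  have hlip : ∀ w, LocallyLipschitz (cutg χ crd m (rf (L z)) w) := he.lip
  have hX : LocallyLipschitz ((∑ i, xi i • rf (L z) i) +
      cmpU (cutg χ crd m (rf (L z))) (StB348.tr (8 * Λ * r)) xi ctr (rf (L z)) (fu hI V z)) :=
    (StB348.ll_lab (xi := xi) hZ).add (StB348.ll_cmpU (xi := xi) (ctr := ctr) hlip hT hZ hu)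
  refine integral_mono_ae (hμ.integrable_en hX) (integrable_fibre hI hAI hz hv hOk) ?_
  have hmem : ∀ᵐ x ∂(hamP I (Ein I E) ζ), x ∈ ham I (Ein I E) ζ :=
    (hamP_ac_restrict ζ).ae_le (ae_restrict_mem measurableSet_ham)
  have hBz : ∀ x, 0 < gl crd m (rf (L z)) x → ∀ w,
      |zz (StB348.tr (8 * Λ * r)) xi ctr (rf (L z)) (fu hI V z) w x| ≤ B := fun x hx w =>
    (StB348.zz_le_gl (ctr := ctr) (xi := xi) (u := fu hI V z) hm hΛ hr hxi hy x hx w).trans hB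
  filter_upwards [hμ.ac.ae_le (StB348.ae_en_cmpG_le (xi := xi) (ctr := ctr) hm hχ h01 hZ hu hT
    hCol hBz), hmem, hμ.ac.ae_le (RB.grad z hz)] with x hx hxm hgr
  have hg : glue F I z x ∈ ham F E ξ := (ham_split hI).2 ⟨hz, hxm⟩
  exact (hx th hth).trans (pt_le RB hm hΛ hr hM hth hy hg (hgr hg) hxi (fun i => hxb i x)
    (hVd _) hB)

/-- **one block**: the block energy of the values `x̄` is at most the integral of `Hf` -/
theorem block_le (hA : Anch F E) (hξ : ∀ u, |ξ u| ≤ 1 / 2) (hAI : Anch I E)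
    (hE : Proper I (Ein I E)) (hV : LipschitzWith c V)
    (hVd : Differentiable ℝ V) (hVr : RigF F E ξ V) (RB : RefB hI E ξ L crd D dv) (hm : 0 < m)
    (hχ : LipschitzWith Lc χ) (h01 : ∀ p, χ p ∈ Icc (0 : ℝ) 1)
    (hχ0 : ∀ w : I, w.1 ∉ Co → ∀ p : Fin 2 → ℝ, (∀ i, |p i - crd i w| < 2 * m) → χ p = 0)
    (hCol : ∀ w : I, w ∉ Col → ∀ p : Fin 2 → ℝ, (∀ i, |p i - crd i w| ≤ m) → χ p = 1)
    (hΛ : 0 ≤ Λ) (hr : 0 ≤ r) (hM : 0 ≤ M) (hth : 0 < th)
    (hy : ∀ i (w : I), |crd i w - ctr i| ≤ r / 2) (hB : 10 * Λ * r + 8 * Λ * m ≤ B)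
    {xbar : Fin 2 → (↥(F \ I) → ℝ) → ℝ} (hxb : ∀ i ω, xb i ω = xbar i (outr F I ω))
    {φ : (↥(F \ I) → ℝ) → ℝ} (iφ : Integrable (fun ω => φ (outr F I ω)) (hamP F E ξ))
    {cN : ℝ} (hcN : 0 ≤ cN) (hφ0 : ∀ z, (¬ ∀ i, |xbar i z| ≤ 2 * Λ) → φ z ≤ 0)
    (hφ1 : ∀ z ∈ ham (F \ I) (Eout I E) ξ, (∀ i, |xbar i z| ≤ 2 * Λ) →
      φ z ≤ cN * bT Co (Anch.ein hAI) (ext (F \ I) ξ z) (L z) (fun i => xbar i z))
    (iH : Integrable (Hf hI V G xb crd ctr D dv Col th Λ r m Lc M B) (hamP F E ξ)) :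
    ∫ ω, φ (outr F I ω) ∂(hamP F E ξ) ≤
      cN * ∫ ω, Hf hI V G xb crd ctr D dv Col th Λ r m Lc M B ω ∂(hamP F E ξ) := by
  have hB0 : 0 ≤ B := le_trans (by positivity) hB
  have h := isLaw_hamP' (E := E) hA hξ
  rw [← integral_const_mul]
  refine h.integral_le ?_
  refine fibre_sum hI (h.integrable_iff.1 iφ) (h.integrable_iff.1 (iH.const_mul cN)) ?_
  filter_upwards [ae_okF hI h.int (h.integrable_iff.1 iH)] with z hOk
  set H := Hf hI V G xb crd ctr D dv Col th Λ r m Lc M B with hH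
  have hH0 : ∀ ω, 0 ≤ H ω := Hf_nonneg hΛ hr hM hB0 hth RB.D0 RB.dv0
  have e1 : ∫ x : ↥I → ℝ, φ (outr F I (glue F I z x)) * wl F E ξ 0 (glue F I z x) =
      φ z * ∫ x : ↥I → ℝ, wl F E ξ 0 (glue F I z x) := by
    simp only [outr_glue]
    rw [integral_const_mul]
  have e2 : ∫ x : ↥I → ℝ, cN * H (glue F I z x) * wl F E ξ 0 (glue F I z x) =
      cN * Ebz F I (wl F E ξ 0) H z * ∫ x : ↥I → ℝ, wl F E ξ 0 (glue F I z x) := by
    simp only [mul_assoc]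
    rw [integral_const_mul, fibre_int (wl_nonneg 0) hOk.W1 H]
  rw [e1, e2]
  have hmass : 0 ≤ ∫ x : ↥I → ℝ, wl F E ξ 0 (glue F I z x) := integral_nonneg fun _ => wl_nonneg 0 _
  by_cases hm0 : ∫ x : ↥I → ℝ, wl F E ξ 0 (glue F I z x) = 0
  · rw [hm0, mul_zero, mul_zero]
  refine mul_le_mul_of_nonneg_right ?_ hmass
  -- the fibre is good
  have e3 : ∫ x : ↥I → ℝ, wl F E ξ 0 (glue F I z x) =
      ∫ x in ham I E (ext (F \ I) ξ z), (1 : ℝ) := by
    have := integral_wl (F := I) (E := E) (ξ := ext (F \ I) ξ z) 0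
    simp only [Pi.zero_apply, Real.exp_zero] at this
    rw [← this]
    refine integral_congr_ae (ae_of_all _ fun x => ?_)
    beta_reduce
    rw [wl_glue hI]
    rfl
  have hv0 : volume (ham I E (ext (F \ I) ξ z)) ≠ 0 := by
    intro h0
    rw [e3, Measure.restrict_eq_zero.2 h0, integral_zero_measure] at hm0
    exact hm0 rfl
  have hz : z ∈ ham (F \ I) (Eout I E) ξ := by
    by_contra hz
    rw [fibre_empty hz, measure_empty] at hv0
    exact hv0 rfl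
  have hv : volume (ham I (Ein I E) (ext (F \ I) ξ z)) ≠ 0 := by rwa [← fibre_eq hz]
  by_cases hx : ∀ i, |xbar i z| ≤ 2 * Λ
  · refine (hφ1 z hz hx).trans (mul_le_mul_of_nonneg_left ?_ hcN)
    exact bT_le_Ebz hAI hE hV hVd hVr RB hm hχ h01 hχ0 hCol hΛ hr hM hth hy hB hz hv hx
      (fun i x => by rw [hxb, outr_glue]) hOk
  · exact (hφ0 z hx).trans (mul_nonneg hcN (Ebz_nonneg (wl_nonneg 0) fun _ => hH0 _))

/-! ### integrability and the integral of `Hf` -/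

/-- the deviation observable -/
def dvI (hI : I ⊆ F) (V : (F → ℝ) → (F → ℝ)) (G : Fin 2 → (F → ℝ) → ℝ) (crd : Fin 2 → U → ℝ)
    (ctr : Fin 2 → ℝ) (w : I) (ω : F → ℝ) : ℝ :=
  |V ω ⟨(w : U), hI w.2⟩ - (∑ w' : I, V ω ⟨(w' : U), hI w'.2⟩) / Fintype.card I -
    ∑ i, G i ω * (crd i w - ctr i)|

section Int

variable {μ : Measure (F → ℝ)} [IsFiniteMeasure μ]

theorem integrable_dvI (iV : ∀ w : F, Integrable (fun ω => V ω w) μ)
    (iG : ∀ i, Integrable (G i) μ) (w : I) : Integrable (dvI hI V G crd ctr w) μ := by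
  unfold dvI
  refine Integrable.abs (Integrable.sub (Integrable.sub (iV _) ?_) ?_)
  · exact (integrable_finsetSum _ fun w' _ => iV _).div_const _
  · exact integrable_finsetSum _ fun i _ => (iG i).mul_const _

theorem integrable_trG (hΛ : 0 ≤ Λ) (mG : ∀ i, Measurable (G i)) (i : Fin 2) :
    Integrable (fun ω => StB348.tr (4 * Λ) (G i ω)) μ := by
  refine Integrable.of_bound
    (((StB348.lip_tr (4 * Λ)).continuous.measurable).comp (mG i)).aestronglyMeasurable (4 * Λ)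
    (ae_of_all _ fun ω => ?_)
  rw [Real.norm_eq_abs]
  exact StB348.abs_tr_le (by positivity) _

theorem int_zw (hΛ : 0 ≤ Λ) (iV : ∀ w : F, Integrable (fun ω => V ω w) μ)
    (mG : ∀ i, Measurable (G i)) (iG : ∀ i, Integrable (G i) μ) (ixb : ∀ i, Integrable (xb i) μ)
    (idv : ∀ w, Integrable (dv w) μ) (w : I) :
    Integrable (zw hI V G xb crd ctr dv Λ r w) μ ∧
    ∫ ω, zw hI V G xb crd ctr dv Λ r w ω ∂μ = (∫ ω, dvI hI V G crd ctr w ω ∂μ) +
      5 * r * (∑ i, ∫ ω, |StB348.tr (4 * Λ) (G i ω) - xb i ω| ∂μ) + 8 * Λ * ∫ ω, dv w ω ∂μ := by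
  have i1 : Integrable (dvI hI V G crd ctr w) μ := integrable_dvI iV iG w
  have i2 : ∀ i, Integrable (fun ω => |StB348.tr (4 * Λ) (G i ω) - xb i ω|) μ := fun i =>
    ((integrable_trG hΛ mG i).sub (ixb i)).abs
  have i3 : Integrable (fun ω => 5 * r * ∑ i, |StB348.tr (4 * Λ) (G i ω) - xb i ω|) μ :=
    (integrable_finsetSum _ fun i _ => i2 i).const_mul _
  have i4 : Integrable (fun ω => 8 * Λ * dv w ω) μ := (idv w).const_mul _
  have i5 : Integrable (fun ω => dvI hI V G crd ctr w ω +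
      5 * r * ∑ i, |StB348.tr (4 * Λ) (G i ω) - xb i ω|) μ := i1.add i3
  refine ⟨i5.add i4, ?_⟩
  have e1 : ∫ ω, zw hI V G xb crd ctr dv Λ r w ω ∂μ = ∫ ω, ((dvI hI V G crd ctr w ω +
      5 * r * ∑ i, |StB348.tr (4 * Λ) (G i ω) - xb i ω|) + 8 * Λ * dv w ω) ∂μ := rfl
  rw [e1, integral_add i5 i4, integral_add i1 i3, integral_const_mul, integral_const_mul,
    integral_finsetSum _ fun i _ => i2 i]

theorem integrable_lvl (mD : ∀ w, Measurable (D w)) (iD : ∀ w, Integrable (D w) μ) (w : I) :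
    Integrable (fun ω => if M < D w ω then D w ω else 0) μ := by
  have hs : MeasurableSet {ω | M < D w ω} := measurableSet_lt measurable_const (mD w)
  refine ((iD w).indicator hs).congr (Eventually.of_forall fun ω => ?_)
  simp [indicator_apply]

theorem integrable_far (mdv : ∀ w, Measurable (dv w)) (iD : ∀ w, Integrable (D w) μ) (w : I) :
    Integrable (fun ω => if ∃ w', m < dv w' ω then D w ω else 0) μ := by
  have hs : MeasurableSet {ω | ∃ w', m < dv w' ω} := by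
    rw [ofPred_exists]
    exact MeasurableSet.iUnion fun w' => measurableSet_lt measurable_const (mdv w')
  refine ((iD w).indicator hs).congr (Eventually.of_forall fun ω => ?_)
  simp only [indicator_apply, mem_ofPred_eq]

theorem int_Hf (hΛ : 0 ≤ Λ) (hV : LipschitzWith c V)
    (iV : ∀ w : F, Integrable (fun ω => V ω w) μ)
    (mG : ∀ i, Measurable (G i)) (iG : ∀ i, Integrable (G i) μ) (ixb : ∀ i, Integrable (xb i) μ)
    (mD : ∀ w, Measurable (D w)) (mdv : ∀ w, Measurable (dv w)) (iD : ∀ w, Integrable (D w) μ)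
    (idv : ∀ w, Integrable (dv w) μ) :
    Integrable (Hf hI V G xb crd ctr D dv Col th Λ r m Lc M B) μ ∧
    ∫ ω, Hf hI V G xb crd ctr D dv Col th Λ r m Lc M B ω ∂μ =
      (1 + th) * (∫ ω, enI hI V ω ∂μ) + (1 + th⁻¹) * 2 * (8 * Λ ^ 2 * ∑ w ∈ Col, ∫ ω, D w ω ∂μ +
        2 * (Lc : ℝ) ^ 2 * ∑ w, (M * B * ((∫ ω, dvI hI V G crd ctr w ω ∂μ) +
          5 * r * (∑ i, ∫ ω, |StB348.tr (4 * Λ) (G i ω) - xb i ω| ∂μ) +
            8 * Λ * ∫ ω, dv w ω ∂μ) +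
          B ^ 2 * ∫ ω, (if M < D w ω then D w ω else 0) ∂μ) +
        (8 * Λ ^ 2 + 2 * (m ^ 2)⁻¹ * (Fintype.card I * B ^ 2)) *
          ∑ w, ∫ ω, (if ∃ w', m < dv w' ω then D w ω else 0) ∂μ) := by
  have i1 : Integrable (fun ω => (1 + th) * enI hI V ω) μ := (integrable_enI hI hV).const_mul _
  have hz : ∀ w : I, Integrable (zw hI V G xb crd ctr dv Λ r w) μ := fun w =>
    (int_zw hΛ iV mG iG ixb idv w).1
  have i2 : Integrable (fun ω => 8 * Λ ^ 2 * ∑ w ∈ Col, D w ω) μ :=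
    (integrable_finsetSum _ fun w _ => iD w).const_mul _
  have k1 : ∀ w : I, Integrable (fun ω => M * B * zw hI V G xb crd ctr dv Λ r w ω) μ := fun w =>
    (hz w).const_mul _
  have k2 : ∀ w : I, Integrable (fun ω => B ^ 2 * (if M < D w ω then D w ω else 0)) μ := fun w =>
    (integrable_lvl mD iD w).const_mul _
  have k3 : ∀ w : I, Integrable (fun ω => M * B * zw hI V G xb crd ctr dv Λ r w ω +
      B ^ 2 * (if M < D w ω then D w ω else 0)) μ := fun w => (k1 w).add (k2 w)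
  have i3 : Integrable (fun ω => 2 * (Lc : ℝ) ^ 2 * ∑ w, (M * B * zw hI V G xb crd ctr dv Λ r w ω +
      B ^ 2 * (if M < D w ω then D w ω else 0))) μ :=
    (integrable_finsetSum _ fun w _ => k3 w).const_mul _
  have k4 : ∀ w : I, Integrable (fun ω => if ∃ w', m < dv w' ω then D w ω else 0) μ := fun w =>
    integrable_far mdv iD w
  have i4 : Integrable (fun ω => (8 * Λ ^ 2 + 2 * (m ^ 2)⁻¹ * (Fintype.card I * B ^ 2)) *
      ∑ w, (if ∃ w', m < dv w' ω then D w ω else 0)) μ :=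
    (integrable_finsetSum _ fun w _ => k4 w).const_mul _
  have i5 : Integrable (fun ω => 8 * Λ ^ 2 * ∑ w ∈ Col, D w ω +
      2 * (Lc : ℝ) ^ 2 * ∑ w, (M * B * zw hI V G xb crd ctr dv Λ r w ω +
      B ^ 2 * (if M < D w ω then D w ω else 0))) μ := i2.add i3
  have i6 : Integrable (fun ω => 8 * Λ ^ 2 * ∑ w ∈ Col, D w ω +
      2 * (Lc : ℝ) ^ 2 * ∑ w, (M * B * zw hI V G xb crd ctr dv Λ r w ω +
      B ^ 2 * (if M < D w ω then D w ω else 0)) +
      (8 * Λ ^ 2 + 2 * (m ^ 2)⁻¹ * (Fintype.card I * B ^ 2)) *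
      ∑ w, (if ∃ w', m < dv w' ω then D w ω else 0)) μ := i5.add i4
  have i7 : Integrable (fun ω => (1 + th⁻¹) * 2 * (8 * Λ ^ 2 * ∑ w ∈ Col, D w ω +
      2 * (Lc : ℝ) ^ 2 * ∑ w, (M * B * zw hI V G xb crd ctr dv Λ r w ω +
      B ^ 2 * (if M < D w ω then D w ω else 0)) +
      (8 * Λ ^ 2 + 2 * (m ^ 2)⁻¹ * (Fintype.card I * B ^ 2)) *
      ∑ w, (if ∃ w', m < dv w' ω then D w ω else 0))) μ := i6.const_mul _
  refine ⟨i1.add i7, ?_⟩
  have e0 : ∫ ω, Hf hI V G xb crd ctr D dv Col th Λ r m Lc M B ω ∂μ =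
      (∫ ω, (1 + th) * enI hI V ω ∂μ) + ∫ ω, (1 + th⁻¹) * 2 * (8 * Λ ^ 2 * ∑ w ∈ Col, D w ω +
      2 * (Lc : ℝ) ^ 2 * ∑ w, (M * B * zw hI V G xb crd ctr dv Λ r w ω +
      B ^ 2 * (if M < D w ω then D w ω else 0)) +
      (8 * Λ ^ 2 + 2 * (m ^ 2)⁻¹ * (Fintype.card I * B ^ 2)) *
      ∑ w, (if ∃ w', m < dv w' ω then D w ω else 0)) ∂μ := integral_add i1 i7
  rw [e0, integral_const_mul, integral_const_mul, integral_add i5 i4, integral_add i2 i3,
    integral_const_mul, integral_const_mul, integral_const_mul,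
    integral_finsetSum _ fun w _ => iD w, integral_finsetSum _ fun w _ => k3 w,
    integral_finsetSum _ fun w _ => k4 w]
  congr 4
  congr 1
  refine Finset.sum_congr rfl fun w _ => ?_
  rw [integral_add (k1 w) (k2 w), integral_const_mul, integral_const_mul,
    (int_zw hΛ iV mG iG ixb idv w).2]

end Int

end One

end

end Crest.Agent.R144.Fa812
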