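import Crest.Agent.R144.Fa3_812

/-!
# R144 (S0197), helper812: fibre assembly FA, part 4: cut-off functions, and the block inequality in
terms of the fields of helper296

* `crd`, `ctrA`: index coordinates and the centre of the block `a + S`;
* `chiB`: cut-off function of the distance to a set;
* `one_block`: the block inequality with a right-hand side which is a sum over the shape `S`.
-/

set_option autoImplicit false
set_option linter.unusedSectionVars false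

open MeasureTheory Set Filter Topology
open scoped ENNReal NNReal

namespace Crest.Agent.R144.Fa812

open Crest.Agent.R144.Ham560 Crest.Agent.R144.Fib674
open Crest.Agent.R144.Flat296 (P2 Fld pt cdev)
open Crest.Agent.R144.Upp296
open Crest.Agent.R144.BQ565 (GoodLaw llip bT goodLaw_hamP' hamP_ac_restrict)
open Crest.Agent.R144.StB348 (Rig rf gR gR_nonneg gl zz cutg cmpU ups jac_eq)
open Crest.Agent.R144.Lw425 (Proper)
open Crest.Agent.R144.MW121 (jac en)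

noncomputable section

/-! ### cut-off functions -/

/-- cut-off function: `0` at distance `≤ 2 m` from `T`, `1` at distance `≥ 3 m` -/
def chiB (T : Set (Fin 2 → ℝ)) (m : ℝ) (p : Fin 2 → ℝ) : ℝ :=
  max 0 (min 1 (Metric.infDist p T / m - 2))

theorem chiB_mem (T : Set (Fin 2 → ℝ)) (m : ℝ) (p : Fin 2 → ℝ) : chiB T m p ∈ Icc (0 : ℝ) 1 :=
  ⟨le_max_left _ _, max_le zero_le_one (min_le_left _ _)⟩

theorem lip_chiB (T : Set (Fin 2 → ℝ)) {m : ℝ} (hm : 0 < m) :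
    LipschitzWith ⟨m⁻¹, inv_nonneg.mpr hm.le⟩ (chiB T m) := by
  have h1 : LipschitzWith ⟨m⁻¹, inv_nonneg.mpr hm.le⟩
      (fun p : Fin 2 → ℝ => Metric.infDist p T / m - 2) := by
    refine LipschitzWith.of_dist_le_mul fun p q => ?_
    change dist (Metric.infDist p T / m - 2) (Metric.infDist q T / m - 2) ≤ m⁻¹ * dist p q
    rw [Real.dist_eq]
    have e : Metric.infDist p T / m - 2 - (Metric.infDist q T / m - 2) =
        m⁻¹ * (Metric.infDist p T - Metric.infDist q T) := by field_simp; ring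
    rw [e, abs_mul, abs_of_pos (inv_pos.mpr hm), ← Real.dist_eq]
    refine mul_le_mul_of_nonneg_left ?_ (inv_pos.2 hm).le
    have := (Metric.lipschitz_infDist_pt T).dist_le_mul p q
    rwa [NNReal.coe_one, one_mul] at this
  exact (h1.const_min 1).const_max 0

theorem chiB_zero {T : Set (Fin 2 → ℝ)} {m : ℝ} (hm : 0 < m) {p t : Fin 2 → ℝ} (ht : t ∈ T)
    (h : ∀ i, |p i - t i| < 2 * m) : chiB T m p = 0 := by
  have h1 : Metric.infDist p T ≤ 2 * m := by
    refine (Metric.infDist_le_dist_of_mem ht).trans ?_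
    refine (dist_pi_le_iff (by positivity)).2 fun i => ?_
    rw [Real.dist_eq]
    exact (h i).le
  have h2 : Metric.infDist p T / m ≤ 2 := by rwa [div_le_iff₀ hm]
  unfold chiB
  rw [max_eq_left ((min_le_right _ _).trans (by linarith))]

theorem chiB_one {T : Set (Fin 2 → ℝ)} (hT : T.Nonempty) {m : ℝ} (hm : 0 < m) {p y : Fin 2 → ℝ}
    (hy : ∀ t ∈ T, ∃ i, 4 * m ≤ |t i - y i|) (h : ∀ i, |p i - y i| ≤ m) : chiB T m p = 1 := by
  have h1 : 3 * m ≤ Metric.infDist p T := by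
    refine (Metric.le_infDist hT).2 fun t ht => ?_
    obtain ⟨i, hi⟩ := hy t ht
    have h2 : |t i - y i| ≤ |t i - p i| + |p i - y i| := abs_sub_le _ _ _
    have h3 : |p i - t i| ≤ dist p t := by
      rw [← Real.dist_eq]; exact dist_le_pi_dist p t i
    rw [abs_sub_comm] at h3
    linarith [h i]
  have h2 : 3 ≤ Metric.infDist p T / m := by rwa [le_div_iff₀ hm]
  unfold chiB
  rw [min_eq_left (by linarith), max_eq_right zero_le_one]

/-! ### index coordinates -/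

/-- index coordinates -/
def crd (i : Fin 2) (v : P2) : ℝ := ![(v.1 : ℝ), (v.2 : ℝ)] i

@[simp] theorem crd_zero (v : P2) : crd 0 v = v.1 := rfl

@[simp] theorem crd_one (v : P2) : crd 1 v = v.2 := rfl

theorem crd_add (i : Fin 2) (v w : P2) : crd i (v + w) = crd i v + crd i w := by
  fin_cases i <;> simp

/-- centre of the shape -/
def mS (S : Finset (ℕ × ℕ)) (i : Fin 2) : ℝ := (S.card : ℝ)⁻¹ * ∑ q ∈ S, crd i (pt q)

/-- centre of the block -/
def ctrA (S : Finset (ℕ × ℕ)) (a : P2) (i : Fin 2) : ℝ := crd i a + mS S i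

theorem crd_pt_mem {r : ℕ} {p : ℕ × ℕ} (hp : p ∈ Flat296.sq r) (i : Fin 2) :
    0 ≤ crd i (pt p) ∧ crd i (pt p) ≤ r := by
  rw [Flat296.mem_sq] at hp
  have h1 : (p.1 : ℝ) ≤ r := by exact_mod_cast hp.1.le
  have h2 : (p.2 : ℝ) ≤ r := by exact_mod_cast hp.2.le
  fin_cases i
  · change 0 ≤ (((p.1 : ℕ) : ℤ) : ℝ) ∧ (((p.1 : ℕ) : ℤ) : ℝ) ≤ r
    push_cast
    exact ⟨by positivity, h1⟩
  · change 0 ≤ (((p.2 : ℕ) : ℤ) : ℝ) ∧ (((p.2 : ℕ) : ℤ) : ℝ) ≤ r
    push_cast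
    exact ⟨by positivity, h2⟩

theorem mS_mem {S : Finset (ℕ × ℕ)} {r : ℕ} (hS : S ⊆ Flat296.sq r) (i : Fin 2) :
    0 ≤ mS S i ∧ mS S i ≤ r := by
  unfold mS
  constructor
  · exact mul_nonneg (by positivity) (Finset.sum_nonneg fun q hq => (crd_pt_mem (hS hq) i).1)
  · have h1 : ∑ q ∈ S, crd i (pt q) ≤ S.card * (r : ℝ) := by
      refine (Finset.sum_le_sum fun q hq => (crd_pt_mem (hS hq) i).2).trans (le_of_eq ?_)
      rw [Finset.sum_const, nsmul_eq_mul]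
    rcases Nat.eq_zero_or_pos S.card with h0 | h0
    · rw [h0]; simp
    · have h2 : (0 : ℝ) < S.card := by exact_mod_cast h0
      rw [inv_mul_le_iff₀ h2]
      exact h1

theorem crd_sub_ctrA {S : Finset (ℕ × ℕ)} (a : P2) (p : ℕ × ℕ) (i : Fin 2) :
    crd i (a + pt p) - ctrA S a i = crd i (pt p) - mS S i := by
  rw [ctrA, crd_add]; ring

theorem abs_crd_sub_ctrA {S : Finset (ℕ × ℕ)} {r : ℕ} (hS : S ⊆ Flat296.sq r) (a : P2) (i : Fin 2)
    (w : ↥(blk S a)) : |crd i w - ctrA S a i| ≤ (2 * r : ℝ) / 2 := by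
  obtain ⟨p, hp, hw⟩ := mem_blk.1 w.2
  rw [← hw, crd_sub_ctrA, abs_le]
  have h1 := crd_pt_mem (hS hp) i
  have h2 := mS_mem hS i
  constructor <;> linarith [h1.1, h1.2, h2.1, h2.2]

/-! ### the block inequality -/

variable {F : Finset P2} {E : Finset (P2 × P2)} {ξ : P2 → ℝ}

/-- the deviation observable in terms of `cdev` -/
theorem dvI_eq {S : Finset (ℕ × ℕ)} (hS0 : S.Nonempty) (r : ℕ) {a : P2} (hI : blk S a ⊆ F)
    {V : (F → ℝ) → (F → ℝ)} (G : Fin 2 → Fld (F → ℝ)) {p : ℕ × ℕ} (hp : a + pt p ∈ blk S a)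
    (ω : F → ℝ) :
    dvI hI V (fun i => G i a) crd (ctrA S a) ⟨a + pt p, hp⟩ ω =
      |cdev r (uf V) (G 0) (G 1) p a ω -
        (S.card : ℝ)⁻¹ * ∑ q ∈ S, cdev r (uf V) (G 0) (G 1) q a ω| := by
  have hc : (S.card : ℝ) ≠ 0 := by
    have := Finset.card_pos.2 hS0
    positivity
  have h1 : ∑ w' : ↥(blk S a), V ω ⟨(w' : P2), hI w'.2⟩ = ∑ q ∈ S, uf V (a + pt q) ω := by
    rw [← sum_blk S a (fun v => uf V v ω), ← Finset.sum_coe_sort (blk S a) (fun v => uf V v ω)]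
    exact Finset.sum_congr rfl fun w' _ => (uf_mem V (hI w'.2) ω).symm
  have h2 : ∀ q : ℕ × ℕ, cdev r (uf V) (G 0) (G 1) q a ω = uf V (a + pt q) ω -
      Flat296.bm r (uf V) a ω - (((q.1 : ℝ) - ((r : ℝ) - 1) / 2) * G 0 a ω +
        ((q.2 : ℝ) - ((r : ℝ) - 1) / 2) * G 1 a ω) := fun q => rfl
  unfold dvI
  congr 1
  rw [h1, Fintype.card_coe, card_blk, Fin.sum_univ_two]
  simp only [h2]
  rw [Finset.sum_sub_distrib, Finset.sum_sub_distrib, Finset.sum_add_distrib, ← Finset.sum_mul,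
    ← Finset.sum_mul, Finset.sum_sub_distrib, Finset.sum_sub_distrib]
  simp only [Finset.sum_const, nsmul_eq_mul]
  have e0 : crd 0 ((⟨a + pt p, hp⟩ : ↥(blk S a)) : P2) - ctrA S a 0 =
      (p.1 : ℝ) - (S.card : ℝ)⁻¹ * ∑ q ∈ S, (q.1 : ℝ) := by
    rw [crd_sub_ctrA]; simp [mS, pt]
  have e1 : crd 1 ((⟨a + pt p, hp⟩ : ↥(blk S a)) : P2) - ctrA S a 1 =
      (p.2 : ℝ) - (S.card : ℝ)⁻¹ * ∑ q ∈ S, (q.2 : ℝ) := by
    rw [crd_sub_ctrA]; simp [mS, pt]
  rw [e0, e1, ← uf_mem V (hI hp) ω]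
  field_simp
  ring

theorem int_dvI_le {μ : Measure (F → ℝ)} [IsFiniteMeasure μ] {S : Finset (ℕ × ℕ)}
    (hS0 : S.Nonempty) (r : ℕ) {a : P2} (hI : blk S a ⊆ F)
    {V : (F → ℝ) → (F → ℝ)} (hV : Bd (uf V)) {G : Fin 2 → Fld (F → ℝ)} (hG : ∀ i, Bd (G i))
    {p : ℕ × ℕ} (hp : a + pt p ∈ blk S a) :
    ∫ ω, dvI hI V (fun i => G i a) crd (ctrA S a) ⟨a + pt p, hp⟩ ω ∂μ ≤
      (∫ ω, |cdev r (uf V) (G 0) (G 1) p a ω| ∂μ) +
        (S.card : ℝ)⁻¹ * ∑ q ∈ S, ∫ ω, |cdev r (uf V) (G 0) (G 1) q a ω| ∂μ := by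
  have hcd : ∀ q : ℕ × ℕ, Bd (cdev r (uf V) (G 0) (G 1) q) := fun q =>
    ((hV.tr (pt q)).sub (hV.bm r)).sub (((hG 0).cmul _).add ((hG 1).cmul _))
  have i1 : ∀ q, Integrable (fun ω => |cdev r (uf V) (G 0) (G 1) q a ω|) μ := fun q =>
    (hcd q).abs.integrable μ a
  have i2 : Integrable (fun ω => (S.card : ℝ)⁻¹ *
      ∑ q ∈ S, |cdev r (uf V) (G 0) (G 1) q a ω|) μ :=
    (integrable_finsetSum _ fun q _ => i1 q).const_mul _
  simp only [dvI_eq hS0 r hI G hp]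
  rw [← integral_finsetSum _ fun q _ => i1 q, ← integral_const_mul, ← integral_add (i1 p) i2]
  refine integral_mono_of_nonneg (ae_of_all _ fun _ => abs_nonneg _) ((i1 p).add i2)
    (ae_of_all _ fun ω => ?_)
  refine (abs_sub _ _).trans (add_le_add le_rfl ?_)
  rw [abs_mul, abs_of_nonneg (by positivity : (0 : ℝ) ≤ (S.card : ℝ)⁻¹)]
  exact mul_le_mul_of_nonneg_left (Finset.abs_sum_le_sum_abs _ _) (by positivity)

theorem enI_le_du {S : Finset (ℕ × ℕ)} {a : P2} (hI : blk S a ⊆ F) (V : (F → ℝ) → (F → ℝ))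
    (ω : F → ℝ) : enI hI V ω ≤ ∑ p ∈ S, ∑ v : F, du V v (a + pt p) ω ^ 2 := by
  rw [← sum_blk S a (fun w => ∑ v : F, du V v w ω ^ 2),
    ← Finset.sum_coe_sort (blk S a) (fun w => ∑ v : F, du V v w ω ^ 2)]
  unfold enI
  refine Finset.sum_le_sum fun w _ => ?_
  have h1 : ∀ v : F, du V v w ω = jac V ω ⟨(w : P2), hI w.2⟩ v := fun v => by
    rw [du, dif_pos (hI w.2)]
  simp only [h1]
  have h2 : ∑ v : ↥(blk S a), jac V ω ⟨(w : P2), hI w.2⟩ ⟨(v : P2), hI v.2⟩ ^ 2 =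
      ∑ v ∈ (Finset.univ : Finset ↥(blk S a)).map
        ⟨fun v : ↥(blk S a) => (⟨(v : P2), hI v.2⟩ : F),
          fun x y h => Subtype.ext (congrArg (fun v : F => (v : P2)) h)⟩,
        jac V ω ⟨(w : P2), hI w.2⟩ v ^ 2 := by
    rw [Finset.sum_map]; rfl
  rw [h2]
  exact Finset.sum_le_sum_of_subset_of_nonneg (Finset.subset_univ _) fun _ _ _ => sq_nonneg _

theorem sum_coe_blk {S : Finset (ℕ × ℕ)} (a : P2) (h : P2 → ℝ) :
    ∑ w : ↥(blk S a), h w = ∑ p ∈ S, h (a + pt p) := by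
  rw [Finset.sum_coe_sort (blk S a) h, sum_blk]

theorem sum_blk_attach {S : Finset (ℕ × ℕ)} {a : P2} (f : ↥(blk S a) → ℝ) :
    ∑ w, f w = ∑ p ∈ S.attach, f ⟨a + pt p.1, mem_blk.2 ⟨p.1, p.2, rfl⟩⟩ := by
  classical
  have h1 := sum_coe_blk (S := S) a fun v => if h : v ∈ blk S a then f ⟨v, h⟩ else 0
  have h2 : ∑ w : ↥(blk S a), f w =
      ∑ w : ↥(blk S a), (if h : (w : P2) ∈ blk S a then f ⟨(w : P2), h⟩ else 0) :=
    Finset.sum_congr rfl fun w _ => by rw [dif_pos w.2]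
  rw [h2, h1, ← Finset.sum_attach S]
  exact Finset.sum_congr rfl fun p _ => dif_pos (mem_blk.2 ⟨p.1, p.2, rfl⟩)

theorem tr_eq_clp (c x : ℝ) : StB348.tr c x = clp c x := by
  unfold StB348.tr clp; rw [min_comm]

theorem integrable_du_sq {μ : Measure (F → ℝ)} [IsFiniteMeasure μ] {V : (F → ℝ) → (F → ℝ)}
    {c : ℝ≥0} (hV : LipschitzWith c V) (w : P2) :
    Integrable (fun ω => ∑ v : F, du V v w ω ^ 2) μ := by
  refine integrable_finsetSum _ fun v _ => ?_
  by_cases hw : w ∈ F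
  · have e : (fun ω => du V v w ω ^ 2) = fun ω => jac V ω ⟨w, hw⟩ v ^ 2 := by
      funext ω; rw [du, dif_pos hw]
    rw [e]
    refine Integrable.of_bound ((MW121.measurable_jac V _ _).pow_const 2).aestronglyMeasurable
      ((c : ℝ) ^ 2) (ae_of_all _ fun ω => ?_)
    rw [Real.norm_of_nonneg (sq_nonneg _), ← sq_abs]
    exact pow_le_pow_left₀ (abs_nonneg _) (MW121.abs_jac_le hV ω _ _) 2
  · have e : (fun ω => du V v w ω ^ 2) = fun _ => 0 := by
      funext ω; rw [du, dif_neg hw]; ring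
    rw [e]
    exact integrable_zero _ _ _

/-- the collar: sites of the block at distance `< 4 m` from the complement of the core -/
def colA (S : Finset (ℕ × ℕ)) (a : P2) (Co : Finset P2) (m : ℝ) : Finset ↥(blk S a) := by
  classical
  exact Finset.univ.filter fun w => ∃ v : P2, v ∉ Co ∧ ∀ i, |crd i v - crd i w| < 4 * m

theorem mem_colA {S : Finset (ℕ × ℕ)} {a : P2} {Co : Finset P2} {m : ℝ} {w : ↥(blk S a)} :
    w ∈ colA S a Co m ↔ ∃ v : P2, v ∉ Co ∧ ∀ i, |crd i v - crd i w| < 4 * m := by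
  classical
  unfold colA
  rw [Finset.mem_filter]
  exact ⟨fun h => h.2, fun h => ⟨Finset.mem_univ _, h⟩⟩

/-- **the block inequality**: right-hand side as a sum over the shape -/
theorem one_block (hA : Anch F E) (hξ : ∀ u, |ξ u| ≤ 1 / 2) {S : Finset (ℕ × ℕ)}
    (hS0 : S.Nonempty) {r : ℕ} (hSr : S ⊆ Flat296.sq r) {K : Finset P2} {a : P2} (ha : a ∈ K)
    (hI : blk S a ⊆ F) (hAI : Anch (blk S a) E) (hE : Proper (blk S a) (Ein (blk S a) E))
    {V : (F → ℝ) → (F → ℝ)} {c : ℝ≥0} (hV : LipschitzWith c V)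
    (hVd : Differentiable ℝ V) (hVr : RigF F E ξ V) (hVb : Bd (uf V))
    {L : (↥(F \ blk S a) → ℝ) → Fin 2 → llip (blk S a)} {Co : Finset P2}
    {D dv : P2 → (F → ℝ) → ℝ}
    (RB : RefB hI E ξ L crd (fun w => D w) (fun w => dv w))
    {m : ℝ} (hm : 0 < m) (hmr : m ≤ r) {G : Fin 2 → Fld (F → ℝ)} (hG : ∀ i, Bd (G i))
    {nC : ℝ} (hnC : ((colA S a Co m).card : ℝ) ≤ nC)
    {Λ th M M1 : ℝ} (hΛ : 0 < Λ) (hth : 0 < th) (hM : 0 ≤ M) (hM1 : 0 ≤ M1)
    {Bm : Fin 2 → Fin 2 → Fld (F → ℝ)} (hBb : ∀ i j, Bd (Bm i j))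
    (hBo : ∀ i j z x x', Bm i j a (glue F (blk S a) z x) = Bm i j a (glue F (blk S a) z x'))
    (hBp : ∀ ω y, 0 ≤ qf (fun i j => Bm i j a ω) y) {cN : ℝ} (hcN : 0 ≤ cN)
    (hBT : ∀ z ∈ ham (F \ blk S a) (Eout (blk S a) E) ξ, ∀ x y,
      qf (fun i j => Bm i j a (glue F (blk S a) z x)) y ≤
        cN * bT Co (Anch.ein hAI) (ext (F \ blk S a) ξ z) (L z) y) :
    ∫ ω, qf (fun i j => Bm i j a ω) (psi Λ fun i => xiB E ξ S K
      (fun a ω => clp (4 * Λ) (G i a ω)) a ω) ∂(hamP F E ξ) ≤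
      cN * ((1 + th) * (∑ p ∈ S, ∫ ω, ∑ v : F, du V v (a + pt p) ω ^ 2 ∂(hamP F E ξ)) +
        (1 + th⁻¹) * 2 * (8 * Λ ^ 2 * (M1 * nC +
            ∑ p ∈ S, ∫ ω, (if M1 < D (a + pt p) ω then D (a + pt p) ω else 0) ∂(hamP F E ξ)) +
          2 * (m⁻¹) ^ 2 * (M * (28 * Λ * r) * (
            2 * (∑ p ∈ S, ∫ ω, |cdev r (uf V) (G 0) (G 1) p a ω| ∂(hamP F E ξ)) +
            10 * r * (S.card * ∑ i, ∫ ω, |clp (4 * Λ) (G i a ω) - xiB E ξ S K
              (fun a ω => clp (4 * Λ) (G i a ω)) a ω| ∂(hamP F E ξ)) +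
            8 * Λ * ∑ p ∈ S, ∫ ω, dv (a + pt p) ω ∂(hamP F E ξ)) +
            (28 * Λ * r) ^ 2 * ∑ p ∈ S, ∫ ω, (if M < D (a + pt p) ω then D (a + pt p) ω else 0)
              ∂(hamP F E ξ)) +
          (8 * Λ ^ 2 + 2 * (m ^ 2)⁻¹ * (S.card * (28 * Λ * r) ^ 2)) *
            ∑ p ∈ S, ∫ ω, (if ∃ w' : ↥(blk S a), m < dv w' ω then D (a + pt p) ω else 0)
              ∂(hamP F E ξ))) := by
  have hp : IsProbabilityMeasure (hamP F E ξ) := isProbabilityMeasure_hamP hA hξ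
  have hr0 : (0 : ℝ) ≤ r := Nat.cast_nonneg r
  have hN0 : 0 < (S.card : ℝ) := by exact_mod_cast Finset.card_pos.2 hS0
  set B : ℝ := 28 * Λ * r with hBdef
  have hB0 : 0 ≤ B := by positivity
  have hB : 10 * Λ * (2 * r) + 8 * Λ * m ≤ B := by
    rw [hBdef]; nlinarith [mul_le_mul_of_nonneg_left hmr hΛ.le]
  -- the cut-off function
  set T : Set (Fin 2 → ℝ) := {t | ∃ v : P2, v ∉ Co ∧ t = fun i => crd i v} with hT
  have hTne : T.Nonempty := by
    obtain ⟨v, hv⟩ := Infinite.exists_notMem_finset Co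
    exact ⟨_, v, hv, rfl⟩
  have hχ := lip_chiB T hm
  have h01 := chiB_mem T m
  have hχ0 : ∀ w : ↥(blk S a), w.1 ∉ Co → ∀ p : Fin 2 → ℝ,
      (∀ i, |p i - crd i w| < 2 * m) → chiB T m p = 0 := fun w hw p hp =>
    chiB_zero hm (t := fun i => crd i w) ⟨w.1, hw, rfl⟩ hp
  have hCol : ∀ w : ↥(blk S a), w ∉ colA S a Co m → ∀ p : Fin 2 → ℝ,
      (∀ i, |p i - crd i w| ≤ m) → chiB T m p = 1 := by
    intro w hw p hp
    refine chiB_one hTne hm (y := fun i => crd i w) ?_ hp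
    rintro t ⟨v, hv, rfl⟩
    by_contra hcon
    push Not at hcon
    exact hw (mem_colA.2 ⟨v, hv, hcon⟩)
  -- the values
  set xbar : Fin 2 → (↥(F \ blk S a) → ℝ) → ℝ := fun i z =>
    Ebz F (blk S a) (wl F E ξ 0) (fun ω => clp (4 * Λ) (G i a ω)) z with hxbar
  have hxiB : ∀ i ω, xiB E ξ S K (fun a ω => clp (4 * Λ) (G i a ω)) a ω =
      xbar i (outr F (blk S a) ω) := by
    intro i ω
    rw [xiB, if_pos ha]; rfl
  have hclpb : ∀ i, Bd (fun a ω => clp (4 * Λ) (G i a ω)) := fun i => bd_clp (hG i) _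
  have hxb : ∀ i, Bd (xiB E ξ S K (fun a ω => clp (4 * Λ) (G i a ω))) := fun i => bd_xiB (hclpb i)
  set φ : (↥(F \ blk S a) → ℝ) → ℝ := fun z =>
    qf (fun i j => Bm i j a (glue F (blk S a) z 0)) (psi Λ fun i => xbar i z) with hφ
  have hφe : ∀ ω, φ (outr F (blk S a) ω) = qf (fun i j => Bm i j a ω) (psi Λ fun i => xiB E ξ S K
      (fun a ω => clp (4 * Λ) (G i a ω)) a ω) := by
    intro ω
    simp only [hφ, hxiB]
    congr 1
    funext i j
    rw [hBo i j _ 0 (inn hI ω), glue_outr_inn]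
  have iφ : Integrable (fun ω => φ (outr F (blk S a) ω)) (hamP F E ξ) := by
    simp only [hφe]
    exact (bd_qf hBb (fun i => bd_psi hxb Λ i)).integrable _ a
  have hpsi0 : ∀ z, (¬ ∀ i, |xbar i z| ≤ 2 * Λ) → psi Λ (fun i => xbar i z) = 0 := by
    intro z hz
    push Not at hz
    obtain ⟨i, hi⟩ := hz
    have h1 : 2 * Λ ≤ sn fun i => xbar i z := hi.le.trans (abs_le_sn (fun i => xbar i z) i)
    funext j
    rw [psi, tau_eq_zero hΛ h1, zero_mul]; rfl
  have hφ0 : ∀ z, (¬ ∀ i, |xbar i z| ≤ 2 * Λ) → φ z ≤ 0 := by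
    intro z hz
    simp only [hφ]
    rw [hpsi0 z hz, qf_eq]
    simp
  have hφ1 : ∀ z ∈ ham (F \ blk S a) (Eout (blk S a) E) ξ, (∀ i, |xbar i z| ≤ 2 * Λ) →
      φ z ≤ cN * bT Co (Anch.ein hAI) (ext (F \ blk S a) ξ z) (L z) (fun i => xbar i z) := by
    intro z hz _
    refine le_trans ?_ (hBT z hz 0 fun i => xbar i z)
    simp only [hφ]
    have e : qf (fun i j => Bm i j a (glue F (blk S a) z 0)) (psi Λ fun i => xbar i z) =
        tau Λ (sn fun i => xbar i z) ^ 2 *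
          qf (fun i j => Bm i j a (glue F (blk S a) z 0)) (fun i => xbar i z) := by
      rw [qf_eq, qf_eq]; unfold psi; ring
    rw [e]
    refine mul_le_of_le_one_left (hBp _ _) ?_
    have h1 := tau_nonneg Λ (sn fun i => xbar i z)
    have h2 := tau_le_one Λ (sn fun i => xbar i z)
    nlinarith
  -- integrability
  have iV : ∀ w : F, Integrable (fun ω => V ω w) (hamP F E ξ) := by
    intro w
    have := hVb.integrable (hamP F E ξ) (w : P2)
    refine this.congr (ae_of_all _ fun ω => ?_)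
    exact uf_mem V w.2 ω
  have mG : ∀ i, Measurable (G i a) := fun i => (hG i).mb a
  have iG : ∀ i, Integrable (G i a) (hamP F E ξ) := fun i => (hG i).integrable _ a
  have ixb : ∀ i, Integrable (fun ω => xiB E ξ S K (fun a ω => clp (4 * Λ) (G i a ω)) a ω)
      (hamP F E ξ) := fun i => (hxb i).integrable _ a
  obtain ⟨iH, eH⟩ := int_Hf (hI := hI) (μ := hamP F E ξ) (V := V) (G := fun i => G i a)
    (xb := fun i ω => xiB E ξ S K (fun a ω => clp (4 * Λ) (G i a ω)) a ω) (crd := crd)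
    (ctr := ctrA S a) (D := fun w => D w) (dv := fun w => dv w) (Col := colA S a Co m) (th := th)
    (Λ := Λ) (r := 2 * r) (m := m) (M := M) (B := B) (Lc := ⟨m⁻¹, inv_nonneg.mpr hm.le⟩)
    hΛ.le hV iV mG iG ixb RB.mD RB.mdv RB.iD RB.idv
  have key := block_le (Co := Co) (xb := fun i ω => xiB E ξ S K
      (fun a ω => clp (4 * Λ) (G i a ω)) a ω) (G := fun i => G i a) (r := 2 * r) (M := M)
    (Col := colA S a Co m) (ctr := ctrA S a)
    hA hξ hAI hE hV hVd hVr RB hm hχ h01 hχ0 hCol hΛ.le (by positivity) hM hth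
    (abs_crd_sub_ctrA hSr a) hB (fun i ω => hxiB i ω) iφ hcN hφ0 hφ1 iH
  simp only [hφe] at key
  refine key.trans (mul_le_mul_of_nonneg_left ?_ hcN)
  rw [eH]
  have hth' : 0 < th⁻¹ := inv_pos.2 hth
  have hc1 : 0 ≤ (1 + th⁻¹) * 2 := by positivity
  refine add_le_add (mul_le_mul_of_nonneg_left ?_ (by linarith)) (mul_le_mul_of_nonneg_left
    (add_le_add (add_le_add (mul_le_mul_of_nonneg_left ?_ (by positivity)) ?_) (le_of_eq ?_)) hc1)
  · rw [← integral_finsetSum _ fun p _ => integrable_du_sq hV _]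
    refine integral_mono (integrable_enI hI hV) (integrable_finsetSum _ fun p _ =>
      integrable_du_sq hV _) fun ω => ?_
    exact enI_le_du hI V ω
  · -- the collar
    have h1 : ∀ w : ↥(blk S a), ∫ ω, D w ω ∂(hamP F E ξ) ≤
        M1 + ∫ ω, (if M1 < D w ω then D w ω else 0) ∂(hamP F E ξ) := by
      intro w
      have i1 := integrable_lvl (D := fun w : ↥(blk S a) => D w) (M := M1) RB.mD RB.iD w
      have i2 : Integrable (fun ω => M1 + (if M1 < D w ω then D w ω else 0)) (hamP F E ξ) :=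
        (integrable_const M1).add i1
      have i3 : ∫ ω, (M1 + (if M1 < D w ω then D w ω else 0)) ∂(hamP F E ξ) =
          M1 + ∫ ω, (if M1 < D w ω then D w ω else 0) ∂(hamP F E ξ) := by
        rw [integral_add (integrable_const M1) i1]; simp
      rw [← i3]
      refine integral_mono (RB.iD w) i2 fun ω => ?_
      beta_reduce
      split_ifs with h
      · linarith
      · push Not at h; linarith
    have h2 : ∑ w ∈ colA S a Co m, ∫ ω, D w ω ∂(hamP F E ξ) ≤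
        ∑ w ∈ colA S a Co m, (M1 + ∫ ω, (if M1 < D w ω then D w ω else 0) ∂(hamP F E ξ)) :=
      Finset.sum_le_sum fun w _ => h1 w
    rw [Finset.sum_add_distrib, Finset.sum_const, nsmul_eq_mul] at h2
    refine h2.trans (add_le_add ?_ ?_)
    · rw [mul_comm]; exact mul_le_mul_of_nonneg_left hnC hM1
    · rw [← sum_coe_blk a fun v => ∫ ω, (if M1 < D v ω then D v ω else 0) ∂(hamP F E ξ)]
      refine Finset.sum_le_sum_of_subset_of_nonneg (Finset.subset_univ _) fun w _ _ => ?_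
      exact integral_nonneg fun ω => ite_nonneg' (RB.D0 w ω)
  · -- the gradient of the cut-off function
    refine mul_le_mul_of_nonneg_left ?_ (by positivity)
    rw [Finset.sum_add_distrib, ← Finset.mul_sum, ← Finset.mul_sum]
    refine add_le_add (mul_le_mul_of_nonneg_left ?_ (by positivity)) (le_of_eq ?_)
    · rw [Finset.sum_add_distrib, Finset.sum_add_distrib]
      refine add_le_add (add_le_add ?_ (le_of_eq ?_)) (le_of_eq ?_)
      · rw [sum_blk_attach]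
        have h1 : ∀ p ∈ S.attach, ∫ ω, dvI hI V (fun i => G i a) crd (ctrA S a)
            ⟨a + pt p.1, mem_blk.2 ⟨p.1, p.2, rfl⟩⟩ ω ∂(hamP F E ξ) ≤
            (∫ ω, |cdev r (uf V) (G 0) (G 1) p.1 a ω| ∂(hamP F E ξ)) +
            (S.card : ℝ)⁻¹ * ∑ q ∈ S, ∫ ω, |cdev r (uf V) (G 0) (G 1) q a ω| ∂(hamP F E ξ) :=
          fun p _ => int_dvI_le hS0 r hI hVb hG _
        refine (Finset.sum_le_sum h1).trans (le_of_eq ?_)
        rw [Finset.sum_add_distrib, Finset.sum_const, Finset.card_attach, nsmul_eq_mul,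
          ← mul_assoc, mul_inv_cancel₀ hN0.ne', one_mul,
          Finset.sum_attach S fun p => ∫ ω, |cdev r (uf V) (G 0) (G 1) p a ω| ∂(hamP F E ξ)]
        ring
      · rw [Finset.sum_const, Finset.card_univ, Fintype.card_coe, card_blk, nsmul_eq_mul]
        simp only [tr_eq_clp]
        ring
      · rw [← Finset.mul_sum, sum_coe_blk a fun v => ∫ ω, dv v ω ∂(hamP F E ξ)]
    · rw [sum_coe_blk a fun v => ∫ ω, (if M < D v ω then D v ω else 0) ∂(hamP F E ξ)]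
  · rw [Fintype.card_coe, card_blk]
    congr 1
    exact sum_coe_blk a fun v => ∫ ω, (if ∃ w' : ↥(blk S a), m < dv w' ω then D v ω else 0)
      ∂(hamP F E ξ)

end

end Crest.Agent.R144.Fa812
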