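import Crest.Agent.R144.Fa4_812

/-!
# R144 (S0197), helper812: fibre assembly FA, part 5: the sum over the blocks and the quantifiers

* `sum_blocks`: the sum over `a ∈ K` of the block inequalities;
* `FaHyp`: the hypotheses on the sequence of systems, blocks, reference fields, tails;
* `FaHyp.fas`: the field `fas` of helper296's `BlkHyp`.
-/

set_option autoImplicit false
set_option linter.unusedSectionVars false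

open MeasureTheory Set Filter Topology
open scoped ENNReal NNReal

namespace Crest.Agent.R144.Fa812

open Crest.Agent.R144.Ham560 Crest.Agent.R144.Fib674
open Crest.Agent.R144.Flat296 (P2 Fld pt cdev)
open Crest.Agent.R144.Upp296
open Crest.Agent.R144.BQ565 (llip bT)
open Crest.Agent.R144.Lw425 (Proper)
open Crest.Agent.R144.MW121 (jac en)

noncomputable section

/-- linear bookkeeping -/
theorem lin7 (K : Finset P2) (cN α β γ κ η ρ σ τ υ o N : ℝ) (e1 e2 e3 e4 e5 e6 e7 : P2 → ℝ) :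
    ∑ a ∈ K, cN * (α * e1 a + β * (γ * (κ + e2 a) + η * (ρ * (2 * e3 a + σ * (N * e4 a) + τ * e5 a) +
      υ * e6 a) + o * e7 a)) =
    α * (cN * ∑ a ∈ K, e1 a) + β * (γ * (cN * κ * K.card + cN * ∑ a ∈ K, e2 a) +
      η * (ρ * (2 * (cN * ∑ a ∈ K, e3 a) + σ * (cN * N * ∑ a ∈ K, e4 a) +
        τ * (cN * ∑ a ∈ K, e5 a)) + υ * (cN * ∑ a ∈ K, e6 a)) + o * (cN * ∑ a ∈ K, e7 a)) := by
  classical
  induction K using Finset.induction_on with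
  | empty => simp
  | insert a K ha ih =>
    rw [Finset.sum_insert ha, ih]
    simp only [Finset.sum_insert ha, Finset.card_insert_of_notMem ha]
    push_cast
    ring

variable {F : Finset P2}

theorem sum_du_le {μ : Measure (F → ℝ)} [IsFiniteMeasure μ] {V : (F → ℝ) → (F → ℝ)} {c : ℝ≥0}
    (hV : LipschitzWith c V) {S : Finset (ℕ × ℕ)} {K : Finset P2} (hK : ∀ a ∈ K, blk S a ⊆ F) :
    ∑ a ∈ K, ∑ p ∈ S, ∫ ω, ∑ v : F, du V v (a + pt p) ω ^ 2 ∂μ ≤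
      S.card * ∫ ω, en V ω ∂μ := by
  set h : P2 → ℝ := fun w => ∫ ω, ∑ v : F, du V v w ω ^ 2 ∂μ with hh
  have h0 : ∀ w ∈ F, 0 ≤ h w := fun w _ => integral_nonneg fun ω =>
    Finset.sum_nonneg fun v _ => sq_nonneg _
  have h1 := cover hK h0
  have h2 : ∑ w ∈ F, h w = ∫ ω, en V ω ∂μ := by
    rw [hh, ← integral_finsetSum _ fun w _ => integrable_du_sq hV w]
    refine integral_congr_ae (ae_of_all _ fun ω => ?_)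
    beta_reduce
    rw [Finset.sum_comm, sum_du_sq]
  rw [h2] at h1
  refine le_trans (le_of_eq ?_) h1
  exact Finset.sum_congr rfl fun a _ => (sum_blk S a h).symm

/-- **the sum over the blocks** -/
theorem sum_blocks {μ : Measure (F → ℝ)} [IsProbabilityMeasure μ] {V : (F → ℝ) → (F → ℝ)} {c : ℝ≥0}
    (hV : LipschitzWith c V) {S : Finset (ℕ × ℕ)} (hS0 : S.Nonempty) {r : ℕ}
    (hSr : S ⊆ Flat296.sq r) {K : Finset P2} (hK : ∀ a ∈ K, blk S a ⊆ F)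
    {Q X : P2 → (F → ℝ) → ℝ} {cd : ℕ × ℕ → P2 → (F → ℝ) → ℝ} {Z1 Z2 : P2 → P2 → (F → ℝ) → ℝ}
    {dv far : P2 → P2 → (F → ℝ) → ℝ}
    {δ th Λ m M M1 nC cN : ℝ} (hcN : cN = (S.card : ℝ)⁻¹) (hΛ : 0 ≤ Λ) (hth : 0 < th)
    (hM : 0 ≤ M) (hM1 : 0 ≤ M1)
    (hblk : ∀ a ∈ K, ∫ ω, Q a ω ∂μ ≤
      cN * ((1 + th) * (∑ p ∈ S, ∫ ω, ∑ v : F, du V v (a + pt p) ω ^ 2 ∂μ) +
        (1 + th⁻¹) * 2 * (8 * Λ ^ 2 * (M1 * nC + ∑ p ∈ S, ∫ ω, Z1 a (a + pt p) ω ∂μ) +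
          2 * (m⁻¹) ^ 2 * (M * (28 * Λ * r) * (
            2 * (∑ p ∈ S, ∫ ω, cd p a ω ∂μ) +
            10 * r * (S.card * ∫ ω, X a ω ∂μ) +
            8 * Λ * ∑ p ∈ S, ∫ ω, dv a (a + pt p) ω ∂μ) +
            (28 * Λ * r) ^ 2 * ∑ p ∈ S, ∫ ω, Z2 a (a + pt p) ω ∂μ) +
          (8 * Λ ^ 2 + 2 * (m ^ 2)⁻¹ * (S.card * (28 * Λ * r) ^ 2)) *
            ∑ p ∈ S, ∫ ω, far a (a + pt p) ω ∂μ)))
    {fl x U0 U1 U2 U3 U4 : ℝ}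
    (hfl : ∀ p ∈ Flat296.sq r, δ ^ 2 * ∑ a ∈ K, ∫ ω, cd p a ω ∂μ ≤ fl)
    (hx : δ ^ 2 * ∑ a ∈ K, ∫ ω, X a ω ∂μ ≤ x)
    (h0 : δ ^ 2 * (cN * nC * K.card) ≤ U0)
    (h1 : δ ^ 2 * (cN * ∑ a ∈ K, ∑ p ∈ S, ∫ ω, Z1 a (a + pt p) ω ∂μ) ≤ U1)
    (h2 : δ ^ 2 * (cN * ∑ a ∈ K, ∑ p ∈ S, ∫ ω, dv a (a + pt p) ω ∂μ) ≤ U2)
    (h3 : δ ^ 2 * (cN * ∑ a ∈ K, ∑ p ∈ S, ∫ ω, Z2 a (a + pt p) ω ∂μ) ≤ U3)
    (h4 : δ ^ 2 * (cN * ∑ a ∈ K, ∑ p ∈ S, ∫ ω, far a (a + pt p) ω ∂μ) ≤ U4) :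
    δ ^ 2 * ∑ a ∈ K, ∫ ω, Q a ω ∂μ ≤ (1 + th) * (δ ^ 2 * ∫ ω, en V ω ∂μ) +
      (1 + th⁻¹) * 2 * (8 * Λ ^ 2 * (M1 * U0 + U1) +
        2 * (m⁻¹) ^ 2 * (M * (28 * Λ * r) * (2 * fl + 10 * r * x + 8 * Λ * U2) +
          (28 * Λ * r) ^ 2 * U3) +
        (8 * Λ ^ 2 + 2 * (m ^ 2)⁻¹ * (S.card * (28 * Λ * r) ^ 2)) * U4) := by
  have hN : 0 < (S.card : ℝ) := by exact_mod_cast Finset.card_pos.2 hS0
  have hcN0 : 0 ≤ cN := by rw [hcN]; positivity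
  have hδ : 0 ≤ δ ^ 2 := sq_nonneg _
  have hth' : 0 < th⁻¹ := inv_pos.2 hth
  have key := mul_le_mul_of_nonneg_left (Finset.sum_le_sum hblk) hδ
  refine key.trans ?_
  rw [lin7 K cN (1 + th) ((1 + th⁻¹) * 2) (8 * Λ ^ 2) (M1 * nC) (2 * (m⁻¹) ^ 2)
    (M * (28 * Λ * r)) (10 * r) (8 * Λ) ((28 * Λ * r) ^ 2)
    (8 * Λ ^ 2 + 2 * (m ^ 2)⁻¹ * (S.card * (28 * Λ * r) ^ 2)) S.card
    (fun a => ∑ p ∈ S, ∫ ω, ∑ v : F, du V v (a + pt p) ω ^ 2 ∂μ)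
    (fun a => ∑ p ∈ S, ∫ ω, Z1 a (a + pt p) ω ∂μ) (fun a => ∑ p ∈ S, ∫ ω, cd p a ω ∂μ)
    (fun a => ∫ ω, X a ω ∂μ) (fun a => ∑ p ∈ S, ∫ ω, dv a (a + pt p) ω ∂μ)
    (fun a => ∑ p ∈ S, ∫ ω, Z2 a (a + pt p) ω ∂μ)
    (fun a => ∑ p ∈ S, ∫ ω, far a (a + pt p) ω ∂μ)]
  have g1 : δ ^ 2 * (cN * ∑ a ∈ K, ∑ p ∈ S, ∫ ω, ∑ v : F, du V v (a + pt p) ω ^ 2 ∂μ) ≤
      δ ^ 2 * ∫ ω, en V ω ∂μ := by
    refine mul_le_mul_of_nonneg_left ?_ hδ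
    rw [hcN, inv_mul_le_iff₀ hN]
    exact sum_du_le hV hK
  have g2 : δ ^ 2 * (cN * ∑ a ∈ K, ∑ p ∈ S, ∫ ω, cd p a ω ∂μ) ≤ fl := by
    rw [Finset.sum_comm]
    have e : δ ^ 2 * (cN * ∑ p ∈ S, ∑ a ∈ K, ∫ ω, cd p a ω ∂μ) =
        cN * ∑ p ∈ S, δ ^ 2 * ∑ a ∈ K, ∫ ω, cd p a ω ∂μ := by
      rw [← Finset.mul_sum]; ring
    rw [e, hcN, inv_mul_le_iff₀ hN]
    refine (Finset.sum_le_sum fun p hp => hfl p (hSr hp)).trans (le_of_eq ?_)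
    rw [Finset.sum_const, nsmul_eq_mul]
  have g3 : δ ^ 2 * (cN * S.card * ∑ a ∈ K, ∫ ω, X a ω ∂μ) ≤ x := by
    rw [hcN, inv_mul_cancel₀ hN.ne', one_mul]; exact hx
  set s1 := ∑ a ∈ K, ∑ p ∈ S, ∫ ω, ∑ v : F, du V v (a + pt p) ω ^ 2 ∂μ
  set s2 := ∑ a ∈ K, ∑ p ∈ S, ∫ ω, Z1 a (a + pt p) ω ∂μ
  set s3 := ∑ a ∈ K, ∑ p ∈ S, ∫ ω, cd p a ω ∂μ
  set s4 := ∑ a ∈ K, ∫ ω, X a ω ∂μ
  set s5 := ∑ a ∈ K, ∑ p ∈ S, ∫ ω, dv a (a + pt p) ω ∂μ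
  set s6 := ∑ a ∈ K, ∑ p ∈ S, ∫ ω, Z2 a (a + pt p) ω ∂μ
  set s7 := ∑ a ∈ K, ∑ p ∈ S, ∫ ω, far a (a + pt p) ω ∂μ
  have hm2 : 0 ≤ 2 * (m⁻¹) ^ 2 := by positivity
  have hr0 : (0 : ℝ) ≤ r := Nat.cast_nonneg r
  calc δ ^ 2 * ((1 + th) * (cN * s1) + (1 + th⁻¹) * 2 * (8 * Λ ^ 2 *
        (cN * (M1 * nC) * K.card + cN * s2) + 2 * (m⁻¹) ^ 2 * (M * (28 * Λ * r) *
          (2 * (cN * s3) + 10 * r * (cN * S.card * s4) + 8 * Λ * (cN * s5)) +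
          (28 * Λ * r) ^ 2 * (cN * s6)) +
        (8 * Λ ^ 2 + 2 * (m ^ 2)⁻¹ * (S.card * (28 * Λ * r) ^ 2)) * (cN * s7)))
      = (1 + th) * (δ ^ 2 * (cN * s1)) + (1 + th⁻¹) * 2 * (8 * Λ ^ 2 *
        (M1 * (δ ^ 2 * (cN * nC * K.card)) + δ ^ 2 * (cN * s2)) + 2 * (m⁻¹) ^ 2 *
          (M * (28 * Λ * r) * (2 * (δ ^ 2 * (cN * s3)) + 10 * r * (δ ^ 2 * (cN * S.card * s4)) +
            8 * Λ * (δ ^ 2 * (cN * s5))) + (28 * Λ * r) ^ 2 * (δ ^ 2 * (cN * s6))) +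
        (8 * Λ ^ 2 + 2 * (m ^ 2)⁻¹ * (S.card * (28 * Λ * r) ^ 2)) * (δ ^ 2 * (cN * s7))) := by
        ring
    _ ≤ _ := by gcongr

/-! ### the sequences -/

/-- hypotheses on one block -/
def BlkH (F : Finset P2) (E : Finset (P2 × P2)) (ξ : P2 → ℝ) (S : Finset (ℕ × ℕ)) (a : P2)
    (Co : Finset P2) (D dv : P2 → (F → ℝ) → ℝ) (B : Fin 2 → Fin 2 → Fld (F → ℝ)) : Prop :=
  ∃ (hI : blk S a ⊆ F) (hAI : Anch (blk S a) E), Proper (blk S a) (Ein (blk S a) E) ∧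
    ∃ L : (↥(F \ blk S a) → ℝ) → Fin 2 → llip (blk S a),
      RefB hI E ξ L crd (fun w => D w) (fun w => dv w) ∧
      (∀ i j z x x', B i j a (glue F (blk S a) z x) = B i j a (glue F (blk S a) z x')) ∧
      (∀ ω y, 0 ≤ qf (fun i j => B i j a ω) y) ∧
      ∀ z ∈ ham (F \ blk S a) (Eout (blk S a) E) ξ, ∀ x y,
        qf (fun i j => B i j a (glue F (blk S a) z x)) y ≤
          (S.card : ℝ)⁻¹ * bT Co (Anch.ein hAI) (ext (F \ blk S a) ξ z) (L z) y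

/-- hypotheses of the fibre assembly for a sequence of systems -/
structure FaHyp (F : ℕ → Finset P2) (E : ℕ → Finset (P2 × P2)) (ξ : ℕ → P2 → ℝ) (δ : ℕ → ℝ)
    (V : ∀ n, (F n → ℝ) → (F n → ℝ)) (e : ℕ → ℝ) (Kc : ℕ → ℕ → Finset P2) (O : Type) (r0 : ℕ)
    (S : ℕ → O → Finset (ℕ × ℕ)) (Co : ℕ → O → P2 → Finset P2)
    (B : ℕ → O → ∀ n, Fin 2 → Fin 2 → Fld (F n → ℝ))
    (D dv : ℕ → O → ∀ n, P2 → P2 → (F n → ℝ) → ℝ) : Prop where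
  anch : ∀ n, Anch (F n) (E n)
  xi : ∀ n u, |ξ n u| ≤ 1 / 2
  lip : ∀ n, ∃ c : ℝ≥0, LipschitzWith c (V n)
  diff : ∀ n, Differentiable ℝ (V n)
  rig : ∀ n, RigF (F n) (E n) (ξ n) (V n)
  bd : ∀ n, Bd (uf (V n))
  e_eq : ∀ n, δ n ^ 2 * ∫ ω, en (V n) ω ∂(hamP (F n) (E n) (ξ n)) ≤ e n
  e_le : ∃ Ce : ℝ, ∀ᶠ n in atTop, e n ≤ Ce
  area : ∃ Ca : ℝ, ∀ k, ∀ᶠ n in atTop, δ n ^ 2 * (Kc k n).card ≤ Ca
  S0 : ∀ r, r0 ≤ r → ∀ o, (S r o).Nonempty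
  Sr : ∀ r o, S r o ⊆ Flat296.sq r
  collar : ∀ η : ℝ, 0 < η → ∃ κ : ℝ, 0 < κ ∧ κ ≤ 1 ∧ ∃ r1 : ℕ, ∀ r, r1 ≤ r → ∀ o a,
    ((colA (S r o) a (Co r o a) (κ * r)).card : ℝ) ≤ η * (S r o).card
  bB : ∀ r, r0 ≤ r → ∀ o n i j, Bd (B r o n i j)
  blkh : ∀ r, r0 ≤ r → ∀ o k, ∀ᶠ n in atTop, ∀ a ∈ Kc k n,
    BlkH (F n) (E n) (ξ n) (S r o) a (Co r o a) (D r o n a) (dv r o n a) (B r o n)
  t1 : ∀ η : ℝ, 0 < η → ∃ M : ℝ, 0 ≤ M ∧ ∃ r1 : ℕ, ∀ r, r1 ≤ r → r0 ≤ r → ∀ o k,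
    ∀ᶠ n in atTop, δ n ^ 2 * (((S r o).card : ℝ)⁻¹ * ∑ a ∈ Kc k n, ∑ p ∈ S r o,
      ∫ ω, (if M < D r o n a (a + pt p) ω then D r o n a (a + pt p) ω else 0)
        ∂(hamP (F n) (E n) (ξ n))) ≤ η
  t2 : ∃ C2 : ℝ, 0 ≤ C2 ∧ ∃ r1 : ℕ, ∀ r, r1 ≤ r → r0 ≤ r → ∀ o k,
    ∀ᶠ n in atTop, δ n ^ 2 * (((S r o).card : ℝ)⁻¹ * ∑ a ∈ Kc k n, ∑ p ∈ S r o,
      ∫ ω, dv r o n a (a + pt p) ω ∂(hamP (F n) (E n) (ξ n))) ≤ C2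
  t3 : ∀ κ : ℝ, 0 < κ → ∀ η : ℝ, 0 < η → ∃ r1 : ℕ, ∀ r, r1 ≤ r → r0 ≤ r → ∀ o k,
    ∀ᶠ n in atTop, (r : ℝ) ^ 2 * (δ n ^ 2 * (((S r o).card : ℝ)⁻¹ * ∑ a ∈ Kc k n, ∑ p ∈ S r o,
      ∫ ω, (if ∃ w' : ↥(blk (S r o) a), κ * r < dv r o n a w' ω then D r o n a (a + pt p) ω
        else 0) ∂(hamP (F n) (E n) (ξ n)))) ≤ η

theorem num_final {c1 Λ κ r M M1 N U0 η1 η2 η3 C2 fl x ε1 : ℝ} (hc1 : 0 < c1) (hΛ : 0 < Λ)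
    (hκ : 0 < κ) (hr : 1 ≤ r) (hM : 0 ≤ M) (hN : N ≤ r * r) (hfl : 0 ≤ fl)
    (hη3 : 0 ≤ η3) (p1 : c1 * (8 * Λ ^ 2) * (M1 * U0) ≤ ε1 / 5)
    (p2 : c1 * (8 * Λ ^ 2) * η1 ≤ ε1 / 5)
    (p3 : c1 * (2 * (κ⁻¹) ^ 2) * (M * (28 * Λ)) * (8 * Λ * C2) / r ≤ ε1 / 5)
    (p4 : c1 * (2 * (κ⁻¹) ^ 2) * (28 * Λ) ^ 2 * η2 ≤ ε1 / 5)
    (p5 : c1 * (8 * Λ ^ 2 + 2 * (κ⁻¹) ^ 2 * (28 * Λ) ^ 2) * η3 ≤ ε1 / 5) :
    c1 * (8 * Λ ^ 2 * (M1 * U0 + η1) + 2 * ((κ * r)⁻¹) ^ 2 * (M * (28 * Λ * r) *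
      (2 * fl + 10 * r * x + 8 * Λ * C2) + (28 * Λ * r) ^ 2 * η2) +
      (8 * Λ ^ 2 + 2 * ((κ * r) ^ 2)⁻¹ * (N * (28 * Λ * r) ^ 2)) * (η3 / r ^ 2)) ≤
    ε1 + c1 * (2 * (κ⁻¹) ^ 2) * (M * (28 * Λ)) * 10 * (fl / r + x) := by
  have hr0 : 0 < r := by linarith
  have e1 : 2 * ((κ * r)⁻¹) ^ 2 * (M * (28 * Λ * r) * (2 * fl + 10 * r * x + 8 * Λ * C2) +
      (28 * Λ * r) ^ 2 * η2) = 2 * (κ⁻¹) ^ 2 * (M * (28 * Λ)) * (2 * (fl / r) + 10 * x) +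
      2 * (κ⁻¹) ^ 2 * (M * (28 * Λ)) * (8 * Λ * C2) / r + 2 * (κ⁻¹) ^ 2 * (28 * Λ) ^ 2 * η2 := by
    field_simp
  have e2 : (8 * Λ ^ 2 + 2 * ((κ * r) ^ 2)⁻¹ * (N * (28 * Λ * r) ^ 2)) * (η3 / r ^ 2) ≤
      (8 * Λ ^ 2 + 2 * (κ⁻¹) ^ 2 * (28 * Λ) ^ 2) * η3 := by
    have h1 : (8 * Λ ^ 2 + 2 * ((κ * r) ^ 2)⁻¹ * (N * (28 * Λ * r) ^ 2)) ≤
        (8 * Λ ^ 2 + 2 * (κ⁻¹) ^ 2 * (28 * Λ) ^ 2) * r ^ 2 := by
      have h2 : 2 * ((κ * r) ^ 2)⁻¹ * (N * (28 * Λ * r) ^ 2) =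
          2 * (κ⁻¹) ^ 2 * (28 * Λ) ^ 2 * N := by
        field_simp
      rw [h2]
      have h3 : 2 * (κ⁻¹) ^ 2 * (28 * Λ) ^ 2 * N ≤ 2 * (κ⁻¹) ^ 2 * (28 * Λ) ^ 2 * r ^ 2 :=
        mul_le_mul_of_nonneg_left (by rw [pow_two]; exact hN) (by positivity)
      have h4 : (1 : ℝ) ≤ r ^ 2 := one_le_pow₀ hr
      have h5 : 8 * Λ ^ 2 ≤ 8 * Λ ^ 2 * r ^ 2 := le_mul_of_one_le_right (by positivity) h4
      linarith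
    calc _ ≤ (8 * Λ ^ 2 + 2 * (κ⁻¹) ^ 2 * (28 * Λ) ^ 2) * r ^ 2 * (η3 / r ^ 2) :=
          mul_le_mul_of_nonneg_right h1 (by positivity)
      _ = _ := by field_simp
  have e3 := mul_le_mul_of_nonneg_left e2 hc1.le
  have e4 : c1 * (2 * (κ⁻¹) ^ 2 * (M * (28 * Λ)) * (2 * (fl / r) + 10 * x)) ≤
      c1 * (2 * (κ⁻¹) ^ 2) * (M * (28 * Λ)) * 10 * (fl / r + x) := by
    have h1 : 0 ≤ fl / r := by positivity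
    have h2 : 0 ≤ c1 * (2 * (κ⁻¹) ^ 2) * (M * (28 * Λ)) := by positivity
    have h3 : 2 * (fl / r) + 10 * x ≤ 10 * (fl / r + x) := by linarith
    have h4 := mul_le_mul_of_nonneg_left h3 h2
    linarith
  rw [e1]
  have e5 : c1 * (8 * Λ ^ 2 * (M1 * U0 + η1) + (2 * (κ⁻¹) ^ 2 * (M * (28 * Λ)) *
      (2 * (fl / r) + 10 * x) + 2 * (κ⁻¹) ^ 2 * (M * (28 * Λ)) * (8 * Λ * C2) / r +
        2 * (κ⁻¹) ^ 2 * (28 * Λ) ^ 2 * η2) +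
      (8 * Λ ^ 2 + 2 * ((κ * r) ^ 2)⁻¹ * (N * (28 * Λ * r) ^ 2)) * (η3 / r ^ 2)) =
      c1 * (8 * Λ ^ 2) * (M1 * U0) + c1 * (8 * Λ ^ 2) * η1 +
      c1 * (2 * (κ⁻¹) ^ 2 * (M * (28 * Λ)) * (2 * (fl / r) + 10 * x)) +
      c1 * (2 * (κ⁻¹) ^ 2) * (M * (28 * Λ)) * (8 * Λ * C2) / r +
      c1 * (2 * (κ⁻¹) ^ 2) * (28 * Λ) ^ 2 * η2 +
      c1 * ((8 * Λ ^ 2 + 2 * ((κ * r) ^ 2)⁻¹ * (N * (28 * Λ * r) ^ 2)) * (η3 / r ^ 2)) := by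
    ring
  rw [e5]
  linarith

theorem num_p1 {A M1 Ca ε1 : ℝ} (hA : 0 ≤ A) (hM1 : 0 ≤ M1) (hCa : 0 ≤ Ca) (hε1 : 0 ≤ ε1) :
    A * (M1 * (ε1 / (5 * (A * M1 * Ca + 1)) * Ca)) ≤ ε1 / 5 := by
  have h0 : 0 ≤ A * M1 * Ca := by positivity
  have h5 : 0 < 5 * (A * M1 * Ca + 1) := by positivity
  have e1' : A * (M1 * (ε1 / (5 * (A * M1 * Ca + 1)) * Ca)) =
      (A * M1 * Ca) * ε1 / (5 * (A * M1 * Ca + 1)) := by field_simp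
  rw [e1', div_le_div_iff₀ h5 (by norm_num)]
  nlinarith

theorem num_p2 {A ε1 : ℝ} (hA : 0 < A) : A * (ε1 / (5 * A)) ≤ ε1 / 5 :=
  le_of_eq (by field_simp)

theorem num_p3 {T r ε1 : ℝ} (hr : 0 < r) (hε1 : 0 < ε1) (h : T / (ε1 / 5) < r) :
    T / r ≤ ε1 / 5 := by
  rw [div_le_iff₀ hr]
  rw [div_lt_iff₀ (by positivity)] at h
  linarith

variable {F : ℕ → Finset P2} {E : ℕ → Finset (P2 × P2)} {ξ : ℕ → P2 → ℝ} {δ : ℕ → ℝ}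
  {V : ∀ n, (F n → ℝ) → (F n → ℝ)} {e : ℕ → ℝ} {Kc : ℕ → ℕ → Finset P2} {O : Type} {r0 : ℕ}
  {S : ℕ → O → Finset (ℕ × ℕ)} {Co : ℕ → O → P2 → Finset P2}
  {B : ℕ → O → ∀ n, Fin 2 → Fin 2 → Fld (F n → ℝ)}
  {D dv : ℕ → O → ∀ n, P2 → P2 → (F n → ℝ) → ℝ}

set_option maxHeartbeats 1600000 in
/-- **the fibre assembly**: the field `fas` of helper296's `BlkHyp` -/
theorem FaHyp.fas (H : FaHyp F E ξ δ V e Kc O r0 S Co B D dv) :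
    ∀ θ Λ ε1 : ℝ, 0 < θ → 1 ≤ Λ → 0 < ε1 → ∃ C : ℝ, 0 ≤ C ∧ ∃ r1 : ℕ, ∀ r, r1 ≤ r → r0 ≤ r →
    ∀ o k, ∀ ε2 : ℝ, 0 < ε2 → ∃ R1 : ℕ, ∀ R, R1 ≤ R → ∀ᶠ n in atTop,
      FasAt (fun n => hamP (F n) (E n) (ξ n)) δ (fun n => uf (V n)) e Kc (B r o) θ Λ ε1 C ε2
        r R k n := by
  intro θ Λ ε1 hθ hΛ1 hε1
  have hΛ : 0 < Λ := by linarith
  have hθ' : 0 < θ⁻¹ := inv_pos.2 hθ
  set c1 : ℝ := (1 + θ⁻¹) * 2 with hc1d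
  have hc1 : 0 < c1 := by positivity
  obtain ⟨Ca0, hCa0⟩ := H.area
  obtain ⟨Ce, hCe⟩ := H.e_le
  set Ca : ℝ := max Ca0 0 with hCad
  have hCa : 0 ≤ Ca := le_max_right _ _
  set A : ℝ := c1 * (8 * Λ ^ 2) with hA
  have hA0 : 0 < A := by positivity
  obtain ⟨M1, hM1, r11, h1⟩ := H.t1 (ε1 / (5 * A)) (by positivity)
  obtain ⟨κ, hκ, hκ1, r12, hcol⟩ := H.collar (ε1 / (5 * (A * M1 * Ca + 1))) (by positivity)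
  set Bq : ℝ := c1 * (2 * (κ⁻¹) ^ 2) * (28 * Λ) ^ 2 with hBq
  have hBq0 : 0 < Bq := by positivity
  obtain ⟨M, hM, r13, h3⟩ := H.t1 (ε1 / (5 * Bq)) (by positivity)
  set G3 : ℝ := c1 * (8 * Λ ^ 2 + 2 * (κ⁻¹) ^ 2 * (28 * Λ) ^ 2) with hG3
  have hG30 : 0 < G3 := by positivity
  obtain ⟨r14, h4⟩ := H.t3 κ hκ (ε1 / (5 * G3)) (by positivity)
  obtain ⟨C2, hC2, r15, h2⟩ := H.t2
  set T : ℝ := c1 * (2 * (κ⁻¹) ^ 2) * (M * (28 * Λ)) * (8 * Λ * C2) with hT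
  obtain ⟨r16, hr16⟩ := exists_nat_gt (T / (ε1 / 5))
  refine ⟨c1 * (2 * (κ⁻¹) ^ 2) * (M * (28 * Λ)) * 10, by positivity,
    r11 + r12 + r13 + r14 + r15 + r16 + 1, fun r hr hr0 o k ε2 hε2 => ?_⟩
  obtain ⟨R1, hR1⟩ := exists_fas_b (S r o).card Ca Ce hε2
  refine ⟨R1, fun R hR => ?_⟩
  obtain ⟨hR0, hb⟩ := hR1 R hR
  filter_upwards [h1 r (by omega) hr0 o k, h3 r (by omega) hr0 o k, h4 r (by omega) hr0 o k,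
    h2 r (by omega) hr0 o k, hCa0 k, hCe, H.blkh r hr0 o k] with n g1 g3 g4 g2 gCa gCe gblk
  obtain ⟨c, hc⟩ := H.lip n
  have hp : IsProbabilityMeasure (hamP (F n) (E n) (ξ n)) :=
    isProbabilityMeasure_hamP (H.anch n) (H.xi n)
  have hS0 := H.S0 r hr0 o
  have hSr := H.Sr r o
  have hN : 0 < ((S r o).card : ℝ) := by exact_mod_cast Finset.card_pos.2 hS0
  have hr1 : (1 : ℝ) ≤ r := by exact_mod_cast (by omega : 1 ≤ r)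
  have hrpos : (0 : ℝ) < r := by linarith
  have hN2 : ((S r o).card : ℝ) ≤ r * r := by
    have := Finset.card_le_card hSr
    rw [Flat296.card_sq] at this
    exact_mod_cast this
  have hI : ∀ a ∈ Kc k n, blk (S r o) a ⊆ F n := fun a ha => (gblk a ha).1
  have hAI : ∀ a ∈ Kc k n, Anch (blk (S r o) a) (E n) := fun a ha => (gblk a ha).2.1
  have hG : ∀ i, Bd (Gk (uf (V n)) (Kc (k + 1) n) R i) := fun i => bd_Gk (H.bd n) _ R i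
  have hclp : ∀ i, Bd (fun a ω => clp (4 * Λ) (Gk (uf (V n)) (Kc (k + 1) n) R i a ω)) := fun i =>
    bd_clp (hG i) _
  have hxB : ∀ i, Bd (xiB (E n) (ξ n) (S r o) (Kc k n)
      (fun a ω => clp (4 * Λ) (Gk (uf (V n)) (Kc (k + 1) n) R i a ω))) := fun i =>
    bd_xiB (hclp i)
  have hXb := hb (F n) (E n) (ξ n) (H.anch n) (H.xi n) (S r o) (Kc k n) (Kc (k + 1) n) rfl hI hAI
    (V n) c (H.bd n) hc (H.diff n) (δ n) (4 * Λ) (gCa.trans (le_max_left _ _))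
    ((H.e_eq n).trans gCe)
  refine ⟨fun i => xiB (E n) (ξ n) (S r o) (Kc k n)
    (fun a ω => clp (4 * Λ) (Gk (uf (V n)) (Kc (k + 1) n) R i a ω)), hxB, hXb, fun fl hfl => ?_⟩
  have hfl0 : 0 ≤ fl := by
    obtain ⟨p, hp'⟩ := hS0
    refine le_trans ?_ (hfl p (hSr hp'))
    exact mul_nonneg (sq_nonneg _) (Ex_nonneg fun a _ ω => abs_nonneg _)
  have habs : ∀ (i : Fin 2) (a : P2), Integrable (fun ω =>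
      |clp (4 * Λ) (Gk (uf (V n)) (Kc (k + 1) n) R i a ω) - xiB (E n) (ξ n) (S r o) (Kc k n)
        (fun a ω => clp (4 * Λ) (Gk (uf (V n)) (Kc (k + 1) n) R i a ω)) a ω|)
      (hamP (F n) (E n) (ξ n)) := fun i a => ((hclp i).sub (hxB i)).abs.integrable _ a
  have hxs : ∀ a, ∫ ω, (∑ i, |clp (4 * Λ) (Gk (uf (V n)) (Kc (k + 1) n) R i a ω) -
      xiB (E n) (ξ n) (S r o) (Kc k n)
        (fun a ω => clp (4 * Λ) (Gk (uf (V n)) (Kc (k + 1) n) R i a ω)) a ω|)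
        ∂(hamP (F n) (E n) (ξ n)) =
      ∑ i, ∫ ω, |clp (4 * Λ) (Gk (uf (V n)) (Kc (k + 1) n) R i a ω) -
      xiB (E n) (ξ n) (S r o) (Kc k n)
        (fun a ω => clp (4 * Λ) (Gk (uf (V n)) (Kc (k + 1) n) R i a ω)) a ω|
        ∂(hamP (F n) (E n) (ξ n)) := fun a => integral_finsetSum _ fun i _ => habs i a
  have key := sum_blocks (μ := hamP (F n) (E n) (ξ n)) (V := V n) (c := c) hc hS0 hSr hI
    (Q := fun a ω => qf (fun i j => B r o n i j a ω) (psi Λ fun i => xiB (E n) (ξ n) (S r o) (Kc k n)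
      (fun a ω => clp (4 * Λ) (Gk (uf (V n)) (Kc (k + 1) n) R i a ω)) a ω))
    (X := fun a ω => ∑ i, |clp (4 * Λ) (Gk (uf (V n)) (Kc (k + 1) n) R i a ω) -
      xiB (E n) (ξ n) (S r o) (Kc k n)
        (fun a ω => clp (4 * Λ) (Gk (uf (V n)) (Kc (k + 1) n) R i a ω)) a ω|)
    (cd := fun p a ω => |cdev r (uf (V n)) (Gk (uf (V n)) (Kc (k + 1) n) R 0)
      (Gk (uf (V n)) (Kc (k + 1) n) R 1) p a ω|)
    (Z1 := fun a w ω => if M1 < D r o n a w ω then D r o n a w ω else 0)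
    (Z2 := fun a w ω => if M < D r o n a w ω then D r o n a w ω else 0)
    (dv := fun a w ω => dv r o n a w ω)
    (far := fun a w ω => if ∃ w' : ↥(blk (S r o) a), κ * r < dv r o n a w' ω then D r o n a w ω
      else 0)
    (δ := δ n) (th := θ) (Λ := Λ) (m := κ * r) (M := M) (M1 := M1)
    (nC := ε1 / (5 * (A * M1 * Ca + 1)) * (S r o).card) (cN := ((S r o).card : ℝ)⁻¹) rfl hΛ.le hθ
    hM hM1 (fun a ha => ?_) (fl := fl) (x := ε2) (U0 := ε1 / (5 * (A * M1 * Ca + 1)) * Ca)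
    (U1 := ε1 / (5 * A)) (U2 := C2) (U3 := ε1 / (5 * Bq)) (U4 := ε1 / (5 * G3) / (r : ℝ) ^ 2)
    (fun p hp' => hfl p hp') ?_ ?_ g1 g2 g3 ?_
  · -- conclusion
    have hE : δ n ^ 2 * Ex (hamP (F n) (E n) (ξ n)) (Kc k n) (fun a ω =>
        qf (fun i j => B r o n i j a ω) (psi Λ fun i => xiB (E n) (ξ n) (S r o) (Kc k n)
          (fun a ω => clp (4 * Λ) (Gk (uf (V n)) (Kc (k + 1) n) R i a ω)) a ω)) ≤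
        (1 + θ) * (δ n ^ 2 * ∫ ω, en (V n) ω ∂(hamP (F n) (E n) (ξ n))) +
        c1 * (8 * Λ ^ 2 * (M1 * (ε1 / (5 * (A * M1 * Ca + 1)) * Ca) + ε1 / (5 * A)) +
        2 * ((κ * r)⁻¹) ^ 2 * (M * (28 * Λ * r) * (2 * fl + 10 * r * ε2 + 8 * Λ * C2) +
          (28 * Λ * r) ^ 2 * (ε1 / (5 * Bq))) +
        (8 * Λ ^ 2 + 2 * ((κ * r) ^ 2)⁻¹ * ((S r o).card * (28 * Λ * r) ^ 2)) *
          (ε1 / (5 * G3) / (r : ℝ) ^ 2)) := key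
    refine hE.trans ?_
    have hnum := num_final (c1 := c1) (Λ := Λ) (κ := κ) (r := r) (M := M) (M1 := M1)
      (N := (S r o).card) (U0 := ε1 / (5 * (A * M1 * Ca + 1)) * Ca) (η1 := ε1 / (5 * A))
      (η2 := ε1 / (5 * Bq)) (η3 := ε1 / (5 * G3)) (C2 := C2) (fl := fl) (x := ε2) (ε1 := ε1)
      hc1 hΛ hκ hr1 hM hN2 hfl0 (by positivity) ?_ ?_ ?_ ?_ ?_
    · have hee := mul_le_mul_of_nonneg_left (H.e_eq n) (by positivity : 0 ≤ 1 + θ)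
      exact (add_le_add hee hnum).trans (le_of_eq (add_assoc _ _ _).symm)
    · exact num_p1 hA0.le hM1 hCa hε1.le
    · exact num_p2 hA0
    · exact num_p3 hrpos hε1 (hr16.trans (by exact_mod_cast (by omega : r16 < r)))
    · exact num_p2 hBq0
    · exact num_p2 hG30
  · -- one block
    obtain ⟨hI', hAI', hPr, L, RB, hBo, hBp, hBT⟩ := gblk a ha
    have hmr : κ * r ≤ r := mul_le_of_le_one_left hrpos.le hκ1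
    have h := one_block (H.anch n) (H.xi n) hS0 hSr ha hI' hAI' hPr hc (H.diff n) (H.rig n)
      (H.bd n) RB (mul_pos hκ hrpos) hmr hG (hcol r (by omega) o a) hΛ hθ hM hM1
      (H.bB r hr0 o n) hBo hBp (by positivity) hBT
    rw [hxs a]
    exact h
  · -- the slopes
    have : ∑ a ∈ Kc k n, ∫ ω, (∑ i, |clp (4 * Λ) (Gk (uf (V n)) (Kc (k + 1) n) R i a ω) -
        xiB (E n) (ξ n) (S r o) (Kc k n)
        (fun a ω => clp (4 * Λ) (Gk (uf (V n)) (Kc (k + 1) n) R i a ω)) a ω|)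
        ∂(hamP (F n) (E n) (ξ n)) = ∑ i, Ex (hamP (F n) (E n) (ξ n)) (Kc k n) (fun a ω =>
        |clp (4 * Λ) (Gk (uf (V n)) (Kc (k + 1) n) R i a ω) - xiB (E n) (ξ n) (S r o) (Kc k n)
        (fun a ω => clp (4 * Λ) (Gk (uf (V n)) (Kc (k + 1) n) R i a ω)) a ω|) := by
      simp only [hxs]
      rw [Finset.sum_comm]
      rfl
    rw [this]
    exact hXb
  · -- the area
    have e1' : δ n ^ 2 * (((S r o).card : ℝ)⁻¹ * (ε1 / (5 * (A * M1 * Ca + 1)) * (S r o).card) *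
        (Kc k n).card) = ε1 / (5 * (A * M1 * Ca + 1)) * (δ n ^ 2 * (Kc k n).card) := by
      field_simp
    rw [e1']
    exact mul_le_mul_of_nonneg_left (gCa.trans (le_max_left _ _)) (by positivity)
  · -- far away
    rw [le_div_iff₀ (by positivity)]
    rw [mul_comm]
    exact g4

end

end Crest.Agent.R144.Fa812
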