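import Crest.Agent.Lib.PrekopaLeindler

/-!
# R144, static functional inequalities (helper865), file 1: Poincaré from Prékopa–Leindler

`E` a finite dimensional inner product space, `W : E → ℝ` a nonnegative measurable weight.

* `SLC lam W` : `√W(x) √W(y) ≤ exp(-lam |x-y|²/8) W((x+y)/2)` (`W = exp(-H)` on a convex set with
  `H - lam |x|²/2` convex);
* `poinc_step` : the Poincaré inequality with a local Lipschitz constant at scale `r`.
-/

set_option autoImplicit false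
set_option linter.unusedSectionVars false

open MeasureTheory Set Filter Topology
open scoped ENNReal NNReal RealInnerProductSpace

namespace Crest.Agent.R144.Fi865

open Crest.Agent.Lib.PrekopaLeindler

noncomputable section

/-! ### elementary -/

/-- third order Taylor bound for `exp` -/
theorem abs_exp_sub_two {x : ℝ} (hx : |x| ≤ 1) : |Real.exp x - (1 + x + x ^ 2 / 2)| ≤ |x| ^ 3 := by
  have h := Real.exp_bound (x := x) hx (n := 3) (by norm_num)
  have e : ∑ m ∈ Finset.range 3, x ^ m / (m.factorial : ℝ) = 1 + x + x ^ 2 / 2 := by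
    simp [Finset.sum_range_succ]
  rw [e] at h
  refine h.trans ?_
  have h3 : (0 : ℝ) ≤ |x| ^ 3 := by positivity
  have : ((Nat.succ 3 : ℕ) : ℝ) / ((Nat.factorial 3 : ℝ) * (3 : ℕ)) ≤ 1 := by
    norm_num [Nat.factorial]
  calc |x| ^ 3 * (((Nat.succ 3 : ℕ) : ℝ) / ((Nat.factorial 3 : ℝ) * (3 : ℕ)))
      ≤ |x| ^ 3 * 1 := mul_le_mul_of_nonneg_left this h3
    _ = |x| ^ 3 := mul_one _

/-- the second order comparison -/
theorem second_order {Z A B D K e₀ c : ℝ} (he₀ : 0 < e₀)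
    (h : ∀ e : ℝ, 0 < e → e ≤ e₀ →
      Z * (Z + e * A + e ^ 2 * B / 2 - K * e ^ 3) ≤
        (Z + e * A / 2 + e ^ 2 * (c * D + B / 8) + K * e ^ 3) ^ 2) :
    Z * B - A ^ 2 ≤ 8 * c * Z * D := by
  have h2 : ∀ e : ℝ, 0 < e → e ≤ e₀ → 0 ≤ (A ^ 2 / 4 + 2 * Z * (c * D + B / 8) - Z * B / 2) +
      e * (2 * Z * K + A * (c * D + B / 8) + Z * K) +
      e ^ 2 * ((c * D + B / 8) ^ 2 + A * K) + e ^ 3 * (2 * (c * D + B / 8) * K) +
      e ^ 4 * K ^ 2 := by
    intro e he he'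
    have h1 := h e he he'
    have he2 : 0 < e ^ 2 := by positivity
    have h3 : 0 ≤ e ^ 2 * ((A ^ 2 / 4 + 2 * Z * (c * D + B / 8) - Z * B / 2) +
      e * (2 * Z * K + A * (c * D + B / 8) + Z * K) +
      e ^ 2 * ((c * D + B / 8) ^ 2 + A * K) + e ^ 3 * (2 * (c * D + B / 8) * K) +
      e ^ 4 * K ^ 2) := by nlinarith [h1]
    exact nonneg_of_mul_nonneg_right h3 he2
  have hlim : Tendsto (fun e : ℝ => (A ^ 2 / 4 + 2 * Z * (c * D + B / 8) - Z * B / 2) +
      e * (2 * Z * K + A * (c * D + B / 8) + Z * K) +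
      e ^ 2 * ((c * D + B / 8) ^ 2 + A * K) + e ^ 3 * (2 * (c * D + B / 8) * K) +
      e ^ 4 * K ^ 2) (𝓝[>] 0) (𝓝 (A ^ 2 / 4 + 2 * Z * (c * D + B / 8) - Z * B / 2)) := by
    have hc : Continuous (fun e : ℝ => (A ^ 2 / 4 + 2 * Z * (c * D + B / 8) - Z * B / 2) +
      e * (2 * Z * K + A * (c * D + B / 8) + Z * K) +
      e ^ 2 * ((c * D + B / 8) ^ 2 + A * K) + e ^ 3 * (2 * (c * D + B / 8) * K) +
      e ^ 4 * K ^ 2) := by fun_prop
    have := (hc.tendsto 0).mono_left (nhdsWithin_le_nhds (s := Ioi 0))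
    simpa using this
  have h4 : 0 ≤ A ^ 2 / 4 + 2 * Z * (c * D + B / 8) - Z * B / 2 := by
    refine ge_of_tendsto hlim ?_
    filter_upwards [Ioc_mem_nhdsGT he₀] with e he
    exact h2 e he.1 he.2
  nlinarith

/-- linear combination of four integrals -/
theorem int_comb {α : Type*} [MeasurableSpace α] {μ : Measure α} {u v w y : α → ℝ}
    (hu : Integrable u μ) (hv : Integrable v μ) (hw : Integrable w μ) (hy : Integrable y μ)
    (a b c d : ℝ) :
    Integrable (fun x => a * u x + b * v x + c * w x + d * y x) μ ∧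
    ∫ x, (a * u x + b * v x + c * w x + d * y x) ∂μ =
      a * ∫ x, u x ∂μ + b * ∫ x, v x ∂μ + c * ∫ x, w x ∂μ + d * ∫ x, y x ∂μ := by
  have h1 : Integrable (fun x => a * u x + b * v x) μ := (hu.const_mul a).add (hv.const_mul b)
  have h2 : Integrable (fun x => a * u x + b * v x + c * w x) μ := h1.add (hw.const_mul c)
  refine ⟨h2.add (hy.const_mul d), ?_⟩
  rw [integral_add h2 (hy.const_mul d), integral_add h1 (hw.const_mul c),
    integral_add (hu.const_mul a) (hv.const_mul b), integral_const_mul, integral_const_mul,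
    integral_const_mul, integral_const_mul]

section main

variable {E : Type*} [NormedAddCommGroup E] [InnerProductSpace ℝ E] [FiniteDimensional ℝ E]
  [MeasurableSpace E] [BorelSpace E]

theorem PL_fd : PL E (volume : Measure E) := by
  refine PL.of_measurePreserving (fun x => (stdOrthonormalBasis ℝ E).repr.symm x)
    (LinearIsometryEquiv.measurePreserving (stdOrthonormalBasis ℝ E).repr.symm) ?_
    (PL_euclidean (Module.finrank ℝ E))
  intro a b x y
  simp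

/-- midpoint form of Prékopa–Leindler for real functions -/
theorem pl_mid {U V H : E → ℝ} (hU : ∀ x, 0 ≤ U x) (hV : ∀ x, 0 ≤ V x) (hH : ∀ x, 0 ≤ H x)
    (mU : Integrable U) (mV : Integrable V) (mH : Integrable H)
    (sU : Measurable U) (sV : Measurable V) (sH : Measurable H)
    (h : ∀ x y, √(U x) * √(V y) ≤ H ((1 / 2 : ℝ) • (x + y))) :
    (∫ x, U x) * ∫ x, V x ≤ (∫ x, H x) ^ 2 := by
  have key := (PL_fd (E := E)) (1 / 2) (by norm_num) (by norm_num) (fun x => ENNReal.ofReal (U x))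
    (fun x => ENNReal.ofReal (V x)) (fun x => ENNReal.ofReal (H x)) sU.ennreal_ofReal
    sV.ennreal_ofReal sH.ennreal_ofReal ?_
  · rw [← ofReal_integral_eq_lintegral_ofReal mU (ae_of_all _ hU),
      ← ofReal_integral_eq_lintegral_ofReal mV (ae_of_all _ hV),
      ← ofReal_integral_eq_lintegral_ofReal mH (ae_of_all _ hH)] at key
    have i1 : 0 ≤ ∫ x, U x := integral_nonneg hU
    have i2 : 0 ≤ ∫ x, V x := integral_nonneg hV
    have i3 : 0 ≤ ∫ x, H x := integral_nonneg hH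
    rw [ENNReal.ofReal_rpow_of_nonneg i1 (by norm_num),
      ENNReal.ofReal_rpow_of_nonneg i2 (by norm_num), ← ENNReal.ofReal_mul (by positivity),
      ENNReal.ofReal_le_ofReal_iff i3] at key
    have e : (1 - 1 / 2 : ℝ) = 1 / 2 := by norm_num
    rw [e, ← Real.sqrt_eq_rpow, ← Real.sqrt_eq_rpow, ← Real.sqrt_mul i1] at key
    have h5 := Real.sqrt_le_left i3 |>.1 key
    exact h5
  · intro x y
    have hx := hU x
    have hy := hV y
    rw [ENNReal.ofReal_rpow_of_nonneg hx (by norm_num),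
      ENNReal.ofReal_rpow_of_nonneg hy (by norm_num), ← ENNReal.ofReal_mul (by positivity)]
    refine ENNReal.ofReal_le_ofReal ?_
    have e : (1 - 1 / 2 : ℝ) = 1 / 2 := by norm_num
    rw [e, ← Real.sqrt_eq_rpow, ← Real.sqrt_eq_rpow, ← smul_add]
    exact h x y

/-- strong log-concavity (midpoint form) -/
def SLC (lam : ℝ) (W : E → ℝ) : Prop :=
  ∀ x y, √(W x) * √(W y) ≤ Real.exp (-(lam / 8 * ‖x - y‖ ^ 2)) * W ((1 / 2 : ℝ) • (x + y))

variable {lam : ℝ} {W : E → ℝ}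

set_option maxHeartbeats 2000000 in
/-- **Poincaré inequality at scale `r`** -/
theorem poinc_step (hl : 0 < lam) (hW0 : ∀ x, 0 ≤ W x) (mW : Measurable W) (iW : Integrable W)
    (hW : SLC lam W) {f g : E → ℝ} (mf : Measurable f) (mg : Measurable g) {M L r : ℝ}
    (hM : ∀ x, W x ≠ 0 → |f x| ≤ M) (hg0 : ∀ x, 0 ≤ g x) (hgL : ∀ x, g x ≤ L) (hr : 0 < r)
    (h1 : ∀ z w, ‖w‖ ≤ r → f (z + w) - f z ≤ g z * ‖w‖)
    (h2 : ∀ z w, f (z + w) - f z ≤ L * ‖w‖) :
    (∫ x, W x) * (∫ x, f x ^ 2 * W x) - (∫ x, f x * W x) ^ 2 ≤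
      lam⁻¹ * (∫ x, W x) * ∫ x, g x ^ 2 * W x := by
  -- we may enlarge `M` and `L`
  obtain ⟨M', hM'1, hM'⟩ : ∃ M', 1 ≤ M' ∧ ∀ x, W x ≠ 0 → |f x| ≤ M' :=
    ⟨max M 1, le_max_right _ _, fun x hx => (hM x hx).trans (le_max_left _ _)⟩
  obtain ⟨L', hL'1, hL'L⟩ : ∃ L', 1 ≤ L' ∧ L ≤ L' := ⟨max L 1, le_max_right _ _, le_max_left _ _⟩
  have hgL' : ∀ x, g x ≤ L' := fun x => (hgL x).trans hL'L
  have h2' : ∀ z w, f (z + w) - f z ≤ L' * ‖w‖ := fun z w =>
    (h2 z w).trans (mul_le_mul_of_nonneg_right hL'L (norm_nonneg _))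
  clear hM hgL h2
  -- integrability helper
  have hint : ∀ φ : E → ℝ, Measurable φ → ∀ C : ℝ, (∀ x, W x ≠ 0 → |φ x| ≤ C) →
      Integrable (fun x => φ x * W x) := by
    intro φ mφ C hC
    refine (iW.const_mul C).mono' (mφ.mul mW).aestronglyMeasurable (ae_of_all _ fun x => ?_)
    by_cases hx : W x = 0
    · simp [hx]
    · rw [Real.norm_eq_abs, abs_mul, abs_of_nonneg (hW0 x)]
      exact mul_le_mul_of_nonneg_right (hC x hx) (hW0 x)
  set Z := ∫ x, W x with hZ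
  set A := ∫ x, f x * W x with hA
  set B := ∫ x, f x ^ 2 * W x with hB
  set D := ∫ x, g x ^ 2 * W x with hD
  set c₀ : ℝ := 1 / (8 * lam) with hc₀
  have hc₀0 : 0 < c₀ := by positivity
  -- the bound on the exponent
  set Q : ℝ := M' + L' ^ 2 * c₀ + 1 with hQ
  have hQ1 : 1 ≤ Q := by
    have : 0 ≤ L' ^ 2 * c₀ := by positivity
    rw [hQ]; linarith
  have hQ0 : 0 < Q := by linarith
  set e₀ : ℝ := min (1 / Q) (min 1 (r * lam / L')) with he₀
  have he₀0 : 0 < e₀ := by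
    rw [he₀]
    refine lt_min (by positivity) (lt_min one_pos ?_)
    have : 0 < L' := by linarith
    positivity
  have hZ0 : 0 ≤ Z := integral_nonneg hW0
  have hmain := second_order (Z := Z) (A := A) (B := B) (D := D)
    (K := (Q ^ 3 + Q ^ 2 + L' ^ 2 * c₀ * Q) * (Z + 1)) (c := c₀) he₀0 ?_
  · have e1 : 8 * c₀ * Z * D = lam⁻¹ * Z * D := by
      rw [hc₀]
      field_simp
    rw [e1] at hmain
    exact hmain
  intro e he he'
  have heQ : e * Q ≤ 1 := by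
    have h3 : e ≤ 1 / Q := he'.trans (min_le_left _ _)
    rwa [le_div_iff₀ hQ0] at h3
  have he1 : e ≤ 1 := he'.trans ((min_le_right _ _).trans (min_le_left _ _))
  have her : e * L' ≤ r * lam := by
    have h3 : e ≤ r * lam / L' := he'.trans ((min_le_right _ _).trans (min_le_right _ _))
    rwa [le_div_iff₀ (by linarith)] at h3
  set s : E → ℝ := fun x => e * f x / 2 + e ^ 2 * (c₀ * g x ^ 2) with hs
  have ms : Measurable s := by
    rw [hs]
    fun_prop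
  have hs_abs : ∀ x, W x ≠ 0 → |s x| ≤ e * Q := by
    intro x hx
    have h3 : |e * f x / 2| ≤ e * M' := by
      rw [abs_div, abs_mul, abs_of_pos he, abs_of_pos (by norm_num : (0 : ℝ) < 2)]
      have := hM' x hx
      have h4 : e * |f x| ≤ e * M' := mul_le_mul_of_nonneg_left this he.le
      have h5 : 0 ≤ e * |f x| := by positivity
      linarith
    have h4 : |e ^ 2 * (c₀ * g x ^ 2)| ≤ e * (L' ^ 2 * c₀) := by
      rw [abs_of_nonneg (by positivity)]
      have h5 : g x ^ 2 ≤ L' ^ 2 := pow_le_pow_left₀ (hg0 x) (hgL' x) 2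
      have h6 : e ^ 2 ≤ e := by nlinarith
      calc e ^ 2 * (c₀ * g x ^ 2) ≤ e * (c₀ * L' ^ 2) := by
            apply mul_le_mul h6 (mul_le_mul_of_nonneg_left h5 hc₀0.le) (by positivity) he.le
        _ = e * (L' ^ 2 * c₀) := by ring
    calc |s x| ≤ |e * f x / 2| + |e ^ 2 * (c₀ * g x ^ 2)| := abs_add_le _ _
      _ ≤ e * M' + e * (L' ^ 2 * c₀) := add_le_add h3 h4
      _ ≤ e * Q := by
          have h7 : e * Q = e * M' + e * (L' ^ 2 * c₀) + e := by rw [hQ]; ring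
          linarith
  have hs1 : ∀ x, W x ≠ 0 → |s x| ≤ 1 := fun x hx => (hs_abs x hx).trans heQ
  have hf1 : ∀ x, W x ≠ 0 → |e * f x| ≤ e * Q := by
    intro x hx
    rw [abs_mul, abs_of_pos he]
    refine mul_le_mul_of_nonneg_left ((hM' x hx).trans ?_) he.le
    have : 0 ≤ L' ^ 2 * c₀ := by positivity
    rw [hQ]; linarith
  -- Prékopa–Leindler
  have hexpf : ∀ x, W x ≠ 0 → |Real.exp (e * f x)| ≤ Real.exp 1 := by
    intro x hx
    rw [abs_of_pos (Real.exp_pos _)]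
    exact Real.exp_le_exp.2 ((le_abs_self _).trans ((hf1 x hx).trans heQ))
  have hexps : ∀ x, W x ≠ 0 → |Real.exp (s x)| ≤ Real.exp 1 := by
    intro x hx
    rw [abs_of_pos (Real.exp_pos _)]
    exact Real.exp_le_exp.2 ((le_abs_self _).trans (hs1 x hx))
  have iU := hint (fun x => Real.exp (e * f x)) (by fun_prop) _ hexpf
  have iH := hint (fun x => Real.exp (s x)) (by fun_prop) _ hexps
  have hPL := pl_mid (U := fun x => Real.exp (e * f x) * W x) (V := W)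
    (H := fun x => Real.exp (s x) * W x)
    (fun x => mul_nonneg (Real.exp_pos _).le (hW0 x)) hW0
    (fun x => mul_nonneg (Real.exp_pos _).le (hW0 x)) iU iW iH (by fun_prop) mW
    (by fun_prop) ?_
  swap
  · intro x y
    set z := (1 / 2 : ℝ) • (x + y) with hz
    set w := (1 / 2 : ℝ) • (x - y) with hw
    have hxzw : x = z + w := by rw [hz, hw]; module
    have hxy : ‖x - y‖ ^ 2 = 4 * ‖w‖ ^ 2 := by
      rw [hw, norm_smul, Real.norm_of_nonneg (by norm_num)]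
      ring
    have h3 := hW x y
    rw [← hz, hxy] at h3
    have h4 : e / 2 * (f x - f z) ≤ e ^ 2 * (c₀ * g z ^ 2) + lam / 2 * ‖w‖ ^ 2 := by
      have hpos : 0 ≤ e ^ 2 * (c₀ * g z ^ 2) := by positivity
      rcases le_total ‖w‖ r with hwr | hwr
      · have h5 := h1 z w hwr
        rw [← hxzw] at h5
        have h6 : e / 2 * (g z * ‖w‖) ≤ e ^ 2 * (c₀ * g z ^ 2) + lam / 2 * ‖w‖ ^ 2 := by
          have h7 : e ^ 2 * (c₀ * g z ^ 2) + lam / 2 * ‖w‖ ^ 2 - e / 2 * (g z * ‖w‖) =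
              (lam / 2) * (‖w‖ - e * g z / (2 * lam)) ^ 2 := by
            rw [hc₀]
            field_simp
            ring
          have h8 : 0 ≤ (lam / 2) * (‖w‖ - e * g z / (2 * lam)) ^ 2 := by positivity
          linarith
        have h9 : e / 2 * (f x - f z) ≤ e / 2 * (g z * ‖w‖) :=
          mul_le_mul_of_nonneg_left h5 (by positivity)
        exact h9.trans h6
      · have h5 := h2' z w
        rw [← hxzw] at h5
        have h6 : e / 2 * (f x - f z) ≤ e / 2 * (L' * ‖w‖) :=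
          mul_le_mul_of_nonneg_left h5 (by positivity)
        have h7 : e / 2 * (L' * ‖w‖) ≤ lam / 2 * ‖w‖ ^ 2 := by
          have h8 : e * L' ≤ lam * ‖w‖ := by
            refine her.trans ?_
            rw [mul_comm r]
            exact mul_le_mul_of_nonneg_left hwr hl.le
          have h9 := mul_le_mul_of_nonneg_right h8 (norm_nonneg w)
          calc e / 2 * (L' * ‖w‖) = (e * L' * ‖w‖) / 2 := by ring
            _ ≤ (lam * ‖w‖ * ‖w‖) / 2 := by linarith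
            _ = lam / 2 * ‖w‖ ^ 2 := by ring
        linarith
    have e1 : √(Real.exp (e * f x) * W x) = Real.exp (e * f x / 2) * √(W x) := by
      rw [Real.sqrt_mul (Real.exp_pos _).le, ← Real.exp_half]
    rw [e1]
    calc Real.exp (e * f x / 2) * √(W x) * √(W y)
        = Real.exp (e * f x / 2) * (√(W x) * √(W y)) := by ring
      _ ≤ Real.exp (e * f x / 2) * (Real.exp (-(lam / 8 * (4 * ‖w‖ ^ 2))) * W z) :=
          mul_le_mul_of_nonneg_left h3 (Real.exp_pos _).le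
      _ = Real.exp (e * f x / 2 + -(lam / 8 * (4 * ‖w‖ ^ 2))) * W z := by
          rw [Real.exp_add]; ring
      _ ≤ Real.exp (s z) * W z := by
          refine mul_le_mul_of_nonneg_right (Real.exp_le_exp.2 ?_) (hW0 z)
          show _ ≤ e * f z / 2 + e ^ 2 * (c₀ * g z ^ 2)
          linarith
  -- Taylor expansions
  have iA := hint f mf M' hM'
  have iB := hint (fun x => f x ^ 2) (by fun_prop) (M' ^ 2) (fun x hx => by
    rw [abs_pow]; exact pow_le_pow_left₀ (abs_nonneg _) (hM' x hx) 2)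
  have iD := hint (fun x => g x ^ 2) (by fun_prop) (L' ^ 2) (fun x hx => by
    rw [abs_pow, abs_of_nonneg (hg0 x)]; exact pow_le_pow_left₀ (hg0 x) (hgL' x) 2)
  have hlow : Z + e * A + e ^ 2 * B / 2 - (e * Q) ^ 3 * Z ≤
      ∫ x, Real.exp (e * f x) * W x := by
    obtain ⟨i1, e2⟩ := int_comb iW iA iB iW 1 e (e ^ 2 / 2) (-(e * Q) ^ 3)
    have e3 : Z + e * A + e ^ 2 * B / 2 - (e * Q) ^ 3 * Z =
        1 * Z + e * A + e ^ 2 / 2 * B + -(e * Q) ^ 3 * Z := by ring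
    rw [e3, ← e2]
    refine integral_mono i1 iU fun x => ?_
    by_cases hx : W x = 0
    · simp [hx]
    · have h3 := abs_exp_sub_two ((hf1 x hx).trans heQ)
      have h4 : |e * f x| ^ 3 ≤ (e * Q) ^ 3 := pow_le_pow_left₀ (abs_nonneg _) (hf1 x hx) 3
      have h5 := (abs_le.1 h3).1
      have h6 : 1 + e * f x + (e * f x) ^ 2 / 2 - (e * Q) ^ 3 ≤ Real.exp (e * f x) := by linarith
      have h7 := mul_le_mul_of_nonneg_right h6 (hW0 x)
      beta_reduce
      calc _ = (1 + e * f x + (e * f x) ^ 2 / 2 - (e * Q) ^ 3) * W x := by ring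
        _ ≤ _ := h7
  have hupp : ∫ x, Real.exp (s x) * W x ≤
      Z + e * A / 2 + e ^ 2 * (c₀ * D + B / 8) +
        ((e * Q) ^ 3 + e ^ 3 * (Q ^ 2 + L' ^ 2 * c₀ * Q)) * Z := by
    obtain ⟨i1, e2⟩ := int_comb iW iA iD iB
      (1 + ((e * Q) ^ 3 + e ^ 3 * (Q ^ 2 + L' ^ 2 * c₀ * Q))) (e / 2) (e ^ 2 * c₀) (e ^ 2 / 8)
    have e3 : Z + e * A / 2 + e ^ 2 * (c₀ * D + B / 8) +
        ((e * Q) ^ 3 + e ^ 3 * (Q ^ 2 + L' ^ 2 * c₀ * Q)) * Z =
        (1 + ((e * Q) ^ 3 + e ^ 3 * (Q ^ 2 + L' ^ 2 * c₀ * Q))) * Z + e / 2 * A +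
          (e ^ 2 * c₀) * D + e ^ 2 / 8 * B := by ring
    rw [e3, ← e2]
    refine integral_mono iH i1 fun x => ?_
    by_cases hx : W x = 0
    · simp [hx]
    · have h3 := abs_exp_sub_two (hs1 x hx)
      have h4 : |s x| ^ 3 ≤ (e * Q) ^ 3 := pow_le_pow_left₀ (abs_nonneg _) (hs_abs x hx) 3
      have h5 := (abs_le.1 h3).2
      have hsq : s x ^ 2 / 2 ≤ e ^ 2 * f x ^ 2 / 8 + e ^ 3 * (Q ^ 2 + L' ^ 2 * c₀ * Q) := by
        have hg2 : g x ^ 2 ≤ L' ^ 2 := pow_le_pow_left₀ (hg0 x) (hgL' x) 2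
        have hk0 : 0 ≤ c₀ * g x ^ 2 := by positivity
        have hk1 : c₀ * g x ^ 2 ≤ L' ^ 2 * c₀ := by
          rw [mul_comm (L' ^ 2)]
          exact mul_le_mul_of_nonneg_left hg2 hc₀0.le
        have hkQ : c₀ * g x ^ 2 ≤ Q := by rw [hQ]; linarith
        have hfQ : |f x| ≤ Q := by
          refine (hM' x hx).trans ?_
          have : 0 ≤ L' ^ 2 * c₀ := by positivity
          rw [hQ]; linarith
        have h6 : s x ^ 2 / 2 = e ^ 2 * f x ^ 2 / 8 + e ^ 3 * (f x * (c₀ * g x ^ 2)) / 2 +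
            e ^ 4 * (c₀ * g x ^ 2) ^ 2 / 2 := by
          show (e * f x / 2 + e ^ 2 * (c₀ * g x ^ 2)) ^ 2 / 2 = _
          ring
        have h7 : f x * (c₀ * g x ^ 2) ≤ Q * (L' ^ 2 * c₀) :=
          (mul_le_mul_of_nonneg_right ((le_abs_self _).trans hfQ) hk0).trans
            (mul_le_mul_of_nonneg_left hk1 hQ0.le)
        have h8 : (c₀ * g x ^ 2) ^ 2 ≤ Q ^ 2 := pow_le_pow_left₀ hk0 hkQ 2
        have he3 : 0 < e ^ 3 := by positivity
        have he4 : e ^ 4 ≤ e ^ 3 := pow_le_pow_of_le_one he.le he1 (by norm_num)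
        have h9 : e ^ 3 * (f x * (c₀ * g x ^ 2)) ≤ e ^ 3 * (Q * (L' ^ 2 * c₀)) :=
          mul_le_mul_of_nonneg_left h7 he3.le
        have h10 : e ^ 4 * (c₀ * g x ^ 2) ^ 2 ≤ e ^ 3 * Q ^ 2 :=
          mul_le_mul he4 h8 (by positivity) he3.le
        have h11 : 0 ≤ e ^ 3 * (Q * (L' ^ 2 * c₀)) := by positivity
        have h12 : 0 ≤ e ^ 3 * Q ^ 2 := by positivity
        rw [h6]
        have h13 : e ^ 3 * (Q ^ 2 + L' ^ 2 * c₀ * Q) =
            e ^ 3 * Q ^ 2 + e ^ 3 * (Q * (L' ^ 2 * c₀)) := by ring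
        linarith
      have h6 : Real.exp (s x) ≤ 1 + s x + e ^ 2 * f x ^ 2 / 8 +
          ((e * Q) ^ 3 + e ^ 3 * (Q ^ 2 + L' ^ 2 * c₀ * Q)) := by linarith
      have h7 := mul_le_mul_of_nonneg_right h6 (hW0 x)
      beta_reduce
      calc Real.exp (s x) * W x ≤ _ := h7
        _ = _ := by
          show (1 + (e * f x / 2 + e ^ 2 * (c₀ * g x ^ 2)) + e ^ 2 * f x ^ 2 / 8 +
            ((e * Q) ^ 3 + e ^ 3 * (Q ^ 2 + L' ^ 2 * c₀ * Q))) * W x = _
          ring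
  have hK1 : (e * Q) ^ 3 * Z ≤ (Q ^ 3 + Q ^ 2 + L' ^ 2 * c₀ * Q) * (Z + 1) * e ^ 3 := by
    have h3 : 0 ≤ Q ^ 3 * e ^ 3 := by positivity
    have h4 : 0 ≤ (Q ^ 2 + L' ^ 2 * c₀ * Q) * (Z + 1) * e ^ 3 := by positivity
    have h5 : (Q ^ 3 + Q ^ 2 + L' ^ 2 * c₀ * Q) * (Z + 1) * e ^ 3 = (e * Q) ^ 3 * Z +
        Q ^ 3 * e ^ 3 + (Q ^ 2 + L' ^ 2 * c₀ * Q) * (Z + 1) * e ^ 3 := by ring
    linarith
  have hK2 : ((e * Q) ^ 3 + e ^ 3 * (Q ^ 2 + L' ^ 2 * c₀ * Q)) * Z ≤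
      (Q ^ 3 + Q ^ 2 + L' ^ 2 * c₀ * Q) * (Z + 1) * e ^ 3 := by
    have h4 : 0 ≤ (Q ^ 3 + Q ^ 2 + L' ^ 2 * c₀ * Q) * e ^ 3 := by positivity
    have h5 : (Q ^ 3 + Q ^ 2 + L' ^ 2 * c₀ * Q) * (Z + 1) * e ^ 3 =
        ((e * Q) ^ 3 + e ^ 3 * (Q ^ 2 + L' ^ 2 * c₀ * Q)) * Z +
          (Q ^ 3 + Q ^ 2 + L' ^ 2 * c₀ * Q) * e ^ 3 := by ring
    linarith
  have hupp2 : ∫ x, Real.exp (s x) * W x ≤ Z + e * A / 2 + e ^ 2 * (c₀ * D + B / 8) +
      (Q ^ 3 + Q ^ 2 + L' ^ 2 * c₀ * Q) * (Z + 1) * e ^ 3 := by linarith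
  have hlow2 : Z + e * A + e ^ 2 * B / 2 - (Q ^ 3 + Q ^ 2 + L' ^ 2 * c₀ * Q) * (Z + 1) * e ^ 3 ≤
      ∫ x, Real.exp (e * f x) * W x := by linarith
  have hH0 : 0 ≤ ∫ x, Real.exp (s x) * W x :=
    integral_nonneg fun x => mul_nonneg (Real.exp_pos _).le (hW0 x)
  calc Z * (Z + e * A + e ^ 2 * B / 2 - (Q ^ 3 + Q ^ 2 + L' ^ 2 * c₀ * Q) * (Z + 1) * e ^ 3)
      ≤ Z * ∫ x, Real.exp (e * f x) * W x := mul_le_mul_of_nonneg_left hlow2 hZ0
    _ = (∫ x, Real.exp (e * f x) * W x) * Z := mul_comm _ _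
    _ ≤ (∫ x, Real.exp (s x) * W x) ^ 2 := hPL
    _ ≤ _ := pow_le_pow_left₀ hH0 hupp2 2

end main

end

end Crest.Agent.R144.Fi865
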