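import Crest.Agent.R144.Fi1_865

/-!
# R144, static functional inequalities (helper865), file 2: Poincaré and Payne–Weinberger

* `poincare_lip` : `lam Var(f) ≤ E|Df|²` for a strongly log-concave weight, `f` Lipschitz;
* `pw_weight`, `pw_convex` : Payne–Weinberger with constant `2 d²` for a log-concave weight carried by
  a ball of radius `d`, and for the uniform law of a bounded convex set.
-/

set_option autoImplicit false
set_option linter.unusedSectionVars false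

open MeasureTheory Set Filter Topology
open scoped ENNReal NNReal RealInnerProductSpace

namespace Crest.Agent.R144.Fi865

noncomputable section

/-! ### truncation -/

/-- truncation at height `M` -/
def trc (M t : ℝ) : ℝ := max (-M) (min M t)

theorem trc_lip (M : ℝ) : LipschitzWith 1 (trc M) := by
  have h := (LipschitzWith.id (α := ℝ)).const_min M
  exact h.const_max (-M)

theorem trc_sub_le (M a b : ℝ) : |trc M a - trc M b| ≤ |a - b| := by
  have h := (trc_lip M).dist_le_mul a b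
  rwa [NNReal.coe_one, one_mul, Real.dist_eq, Real.dist_eq] at h

theorem abs_trc_le {M : ℝ} (hM : 0 ≤ M) (t : ℝ) : |trc M t| ≤ M := by
  rw [abs_le]
  unfold trc
  refine ⟨le_max_left _ _, max_le (by linarith) (min_le_left _ _)⟩

theorem trc_zero {M : ℝ} (hM : 0 ≤ M) : trc M 0 = 0 := by
  unfold trc
  rw [min_eq_right hM, max_eq_right (by linarith)]

theorem abs_trc_le_abs {M : ℝ} (hM : 0 ≤ M) (t : ℝ) : |trc M t| ≤ |t| := by
  have h := trc_sub_le M t 0
  rwa [trc_zero hM, sub_zero, sub_zero] at h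

theorem trc_eq {M t : ℝ} (h : |t| ≤ M) : trc M t = t := by
  unfold trc
  rw [abs_le] at h
  rw [min_eq_right h.2, max_eq_right h.1]

theorem tendsto_trc (t : ℝ) : Tendsto (fun n : ℕ => trc n t) atTop (𝓝 t) := by
  refine tendsto_const_nhds.congr' ?_
  filter_upwards [eventually_ge_atTop ⌈|t|⌉₊] with n hn
  exact (trc_eq ((Nat.le_ceil _).trans (Nat.cast_le.2 hn))).symm

section main

variable {E : Type*} [NormedAddCommGroup E] [InnerProductSpace ℝ E] [FiniteDimensional ℝ E]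
  [MeasurableSpace E] [BorelSpace E] {lam : ℝ} {W : E → ℝ}

/-- integrability of `f W` from `f² W` and `W` -/
theorem integrable_mul_of_sq (hW0 : ∀ x, 0 ≤ W x) (mW : Measurable W) (iW : Integrable W)
    {f : E → ℝ} (mf : Measurable f) (if2 : Integrable fun x => f x ^ 2 * W x) :
    Integrable fun x => f x * W x := by
  refine (iW.add if2).mono' (mf.mul mW).aestronglyMeasurable (ae_of_all _ fun x => ?_)
  rw [Real.norm_eq_abs, abs_mul, abs_of_nonneg (hW0 x), Pi.add_apply]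
  have h1 : |f x| ≤ 1 + f x ^ 2 := by
    rw [← sq_abs (f x)]
    nlinarith [abs_nonneg (f x), sq_nonneg (|f x| - 1)]
  calc |f x| * W x ≤ (1 + f x ^ 2) * W x := mul_le_mul_of_nonneg_right h1 (hW0 x)
    _ = W x + f x ^ 2 * W x := by ring

/-- Poincaré at scale `r`, without boundedness of `f` -/
theorem poinc_step' (hl : 0 < lam) (hW0 : ∀ x, 0 ≤ W x) (mW : Measurable W) (iW : Integrable W)
    (hW : SLC lam W) {f g : E → ℝ} (mf : Measurable f) (mg : Measurable g) {L r : ℝ}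
    (if2 : Integrable fun x => f x ^ 2 * W x) (hg0 : ∀ x, 0 ≤ g x) (hgL : ∀ x, g x ≤ L)
    (hr : 0 < r) (h1 : ∀ z w, ‖w‖ ≤ r → |f (z + w) - f z| ≤ g z * ‖w‖)
    (h2 : ∀ z w, |f (z + w) - f z| ≤ L * ‖w‖) :
    (∫ x, W x) * (∫ x, f x ^ 2 * W x) - (∫ x, f x * W x) ^ 2 ≤
      lam⁻¹ * (∫ x, W x) * ∫ x, g x ^ 2 * W x := by
  have hstep : ∀ n : ℕ, (∫ x, W x) * (∫ x, trc n (f x) ^ 2 * W x) -
      (∫ x, trc n (f x) * W x) ^ 2 ≤ lam⁻¹ * (∫ x, W x) * ∫ x, g x ^ 2 * W x := by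
    intro n
    refine poinc_step hl hW0 mW iW hW (f := fun x => trc n (f x))
      ((trc_lip n).continuous.measurable.comp mf) mg
      (fun x _ => abs_trc_le (Nat.cast_nonneg n) (f x)) hg0 hgL hr (fun z w hw => ?_)
      fun z w => ?_
    · exact (le_abs_self _).trans ((trc_sub_le _ _ _).trans (h1 z w hw))
    · exact (le_abs_self _).trans ((trc_sub_le _ _ _).trans (h2 z w))
  have if1 := integrable_mul_of_sq hW0 mW iW mf if2
  have t1 : Tendsto (fun n : ℕ => ∫ x, trc n (f x) ^ 2 * W x) atTop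
      (𝓝 (∫ x, f x ^ 2 * W x)) := by
    refine tendsto_integral_of_dominated_convergence (fun x => f x ^ 2 * W x) (fun n => ?_) if2
      (fun n => ae_of_all _ fun x => ?_) (ae_of_all _ fun x => ?_)
    · exact ((((trc_lip n).continuous.measurable.comp mf).pow_const 2).mul mW).aestronglyMeasurable
    · rw [Real.norm_eq_abs, abs_mul, abs_of_nonneg (hW0 x), abs_pow]
      refine mul_le_mul_of_nonneg_right ?_ (hW0 x)
      rw [← sq_abs (f x)]
      exact pow_le_pow_left₀ (abs_nonneg _) (abs_trc_le_abs (Nat.cast_nonneg n) _) 2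
    · exact ((tendsto_trc (f x)).pow 2).mul_const _
  have t2 : Tendsto (fun n : ℕ => ∫ x, trc n (f x) * W x) atTop (𝓝 (∫ x, f x * W x)) := by
    refine tendsto_integral_of_dominated_convergence (fun x => |f x * W x|) (fun n => ?_)
      if1.abs (fun n => ae_of_all _ fun x => ?_) (ae_of_all _ fun x => ?_)
    · exact (((trc_lip n).continuous.measurable.comp mf).mul mW).aestronglyMeasurable
    · rw [Real.norm_eq_abs, abs_mul, abs_mul]
      exact mul_le_mul_of_nonneg_right (abs_trc_le_abs (Nat.cast_nonneg n) _) (abs_nonneg _)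
    · exact (tendsto_trc (f x)).mul_const _
  exact le_of_tendsto' ((t1.const_mul _).sub (t2.pow 2)) hstep

/-- local Lipschitz constant at scale `r` -/
def lipr (f : E → ℝ) (r : ℝ) (z : E) : ℝ :=
  max ‖fderiv ℝ f z‖ (⨆ w : {w : E // w ≠ 0 ∧ ‖w‖ ≤ r}, |f (z + w) - f z| / ‖(w : E)‖)

section lipr

variable {f : E → ℝ} {L : ℝ≥0} (hf : LipschitzWith L f)

include hf

theorem lip_le (z w : E) : |f (z + w) - f z| ≤ L * ‖w‖ := by
  have h := hf.dist_le_mul (z + w) z
  rwa [Real.dist_eq, dist_eq_norm, add_sub_cancel_left] at h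

theorem lipr_bdd (r : ℝ) (z : E) : BddAbove (range fun w : {w : E // w ≠ 0 ∧ ‖w‖ ≤ r} =>
    |f (z + w) - f z| / ‖(w : E)‖) := by
  refine ⟨L, ?_⟩
  rintro _ ⟨w, rfl⟩
  have : 0 < ‖(w : E)‖ := norm_pos_iff.2 w.2.1
  rw [div_le_iff₀ this]
  exact lip_le hf z w

theorem lipr_le (r : ℝ) (z : E) : lipr f r z ≤ L := by
  refine max_le (norm_fderiv_le_of_lipschitz ℝ hf) ?_
  refine Real.iSup_le (fun w => ?_) L.2
  have : 0 < ‖(w : E)‖ := norm_pos_iff.2 w.2.1
  rw [div_le_iff₀ this]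
  exact lip_le hf z w

omit hf in
theorem lipr_nonneg (r : ℝ) (z : E) : 0 ≤ lipr f r z :=
  (norm_nonneg _).trans (le_max_left _ _)

theorem lipr_spec {r : ℝ} (z w : E) (hw : ‖w‖ ≤ r) : |f (z + w) - f z| ≤ lipr f r z * ‖w‖ := by
  by_cases h0 : w = 0
  · simp [h0]
  · have : 0 < ‖w‖ := norm_pos_iff.2 h0
    rw [← div_le_iff₀ this]
    exact (le_ciSup (lipr_bdd hf r z) ⟨w, h0, hw⟩).trans (le_max_right _ _)

theorem measurable_lipr (r : ℝ) : Measurable (lipr f r) := by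
  refine (measurable_fderiv ℝ f).norm.max ?_
  by_cases hne : Nonempty {w : E // w ≠ 0 ∧ ‖w‖ ≤ r}
  · have : LowerSemicontinuous fun z => ⨆ w : {w : E // w ≠ 0 ∧ ‖w‖ ≤ r},
        |f (z + w) - f z| / ‖(w : E)‖ := by
      refine lowerSemicontinuous_ciSup (fun z => lipr_bdd hf r z) fun w => ?_
      have hc := hf.continuous
      exact Continuous.lowerSemicontinuous (by fun_prop)
    exact this.measurable
  · have he : IsEmpty {w : E // w ≠ 0 ∧ ‖w‖ ≤ r} := not_nonempty_iff.1 hne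
    simp only [Real.iSup_of_isEmpty]
    exact measurable_const

theorem tendsto_lipr {z : E} (hz : DifferentiableAt ℝ f z) :
    Tendsto (fun n : ℕ => lipr f (1 / ((n : ℝ) + 1)) z) atTop (𝓝 ‖fderiv ℝ f z‖) := by
  rw [Metric.tendsto_atTop]
  intro ε hε
  have h1 := hz.hasFDerivAt.isLittleO
  have h2 := h1.def (half_pos hε)
  rw [Metric.eventually_nhds_iff] at h2
  obtain ⟨δ, hδ, h2⟩ := h2
  obtain ⟨N, hN⟩ := exists_nat_one_div_lt hδ
  refine ⟨N, fun n hn => ?_⟩
  have h3 : 1 / ((n : ℝ) + 1) < δ := by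
    refine lt_of_le_of_lt ?_ hN
    apply one_div_le_one_div_of_le (by positivity)
    have : (N : ℝ) ≤ n := Nat.cast_le.2 hn
    linarith
  have h4 : lipr f (1 / ((n : ℝ) + 1)) z ≤ ‖fderiv ℝ f z‖ + ε / 2 := by
    refine max_le (by linarith) (Real.iSup_le (fun w => ?_) (by positivity))
    have hw : 0 < ‖(w : E)‖ := norm_pos_iff.2 w.2.1
    rw [div_le_iff₀ hw]
    have h5 := h2 (y := z + w) (by
      rw [dist_eq_norm, add_sub_cancel_left]; exact w.2.2.trans_lt h3)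
    rw [add_sub_cancel_left, Real.norm_eq_abs] at h5
    have h6 : |fderiv ℝ f z w| ≤ ‖fderiv ℝ f z‖ * ‖(w : E)‖ := (fderiv ℝ f z).le_opNorm _
    calc |f (z + w) - f z| = |(f (z + w) - f z - fderiv ℝ f z w) + fderiv ℝ f z w| := by
          rw [sub_add_cancel]
      _ ≤ |f (z + w) - f z - fderiv ℝ f z w| + |fderiv ℝ f z w| := abs_add_le _ _
      _ ≤ ε / 2 * ‖(w : E)‖ + ‖fderiv ℝ f z‖ * ‖(w : E)‖ := add_le_add h5 h6
      _ = (‖fderiv ℝ f z‖ + ε / 2) * ‖(w : E)‖ := by ring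
  have h5 : ‖fderiv ℝ f z‖ ≤ lipr f (1 / ((n : ℝ) + 1)) z := le_max_left _ _
  rw [Real.dist_eq, abs_lt]
  constructor <;> linarith

end lipr

/-- **Poincaré inequality** for strongly log-concave weights, Lipschitz functions -/
theorem poincare_lip (hl : 0 < lam) (hW0 : ∀ x, 0 ≤ W x) (mW : Measurable W) (iW : Integrable W)
    (hW : SLC lam W) {f : E → ℝ} {L : ℝ≥0} (hf : LipschitzWith L f)
    (if2 : Integrable fun x => f x ^ 2 * W x) :
    (∫ x, W x) * (∫ x, f x ^ 2 * W x) - (∫ x, f x * W x) ^ 2 ≤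
      lam⁻¹ * (∫ x, W x) * ∫ x, ‖fderiv ℝ f x‖ ^ 2 * W x := by
  have mf : Measurable f := hf.continuous.measurable
  have hstep : ∀ n : ℕ, (∫ x, W x) * (∫ x, f x ^ 2 * W x) - (∫ x, f x * W x) ^ 2 ≤
      lam⁻¹ * (∫ x, W x) * ∫ x, lipr f (1 / ((n : ℝ) + 1)) x ^ 2 * W x := fun n =>
    poinc_step' hl hW0 mW iW hW mf (measurable_lipr hf _) if2 (lipr_nonneg _)
      (lipr_le hf _) (by positivity) (lipr_spec hf) (lip_le hf)
  have t1 : Tendsto (fun n : ℕ => ∫ x, lipr f (1 / ((n : ℝ) + 1)) x ^ 2 * W x) atTop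
      (𝓝 (∫ x, ‖fderiv ℝ f x‖ ^ 2 * W x)) := by
    refine tendsto_integral_of_dominated_convergence (fun x => (L : ℝ) ^ 2 * W x) (fun n => ?_)
      (iW.const_mul _) (fun n => ae_of_all _ fun x => ?_) ?_
    · exact (((measurable_lipr hf _).pow_const 2).mul mW).aestronglyMeasurable
    · rw [Real.norm_eq_abs, abs_mul, abs_of_nonneg (hW0 x), abs_pow,
        abs_of_nonneg (lipr_nonneg _ _)]
      exact mul_le_mul_of_nonneg_right
        (pow_le_pow_left₀ (lipr_nonneg _ _) (lipr_le hf _ _) 2) (hW0 x)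
    · filter_upwards [hf.ae_differentiableAt] with x hx
      exact ((tendsto_lipr hf hx).pow 2).mul_const _
  exact ge_of_tendsto' (t1.const_mul _) hstep

/-! ### perturbation: Payne–Weinberger -/

/-- variance as a minimum over constants -/
theorem var_le_const (hW0 : ∀ x, 0 ≤ W x) (mW : Measurable W) (iW : Integrable W) {f : E → ℝ}
    (mf : Measurable f) (if2 : Integrable fun x => f x ^ 2 * W x) (c : ℝ) :
    (Integrable fun x => (f x - c) ^ 2 * W x) ∧
    (∫ x, W x) * (∫ x, (f x - c) ^ 2 * W x) =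
      ((∫ x, W x) * (∫ x, f x ^ 2 * W x) - (∫ x, f x * W x) ^ 2) +
        ((∫ x, f x * W x) - c * ∫ x, W x) ^ 2 := by
  have if1 := integrable_mul_of_sq hW0 mW iW mf if2
  obtain ⟨i1, e1⟩ := int_comb if2 if1 iW iW 1 (-2 * c) (c ^ 2) 0
  have e2 : (fun x => (f x - c) ^ 2 * W x) =
      fun x => 1 * (f x ^ 2 * W x) + -2 * c * (f x * W x) + c ^ 2 * W x + 0 * W x := by
    funext x; ring
  rw [e2]
  refine ⟨i1, ?_⟩
  rw [e1]
  ring

/-- the Gaussian factor is strongly log-concave -/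
theorem slc_gauss {a : ℝ} (x₀ : E) {W : E → ℝ} (hW0 : ∀ x, 0 ≤ W x) (h : SLC 0 W) :
    SLC a fun x => W x * Real.exp (-(a / 2 * ‖x - x₀‖ ^ 2)) := by
  intro x y
  have h1 := h x y
  rw [zero_div, zero_mul, neg_zero, Real.exp_zero, one_mul] at h1
  set m := (1 / 2 : ℝ) • (x + y) with hm
  have e1 : ‖x - x₀‖ ^ 2 + ‖y - x₀‖ ^ 2 = 2 * ‖m - x₀‖ ^ 2 + ‖x - y‖ ^ 2 / 2 := by
    have h2 := parallelogram_law_with_norm ℝ (x - x₀) (y - x₀)
    have h3 : x - x₀ + (y - x₀) = (2 : ℝ) • (m - x₀) := by rw [hm]; module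
    have h4 : x - x₀ - (y - x₀) = x - y := by abel
    rw [h3, h4, norm_smul, Real.norm_of_nonneg (by norm_num)] at h2
    nlinarith
  beta_reduce
  rw [Real.sqrt_mul (hW0 x), Real.sqrt_mul (hW0 y), ← Real.exp_half, ← Real.exp_half]
  calc √(W x) * Real.exp (-(a / 2 * ‖x - x₀‖ ^ 2) / 2) *
        (√(W y) * Real.exp (-(a / 2 * ‖y - x₀‖ ^ 2) / 2))
      = (√(W x) * √(W y)) * (Real.exp (-(a / 2 * ‖x - x₀‖ ^ 2) / 2) *
        Real.exp (-(a / 2 * ‖y - x₀‖ ^ 2) / 2)) := by ring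
    _ ≤ W m * (Real.exp (-(a / 2 * ‖x - x₀‖ ^ 2) / 2) *
        Real.exp (-(a / 2 * ‖y - x₀‖ ^ 2) / 2)) :=
      mul_le_mul_of_nonneg_right h1 (by positivity)
    _ = W m * (Real.exp (-(a / 8 * ‖x - y‖ ^ 2)) * Real.exp (-(a / 2 * ‖m - x₀‖ ^ 2))) := by
      rw [← Real.exp_add, ← Real.exp_add]
      congr 2
      linear_combination (-(a / 4)) * e1
    _ = _ := by ring

/-- **Payne–Weinberger** (constant `2 d²`) for a log-concave weight carried by a ball of radius
`d` -/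
theorem pw_weight {d : ℝ} (hd : 0 < d) (x₀ : E) (hW0 : ∀ x, 0 ≤ W x) (mW : Measurable W)
    (iW : Integrable W) (hW : SLC 0 W) (hsupp : ∀ x, W x ≠ 0 → ‖x - x₀‖ ≤ d) {f : E → ℝ}
    {L : ℝ≥0} (hf : LipschitzWith L f) :
    (∫ x, W x) * (∫ x, f x ^ 2 * W x) - (∫ x, f x * W x) ^ 2 ≤
      2 * d ^ 2 * (∫ x, W x) * ∫ x, ‖fderiv ℝ f x‖ ^ 2 * W x := by
  have mf : Measurable f := hf.continuous.measurable
  set a : ℝ := (d ^ 2)⁻¹ with ha
  have ha0 : 0 < a := by positivity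
  set V : E → ℝ := fun x => W x * Real.exp (-(a / 2 * ‖x - x₀‖ ^ 2)) with hV
  have hV0 : ∀ x, 0 ≤ V x := fun x => mul_nonneg (hW0 x) (Real.exp_pos _).le
  have mV : Measurable V := mW.mul (by fun_prop)
  have hVW : ∀ x, V x ≤ W x := by
    intro x
    show W x * Real.exp (-(a / 2 * ‖x - x₀‖ ^ 2)) ≤ W x
    have : Real.exp (-(a / 2 * ‖x - x₀‖ ^ 2)) ≤ 1 := by
      rw [Real.exp_le_one_iff]
      have : 0 ≤ a / 2 * ‖x - x₀‖ ^ 2 := by positivity
      linarith
    nlinarith [hW0 x]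
  have hWV : ∀ x, W x ≤ 2 * V x := by
    intro x
    by_cases hx : W x = 0
    · have : V x = 0 := by show W x * _ = 0; rw [hx, zero_mul]
      rw [hx, this, mul_zero]
    · have h1 : ‖x - x₀‖ ^ 2 ≤ d ^ 2 := pow_le_pow_left₀ (norm_nonneg _) (hsupp x hx) 2
      have h2 : a / 2 * ‖x - x₀‖ ^ 2 ≤ 1 / 2 := by
        calc a / 2 * ‖x - x₀‖ ^ 2 ≤ a / 2 * d ^ 2 := mul_le_mul_of_nonneg_left h1 (by positivity)
          _ = 1 / 2 := by rw [ha]; field_simp
      have h3 : (1 / 2 : ℝ) ≤ Real.exp (-(a / 2 * ‖x - x₀‖ ^ 2)) := by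
        have := Real.add_one_le_exp (-(a / 2 * ‖x - x₀‖ ^ 2))
        linarith
      show W x ≤ 2 * (W x * Real.exp (-(a / 2 * ‖x - x₀‖ ^ 2)))
      nlinarith [hW0 x]
  have iV : Integrable V := iW.mono' mV.aestronglyMeasurable (ae_of_all _ fun x => by
    rw [Real.norm_of_nonneg (hV0 x)]; exact hVW x)
  -- `f` is bounded on the support
  obtain ⟨M, hM⟩ : ∃ M : ℝ, ∀ x, W x ≠ 0 → |f x| ≤ M := by
    refine ⟨|f x₀| + L * d, fun x hx => ?_⟩
    have h1 := hf.dist_le_mul x x₀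
    rw [Real.dist_eq, dist_eq_norm] at h1
    have h2 : (L : ℝ) * ‖x - x₀‖ ≤ L * d := mul_le_mul_of_nonneg_left (hsupp x hx) L.2
    have h3 : |f x| ≤ |f x - f x₀| + |f x₀| := by
      calc |f x| = |f x - f x₀ + f x₀| := by rw [sub_add_cancel]
        _ ≤ _ := abs_add_le _ _
    linarith
  have bdd : ∀ U : E → ℝ, (∀ x, 0 ≤ U x) → Measurable U → Integrable U → (∀ x, U x ≤ W x) →
      Integrable fun x => f x ^ 2 * U x := by
    intro U hU0 mU iU hUW
    refine (iU.const_mul (M ^ 2)).mono' ((mf.pow_const 2).mul mU).aestronglyMeasurable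
      (ae_of_all _ fun x => ?_)
    rw [Real.norm_eq_abs, abs_mul, abs_of_nonneg (hU0 x), abs_pow]
    by_cases hx : W x = 0
    · have : U x = 0 := le_antisymm ((hUW x).trans hx.le) (hU0 x)
      rw [this, mul_zero, mul_zero]
    · exact mul_le_mul_of_nonneg_right (pow_le_pow_left₀ (abs_nonneg _) (hM x hx) 2) (hU0 x)
  have if2 := bdd W hW0 mW iW fun x => le_rfl
  have jf2 := bdd V hV0 mV iV hVW
  have hP := poincare_lip ha0 hV0 mV iV (slc_gauss x₀ hW0 hW) hf jf2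
  have hZV0 : 0 ≤ ∫ x, V x := integral_nonneg hV0
  have hZ0 : 0 ≤ ∫ x, W x := integral_nonneg hW0
  have iD : Integrable fun x => ‖fderiv ℝ f x‖ ^ 2 * W x := by
    refine (iW.const_mul ((L : ℝ) ^ 2)).mono'
      ((((measurable_fderiv ℝ f).norm).pow_const 2).mul mW).aestronglyMeasurable
      (ae_of_all _ fun x => ?_)
    rw [Real.norm_eq_abs, abs_mul, abs_of_nonneg (hW0 x), abs_pow, abs_norm]
    exact mul_le_mul_of_nonneg_right
      (pow_le_pow_left₀ (norm_nonneg _) (norm_fderiv_le_of_lipschitz ℝ hf) 2) (hW0 x)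
  have iDV : Integrable fun x => ‖fderiv ℝ f x‖ ^ 2 * V x := by
    refine iD.mono' ((((measurable_fderiv ℝ f).norm).pow_const 2).mul mV).aestronglyMeasurable
      (ae_of_all _ fun x => ?_)
    rw [Real.norm_eq_abs, abs_mul, abs_of_nonneg (hV0 x), abs_pow, abs_norm]
    exact mul_le_mul_of_nonneg_left (hVW x) (by positivity)
  have hDVW : ∫ x, ‖fderiv ℝ f x‖ ^ 2 * V x ≤ ∫ x, ‖fderiv ℝ f x‖ ^ 2 * W x :=
    integral_mono iDV iD fun x => mul_le_mul_of_nonneg_left (hVW x) (by positivity)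
  rcases hZV0.eq_or_lt with hz | hz
  · -- degenerate case
    have h1 : V =ᵐ[volume] 0 := (integral_eq_zero_iff_of_nonneg hV0 iV).1 hz.symm
    have h2 : W =ᵐ[volume] 0 := by
      filter_upwards [h1] with x hx
      have h3 : V x = 0 := hx
      show W x = 0
      exact le_antisymm ((hWV x).trans (by rw [h3, mul_zero])) (hW0 x)
    have h3 : ∀ φ : E → ℝ, ∫ x, φ x * W x = 0 := fun φ => by
      rw [integral_congr_ae (g := fun _ => (0 : ℝ)) (h2.mono fun x hx => by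
        have h3 : W x = 0 := hx
        show φ x * W x = 0
        rw [h3, mul_zero]), integral_zero]
    rw [h3, h3, h3]
    simp
  · set c : ℝ := (∫ x, f x * V x) / ∫ x, V x with hc
    obtain ⟨iW2, eW⟩ := var_le_const hW0 mW iW mf if2 c
    obtain ⟨iV2, eV⟩ := var_le_const hV0 mV iV mf jf2 c
    have h0 : (∫ x, f x * V x) - c * ∫ x, V x = 0 := by
      rw [hc, div_mul_cancel₀ _ hz.ne', sub_self]
    rw [h0, zero_pow two_ne_zero, add_zero] at eV
    have h1 : ∫ x, (f x - c) ^ 2 * V x ≤ d ^ 2 * ∫ x, ‖fderiv ℝ f x‖ ^ 2 * V x := by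
      rw [← eV] at hP
      have h2 : (∫ x, V x) * (∫ x, (f x - c) ^ 2 * V x) ≤
          (∫ x, V x) * (d ^ 2 * ∫ x, ‖fderiv ℝ f x‖ ^ 2 * V x) := by
        refine hP.trans (le_of_eq ?_)
        rw [ha, inv_inv]
        ring
      exact le_of_mul_le_mul_left h2 hz
    have h2 : ∫ x, (f x - c) ^ 2 * W x ≤ 2 * ∫ x, (f x - c) ^ 2 * V x := by
      rw [← integral_const_mul]
      refine integral_mono iW2 (iV2.const_mul 2) fun x => ?_
      have := mul_le_mul_of_nonneg_left (hWV x) (sq_nonneg (f x - c))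
      beta_reduce
      linarith
    have h3 : ∫ x, (f x - c) ^ 2 * W x ≤ 2 * (d ^ 2 * ∫ x, ‖fderiv ℝ f x‖ ^ 2 * W x) := by
      refine h2.trans (mul_le_mul_of_nonneg_left (h1.trans ?_) zero_le_two)
      exact mul_le_mul_of_nonneg_left hDVW (by positivity)
    have h4 := mul_le_mul_of_nonneg_left h3 hZ0
    have h5 : 0 ≤ ((∫ x, f x * W x) - c * ∫ x, W x) ^ 2 := sq_nonneg _
    nlinarith

end main

end

end Crest.Agent.R144.Fi865
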