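import Crest.Agent.R144.Fi2_865

/-!
# R144, static functional inequalities (helper865), file 3: Payne–Weinberger on convex sets

* `pw_convex`  : uniform law of a bounded convex set of a finite dimensional inner product space;
* `pw_pi`      : uniform law of a bounded convex set of `V → ℝ`, gradient in coordinates.
-/

set_option autoImplicit false
set_option linter.unusedSectionVars false

open MeasureTheory Set Filter Topology
open scoped ENNReal NNReal RealInnerProductSpace

namespace Crest.Agent.R144.Fi865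

noncomputable section

section main

variable {E : Type*} [NormedAddCommGroup E] [InnerProductSpace ℝ E] [FiniteDimensional ℝ E]
  [MeasurableSpace E] [BorelSpace E]

theorem slc_indicator {K : Set E} (hK : Convex ℝ K) :
    SLC 0 (K.indicator fun _ => (1 : ℝ)) := by
  intro x y
  rw [zero_div, zero_mul, neg_zero, Real.exp_zero, one_mul]
  by_cases hx : x ∈ K
  · by_cases hy : y ∈ K
    · have : (1 / 2 : ℝ) • (x + y) ∈ K := by
        rw [smul_add]
        exact hK hx hy (by norm_num) (by norm_num) (by norm_num)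
      rw [indicator_of_mem hx, indicator_of_mem hy, indicator_of_mem this]
      simp
    · rw [indicator_of_notMem hy, Real.sqrt_zero, mul_zero]
      exact indicator_nonneg (fun _ _ => zero_le_one) _
  · rw [indicator_of_notMem hx, Real.sqrt_zero, zero_mul]
    exact indicator_nonneg (fun _ _ => zero_le_one) _

theorem int_mul_indicator {α : Type*} [MeasurableSpace α] {μ : Measure α} {K : Set α}
    (mK : MeasurableSet K) (φ : α → ℝ) :
    ∫ x, φ x * K.indicator (fun _ => (1 : ℝ)) x ∂μ = ∫ x in K, φ x ∂μ := by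
  rw [← integral_indicator mK]
  refine integral_congr_ae (ae_of_all _ fun x => ?_)
  by_cases hx : x ∈ K
  · simp [hx]
  · simp [hx]

/-- **Payne–Weinberger** on a bounded convex set (constant `2 d²`, `d` = radius) -/
theorem pw_convex {K : Set E} (hK : Convex ℝ K) (mK : MeasurableSet K) {d : ℝ} (hd : 0 < d)
    {x₀ : E} (hb : ∀ x ∈ K, ‖x - x₀‖ ≤ d) {f : E → ℝ} {L : ℝ≥0} (hf : LipschitzOnWith L f K) :
    volume.real K * (∫ x in K, f x ^ 2) - (∫ x in K, f x) ^ 2 ≤
      2 * d ^ 2 * volume.real K * ∫ x in K, ‖fderiv ℝ f x‖ ^ 2 := by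
  obtain ⟨F, hF, hFf⟩ := hf.extend_real
  have hKb : K ⊆ Metric.closedBall x₀ d := fun x hx => by
    rw [Metric.mem_closedBall, dist_eq_norm]; exact hb x hx
  have hfin : volume K ≠ ∞ :=
    ((measure_mono hKb).trans_lt measure_closedBall_lt_top).ne
  have iW : Integrable (K.indicator fun _ => (1 : ℝ)) :=
    (integrable_indicator_iff mK).2 (integrableOn_const hfin)
  have h := pw_weight hd x₀ (W := K.indicator fun _ => (1 : ℝ))
    (fun x => indicator_nonneg (fun _ _ => zero_le_one) _)
    (measurable_const.indicator mK) iW (slc_indicator hK) (fun x hx => hb x (by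
      by_contra h; exact hx (indicator_of_notMem h _))) hF
  have e0 : ∫ x, K.indicator (fun _ => (1 : ℝ)) x = volume.real K := by
    rw [integral_indicator mK, setIntegral_const, smul_eq_mul, mul_one]
  rw [int_mul_indicator mK, int_mul_indicator mK, int_mul_indicator mK, e0] at h
  have e1 : ∫ x in K, F x ^ 2 = ∫ x in K, f x ^ 2 :=
    setIntegral_congr_fun mK fun x hx => by rw [hFf hx]
  have e2 : ∫ x in K, F x = ∫ x in K, f x := setIntegral_congr_fun mK fun x hx => (hFf hx).symm
  have e3 : ∫ x in K, ‖fderiv ℝ F x‖ ^ 2 = ∫ x in K, ‖fderiv ℝ f x‖ ^ 2 := by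
    have h0 : volume (frontier K) = 0 := hK.addHaar_frontier _
    refine setIntegral_congr_ae mK ?_
    have h1 : ∀ᵐ x, x ∉ frontier K := measure_eq_zero_iff_ae_notMem.1 h0
    filter_upwards [h1] with x hx hxK
    have hxi : x ∈ interior K := by
      by_contra hxi
      exact hx ⟨subset_closure hxK, hxi⟩
    have h2 : F =ᶠ[𝓝 x] f := by
      filter_upwards [mem_interior_iff_mem_nhds.1 hxi] with y hy
      exact (hFf hy).symm
    rw [h2.fderiv_eq]
  rw [e1, e2, e3] at h
  exact h

end main

section pi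

variable {V : Type*} [Fintype V]

/-- the norm of a functional on `EuclideanSpace` in coordinates -/
theorem norm_sq_functional (l : EuclideanSpace ℝ V →L[ℝ] ℝ) [DecidableEq V] :
    ‖l‖ ^ 2 = ∑ v, l (EuclideanSpace.single v 1) ^ 2 := by
  set u := (InnerProductSpace.toDual ℝ (EuclideanSpace ℝ V)).symm l with hu
  have h1 : ∀ x, l x = ⟪u, x⟫ := fun x => by
    rw [hu, InnerProductSpace.toDual_symm_apply]
  have h2 : ‖l‖ = ‖u‖ := by rw [hu, LinearIsometryEquiv.norm_map]
  rw [h2, EuclideanSpace.norm_sq_eq]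
  refine Finset.sum_congr rfl fun v _ => ?_
  rw [h1, EuclideanSpace.inner_single_right]
  simp

/-- **Payne–Weinberger** on a bounded convex set of `V → ℝ` -/
theorem pw_pi [DecidableEq V] {K : Set (V → ℝ)} (hK : Convex ℝ K) (mK : MeasurableSet K) {d : ℝ}
    (hd : 0 < d) {x₀ : V → ℝ} (hb : ∀ x ∈ K, ∑ v, (x v - x₀ v) ^ 2 ≤ d ^ 2) {f : (V → ℝ) → ℝ}
    {L : ℝ≥0} (hf : LipschitzOnWith L f K) :
    volume.real K * (∫ x in K, f x ^ 2) - (∫ x in K, f x) ^ 2 ≤
      2 * d ^ 2 * volume.real K * ∫ x in K, ∑ v, fderiv ℝ f x (Pi.single v 1) ^ 2 := by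
  set e : EuclideanSpace ℝ V ≃L[ℝ] (V → ℝ) := EuclideanSpace.equiv V ℝ with he
  have hmp : MeasurePreserving (fun x : EuclideanSpace ℝ V => e x) volume volume :=
    PiLp.volume_preserving_ofLp V
  have hme : MeasurableEmbedding (fun x : EuclideanSpace ℝ V => e x) :=
    e.toHomeomorph.measurableEmbedding
  set K' : Set (EuclideanSpace ℝ V) := (fun x => e x) ⁻¹' K with hK'
  have hcK : Convex ℝ K' := hK.linear_preimage (e : EuclideanSpace ℝ V →ₗ[ℝ] (V → ℝ))
  have mK' : MeasurableSet K' := hmp.measurable mK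
  have hb' : ∀ x ∈ K', ‖x - e.symm x₀‖ ≤ d := by
    intro x hx
    have h1 := hb _ hx
    have h2 : ‖x - e.symm x₀‖ ^ 2 ≤ d ^ 2 := by
      rw [EuclideanSpace.norm_sq_eq]
      refine le_trans (le_of_eq ?_) h1
      refine Finset.sum_congr rfl fun v _ => ?_
      rw [Real.norm_eq_abs, sq_abs]
      rfl
    exact (pow_le_pow_iff_left₀ (norm_nonneg _) hd.le two_ne_zero).1 h2
  have hlip : LipschitzOnWith (L * 1) (fun x : EuclideanSpace ℝ V => f (e x)) K' := by
    refine hf.comp (s := K') (f := fun x : EuclideanSpace ℝ V => e x) ?_ fun x hx => hx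
    exact (PiLp.lipschitzWith_ofLp 2 (fun _ : V => ℝ)).lipschitzOnWith
  have h := pw_convex hcK mK' hd hb' hlip
  have t : ∀ φ : (V → ℝ) → ℝ, ∫ x in K', φ (e x) = ∫ x in K, φ x := fun φ =>
    hmp.setIntegral_preimage_emb hme φ K
  have hv : volume.real K' = volume.real K := by
    unfold Measure.real
    rw [hK', hmp.measure_preimage mK.nullMeasurableSet]
  have hD : ∀ x : EuclideanSpace ℝ V, ‖fderiv ℝ (fun x => f (e x)) x‖ ^ 2 =
      ∑ v, fderiv ℝ f (e x) (Pi.single v 1) ^ 2 := by
    intro x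
    rw [norm_sq_functional]
    refine Finset.sum_congr rfl fun v _ => ?_
    have h1 : fderiv ℝ (f ∘ e) x = (fderiv ℝ f (e x)).comp (e : EuclideanSpace ℝ V →L[ℝ] (V → ℝ)) :=
      e.comp_right_fderiv
    have h2 : fderiv ℝ (fun x => f (e x)) x = fderiv ℝ (f ∘ e) x := rfl
    rw [h2, h1]
    show (fderiv ℝ f (e x) (e (EuclideanSpace.single v 1))) ^ 2 = _
    congr 2
  simp_rw [hD] at h
  rw [t fun x => f x ^ 2, t f, t fun x => ∑ v, fderiv ℝ f x (Pi.single v 1) ^ 2, hv] at h
  exact h

end pi

end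

end Crest.Agent.R144.Fi865
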