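import Crest.Agent.R144.Ham5_560

/-!
# R144 (S0197), helper674: disintegration over a block `I ⊆ F`, file 1 (splitting)

* `glue F I z x`, `outr F I y`, `inn hI y`, `splitE hI` : `(F → ℝ) ≃ᵐ (↥(F \ I) → ℝ) × (↥I → ℝ)`,
  `mp_splitE`, `mp_glue` (measure preserving);
* `ext_glue` : `ext F ξ (glue F I z x) = ext I (ext (F \ I) ξ z) x`;
* `glue_mem_ham` : `glue F I z x ∈ ham F E ξ ↔ x ∈ ham I E (ext (F \ I) ξ z)`;
* `ham_split` : `... ↔ z ∈ ham (F \ I) (Eout I E) ξ ∧ x ∈ ham I (Ein I E) (ext (F \ I) ξ z)`;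
* `lintegral_glue`, `integral_glue` (whole space), `lintegral_ham(_io)`, `integral_ham(_io)`.
-/

set_option autoImplicit false

open MeasureTheory Set
open scoped ENNReal

noncomputable section

namespace Crest.Agent.R144.Fib674

open Crest.Agent.R144.Ham560

variable {U : Type*} [DecidableEq U]

/-! ### splitting of the coordinates -/

/-- configuration with outer coordinates `z` and coordinates `x` in the block `I` -/
def glue (F I : Finset U) (z : ↥(F \ I) → ℝ) (x : ↥I → ℝ) : ↥F → ℝ :=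
  fun v => if h : (v : U) ∈ I then x ⟨v, h⟩ else z ⟨v, Finset.mem_sdiff.2 ⟨v.2, h⟩⟩

/-- outer coordinates -/
def outr (F I : Finset U) (y : ↥F → ℝ) : ↥(F \ I) → ℝ :=
  fun v => y ⟨v, (Finset.mem_sdiff.1 v.2).1⟩

/-- coordinates in the block -/
def inn {F I : Finset U} (hI : I ⊆ F) (y : ↥F → ℝ) : ↥I → ℝ := fun v => y ⟨v, hI v.2⟩

variable {F I : Finset U}

theorem glue_in {v : ↥F} (h : (v : U) ∈ I) (z : ↥(F \ I) → ℝ) (x : ↥I → ℝ) :
    glue F I z x v = x ⟨v, h⟩ := by simp [glue, h]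

theorem glue_out {v : ↥F} (h : (v : U) ∉ I) (z : ↥(F \ I) → ℝ) (x : ↥I → ℝ) :
    glue F I z x v = z ⟨v, Finset.mem_sdiff.2 ⟨v.2, h⟩⟩ := by simp [glue, h]

@[simp] theorem outr_glue (z : ↥(F \ I) → ℝ) (x : ↥I → ℝ) : outr F I (glue F I z x) = z := by
  funext v
  have h := (Finset.mem_sdiff.1 v.2).2
  simp [outr, glue, h]

@[simp] theorem inn_glue (hI : I ⊆ F) (z : ↥(F \ I) → ℝ) (x : ↥I → ℝ) :
    inn hI (glue F I z x) = x := by
  funext v
  simp [inn, glue, v.2]

@[simp] theorem glue_outr_inn (hI : I ⊆ F) (y : ↥F → ℝ) : glue F I (outr F I y) (inn hI y) = y := by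
  funext v
  by_cases h : (v : U) ∈ I
  · simp [glue, h, inn]
  · simp [glue, h, outr]

theorem measurable_outr : Measurable (outr F I) :=
  measurable_pi_lambda _ fun _ => measurable_pi_apply _

omit [DecidableEq U] in
theorem measurable_inn (hI : I ⊆ F) : Measurable (inn hI) :=
  measurable_pi_lambda _ fun _ => measurable_pi_apply _

theorem continuous_outr : Continuous (outr F I) := continuous_pi fun _ => continuous_apply _

omit [DecidableEq U] in
theorem continuous_inn (hI : I ⊆ F) : Continuous (inn hI) := continuous_pi fun _ => continuous_apply _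

theorem continuous_glue : Continuous (fun p : (↥(F \ I) → ℝ) × (↥I → ℝ) => glue F I p.1 p.2) := by
  refine continuous_pi fun v => ?_
  by_cases h : (v : U) ∈ I
  · simp only [glue_in h]
    exact (continuous_apply _).comp continuous_snd
  · simp only [glue_out h]
    exact (continuous_apply _).comp continuous_fst

theorem measurable_glue : Measurable (fun p : (↥(F \ I) → ℝ) × (↥I → ℝ) => glue F I p.1 p.2) := by
  refine measurable_pi_lambda _ fun v => ?_
  by_cases h : (v : U) ∈ I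
  · simp only [glue_in h]
    exact (measurable_pi_apply _).comp measurable_snd
  · simp only [glue_out h]
    exact (measurable_pi_apply _).comp measurable_fst

theorem continuous_glue_right (z : ↥(F \ I) → ℝ) : Continuous (glue F I z) :=
  continuous_glue.comp (Continuous.prodMk continuous_const continuous_id)

theorem measurable_glue_right (z : ↥(F \ I) → ℝ) : Measurable (glue F I z) :=
  measurable_glue.comp (measurable_const.prodMk measurable_id)

/-- the splitting as a measurable equivalence -/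
def splitE (hI : I ⊆ F) : (↥F → ℝ) ≃ᵐ (↥(F \ I) → ℝ) × (↥I → ℝ) where
  toFun y := (outr F I y, inn hI y)
  invFun p := glue F I p.1 p.2
  left_inv y := glue_outr_inn hI y
  right_inv p := by simp
  measurable_toFun := measurable_outr.prodMk (measurable_inn hI)
  measurable_invFun := measurable_glue

@[simp] theorem splitE_apply (hI : I ⊆ F) (y : ↥F → ℝ) : splitE hI y = (outr F I y, inn hI y) := rfl

@[simp] theorem splitE_symm (hI : I ⊆ F) (p : (↥(F \ I) → ℝ) × (↥I → ℝ)) :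
    (splitE hI).symm p = glue F I p.1 p.2 := rfl

theorem prod_split (hI : I ⊆ F) (t : ↥F → ℝ≥0∞) :
    (∏ v : ↥(F \ I), t ⟨v, (Finset.mem_sdiff.1 v.2).1⟩) * ∏ v : ↥I, t ⟨v, hI v.2⟩ = ∏ v, t v := by
  set T : U → ℝ≥0∞ := fun u => if h : u ∈ F then t ⟨u, h⟩ else 1 with hT
  have h1 : ∏ v : ↥F, t v = ∏ u ∈ F, T u := by
    rw [← Finset.prod_coe_sort F T]
    refine Finset.prod_congr rfl fun v _ => ?_
    rw [hT]
    simp
  have h2 : ∏ v : ↥(F \ I), t ⟨v, (Finset.mem_sdiff.1 v.2).1⟩ = ∏ u ∈ F \ I, T u := by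
    rw [← Finset.prod_coe_sort (F \ I) T]
    refine Finset.prod_congr rfl fun v _ => ?_
    have := (Finset.mem_sdiff.1 v.2).1
    rw [hT]
    simp [this]
  have h3 : ∏ v : ↥I, t ⟨v, hI v.2⟩ = ∏ u ∈ I, T u := by
    rw [← Finset.prod_coe_sort I T]
    refine Finset.prod_congr rfl fun v _ => ?_
    have := hI v.2
    rw [hT]
    simp [this]
  rw [h1, h2, h3, Finset.prod_sdiff hI]

theorem mp_glue (hI : I ⊆ F) :
    MeasurePreserving (fun p : (↥(F \ I) → ℝ) × (↥I → ℝ) => glue F I p.1 p.2)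
      ((volume : Measure (↥(F \ I) → ℝ)).prod (volume : Measure (↥I → ℝ))) volume := by
  refine ⟨measurable_glue, ?_⟩
  rw [volume_pi (α := fun _ : ↥F => ℝ)]
  refine (Measure.pi_eq fun s hs => ?_).symm
  rw [Measure.map_apply measurable_glue (MeasurableSet.univ_pi hs)]
  have e : (fun p : (↥(F \ I) → ℝ) × (↥I → ℝ) => glue F I p.1 p.2) ⁻¹' (Set.pi Set.univ s) =
      (Set.pi Set.univ fun v : ↥(F \ I) => s ⟨v, (Finset.mem_sdiff.1 v.2).1⟩) ×ˢ
        (Set.pi Set.univ fun v : ↥I => s ⟨v, hI v.2⟩) := by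
    ext ⟨z, x⟩
    simp only [mem_preimage, Set.mem_pi, mem_univ, true_implies, mem_prod]
    constructor
    · intro h
      refine ⟨fun v => ?_, fun v => ?_⟩
      · have h1 := h ⟨v, (Finset.mem_sdiff.1 v.2).1⟩
        rwa [glue_out (v := ⟨(v : U), (Finset.mem_sdiff.1 v.2).1⟩) (Finset.mem_sdiff.1 v.2).2] at h1
      · have h1 := h ⟨v, hI v.2⟩
        rwa [glue_in (v := ⟨(v : U), hI v.2⟩) v.2] at h1
    · rintro ⟨h1, h2⟩ v
      by_cases hv : (v : U) ∈ I
      · rw [glue_in hv]; exact h2 ⟨v, hv⟩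
      · rw [glue_out hv]; exact h1 ⟨v, Finset.mem_sdiff.2 ⟨v.2, hv⟩⟩
  rw [e, Measure.prod_prod, volume_pi_pi, volume_pi_pi]
  exact prod_split hI fun v => volume (s v)

theorem mp_splitE (hI : I ⊆ F) : MeasurePreserving (splitE hI) volume
    ((volume : Measure (↥(F \ I) → ℝ)).prod (volume : Measure (↥I → ℝ))) :=
  MeasurePreserving.symm (splitE hI).symm (mp_glue hI)

theorem emb_glue (hI : I ⊆ F) :
    MeasurableEmbedding (fun p : (↥(F \ I) → ℝ) × (↥I → ℝ) => glue F I p.1 p.2) :=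
  (splitE hI).symm.measurableEmbedding

/-! ### Fubini on the whole space -/

theorem lintegral_glue (hI : I ⊆ F) {G : (↥F → ℝ) → ℝ≥0∞} (hG : Measurable G) :
    ∫⁻ y, G y = ∫⁻ z : ↥(F \ I) → ℝ, ∫⁻ x : ↥I → ℝ, G (glue F I z x) := by
  rw [← (mp_glue hI).lintegral_comp hG]
  exact lintegral_prod (fun p : (↥(F \ I) → ℝ) × (↥I → ℝ) => G (glue F I p.1 p.2))
    (hG.comp measurable_glue).aemeasurable

theorem integrable_glue (hI : I ⊆ F) {V : Type*} [NormedAddCommGroup V] {G : (↥F → ℝ) → V} :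
    Integrable (fun p : (↥(F \ I) → ℝ) × (↥I → ℝ) => G (glue F I p.1 p.2))
      ((volume : Measure (↥(F \ I) → ℝ)).prod (volume : Measure (↥I → ℝ))) ↔ Integrable G :=
  (mp_glue hI).integrable_comp_emb (emb_glue hI)

theorem integral_glue (hI : I ⊆ F) {V : Type*} [NormedAddCommGroup V] [NormedSpace ℝ V]
    {G : (↥F → ℝ) → V} (hG : Integrable G) :
    ∫ y, G y = ∫ z : ↥(F \ I) → ℝ, ∫ x : ↥I → ℝ, G (glue F I z x) := by
  rw [← (mp_glue hI).integral_comp (emb_glue hI), integral_prod _ ((integrable_glue hI).2 hG)]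

/-- almost everywhere statements pass to almost every fibre -/
theorem ae_glue (hI : I ⊆ F) {p : (↥F → ℝ) → Prop} (h : ∀ᵐ y, p y) :
    ∀ᵐ z : ↥(F \ I) → ℝ, ∀ᵐ x : ↥I → ℝ, p (glue F I z x) := by
  have h1 : ∀ᵐ q ∂((volume : Measure (↥(F \ I) → ℝ)).prod (volume : Measure (↥I → ℝ))),
      p (glue F I q.1 q.2) := (mp_glue hI).quasiMeasurePreserving.ae h
  exact Measure.ae_ae_of_ae_prod h1

/-! ### the polytope -/

variable {E : Finset (U × U)} {ξ : U → ℝ}

theorem ext_glue (hI : I ⊆ F) (ξ : U → ℝ) (z : ↥(F \ I) → ℝ) (x : ↥I → ℝ) :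
    ext F ξ (glue F I z x) = ext I (ext (F \ I) ξ z) x := by
  funext u
  by_cases h : u ∈ I
  · rw [ext_mem (hI h), ext_mem h, glue_in (v := ⟨u, hI h⟩) h]
  · rw [ext_notMem (F := I) h]
    by_cases hF : u ∈ F
    · rw [ext_mem hF, ext_mem (Finset.mem_sdiff.2 ⟨hF, h⟩), glue_out (v := ⟨u, hF⟩) h]
    · rw [ext_notMem hF, ext_notMem fun h1 => hF (Finset.mem_sdiff.1 h1).1]

/-- off the block the extension does not see the block -/
theorem ext_glue_off {u : U} (h : u ∉ I) (hI : I ⊆ F) (ξ : U → ℝ) (z : ↥(F \ I) → ℝ)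
    (x : ↥I → ℝ) : ext F ξ (glue F I z x) u = ext (F \ I) ξ z u := by
  rw [ext_glue hI, ext_notMem h]

theorem ext_outr {u : U} (h : u ∉ I) (ξ : U → ℝ) (y : ↥F → ℝ) :
    ext (F \ I) ξ (outr F I y) u = ext F ξ y u := by
  by_cases hF : u ∈ F
  · rw [ext_mem hF, ext_mem (Finset.mem_sdiff.2 ⟨hF, h⟩)]; rfl
  · rw [ext_notMem hF, ext_notMem fun h1 => hF (Finset.mem_sdiff.1 h1).1]

theorem glue_mem_ham (hI : I ⊆ F) {z : ↥(F \ I) → ℝ} {x : ↥I → ℝ} :
    glue F I z x ∈ ham F E ξ ↔ x ∈ ham I E (ext (F \ I) ξ z) := by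
  unfold ham
  simp only [Set.mem_ofPred_eq, ext_glue hI]

/-- edges touching the block -/
def Ein (I : Finset U) (E : Finset (U × U)) : Finset (U × U) := E.filter fun p => p.1 ∈ I ∨ p.2 ∈ I

/-- edges not touching the block -/
def Eout (I : Finset U) (E : Finset (U × U)) : Finset (U × U) :=
  E.filter fun p => p.1 ∉ I ∧ p.2 ∉ I

theorem mem_Ein {p : U × U} : p ∈ Ein I E ↔ p ∈ E ∧ (p.1 ∈ I ∨ p.2 ∈ I) := Finset.mem_filter

theorem mem_Eout {p : U × U} : p ∈ Eout I E ↔ p ∈ E ∧ (p.1 ∉ I ∧ p.2 ∉ I) := Finset.mem_filter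

theorem ham_all_iff {ζ : U → ℝ} {x : ↥I → ℝ} :
    x ∈ ham I E ζ ↔ (∀ p ∈ Eout I E, |ζ p.1 - ζ p.2| ≤ 1) ∧ x ∈ ham I (Ein I E) ζ := by
  constructor
  · intro h
    refine ⟨fun p hp => ?_, fun p hp => h p (mem_Ein.1 hp).1⟩
    have h1 := h p (mem_Eout.1 hp).1
    rwa [ext_notMem (mem_Eout.1 hp).2.1, ext_notMem (mem_Eout.1 hp).2.2] at h1
  · rintro ⟨h1, h2⟩ p hp
    by_cases hpi : p.1 ∈ I ∨ p.2 ∈ I
    · exact h2 p (mem_Ein.2 ⟨hp, hpi⟩)
    · push Not at hpi
      rw [ext_notMem hpi.1, ext_notMem hpi.2]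
      exact h1 p (mem_Eout.2 ⟨hp, hpi⟩)

theorem ham_split (hI : I ⊆ F) {z : ↥(F \ I) → ℝ} {x : ↥I → ℝ} :
    glue F I z x ∈ ham F E ξ ↔
      z ∈ ham (F \ I) (Eout I E) ξ ∧ x ∈ ham I (Ein I E) (ext (F \ I) ξ z) := by
  rw [glue_mem_ham hI, ham_all_iff]
  rfl

/-- if the outer edges are fine, the two forms of the fibre agree -/
theorem fibre_eq {z : ↥(F \ I) → ℝ} (hz : z ∈ ham (F \ I) (Eout I E) ξ) :
    ham I E (ext (F \ I) ξ z) = ham I (Ein I E) (ext (F \ I) ξ z) := by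
  ext x
  rw [ham_all_iff]
  exact ⟨fun h => h.2, fun h => ⟨hz, h⟩⟩

theorem fibre_empty {z : ↥(F \ I) → ℝ} (hz : z ∉ ham (F \ I) (Eout I E) ξ) :
    ham I E (ext (F \ I) ξ z) = ∅ := by
  ext x
  rw [ham_all_iff]
  simp only [mem_empty_iff_false, iff_false, not_and]
  exact fun h => absurd h hz

theorem outr_mem_ham {y : ↥F → ℝ} (hy : y ∈ ham F E ξ) : outr F I y ∈ ham (F \ I) (Eout I E) ξ := by
  intro p hp
  rw [ext_outr (mem_Eout.1 hp).2.1, ext_outr (mem_Eout.1 hp).2.2]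
  exact hy p (mem_Eout.1 hp).1

theorem inn_mem_ham (hI : I ⊆ F) {y : ↥F → ℝ} (hy : y ∈ ham F E ξ) :
    inn hI y ∈ ham I E (ext (F \ I) ξ (outr F I y)) := by
  rw [← glue_mem_ham hI, glue_outr_inn]
  exact hy

/-! ### disintegration of the polytope -/

theorem lintegral_ham (hI : I ⊆ F) {G : (↥F → ℝ) → ℝ≥0∞} (hG : Measurable G) :
    ∫⁻ y in ham F E ξ, G y =
      ∫⁻ z : ↥(F \ I) → ℝ, ∫⁻ x in ham I E (ext (F \ I) ξ z), G (glue F I z x) := by
  rw [← lintegral_indicator measurableSet_ham, lintegral_glue hI (hG.indicator measurableSet_ham)]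
  refine lintegral_congr fun z => ?_
  rw [← lintegral_indicator measurableSet_ham]
  refine lintegral_congr fun x => ?_
  by_cases h : glue F I z x ∈ ham F E ξ
  · rw [indicator_of_mem h, indicator_of_mem ((glue_mem_ham hI).1 h)]
  · rw [indicator_of_notMem h, indicator_of_notMem fun h1 => h ((glue_mem_ham hI).2 h1)]

theorem lintegral_ham_io (hI : I ⊆ F) {G : (↥F → ℝ) → ℝ≥0∞} (hG : Measurable G) :
    ∫⁻ y in ham F E ξ, G y =
      ∫⁻ z in ham (F \ I) (Eout I E) ξ,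
        ∫⁻ x in ham I (Ein I E) (ext (F \ I) ξ z), G (glue F I z x) := by
  rw [lintegral_ham hI hG, ← lintegral_indicator measurableSet_ham]
  refine lintegral_congr fun z => ?_
  by_cases hz : z ∈ ham (F \ I) (Eout I E) ξ
  · rw [indicator_of_mem hz, fibre_eq hz]
  · rw [indicator_of_notMem hz, fibre_empty hz]
    simp

theorem integral_ham (hI : I ⊆ F) {V : Type*} [NormedAddCommGroup V] [NormedSpace ℝ V]
    {G : (↥F → ℝ) → V} (hG : IntegrableOn G (ham F E ξ)) :
    ∫ y in ham F E ξ, G y =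
      ∫ z : ↥(F \ I) → ℝ, ∫ x in ham I E (ext (F \ I) ξ z), G (glue F I z x) := by
  rw [← integral_indicator measurableSet_ham,
    integral_glue hI ((integrable_indicator_iff measurableSet_ham).2 hG)]
  refine integral_congr_ae (ae_of_all _ fun z => ?_)
  beta_reduce
  rw [← integral_indicator measurableSet_ham]
  refine integral_congr_ae (ae_of_all _ fun x => ?_)
  beta_reduce
  by_cases h : glue F I z x ∈ ham F E ξ
  · rw [indicator_of_mem h, indicator_of_mem ((glue_mem_ham hI).1 h)]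
  · rw [indicator_of_notMem h, indicator_of_notMem fun h1 => h ((glue_mem_ham hI).2 h1)]

theorem integral_ham_io (hI : I ⊆ F) {V : Type*} [NormedAddCommGroup V] [NormedSpace ℝ V]
    {G : (↥F → ℝ) → V} (hG : IntegrableOn G (ham F E ξ)) :
    ∫ y in ham F E ξ, G y =
      ∫ z in ham (F \ I) (Eout I E) ξ,
        ∫ x in ham I (Ein I E) (ext (F \ I) ξ z), G (glue F I z x) := by
  rw [integral_ham hI hG, ← integral_indicator measurableSet_ham]
  refine integral_congr_ae (ae_of_all _ fun z => ?_)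
  beta_reduce
  by_cases hz : z ∈ ham (F \ I) (Eout I E) ξ
  · rw [indicator_of_mem hz, fibre_eq hz]
  · rw [indicator_of_notMem hz, fibre_empty hz]
    simp

end Crest.Agent.R144.Fib674
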