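import Crest.Agent.R144.Fib1_674

/-!
# R144 (S0197), helper674: disintegration over a block, file 2 (conditional expectation)

`W : (F → ℝ) → ℝ` a nonnegative weight (for the hammock: `W = (ham F E ξ).indicator w`).

* `Ebz F I W g z` : fibre average of `g`; `Eb F I W g y = Ebz F I W g (outr F I y)`;
* pointwise rules on a good fibre (`OkF F I W g z`): `Ebz_add`, `Ebz_sub`, `Ebz_const_mul`, `Ebz_pull`,
  `Ebz_const`, `Ebz_mono`, `abs_Ebz_le`, `Ebz_sq_le` (Jensen), `Ebz_cs` (Cauchy–Schwarz);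
* `ae_okF` : almost every fibre is good;
* `tower` : `∫ φ(outer) g W = ∫ φ(outer) (Eb g) W`; `integrable_Eb`, `Eb_sq_int`, `pyth`;
* `fibre_sum` : fibrewise inequalities integrate.
-/

set_option autoImplicit false

open MeasureTheory Set
open scoped ENNReal

noncomputable section

namespace Crest.Agent.R144.Fib674

open Crest.Agent.R144.Ham560

variable {U : Type*} [DecidableEq U] {F I : Finset U}

theorem int3 {α : Type*} [MeasurableSpace α] {μ : Measure α} {a b c : α → ℝ} (k : ℝ)
    (ia : Integrable a μ) (ib : Integrable b μ) (ic : Integrable c μ) :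
    Integrable (fun x => (a x - k * b x) + c x) μ ∧
      ∫ x, ((a x - k * b x) + c x) ∂μ = (∫ x, a x ∂μ) - k * (∫ x, b x ∂μ) + ∫ x, c x ∂μ := by
  have ib' : Integrable (fun x => k * b x) μ := ib.const_mul k
  have i1 : Integrable (fun x => a x - k * b x) μ := ia.sub ib'
  refine ⟨i1.add ic, ?_⟩
  rw [integral_add i1 ic, integral_sub ia ib', integral_const_mul]

/-- fibre average, as a function of the outer coordinates -/
def Ebz (F I : Finset U) (W g : (↥F → ℝ) → ℝ) (z : ↥(F \ I) → ℝ) : ℝ :=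
  (∫ x : ↥I → ℝ, g (glue F I z x) * W (glue F I z x)) / ∫ x : ↥I → ℝ, W (glue F I z x)

/-- conditional expectation given the coordinates outside the block -/
def Eb (F I : Finset U) (W g : (↥F → ℝ) → ℝ) (y : ↥F → ℝ) : ℝ := Ebz F I W g (outr F I y)

@[simp] theorem Eb_glue (W g : (↥F → ℝ) → ℝ) (z : ↥(F \ I) → ℝ) (x : ↥I → ℝ) :
    Eb F I W g (glue F I z x) = Ebz F I W g z := by simp [Eb]

/-- good fibre -/
structure OkF (F I : Finset U) (W g : (↥F → ℝ) → ℝ) (z : ↥(F \ I) → ℝ) : Prop where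
  gW : Integrable fun x : ↥I → ℝ => g (glue F I z x) * W (glue F I z x)
  W1 : Integrable fun x : ↥I → ℝ => W (glue F I z x)

/-! ### measurability -/

theorem measurable_Ebz {W g : (↥F → ℝ) → ℝ} (mW : Measurable W) (mg : Measurable g) :
    Measurable (Ebz F I W g) := by
  have h1 : StronglyMeasurable fun z : ↥(F \ I) → ℝ => ∫ x : ↥I → ℝ, g (glue F I z x) * W (glue F I z x) := by
    have : StronglyMeasurable (fun p : (↥(F \ I) → ℝ) × (↥I → ℝ) =>
        g (glue F I p.1 p.2) * W (glue F I p.1 p.2)) :=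
      ((mg.comp measurable_glue).mul (mW.comp measurable_glue)).stronglyMeasurable
    exact this.integral_prod_right
  have h2 : StronglyMeasurable fun z : ↥(F \ I) → ℝ => ∫ x : ↥I → ℝ, W (glue F I z x) := by
    have : StronglyMeasurable (fun p : (↥(F \ I) → ℝ) × (↥I → ℝ) => W (glue F I p.1 p.2)) :=
      (mW.comp measurable_glue).stronglyMeasurable
    exact this.integral_prod_right
  exact h1.measurable.div h2.measurable

theorem measurable_Eb {W g : (↥F → ℝ) → ℝ} (mW : Measurable W) (mg : Measurable g) :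
    Measurable (Eb F I W g) := (measurable_Ebz mW mg).comp measurable_outr

/-! ### pointwise rules -/

section point

variable {W g g' : (↥F → ℝ) → ℝ} {z : ↥(F \ I) → ℝ}

/-- zero mass: the weight vanishes almost everywhere on the fibre -/
theorem fibre_zero (hW0 : ∀ y, 0 ≤ W y) (iW : Integrable fun x : ↥I → ℝ => W (glue F I z x))
    (h : ∫ x : ↥I → ℝ, W (glue F I z x) = 0) (g : (↥F → ℝ) → ℝ) :
    ∫ x : ↥I → ℝ, g (glue F I z x) * W (glue F I z x) = 0 := by
  have h1 := (integral_eq_zero_iff_of_nonneg (fun x => hW0 _) iW).1 h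
  refine integral_eq_zero_of_ae ?_
  filter_upwards [h1] with x hx
  have hx' : W (glue F I z x) = 0 := hx
  show g (glue F I z x) * W (glue F I z x) = 0
  rw [hx', mul_zero]

/-- the fibre integral is the average times the mass -/
theorem fibre_int (hW0 : ∀ y, 0 ≤ W y) (iW : Integrable fun x : ↥I → ℝ => W (glue F I z x))
    (g : (↥F → ℝ) → ℝ) :
    ∫ x : ↥I → ℝ, g (glue F I z x) * W (glue F I z x) =
      Ebz F I W g z * ∫ x : ↥I → ℝ, W (glue F I z x) := by
  by_cases h : ∫ x : ↥I → ℝ, W (glue F I z x) = 0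
  · rw [h, mul_zero, fibre_zero hW0 iW h]
  · rw [Ebz, div_mul_cancel₀ _ h]

theorem Ebz_pull (φ : (↥(F \ I) → ℝ) → ℝ) (g : (↥F → ℝ) → ℝ) :
    Ebz F I W (fun y => φ (outr F I y) * g y) z = φ z * Ebz F I W g z := by
  simp only [Ebz, outr_glue, mul_assoc]
  rw [integral_const_mul, mul_div_assoc]

theorem Ebz_const_mul (c : ℝ) (g : (↥F → ℝ) → ℝ) :
    Ebz F I W (fun y => c * g y) z = c * Ebz F I W g z :=
  Ebz_pull (fun _ => c) g

theorem Ebz_add (h : OkF F I W g z) (h' : OkF F I W g' z) :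
    Ebz F I W (fun y => g y + g' y) z = Ebz F I W g z + Ebz F I W g' z := by
  simp only [Ebz, add_mul]
  rw [integral_add h.gW h'.gW, add_div]

theorem Ebz_sub (h : OkF F I W g z) (h' : OkF F I W g' z) :
    Ebz F I W (fun y => g y - g' y) z = Ebz F I W g z - Ebz F I W g' z := by
  simp only [Ebz, sub_mul]
  rw [integral_sub h.gW h'.gW, sub_div]

theorem Ebz_const (c : ℝ) (h : ∫ x : ↥I → ℝ, W (glue F I z x) ≠ 0) :
    Ebz F I W (fun _ => c) z = c := by
  simp only [Ebz]
  rw [integral_const_mul, mul_div_assoc, div_self h, mul_one]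

theorem Ebz_outer (φ : (↥(F \ I) → ℝ) → ℝ) (h : ∫ x : ↥I → ℝ, W (glue F I z x) ≠ 0) :
    Ebz F I W (fun y => φ (outr F I y)) z = φ z := by
  have h1 := Ebz_pull (W := W) (z := z) φ fun _ => 1
  rw [Ebz_const 1 h, mul_one] at h1
  simpa using h1

theorem Ebz_nonneg (hW0 : ∀ y, 0 ≤ W y) (hg : ∀ x, 0 ≤ g (glue F I z x)) :
    0 ≤ Ebz F I W g z :=
  div_nonneg (integral_nonneg fun x => mul_nonneg (hg x) (hW0 _)) (integral_nonneg fun _ => hW0 _)

theorem Ebz_mono (hW0 : ∀ y, 0 ≤ W y) (h : OkF F I W g z) (h' : OkF F I W g' z)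
    (hg : ∀ x, W (glue F I z x) ≠ 0 → g (glue F I z x) ≤ g' (glue F I z x)) :
    Ebz F I W g z ≤ Ebz F I W g' z := by
  refine div_le_div_of_nonneg_right (integral_mono h.gW h'.gW fun x => ?_)
    (integral_nonneg fun x => hW0 _)
  beta_reduce
  by_cases hx : W (glue F I z x) = 0
  · rw [hx, mul_zero, mul_zero]
  · exact mul_le_mul_of_nonneg_right (hg x hx) (hW0 _)

theorem abs_Ebz_le (hW0 : ∀ y, 0 ≤ W y) : |Ebz F I W g z| ≤ Ebz F I W (fun y => |g y|) z := by
  have h0 : 0 ≤ ∫ x : ↥I → ℝ, W (glue F I z x) := integral_nonneg fun x => hW0 _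
  rw [Ebz, Ebz, abs_div, abs_of_nonneg h0]
  refine div_le_div_of_nonneg_right ?_ h0
  refine abs_integral_le_integral_abs.trans (le_of_eq ?_)
  refine integral_congr_ae (ae_of_all _ fun x => ?_)
  beta_reduce
  rw [abs_mul, abs_of_nonneg (hW0 _)]

/-- fibrewise variance identity -/
theorem fibre_var (hW0 : ∀ y, 0 ≤ W y) (h : OkF F I W g z) (h2 : OkF F I W (fun y => g y ^ 2) z)
    (c : ℝ) :
    Integrable (fun x : ↥I → ℝ => (g (glue F I z x) - c) ^ 2 * W (glue F I z x)) ∧
    ∫ x : ↥I → ℝ, (g (glue F I z x) - c) ^ 2 * W (glue F I z x) =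
      (Ebz F I W (fun y => g y ^ 2) z - 2 * c * Ebz F I W g z + c ^ 2) *
        ∫ x : ↥I → ℝ, W (glue F I z x) := by
  have e : (fun x : ↥I → ℝ => (g (glue F I z x) - c) ^ 2 * W (glue F I z x)) = fun x =>
      (g (glue F I z x) ^ 2 * W (glue F I z x) - 2 * c * (g (glue F I z x) * W (glue F I z x))) +
        c ^ 2 * W (glue F I z x) := by
    funext x; ring
  have i1 : Integrable fun x : ↥I → ℝ => g (glue F I z x) ^ 2 * W (glue F I z x) := h2.gW
  have i3 : Integrable fun x : ↥I → ℝ => c ^ 2 * W (glue F I z x) := h.W1.const_mul (c ^ 2)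
  obtain ⟨j1, j2⟩ := int3 (2 * c) i1 h.gW i3
  rw [e]
  refine ⟨j1, ?_⟩
  rw [j2, integral_const_mul, fibre_int hW0 h.W1 g]
  have := fibre_int hW0 h.W1 (fun y => g y ^ 2)
  beta_reduce at this
  rw [this]
  ring

/-- Jensen -/
theorem Ebz_sq_le (hW0 : ∀ y, 0 ≤ W y) (h : OkF F I W g z) (h2 : OkF F I W (fun y => g y ^ 2) z) :
    Ebz F I W g z ^ 2 ≤ Ebz F I W (fun y => g y ^ 2) z := by
  by_cases h0 : ∫ x : ↥I → ℝ, W (glue F I z x) = 0
  · simp [Ebz, h0]
  have hpos : 0 < ∫ x : ↥I → ℝ, W (glue F I z x) :=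
    lt_of_le_of_ne (integral_nonneg fun x => hW0 _) (Ne.symm h0)
  have h3 := (fibre_var hW0 h h2 (Ebz F I W g z)).2
  have h4 : 0 ≤ ∫ x : ↥I → ℝ, (g (glue F I z x) - Ebz F I W g z) ^ 2 * W (glue F I z x) :=
    integral_nonneg fun x => mul_nonneg (sq_nonneg _) (hW0 _)
  rw [h3] at h4
  have h5 := nonneg_of_mul_nonneg_left h4 hpos
  nlinarith

end point

/-! ### almost every fibre -/

section global

variable {W g : (↥F → ℝ) → ℝ}

theorem ae_okF (hI : I ⊆ F) (iW : Integrable W) (ig : Integrable fun y => g y * W y) :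
    ∀ᵐ z : ↥(F \ I) → ℝ, OkF F I W g z := by
  have h1 := (integrable_prod_iff ((integrable_glue hI).2 ig).aestronglyMeasurable).1
    ((integrable_glue hI).2 ig)
  have h2 := (integrable_prod_iff ((integrable_glue hI).2 iW).aestronglyMeasurable).1
    ((integrable_glue hI).2 iW)
  filter_upwards [h1.1, h2.1] with z hz1 hz2
  exact ⟨hz1, hz2⟩

/-- products with functions of the outer coordinates -/
theorem integrable_Eb_mul (hI : I ⊆ F) (hW0 : ∀ y, 0 ≤ W y) (mW : Measurable W)
    (iW : Integrable W) (mg : Measurable g) (ig : Integrable fun y => g y * W y)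
    {φ : (↥(F \ I) → ℝ) → ℝ} (mφ : Measurable φ)
    (iφ : Integrable fun y => φ (outr F I y) * g y * W y) :
    Integrable fun y => φ (outr F I y) * Eb F I W g y * W y := by
  have m1 : Measurable fun y => φ (outr F I y) * Eb F I W g y * W y :=
    ((mφ.comp measurable_outr).mul (measurable_Eb mW mg)).mul mW
  rw [← integrable_glue hI]
  have m2 : Measurable fun p : (↥(F \ I) → ℝ) × (↥I → ℝ) =>
      φ (outr F I (glue F I p.1 p.2)) * Eb F I W g (glue F I p.1 p.2) * W (glue F I p.1 p.2) :=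
    m1.comp (measurable_glue (F := F) (I := I))
  rw [integrable_prod_iff m2.aestronglyMeasurable]
  have hok := ae_okF hI iW ig
  have hφ := (integrable_prod_iff ((integrable_glue hI).2 iφ).aestronglyMeasurable).1
    ((integrable_glue hI).2 iφ)
  constructor
  · filter_upwards [hok] with z hz
    simp only [Eb_glue, outr_glue]
    exact hz.W1.const_mul (φ z * Ebz F I W g z)
  · refine hφ.2.mono' ?_ ?_
    · exact (m2.norm.stronglyMeasurable.integral_prod_right).aestronglyMeasurable
    · filter_upwards [hok, hφ.1] with z hz hz2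
      rw [Real.norm_of_nonneg (integral_nonneg fun _ => norm_nonneg _)]
      simp only [Eb_glue, outr_glue, norm_mul, Real.norm_eq_abs]
      have e1 : ∫ x : ↥I → ℝ, |φ z| * |Ebz F I W g z| * |W (glue F I z x)| =
          |φ z| * |∫ x : ↥I → ℝ, g (glue F I z x) * W (glue F I z x)| := by
        rw [fibre_int hW0 hz.W1 g, integral_const_mul, abs_mul]
        have : ∫ x : ↥I → ℝ, |W (glue F I z x)| = |∫ x : ↥I → ℝ, W (glue F I z x)| := by
          rw [abs_of_nonneg (integral_nonneg fun x => hW0 _)]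
          exact integral_congr_ae (ae_of_all _ fun x => abs_of_nonneg (hW0 _))
        rw [this]; ring
      have e2 : ∫ x : ↥I → ℝ, |φ z| * |g (glue F I z x)| * |W (glue F I z x)| =
          |φ z| * ∫ x : ↥I → ℝ, |g (glue F I z x) * W (glue F I z x)| := by
        rw [← integral_const_mul]
        refine integral_congr_ae (ae_of_all _ fun x => ?_)
        beta_reduce
        rw [abs_mul]; ring
      rw [e1, e2]
      refine mul_le_mul_of_nonneg_left ?_ (abs_nonneg _)
      exact abs_integral_le_integral_abs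

theorem integrable_Eb (hI : I ⊆ F) (hW0 : ∀ y, 0 ≤ W y) (mW : Measurable W)
    (iW : Integrable W) (mg : Measurable g) (ig : Integrable fun y => g y * W y) :
    Integrable fun y => Eb F I W g y * W y := by
  have := integrable_Eb_mul hI hW0 mW iW mg ig (φ := fun _ => 1) measurable_const (by simpa using ig)
  simpa using this

/-- **tower property** -/
theorem tower (hI : I ⊆ F) (hW0 : ∀ y, 0 ≤ W y) (mW : Measurable W)
    (iW : Integrable W) (mg : Measurable g) (ig : Integrable fun y => g y * W y)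
    {φ : (↥(F \ I) → ℝ) → ℝ} (mφ : Measurable φ)
    (iφ : Integrable fun y => φ (outr F I y) * g y * W y) :
    ∫ y, φ (outr F I y) * g y * W y = ∫ y, φ (outr F I y) * Eb F I W g y * W y := by
  rw [integral_glue hI iφ, integral_glue hI (integrable_Eb_mul hI hW0 mW iW mg ig mφ iφ)]
  refine integral_congr_ae ?_
  filter_upwards [ae_okF hI iW ig] with z hz
  simp only [Eb_glue, outr_glue, mul_assoc]
  rw [integral_const_mul, integral_const_mul, integral_const_mul, fibre_int hW0 hz.W1 g]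

theorem tower_one (hI : I ⊆ F) (hW0 : ∀ y, 0 ≤ W y) (mW : Measurable W)
    (iW : Integrable W) (mg : Measurable g) (ig : Integrable fun y => g y * W y) :
    ∫ y, g y * W y = ∫ y, Eb F I W g y * W y := by
  have := tower hI hW0 mW iW mg ig (φ := fun _ => 1) measurable_const (by simpa using ig)
  simpa using this

/-- fibrewise inequalities integrate -/
theorem fibre_sum (hI : I ⊆ F) {G G' : (↥F → ℝ) → ℝ} (i1 : Integrable G) (i2 : Integrable G')
    (h : ∀ᵐ z : ↥(F \ I) → ℝ, ∫ x : ↥I → ℝ, G (glue F I z x) ≤ ∫ x : ↥I → ℝ, G' (glue F I z x)) :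
    ∫ y, G y ≤ ∫ y, G' y := by
  rw [integral_glue hI i1, integral_glue hI i2]
  exact integral_mono_ae ((integrable_glue hI).2 i1).integral_prod_left
    ((integrable_glue hI).2 i2).integral_prod_left h

omit [DecidableEq U] in
/-- square integrable `g`: `g` is integrable -/
theorem integrable_of_sq (mW : Measurable W) (hW0 : ∀ y, 0 ≤ W y) (iW : Integrable W)
    (mg : Measurable g) (ig2 : Integrable fun y => g y ^ 2 * W y) :
    Integrable fun y => g y * W y := by
  refine (iW.add ig2).mono' (mg.mul mW).aestronglyMeasurable (ae_of_all _ fun y => ?_)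
  rw [Real.norm_eq_abs, abs_mul, abs_of_nonneg (hW0 y)]
  have h1 : |g y| ≤ 1 + g y ^ 2 := by
    have := sq_abs (g y)
    nlinarith [sq_nonneg (|g y| - 1), abs_nonneg (g y)]
  have h2 := mul_le_mul_of_nonneg_right h1 (hW0 y)
  simp only [Pi.add_apply]
  linarith [h2]

/-- Jensen, integrated -/
theorem Eb_sq_int (hI : I ⊆ F) (hW0 : ∀ y, 0 ≤ W y) (mW : Measurable W)
    (iW : Integrable W) (mg : Measurable g) (ig2 : Integrable fun y => g y ^ 2 * W y) :
    (Integrable fun y => Eb F I W g y ^ 2 * W y) ∧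
      ∫ y, Eb F I W g y ^ 2 * W y ≤ ∫ y, g y ^ 2 * W y := by
  have ig := integrable_of_sq mW hW0 iW mg ig2
  have m1 : Measurable fun y => Eb F I W g y ^ 2 * W y := ((measurable_Eb mW mg).pow_const 2).mul mW
  have mg2 : Measurable fun y => g y ^ 2 := mg.pow_const 2
  have hok := ae_okF hI iW ig
  have hok2 := ae_okF hI iW ig2
  have iE2 := integrable_Eb hI hW0 mW iW mg2 ig2
  have key : Integrable fun y => Eb F I W g y ^ 2 * W y := by
    rw [← integrable_glue hI] at iE2 ⊢
    refine iE2.mono' (m1.comp measurable_glue).aestronglyMeasurable ?_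
    have h3 : ∀ᵐ q ∂((volume : Measure (↥(F \ I) → ℝ)).prod (volume : Measure (↥I → ℝ))),
        OkF F I W g q.1 ∧ OkF F I W (fun y => g y ^ 2) q.1 :=
      Measure.quasiMeasurePreserving_fst.ae (hok.and hok2)
    filter_upwards [h3] with q hq
    rw [Real.norm_of_nonneg (mul_nonneg (sq_nonneg _) (hW0 _))]
    simp only [Eb_glue]
    exact mul_le_mul_of_nonneg_right (Ebz_sq_le hW0 hq.1 hq.2) (hW0 _)
  refine ⟨key, ?_⟩
  rw [tower_one hI hW0 mW iW mg2 ig2]
  refine fibre_sum hI key (integrable_Eb hI hW0 mW iW mg2 ig2) ?_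
  filter_upwards [hok, hok2] with z hz hz2
  simp only [Eb_glue]
  rw [integral_const_mul, integral_const_mul]
  exact mul_le_mul_of_nonneg_right (Ebz_sq_le hW0 hz hz2) (integral_nonneg fun x => hW0 _)

/-- Pythagoras: distance to any function of the outer coordinates -/
theorem pyth (hI : I ⊆ F) (hW0 : ∀ y, 0 ≤ W y) (mW : Measurable W)
    (iW : Integrable W) (mg : Measurable g) (ig2 : Integrable fun y => g y ^ 2 * W y)
    {φ : (↥(F \ I) → ℝ) → ℝ} (mφ : Measurable φ)
    (iφ : Integrable fun y => φ (outr F I y) ^ 2 * W y) :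
    ∫ y, (g y - φ (outr F I y)) ^ 2 * W y =
      (∫ y, (g y - Eb F I W g y) ^ 2 * W y) + ∫ y, (Eb F I W g y - φ (outr F I y)) ^ 2 * W y := by
  have ig := integrable_of_sq mW hW0 iW mg ig2
  obtain ⟨iE2, -⟩ := Eb_sq_int hI hW0 mW iW mg ig2
  have mE := measurable_Eb (I := I) mW mg
  have mφ' : Measurable fun y => φ (outr F I y) := mφ.comp measurable_outr
  have prodI : ∀ {a b : (↥F → ℝ) → ℝ}, Measurable a → Measurable b →
      (Integrable fun y => a y ^ 2 * W y) → (Integrable fun y => b y ^ 2 * W y) →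
      Integrable fun y => a y * b y * W y := by
    intro a b ma mb ia ib
    refine (ia.add ib).mono' ((ma.mul mb).mul mW).aestronglyMeasurable (ae_of_all _ fun y => ?_)
    rw [Real.norm_eq_abs, abs_mul, abs_of_nonneg (hW0 y), abs_mul]
    have h1 : |a y| * |b y| ≤ a y ^ 2 + b y ^ 2 := by
      have h3 := sq_abs (a y)
      have h4 := sq_abs (b y)
      nlinarith [sq_nonneg (|a y| - |b y|), sq_nonneg (|a y|), sq_nonneg (|b y|)]
    have h2 := mul_le_mul_of_nonneg_right h1 (hW0 y)
    simp only [Pi.add_apply]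
    linarith [h2]
  have iφg : Integrable fun y => φ (outr F I y) * g y * W y := prodI mφ' mg iφ ig2
  have iφE : Integrable fun y => φ (outr F I y) * Eb F I W g y * W y := prodI mφ' mE iφ iE2
  have igE : Integrable fun y => Eb F I W g y * g y * W y := prodI mE mg iE2 ig2
  have t1 := tower hI hW0 mW iW mg ig mφ iφg
  have t2 : ∫ y, Eb F I W g y * g y * W y = ∫ y, Eb F I W g y ^ 2 * W y := by
    have := tower hI hW0 mW iW mg ig (φ := Ebz F I W g) (measurable_Ebz mW mg) igE
    have e : (fun y => Eb F I W g y ^ 2 * W y) =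
        fun y => Ebz F I W g (outr F I y) * Eb F I W g y * W y := by
      funext y; simp only [Eb]; ring
    rw [e]
    exact this
  have s0 : ∫ y, (g y - φ (outr F I y)) ^ 2 * W y =
      (∫ y, g y ^ 2 * W y) - 2 * (∫ y, φ (outr F I y) * g y * W y) +
        ∫ y, φ (outr F I y) ^ 2 * W y := by
    rw [← (int3 2 ig2 iφg iφ).2]
    exact integral_congr_ae (ae_of_all _ fun y => by beta_reduce; ring)
  have s1 : ∫ y, (g y - Eb F I W g y) ^ 2 * W y =
      (∫ y, g y ^ 2 * W y) - 2 * (∫ y, Eb F I W g y * g y * W y) +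
        ∫ y, Eb F I W g y ^ 2 * W y := by
    rw [← (int3 2 ig2 igE iE2).2]
    exact integral_congr_ae (ae_of_all _ fun y => by beta_reduce; ring)
  have s2 : ∫ y, (Eb F I W g y - φ (outr F I y)) ^ 2 * W y =
      (∫ y, Eb F I W g y ^ 2 * W y) - 2 * (∫ y, φ (outr F I y) * Eb F I W g y * W y) +
        ∫ y, φ (outr F I y) ^ 2 * W y := by
    rw [← (int3 2 iE2 iφE iφ).2]
    exact integral_congr_ae (ae_of_all _ fun y => by beta_reduce; ring)
  rw [s0, s1, s2, t1, t2]
  ring

end global

end Crest.Agent.R144.Fib674
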