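import Crest.Agent.R144.Fib2_674

/-!
# R144 (S0197), helper674: disintegration over a block, file 3 (probability form)

* `wl F E ξ l` : weight `1_{ham} e^l`;
* `IsLaw P W` : `P` is the probability with density proportional to `W`; `isLaw_tilted`
  (`(hamP F E ξ).tilted l`), `isLaw_hamP`;
* `IsLaw.integral`, `IsLaw.integrable_iff`, `IsLaw.tower`, `IsLaw.tower_one`, `IsLaw.integral_Eb_sq_le`,
  `IsLaw.pyth`, `IsLaw.condExp_eq` (`Eb` is Mathlib's conditional expectation given the outer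
  coordinates);
* `Ebz_tilted`, `Ebz_hamP` : `Ebz` is the integral against the fibre law
  `(hamP I (Ein I E) (ext (F \ I) ξ z)).tilted (l (glue F I z ·))`.
-/

set_option autoImplicit false
set_option linter.unusedSectionVars false

open MeasureTheory Set
open scoped ENNReal

noncomputable section

namespace Crest.Agent.R144.Fib674

open Crest.Agent.R144.Ham560

variable {U : Type*} [DecidableEq U] {F I : Finset U} {E : Finset (U × U)} {ξ : U → ℝ}

/-- weight of the tilted law -/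
def wl (F : Finset U) (E : Finset (U × U)) (ξ : U → ℝ) (l : (↥F → ℝ) → ℝ) (y : ↥F → ℝ) : ℝ :=
  (ham F E ξ).indicator (fun y => Real.exp (l y)) y

theorem wl_nonneg (l : (↥F → ℝ) → ℝ) (y : ↥F → ℝ) : 0 ≤ wl F E ξ l y :=
  indicator_nonneg (fun _ _ => (Real.exp_pos _).le) _

theorem wl_of_mem {l : (↥F → ℝ) → ℝ} {y : ↥F → ℝ} (h : y ∈ ham F E ξ) :
    wl F E ξ l y = Real.exp (l y) := indicator_of_mem h _

theorem wl_of_notMem {l : (↥F → ℝ) → ℝ} {y : ↥F → ℝ} (h : y ∉ ham F E ξ) :
    wl F E ξ l y = 0 := indicator_of_notMem h _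

theorem measurable_wl {l : (↥F → ℝ) → ℝ} (ml : Measurable l) : Measurable (wl F E ξ l) :=
  (Real.measurable_exp.comp ml).indicator measurableSet_ham

theorem integral_mul_wl (l g : (↥F → ℝ) → ℝ) :
    ∫ y, g y * wl F E ξ l y = ∫ y in ham F E ξ, g y * Real.exp (l y) := by
  rw [← integral_indicator measurableSet_ham]
  refine integral_congr_ae (ae_of_all _ fun y => ?_)
  beta_reduce
  by_cases h : y ∈ ham F E ξ
  · rw [indicator_of_mem h, wl_of_mem h]
  · rw [indicator_of_notMem h, wl_of_notMem h, mul_zero]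

theorem integral_wl (l : (↥F → ℝ) → ℝ) :
    ∫ y, wl F E ξ l y = ∫ y in ham F E ξ, Real.exp (l y) := by
  have := integral_mul_wl (F := F) (E := E) (ξ := ξ) l fun _ => 1
  simpa using this

theorem integrable_wl {l : (↥F → ℝ) → ℝ} (il : IntegrableOn (fun y => Real.exp (l y)) (ham F E ξ)) :
    Integrable (wl F E ξ l) := (integrable_indicator_iff measurableSet_ham).2 il

/-- the weight on a fibre -/
theorem wl_glue (hI : I ⊆ F) (l : (↥F → ℝ) → ℝ) (z : ↥(F \ I) → ℝ) (x : ↥I → ℝ) :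
    wl F E ξ l (glue F I z x) =
      wl I E (ext (F \ I) ξ z) (fun x => l (glue F I z x)) x := by
  by_cases h : glue F I z x ∈ ham F E ξ
  · rw [wl_of_mem h, wl_of_mem ((glue_mem_ham hI).1 h)]
  · rw [wl_of_notMem h, wl_of_notMem fun h1 => h ((glue_mem_ham hI).2 h1)]

/-- `P` is the law with density proportional to `W` -/
structure IsLaw (P : Measure (↥F → ℝ)) (W : (↥F → ℝ) → ℝ) : Prop where
  nonneg : ∀ y, 0 ≤ W y
  meas : Measurable W
  int : Integrable W
  pos : 0 < ∫ y, W y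
  eq : P = (ENNReal.ofReal (∫ y, W y))⁻¹ • volume.withDensity fun y => ENNReal.ofReal (W y)

namespace IsLaw

variable {P : Measure (↥F → ℝ)} {W : (↥F → ℝ) → ℝ}

theorem integrable_iff (h : IsLaw P W) {g : (↥F → ℝ) → ℝ} :
    Integrable g P ↔ Integrable fun y => g y * W y := by
  have hc0 : ENNReal.ofReal (∫ y, W y) ≠ 0 := (ENNReal.ofReal_pos.2 h.pos).ne'
  have hct : ENNReal.ofReal (∫ y, W y) ≠ ∞ := ENNReal.ofReal_ne_top
  rw [h.eq, integrable_smul_measure (ENNReal.inv_ne_zero.2 hct) (ENNReal.inv_ne_top.2 hc0),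
    integrable_withDensity_iff_integrable_smul' h.meas.ennreal_ofReal
      (ae_of_all _ fun _ => ENNReal.ofReal_lt_top)]
  have e : (fun y => (ENNReal.ofReal (W y)).toReal • g y) = fun y => g y * W y := by
    funext y
    rw [ENNReal.toReal_ofReal (h.nonneg y), smul_eq_mul, mul_comm]
  rw [e]

theorem integral (h : IsLaw P W) (g : (↥F → ℝ) → ℝ) :
    ∫ y, g y ∂P = (∫ y, g y * W y) / ∫ y, W y := by
  rw [h.eq, integral_smul_measure,
    integral_withDensity_eq_integral_toReal_smul h.meas.ennreal_ofReal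
      (ae_of_all _ fun _ => ENNReal.ofReal_lt_top), ENNReal.toReal_inv,
    ENNReal.toReal_ofReal h.pos.le, smul_eq_mul, div_eq_inv_mul]
  congr 1
  refine integral_congr_ae (ae_of_all _ fun y => ?_)
  beta_reduce
  rw [ENNReal.toReal_ofReal (h.nonneg y), smul_eq_mul, mul_comm]

theorem prob (h : IsLaw P W) : IsProbabilityMeasure P := by
  constructor
  rw [h.eq, Measure.smul_apply, withDensity_apply _ MeasurableSet.univ, Measure.restrict_univ,
    ← ofReal_integral_eq_lintegral_ofReal h.int (ae_of_all _ h.nonneg), smul_eq_mul]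
  exact ENNReal.inv_mul_cancel (ENNReal.ofReal_pos.2 h.pos).ne' ENNReal.ofReal_ne_top

/-- multiplied form of `IsLaw.integral` -/
theorem integral_mul (h : IsLaw P W) (g : (↥F → ℝ) → ℝ) :
    (∫ y, g y ∂P) * ∫ y, W y = ∫ y, g y * W y := by
  rw [h.integral, div_mul_cancel₀ _ h.pos.ne']

theorem integral_le (h : IsLaw P W) {g g' : (↥F → ℝ) → ℝ} (hg : ∫ y, g y * W y ≤ ∫ y, g' y * W y) :
    ∫ y, g y ∂P ≤ ∫ y, g' y ∂P := by
  rw [h.integral, h.integral]
  exact div_le_div_of_nonneg_right hg h.pos.le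

/-- **tower property** -/
theorem tower (h : IsLaw P W) (hI : I ⊆ F) {g : (↥F → ℝ) → ℝ} (mg : Measurable g)
    (ig : Integrable g P) {φ : (↥(F \ I) → ℝ) → ℝ} (mφ : Measurable φ)
    (iφ : Integrable (fun y => φ (outr F I y) * g y) P) :
    ∫ y, φ (outr F I y) * g y ∂P = ∫ y, φ (outr F I y) * Eb F I W g y ∂P := by
  rw [h.integral, h.integral, Fib674.tower hI h.nonneg h.meas h.int mg (h.integrable_iff.1 ig) mφ
    (h.integrable_iff.1 iφ)]

theorem integrable_Eb_mul (h : IsLaw P W) (hI : I ⊆ F) {g : (↥F → ℝ) → ℝ} (mg : Measurable g)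
    (ig : Integrable g P) {φ : (↥(F \ I) → ℝ) → ℝ} (mφ : Measurable φ)
    (iφ : Integrable (fun y => φ (outr F I y) * g y) P) :
    Integrable (fun y => φ (outr F I y) * Eb F I W g y) P :=
  h.integrable_iff.2 (Fib674.integrable_Eb_mul hI h.nonneg h.meas h.int mg (h.integrable_iff.1 ig) mφ
    (h.integrable_iff.1 iφ))

theorem tower_one (h : IsLaw P W) (hI : I ⊆ F) {g : (↥F → ℝ) → ℝ} (mg : Measurable g)
    (ig : Integrable g P) : ∫ y, g y ∂P = ∫ y, Eb F I W g y ∂P := by
  rw [h.integral, h.integral, Fib674.tower_one hI h.nonneg h.meas h.int mg (h.integrable_iff.1 ig)]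

theorem integrable_Eb (h : IsLaw P W) (hI : I ⊆ F) {g : (↥F → ℝ) → ℝ} (mg : Measurable g)
    (ig : Integrable g P) : Integrable (Eb F I W g) P :=
  h.integrable_iff.2 (Fib674.integrable_Eb hI h.nonneg h.meas h.int mg (h.integrable_iff.1 ig))

theorem integral_Eb_sq_le (h : IsLaw P W) (hI : I ⊆ F) {g : (↥F → ℝ) → ℝ} (mg : Measurable g)
    (ig2 : Integrable (fun y => g y ^ 2) P) :
    Integrable (fun y => Eb F I W g y ^ 2) P ∧ ∫ y, Eb F I W g y ^ 2 ∂P ≤ ∫ y, g y ^ 2 ∂P := by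
  obtain ⟨h1, h2⟩ := Eb_sq_int hI h.nonneg h.meas h.int mg (h.integrable_iff.1 ig2)
  exact ⟨h.integrable_iff.2 h1, h.integral_le h2⟩

theorem integral_abs_Eb_le (h : IsLaw P W) (hI : I ⊆ F) {g : (↥F → ℝ) → ℝ} (mg : Measurable g)
    (ig : Integrable g P) : ∫ y, |Eb F I W g y| ∂P ≤ ∫ y, |g y| ∂P := by
  rw [h.tower_one hI (g := fun y => |g y|) (measurable_norm.comp mg) ig.abs]
  refine integral_mono (h.integrable_Eb hI mg ig).abs
    (h.integrable_Eb hI (g := fun y => |g y|) (measurable_norm.comp mg) ig.abs) fun y => ?_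
  exact abs_Ebz_le h.nonneg

theorem pyth (h : IsLaw P W) (hI : I ⊆ F) {g : (↥F → ℝ) → ℝ} (mg : Measurable g)
    (ig2 : Integrable (fun y => g y ^ 2) P) {φ : (↥(F \ I) → ℝ) → ℝ} (mφ : Measurable φ)
    (iφ : Integrable (fun y => φ (outr F I y) ^ 2) P) :
    ∫ y, (g y - φ (outr F I y)) ^ 2 ∂P =
      (∫ y, (g y - Eb F I W g y) ^ 2 ∂P) + ∫ y, (Eb F I W g y - φ (outr F I y)) ^ 2 ∂P := by
  rw [h.integral, h.integral, h.integral, ← add_div, Fib674.pyth hI h.nonneg h.meas h.int mg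
    (h.integrable_iff.1 ig2) mφ (h.integrable_iff.1 iφ)]

/-- `Eb` is the conditional expectation given the outer coordinates -/
theorem condExp_eq (h : IsLaw P W) (hI : I ⊆ F) {g : (↥F → ℝ) → ℝ} (mg : Measurable g)
    (ig : Integrable g P) :
    Eb F I W g =ᵐ[P] P[g | MeasurableSpace.comap (outr F I) inferInstance] := by
  have := h.prob
  have hm : MeasurableSpace.comap (outr F I) inferInstance ≤
      (inferInstance : MeasurableSpace (↥F → ℝ)) := measurable_outr.comap_le
  refine ae_eq_condExp_of_forall_setIntegral_eq hm ig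
    (fun s _ _ => (h.integrable_Eb hI mg ig).integrableOn) ?_ ?_
  · rintro s ⟨t, ht, rfl⟩ -
    have ms : MeasurableSet (outr F I ⁻¹' t) := measurable_outr ht
    have mφ : Measurable (t.indicator fun _ => (1 : ℝ)) := measurable_const.indicator ht
    have e : ∀ f : (↥F → ℝ) → ℝ, ∫ y in outr F I ⁻¹' t, f y ∂P =
        ∫ y, (t.indicator fun _ => (1 : ℝ)) (outr F I y) * f y ∂P := by
      intro f
      rw [← integral_indicator ms]
      refine integral_congr_ae (ae_of_all _ fun y => ?_)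
      beta_reduce
      by_cases hy : outr F I y ∈ t
      · rw [indicator_of_mem (show y ∈ outr F I ⁻¹' t from hy), indicator_of_mem hy, one_mul]
      · rw [indicator_of_notMem (show y ∉ outr F I ⁻¹' t from hy), indicator_of_notMem hy, zero_mul]
    have iφ : Integrable (fun y => (t.indicator fun _ => (1 : ℝ)) (outr F I y) * g y) P := by
      refine ig.mono ((mφ.comp measurable_outr).mul mg).aestronglyMeasurable
        (ae_of_all _ fun y => ?_)
      rw [norm_mul]
      refine mul_le_of_le_one_left (norm_nonneg _) ?_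
      by_cases hy : outr F I y ∈ t
      · simp [hy]
      · simp [hy]
    rw [e, e, h.tower hI mg ig mφ iφ]
  · exact ((measurable_Ebz h.meas mg).comp (comap_measurable (outr F I))).stronglyMeasurable.aestronglyMeasurable

end IsLaw

/-! ### the hammock laws -/

theorem isLaw_tilted (hv0 : volume (ham F E ξ) ≠ 0) (hvt : volume (ham F E ξ) ≠ ∞)
    {l : (↥F → ℝ) → ℝ} (ml : Measurable l)
    (il : IntegrableOn (fun y => Real.exp (l y)) (ham F E ξ)) :
    IsLaw ((hamP F E ξ).tilted l) (wl F E ξ l) := by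
  have hZ : 0 < ∫ y in ham F E ξ, Real.exp (l y) := by
    rw [setIntegral_pos_iff_support_of_nonneg_ae (ae_of_all _ fun y => (Real.exp_pos _).le) il]
    have : Function.support (fun y : ↥F → ℝ => Real.exp (l y)) = Set.univ := by
      ext y; simp [Real.exp_ne_zero]
    rw [this, univ_inter]
    exact pos_iff_ne_zero.2 hv0
  refine ⟨wl_nonneg l, measurable_wl ml, integrable_wl il, by rw [integral_wl]; exact hZ, ?_⟩
  rw [integral_wl]
  set Z := ∫ y in ham F E ξ, Real.exp (l y) with hZd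
  set c : ℝ≥0∞ := (volume (ham F E ξ))⁻¹ with hc
  have hc0 : c ≠ 0 := ENNReal.inv_ne_zero.2 hvt
  have hct : c ≠ ∞ := ENNReal.inv_ne_top.2 hv0
  have hc' : 0 < c.toReal := ENNReal.toReal_pos hc0 hct
  have h1 : ∫ y, Real.exp (l y) ∂(hamP F E ξ) = c.toReal * Z := by
    rw [hamP, integral_smul_measure, smul_eq_mul]
  rw [Measure.tilted, h1, hamP, ← hc, withDensity_smul_measure]
  have h2 : (fun y => ENNReal.ofReal (Real.exp (l y) / (c.toReal * Z))) =
      (ENNReal.ofReal (c.toReal * Z))⁻¹ • fun y => ENNReal.ofReal (Real.exp (l y)) := by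
    funext y
    rw [Pi.smul_apply, smul_eq_mul, ENNReal.ofReal_div_of_pos (mul_pos hc' hZ), div_eq_mul_inv,
      mul_comm]
  have mexp : Measurable fun y => ENNReal.ofReal (Real.exp (l y)) :=
    (Real.measurable_exp.comp ml).ennreal_ofReal
  rw [h2, withDensity_smul _ mexp, smul_smul, ENNReal.ofReal_mul hc'.le, ENNReal.ofReal_toReal hct,
    ENNReal.mul_inv (Or.inl hc0) (Or.inl hct), ← mul_assoc, ENNReal.mul_inv_cancel hc0 hct, one_mul]
  congr 1
  rw [← withDensity_indicator measurableSet_ham]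
  congr 1
  funext y
  by_cases h : y ∈ ham F E ξ
  · rw [indicator_of_mem h, wl_of_mem h]
  · rw [indicator_of_notMem h, wl_of_notMem h, ENNReal.ofReal_zero]

theorem isLaw_hamP (hv0 : volume (ham F E ξ) ≠ 0) (hvt : volume (ham F E ξ) ≠ ∞) :
    IsLaw (hamP F E ξ) (wl F E ξ 0) := by
  have hp : IsProbabilityMeasure (hamP F E ξ) := by
    constructor
    rw [hamP, Measure.smul_apply, Measure.restrict_apply_univ, smul_eq_mul]
    exact ENNReal.inv_mul_cancel hv0 hvt
  have h0 : IntegrableOn (fun y => Real.exp ((0 : (↥F → ℝ) → ℝ) y)) (ham F E ξ) := by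
    have : IntegrableOn (fun _ : ↥F → ℝ => (1 : ℝ)) (ham F E ξ) := integrableOn_const (C := (1 : ℝ)) hvt
    simpa using this
  have h := isLaw_tilted (F := F) (E := E) (ξ := ξ) hv0 hvt (l := 0) measurable_const h0
  rwa [tilted_zero] at h

/-- continuous tilts of anchored systems -/
theorem isLaw_tilted' (hA : Anch F E) (hξ : ∀ u, |ξ u| ≤ 1 / 2) {l : (↥F → ℝ) → ℝ}
    (cl : Continuous l) : IsLaw ((hamP F E ξ).tilted l) (wl F E ξ l) :=
  isLaw_tilted (volume_ham_ne_zero hξ) (volume_ham_lt_top hA).ne cl.measurable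
    ((Real.continuous_exp.comp cl).continuousOn.integrableOn_compact (isCompact_ham hA))

theorem isLaw_hamP' (hA : Anch F E) (hξ : ∀ u, |ξ u| ≤ 1 / 2) : IsLaw (hamP F E ξ) (wl F E ξ 0) :=
  isLaw_hamP (volume_ham_ne_zero hξ) (volume_ham_lt_top hA).ne

/-! ### the fibre law -/

theorem Ebz_eq (hI : I ⊆ F) (l g : (↥F → ℝ) → ℝ) (z : ↥(F \ I) → ℝ) :
    Ebz F I (wl F E ξ l) g z =
      (∫ x in ham I E (ext (F \ I) ξ z), g (glue F I z x) * Real.exp (l (glue F I z x))) /
        ∫ x in ham I E (ext (F \ I) ξ z), Real.exp (l (glue F I z x)) := by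
  unfold Ebz
  simp only [wl_glue hI]
  rw [integral_mul_wl, integral_wl]

theorem Ebz_eq_io (hI : I ⊆ F) (l g : (↥F → ℝ) → ℝ) {z : ↥(F \ I) → ℝ}
    (hz : z ∈ ham (F \ I) (Eout I E) ξ) :
    Ebz F I (wl F E ξ l) g z =
      (∫ x in ham I (Ein I E) (ext (F \ I) ξ z), g (glue F I z x) * Real.exp (l (glue F I z x))) /
        ∫ x in ham I (Ein I E) (ext (F \ I) ξ z), Real.exp (l (glue F I z x)) := by
  rw [Ebz_eq hI, fibre_eq hz]

theorem nbr_Ein {a b : U} (ha : a ∈ I) (h : b ∈ nbr E a) : b ∈ nbr (Ein I E) a := by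
  rw [mem_nbr] at h ⊢
  refine ⟨h.1, h.2.imp (fun h => mem_Ein.2 ⟨h, Or.inl ha⟩) fun h => mem_Ein.2 ⟨h, Or.inr ha⟩⟩

theorem Anch.ein (hA : Anch I E) : Anch I (Ein I E) := by
  intro v hv
  obtain ⟨u, hu, hp⟩ := hA v hv
  have key : ∃ u', u' ∉ I ∧ Relation.ReflTransGen (fun a b => b ∈ nbr (Ein I E) a) v u' := by
    refine Relation.ReflTransGen.head_induction_on hp ⟨u, hu, .refl⟩ ?_
    rintro a b hab - ⟨u', hu', hp'⟩
    by_cases ha : a ∈ I
    · exact ⟨u', hu', Relation.ReflTransGen.head (nbr_Ein ha hab) hp'⟩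
    · exact ⟨a, ha, .refl⟩
  exact key

/-- the fibre average is the integral against the tilted fibre law -/
theorem Ebz_tilted (hI : I ⊆ F) (hA : Anch I E) {l : (↥F → ℝ) → ℝ} (cl : Continuous l)
    (g : (↥F → ℝ) → ℝ) {z : ↥(F \ I) → ℝ} (hz : z ∈ ham (F \ I) (Eout I E) ξ) :
    Ebz F I (wl F E ξ l) g z =
      ∫ x, g (glue F I z x) ∂((hamP I (Ein I E) (ext (F \ I) ξ z)).tilted
        fun x => l (glue F I z x)) := by
  have hA' := Anch.ein hA
  rw [Ebz_eq_io hI l g hz]
  by_cases h0 : volume (ham I (Ein I E) (ext (F \ I) ξ z)) = 0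
  · have h1 : (volume : Measure (↥I → ℝ)).restrict (ham I (Ein I E) (ext (F \ I) ξ z)) = 0 :=
      Measure.restrict_eq_zero.2 h0
    have h2 : hamP I (Ein I E) (ext (F \ I) ξ z) = 0 := by rw [hamP, h1, smul_zero]
    rw [h1, h2]
    simp
  · have cl' : Continuous fun x : ↥I → ℝ => l (glue F I z x) := cl.comp (continuous_glue_right z)
    have h := isLaw_tilted h0 (volume_ham_lt_top hA').ne cl'.measurable
      ((Real.continuous_exp.comp cl').continuousOn.integrableOn_compact (isCompact_ham hA'))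
    rw [h.integral, integral_mul_wl, integral_wl]

theorem Ebz_hamP (hI : I ⊆ F) (hA : Anch I E) (g : (↥F → ℝ) → ℝ) {z : ↥(F \ I) → ℝ}
    (hz : z ∈ ham (F \ I) (Eout I E) ξ) :
    Ebz F I (wl F E ξ 0) g z = ∫ x, g (glue F I z x) ∂(hamP I (Ein I E) (ext (F \ I) ξ z)) := by
  have hA' := Anch.ein hA
  rw [Ebz_eq_io hI 0 g hz, integral_hamP_real]
  simp [Measure.real]

end Crest.Agent.R144.Fib674
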