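import Crest.Agent.R144.Fib3_674
import Mathlib.Analysis.Calculus.Rademacher

/-!
# R144 (S0197), helper674: disintegration over a block, file 4 (block Poincaré, abstract part)

* `pd v g y = fderiv ℝ g y (Pi.single v 1)`, `gI hI g y = ∑ v : I, (pd v g y)²`;
* `fderiv_glue` : chain rule on a fibre; `lip_glue`;
* `ae_diff_ham` : Lipschitz functions on the polytope are differentiable at almost every point of it;
* `block_of_fibre` : fibrewise Poincaré (product form) gives `∫ (g - Eb g)² W ≤ K ∫ D W`.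
-/

set_option autoImplicit false
set_option linter.unusedSectionVars false

open MeasureTheory Set
open scoped ENNReal NNReal

noncomputable section

namespace Crest.Agent.R144.Fib674

open Crest.Agent.R144.Ham560

variable {U : Type*} [DecidableEq U] {F I : Finset U} {E : Finset (U × U)} {ξ : U → ℝ}

/-! ### abstract integration of fibre inequalities -/

theorem block_of_fibre (hI : I ⊆ F) {W g D : (↥F → ℝ) → ℝ} {K : ℝ}
    (hW0 : ∀ y, 0 ≤ W y) (mW : Measurable W) (iW : Integrable W) (mg : Measurable g)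
    (ig2 : Integrable fun y => g y ^ 2 * W y) (iD : Integrable fun y => D y * W y)
    (hD0 : ∀ y, 0 ≤ D y) (hK : 0 ≤ K)
    (h : ∀ᵐ z : ↥(F \ I) → ℝ,
      (∫ x : ↥I → ℝ, W (glue F I z x)) * (∫ x : ↥I → ℝ, g (glue F I z x) ^ 2 * W (glue F I z x)) -
        (∫ x : ↥I → ℝ, g (glue F I z x) * W (glue F I z x)) ^ 2 ≤
      K * (∫ x : ↥I → ℝ, W (glue F I z x)) * ∫ x : ↥I → ℝ, D (glue F I z x) * W (glue F I z x)) :
    Integrable (fun y => (g y - Eb F I W g y) ^ 2 * W y) ∧
      ∫ y, (g y - Eb F I W g y) ^ 2 * W y ≤ K * ∫ y, D y * W y := by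
  have ig := integrable_of_sq mW hW0 iW mg ig2
  obtain ⟨iE2, -⟩ := Eb_sq_int hI hW0 mW iW mg ig2
  have mE := measurable_Eb (I := I) mW mg
  have i1 : Integrable fun y => (g y - Eb F I W g y) ^ 2 * W y := by
    refine ((ig2.const_mul 2).add (iE2.const_mul 2)).mono'
      (((mg.sub mE).pow_const 2).mul mW).aestronglyMeasurable (ae_of_all _ fun y => ?_)
    rw [Real.norm_of_nonneg (mul_nonneg (sq_nonneg _) (hW0 y))]
    simp only [Pi.add_apply]
    nlinarith [mul_nonneg (sq_nonneg (g y + Eb F I W g y)) (hW0 y)]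
  refine ⟨i1, ?_⟩
  rw [← integral_const_mul]
  refine fibre_sum hI i1 (iD.const_mul K) ?_
  filter_upwards [ae_okF hI iW ig, ae_okF hI iW ig2, h] with z hz hz2 hzP
  have h3 := (fibre_var hW0 hz hz2 (Ebz F I W g z)).2
  have hM0 : 0 ≤ ∫ x : ↥I → ℝ, W (glue F I z x) := integral_nonneg fun _ => hW0 _
  have hD1 : 0 ≤ ∫ x : ↥I → ℝ, D (glue F I z x) * W (glue F I z x) :=
    integral_nonneg fun _ => mul_nonneg (hD0 _) (hW0 _)
  simp only [Eb_glue]
  rw [h3, integral_const_mul]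
  have hf1 := fibre_int hW0 hz.W1 g
  have hf2 := fibre_int hW0 hz.W1 (fun y => g y ^ 2)
  beta_reduce at hf2
  rw [hf1, hf2] at hzP
  set M := ∫ x : ↥I → ℝ, W (glue F I z x) with hM
  set A := Ebz F I W g z
  set B := Ebz F I W (fun y => g y ^ 2) z
  set T := ∫ x : ↥I → ℝ, D (glue F I z x) * W (glue F I z x)
  by_cases h0 : M = 0
  · rw [h0, mul_zero]
    exact mul_nonneg hK hD1
  · have hpos : 0 < M := lt_of_le_of_ne hM0 (Ne.symm h0)
    have h4 : M * ((B - 2 * A * A + A ^ 2) * M) ≤ M * (K * T) := by nlinarith [hzP]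
    exact le_of_mul_le_mul_left h4 hpos

/-! ### derivatives on a fibre -/

/-- partial derivative -/
def pd (v : ↥F) (g : (↥F → ℝ) → ℝ) (y : ↥F → ℝ) : ℝ := fderiv ℝ g y (Pi.single v 1)

/-- squared gradient in the directions of the block -/
def gI (hI : I ⊆ F) (g : (↥F → ℝ) → ℝ) (y : ↥F → ℝ) : ℝ := ∑ v : ↥I, pd ⟨(v : U), hI v.2⟩ g y ^ 2

theorem gI_nonneg (hI : I ⊆ F) (g : (↥F → ℝ) → ℝ) (y : ↥F → ℝ) : 0 ≤ gI hI g y :=
  Finset.sum_nonneg fun _ _ => sq_nonneg _

/-- linear part of `glue` -/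
def glueL (F I : Finset U) : (↥I → ℝ) →L[ℝ] (↥F → ℝ) :=
  LinearMap.toContinuousLinearMap
    { toFun := fun x => glue F I 0 x
      map_add' := fun x y => by
        funext v
        by_cases h : (v : U) ∈ I <;> simp [glue, h]
      map_smul' := fun c x => by
        funext v
        by_cases h : (v : U) ∈ I <;> simp [glue, h] }

@[simp] theorem glueL_apply (x : ↥I → ℝ) : glueL F I x = glue F I 0 x := rfl

theorem glue_eq (z : ↥(F \ I) → ℝ) (x : ↥I → ℝ) :
    glue F I z x = glueL F I x + glue F I z 0 := by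
  funext v
  by_cases h : (v : U) ∈ I <;> simp [glue, h]

theorem hasFDerivAt_glue (z : ↥(F \ I) → ℝ) (x : ↥I → ℝ) :
    HasFDerivAt (glue F I z) (glueL F I) x := by
  have e : glue F I z = fun x => glueL F I x + glue F I z 0 := by
    funext x; exact glue_eq z x
  rw [e]
  exact (glueL F I).hasFDerivAt.add_const _

theorem glueL_single (hI : I ⊆ F) (v : ↥I) :
    glueL F I (Pi.single v 1) = Pi.single (⟨(v : U), hI v.2⟩ : ↥F) 1 := by
  funext u
  by_cases h : (u : U) ∈ I
  · rw [glueL_apply, glue_in h]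
    by_cases huv : (u : U) = v
    · have e1 : (⟨(u : U), h⟩ : ↥I) = v := Subtype.ext huv
      have e2 : u = ⟨(v : U), hI v.2⟩ := Subtype.ext huv
      rw [e1, e2, Pi.single_eq_same, Pi.single_eq_same]
    · have e1 : (⟨(u : U), h⟩ : ↥I) ≠ v := fun h' => huv (congrArg Subtype.val h')
      have e2 : u ≠ ⟨(v : U), hI v.2⟩ := fun h' => huv (congrArg Subtype.val h')
      rw [Pi.single_eq_of_ne e1, Pi.single_eq_of_ne e2]
  · rw [glueL_apply, glue_out h]
    have e2 : u ≠ ⟨(v : U), hI v.2⟩ := by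
      rintro rfl
      exact h v.2
    rw [Pi.single_eq_of_ne e2]
    rfl

/-- chain rule on a fibre -/
theorem fderiv_glue (hI : I ⊆ F) {g : (↥F → ℝ) → ℝ} {z : ↥(F \ I) → ℝ} {x : ↥I → ℝ}
    (hg : DifferentiableAt ℝ g (glue F I z x)) (v : ↥I) :
    fderiv ℝ (fun x => g (glue F I z x)) x (Pi.single v 1) =
      pd ⟨(v : U), hI v.2⟩ g (glue F I z x) := by
  have h := hg.hasFDerivAt.comp x (hasFDerivAt_glue z x)
  have h' : HasFDerivAt (fun x => g (glue F I z x)) ((fderiv ℝ g (glue F I z x)).comp (glueL F I)) x := h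
  rw [h'.fderiv, ContinuousLinearMap.comp_apply, glueL_single hI]
  rfl

theorem gI_glue (hI : I ⊆ F) {g : (↥F → ℝ) → ℝ} {z : ↥(F \ I) → ℝ} {x : ↥I → ℝ}
    (hg : DifferentiableAt ℝ g (glue F I z x)) :
    ∑ v : ↥I, fderiv ℝ (fun x => g (glue F I z x)) x (Pi.single v 1) ^ 2 =
      gI hI g (glue F I z x) := by
  unfold gI
  exact Finset.sum_congr rfl fun v _ => by rw [fderiv_glue hI hg]

theorem lip_glue_right (z : ↥(F \ I) → ℝ) : LipschitzWith 1 (glue F I z) := by
  refine LipschitzWith.of_dist_le_mul fun x y => ?_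
  rw [NNReal.coe_one, one_mul]
  refine (dist_pi_le_iff dist_nonneg).2 fun v => ?_
  by_cases h : (v : U) ∈ I
  · rw [glue_in h, glue_in h]
    exact dist_le_pi_dist x y _
  · rw [glue_out h, glue_out h, dist_self]
    exact dist_nonneg

/-- restriction to a fibre of a Lipschitz function on the polytope -/
theorem lip_fibre (hI : I ⊆ F) {g : (↥F → ℝ) → ℝ} {L : ℝ≥0} (hg : LipschitzOnWith L g (ham F E ξ))
    (z : ↥(F \ I) → ℝ) :
    LipschitzOnWith L (fun x => g (glue F I z x)) (ham I E (ext (F \ I) ξ z)) := by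
  have h := hg.comp ((lip_glue_right (F := F) (I := I) z).lipschitzOnWith
    (s := ham I E (ext (F \ I) ξ z))) fun x hx => (glue_mem_ham hI).2 hx
  rwa [mul_one] at h

/-- Lipschitz functions on the polytope are differentiable at almost every point of it -/
theorem ae_diff_ham {g : (↥F → ℝ) → ℝ} {L : ℝ≥0} (hg : LipschitzOnWith L g (ham F E ξ)) :
    ∀ᵐ y, y ∈ ham F E ξ → DifferentiableAt ℝ g y := by
  have h0 : volume (frontier (ham F E ξ)) = 0 :=
    (convex_ham (F := F) (E := E) (ξ := ξ)).addHaar_frontier _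
  have h1 : ∀ᵐ y, y ∉ frontier (ham F E ξ) := measure_eq_zero_iff_ae_notMem.1 h0
  filter_upwards [h1, hg.ae_differentiableWithinAt_of_mem] with y hy1 hy2 hy
  have hyi : y ∈ interior (ham F E ξ) := by
    by_contra hyi
    exact hy1 ⟨subset_closure hy, hyi⟩
  exact (hy2 hy).differentiableAt (mem_interior_iff_mem_nhds.1 hyi)

/-- squared gradient is bounded for Lipschitz functions, at interior points -/
theorem abs_pd_le {g : (↥F → ℝ) → ℝ} {L : ℝ≥0} (hg : LipschitzOnWith L g (ham F E ξ))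
    {y : ↥F → ℝ} (hy : y ∈ interior (ham F E ξ)) (v : ↥F) : |pd v g y| ≤ L := by
  have h1 : ‖fderiv ℝ g y‖ ≤ L := norm_fderiv_le_of_lipschitzOn ℝ (mem_interior_iff_mem_nhds.1 hy) hg
  have h2 : ‖(Pi.single v 1 : ↥F → ℝ)‖ ≤ 1 := by
    rw [pi_norm_le_iff_of_nonneg zero_le_one]
    intro u
    by_cases h : u = v
    · rw [h, Pi.single_eq_same]; simp
    · rw [Pi.single_eq_of_ne h]; simp
  calc |pd v g y| = ‖fderiv ℝ g y (Pi.single v 1)‖ := (Real.norm_eq_abs _).symm
    _ ≤ ‖fderiv ℝ g y‖ * ‖(Pi.single v 1 : ↥F → ℝ)‖ := ContinuousLinearMap.le_opNorm _ _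
    _ ≤ L * 1 := mul_le_mul h1 h2 (norm_nonneg _) L.2
    _ = L := mul_one _

theorem measurable_pd (g : (↥F → ℝ) → ℝ) (v : ↥F) : Measurable (pd v g) :=
  measurable_fderiv_apply_const ℝ g _

theorem measurable_gI (hI : I ⊆ F) (g : (↥F → ℝ) → ℝ) : Measurable (gI hI g) :=
  Finset.measurable_sum _ fun _ _ => (measurable_pd g _).pow_const 2

end Crest.Agent.R144.Fib674
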