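import Mathlib

/-!
# GA4 : the abstract Stein lemma with an ODE (doc 1596)

`stein`: if `S = ∑ c, X c`, `‖Z‖ ≤ 1` and
(i)  `‖E[Z X_c e^{i r (S - Y_c)}]‖ ≤ e1 c` for `|r| ≤ |t|`,
(ii) `E |X_c| Y_c² ≤ e2 c`,
(iii) `E |∑ X_c Y_c - v| ≤ e3`,
then `‖E[Z e^{itS}] - e^{-t²v/2} E Z‖ ≤ |t| ∑ e1 + |t|³/2 ∑ e2 + t²/2 e3`.
-/

set_option maxHeartbeats 400000

namespace Crest.Agent.R144.Ga4126

open MeasureTheory Set

noncomputable section

/-! ## elementary bounds for `e^{ix}` -/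

/-- `e^{ix}` as a shorthand. -/
def ei (x : ℝ) : ℂ := Complex.exp (Complex.I * (x : ℂ))

theorem ei_zero : ei 0 = 1 := by simp [ei]

theorem norm_ei (x : ℝ) : ‖ei x‖ = 1 := by
  rw [ei, mul_comm]; exact Complex.norm_exp_ofReal_mul_I x

theorem ei_add (x y : ℝ) : ei (x + y) = ei x * ei y := by
  simp only [ei]; rw [← Complex.exp_add]; congr 1; push_cast; ring

theorem ei_continuous : Continuous ei := by
  unfold ei; fun_prop

theorem norm_ei_sub_one_le (x : ℝ) : ‖ei x - 1‖ ≤ |x| := by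
  simpa [ei, Real.norm_eq_abs] using Real.norm_exp_I_mul_ofReal_sub_one_le (x := x)

theorem hasDerivAt_ei (a x : ℝ) :
    HasDerivAt (fun r : ℝ => ei (r * a)) (Complex.I * (a : ℂ) * ei (x * a)) x := by
  unfold ei
  have h1 : HasDerivAt (fun r : ℝ => ((r * a : ℝ) : ℂ)) (a : ℂ) x := by
    have := ((hasDerivAt_id x).mul_const a).ofReal_comp
    simpa using this
  have h2 := (h1.const_mul Complex.I).cexp
  convert h2 using 1
  ring

theorem hp2 (r : ℝ) : HasDerivAt (fun r : ℝ => r ^ 2) (2 * r) r := by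
  simpa using hasDerivAt_pow 2 r

theorem hp3 (r : ℝ) : HasDerivAt (fun r : ℝ => r ^ 3) (3 * r ^ 2) r := by
  simpa using hasDerivAt_pow 3 r

/-- right fencing on `[0, t]` -/
theorem norm_le_of_deriv {f f' : ℝ → ℂ} {B B' : ℝ → ℝ} {t : ℝ} (ht : 0 ≤ t)
    (hf : ∀ r, HasDerivAt f (f' r) r) (hB : ∀ r, HasDerivAt B (B' r) r)
    (h0 : ‖f 0‖ ≤ B 0) (hb : ∀ r, 0 ≤ r → r ≤ t → ‖f' r‖ ≤ B' r) : ‖f t‖ ≤ B t :=
  image_norm_le_of_norm_deriv_right_le_deriv_boundary (a := 0) (b := t)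
    (fun x _ => (hf x).continuousAt.continuousWithinAt)
    (fun x _ => (hf x).hasDerivWithinAt) h0 hB (fun x hx => hb x hx.1 hx.2.le) ⟨ht, le_rfl⟩

theorem norm_ei_sub_one_sub_le (x : ℝ) : ‖ei x - 1 - Complex.I * x‖ ≤ x ^ 2 / 2 := by
  have key : ‖ei ((1 : ℝ) * x) - 1 - ((1 : ℝ) : ℂ) * (Complex.I * x)‖ ≤ (1 : ℝ) ^ 2 * x ^ 2 / 2 := by
    refine norm_le_of_deriv (f := fun r : ℝ => ei (r * x) - 1 - (r : ℂ) * (Complex.I * x))
      (f' := fun r : ℝ => Complex.I * (x : ℂ) * ei (r * x) - Complex.I * x)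
      (B := fun r => r ^ 2 * x ^ 2 / 2) (B' := fun r => r * x ^ 2) zero_le_one
      (fun r => ?_) (fun r => ?_) ?_ (fun r hr _ => ?_)
    · have h1 := (hasDerivAt_ei x r).sub_const 1
      have h2 : HasDerivAt (fun r : ℝ => (r : ℂ) * (Complex.I * x)) (Complex.I * x) r := by
        have := ((hasDerivAt_id r).ofReal_comp).mul_const (Complex.I * (x : ℂ))
        simpa using this
      exact h1.sub h2
    · exact (((hp2 r).mul_const (x ^ 2)).div_const 2).congr_deriv (by ring)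
    · simp [ei_zero]
    · have h1 : Complex.I * (x : ℂ) * ei (r * x) - Complex.I * x
          = Complex.I * (x : ℂ) * (ei (r * x) - 1) := by ring
      rw [h1, norm_mul, norm_mul, Complex.norm_I, one_mul, Complex.norm_real, Real.norm_eq_abs]
      calc |x| * ‖ei (r * x) - 1‖ ≤ |x| * |r * x| :=
            mul_le_mul_of_nonneg_left (norm_ei_sub_one_le _) (abs_nonneg _)
        _ = r * x ^ 2 := by
            rw [abs_mul, abs_of_nonneg hr, ← sq_abs x]; ring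
  simpa using key

/-! ## the ODE lemma -/

theorem ode_nonneg {φ φ' : ℝ → ℂ} {v a b c t : ℝ} (hv : 0 ≤ v) (ht : 0 ≤ t)
    (hd : ∀ r, HasDerivAt φ (φ' r) r)
    (h : ∀ r, 0 ≤ r → r ≤ t → ‖φ' r + ((r * v : ℝ) : ℂ) * φ r‖ ≤ a + b * r ^ 2 + c * r) :
    ‖φ t - (Real.exp (-(t ^ 2 * v / 2)) : ℂ) * φ 0‖ ≤ t * a + t ^ 3 / 3 * b + t ^ 2 / 2 * c := by
  set K : ℝ := Real.exp (t ^ 2 * v / 2) with hK
  have hKpos : 0 < K := Real.exp_pos _
  have key : ‖(Real.exp (t ^ 2 * v / 2) : ℂ) * φ t - φ 0‖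
      ≤ K * (a * t + b * (t ^ 3 / 3) + c * (t ^ 2 / 2)) := by
    refine norm_le_of_deriv
      (f := fun r : ℝ => ((Real.exp (r ^ 2 * v / 2) : ℝ) : ℂ) * φ r - φ 0)
      (f' := fun r : ℝ => ((Real.exp (r ^ 2 * v / 2) * (r * v) : ℝ) : ℂ) * φ r
        + ((Real.exp (r ^ 2 * v / 2) : ℝ) : ℂ) * φ' r)
      (B := fun r => K * (a * r + b * (r ^ 3 / 3) + c * (r ^ 2 / 2)))
      (B' := fun r => K * (a + b * r ^ 2 + c * r)) ht
      (fun r => ?_) (fun r => ?_) ?_ (fun r hr hrt => ?_)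
    · have h1 : HasDerivAt (fun r : ℝ => Real.exp (r ^ 2 * v / 2))
          (Real.exp (r ^ 2 * v / 2) * (r * v)) r := by
        exact ((((hp2 r).mul_const v).div_const 2)).exp.congr_deriv (by ring)
      exact (h1.ofReal_comp.mul (hd r)).sub_const _
    · have h1 := (hasDerivAt_id' r).const_mul a
      have h2 := ((hp3 r).div_const 3).const_mul b
      have h3 := ((hp2 r).div_const 2).const_mul c
      exact (((h1.add h2).add h3).const_mul K).congr_deriv (by ring)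
    · simp
    · have h1 : ((Real.exp (r ^ 2 * v / 2) * (r * v) : ℝ) : ℂ) * φ r
          + ((Real.exp (r ^ 2 * v / 2) : ℝ) : ℂ) * φ' r
          = ((Real.exp (r ^ 2 * v / 2) : ℝ) : ℂ) * (φ' r + ((r * v : ℝ) : ℂ) * φ r) := by
        push_cast; ring
      rw [h1, norm_mul, Complex.norm_real, Real.norm_eq_abs, abs_of_pos (Real.exp_pos _)]
      have h2 : Real.exp (r ^ 2 * v / 2) ≤ K := by
        rw [hK]; apply Real.exp_le_exp.2
        have : r ^ 2 ≤ t ^ 2 := pow_le_pow_left₀ hr hrt 2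
        nlinarith
      exact mul_le_mul h2 (h r hr hrt) (norm_nonneg _) hKpos.le
  have hinv : (Real.exp (-(t ^ 2 * v / 2)) : ℝ) * K = 1 := by
    rw [hK, ← Real.exp_add]; simp
  have e1 : φ t - ((Real.exp (-(t ^ 2 * v / 2)) : ℝ) : ℂ) * φ 0
      = ((Real.exp (-(t ^ 2 * v / 2)) : ℝ) : ℂ)
        * (((Real.exp (t ^ 2 * v / 2) : ℝ) : ℂ) * φ t - φ 0) := by
    rw [mul_sub, ← mul_assoc, ← Complex.ofReal_mul, ← hK, hinv]; simp
  rw [e1, norm_mul, Complex.norm_real, Real.norm_eq_abs, abs_of_pos (Real.exp_pos _)]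
  calc Real.exp (-(t ^ 2 * v / 2)) * ‖((Real.exp (t ^ 2 * v / 2) : ℝ) : ℂ) * φ t - φ 0‖
      ≤ Real.exp (-(t ^ 2 * v / 2)) * (K * (a * t + b * (t ^ 3 / 3) + c * (t ^ 2 / 2))) :=
        mul_le_mul_of_nonneg_left key (Real.exp_pos _).le
    _ = (Real.exp (-(t ^ 2 * v / 2)) * K) * (a * t + b * (t ^ 3 / 3) + c * (t ^ 2 / 2)) := by ring
    _ = t * a + t ^ 3 / 3 * b + t ^ 2 / 2 * c := by rw [hinv]; ring

/-- **ODE lemma**: `φ' = -r v φ + err`. -/
theorem ode {φ φ' : ℝ → ℂ} {v a b c t : ℝ} (hv : 0 ≤ v)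
    (hd : ∀ r, HasDerivAt φ (φ' r) r)
    (h : ∀ r, |r| ≤ |t| → ‖φ' r + ((r * v : ℝ) : ℂ) * φ r‖ ≤ a + b * r ^ 2 + c * |r|) :
    ‖φ t - (Real.exp (-(t ^ 2 * v / 2)) : ℂ) * φ 0‖
      ≤ |t| * a + |t| ^ 3 / 3 * b + t ^ 2 / 2 * c := by
  rcases le_total 0 t with ht | ht
  · rw [abs_of_nonneg ht] at h ⊢
    exact ode_nonneg hv ht hd (fun r hr hrt => by
      have := h r (by rwa [abs_of_nonneg hr]); rwa [abs_of_nonneg hr] at this)
  · have hd' : ∀ r, HasDerivAt (fun r => φ (-r)) (-φ' (-r)) r := fun r => by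
      have := (hd (-r)).scomp r (hasDerivAt_neg r)
      simpa [Function.comp_def] using this
    have := ode_nonneg (φ := fun r => φ (-r)) (φ' := fun r => -φ' (-r)) (v := v) (a := a) (b := b)
      (c := c) (t := -t) hv (by linarith) hd' (fun r hr hrt => by
        have h1 := h (-r) (by rw [abs_neg, abs_of_nonneg hr, abs_of_nonpos ht]; exact hrt)
        rw [abs_neg, abs_of_nonneg hr] at h1
        have h2 : -φ' (-r) + ((r * v : ℝ) : ℂ) * φ (-r)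
            = -(φ' (-r) + (((-r) * v : ℝ) : ℂ) * φ (-r)) := by push_cast; ring
        rw [h2, norm_neg]
        simpa using h1)
    rw [abs_of_nonpos ht]
    simpa using this

/-! ## the Stein lemma -/

variable {Ω ι : Type*} [MeasurableSpace Ω] {P : Measure Ω} [IsProbabilityMeasure P]

omit [IsProbabilityMeasure P] in
theorem aesm_ei {f : Ω → ℝ} (hf : AEStronglyMeasurable f P) :
    AEStronglyMeasurable (fun ω => ei (f ω)) P :=
  ei_continuous.comp_aestronglyMeasurable hf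

/-- derivative of the (twisted) characteristic function -/
theorem hasDerivAt_char {Z : Ω → ℂ} {S : Ω → ℝ} (hZm : AEStronglyMeasurable Z P)
    (hZ : ∀ᵐ ω ∂P, ‖Z ω‖ ≤ 1) (hS : Integrable S P) (r : ℝ) :
    HasDerivAt (fun r : ℝ => ∫ ω, Z ω * ei (r * S ω) ∂P)
      (∫ ω, Complex.I * (Z ω * (S ω : ℂ) * ei (r * S ω)) ∂P) r := by
  have hSm := hS.aestronglyMeasurable
  have hZi : Integrable Z P := Integrable.of_bound hZm 1 hZ
  refine (hasDerivAt_integral_of_dominated_loc_of_deriv_le (μ := P) (s := univ)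
    (F := fun (r : ℝ) ω => Z ω * ei (r * S ω))
    (F' := fun (r : ℝ) ω => Complex.I * (Z ω * (S ω : ℂ) * ei (r * S ω)))
    (bound := fun ω => |S ω|) Filter.univ_mem ?_ ?_ ?_ ?_ hS.abs ?_).2
  · exact Filter.Eventually.of_forall fun r => hZm.mul (aesm_ei (hSm.const_mul r))
  · refine Integrable.of_bound (hZm.mul (aesm_ei (hSm.const_mul r))) 1 ?_
    filter_upwards [hZ] with ω h
    rw [norm_mul, norm_ei, mul_one]; exact h
  · exact ((hZm.mul (Complex.continuous_ofReal.comp_aestronglyMeasurable hSm)).mul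
      (aesm_ei (hSm.const_mul r))).const_mul _
  · filter_upwards [hZ] with ω h r _
    rw [norm_mul, norm_mul, norm_mul, norm_ei, Complex.norm_I, Complex.norm_real,
      Real.norm_eq_abs, one_mul, mul_one]
    calc ‖Z ω‖ * |S ω| ≤ 1 * |S ω| := mul_le_mul_of_nonneg_right h (abs_nonneg _)
      _ = |S ω| := one_mul _
  · refine Filter.Eventually.of_forall fun ω r _ => ?_
    exact ((hasDerivAt_ei (S ω) r).const_mul (Z ω)).congr_deriv (by ring)

/-- pointwise second order expansion of one cell -/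
theorem cell_pointwise (Z : ℂ) (hZ : ‖Z‖ ≤ 1) (x y s r : ℝ) :
    ‖Z * (x : ℂ) * ei (r * s) - Z * (x : ℂ) * ei (r * (s - y))
      - Complex.I * (r : ℂ) * (Z * ((x * y : ℝ) : ℂ) * ei (r * s))‖
      ≤ 3 / 2 * r ^ 2 * (|x| * y ^ 2) := by
  have e0 : ei (r * s) = ei (r * (s - y)) * ei (r * y) := by
    rw [← ei_add]; congr 1; ring
  have e1 : Z * (x : ℂ) * ei (r * s) - Z * (x : ℂ) * ei (r * (s - y))
      - Complex.I * (r : ℂ) * (Z * ((x * y : ℝ) : ℂ) * ei (r * s))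
      = Z * (x : ℂ) * ei (r * (s - y)) * (ei (r * y) - 1 - Complex.I * ((r * y : ℝ) : ℂ))
        - Z * (x : ℂ) * ei (r * (s - y)) * (Complex.I * ((r * y : ℝ) : ℂ)) * (ei (r * y) - 1) := by
    rw [e0]; push_cast; ring
  have n0 : ‖Z * (x : ℂ) * ei (r * (s - y))‖ ≤ |x| := by
    rw [norm_mul, norm_mul, norm_ei, mul_one, Complex.norm_real, Real.norm_eq_abs]
    calc ‖Z‖ * |x| ≤ 1 * |x| := mul_le_mul_of_nonneg_right hZ (abs_nonneg _)
      _ = |x| := one_mul _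
  rw [e1]
  refine (norm_sub_le _ _).trans ?_
  have a1 : ‖Z * (x : ℂ) * ei (r * (s - y)) * (ei (r * y) - 1 - Complex.I * ((r * y : ℝ) : ℂ))‖
      ≤ |x| * ((r * y) ^ 2 / 2) := by
    rw [norm_mul]
    exact mul_le_mul n0 (norm_ei_sub_one_sub_le _) (norm_nonneg _) (abs_nonneg _)
  have a2 : ‖Z * (x : ℂ) * ei (r * (s - y)) * (Complex.I * ((r * y : ℝ) : ℂ)) * (ei (r * y) - 1)‖
      ≤ |x| * |r * y| * |r * y| := by
    rw [norm_mul, norm_mul, norm_mul Complex.I, Complex.norm_I, one_mul, Complex.norm_real,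
      Real.norm_eq_abs]
    exact mul_le_mul (mul_le_mul_of_nonneg_right n0 (abs_nonneg _)) (norm_ei_sub_one_le _)
      (norm_nonneg _) (by positivity)
  have a3 : |x| * |r * y| * |r * y| = |x| * (r * y) ^ 2 := by
    rw [mul_assoc, abs_mul_abs_self]; ring
  rw [a3] at a2
  calc _ ≤ |x| * ((r * y) ^ 2 / 2) + |x| * (r * y) ^ 2 := add_le_add a1 a2
    _ = 3 / 2 * r ^ 2 * (|x| * y ^ 2) := by ring

omit [IsProbabilityMeasure P] in
theorem integrable_mul_of {X Y : Ω → ℝ} (hX : Integrable X P) (hY : AEStronglyMeasurable Y P)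
    (h2 : Integrable (fun ω => |X ω| * Y ω ^ 2) P) : Integrable (fun ω => X ω * Y ω) P := by
  refine Integrable.mono' (hX.abs.add h2) (hX.aestronglyMeasurable.mul hY)
    (Filter.Eventually.of_forall fun ω => ?_)
  rw [Real.norm_eq_abs, abs_mul]
  simp only [Pi.add_apply]
  have h : |Y ω| ≤ 1 + Y ω ^ 2 := by
    rw [← sq_abs]; nlinarith [sq_nonneg (|Y ω| - 1), abs_nonneg (Y ω)]
  calc |X ω| * |Y ω| ≤ |X ω| * (1 + Y ω ^ 2) := mul_le_mul_of_nonneg_left h (abs_nonneg _)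
    _ = |X ω| + |X ω| * Y ω ^ 2 := by ring

omit [IsProbabilityMeasure P] in
theorem integrable_twist {Z : Ω → ℂ} {X S : Ω → ℝ} (hZm : AEStronglyMeasurable Z P)
    (hZ : ∀ᵐ ω ∂P, ‖Z ω‖ ≤ 1) (hX : Integrable X P) (hS : AEStronglyMeasurable S P) :
    Integrable (fun ω => Z ω * (X ω : ℂ) * ei (S ω)) P := by
  refine Integrable.mono' hX.abs
    ((hZm.mul (Complex.continuous_ofReal.comp_aestronglyMeasurable hX.aestronglyMeasurable)).mul
      (aesm_ei hS)) ?_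
  filter_upwards [hZ] with ω h
  rw [norm_mul, norm_mul, norm_ei, mul_one, Complex.norm_real, Real.norm_eq_abs]
  calc ‖Z ω‖ * |X ω| ≤ 1 * |X ω| := mul_le_mul_of_nonneg_right h (abs_nonneg _)
    _ = |X ω| := one_mul _

/-- **GA4, the Stein lemma.** -/
theorem stein {s : Finset ι} {X Y : ι → Ω → ℝ} {Z : Ω → ℂ} {v t : ℝ} {e1 e2 : ι → ℝ} {e3 : ℝ}
    (hZm : AEStronglyMeasurable Z P) (hZ : ∀ᵐ ω ∂P, ‖Z ω‖ ≤ 1)
    (hX : ∀ c ∈ s, Integrable (X c) P) (hY : ∀ c ∈ s, AEStronglyMeasurable (Y c) P)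
    (hXY : ∀ c ∈ s, Integrable (fun ω => |X c ω| * Y c ω ^ 2) P) (hv : 0 ≤ v)
    (h1 : ∀ c ∈ s, ∀ r : ℝ, |r| ≤ |t| →
      ‖∫ ω, Z ω * (X c ω : ℂ) * ei (r * (∑ c' ∈ s, X c' ω - Y c ω)) ∂P‖ ≤ e1 c)
    (h2 : ∀ c ∈ s, ∫ ω, |X c ω| * Y c ω ^ 2 ∂P ≤ e2 c)
    (h3 : ∫ ω, |∑ c ∈ s, X c ω * Y c ω - v| ∂P ≤ e3) :
    ‖(∫ ω, Z ω * ei (t * ∑ c ∈ s, X c ω) ∂P) - (Real.exp (-(t ^ 2 * v / 2)) : ℂ) * ∫ ω, Z ω ∂P‖
      ≤ |t| * ∑ c ∈ s, e1 c + |t| ^ 3 / 2 * ∑ c ∈ s, e2 c + t ^ 2 / 2 * e3 := by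
  set S : Ω → ℝ := fun ω => ∑ c ∈ s, X c ω with hSdef
  have hS : Integrable S P := integrable_finsetSum _ hX
  have hSm := hS.aestronglyMeasurable
  have hXYi : ∀ c ∈ s, Integrable (fun ω => X c ω * Y c ω) P := fun c hc =>
    integrable_mul_of (hX c hc) (hY c hc) (hXY c hc)
  have hQi : Integrable (fun ω => ∑ c ∈ s, X c ω * Y c ω) P := integrable_finsetSum _ hXYi
  have hd := fun r => hasDerivAt_char hZm hZ hS r
  have main := ode (φ := fun r : ℝ => ∫ ω, Z ω * ei (r * S ω) ∂P)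
    (φ' := fun r : ℝ => ∫ ω, Complex.I * (Z ω * (S ω : ℂ) * ei (r * S ω)) ∂P)
    (v := v) (a := ∑ c ∈ s, e1 c) (b := 3 / 2 * ∑ c ∈ s, e2 c) (c := e3) (t := t) hv hd ?_
  · have e0 : (fun ω => Z ω * ei (0 * S ω)) = Z := by
      funext ω; rw [zero_mul, ei_zero, mul_one]
    simp only [e0] at main
    refine main.trans (le_of_eq ?_)
    ring
  · intro r hr
    -- the cells
    have cell : ∀ c ∈ s, ‖(∫ ω, Z ω * (X c ω : ℂ) * ei (r * S ω) ∂P)
        - Complex.I * (r : ℂ) * ∫ ω, Z ω * ((X c ω * Y c ω : ℝ) : ℂ) * ei (r * S ω) ∂P‖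
        ≤ e1 c + 3 / 2 * r ^ 2 * e2 c := by
      intro c hc
      have i1 : Integrable (fun ω => Z ω * (X c ω : ℂ) * ei (r * S ω)) P :=
        integrable_twist hZm hZ (hX c hc) (hSm.const_mul r)
      have i2 : Integrable (fun ω => Z ω * (X c ω : ℂ) * ei (r * (S ω - Y c ω))) P :=
        integrable_twist hZm hZ (hX c hc) ((hSm.sub (hY c hc)).const_mul r)
      have i3 : Integrable (fun ω => Z ω * ((X c ω * Y c ω : ℝ) : ℂ) * ei (r * S ω)) P :=
        integrable_twist (X := fun ω => X c ω * Y c ω) hZm hZ (hXYi c hc) (hSm.const_mul r)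
      have e : (∫ ω, Z ω * (X c ω : ℂ) * ei (r * S ω) ∂P)
          - Complex.I * (r : ℂ) * ∫ ω, Z ω * ((X c ω * Y c ω : ℝ) : ℂ) * ei (r * S ω) ∂P
          = (∫ ω, Z ω * (X c ω : ℂ) * ei (r * (S ω - Y c ω)) ∂P)
            + ∫ ω, (Z ω * (X c ω : ℂ) * ei (r * S ω) - Z ω * (X c ω : ℂ) * ei (r * (S ω - Y c ω))
              - Complex.I * (r : ℂ) * (Z ω * ((X c ω * Y c ω : ℝ) : ℂ) * ei (r * S ω))) ∂P := by
        have j1 := integral_sub (i1.sub i2) (i3.const_mul (Complex.I * (r : ℂ)))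
        have j2 := integral_sub i1 i2
        have j3 := integral_const_mul (μ := P) (Complex.I * (r : ℂ))
          (fun ω => Z ω * ((X c ω * Y c ω : ℝ) : ℂ) * ei (r * S ω))
        simp only [Pi.sub_apply] at j1
        rw [j1, j2, j3]
        ring
      rw [e]
      refine (norm_add_le _ _).trans (add_le_add (h1 c hc r hr) ?_)
      calc _ ≤ ∫ ω, 3 / 2 * r ^ 2 * (|X c ω| * Y c ω ^ 2) ∂P := by
            refine norm_integral_le_of_norm_le ((hXY c hc).const_mul _) ?_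
            filter_upwards [hZ] with ω h
            exact cell_pointwise (Z ω) h (X c ω) (Y c ω) (S ω) r
        _ = 3 / 2 * r ^ 2 * ∫ ω, |X c ω| * Y c ω ^ 2 ∂P := integral_const_mul _ _
        _ ≤ 3 / 2 * r ^ 2 * e2 c := mul_le_mul_of_nonneg_left (h2 c hc) (by positivity)
    -- sum over the cells
    have hZS : Integrable (fun ω => Z ω * ei (r * S ω)) P := by
      refine Integrable.of_bound (hZm.mul (aesm_ei (hSm.const_mul r))) 1 ?_
      filter_upwards [hZ] with ω h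
      rw [norm_mul, norm_ei, mul_one]; exact h
    have sum1 : (∫ ω, Complex.I * (Z ω * (S ω : ℂ) * ei (r * S ω)) ∂P)
        = Complex.I * ∑ c ∈ s, ∫ ω, Z ω * (X c ω : ℂ) * ei (r * S ω) ∂P := by
      rw [integral_const_mul, ← integral_finsetSum _ (fun c hc =>
        integrable_twist hZm hZ (hX c hc) (hSm.const_mul r))]
      congr 1
      refine integral_congr_ae (Filter.Eventually.of_forall fun ω => ?_)
      simp only [hSdef]
      push_cast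
      rw [Finset.mul_sum, Finset.sum_mul]
    have sum2 : ∑ c ∈ s, ∫ ω, Z ω * ((X c ω * Y c ω : ℝ) : ℂ) * ei (r * S ω) ∂P
        = (v : ℂ) * (∫ ω, Z ω * ei (r * S ω) ∂P)
          + ∫ ω, Z ω * ((∑ c ∈ s, X c ω * Y c ω - v : ℝ) : ℂ) * ei (r * S ω) ∂P := by
      rw [← integral_finsetSum _ (fun c hc =>
        integrable_twist (X := fun ω => X c ω * Y c ω) hZm hZ (hXYi c hc) (hSm.const_mul r)),
        ← integral_const_mul, ← integral_add (hZS.const_mul _)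
          (integrable_twist (X := fun ω => ∑ c ∈ s, X c ω * Y c ω - v) hZm hZ
            (hQi.sub (integrable_const v)) (hSm.const_mul r))]
      refine integral_congr_ae (Filter.Eventually.of_forall fun ω => ?_)
      simp only
      push_cast
      rw [← Finset.sum_mul, ← Finset.mul_sum]
      ring
    have hR : ‖∫ ω, Z ω * ((∑ c ∈ s, X c ω * Y c ω - v : ℝ) : ℂ) * ei (r * S ω) ∂P‖ ≤ e3 := by
      refine le_trans ?_ h3
      refine norm_integral_le_of_norm_le (hQi.sub (integrable_const v)).abs ?_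
      filter_upwards [hZ] with ω h
      rw [norm_mul, norm_mul, norm_ei, mul_one, Complex.norm_real, Real.norm_eq_abs]
      calc ‖Z ω‖ * |∑ c ∈ s, X c ω * Y c ω - v| ≤ 1 * |∑ c ∈ s, X c ω * Y c ω - v| :=
            mul_le_mul_of_nonneg_right h (abs_nonneg _)
        _ = _ := one_mul _
    have final : (∫ ω, Complex.I * (Z ω * (S ω : ℂ) * ei (r * S ω)) ∂P)
        + ((r * v : ℝ) : ℂ) * ∫ ω, Z ω * ei (r * S ω) ∂P
        = Complex.I * ∑ c ∈ s, ((∫ ω, Z ω * (X c ω : ℂ) * ei (r * S ω) ∂P)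
          - Complex.I * (r : ℂ) * ∫ ω, Z ω * ((X c ω * Y c ω : ℝ) : ℂ) * ei (r * S ω) ∂P)
          - (r : ℂ) * ∫ ω, Z ω * ((∑ c ∈ s, X c ω * Y c ω - v : ℝ) : ℂ) * ei (r * S ω) ∂P := by
      rw [sum1, Finset.sum_sub_distrib, ← Finset.mul_sum, sum2]
      push_cast
      linear_combination (r : ℂ) * (v * (∫ ω, Z ω * ei (r * S ω) ∂P)
        + ∫ ω, Z ω * ((∑ c ∈ s, (X c ω : ℂ) * Y c ω - v)) * ei (r * S ω) ∂P) * Complex.I_sq
    simp only [final]
    refine (norm_sub_le _ _).trans ?_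
    have b1 : ‖Complex.I * ∑ c ∈ s, ((∫ ω, Z ω * (X c ω : ℂ) * ei (r * S ω) ∂P)
          - Complex.I * (r : ℂ) * ∫ ω, Z ω * ((X c ω * Y c ω : ℝ) : ℂ) * ei (r * S ω) ∂P)‖
        ≤ ∑ c ∈ s, e1 c + 3 / 2 * (∑ c ∈ s, e2 c) * r ^ 2 := by
      rw [norm_mul, Complex.norm_I, one_mul]
      refine (norm_sum_le _ _).trans ((Finset.sum_le_sum cell).trans (le_of_eq ?_))
      rw [Finset.sum_add_distrib, ← Finset.mul_sum]; ring
    have b2 : ‖(r : ℂ) * ∫ ω, Z ω * ((∑ c ∈ s, X c ω * Y c ω - v : ℝ) : ℂ) * ei (r * S ω) ∂P‖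
        ≤ e3 * |r| := by
      rw [norm_mul, Complex.norm_real, Real.norm_eq_abs, mul_comm]
      exact mul_le_mul_of_nonneg_right hR (abs_nonneg _)
    exact add_le_add b1 b2

/-- the same with `S` only almost everywhere equal to the sum of the cells, in `cexp` form -/
theorem stein' {s : Finset ι} {X Y : ι → Ω → ℝ} {S : Ω → ℝ} {Z : Ω → ℂ} {v t : ℝ}
    {e1 e2 : ι → ℝ} {e3 : ℝ}
    (hZm : AEStronglyMeasurable Z P) (hZ : ∀ᵐ ω ∂P, ‖Z ω‖ ≤ 1)
    (hSX : ∀ᵐ ω ∂P, S ω = ∑ c ∈ s, X c ω)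
    (hX : ∀ c ∈ s, Integrable (X c) P) (hY : ∀ c ∈ s, AEStronglyMeasurable (Y c) P)
    (hXY : ∀ c ∈ s, Integrable (fun ω => |X c ω| * Y c ω ^ 2) P) (hv : 0 ≤ v)
    (h1 : ∀ c ∈ s, ∀ r : ℝ, |r| ≤ |t| →
      ‖∫ ω, Z ω * (X c ω : ℂ) * Complex.exp (Complex.I * ((r * (S ω - Y c ω) : ℝ) : ℂ)) ∂P‖ ≤ e1 c)
    (h2 : ∀ c ∈ s, ∫ ω, |X c ω| * Y c ω ^ 2 ∂P ≤ e2 c)
    (h3 : ∫ ω, |∑ c ∈ s, X c ω * Y c ω - v| ∂P ≤ e3) :
    ‖(∫ ω, Z ω * Complex.exp (Complex.I * ((t * S ω : ℝ) : ℂ)) ∂P)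
        - (Real.exp (-(t ^ 2 * v / 2)) : ℂ) * ∫ ω, Z ω ∂P‖
      ≤ |t| * ∑ c ∈ s, e1 c + |t| ^ 3 / 2 * ∑ c ∈ s, e2 c + t ^ 2 / 2 * e3 := by
  have e : (∫ ω, Z ω * Complex.exp (Complex.I * ((t * S ω : ℝ) : ℂ)) ∂P)
      = ∫ ω, Z ω * ei (t * ∑ c ∈ s, X c ω) ∂P := by
    refine integral_congr_ae ?_
    filter_upwards [hSX] with ω h
    rw [h]; rfl
  rw [e]
  refine stein hZm hZ hX hY hXY hv (fun c hc r hr => ?_) h2 h3
  refine le_trans (le_of_eq ?_) (h1 c hc r hr)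
  congr 1
  refine integral_congr_ae ?_
  filter_upwards [hSX] with ω h
  rw [← h]; rfl

end

end Crest.Agent.R144.Ga4126
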