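import Mathlib

/-!
# R144, leaf GA5 of doc 1596 (helper885), part a: cells

Continuum side of the Stein decomposition: for a test function `φ` on the plane and `0 < η ≤ 1` a finite
family of cells `c` with centres `ctr η c`, pieces `f c` (`∑ f c = φ`) and local remainders `g c`
(`φ - g c` is affine on a neighbourhood of the support of `f c`), with sharp bounds.
-/

set_option autoImplicit false

open MeasureTheory Metric Set Filter Topology Laplacian InnerProductSpace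
open scoped ContDiff

noncomputable section

namespace Crest.Agent.R144.Ga5885

/-- test function on the plane -/
def Tst (φ : ℂ → ℝ) : Prop := ContDiff ℝ ∞ φ ∧ HasCompactSupport φ

/-! ### Laplacian in two directions -/

theorem lap_dir {F : ℂ → ℝ} {z : ℂ} (hF : ContDiffAt ℝ 2 F z) :
    (Δ F) z = fderiv ℝ (fun w => fderiv ℝ F w 1) z 1 +
      fderiv ℝ (fun w => fderiv ℝ F w Complex.I) z Complex.I := by
  have h1 : DifferentiableAt ℝ (fderiv ℝ F) z :=
    (hF.fderiv_right (m := 1) (by norm_num)).differentiableAt (by norm_num)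
  have h2 : ∀ e : ℂ, fderiv ℝ (fun w => fderiv ℝ F w e) z = (fderiv ℝ (fderiv ℝ F) z).flip e := by
    intro e
    ext v
    have := (h1.hasFDerivAt.clm_apply (hasFDerivAt_const e z)).fderiv
    rw [this]
    simp
  rw [laplacian_eq_iteratedFDeriv_complexPlane]
  simp only [iteratedFDeriv_two_apply, h2]
  simp

/-- bounds of a function and of its first and second directional derivatives -/
def Bd (F : ℂ → ℝ) (S : Set ℂ) (A0 A1 A2 : ℝ) : Prop :=
  ∀ z ∈ S, |F z| ≤ A0 ∧ (∀ e : ℂ, ‖e‖ ≤ 1 → |fderiv ℝ F z e| ≤ A1) ∧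
    ∀ e : ℂ, ‖e‖ ≤ 1 → |fderiv ℝ (fun w => fderiv ℝ F w e) z e| ≤ A2

theorem Bd.lap_le {F : ℂ → ℝ} {S : Set ℂ} {A0 A1 A2 : ℝ} (h : Bd F S A0 A1 A2)
    (hF : ContDiff ℝ ∞ F) {z : ℂ} (hz : z ∈ S) : |(Δ F) z| ≤ 2 * A2 := by
  rw [lap_dir (hF.of_le (by norm_cast)).contDiffAt]
  obtain ⟨-, -, h2⟩ := h z hz
  have a := h2 1 (by simp)
  have b := h2 Complex.I (by simp)
  exact (abs_add_le _ _).trans (by linarith)

theorem contDiff_dir {F : ℂ → ℝ} (hF : ContDiff ℝ ∞ F) (e : ℂ) :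
    ContDiff ℝ ∞ (fun w => fderiv ℝ F w e) :=
  (hF.fderiv_right (m := ∞) (by simp)).clm_apply contDiff_const

theorem Bd.mul {u v : ℂ → ℝ} {S : Set ℂ} {a0 a1 a2 b0 b1 b2 : ℝ} (hu : ContDiff ℝ ∞ u)
    (hv : ContDiff ℝ ∞ v) (ha : Bd u S a0 a1 a2) (hb : Bd v S b0 b1 b2) :
    Bd (fun z => u z * v z) S (a0 * b0) (a0 * b1 + a1 * b0) (a0 * b2 + 2 * (a1 * b1) + a2 * b0) := by
  have hud : Differentiable ℝ u := hu.differentiable (by simp)
  have hvd : Differentiable ℝ v := hv.differentiable (by simp)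
  have key : ∀ (e w : ℂ), fderiv ℝ (fun z => u z * v z) w e =
      u w * fderiv ℝ v w e + v w * fderiv ℝ u w e := by
    intro e w
    rw [fderiv_fun_mul (hud w) (hvd w)]
    simp
  intro z hz
  obtain ⟨a, a', a''⟩ := ha z hz
  obtain ⟨b, b', b''⟩ := hb z hz
  have ha0 : 0 ≤ a0 := (abs_nonneg _).trans a
  have hb0 : 0 ≤ b0 := (abs_nonneg _).trans b
  refine ⟨?_, fun e he => ?_, fun e he => ?_⟩
  · rw [abs_mul]
    exact mul_le_mul a b (abs_nonneg _) ha0
  · rw [key]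
    refine (abs_add_le _ _).trans (add_le_add ?_ ?_)
    · rw [abs_mul]
      exact mul_le_mul a (b' e he) (abs_nonneg _) ha0
    · rw [abs_mul, mul_comm]
      exact mul_le_mul (a' e he) b (abs_nonneg _) ((abs_nonneg _).trans (a' e he))
  · have hue := (contDiff_dir hu e).differentiable (by simp)
    have hve := (contDiff_dir hv e).differentiable (by simp)
    have h2 : fderiv ℝ (fun w => fderiv ℝ (fun z => u z * v z) w e) z e =
        u z * fderiv ℝ (fun w => fderiv ℝ v w e) z e + 2 * (fderiv ℝ u z e * fderiv ℝ v z e) +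
          v z * fderiv ℝ (fun w => fderiv ℝ u w e) z e := by
      have e1 : (fun w => fderiv ℝ (fun z => u z * v z) w e) =
          fun w => u w * fderiv ℝ v w e + v w * fderiv ℝ u w e := funext fun w => key e w
      have e2 := (((hud z).hasFDerivAt.mul (hve z).hasFDerivAt).add
        ((hvd z).hasFDerivAt.mul (hue z).hasFDerivAt)).fderiv
      have e3 : fderiv ℝ (fun w => u w * fderiv ℝ v w e + v w * fderiv ℝ u w e) z = _ := e2
      rw [e1, e3]
      simp
      ring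
    rw [h2]
    refine (abs_add_le _ _).trans (add_le_add ((abs_add_le _ _).trans (add_le_add ?_ ?_)) ?_)
    · rw [abs_mul]
      exact mul_le_mul a (b'' e he) (abs_nonneg _) ha0
    · rw [abs_mul, abs_mul, abs_of_pos (by norm_num : (0 : ℝ) < 2)]
      exact mul_le_mul_of_nonneg_left (mul_le_mul (a' e he) (b' e he) (abs_nonneg _)
        ((abs_nonneg _).trans (a' e he))) (by norm_num)
    · rw [abs_mul, mul_comm]
      exact mul_le_mul (a'' e he) b (abs_nonneg _) ((abs_nonneg _).trans (a'' e he))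

/-- rescaled function -/
def scl (B : ℂ → ℝ) (η : ℝ) (c : ℂ) (z : ℂ) : ℝ := B ((η⁻¹ : ℝ) • (z - c))

theorem contDiff_scl {B : ℂ → ℝ} (hB : ContDiff ℝ ∞ B) (η : ℝ) (c : ℂ) :
    ContDiff ℝ ∞ (scl B η c) :=
  hB.comp ((contDiff_id.sub contDiff_const).const_smul _)

theorem fderiv_scl {B : ℂ → ℝ} (hB : Differentiable ℝ B) (η : ℝ) (c z e : ℂ) :
    fderiv ℝ (scl B η c) z e = η⁻¹ * fderiv ℝ B ((η⁻¹ : ℝ) • (z - c)) e := by
  have h0 := ((hasFDerivAt_id (𝕜 := ℝ) z).sub_const c).const_smul (η⁻¹ : ℝ)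
  have h1 : HasFDerivAt (fun z : ℂ => (η⁻¹ : ℝ) • (z - c)) ((η⁻¹ : ℝ) • ContinuousLinearMap.id ℝ ℂ) z :=
    h0
  have h2 : HasFDerivAt (scl B η c) _ z := (hB _).hasFDerivAt.comp z h1
  rw [h2.fderiv]
  simp

theorem Bd.scale {B : ℂ → ℝ} (hB : ContDiff ℝ ∞ B) {b0 b1 b2 : ℝ} (h : Bd B univ b0 b1 b2)
    {η : ℝ} (hη : 0 < η) (c : ℂ) : Bd (scl B η c) univ b0 (b1 / η) (b2 / η ^ 2) := by
  have hd : Differentiable ℝ B := hB.differentiable (by simp)
  intro z _
  obtain ⟨h0, h1, h2⟩ := h ((η⁻¹ : ℝ) • (z - c)) (mem_univ _)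
  refine ⟨h0, fun e he => ?_, fun e he => ?_⟩
  · rw [fderiv_scl hd, abs_mul, abs_of_pos (inv_pos.2 hη), div_eq_inv_mul]
    exact mul_le_mul_of_nonneg_left (h1 e he) (inv_pos.2 hη).le
  · have e1 : (fun w => fderiv ℝ (scl B η c) w e) =
        fun w => η⁻¹ * scl (fun w => fderiv ℝ B w e) η c w := by
      funext w
      rw [fderiv_scl hd]
      rfl
    have hde : Differentiable ℝ (fun w => fderiv ℝ B w e) :=
      (contDiff_dir hB e).differentiable (by simp)
    have hs : DifferentiableAt ℝ (scl (fun w => fderiv ℝ B w e) η c) z :=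
      ((contDiff_scl (contDiff_dir hB e) η c).differentiable (by simp)) z
    rw [e1, fderiv_const_mul hs]
    have e2 : (η⁻¹ • fderiv ℝ (scl (fun w => fderiv ℝ B w e) η c) z) e =
        η⁻¹ * (η⁻¹ * fderiv ℝ (fun w => fderiv ℝ B w e) ((η⁻¹ : ℝ) • (z - c)) e) := by
      rw [_root_.smul_apply, fderiv_scl hde, smul_eq_mul]
    rw [e2, ← mul_assoc, abs_mul, abs_of_pos (mul_pos (inv_pos.2 hη) (inv_pos.2 hη))]
    have e3 : b2 / η ^ 2 = η⁻¹ * η⁻¹ * b2 := by
      field_simp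
    rw [e3]
    exact mul_le_mul_of_nonneg_left (h2 e he) (mul_pos (inv_pos.2 hη) (inv_pos.2 hη)).le

theorem bound_cs {f : ℂ → ℝ} (h1 : Continuous f)
    (h2 : HasCompactSupport f) : ∃ A : ℝ, 0 ≤ A ∧ ∀ z, |f z| ≤ A := by
  obtain ⟨A, hA⟩ := h1.bounded_above_of_compact_support h2
  exact ⟨A, (norm_nonneg _).trans (hA 0), hA⟩

theorem bound_fd {f : ℂ → ℝ} (h1 : ContDiff ℝ ∞ f)
    (h2 : HasCompactSupport f) : ∃ A : ℝ, 0 ≤ A ∧ ∀ z, ‖fderiv ℝ f z‖ ≤ A := by
  obtain ⟨A, hA⟩ := (h1.continuous_fderiv (by simp)).bounded_above_of_compact_support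
    (h2.fderiv (𝕜 := ℝ))
  exact ⟨A, (norm_nonneg _).trans (hA 0), hA⟩

theorem dir_split {φ : ℂ → ℝ} (w e : ℂ) :
    fderiv ℝ φ w e = e.re * fderiv ℝ φ w 1 + e.im * fderiv ℝ φ w Complex.I := by
  have h : e = (e.re : ℝ) • (1 : ℂ) + (e.im : ℝ) • Complex.I := by
    apply Complex.ext <;> simp
  conv_lhs => rw [h]
  rw [map_add, map_smul, map_smul, smul_eq_mul, smul_eq_mul]

theorem exists_bd {φ : ℂ → ℝ} (hφ : Tst φ) : ∃ C : ℝ, 0 ≤ C ∧ Bd φ univ C C C ∧
    ∀ e : ℂ, ‖e‖ ≤ 1 → ∀ z, ‖fderiv ℝ (fun w => fderiv ℝ φ w e) z‖ ≤ C := by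
  obtain ⟨h1, h2⟩ := hφ
  obtain ⟨A, hA0, hA⟩ := bound_cs h1.continuous h2
  obtain ⟨B, hB0, hB⟩ := bound_fd h1 h2
  obtain ⟨C1, hC10, hC1⟩ := bound_fd (contDiff_dir h1 1) (h2.fderiv_apply (𝕜 := ℝ) 1)
  obtain ⟨C2, hC20, hC2⟩ := bound_fd (contDiff_dir h1 Complex.I) (h2.fderiv_apply (𝕜 := ℝ) Complex.I)
  have key : ∀ e : ℂ, ‖e‖ ≤ 1 → ∀ z, ‖fderiv ℝ (fun w => fderiv ℝ φ w e) z‖ ≤ C1 + C2 := by
    intro e he z
    have d1 : DifferentiableAt ℝ (fun w => fderiv ℝ φ w 1) z :=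
      ((contDiff_dir h1 1).differentiable (by simp)) z
    have d2 : DifferentiableAt ℝ (fun w => fderiv ℝ φ w Complex.I) z :=
      ((contDiff_dir h1 Complex.I).differentiable (by simp)) z
    have e1 : (fun w => fderiv ℝ φ w e) =
        fun w => e.re * fderiv ℝ φ w 1 + e.im * fderiv ℝ φ w Complex.I :=
      funext fun w => dir_split w e
    have e2 : fderiv ℝ (fun w => e.re * fderiv ℝ φ w 1 + e.im * fderiv ℝ φ w Complex.I) z =
        e.re • fderiv ℝ (fun w => fderiv ℝ φ w 1) z +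
          e.im • fderiv ℝ (fun w => fderiv ℝ φ w Complex.I) z :=
      ((d1.hasFDerivAt.const_mul e.re).add (d2.hasFDerivAt.const_mul e.im)).fderiv
    rw [e1, e2]
    refine (norm_add_le _ _).trans (add_le_add ?_ ?_)
    · rw [norm_smul, Real.norm_eq_abs]
      calc |e.re| * _ ≤ 1 * C1 := mul_le_mul ((Complex.abs_re_le_norm e).trans he) (hC1 z)
            (norm_nonneg _) (by norm_num)
        _ = C1 := one_mul _
    · rw [norm_smul, Real.norm_eq_abs]
      calc |e.im| * _ ≤ 1 * C2 := mul_le_mul ((Complex.abs_im_le_norm e).trans he) (hC2 z)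
            (norm_nonneg _) (by norm_num)
        _ = C2 := one_mul _
  refine ⟨A + B + (C1 + C2), by positivity, fun z _ => ⟨?_, fun e he => ?_, fun e he => ?_⟩,
    fun e he z => ?_⟩
  · have := hA z
    linarith
  · have h3 := (fderiv ℝ φ z).le_opNorm e
    rw [Real.norm_eq_abs] at h3
    have h4 := hB z
    have : ‖fderiv ℝ φ z‖ * ‖e‖ ≤ B * 1 := mul_le_mul h4 he (norm_nonneg _) hB0
    linarith
  · have h3 := (fderiv ℝ (fun w => fderiv ℝ φ w e) z).le_opNorm e
    rw [Real.norm_eq_abs] at h3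
    have h4 := key e he z
    have : ‖fderiv ℝ (fun w => fderiv ℝ φ w e) z‖ * ‖e‖ ≤ (C1 + C2) * 1 :=
      mul_le_mul h4 he (norm_nonneg _) (by positivity)
    linarith
  · have := key e he z
    linarith

/-- Taylor remainder of order one at `c` -/
def rem (φ : ℂ → ℝ) (c : ℂ) (z : ℂ) : ℝ := φ z - (φ c + fderiv ℝ φ c (z - c))

theorem contDiff_rem {φ : ℂ → ℝ} (hφ : ContDiff ℝ ∞ φ) (c : ℂ) : ContDiff ℝ ∞ (rem φ c) := by
  unfold rem
  exact hφ.sub (contDiff_const.add ((fderiv ℝ φ c).contDiff.comp (contDiff_id.sub contDiff_const)))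

theorem fderiv_rem {φ : ℂ → ℝ} (hφ : ContDiff ℝ ∞ φ) (c z : ℂ) :
    fderiv ℝ (rem φ c) z = fderiv ℝ φ z - fderiv ℝ φ c := by
  have h1 : HasFDerivAt φ (fderiv ℝ φ z) z := ((hφ.differentiable (by simp)) z).hasFDerivAt
  have h2 : HasFDerivAt (fun z : ℂ => φ c + fderiv ℝ φ c (z - c)) (fderiv ℝ φ c) z := by
    have := ((fderiv ℝ φ c).hasFDerivAt (x := z - c)).comp z ((hasFDerivAt_id z).sub_const c)
    exact this.const_add _
  exact (h1.sub h2).fderiv

theorem Bd.rem {φ : ℂ → ℝ} (hφ : ContDiff ℝ ∞ φ) {C : ℝ} (hC : 0 ≤ C) (hb : Bd φ univ C C C)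
    (h2 : ∀ e : ℂ, ‖e‖ ≤ 1 → ∀ z, ‖fderiv ℝ (fun w => fderiv ℝ φ w e) z‖ ≤ C) (c : ℂ) {r : ℝ}
    (hr : 0 ≤ r) : Bd (rem φ c) (closedBall c r) (C * r ^ 2) (C * r) C := by
  have lip : ∀ e : ℂ, ‖e‖ ≤ 1 → ∀ z, |fderiv ℝ φ z e - fderiv ℝ φ c e| ≤ C * ‖z - c‖ := by
    intro e he z
    have := Convex.norm_image_sub_le_of_norm_fderiv_le (𝕜 := ℝ) (s := univ)
      (f := fun w => fderiv ℝ φ w e)
      (fun w _ => ((contDiff_dir hφ e).differentiable (by simp)) w) (fun w _ => h2 e he w) convex_univ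
      (mem_univ c) (mem_univ z)
    rwa [Real.norm_eq_abs] at this
  have lip2 : ∀ z, ‖fderiv ℝ φ z - fderiv ℝ φ c‖ ≤ C * ‖z - c‖ := by
    intro z
    refine ContinuousLinearMap.opNorm_le_bound _ (by positivity) fun e => ?_
    rcases eq_or_ne e 0 with rfl | he
    · simp
    have hn : 0 < ‖e‖ := norm_pos_iff.2 he
    have h3 := lip ((‖e‖⁻¹ : ℝ) • e) (by rw [norm_smul, norm_inv, norm_norm, inv_mul_cancel₀ hn.ne'])
      z
    rw [map_smul, map_smul, ← smul_sub, smul_eq_mul, abs_mul, abs_inv, abs_norm,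
      inv_mul_le_iff₀ hn] at h3
    rw [_root_.sub_apply, Real.norm_eq_abs]
    linarith
  intro z hz
  have hzr : ‖z - c‖ ≤ r := by
    have := mem_closedBall.1 hz
    rwa [dist_eq_norm] at this
  refine ⟨?_, fun e he => ?_, fun e he => ?_⟩
  · have h3 : ‖Ga5885.rem φ c z - Ga5885.rem φ c c‖ ≤ (C * r) * ‖z - c‖ := by
      refine Convex.norm_image_sub_le_of_norm_fderiv_le (𝕜 := ℝ) (s := closedBall c r)
        (fun w _ => ((contDiff_rem hφ c).differentiable (by simp)) w) (fun w hw => ?_)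
        (convex_closedBall c r) (mem_closedBall_self hr) hz
      rw [fderiv_rem hφ]
      have hw' : ‖w - c‖ ≤ r := by
        have := mem_closedBall.1 hw
        rwa [dist_eq_norm] at this
      exact (lip2 w).trans (mul_le_mul_of_nonneg_left hw' hC)
    have h4 : Ga5885.rem φ c c = 0 := by simp [Ga5885.rem]
    rw [h4, sub_zero, Real.norm_eq_abs] at h3
    refine h3.trans ?_
    have : C * r * ‖z - c‖ ≤ C * r * r := mul_le_mul_of_nonneg_left hzr (by positivity)
    linarith [this, (by ring : C * r * r = C * r ^ 2)]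
  · rw [fderiv_rem hφ, _root_.sub_apply]
    exact (lip e he z).trans (mul_le_mul_of_nonneg_left hzr hC)
  · have e1 : (fun w => fderiv ℝ (Ga5885.rem φ c) w e) = fun w => fderiv ℝ φ w e - fderiv ℝ φ c e := by
      funext w
      rw [fderiv_rem hφ]
      rfl
    rw [e1, fderiv_sub_const]
    exact ((hb z (mem_univ _)).2.2) e he

/-! ### one-dimensional cut-offs -/

/-- unit of the partition of unity on the line -/
def b1 (x : ℝ) : ℝ := Real.smoothTransition (x + 1) - Real.smoothTransition x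

/-- cut-off equal to one on `[-3, 3]`, zero off `[-4, 4]` -/
def w1 (x : ℝ) : ℝ := Real.smoothTransition (x + 4) * Real.smoothTransition (4 - x)

theorem b1_eq_zero {x : ℝ} (hx : 1 ≤ |x|) : b1 x = 0 := by
  unfold b1
  rcases le_abs.1 hx with h | h
  · rw [Real.smoothTransition.one_of_one_le h, Real.smoothTransition.one_of_one_le (by linarith),
      sub_self]
  · rw [Real.smoothTransition.zero_of_nonpos (by linarith),
      Real.smoothTransition.zero_of_nonpos (by linarith), sub_self]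

theorem w1_eq_zero {x : ℝ} (hx : 4 ≤ |x|) : w1 x = 0 := by
  unfold w1
  rcases le_abs.1 hx with h | h
  · rw [Real.smoothTransition.zero_of_nonpos (x := 4 - x) (by linarith), mul_zero]
  · rw [Real.smoothTransition.zero_of_nonpos (x := x + 4) (by linarith), zero_mul]

theorem w1_eq_one {x : ℝ} (hx : |x| ≤ 3) : w1 x = 1 := by
  unfold w1
  obtain ⟨h1, h2⟩ := abs_le.1 hx
  rw [Real.smoothTransition.one_of_one_le (x := x + 4) (by linarith),
    Real.smoothTransition.one_of_one_le (x := 4 - x) (by linarith), mul_one]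

theorem contDiff_b1 : ContDiff ℝ ∞ b1 := by
  unfold b1
  exact (Real.smoothTransition.contDiff.comp (contDiff_id.add contDiff_const)).sub
    Real.smoothTransition.contDiff

theorem contDiff_w1 : ContDiff ℝ ∞ w1 := by
  unfold w1
  exact (Real.smoothTransition.contDiff.comp (contDiff_id.add contDiff_const)).mul
    (Real.smoothTransition.contDiff.comp (contDiff_const.sub contDiff_id))

theorem sum_b1 (N : ℕ) (x : ℝ) : ∑ k ∈ Finset.Icc (-(N : ℤ)) N, b1 (x - k) =
    Real.smoothTransition (x + N + 1) - Real.smoothTransition (x - N) := by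
  induction N with
  | zero => simp [b1]
  | succ N ih =>
    have h : Finset.Icc (-((N + 1 : ℕ) : ℤ)) ((N + 1 : ℕ) : ℤ) =
        insert (-((N + 1 : ℕ) : ℤ)) (insert ((N + 1 : ℕ) : ℤ) (Finset.Icc (-(N : ℤ)) N)) := by
      ext k
      simp only [Finset.mem_Icc, Finset.mem_insert]
      push_cast
      omega
    rw [h, Finset.sum_insert (by simp; omega), Finset.sum_insert (by simp), ih]
    unfold b1
    push_cast
    rw [show x - -((N : ℝ) + 1) + 1 = x + (N + 1) + 1 by ring,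
      show x - -((N : ℝ) + 1) = x + N + 1 by ring, show x - ((N : ℝ) + 1) + 1 = x - N by ring]
    ring

/-- the plane unit -/
def BB (z : ℂ) : ℝ := b1 z.re * b1 z.im

/-- the plane cut-off -/
def WW (z : ℂ) : ℝ := w1 z.re * w1 z.im

theorem contDiff_BB : ContDiff ℝ ∞ BB :=
  (contDiff_b1.comp Complex.reCLM.contDiff).mul (contDiff_b1.comp Complex.imCLM.contDiff)

theorem contDiff_WW : ContDiff ℝ ∞ WW :=
  (contDiff_w1.comp Complex.reCLM.contDiff).mul (contDiff_w1.comp Complex.imCLM.contDiff)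

theorem norm_le_of {z : ℂ} {a : ℝ} (h1 : |z.re| ≤ a) (h2 : |z.im| ≤ a) : ‖z‖ ≤ 3 / 2 * a := by
  have ha : 0 ≤ a := (abs_nonneg _).trans h1
  rw [← abs_of_nonneg (by positivity : (0 : ℝ) ≤ 3 / 2 * a), ← abs_norm]
  apply sq_le_sq.1
  rw [← Complex.normSq_eq_norm_sq, Complex.normSq_apply]
  have e1 : z.re * z.re ≤ a * a := by
    have := mul_le_mul h1 h1 (abs_nonneg _) ha
    rwa [abs_mul_abs_self] at this
  have e2 : z.im * z.im ≤ a * a := by
    have := mul_le_mul h2 h2 (abs_nonneg _) ha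
    rwa [abs_mul_abs_self] at this
  nlinarith [mul_nonneg ha ha]

theorem BB_eq_zero {z : ℂ} (hz : 3 / 2 < ‖z‖) : BB z = 0 := by
  unfold BB
  by_contra hne
  obtain ⟨h1, h2⟩ := mul_ne_zero_iff.1 hne
  have a1 : |z.re| ≤ 1 := by
    by_contra h
    exact h1 (b1_eq_zero (not_le.1 h).le)
  have a2 : |z.im| ≤ 1 := by
    by_contra h
    exact h2 (b1_eq_zero (not_le.1 h).le)
  have := norm_le_of a1 a2
  linarith

theorem WW_eq_zero {z : ℂ} (hz : 6 < ‖z‖) : WW z = 0 := by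
  unfold WW
  by_contra hne
  obtain ⟨h1, h2⟩ := mul_ne_zero_iff.1 hne
  have a1 : |z.re| ≤ 4 := by
    by_contra h
    exact h1 (w1_eq_zero (not_le.1 h).le)
  have a2 : |z.im| ≤ 4 := by
    by_contra h
    exact h2 (w1_eq_zero (not_le.1 h).le)
  have := norm_le_of a1 a2
  linarith

theorem WW_eq_one {z : ℂ} (hz : ‖z‖ ≤ 3) : WW z = 1 := by
  unfold WW
  rw [w1_eq_one ((Complex.abs_re_le_norm z).trans hz),
    w1_eq_one ((Complex.abs_im_le_norm z).trans hz), mul_one]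

theorem tst_of_ball {F : ℂ → ℝ} (hF : ContDiff ℝ ∞ F) {c : ℂ} {r : ℝ}
    (h : ∀ z, r < ‖z - c‖ → F z = 0) : Tst F ∧ tsupport F ⊆ closedBall c r := by
  have hs : tsupport F ⊆ closedBall c r := by
    refine closure_minimal (fun z hz => ?_) isClosed_closedBall
    rw [Function.mem_support] at hz
    rw [mem_closedBall, dist_eq_norm]
    by_contra hlt
    exact hz (h z (not_le.1 hlt))
  exact ⟨⟨hF, HasCompactSupport.of_support_subset_isCompact (isCompact_closedBall c r)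
    ((subset_tsupport _).trans hs)⟩, hs⟩

theorem tst_BB : Tst BB := (tst_of_ball contDiff_BB (c := 0) (r := 3 / 2)
  fun z hz => BB_eq_zero (by rwa [sub_zero] at hz)).1

theorem tst_WW : Tst WW := (tst_of_ball contDiff_WW (c := 0) (r := 6)
  fun z hz => WW_eq_zero (by rwa [sub_zero] at hz)).1

/-! ### cells -/

/-- centre of the cell `k` -/
def ctr (η : ℝ) (k : ℤ × ℤ) : ℂ := ⟨η * k.1, η * k.2⟩

theorem scl_re {η : ℝ} (hη : 0 < η) (k : ℤ × ℤ) (z : ℂ) :
    ((η⁻¹ : ℝ) • (z - ctr η k)).re = z.re / η - k.1 := by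
  simp [ctr]
  field_simp

theorem scl_im {η : ℝ} (hη : 0 < η) (k : ℤ × ℤ) (z : ℂ) :
    ((η⁻¹ : ℝ) • (z - ctr η k)).im = z.im / η - k.2 := by
  simp [ctr]
  field_simp

theorem norm_scl {η : ℝ} (hη : 0 < η) (c z : ℂ) : ‖(η⁻¹ : ℝ) • (z - c)‖ = ‖z - c‖ / η := by
  rw [norm_smul, Real.norm_eq_abs, abs_of_pos (inv_pos.2 hη), div_eq_inv_mul]

theorem sum_scl {η : ℝ} (hη : 0 < η) {N : ℕ} {z : ℂ} (h1 : |z.re| ≤ N * η) (h2 : |z.im| ≤ N * η) :
    ∑ k ∈ Finset.Icc (-(N : ℤ)) N ×ˢ Finset.Icc (-(N : ℤ)) N, scl BB η (ctr η k) z = 1 := by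
  have key : ∀ x : ℝ, |x| ≤ N * η → ∑ k ∈ Finset.Icc (-(N : ℤ)) N, b1 (x / η - k) = 1 := by
    intro x hx
    rw [sum_b1]
    have h3 : |x / η| ≤ N := by
      rw [abs_div, abs_of_pos hη, div_le_iff₀ hη]
      exact hx
    obtain ⟨h4, h5⟩ := abs_le.1 h3
    rw [Real.smoothTransition.one_of_one_le (by linarith),
      Real.smoothTransition.zero_of_nonpos (by linarith), sub_zero]
  rw [Finset.sum_product]
  have e : ∀ a b : ℤ, scl BB η (ctr η (a, b)) z = b1 (z.re / η - a) * b1 (z.im / η - b) := by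
    intro a b
    unfold scl BB
    rw [scl_re hη, scl_im hη]
  simp only [e, ← Finset.mul_sum]
  rw [key _ h2]
  simp only [mul_one]
  exact key _ h1

/-- a family of cells for `φ` at scale `η` -/
structure IsCells (φ : ℂ → ℝ) (η C : ℝ) (s : Finset (ℤ × ℤ)) (f g : ℤ × ℤ → ℂ → ℝ) : Prop where
  tf : ∀ k, Tst (f k)
  tg : ∀ k, Tst (g k)
  sf : ∀ k, tsupport (f k) ⊆ closedBall (ctr η k) (2 * η)
  sg : ∀ k, tsupport (g k) ⊆ closedBall (ctr η k) (6 * η)
  sum : ∀ z, ∑ k ∈ s, f k z = φ z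
  aff : ∀ k, ∃ (a : ℝ) (L : ℂ →L[ℝ] ℝ), ∀ z ∈ ball (ctr η k) (3 * η), φ z - g k z = a + L z
  f0 : ∀ k z, |f k z| ≤ C
  f2 : ∀ k z, |(Δ (f k)) z| ≤ C / η ^ 2
  g0 : ∀ k z, |g k z| ≤ C * η ^ 2
  g2 : ∀ k z, |(Δ (g k)) z| ≤ C
  near : ∀ k ∈ s, ∃ z ∈ tsupport φ, dist z (ctr η k) ≤ 2 * η
  card : (s.card : ℝ) ≤ C / η ^ 2

theorem lap_eq_zero_of {F : ℂ → ℝ} {z : ℂ} (hz : z ∉ tsupport F) : (Δ F) z = 0 := by
  have h : F =ᶠ[𝓝 z] fun _ => (0 : ℝ) := by
    filter_upwards [(isClosed_tsupport F).isOpen_compl.mem_nhds hz] with w hw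
    exact image_eq_zero_of_notMem_tsupport hw
  rw [laplacian_congr_nhds h |>.self_of_nhds]
  simp [laplacian_const]

theorem exists_cells {φ : ℂ → ℝ} (hφ : Tst φ) : ∃ C : ℝ, 0 < C ∧ ∀ η : ℝ, 0 < η → η ≤ 1 →
    ∃ (s : Finset (ℤ × ℤ)) (f g : ℤ × ℤ → ℂ → ℝ), IsCells φ η C s f g := by
  obtain ⟨A, hA0, hA, hA2⟩ := exists_bd hφ
  obtain ⟨B, hB0, hB, -⟩ := exists_bd tst_BB
  obtain ⟨W, hW0, hW, -⟩ := exists_bd tst_WW
  obtain ⟨R, hR⟩ := (hφ.2.isCompact.isBounded).subset_closedBall 0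
  set R' := max R 0 with hR'
  have hRR : ∀ z ∈ tsupport φ, ‖z‖ ≤ R' := fun z hz => by
    have := mem_closedBall.1 (hR hz)
    rw [dist_zero_right] at this
    exact this.trans (le_max_left _ _)
  have hR0 : 0 ≤ R' := le_max_right _ _
  refine ⟨1 + 8 * (A * B) + 98 * (A * W) + (2 * R' + 3) ^ 2, by positivity, fun η hη hη1 => ?_⟩
  set C := 1 + 8 * (A * B) + 98 * (A * W) + (2 * R' + 3) ^ 2 with hC
  have hAB : 0 ≤ A * B := mul_nonneg hA0 hB0
  have hAW : 0 ≤ A * W := mul_nonneg hA0 hW0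
  set N : ℕ := ⌈R' / η⌉₊ with hN
  have hN1 : R' ≤ N * η := by
    have := Nat.le_ceil (R' / η)
    rwa [div_le_iff₀ hη] at this
  have hN2 : (N : ℝ) ≤ R' / η + 1 := (Nat.ceil_lt_add_one (by positivity)).le
  classical
  set S0 : Finset (ℤ × ℤ) := Finset.Icc (-(N : ℤ)) N ×ˢ Finset.Icc (-(N : ℤ)) N with hS0
  set S : Finset (ℤ × ℤ) := S0.filter fun k => ∃ z ∈ tsupport φ, dist z (ctr η k) ≤ 2 * η with hS
  set f : ℤ × ℤ → ℂ → ℝ := fun k z => φ z * scl BB η (ctr η k) z with hf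
  set g : ℤ × ℤ → ℂ → ℝ := fun k z => rem φ (ctr η k) z * scl WW η (ctr η k) z with hg
  have hη2 : 0 < η ^ 2 := by positivity
  have cf : ∀ k, ContDiff ℝ ∞ (f k) := fun k => hφ.1.mul (contDiff_scl contDiff_BB η _)
  have cg : ∀ k, ContDiff ℝ ∞ (g k) := fun k =>
    (contDiff_rem hφ.1 _).mul (contDiff_scl contDiff_WW η _)
  have zf : ∀ k z, 2 * η < ‖z - ctr η k‖ → f k z = 0 := fun k z hz => by
    have : scl BB η (ctr η k) z = 0 := BB_eq_zero (by
      rw [norm_scl hη, lt_div_iff₀ hη]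
      linarith)
    simp only [hf, this, mul_zero]
  have zg : ∀ k z, 6 * η < ‖z - ctr η k‖ → g k z = 0 := fun k z hz => by
    have : scl WW η (ctr η k) z = 0 := WW_eq_zero (by
      rw [norm_scl hη, lt_div_iff₀ hη]
      linarith)
    simp only [hg, this, mul_zero]
  have bf : ∀ k, Bd (f k) univ (A * B) (A * (B / η) + A * B)
      (A * (B / η ^ 2) + 2 * (A * (B / η)) + A * B) := fun k =>
    Bd.mul hφ.1 (contDiff_scl contDiff_BB η _) hA (hB.scale contDiff_BB hη _)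
  have bg : ∀ k, Bd (g k) (closedBall (ctr η k) (6 * η)) (A * (6 * η) ^ 2 * W)
      (A * (6 * η) ^ 2 * (W / η) + A * (6 * η) * W)
      (A * (6 * η) ^ 2 * (W / η ^ 2) + 2 * (A * (6 * η) * (W / η)) + A * W) := fun k =>
    Bd.mul (contDiff_rem hφ.1 _) (contDiff_scl contDiff_WW η _)
      (Bd.rem hφ.1 hA0 hA hA2 _ (by positivity))
      (fun z _ => (hW.scale contDiff_WW hη (ctr η k)) z (mem_univ z))
  refine ⟨S, f, g, fun k => (tst_of_ball (cf k) (zf k)).1, fun k => (tst_of_ball (cg k) (zg k)).1,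
    fun k => (tst_of_ball (cf k) (zf k)).2, fun k => (tst_of_ball (cg k) (zg k)).2,
    fun z => ?_, fun k => ?_, fun k z => ?_, fun k z => ?_, fun k z => ?_, fun k z => ?_,
    fun k hk => (Finset.mem_filter.1 hk).2, ?_⟩
  · -- partition
    have e1 : ∑ k ∈ S, f k z = ∑ k ∈ S0, f k z := by
      refine Finset.sum_subset (Finset.filter_subset _ _) fun k hk hk' => ?_
      by_contra hne
      apply hk'
      rw [Finset.mem_filter]
      refine ⟨hk, z, ?_, ?_⟩
      · apply subset_tsupport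
        rw [Function.mem_support]
        intro h0
        exact hne (by simp only [hf, h0, zero_mul])
      · by_contra hlt
        rw [dist_eq_norm] at hlt
        exact hne (zf k z (not_le.1 hlt))
    rw [e1]
    simp only [hf, ← Finset.mul_sum]
    by_cases hz : z ∈ tsupport φ
    · have h1 := hRR z hz
      rw [sum_scl hη ((Complex.abs_re_le_norm z).trans (h1.trans hN1))
        ((Complex.abs_im_le_norm z).trans (h1.trans hN1)), mul_one]
    · rw [image_eq_zero_of_notMem_tsupport hz, zero_mul]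
  · -- affine
    refine ⟨φ (ctr η k) - fderiv ℝ φ (ctr η k) (ctr η k), fderiv ℝ φ (ctr η k), fun z hz => ?_⟩
    have h1 : scl WW η (ctr η k) z = 1 := WW_eq_one (by
      rw [norm_scl hη, div_le_iff₀ hη]
      have := mem_ball.1 hz
      rw [dist_eq_norm] at this
      exact this.le)
    simp only [hg, h1, mul_one, rem, map_sub]
    ring
  · exact ((bf k z (mem_univ z)).1).trans (by rw [hC]; nlinarith [sq_nonneg (2 * R' + 3)])
  · refine ((bf k).lap_le (cf k) (mem_univ z)).trans ?_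
    rw [le_div_iff₀ hη2]
    have e1 : 2 * (A * (B / η ^ 2) + 2 * (A * (B / η)) + A * B) * η ^ 2 =
        2 * (A * B) + 4 * (A * B) * η + 2 * (A * B) * η ^ 2 := by
      field_simp
      ring
    rw [e1, hC]
    have h3 : (A * B) * η ≤ A * B := mul_le_of_le_one_right hAB hη1
    have h4 : (A * B) * η ^ 2 ≤ A * B := mul_le_of_le_one_right hAB (pow_le_one₀ hη.le hη1)
    nlinarith [sq_nonneg (2 * R' + 3)]
  · by_cases hz : z ∈ closedBall (ctr η k) (6 * η)
    · refine ((bg k z hz).1).trans ?_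
      have h5 : A * (6 * η) ^ 2 * W = 36 * (A * W) * η ^ 2 := by ring
      rw [h5]
      refine mul_le_mul_of_nonneg_right ?_ hη2.le
      rw [hC]
      nlinarith [sq_nonneg (2 * R' + 3)]
    · have h6 : g k z = 0 := zg k z (by
        rw [mem_closedBall, dist_eq_norm] at hz
        exact not_le.1 hz)
      rw [h6, abs_zero]
      positivity
  · by_cases hz : z ∈ closedBall (ctr η k) (6 * η)
    · refine ((bg k).lap_le (cg k) hz).trans ?_
      have e1 : 2 * (A * (6 * η) ^ 2 * (W / η ^ 2) + 2 * (A * (6 * η) * (W / η)) + A * W) =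
          98 * (A * W) := by
        field_simp
        ring
      rw [e1, hC]
      nlinarith [sq_nonneg (2 * R' + 3)]
    · rw [lap_eq_zero_of fun h => hz ((tst_of_ball (cg k) (zg k)).2 h), abs_zero]
      positivity
  · have h1 : S.card ≤ S0.card := Finset.card_le_card (Finset.filter_subset _ _)
    have h2 : (S0.card : ℝ) = (2 * N + 1) ^ 2 := by
      rw [hS0, Finset.card_product, Int.card_Icc]
      have : ((N : ℤ) + 1 - -(N : ℤ)).toNat = 2 * N + 1 := by omega
      rw [this]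
      push_cast
      ring
    have h3 : (S.card : ℝ) ≤ (2 * N + 1) ^ 2 := by
      rw [← h2]
      exact_mod_cast h1
    refine h3.trans ?_
    rw [le_div_iff₀ hη2]
    have h4 : (2 * (N : ℝ) + 1) * η ≤ 2 * R' + 3 := by
      have : (N : ℝ) * η ≤ R' + η := by
        have := mul_le_mul_of_nonneg_right hN2 hη.le
        rwa [add_mul, div_mul_cancel₀ _ hη.ne', one_mul] at this
      nlinarith
    have h5 : (2 * (N : ℝ) + 1) ^ 2 * η ^ 2 = ((2 * (N : ℝ) + 1) * η) ^ 2 := by ring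
    rw [h5]
    have h6 : ((2 * (N : ℝ) + 1) * η) ^ 2 ≤ (2 * R' + 3) ^ 2 :=
      pow_le_pow_left₀ (by positivity) h4 2
    rw [hC]
    nlinarith

/-! ### integrals over cells -/

theorem contDiff_lap {u : ℂ → ℝ} (hu : ContDiff ℝ ∞ u) : ContDiff ℝ ∞ (Δ u) := by
  have h : (Δ u) = fun z => fderiv ℝ (fun w => fderiv ℝ u w 1) z 1 +
      fderiv ℝ (fun w => fderiv ℝ u w Complex.I) z Complex.I :=
    funext fun z => lap_dir (hu.of_le (by norm_cast)).contDiffAt
  rw [h]
  exact (contDiff_dir (contDiff_dir hu 1) 1).add (contDiff_dir (contDiff_dir hu Complex.I) Complex.I)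

theorem abs_integral_le {h : ℂ → ℝ} {c : ℂ} {r M : ℝ} (hr : 0 ≤ r) (hM : 0 ≤ M)
    (h0 : ∀ z, z ∉ closedBall c r → h z = 0) (hb : ∀ z, |h z| ≤ M) :
    |∫ z, h z| ≤ M * (4 * r ^ 2) := by
  have e1 : ∫ z, h z = ∫ z in closedBall c r, h z := by
    rw [setIntegral_eq_integral_of_forall_compl_eq_zero h0]
  rw [e1, ← Real.norm_eq_abs]
  have hv : (volume : Measure ℂ).real (closedBall c r) = r ^ 2 * Real.pi := by
    rw [Measure.real, Complex.volume_closedBall]
    rw [ENNReal.toReal_mul, ENNReal.toReal_pow, ENNReal.toReal_ofReal hr]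
    rfl
  have hfin : volume (closedBall c r) < ⊤ := measure_closedBall_lt_top
  refine (norm_setIntegral_le_of_norm_le_const hfin fun z _ => by
    rw [Real.norm_eq_abs]; exact hb z).trans ?_
  rw [hv]
  refine mul_le_mul_of_nonneg_left ?_ hM
  have := Real.pi_le_four
  nlinarith [sq_nonneg r]

namespace IsCells

variable {φ : ℂ → ℝ} {η C : ℝ} {s : Finset (ℤ × ℤ)} {f g : ℤ × ℤ → ℂ → ℝ}

theorem C_nonneg (h : IsCells φ η C s f g) : 0 ≤ C := (abs_nonneg _).trans (h.f0 0 0)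

theorem int_lap_f (h : IsCells φ η C s f g) (hη : 0 < η) (k : ℤ × ℤ) :
    ∫ z, |(Δ (f k)) z| ≤ 16 * C := by
  have hC := h.C_nonneg
  have h1 := abs_integral_le (h := fun z => |(Δ (f k)) z|) (c := ctr η k) (r := 2 * η)
    (M := C / η ^ 2) (by positivity) (by positivity)
    (fun z hz => by rw [lap_eq_zero_of fun h' => hz (h.sf k h'), abs_zero])
    (fun z => by rw [abs_abs]; exact h.f2 k z)
  refine (le_abs_self _).trans (h1.trans (le_of_eq ?_))
  field_simp
  ring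

theorem int_lap_g (h : IsCells φ η C s f g) (hη : 0 < η) (k : ℤ × ℤ) :
    ∫ z, |(Δ (g k)) z| ≤ 144 * C * η ^ 2 := by
  have hC := h.C_nonneg
  have h1 := abs_integral_le (h := fun z => |(Δ (g k)) z|) (c := ctr η k) (r := 6 * η)
    (M := C) (by positivity) hC
    (fun z hz => by rw [lap_eq_zero_of fun h' => hz (h.sg k h'), abs_zero])
    (fun z => by rw [abs_abs]; exact h.g2 k z)
  refine (le_abs_self _).trans (h1.trans (le_of_eq ?_))
  ring

theorem en_f (h : IsCells φ η C s f g) (hη : 0 < η) (k : ℤ × ℤ) :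
    ∫ z, f k z * (-(Δ (f k)) z) ≤ 16 * C ^ 2 := by
  have hC := h.C_nonneg
  have h1 := abs_integral_le (h := fun z => f k z * (-(Δ (f k)) z)) (c := ctr η k) (r := 2 * η)
    (M := C * (C / η ^ 2)) (by positivity) (by positivity)
    (fun z hz => by rw [lap_eq_zero_of fun h' => hz (h.sf k h')]; simp)
    (fun z => by
      rw [abs_mul, abs_neg]
      exact mul_le_mul (h.f0 k z) (h.f2 k z) (abs_nonneg _) hC)
  refine (le_abs_self _).trans (h1.trans (le_of_eq ?_))
  field_simp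
  ring

theorem en_g (h : IsCells φ η C s f g) (hη : 0 < η) (k : ℤ × ℤ) :
    ∫ z, g k z * (-(Δ (g k)) z) ≤ 144 * C ^ 2 * η ^ 4 := by
  have hC := h.C_nonneg
  have h1 := abs_integral_le (h := fun z => g k z * (-(Δ (g k)) z)) (c := ctr η k) (r := 6 * η)
    (M := C * η ^ 2 * C) (by positivity) (by positivity)
    (fun z hz => by rw [lap_eq_zero_of fun h' => hz (h.sg k h')]; simp)
    (fun z => by
      rw [abs_mul, abs_neg]
      exact mul_le_mul (h.g0 k z) (h.g2 k z) (abs_nonneg _) (by positivity))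
  refine (le_abs_self _).trans (h1.trans (le_of_eq ?_))
  ring

theorem lap_g_eq (h : IsCells φ η C s f g) (hφ : Tst φ) {k : ℤ × ℤ} {z : ℂ}
    (hz : z ∈ ball (ctr η k) (3 * η)) : (Δ (g k)) z = (Δ φ) z := by
  obtain ⟨a, L, hL⟩ := h.aff k
  have hd : (Δ (fun w => φ w - g k w)) z = 0 := by
    have h1 : (fun w => φ w - g k w) =ᶠ[𝓝 z] fun w => a + L w := by
      filter_upwards [isOpen_ball.mem_nhds hz] with w hw
      exact hL w hw
    rw [laplacian_congr_nhds h1 |>.self_of_nhds]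
    have hc : ContDiffAt ℝ 2 (fun w : ℂ => a + L w) z := (contDiff_const.add L.contDiff).contDiffAt
    rw [lap_dir hc]
    have e : ∀ w e : ℂ, fderiv ℝ (fun w : ℂ => a + L w) w e = L e := fun w e => by
      rw [(L.hasFDerivAt.const_add a).fderiv]
    simp only [e]
    simp
  have c1 : ContDiff ℝ 2 φ := hφ.1.of_le (by norm_cast)
  have c2 : ContDiff ℝ 2 (g k) := (h.tg k).1.of_le (by norm_cast)
  rw [lap_dir (c1.sub c2).contDiffAt] at hd
  rw [lap_dir c1.contDiffAt, lap_dir c2.contDiffAt]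
  have e0 : ∀ w e : ℂ, fderiv ℝ (fun w => φ w - g k w) w e = fderiv ℝ φ w e - fderiv ℝ (g k) w e := by
    intro w e
    have := (((hφ.1.differentiable (by simp)) w).hasFDerivAt.sub
      ((((h.tg k).1.differentiable (by simp)) w).hasFDerivAt)).fderiv
    have h2 : fderiv ℝ (fun w => φ w - g k w) w = _ := this
    rw [h2]
    rfl
  have e2 : ∀ e : ℂ, fderiv ℝ (fun w => fderiv ℝ (fun w => φ w - g k w) w e) z e =
      fderiv ℝ (fun w => fderiv ℝ φ w e) z e - fderiv ℝ (fun w => fderiv ℝ (g k) w e) z e := by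
    intro e
    have h1 : (fun w => fderiv ℝ (fun w => φ w - g k w) w e) =
        fun w => fderiv ℝ φ w e - fderiv ℝ (g k) w e := funext fun w => e0 w e
    have := (((((contDiff_dir hφ.1 e).differentiable (by simp)) z)).hasFDerivAt.sub
      (((contDiff_dir (h.tg k).1 e).differentiable (by simp)) z).hasFDerivAt).fderiv
    have h2 : fderiv ℝ (fun w => fderiv ℝ φ w e - fderiv ℝ (g k) w e) z = _ := this
    rw [h1, h2]
    rfl
  have h1 : fderiv ℝ (fun w => fderiv ℝ (fun w => φ w - g k w) w 1) z 1 +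
      fderiv ℝ (fun w => fderiv ℝ (fun w => φ w - g k w) w Complex.I) z Complex.I = 0 := hd
  rw [e2, e2] at h1
  linarith

theorem sum_en (h : IsCells φ η C s f g) (hη : 0 < η) (hφ : Tst φ) :
    ∑ k ∈ s, ∫ z, f k z * (-(Δ (g k)) z) = ∫ z, φ z * (-(Δ φ) z) := by
  have e1 : ∀ k, ∀ z, f k z * (-(Δ (g k)) z) = f k z * (-(Δ φ) z) := by
    intro k z
    by_cases hz : z ∈ ball (ctr η k) (3 * η)
    · rw [h.lap_g_eq hφ hz]
    · have : f k z = 0 := image_eq_zero_of_notMem_tsupport fun h' => hz (by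
        have := mem_closedBall.1 (h.sf k h')
        rw [mem_ball]
        linarith)
      rw [this, zero_mul, zero_mul]
  have hi : ∀ k ∈ s, Integrable (fun z => f k z * (-(Δ φ) z)) := fun k _ =>
    (((h.tf k).1.continuous).mul ((contDiff_lap hφ.1).continuous.neg)).integrable_of_hasCompactSupport
      ((h.tf k).2.mul_right)
  simp only [e1]
  rw [← integral_finsetSum _ hi]
  refine integral_congr_ae (Eventually.of_forall fun z => ?_)
  simp only
  rw [← Finset.sum_mul, h.sum]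

end IsCells

end Crest.Agent.R144.Ga5885
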