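import Crest.Agent.R144.Ga5a_885

/-!
# R144, leaf GA5 of doc 1596 (helper885), part b: covariances

Truncated covariance bound from mixing of bounded functionals, and the variance of a sum over cells.
-/

set_option autoImplicit false

open MeasureTheory Metric Set Filter Topology

noncomputable section

namespace Crest.Agent.R144.Ga5885

/-- clamp -/
def clp (L x : ℝ) : ℝ := max (-L) (min L x)

theorem abs_clp_le {L : ℝ} (hL : 0 ≤ L) (x : ℝ) : |clp L x| ≤ L := by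
  unfold clp
  rw [abs_le]
  exact ⟨le_max_left _ _, max_le (by linarith) (min_le_left _ _)⟩

theorem clp_eq {L x : ℝ} (h : |x| ≤ L) : clp L x = x := by
  unfold clp
  rw [min_eq_right (abs_le.1 h).2, max_eq_right (abs_le.1 h).1]

theorem abs_clp_le_abs {L : ℝ} (hL : 0 ≤ L) (x : ℝ) : |clp L x| ≤ |x| := by
  rcases le_total |x| L with h | h
  · rw [clp_eq h]
  · exact (abs_clp_le hL x).trans h

theorem abs_sub_clp_le {L : ℝ} (hL : 0 < L) (x : ℝ) : |x - clp L x| ≤ x ^ 2 / L := by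
  rw [le_div_iff₀ hL]
  rcases le_total |x| L with h | h
  · rw [clp_eq h, sub_self, abs_zero, zero_mul]
    exact sq_nonneg x
  · have h1 : |x - clp L x| ≤ |x| := by
      unfold clp
      rcases le_abs.1 h with hx | hx
      · rw [min_eq_left hx, max_eq_right (by linarith), abs_of_nonneg (by linarith),
          abs_of_nonneg (by linarith)]
        linarith
      · rw [min_eq_right (by linarith), max_eq_left (by linarith), abs_of_nonpos (by linarith),
          abs_of_nonpos (by linarith)]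
        linarith
    calc |x - clp L x| * L ≤ |x| * |x| := mul_le_mul h1 h hL.le (abs_nonneg _)
      _ = x ^ 2 := by rw [abs_mul_abs_self]; ring

theorem measurable_clp (L : ℝ) : Measurable (clp L) := by
  unfold clp
  exact measurable_const.max (measurable_const.min measurable_id)

section cov

variable {Ω : Type*} {m0 : MeasurableSpace Ω} {P : Measure Ω} [IsProbabilityMeasure P]

/-- bounded a.e. and measurable -/
def BM (P : Measure Ω) (W : Ω → ℝ) : Prop := AEStronglyMeasurable W P ∧ ∃ B, ∀ᵐ ω ∂P, |W ω| ≤ B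

theorem BM.int {W : Ω → ℝ} (h : BM P W) : Integrable W P := by
  obtain ⟨h1, B, hB⟩ := h
  exact Integrable.of_bound h1 B (hB.mono fun ω h => by rwa [Real.norm_eq_abs])

omit [IsProbabilityMeasure P] in
theorem BM.mul {W V : Ω → ℝ} (h : BM P W) (h' : BM P V) : BM P (fun ω => W ω * V ω) := by
  obtain ⟨h1, B, hB⟩ := h
  obtain ⟨h2, B', hB'⟩ := h'
  refine ⟨h1.mul h2, |B| * |B'|, ?_⟩
  filter_upwards [hB, hB'] with ω a b
  rw [abs_mul]
  exact mul_le_mul (a.trans (le_abs_self _)) (b.trans (le_abs_self _)) (abs_nonneg _) (abs_nonneg _)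

omit [IsProbabilityMeasure P] in
theorem BM.pow {W : Ω → ℝ} (h : BM P W) (k : ℕ) : BM P (fun ω => W ω ^ k) := by
  obtain ⟨h1, B, hB⟩ := h
  refine ⟨h1.pow k, |B| ^ k, ?_⟩
  filter_upwards [hB] with ω a
  rw [abs_pow]
  exact pow_le_pow_left₀ (abs_nonneg _) (a.trans (le_abs_self _)) k

omit [IsProbabilityMeasure P] in
theorem BM.abs {W : Ω → ℝ} (h : BM P W) : BM P (fun ω => |W ω|) := by
  obtain ⟨h1, B, hB⟩ := h
  refine ⟨by simpa only [Real.norm_eq_abs] using h1.norm, B, ?_⟩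
  filter_upwards [hB] with ω a
  rwa [abs_abs]

omit [IsProbabilityMeasure P] in
theorem BM.const_mul {W : Ω → ℝ} (h : BM P W) (c : ℝ) : BM P (fun ω => c * W ω) := by
  obtain ⟨h1, B, hB⟩ := h
  refine ⟨h1.const_mul c, |c| * B, ?_⟩
  filter_upwards [hB] with ω a
  rw [abs_mul]
  exact mul_le_mul_of_nonneg_left a (abs_nonneg _)

omit [IsProbabilityMeasure P] in
theorem BM.clp {W : Ω → ℝ} (h : BM P W) (L : ℝ) : BM P (fun ω => clp L (W ω)) := by
  obtain ⟨h1, B, hB⟩ := h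
  refine ⟨((measurable_clp L).comp_aemeasurable h1.aemeasurable).aestronglyMeasurable, |L|, ?_⟩
  refine Eventually.of_forall fun ω => ?_
  rcases le_total 0 L with hL | hL
  · exact (abs_clp_le hL _).trans (le_abs_self _)
  · unfold Ga5885.clp
    rw [abs_of_nonpos hL, abs_le]
    constructor
    · have : -L ≤ max (-L) (min L (W ω)) := le_max_left _ _
      linarith
    · exact max_le le_rfl ((min_le_left _ _).trans (by linarith))

theorem sq_le_one_add (x : ℝ) : x ^ 2 ≤ 1 + x ^ 4 := by nlinarith [sq_nonneg (x ^ 2 - 1), sq_nonneg x]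

theorem abs_le_one_add (x : ℝ) : |x| ≤ 1 + x ^ 4 := by
  have h1 : |x| ≤ 1 + x ^ 2 := by nlinarith [sq_nonneg (|x| - 1), abs_nonneg x, sq_abs x]
  rcases le_total |x| 1 with h | h
  · have : 0 ≤ x ^ 4 := by positivity
    linarith
  · have h2 : |x| ^ 1 ≤ |x| ^ 4 := pow_le_pow_right₀ h (by norm_num)
    have h3 : |x| ^ 4 = x ^ 4 := by rw [← abs_pow, abs_of_nonneg (by positivity)]
    rw [pow_one, h3] at h2
    linarith

theorem mul_sq_le (x y : ℝ) : |x| * y ^ 2 ≤ 1 + x ^ 4 + y ^ 4 := by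
  have h1 := sq_le_one_add x
  have h2 : |x| * y ^ 2 ≤ (x ^ 2 + y ^ 4) / 2 := by
    nlinarith [sq_nonneg (|x| - y ^ 2), sq_abs x]
  have h3 : 0 ≤ x ^ 4 := by positivity
  have h4 : 0 ≤ y ^ 4 := by positivity
  linarith

theorem int_lin3 {F G : Ω → ℝ} (hF : Integrable F P) (hG : Integrable G P) (c p q : ℝ) :
    ∫ ω, (c + (p * F ω + q * G ω)) ∂P = c + (p * ∫ ω, F ω ∂P + q * ∫ ω, G ω ∂P) := by
  have i1 : Integrable (fun ω => p * F ω) P := hF.const_mul p
  have i2 : Integrable (fun ω => q * G ω) P := hG.const_mul q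
  have i3 : Integrable (fun ω => p * F ω + q * G ω) P := i1.add i2
  have i4 : Integrable (fun _ : Ω => c) P := integrable_const _
  rw [integral_add i4 i3, integral_add i1 i2, integral_const_mul, integral_const_mul]
  simp

theorem int_lin4 {A B C : Ω → ℝ} (hA : Integrable A P) (hB : Integrable B P) (hC : Integrable C P)
    (a b c : ℝ) : ∫ ω, (A ω - a * B ω - b * C ω + c) ∂P =
      ∫ ω, A ω ∂P - a * ∫ ω, B ω ∂P - b * ∫ ω, C ω ∂P + c := by
  have i1 : Integrable (fun ω => a * B ω) P := hB.const_mul a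
  have i2 : Integrable (fun ω => b * C ω) P := hC.const_mul b
  have i3 : Integrable (fun ω => A ω - a * B ω) P := hA.sub i1
  have i5 : Integrable (fun ω => A ω - a * B ω - b * C ω) P := i3.sub i2
  have i4 : Integrable (fun _ : Ω => c) P := integrable_const _
  rw [integral_add i5 i4, integral_sub i3 i2, integral_sub hA i1, integral_const_mul,
    integral_const_mul]
  simp

theorem abs_int_le {W : Ω → ℝ} (h : BM P W) {b : ℝ} (hb : ∫ ω, W ω ^ 4 ∂P ≤ b) :
    |∫ ω, W ω ∂P| ≤ 1 + b := by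
  calc |∫ ω, W ω ∂P| ≤ ∫ ω, |W ω| ∂P := abs_integral_le_integral_abs
    _ ≤ ∫ ω, (1 + W ω ^ 4) ∂P := integral_mono h.abs.int
        ((integrable_const _).add (h.pow 4).int) fun ω => abs_le_one_add _
    _ = 1 + ∫ ω, W ω ^ 4 ∂P := by
        rw [integral_add (integrable_const _) (h.pow 4).int]
        simp
    _ ≤ 1 + b := by linarith

/-- covariance -/
def cov (P : Measure Ω) (F G : Ω → ℝ) : ℝ :=
  ∫ ω, F ω * G ω ∂P - (∫ ω, F ω ∂P) * ∫ ω, G ω ∂P

theorem abs_cov_le_near {W V : Ω → ℝ} (hW : BM P W) (hV : BM P V) {b : ℝ}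
    (hb : ∫ ω, W ω ^ 4 ∂P ≤ b) (hb' : ∫ ω, V ω ^ 4 ∂P ≤ b) : |cov P W V| ≤ 2 * (1 + b) ^ 2 := by
  have hb0 : 0 ≤ b := (integral_nonneg fun ω => by positivity).trans hb
  have h1 := abs_int_le hW hb
  have h2 := abs_int_le hV hb'
  have h3 : |∫ ω, W ω * V ω ∂P| ≤ 1 + b := by
    calc |∫ ω, W ω * V ω ∂P| ≤ ∫ ω, |W ω * V ω| ∂P := abs_integral_le_integral_abs
      _ ≤ ∫ ω, (1 + ((1 / 2) * W ω ^ 4 + (1 / 2) * V ω ^ 4)) ∂P := by
          refine integral_mono (hW.mul hV).abs.int ((integrable_const _).add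
            (((hW.pow 4).const_mul _).int.add ((hV.pow 4).const_mul _).int)) fun ω => ?_
          have e1 := sq_le_one_add (W ω)
          have e2 := sq_le_one_add (V ω)
          simp only
          rw [abs_mul]
          nlinarith [sq_nonneg (|W ω| - |V ω|), sq_abs (W ω), sq_abs (V ω)]
      _ = 1 + ((1 / 2) * ∫ ω, W ω ^ 4 ∂P + (1 / 2) * ∫ ω, V ω ^ 4 ∂P) := by
          exact int_lin3 (hW.pow 4).int (hV.pow 4).int _ _ _
      _ ≤ 1 + b := by linarith
  unfold cov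
  have h4 : |(∫ ω, W ω ∂P) * ∫ ω, V ω ∂P| ≤ (1 + b) * (1 + b) := by
    rw [abs_mul]
    exact mul_le_mul h1 h2 (abs_nonneg _) (by linarith)
  refine (abs_sub _ _).trans ?_
  nlinarith

/-- **truncated covariance bound** -/
theorem abs_cov_le_far {W V : Ω → ℝ} (hW : BM P W) (hV : BM P V) {b L ε : ℝ} (hL : 0 < L)
    (hb : ∫ ω, W ω ^ 4 ∂P ≤ b) (hb' : ∫ ω, V ω ^ 4 ∂P ≤ b)
    (hmix : |cov P (fun ω => L⁻¹ * clp L (W ω)) (fun ω => L⁻¹ * clp L (V ω))| ≤ ε) :
    |cov P W V| ≤ L ^ 2 * ε + 6 * (1 + b) ^ 2 / L := by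
  have hb0 : 0 ≤ b := (integral_nonneg fun ω => by positivity).trans hb
  set W1 : Ω → ℝ := fun ω => clp L (W ω) with hW1
  set V1 : Ω → ℝ := fun ω => clp L (V ω) with hV1
  have bW1 : BM P W1 := hW.clp L
  have bV1 : BM P V1 := hV.clp L
  have key1 : ∀ x y : ℝ, |x * y - clp L x * clp L y| ≤ (2 + 2 * (x ^ 4 + y ^ 4)) / L := by
    intro x y
    have e : x * y - clp L x * clp L y = x * (y - clp L y) + (x - clp L x) * clp L y := by ring
    rw [e]
    have h1 := abs_sub_clp_le hL x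
    have h2 := abs_sub_clp_le hL y
    have h3 := abs_clp_le_abs hL.le y
    have a1 : |x * (y - clp L y)| ≤ |x| * (y ^ 2 / L) := by
      rw [abs_mul]
      exact mul_le_mul_of_nonneg_left h2 (abs_nonneg _)
    have a2 : |(x - clp L x) * clp L y| ≤ (x ^ 2 / L) * |y| := by
      rw [abs_mul]
      exact mul_le_mul h1 h3 (abs_nonneg _) (by positivity)
    refine (abs_add_le _ _).trans ((add_le_add a1 a2).trans ?_)
    have m1 := mul_sq_le x y
    have m2 := mul_sq_le y x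
    have e2 : |x| * (y ^ 2 / L) + x ^ 2 / L * |y| = (|x| * y ^ 2 + |y| * x ^ 2) / L := by ring
    rw [e2]
    exact div_le_div_of_nonneg_right (by linarith) hL.le
  have d1 : |∫ ω, W ω * V ω ∂P - ∫ ω, W1 ω * V1 ω ∂P| ≤ (2 + 4 * b) / L := by
    rw [← integral_sub (hW.mul hV).int (bW1.mul bV1).int]
    have hi : Integrable (fun ω => L⁻¹ * (2 + (2 * W ω ^ 4 + 2 * V ω ^ 4))) P :=
      ((integrable_const _).add (((hW.pow 4).const_mul _).int.add
        ((hV.pow 4).const_mul _).int)).const_mul _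
    calc |∫ ω, (W ω * V ω - W1 ω * V1 ω) ∂P| ≤ ∫ ω, |W ω * V ω - W1 ω * V1 ω| ∂P :=
          abs_integral_le_integral_abs
      _ ≤ ∫ ω, L⁻¹ * (2 + (2 * W ω ^ 4 + 2 * V ω ^ 4)) ∂P := by
          refine integral_mono ((hW.mul hV).int.sub (bW1.mul bV1).int).abs hi fun ω => ?_
          refine (key1 (W ω) (V ω)).trans (le_of_eq ?_)
          rw [div_eq_inv_mul]
          ring
      _ = L⁻¹ * (2 + (2 * ∫ ω, W ω ^ 4 ∂P + 2 * ∫ ω, V ω ^ 4 ∂P)) := by
          rw [integral_const_mul, int_lin3 (hW.pow 4).int (hV.pow 4).int]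
      _ ≤ (2 + 4 * b) / L := by
          rw [div_eq_inv_mul]
          exact mul_le_mul_of_nonneg_left (by linarith) (inv_pos.2 hL).le
  have key2 : ∀ F : Ω → ℝ, BM P F → ∫ ω, F ω ^ 4 ∂P ≤ b →
      |∫ ω, F ω ∂P - ∫ ω, clp L (F ω) ∂P| ≤ (1 + b) / L ∧ |∫ ω, clp L (F ω) ∂P| ≤ 1 + b := by
    intro F hF hFb
    have bF1 : BM P (fun ω => clp L (F ω)) := hF.clp L
    constructor
    · rw [← integral_sub hF.int bF1.int]
      calc |∫ ω, (F ω - clp L (F ω)) ∂P| ≤ ∫ ω, |F ω - clp L (F ω)| ∂P :=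
            abs_integral_le_integral_abs
        _ ≤ ∫ ω, L⁻¹ * (1 + F ω ^ 4) ∂P := by
            refine integral_mono (hF.int.sub bF1.int).abs
              (((integrable_const _).add (hF.pow 4).int).const_mul _) fun ω => ?_
            refine (abs_sub_clp_le hL (F ω)).trans ?_
            rw [div_eq_inv_mul]
            exact mul_le_mul_of_nonneg_left (sq_le_one_add _) (inv_pos.2 hL).le
        _ = L⁻¹ * (1 + ∫ ω, F ω ^ 4 ∂P) := by
            rw [integral_const_mul, integral_add (integrable_const _) (hF.pow 4).int]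
            simp
        _ ≤ (1 + b) / L := by
            rw [div_eq_inv_mul]
            exact mul_le_mul_of_nonneg_left (by linarith) (inv_pos.2 hL).le
    · calc |∫ ω, clp L (F ω) ∂P| ≤ ∫ ω, |clp L (F ω)| ∂P := abs_integral_le_integral_abs
        _ ≤ ∫ ω, (1 + F ω ^ 4) ∂P := integral_mono bF1.abs.int
            ((integrable_const _).add (hF.pow 4).int) fun ω =>
              (abs_clp_le_abs hL.le _).trans (abs_le_one_add _)
        _ = 1 + ∫ ω, F ω ^ 4 ∂P := by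
            rw [integral_add (integrable_const _) (hF.pow 4).int]
            simp
        _ ≤ 1 + b := by linarith
  obtain ⟨kW, kW1⟩ := key2 W hW hb
  obtain ⟨kV, kV1⟩ := key2 V hV hb'
  have iW := abs_int_le hW hb
  have d2 : |(∫ ω, W ω ∂P) * (∫ ω, V ω ∂P) - (∫ ω, W1 ω ∂P) * ∫ ω, V1 ω ∂P| ≤
      2 * (1 + b) ^ 2 / L := by
    have e : (∫ ω, W ω ∂P) * (∫ ω, V ω ∂P) - (∫ ω, W1 ω ∂P) * ∫ ω, V1 ω ∂P =
        (∫ ω, W ω ∂P) * (∫ ω, V ω ∂P - ∫ ω, V1 ω ∂P) +
          (∫ ω, W ω ∂P - ∫ ω, W1 ω ∂P) * ∫ ω, V1 ω ∂P := by ring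
    rw [e]
    refine (abs_add_le _ _).trans ?_
    rw [abs_mul, abs_mul]
    have a1 : |∫ ω, W ω ∂P| * |∫ ω, V ω ∂P - ∫ ω, V1 ω ∂P| ≤ (1 + b) * ((1 + b) / L) :=
      mul_le_mul iW kV (abs_nonneg _) (by linarith)
    have a2 : |∫ ω, W ω ∂P - ∫ ω, W1 ω ∂P| * |∫ ω, V1 ω ∂P| ≤ ((1 + b) / L) * (1 + b) :=
      mul_le_mul kW kV1 (abs_nonneg _) (by positivity)
    refine (add_le_add a1 a2).trans (le_of_eq ?_)
    ring
  have d3 : |cov P W1 V1| ≤ L ^ 2 * ε := by
    have e : cov P (fun ω => L⁻¹ * clp L (W ω)) (fun ω => L⁻¹ * clp L (V ω)) =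
        (L⁻¹) ^ 2 * cov P W1 V1 := by
      unfold cov
      have e1 : ∀ ω, L⁻¹ * clp L (W ω) * (L⁻¹ * clp L (V ω)) = (L⁻¹) ^ 2 * (W1 ω * V1 ω) :=
        fun ω => by simp only [hW1, hV1]; ring
      simp only [e1]
      rw [integral_const_mul, integral_const_mul, integral_const_mul]
      ring
    rw [e, abs_mul, abs_of_nonneg (by positivity : 0 ≤ (L⁻¹) ^ 2)] at hmix
    have h5 : |cov P W1 V1| = L ^ 2 * ((L⁻¹) ^ 2 * |cov P W1 V1|) := by
      field_simp
    rw [h5]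
    exact mul_le_mul_of_nonneg_left hmix (by positivity)
  have e : cov P W V = (∫ ω, W ω * V ω ∂P - ∫ ω, W1 ω * V1 ω ∂P) -
      ((∫ ω, W ω ∂P) * (∫ ω, V ω ∂P) - (∫ ω, W1 ω ∂P) * ∫ ω, V1 ω ∂P) + cov P W1 V1 := by
    unfold cov
    ring
  rw [e]
  refine (abs_add_le _ _).trans ?_
  have h6 := abs_sub (∫ ω, W ω * V ω ∂P - ∫ ω, W1 ω * V1 ω ∂P)
      ((∫ ω, W ω ∂P) * (∫ ω, V ω ∂P) - (∫ ω, W1 ω ∂P) * ∫ ω, V1 ω ∂P)
  have h7 : (2 + 4 * b) / L + 2 * (1 + b) ^ 2 / L ≤ 6 * (1 + b) ^ 2 / L := by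
    rw [← add_div]
    refine div_le_div_of_nonneg_right ?_ hL.le
    nlinarith
  linarith

/-- variance of a sum -/
theorem var_sum {κ : Type*} (s : Finset κ) (W : κ → Ω → ℝ) (hW : ∀ k ∈ s, BM P (W k)) :
    ∫ ω, (∑ k ∈ s, W k ω - ∫ ω', ∑ k ∈ s, W k ω' ∂P) ^ 2 ∂P =
      ∑ k ∈ s, ∑ j ∈ s, cov P (W k) (W j) := by
  have h1 : ∫ ω', ∑ k ∈ s, W k ω' ∂P = ∑ k ∈ s, ∫ ω, W k ω ∂P :=
    integral_finsetSum _ fun k hk => (hW k hk).int
  set a : κ → ℝ := fun k => ∫ ω, W k ω ∂P with ha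
  rw [h1]
  have h2 : ∀ ω, (∑ k ∈ s, W k ω - ∑ k ∈ s, a k) ^ 2 =
      ∑ k ∈ s, ∑ j ∈ s, (W k ω * W j ω - a k * W j ω - a j * W k ω + a k * a j) := by
    intro ω
    rw [← Finset.sum_sub_distrib, sq, Finset.sum_mul_sum]
    refine Finset.sum_congr rfl fun k _ => Finset.sum_congr rfl fun j _ => ?_
    ring
  simp only [h2]
  have hint : ∀ k ∈ s, ∀ j ∈ s,
      Integrable (fun ω => W k ω * W j ω - a k * W j ω - a j * W k ω + a k * a j) P :=
    fun k hk j hj => ((((hW k hk).mul (hW j hj)).int.sub ((hW j hj).const_mul _).int).sub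
      ((hW k hk).const_mul _).int).add (integrable_const _)
  rw [integral_finsetSum _ fun k hk => integrable_finsetSum _ fun j hj => hint k hk j hj]
  refine Finset.sum_congr rfl fun k hk => ?_
  rw [integral_finsetSum _ fun j hj => hint k hk j hj]
  refine Finset.sum_congr rfl fun j hj => ?_
  rw [int_lin4 ((hW k hk).mul (hW j hj)).int (hW j hj).int (hW k hk).int]
  unfold cov
  simp only [ha]
  ring

end cov

end Crest.Agent.R144.Ga5885
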