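import Crest.Agent.R144.Ga5b_885
import Crest.Agent.R144.Ga4_126

/-!
# R144, leaf GA5 of doc 1596 (helper885), part c: conditional Gaussianity from the closed contour Ward identity

Abstract form. `P n` = laws, `X n φ` = the lattice functional `h (-Δ_lattice φ)` at scale `n`,
`𝓕 n U` = σ-algebra of the gradients over `U`. Hypotheses `Mdl` (linearity, locality, second moments,
8th moments, mixing) and `CCW` (closed contour Ward identity). Conclusion `gauss`: for `tsupport φ ⊆ U`, `U` open,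
`sup_Z |E[Z e^{itX}] - e^{-t²v/2} E Z| → 0` over `Z` measurable for `𝓕 n Uᶜ`, `|Z| ≤ 1`.
-/

set_option autoImplicit false

open MeasureTheory Metric Set Filter Topology Laplacian

noncomputable section

namespace Crest.Agent.R144.Ga5885

open Crest.Agent.R144.Ga4126 (ei)

/-- Dirichlet energy in Laplacian form -/
def en (u : ℂ → ℝ) : ℝ := ∫ z, u z * (-(Δ u) z)

/-- scale-indexed family of laws with linear functionals of the field (see the module docstring) -/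
structure Mdl {Ω ι : Type*} [m0 : MeasurableSpace Ω] (l : Filter ι) (P : ι → Measure Ω)
    (X : ι → (ℂ → ℝ) → Ω → ℝ) (𝓕 : ι → Set ℂ → MeasurableSpace Ω) (κ : ℝ) : Prop where
  kpos : 0 ≤ κ
  prob : ∀ n, IsProbabilityMeasure (P n)
  le : ∀ n U, 𝓕 n U ≤ m0
  mono : ∀ n U V, U ⊆ V → 𝓕 n U ≤ 𝓕 n V
  add : ∀ n u v, Tst u → Tst v → ∀ ω, X n (fun z => u z + v z) ω = X n u ω + X n v ω
  meas : ∀ n u, Tst u → Measurable (X n u)
  bdd : ∀ n u, Tst u → ∃ B : ℝ, ∀ᵐ ω ∂P n, |X n u ω| ≤ B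
  loc : ∀ u c r r', Tst u → r < r' → tsupport u ⊆ closedBall c r →
    ∀ᶠ n in l, Measurable[𝓕 n (ball c r')] (X n u)
  coloc : ∀ u c r r', Tst u → r < r' →
    (∃ (a : ℝ) (L : ℂ →L[ℝ] ℝ), ∀ z ∈ ball c r', u z = a + L z) →
    ∀ᶠ n in l, Measurable[𝓕 n (ball c r)ᶜ] (X n u)
  var : ∀ u v, Tst u → Tst v →
    Tendsto (fun n => ∫ ω, X n u ω * X n v ω ∂P n) l (𝓝 (κ * ∫ z, u z * (-(Δ v) z)))
  mom : ∃ M : ℝ, 0 ≤ M ∧ ∀ u, Tst u → ∀ m : ℝ, 0 < m → κ * en u < m ^ 2 → ∫ z, |(Δ u) z| < m →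
    ∀ᶠ n in l, ∫ ω, (X n u ω) ^ 8 ∂P n ≤ M * m ^ 8
  mix : ∀ ε : ℝ, 0 < ε → ∃ R : ℝ, 1 ≤ R ∧ ∀ (c : ℂ) (r : ℝ), 0 < r → ∀ᶠ n in l,
    ∀ F G : Ω → ℝ, Measurable[𝓕 n (ball c r)] F → Measurable[𝓕 n (ball c (R * r))ᶜ] G →
      (∀ ω, |F ω| ≤ 1) → (∀ ω, |G ω| ≤ 1) → |cov (P n) F G| ≤ ε

/-- closed contour Ward identity -/
def CCW {Ω ι : Type*} [MeasurableSpace Ω] (l : Filter ι) (P : ι → Measure Ω)
    (X : ι → (ℂ → ℝ) → Ω → ℝ) (𝓕 : ι → Set ℂ → MeasurableSpace Ω) : Prop :=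
  ∀ u c r r', Tst u → 0 < r → r < r' → tsupport u ⊆ closedBall c r → ∀ ε : ℝ, 0 < ε →
    ∀ᶠ n in l, ∀ Z : Ω → ℂ, Measurable[𝓕 n (ball c r')ᶜ] Z → (∀ ω, ‖Z ω‖ ≤ 1) →
      ‖∫ ω, Z ω * (X n u ω : ℂ) ∂P n‖ ≤ ε

/-- number of near cells -/
theorem card_near (s : Finset (ℤ × ℤ)) (k : ℤ × ℤ) (N : ℕ) :
    ((s.filter fun j => |k.1 - j.1| ≤ (N : ℤ) ∧ |k.2 - j.2| ≤ (N : ℤ)).card : ℝ) ≤
      (2 * N + 1) ^ 2 := by
  classical
  have h1 : (s.filter fun j => |k.1 - j.1| ≤ (N : ℤ) ∧ |k.2 - j.2| ≤ (N : ℤ)) ⊆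
      Finset.Icc (k.1 - N) (k.1 + N) ×ˢ Finset.Icc (k.2 - N) (k.2 + N) := by
    intro j hj
    obtain ⟨-, a, b⟩ := Finset.mem_filter.1 hj
    rw [abs_le] at a b
    rw [Finset.mem_product, Finset.mem_Icc, Finset.mem_Icc]
    omega
  have h2 := Finset.card_le_card h1
  rw [Finset.card_product, Int.card_Icc, Int.card_Icc] at h2
  have e1 : (k.1 + N + 1 - (k.1 - N)).toNat = 2 * N + 1 := by omega
  have e2 : (k.2 + N + 1 - (k.2 - N)).toNat = 2 * N + 1 := by omega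
  rw [e1, e2] at h2
  have h3 : ((s.filter fun j => |k.1 - j.1| ≤ (N : ℤ) ∧ |k.2 - j.2| ≤ (N : ℤ)).card : ℝ) ≤
      (((2 * N + 1) * (2 * N + 1) : ℕ) : ℝ) := by exact_mod_cast h2
  refine h3.trans (le_of_eq ?_)
  push_cast
  ring

theorem dist_ctr_ge {η : ℝ} (hη : 0 < η) {k j : ℤ × ℤ} {N : ℕ}
    (h : ¬ (|k.1 - j.1| ≤ (N : ℤ) ∧ |k.2 - j.2| ≤ (N : ℤ))) : (N : ℝ) * η ≤ dist (ctr η k) (ctr η j) := by
  rw [dist_eq_norm]
  have hr : (ctr η k - ctr η j).re = η * ((k.1 - j.1 : ℤ) : ℝ) := by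
    simp [ctr]
    ring
  have hi : (ctr η k - ctr η j).im = η * ((k.2 - j.2 : ℤ) : ℝ) := by
    simp [ctr]
    ring
  have key : ∀ a : ℤ, (N : ℤ) < |a| → (N : ℝ) * η ≤ |η * (a : ℝ)| := by
    intro a ha
    rw [abs_mul, abs_of_pos hη, mul_comm]
    refine mul_le_mul_of_nonneg_left ?_ hη.le
    have : ((N : ℤ) : ℝ) ≤ ((|a| : ℤ) : ℝ) := by exact_mod_cast ha.le
    rw [Int.cast_abs] at this
    simpa using this
  by_cases h1 : |k.1 - j.1| ≤ (N : ℤ)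
  · have h2 : (N : ℤ) < |k.2 - j.2| := by
      by_contra hc
      exact h ⟨h1, not_lt.1 hc⟩
    have := Complex.abs_im_le_norm (ctr η k - ctr η j)
    rw [hi] at this
    exact (key _ h2).trans this
  · have := Complex.abs_re_le_norm (ctr η k - ctr η j)
    rw [hr] at this
    exact (key _ (not_le.1 h1)).trans this

/-- counting bound of a double sum over near and far pairs -/
theorem sum_pairs (s : Finset (ℤ × ℤ)) (N : ℕ) (F : ℤ × ℤ → ℤ × ℤ → ℝ) {A B : ℝ} (hA : 0 ≤ A)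
    (hB : 0 ≤ B) (h1 : ∀ k ∈ s, ∀ j ∈ s, F k j ≤ A)
    (h2 : ∀ k ∈ s, ∀ j ∈ s, ¬ (|k.1 - j.1| ≤ (N : ℤ) ∧ |k.2 - j.2| ≤ (N : ℤ)) → F k j ≤ B) :
    ∑ k ∈ s, ∑ j ∈ s, F k j ≤ s.card * ((2 * N + 1) ^ 2 * A) + (s.card : ℝ) ^ 2 * B := by
  classical
  have key : ∀ k ∈ s, ∑ j ∈ s, F k j ≤ (2 * N + 1) ^ 2 * A + s.card * B := by
    intro k hk
    rw [← Finset.sum_filter_add_sum_filter_not s
      (fun j => |k.1 - j.1| ≤ (N : ℤ) ∧ |k.2 - j.2| ≤ (N : ℤ))]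
    refine add_le_add ?_ ?_
    · refine (Finset.sum_le_card_nsmul _ _ A fun j hj => h1 k hk j (Finset.mem_filter.1 hj).1).trans ?_
      rw [nsmul_eq_mul]
      exact mul_le_mul_of_nonneg_right (card_near s k N) hA
    · refine (Finset.sum_le_card_nsmul _ _ B fun j hj =>
        h2 k hk j (Finset.mem_filter.1 hj).1 (Finset.mem_filter.1 hj).2).trans ?_
      rw [nsmul_eq_mul]
      refine mul_le_mul_of_nonneg_right ?_ hB
      exact_mod_cast Finset.card_le_card (Finset.filter_subset _ _)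
  refine (Finset.sum_le_card_nsmul _ _ _ key).trans (le_of_eq ?_)
  rw [nsmul_eq_mul]
  ring

section main

variable {Ω ι : Type*} [m0 : MeasurableSpace Ω] {l : Filter ι} {P : ι → Measure Ω}
  {X : ι → (ℂ → ℝ) → Ω → ℝ} {𝓕 : ι → Set ℂ → MeasurableSpace Ω} {κ : ℝ}

theorem Tst.add {u v : ℂ → ℝ} (hu : Tst u) (hv : Tst v) : Tst (fun z => u z + v z) :=
  ⟨hu.1.add hv.1, hu.2.add hv.2⟩

theorem Tst.zero : Tst (fun _ => (0 : ℝ)) := ⟨contDiff_const, HasCompactSupport.zero⟩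

theorem Tst.sub {u v : ℂ → ℝ} (hu : Tst u) (hv : Tst v) : Tst (fun z => u z - v z) := by
  refine ⟨hu.1.sub hv.1, ?_⟩
  have h : HasCompactSupport (fun z => u z + (-1) * v z) := hu.2.add (hv.2.mul_left)
  have e : (fun z => u z - v z) = fun z => u z + (-1) * v z := by
    funext z
    ring
  rw [e]
  exact h

theorem Tst.sum {s : Finset (ℤ × ℤ)} {f : ℤ × ℤ → ℂ → ℝ} (hf : ∀ k, Tst (f k)) :
    Tst (fun z => ∑ k ∈ s, f k z) := by
  classical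
  induction s using Finset.induction_on with
  | empty => simpa using Tst.zero
  | insert a s ha ih =>
    simp only [Finset.sum_insert ha]
    exact (hf a).add ih

namespace Mdl

theorem X_zero (hM : Mdl l P X 𝓕 κ) (n : ι) (ω : Ω) : X n (fun _ => 0) ω = 0 := by
  have := hM.add n _ _ Tst.zero Tst.zero ω
  simp only [add_zero] at this
  linarith

theorem X_sum (hM : Mdl l P X 𝓕 κ) (n : ι) (s : Finset (ℤ × ℤ)) {f : ℤ × ℤ → ℂ → ℝ}
    (hf : ∀ k, Tst (f k)) (ω : Ω) : X n (fun z => ∑ k ∈ s, f k z) ω = ∑ k ∈ s, X n (f k) ω := by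
  classical
  induction s using Finset.induction_on with
  | empty => simpa using hM.X_zero n ω
  | insert a s ha ih =>
    simp only [Finset.sum_insert ha]
    rw [hM.add n _ _ (hf a) (Tst.sum hf), ih]

theorem X_sub (hM : Mdl l P X 𝓕 κ) (n : ι) {u v : ℂ → ℝ} (hu : Tst u) (hv : Tst v) (ω : Ω) :
    X n (fun z => u z - v z) ω = X n u ω - X n v ω := by
  have := hM.add n _ _ (hu.sub hv) hv ω
  simp only [sub_add_cancel] at this
  linarith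

theorem bm (hM : Mdl l P X 𝓕 κ) (n : ι) {u : ℂ → ℝ} (hu : Tst u) : BM (P n) (X n u) :=
  ⟨(hM.meas n u hu).aestronglyMeasurable, hM.bdd n u hu⟩

end Mdl

/-- fourth moment of a normalised product -/
theorem fourth {Q : Measure Ω} [IsProbabilityMeasure Q] {F G : Ω → ℝ} (hF : BM Q F) (hG : BM Q G)
    {a b : ℝ} (ha : 0 < a) (h1 : ∫ ω, F ω ^ 8 ∂Q ≤ b) (h2 : ∫ ω, G ω ^ 8 ∂Q ≤ b * a ^ 8) :
    ∫ ω, (a⁻¹ * (F ω * G ω)) ^ 4 ∂Q ≤ b := by
  have h3 : ∫ ω, (a⁻¹ * (F ω * G ω)) ^ 4 ∂Q ≤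
      ∫ ω, (0 + ((1 / 2) * F ω ^ 8 + (1 / 2 * (a⁻¹) ^ 8) * G ω ^ 8)) ∂Q := by
    refine integral_mono (((hF.mul hG).const_mul _).pow 4).int ((integrable_const _).add
      (((hF.pow 8).const_mul _).int.add ((hG.pow 8).const_mul _).int)) fun ω => ?_
    simp only
    have e1 : (a⁻¹ * (F ω * G ω)) ^ 4 = F ω ^ 4 * ((a⁻¹) ^ 4 * G ω ^ 4) := by ring
    have e2 : (1 / 2 * (a⁻¹) ^ 8) * G ω ^ 8 = 1 / 2 * ((a⁻¹) ^ 4 * G ω ^ 4) ^ 2 := by ring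
    have e3 : F ω ^ 8 = (F ω ^ 4) ^ 2 := by ring
    rw [e1, e2, e3]
    nlinarith [sq_nonneg (F ω ^ 4 - (a⁻¹) ^ 4 * G ω ^ 4)]
  refine h3.trans ?_
  rw [int_lin3 (hF.pow 8).int (hG.pow 8).int]
  have h4 : 1 / 2 * (a⁻¹) ^ 8 * ∫ ω, G ω ^ 8 ∂Q ≤ 1 / 2 * (a⁻¹) ^ 8 * (b * a ^ 8) :=
    mul_le_mul_of_nonneg_left h2 (by positivity)
  have h5 : 1 / 2 * (a⁻¹) ^ 8 * (b * a ^ 8) = 1 / 2 * b := by
    field_simp
  linarith

theorem third {Q : Measure Ω} [IsProbabilityMeasure Q] {F G : Ω → ℝ} (hF : BM Q F) (hG : BM Q G)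
    {a b : ℝ} (ha : 0 < a) (h1 : ∫ ω, F ω ^ 8 ∂Q ≤ b) (h2 : ∫ ω, G ω ^ 8 ∂Q ≤ b * a ^ 8) :
    ∫ ω, |F ω| * G ω ^ 2 ∂Q ≤ a ^ 2 * (3 + 2 * b) := by
  have h3 : ∫ ω, |F ω| * G ω ^ 2 ∂Q ≤
      ∫ ω, (3 * a ^ 2 + (a ^ 2 * F ω ^ 8 + (a ^ 2 * (a⁻¹) ^ 8) * G ω ^ 8)) ∂Q := by
    refine integral_mono (hF.abs.mul (hG.pow 2)).int ((integrable_const _).add
      (((hF.pow 8).const_mul _).int.add ((hG.pow 8).const_mul _).int)) fun ω => ?_
    simp only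
    have e1 : |F ω| * G ω ^ 2 = a ^ 2 * (|F ω| * (a⁻¹ * G ω) ^ 2) := by
      field_simp
    have e2 : 3 * a ^ 2 + (a ^ 2 * F ω ^ 8 + (a ^ 2 * (a⁻¹) ^ 8) * G ω ^ 8) =
        a ^ 2 * (3 + F ω ^ 8 + (a⁻¹ * G ω) ^ 8) := by ring
    rw [e1, e2]
    refine mul_le_mul_of_nonneg_left ?_ (by positivity)
    have m := mul_sq_le (F ω) (a⁻¹ * G ω)
    have q1 : ∀ x : ℝ, x ^ 4 ≤ 1 + x ^ 8 := fun x => by
      nlinarith [sq_nonneg (x ^ 4 - 1), (by positivity : (0 : ℝ) ≤ x ^ 4)]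
    linarith [q1 (F ω), q1 (a⁻¹ * G ω)]
  refine h3.trans ?_
  rw [int_lin3 (hF.pow 8).int (hG.pow 8).int]
  have h4 : a ^ 2 * (a⁻¹) ^ 8 * ∫ ω, G ω ^ 8 ∂Q ≤ a ^ 2 * (a⁻¹) ^ 8 * (b * a ^ 8) :=
    mul_le_mul_of_nonneg_left h2 (by positivity)
  have h5 : a ^ 2 * (a⁻¹) ^ 8 * (b * a ^ 8) = a ^ 2 * b := by
    field_simp
  have h6 : a ^ 2 * ∫ ω, F ω ^ 8 ∂Q ≤ a ^ 2 * b := mul_le_mul_of_nonneg_left h1 (by positivity)
  linarith

/-- `L¹` from variance -/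
theorem abs_dev {Q : Measure Ω} [IsProbabilityMeasure Q] {F : Ω → ℝ} (hF : BM Q F) {v d : ℝ}
    (hd : 0 ≤ d) (h1 : ∫ ω, (F ω - ∫ ω', F ω' ∂Q) ^ 2 ∂Q ≤ d ^ 2) (h2 : |∫ ω, F ω ∂Q - v| ≤ d) :
    ∫ ω, |F ω - v| ∂Q ≤ 2 * d := by
  rcases hd.eq_or_lt with rfl | hd'
  · set m := ∫ ω', F ω' ∂Q with hm
    have hi : Integrable (fun ω => (F ω - m) ^ 2) Q := by
      have e : (fun ω => (F ω - m) ^ 2) = fun ω => F ω ^ 2 - 2 * m * F ω - 0 * F ω + m ^ 2 := by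
        funext ω; ring
      rw [e]
      exact (((hF.pow 2).int.sub (hF.const_mul _).int).sub (hF.const_mul _).int).add
        (integrable_const _)
    have h3 : ∫ ω, (F ω - m) ^ 2 ∂Q = 0 :=
      le_antisymm (by simpa using h1) (integral_nonneg fun ω => sq_nonneg _)
    have h4 := (integral_eq_zero_iff_of_nonneg (fun ω => sq_nonneg _) hi).1 h3
    have h5 : m = v := by
      have := abs_nonpos_iff.1 h2
      linarith
    have h6 : ∫ ω, |F ω - v| ∂Q = 0 := by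
      rw [← h5]
      refine integral_eq_zero_of_ae ?_
      filter_upwards [h4] with ω hω
      have : F ω - m = 0 := by
        have h7 : (F ω - m) ^ 2 = 0 := hω
        exact pow_eq_zero_iff (by norm_num) |>.1 h7
      simp [this]
    rw [h6]
    norm_num
  · set m := ∫ ω', F ω' ∂Q with hm
    have hi : Integrable (fun ω => (F ω - m) ^ 2) Q := by
      have e : (fun ω => (F ω - m) ^ 2) = fun ω => F ω ^ 2 - 2 * m * F ω - 0 * F ω + m ^ 2 := by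
        funext ω; ring
      rw [e]
      exact (((hF.pow 2).int.sub (hF.const_mul _).int).sub (hF.const_mul _).int).add
        (integrable_const _)
    have h3 : ∀ ω, |F ω - v| ≤ (2 * d)⁻¹ * (F ω - m) ^ 2 + (d / 2 + d) := by
      intro ω
      have h4 : |F ω - v| ≤ |F ω - m| + |m - v| := by
        have := abs_add_le (F ω - m) (m - v)
        rwa [sub_add_sub_cancel] at this
      have h5 : |F ω - m| ≤ (2 * d)⁻¹ * (F ω - m) ^ 2 + d / 2 := by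
        rw [← sq_abs (F ω - m)]
        have h6 : 0 ≤ (2 * d)⁻¹ * (|F ω - m| - d) ^ 2 := by positivity
        have h7 : (2 * d)⁻¹ * (|F ω - m| - d) ^ 2 =
            (2 * d)⁻¹ * |F ω - m| ^ 2 - |F ω - m| + d / 2 := by
          field_simp
          ring
        linarith
      linarith
    calc ∫ ω, |F ω - v| ∂Q ≤ ∫ ω, ((2 * d)⁻¹ * (F ω - m) ^ 2 + (d / 2 + d)) ∂Q := by
          refine integral_mono (hF.int.sub (integrable_const _)).abs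
            ((hi.const_mul _).add (integrable_const _)) h3
      _ = (2 * d)⁻¹ * ∫ ω, (F ω - m) ^ 2 ∂Q + (d / 2 + d) := by
          rw [integral_add (hi.const_mul _) (integrable_const _), integral_const_mul]
          simp
      _ ≤ (2 * d)⁻¹ * d ^ 2 + (d / 2 + d) := by
          have := mul_le_mul_of_nonneg_left h1 (by positivity : (0 : ℝ) ≤ (2 * d)⁻¹)
          linarith
      _ = 2 * d := by
          field_simp
          ring

end main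

end Crest.Agent.R144.Ga5885
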