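import Crest.Agent.R144.Ga5c_885

/-!
# R144, leaf GA5 of doc 1596 (helper885), part d: the main theorem

`gauss`: `Mdl` + `CCW` imply the conditional Gaussian limit.
-/

set_option autoImplicit false

open MeasureTheory Metric Set Filter Topology Laplacian

noncomputable section

namespace Crest.Agent.R144.Ga5885

open Crest.Agent.R144.Ga4126 (ei norm_ei)

variable {Ω ι : Type*} [m0 : MeasurableSpace Ω] {l : Filter ι} {P : ι → Measure Ω}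
  {X : ι → (ℂ → ℝ) → Ω → ℝ} {𝓕 : ι → Set ℂ → MeasurableSpace Ω} {κ : ℝ}

/-- the eventual properties of one cell family at one scale index -/
structure Good (P : Measure Ω) (X : (ℂ → ℝ) → Ω → ℝ) (𝓕 : Set ℂ → MeasurableSpace Ω)
    (η R b ε' ε1 : ℝ) (φ : ℂ → ℝ) (s : Finset (ℤ × ℤ)) (f g : ℤ × ℤ → ℂ → ℝ) : Prop where
  mf : ∀ k ∈ s, Measurable[𝓕 (ball (ctr η k) (7 * η))] (X (f k))
  mg : ∀ k ∈ s, Measurable[𝓕 (ball (ctr η k) (7 * η))] (X (g k))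
  mc : ∀ k ∈ s, Measurable[𝓕 (ball (ctr η k) (5 / 2 * η))ᶜ] (X (fun z => φ z - g k z))
  hf : ∀ k ∈ s, ∫ ω, X (f k) ω ^ 8 ∂P ≤ b
  hg : ∀ k ∈ s, ∫ ω, X (g k) ω ^ 8 ∂P ≤ b * (η ^ 2) ^ 8
  mix : ∀ k ∈ s, ∀ F G : Ω → ℝ, Measurable[𝓕 (ball (ctr η k) (7 * η))] F →
    Measurable[𝓕 (ball (ctr η k) (R * (7 * η)))ᶜ] G → (∀ ω, |F ω| ≤ 1) → (∀ ω, |G ω| ≤ 1) →
      |cov P F G| ≤ ε'
  ward : ∀ k ∈ s, ∀ Z : Ω → ℂ, Measurable[𝓕 (ball (ctr η k) (5 / 2 * η))ᶜ] Z →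
    (∀ ω, ‖Z ω‖ ≤ 1) → ‖∫ ω, Z ω * (X (f k) ω : ℂ) ∂P‖ ≤ ε1

/-- variance of the quadratic sum -/
theorem var_quad {Q : Measure Ω} [IsProbabilityMeasure Q] {Y : (ℂ → ℝ) → Ω → ℝ}
    {𝓖 : Set ℂ → MeasurableSpace Ω} (hmono : ∀ U V, U ⊆ V → 𝓖 U ≤ 𝓖 V)
    {η R b ε' ε1 C : ℝ} {φ : ℂ → ℝ} {s : Finset (ℤ × ℤ)} {f g : ℤ × ℤ → ℂ → ℝ}
    (hb0 : 0 ≤ b) (hε' : 0 ≤ ε') (hR : 1 ≤ R) (hη : 0 < η)
    (hY : ∀ k, BM Q (Y (f k))) (hY' : ∀ k, BM Q (Y (g k)))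
    (G : Good Q Y 𝓖 η R b ε' ε1 φ s f g) (hcard : (s.card : ℝ) ≤ C / η ^ 2) {L : ℝ} (hL : 0 < L) :
    ∫ ω, (∑ k ∈ s, Y (f k) ω * Y (g k) ω - ∫ ω', ∑ k ∈ s, Y (f k) ω' * Y (g k) ω' ∂Q) ^ 2 ∂Q ≤
      C * η ^ 2 * ((2 * ⌈7 * (R + 1)⌉₊ + 1) ^ 2 * (2 * (1 + b) ^ 2)) +
        C ^ 2 * (L ^ 2 * ε' + 6 * (1 + b) ^ 2 / L) := by
  have hC : 0 ≤ C := by
    have h1 : 0 ≤ C / η ^ 2 := (Nat.cast_nonneg _).trans hcard
    have h2 : 0 < η ^ 2 := by positivity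
    by_contra hc
    have := div_neg_of_neg_of_pos (not_le.1 hc) h2
    linarith
  set W : ℤ × ℤ → Ω → ℝ := fun k ω => (η ^ 2)⁻¹ * (Y (f k) ω * Y (g k) ω) with hW
  have hη2 : 0 < η ^ 2 := by positivity
  have bW : ∀ k, BM Q (W k) := fun k => ((hY k).mul (hY' k)).const_mul _
  have fW : ∀ k ∈ s, ∫ ω, W k ω ^ 4 ∂Q ≤ b := fun k hk =>
    fourth (hY k) (hY' k) hη2 (G.hf k hk) (G.hg k hk)
  have e1 : ∀ ω, ∑ k ∈ s, Y (f k) ω * Y (g k) ω = η ^ 2 * ∑ k ∈ s, W k ω := by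
    intro ω
    rw [Finset.mul_sum]
    refine Finset.sum_congr rfl fun k _ => ?_
    simp only [hW]
    field_simp
  have e2 : ∫ ω, (∑ k ∈ s, Y (f k) ω * Y (g k) ω -
      ∫ ω', ∑ k ∈ s, Y (f k) ω' * Y (g k) ω' ∂Q) ^ 2 ∂Q =
      (η ^ 2) ^ 2 * ∫ ω, (∑ k ∈ s, W k ω - ∫ ω', ∑ k ∈ s, W k ω' ∂Q) ^ 2 ∂Q := by
    have e3 : ∫ ω', ∑ k ∈ s, Y (f k) ω' * Y (g k) ω' ∂Q = η ^ 2 * ∫ ω', ∑ k ∈ s, W k ω' ∂Q := by
      simp only [e1]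
      exact integral_const_mul _ _
    have e4 : ∀ ω, (∑ k ∈ s, Y (f k) ω * Y (g k) ω -
        ∫ ω', ∑ k ∈ s, Y (f k) ω' * Y (g k) ω' ∂Q) ^ 2 =
        (η ^ 2) ^ 2 * (∑ k ∈ s, W k ω - ∫ ω', ∑ k ∈ s, W k ω' ∂Q) ^ 2 := by
      intro ω
      rw [e3, e1]
      ring
    simp only [e4]
    exact integral_const_mul _ _
  rw [e2, var_sum s W fun k _ => bW k]
  have h1 : ∑ k ∈ s, ∑ j ∈ s, cov Q (W k) (W j) ≤ s.card * ((2 * ⌈7 * (R + 1)⌉₊ + 1) ^ 2 *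
      (2 * (1 + b) ^ 2)) + (s.card : ℝ) ^ 2 * (L ^ 2 * ε' + 6 * (1 + b) ^ 2 / L) := by
    refine sum_pairs s ⌈7 * (R + 1)⌉₊ (fun k j => cov Q (W k) (W j)) (by positivity) (by positivity)
      (fun k hk j hj => ?_) (fun k hk j hj hkj => ?_)
    · exact (le_abs_self _).trans (abs_cov_le_near (bW k) (bW j) (fW k hk) (fW j hj))
    · refine (le_abs_self _).trans (abs_cov_le_far (bW k) (bW j) hL (fW k hk) (fW j hj) ?_)
      have hd := dist_ctr_ge hη hkj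
      have hN : 7 * (R + 1) ≤ (⌈7 * (R + 1)⌉₊ : ℝ) := Nat.le_ceil _
      have hsub : ball (ctr η j) (7 * η) ⊆ (ball (ctr η k) (R * (7 * η)))ᶜ := by
        intro z hz hz'
        have a1 := mem_ball.1 hz
        have a2 := mem_ball.1 hz'
        have a3 : dist (ctr η k) (ctr η j) ≤ dist z (ctr η k) + dist z (ctr η j) := by
          rw [dist_comm z (ctr η k)]
          exact dist_triangle _ _ _
        have a4 : 7 * (R + 1) * η ≤ dist (ctr η k) (ctr η j) :=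
          (mul_le_mul_of_nonneg_right hN hη.le).trans hd
        nlinarith
      have mW : ∀ i ∈ s, Measurable[𝓖 (ball (ctr η i) (7 * η))] (fun ω => L⁻¹ * clp L (W i ω)) := by
        intro i hi
        have q1 : Measurable[𝓖 (ball (ctr η i) (7 * η))] (W i) :=
          Measurable.const_mul (Measurable.mul (G.mf i hi) (G.mg i hi)) _
        exact Measurable.const_mul ((measurable_clp L).comp q1) _
      have bd1 : ∀ i, ∀ ω, |L⁻¹ * clp L (W i ω)| ≤ 1 := by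
        intro i ω
        rw [abs_mul, abs_of_pos (inv_pos.2 hL)]
        calc L⁻¹ * |clp L (W i ω)| ≤ L⁻¹ * L :=
              mul_le_mul_of_nonneg_left (abs_clp_le hL.le _) (inv_pos.2 hL).le
          _ = 1 := inv_mul_cancel₀ hL.ne'
      exact G.mix k hk _ _ (mW k hk) ((mW j hj).mono (hmono _ _ hsub) le_rfl) (bd1 k) (bd1 j)
  have h2 : (η ^ 2) ^ 2 * ∑ k ∈ s, ∑ j ∈ s, cov Q (W k) (W j) ≤ (η ^ 2) ^ 2 *
      (s.card * ((2 * ⌈7 * (R + 1)⌉₊ + 1) ^ 2 * (2 * (1 + b) ^ 2)) +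
        (s.card : ℝ) ^ 2 * (L ^ 2 * ε' + 6 * (1 + b) ^ 2 / L)) :=
    mul_le_mul_of_nonneg_left h1 (by positivity)
  refine h2.trans ?_
  have h3 : (s.card : ℝ) * η ^ 2 ≤ C := by rwa [le_div_iff₀ hη2] at hcard
  have h4 : (η ^ 2) ^ 2 * (s.card * ((2 * (⌈7 * (R + 1)⌉₊ : ℝ) + 1) ^ 2 * (2 * (1 + b) ^ 2)) +
        (s.card : ℝ) ^ 2 * (L ^ 2 * ε' + 6 * (1 + b) ^ 2 / L)) =
      (s.card * η ^ 2) * η ^ 2 * ((2 * (⌈7 * (R + 1)⌉₊ : ℝ) + 1) ^ 2 * (2 * (1 + b) ^ 2)) +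
        (s.card * η ^ 2) ^ 2 * (L ^ 2 * ε' + 6 * (1 + b) ^ 2 / L) := by ring
  rw [h4]
  have h5 : 0 ≤ L ^ 2 * ε' + 6 * (1 + b) ^ 2 / L := by positivity
  have h6 : (0 : ℝ) ≤ (2 * (⌈7 * (R + 1)⌉₊ : ℝ) + 1) ^ 2 * (2 * (1 + b) ^ 2) := by positivity
  have h7 : (s.card * η ^ 2) ^ 2 ≤ C ^ 2 := pow_le_pow_left₀ (by positivity) h3 2
  refine add_le_add (mul_le_mul_of_nonneg_right (mul_le_mul_of_nonneg_right h3 hη2.le) h6)
    (mul_le_mul_of_nonneg_right h7 h5)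

/-- one scale: the Stein estimate for a good cell family -/
theorem stein_cells (hM : Mdl l P X 𝓕 κ) {n : ι} {φ : ℂ → ℝ} (hφ : Tst φ) {U : Set ℂ}
    {η R b ε' ε1 C : ℝ} {s : Finset (ℤ × ℤ)} {f g : ℤ × ℤ → ℂ → ℝ} (hc : IsCells φ η C s f g)
    (hb0 : 0 ≤ b) (hε' : 0 ≤ ε') (hR : 1 ≤ R) (hη : 0 < η)
    (hU : ∀ k ∈ s, ball (ctr η k) (5 / 2 * η) ⊆ U)
    (G : Good (P n) (X n) (𝓕 n) η R b ε' ε1 φ s f g) {L : ℝ} (hL : 0 < L) {v d t : ℝ} (hv : 0 ≤ v)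
    (hd : 0 ≤ d) (hd2 : C * η ^ 2 * ((2 * ⌈7 * (R + 1)⌉₊ + 1) ^ 2 * (2 * (1 + b) ^ 2)) +
        C ^ 2 * (L ^ 2 * ε' + 6 * (1 + b) ^ 2 / L) ≤ d ^ 2)
    (hE : |∫ ω, ∑ k ∈ s, X n (f k) ω * X n (g k) ω ∂P n - v| ≤ d)
    {Z : Ω → ℂ} (hZ : Measurable[𝓕 n Uᶜ] Z) (hZ1 : ∀ ω, ‖Z ω‖ ≤ 1) :
    ‖(∫ ω, Z ω * ei (t * X n φ ω) ∂P n) - (Real.exp (-(t ^ 2 * v / 2)) : ℂ) * ∫ ω, Z ω ∂P n‖ ≤
      |t| * (s.card * ε1) + |t| ^ 3 / 2 * (C * η ^ 2 * (3 + 2 * b)) + t ^ 2 / 2 * (2 * d) := by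
  have := hM.prob n
  have hη2 : 0 < η ^ 2 := by positivity
  have hsum : ∀ ω, X n φ ω = ∑ k ∈ s, X n (f k) ω := by
    intro ω
    have h1 : φ = fun z => ∑ k ∈ s, f k z := funext fun z => (hc.sum z).symm
    conv_lhs => rw [h1]
    exact hM.X_sum n s hc.tf ω
  have bX : ∀ k, BM (P n) (X n (f k)) := fun k => hM.bm n (hc.tf k)
  have bY : ∀ k, BM (P n) (X n (g k)) := fun k => hM.bm n (hc.tg k)
  have hZm : Measurable Z := hZ.mono (hM.le n _) le_rfl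
  have key := Crest.Agent.R144.Ga4126.stein (P := P n) (s := s) (X := fun k => X n (f k))
    (Y := fun k => X n (g k)) (Z := Z) (v := v) (t := t) (e1 := fun _ => ε1)
    (e2 := fun _ => (η ^ 2) ^ 2 * (3 + 2 * b)) (e3 := 2 * d)
    hZm.aestronglyMeasurable (Eventually.of_forall hZ1) (fun k _ => (bX k).int)
    (fun k _ => (hM.meas n _ (hc.tg k)).aestronglyMeasurable)
    (fun k _ => ((bX k).abs.mul ((bY k).pow 2)).int) hv ?_ ?_ ?_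
  · simp only [← hsum] at key
    refine key.trans ?_
    rw [Finset.sum_const, Finset.sum_const, nsmul_eq_mul, nsmul_eq_mul]
    have h3 : (s.card : ℝ) * η ^ 2 ≤ C := by
      have := hc.card
      rwa [le_div_iff₀ hη2] at this
    have h4 : (s.card : ℝ) * ((η ^ 2) ^ 2 * (3 + 2 * b)) ≤ C * η ^ 2 * (3 + 2 * b) := by
      have e : (s.card : ℝ) * ((η ^ 2) ^ 2 * (3 + 2 * b)) =
          (s.card * η ^ 2) * (η ^ 2 * (3 + 2 * b)) := by ring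
      rw [e, mul_assoc C]
      exact mul_le_mul_of_nonneg_right h3 (by positivity)
    have h5 : |t| ^ 3 / 2 * ((s.card : ℝ) * ((η ^ 2) ^ 2 * (3 + 2 * b))) ≤
        |t| ^ 3 / 2 * (C * η ^ 2 * (3 + 2 * b)) := mul_le_mul_of_nonneg_left h4 (by positivity)
    linarith
  · intro k hk r _
    have e : ∀ ω, (∑ j ∈ s, X n (f j) ω - X n (g k) ω) = X n (fun z => φ z - g k z) ω := by
      intro ω
      rw [hM.X_sub n hφ (hc.tg k), hsum]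
    set Z' : Ω → ℂ := fun ω => Z ω * ei (r * X n (fun z => φ z - g k z) ω) with hZ'
    have mZ : Measurable[𝓕 n (ball (ctr η k) (5 / 2 * η))ᶜ] Z := by
      refine hZ.mono (hM.mono n _ _ ?_) le_rfl
      exact compl_subset_compl.2 (hU k hk)
    have mei : Measurable (fun x : ℝ => ei (r * x)) := by
      unfold ei
      fun_prop
    have mZ' : Measurable[𝓕 n (ball (ctr η k) (5 / 2 * η))ᶜ] Z' :=
      Measurable.mul mZ (mei.comp (G.mc k hk))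
    have h := G.ward k hk Z' mZ' (fun ω => by
      simp only [hZ']
      rw [norm_mul, norm_ei, mul_one]
      exact hZ1 ω)
    refine le_trans (le_of_eq ?_) h
    congr 1
    refine integral_congr_ae (Eventually.of_forall fun ω => ?_)
    simp only [hZ', e]
    ring
  · intro k hk
    have := third (bX k) (bY k) hη2 (G.hf k hk) (G.hg k hk)
    exact this
  · have bQ : BM (P n) (fun ω => ∑ k ∈ s, X n (f k) ω * X n (g k) ω) := by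
      have : ∀ k, ∃ B : ℝ, ∀ᵐ ω ∂P n, |X n (f k) ω * X n (g k) ω| ≤ B := fun k =>
        ((bX k).mul (bY k)).2
      choose B hB using this
      refine ⟨(Finset.measurable_sum s fun k _ =>
        (hM.meas n _ (hc.tf k)).mul (hM.meas n _ (hc.tg k))).aestronglyMeasurable, ∑ k ∈ s, B k, ?_⟩
      have h1 : ∀ᵐ ω ∂P n, ∀ k ∈ s, |X n (f k) ω * X n (g k) ω| ≤ B k :=
        (ae_ball_iff s.countable_toSet).2 fun k _ => hB k
      filter_upwards [h1] with ω hω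
      exact (Finset.abs_sum_le_sum_abs _ _).trans (Finset.sum_le_sum hω)
    refine abs_dev bQ hd ?_ hE
    exact (var_quad (hM.mono n) hb0 hε' hR hη bX bY G hc.card hL).trans hd2

theorem par1 {A D : ℝ} (hA : 0 ≤ A) (hD : 0 < D) : ∃ L : ℝ, 0 < L ∧ A / L ≤ D := by
  refine ⟨(A + 1) / D, by positivity, ?_⟩
  rw [div_div_eq_mul_div, div_le_iff₀ (by positivity)]
  nlinarith

theorem par2 {A D : ℝ} (hA : 0 ≤ A) (hD : 0 < D) : ∃ x : ℝ, 0 < x ∧ A * x ≤ D := by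
  refine ⟨D / (A + 1), by positivity, ?_⟩
  rw [← mul_div_assoc, div_le_iff₀ (by positivity)]
  nlinarith

theorem par3 {A B D E ρ : ℝ} (hA : 0 ≤ A) (hB : 0 ≤ B) (hD : 0 < D) (hE : 0 < E) (hρ : 0 < ρ) :
    ∃ η : ℝ, 0 < η ∧ η ≤ 1 ∧ η < ρ ∧ A * η ^ 2 ≤ D ∧ B * η ^ 2 ≤ E := by
  obtain ⟨x, hx, hx2⟩ := par2 hA hD
  obtain ⟨y, hy, hy2⟩ := par2 hB hE
  refine ⟨min (min 1 (ρ / 2)) (min x y), by positivity,
    (min_le_left _ _).trans (min_le_left _ _), ?_, ?_, ?_⟩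
  · have : min (min 1 (ρ / 2)) (min x y) ≤ ρ / 2 := (min_le_left _ _).trans (min_le_right _ _)
    linarith
  all_goals
    obtain ⟨η, hη⟩ : ∃ η, η = min (min 1 (ρ / 2)) (min x y) := ⟨_, rfl⟩
    rw [← hη]
    have hηpos : 0 < η := by rw [hη]; positivity
    have h1 : η ≤ 1 := by rw [hη]; exact (min_le_left _ _).trans (min_le_left _ _)
    have h2 : η ^ 2 ≤ η := by nlinarith
  · have h3 : η ≤ x := by rw [hη]; exact (min_le_right _ _).trans (min_le_left _ _)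
    exact (mul_le_mul_of_nonneg_left (h2.trans h3) hA).trans hx2
  · have h3 : η ≤ y := by rw [hη]; exact (min_le_right _ _).trans (min_le_right _ _)
    exact (mul_le_mul_of_nonneg_left (h2.trans h3) hB).trans hy2

theorem par4 {t ε : ℝ} (hε : 0 < ε) : ∃ d : ℝ, 0 < d ∧ t ^ 2 / 2 * (2 * d) ≤ ε / 3 := by
  obtain ⟨d, hd, hd2⟩ := par2 (A := t ^ 2) (D := ε / 3) (by positivity) (by positivity)
  exact ⟨d, hd, by linarith⟩

/-- the eventual properties -/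
theorem eventually_good (hM : Mdl l P X 𝓕 κ) (hW : CCW l P X 𝓕) {φ : ℂ → ℝ} (hφ : Tst φ)
    {M : ℝ}
    (hmom : ∀ u, Tst u → ∀ m : ℝ, 0 < m → κ * en u < m ^ 2 → ∫ z, |(Δ u) z| < m →
      ∀ᶠ n in l, ∫ ω, (X n u ω) ^ 8 ∂P n ≤ M * m ^ 8)
    {C m1 : ℝ} (hC : 0 < C) (hm1 : m1 = 144 * (κ * C ^ 2) + 144 * C + 1)
    {η R ε' ε1 : ℝ} (hη : 0 < η) (hε1 : 0 < ε1)
    (hmix : ∀ (c : ℂ) (r : ℝ), 0 < r → ∀ᶠ n in l,
      ∀ F G : Ω → ℝ, Measurable[𝓕 n (ball c r)] F → Measurable[𝓕 n (ball c (R * r))ᶜ] G →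
        (∀ ω, |F ω| ≤ 1) → (∀ ω, |G ω| ≤ 1) → |cov (P n) F G| ≤ ε')
    {s : Finset (ℤ × ℤ)} {f g : ℤ × ℤ → ℂ → ℝ} (hc : IsCells φ η C s f g) :
    ∀ᶠ n in l, Good (P n) (X n) (𝓕 n) η R (M * m1 ^ 8) ε' ε1 φ s f g := by
  have hκ := hM.kpos
  have hη2 : 0 < η ^ 2 := by positivity
  have hκC : 0 ≤ κ * C ^ 2 := by positivity
  have hm1one : 1 ≤ m1 := by
    rw [hm1]
    linarith
  have hm1pos : 0 < m1 := by linarith
  have hm1sq : m1 ≤ m1 ^ 2 := by nlinarith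
  have q1 : ∀ᶠ n in l, ∀ k ∈ s, Measurable[𝓕 n (ball (ctr η k) (7 * η))] (X n (f k)) :=
    (s.finite_toSet.eventually_all).2 fun k _ =>
      hM.loc (f k) (ctr η k) (2 * η) (7 * η) (hc.tf k) (by linarith) (hc.sf k)
  have q2 : ∀ᶠ n in l, ∀ k ∈ s, Measurable[𝓕 n (ball (ctr η k) (7 * η))] (X n (g k)) :=
    (s.finite_toSet.eventually_all).2 fun k _ =>
      hM.loc (g k) (ctr η k) (6 * η) (7 * η) (hc.tg k) (by linarith) (hc.sg k)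
  have q3 : ∀ᶠ n in l, ∀ k ∈ s,
      Measurable[𝓕 n (ball (ctr η k) (5 / 2 * η))ᶜ] (X n (fun z => φ z - g k z)) :=
    (s.finite_toSet.eventually_all).2 fun k _ =>
      hM.coloc _ (ctr η k) (5 / 2 * η) (3 * η) (hφ.sub (hc.tg k)) (by linarith) (hc.aff k)
  have q4 : ∀ᶠ n in l, ∀ k ∈ s, ∫ ω, X n (f k) ω ^ 8 ∂P n ≤ M * m1 ^ 8 := by
    refine (s.finite_toSet.eventually_all).2 fun k _ => ?_
    refine hmom (f k) (hc.tf k) m1 hm1pos ?_ ?_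
    · have h1 : κ * en (f k) ≤ κ * (16 * C ^ 2) := mul_le_mul_of_nonneg_left (hc.en_f hη k) hκ
      have h4 : κ * (16 * C ^ 2) = 16 * (κ * C ^ 2) := by ring
      linarith
    · have h1 := hc.int_lap_f hη k
      linarith
  have q5 : ∀ᶠ n in l, ∀ k ∈ s, ∫ ω, X n (g k) ω ^ 8 ∂P n ≤ M * m1 ^ 8 * (η ^ 2) ^ 8 := by
    refine (s.finite_toSet.eventually_all).2 fun k _ => ?_
    have h0 := hmom (g k) (hc.tg k) (m1 * η ^ 2) (by positivity) ?_ ?_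
    · filter_upwards [h0] with n hn
      refine hn.trans (le_of_eq ?_)
      ring
    · have h1 : κ * en (g k) ≤ κ * (144 * C ^ 2 * η ^ 4) :=
        mul_le_mul_of_nonneg_left (hc.en_g hη k) hκ
      have h5 : κ * (144 * C ^ 2 * η ^ 4) = 144 * (κ * C ^ 2) * η ^ 4 := by ring
      have h6 : (m1 * η ^ 2) ^ 2 = m1 ^ 2 * η ^ 4 := by ring
      rw [h6]
      refine h1.trans_lt ?_
      rw [h5]
      exact mul_lt_mul_of_pos_right (by linarith) (by positivity)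
    · have h1 := hc.int_lap_g hη k
      exact h1.trans_lt (mul_lt_mul_of_pos_right (by linarith) hη2)
  have q6 : ∀ᶠ n in l, ∀ k ∈ s, ∀ F G : Ω → ℝ, Measurable[𝓕 n (ball (ctr η k) (7 * η))] F →
      Measurable[𝓕 n (ball (ctr η k) (R * (7 * η)))ᶜ] G → (∀ ω, |F ω| ≤ 1) →
        (∀ ω, |G ω| ≤ 1) → |cov (P n) F G| ≤ ε' :=
    (s.finite_toSet.eventually_all).2 fun k _ => hmix (ctr η k) (7 * η) (by positivity)
  have q7 : ∀ᶠ n in l, ∀ k ∈ s, ∀ Z : Ω → ℂ,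
      Measurable[𝓕 n (ball (ctr η k) (5 / 2 * η))ᶜ] Z → (∀ ω, ‖Z ω‖ ≤ 1) →
        ‖∫ ω, Z ω * (X n (f k) ω : ℂ) ∂P n‖ ≤ ε1 :=
    (s.finite_toSet.eventually_all).2 fun k _ =>
      hW (f k) (ctr η k) (2 * η) (5 / 2 * η) (hc.tf k) (by positivity) (by linarith) (hc.sf k)
        ε1 hε1
  filter_upwards [q1, q2, q3, q4, q5, q6, q7] with n a1 a2 a3 a4 a5 a6 a7
  exact ⟨a1, a2, a3, a4, a5, a6, a7⟩

theorem eventually_var (hM : Mdl l P X 𝓕 κ) {φ : ℂ → ℝ} (hφ : Tst φ) {C η : ℝ} (hη : 0 < η)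
    {s : Finset (ℤ × ℤ)} {f g : ℤ × ℤ → ℂ → ℝ} (hc : IsCells φ η C s f g) {d : ℝ} (hd : 0 < d) :
    ∀ᶠ n in l, |∫ ω, ∑ k ∈ s, X n (f k) ω * X n (g k) ω ∂P n - κ * en φ| ≤ d := by
  have h1 : Tendsto (fun n => ∑ k ∈ s, ∫ ω, X n (f k) ω * X n (g k) ω ∂P n) l
      (𝓝 (∑ k ∈ s, κ * ∫ z, f k z * (-(Δ (g k)) z))) :=
    tendsto_finsetSum _ fun k _ => hM.var (f k) (g k) (hc.tf k) (hc.tg k)
  have h2 : ∑ k ∈ s, κ * ∫ z, f k z * (-(Δ (g k)) z) = κ * en φ := by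
    rw [← Finset.mul_sum, hc.sum_en hη hφ]
    rfl
  rw [h2] at h1
  have h3 := Metric.tendsto_nhds.1 h1 d hd
  filter_upwards [h3] with n hn
  have := hM.prob n
  rw [integral_finsetSum _ fun k _ =>
    ((hM.bm n (hc.tf k)).mul (hM.bm n (hc.tg k))).int]
  rw [Real.dist_eq] at hn
  exact hn.le

/-- **conditional Gaussian limit from the closed contour Ward identity** -/
theorem gauss (hM : Mdl l P X 𝓕 κ) (hW : CCW l P X 𝓕) {φ : ℂ → ℝ} (hφ : Tst φ) {U : Set ℂ}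
    (hUo : IsOpen U) (hs : tsupport φ ⊆ U) (t : ℝ) {ε : ℝ} (hε : 0 < ε) :
    ∀ᶠ n in l, ∀ Z : Ω → ℂ, Measurable[𝓕 n Uᶜ] Z → (∀ ω, ‖Z ω‖ ≤ 1) →
      ‖(∫ ω, Z ω * ei (t * X n φ ω) ∂P n) -
        (Real.exp (-(t ^ 2 * (κ * en φ) / 2)) : ℂ) * ∫ ω, Z ω ∂P n‖ ≤ ε := by
  rcases l.eq_or_neBot with rfl | hne
  · exact eventually_bot
  have hκ := hM.kpos
  have hv : 0 ≤ κ * en φ := by
    refine ge_of_tendsto (hM.var φ φ hφ hφ) (Eventually.of_forall fun n => ?_)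
    exact integral_nonneg fun ω => mul_self_nonneg _
  obtain ⟨C, hC, hcells⟩ := exists_cells hφ
  obtain ⟨M, hM0, hmom⟩ := hM.mom
  obtain ⟨m1, hm1⟩ : ∃ m1 : ℝ, m1 = 144 * (κ * C ^ 2) + 144 * C + 1 := ⟨_, rfl⟩
  have hm1pos : 0 < m1 := by rw [hm1]; positivity
  obtain ⟨b, hb⟩ : ∃ b : ℝ, b = M * m1 ^ 8 := ⟨_, rfl⟩
  have hb0 : 0 ≤ b := by rw [hb]; positivity
  obtain ⟨d, hdpos, htd⟩ := par4 (t := t) hε
  obtain ⟨D, hD⟩ : ∃ D : ℝ, D = d ^ 2 / 3 := ⟨_, rfl⟩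
  have hDpos : 0 < D := by rw [hD]; positivity
  obtain ⟨L, hL, hL2⟩ := par1 (A := C ^ 2 * (6 * (1 + b) ^ 2)) (D := D) (by positivity) hDpos
  obtain ⟨ε', hε', hε2⟩ := par2 (A := C ^ 2 * L ^ 2) (D := D) (by positivity) hDpos
  obtain ⟨R, hR, hmix⟩ := hM.mix ε' hε'
  obtain ⟨ρ, hρ, hρU⟩ := (hφ.2 : IsCompact (tsupport φ)).exists_thickening_subset_open hUo hs
  obtain ⟨η, hη, hη1, hηρ, hηK, hηt⟩ := par3
    (A := C * ((2 * (⌈7 * (R + 1)⌉₊ : ℝ) + 1) ^ 2 * (2 * (1 + b) ^ 2)))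
    (B := |t| ^ 3 / 2 * (C * (3 + 2 * b))) (D := D) (E := ε / 3) (ρ := ρ / 5)
    (by positivity) (by positivity) hDpos (by positivity) (by positivity)
  obtain ⟨s, f, g, hc⟩ := hcells η hη hη1
  obtain ⟨ε1, hε1, hte⟩ := par2 (A := |t| * s.card) (D := ε / 3) (by positivity) (by positivity)
  have hgood := eventually_good hM hW hφ hmom hC hm1 hη hε1 hmix hc
  rw [← hb] at hgood
  have hvar := eventually_var hM hφ hη hc hdpos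
  have hball : ∀ k ∈ s, ball (ctr η k) (5 / 2 * η) ⊆ U := by
    intro k hk w hw
    obtain ⟨z, hz, hzk⟩ := hc.near k hk
    apply hρU
    rw [mem_thickening_iff]
    refine ⟨z, hz, ?_⟩
    have h1 := mem_ball.1 hw
    have h2 := dist_triangle w (ctr η k) z
    rw [dist_comm (ctr η k) z] at h2
    linarith
  filter_upwards [hgood, hvar] with n hG hE Z hZ hZ1
  have hd2 : C * η ^ 2 * ((2 * ⌈7 * (R + 1)⌉₊ + 1) ^ 2 * (2 * (1 + b) ^ 2)) +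
      C ^ 2 * (L ^ 2 * ε' + 6 * (1 + b) ^ 2 / L) ≤ d ^ 2 := by
    have e : C ^ 2 * (L ^ 2 * ε' + 6 * (1 + b) ^ 2 / L) =
        C ^ 2 * L ^ 2 * ε' + C ^ 2 * (6 * (1 + b) ^ 2) / L := by ring
    have e2 : C * η ^ 2 * ((2 * (⌈7 * (R + 1)⌉₊ : ℝ) + 1) ^ 2 * (2 * (1 + b) ^ 2)) =
        C * ((2 * (⌈7 * (R + 1)⌉₊ : ℝ) + 1) ^ 2 * (2 * (1 + b) ^ 2)) * η ^ 2 := by ring
    rw [e, e2]
    have h3 : 3 * D = d ^ 2 := by rw [hD]; ring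
    linarith
  have hfin := stein_cells hM hφ (U := U) hc hb0 hε'.le hR hη hball hG hL (t := t) hv
    hdpos.le hd2 hE hZ hZ1
  have e4 : |t| * (s.card * ε1) = |t| * s.card * ε1 := by ring
  have e5 : |t| ^ 3 / 2 * (C * η ^ 2 * (3 + 2 * b)) =
      |t| ^ 3 / 2 * (C * (3 + 2 * b)) * η ^ 2 := by ring
  rw [e4, e5] at hfin
  linarith

end Crest.Agent.R144.Ga5885
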