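import Crest.Agent.R144.Til_353
import Crest.Prelude.Def_HexHeights

/-!
# R144 / HexTil_353 : the hexagonal cells form a convex tiling; touching cells are adjacent
-/

set_option autoImplicit false

noncomputable section

namespace Crest.Agent.R144.HexTil353

open Set Topology Crest.ProbabilityR.HexHeights Crest.Agent.R144.Til353

/-- quadratic form of the triangular lattice -/
def N (a b : ℝ) : ℝ := a ^ 2 + a * b + b ^ 2

theorem N_ge (a b : ℝ) : (1 / 2) * (a ^ 2 + b ^ 2) ≤ N a b := by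
  unfold N; nlinarith [sq_nonneg (a + b)]

/-- real version of `centre` -/
def cen (δ a b : ℝ) : ℂ := (δ : ℂ) * ((a : ℂ) + (b : ℂ) * (1 / 2 + (Real.sqrt 3 / 2 : ℝ) * Complex.I))

theorem centre_eq (δ : ℝ) (u : ℤ × ℤ) : centre δ u = cen δ u.1 u.2 := by
  unfold centre cen
  push_cast
  rfl

theorem cen_re (δ a b : ℝ) : (cen δ a b).re = δ * (a + b / 2) := by
  unfold cen
  simp [Complex.mul_re, Complex.mul_im]
  left; ring

theorem cen_im (δ a b : ℝ) : (cen δ a b).im = δ * (b * (Real.sqrt 3 / 2)) := by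
  unfold cen
  simp [Complex.mul_re, Complex.mul_im]

theorem cen_sub (δ a b a' b' : ℝ) : cen δ a b - cen δ a' b' = cen δ (a - a') (b - b') := by
  unfold cen; push_cast; ring

theorem cen_add (δ a b a' b' : ℝ) : cen δ a b + cen δ a' b' = cen δ (a + a') (b + b') := by
  unfold cen; push_cast; ring

theorem norm_cen_sq (δ a b : ℝ) : ‖cen δ a b‖ ^ 2 = δ ^ 2 * N a b := by
  rw [← Complex.normSq_eq_norm_sq, Complex.normSq_apply, cen_re, cen_im]
  unfold N
  have h3 : Real.sqrt 3 * Real.sqrt 3 = 3 := Real.mul_self_sqrt (by norm_num)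
  linear_combination (δ ^ 2 * b ^ 2 / 4) * h3

/-- first coordinate -/
def ca (δ : ℝ) (z : ℂ) : ℝ := (z.re - z.im / Real.sqrt 3) / δ
/-- second coordinate -/
def cb (δ : ℝ) (z : ℂ) : ℝ := (2 * z.im / Real.sqrt 3) / δ

theorem cen_ca_cb {δ : ℝ} (hδ : 0 < δ) (z : ℂ) : cen δ (ca δ z) (cb δ z) = z := by
  have h3 : Real.sqrt 3 ≠ 0 := by positivity
  apply Complex.ext
  · rw [cen_re]; unfold ca cb; field_simp; ring
  · rw [cen_im]; unfold cb; field_simp

theorem ca_cen {δ : ℝ} (hδ : 0 < δ) (a b : ℝ) : ca δ (cen δ a b) = a := by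
  have h3 : Real.sqrt 3 ≠ 0 := by positivity
  unfold ca
  rw [cen_re, cen_im]; field_simp; ring

theorem cb_cen {δ : ℝ} (hδ : 0 < δ) (a b : ℝ) : cb δ (cen δ a b) = b := by
  have h3 : Real.sqrt 3 ≠ 0 := by positivity
  unfold cb
  rw [cen_im]; field_simp

theorem dist_cen_sq (δ a b a' b' : ℝ) :
    dist (cen δ a b) (cen δ a' b') ^ 2 = δ ^ 2 * N (a - a') (b - b') := by
  rw [dist_eq_norm, cen_sub, norm_cen_sq]

theorem mem_cell_iff (δ : ℝ) (u : ℤ × ℤ) (z : ℂ) :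
    z ∈ cell δ u ↔ ∀ v : ℤ × ℤ, dist z (centre δ u) ≤ dist z (centre δ v) := Iff.rfl

theorem N_int (a b : ℤ) : N a b = ((a ^ 2 + a * b + b ^ 2 : ℤ) : ℝ) := by
  unfold N; push_cast; ring

theorem int_N_pos {a b : ℤ} (h : ¬ (a = 0 ∧ b = 0)) : 1 ≤ a ^ 2 + a * b + b ^ 2 := by
  by_contra hcon
  push Not at hcon
  have h1 : (2 * a + b) ^ 2 + 3 * b ^ 2 ≤ 0 := by nlinarith
  have h2 : b = 0 := by nlinarith [sq_nonneg (2 * a + b), sq_nonneg b]
  subst h2
  have h3 : a = 0 := by nlinarith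
  exact h ⟨h3, rfl⟩

theorem int_N_small {a b : ℤ} (h : a ^ 2 + a * b + b ^ 2 < 3) :
    (a = 0 ∧ b = 0) ∨ (a = 1 ∧ b = 0) ∨ (a = -1 ∧ b = 0) ∨ (a = 0 ∧ b = 1) ∨ (a = 0 ∧ b = -1) ∨
      (a = 1 ∧ b = -1) ∨ (a = -1 ∧ b = 1) := by
  have hb1 : b ≤ 1 := by nlinarith [sq_nonneg (2 * a + b)]
  have hb2 : -1 ≤ b := by nlinarith [sq_nonneg (2 * a + b)]
  have ha1 : a ≤ 1 := by nlinarith [sq_nonneg (2 * b + a)]
  have ha2 : -1 ≤ a := by nlinarith [sq_nonneg (2 * b + a)]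
  have hb : b = -1 ∨ b = 0 ∨ b = 1 := by omega
  have ha : a = -1 ∨ a = 0 ∨ a = 1 := by omega
  rcases ha with rfl | rfl | rfl <;> rcases hb with rfl | rfl | rfl <;> omega

theorem adj_iff (u v : ℤ × ℤ) : Adj u v ↔ (v.1 - u.1) ^ 2 + (v.1 - u.1) * (v.2 - u.2) + (v.2 - u.2) ^ 2 = 1 := by
  unfold Adj
  constructor
  · rintro (⟨h1, h2⟩ | ⟨h1, h2⟩ | ⟨h1, h2⟩ | ⟨h1, h2⟩ | ⟨h1, h2⟩ | ⟨h1, h2⟩) <;> rw [h1, h2] <;> norm_num
  · intro h
    have := int_N_small (a := v.1 - u.1) (b := v.2 - u.2) (by omega)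
    rcases this with ⟨h1, h2⟩ | h1 | h1 | h1 | h1 | h1 | h1
    · rw [h1, h2] at h; norm_num at h
    all_goals tauto

theorem dist_centre_sq (δ : ℝ) (u v : ℤ × ℤ) :
    dist (centre δ u) (centre δ v) ^ 2 =
      δ ^ 2 * (((v.1 - u.1) ^ 2 + (v.1 - u.1) * (v.2 - u.2) + (v.2 - u.2) ^ 2 : ℤ) : ℝ) := by
  rw [centre_eq, centre_eq, dist_cen_sq]
  unfold N
  push_cast
  ring

theorem le_dist_centre {δ : ℝ} (hδ : 0 < δ) {u v : ℤ × ℤ} (h : u ≠ v) :
    δ ≤ dist (centre δ u) (centre δ v) := by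
  have h1 : ¬ (v.1 - u.1 = 0 ∧ v.2 - u.2 = 0) := by
    rintro ⟨h1, h2⟩
    exact h (Prod.ext (by omega) (by omega))
  have h2 := int_N_pos h1
  have h3 := dist_centre_sq δ u v
  have h4 : (1 : ℝ) ≤ (((v.1 - u.1) ^ 2 + (v.1 - u.1) * (v.2 - u.2) + (v.2 - u.2) ^ 2 : ℤ) : ℝ) := by
    exact_mod_cast h2
  have h5 : δ ^ 2 ≤ dist (centre δ u) (centre δ v) ^ 2 := by
    rw [h3]; nlinarith [sq_nonneg δ]
  exact (abs_le_of_sq_le_sq' h5 dist_nonneg).2

/-- half-plane description -/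
theorem dist_le_iff (z p q : ℂ) :
    dist z p ≤ dist z q ↔ 2 * (z.re * (q.re - p.re) + z.im * (q.im - p.im)) ≤
      (q.re ^ 2 + q.im ^ 2) - (p.re ^ 2 + p.im ^ 2) := by
  have h1 : dist z p ≤ dist z q ↔ dist z p ^ 2 ≤ dist z q ^ 2 :=
    ⟨fun h => pow_le_pow_left₀ dist_nonneg h 2, fun h => abs_le_of_sq_le_sq' h dist_nonneg |>.2⟩
  rw [h1, dist_eq_norm, dist_eq_norm, ← Complex.normSq_eq_norm_sq, ← Complex.normSq_eq_norm_sq,
    Complex.normSq_apply, Complex.normSq_apply]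
  simp only [Complex.sub_re, Complex.sub_im]
  constructor <;> intro h <;> nlinarith

theorem convex_cell (δ : ℝ) (u : ℤ × ℤ) : Convex ℝ (cell δ u) := by
  intro x hx y hy a b ha hb hab v
  have h1 := (dist_le_iff _ _ _).1 (hx v)
  have h2 := (dist_le_iff _ _ _).1 (hy v)
  rw [dist_le_iff]
  simp only [Complex.add_re, Complex.add_im, Complex.smul_re, Complex.smul_im, smul_eq_mul]
  have hb' : b = 1 - a := by linarith
  subst hb'
  nlinarith [mul_le_mul_of_nonneg_left h1 ha, mul_le_mul_of_nonneg_left h2 hb]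

theorem isClosed_cell (δ : ℝ) (u : ℤ × ℤ) : IsClosed (cell δ u) := by
  have : cell δ u = ⋂ v : ℤ × ℤ, {z | dist z (centre δ u) ≤ dist z (centre δ v)} := by
    ext z; simp [cell]
  rw [this]
  exact isClosed_iInter fun v => isClosed_le (by fun_prop) (by fun_prop)

theorem ball_subset_cell {δ : ℝ} (hδ : 0 < δ) (u : ℤ × ℤ) :
    Metric.ball (centre δ u) (δ / 2) ⊆ cell δ u := by
  intro z hz v
  rw [Metric.mem_ball] at hz
  by_cases h : u = v
  · rw [h]
  · have h1 := le_dist_centre hδ h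
    have h2 := dist_triangle_left (centre δ u) (centre δ v) z
    linarith

theorem int_cell_ne {δ : ℝ} (hδ : 0 < δ) (u : ℤ × ℤ) : (interior (cell δ u)).Nonempty :=
  ⟨centre δ u, interior_maximal (ball_subset_cell hδ u) Metric.isOpen_ball
    (Metric.mem_ball_self (by linarith))⟩

theorem cell_disj {δ : ℝ} (hδ : 0 < δ) (u v : ℤ × ℤ) (h : u ≠ v) :
    Disjoint (interior (cell δ u)) (cell δ v) := by
  rw [Set.disjoint_left]
  intro z hz hzv
  -- move a little towards the centre of `v`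
  set d : ℂ := centre δ v - centre δ u with hd
  have hd0 : 0 < ‖d‖ := by
    have := le_dist_centre hδ h
    rw [dist_comm, dist_eq_norm] at this
    linarith
  obtain ⟨ε, hε, hball⟩ := Metric.isOpen_iff.1 isOpen_interior z hz
  set t : ℝ := ε / (2 * ‖d‖) with ht
  have ht0 : 0 < t := by positivity
  have hmem : z + (t : ℂ) * d ∈ cell δ u := by
    apply interior_subset
    apply hball
    rw [Metric.mem_ball, dist_eq_norm]
    have : z + (t : ℂ) * d - z = (t : ℂ) * d := by ring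
    rw [this, norm_mul, Complex.norm_real, Real.norm_of_nonneg ht0.le, ht]
    have : ε / (2 * ‖d‖) * ‖d‖ = ε / 2 := by field_simp
    rw [this]; linarith
  have h1 := (dist_le_iff _ _ _).1 (hmem v)
  have h2 := (dist_le_iff _ _ _).1 (hzv u)
  have h3 : 0 < d.re ^ 2 + d.im ^ 2 := by
    have : ‖d‖ ^ 2 = d.re ^ 2 + d.im ^ 2 := by
      rw [← Complex.normSq_eq_norm_sq, Complex.normSq_apply]; ring
    rw [← this]; positivity
  have hre : d.re = (centre δ v).re - (centre δ u).re := by rw [hd, Complex.sub_re]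
  have him : d.im = (centre δ v).im - (centre δ u).im := by rw [hd, Complex.sub_im]
  simp only [Complex.add_re, Complex.add_im, Complex.mul_re, Complex.mul_im, Complex.ofReal_re,
    Complex.ofReal_im, zero_mul, sub_zero, add_zero] at h1
  rw [← hre, ← him] at h1
  have h2' : 2 * (z.re * (-d.re) + z.im * (-d.im)) ≤
      ((centre δ u).re ^ 2 + (centre δ u).im ^ 2) - ((centre δ v).re ^ 2 + (centre δ v).im ^ 2) := by
    rw [hre, him]; linarith
  nlinarith [mul_pos ht0 h3]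

theorem hexq {p q : ℝ} (h1 : p ≤ 1) (h2 : -1 ≤ p) (h3 : q ≤ 1) (h4 : -1 ≤ q) (h5 : p - q ≤ 1)
    (h6 : -1 ≤ p - q) : p ^ 2 - p * q + q ^ 2 ≤ 1 := by
  have a1 : p ^ 2 ≤ 1 := by nlinarith
  have a2 : q ^ 2 ≤ 1 := by nlinarith
  have a3 : (p - q) ^ 2 ≤ 1 := by nlinarith
  rcases le_total 0 (p * q) with h | h
  · rcases le_total (q ^ 2) (p ^ 2) with h' | h'
    · have : q ^ 2 ≤ p * q := by
        refine (abs_le_of_sq_le_sq' ?_ h).2
        nlinarith [sq_nonneg q, mul_le_mul_of_nonneg_left h' (sq_nonneg q)]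
      linarith
    · have : p ^ 2 ≤ p * q := by
        refine (abs_le_of_sq_le_sq' ?_ h).2
        nlinarith [sq_nonneg p, mul_le_mul_of_nonneg_left h' (sq_nonneg p)]
      linarith
  · nlinarith

/-- covering radius: a point of the cell is within `δ/√3` of the centre -/
theorem dist_le_of_mem_cell {δ : ℝ} (hδ : 0 < δ) {u : ℤ × ℤ} {z : ℂ} (hz : z ∈ cell δ u) :
    3 * dist z (centre δ u) ^ 2 ≤ δ ^ 2 := by
  -- coordinates of z relative to u
  set a := ca δ z - u.1 with ha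
  set b := cb δ z - u.2 with hb
  have hN : ∀ v : ℤ × ℤ, dist z (centre δ v) ^ 2 = δ ^ 2 * N (ca δ z - v.1) (cb δ z - v.2) := by
    intro v
    conv_lhs => rw [← cen_ca_cb hδ z]
    rw [centre_eq, dist_cen_sq]
  have key : ∀ p q : ℤ, N a b ≤ N (a - p) (b - q) := by
    intro p q
    have h1 := hz (u.1 + p, u.2 + q)
    have h2 : dist z (centre δ u) ^ 2 ≤ dist z (centre δ (u.1 + p, u.2 + q)) ^ 2 :=
      pow_le_pow_left₀ dist_nonneg h1 2
    rw [hN, hN] at h2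
    have h3 := le_of_mul_le_mul_left h2 (by positivity)
    push_cast at h3
    have e : N (a - p) (b - q) = N (ca δ z - (u.1 + p)) (cb δ z - (u.2 + q)) := by
      rw [ha, hb]; unfold N; ring
    rw [e]
    exact h3
  rw [hN]
  change 3 * (δ ^ 2 * N a b) ≤ δ ^ 2
  have h1 := key 1 0
  have h2 := key (-1) 0
  have h3 := key 0 1
  have h4 := key 0 (-1)
  have h5 := key 1 (-1)
  have h6 := key (-1) 1
  unfold N at *
  push_cast at *
  -- linear consequences
  have e1 : 2 * a + b ≤ 1 := by nlinarith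
  have e2 : -1 ≤ 2 * a + b := by nlinarith
  have e3 : a + 2 * b ≤ 1 := by nlinarith
  have e4 : -1 ≤ a + 2 * b := by nlinarith
  have e5 : a - b ≤ 1 := by nlinarith
  have e6 : -1 ≤ a - b := by nlinarith
  have hfin : 3 * (a ^ 2 + a * b + b ^ 2) ≤ 1 := by
    -- with p = 2a+b, q = a+2b : 3N = p² - p q + q², |p|,|q|,|p-q| ≤ 1
    have : 3 * (a ^ 2 + a * b + b ^ 2) =
        (2 * a + b) ^ 2 - (2 * a + b) * (a + 2 * b) + (a + 2 * b) ^ 2 := by ring
    rw [this]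
    exact hexq e1 e2 e3 e4 (by linarith) (by linarith)
  nlinarith [sq_nonneg δ, mul_le_mul_of_nonneg_left hfin (sq_nonneg δ)]

theorem touch {δ : ℝ} (hδ : 0 < δ) {u v : ℤ × ℤ} (h : (cell δ u ∩ cell δ v).Nonempty) :
    u = v ∨ Adj u v := by
  obtain ⟨z, hz1, hz2⟩ := h
  have h1 := dist_le_of_mem_cell hδ hz1
  have h2 := dist_le_of_mem_cell hδ hz2
  have h3 := dist_triangle_left (centre δ u) (centre δ v) z
  have h4 : 3 * dist (centre δ u) (centre δ v) ^ 2 ≤ 4 * δ ^ 2 := by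
    have h5 : dist (centre δ u) (centre δ v) ^ 2 ≤
        (dist z (centre δ u) + dist z (centre δ v)) ^ 2 :=
      pow_le_pow_left₀ dist_nonneg h3 2
    nlinarith [sq_nonneg (dist z (centre δ u) - dist z (centre δ v))]
  rw [dist_centre_sq] at h4
  have h5 : 3 * (((v.1 - u.1) ^ 2 + (v.1 - u.1) * (v.2 - u.2) + (v.2 - u.2) ^ 2 : ℤ) : ℝ) ≤ 4 := by
    have : 0 < δ ^ 2 := by positivity
    nlinarith
  have h6 : 3 * ((v.1 - u.1) ^ 2 + (v.1 - u.1) * (v.2 - u.2) + (v.2 - u.2) ^ 2) ≤ (4 : ℤ) := by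
    exact_mod_cast h5
  by_cases h7 : v.1 - u.1 = 0 ∧ v.2 - u.2 = 0
  · left
    exact Prod.ext (by omega) (by omega)
  · right
    rw [adj_iff]
    have := int_N_pos h7
    omega

theorem finite_near {δ : ℝ} (hδ : 0 < δ) (z : ℂ) (R : ℝ) :
    {v : ℤ × ℤ | dist z (centre δ v) ≤ R}.Finite := by
  -- coordinates are bounded
  set B : ℝ := 2 * (|R| / δ) + |ca δ z| + |cb δ z| with hB
  obtain ⟨M, hM⟩ := exists_nat_gt B
  refine Set.Finite.subset (Set.Finite.prod (Set.finite_Icc (-(M : ℤ)) M)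
    (Set.finite_Icc (-(M : ℤ)) M)) ?_
  intro v hv
  have h1 : dist z (centre δ v) ^ 2 = δ ^ 2 * N (ca δ z - v.1) (cb δ z - v.2) := by
    conv_lhs => rw [← cen_ca_cb hδ z]
    rw [centre_eq, dist_cen_sq]
  have h2 : dist z (centre δ v) ^ 2 ≤ |R| ^ 2 :=
    pow_le_pow_left₀ dist_nonneg (le_trans hv (le_abs_self R)) 2
  rw [h1] at h2
  have h3 := N_ge (ca δ z - v.1) (cb δ z - v.2)
  have h4 : N (ca δ z - v.1) (cb δ z - v.2) ≤ (|R| / δ) ^ 2 := by
    rw [div_pow, le_div_iff₀ (by positivity)]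
    linarith
  have hx : (ca δ z - v.1) ^ 2 ≤ (2 * (|R| / δ)) ^ 2 := by nlinarith [sq_nonneg (cb δ z - v.2), sq_nonneg (|R| / δ)]
  have hy : (cb δ z - v.2) ^ 2 ≤ (2 * (|R| / δ)) ^ 2 := by nlinarith [sq_nonneg (ca δ z - v.1), sq_nonneg (|R| / δ)]
  have hx' := abs_le_of_sq_le_sq hx (by positivity)
  have hy' := abs_le_of_sq_le_sq hy (by positivity)
  rw [abs_le] at hx' hy'
  have g1 := neg_abs_le (ca δ z)
  have g2 := le_abs_self (ca δ z)
  have g3 := neg_abs_le (cb δ z)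
  have g4 := le_abs_self (cb δ z)
  have g5 := abs_nonneg (ca δ z)
  have g6 := abs_nonneg (cb δ z)
  have p1 : (v.1 : ℝ) ≤ (M : ℤ) := by push_cast; linarith [hx'.1, hx'.2]
  have p2 : (-(M : ℤ) : ℝ) ≤ (v.1 : ℝ) := by push_cast; linarith [hx'.1, hx'.2]
  have p3 : (v.2 : ℝ) ≤ (M : ℤ) := by push_cast; linarith [hy'.1, hy'.2]
  have p4 : (-(M : ℤ) : ℝ) ≤ (v.2 : ℝ) := by push_cast; linarith [hy'.1, hy'.2]
  refine ⟨⟨?_, ?_⟩, ⟨?_, ?_⟩⟩
  · exact_mod_cast p2
  · exact_mod_cast p1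
  · exact_mod_cast p4
  · exact_mod_cast p3

theorem exists_cell {δ : ℝ} (hδ : 0 < δ) (z : ℂ) : ∃ u, z ∈ cell δ u := by
  set S : Set (ℤ × ℤ) := {v | dist z (centre δ v) ≤ dist z (centre δ (0, 0))} with hS
  have hfin : S.Finite := finite_near hδ z _
  have hne : S.Nonempty := ⟨(0, 0), by
    change dist z (centre δ (0, 0)) ≤ dist z (centre δ (0, 0))
    exact le_rfl⟩
  obtain ⟨u, hu, hmin⟩ := hfin.exists_minimalFor (fun v => dist z (centre δ v)) S hne
  refine ⟨u, fun v => ?_⟩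
  by_cases hv : v ∈ S
  · rcases le_total (dist z (centre δ u)) (dist z (centre δ v)) with h | h
    · exact h
    · exact hmin hv h
  · have : dist z (centre δ (0, 0)) < dist z (centre δ v) := not_le.1 hv
    exact (le_trans hu this.le)

theorem locallyFinite_cell {δ : ℝ} (hδ : 0 < δ) : LocallyFinite (cell δ) := by
  intro z
  refine ⟨Metric.ball z 1, Metric.ball_mem_nhds z one_pos, ?_⟩
  refine (finite_near hδ z (1 + δ)).subset ?_
  rintro u ⟨y, hy, hyz⟩
  have h1 := dist_le_of_mem_cell hδ hy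
  have h2 : dist y (centre δ u) ≤ δ := by
    refine abs_le_of_sq_le_sq' ?_ hδ.le |>.2
    nlinarith [sq_nonneg (dist y (centre δ u))]
  rw [Metric.mem_ball, dist_comm] at hyz
  have h3 := dist_triangle z y (centre δ u)
  change dist z (centre δ u) ≤ 1 + δ
  linarith

/-- **The hexagonal tiling.** -/
theorem tiling {δ : ℝ} (hδ : 0 < δ) : Tiling (cell δ) where
  convex := convex_cell δ
  closed := isClosed_cell δ
  int_ne := int_cell_ne hδ
  disj := cell_disj hδ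
  locfin := locallyFinite_cell hδ
  cover := by
    rw [eq_univ_iff_forall]
    intro z
    obtain ⟨u, hu⟩ := exists_cell hδ z
    exact mem_iUnion.2 ⟨u, hu⟩

end Crest.Agent.R144.HexTil353
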