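import Mathlib
import Crest.Agent.R144.HexTil_353
import Crest.Prelude.Def_TriHeights

/-! R144 (helper268) GEO block, file 4: lattice coordinates: change of variables, closed triangles
in coordinates, barycentric coordinates. -/


set_option autoImplicit false

noncomputable section

open Set Topology Filter Metric MeasureTheory

namespace Crest.Agent.R144.Geo268

open Crest.ProbabilityR.HexHeights Crest.ProbabilityR.TriHeights Crest.Agent.R144.HexTil353

/-- the lattice coordinates as a linear map of the plane -/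
def latL (δ : ℝ) : ℝ × ℝ →ₗ[ℝ] ℝ × ℝ :=
  Matrix.toLin (Module.Basis.finTwoProd ℝ) (Module.Basis.finTwoProd ℝ) !![δ, δ / 2; 0, δ * (Real.sqrt 3 / 2)]

theorem latL_apply (δ : ℝ) (p : ℝ × ℝ) :
    latL δ p = (δ * (p.1 + p.2 / 2), δ * (p.2 * (Real.sqrt 3 / 2))) := by
  rw [latL, Matrix.toLin_finTwoProd_apply]
  ext
  · simp only; ring
  · simp only; ring

theorem latL_det (δ : ℝ) : LinearMap.det (latL δ) = Real.sqrt 3 / 2 * δ ^ 2 := by
  rw [latL, LinearMap.det_toLin, Matrix.det_fin_two_of]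
  ring

theorem cen_eq_lat (δ : ℝ) (p : ℝ × ℝ) :
    cen δ p.1 p.2 = Complex.measurableEquivRealProd.symm (latL δ p) := by
  apply Complex.ext
  · rw [cen_re, latL_apply]; rfl
  · rw [cen_im, latL_apply]; rfl

theorem latL_injective {δ : ℝ} (hδ : 0 < δ) : Function.Injective (latL δ) := by
  have h : LinearMap.det (latL δ) ≠ 0 := by rw [latL_det]; positivity
  exact (LinearMap.equivOfDetNeZero _ h).injective

/-- change of variables to lattice coordinates -/
theorem integral_cen {E : Type*} [NormedAddCommGroup E] [NormedSpace ℝ E] {δ : ℝ} (hδ : 0 < δ)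
    (g : ℂ → E) :
    ∫ z, g z = (Real.sqrt 3 / 2 * δ ^ 2) • ∫ p : ℝ × ℝ, g (cen δ p.1 p.2) := by
  have hdet : LinearMap.det (latL δ) ≠ 0 := by rw [latL_det]; positivity
  have h1 : ∫ z, g z = ∫ q : ℝ × ℝ, g (Complex.measurableEquivRealProd.symm q) :=
    ((Complex.volume_preserving_equiv_real_prod.symm Complex.measurableEquivRealProd).integral_comp
      Complex.measurableEquivRealProd.symm.measurableEmbedding g).symm
  have h2 := Measure.map_linearMap_addHaar_eq_smul_addHaar (volume : Measure (ℝ × ℝ)) hdet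
  set e := (LinearMap.equivOfDetNeZero _ hdet).toContinuousLinearEquiv with he
  have h3 : ∀ p, e p = latL δ p := fun p => rfl
  have h4 : ∫ p : ℝ × ℝ, g (cen δ p.1 p.2) =
      ∫ q, g (Complex.measurableEquivRealProd.symm q) ∂(Measure.map (latL δ) volume) := by
    have h5 : (latL δ : ℝ × ℝ → ℝ × ℝ) = e := by funext p; exact (h3 p).symm
    have hm : MeasurableEmbedding (e : ℝ × ℝ → ℝ × ℝ) := e.toHomeomorph.measurableEmbedding
    rw [h5, hm.integral_map]
    refine integral_congr_ae (ae_of_all _ fun p => ?_)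
    simp only
    rw [cen_eq_lat]
    rfl
  rw [h4, h2, integral_smul_measure, h1, latL_det, smul_smul,
    ENNReal.toReal_ofReal (abs_nonneg _), abs_of_pos (by positivity)]
  rw [mul_inv_cancel₀ (by positivity), one_smul]

/-- lattice coordinates relative to a lattice point -/
theorem cen_coord {δ : ℝ} (hδ : 0 < δ) (z : ℂ) (u : ℤ × ℤ) :
    z = cen δ (u.1 + (ca δ z - u.1)) (u.2 + (cb δ z - u.2)) := by
  rw [add_sub_cancel, add_sub_cancel, cen_ca_cb hδ]

theorem ca_add {δ : ℝ} (z w : ℂ) : ca δ (z + w) = ca δ z + ca δ w := by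
  unfold ca; rw [Complex.add_re, Complex.add_im]; ring

theorem cb_add {δ : ℝ} (z w : ℂ) : cb δ (z + w) = cb δ z + cb δ w := by
  unfold cb; rw [Complex.add_im]; ring

theorem ca_smul {δ : ℝ} (r : ℝ) (z : ℂ) : ca δ (r • z) = r * ca δ z := by
  unfold ca; rw [Complex.smul_re, Complex.smul_im, smul_eq_mul, smul_eq_mul]; ring

theorem cb_smul {δ : ℝ} (r : ℝ) (z : ℂ) : cb δ (r • z) = r * cb δ z := by
  unfold cb; rw [Complex.smul_im, smul_eq_mul]; ring

theorem ca_centre {δ : ℝ} (hδ : 0 < δ) (u : ℤ × ℤ) : ca δ (centre δ u) = u.1 := by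
  rw [centre_eq, ca_cen hδ]

theorem cb_centre {δ : ℝ} (hδ : 0 < δ) (u : ℤ × ℤ) : cb δ (centre δ u) = u.2 := by
  rw [centre_eq, cb_cen hδ]

theorem corners_true (u : ℤ × ℤ) : corners (u, true) = {u, (u.1 + 1, u.2), (u.1, u.2 + 1)} := by
  ext v
  simp only [corners, corner, Finset.mem_image, Finset.mem_univ, true_and, Finset.mem_insert,
    Finset.mem_singleton, if_true]
  constructor
  · rintro ⟨k, rfl⟩
    fin_cases k <;> simp
  · rintro (rfl | rfl | rfl)
    · exact ⟨0, rfl⟩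
    · exact ⟨1, rfl⟩
    · exact ⟨2, rfl⟩

theorem corners_false (u : ℤ × ℤ) :
    corners (u, false) = {(u.1 + 1, u.2), (u.1, u.2 + 1), (u.1 + 1, u.2 + 1)} := by
  ext v
  simp only [corners, corner, Finset.mem_image, Finset.mem_univ, true_and, Finset.mem_insert,
    Finset.mem_singleton, Bool.false_eq_true, if_false]
  constructor
  · rintro ⟨k, rfl⟩
    fin_cases k <;> simp
  · rintro (rfl | rfl | rfl)
    · exact ⟨0, rfl⟩
    · exact ⟨1, rfl⟩
    · exact ⟨2, rfl⟩

/-- three points inside a convex set: barycentric combination -/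
theorem mem_hull3 {a b c z : ℂ} {S : Set ℂ} (ha : a ∈ S) (hb : b ∈ S) (hc : c ∈ S)
    {x y w : ℝ} (hx : 0 ≤ x) (hy : 0 ≤ y) (hw : 0 ≤ w) (h1 : w + x + y = 1)
    (hz : z = w • a + x • b + y • c) : z ∈ convexHull ℝ S := by
  have hcv := convex_convexHull ℝ S
  have ha' := subset_convexHull ℝ S ha
  have hb' := subset_convexHull ℝ S hb
  have hc' := subset_convexHull ℝ S hc
  have h2 := hcv.sum_mem (t := Finset.univ) (w := ![w, x, y]) (z := ![a, b, c])
    (by intro i _; fin_cases i <;> simpa) (by simp [Fin.sum_univ_three, h1])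
    (by intro i _; fin_cases i <;> simpa)
  rw [hz]
  simpa [Fin.sum_univ_three] using h2

theorem mem_tri_true {δ : ℝ} (hδ : 0 < δ) (u : ℤ × ℤ) (z : ℂ) :
    z ∈ triRegion δ (u, true) ↔ 0 ≤ ca δ z - u.1 ∧ 0 ≤ cb δ z - u.2 ∧
      (ca δ z - u.1) + (cb δ z - u.2) ≤ 1 := by
  constructor
  · intro hz
    have hsub : (fun v => centre δ v) '' (corners (u, true) : Set (ℤ × ℤ)) ⊆
        {z : ℂ | 0 ≤ ca δ z - u.1 ∧ 0 ≤ cb δ z - u.2 ∧ (ca δ z - u.1) + (cb δ z - u.2) ≤ 1} := by
      rintro _ ⟨v, hv, rfl⟩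
      rw [corners_true] at hv
      simp only [Finset.coe_insert, Finset.coe_singleton, mem_insert_iff, mem_singleton_iff] at hv
      simp only [mem_ofPred_eq, ca_centre hδ, cb_centre hδ]
      rcases hv with rfl | rfl | rfl <;> simp
    have hconv : Convex ℝ {z : ℂ | 0 ≤ ca δ z - u.1 ∧ 0 ≤ cb δ z - u.2 ∧
        (ca δ z - u.1) + (cb δ z - u.2) ≤ 1} := by
      intro z hz w hw a b ha hb hab
      simp only [mem_ofPred_eq, ca_add, cb_add, ca_smul, cb_smul] at hz hw ⊢
      have e1 : (u.1 : ℝ) = a * u.1 + b * u.1 := by rw [← add_mul, hab, one_mul]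
      have e2 : (u.2 : ℝ) = a * u.2 + b * u.2 := by rw [← add_mul, hab, one_mul]
      refine ⟨?_, ?_, ?_⟩
      · rw [e1]; nlinarith [mul_nonneg ha hz.1, mul_nonneg hb hw.1]
      · rw [e2]; nlinarith [mul_nonneg ha hz.2.1, mul_nonneg hb hw.2.1]
      · rw [e1, e2]
        nlinarith [mul_nonneg ha (sub_nonneg.2 hz.2.2), mul_nonneg hb (sub_nonneg.2 hw.2.2)]
    exact convexHull_min hsub hconv hz
  · rintro ⟨h1, h2, h3⟩
    refine mem_hull3 (a := centre δ u) (b := centre δ (u.1 + 1, u.2)) (c := centre δ (u.1, u.2 + 1))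
      (w := 1 - (ca δ z - u.1) - (cb δ z - u.2)) (x := ca δ z - u.1) (y := cb δ z - u.2)
      ⟨u, by rw [corners_true]; simp, rfl⟩ ⟨_, by rw [corners_true]; simp, rfl⟩
      ⟨_, by rw [corners_true]; simp, rfl⟩ h1 h2 (by linarith) (by ring) ?_
    conv_lhs => rw [← cen_ca_cb hδ z]
    rw [centre_eq, centre_eq, centre_eq]
    unfold cen
    simp only [Complex.real_smul]
    push_cast
    ring

theorem mem_tri_false {δ : ℝ} (hδ : 0 < δ) (u : ℤ × ℤ) (z : ℂ) :
    z ∈ triRegion δ (u, false) ↔ ca δ z - u.1 ≤ 1 ∧ cb δ z - u.2 ≤ 1 ∧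
      1 ≤ (ca δ z - u.1) + (cb δ z - u.2) := by
  constructor
  · intro hz
    have hsub : (fun v => centre δ v) '' (corners (u, false) : Set (ℤ × ℤ)) ⊆
        {z : ℂ | ca δ z - u.1 ≤ 1 ∧ cb δ z - u.2 ≤ 1 ∧ 1 ≤ (ca δ z - u.1) + (cb δ z - u.2)} := by
      rintro _ ⟨v, hv, rfl⟩
      rw [corners_false] at hv
      simp only [Finset.coe_insert, Finset.coe_singleton, mem_insert_iff, mem_singleton_iff] at hv
      simp only [mem_ofPred_eq, ca_centre hδ, cb_centre hδ]
      rcases hv with rfl | rfl | rfl <;> simp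
    have hconv : Convex ℝ {z : ℂ | ca δ z - u.1 ≤ 1 ∧ cb δ z - u.2 ≤ 1 ∧
        1 ≤ (ca δ z - u.1) + (cb δ z - u.2)} := by
      intro z hz w hw a b ha hb hab
      simp only [mem_ofPred_eq, ca_add, cb_add, ca_smul, cb_smul] at hz hw ⊢
      have e1 : (u.1 : ℝ) = a * u.1 + b * u.1 := by rw [← add_mul, hab, one_mul]
      have e2 : (u.2 : ℝ) = a * u.2 + b * u.2 := by rw [← add_mul, hab, one_mul]
      refine ⟨?_, ?_, ?_⟩
      · rw [e1]; nlinarith [mul_nonneg ha (sub_nonneg.2 hz.1), mul_nonneg hb (sub_nonneg.2 hw.1)]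
      · rw [e2]; nlinarith [mul_nonneg ha (sub_nonneg.2 hz.2.1), mul_nonneg hb (sub_nonneg.2 hw.2.1)]
      · rw [e1, e2]
        nlinarith [mul_nonneg ha (sub_nonneg.2 hz.2.2), mul_nonneg hb (sub_nonneg.2 hw.2.2)]
    exact convexHull_min hsub hconv hz
  · rintro ⟨h1, h2, h3⟩
    refine mem_hull3 (a := centre δ (u.1 + 1, u.2 + 1)) (b := centre δ (u.1, u.2 + 1))
      (c := centre δ (u.1 + 1, u.2))
      (w := (ca δ z - u.1) + (cb δ z - u.2) - 1) (x := 1 - (ca δ z - u.1)) (y := 1 - (cb δ z - u.2))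
      ⟨_, by rw [corners_false]; simp, rfl⟩ ⟨_, by rw [corners_false]; simp, rfl⟩
      ⟨_, by rw [corners_false]; simp, rfl⟩ (by linarith) (by linarith) (by linarith) (by ring) ?_
    conv_lhs => rw [← cen_ca_cb hδ z]
    rw [centre_eq, centre_eq, centre_eq]
    unfold cen
    simp only [Complex.real_smul]
    push_cast
    ring

/-- area form in lattice coordinates -/
theorem area_form (δ a b a' b' : ℝ) :
    ((starRingEnd ℂ (cen δ a b)) * cen δ a' b').im =
      δ ^ 2 * (Real.sqrt 3 / 2) * (a * b' - a' * b) := by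
  rw [Complex.mul_im, Complex.conj_re, Complex.conj_im, cen_re, cen_im, cen_re, cen_im]
  ring

/-- barycentric coordinates in lattice coordinates -/
theorem bary_cen {δ : ℝ} (hδ : 0 < δ) (p1 p2 q1 q2 r1 r2 : ℝ) (z : ℂ) :
    bary (cen δ p1 p2) (cen δ q1 q2) (cen δ r1 r2) z =
      ((q1 - ca δ z) * (r2 - cb δ z) - (r1 - ca δ z) * (q2 - cb δ z)) /
        ((q1 - p1) * (r2 - p2) - (r1 - p1) * (q2 - p2)) := by
  have e1 : cen δ q1 q2 - z = cen δ (q1 - ca δ z) (q2 - cb δ z) := by
    rw [← cen_sub, cen_ca_cb hδ]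
  have e2 : cen δ r1 r2 - z = cen δ (r1 - ca δ z) (r2 - cb δ z) := by
    rw [← cen_sub, cen_ca_cb hδ]
  unfold bary
  rw [e1, e2, cen_sub, cen_sub, area_form, area_form]
  exact mul_div_mul_left _ _ (by positivity)

/-- the piecewise affine hat function of the triangular lattice, in lattice coordinates -/
def tent (x y : ℝ) : ℝ := max 0 (1 - max |x| (max |y| |x + y|))

theorem tent_nonneg (x y : ℝ) : 0 ≤ tent x y := le_max_left _ _

theorem tent_le_one (x y : ℝ) : tent x y ≤ 1 := by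
  unfold tent
  apply max_le zero_le_one
  have := (abs_nonneg x).trans (le_max_left |x| (max |y| |x + y|))
  linarith

theorem continuous_tent : Continuous fun p : ℝ × ℝ => tent p.1 p.2 := by
  unfold tent
  fun_prop

theorem tent_neg (x y : ℝ) : tent (-x) (-y) = tent x y := by
  unfold tent
  rw [abs_neg, abs_neg, ← neg_add, abs_neg]

theorem tent_eq_zero {x y : ℝ} (h : 1 ≤ |x| ∨ 1 ≤ |y| ∨ 1 ≤ |x + y|) : tent x y = 0 := by
  unfold tent
  apply max_eq_left
  rcases h with h | h | h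
  · have := le_max_left |x| (max |y| |x + y|)
    linarith
  · have := (le_max_left |y| |x + y|).trans (le_max_right |x| _)
    linarith
  · have := (le_max_right |y| |x + y|).trans (le_max_right |x| _)
    linarith

theorem tent_val {a b m : ℝ} (h1 : |a| ≤ 1 - m) (h2 : |b| ≤ 1 - m) (h3 : |a + b| ≤ 1 - m)
    (h4 : 1 - m ≤ |a| ∨ 1 - m ≤ |b| ∨ 1 - m ≤ |a + b|) (h0 : 0 ≤ m) : tent a b = m := by
  have hM : max |a| (max |b| |a + b|) = 1 - m := by
    apply le_antisymm (max_le h1 (max_le h2 h3))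
    rcases h4 with h | h | h
    · exact h.trans (le_max_left _ _)
    · exact (h.trans (le_max_left _ _)).trans (le_max_right _ _)
    · exact (h.trans (le_max_right _ _)).trans (le_max_right _ _)
  unfold tent
  rw [hM, sub_sub_cancel, max_eq_right h0]

/-- hat function of the lattice point `v` at mesh `δ` -/
def hat (δ : ℝ) (v : ℤ × ℤ) (z : ℂ) : ℝ := tent (ca δ z - v.1) (cb δ z - v.2)

theorem continuous_ca (δ : ℝ) : Continuous (ca δ) := by
  unfold ca
  exact (Complex.continuous_re.sub (Complex.continuous_im.div_const _)).div_const _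

theorem continuous_cb (δ : ℝ) : Continuous (cb δ) := by
  unfold cb
  exact ((Complex.continuous_im.const_mul _).div_const _).div_const _

theorem continuous_hat (δ : ℝ) (v : ℤ × ℤ) : Continuous (hat δ v) :=
  continuous_tent.comp (((continuous_ca δ).sub continuous_const).prodMk
    ((continuous_cb δ).sub continuous_const))

/-- the barycentric coordinate of the corner `v` of `t` is the hat function of `v` on `t` -/
theorem bary_eq_hat {δ : ℝ} (hδ : 0 < δ) (t : Tri) (k : Fin 3) {z : ℂ} (hz : z ∈ triRegion δ t) :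
    bary (centre δ (corner t k)) (centre δ (corner t (k + 1))) (centre δ (corner t (k + 2))) z =
      hat δ (corner t k) z := by
  obtain ⟨⟨u1, u2⟩, b⟩ := t
  rw [centre_eq, centre_eq, centre_eq, bary_cen hδ]
  unfold hat
  set X := ca δ z with hX
  set Y := cb δ z with hY
  have key : ∀ (p1 p2 q1 q2 r1 r2 m : ℝ),
      (q1 - p1) * (r2 - p2) - (r1 - p1) * (q2 - p2) ≠ 0 →
      (q1 - X) * (r2 - Y) - (r1 - X) * (q2 - Y) =
        m * ((q1 - p1) * (r2 - p2) - (r1 - p1) * (q2 - p2)) →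
      tent (X - p1) (Y - p2) = m →
      ((q1 - X) * (r2 - Y) - (r1 - X) * (q2 - Y)) /
        ((q1 - p1) * (r2 - p2) - (r1 - p1) * (q2 - p2)) = tent (X - p1) (Y - p2) := by
    intro p1 p2 q1 q2 r1 r2 m hd hn ht
    rw [ht, div_eq_iff hd, hn]
  cases b
  · rw [mem_tri_false hδ] at hz
    obtain ⟨h1, h2, h3⟩ := hz
    simp only [← hX, ← hY] at h1 h2 h3
    fin_cases k
    · refine key ((u1 + 1 : ℤ) : ℝ) (u2 : ℝ) (u1 : ℝ) ((u2 + 1 : ℤ) : ℝ) ((u1 + 1 : ℤ) : ℝ)
        ((u2 + 1 : ℤ) : ℝ) (1 - (Y - u2)) ?_ ?_ ?_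
      · push_cast; ring_nf; norm_num
      · push_cast; ring
      · push_cast
        have e1 : |X - ((u1 : ℝ) + 1)| = 1 - (X - u1) := by
          rw [abs_of_nonpos (by linarith)]; ring
        have e2 : |Y - (u2 : ℝ)| = Y - u2 := abs_of_nonneg (by linarith)
        have e3 : |X - ((u1 : ℝ) + 1) + (Y - u2)| = (X - u1) + (Y - u2) - 1 := by
          rw [abs_of_nonneg (by linarith)]; ring
        apply tent_val
        · rw [e1]; linarith
        · rw [e2]; linarith
        · rw [e3]; linarith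
        · right; left; rw [e2]; linarith
        · linarith
    · refine key (u1 : ℝ) ((u2 + 1 : ℤ) : ℝ) ((u1 + 1 : ℤ) : ℝ) ((u2 + 1 : ℤ) : ℝ)
        ((u1 + 1 : ℤ) : ℝ) (u2 : ℝ) (1 - (X - u1)) ?_ ?_ ?_
      · push_cast; ring_nf; norm_num
      · push_cast; ring
      · push_cast
        have e1 : |X - (u1 : ℝ)| = X - u1 := abs_of_nonneg (by linarith)
        have e2 : |Y - ((u2 : ℝ) + 1)| = 1 - (Y - u2) := by
          rw [abs_of_nonpos (by linarith)]; ring
        have e3 : |X - (u1 : ℝ) + (Y - (u2 + 1))| = (X - u1) + (Y - u2) - 1 := by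
          rw [abs_of_nonneg (by linarith)]; ring
        apply tent_val
        · rw [e1]; linarith
        · rw [e2]; linarith
        · rw [e3]; linarith
        · left; rw [e1]; linarith
        · linarith
    · refine key ((u1 + 1 : ℤ) : ℝ) ((u2 + 1 : ℤ) : ℝ) ((u1 + 1 : ℤ) : ℝ) (u2 : ℝ)
        (u1 : ℝ) ((u2 + 1 : ℤ) : ℝ) ((X - u1) + (Y - u2) - 1) ?_ ?_ ?_
      · push_cast; ring_nf; norm_num
      · push_cast; ring
      · push_cast
        have e1 : |X - ((u1 : ℝ) + 1)| = 1 - (X - u1) := by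
          rw [abs_of_nonpos (by linarith)]; ring
        have e2 : |Y - ((u2 : ℝ) + 1)| = 1 - (Y - u2) := by
          rw [abs_of_nonpos (by linarith)]; ring
        have e3 : |X - ((u1 : ℝ) + 1) + (Y - (u2 + 1))| = 2 - (X - u1) - (Y - u2) := by
          rw [abs_of_nonpos (by linarith)]; ring
        apply tent_val
        · rw [e1]; linarith
        · rw [e2]; linarith
        · rw [e3]; linarith
        · right; right; rw [e3]; linarith
        · linarith
  · rw [mem_tri_true hδ] at hz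
    obtain ⟨h1, h2, h3⟩ := hz
    simp only [← hX, ← hY] at h1 h2 h3
    fin_cases k
    · refine key (u1 : ℝ) (u2 : ℝ) ((u1 + 1 : ℤ) : ℝ) (u2 : ℝ) (u1 : ℝ)
        ((u2 + 1 : ℤ) : ℝ) (1 - (X - u1) - (Y - u2)) ?_ ?_ ?_
      · push_cast; ring_nf; norm_num
      · push_cast; ring
      · have e1 : |X - (u1 : ℝ)| = X - u1 := abs_of_nonneg (by linarith)
        have e2 : |Y - (u2 : ℝ)| = Y - u2 := abs_of_nonneg (by linarith)
        have e3 : |X - (u1 : ℝ) + (Y - u2)| = (X - u1) + (Y - u2) := abs_of_nonneg (by linarith)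
        apply tent_val
        · rw [e1]; linarith
        · rw [e2]; linarith
        · rw [e3]; linarith
        · right; right; rw [e3]; linarith
        · linarith
    · refine key ((u1 + 1 : ℤ) : ℝ) (u2 : ℝ) (u1 : ℝ) ((u2 + 1 : ℤ) : ℝ) (u1 : ℝ)
        (u2 : ℝ) (X - u1) ?_ ?_ ?_
      · push_cast; ring_nf; norm_num
      · push_cast; ring
      · push_cast
        have e1 : |X - ((u1 : ℝ) + 1)| = 1 - (X - u1) := by
          rw [abs_of_nonpos (by linarith)]; ring
        have e2 : |Y - (u2 : ℝ)| = Y - u2 := abs_of_nonneg (by linarith)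
        have e3 : |X - ((u1 : ℝ) + 1) + (Y - u2)| = 1 - (X - u1) - (Y - u2) := by
          rw [abs_of_nonpos (by linarith)]; ring
        apply tent_val
        · rw [e1]
        · rw [e2]; linarith
        · rw [e3]; linarith
        · left; rw [e1]
        · linarith
    · refine key (u1 : ℝ) ((u2 + 1 : ℤ) : ℝ) (u1 : ℝ) (u2 : ℝ) ((u1 + 1 : ℤ) : ℝ)
        (u2 : ℝ) (Y - u2) ?_ ?_ ?_
      · push_cast; ring_nf; norm_num
      · push_cast; ring
      · push_cast
        have e1 : |X - (u1 : ℝ)| = X - u1 := abs_of_nonneg (by linarith)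
        have e2 : |Y - ((u2 : ℝ) + 1)| = 1 - (Y - u2) := by
          rw [abs_of_nonpos (by linarith)]; ring
        have e3 : |X - (u1 : ℝ) + (Y - (u2 + 1))| = 1 - (X - u1) - (Y - u2) := by
          rw [abs_of_nonpos (by linarith)]; ring
        apply tent_val
        · rw [e1]; linarith
        · rw [e2]
        · rw [e3]; linarith
        · right; left; rw [e2]
        · linarith

/-- the corners of a triangle are distinct -/
theorem corner_injective (t : Tri) : Function.Injective (corner t) := by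
  obtain ⟨⟨u1, u2⟩, b⟩ := t
  intro i j h
  cases b <;> fin_cases i <;> fin_cases j <;> simp [corner] at h ⊢

/-- hat functions of points which are not corners vanish on the triangle -/
theorem hat_eq_zero {δ : ℝ} (hδ : 0 < δ) {t : Tri} {v : ℤ × ℤ} (hv : v ∉ corners t) {z : ℂ}
    (hz : z ∈ triRegion δ t) : hat δ v z = 0 := by
  obtain ⟨⟨u1, u2⟩, b⟩ := t
  obtain ⟨v1, v2⟩ := v
  unfold hat
  apply tent_eq_zero
  by_contra hcon
  push Not at hcon
  obtain ⟨a1, a2, a3⟩ := hcon
  simp only at a1 a2 a3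
  rw [abs_lt] at a1 a2 a3
  cases b
  · rw [mem_tri_false hδ] at hz
    obtain ⟨h1, h2, h3⟩ := hz
    simp only at h1 h2 h3
    have e1 : (v1 : ℝ) < u1 + 2 := by linarith
    have e2 : (u1 : ℝ) - 1 < v1 := by linarith
    have e3 : (v2 : ℝ) < u2 + 2 := by linarith
    have e4 : (u2 : ℝ) - 1 < v2 := by linarith
    have e5 : (u1 : ℝ) + u2 < v1 + v2 := by linarith
    have e6 : (v1 : ℝ) + v2 < u1 + u2 + 3 := by linarith
    have f1 : v1 < u1 + 2 := by exact_mod_cast e1
    have f2 : u1 - 1 < v1 := by exact_mod_cast e2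
    have f3 : v2 < u2 + 2 := by exact_mod_cast e3
    have f4 : u2 - 1 < v2 := by exact_mod_cast e4
    have f5 : u1 + u2 < v1 + v2 := by exact_mod_cast e5
    have f6 : v1 + v2 < u1 + u2 + 3 := by exact_mod_cast e6
    apply hv
    rw [corners_false]
    simp only [Finset.mem_insert, Finset.mem_singleton, Prod.mk.injEq]
    omega
  · rw [mem_tri_true hδ] at hz
    obtain ⟨h1, h2, h3⟩ := hz
    simp only at h1 h2 h3
    have e1 : (v1 : ℝ) < u1 + 2 := by linarith
    have e2 : (u1 : ℝ) - 1 < v1 := by linarith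
    have e3 : (v2 : ℝ) < u2 + 2 := by linarith
    have e4 : (u2 : ℝ) - 1 < v2 := by linarith
    have e5 : (u1 : ℝ) + u2 - 1 < v1 + v2 := by linarith
    have e6 : (v1 : ℝ) + v2 < u1 + u2 + 2 := by linarith
    have f1 : v1 < u1 + 2 := by exact_mod_cast e1
    have f2 : u1 - 1 < v1 := by exact_mod_cast e2
    have f3 : v2 < u2 + 2 := by exact_mod_cast e3
    have f4 : u2 - 1 < v2 := by exact_mod_cast e4
    have f5 : u1 + u2 - 1 < v1 + v2 := by exact_mod_cast e5
    have f6 : v1 + v2 < u1 + u2 + 2 := by exact_mod_cast e6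
    apply hv
    rw [corners_true]
    simp only [Finset.mem_insert, Finset.mem_singleton, Prod.mk.injEq]
    omega

/-- the open triangle, in coordinates -/
def openTri (δ : ℝ) (t : Tri) : Set ℂ :=
  if t.2 then {z | 0 < ca δ z - t.1.1 ∧ 0 < cb δ z - t.1.2 ∧
    (ca δ z - t.1.1) + (cb δ z - t.1.2) < 1}
  else {z | ca δ z - t.1.1 < 1 ∧ cb δ z - t.1.2 < 1 ∧ 1 < (ca δ z - t.1.1) + (cb δ z - t.1.2)}

theorem mem_open_true {δ : ℝ} (u : ℤ × ℤ) (z : ℂ) :
    z ∈ openTri δ (u, true) ↔ 0 < ca δ z - u.1 ∧ 0 < cb δ z - u.2 ∧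
      (ca δ z - u.1) + (cb δ z - u.2) < 1 := by
  simp [openTri]

theorem mem_open_false {δ : ℝ} (u : ℤ × ℤ) (z : ℂ) :
    z ∈ openTri δ (u, false) ↔ ca δ z - u.1 < 1 ∧ cb δ z - u.2 < 1 ∧
      1 < (ca δ z - u.1) + (cb δ z - u.2) := by
  simp [openTri]

theorem openTri_subset {δ : ℝ} (hδ : 0 < δ) (t : Tri) : openTri δ t ⊆ triRegion δ t := by
  obtain ⟨u, b⟩ := t
  intro z hz
  cases b
  · rw [mem_open_false] at hz
    rw [mem_tri_false hδ]
    exact ⟨hz.1.le, hz.2.1.le, hz.2.2.le⟩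
  · rw [mem_open_true] at hz
    rw [mem_tri_true hδ]
    exact ⟨hz.1.le, hz.2.1.le, hz.2.2.le⟩

theorem isOpen_openTri (δ : ℝ) (t : Tri) : IsOpen (openTri δ t) := by
  obtain ⟨u, b⟩ := t
  have ha := continuous_ca δ
  have hb := continuous_cb δ
  cases b
  · have : openTri δ (u, false) = {z | ca δ z - u.1 < 1} ∩ ({z | cb δ z - u.2 < 1} ∩
      {z | 1 < (ca δ z - u.1) + (cb δ z - u.2)}) := by
      ext z; rw [mem_open_false]; rfl
    rw [this]
    exact (isOpen_lt (ha.sub continuous_const) continuous_const).inter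
      ((isOpen_lt (hb.sub continuous_const) continuous_const).inter
        (isOpen_lt continuous_const ((ha.sub continuous_const).add (hb.sub continuous_const))))
  · have : openTri δ (u, true) = {z | 0 < ca δ z - u.1} ∩ ({z | 0 < cb δ z - u.2} ∩
      {z | (ca δ z - u.1) + (cb δ z - u.2) < 1}) := by
      ext z; rw [mem_open_true]; rfl
    rw [this]
    exact (isOpen_lt continuous_const (ha.sub continuous_const)).inter
      ((isOpen_lt continuous_const (hb.sub continuous_const)).inter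
        (isOpen_lt ((ha.sub continuous_const).add (hb.sub continuous_const)) continuous_const))

/-- an open triangle meets no other closed triangle -/
theorem open_unique {δ : ℝ} (hδ : 0 < δ) {t t' : Tri} {z : ℂ} (hz : z ∈ openTri δ t)
    (hz' : z ∈ triRegion δ t') : t' = t := by
  obtain ⟨⟨u1, u2⟩, b⟩ := t
  obtain ⟨⟨w1, w2⟩, b'⟩ := t'
  cases b <;> cases b'
  · rw [mem_open_false] at hz
    rw [mem_tri_false hδ] at hz'
    obtain ⟨h1, h2, h3⟩ := hz
    obtain ⟨k1, k2, k3⟩ := hz'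
    simp only at h1 h2 h3 k1 k2 k3
    have e1 : (w1 : ℝ) < u1 + 1 := by linarith
    have e2 : (u1 : ℝ) < w1 + 1 := by linarith
    have e3 : (w2 : ℝ) < u2 + 1 := by linarith
    have e4 : (u2 : ℝ) < w2 + 1 := by linarith
    have f1 : w1 < u1 + 1 := by exact_mod_cast e1
    have f2 : u1 < w1 + 1 := by exact_mod_cast e2
    have f3 : w2 < u2 + 1 := by exact_mod_cast e3
    have f4 : u2 < w2 + 1 := by exact_mod_cast e4
    have g1 : w1 = u1 := by omega
    have g2 : w2 = u2 := by omega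
    rw [g1, g2]
  · exfalso
    rw [mem_open_false] at hz
    rw [mem_tri_true hδ] at hz'
    obtain ⟨h1, h2, h3⟩ := hz
    obtain ⟨k1, k2, k3⟩ := hz'
    simp only at h1 h2 h3 k1 k2 k3
    have e1 : (w1 : ℝ) < u1 + 1 := by linarith
    have e2 : (w2 : ℝ) < u2 + 1 := by linarith
    have e3 : (u1 : ℝ) + u2 < w1 + w2 := by linarith
    have f1 : w1 < u1 + 1 := by exact_mod_cast e1
    have f2 : w2 < u2 + 1 := by exact_mod_cast e2
    have f3 : u1 + u2 < w1 + w2 := by exact_mod_cast e3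
    omega
  · exfalso
    rw [mem_open_true] at hz
    rw [mem_tri_false hδ] at hz'
    obtain ⟨h1, h2, h3⟩ := hz
    obtain ⟨k1, k2, k3⟩ := hz'
    simp only at h1 h2 h3 k1 k2 k3
    have e1 : (u1 : ℝ) < w1 + 1 := by linarith
    have e2 : (u2 : ℝ) < w2 + 1 := by linarith
    have e3 : (w1 : ℝ) + w2 < u1 + u2 := by linarith
    have f1 : u1 < w1 + 1 := by exact_mod_cast e1
    have f2 : u2 < w2 + 1 := by exact_mod_cast e2
    have f3 : w1 + w2 < u1 + u2 := by exact_mod_cast e3
    omega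
  · rw [mem_open_true] at hz
    rw [mem_tri_true hδ] at hz'
    obtain ⟨h1, h2, h3⟩ := hz
    obtain ⟨k1, k2, k3⟩ := hz'
    simp only at h1 h2 h3 k1 k2 k3
    have e1 : (w1 : ℝ) < u1 + 1 := by linarith
    have e2 : (u1 : ℝ) < w1 + 1 := by linarith
    have e3 : (w2 : ℝ) < u2 + 1 := by linarith
    have e4 : (u2 : ℝ) < w2 + 1 := by linarith
    have f1 : w1 < u1 + 1 := by exact_mod_cast e1
    have f2 : u1 < w1 + 1 := by exact_mod_cast e2
    have f3 : w2 < u2 + 1 := by exact_mod_cast e3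
    have f4 : u2 < w2 + 1 := by exact_mod_cast e4
    have g1 : w1 = u1 := by omega
    have g2 : w2 = u2 := by omega
    rw [g1, g2]

/-- the closed triangle is in the closure of the open one -/
theorem tri_subset_closure {δ : ℝ} (hδ : 0 < δ) (t : Tri) :
    triRegion δ t ⊆ closure (openTri δ t) := by
  intro z hz
  obtain ⟨u, b⟩ := t
  -- a centre point
  obtain ⟨g, hg⟩ : ∃ g : ℂ, g ∈ openTri δ (u, b) := by
    cases b
    · refine ⟨cen δ (u.1 + 2 / 3) (u.2 + 2 / 3), ?_⟩
      rw [mem_open_false, ca_cen hδ, cb_cen hδ]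
      norm_num
    · refine ⟨cen δ (u.1 + 1 / 3) (u.2 + 1 / 3), ?_⟩
      rw [mem_open_true, ca_cen hδ, cb_cen hδ]
      norm_num
  have hlim : Tendsto (fun s : ℝ => (1 - s) • z + s • g) (𝓝[>] 0) (𝓝 z) := by
    have h1 : Continuous fun s : ℝ => (1 - s) • z + s • g := by fun_prop
    have h2 := h1.tendsto 0
    simp only [sub_zero, one_smul, zero_smul, add_zero] at h2
    exact h2.mono_left nhdsWithin_le_nhds
  refine mem_closure_of_tendsto hlim ?_
  filter_upwards [Ioo_mem_nhdsGT (zero_lt_one (α := ℝ))] with s hs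
  cases b
  · rw [mem_tri_false hδ] at hz
    rw [mem_open_false] at hg ⊢
    rw [ca_add, cb_add, ca_smul, cb_smul, ca_smul, cb_smul]
    have h0 : 0 ≤ 1 - s := by linarith [hs.2]
    obtain ⟨a1, a2, a3⟩ := hz
    obtain ⟨b1, b2, b3⟩ := hg
    refine ⟨?_, ?_, ?_⟩
    · nlinarith [mul_nonneg h0 (sub_nonneg.2 a1), mul_pos hs.1 (sub_pos.2 b1)]
    · nlinarith [mul_nonneg h0 (sub_nonneg.2 a2), mul_pos hs.1 (sub_pos.2 b2)]
    · nlinarith [mul_nonneg h0 (sub_nonneg.2 a3), mul_pos hs.1 (sub_pos.2 b3)]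
  · rw [mem_tri_true hδ] at hz
    rw [mem_open_true] at hg ⊢
    rw [ca_add, cb_add, ca_smul, cb_smul, ca_smul, cb_smul]
    have h0 : 0 ≤ 1 - s := by linarith [hs.2]
    obtain ⟨a1, a2, a3⟩ := hz
    obtain ⟨b1, b2, b3⟩ := hg
    refine ⟨?_, ?_, ?_⟩
    · nlinarith [mul_nonneg h0 a1, mul_pos hs.1 b1]
    · nlinarith [mul_nonneg h0 a2, mul_pos hs.1 b2]
    · nlinarith [mul_nonneg h0 (sub_nonneg.2 a3), mul_pos hs.1 (sub_pos.2 b3)]

/-- interiors of closed triangles meet no other triangle -/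
theorem int_tri_disj {δ : ℝ} (hδ : 0 < δ) {t t' : Tri} (h : t ≠ t') :
    Disjoint (interior (triRegion δ t)) (triRegion δ t') := by
  rw [disjoint_left]
  intro z hz hz'
  obtain ⟨w, hw, hw'⟩ := mem_closure_iff.1 (tri_subset_closure hδ t' hz') _ isOpen_interior hz
  exact h (open_unique hδ hw' (interior_subset hw))

end Crest.Agent.R144.Geo268
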