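import Mathlib
import Crest.Agent.R144.Geo4_268

/-! R144 (helper268) GEO block, file 6: the affine pairing and the hexagonal pairing in plain
lattice form: `affinePairing δ T f h = ∑ v, h v * wA δ f v`, weights as kernel integrals in lattice
coordinates, estimates. -/

set_option autoImplicit false

noncomputable section

open Set Topology Filter Metric MeasureTheory

namespace Crest.Agent.R144.Geo268

open Crest.ProbabilityR.HexHeights Crest.ProbabilityR.TriHeights Crest.Agent.R144.HexTil353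

/-- weight of the lattice point `v` in the affine pairing -/
def wA (δ : ℝ) (f : ℂ → ℝ) (v : ℤ × ℤ) : ℝ := ∫ z, f z * hat δ v z

theorem hat_nonneg (δ : ℝ) (v : ℤ × ℤ) (z : ℂ) : 0 ≤ hat δ v z := tent_nonneg _ _

theorem hat_le_one (δ : ℝ) (v : ℤ × ℤ) (z : ℂ) : hat δ v z ≤ 1 := tent_le_one _ _

theorem abs_hat_le (δ : ℝ) (v : ℤ × ℤ) (z : ℂ) : |hat δ v z| ≤ 1 := by
  rw [abs_of_nonneg (hat_nonneg δ v z)]
  exact hat_le_one δ v z

theorem integrable_mul_hat {f : ℂ → ℝ} (hf : Integrable f) (δ : ℝ) (v : ℤ × ℤ) :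
    Integrable fun z => f z * hat δ v z := by
  refine hf.mul_bdd (c := 1) ((continuous_hat δ v).aestronglyMeasurable) (ae_of_all _ fun z => ?_)
  rw [Real.norm_eq_abs]
  exact abs_hat_le δ v z

theorem convex_tri (δ : ℝ) (t : Tri) : Convex ℝ (triRegion δ t) := convex_convexHull ℝ _

theorem isClosed_tri (δ : ℝ) (t : Tri) : IsClosed (triRegion δ t) := by
  have h : (fun v => centre δ v) '' (corners t : Set (ℤ × ℤ)) =
      ((corners t).image fun v => centre δ v : Finset ℂ) := by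
    rw [Finset.coe_image]
  unfold triRegion
  rw [h]
  exact (Finset.finite_toSet _).isClosed_convexHull ℝ

theorem volume_inter_tri {δ : ℝ} (hδ : 0 < δ) {t t' : Tri} (h : t ≠ t') :
    volume (triRegion δ t ∩ triRegion δ t') = 0 := by
  refine measure_mono_null (t := frontier (triRegion δ t)) ?_
    ((convex_tri δ t).addHaar_frontier volume)
  rintro z ⟨h1, h2⟩
  rw [frontier, (isClosed_tri δ t).closure_eq]
  exact ⟨h1, fun h3 => disjoint_left.1 (int_tri_disj hδ h) h3 h2⟩

/-- the sum over the triangles of `T` of the integrals = the integral over their union -/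
theorem sum_setIntegral_tri {δ : ℝ} (hδ : 0 < δ) (T : Finset Tri) {g : ℂ → ℝ} (hg : Integrable g) :
    ∑ t ∈ T, ∫ z in triRegion δ t, g z = ∫ z in ⋃ t ∈ T, triRegion δ t, g z := by
  classical
  induction T using Finset.induction_on with
  | empty => simp
  | insert t T ht ih =>
    rw [Finset.sum_insert ht, ih, Finset.set_biUnion_insert]
    have hm : MeasurableSet (⋃ t ∈ T, triRegion δ t) :=
      Finset.measurableSet_biUnion T fun t _ => (isClosed_tri δ t).measurableSet
    have hd : AEDisjoint volume (triRegion δ t) (⋃ t ∈ T, triRegion δ t) := by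
      unfold AEDisjoint
      rw [inter_iUnion₂]
      refine (measure_biUnion_null_iff T.countable_toSet).2 fun s hs => ?_
      exact volume_inter_tri hδ (fun h => ht (h ▸ hs))
    rw [setIntegral_union₀ hd hm.nullMeasurableSet hg.integrableOn hg.integrableOn]

/-- **affine pairing in plain form** -/
theorem affinePairing_eq {δ : ℝ} (hδ : 0 < δ) (T : Finset Tri) {f : ℂ → ℝ} (hf : Integrable f)
    (hT : Function.support f ⊆ ⋃ t ∈ T, triRegion δ t) (h : ℤ × ℤ → ℝ) :
    affinePairing δ T f h = ∑ v ∈ verts T, h v * wA δ f v := by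
  have h1 : ∀ t ∈ T, ∑ k : Fin 3, h (corner t k) * ∫ z in triRegion δ t,
      f z * bary (centre δ (corner t k)) (centre δ (corner t (k + 1))) (centre δ (corner t (k + 2))) z
      = ∑ v ∈ verts T, h v * ∫ z in triRegion δ t, f z * hat δ v z := by
    intro t ht
    have e1 : ∑ k : Fin 3, h (corner t k) * ∫ z in triRegion δ t,
      f z * bary (centre δ (corner t k)) (centre δ (corner t (k + 1))) (centre δ (corner t (k + 2))) z
      = ∑ k : Fin 3, h (corner t k) * ∫ z in triRegion δ t, f z * hat δ (corner t k) z := by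
      refine Finset.sum_congr rfl fun k _ => ?_
      congr 1
      refine setIntegral_congr_fun (isClosed_tri δ t).measurableSet fun z hz => ?_
      rw [bary_eq_hat hδ t k hz]
    rw [e1]
    have e2 : ∑ k : Fin 3, h (corner t k) * ∫ z in triRegion δ t, f z * hat δ (corner t k) z
        = ∑ v ∈ corners t, h v * ∫ z in triRegion δ t, f z * hat δ v z := by
      rw [corners, Finset.sum_image (fun i _ j _ hij => corner_injective t hij)]
    rw [e2]
    refine Finset.sum_subset (fun v hv => Finset.mem_biUnion.2 ⟨t, ht, hv⟩) fun v _ hv => ?_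
    have e3 : ∫ z in triRegion δ t, f z * hat δ v z = 0 := by
      rw [← integral_zero ℂ ℝ (μ := volume.restrict (triRegion δ t))]
      refine setIntegral_congr_fun (isClosed_tri δ t).measurableSet fun z hz => ?_
      rw [hat_eq_zero hδ hv hz, mul_zero]
    rw [e3, mul_zero]
  unfold affinePairing
  rw [Finset.sum_congr rfl h1, Finset.sum_comm]
  refine Finset.sum_congr rfl fun v _ => ?_
  rw [← Finset.mul_sum, sum_setIntegral_tri hδ T (integrable_mul_hat hf δ v), wA]
  congr 1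
  apply setIntegral_eq_integral_of_forall_compl_eq_zero
  intro z hz
  have : f z = 0 := by
    by_contra h2
    exact hz (hT h2)
  rw [this, zero_mul]

/-! ### total mass of the tent -/

theorem tent_volume (x y : ℝ) :
    volume (Icc (0 : ℝ) 1 ∩ Icc (-x) (1 - x) ∩ Icc y (1 + y)) = ENNReal.ofReal (tent x y) := by
  rw [Icc_inter_Icc, Icc_inter_Icc, Real.volume_Icc]
  have h : (1 ⊓ (1 - x) ⊓ (1 + y)) - (0 ⊔ -x ⊔ y) = 1 - max |x| (max |y| |x + y|) := by
    rcases le_total 0 x with hx | hx <;> rcases le_total 0 y with hy | hy <;>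
      rcases le_total 0 (x + y) with hxy | hxy
    · rw [abs_of_nonneg hx, abs_of_nonneg hy, abs_of_nonneg hxy, max_eq_right (by linarith : y ≤ x + y),
        max_eq_right (by linarith : x ≤ x + y), inf_eq_right.2 (by linarith : 1 - x ≤ 1),
        inf_eq_left.2 (by linarith : 1 - x ≤ 1 + y), sup_eq_left.2 (by linarith : -x ≤ 0),
        sup_eq_right.2 (by linarith : (0:ℝ) ≤ y)]
      ring
    · rw [abs_of_nonneg hx, abs_of_nonneg hy, abs_of_nonpos hxy, max_eq_left (by linarith : -(x + y) ≤ y),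
        max_eq_left (by linarith : y ≤ x), inf_eq_right.2 (by linarith : 1 - x ≤ 1),
        inf_eq_left.2 (by linarith : 1 - x ≤ 1 + y), sup_eq_left.2 (by linarith : -x ≤ 0),
        sup_eq_right.2 (by linarith : (0:ℝ) ≤ y)]
      linarith
    · rw [abs_of_nonneg hx, abs_of_nonpos hy, abs_of_nonneg hxy,
        max_eq_left (max_le (by linarith) (by linarith) : max (-y) (x + y) ≤ x),
        inf_eq_right.2 (by linarith : 1 - x ≤ 1),
        inf_eq_left.2 (by linarith : 1 - x ≤ 1 + y), sup_eq_left.2 (by linarith : -x ≤ 0),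
        sup_eq_left.2 hy]
      ring
    · rw [abs_of_nonneg hx, abs_of_nonpos hy, abs_of_nonpos hxy,
        max_eq_left (by linarith : -(x + y) ≤ -y), max_eq_right (by linarith : x ≤ -y),
        inf_eq_right.2 (by linarith : 1 - x ≤ 1),
        inf_eq_right.2 (by linarith : 1 + y ≤ 1 - x), sup_eq_left.2 (by linarith : -x ≤ 0),
        sup_eq_left.2 hy]
      ring
    · rw [abs_of_nonpos hx, abs_of_nonneg hy, abs_of_nonneg hxy,
        max_eq_left (by linarith : x + y ≤ y), max_eq_right (by linarith : -x ≤ y),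
        inf_eq_left.2 (by linarith : 1 ≤ 1 - x),
        inf_eq_left.2 (by linarith : 1 ≤ 1 + y), sup_eq_right.2 (by linarith : 0 ≤ -x),
        sup_eq_right.2 (by linarith : -x ≤ y)]
    · rw [abs_of_nonpos hx, abs_of_nonneg hy, abs_of_nonpos hxy,
        max_eq_left (max_le (by linarith) (by linarith) : max y (-(x + y)) ≤ -x),
        inf_eq_left.2 (by linarith : 1 ≤ 1 - x),
        inf_eq_left.2 (by linarith : 1 ≤ 1 + y), sup_eq_right.2 (by linarith : 0 ≤ -x),
        sup_eq_left.2 (by linarith : y ≤ -x)]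
    · rw [abs_of_nonpos hx, abs_of_nonpos hy, abs_of_nonneg hxy,
        max_eq_left (max_le (by linarith) (by linarith) : max (-y) (x + y) ≤ -x),
        inf_eq_left.2 (by linarith : 1 ≤ 1 - x),
        inf_eq_right.2 (by linarith : 1 + y ≤ 1), sup_eq_right.2 (by linarith : 0 ≤ -x),
        sup_eq_left.2 (by linarith : y ≤ -x)]
      linarith
    · rw [abs_of_nonpos hx, abs_of_nonpos hy, abs_of_nonpos hxy,
        max_eq_right (by linarith : -y ≤ -(x + y)), max_eq_right (by linarith : -x ≤ -(x + y)),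
        inf_eq_left.2 (by linarith : 1 ≤ 1 - x),
        inf_eq_right.2 (by linarith : 1 + y ≤ 1), sup_eq_right.2 (by linarith : 0 ≤ -x),
        sup_eq_left.2 (by linarith : y ≤ -x)]
      ring
  rw [h]
  unfold tent
  rcases le_total 0 (1 - max |x| (max |y| |x + y|)) with h2 | h2
  · rw [max_eq_right h2]
  · rw [max_eq_left h2, ENNReal.ofReal_zero, ENNReal.ofReal_of_nonpos h2]

/-- the set behind the tent -/
def tentSet : Set (ℝ × (ℝ × ℝ)) :=
  {q | q.1 ∈ Icc (0 : ℝ) 1 ∧ q.1 + q.2.1 ∈ Icc (0 : ℝ) 1 ∧ q.1 - q.2.2 ∈ Icc (0 : ℝ) 1}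

theorem measurableSet_tentSet : MeasurableSet tentSet := by
  unfold tentSet
  refine (measurableSet_Icc.preimage measurable_fst).inter
    ((measurableSet_Icc.preimage (by fun_prop)).inter (measurableSet_Icc.preimage (by fun_prop)))

theorem lintegral_tent : ∫⁻ p : ℝ × ℝ, ENNReal.ofReal (tent p.1 p.2) = 1 := by
  have h1 : volume tentSet = ∫⁻ p : ℝ × ℝ, ENNReal.ofReal (tent p.1 p.2) := by
    rw [Measure.volume_eq_prod, Measure.prod_apply_symm measurableSet_tentSet]
    refine lintegral_congr fun p => ?_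
    rw [← tent_volume]
    congr 1
    ext s
    simp only [tentSet, mem_preimage, mem_ofPred_eq, mem_inter_iff, mem_Icc]
    constructor
    · rintro ⟨⟨a1, a2⟩, ⟨a3, a4⟩, a5, a6⟩
      refine ⟨⟨⟨a1, a2⟩, ?_, ?_⟩, ?_, ?_⟩ <;> linarith
    · rintro ⟨⟨⟨a1, a2⟩, a3, a4⟩, a5, a6⟩
      refine ⟨⟨a1, a2⟩, ⟨?_, ?_⟩, ?_, ?_⟩ <;> linarith
  have h2 : volume tentSet = 1 := by
    rw [Measure.volume_eq_prod, Measure.prod_apply measurableSet_tentSet]
    have h3 : ∀ s : ℝ, (volume : Measure (ℝ × ℝ)) (Prod.mk s ⁻¹' tentSet) =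
        (Icc (0 : ℝ) 1).indicator 1 s := by
      intro s
      by_cases hs : s ∈ Icc (0 : ℝ) 1
      · have h4 : Prod.mk s ⁻¹' tentSet = Icc (-s) (1 - s) ×ˢ Icc (s - 1) s := by
          ext p
          simp only [tentSet, mem_preimage, mem_ofPred_eq, mem_prod, mem_Icc]
          constructor
          · rintro ⟨-, ⟨a3, a4⟩, a5, a6⟩
            refine ⟨⟨?_, ?_⟩, ?_, ?_⟩ <;> linarith
          · rintro ⟨⟨a3, a4⟩, a5, a6⟩
            refine ⟨hs, ⟨?_, ?_⟩, ?_, ?_⟩ <;> linarith
        rw [h4, Measure.volume_eq_prod, Measure.prod_prod, Real.volume_Icc, Real.volume_Icc,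
          indicator_of_mem hs]
        simp
      · have h4 : Prod.mk s ⁻¹' tentSet = ∅ := by
          ext p
          simp only [tentSet, mem_preimage, mem_ofPred_eq, mem_empty_iff_false, iff_false]
          exact fun h => hs h.1
        rw [h4, measure_empty, indicator_of_notMem hs]
    simp_rw [h3]
    rw [lintegral_indicator_one measurableSet_Icc, Real.volume_Icc]
    simp
  rw [← h1, h2]

theorem integral_tent : ∫ p : ℝ × ℝ, tent p.1 p.2 = 1 := by
  rw [integral_eq_lintegral_of_nonneg_ae (ae_of_all _ fun p => tent_nonneg _ _)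
    continuous_tent.aestronglyMeasurable, lintegral_tent, ENNReal.toReal_one]

theorem integrable_tent : Integrable fun p : ℝ × ℝ => tent p.1 p.2 := by
  refine ⟨continuous_tent.aestronglyMeasurable, ?_⟩
  rw [hasFiniteIntegral_iff_ofReal (ae_of_all _ fun p => tent_nonneg _ _), lintegral_tent]
  exact ENNReal.one_lt_top

/-! ### weights as kernel integrals -/

/-- averaging kernels in lattice coordinates -/
structure Ker (K : ℝ × ℝ → ℝ) : Prop where
  nonneg : ∀ p, 0 ≤ K p
  supp : ∀ p, K p ≠ 0 → |p.1| ≤ 1 ∧ |p.2| ≤ 1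
  int : Integrable K
  mass : ∫ p, K p = 1

/-- weight of the lattice point `v` for the kernel `K` -/
def wK (K : ℝ × ℝ → ℝ) (δ : ℝ) (f : ℂ → ℝ) (v : ℤ × ℤ) : ℝ :=
  (Real.sqrt 3 / 2 * δ ^ 2) * ∫ p : ℝ × ℝ, f (cen δ (v.1 + p.1) (v.2 + p.2)) * K p

theorem ker_tent : Ker fun p => tent p.1 p.2 where
  nonneg := fun p => tent_nonneg _ _
  supp := fun p h => by
    constructor
    · by_contra h1
      exact h (tent_eq_zero (Or.inl (not_le.1 h1).le))
    · by_contra h1
      exact h (tent_eq_zero (Or.inr (Or.inl (not_le.1 h1).le)))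
  int := integrable_tent
  mass := integral_tent

theorem wA_eq {δ : ℝ} (hδ : 0 < δ) (f : ℂ → ℝ) (v : ℤ × ℤ) :
    wA δ f v = wK (fun p => tent p.1 p.2) δ f v := by
  unfold wA wK
  rw [integral_cen hδ, smul_eq_mul]
  congr 1
  rw [← integral_add_right_eq_self (μ := (volume : Measure (ℝ × ℝ)))
    (fun p : ℝ × ℝ => f (cen δ p.1 p.2) * hat δ v (cen δ p.1 p.2)) ((v.1 : ℝ), (v.2 : ℝ))]
  refine integral_congr_ae (ae_of_all _ fun p => ?_)
  simp only [Prod.fst_add, Prod.snd_add, hat, ca_cen hδ, cb_cen hδ, add_sub_cancel_right]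
  rw [add_comm p.1, add_comm p.2]

theorem cen_centre_add (δ : ℝ) (v : ℤ × ℤ) (x y : ℝ) :
    cen δ (v.1 + x) (v.2 + y) = centre δ v + cen δ x y := by
  rw [centre_eq, cen_add]

theorem norm_cen_le {δ : ℝ} (hδ : 0 ≤ δ) {x y : ℝ} (hx : |x| ≤ 1) (hy : |y| ≤ 1) :
    ‖cen δ x y‖ ≤ 2 * δ := by
  have h1 := norm_cen_sq δ x y
  have h2 : N x y ≤ 4 := by
    unfold N
    rw [abs_le] at hx hy
    nlinarith [hx.1, hx.2, hy.1, hy.2]
  have h3 : ‖cen δ x y‖ ^ 2 ≤ (2 * δ) ^ 2 := by
    rw [h1]; nlinarith [sq_nonneg δ]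
  exact le_of_sq_le_sq h3 (by positivity)

section ker

variable {K : ℝ × ℝ → ℝ} (hK : Ker K)
include hK

theorem Ker.near {δ : ℝ} (hδ : 0 ≤ δ) (v : ℤ × ℤ) {p : ℝ × ℝ} (hp : K p ≠ 0) :
    ‖cen δ (v.1 + p.1) (v.2 + p.2) - centre δ v‖ ≤ 2 * δ := by
  rw [cen_centre_add, add_sub_cancel_left]
  exact norm_cen_le hδ (hK.supp p hp).1 (hK.supp p hp).2

/-- no weight where `f` vanishes around -/
theorem Ker.w_eq_zero {δ : ℝ} (hδ : 0 ≤ δ) {f : ℂ → ℝ} {v : ℤ × ℤ}
    (hf : ∀ z, ‖z - centre δ v‖ ≤ 2 * δ → f z = 0) : wK K δ f v = 0 := by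
  unfold wK
  rw [mul_eq_zero]
  right
  rw [← integral_zero (ℝ × ℝ) ℝ]
  refine integral_congr_ae (ae_of_all _ fun p => ?_)
  by_cases hp : K p = 0
  · simp [hp]
  · simp [hf _ (hK.near hδ v hp)]

theorem Ker.integrable {δ : ℝ} {f : ℂ → ℝ} (hf : Continuous f) (hf' : ∃ M, ∀ z, |f z| ≤ M)
    (v : ℤ × ℤ) : Integrable fun p : ℝ × ℝ => f (cen δ (v.1 + p.1) (v.2 + p.2)) * K p := by
  obtain ⟨M, hM⟩ := hf'
  have hc : Continuous fun p : ℝ × ℝ => f (cen δ (v.1 + p.1) (v.2 + p.2)) := by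
    refine hf.comp ?_
    unfold cen
    fun_prop
  exact hK.int.bdd_mul hc.aestronglyMeasurable (ae_of_all _ fun p => by
    rw [Real.norm_eq_abs]; exact hM _)

theorem Ker.w_le {δ : ℝ} {f : ℂ → ℝ} {M : ℝ} (hf : ∀ z, |f z| ≤ M) (v : ℤ × ℤ) :
    |wK K δ f v| ≤ Real.sqrt 3 / 2 * δ ^ 2 * M := by
  unfold wK
  rw [abs_mul, abs_of_nonneg (by positivity)]
  gcongr
  have h1 : ‖∫ p : ℝ × ℝ, f (cen δ (v.1 + p.1) (v.2 + p.2)) * K p‖ ≤ ∫ p, M * K p := by
    refine norm_integral_le_of_norm_le (hK.int.const_mul M) (ae_of_all _ fun p => ?_)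
    rw [norm_mul, Real.norm_eq_abs, Real.norm_eq_abs, abs_of_nonneg (hK.nonneg p)]
    exact mul_le_mul_of_nonneg_right (hf _) (hK.nonneg p)
  rw [integral_const_mul, hK.mass, mul_one] at h1
  exact h1

/-- first order accuracy of the weights -/
theorem Ker.w_approx {δ : ℝ} (hδ : 0 ≤ δ) {f : ℂ → ℝ} (hf : Continuous f)
    (hf' : ∃ M, ∀ z, |f z| ≤ M) {L : ℝ} (hL : ∀ z w, |f z - f w| ≤ L * ‖z - w‖)
    (v : ℤ × ℤ) :
    |wK K δ f v - Real.sqrt 3 / 2 * δ ^ 2 * f (centre δ v)| ≤ Real.sqrt 3 * L * δ ^ 3 := by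
  have hL0 : 0 ≤ L := by
    have := hL 0 1
    rw [zero_sub, norm_neg, norm_one, mul_one] at this
    exact (abs_nonneg _).trans this
  have hint := hK.integrable hf hf' (δ := δ) v
  have h0 : f (centre δ v) = ∫ p, f (centre δ v) * K p := by
    rw [integral_const_mul, hK.mass, mul_one]
  have h1 : wK K δ f v - Real.sqrt 3 / 2 * δ ^ 2 * f (centre δ v) =
      (Real.sqrt 3 / 2 * δ ^ 2) *
        ∫ p, (f (cen δ (v.1 + p.1) (v.2 + p.2)) - f (centre δ v)) * K p := by
    unfold wK
    simp only [sub_mul]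
    rw [integral_sub hint (hK.int.const_mul _), ← h0]
    ring
  rw [h1, abs_mul, abs_of_nonneg (by positivity)]
  have h2 : ‖∫ p, (f (cen δ (v.1 + p.1) (v.2 + p.2)) - f (centre δ v)) * K p‖ ≤
      ∫ p, (L * (2 * δ)) * K p := by
    refine norm_integral_le_of_norm_le (hK.int.const_mul _) (ae_of_all _ fun p => ?_)
    rw [norm_mul, Real.norm_eq_abs, Real.norm_eq_abs, abs_of_nonneg (hK.nonneg p)]
    by_cases hp : K p = 0
    · simp [hp]
    · refine mul_le_mul_of_nonneg_right ((hL _ _).trans ?_) (hK.nonneg p)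
      exact mul_le_mul_of_nonneg_left (hK.near hδ v hp) hL0
  rw [integral_const_mul, hK.mass, mul_one, Real.norm_eq_abs] at h2
  calc _ ≤ (Real.sqrt 3 / 2 * δ ^ 2) * (L * (2 * δ)) := by gcongr
    _ = _ := by ring

omit hK in
/-- translation of the test function = translation of the weights -/
theorem wK_translate (δ : ℝ) (f : ℂ → ℝ) (v e : ℤ × ℤ) :
    wK K δ f (v + e) = wK K δ (fun z => f (z + centre δ e)) v := by
  unfold wK
  congr 1
  refine integral_congr_ae (ae_of_all _ fun p => ?_)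
  simp only [centre_eq, cen_add, Prod.fst_add, Prod.snd_add]
  push_cast
  ring_nf

omit hK in
theorem wK_add (δ : ℝ) {f g : ℂ → ℝ} (v : ℤ × ℤ)
    (hf : Integrable fun p : ℝ × ℝ => f (cen δ (v.1 + p.1) (v.2 + p.2)) * K p)
    (hg : Integrable fun p : ℝ × ℝ => g (cen δ (v.1 + p.1) (v.2 + p.2)) * K p) :
    wK K δ (fun z => f z + g z) v = wK K δ f v + wK K δ g v := by
  unfold wK
  rw [← mul_add, ← integral_add hf hg]
  congr 1
  refine integral_congr_ae (ae_of_all _ fun p => ?_)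
  simp only
  ring

omit hK in
theorem wK_smul (δ : ℝ) (r : ℝ) (f : ℂ → ℝ) (v : ℤ × ℤ) :
    wK K δ (fun z => r * f z) v = r * wK K δ f v := by
  unfold wK
  have : (∫ p : ℝ × ℝ, r * f (cen δ (v.1 + p.1) (v.2 + p.2)) * K p) =
      r * ∫ p : ℝ × ℝ, f (cen δ (v.1 + p.1) (v.2 + p.2)) * K p := by
    rw [← integral_const_mul]
    refine integral_congr_ae (ae_of_all _ fun p => ?_)
    simp only
    ring
  rw [this]
  ring

end ker

end Crest.Agent.R144.Geo268
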