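import Mathlib
import Crest.Agent.R144.Geo6_268

/-! R144 (helper268) GEO block, file 7: the hexagonal cell in lattice coordinates, its kernel
(mass `1`), partition of unity, `ℓ¹` bounds of the weights. -/

set_option autoImplicit false

noncomputable section

open Set Topology Filter Metric MeasureTheory

namespace Crest.Agent.R144.Geo268

open Crest.ProbabilityR.HexHeights Crest.ProbabilityR.TriHeights Crest.Agent.R144.HexTil353

/-- the cell in lattice coordinates -/
def hexSet : Set (ℝ × ℝ) := {p | |2 * p.1 + p.2| ≤ 1 ∧ |p.1 + 2 * p.2| ≤ 1 ∧ |p.1 - p.2| ≤ 1}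

/-- integer inequality behind the Voronoi cell -/
theorem hex_int (a b : ℤ) {P Q : ℝ} (hP : |P| ≤ 1) (hQ : |Q| ≤ 1) (hPQ : |P - Q| ≤ 1) :
    P * a + Q * b ≤ (a : ℝ) ^ 2 + a * b + b ^ 2 := by
  rw [abs_le] at hP hQ hPQ
  -- `|n| ≤ n²` for integers
  have hsq : ∀ n : ℤ, (n : ℝ) ≤ (n : ℝ) ^ 2 ∧ -(n : ℝ) ≤ (n : ℝ) ^ 2 := by
    intro n
    constructor
    · have : n ≤ n ^ 2 := by nlinarith [sq_nonneg (n - 1), sq_nonneg n, Int.le_self_sq n]
      exact_mod_cast this
    · have : -n ≤ n ^ 2 := by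
        have := Int.le_self_sq (-n)
        nlinarith
      exact_mod_cast this
  rcases le_total 0 a with ha | ha <;> rcases le_total 0 b with hb | hb
  · -- both ≥ 0
    have ha' : (0 : ℝ) ≤ a := by exact_mod_cast ha
    have hb' : (0 : ℝ) ≤ b := by exact_mod_cast hb
    nlinarith [mul_le_mul_of_nonneg_right hP.2 ha', mul_le_mul_of_nonneg_right hQ.2 hb',
      (hsq a).1, (hsq b).1, mul_nonneg ha' hb']
  · -- a ≥ 0 ≥ b
    have ha' : (0 : ℝ) ≤ a := by exact_mod_cast ha
    have hb' : (0 : ℝ) ≤ -b := by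
      have : 0 ≤ -b := by omega
      exact_mod_cast this
    rcases le_total 0 (a + b) with hab | hab
    · have hab' : (0 : ℝ) ≤ (a : ℝ) + b := by exact_mod_cast hab
      -- P a + Q b = P (a + b) + (P - Q) (-b)
      have e1 : P * a + Q * b = P * (a + b) + (P - Q) * (-b) := by ring
      rw [e1]
      have h1 : P * (a + b) ≤ 1 * (a + b) := mul_le_mul_of_nonneg_right hP.2 hab'
      have h2 : (P - Q) * (-b) ≤ 1 * (-b) := mul_le_mul_of_nonneg_right hPQ.2 hb'
      have h3 : (a : ℤ) ≤ a ^ 2 + a * b + b ^ 2 := by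
        rcases eq_or_lt_of_le hab with h4 | h4
        · have h5 : b = -a := by omega
          rw [h5]
          nlinarith [Int.le_self_sq a]
        · nlinarith [mul_nonneg ha (by omega : (0:ℤ) ≤ a + b - 1), sq_nonneg b]
      have h4 : (a : ℝ) ≤ (a : ℝ) ^ 2 + a * b + b ^ 2 := by exact_mod_cast h3
      linarith
    · have hab' : (0 : ℝ) ≤ -((a : ℝ) + b) := by
        have : 0 ≤ -(a + b) := by omega
        exact_mod_cast this
      -- P a + Q b = (P - Q) a + Q (a + b)
      have e1 : P * a + Q * b = (P - Q) * a + (-Q) * (-((a:ℝ) + b)) := by ring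
      rw [e1]
      have h1 : (P - Q) * a ≤ 1 * a := mul_le_mul_of_nonneg_right hPQ.2 ha'
      have h2 : (-Q) * (-((a:ℝ) + b)) ≤ 1 * (-((a:ℝ) + b)) :=
        mul_le_mul_of_nonneg_right (by linarith [hQ.1]) hab'
      have h3 : (-b : ℤ) ≤ a ^ 2 + a * b + b ^ 2 := by
        rcases eq_or_lt_of_le hab with h4 | h4
        · have h5 : b = -a := by omega
          rw [h5]
          nlinarith [Int.le_self_sq a]
        · nlinarith [mul_nonneg (by omega : (0:ℤ) ≤ -b) (by omega : (0:ℤ) ≤ -(a + b) - 1), sq_nonneg a]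
      have h4 : (-b : ℝ) ≤ (a : ℝ) ^ 2 + a * b + b ^ 2 := by exact_mod_cast h3
      linarith
  · -- a ≤ 0 ≤ b
    have ha' : (0 : ℝ) ≤ -a := by
      have : 0 ≤ -a := by omega
      exact_mod_cast this
    have hb' : (0 : ℝ) ≤ b := by exact_mod_cast hb
    rcases le_total 0 (a + b) with hab | hab
    · have hab' : (0 : ℝ) ≤ (a : ℝ) + b := by exact_mod_cast hab
      have e1 : P * a + Q * b = Q * (a + b) + (-(P - Q)) * (-a) := by ring
      rw [e1]
      have h1 : Q * (a + b) ≤ 1 * (a + b) := mul_le_mul_of_nonneg_right hQ.2 hab'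
      have h2 : (-(P - Q)) * (-a) ≤ 1 * (-a) := mul_le_mul_of_nonneg_right (by linarith [hPQ.1]) ha'
      have h3 : (b : ℤ) ≤ a ^ 2 + a * b + b ^ 2 := by
        rcases eq_or_lt_of_le hab with h4 | h4
        · have h5 : b = -a := by omega
          rw [h5]
          nlinarith [Int.le_self_sq (-a)]
        · nlinarith [mul_nonneg hb (by omega : (0:ℤ) ≤ a + b - 1), sq_nonneg a]
      have h4 : (b : ℝ) ≤ (a : ℝ) ^ 2 + a * b + b ^ 2 := by exact_mod_cast h3
      linarith
    · have hab' : (0 : ℝ) ≤ -((a : ℝ) + b) := by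
        have : 0 ≤ -(a + b) := by omega
        exact_mod_cast this
      have e1 : P * a + Q * b = (-P) * (-((a:ℝ) + b)) + (-(P - Q)) * b := by ring
      rw [e1]
      have h1 : (-P) * (-((a:ℝ) + b)) ≤ 1 * (-((a:ℝ) + b)) :=
        mul_le_mul_of_nonneg_right (by linarith [hP.1]) hab'
      have h2 : (-(P - Q)) * b ≤ 1 * b := mul_le_mul_of_nonneg_right (by linarith [hPQ.1]) hb'
      have h3 : (-a : ℤ) ≤ a ^ 2 + a * b + b ^ 2 := by
        rcases eq_or_lt_of_le hab with h4 | h4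
        · have h5 : b = -a := by omega
          rw [h5]
          nlinarith [Int.le_self_sq (-a)]
        · nlinarith [mul_nonneg (by omega : (0:ℤ) ≤ -a) (by omega : (0:ℤ) ≤ -(a + b) - 1), sq_nonneg b]
      have h4 : (-a : ℝ) ≤ (a : ℝ) ^ 2 + a * b + b ^ 2 := by exact_mod_cast h3
      linarith
  · -- both ≤ 0
    have ha' : (0 : ℝ) ≤ -a := by
      have : 0 ≤ -a := by omega
      exact_mod_cast this
    have hb' : (0 : ℝ) ≤ -b := by
      have : 0 ≤ -b := by omega
      exact_mod_cast this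
    have h1 : (-P) * (-a) ≤ 1 * (-a) := mul_le_mul_of_nonneg_right (by linarith [hP.1]) ha'
    have h2 : (-Q) * (-b) ≤ 1 * (-b) := mul_le_mul_of_nonneg_right (by linarith [hQ.1]) hb'
    nlinarith [(hsq a).2, (hsq b).2, mul_nonneg ha' hb']

theorem mem_cell_coord {δ : ℝ} (hδ : 0 < δ) (u : ℤ × ℤ) (z : ℂ) :
    z ∈ cell δ u ↔ (ca δ z - u.1, cb δ z - u.2) ∈ hexSet := by
  set x := ca δ z - u.1 with hx
  set y := cb δ z - u.2 with hy
  have hdist : ∀ v : ℤ × ℤ, dist z (centre δ v) ^ 2 =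
      δ ^ 2 * N (x - (v.1 - u.1)) (y - (v.2 - u.2)) := by
    intro v
    conv_lhs => rw [← cen_ca_cb hδ z, centre_eq]
    rw [dist_cen_sq, hx, hy]
    congr 2 <;> ring
  have h0 : dist z (centre δ u) ^ 2 = δ ^ 2 * N x y := by
    have := hdist u
    simpa using this
  have hle : ∀ v : ℤ × ℤ, dist z (centre δ u) ≤ dist z (centre δ v) ↔
      N x y ≤ N (x - (v.1 - u.1)) (y - (v.2 - u.2)) := by
    intro v
    rw [← sq_le_sq₀ dist_nonneg dist_nonneg, h0, hdist v]
    exact mul_le_mul_iff_right₀ (by positivity)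
  constructor
  · intro hz
    have hN : ∀ a b : ℤ, N x y ≤ N (x - a) (y - b) := by
      intro a b
      have := (hle (u.1 + a, u.2 + b)).1 (hz _)
      simpa using this
    have e1 := hN 1 0
    have e2 := hN (-1) 0
    have e3 := hN 0 1
    have e4 := hN 0 (-1)
    have e5 := hN 1 (-1)
    have e6 := hN (-1) 1
    unfold N at e1 e2 e3 e4 e5 e6
    push_cast at e1 e2 e3 e4 e5 e6
    refine ⟨?_, ?_, ?_⟩ <;> rw [abs_le] <;> constructor <;> nlinarith
  · rintro ⟨h1, h2, h3⟩ v
    rw [hle v]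
    have h4 : |(2 * x + y) - (x + 2 * y)| ≤ 1 := by
      have : (2 * x + y) - (x + 2 * y) = x - y := by ring
      rw [this]; exact h3
    have := hex_int (v.1 - u.1) (v.2 - u.2) h1 h2 h4
    push_cast at this
    unfold N
    nlinarith

theorem isClosed_hexSet : IsClosed hexSet := by
  have h1 : Continuous fun p : ℝ × ℝ => |2 * p.1 + p.2| := by fun_prop
  have h2 : Continuous fun p : ℝ × ℝ => |p.1 + 2 * p.2| := by fun_prop
  have h3 : Continuous fun p : ℝ × ℝ => |p.1 - p.2| := by fun_prop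
  exact (isClosed_le h1 continuous_const).inter
    ((isClosed_le h2 continuous_const).inter (isClosed_le h3 continuous_const))

theorem hex_slice (x : ℝ) :
    (volume : Measure ℝ) (Prod.mk x ⁻¹' hexSet) = ENNReal.ofReal (min 1 (2 - 3 * |x|)) := by
  have h1 : Prod.mk x ⁻¹' hexSet = Icc (-1 - 2 * x) (1 - 2 * x) ∩ Icc ((-1 - x) / 2) ((1 - x) / 2)
      ∩ Icc (x - 1) (x + 1) := by
    ext y
    simp only [hexSet, mem_preimage, mem_ofPred_eq, mem_inter_iff, mem_Icc, abs_le]
    constructor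
    · rintro ⟨⟨a1, a2⟩, ⟨a3, a4⟩, a5, a6⟩
      refine ⟨⟨⟨?_, ?_⟩, ?_, ?_⟩, ?_, ?_⟩ <;> linarith
    · rintro ⟨⟨⟨a1, a2⟩, a3, a4⟩, a5, a6⟩
      refine ⟨⟨?_, ?_⟩, ⟨?_, ?_⟩, ?_, ?_⟩ <;> linarith
  rw [h1, Icc_inter_Icc, Icc_inter_Icc, Real.volume_Icc]
  congr 1
  rcases le_total 0 x with hx | hx
  · rw [abs_of_nonneg hx, sup_eq_right.2 (by linarith : -1 - 2 * x ≤ (-1 - x) / 2)]
    rcases le_total x (1 / 3) with h | h
    · rw [inf_eq_right.2 (by linarith : (1 - x) / 2 ≤ 1 - 2 * x),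
        inf_eq_left.2 (by linarith : (1 - x) / 2 ≤ x + 1),
        sup_eq_left.2 (by linarith : x - 1 ≤ (-1 - x) / 2), min_eq_left (by linarith)]
      ring
    · rw [inf_eq_left.2 (by linarith : 1 - 2 * x ≤ (1 - x) / 2),
        inf_eq_left.2 (by linarith : 1 - 2 * x ≤ x + 1),
        sup_eq_right.2 (by linarith : (-1 - x) / 2 ≤ x - 1), min_eq_right (by linarith)]
      ring
  · rw [abs_of_nonpos hx, inf_eq_right.2 (by linarith : (1 - x) / 2 ≤ 1 - 2 * x)]
    rcases le_total (-(1 / 3)) x with h | h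
    · rw [sup_eq_right.2 (by linarith : -1 - 2 * x ≤ (-1 - x) / 2),
        inf_eq_left.2 (by linarith : (1 - x) / 2 ≤ x + 1),
        sup_eq_left.2 (by linarith : x - 1 ≤ (-1 - x) / 2), min_eq_left (by linarith)]
      ring
    · rw [sup_eq_left.2 (by linarith : (-1 - x) / 2 ≤ -1 - 2 * x),
        inf_eq_right.2 (by linarith : x + 1 ≤ (1 - x) / 2),
        sup_eq_left.2 (by linarith : x - 1 ≤ -1 - 2 * x), min_eq_right (by linarith)]
      ring

/-- region under the profile of slice lengths -/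
def profSet : Set (ℝ × ℝ) := {q | 0 ≤ q.2 ∧ q.2 ≤ 1 ∧ q.2 ≤ 2 - 3 * |q.1|}

theorem isClosed_profSet : IsClosed profSet := by
  unfold profSet
  exact (isClosed_le continuous_const continuous_snd).inter
    ((isClosed_le continuous_snd continuous_const).inter (isClosed_le continuous_snd (by fun_prop)))

theorem volume_hexSet : (volume : Measure (ℝ × ℝ)) hexSet = 1 := by
  have h1 : (volume : Measure (ℝ × ℝ)) hexSet = (volume : Measure (ℝ × ℝ)) profSet := by
    rw [Measure.volume_eq_prod, Measure.prod_apply isClosed_hexSet.measurableSet,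
      Measure.prod_apply isClosed_profSet.measurableSet]
    refine lintegral_congr fun x => ?_
    rw [hex_slice]
    have h2 : Prod.mk x ⁻¹' profSet = Icc 0 (min 1 (2 - 3 * |x|)) := by
      ext s
      simp only [profSet, mem_preimage, mem_ofPred_eq, mem_Icc, le_min_iff]
    rw [h2, Real.volume_Icc, sub_zero]
  rw [h1, Measure.volume_eq_prod, Measure.prod_apply_symm isClosed_profSet.measurableSet]
  have h3 : ∀ s : ℝ, (volume : Measure ℝ) ((fun x => (x, s)) ⁻¹' profSet) =
      (Icc (0 : ℝ) 1).indicator (fun s => ENNReal.ofReal (2 * (2 - s) / 3)) s := by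
    intro s
    by_cases hs : s ∈ Icc (0 : ℝ) 1
    · rw [indicator_of_mem hs]
      have h4 : (fun x => (x, s)) ⁻¹' profSet = Icc (-((2 - s) / 3)) ((2 - s) / 3) := by
        ext x
        simp only [profSet, mem_preimage, mem_ofPred_eq, mem_Icc, ← abs_le]
        constructor
        · rintro ⟨-, -, h⟩; linarith
        · intro h; exact ⟨hs.1, hs.2, by linarith⟩
      rw [h4, Real.volume_Icc]
      congr 1
      ring
    · rw [indicator_of_notMem hs]
      have h4 : (fun x => (x, s)) ⁻¹' profSet = ∅ := by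
        ext x
        simp only [profSet, mem_preimage, mem_ofPred_eq, mem_empty_iff_false, iff_false]
        exact fun h => hs ⟨h.1, h.2.1⟩
      rw [h4, measure_empty]
  simp_rw [h3]
  rw [lintegral_indicator measurableSet_Icc, ← ofReal_integral_eq_lintegral_ofReal]
  · rw [integral_Icc_eq_integral_Ioc, ← intervalIntegral.integral_of_le zero_le_one]
    have : (∫ s in (0 : ℝ)..1, 2 * (2 - s) / 3) = 1 := by
      have h5 : ∀ s : ℝ, 2 * (2 - s) / 3 = 4 / 3 - (2 / 3) * s := fun s => by ring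
      simp_rw [h5]
      rw [intervalIntegral.integral_sub (by simp) (Continuous.intervalIntegrable (by fun_prop) _ _),
        intervalIntegral.integral_const, intervalIntegral.integral_const_mul, integral_id]
      norm_num
    rw [this, ENNReal.ofReal_one]
  · exact (Continuous.integrableOn_Icc (by fun_prop))
  · refine (ae_restrict_iff' measurableSet_Icc).2 (ae_of_all _ fun s hs => ?_)
    have := hs.2
    simp only [Pi.zero_apply]
    linarith

/-- kernel of the hexagonal pairing -/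
def hexK (p : ℝ × ℝ) : ℝ := hexSet.indicator 1 p

theorem hex_bounds {p : ℝ × ℝ} (h : p ∈ hexSet) : |p.1| ≤ 1 ∧ |p.2| ≤ 1 := by
  obtain ⟨h1, h2, h3⟩ := h
  rw [abs_le] at h1 h2 h3
  constructor <;> rw [abs_le] <;> constructor <;> linarith

theorem ker_hex : Ker hexK where
  nonneg := fun p => indicator_nonneg (fun _ _ => zero_le_one) p
  supp := fun p h => by
    apply hex_bounds
    by_contra h1
    exact h (indicator_of_notMem h1 _)
  int := by
    unfold hexK
    refine (integrable_indicator_iff isClosed_hexSet.measurableSet).2 ?_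
    refine integrableOn_const ?_ |>.congr_fun (f := fun _ => (1 : ℝ)) (fun _ _ => rfl) isClosed_hexSet.measurableSet
    rw [volume_hexSet]
    exact ENNReal.one_ne_top
  mass := by
    unfold hexK
    rw [integral_indicator_one isClosed_hexSet.measurableSet, Measure.real, volume_hexSet,
      ENNReal.toReal_one]

/-- weight of the face `u` in the hexagonal pairing -/
theorem cell_integral {δ : ℝ} (hδ : 0 < δ) (f : ℂ → ℝ) (u : ℤ × ℤ) :
    ∫ z in cell δ u, f z = wK hexK δ f u := by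
  rw [← integral_indicator (isClosed_cell δ u).measurableSet, integral_cen hδ, smul_eq_mul]
  unfold wK
  congr 1
  rw [← integral_add_right_eq_self (μ := (volume : Measure (ℝ × ℝ)))
    (fun p : ℝ × ℝ => (cell δ u).indicator f (cen δ p.1 p.2)) ((u.1 : ℝ), (u.2 : ℝ))]
  refine integral_congr_ae (ae_of_all _ fun p => ?_)
  simp only [Prod.fst_add, Prod.snd_add]
  have h1 : cen δ (p.1 + u.1) (p.2 + u.2) ∈ cell δ u ↔ p ∈ hexSet := by
    rw [mem_cell_coord hδ, ca_cen hδ, cb_cen hδ, add_sub_cancel_right, add_sub_cancel_right]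
  unfold hexK
  by_cases hp : p ∈ hexSet
  · rw [indicator_of_mem (h1.2 hp), indicator_of_mem hp, Pi.one_apply, mul_one, add_comm p.1,
      add_comm p.2]
  · rw [indicator_of_notMem (fun h => hp (h1.1 h)), indicator_of_notMem hp, mul_zero]

/-- **hexagonal pairing in plain form** -/
theorem pairing_plain {δ : ℝ} (hδ : 0 < δ) {F : Finset (ℤ × ℤ)} (f : ℂ → ℝ) (h : Height F) :
    pairing δ f h = ∑ u : F, ((h u : ℤ) : ℝ) * wK hexK δ f u := by
  unfold pairing
  exact Finset.sum_congr rfl fun u _ => by rw [cell_integral hδ]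

/-! ### `ℓ¹` bound of the weights -/

theorem volume_inter_cell {δ : ℝ} (hδ : 0 < δ) {u v : ℤ × ℤ} (h : u ≠ v) :
    volume (cell δ u ∩ cell δ v) = 0 := by
  refine measure_mono_null (t := frontier (cell δ u)) ?_
    ((convex_cell δ u).addHaar_frontier volume)
  rintro z ⟨h1, h2⟩
  rw [frontier, (isClosed_cell δ u).closure_eq]
  exact ⟨h1, fun h3 => disjoint_left.1 (cell_disj hδ u v h) h3 h2⟩

theorem sum_setIntegral_cell {δ : ℝ} (hδ : 0 < δ) (S : Finset (ℤ × ℤ)) {g : ℂ → ℝ}
    (hg : Integrable g) : ∑ u ∈ S, ∫ z in cell δ u, g z = ∫ z in ⋃ u ∈ S, cell δ u, g z := by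
  classical
  induction S using Finset.induction_on with
  | empty => simp
  | insert t T ht ih =>
    rw [Finset.sum_insert ht, ih, Finset.set_biUnion_insert]
    have hm : MeasurableSet (⋃ t ∈ T, cell δ t) :=
      Finset.measurableSet_biUnion T fun t _ => (isClosed_cell δ t).measurableSet
    have hd : AEDisjoint volume (cell δ t) (⋃ t ∈ T, cell δ t) := by
      unfold AEDisjoint
      rw [inter_iUnion₂]
      refine (measure_biUnion_null_iff T.countable_toSet).2 fun s hs => ?_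
      exact volume_inter_cell hδ (fun h => ht (h ▸ hs))
    rw [setIntegral_union₀ hd hm.nullMeasurableSet hg.integrableOn hg.integrableOn]

theorem sum_abs_cell_le {δ : ℝ} (hδ : 0 < δ) {f : ℂ → ℝ} (hf : Integrable f)
    (S : Finset (ℤ × ℤ)) : ∑ u ∈ S, |wK hexK δ f u| ≤ ∫ z, |f z| := by
  have h1 : ∑ u ∈ S, |wK hexK δ f u| ≤ ∑ u ∈ S, ∫ z in cell δ u, |f z| := by
    refine Finset.sum_le_sum fun u _ => ?_
    rw [← cell_integral hδ]
    exact norm_integral_le_integral_norm (μ := volume.restrict (cell δ u)) f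
  refine h1.trans ?_
  rw [sum_setIntegral_cell hδ S hf.abs]
  exact setIntegral_le_integral hf.abs (ae_of_all _ fun z => abs_nonneg _)

/-- partition of unity on a triangle -/
theorem sum_hat_corners {δ : ℝ} (hδ : 0 < δ) (t : Tri) {z : ℂ} (hz : z ∈ triRegion δ t) :
    ∑ v ∈ corners t, hat δ v z = 1 := by
  rw [corners, Finset.sum_image (fun i _ j _ hij => corner_injective t hij)]
  have h1 : ∀ k : Fin 3, hat δ (corner t k) z = bary (centre δ (corner t k))
      (centre δ (corner t (k + 1))) (centre δ (corner t (k + 2))) z := fun k =>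
    (bary_eq_hat hδ t k hz).symm
  rw [Fin.sum_univ_three, h1, h1, h1]
  obtain ⟨⟨u1, u2⟩, b⟩ := t
  simp only [centre_eq, bary_cen hδ]
  set X := ca δ z
  set Y := cb δ z
  cases b
  · have c0 : corner (((u1, u2), false) : Tri) 0 = (u1 + 1, u2) := rfl
    have c1 : corner (((u1, u2), false) : Tri) 1 = (u1, u2 + 1) := rfl
    have c2 : corner (((u1, u2), false) : Tri) 2 = (u1 + 1, u2 + 1) := rfl
    have d1 : (0 : Fin 3) + 1 = 1 := rfl
    have d2 : (0 : Fin 3) + 2 = 2 := rfl
    have d3 : (1 : Fin 3) + 1 = 2 := rfl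
    have d4 : (1 : Fin 3) + 2 = 0 := rfl
    have d5 : (2 : Fin 3) + 1 = 0 := rfl
    have d6 : (2 : Fin 3) + 2 = 1 := rfl
    rw [d1, d2, d3, d4, d5, d6, c0, c1, c2]
    push_cast
    have e1 : ((u1 : ℝ) - (u1 + 1)) * (u2 + 1 - u2) - (u1 + 1 - (u1 + 1)) * (u2 + 1 - u2) = -1 := by
      ring
    have e2 : ((u1 : ℝ) + 1 - u1) * (u2 - (u2 + 1)) - (u1 + 1 - u1) * (u2 + 1 - (u2 + 1)) = -1 := by
      ring
    have e3 : ((u1 : ℝ) + 1 - (u1 + 1)) * (u2 + 1 - (u2 + 1)) - (u1 - (u1 + 1)) * (u2 - (u2 + 1)) =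
      -1 := by ring
    rw [e1, e2, e3]
    ring
  · have c0 : corner (((u1, u2), true) : Tri) 0 = (u1, u2) := rfl
    have c1 : corner (((u1, u2), true) : Tri) 1 = (u1 + 1, u2) := rfl
    have c2 : corner (((u1, u2), true) : Tri) 2 = (u1, u2 + 1) := rfl
    have d1 : (0 : Fin 3) + 1 = 1 := rfl
    have d2 : (0 : Fin 3) + 2 = 2 := rfl
    have d3 : (1 : Fin 3) + 1 = 2 := rfl
    have d4 : (1 : Fin 3) + 2 = 0 := rfl
    have d5 : (2 : Fin 3) + 1 = 0 := rfl
    have d6 : (2 : Fin 3) + 2 = 1 := rfl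
    rw [d1, d2, d3, d4, d5, d6, c0, c1, c2]
    push_cast
    have e1 : ((u1 : ℝ) + 1 - u1) * (u2 + 1 - u2) - (u1 - u1) * (u2 - u2) = 1 := by
      ring
    have e2 : ((u1 : ℝ) - (u1 + 1)) * (u2 - u2) - (u1 - (u1 + 1)) * (u2 + 1 - u2) = 1 := by
      ring
    have e3 : ((u1 : ℝ) - u1) * (u2 - (u2 + 1)) - (u1 + 1 - u1) * (u2 - (u2 + 1)) = 1 := by ring
    rw [e1, e2, e3]
    ring

/-- every point is in some closed triangle -/
theorem exists_tri {δ : ℝ} (hδ : 0 < δ) (z : ℂ) : ∃ t, z ∈ triRegion δ t := by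
  have h1 := Int.floor_le (ca δ z)
  have h2 := Int.lt_floor_add_one (ca δ z)
  have h3 := Int.floor_le (cb δ z)
  have h4 := Int.lt_floor_add_one (cb δ z)
  rcases le_total ((ca δ z - ⌊ca δ z⌋) + (cb δ z - ⌊cb δ z⌋)) 1 with h | h
  · refine ⟨((⌊ca δ z⌋, ⌊cb δ z⌋), true), ?_⟩
    rw [mem_tri_true hδ]
    exact ⟨by simp only; linarith, by simp only; linarith, h⟩
  · refine ⟨((⌊ca δ z⌋, ⌊cb δ z⌋), false), ?_⟩
    rw [mem_tri_false hδ]
    exact ⟨by simp only; linarith, by simp only; linarith, h⟩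

theorem sum_hat_le {δ : ℝ} (hδ : 0 < δ) (S : Finset (ℤ × ℤ)) (z : ℂ) :
    ∑ v ∈ S, hat δ v z ≤ 1 := by
  classical
  obtain ⟨t, ht⟩ := exists_tri hδ z
  rw [← sum_hat_corners hδ t ht]
  have h1 : ∑ v ∈ S, hat δ v z = ∑ v ∈ S ∩ corners t, hat δ v z := by
    symm
    refine Finset.sum_subset Finset.inter_subset_left fun v hv hv' => ?_
    exact hat_eq_zero hδ (fun h => hv' (Finset.mem_inter.2 ⟨hv, h⟩)) ht
  rw [h1]
  exact Finset.sum_le_sum_of_subset_of_nonneg Finset.inter_subset_right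
    fun v _ _ => hat_nonneg δ v z

theorem sum_abs_wA_le {δ : ℝ} (hδ : 0 < δ) {f : ℂ → ℝ} (hf : Integrable f)
    (S : Finset (ℤ × ℤ)) : ∑ v ∈ S, |wA δ f v| ≤ ∫ z, |f z| := by
  have h1 : ∑ v ∈ S, |wA δ f v| ≤ ∑ v ∈ S, ∫ z, |f z| * hat δ v z := by
    refine Finset.sum_le_sum fun v _ => ?_
    unfold wA
    refine (norm_integral_le_integral_norm (μ := volume) (fun z => f z * hat δ v z)).trans
      (le_of_eq ?_)
    refine integral_congr_ae (ae_of_all _ fun z => ?_)
    simp only [norm_mul, Real.norm_eq_abs, abs_of_nonneg (hat_nonneg δ v z)]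
  refine h1.trans ?_
  rw [← integral_finsetSum S fun v _ => integrable_mul_hat hf.abs δ v]
  refine integral_mono (integrable_finsetSum S fun v _ => integrable_mul_hat hf.abs δ v) hf.abs
    fun z => ?_
  simp only
  rw [← Finset.mul_sum]
  exact mul_le_of_le_one_right (abs_nonneg _) (sum_hat_le hδ S z)

end Crest.Agent.R144.Geo268
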