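import Mathlib
import Crest.Agent.Lib.PrekopaLeindler

/-!
R144 (S0197), helper560.  Volumes of symmetric convex sets in `ι → ℝ`.

* `PL_fintype` : Prekopa–Leindler on `ι → ℝ`, `ι` a finite type;
* `vol_le_of_mix` : if `(1-s) x - s y ∈ B` for all `x, y ∈ A` then `vol A ≤ vol B`;
* `vol_le_of_mid2` : if `(x+y)/2 ∈ B` for `x ∈ A₁`, `y ∈ A₂` then `vol A₁ * vol A₂ ≤ vol B ^ 2`;
* `slab_mono` : slabs of a symmetric convex set far from the centre have smaller volume;
* `slab_tail` : `vol (K ∩ {2 - d < |Y|}) ≤ d * vol K` for `|Y| ≤ 2` on `K`.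
-/

set_option autoImplicit false

open MeasureTheory Set
open Crest.Agent.Lib.PrekopaLeindler (PL PL_pi)
open scoped ENNReal

noncomputable section

namespace Crest.Agent.R144.Ham560

variable {ι : Type*} [Fintype ι]

/-- Prekopa–Leindler on a finite product of lines. -/
theorem PL_fintype : PL (ι → ℝ) volume := by
  classical
  refine PL.of_measurePreserving (E := Fin (Fintype.card ι) → ℝ)
    (MeasurableEquiv.piCongrLeft (fun _ : ι => ℝ) (Fintype.equivFin ι).symm)
    (volume_measurePreserving_piCongrLeft (fun _ : ι => ℝ) (Fintype.equivFin ι).symm) ?_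
    (PL_pi _)
  intro a b x y
  ext i
  obtain ⟨j, rfl⟩ := (Fintype.equivFin ι).symm.surjective i
  simp [MeasurableEquiv.coe_piCongrLeft, Equiv.piCongrLeft_apply_apply]

/-- Two-set Brunn–Minkowski in multiplicative form. -/
theorem vol_mul_le {t : ℝ} (ht0 : 0 < t) (ht1 : t < 1) {A₁ A₂ B : Set (ι → ℝ)}
    (h1 : MeasurableSet A₁) (h2 : MeasurableSet A₂) (hB : MeasurableSet B)
    (H : ∀ x ∈ A₁, ∀ y ∈ A₂, (1 - t) • x + t • y ∈ B) :
    volume A₁ ^ (1 - t) * volume A₂ ^ t ≤ volume B := by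
  have key := PL_fintype (ι := ι) t ht0 ht1 (A₁.indicator 1) (A₂.indicator 1) (B.indicator 1)
    (measurable_one.indicator h1) (measurable_one.indicator h2) (measurable_one.indicator hB) ?_
  · simpa [lintegral_indicator_one h1, lintegral_indicator_one h2, lintegral_indicator_one hB]
      using key
  · intro x y
    have ht1' : 0 < 1 - t := by linarith
    by_cases hx : x ∈ A₁
    · by_cases hy : y ∈ A₂
      · simp [hx, hy, H x hx y hy]
      · simp [hy, ENNReal.zero_rpow_of_pos ht0]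
    · simp [hx, ENNReal.zero_rpow_of_pos ht1']

/-- Volume of the reflected set. -/
theorem vol_neg (A : Set (ι → ℝ)) : volume (-A) = volume A :=
  Measure.measure_neg volume A

/-- If `(1-s) x - s y ∈ B` for all `x, y ∈ A`, then `vol A ≤ vol B`. -/
theorem vol_le_of_mix {s : ℝ} (hs0 : 0 < s) (hs1 : s < 1) {A B : Set (ι → ℝ)}
    (hA : MeasurableSet A) (hB : MeasurableSet B)
    (H : ∀ x ∈ A, ∀ y ∈ A, (1 - s) • x - s • y ∈ B) :
    volume A ≤ volume B := by
  have key := vol_mul_le hs0 hs1 hA hA.neg hB ?_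
  · rw [vol_neg] at key
    rcases eq_or_ne (volume A) 0 with h0 | h0
    · simp [h0]
    rcases eq_or_ne (volume A) ∞ with h1 | h1
    · have : (∞ : ℝ≥0∞) ≤ volume B := by
        rw [h1, ENNReal.top_rpow_of_pos (by linarith), ENNReal.top_rpow_of_pos hs0] at key
        simpa using key
      exact le_trans le_top this
    · rw [← ENNReal.rpow_add _ _ h0 h1] at key
      simpa using key
  · intro x hx y hy
    have := H x hx (-y) (by simpa using hy)
    simpa [sub_eq_add_neg, smul_neg] using this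

/-- If `(x+y)/2 ∈ B` for `x ∈ A₁`, `y ∈ A₂`, then `vol A₁ * vol A₂ ≤ vol B ^ 2`. -/
theorem vol_mul_le_sq {A₁ A₂ B : Set (ι → ℝ)}
    (h1 : MeasurableSet A₁) (h2 : MeasurableSet A₂) (hB : MeasurableSet B)
    (H : ∀ x ∈ A₁, ∀ y ∈ A₂, (1 / 2 : ℝ) • x + (1 / 2 : ℝ) • y ∈ B) :
    volume A₁ * volume A₂ ≤ volume B ^ 2 := by
  have key := vol_mul_le (t := 1 / 2) (by norm_num) (by norm_num) h1 h2 hB ?_
  · have h3 := ENNReal.rpow_le_rpow key (z := 2) (by norm_num)
    rw [ENNReal.mul_rpow_of_nonneg _ _ (by norm_num : (0 : ℝ) ≤ 2), ← ENNReal.rpow_mul,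
      ← ENNReal.rpow_mul] at h3
    norm_num at h3
    exact_mod_cast h3
  · intro x hx y hy
    have := H x hx y hy
    norm_num at this ⊢
    exact this

/-- Difference set version: `(x - y)/2 ∈ B` for `x, y ∈ A`. -/
theorem vol_le_of_half {A B : Set (ι → ℝ)}
    (hA : MeasurableSet A) (hB : MeasurableSet B)
    (H : ∀ x ∈ A, ∀ y ∈ A, (1 / 2 : ℝ) • x - (1 / 2 : ℝ) • y ∈ B) :
    volume A ≤ volume B := by
  refine vol_le_of_mix (s := 1 / 2) (by norm_num) (by norm_num) hA hB ?_
  intro x hx y hy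
  have := H x hx y hy
  norm_num at this ⊢
  exact this

/-- Slabs of a symmetric convex set: moving away from the centre decreases the volume. -/
theorem slab_mono {K : Set (ι → ℝ)} (hK : Convex ℝ K) (hsym : ∀ x ∈ K, -x ∈ K)
    (hKm : MeasurableSet K) (Y : (ι → ℝ) →ₗ[ℝ] ℝ) (hY : Measurable Y) {a b r : ℝ}
    (ha : 0 ≤ a) (hab : a ≤ b) :
    volume (K ∩ {x | |Y x - b| ≤ r}) ≤ volume (K ∩ {x | |Y x - a| ≤ r}) := by
  rcases eq_or_lt_of_le hab with rfl | hlt
  · exact le_rfl
  have hb : 0 < b := lt_of_le_of_lt ha hlt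
  -- weight `s` with `(1 - s) b - s b = a`
  set s : ℝ := (b - a) / (2 * b) with hs
  have hs0 : 0 < s := by rw [hs]; apply div_pos <;> linarith
  have hs1 : s < 1 := by rw [hs, div_lt_one (by linarith)]; linarith
  have hsa : (1 - s) * b - s * b = a := by rw [hs]; field_simp; ring
  refine vol_le_of_mix hs0 hs1 ?_ ?_ ?_
  · exact hKm.inter (measurableSet_le ((hY.sub_const b).abs) measurable_const)
  · exact hKm.inter (measurableSet_le ((hY.sub_const a).abs) measurable_const)
  · rintro x ⟨hx, hxr⟩ y ⟨hy, hyr⟩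
    refine ⟨?_, ?_⟩
    · have := hK hx (hsym y hy) (by linarith : (0:ℝ) ≤ 1 - s) hs0.le (by ring)
      simpa [sub_eq_add_neg, smul_neg] using this
    · change |Y x - b| ≤ r at hxr
      change |Y y - b| ≤ r at hyr
      change |Y ((1 - s) • x - s • y) - a| ≤ r
      rw [map_sub, map_smul, map_smul, smul_eq_mul, smul_eq_mul]
      have e : (1 - s) * Y x - s * Y y - a = (1 - s) * (Y x - b) - s * (Y y - b) := by
        rw [← hsa]; ring
      rw [e]
      rw [abs_le] at hxr hyr ⊢
      constructor <;> nlinarith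

/-- Open slabs version of `slab_mono`. -/
theorem slab_mono' {K : Set (ι → ℝ)} (hK : Convex ℝ K) (hsym : ∀ x ∈ K, -x ∈ K)
    (hKm : MeasurableSet K) (Y : (ι → ℝ) →ₗ[ℝ] ℝ) (hY : Measurable Y) {a b r : ℝ}
    (ha : 0 ≤ a) (hab : a ≤ b) :
    volume (K ∩ {x | |Y x - b| < r}) ≤ volume (K ∩ {x | |Y x - a| < r}) := by
  rcases eq_or_lt_of_le hab with rfl | hlt
  · exact le_rfl
  have hb : 0 < b := lt_of_le_of_lt ha hlt
  set s : ℝ := (b - a) / (2 * b) with hs
  have hs0 : 0 < s := by rw [hs]; apply div_pos <;> linarith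
  have hs1 : s < 1 := by rw [hs, div_lt_one (by linarith)]; linarith
  have hsa : (1 - s) * b - s * b = a := by rw [hs]; field_simp; ring
  refine vol_le_of_mix hs0 hs1 ?_ ?_ ?_
  · exact hKm.inter (measurableSet_lt ((hY.sub_const b).abs) measurable_const)
  · exact hKm.inter (measurableSet_lt ((hY.sub_const a).abs) measurable_const)
  · rintro x ⟨hx, hxr⟩ y ⟨hy, hyr⟩
    refine ⟨?_, ?_⟩
    · have := hK hx (hsym y hy) (by linarith : (0:ℝ) ≤ 1 - s) hs0.le (by ring)
      simpa [sub_eq_add_neg, smul_neg] using this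
    · change |Y x - b| < r at hxr
      change |Y y - b| < r at hyr
      change |Y ((1 - s) • x - s • y) - a| < r
      rw [map_sub, map_smul, map_smul, smul_eq_mul, smul_eq_mul]
      have e : (1 - s) * Y x - s * Y y - a = (1 - s) * (Y x - b) - s * (Y y - b) := by
        rw [← hsa]; ring
      rw [e]
      rw [abs_lt] at hxr hyr ⊢
      constructor <;> nlinarith

/-- Tail of a bounded functional on a symmetric convex set (unimodality). -/
theorem slab_tail {K : Set (ι → ℝ)} (hK : Convex ℝ K) (hsym : ∀ x ∈ K, -x ∈ K)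
    (hKm : MeasurableSet K) (Y : (ι → ℝ) →ₗ[ℝ] ℝ) (hY : Measurable Y)
    (hb : ∀ x ∈ K, |Y x| ≤ 2) {d : ℝ} (hd : 0 < d) :
    volume (K ∩ {x | 2 - d < |Y x|}) ≤ ENNReal.ofReal (2 * d) * volume K := by
  set V0 := volume (K ∩ {x | |Y x - 2| < d}) with hV0
  set m := ⌊1 / d⌋₊ with hm
  have hmd : (m : ℝ) * d ≤ 1 := by
    have := Nat.floor_le (show (0:ℝ) ≤ 1 / d by positivity)
    rw [← hm] at this
    calc (m : ℝ) * d ≤ 1 / d * d := by gcongr
      _ = 1 := by field_simp
  have hmd' : 1 ≤ ((m : ℝ) + 1) * d := by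
    have := (Nat.lt_floor_add_one (1 / d)).le
    rw [← hm] at this
    calc (1:ℝ) = 1 / d * d := by field_simp
      _ ≤ ((m:ℝ) + 1) * d := by gcongr
  have hsum : ((m : ℝ≥0∞) + 1) * V0 ≤ volume K := by
    have h1 : ∀ j ∈ Finset.range (m + 1), V0 ≤ volume (K ∩ {x | |Y x - 2 * d * (j:ℝ)| < d}) := by
      intro j hj
      have hj' : (j : ℝ) ≤ m := by
        have := Finset.mem_range.mp hj
        exact_mod_cast Nat.lt_succ_iff.mp this
      exact slab_mono' hK hsym hKm Y hY (by positivity) (by nlinarith)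
    have h2 : ∑ j ∈ Finset.range (m + 1), V0 ≤
        ∑ j ∈ Finset.range (m + 1), volume (K ∩ {x | |Y x - 2 * d * (j:ℝ)| < d}) :=
      Finset.sum_le_sum h1
    rw [Finset.sum_const, Finset.card_range, nsmul_eq_mul] at h2
    push_cast at h2
    refine h2.trans ?_
    rw [← measure_biUnion_finset]
    · exact measure_mono (by intro x hx; simp only [Finset.mem_range, mem_iUnion] at hx; obtain ⟨j, hj, hx⟩ := hx; exact hx.1)
    · intro i _ j _ hij
      rw [Function.onFun, Set.disjoint_left]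
      rintro x ⟨_, hxi⟩ ⟨_, hxj⟩
      change |Y x - 2 * d * (i:ℝ)| < d at hxi
      change |Y x - 2 * d * (j:ℝ)| < d at hxj
      rw [abs_lt] at hxi hxj
      rcases Nat.lt_or_gt_of_ne hij with h | h
      · have : (i:ℝ) + 1 ≤ j := by exact_mod_cast h
        nlinarith [hxi.1, hxi.2, hxj.1, hxj.2]
      · have : (j:ℝ) + 1 ≤ i := by exact_mod_cast h
        nlinarith [hxi.1, hxi.2, hxj.1, hxj.2]
    · intro j _
      exact hKm.inter (measurableSet_lt ((hY.sub_const _).abs) measurable_const)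
  have hV0le : V0 ≤ ENNReal.ofReal d * volume K := by
    have h3 : ENNReal.ofReal d * (((m : ℝ≥0∞) + 1) * V0) ≤ ENNReal.ofReal d * volume K := by
      gcongr
    refine le_trans ?_ h3
    have h4 : (1 : ℝ≥0∞) ≤ ENNReal.ofReal d * ((m : ℝ≥0∞) + 1) := by
      have : ((m : ℝ≥0∞) + 1) = ENNReal.ofReal ((m:ℝ) + 1) := by
        rw [ENNReal.ofReal_add (by positivity) (by norm_num)]; simp
      rw [this, ← ENNReal.ofReal_mul hd.le]
      rw [← ENNReal.ofReal_one]
      apply ENNReal.ofReal_le_ofReal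
      linarith [mul_comm d ((m:ℝ)+1)]
    calc V0 = 1 * V0 := (one_mul _).symm
      _ ≤ (ENNReal.ofReal d * ((m : ℝ≥0∞) + 1)) * V0 := by gcongr
      _ = ENNReal.ofReal d * (((m : ℝ≥0∞) + 1) * V0) := by ring
  have hsplit : K ∩ {x | 2 - d < |Y x|} ⊆
      (K ∩ {x | |Y x - 2| < d}) ∪ (-(K ∩ {x | |Y x - 2| < d})) := by
    rintro x ⟨hx, hxd⟩
    change 2 - d < |Y x| at hxd
    have h5 := hb x hx
    rcases le_total 0 (Y x) with h | h
    · left
      refine ⟨hx, ?_⟩
      rw [abs_of_nonneg h] at hxd h5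
      change |Y x - 2| < d
      rw [abs_lt]; constructor <;> linarith
    · right
      rw [Set.mem_neg]
      refine ⟨hsym x hx, ?_⟩
      rw [abs_of_nonpos h] at hxd h5
      change |Y (-x) - 2| < d
      rw [map_neg, abs_lt]; constructor <;> linarith
  calc volume (K ∩ {x | 2 - d < |Y x|}) ≤ V0 + V0 := by
        refine (measure_mono hsplit).trans ((measure_union_le _ _).trans ?_)
        rw [vol_neg]
    _ ≤ ENNReal.ofReal d * volume K + ENNReal.ofReal d * volume K := by gcongr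
    _ = ENNReal.ofReal (2 * d) * volume K := by
        rw [← add_mul, ← ENNReal.ofReal_add hd.le hd.le]; ring_nf

end Crest.Agent.R144.Ham560
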