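import Crest.Agent.R144.Ham1_560

/-!
R144 (S0197), helper560.  The hammock polytope of a finite graph and LEMMA T of helper620
(a forest of edges is simultaneously `ε`-tight with probability at most `(C √ε)^|S|`).

Vertices are elements of an arbitrary type `U`, `F` is the finite set of free vertices, `E` a finite
set of pairs (edges, any orientation), `ξ` the boundary data.
-/

set_option autoImplicit false

open MeasureTheory Set
open scoped ENNReal

noncomputable section

namespace Crest.Agent.R144.Ham560

variable {U : Type*} [DecidableEq U]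

/-- Extension of the free coordinates `x` by the boundary values `ξ`. -/
def ext (F : Finset U) (ξ : U → ℝ) (x : F → ℝ) (u : U) : ℝ :=
  if h : u ∈ F then x ⟨u, h⟩ else ξ u

/-- The hammock polytope with boundary data `ξ`. -/
def ham (F : Finset U) (E : Finset (U × U)) (ξ : U → ℝ) : Set (F → ℝ) :=
  {x | ∀ p ∈ E, |ext F ξ x p.1 - ext F ξ x p.2| ≤ 1}

variable {F : Finset U} {E : Finset (U × U)} {ξ η : U → ℝ}

theorem ext_mem {u : U} (h : u ∈ F) (x : F → ℝ) : ext F ξ x u = x ⟨u, h⟩ := by simp [ext, h]

theorem ext_notMem {u : U} (h : u ∉ F) (x : F → ℝ) : ext F ξ x u = ξ u := by simp [ext, h]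

theorem ext_comb (a b : ℝ) (x y : F → ℝ) (u : U) :
    ext F (a • ξ + b • η) (a • x + b • y) u = a * ext F ξ x u + b * ext F η y u := by
  by_cases h : u ∈ F <;> simp [ext, h]

theorem ext_neg (x : F → ℝ) (u : U) : ext F (-ξ) (-x) u = - ext F ξ x u := by
  by_cases h : u ∈ F <;> simp [ext, h]

theorem continuous_ext (u : U) : Continuous (fun x : F → ℝ => ext F ξ x u) := by
  by_cases h : u ∈ F
  · simp only [ext, h, dif_pos]; exact continuous_apply _
  · simp only [ext, h, dif_neg, not_false_eq_true]; exact continuous_const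

/-- The extension by zero as a linear functional. -/
def extL (F : Finset U) (u : U) : (F → ℝ) →ₗ[ℝ] ℝ where
  toFun x := ext F 0 x u
  map_add' x y := by by_cases h : u ∈ F <;> simp [ext, h]
  map_smul' c x := by by_cases h : u ∈ F <;> simp [ext, h]

@[simp] theorem extL_apply (u : U) (x : F → ℝ) : extL F u x = ext F 0 x u := rfl

theorem isClosed_ham : IsClosed (ham F E ξ) := by
  have : ham F E ξ = ⋂ p ∈ E, {x | |ext F ξ x p.1 - ext F ξ x p.2| ≤ 1} := by
    ext x; simp [ham]
  rw [this]
  exact isClosed_biInter fun p _ =>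
    isClosed_le (((continuous_ext p.1).sub (continuous_ext p.2)).abs) continuous_const

theorem measurableSet_ham : MeasurableSet (ham F E ξ) := isClosed_ham.measurableSet

theorem ham_comb {a b : ℝ} (ha : 0 ≤ a) (hb : 0 ≤ b) (hab : a + b = 1) {x y : F → ℝ}
    (hx : x ∈ ham F E ξ) (hy : y ∈ ham F E η) : a • x + b • y ∈ ham F E (a • ξ + b • η) := by
  intro p hp
  rw [ext_comb, ext_comb]
  have h1 := abs_le.mp (hx p hp)
  have h2 := abs_le.mp (hy p hp)
  rw [abs_le]; constructor <;> nlinarith

theorem convex_ham : Convex ℝ (ham F E ξ) := by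
  intro x hx y hy a b ha hb hab
  have := ham_comb ha hb hab hx hy
  rwa [← add_smul, hab, one_smul] at this

theorem ham_neg {x : F → ℝ} (hx : x ∈ ham F E ξ) : -x ∈ ham F E (-ξ) := by
  intro p hp
  rw [ext_neg, ext_neg]
  have := hx p hp
  rwa [show -ext F ξ x p.1 - -ext F ξ x p.2 = -(ext F ξ x p.1 - ext F ξ x p.2) by ring, abs_neg]

/-- Configurations of `ham F E 0` in which the edges of `S` have slope at most `r`. -/
def flat (F : Finset U) (E : Finset (U × U)) (S : List (U × U)) (r : ℝ) : Set (F → ℝ) :=
  {x | x ∈ ham F E 0 ∧ ∀ q ∈ S, |ext F 0 x q.1 - ext F 0 x q.2| ≤ r}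

theorem isClosed_flat (S : List (U × U)) (r : ℝ) : IsClosed (flat F E S r) := by
  have : flat F E S r = ham F E 0 ∩ ⋂ q ∈ {q | q ∈ S}, {x | |ext F 0 x q.1 - ext F 0 x q.2| ≤ r} := by
    ext x; simp [flat]
  rw [this]
  exact isClosed_ham.inter (isClosed_biInter fun p _ =>
    isClosed_le (((continuous_ext p.1).sub (continuous_ext p.2)).abs) continuous_const)

theorem convex_flat (S : List (U × U)) (r : ℝ) : Convex ℝ (flat F E S r) := by
  intro x hx y hy a b ha hb hab
  refine ⟨convex_ham hx.1 hy.1 ha hb hab, fun q hq => ?_⟩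
  have e : ∀ u, ext F 0 (a • x + b • y) u = a * ext F 0 x u + b * ext F 0 y u := by
    intro u
    have := ext_comb (F := F) (ξ := 0) (η := 0) a b x y u
    simpa using this
  rw [e, e]
  have h1 := abs_le.mp (hx.2 q hq)
  have h2 := abs_le.mp (hy.2 q hq)
  have hr : a * r + b * r = r := by rw [← add_mul, hab, one_mul]
  rw [abs_le]; constructor <;> nlinarith

theorem flat_neg {S : List (U × U)} {r : ℝ} {x : F → ℝ} (hx : x ∈ flat F E S r) :
    -x ∈ flat F E S r := by
  refine ⟨by simpa using ham_neg hx.1, fun q hq => ?_⟩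
  have e : ∀ u, ext F 0 (-x) u = -ext F 0 x u := by
    intro u; have := ext_neg (F := F) (ξ := 0) x u; simpa using this
  rw [e, e]
  have := hx.2 q hq
  rwa [show -ext F 0 x q.1 - -ext F 0 x q.2 = -(ext F 0 x q.1 - ext F 0 x q.2) by ring, abs_neg]

/-- Neighbours of `v` in `E`. -/
def nbr (E : Finset (U × U)) (v : U) : Finset U :=
  ((E.filter fun p => p.1 = v).image Prod.snd ∪ (E.filter fun p => p.2 = v).image Prod.fst).erase v

theorem mem_nbr {v w : U} : w ∈ nbr E v ↔ w ≠ v ∧ ((v, w) ∈ E ∨ (w, v) ∈ E) := by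
  simp only [nbr, Finset.mem_erase, Finset.mem_union, Finset.mem_image, Finset.mem_filter,
    Prod.exists]
  constructor
  · rintro ⟨h, (⟨a, b, ⟨h1, h2⟩, h3⟩ | ⟨a, b, ⟨h1, h2⟩, h3⟩)⟩
    · subst h2 h3; exact ⟨h, Or.inl h1⟩
    · subst h2 h3; exact ⟨h, Or.inr h1⟩
  · rintro ⟨h, h1 | h1⟩
    · exact ⟨h, Or.inl ⟨v, w, ⟨h1, rfl⟩, rfl⟩⟩
    · exact ⟨h, Or.inr ⟨w, v, ⟨h1, rfl⟩, rfl⟩⟩

theorem ext_update {v : U} (hv : v ∈ F) (x : F → ℝ) (t : ℝ) (w : U) :
    ext F ξ (Function.update x ⟨v, hv⟩ t) w = if w = v then t else ext F ξ x w := by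
  by_cases hw : w ∈ F
  · by_cases h : w = v
    · subst h; simp [ext, hw]
    · simp [ext, hw, h]
  · have : w ≠ v := fun h => hw (h ▸ hv)
    simp [ext, hw, this]

/-- Constraints of `flat` that do not involve the free vertex `v`. -/
def rest (F : Finset U) (E : Finset (U × U)) (S : List (U × U)) (r : ℝ) (v : U) : Set (F → ℝ) :=
  {x | (∀ p ∈ E, p.1 ≠ v → p.2 ≠ v → |ext F 0 x p.1 - ext F 0 x p.2| ≤ 1) ∧
    ∀ q ∈ S, |ext F 0 x q.1 - ext F 0 x q.2| ≤ r}

theorem rest_update {S : List (U × U)} {r : ℝ} {v : U} (hv : v ∈ F)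
    (hS : ∀ q ∈ S, q.1 ≠ v ∧ q.2 ≠ v) (x : F → ℝ) (t : ℝ) :
    Function.update x ⟨v, hv⟩ t ∈ rest F E S r v ↔ x ∈ rest F E S r v := by
  show (_ ∧ _) ↔ (_ ∧ _)
  constructor
  · rintro ⟨h1, h2⟩
    refine ⟨fun p hp ha hb => ?_, fun q hq => ?_⟩
    · have := h1 p hp ha hb
      rwa [ext_update hv, ext_update hv, if_neg ha, if_neg hb] at this
    · have := h2 q hq
      rwa [ext_update hv, ext_update hv, if_neg (hS q hq).1, if_neg (hS q hq).2] at this
  · rintro ⟨h1, h2⟩
    refine ⟨fun p hp ha hb => ?_, fun q hq => ?_⟩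
    · rw [ext_update hv, ext_update hv, if_neg ha, if_neg hb]; exact h1 p hp ha hb
    · rw [ext_update hv, ext_update hv, if_neg (hS q hq).1, if_neg (hS q hq).2]; exact h2 q hq

theorem mem_flat_iff {S : List (U × U)} {r : ℝ} {v : U} (x : F → ℝ) :
    x ∈ flat F E S r ↔ x ∈ rest F E S r v ∧ ∀ w ∈ nbr E v, |ext F 0 x v - ext F 0 x w| ≤ 1 := by
  constructor
  · rintro ⟨h1, h2⟩
    refine ⟨⟨fun p hp _ _ => h1 p hp, h2⟩, fun w hw => ?_⟩
    rcases (mem_nbr.mp hw).2 with h | h
    · exact h1 _ h
    · rw [abs_sub_comm]; exact h1 _ h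
  · rintro ⟨⟨h1, h2⟩, h3⟩
    refine ⟨fun p hp => ?_, h2⟩
    by_cases ha : p.1 = v
    · by_cases hb : p.2 = v
      · rw [ha, hb]; simp
      · rw [ha]; exact h3 _ (mem_nbr.mpr ⟨hb, Or.inl (by rw [← ha]; exact hp)⟩)
    · by_cases hb : p.2 = v
      · rw [hb, abs_sub_comm]; exact h3 _ (mem_nbr.mpr ⟨ha, Or.inr (by rw [← hb]; exact hp)⟩)
      · exact h1 p hp ha hb

/-- Bad set: two neighbours of `v` differ by more than `2 - d`. -/
def spread (F : Finset U) (E : Finset (U × U)) (v : U) (d : ℝ) : Set (F → ℝ) :=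
  {x | ∃ w ∈ nbr E v, ∃ w' ∈ nbr E v, 2 - d < |ext F 0 x w - ext F 0 x w'|}

theorem measurableSet_spread (v : U) (d : ℝ) : MeasurableSet (spread F E v d) := by
  have : spread F E v d = ⋃ w ∈ nbr E v, ⋃ w' ∈ nbr E v,
      {x | 2 - d < |ext F 0 x w - ext F 0 x w'|} := by
    ext x; simp [spread]
  rw [this]
  refine Finset.measurableSet_biUnion _ fun w _ => Finset.measurableSet_biUnion _ fun w' _ => ?_
  exact measurableSet_lt measurable_const
    ((((continuous_ext w).sub (continuous_ext w')).abs).measurable)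

theorem vol_flat_spread {S : List (U × U)} {r : ℝ} {v : U} {d : ℝ} (hd : 0 < d) :
    volume (flat F E S r ∩ spread F E v d) ≤
      ENNReal.ofReal (2 * (nbr E v).card ^ 2 * d) * volume (flat F E S r) := by
  have hsub : flat F E S r ∩ spread F E v d ⊆ ⋃ q ∈ (nbr E v) ×ˢ (nbr E v),
      (flat F E S r ∩ {x | 2 - d < |(extL F q.1 - extL F q.2) x|}) := by
    rintro x ⟨hx, w, hw, w', hw', h⟩
    simp only [mem_iUnion]
    exact ⟨(w, w'), Finset.mem_product.mpr ⟨hw, hw'⟩, hx, h⟩
  refine (measure_mono hsub).trans ((measure_biUnion_finset_le _ _).trans ?_)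
  have h1 : ∀ q ∈ (nbr E v) ×ˢ (nbr E v),
      volume (flat F E S r ∩ {x | 2 - d < |(extL F q.1 - extL F q.2) x|}) ≤
        ENNReal.ofReal (2 * d) * volume (flat F E S r) := by
    intro q hq
    obtain ⟨hq1, hq2⟩ := Finset.mem_product.mp hq
    refine slab_tail (convex_flat S r) (fun x hx => flat_neg hx) (isClosed_flat S r).measurableSet
      _ ?_ ?_ hd
    · exact ((continuous_ext (F := F) (ξ := 0) q.1).sub (continuous_ext q.2)).measurable
    · intro x hx
      have h2 := (((mem_flat_iff (v := v) x).mp hx).2 q.1 hq1)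
      have h3 := (((mem_flat_iff (v := v) x).mp hx).2 q.2 hq2)
      change |ext F 0 x q.1 - ext F 0 x q.2| ≤ 2
      rw [abs_le] at h2 h3 ⊢
      constructor <;> linarith
  refine (Finset.sum_le_sum h1).trans ?_
  rw [Finset.sum_const, Finset.card_product, nsmul_eq_mul, ← mul_assoc]
  gcongr
  rw [show ((((nbr E v).card * (nbr E v).card : ℕ)) : ℝ≥0∞) =
      ENNReal.ofReal (((nbr E v).card : ℝ) ^ 2) by
    rw [← ENNReal.ofReal_natCast]; push_cast; ring_nf]
  rw [← ENNReal.ofReal_mul (by positivity)]
  apply ENNReal.ofReal_le_ofReal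
  nlinarith

/-- One step of the chain: with `v` fresh and `u` a neighbour of `v`. -/
theorem vol_step {S : List (U × U)} {r ρ : ℝ} {v u : U} (hv : v ∈ F)
    (hS : ∀ q ∈ S, q.1 ≠ v ∧ q.2 ≠ v) (hu : u ∈ nbr E v) {d : ℝ} (hd : 0 < d) (hρ : 0 ≤ ρ) :
    volume (flat F E S r ∩ {x | |ext F 0 x v - ext F 0 x u| ≤ ρ}) ≤
      ENNReal.ofReal (2 * ρ / d) * volume (flat F E S r) +
        volume (flat F E S r ∩ spread F E v d) := by
  classical
  set A := flat F E S r ∩ {x : F → ℝ | |ext F 0 x v - ext F 0 x u| ≤ ρ} with hA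
  have hAm : MeasurableSet A := (isClosed_flat S r).measurableSet.inter
    (measurableSet_le (((continuous_ext v).sub (continuous_ext u)).abs).measurable measurable_const)
  have hKm : MeasurableSet (flat F E S r) := (isClosed_flat S r).measurableSet
  have hBm : MeasurableSet (flat F E S r ∩ spread F E v d) := hKm.inter (measurableSet_spread v d)
  set c := ENNReal.ofReal (2 * ρ / d) with hc
  let f : (F → ℝ) → ℝ≥0∞ := A.indicator 1
  let g : (F → ℝ) → ℝ≥0∞ := fun x =>
    c * (flat F E S r).indicator 1 x + (flat F E S r ∩ spread F E v d).indicator 1 x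
  have hf : Measurable f := measurable_one.indicator hAm
  have hg : Measurable g :=
    ((measurable_one.indicator hKm).const_mul c).add (measurable_one.indicator hBm)
  have huv : u ≠ v := (mem_nbr.mp hu).1
  have key : ∫⁻ x, f x ∂(Measure.pi fun _ : F => (volume : Measure ℝ)) ≤
      ∫⁻ x, g x ∂(Measure.pi fun _ : F => (volume : Measure ℝ)) := by
    refine lintegral_le_of_lmarginal_le {(⟨v, hv⟩ : F)} hf hg ?_
    rw [lmarginal_singleton, lmarginal_singleton]
    intro x
    -- the fibre
    by_cases hx : x ∈ rest F E S r v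
    · -- membership in the fibre
      have hmem : ∀ t, Function.update x ⟨v, hv⟩ t ∈ flat F E S r ↔
          ∀ w ∈ nbr E v, |t - ext F 0 x w| ≤ 1 := by
        intro t
        rw [mem_flat_iff (v := v), rest_update hv hS]
        simp only [hx, true_and]
        constructor
        · intro h w hw
          have := h w hw
          rwa [ext_update hv, ext_update hv, if_pos rfl, if_neg (mem_nbr.mp hw).1] at this
        · intro h w hw
          rw [ext_update hv, ext_update hv, if_pos rfl, if_neg (mem_nbr.mp hw).1]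
          exact h w hw
      by_cases hsp : ∃ w ∈ nbr E v, ∃ w' ∈ nbr E v, 2 - d < |ext F 0 x w - ext F 0 x w'|
      · -- bad fibre
        refine lintegral_mono fun t => ?_
        simp only [f, g]
        by_cases ht : Function.update x ⟨v, hv⟩ t ∈ A
        · have hB : Function.update x ⟨v, hv⟩ t ∈ flat F E S r ∩ spread F E v d := by
            refine ⟨ht.1, ?_⟩
            obtain ⟨w, hw, w', hw', h⟩ := hsp
            refine ⟨w, hw, w', hw', ?_⟩
            rw [ext_update hv, ext_update hv, if_neg (mem_nbr.mp hw).1, if_neg (mem_nbr.mp hw').1]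
            exact h
          rw [indicator_of_mem ht, indicator_of_mem hB]
          simp
        · rw [indicator_of_notMem ht]; exact bot_le
      · -- good fibre : interval of length at least d
        push Not at hsp
        have hne : (nbr E v).Nonempty := ⟨u, hu⟩
        obtain ⟨wM, hwM, hM⟩ := Finset.exists_max_image (nbr E v) (fun w => ext F 0 x w) hne
        obtain ⟨wm, hwm, hm⟩ := Finset.exists_min_image (nbr E v) (fun w => ext F 0 x w) hne
        have hlen : ext F 0 x wM - ext F 0 x wm ≤ 2 - d :=
          (le_abs_self _).trans (hsp wM hwM wm hwm)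
        have hfib : ∀ t, Function.update x ⟨v, hv⟩ t ∈ flat F E S r ↔
            t ∈ Icc (ext F 0 x wM - 1) (ext F 0 x wm + 1) := by
          intro t
          rw [hmem t, mem_Icc]
          constructor
          · intro h
            have h1 := abs_le.mp (h wM hwM)
            have h2 := abs_le.mp (h wm hwm)
            constructor <;> linarith
          · rintro ⟨h1, h2⟩ w hw
            have h3 := hM w hw
            have h4 := hm w hw
            rw [abs_le]; constructor <;> linarith
        have hl : ∫⁻ t, f (Function.update x ⟨v, hv⟩ t) ≤ ENNReal.ofReal (2 * ρ) := by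
          calc ∫⁻ t, f (Function.update x ⟨v, hv⟩ t)
              ≤ ∫⁻ t, (Icc (ext F 0 x u - ρ) (ext F 0 x u + ρ)).indicator (1 : ℝ → ℝ≥0∞) t := by
                refine lintegral_mono fun t => ?_
                simp only [f]
                by_cases ht : Function.update x ⟨v, hv⟩ t ∈ A
                · have h5 : |ext F 0 (Function.update x ⟨v, hv⟩ t) v -
                      ext F 0 (Function.update x ⟨v, hv⟩ t) u| ≤ ρ := ht.2
                  rw [ext_update hv, ext_update hv, if_pos rfl, if_neg huv, abs_le] at h5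
                  have h6 : t ∈ Icc (ext F 0 x u - ρ) (ext F 0 x u + ρ) := by
                    rw [mem_Icc]; constructor <;> linarith
                  rw [indicator_of_mem ht, indicator_of_mem h6]
                  exact le_rfl
                · rw [indicator_of_notMem ht]; exact bot_le
            _ = ENNReal.ofReal (2 * ρ) := by
                rw [lintegral_indicator_one measurableSet_Icc, Real.volume_Icc]
                congr 1; ring
        have hr' : ENNReal.ofReal (2 * ρ) ≤ ∫⁻ t, g (Function.update x ⟨v, hv⟩ t) := by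
          calc ENNReal.ofReal (2 * ρ) = c * ENNReal.ofReal d := by
                rw [hc, ← ENNReal.ofReal_mul (by positivity)]
                congr 1; field_simp
            _ ≤ c * ∫⁻ t, (Icc (ext F 0 x wM - 1) (ext F 0 x wm + 1)).indicator
                  (1 : ℝ → ℝ≥0∞) t := by
                gcongr
                rw [lintegral_indicator_one measurableSet_Icc, Real.volume_Icc]
                apply ENNReal.ofReal_le_ofReal; linarith
            _ = ∫⁻ t, c * (Icc (ext F 0 x wM - 1) (ext F 0 x wm + 1)).indicator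
                  (1 : ℝ → ℝ≥0∞) t := by
                rw [lintegral_const_mul _ (measurable_one.indicator measurableSet_Icc)]
            _ ≤ ∫⁻ t, g (Function.update x ⟨v, hv⟩ t) := by
                refine lintegral_mono fun t => ?_
                simp only [g]
                refine le_trans ?_ le_self_add
                gcongr
                by_cases ht : t ∈ Icc (ext F 0 x wM - 1) (ext F 0 x wm + 1)
                · rw [indicator_of_mem ht, indicator_of_mem ((hfib t).mpr ht)]
                  exact le_rfl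
                · rw [indicator_of_notMem ht]; exact bot_le
        exact hl.trans hr'
    · -- outside the rest constraints everything vanishes
      refine lintegral_mono fun t => ?_
      simp only [f]
      have ht : Function.update x ⟨v, hv⟩ t ∉ A := by
        intro h
        have := ((mem_flat_iff (v := v) _).mp h.1).1
        rw [rest_update hv hS] at this
        exact hx this
      rw [indicator_of_notMem ht]; exact bot_le
  have e1 : ∫⁻ x, f x ∂(Measure.pi fun _ : F => (volume : Measure ℝ)) = volume A := by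
    simp only [f]; rw [lintegral_indicator_one hAm]; rfl
  have e2 : ∫⁻ x, g x ∂(Measure.pi fun _ : F => (volume : Measure ℝ)) =
      c * volume (flat F E S r) + volume (flat F E S r ∩ spread F E v d) := by
    simp only [g]
    rw [lintegral_add_left ((measurable_one.indicator hKm).const_mul c),
      lintegral_const_mul _ (measurable_one.indicator hKm),
      lintegral_indicator_one hKm, lintegral_indicator_one hBm]
    rfl
  rw [e1, e2] at key
  exact key

end Crest.Agent.R144.Ham560
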