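import Crest.Agent.R144.Ham2_560

/-!
R144 (S0197), helper560.  LEMMA T (sharp form, linear in `ε`).

* `slab_centre` : if a central slab of width `t₀` carries at most half of the volume then the
  central slab of width `s` carries at most `s / t₀` of it;
* `Fresh F E S` : the edges of `S` can be ordered so that each one attaches a fresh free vertex;
* `vol_flat_le` : `vol {∇_e h ∈ [-r, r], e ∈ S} ≤ (64 n² r)^|S| vol K`;
* `vol_tight_le` : LEMMA T, `vol (K^ξ ∩ {S ε-tight}) ≤ (64 n² ε)^|S| vol K^0`.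
-/

set_option autoImplicit false

open MeasureTheory Set
open scoped ENNReal

noncomputable section

namespace Crest.Agent.R144.Ham560

section slab

variable {ι : Type*} [Fintype ι]

/-- Central slabs of a symmetric convex set (bounded density of an even log-concave law). -/
theorem slab_centre {K : Set (ι → ℝ)} (hK : Convex ℝ K) (hsym : ∀ x ∈ K, -x ∈ K)
    (hKm : MeasurableSet K) (X : (ι → ℝ) →ₗ[ℝ] ℝ) (hX : Measurable X) {t₀ : ℝ} (ht₀ : 0 < t₀)
    (h : volume (K ∩ {x | |X x| ≤ t₀}) ≤ ENNReal.ofReal (1 / 2) * volume K) {s : ℝ} (hs : 0 < s) :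
    volume (K ∩ {x | |X x| ≤ s}) ≤ ENNReal.ofReal (s / t₀) * volume K := by
  rcases le_or_gt t₀ s with hst | hst
  · calc volume (K ∩ {x | |X x| ≤ s}) ≤ volume K := measure_mono inter_subset_left
      _ = ENNReal.ofReal 1 * volume K := by simp
      _ ≤ ENNReal.ofReal (s / t₀) * volume K := by
        gcongr
        rwa [le_div_iff₀ ht₀, one_mul]
  rcases eq_or_ne (volume K) ∞ with hV | hV
  · rw [hV, ENNReal.mul_top (by simp; positivity)]
    exact le_top
  set l : ℝ := s / t₀ with hl
  have hl0 : 0 < l := by positivity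
  have hl1 : l < 1 := by rw [hl, div_lt_one ht₀]; exact hst
  -- the sets
  set A : Set (ι → ℝ) := K ∩ {x | 0 ≤ X x} with hA
  set B : Set (ι → ℝ) := K ∩ {x | t₀ < X x} with hB
  set C : Set (ι → ℝ) := K ∩ {x | s < X x} with hC
  have hAm : MeasurableSet A := hKm.inter (measurableSet_le measurable_const hX)
  have hBm : MeasurableSet B := hKm.inter (measurableSet_lt measurable_const hX)
  have hCm : MeasurableSet C := hKm.inter (measurableSet_lt measurable_const hX)
  have key := vol_mul_le (ι := ι) hl0 hl1 hAm hBm hCm (by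
    rintro x ⟨hx, hx0⟩ y ⟨hy, hyt⟩
    refine ⟨hK hx hy (by linarith) hl0.le (by ring), ?_⟩
    change s < X ((1 - l) • x + l • y)
    rw [map_add, map_smul, map_smul, smul_eq_mul, smul_eq_mul]
    change 0 ≤ X x at hx0
    change t₀ < X y at hyt
    have h1 : s = l * t₀ := by rw [hl]; field_simp
    have h2 : 0 ≤ (1 - l) * X x := mul_nonneg (by linarith) hx0
    nlinarith [mul_pos hl0 (sub_pos.mpr hyt)])
  -- finiteness
  have fin : ∀ S : Set (ι → ℝ), S ⊆ K → volume S ≠ ∞ := fun S hS =>
    ne_top_of_le_ne_top hV (measure_mono hS)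
  set V : ℝ := volume.real K with hVr
  have hV0 : 0 ≤ V := measureReal_nonneg
  -- `vol A ≥ V / 2`
  have eA : V ≤ 2 * volume.real A := by
    have h1 : K ⊆ A ∪ -A := by
      intro x hx
      rcases le_total 0 (X x) with h | h
      · exact Or.inl ⟨hx, h⟩
      · refine Or.inr ?_
        rw [Set.mem_neg]
        exact ⟨hsym x hx, by change 0 ≤ X (-x); rw [map_neg]; linarith⟩
    have h2 : volume K ≤ volume A + volume A := by
      refine (measure_mono h1).trans ((measure_union_le _ _).trans ?_)
      rw [vol_neg]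
    have h3 := ENNReal.toReal_mono (by
      exact ENNReal.add_ne_top.mpr ⟨fin A inter_subset_left, fin A inter_subset_left⟩) h2
    rw [ENNReal.toReal_add (fin A inter_subset_left) (fin A inter_subset_left)] at h3
    change V ≤ volume.real A + volume.real A at h3
    linarith
  -- slabs in terms of one-sided sets
  have eS : ∀ r : ℝ, 0 ≤ r → volume.real (K ∩ {x | |X x| ≤ r}) +
      2 * volume.real (K ∩ {x | r < X x}) = V := by
    intro r hr
    have hm1 : MeasurableSet (K ∩ {x | |X x| ≤ r}) :=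
      hKm.inter (measurableSet_le hX.abs measurable_const)
    have hm2 : MeasurableSet (K ∩ {x | r < X x}) :=
      hKm.inter (measurableSet_lt measurable_const hX)
    have hunion : K = (K ∩ {x | |X x| ≤ r}) ∪ ((K ∩ {x | r < X x}) ∪ -(K ∩ {x | r < X x})) := by
      ext x
      constructor
      · intro hx
        rcases le_or_gt (|X x|) r with h | h
        · exact Or.inl ⟨hx, h⟩
        · refine Or.inr ?_
          rcases lt_abs.mp h with h' | h'
          · exact Or.inl ⟨hx, h'⟩
          · refine Or.inr ?_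
            rw [Set.mem_neg]
            exact ⟨hsym x hx, by change r < X (-x); rwa [map_neg]⟩
      · rintro (h | h | h)
        · exact h.1
        · exact h.1
        · rw [Set.mem_neg] at h
          have := hsym _ h.1
          rwa [neg_neg] at this
    have hd1 : Disjoint (K ∩ {x | r < X x}) (-(K ∩ {x | r < X x})) := by
      rw [Set.disjoint_left]
      rintro x ⟨_, h1⟩ h2
      rw [Set.mem_neg] at h2
      have h3 : r < X (-x) := h2.2
      rw [map_neg] at h3
      change r < X x at h1
      linarith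
    have hd2 : Disjoint (K ∩ {x | |X x| ≤ r}) ((K ∩ {x | r < X x}) ∪ -(K ∩ {x | r < X x})) := by
      rw [Set.disjoint_left]
      rintro x ⟨_, h1⟩ h2
      change |X x| ≤ r at h1
      rw [abs_le] at h1
      rcases h2 with h2 | h2
      · have : r < X x := h2.2
        linarith
      · rw [Set.mem_neg] at h2
        have h3 : r < X (-x) := h2.2
        rw [map_neg] at h3
        linarith
    have h1 : V = volume.real ((K ∩ {x | |X x| ≤ r}) ∪ ((K ∩ {x | r < X x}) ∪ -(K ∩ {x | r < X x}))) := by
      rw [← hunion]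
    rw [measureReal_union hd2 (hm2.union hm2.neg) (fin _ inter_subset_left)
      (fin _ (union_subset inter_subset_left (by
        intro x hx; rw [Set.mem_neg] at hx
        have := hsym _ hx.1
        rwa [neg_neg] at this))),
      measureReal_union hd1 hm2.neg (fin _ inter_subset_left) (fin _ (by
        intro x hx; rw [Set.mem_neg] at hx
        have := hsym _ hx.1
        rwa [neg_neg] at this))] at h1
    have h2 : volume.real (-(K ∩ {x | r < X x})) = volume.real (K ∩ {x | r < X x}) := by
      unfold Measure.real; rw [vol_neg]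
    rw [h2] at h1
    linarith
  have e1 := eS t₀ ht₀.le
  have e2 := eS s hs.le
  have h' : volume.real (K ∩ {x | |X x| ≤ t₀}) ≤ V / 2 := by
    have := ENNReal.toReal_mono (by
      exact ENNReal.mul_ne_top ENNReal.ofReal_ne_top hV) h
    rw [ENNReal.toReal_mul, ENNReal.toReal_ofReal (by norm_num)] at this
    change volume.real (K ∩ {x | |X x| ≤ t₀}) ≤ 1 / 2 * V at this
    linarith
  have eB : V / 4 ≤ volume.real B := by linarith
  have eA' : V / 2 ≤ volume.real A := by linarith
  -- the key inequality in real form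
  have key' : (V / 2) ^ (1 - l) * (V / 4) ^ l ≤ volume.real C := by
    have h1 : (volume.real A) ^ (1 - l) * (volume.real B) ^ l ≤ volume.real C := by
      have := ENNReal.toReal_mono (fin C inter_subset_left) key
      rw [ENNReal.toReal_mul, ← ENNReal.toReal_rpow, ← ENNReal.toReal_rpow] at this
      exact this
    refine le_trans ?_ h1
    gcongr
  have e3 : (V / 2) ^ (1 - l) * (V / 4) ^ l = (V / 2) * (1 / 2) ^ l := by
    rcases eq_or_lt_of_le hV0 with h0 | h0
    · rw [← h0]; simp [Real.zero_rpow hl0.ne']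
    · rw [show V / 4 = (V / 2) * (1 / 2) by ring, Real.mul_rpow (by positivity) (by norm_num),
        ← mul_assoc, ← Real.rpow_add (by positivity)]
      simp
  have e4 : 1 - l ≤ (1 / 2 : ℝ) ^ l := by
    have h1 : (1 / 2 : ℝ) ^ l = Real.exp (-(l * Real.log 2)) := by
      rw [Real.rpow_def_of_pos (by norm_num)]
      congr 1
      rw [one_div, Real.log_inv]; ring
    rw [h1]
    have h2 := Real.add_one_le_exp (-(l * Real.log 2))
    have h3 : Real.log 2 ≤ 1 := by
      have := Real.log_two_lt_d9; linarith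
    nlinarith
  have e5 : volume.real (K ∩ {x | |X x| ≤ s}) ≤ l * V := by
    have : (V / 2) * (1 - l) ≤ volume.real C := by
      calc (V / 2) * (1 - l) ≤ (V / 2) * (1 / 2) ^ l := by gcongr
        _ ≤ _ := by rw [← e3]; exact key'
    linarith
  rw [← ENNReal.ofReal_toReal (fin _ inter_subset_left : volume (K ∩ {x | |X x| ≤ s}) ≠ ∞),
    ← ENNReal.ofReal_toReal hV, ← ENNReal.ofReal_mul hl0.le]
  exact ENNReal.ofReal_le_ofReal e5

end slab

variable {U : Type*} [DecidableEq U] {F : Finset U} {E : Finset (U × U)} {ξ : U → ℝ}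

/-- Conditional density bound of one fresh edge. -/
theorem vol_fresh {S : List (U × U)} {r ρ : ℝ} {v u : U} (hv : v ∈ F)
    (hS : ∀ q ∈ S, q.1 ≠ v ∧ q.2 ≠ v) (hu : u ∈ nbr E v) {n : ℕ} (hn : (nbr E v).card ≤ n)
    (hρ : 0 < ρ) :
    volume (flat F E S r ∩ {x | |ext F 0 x v - ext F 0 x u| ≤ ρ}) ≤
      ENNReal.ofReal (64 * (n : ℝ) ^ 2 * ρ) * volume (flat F E S r) := by
  have hn1 : 1 ≤ n := le_trans (Finset.card_pos.mpr ⟨u, hu⟩) hn
  have hn1' : (1 : ℝ) ≤ n := by exact_mod_cast hn1
  have hn0 : (0 : ℝ) < n := by linarith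
  set t₀ : ℝ := 1 / (64 * (n : ℝ) ^ 2) with ht₀
  have ht₀0 : 0 < t₀ := by positivity
  have hhalf : volume (flat F E S r ∩ {x | |(extL F v - extL F u) x| ≤ t₀}) ≤
      ENNReal.ofReal (1 / 2) * volume (flat F E S r) := by
    have h1 := vol_step (r := r) (ρ := t₀) hv hS hu (d := 1 / (8 * (n : ℝ) ^ 2)) (by positivity)
      ht₀0.le
    refine h1.trans ?_
    have h2 := vol_flat_spread (F := F) (E := E) (S := S) (r := r) (v := v)
      (d := 1 / (8 * (n : ℝ) ^ 2)) (by positivity)
    have h3 : 2 * t₀ / (1 / (8 * (n : ℝ) ^ 2)) = 1 / 4 := by rw [ht₀]; field_simp; norm_num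
    have h4 : 2 * ((nbr E v).card : ℝ) ^ 2 * (1 / (8 * (n : ℝ) ^ 2)) ≤ 1 / 4 := by
      have h5 : ((nbr E v).card : ℝ) ^ 2 ≤ (n : ℝ) ^ 2 := by
        have : ((nbr E v).card : ℝ) ≤ n := by exact_mod_cast hn
        gcongr
      rw [mul_one_div, div_le_div_iff₀ (by positivity) (by norm_num)]
      linarith
    calc ENNReal.ofReal (2 * t₀ / (1 / (8 * (n : ℝ) ^ 2))) * volume (flat F E S r) +
          volume (flat F E S r ∩ spread F E v (1 / (8 * (n : ℝ) ^ 2)))
        ≤ ENNReal.ofReal (1 / 4) * volume (flat F E S r) +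
          ENNReal.ofReal (1 / 4) * volume (flat F E S r) := by
          rw [h3]
          gcongr
          exact h2.trans (by gcongr)
      _ = ENNReal.ofReal (1 / 2) * volume (flat F E S r) := by
          rw [← add_mul, ← ENNReal.ofReal_add (by norm_num) (by norm_num)]
          norm_num
  have := slab_centre (convex_flat S r) (fun x hx => flat_neg hx) (isClosed_flat S r).measurableSet
    (extL F v - extL F u)
    (((continuous_ext (F := F) (ξ := 0) v).sub (continuous_ext u)).measurable) ht₀0 hhalf hρ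
  have h6 : ρ / t₀ = 64 * (n : ℝ) ^ 2 * ρ := by rw [ht₀]; field_simp
  rw [h6] at this
  exact this

/-- Every edge of the list attaches a fresh free vertex to what comes later in the list. -/
inductive Fresh (F : Finset U) (E : Finset (U × U)) : List (U × U) → Prop
  | nil : Fresh F E []
  | cons {v u : U} {S : List (U × U)} (hS : Fresh F E S) (hv : v ∈ F) (hu : u ∈ nbr E v)
      (hf : ∀ q ∈ S, q.1 ≠ v ∧ q.2 ≠ v) : Fresh F E ((v, u) :: S)

theorem Fresh.edge {S : List (U × U)} (h : Fresh F E S) : ∀ q ∈ S, q ∈ E ∨ (q.2, q.1) ∈ E := by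
  induction h with
  | nil => simp
  | cons hS hv hu hf ih =>
    intro q hq
    rcases List.mem_cons.mp hq with rfl | hq
    · exact (mem_nbr.mp hu).2
    · exact ih q hq

theorem flat_cons (q : U × U) (S : List (U × U)) (r : ℝ) :
    flat F E (q :: S) r = flat F E S r ∩ {x | |ext F 0 x q.1 - ext F 0 x q.2| ≤ r} := by
  ext x
  constructor
  · rintro ⟨h1, h2⟩
    exact ⟨⟨h1, fun p hp => h2 p (List.mem_cons_of_mem _ hp)⟩, h2 q List.mem_cons_self⟩
  · rintro ⟨⟨h1, h2⟩, h3⟩
    refine ⟨h1, fun p hp => ?_⟩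
    rcases List.mem_cons.mp hp with rfl | hp
    · exact h3
    · exact h2 p hp

/-- Joint density bound for a fresh sequence of edges. -/
theorem vol_flat_le {S : List (U × U)} (hS : Fresh F E S) {n : ℕ}
    (hn : ∀ v ∈ F, (nbr E v).card ≤ n) {r : ℝ} (hr : 0 < r) :
    volume (flat F E S r) ≤
      ENNReal.ofReal (64 * (n : ℝ) ^ 2 * r) ^ S.length * volume (ham F E 0) := by
  induction hS with
  | nil =>
    simp only [List.length_nil, pow_zero, one_mul]
    exact measure_mono fun x hx => hx.1
  | @cons v u S hS hv hu hf ih =>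
    rw [flat_cons, List.length_cons, pow_succ']
    calc volume (flat F E S r ∩ {x | |ext F 0 x (v, u).1 - ext F 0 x (v, u).2| ≤ r})
        ≤ ENNReal.ofReal (64 * (n : ℝ) ^ 2 * r) * volume (flat F E S r) :=
          vol_fresh hv hf hu (hn v hv) hr
      _ ≤ ENNReal.ofReal (64 * (n : ℝ) ^ 2 * r) *
          (ENNReal.ofReal (64 * (n : ℝ) ^ 2 * r) ^ S.length * volume (ham F E 0)) := by gcongr
      _ = _ := by ring

/-- Configurations in `K^ξ` all of whose edges in `S` are `ε`-tight. -/
def tight (F : Finset U) (E : Finset (U × U)) (ξ : U → ℝ) (S : List (U × U)) (ε : ℝ) :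
    Set (F → ℝ) :=
  {x | x ∈ ham F E ξ ∧ ∀ q ∈ S, 1 - ε ≤ |ext F ξ x q.1 - ext F ξ x q.2|}

/-- LEMMA T (helper620), with boundary data. -/
theorem vol_tight_le {S : List (U × U)} (hS : Fresh F E S) {n : ℕ}
    (hn : ∀ v ∈ F, (nbr E v).card ≤ n) {ε : ℝ} (hε : 0 < ε) :
    volume (tight F E ξ S ε) ≤
      ENNReal.ofReal (64 * (n : ℝ) ^ 2 * ε) ^ S.length * volume (ham F E 0) := by
  classical
  -- sign patterns
  let A : Finset (U × U) → Set (F → ℝ) := fun P =>
    ham F E ξ ∩ ⋂ q ∈ {q | q ∈ S}, {x | 1 - ε ≤ (if q ∈ P then 1 else -1) *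
      (ext F ξ x q.1 - ext F ξ x q.2)}
  have hcl : ∀ P, IsClosed (A P) := fun P =>
    isClosed_ham.inter (isClosed_biInter fun p _ =>
      isClosed_le continuous_const (continuous_const.mul
        ((continuous_ext p.1).sub (continuous_ext p.2))))
  have hsub : tight F E ξ S ε ⊆ ⋃ P ∈ S.toFinset.powerset, A P := by
    rintro x ⟨hx, h⟩
    simp only [mem_iUnion]
    refine ⟨S.toFinset.filter fun q => 0 ≤ ext F ξ x q.1 - ext F ξ x q.2,
      Finset.mem_powerset.mpr (Finset.filter_subset _ _), hx, ?_⟩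
    simp only [mem_iInter]
    intro q hq
    change q ∈ S at hq
    have h1 := h q hq
    change 1 - ε ≤ (if _ then 1 else -1) * (ext F ξ x q.1 - ext F ξ x q.2)
    by_cases h0 : 0 ≤ ext F ξ x q.1 - ext F ξ x q.2
    · rw [if_pos (Finset.mem_filter.mpr ⟨List.mem_toFinset.mpr hq, h0⟩), one_mul]
      rwa [abs_of_nonneg h0] at h1
    · have hn : q ∉ S.toFinset.filter fun q => 0 ≤ ext F ξ x q.1 - ext F ξ x q.2 :=
        fun h' => h0 (Finset.mem_filter.mp h').2
      rw [if_neg hn]
      rw [abs_of_neg (not_le.mp h0)] at h1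
      linarith
  have hA : ∀ P, volume (A P) ≤ volume (flat F E S (ε / 2)) := by
    intro P
    refine vol_le_of_half (hcl P).measurableSet (isClosed_flat S _).measurableSet ?_
    rintro x ⟨hx, hxs⟩ y ⟨hy, hys⟩
    have e0 : (1 / 2 : ℝ) • ξ + (1 / 2 : ℝ) • (-ξ) = 0 := by
      rw [smul_neg]; exact add_neg_cancel _
    have hmem : (1 / 2 : ℝ) • x + (1 / 2 : ℝ) • (-y) ∈ ham F E 0 := by
      have := ham_comb (a := 1 / 2) (b := 1 / 2) (by norm_num) (by norm_num) (by norm_num) hx
        (ham_neg hy)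
      rwa [e0] at this
    have e1 : (1 / 2 : ℝ) • x - (1 / 2 : ℝ) • y = (1 / 2 : ℝ) • x + (1 / 2 : ℝ) • (-y) := by
      rw [smul_neg, sub_eq_add_neg]
    rw [e1]
    refine ⟨hmem, fun q hq => ?_⟩
    have e2 : ∀ w, ext F 0 ((1 / 2 : ℝ) • x + (1 / 2 : ℝ) • (-y)) w =
        1 / 2 * ext F ξ x w - 1 / 2 * ext F ξ y w := by
      intro w
      rw [← e0, ext_comb, ext_neg]; ring
    rw [e2, e2]
    -- bounds of both slopes
    have hxe : |ext F ξ x q.1 - ext F ξ x q.2| ≤ 1 := by
      rcases hS.edge q hq with h | h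
      · exact hx q h
      · rw [abs_sub_comm]; exact hx _ h
    have hye : |ext F ξ y q.1 - ext F ξ y q.2| ≤ 1 := by
      rcases hS.edge q hq with h | h
      · exact hy q h
      · rw [abs_sub_comm]; exact hy _ h
    have hx1 := mem_iInter₂.mp hxs q hq
    have hy1 := mem_iInter₂.mp hys q hq
    change 1 - ε ≤ (if q ∈ P then 1 else -1) * (ext F ξ x q.1 - ext F ξ x q.2) at hx1
    change 1 - ε ≤ (if q ∈ P then 1 else -1) * (ext F ξ y q.1 - ext F ξ y q.2) at hy1
    rw [abs_le] at hxe hye ⊢
    split_ifs at hx1 hy1 <;> constructor <;> linarith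
  calc volume (tight F E ξ S ε) ≤ ∑ P ∈ S.toFinset.powerset, volume (A P) :=
        (measure_mono hsub).trans (measure_biUnion_finset_le _ _)
    _ ≤ ∑ P ∈ S.toFinset.powerset, volume (flat F E S (ε / 2)) :=
        Finset.sum_le_sum fun P _ => hA P
    _ = 2 ^ S.toFinset.card * volume (flat F E S (ε / 2)) := by
        rw [Finset.sum_const, Finset.card_powerset, nsmul_eq_mul]; push_cast; rfl
    _ ≤ 2 ^ S.length * (ENNReal.ofReal (64 * (n : ℝ) ^ 2 * (ε / 2)) ^ S.length *
          volume (ham F E 0)) := by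
        gcongr
        · norm_num
        · exact List.toFinset_card_le S
        · exact vol_flat_le hS hn (by positivity)
    _ = ENNReal.ofReal (64 * (n : ℝ) ^ 2 * ε) ^ S.length * volume (ham F E 0) := by
        rw [← mul_assoc, ← mul_pow]
        congr 2
        rw [show (2 : ℝ≥0∞) = ENNReal.ofReal 2 by simp, ← ENNReal.ofReal_mul (by norm_num)]
        congr 1; ring

end Crest.Agent.R144.Ham560
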