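import Crest.Agent.R144.Ham3_560

/-!
R144 (S0197), helper560.  Clusters of `ε`-tight edges: exponential tails from LEMMA T by walk
encoding.

* `newE w` : the new edges of a walk (a list of vertices, head = present position);
* `tadj`, `clus` : tight adjacency inside a set `G` of free vertices and the cluster of a vertex;
* `exists_walk` : a cluster with `≥ k+1` vertices contains a closed walk of length `2k` with `k+1`
  vertices;
* `clus_tail` : `μ (k+1 ≤ |clus v|) ≤ (n² c)^k B` if `μ (S tight) ≤ c^|S| B` for fresh `S`;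
* `clus_tail_joint` : the same for several disjoint clusters;
* `vol_clus_le`, `vol_clus_joint_le` : for the volume on `ham F E ξ`, `c = 64 n² ε`.
-/

set_option autoImplicit false

open MeasureTheory Set
open scoped ENNReal

noncomputable section

namespace Crest.Agent.R144.Ham560

variable {U : Type*} [DecidableEq U] {F : Finset U} {E : Finset (U × U)} {ξ : U → ℝ}

theorem nbr_symm {a b : U} (h : b ∈ nbr E a) : a ∈ nbr E b := by
  rw [mem_nbr] at h ⊢
  exact ⟨h.1.symm, h.2.symm⟩

/-- New edges of a walk. -/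
def newE : List U → List (U × U)
  | [] => []
  | [_] => []
  | a :: b :: t => if a ∈ b :: t then newE (b :: t) else (a, b) :: newE (b :: t)

theorem newE_cons (a b : U) (t : List U) :
    newE (a :: b :: t) = if a ∈ b :: t then newE (b :: t) else (a, b) :: newE (b :: t) := rfl

theorem newE_mem : ∀ (w : List U), ∀ q ∈ newE w, q.1 ∈ w ∧ q.2 ∈ w
  | [], q, hq => by simp [newE] at hq
  | [_], q, hq => by simp [newE] at hq
  | a :: b :: t, q, hq => by
    rw [newE_cons] at hq
    split_ifs at hq with h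
    · have := newE_mem (b :: t) q hq
      exact ⟨List.mem_cons_of_mem _ this.1, List.mem_cons_of_mem _ this.2⟩
    · rcases List.mem_cons.mp hq with rfl | hq
      · simp
      · have := newE_mem (b :: t) q hq
        exact ⟨List.mem_cons_of_mem _ this.1, List.mem_cons_of_mem _ this.2⟩

theorem newE_length : ∀ (w : List U), w ≠ [] → (newE w).length + 1 = w.toFinset.card
  | [], h => absurd rfl h
  | [_], _ => by simp [newE]
  | a :: b :: t, _ => by
    have ih := newE_length (b :: t) (by simp)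
    rw [newE_cons, List.toFinset_cons]
    split_ifs with h
    · rw [Finset.insert_eq_of_mem (List.mem_toFinset.mpr h)]; exact ih
    · rw [Finset.card_insert_of_notMem (fun h' => h (List.mem_toFinset.mp h')), List.length_cons, ih]

/-- All steps of the walk satisfy `R`, hence all new edges do. -/
theorem newE_rel {R : U → U → Prop} : ∀ (w : List U), w.IsChain R → ∀ q ∈ newE w, R q.1 q.2
  | [], _, q, hq => by simp [newE] at hq
  | [_], _, q, hq => by simp [newE] at hq
  | a :: b :: t, hw, q, hq => by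
    rw [List.isChain_cons_cons] at hw
    rw [newE_cons] at hq
    split_ifs at hq with h
    · exact newE_rel (b :: t) hw.2 q hq
    · rcases List.mem_cons.mp hq with rfl | hq
      · exact hw.1
      · exact newE_rel (b :: t) hw.2 q hq

theorem newE_fresh : ∀ (w : List U), (∀ a ∈ w, a ∈ F) → w.IsChain (fun a b => b ∈ nbr E a) →
    Fresh F E (newE w)
  | [], _, _ => Fresh.nil
  | [_], _, _ => Fresh.nil
  | a :: b :: t, hF, hw => by
    rw [List.isChain_cons_cons] at hw
    have ih := newE_fresh (b :: t) (fun c hc => hF c (List.mem_cons_of_mem _ hc)) hw.2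
    rw [newE_cons]
    split_ifs with h
    · exact ih
    · refine Fresh.cons ih (hF a List.mem_cons_self) hw.1 fun q hq => ?_
      have := newE_mem (b :: t) q hq
      exact ⟨fun e => h (e ▸ this.1), fun e => h (e ▸ this.2)⟩

/-- Tight adjacency inside `G`. -/
def tadj (F : Finset U) (E : Finset (U × U)) (ξ : U → ℝ) (G : Finset U) (ε : ℝ) (x : F → ℝ)
    (a b : U) : Prop :=
  a ∈ G ∧ b ∈ G ∧ b ∈ nbr E a ∧ 1 - ε ≤ |ext F ξ x a - ext F ξ x b|

theorem tadj_symm {G : Finset U} {ε : ℝ} {x : F → ℝ} {a b : U} (h : tadj F E ξ G ε x a b) :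
    tadj F E ξ G ε x b a :=
  ⟨h.2.1, h.1, nbr_symm h.2.2.1, by rw [abs_sub_comm]; exact h.2.2.2⟩

/-- The cluster of `v` (inside `G`). -/
def clus (F : Finset U) (E : Finset (U × U)) (ξ : U → ℝ) (G : Finset U) (ε : ℝ) (x : F → ℝ)
    (v : U) : Set U :=
  {b | Relation.ReflTransGen (tadj F E ξ G ε x) v b}

theorem self_mem_clus {G : Finset U} {ε : ℝ} {x : F → ℝ} {v : U} : v ∈ clus F E ξ G ε x v :=
  Relation.ReflTransGen.refl

theorem clus_subset {G : Finset U} {ε : ℝ} {x : F → ℝ} {v : U} (hv : v ∈ G) :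
    clus F E ξ G ε x v ⊆ G := by
  intro b hb
  rcases Relation.ReflTransGen.cases_tail hb with h | ⟨c, _, h⟩
  · rw [h]; exact hv
  · exact h.2.1

theorem finite_clus {G : Finset U} {ε : ℝ} {x : F → ℝ} {v : U} :
    (clus F E ξ G ε x v).Finite := by
  refine (Set.Finite.insert v G.finite_toSet).subset ?_
  intro b hb
  rcases Relation.ReflTransGen.cases_tail hb with h | ⟨c, _, h⟩
  · left; exact h
  · right; exact h.2.1

/-- Doubling back: insert an excursion `a → b → a` in a closed walk. -/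
theorem exists_walk {G : Finset U} {ε : ℝ} {x : F → ℝ} {v : U} (k : ℕ)
    (hk : k + 1 ≤ (clus F E ξ G ε x v).ncard) :
    ∃ w : List U, w.length = 2 * k + 1 ∧ w.head? = some v ∧ w.getLast? = some v ∧
      w.IsChain (tadj F E ξ G ε x) ∧ w.toFinset.card = k + 1 ∧
      (∀ a ∈ w, a ∈ clus F E ξ G ε x v) := by
  induction k with
  | zero => exact ⟨[v], by simp, by simp, by simp, by simp, by simp, by
      intro a ha; rw [List.mem_singleton.mp ha]; exact self_mem_clus⟩
  | succ k ih =>
    obtain ⟨w, h1, h2, h3, h4, h5, h6⟩ := ih (by omega)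
    -- an exit edge
    have hv : v ∈ w := List.mem_of_mem_head? (by rw [h2]; rfl)
    have hex : ∃ a ∈ w, ∃ b, b ∉ w ∧ tadj F E ξ G ε x a b := by
      by_contra hne
      push Not at hne
      have hsub : clus F E ξ G ε x v ⊆ (w.toFinset : Set U) := by
        intro b hb
        change Relation.ReflTransGen _ v b at hb
        induction hb with
        | refl => exact List.mem_toFinset.mpr hv
        | @tail c d _ hcd ihc =>
          by_contra hd
          exact hne c (List.mem_toFinset.mp ihc) d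
            (fun h => hd (List.mem_toFinset.mpr h)) hcd
      have := Set.ncard_le_ncard hsub (Finset.finite_toSet _)
      rw [Set.ncard_coe_finset, h5] at this
      omega
    obtain ⟨a, ha, b, hb, hab⟩ := hex
    obtain ⟨l1, l2, rfl⟩ := List.append_of_mem ha
    refine ⟨l1 ++ a :: b :: a :: l2, ?_, ?_, ?_, ?_, ?_, ?_⟩
    · simp only [List.length_append, List.length_cons] at h1 ⊢; omega
    · cases l1 with
      | nil => simpa using h2
      | cons c l1 => simpa using h2
    · rcases List.eq_nil_or_concat l2 with rfl | ⟨l3, c, rfl⟩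
      · simpa using h3
      · simp only [List.concat_eq_append] at h3 ⊢
        have e1 : l1 ++ a :: (l3 ++ [c]) = (l1 ++ a :: l3) ++ [c] := by simp
        have e2 : l1 ++ a :: b :: a :: (l3 ++ [c]) = (l1 ++ a :: b :: a :: l3) ++ [c] := by simp
        rw [e1, List.getLast?_concat] at h3
        rw [e2, List.getLast?_concat]; exact h3
    · rw [List.isChain_append] at h4 ⊢
      refine ⟨h4.1, ?_, ?_⟩
      · rw [List.isChain_cons_cons, List.isChain_cons_cons]
        exact ⟨hab, tadj_symm hab, h4.2.1⟩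
      · intro y hy z hz
        exact h4.2.2 y hy z (by simpa using hz)
    · have e : (l1 ++ a :: b :: a :: l2).toFinset = insert b (l1 ++ a :: l2).toFinset := by
        ext c
        simp only [List.toFinset_append, List.toFinset_cons, Finset.mem_union, Finset.mem_insert,
          List.mem_toFinset]
        tauto
      rw [e, Finset.card_insert_of_notMem (fun h => hb (List.mem_toFinset.mp h)), h5]
    · intro c hc
      have hac : a ∈ clus F E ξ G ε x v := h6 a (by simp)
      have hbc : b ∈ clus F E ξ G ε x v := Relation.ReflTransGen.tail hac hab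
      simp only [List.mem_append, List.mem_cons] at hc
      rcases hc with hc | rfl | rfl | rfl | hc
      · exact h6 c (by simp [hc])
      · exact hac
      · exact hbc
      · exact hac
      · exact h6 c (by simp [hc])

/-- Walks of length `m` ending (read from the head) with last vertex `v`, inside `G`. -/
def wk (E : Finset (U × U)) (G : Finset U) (v : U) : ℕ → Finset (List U)
  | 0 => {[v]}
  | m + 1 => (wk E G v m).biUnion fun w =>
      match w with
      | [] => ∅
      | a :: t => ((nbr E a).filter (· ∈ G)).image (· :: a :: t)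

theorem wk_succ (E : Finset (U × U)) (G : Finset U) (v : U) (m : ℕ) :
    wk E G v (m + 1) = (wk E G v m).biUnion fun w =>
      match w with
      | [] => ∅
      | a :: t => ((nbr E a).filter (· ∈ G)).image (· :: a :: t) := rfl

theorem mem_wk {G : Finset U} {v : U} : ∀ (m : ℕ) (w : List U), w.length = m + 1 →
    w.getLast? = some v → w.IsChain (fun a b => b ∈ nbr E a ∧ a ∈ G) → w ∈ wk E G v m
  | 0, w, hl, hw, _ => by
    obtain ⟨a, rfl⟩ := List.length_eq_one_iff.mp hl
    simp at hw
    simp [wk, hw]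
  | m + 1, w, hl, hw, hc => by
    match w with
    | [] => simp at hl
    | [a] => simp at hl
    | a :: b :: t =>
      rw [List.isChain_cons_cons] at hc
      have ih := mem_wk m (b :: t) (by simpa using hl) (by simpa using hw) hc.2
      rw [wk_succ, Finset.mem_biUnion]
      refine ⟨b :: t, ih, ?_⟩
      simp only [Finset.mem_image, Finset.mem_filter]
      exact ⟨a, ⟨nbr_symm hc.1.1, hc.1.2⟩, rfl⟩

theorem card_wk {G : Finset U} {v : U} (hv : v ∈ G) {n : ℕ}
    (hn : ∀ a ∈ G, ((nbr E a).filter (· ∈ G)).card ≤ n) (m : ℕ) :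
    (wk E G v m).card ≤ n ^ m ∧ ∀ w ∈ wk E G v m, ∀ a ∈ w, a ∈ G := by
  induction m with
  | zero => simp [wk, hv]
  | succ m ih =>
    constructor
    · rw [wk_succ]
      calc _ ≤ (wk E G v m).card * n := by
            refine Finset.card_biUnion_le_card_mul _ _ _ ?_
            intro w hw
            match w with
            | [] => simp
            | a :: t =>
              refine Finset.card_image_le.trans (hn a (ih.2 _ hw a List.mem_cons_self))
        _ ≤ n ^ m * n := by gcongr; exact ih.1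
        _ = n ^ (m + 1) := by rw [pow_succ]
    · intro w hw
      rw [wk_succ, Finset.mem_biUnion] at hw
      obtain ⟨w', hw', hw⟩ := hw
      match w' with
      | [] => simp at hw
      | a :: t =>
        simp only [Finset.mem_image, Finset.mem_filter] at hw
        obtain ⟨c, ⟨_, hc⟩, rfl⟩ := hw
        intro d hd
        rcases List.mem_cons.mp hd with rfl | hd
        · exact hc
        · exact ih.2 _ hw' d hd

/-- Exponential tail of one cluster, abstract form. -/
theorem clus_tail {μ : Measure (F → ℝ)} {G : Finset U} (hG : G ⊆ F) {ε : ℝ} {B c : ℝ≥0∞}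
    (H : ∀ S : List (U × U), Fresh F E S → (∀ q ∈ S, q.1 ∈ G ∧ q.2 ∈ G) →
      μ {x | ∀ q ∈ S, 1 - ε ≤ |ext F ξ x q.1 - ext F ξ x q.2|} ≤ c ^ S.length * B)
    {n : ℕ} (hn : ∀ a ∈ G, ((nbr E a).filter (· ∈ G)).card ≤ n) {v : U} (hv : v ∈ G) (k : ℕ) :
    μ {x | k + 1 ≤ (clus F E ξ G ε x v).ncard} ≤ ((n : ℝ≥0∞) ^ 2 * c) ^ k * B := by
  classical
  set W := (wk E G v (2 * k)).filter fun w => w.toFinset.card = k + 1 ∧
    w.IsChain (fun a b => b ∈ nbr E a) with hW
  have hsub : {x : F → ℝ | k + 1 ≤ (clus F E ξ G ε x v).ncard} ⊆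
      ⋃ w ∈ W, {x | ∀ q ∈ newE w, 1 - ε ≤ |ext F ξ x q.1 - ext F ξ x q.2|} := by
    intro x hx
    obtain ⟨w, h1, h2, h3, h4, h5, h6⟩ := exists_walk k hx
    simp only [mem_iUnion]
    refine ⟨w, ?_, ?_⟩
    · rw [hW, Finset.mem_filter]
      refine ⟨mem_wk _ w h1 h3 (h4.imp fun a b h => ⟨h.2.2.1, h.1⟩), h5,
        h4.imp fun a b h => h.2.2.1⟩
    · intro q hq
      exact (newE_rel w h4 q hq).2.2.2
  have hw : ∀ w ∈ W, μ {x | ∀ q ∈ newE w, 1 - ε ≤ |ext F ξ x q.1 - ext F ξ x q.2|} ≤
      c ^ k * B := by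
    intro w hw
    rw [hW, Finset.mem_filter] at hw
    obtain ⟨hw1, hw2, hw3⟩ := hw
    have hwG := (card_wk (E := E) hv hn (2 * k)).2 w hw1
    have hne : w ≠ [] := by rintro rfl; simp at hw2
    have hlen := newE_length w hne
    have := H (newE w) (newE_fresh w (fun a ha => hG (hwG a ha)) hw3) (fun q hq => by
      have := newE_mem w q hq
      exact ⟨hwG _ this.1, hwG _ this.2⟩)
    rwa [show (newE w).length = k by omega] at this
  calc μ {x | k + 1 ≤ (clus F E ξ G ε x v).ncard}
      ≤ ∑ w ∈ W, μ {x | ∀ q ∈ newE w, 1 - ε ≤ |ext F ξ x q.1 - ext F ξ x q.2|} :=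
        (measure_mono hsub).trans (measure_biUnion_finset_le _ _)
    _ ≤ ∑ w ∈ W, c ^ k * B := Finset.sum_le_sum hw
    _ = (W.card : ℝ≥0∞) * (c ^ k * B) := by rw [Finset.sum_const, nsmul_eq_mul]
    _ ≤ ((n : ℝ≥0∞) ^ (2 * k)) * (c ^ k * B) := by
        gcongr
        have h1 : W.card ≤ n ^ (2 * k) :=
          (Finset.card_filter_le _ _).trans (card_wk (E := E) hv hn (2 * k)).1
        exact_mod_cast h1
    _ = ((n : ℝ≥0∞) ^ 2 * c) ^ k * B := by rw [pow_mul, mul_pow]; ring

/-- Cluster tail for the volume on the hammock polytope. -/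
theorem vol_clus_le {G : Finset U} (hG : G ⊆ F) {ε : ℝ} (hε : 0 < ε)
    {n : ℕ} (hn : ∀ a ∈ F, (nbr E a).card ≤ n) {v : U} (hv : v ∈ G) (k : ℕ) :
    volume (ham F E ξ ∩ {x | k + 1 ≤ (clus F E ξ G ε x v).ncard}) ≤
      ENNReal.ofReal (64 * (n : ℝ) ^ 4 * ε) ^ k * volume (ham F E 0) := by
  have h := clus_tail (μ := volume.restrict (ham F E ξ)) (F := F) (E := E) (ξ := ξ) hG (ε := ε)
    (B := volume (ham F E 0)) (c := ENNReal.ofReal (64 * (n : ℝ) ^ 2 * ε)) ?_
    (fun a ha => (Finset.card_filter_le _ _).trans (hn a (hG ha))) hv k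
  · rw [Measure.restrict_apply' measurableSet_ham, inter_comm] at h
    refine h.trans (le_of_eq ?_)
    congr 2
    rw [← ENNReal.ofReal_natCast, ← ENNReal.ofReal_pow (by positivity),
      ← ENNReal.ofReal_mul (by positivity)]
    congr 1; ring
  · intro S hS _
    rw [Measure.restrict_apply' measurableSet_ham, inter_comm]
    exact vol_tight_le hS hn hε

/-! ### Several disjoint clusters -/

theorem Fresh.append {S₁ S₂ : List (U × U)} (h1 : Fresh F E S₁) (h2 : Fresh F E S₂)
    (hd : ∀ q ∈ S₁, ∀ q' ∈ S₂, q'.1 ≠ q.1 ∧ q'.2 ≠ q.1) : Fresh F E (S₁ ++ S₂) := by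
  induction h1 with
  | nil => exact h2
  | @cons v u S hS hv hu hf ih =>
    refine Fresh.cons (ih fun q hq => hd q (List.mem_cons_of_mem _ hq)) hv hu fun q hq => ?_
    rcases List.mem_append.mp hq with hq | hq
    · exact hf q hq
    · exact hd (v, u) List.mem_cons_self q hq

/-- New edges of a family of walks. -/
def newEs (ws : List (List U)) : List (U × U) := ws.flatMap newE

theorem newEs_cons (w : List U) (ws : List (List U)) : newEs (w :: ws) = newE w ++ newEs ws := by
  simp [newEs]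

theorem newEs_mem (ws : List (List U)) (q : U × U) (hq : q ∈ newEs ws) :
    ∃ w ∈ ws, q.1 ∈ w ∧ q.2 ∈ w := by
  obtain ⟨w, hw, hq⟩ := List.mem_flatMap.mp hq
  exact ⟨w, hw, newE_mem w q hq⟩

theorem newEs_fresh : ∀ (ws : List (List U)), (∀ w ∈ ws, ∀ a ∈ w, a ∈ F) →
    (∀ w ∈ ws, w.IsChain (fun a b => b ∈ nbr E a)) → ws.Pairwise List.Disjoint →
    Fresh F E (newEs ws)
  | [], _, _, _ => Fresh.nil
  | w :: ws, hF, hw, hd => by
    rw [newEs_cons]
    rw [List.pairwise_cons] at hd
    refine Fresh.append (newE_fresh w (hF w List.mem_cons_self) (hw w List.mem_cons_self))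
      (newEs_fresh ws (fun w' hw' => hF w' (List.mem_cons_of_mem _ hw'))
        (fun w' hw' => hw w' (List.mem_cons_of_mem _ hw')) hd.2) ?_
    intro q hq q' hq'
    obtain ⟨w', hw', h1, h2⟩ := newEs_mem ws q' hq'
    have h3 := (newE_mem w q hq).1
    have h4 := hd.1 w' hw'
    exact ⟨fun e => h4 h3 (e ▸ h1), fun e => h4 h3 (e ▸ h2)⟩

/-- Families of walks attached to a list of (start, size). -/
def wks (E : Finset (U × U)) (G : Finset U) : List (U × ℕ) → Finset (List (List U))
  | [] => {[]}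
  | p :: L => (((wk E G p.1 (2 * p.2)).filter fun w => w.toFinset.card = p.2 + 1 ∧
      w.IsChain (fun a b => b ∈ nbr E a)) ×ˢ wks E G L).image fun q => q.1 :: q.2

theorem card_wks {G : Finset U} {n : ℕ}
    (hn : ∀ a ∈ G, ((nbr E a).filter (· ∈ G)).card ≤ n) :
    ∀ (L : List (U × ℕ)), (∀ p ∈ L, p.1 ∈ G) →
      (wks E G L).card ≤ n ^ (2 * (L.map Prod.snd).sum) ∧
      ∀ ws ∈ wks E G L, (∀ w ∈ ws, ∀ a ∈ w, a ∈ G) ∧
        (∀ w ∈ ws, w.IsChain (fun a b => b ∈ nbr E a)) ∧
        (newEs ws).length = (L.map Prod.snd).sum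
  | [], _ => by simp [wks, newEs]
  | p :: L, hL => by
    have ih := card_wks hn L fun p hp => hL p (List.mem_cons_of_mem _ hp)
    have hp := card_wk (E := E) (hL p List.mem_cons_self) hn (2 * p.2)
    constructor
    · rw [wks]
      refine Finset.card_image_le.trans ?_
      rw [Finset.card_product, List.map_cons, List.sum_cons, mul_add, pow_add]
      exact Nat.mul_le_mul ((Finset.card_filter_le _ _).trans hp.1) ih.1
    · intro ws hws
      rw [wks, Finset.mem_image] at hws
      obtain ⟨⟨w, ws'⟩, hq, rfl⟩ := hws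
      rw [Finset.mem_product, Finset.mem_filter] at hq
      obtain ⟨⟨h1, h2, h3⟩, h4⟩ := hq
      have ih' := ih.2 ws' h4
      refine ⟨?_, ?_, ?_⟩
      · intro w' hw' a ha
        rcases List.mem_cons.mp hw' with rfl | hw'
        · exact hp.2 _ h1 a ha
        · exact ih'.1 w' hw' a ha
      · intro w' hw'
        rcases List.mem_cons.mp hw' with rfl | hw'
        · exact h3
        · exact ih'.2.1 w' hw'
      · change (newEs (w :: ws')).length = _
        rw [newEs_cons, List.length_append, List.map_cons, List.sum_cons, ih'.2.2]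
        have hne : w ≠ [] := by
          rintro rfl
          change ([] : List U).toFinset.card = p.2 + 1 at h2
          simp at h2
        have := newE_length w hne
        change w.toFinset.card = p.2 + 1 at h2
        omega

/-- Choice of the walks for a configuration with disjoint large clusters. -/
theorem exists_wks {G : Finset U} {ε : ℝ} {x : F → ℝ} : ∀ (L : List (U × ℕ)),
    L.Pairwise (fun p q => Disjoint (clus F E ξ G ε x p.1) (clus F E ξ G ε x q.1)) →
    (∀ p ∈ L, p.2 + 1 ≤ (clus F E ξ G ε x p.1).ncard) →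
    ∃ ws ∈ wks E G L, ws.Pairwise List.Disjoint ∧
      (∀ w ∈ ws, ∃ p ∈ L, ∀ a ∈ w, a ∈ clus F E ξ G ε x p.1) ∧
      (∀ q ∈ newEs ws, 1 - ε ≤ |ext F ξ x q.1 - ext F ξ x q.2|)
  | [], _, _ => ⟨[], by simp [wks], List.Pairwise.nil, by simp, by simp [newEs]⟩
  | p :: L, hd, hk => by
    rw [List.pairwise_cons] at hd
    obtain ⟨ws, hws, h1, h2, h3⟩ := exists_wks L hd.2
      (fun q hq => hk q (List.mem_cons_of_mem _ hq))
    obtain ⟨w, g1, g2, g3, g4, g5, g6⟩ := exists_walk p.2 (hk p List.mem_cons_self)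
    refine ⟨w :: ws, ?_, ?_, ?_, ?_⟩
    · rw [wks, Finset.mem_image]
      refine ⟨(w, ws), ?_, rfl⟩
      rw [Finset.mem_product, Finset.mem_filter]
      exact ⟨⟨mem_wk _ w g1 g3 (g4.imp fun a b h => ⟨h.2.2.1, h.1⟩), g5,
        g4.imp fun a b h => h.2.2.1⟩, hws⟩
    · rw [List.pairwise_cons]
      refine ⟨fun w' hw' a ha ha' => ?_, h1⟩
      obtain ⟨q, hq, hq'⟩ := h2 w' hw'
      exact Set.disjoint_left.mp (hd.1 q hq) (g6 a ha) (hq' a ha')
    · intro w' hw'
      rcases List.mem_cons.mp hw' with rfl | hw'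
      · exact ⟨p, List.mem_cons_self, g6⟩
      · obtain ⟨q, hq, hq'⟩ := h2 w' hw'
        exact ⟨q, List.mem_cons_of_mem _ hq, hq'⟩
    · intro q hq
      rw [newEs_cons] at hq
      rcases List.mem_append.mp hq with hq | hq
      · exact (newE_rel w g4 q hq).2.2.2
      · exact h3 q hq

/-- Joint exponential tail of disjoint clusters, abstract form. -/
theorem clus_tail_joint {μ : Measure (F → ℝ)} {G : Finset U} (hG : G ⊆ F) {ε : ℝ} {B c : ℝ≥0∞}
    (H : ∀ S : List (U × U), Fresh F E S → (∀ q ∈ S, q.1 ∈ G ∧ q.2 ∈ G) →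
      μ {x | ∀ q ∈ S, 1 - ε ≤ |ext F ξ x q.1 - ext F ξ x q.2|} ≤ c ^ S.length * B)
    {n : ℕ} (hn : ∀ a ∈ G, ((nbr E a).filter (· ∈ G)).card ≤ n) (L : List (U × ℕ))
    (hL : ∀ p ∈ L, p.1 ∈ G) :
    μ {x | L.Pairwise (fun p q => Disjoint (clus F E ξ G ε x p.1) (clus F E ξ G ε x q.1)) ∧
        ∀ p ∈ L, p.2 + 1 ≤ (clus F E ξ G ε x p.1).ncard} ≤
      ((n : ℝ≥0∞) ^ 2 * c) ^ (L.map Prod.snd).sum * B := by
  classical
  set W := (wks E G L).filter fun ws => ws.Pairwise List.Disjoint with hW
  have hcard := card_wks (E := E) hn L hL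
  have hsub : {x : F → ℝ | L.Pairwise (fun p q => Disjoint (clus F E ξ G ε x p.1)
        (clus F E ξ G ε x q.1)) ∧ ∀ p ∈ L, p.2 + 1 ≤ (clus F E ξ G ε x p.1).ncard} ⊆
      ⋃ ws ∈ W, {x | ∀ q ∈ newEs ws, 1 - ε ≤ |ext F ξ x q.1 - ext F ξ x q.2|} := by
    rintro x ⟨hx1, hx2⟩
    obtain ⟨ws, h1, h2, _, h4⟩ := exists_wks L hx1 hx2
    simp only [mem_iUnion]
    exact ⟨ws, Finset.mem_filter.mpr ⟨h1, h2⟩, h4⟩
  have hw : ∀ ws ∈ W, μ {x | ∀ q ∈ newEs ws, 1 - ε ≤ |ext F ξ x q.1 - ext F ξ x q.2|} ≤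
      c ^ (L.map Prod.snd).sum * B := by
    intro ws hws
    obtain ⟨h1, h2⟩ := Finset.mem_filter.mp hws
    obtain ⟨g1, g2, g3⟩ := hcard.2 ws h1
    have := H (newEs ws) (newEs_fresh ws (fun w hw a ha => hG (g1 w hw a ha)) g2 h2)
      (fun q hq => by
        obtain ⟨w, hw, e1, e2⟩ := newEs_mem ws q hq
        exact ⟨g1 w hw _ e1, g1 w hw _ e2⟩)
    rwa [g3] at this
  calc _ ≤ ∑ ws ∈ W, μ {x | ∀ q ∈ newEs ws, 1 - ε ≤ |ext F ξ x q.1 - ext F ξ x q.2|} :=
        (measure_mono hsub).trans (measure_biUnion_finset_le _ _)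
    _ ≤ ∑ ws ∈ W, c ^ (L.map Prod.snd).sum * B := Finset.sum_le_sum hw
    _ = (W.card : ℝ≥0∞) * (c ^ (L.map Prod.snd).sum * B) := by
        rw [Finset.sum_const, nsmul_eq_mul]
    _ ≤ ((n : ℝ≥0∞) ^ (2 * (L.map Prod.snd).sum)) * (c ^ (L.map Prod.snd).sum * B) := by
        gcongr
        have h1 : W.card ≤ n ^ (2 * (L.map Prod.snd).sum) :=
          (Finset.card_filter_le _ _).trans hcard.1
        exact_mod_cast h1
    _ = ((n : ℝ≥0∞) ^ 2 * c) ^ (L.map Prod.snd).sum * B := by rw [pow_mul, mul_pow]; ring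

/-- Joint cluster tail for the volume on the hammock polytope. -/
theorem vol_clus_joint_le {G : Finset U} (hG : G ⊆ F) {ε : ℝ} (hε : 0 < ε)
    {n : ℕ} (hn : ∀ a ∈ F, (nbr E a).card ≤ n) (L : List (U × ℕ)) (hL : ∀ p ∈ L, p.1 ∈ G) :
    volume (ham F E ξ ∩ {x | L.Pairwise (fun p q => Disjoint (clus F E ξ G ε x p.1)
        (clus F E ξ G ε x q.1)) ∧ ∀ p ∈ L, p.2 + 1 ≤ (clus F E ξ G ε x p.1).ncard}) ≤
      ENNReal.ofReal (64 * (n : ℝ) ^ 4 * ε) ^ (L.map Prod.snd).sum * volume (ham F E 0) := by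
  have h := clus_tail_joint (μ := volume.restrict (ham F E ξ)) (F := F) (E := E) (ξ := ξ) hG
    (ε := ε) (B := volume (ham F E 0)) (c := ENNReal.ofReal (64 * (n : ℝ) ^ 2 * ε)) ?_
    (fun a ha => (Finset.card_filter_le _ _).trans (hn a (hG ha))) L hL
  · rw [Measure.restrict_apply' measurableSet_ham, inter_comm] at h
    refine h.trans (le_of_eq ?_)
    congr 2
    rw [← ENNReal.ofReal_natCast, ← ENNReal.ofReal_pow (by positivity),
      ← ENNReal.ofReal_mul (by positivity)]
    congr 1; ring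
  · intro S hS _
    rw [Measure.restrict_apply' measurableSet_ham, inter_comm]
    exact vol_tight_le hS hn hε

end Crest.Agent.R144.Ham560
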