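import Crest.Agent.R144.Ham3_560

/-!
R144 (S0197), helper560.  LEMMA T with edge-dependent radii, arbitrary centres and an extra
symmetric convex event; joint bounds for several disjoint windows.

* `vol_freshA` : one fresh edge in the presence of a symmetric convex event `A` not touching `v`;
* `FreshR`, `flatR`, `wgt n S = ∏ ofReal (64 n² w)`;
* `vol_flatR_le` : `vol (ham 0 ∩ A ∩ flatR S) ≤ wgt n S * vol (ham 0 ∩ A)`;
* `vol_box_le` : `vol {x ∈ ham ξ | |∇_q x - c q| ≤ w} ≤ wgt n S * vol (ham 0)`;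
* `vol_tightR_le` : the same for `1 - w ≤ |∇_q x|`;
* `vol_bad_le`, `vol_bad_card_le` : several disjoint windows.
-/

set_option autoImplicit false

open MeasureTheory Set
open scoped ENNReal

noncomputable section

namespace Crest.Agent.R144.Ham560

variable {U : Type*} [DecidableEq U] {F : Finset U} {E : Finset (U × U)} {ξ : U → ℝ}

/-- Constraints that do not involve the free vertex `v`, and `A`. -/
def restA (F : Finset U) (E : Finset (U × U)) (A : Set (F → ℝ)) (v : U) : Set (F → ℝ) :=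
  {x | (∀ p ∈ E, p.1 ≠ v → p.2 ≠ v → |ext F 0 x p.1 - ext F 0 x p.2| ≤ 1) ∧ x ∈ A}

theorem restA_update {A : Set (F → ℝ)} {v : U} (hv : v ∈ F)
    (hA : ∀ (x : F → ℝ) (t : ℝ), Function.update x ⟨v, hv⟩ t ∈ A ↔ x ∈ A) (x : F → ℝ) (t : ℝ) :
    Function.update x ⟨v, hv⟩ t ∈ restA F E A v ↔ x ∈ restA F E A v := by
  show (_ ∧ _) ↔ (_ ∧ _)
  rw [hA]
  constructor
  · rintro ⟨h1, h2⟩
    refine ⟨fun p hp ha hb => ?_, h2⟩
    have := h1 p hp ha hb
    rwa [ext_update hv, ext_update hv, if_neg ha, if_neg hb] at this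
  · rintro ⟨h1, h2⟩
    refine ⟨fun p hp ha hb => ?_, h2⟩
    rw [ext_update hv, ext_update hv, if_neg ha, if_neg hb]; exact h1 p hp ha hb

theorem mem_hamA_iff {A : Set (F → ℝ)} {v : U} (x : F → ℝ) :
    x ∈ ham F E 0 ∩ A ↔ x ∈ restA F E A v ∧ ∀ w ∈ nbr E v, |ext F 0 x v - ext F 0 x w| ≤ 1 := by
  constructor
  · rintro ⟨h1, h2⟩
    refine ⟨⟨fun p hp _ _ => h1 p hp, h2⟩, fun w hw => ?_⟩
    rcases (mem_nbr.mp hw).2 with h | h
    · exact h1 _ h
    · rw [abs_sub_comm]; exact h1 _ h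
  · rintro ⟨⟨h1, h2⟩, h3⟩
    refine ⟨fun p hp => ?_, h2⟩
    by_cases ha : p.1 = v
    · by_cases hb : p.2 = v
      · rw [ha, hb]; simp
      · rw [ha]; exact h3 _ (mem_nbr.mpr ⟨hb, Or.inl (by rw [← ha]; exact hp)⟩)
    · by_cases hb : p.2 = v
      · rw [hb, abs_sub_comm]; exact h3 _ (mem_nbr.mpr ⟨ha, Or.inr (by rw [← hb]; exact hp)⟩)
      · exact h1 p hp ha hb

section step

variable {A : Set (F → ℝ)} (hAc : Convex ℝ A) (hAs : ∀ x ∈ A, -x ∈ A) (hAm : MeasurableSet A)

include hAc hAs hAm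

theorem vol_spreadA {v : U} {d : ℝ} (hd : 0 < d) :
    volume (ham F E 0 ∩ A ∩ spread F E v d) ≤
      ENNReal.ofReal (2 * (nbr E v).card ^ 2 * d) * volume (ham F E 0 ∩ A) := by
  have hsub : ham F E 0 ∩ A ∩ spread F E v d ⊆ ⋃ q ∈ (nbr E v) ×ˢ (nbr E v),
      (ham F E 0 ∩ A ∩ {x | 2 - d < |(extL F q.1 - extL F q.2) x|}) := by
    rintro x ⟨hx, w, hw, w', hw', h⟩
    simp only [mem_iUnion]
    exact ⟨(w, w'), Finset.mem_product.mpr ⟨hw, hw'⟩, hx, h⟩
  refine (measure_mono hsub).trans ((measure_biUnion_finset_le _ _).trans ?_)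
  have h1 : ∀ q ∈ (nbr E v) ×ˢ (nbr E v),
      volume (ham F E 0 ∩ A ∩ {x | 2 - d < |(extL F q.1 - extL F q.2) x|}) ≤
        ENNReal.ofReal (2 * d) * volume (ham F E 0 ∩ A) := by
    intro q hq
    obtain ⟨hq1, hq2⟩ := Finset.mem_product.mp hq
    refine slab_tail (convex_ham.inter hAc) (fun x hx => ⟨by simpa using ham_neg hx.1,
      hAs x hx.2⟩) (measurableSet_ham.inter hAm) _ ?_ ?_ hd
    · exact ((continuous_ext (F := F) (ξ := 0) q.1).sub (continuous_ext q.2)).measurable
    · intro x hx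
      have h2 := (((mem_hamA_iff (v := v) x).mp hx).2 q.1 hq1)
      have h3 := (((mem_hamA_iff (v := v) x).mp hx).2 q.2 hq2)
      change |ext F 0 x q.1 - ext F 0 x q.2| ≤ 2
      rw [abs_le] at h2 h3 ⊢
      constructor <;> linarith
  refine (Finset.sum_le_sum h1).trans ?_
  rw [Finset.sum_const, Finset.card_product, nsmul_eq_mul, ← mul_assoc]
  gcongr
  rw [show ((((nbr E v).card * (nbr E v).card : ℕ)) : ℝ≥0∞) =
      ENNReal.ofReal (((nbr E v).card : ℝ) ^ 2) by
    rw [← ENNReal.ofReal_natCast]; push_cast; ring_nf]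
  rw [← ENNReal.ofReal_mul (by positivity)]
  apply ENNReal.ofReal_le_ofReal
  nlinarith

omit hAc hAs in
theorem vol_stepA {ρ : ℝ} {v u : U} (hv : v ∈ F)
    (hAv : ∀ (x : F → ℝ) (t : ℝ), Function.update x ⟨v, hv⟩ t ∈ A ↔ x ∈ A)
    (hu : u ∈ nbr E v) {d : ℝ} (hd : 0 < d) (hρ : 0 ≤ ρ) :
    volume (ham F E 0 ∩ A ∩ {x | |ext F 0 x v - ext F 0 x u| ≤ ρ}) ≤
      ENNReal.ofReal (2 * ρ / d) * volume (ham F E 0 ∩ A) +
        volume (ham F E 0 ∩ A ∩ spread F E v d) := by
  classical
  set B := ham F E 0 ∩ A ∩ {x : F → ℝ | |ext F 0 x v - ext F 0 x u| ≤ ρ} with hB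
  have hKm : MeasurableSet (ham F E 0 ∩ A) := measurableSet_ham.inter hAm
  have hBm' : MeasurableSet B := hKm.inter
    (measurableSet_le (((continuous_ext v).sub (continuous_ext u)).abs).measurable measurable_const)
  have hBm : MeasurableSet (ham F E 0 ∩ A ∩ spread F E v d) := hKm.inter (measurableSet_spread v d)
  set c := ENNReal.ofReal (2 * ρ / d) with hc
  let f : (F → ℝ) → ℝ≥0∞ := B.indicator 1
  let g : (F → ℝ) → ℝ≥0∞ := fun x =>
    c * (ham F E 0 ∩ A).indicator 1 x + (ham F E 0 ∩ A ∩ spread F E v d).indicator 1 x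
  have hf : Measurable f := measurable_one.indicator hBm'
  have hg : Measurable g :=
    ((measurable_one.indicator hKm).const_mul c).add (measurable_one.indicator hBm)
  have huv : u ≠ v := (mem_nbr.mp hu).1
  have key : ∫⁻ x, f x ∂(Measure.pi fun _ : F => (volume : Measure ℝ)) ≤
      ∫⁻ x, g x ∂(Measure.pi fun _ : F => (volume : Measure ℝ)) := by
    refine lintegral_le_of_lmarginal_le {(⟨v, hv⟩ : F)} hf hg ?_
    rw [lmarginal_singleton, lmarginal_singleton]
    intro x
    by_cases hx : x ∈ restA F E A v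
    · have hmem : ∀ t, Function.update x ⟨v, hv⟩ t ∈ ham F E 0 ∩ A ↔
          ∀ w ∈ nbr E v, |t - ext F 0 x w| ≤ 1 := by
        intro t
        rw [mem_hamA_iff (v := v), restA_update hv hAv]
        simp only [hx, true_and]
        constructor
        · intro h w hw
          have := h w hw
          rwa [ext_update hv, ext_update hv, if_pos rfl, if_neg (mem_nbr.mp hw).1] at this
        · intro h w hw
          rw [ext_update hv, ext_update hv, if_pos rfl, if_neg (mem_nbr.mp hw).1]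
          exact h w hw
      by_cases hsp : ∃ w ∈ nbr E v, ∃ w' ∈ nbr E v, 2 - d < |ext F 0 x w - ext F 0 x w'|
      · refine lintegral_mono fun t => ?_
        simp only [f, g]
        by_cases ht : Function.update x ⟨v, hv⟩ t ∈ B
        · have hB : Function.update x ⟨v, hv⟩ t ∈ ham F E 0 ∩ A ∩ spread F E v d := by
            refine ⟨ht.1, ?_⟩
            obtain ⟨w, hw, w', hw', h⟩ := hsp
            refine ⟨w, hw, w', hw', ?_⟩
            rw [ext_update hv, ext_update hv, if_neg (mem_nbr.mp hw).1, if_neg (mem_nbr.mp hw').1]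
            exact h
          rw [indicator_of_mem ht, indicator_of_mem hB]
          simp
        · rw [indicator_of_notMem ht]; exact bot_le
      · push Not at hsp
        have hne : (nbr E v).Nonempty := ⟨u, hu⟩
        obtain ⟨wM, hwM, hM⟩ := Finset.exists_max_image (nbr E v) (fun w => ext F 0 x w) hne
        obtain ⟨wm, hwm, hm⟩ := Finset.exists_min_image (nbr E v) (fun w => ext F 0 x w) hne
        have hlen : ext F 0 x wM - ext F 0 x wm ≤ 2 - d :=
          (le_abs_self _).trans (hsp wM hwM wm hwm)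
        have hfib : ∀ t, Function.update x ⟨v, hv⟩ t ∈ ham F E 0 ∩ A ↔
            t ∈ Icc (ext F 0 x wM - 1) (ext F 0 x wm + 1) := by
          intro t
          rw [hmem t, mem_Icc]
          constructor
          · intro h
            have h1 := abs_le.mp (h wM hwM)
            have h2 := abs_le.mp (h wm hwm)
            constructor <;> linarith
          · rintro ⟨h1, h2⟩ w hw
            have h3 := hM w hw
            have h4 := hm w hw
            rw [abs_le]; constructor <;> linarith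
        have hl : ∫⁻ t, f (Function.update x ⟨v, hv⟩ t) ≤ ENNReal.ofReal (2 * ρ) := by
          calc ∫⁻ t, f (Function.update x ⟨v, hv⟩ t)
              ≤ ∫⁻ t, (Icc (ext F 0 x u - ρ) (ext F 0 x u + ρ)).indicator (1 : ℝ → ℝ≥0∞) t := by
                refine lintegral_mono fun t => ?_
                simp only [f]
                by_cases ht : Function.update x ⟨v, hv⟩ t ∈ B
                · have h5 : |ext F 0 (Function.update x ⟨v, hv⟩ t) v -
                      ext F 0 (Function.update x ⟨v, hv⟩ t) u| ≤ ρ := ht.2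
                  rw [ext_update hv, ext_update hv, if_pos rfl, if_neg huv, abs_le] at h5
                  have h6 : t ∈ Icc (ext F 0 x u - ρ) (ext F 0 x u + ρ) := by
                    rw [mem_Icc]; constructor <;> linarith
                  rw [indicator_of_mem ht, indicator_of_mem h6]
                  exact le_rfl
                · rw [indicator_of_notMem ht]; exact bot_le
            _ = ENNReal.ofReal (2 * ρ) := by
                rw [lintegral_indicator_one measurableSet_Icc, Real.volume_Icc]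
                congr 1; ring
        have hr' : ENNReal.ofReal (2 * ρ) ≤ ∫⁻ t, g (Function.update x ⟨v, hv⟩ t) := by
          calc ENNReal.ofReal (2 * ρ) = c * ENNReal.ofReal d := by
                rw [hc, ← ENNReal.ofReal_mul (by positivity)]
                congr 1; field_simp
            _ ≤ c * ∫⁻ t, (Icc (ext F 0 x wM - 1) (ext F 0 x wm + 1)).indicator
                  (1 : ℝ → ℝ≥0∞) t := by
                gcongr
                rw [lintegral_indicator_one measurableSet_Icc, Real.volume_Icc]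
                apply ENNReal.ofReal_le_ofReal; linarith
            _ = ∫⁻ t, c * (Icc (ext F 0 x wM - 1) (ext F 0 x wm + 1)).indicator
                  (1 : ℝ → ℝ≥0∞) t := by
                rw [lintegral_const_mul _ (measurable_one.indicator measurableSet_Icc)]
            _ ≤ ∫⁻ t, g (Function.update x ⟨v, hv⟩ t) := by
                refine lintegral_mono fun t => ?_
                simp only [g]
                refine le_trans ?_ le_self_add
                gcongr
                by_cases ht : t ∈ Icc (ext F 0 x wM - 1) (ext F 0 x wm + 1)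
                · rw [indicator_of_mem ht, indicator_of_mem ((hfib t).mpr ht)]
                  exact le_rfl
                · rw [indicator_of_notMem ht]; exact bot_le
        exact hl.trans hr'
    · refine lintegral_mono fun t => ?_
      simp only [f]
      have ht : Function.update x ⟨v, hv⟩ t ∉ B := by
        intro h
        have := ((mem_hamA_iff (v := v) _).mp h.1).1
        rw [restA_update hv hAv] at this
        exact hx this
      rw [indicator_of_notMem ht]; exact bot_le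
  have e1 : ∫⁻ x, f x ∂(Measure.pi fun _ : F => (volume : Measure ℝ)) = volume B := by
    simp only [f]; rw [lintegral_indicator_one hBm']; rfl
  have e2 : ∫⁻ x, g x ∂(Measure.pi fun _ : F => (volume : Measure ℝ)) =
      c * volume (ham F E 0 ∩ A) + volume (ham F E 0 ∩ A ∩ spread F E v d) := by
    simp only [g]
    rw [lintegral_add_left ((measurable_one.indicator hKm).const_mul c),
      lintegral_const_mul _ (measurable_one.indicator hKm),
      lintegral_indicator_one hKm, lintegral_indicator_one hBm]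
    rfl
  rw [e1, e2] at key
  exact key

/-- One fresh edge, in the presence of a symmetric convex event `A` which does not touch `v`. -/
theorem vol_freshA {ρ : ℝ} {v u : U} (hv : v ∈ F)
    (hAv : ∀ (x : F → ℝ) (t : ℝ), Function.update x ⟨v, hv⟩ t ∈ A ↔ x ∈ A)
    (hu : u ∈ nbr E v) {n : ℕ} (hn : (nbr E v).card ≤ n) (hρ : 0 < ρ) :
    volume (ham F E 0 ∩ A ∩ {x | |ext F 0 x v - ext F 0 x u| ≤ ρ}) ≤
      ENNReal.ofReal (64 * (n : ℝ) ^ 2 * ρ) * volume (ham F E 0 ∩ A) := by
  have hn1 : 1 ≤ n := le_trans (Finset.card_pos.mpr ⟨u, hu⟩) hn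
  have hn1' : (1 : ℝ) ≤ n := by exact_mod_cast hn1
  have hn0 : (0 : ℝ) < n := by linarith
  set t₀ : ℝ := 1 / (64 * (n : ℝ) ^ 2) with ht₀
  have ht₀0 : 0 < t₀ := by positivity
  have hhalf : volume (ham F E 0 ∩ A ∩ {x | |(extL F v - extL F u) x| ≤ t₀}) ≤
      ENNReal.ofReal (1 / 2) * volume (ham F E 0 ∩ A) := by
    have h1 := vol_stepA (E := E) hAm (ρ := t₀) hv hAv hu (d := 1 / (8 * (n : ℝ) ^ 2))
      (by positivity) ht₀0.le
    refine h1.trans ?_
    have h2 := vol_spreadA (F := F) (E := E) hAc hAs hAm (v := v)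
      (d := 1 / (8 * (n : ℝ) ^ 2)) (by positivity)
    have h3 : 2 * t₀ / (1 / (8 * (n : ℝ) ^ 2)) = 1 / 4 := by rw [ht₀]; field_simp; norm_num
    have h4 : 2 * ((nbr E v).card : ℝ) ^ 2 * (1 / (8 * (n : ℝ) ^ 2)) ≤ 1 / 4 := by
      have h5 : ((nbr E v).card : ℝ) ^ 2 ≤ (n : ℝ) ^ 2 := by
        have : ((nbr E v).card : ℝ) ≤ n := by exact_mod_cast hn
        gcongr
      rw [mul_one_div, div_le_div_iff₀ (by positivity) (by norm_num)]
      linarith
    calc ENNReal.ofReal (2 * t₀ / (1 / (8 * (n : ℝ) ^ 2))) * volume (ham F E 0 ∩ A) +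
          volume (ham F E 0 ∩ A ∩ spread F E v (1 / (8 * (n : ℝ) ^ 2)))
        ≤ ENNReal.ofReal (1 / 4) * volume (ham F E 0 ∩ A) +
          ENNReal.ofReal (1 / 4) * volume (ham F E 0 ∩ A) := by
          rw [h3]
          gcongr
          exact h2.trans (by gcongr)
      _ = ENNReal.ofReal (1 / 2) * volume (ham F E 0 ∩ A) := by
          rw [← add_mul, ← ENNReal.ofReal_add (by norm_num) (by norm_num)]
          norm_num
  have := slab_centre (convex_ham.inter hAc) (fun x hx => ⟨by simpa using ham_neg hx.1,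
      hAs x hx.2⟩) (measurableSet_ham.inter hAm) (extL F v - extL F u)
    (((continuous_ext (F := F) (ξ := 0) v).sub (continuous_ext u)).measurable) ht₀0 hhalf hρ
  have h6 : ρ / t₀ = 64 * (n : ℝ) ^ 2 * ρ := by rw [ht₀]; field_simp
  rw [h6] at this
  exact this

end step

/-! ### Lists of edges with radii -/

/-- Fresh lists of edges with positive radii. -/
inductive FreshR (F : Finset U) (E : Finset (U × U)) : List ((U × U) × ℝ) → Prop
  | nil : FreshR F E []
  | cons {v u : U} {w : ℝ} {S : List ((U × U) × ℝ)} (hS : FreshR F E S) (hv : v ∈ F)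
      (hu : u ∈ nbr E v) (hw : 0 < w) (hf : ∀ q ∈ S, q.1.1 ≠ v ∧ q.1.2 ≠ v) :
      FreshR F E (((v, u), w) :: S)

theorem FreshR.edge {S : List ((U × U) × ℝ)} (h : FreshR F E S) :
    ∀ q ∈ S, q.1 ∈ E ∨ (q.1.2, q.1.1) ∈ E := by
  induction h with
  | nil => simp
  | cons hS hv hu hw hf ih =>
    intro q hq
    rcases List.mem_cons.mp hq with rfl | hq
    · exact (mem_nbr.mp hu).2
    · exact ih q hq

theorem FreshR.append {S₁ S₂ : List ((U × U) × ℝ)} (h1 : FreshR F E S₁) (h2 : FreshR F E S₂)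
    (hd : ∀ q ∈ S₁, ∀ q' ∈ S₂, q'.1.1 ≠ q.1.1 ∧ q'.1.2 ≠ q.1.1) : FreshR F E (S₁ ++ S₂) := by
  induction h1 with
  | nil => exact h2
  | @cons v u w S hS hv hu hw hf ih =>
    refine FreshR.cons (ih fun q hq => hd q (List.mem_cons_of_mem _ hq)) hv hu hw fun q hq => ?_
    rcases List.mem_append.mp hq with hq | hq
    · exact hf q hq
    · exact hd ((v, u), w) List.mem_cons_self q hq

/-- Fresh lists with a constant radius. -/
theorem Fresh.toR {S : List (U × U)} (h : Fresh F E S) {w : ℝ} (hw : 0 < w) :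
    FreshR F E (S.map fun q => (q, w)) := by
  induction h with
  | nil => exact FreshR.nil
  | @cons v u S hS hv hu hf ih =>
    refine FreshR.cons ih hv hu hw fun q hq => ?_
    obtain ⟨q', hq', rfl⟩ := List.mem_map.mp hq
    exact hf q' hq'

/-- The event `|∇_q x| ≤ w` for all `(q, w) ∈ S`. -/
def flatR (F : Finset U) (S : List ((U × U) × ℝ)) : Set (F → ℝ) :=
  {x | ∀ q ∈ S, |ext F 0 x q.1.1 - ext F 0 x q.1.2| ≤ q.2}

/-- The product of the one-edge bounds. -/
def wgt (n : ℕ) (S : List ((U × U) × ℝ)) : ℝ≥0∞ :=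
  (S.map fun q => ENNReal.ofReal (64 * (n : ℝ) ^ 2 * q.2)).prod

omit [DecidableEq U] in
theorem wgt_nil (n : ℕ) : wgt n ([] : List ((U × U) × ℝ)) = 1 := rfl

omit [DecidableEq U] in
theorem wgt_cons (n : ℕ) (q : (U × U) × ℝ) (S : List ((U × U) × ℝ)) :
    wgt n (q :: S) = ENNReal.ofReal (64 * (n : ℝ) ^ 2 * q.2) * wgt n S := rfl

omit [DecidableEq U] in
theorem wgt_append (n : ℕ) (S S' : List ((U × U) × ℝ)) :
    wgt n (S ++ S') = wgt n S * wgt n S' := by
  simp [wgt]

omit [DecidableEq U] in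
omit [DecidableEq U] in
theorem wgt_const (n : ℕ) (S : List (U × U)) (w : ℝ) :
    wgt n (S.map fun q => (q, w)) = ENNReal.ofReal (64 * (n : ℝ) ^ 2 * w) ^ S.length := by
  induction S with
  | nil => rfl
  | cons q S ih =>
    rw [List.map_cons, wgt_cons, ih, List.length_cons]
    exact (pow_succ' _ _).symm

theorem flatR_cons (q : (U × U) × ℝ) (S : List ((U × U) × ℝ)) :
    flatR F (q :: S) = flatR F S ∩ {x | |ext F 0 x q.1.1 - ext F 0 x q.1.2| ≤ q.2} := by
  ext x
  constructor
  · intro h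
    exact ⟨fun p hp => h p (List.mem_cons_of_mem _ hp), h q List.mem_cons_self⟩
  · rintro ⟨h1, h2⟩ p hp
    rcases List.mem_cons.mp hp with rfl | hp
    · exact h2
    · exact h1 p hp

theorem isClosed_flatR (S : List ((U × U) × ℝ)) : IsClosed (flatR F S) := by
  have : flatR F S = ⋂ q ∈ {q | q ∈ S}, {x | |ext F 0 x q.1.1 - ext F 0 x q.1.2| ≤ q.2} := by
    ext x; simp [flatR]
  rw [this]
  exact isClosed_biInter fun p _ =>
    isClosed_le (((continuous_ext p.1.1).sub (continuous_ext p.1.2)).abs) continuous_const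

theorem convex_flatR (S : List ((U × U) × ℝ)) : Convex ℝ (flatR F S) := by
  intro x hx y hy a b ha hb hab q hq
  have e : ∀ u, ext F 0 (a • x + b • y) u = a * ext F 0 x u + b * ext F 0 y u := by
    intro u
    have := ext_comb (F := F) (ξ := 0) (η := 0) a b x y u
    simpa using this
  rw [e, e]
  have h1 := abs_le.mp (hx q hq)
  have h2 := abs_le.mp (hy q hq)
  have hr : a * q.2 + b * q.2 = q.2 := by rw [← add_mul, hab, one_mul]
  rw [abs_le]; constructor <;> nlinarith

theorem flatR_neg {S : List ((U × U) × ℝ)} {x : F → ℝ} (hx : x ∈ flatR F S) :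
    -x ∈ flatR F S := by
  intro q hq
  have e : ∀ u, ext F 0 (-x) u = -ext F 0 x u := by
    intro u; have := ext_neg (F := F) (ξ := 0) x u; simpa using this
  rw [e, e]
  have := hx q hq
  rwa [show -ext F 0 x q.1.1 - -ext F 0 x q.1.2 = -(ext F 0 x q.1.1 - ext F 0 x q.1.2) by ring,
    abs_neg]

theorem flatR_update {S : List ((U × U) × ℝ)} {v : U} (hv : v ∈ F)
    (hS : ∀ q ∈ S, q.1.1 ≠ v ∧ q.1.2 ≠ v) (x : F → ℝ) (t : ℝ) :
    Function.update x ⟨v, hv⟩ t ∈ flatR F S ↔ x ∈ flatR F S := by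
  constructor
  · intro h q hq
    have := h q hq
    rwa [ext_update hv, ext_update hv, if_neg (hS q hq).1, if_neg (hS q hq).2] at this
  · intro h q hq
    rw [ext_update hv, ext_update hv, if_neg (hS q hq).1, if_neg (hS q hq).2]; exact h q hq

/-- Joint density bound at the centre with an extra symmetric convex event. -/
theorem vol_flatR_le {A : Set (F → ℝ)} (hAc : Convex ℝ A) (hAs : ∀ x ∈ A, -x ∈ A)
    (hAm : MeasurableSet A) {S : List ((U × U) × ℝ)} (hS : FreshR F E S)
    (hAv : ∀ q ∈ S, ∀ (hv : q.1.1 ∈ F) (x : F → ℝ) (t : ℝ),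
      Function.update x ⟨q.1.1, hv⟩ t ∈ A ↔ x ∈ A)
    {n : ℕ} (hn : ∀ v ∈ F, (nbr E v).card ≤ n) :
    volume (ham F E 0 ∩ A ∩ flatR F S) ≤ wgt n S * volume (ham F E 0 ∩ A) := by
  induction hS with
  | nil =>
    rw [wgt_nil, one_mul]
    exact measure_mono inter_subset_left
  | @cons v u w S hS hv hu hw hf ih =>
    rw [flatR_cons, wgt_cons]
    have e : ham F E 0 ∩ A ∩ (flatR F S ∩ {x | |ext F 0 x ((v, u), w).1.1 -
        ext F 0 x ((v, u), w).1.2| ≤ ((v, u), w).2}) =
        ham F E 0 ∩ (A ∩ flatR F S) ∩ {x | |ext F 0 x v - ext F 0 x u| ≤ w} := by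
      ext x; simp only [mem_inter_iff, mem_ofPred_eq]; tauto
    rw [e]
    refine (vol_freshA (hAc.inter (convex_flatR S)) (fun x hx => ⟨hAs x hx.1, flatR_neg hx.2⟩)
      (hAm.inter (isClosed_flatR S).measurableSet) hv ?_ hu (hn v hv) hw).trans ?_
    · intro x t
      have h1 := hAv ((v, u), w) List.mem_cons_self hv x t
      have h2 := flatR_update hv hf x t
      exact and_congr h1 h2
    · have h1 : volume (ham F E 0 ∩ (A ∩ flatR F S)) ≤ wgt n S * volume (ham F E 0 ∩ A) := by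
        rw [← inter_assoc]
        exact ih fun q hq => hAv q (List.mem_cons_of_mem _ hq)
      calc ENNReal.ofReal (64 * (n : ℝ) ^ 2 * w) * volume (ham F E 0 ∩ (A ∩ flatR F S))
          ≤ ENNReal.ofReal (64 * (n : ℝ) ^ 2 * w) * (wgt n S * volume (ham F E 0 ∩ A)) :=
            mul_le_mul_right h1 _
        _ = _ := by rw [mul_assoc (ENNReal.ofReal _)]

/-- Joint density bound: boxes with arbitrary centres, arbitrary boundary data. -/
theorem vol_box_le {S : List ((U × U) × ℝ)} (hS : FreshR F E S) {n : ℕ}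
    (hn : ∀ v ∈ F, (nbr E v).card ≤ n) (c : U × U → ℝ) :
    volume {x | x ∈ ham F E ξ ∧ ∀ q ∈ S, |ext F ξ x q.1.1 - ext F ξ x q.1.2 - c q.1| ≤ q.2} ≤
      wgt n S * volume (ham F E 0) := by
  have hcl : MeasurableSet {x | x ∈ ham F E ξ ∧
      ∀ q ∈ S, |ext F ξ x q.1.1 - ext F ξ x q.1.2 - c q.1| ≤ q.2} := by
    have : {x | x ∈ ham F E ξ ∧ ∀ q ∈ S, |ext F ξ x q.1.1 - ext F ξ x q.1.2 - c q.1| ≤ q.2} =
        ham F E ξ ∩ ⋂ q ∈ {q | q ∈ S},
          {x | |ext F ξ x q.1.1 - ext F ξ x q.1.2 - c q.1| ≤ q.2} := by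
      ext x; simp
    rw [this]
    exact (isClosed_ham.inter (isClosed_biInter fun p _ =>
      isClosed_le ((((continuous_ext p.1.1).sub (continuous_ext p.1.2)).sub
        continuous_const).abs) continuous_const)).measurableSet
  have h1 : volume {x | x ∈ ham F E ξ ∧
      ∀ q ∈ S, |ext F ξ x q.1.1 - ext F ξ x q.1.2 - c q.1| ≤ q.2} ≤
        volume (ham F E 0 ∩ Set.univ ∩ flatR F S) := by
    refine vol_le_of_half hcl ((measurableSet_ham.inter MeasurableSet.univ).inter
      (isClosed_flatR S).measurableSet) ?_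
    rintro x ⟨hx, hxs⟩ y ⟨hy, hys⟩
    have e0 : (1 / 2 : ℝ) • ξ + (1 / 2 : ℝ) • (-ξ) = 0 := by
      rw [smul_neg]; exact add_neg_cancel _
    have e1 : (1 / 2 : ℝ) • x - (1 / 2 : ℝ) • y = (1 / 2 : ℝ) • x + (1 / 2 : ℝ) • (-y) := by
      rw [smul_neg, sub_eq_add_neg]
    have hmem : (1 / 2 : ℝ) • x + (1 / 2 : ℝ) • (-y) ∈ ham F E 0 := by
      have := ham_comb (a := 1 / 2) (b := 1 / 2) (by norm_num) (by norm_num) (by norm_num) hx
        (ham_neg hy)
      rwa [e0] at this
    rw [e1]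
    refine ⟨⟨hmem, mem_univ _⟩, fun q hq => ?_⟩
    have e2 : ∀ w, ext F 0 ((1 / 2 : ℝ) • x + (1 / 2 : ℝ) • (-y)) w =
        1 / 2 * ext F ξ x w - 1 / 2 * ext F ξ y w := by
      intro w
      rw [← e0, ext_comb, ext_neg]; ring
    rw [e2, e2]
    have h2 := abs_le.mp (hxs q hq)
    have h3 := abs_le.mp (hys q hq)
    rw [abs_le]; constructor <;> linarith
  refine h1.trans ?_
  have := vol_flatR_le (F := F) (E := E) (A := Set.univ) convex_univ (fun x _ => mem_univ _)
    MeasurableSet.univ hS (fun q _ hv x t => by simp) hn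
  simpa only [inter_univ] using this

/-- The event that all edges of `S` are tight with their radii. -/
def tightR (F : Finset U) (E : Finset (U × U)) (ξ : U → ℝ) (S : List ((U × U) × ℝ)) :
    Set (F → ℝ) :=
  {x | x ∈ ham F E ξ ∧ ∀ q ∈ S, 1 - q.2 ≤ |ext F ξ x q.1.1 - ext F ξ x q.1.2|}

/-- LEMMA T with edge-dependent radii. -/
theorem vol_tightR_le {S : List ((U × U) × ℝ)} (hS : FreshR F E S) {n : ℕ}
    (hn : ∀ v ∈ F, (nbr E v).card ≤ n) :
    volume (tightR F E ξ S) ≤ wgt n S * volume (ham F E 0) := by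
  classical
  -- halve the radii, sign patterns give centres `± (1 - w/2)`
  let S2 : List ((U × U) × ℝ) := S.map fun q => (q.1, q.2 / 2)
  have hS2 : FreshR F E S2 := by
    induction hS with
    | nil => exact FreshR.nil
    | @cons v u w S hS hv hu hw hf ih =>
      refine FreshR.cons ih hv hu (by positivity) fun q hq => ?_
      obtain ⟨q', hq', rfl⟩ := List.mem_map.mp hq
      exact hf q' hq'
  have hw2 : wgt n S = 2 ^ S.length * wgt n S2 := by
    simp only [S2]
    clear hS2 S2 hS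
    induction S with
    | nil => simp [wgt]
    | cons q S ih =>
      have : ENNReal.ofReal (64 * (n : ℝ) ^ 2 * q.2) =
          2 * ENNReal.ofReal (64 * (n : ℝ) ^ 2 * (q.2 / 2)) := by
        rw [show (2 : ℝ≥0∞) = ENNReal.ofReal 2 by simp, ← ENNReal.ofReal_mul (by norm_num)]
        congr 1; ring
      rw [List.map_cons, wgt_cons, wgt_cons, ih, List.length_cons, this]
      ring
  -- radius of an edge (well defined because heads are fresh)
  have hex : ∃ ω : U × U → ℝ, ∀ q ∈ S, ω q.1 = q.2 := by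
    clear hw2 hS2 S2
    induction hS with
    | nil => exact ⟨fun _ => 0, by simp⟩
    | @cons v u w S hS hv hu hw hf ih =>
      obtain ⟨ω, hω⟩ := ih
      refine ⟨Function.update ω (v, u) w, fun q hq => ?_⟩
      rcases List.mem_cons.mp hq with rfl | hq
      · simp
      · rw [Function.update_of_ne, hω q hq]
        intro h
        exact (hf q hq).1 (congrArg Prod.fst h)
  obtain ⟨ω, hω⟩ := hex
  have hcov : tightR F E ξ S ⊆ ⋃ P ∈ (S.map Prod.fst).toFinset.powerset,
      {x | x ∈ ham F E ξ ∧ ∀ q ∈ S2, |ext F ξ x q.1.1 - ext F ξ x q.1.2 -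
        (if q.1 ∈ P then (1 - ω q.1 / 2) else -(1 - ω q.1 / 2))| ≤ q.2} := by
    rintro x ⟨hx, h⟩
    simp only [mem_iUnion]
    refine ⟨(S.map Prod.fst).toFinset.filter fun q => 0 ≤ ext F ξ x q.1 - ext F ξ x q.2,
      Finset.mem_powerset.mpr (Finset.filter_subset _ _), hx, ?_⟩
    intro q hq
    obtain ⟨q', hq', rfl⟩ := List.mem_map.mp hq
    have h1 := h q' hq'
    have h2 : |ext F ξ x q'.1.1 - ext F ξ x q'.1.2| ≤ 1 := by
      rcases hS.edge q' hq' with h | h
      · exact hx _ h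
      · rw [abs_sub_comm]; exact hx _ h
    have h3 := hω q' hq'
    have hmem : q'.1 ∈ (S.map Prod.fst).toFinset :=
      List.mem_toFinset.mpr (List.mem_map.mpr ⟨q', hq', rfl⟩)
    change |ext F ξ x q'.1.1 - ext F ξ x q'.1.2 - (if q'.1 ∈ _ then _ else _)| ≤ q'.2 / 2
    by_cases h0 : 0 ≤ ext F ξ x q'.1.1 - ext F ξ x q'.1.2
    · rw [if_pos (Finset.mem_filter.mpr ⟨hmem, h0⟩), h3]
      rw [abs_of_nonneg h0] at h1 h2
      rw [abs_le]; constructor <;> linarith
    · have hn : q'.1 ∉ (S.map Prod.fst).toFinset.filter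
          fun q => 0 ≤ ext F ξ x q.1 - ext F ξ x q.2 :=
        fun h' => h0 (Finset.mem_filter.mp h').2
      rw [if_neg hn, h3]
      rw [abs_of_neg (not_le.mp h0)] at h1 h2
      rw [abs_le]; constructor <;> linarith
  calc volume (tightR F E ξ S) ≤ ∑ P ∈ (S.map Prod.fst).toFinset.powerset, _ :=
        (measure_mono hcov).trans (measure_biUnion_finset_le _ _)
    _ ≤ ∑ P ∈ (S.map Prod.fst).toFinset.powerset, wgt n S2 * volume (ham F E 0) :=
        Finset.sum_le_sum fun P _ => vol_box_le hS2 hn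
          (fun q => if q ∈ P then (1 - ω q / 2) else -(1 - ω q / 2))
    _ = 2 ^ (S.map Prod.fst).toFinset.card * (wgt n S2 * volume (ham F E 0)) := by
        rw [Finset.sum_const, Finset.card_powerset, nsmul_eq_mul]; push_cast; rfl
    _ ≤ 2 ^ S.length * (wgt n S2 * volume (ham F E 0)) := by
        gcongr
        · norm_num
        · exact (List.toFinset_card_le _).trans (by simp)
    _ = wgt n S * volume (ham F E 0) := by rw [hw2]; ring

theorem tightR_append (S S' : List ((U × U) × ℝ)) :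
    tightR F E ξ (S ++ S') = tightR F E ξ S ∩ tightR F E ξ S' := by
  ext x
  constructor
  · rintro ⟨h1, h2⟩
    exact ⟨⟨h1, fun q hq => h2 q (List.mem_append_left _ hq)⟩,
      ⟨h1, fun q hq => h2 q (List.mem_append_right _ hq)⟩⟩
  · rintro ⟨⟨h1, h2⟩, ⟨_, h3⟩⟩
    refine ⟨h1, fun q hq => ?_⟩
    rcases List.mem_append.mp hq with hq | hq
    · exact h2 q hq
    · exact h3 q hq

/-- Joint bound for several windows with vertex-disjoint families of tight lists. -/
theorem vol_bad_le {κ : Type*} [DecidableEq κ] (B : Finset κ)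
    (Fam : κ → Finset (List ((U × U) × ℝ))) (bad : κ → Set (F → ℝ)) {n : ℕ}
    (hn : ∀ v ∈ F, (nbr E v).card ≤ n)
    (hbad : ∀ b ∈ B, ham F E ξ ∩ bad b ⊆ ⋃ S ∈ Fam b, tightR F E ξ S)
    (hfresh : ∀ b ∈ B, ∀ S ∈ Fam b, FreshR F E S)
    (hdisj : ∀ b ∈ B, ∀ b' ∈ B, b ≠ b' → ∀ S ∈ Fam b, ∀ S' ∈ Fam b', ∀ q ∈ S, ∀ q' ∈ S',
      q'.1.1 ≠ q.1.1 ∧ q'.1.2 ≠ q.1.1) :
    volume (ham F E ξ ∩ ⋂ b ∈ B, bad b) ≤
      (∏ b ∈ B, ∑ S ∈ Fam b, wgt n S) * volume (ham F E 0) := by
  have key : ∀ (B' : Finset κ), B' ⊆ B → ∀ S₀ : List ((U × U) × ℝ), FreshR F E S₀ →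
      (∀ b ∈ B', ∀ S ∈ Fam b, ∀ q ∈ S, ∀ q' ∈ S₀, q'.1.1 ≠ q.1.1 ∧ q'.1.2 ≠ q.1.1) →
      volume (tightR F E ξ S₀ ∩ ⋂ b ∈ B', bad b) ≤
        wgt n S₀ * (∏ b ∈ B', ∑ S ∈ Fam b, wgt n S) * volume (ham F E 0) := by
    intro B'
    induction B' using Finset.induction_on with
    | empty =>
      intro _ S₀ hS₀ _
      simp only [Finset.notMem_empty, iInter_of_empty, iInter_univ, inter_univ,
        Finset.prod_empty, mul_one]
      exact vol_tightR_le hS₀ hn
    | @insert b B' hb ih =>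
      intro hB' S₀ hS₀ hd
      have hbB : b ∈ B := hB' (Finset.mem_insert_self _ _)
      have hB'' : B' ⊆ B := fun c hc => hB' (Finset.mem_insert_of_mem hc)
      have hsub : tightR F E ξ S₀ ∩ ⋂ c ∈ insert b B', bad c ⊆
          ⋃ S ∈ Fam b, (tightR F E ξ (S ++ S₀) ∩ ⋂ c ∈ B', bad c) := by
        rintro x ⟨hx, hx'⟩
        simp only [mem_iInter, Finset.mem_insert, forall_eq_or_imp] at hx'
        have h1 := hbad b hbB ⟨hx.1, hx'.1⟩
        simp only [mem_iUnion] at h1 ⊢
        obtain ⟨S, hS, hxS⟩ := h1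
        refine ⟨S, hS, ?_, ?_⟩
        · rw [tightR_append]; exact ⟨hxS, hx⟩
        · simp only [mem_iInter]; exact hx'.2
      calc volume (tightR F E ξ S₀ ∩ ⋂ c ∈ insert b B', bad c)
          ≤ ∑ S ∈ Fam b, volume (tightR F E ξ (S ++ S₀) ∩ ⋂ c ∈ B', bad c) :=
            (measure_mono hsub).trans (measure_biUnion_finset_le _ _)
        _ ≤ ∑ S ∈ Fam b, wgt n (S ++ S₀) * (∏ b ∈ B', ∑ S ∈ Fam b, wgt n S) *
              volume (ham F E 0) := by
            refine Finset.sum_le_sum fun S hS => ?_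
            refine ih hB'' (S ++ S₀) ?_ ?_
            · exact FreshR.append (hfresh b hbB S hS) hS₀
                (hd b (Finset.mem_insert_self _ _) S hS)
            · intro c hc S' hS' q hq q' hq'
              rcases List.mem_append.mp hq' with hq' | hq'
              · exact hdisj c (hB'' hc) b hbB (fun e => hb (e ▸ hc)) S' hS' S hS q hq q' hq'
              · exact hd c (Finset.mem_insert_of_mem hc) S' hS' q hq q' hq'
        _ = wgt n S₀ * (∏ c ∈ insert b B', ∑ S ∈ Fam c, wgt n S) * volume (ham F E 0) := by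
            rw [Finset.prod_insert hb, ← Finset.sum_mul, ← Finset.sum_mul]
            simp only [wgt_append]
            rw [← Finset.sum_mul]; ring
  have := key B (Finset.Subset.refl _) [] FreshR.nil (by simp)
  rw [wgt_nil, one_mul] at this
  refine le_trans (measure_mono ?_) this
  rintro x ⟨h1, h2⟩
  exact ⟨⟨h1, by simp⟩, h2⟩

/-- At least `m` bad windows among a finite family. -/
theorem vol_bad_card_le {κ : Type*} [DecidableEq κ] (B : Finset κ)
    (Fam : κ → Finset (List ((U × U) × ℝ))) (bad : κ → Set (F → ℝ)) {n : ℕ}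
    (hn : ∀ v ∈ F, (nbr E v).card ≤ n)
    (hbad : ∀ b ∈ B, ham F E ξ ∩ bad b ⊆ ⋃ S ∈ Fam b, tightR F E ξ S)
    (hfresh : ∀ b ∈ B, ∀ S ∈ Fam b, FreshR F E S)
    (hdisj : ∀ b ∈ B, ∀ b' ∈ B, b ≠ b' → ∀ S ∈ Fam b, ∀ S' ∈ Fam b', ∀ q ∈ S, ∀ q' ∈ S',
      q'.1.1 ≠ q.1.1 ∧ q'.1.2 ≠ q.1.1) {q : ℝ≥0∞} (hq : q ≤ 1)
    (hw : ∀ b ∈ B, ∑ S ∈ Fam b, wgt n S ≤ q) (m : ℕ) :
    volume (ham F E ξ ∩ {x | m ≤ {b | b ∈ B ∧ x ∈ bad b}.ncard}) ≤
      2 ^ B.card * q ^ m * volume (ham F E 0) := by
  classical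
  have hsub : ham F E ξ ∩ {x | m ≤ {b | b ∈ B ∧ x ∈ bad b}.ncard} ⊆
      ⋃ P ∈ B.powerset.filter (fun P => m ≤ P.card), (ham F E ξ ∩ ⋂ b ∈ P, bad b) := by
    rintro x ⟨hx, hm⟩
    simp only [mem_iUnion]
    have e : {b | b ∈ B ∧ x ∈ bad b} = ((B.filter fun b => x ∈ bad b : Finset κ) : Set κ) := by
      ext b; simp
    refine ⟨B.filter fun b => x ∈ bad b, ?_, hx, ?_⟩
    · rw [Finset.mem_filter, Finset.mem_powerset]
      refine ⟨Finset.filter_subset _ _, ?_⟩
      change m ≤ {b | b ∈ B ∧ x ∈ bad b}.ncard at hm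
      rwa [e, Set.ncard_coe_finset] at hm
    · simp only [mem_iInter, Finset.mem_filter]
      exact fun b hb => hb.2
  calc volume (ham F E ξ ∩ {x | m ≤ {b | b ∈ B ∧ x ∈ bad b}.ncard})
      ≤ ∑ P ∈ B.powerset.filter (fun P => m ≤ P.card), volume (ham F E ξ ∩ ⋂ b ∈ P, bad b) :=
        (measure_mono hsub).trans (measure_biUnion_finset_le _ _)
    _ ≤ ∑ P ∈ B.powerset.filter (fun P => m ≤ P.card), q ^ m * volume (ham F E 0) := by
        refine Finset.sum_le_sum fun P hP => ?_
        rw [Finset.mem_filter, Finset.mem_powerset] at hP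
        refine (vol_bad_le P Fam bad hn (fun b hb => hbad b (hP.1 hb))
          (fun b hb => hfresh b (hP.1 hb))
          (fun b hb b' hb' => hdisj b (hP.1 hb) b' (hP.1 hb'))).trans ?_
        gcongr
        calc ∏ b ∈ P, ∑ S ∈ Fam b, wgt n S ≤ ∏ b ∈ P, q :=
              Finset.prod_le_prod' fun b hb => hw b (hP.1 hb)
          _ = q ^ P.card := by rw [Finset.prod_const]
          _ ≤ q ^ m := pow_le_pow_right_of_le_one' hq hP.2
    _ ≤ ∑ P ∈ B.powerset, q ^ m * volume (ham F E 0) :=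
        Finset.sum_le_sum_of_subset (Finset.filter_subset _ _)
    _ = 2 ^ B.card * q ^ m * volume (ham F E 0) := by
        rw [Finset.sum_const, Finset.card_powerset, nsmul_eq_mul]; push_cast; ring

end Crest.Agent.R144.Ham560
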