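import Crest.Agent.R144.HexTil_353

/-!
# R144 / HexDom_353 : a finite set of hexagons bounded by one simple curve (S0195)

If the frontier of `approxDomain δ F` is (pre)connected then `F` and its complement are connected
for `Adj`, `approxDomain δ F` and the complement of its closure are connected, the latter unbounded.
-/

set_option autoImplicit false

noncomputable section

namespace Crest.Agent.R144.HexDom353

open Set Topology Crest.ProbabilityR.HexHeights Crest.Agent.R144.Til353 Crest.Agent.R144.HexTil353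

/-- connectedness for a relation inside a set of sites -/
def Conn {ι : Type*} (R : ι → ι → Prop) (S : Set ι) : Prop :=
  ∀ u ∈ S, ∀ v ∈ S, Relation.ReflTransGen (fun a b => a ∈ S ∧ b ∈ S ∧ R a b) u v

theorem mid_far {u v w : ℤ × ℤ} (h : Adj u v) (hu : w ≠ u) (hv : w ≠ v) :
    3 ≤ (u.1 + v.1 - 2 * w.1) ^ 2 + (u.1 + v.1 - 2 * w.1) * (u.2 + v.2 - 2 * w.2) +
      (u.2 + v.2 - 2 * w.2) ^ 2 := by
  by_contra hcon
  push Not at hcon
  have hu' : ¬ (w.1 = u.1 ∧ w.2 = u.2) := fun h => hu (Prod.ext h.1 h.2)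
  have hv' : ¬ (w.1 = v.1 ∧ w.2 = v.2) := fun h => hv (Prod.ext h.1 h.2)
  have h2 := int_N_small hcon
  unfold Adj at h
  omega

theorem dist_mid_sq (δ : ℝ) (u v w : ℤ × ℤ) :
    dist ((centre δ u + centre δ v) / 2) (centre δ w) ^ 2 =
      δ ^ 2 / 4 * (((u.1 + v.1 - 2 * w.1) ^ 2 + (u.1 + v.1 - 2 * w.1) * (u.2 + v.2 - 2 * w.2) +
      (u.2 + v.2 - 2 * w.2) ^ 2 : ℤ) : ℝ) := by
  have h1 : (centre δ u + centre δ v) / 2 =
      cen δ (((u.1 : ℝ) + v.1) / 2) (((u.2 : ℝ) + v.2) / 2) := by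
    unfold centre cen
    push_cast
    ring
  rw [h1, centre_eq, dist_cen_sq]
  unfold N
  push_cast
  ring

theorem glued_of_adj {δ : ℝ} (hδ : 0 < δ) {u v : ℤ × ℤ} (h : Adj u v) : Glued (cell δ) u v := by
  set m := (centre δ u + centre δ v) / 2 with hm
  have hfar : ∀ w, w ≠ u → w ≠ v → 3 / 4 * δ ≤ dist m (centre δ w) := by
    intro w hu hv
    have h1 := mid_far h hu hv
    have h2 := dist_mid_sq δ u v w
    have h3 : (3 : ℝ) ≤ (((u.1 + v.1 - 2 * w.1) ^ 2 + (u.1 + v.1 - 2 * w.1) * (u.2 + v.2 - 2 * w.2) +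
      (u.2 + v.2 - 2 * w.2) ^ 2 : ℤ) : ℝ) := by exact_mod_cast h1
    refine (abs_le_of_sq_le_sq' ?_ dist_nonneg).2
    rw [h2]
    nlinarith [sq_nonneg δ, mul_le_mul_of_nonneg_left h3 (sq_nonneg δ)]
  have hcl : ∀ w, (w = u ∨ w = v) → dist m (centre δ w) = δ / 2 := by
    intro w hw
    have h2 := dist_mid_sq δ u v w
    have hadj := (adj_iff u v).1 h
    have h3 : (u.1 + v.1 - 2 * w.1) ^ 2 + (u.1 + v.1 - 2 * w.1) * (u.2 + v.2 - 2 * w.2) +
      (u.2 + v.2 - 2 * w.2) ^ 2 = 1 := by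
      rcases hw with rfl | rfl <;> linarith
    rw [h3] at h2
    have h4 : dist m (centre δ w) ^ 2 = (δ / 2) ^ 2 := by
      rw [h2]; push_cast; ring
    exact (pow_left_inj₀ dist_nonneg (by linarith) (by norm_num)).1 h4
  have hmin : ∀ w, δ / 2 ≤ dist m (centre δ w) := by
    intro w
    by_cases hu : w = u
    · exact (hcl w (Or.inl hu)).ge
    by_cases hv : w = v
    · exact (hcl w (Or.inr hv)).ge
    have := hfar w hu hv
    linarith
  refine ⟨m, fun w => ?_, fun w => ?_, ?_⟩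
  · rw [hcl u (Or.inl rfl)]; exact hmin w
  · rw [hcl v (Or.inr rfl)]; exact hmin w
  · refine interior_maximal ?_ Metric.isOpen_ball (Metric.mem_ball_self (ε := δ / 8) (by linarith))
    intro z hz
    rw [Metric.mem_ball] at hz
    have hzf : ∀ w, w ≠ u → w ≠ v → 5 / 8 * δ ≤ dist z (centre δ w) := by
      intro w hu hv
      have h1 := hfar w hu hv
      have h2 := dist_triangle m z (centre δ w)
      rw [dist_comm m z] at h2
      linarith
    have hzu : dist z (centre δ u) ≤ 5 / 8 * δ := by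
      have h2 := dist_triangle z m (centre δ u)
      rw [hcl u (Or.inl rfl)] at h2
      linarith
    have hzv : dist z (centre δ v) ≤ 5 / 8 * δ := by
      have h2 := dist_triangle z m (centre δ v)
      rw [hcl v (Or.inr rfl)] at h2
      linarith
    rcases le_total (dist z (centre δ u)) (dist z (centre δ v)) with hle | hle
    · left
      intro w
      by_cases hu : w = u
      · rw [hu]
      by_cases hv : w = v
      · rw [hv]; exact hle
      exact hzu.trans (hzf w hu hv)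
    · right
      intro w
      by_cases hu : w = u
      · rw [hu]; exact hle
      by_cases hv : w = v
      · rw [hv]
      exact hzv.trans (hzf w hu hv)

theorem adj_of_glued {δ : ℝ} (hδ : 0 < δ) {u v : ℤ × ℤ} (h : Glued (cell δ) u v) :
    u = v ∨ Adj u v := by
  obtain ⟨m, h1, h2, _⟩ := h
  exact touch hδ ⟨m, h1, h2⟩

theorem approx_eq (δ : ℝ) (F : Finset (ℤ × ℤ)) :
    approxDomain δ F = interior (U (cell δ) (F : Set (ℤ × ℤ))) := by
  unfold approxDomain U
  simp only [Finset.mem_coe]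

theorem conn_of_chain {δ : ℝ} (hδ : 0 < δ) {S : Set (ℤ × ℤ)}
    (h : ∀ i ∈ S, ∀ j ∈ S, Tiling.Chain (cell δ) S i j) : Conn Adj S := by
  intro u hu v hv
  have := h u hu v hv
  unfold Tiling.Chain at this
  induction this with
  | refl => exact Relation.ReflTransGen.refl
  | tail _ hs ih =>
    have ih' := ih hs.1
    rcases adj_of_glued hδ hs.2.2 with h1 | h1
    · rw [← h1]; exact ih'
    · exact ih'.tail ⟨hs.1, hs.2.1, h1⟩

theorem chain_loc {δ : ℝ} (hδ : 0 < δ) (S : Set (ℤ × ℤ)) :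
    ∀ i ∈ S, ∀ j ∈ S, (cell δ i ∩ cell δ j).Nonempty → Tiling.Chain (cell δ) S i j := by
  intro i hi j hj hne
  rcases touch hδ hne with rfl | h
  · exact Relation.ReflTransGen.refl
  · exact Relation.ReflTransGen.single ⟨hi, hj, glued_of_adj hδ h⟩

/-- closed region of `F` -/
def P (δ : ℝ) (F : Finset (ℤ × ℤ)) : Set ℂ := ⋃ u ∈ F, cell δ u

theorem P_eq (δ : ℝ) (F : Finset (ℤ × ℤ)) : P δ F = U (cell δ) (F : Set (ℤ × ℤ)) := by
  unfold P U
  simp only [Finset.mem_coe]

theorem closure_approx {δ : ℝ} (hδ : 0 < δ) (F : Finset (ℤ × ℤ)) :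
    closure (approxDomain δ F) = P δ F := by
  rw [approx_eq, P_eq, (tiling hδ).closure_interior_U]

theorem isCompact_cell {δ : ℝ} (hδ : 0 < δ) (u : ℤ × ℤ) : IsCompact (cell δ u) := by
  refine (Metric.isCompact_of_isClosed_isBounded (isClosed_cell δ u) ?_)
  refine Metric.isBounded_closedBall (x := centre δ u) (r := δ) |>.subset fun z hz => ?_
  rw [Metric.mem_closedBall]
  have h1 := dist_le_of_mem_cell hδ hz
  refine (abs_le_of_sq_le_sq' ?_ hδ.le).2
  nlinarith [sq_nonneg (dist z (centre δ u))]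

theorem isCompact_P {δ : ℝ} (hδ : 0 < δ) (F : Finset (ℤ × ℤ)) : IsCompact (P δ F) :=
  F.isCompact_biUnion fun u _ => isCompact_cell hδ u

theorem compl_P {δ : ℝ} (hδ : 0 < δ) (F : Finset (ℤ × ℤ)) :
    (P δ F)ᶜ = interior (U (cell δ) ((F : Set (ℤ × ℤ))ᶜ)) := by
  rw [P_eq, (tiling hδ).compl_U]

theorem not_isBounded_compl {K : Set ℂ} (hK : Bornology.IsBounded K) :
    ¬ Bornology.IsBounded Kᶜ := by
  intro h
  have h1 : Bornology.IsBounded (univ : Set ℂ) := by
    rw [← union_compl_self K]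
    exact hK.union h
  exact (NormedSpace.unbounded_univ ℝ ℂ) h1

/-- **The lattice block for S0195.** -/
theorem hex_domain {δ : ℝ} (hδ : 0 < δ) {F : Finset (ℤ × ℤ)}
    (hJ : IsPreconnected (frontier (approxDomain δ F))) :
    Conn Adj (F : Set (ℤ × ℤ)) ∧ (F.Nonempty → Conn Adj ((F : Set (ℤ × ℤ))ᶜ)) ∧
    IsPreconnected (approxDomain δ F) ∧ (F.Nonempty → IsPreconnected (P δ F)ᶜ) ∧
    ¬ Bornology.IsBounded (P δ F)ᶜ := by
  have hT := tiling hδ
  rw [approx_eq] at hJ ⊢
  have hcompl : ((F : Set (ℤ × ℤ))ᶜ).Nonempty := by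
    obtain ⟨u, hu⟩ := Infinite.exists_notMem_finset F
    exact ⟨u, by simpa using hu⟩
  have h1 := hT.chain_of hcompl hJ (chain_loc hδ _)
  have h2 : F.Nonempty → ∀ i ∈ ((F : Set (ℤ × ℤ))ᶜ), ∀ j ∈ ((F : Set (ℤ × ℤ))ᶜ),
      Tiling.Chain (cell δ) ((F : Set (ℤ × ℤ))ᶜ) i j := by
    intro hF
    refine hT.chain_of (by rw [compl_compl]; exact_mod_cast hF) ?_ (chain_loc hδ _)
    rw [← hT.frontier_eq']
    exact hJ
  refine ⟨conn_of_chain hδ h1, fun hF => conn_of_chain hδ (h2 hF), hT.preconnected_interior h1,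
    fun hF => ?_, not_isBounded_compl (isCompact_P hδ F).isBounded⟩
  rw [compl_P hδ]
  exact hT.preconnected_interior (h2 hF)

end Crest.Agent.R144.HexDom353
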