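import Mathlib

/-!
# R144, static functional inequalities (helper865), file 4: calculus of `Lφ = Δφ − ⟨∇H, ∇φ⟩`

On `ι → ℝ` with `pd i f x = fderiv ℝ f x (Pi.single i 1)`:

* `ibp`      : `∫ (Lφ) G e^{-H} = - ∫ ⟨∇φ, ∇G⟩ e^{-H}` (`φ` `C²` with compact support, `G`, `H` `C¹`);
* `bochner`  : `∫ (Lφ)² e^{-H} = ∫ (‖D²φ‖² + D²H(∇φ, ∇φ)) e^{-H}` (`φ` `C³` with compact support,
  `H` `C²`).
-/

set_option autoImplicit false
set_option linter.unusedSectionVars false

open MeasureTheory Set Filter Topology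
open scoped ENNReal NNReal ContDiff

namespace Crest.Agent.R144.Hs865

noncomputable section

variable {ι : Type*} [Fintype ι] [DecidableEq ι]

/-- the `i`-th partial derivative -/
def pd (i : ι) (f : (ι → ℝ) → ℝ) (x : ι → ℝ) : ℝ := fderiv ℝ f x (Pi.single i 1)

/-- the generator `Δφ − ⟨∇H, ∇φ⟩` -/
def Lp (H φ : (ι → ℝ) → ℝ) (x : ι → ℝ) : ℝ := ∑ i, (pd i (pd i φ) x - pd i H x * pd i φ x)

variable {f g : (ι → ℝ) → ℝ} {x : ι → ℝ} {i j : ι}

theorem pd_add (hf : DifferentiableAt ℝ f x) (hg : DifferentiableAt ℝ g x) :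
    pd i (fun y => f y + g y) x = pd i f x + pd i g x := by
  unfold pd; rw [fderiv_fun_add hf hg]; rfl

theorem pd_sub (hf : DifferentiableAt ℝ f x) (hg : DifferentiableAt ℝ g x) :
    pd i (fun y => f y - g y) x = pd i f x - pd i g x := by
  unfold pd; rw [fderiv_fun_sub hf hg]; rfl

theorem pd_mul (hf : DifferentiableAt ℝ f x) (hg : DifferentiableAt ℝ g x) :
    pd i (fun y => f y * g y) x = f x * pd i g x + pd i f x * g x := by
  unfold pd; rw [fderiv_fun_mul hf hg]
  simp only [add_apply, smul_apply, smul_eq_mul]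
  ring

theorem pd_const (c : ℝ) : pd i (fun _ => c) x = 0 := by
  unfold pd; rw [fderiv_fun_const]; rfl

theorem pd_sum {κ : Type*} (s : Finset κ) {F : κ → (ι → ℝ) → ℝ}
    (hF : ∀ k ∈ s, DifferentiableAt ℝ (F k) x) :
    pd i (fun y => ∑ k ∈ s, F k y) x = ∑ k ∈ s, pd i (F k) x := by
  unfold pd
  rw [fderiv_fun_sum hF, sum_apply]

theorem pd_exp (hf : DifferentiableAt ℝ f x) :
    pd i (fun y => Real.exp (f y)) x = Real.exp (f x) * pd i f x := by
  unfold pd; rw [fderiv_exp hf]; rfl

theorem pd_neg : pd i (fun y => - f y) x = - pd i f x := by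
  unfold pd; rw [fderiv_fun_neg]; rfl

theorem pd_exp_neg (hf : DifferentiableAt ℝ f x) :
    pd i (fun y => Real.exp (-f y)) x = - (pd i f x * Real.exp (-f x)) := by
  rw [pd_exp (f := fun y => - f y) hf.fun_neg, pd_neg]; ring

theorem contDiff_pd {n m : WithTop ℕ∞} (hf : ContDiff ℝ n f) (hmn : m + 1 ≤ n) (i : ι) :
    ContDiff ℝ m (pd i f) :=
  (hf.fderiv_right hmn).clm_apply contDiff_const

theorem continuous_pd (hf : ContDiff ℝ 1 f) (i : ι) : Continuous (pd i f) :=
  (contDiff_pd (m := 0) hf (by norm_num) i).continuous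

theorem hcs_pd (hf : HasCompactSupport f) (i : ι) : HasCompactSupport (pd i f) :=
  hf.fderiv_apply ℝ (Pi.single i 1)

theorem pd_comm (hf : ContDiff ℝ 2 f) (i j : ι) (x : ι → ℝ) :
    pd i (pd j f) x = pd j (pd i f) x := by
  have h1 : ∀ k l : ι, pd k (pd l f) x =
      fderiv ℝ (fderiv ℝ f) x (Pi.single k 1) (Pi.single l 1) := by
    intro k l
    have hd : DifferentiableAt ℝ (fderiv ℝ f) x :=
      ((hf.fderiv_right (m := 1) (by norm_num)).differentiable (by norm_num)) x
    unfold pd
    rw [fderiv_clm_apply hd (differentiableAt_const _)]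
    simp
  rw [h1, h1]
  exact (hf.contDiffAt.isSymmSndFDerivAt (by simp)) _ _

theorem int_cc (hf : Continuous f) (hg : Continuous g) (hc : HasCompactSupport f) :
    Integrable (fun x => f x * g x) :=
  (hf.mul hg).integrable_of_hasCompactSupport hc.mul_right

theorem ibp0 (hf : ContDiff ℝ 1 f) (hg : ContDiff ℝ 1 g) (hc : HasCompactSupport f) (i : ι) :
    ∫ x, f x * pd i g x = - ∫ x, pd i f x * g x :=
  integral_mul_fderiv_eq_neg_fderiv_mul_of_integrable
    (int_cc (continuous_pd hf i) hg.continuous (hcs_pd hc i))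
    (int_cc hf.continuous (continuous_pd hg i) hc)
    (int_cc hf.continuous hg.continuous hc)
    (fun x _ => hf.differentiable (by norm_num) x) (fun x _ => hg.differentiable (by norm_num) x)

variable {H φ G : (ι → ℝ) → ℝ}

theorem contDiff_expneg {n : WithTop ℕ∞} (hH : ContDiff ℝ n H) :
    ContDiff ℝ n fun x => Real.exp (-H x) := Real.contDiff_exp.comp hH.neg

theorem continuous_Lp (hH : ContDiff ℝ 1 H) (hφ : ContDiff ℝ 2 φ) : Continuous (Lp H φ) := by
  unfold Lp
  refine continuous_finsetSum _ fun i _ => ?_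
  exact (continuous_pd (contDiff_pd hφ (by norm_num) i) i).sub
    ((continuous_pd hH i).mul (continuous_pd (hφ.of_le (by norm_num)) i))

theorem hcs_Lp (hc : HasCompactSupport φ) : HasCompactSupport (Lp H φ) := by
  have : ∀ s : Finset ι, HasCompactSupport
      fun x => ∑ i ∈ s, (pd i (pd i φ) x - pd i H x * pd i φ x) := by
    intro s
    induction s using Finset.induction_on with
    | empty => simp only [Finset.sum_empty]; exact HasCompactSupport.zero
    | insert a s ha ih =>
      simp only [Finset.sum_insert ha]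
      have h1 : HasCompactSupport fun x => pd a (pd a φ) x := hcs_pd (hcs_pd hc a) a
      have h2 : HasCompactSupport fun x => pd a H x * pd a φ x := (hcs_pd hc a).mul_left
      exact (h1.sub h2).add ih
  exact this Finset.univ

theorem contDiff_Lp {n : WithTop ℕ∞} (hH : ContDiff ℝ (n + 1) H) (hφ : ContDiff ℝ (n + 2) φ) :
    ContDiff ℝ n (Lp H φ) := by
  unfold Lp
  refine ContDiff.sum fun i _ => ?_
  have h1 : ContDiff ℝ (n + 1) (pd i φ) := contDiff_pd hφ (by
    rw [add_assoc]; norm_num) i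
  exact (contDiff_pd h1 le_rfl i).sub ((contDiff_pd hH le_rfl i).mul (h1.of_le le_self_add))

/-- **integration by parts** -/
theorem ibp (hH : ContDiff ℝ 1 H) (hφ : ContDiff ℝ 2 φ) (hc : HasCompactSupport φ)
    (hG : ContDiff ℝ 1 G) :
    ∫ x, Lp H φ x * G x * Real.exp (-H x) =
      - ∫ x, (∑ i, pd i φ x * pd i G x) * Real.exp (-H x) := by
  have hE := contDiff_expneg hH
  have hGE : ContDiff ℝ 1 fun x => G x * Real.exp (-H x) := hG.mul hE
  have hp1 : ∀ i, ContDiff ℝ 1 (pd i φ) := fun i => contDiff_pd hφ (by norm_num) i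
  have hdG : ∀ x, DifferentiableAt ℝ G x := fun x => hG.differentiable (by norm_num) x
  have hdH : ∀ x, DifferentiableAt ℝ H x := fun x => hH.differentiable (by norm_num) x
  have hdE : ∀ x, DifferentiableAt ℝ (fun x => Real.exp (-H x)) x :=
    fun x => hE.differentiable (by norm_num) x
  have key : ∀ i, ∫ x, (pd i (pd i φ) x - pd i H x * pd i φ x) * G x * Real.exp (-H x) =
      - ∫ x, pd i φ x * pd i G x * Real.exp (-H x) := by
    intro i
    have h1 := ibp0 (hp1 i) hGE (hcs_pd hc i) i
    have h2 : ∀ x, pd i (fun x => G x * Real.exp (-H x)) x =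
        pd i G x * Real.exp (-H x) - G x * pd i H x * Real.exp (-H x) := by
      intro x
      rw [pd_mul (hdG x) (hdE x), pd_exp_neg (hdH x)]; ring
    simp_rw [h2] at h1
    have i1 : Integrable fun x => pd i φ x * (pd i G x * Real.exp (-H x)) :=
      int_cc (hp1 i).continuous ((continuous_pd hG i).mul hE.continuous) (hcs_pd hc i)
    have i2 : Integrable fun x => pd i φ x * (G x * pd i H x * Real.exp (-H x)) :=
      int_cc (hp1 i).continuous ((hG.continuous.mul (continuous_pd hH i)).mul hE.continuous)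
        (hcs_pd hc i)
    have i3 : Integrable fun x => pd i (pd i φ) x * (G x * Real.exp (-H x)) :=
      int_cc (continuous_pd (hp1 i) i) hGE.continuous (hcs_pd (hcs_pd hc i) i)
    have h3 : ∫ x, pd i φ x * (pd i G x * Real.exp (-H x) -
        G x * pd i H x * Real.exp (-H x)) =
        (∫ x, pd i φ x * (pd i G x * Real.exp (-H x))) -
          ∫ x, pd i φ x * (G x * pd i H x * Real.exp (-H x)) := by
      rw [← integral_sub i1 i2]
      exact integral_congr_ae (ae_of_all _ fun x => by ring)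
    rw [h3] at h1
    have h4 : ∫ x, (pd i (pd i φ) x - pd i H x * pd i φ x) * G x * Real.exp (-H x) =
        (∫ x, pd i (pd i φ) x * (G x * Real.exp (-H x))) -
          ∫ x, pd i φ x * (G x * pd i H x * Real.exp (-H x)) := by
      rw [← integral_sub i3 i2]
      exact integral_congr_ae (ae_of_all _ fun x => by ring)
    rw [h4]
    have h5 : ∫ x, pd i φ x * pd i G x * Real.exp (-H x) =
        ∫ x, pd i φ x * (pd i G x * Real.exp (-H x)) :=
      integral_congr_ae (ae_of_all _ fun x => by ring)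
    rw [h5]
    linarith
  have e1 : ∫ x, Lp H φ x * G x * Real.exp (-H x) =
      ∑ i, ∫ x, (pd i (pd i φ) x - pd i H x * pd i φ x) * G x * Real.exp (-H x) := by
    rw [← integral_finsetSum]
    · refine integral_congr_ae (ae_of_all _ fun x => ?_)
      show Lp H φ x * G x * Real.exp (-H x) = _
      unfold Lp
      rw [Finset.sum_mul, Finset.sum_mul]
    · intro i _
      have c1 : Continuous fun x => pd i (pd i φ) x - pd i H x * pd i φ x :=
        (continuous_pd (hp1 i) i).sub ((continuous_pd hH i).mul (hp1 i).continuous)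
      have s1 : HasCompactSupport fun x => pd i (pd i φ) x - pd i H x * pd i φ x := by
        have h1 : HasCompactSupport fun x => pd i (pd i φ) x := hcs_pd (hcs_pd hc i) i
        have h2 : HasCompactSupport fun x => pd i H x * pd i φ x := (hcs_pd hc i).mul_left
        exact h1.sub h2
      exact ((c1.mul hG.continuous).mul hE.continuous).integrable_of_hasCompactSupport
        (s1.mul_right.mul_right)
  have e2 : ∫ x, (∑ i, pd i φ x * pd i G x) * Real.exp (-H x) =
      ∑ i, ∫ x, pd i φ x * pd i G x * Real.exp (-H x) := by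
    rw [← integral_finsetSum]
    · refine integral_congr_ae (ae_of_all _ fun x => ?_)
      show (∑ i, pd i φ x * pd i G x) * Real.exp (-H x) = _
      rw [Finset.sum_mul]
    · intro i _
      exact (((hp1 i).continuous.mul (continuous_pd hG i)).mul hE.continuous
        ).integrable_of_hasCompactSupport ((hcs_pd hc i).mul_right.mul_right)
  rw [e1, e2, ← Finset.sum_neg_distrib]
  exact Finset.sum_congr rfl fun i _ => key i

theorem pd_Lp (hH : ContDiff ℝ 2 H) (hφ : ContDiff ℝ 3 φ) (j : ι) (x : ι → ℝ) :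
    pd j (Lp H φ) x = Lp H (pd j φ) x - ∑ i, pd j (pd i H) x * pd i φ x := by
  have hφ2 : ContDiff ℝ 2 φ := hφ.of_le (by norm_num)
  have hp2 : ∀ i, ContDiff ℝ 2 (pd i φ) := fun i => contDiff_pd hφ (by norm_num) i
  have hp1 : ∀ i, ContDiff ℝ 1 (pd i (pd i φ)) := fun i => contDiff_pd (hp2 i) (by norm_num) i
  have hH1 : ∀ i, ContDiff ℝ 1 (pd i H) := fun i => contDiff_pd hH (by norm_num) i
  have d1 : ∀ i, DifferentiableAt ℝ (pd i (pd i φ)) x :=
    fun i => (hp1 i).differentiable (by norm_num) x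
  have d2 : ∀ i, DifferentiableAt ℝ (pd i H) x := fun i => (hH1 i).differentiable (by norm_num) x
  have d3 : ∀ i, DifferentiableAt ℝ (pd i φ) x := fun i => (hp2 i).differentiable (by norm_num) x
  have e : pd j (Lp H φ) x = ∑ i, (pd j (pd i (pd i φ)) x -
      (pd i H x * pd j (pd i φ) x + pd j (pd i H) x * pd i φ x)) := by
    have : Lp H φ = fun y => ∑ i, (pd i (pd i φ) y - pd i H y * pd i φ y) := rfl
    rw [this, pd_sum]
    · refine Finset.sum_congr rfl fun i _ => ?_
      rw [pd_sub (f := pd i (pd i φ)) (g := fun y => pd i H y * pd i φ y) (d1 i)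
        ((d2 i).fun_mul (d3 i)), pd_mul (d2 i) (d3 i)]
    · intro i _
      exact (d1 i).fun_sub ((d2 i).fun_mul (d3 i))
  rw [e]
  unfold Lp
  rw [← Finset.sum_sub_distrib]
  refine Finset.sum_congr rfl fun i _ => ?_
  have c1 : pd j (pd i (pd i φ)) x = pd i (pd i (pd j φ)) x := by
    rw [pd_comm (hp2 i)]
    have : pd j (pd i φ) = pd i (pd j φ) := funext fun y => pd_comm hφ2 j i y
    rw [this]
  rw [c1, pd_comm hφ2 j i]
  ring

/-- **Bochner's identity** -/
theorem bochner (hH : ContDiff ℝ 2 H) (hφ : ContDiff ℝ 3 φ) (hc : HasCompactSupport φ) :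
    ∫ x, Lp H φ x ^ 2 * Real.exp (-H x) =
      ∫ x, ((∑ i, ∑ j, pd i (pd j φ) x ^ 2) +
        ∑ i, ∑ j, pd i (pd j H) x * pd i φ x * pd j φ x) * Real.exp (-H x) := by
  have hH1 : ContDiff ℝ 1 H := hH.of_le (by norm_num)
  have hφ2 : ContDiff ℝ 2 φ := hφ.of_le (by norm_num)
  have hp2 : ∀ i, ContDiff ℝ 2 (pd i φ) := fun i => contDiff_pd hφ (by norm_num) i
  have hE := contDiff_expneg hH1
  have hL1 : ContDiff ℝ 1 (Lp H φ) := contDiff_Lp (n := 1) (hH.of_le (by norm_num))
    (hφ.of_le (by norm_num))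
  have h1 := ibp hH1 hφ2 hc hL1
  have h2 : ∫ x, Lp H φ x ^ 2 * Real.exp (-H x) =
      ∫ x, Lp H φ x * Lp H φ x * Real.exp (-H x) :=
    integral_congr_ae (ae_of_all _ fun x => by
      show Lp H φ x ^ 2 * Real.exp (-H x) = Lp H φ x * Lp H φ x * Real.exp (-H x)
      ring)
  rw [h2, h1]
  have iA : ∀ j, Integrable (fun x => Lp H (pd j φ) x * pd j φ x * Real.exp (-H x)) volume := by
    intro j
    exact (((continuous_Lp hH1 (hp2 j)).mul (hp2 j).continuous).mul hE.continuous
      ).integrable_of_hasCompactSupport ((hcs_Lp (hcs_pd hc j)).mul_right.mul_right)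
  have iB : ∀ i j, Integrable (fun x => pd i (pd j H) x * pd i φ x * pd j φ x *
      Real.exp (-H x)) volume := by
    intro i j
    have hcc : Continuous fun x => pd i (pd j H) x * pd i φ x * pd j φ x * Real.exp (-H x) :=
      (((continuous_pd (contDiff_pd hH (by norm_num) j) i).mul (hp2 i).continuous).mul
        (hp2 j).continuous).mul hE.continuous
    exact hcc.integrable_of_hasCompactSupport ((hcs_pd hc i).mul_left.mul_right.mul_right)
  have iC : ∀ i j, Integrable fun x => pd i (pd j φ) x ^ 2 * Real.exp (-H x) := by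
    intro i j
    have hcc : Continuous fun x => pd i (pd j φ) x * pd i (pd j φ) x * Real.exp (-H x) :=
      ((continuous_pd ((hp2 j).of_le (by norm_num)) i).mul
        (continuous_pd ((hp2 j).of_le (by norm_num)) i)).mul hE.continuous
    have h3 : Integrable (fun x => pd i (pd j φ) x * pd i (pd j φ) x * Real.exp (-H x)) volume :=
      hcc.integrable_of_hasCompactSupport ((hcs_pd (hcs_pd hc j) i).mul_right.mul_right)
    refine h3.congr (ae_of_all _ fun x => ?_)
    show pd i (pd j φ) x * pd i (pd j φ) x * Real.exp (-H x) = _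
    ring
  have key : ∀ j, ∫ x, Lp H (pd j φ) x * pd j φ x * Real.exp (-H x) =
      - ∑ i, ∫ x, pd i (pd j φ) x ^ 2 * Real.exp (-H x) := by
    intro j
    rw [ibp hH1 (hp2 j) (hcs_pd hc j) ((hp2 j).of_le (by norm_num)),
      ← integral_finsetSum _ fun i _ => iC i j]
    congr 1
    refine integral_congr_ae (ae_of_all _ fun x => ?_)
    show (∑ i, pd i (pd j φ) x * pd i (pd j φ) x) * Real.exp (-H x) = _
    rw [Finset.sum_mul]
    exact Finset.sum_congr rfl fun i _ => by ring
  have e1 : ∫ x, (∑ i, pd i φ x * pd i (Lp H φ) x) * Real.exp (-H x) =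
      ∑ j, ((∫ x, Lp H (pd j φ) x * pd j φ x * Real.exp (-H x)) -
        ∑ i, ∫ x, pd i (pd j H) x * pd i φ x * pd j φ x * Real.exp (-H x)) := by
    have : ∀ j, (∫ x, Lp H (pd j φ) x * pd j φ x * Real.exp (-H x)) -
        ∑ i, ∫ x, pd i (pd j H) x * pd i φ x * pd j φ x * Real.exp (-H x) =
        ∫ x, (Lp H (pd j φ) x * pd j φ x * Real.exp (-H x) -
          ∑ i, pd i (pd j H) x * pd i φ x * pd j φ x * Real.exp (-H x)) := by
      intro j
      rw [integral_sub (iA j) (integrable_finsetSum _ fun i _ => iB i j),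
        integral_finsetSum _ fun i _ => iB i j]
    simp_rw [this]
    have iD : ∀ j, Integrable (fun x => Lp H (pd j φ) x * pd j φ x * Real.exp (-H x) -
        ∑ i, pd i (pd j H) x * pd i φ x * pd j φ x * Real.exp (-H x)) volume := fun j =>
      (iA j).sub (integrable_finsetSum _ fun i _ => iB i j)
    rw [← integral_finsetSum _ fun j _ => iD j]
    refine integral_congr_ae (ae_of_all _ fun x => ?_)
    show (∑ i, pd i φ x * pd i (Lp H φ) x) * Real.exp (-H x) = _
    rw [Finset.sum_mul]
    refine Finset.sum_congr rfl fun j _ => ?_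
    rw [pd_Lp hH hφ j x, mul_sub, sub_mul, Finset.mul_sum, Finset.sum_mul]
    congr 1
    · ring
    · refine Finset.sum_congr rfl fun i _ => ?_
      rw [pd_comm hH j i]
      ring
  rw [e1, Finset.sum_sub_distrib]
  simp_rw [key]
  have e2 : ∫ x, ((∑ i, ∑ j, pd i (pd j φ) x ^ 2) +
        ∑ i, ∑ j, pd i (pd j H) x * pd i φ x * pd j φ x) * Real.exp (-H x) =
      (∑ j, ∑ i, ∫ x, pd i (pd j φ) x ^ 2 * Real.exp (-H x)) +
      ∑ j, ∑ i, ∫ x, pd i (pd j H) x * pd i φ x * pd j φ x * Real.exp (-H x) := by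
    have a1 : ∀ j, ∑ i, ∫ x, pd i (pd j φ) x ^ 2 * Real.exp (-H x) =
        ∫ x, ∑ i, pd i (pd j φ) x ^ 2 * Real.exp (-H x) := fun j =>
      (integral_finsetSum _ fun i _ => iC i j).symm
    have a2 : ∀ j, ∑ i, ∫ x, pd i (pd j H) x * pd i φ x * pd j φ x * Real.exp (-H x) =
        ∫ x, ∑ i, pd i (pd j H) x * pd i φ x * pd j φ x * Real.exp (-H x) := fun j =>
      (integral_finsetSum _ fun i _ => iB i j).symm
    simp_rw [a1, a2]
    rw [← integral_finsetSum _ fun j _ => integrable_finsetSum _ fun i _ => iC i j,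
      ← integral_finsetSum _ fun j _ => integrable_finsetSum _ fun i _ => iB i j,
      ← integral_add (integrable_finsetSum _ fun j _ => integrable_finsetSum _ fun i _ => iC i j)
        (integrable_finsetSum _ fun j _ => integrable_finsetSum _ fun i _ => iB i j)]
    refine integral_congr_ae (ae_of_all _ fun x => ?_)
    show ((∑ i, ∑ j, pd i (pd j φ) x ^ 2) +
        ∑ i, ∑ j, pd i (pd j H) x * pd i φ x * pd j φ x) * Real.exp (-H x) = _
    rw [add_mul]
    congr 1
    · rw [Finset.sum_comm, Finset.sum_mul]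
      exact Finset.sum_congr rfl fun j _ => by rw [Finset.sum_mul]
    · rw [Finset.sum_comm, Finset.sum_mul]
      exact Finset.sum_congr rfl fun j _ => by rw [Finset.sum_mul]
  rw [e2, Finset.sum_neg_distrib]
  ring

end

end Crest.Agent.R144.Hs865
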