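import Crest.Agent.R144.Hs1_865

/-!
# R144, static functional inequalities (helper865), file 5: mollification
-/

set_option autoImplicit false
set_option linter.unusedSectionVars false

open MeasureTheory Set Filter Topology
open scoped ENNReal NNReal ContDiff Convolution Pointwise

namespace Crest.Agent.R144.Hs865

noncomputable section

variable {ι : Type*} [Fintype ι] [DecidableEq ι]

/-- convolution -/
def cv (g ρ : (ι → ℝ) → ℝ) (x : ι → ℝ) : ℝ := ∫ t, g t * ρ (x - t)

variable {g ρ θ κ ψ H : (ι → ℝ) → ℝ}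

theorem cv_eq (g ρ : (ι → ℝ) → ℝ) :
    cv g ρ = (g ⋆[ContinuousLinearMap.mul ℝ ℝ, volume] ρ) := rfl

theorem cv_comm (g ρ : (ι → ℝ) → ℝ) : cv g ρ = cv ρ g := by
  funext x
  rw [cv_eq, convolution_mul_swap]
  exact integral_congr_ae (ae_of_all _ fun t => mul_comm _ _)

theorem contDiff_cv {n : ℕ∞} (hg : LocallyIntegrable g) (hρ : ContDiff ℝ n ρ)
    (hc : HasCompactSupport ρ) : ContDiff ℝ n (cv g ρ) :=
  hc.contDiff_convolution_right (ContinuousLinearMap.mul ℝ ℝ) hg hρ

theorem continuous_cv (hg : LocallyIntegrable g) (hρ : Continuous ρ)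
    (hc : HasCompactSupport ρ) : Continuous (cv g ρ) :=
  hc.continuous_convolution_right (ContinuousLinearMap.mul ℝ ℝ) hg hρ

theorem hcs_cv (hg : HasCompactSupport g) (hc : HasCompactSupport ρ) :
    HasCompactSupport (cv g ρ) := by
  rw [cv_eq]
  exact HasCompactSupport.convolution _ hg hc

theorem pd_cv (hg : LocallyIntegrable g) (hρ : ContDiff ℝ 1 ρ) (hc : HasCompactSupport ρ)
    (i : ι) (x : ι → ℝ) : pd i (cv g ρ) x = cv g (pd i ρ) x := by
  have h := (hc.hasFDerivAt_convolution_right (ContinuousLinearMap.mul ℝ ℝ) hg hρ x).fderiv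
  unfold pd
  rw [cv_eq, h, convolution_precompR_apply _ hg (hc.fderiv ℝ)
    (hρ.continuous_fderiv one_ne_zero)]
  rfl

/-- product of a locally integrable function and a compactly supported continuous function -/
theorem int_lc (hg : LocallyIntegrable g) (hρ : Continuous ρ) (hc : HasCompactSupport ρ) :
    Integrable (fun x => g x * ρ x) := by
  have h := hg.integrable_smul_left_of_hasCompactSupport hρ hc
  refine h.congr (ae_of_all _ fun x => ?_)
  show ρ x • g x = g x * ρ x
  rw [smul_eq_mul, mul_comm]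

theorem int_lc' (hg : LocallyIntegrable g) (hρ : Continuous ρ) (hc : HasCompactSupport ρ)
    (x : ι → ℝ) : Integrable (fun t => g t * ρ (x - t)) :=
  int_lc hg (hρ.comp (continuous_const.sub continuous_id))
    (hc.comp_homeomorph (Homeomorph.subLeft x))

/-- **adjoint of the convolution** -/
theorem adj (hg : LocallyIntegrable g) (hθ : Continuous θ) (cθ : HasCompactSupport θ)
    (hκ : Continuous κ) (cκ : HasCompactSupport κ) :
    ∫ x, g x * cv θ κ x = ∫ t, θ t * cv g (fun s => κ (-s)) t := by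
  set K : Set (ι → ℝ) := tsupport κ + tsupport θ with hK
  have cK : IsCompact K := cκ.isCompact.add cθ.isCompact
  have iK : Integrable (K.indicator g) :=
    (integrable_indicator_iff cK.measurableSet).2 (hg.integrableOn_isCompact cK)
  obtain ⟨M, hM⟩ := hκ.bounded_above_of_compact_support cκ
  have hi0 : Integrable (fun p : (ι → ℝ) × (ι → ℝ) => K.indicator g p.1 * θ p.2)
      (volume.prod volume) := iK.mul_prod (hθ.integrable_of_hasCompactSupport cθ)
  have hi1 : Integrable (fun p : (ι → ℝ) × (ι → ℝ) => K.indicator g p.1 * θ p.2 *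
      κ (p.1 - p.2)) (volume.prod volume) := by
    refine hi0.mul_bdd (c := M) ?_ (ae_of_all _ fun p => hM _)
    exact (hκ.comp (continuous_fst.sub continuous_snd)).aestronglyMeasurable
  have hpt : ∀ x t, K.indicator g x * θ t * κ (x - t) = g x * (θ t * κ (x - t)) := by
    intro x t
    by_cases hx : x ∈ K
    · rw [indicator_of_mem hx]; ring
    · rw [indicator_of_notMem hx, zero_mul, zero_mul]
      by_cases h1 : θ t = 0
      · rw [h1]; ring
      · by_cases h2 : κ (x - t) = 0
        · rw [h2]; ring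
        · exfalso
          refine hx ?_
          have : x = (x - t) + t := by abel
          rw [this]
          exact Set.add_mem_add (subset_tsupport _ h2) (subset_tsupport _ h1)
  have hi2 : Integrable (Function.uncurry fun x t : ι → ℝ => g x * (θ t * κ (x - t)))
      (volume.prod volume) := by
    refine hi1.congr (ae_of_all _ fun p => ?_)
    exact hpt p.1 p.2
  have h := integral_integral_swap hi2
  have e1 : ∫ x, g x * cv θ κ x = ∫ x, ∫ t, g x * (θ t * κ (x - t)) := by
    refine integral_congr_ae (ae_of_all _ fun x => ?_)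
    show g x * cv θ κ x = ∫ t, g x * (θ t * κ (x - t))
    rw [integral_const_mul]; rfl
  have e2 : ∫ t, θ t * cv g (fun s => κ (-s)) t = ∫ t, ∫ x, g x * (θ t * κ (x - t)) := by
    refine integral_congr_ae (ae_of_all _ fun t => ?_)
    show θ t * cv g (fun s => κ (-s)) t = _
    unfold cv
    rw [← integral_const_mul]
    refine integral_congr_ae (ae_of_all _ fun x => ?_)
    show θ t * (g x * κ (-(t - x))) = g x * (θ t * κ (x - t))
    rw [neg_sub]; ring
  rw [e1, e2, h]

theorem int_sub_left (x : ι → ℝ) : ∫ t, ρ (x - t) = ∫ t, ρ t :=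
  integral_sub_left_eq_self (fun t => ρ t) volume x

/-- Jensen with varying integrand -/
theorem jensen {h : (ι → ℝ) → ℝ} (hg : LocallyIntegrable h)
    (hg2 : LocallyIntegrable fun t => h t ^ 2) (hρ : Continuous ρ) (hc : HasCompactSupport ρ)
    (h0 : ∀ x, 0 ≤ ρ x) (h1 : ∫ x, ρ x = 1) (x : ι → ℝ) :
    cv h ρ x ^ 2 ≤ cv (fun t => h t ^ 2) ρ x := by
  set m := cv h ρ x with hm
  have i1 := int_lc' hg hρ hc x
  have i2 := int_lc' hg2 hρ hc x
  have i3 : Integrable fun t => ρ (x - t) :=
    (hρ.comp (continuous_const.sub continuous_id)).integrable_of_hasCompactSupport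
      (hc.comp_homeomorph (Homeomorph.subLeft x))
  have h2 : 0 ≤ ∫ t, (h t - m) ^ 2 * ρ (x - t) :=
    integral_nonneg fun t => mul_nonneg (sq_nonneg _) (h0 _)
  have h3 : ∫ t, (h t - m) ^ 2 * ρ (x - t) =
      (∫ t, h t ^ 2 * ρ (x - t)) - 2 * m * (∫ t, h t * ρ (x - t)) + m ^ 2 * ∫ t, ρ (x - t) := by
    have i4 : Integrable (fun t => h t ^ 2 * ρ (x - t) - 2 * m * (h t * ρ (x - t))) volume :=
      i2.sub (i1.const_mul _)
    rw [← integral_const_mul, ← integral_const_mul, ← integral_sub i2 (i1.const_mul _),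
      ← integral_add i4 (i3.const_mul _)]
    refine integral_congr_ae (ae_of_all _ fun t => ?_)
    show (h t - m) ^ 2 * ρ (x - t) =
      h t ^ 2 * ρ (x - t) - 2 * m * (h t * ρ (x - t)) + m ^ 2 * ρ (x - t)
    ring
  have h4 : ∫ t, h t * ρ (x - t) = m := rfl
  have h5 : ∫ t, h t ^ 2 * ρ (x - t) = cv (fun t => h t ^ 2) ρ x := rfl
  rw [h3, h4, h5, int_sub_left, h1] at h2
  nlinarith [h2]

theorem cv_mono {h k : (ι → ℝ) → ℝ} (hρ : Continuous ρ) (hc : HasCompactSupport ρ)
    (hh : LocallyIntegrable h) (hk : LocallyIntegrable k) (x : ι → ℝ)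
    (hle : ∀ t, h t * ρ (x - t) ≤ k t * ρ (x - t)) : cv h ρ x ≤ cv k ρ x :=
  integral_mono (int_lc' hh hρ hc x) (int_lc' hk hρ hc x) hle

/-- **the weak equation of the mollified function** -/
theorem weak_eq (hH : ContDiff ℝ 1 H) (hg : LocallyIntegrable g)
    (hF : ∀ φ : (ι → ℝ) → ℝ, ContDiff ℝ ∞ φ → HasCompactSupport φ →
      ∫ x, g x * Lp H φ x = 0)
    (hρ : ContDiff ℝ ∞ ρ) (hc : HasCompactSupport ρ) (hev : ∀ x, ρ (-x) = ρ x)
    (hψ : ContDiff ℝ 1 ψ) (cψ : HasCompactSupport ψ) :
    ∑ i, ∫ x, (pd i (cv g ρ) x + cv (fun t => g t * pd i H t) ρ x) * pd i ψ x = 0 := by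
  have hρ1 : ContDiff ℝ 1 ρ := hρ.of_le (by exact_mod_cast le_top)
  have hgb : ∀ i, LocallyIntegrable fun t => g t * pd i H t := fun i =>
    hg.mul_continuous (continuous_pd hH i)
  have hψl : LocallyIntegrable ψ := hψ.continuous.locallyIntegrable
  have hρl : LocallyIntegrable ρ := hρ.continuous.locallyIntegrable
  have hpl : ∀ i, LocallyIntegrable (pd i ψ) := fun i =>
    (continuous_pd hψ i).locallyIntegrable
  -- derivatives of `φ = ψ ⋆ ρ`
  have d1 : ∀ i, pd i (cv ψ ρ) = cv (pd i ψ) ρ := by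
    intro i
    rw [cv_comm ψ ρ]
    funext x
    rw [pd_cv hρl hψ cψ i x, cv_comm]
  have d2 : ∀ i x, pd i (pd i (cv ψ ρ)) x = cv (pd i ψ) (pd i ρ) x := by
    intro i x
    rw [d1, pd_cv (hpl i) hρ1 hc]
  have h := hF (cv ψ ρ) (contDiff_cv hψl hρ hc) (hcs_cv cψ hc)
  have pev : ∀ i x, pd i ρ (-x) = - pd i ρ x := by
    intro i x
    have h1 : (fun y => ρ (-y)) = ρ := funext hev
    have h2 : pd i (fun y => ρ (-y)) x = - pd i ρ (-x) := by
      unfold pd
      have h3 : HasFDerivAt (fun y : ι → ℝ => ρ (-y))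
          ((fderiv ℝ ρ (-x)).comp (-(ContinuousLinearMap.id ℝ (ι → ℝ)))) x :=
        ((hρ1.differentiable (by norm_num) (-x)).hasFDerivAt).comp x (hasFDerivAt_id x).neg
      rw [h3.fderiv]
      simp
    rw [h1] at h2
    linarith
  have e : ∫ x, g x * Lp H (cv ψ ρ) x = ∑ i, ((∫ x, g x * cv (pd i ψ) (pd i ρ) x) -
      ∫ x, (g x * pd i H x) * cv (pd i ψ) ρ x) := by
    have i1 : ∀ i, Integrable fun x => g x * cv (pd i ψ) (pd i ρ) x := fun i =>
      int_lc hg (continuous_cv (hpl i) (continuous_pd hρ1 i) (hcs_pd hc i))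
        (hcs_cv (hcs_pd cψ i) (hcs_pd hc i))
    have i2 : ∀ i, Integrable fun x => (g x * pd i H x) * cv (pd i ψ) ρ x := fun i =>
      int_lc (hgb i) (continuous_cv (hpl i) hρ.continuous hc)
        (hcs_cv (hcs_pd cψ i) hc)
    have e1 : ∀ i, (∫ x, g x * cv (pd i ψ) (pd i ρ) x) -
      ∫ x, (g x * pd i H x) * cv (pd i ψ) ρ x =
      ∫ x, (g x * cv (pd i ψ) (pd i ρ) x - (g x * pd i H x) * cv (pd i ψ) ρ x) := fun i =>
      (integral_sub (i1 i) (i2 i)).symm
    have i3 : ∀ i, Integrable (fun x => g x * cv (pd i ψ) (pd i ρ) x -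
      (g x * pd i H x) * cv (pd i ψ) ρ x) volume := fun i => (i1 i).sub (i2 i)
    simp_rw [e1]
    rw [← integral_finsetSum _ fun i _ => i3 i]
    refine integral_congr_ae (ae_of_all _ fun x => ?_)
    show g x * Lp H (cv ψ ρ) x = _
    unfold Lp
    rw [Finset.mul_sum]
    refine Finset.sum_congr rfl fun i _ => ?_
    rw [d2, d1]; ring
  rw [e] at h
  have key : ∀ i, (∫ x, g x * cv (pd i ψ) (pd i ρ) x) -
      ∫ x, (g x * pd i H x) * cv (pd i ψ) ρ x =
      - ∫ x, (pd i (cv g ρ) x + cv (fun t => g t * pd i H t) ρ x) * pd i ψ x := by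
    intro i
    rw [adj hg (continuous_pd hψ i) (hcs_pd cψ i) (continuous_pd hρ1 i) (hcs_pd hc i),
      adj (hgb i) (continuous_pd hψ i) (hcs_pd cψ i) hρ.continuous hc]
    have e1 : (fun s => ρ (-s)) = ρ := funext hev
    have e2 : cv g (fun s => pd i ρ (-s)) = fun x => - pd i (cv g ρ) x := by
      funext x
      have : (fun s => pd i ρ (-s)) = fun s => - pd i ρ s := funext (pev i)
      rw [this, pd_cv hg hρ1 hc]
      unfold cv
      rw [← integral_neg]
      exact integral_congr_ae (ae_of_all _ fun t => by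
        show g t * -pd i ρ (x - t) = -(g t * pd i ρ (x - t))
        ring)
    rw [e1, e2]
    have c1 : Continuous (pd i (cv g ρ)) :=
      continuous_pd (contDiff_cv (n := 1) hg hρ1 hc) i
    have i1 : Integrable fun x => pd i ψ x * - pd i (cv g ρ) x :=
      int_cc (continuous_pd hψ i) c1.neg (hcs_pd cψ i)
    have i2 : Integrable fun x => pd i ψ x * cv (fun t => g t * pd i H t) ρ x :=
      int_cc (continuous_pd hψ i) (continuous_cv (hgb i) hρ.continuous hc) (hcs_pd cψ i)
    rw [← integral_sub i1 i2, ← integral_neg]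
    refine integral_congr_ae (ae_of_all _ fun x => ?_)
    show pd i ψ x * - pd i (cv g ρ) x - pd i ψ x * cv (fun t => g t * pd i H t) ρ x =
      -((pd i (cv g ρ) x + cv (fun t => g t * pd i H t) ρ x) * pd i ψ x)
    ring
  simp_rw [key] at h
  rw [Finset.sum_neg_distrib] at h
  linarith

end

end Crest.Agent.R144.Hs865
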