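import Crest.Agent.R144.Hs2_865

/-!
# R144, static functional inequalities (helper865), file 6: the Caccioppoli estimate
-/

set_option autoImplicit false
set_option linter.unusedSectionVars false

open MeasureTheory Set Filter Topology
open scoped ENNReal NNReal ContDiff Convolution

namespace Crest.Agent.R144.Hs865

noncomputable section

variable {ι : Type*} [Fintype ι] [DecidableEq ι]

variable {g ρ θ κ ψ χ H : (ι → ℝ) → ℝ}

theorem int_sq_eq (hg2 : LocallyIntegrable fun t => g t ^ 2)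
    (hρ : Continuous ρ) (hc : HasCompactSupport ρ) (hev : ∀ x, ρ (-x) = ρ x)
    (hκ : Continuous κ) (cκ : HasCompactSupport κ) :
    ∫ x, κ x * cv (fun t => g t ^ 2) ρ x = ∫ x, g x ^ 2 * cv κ ρ x := by
  rw [adj (g := fun t => g t ^ 2) hg2 hκ cκ hρ hc]
  have : (fun s => ρ (-s)) = ρ := funext hev
  rw [this]

theorem cacc_pt {w e D r a c F : ℝ} (hwe : w * e = 1) (hw : 0 ≤ w) (he : 0 ≤ e) :
    1 / 2 * (w * a ^ 2 * D ^ 2) - 5 * (w * c ^ 2 * F ^ 2) - 2 * (a ^ 2 * r ^ 2 * e) ≤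
      (w * D + r) * (a ^ 2 * D + 2 * a * c * F) := by
  have h1 : (w * D + r) * (a ^ 2 * D + 2 * a * c * F) -
      (1 / 2 * (w * a ^ 2 * D ^ 2) - 5 * (w * c ^ 2 * F ^ 2) - 2 * (a ^ 2 * r ^ 2 * e)) =
      w * (1 / 2 * a * D + 2 * c * F) ^ 2 + e * (1 / 2 * w * a * D + a * r) ^ 2 +
        e * (w * c * F + a * r) ^ 2 := by
    linear_combination (-(1 / 4 * w * a ^ 2 * D ^ 2) - a ^ 2 * D * r - w * c ^ 2 * F ^ 2 -
      2 * c * F * a * r) * hwe
  have h2 : 0 ≤ w * (1 / 2 * a * D + 2 * c * F) ^ 2 := mul_nonneg hw (sq_nonneg _)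
  have h3 : 0 ≤ e * (1 / 2 * w * a * D + a * r) ^ 2 := mul_nonneg he (sq_nonneg _)
  have h4 : 0 ≤ e * (w * c * F + a * r) ^ 2 := mul_nonneg he (sq_nonneg _)
  linarith

theorem r_sq (hH : ContDiff ℝ 1 H) (hg : LocallyIntegrable g)
    (hg2 : LocallyIntegrable fun t => g t ^ 2) {C : ℝ} (i : ι)
    (hL : ∀ x y, |pd i H x - pd i H y| ≤ C * ‖x - y‖)
    (hρ : Continuous ρ) (hc : HasCompactSupport ρ) (h0 : ∀ x, 0 ≤ ρ x) (h1 : ∫ x, ρ x = 1)
    {r : ℝ} (hr : ∀ x, ρ x ≠ 0 → ‖x‖ ≤ r) (hC : 0 ≤ C) (x : ι → ℝ) :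
    (cv (fun t => g t * pd i H t) ρ x - pd i H x * cv g ρ x) ^ 2 ≤
      (C * r) ^ 2 * cv (fun t => g t ^ 2) ρ x := by
  have hgb : LocallyIntegrable fun t => g t * pd i H t := hg.mul_continuous (continuous_pd hH i)
  have cb : Continuous fun t => pd i H t - pd i H x := (continuous_pd hH i).sub continuous_const
  have hgd : LocallyIntegrable fun t => g t * (pd i H t - pd i H x) := hg.mul_continuous cb
  have hgd2 : LocallyIntegrable fun t => (g t * (pd i H t - pd i H x)) ^ 2 := by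
    have : (fun t => (g t * (pd i H t - pd i H x)) ^ 2) =
        fun t => g t ^ 2 * (pd i H t - pd i H x) ^ 2 := by
      funext t; ring
    rw [this]
    exact hg2.mul_continuous (cb.pow 2)
  have e1 : cv (fun t => g t * pd i H t) ρ x - pd i H x * cv g ρ x =
      cv (fun t => g t * (pd i H t - pd i H x)) ρ x := by
    unfold cv
    rw [← integral_const_mul, ← integral_sub (int_lc' hgb hρ hc x)
      ((int_lc' hg hρ hc x).const_mul _)]
    refine integral_congr_ae (ae_of_all _ fun t => ?_)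
    show g t * pd i H t * ρ (x - t) - pd i H x * (g t * ρ (x - t)) =
      g t * (pd i H t - pd i H x) * ρ (x - t)
    ring
  rw [e1]
  refine (jensen hgd hgd2 hρ hc h0 h1 x).trans ?_
  have e2 : (C * r) ^ 2 * cv (fun t => g t ^ 2) ρ x =
      cv (fun t => g t ^ 2 * (C * r) ^ 2) ρ x := by
    unfold cv
    rw [← integral_const_mul]
    refine integral_congr_ae (ae_of_all _ fun t => ?_)
    show (C * r) ^ 2 * (g t ^ 2 * ρ (x - t)) = g t ^ 2 * (C * r) ^ 2 * ρ (x - t)
    ring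
  rw [e2]
  refine cv_mono hρ hc hgd2 (hg2.mul_continuous continuous_const) x fun t => ?_
  by_cases ht : ρ (x - t) = 0
  · rw [ht, mul_zero, mul_zero]
  · refine mul_le_mul_of_nonneg_right ?_ (h0 _)
    rw [mul_pow]
    refine mul_le_mul_of_nonneg_left ?_ (sq_nonneg _)
    have h2 : |pd i H t - pd i H x| ≤ C * r := by
      refine (hL t x).trans (mul_le_mul_of_nonneg_left ?_ hC)
      rw [norm_sub_rev]
      exact hr _ ht
    rw [← sq_abs]
    exact pow_le_pow_left₀ (abs_nonneg _) h2 2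

/-- **Caccioppoli** for the mollified weak solution -/
theorem cacc (hH : ContDiff ℝ 1 H) (hg : LocallyIntegrable g)
    (hg2 : LocallyIntegrable fun t => g t ^ 2) {C : ℝ} (hC : 0 ≤ C)
    (hL : ∀ i x y, |pd i H x - pd i H y| ≤ C * ‖x - y‖)
    (hF : ∀ φ : (ι → ℝ) → ℝ, ContDiff ℝ ∞ φ → HasCompactSupport φ →
      ∫ x, g x * Lp H φ x = 0)
    (hρ : ContDiff ℝ ∞ ρ) (hc : HasCompactSupport ρ) (hev : ∀ x, ρ (-x) = ρ x)
    (h0 : ∀ x, 0 ≤ ρ x) (h1 : ∫ x, ρ x = 1)
    {r : ℝ} (hr : ∀ x, ρ x ≠ 0 → ‖x‖ ≤ r)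
    (hχ : ContDiff ℝ 1 χ) (cχ : HasCompactSupport χ) :
    ∑ i, ∫ x, Real.exp (-H x) * χ x ^ 2 * pd i (fun y => cv g ρ y * Real.exp (H y)) x ^ 2 ≤
      10 * (∑ i, ∫ x, g x ^ 2 * cv (fun y => Real.exp (H y) * pd i χ y ^ 2) ρ x) +
      4 * Fintype.card ι * (C * r) ^ 2 *
        (∫ x, g x ^ 2 * cv (fun y => Real.exp (H y) * χ y ^ 2) ρ x) := by
  have hρc : Continuous ρ := hρ.continuous
  have hρ1 : ContDiff ℝ 1 ρ := hρ.of_le (by exact_mod_cast le_top)
  have hG : ContDiff ℝ 1 (cv g ρ) := contDiff_cv (n := 1) hg hρ1 hc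
  have hEp : ContDiff ℝ 1 fun x => Real.exp (H x) := Real.contDiff_exp.comp hH
  have hEn : ContDiff ℝ 1 fun x => Real.exp (-H x) := contDiff_expneg hH
  set F : (ι → ℝ) → ℝ := fun y => cv g ρ y * Real.exp (H y) with hFdef
  have hFc : ContDiff ℝ 1 F := hG.mul hEp
  have hgb : ∀ i, LocallyIntegrable fun t => g t * pd i H t := fun i =>
    hg.mul_continuous (continuous_pd hH i)
  set R : ι → (ι → ℝ) → ℝ := fun i x =>
    cv (fun t => g t * pd i H t) ρ x - pd i H x * cv g ρ x with hR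
  have cR : ∀ i, Continuous (R i) := fun i =>
    (continuous_cv (hgb i) hρc hc).sub ((continuous_pd hH i).mul hG.continuous)
  have dH : ∀ x, DifferentiableAt ℝ H x := fun x => hH.differentiable (by norm_num) x
  have dG : ∀ x, DifferentiableAt ℝ (cv g ρ) x := fun x => hG.differentiable (by norm_num) x
  have dEp : ∀ x, DifferentiableAt ℝ (fun x => Real.exp (H x)) x :=
    fun x => hEp.differentiable (by norm_num) x
  have dχ : ∀ x, DifferentiableAt ℝ χ x := fun x => hχ.differentiable (by norm_num) x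
  have dF : ∀ x, DifferentiableAt ℝ F x := fun x => hFc.differentiable (by norm_num) x
  have hwe : ∀ x, Real.exp (-H x) * Real.exp (H x) = 1 := fun x => by
    rw [← Real.exp_add]; simp
  -- derivative of `F`
  have e1 : ∀ i x, pd i (cv g ρ) x + cv (fun t => g t * pd i H t) ρ x =
      Real.exp (-H x) * pd i F x + R i x := by
    intro i x
    have h2 : pd i F x = cv g ρ x * (Real.exp (H x) * pd i H x) +
        pd i (cv g ρ) x * Real.exp (H x) := by
      rw [hFdef, pd_mul (dG x) (dEp x), pd_exp (dH x)]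
    rw [h2, hR]
    show _ = Real.exp (-H x) * (cv g ρ x * (Real.exp (H x) * pd i H x) +
      pd i (cv g ρ) x * Real.exp (H x)) +
      (cv (fun t => g t * pd i H t) ρ x - pd i H x * cv g ρ x)
    linear_combination (-(cv g ρ x * pd i H x) - pd i (cv g ρ) x) * hwe x
  -- test function
  set ψ : (ι → ℝ) → ℝ := fun x => χ x * χ x * F x with hψdef
  have hψ : ContDiff ℝ 1 ψ := (hχ.mul hχ).mul hFc
  have cψ : HasCompactSupport ψ := cχ.mul_right.mul_right
  have e2 : ∀ i x, pd i ψ x = χ x ^ 2 * pd i F x + 2 * χ x * pd i χ x * F x := by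
    intro i x
    rw [hψdef, pd_mul (f := fun y => χ y * χ y) (g := F) ((dχ x).fun_mul (dχ x)) (dF x),
      pd_mul (dχ x) (dχ x)]
    ring
  have hw := weak_eq hH hg hF hρ hc hev hψ cψ
  -- integrability
  have I1 : ∀ i, Integrable (fun x => Real.exp (-H x) * χ x ^ 2 * pd i F x ^ 2) volume := by
    intro i
    have c1 : Continuous fun x => Real.exp (-H x) * χ x ^ 2 * pd i F x ^ 2 :=
      (hEn.continuous.mul (hχ.continuous.pow 2)).mul ((continuous_pd hFc i).pow 2)
    refine c1.integrable_of_hasCompactSupport ?_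
    have h2 : HasCompactSupport fun x => χ x * (Real.exp (-H x) * χ x * pd i F x ^ 2) :=
      cχ.mul_right
    have h3 : (fun x => Real.exp (-H x) * χ x ^ 2 * pd i F x ^ 2) =
        fun x => χ x * (Real.exp (-H x) * χ x * pd i F x ^ 2) := by funext x; ring
    rw [h3]; exact h2
  have I2 : ∀ i, Integrable (fun x => Real.exp (-H x) * pd i χ x ^ 2 * F x ^ 2) volume := by
    intro i
    have c1 : Continuous fun x => Real.exp (-H x) * pd i χ x ^ 2 * F x ^ 2 :=
      (hEn.continuous.mul ((continuous_pd hχ i).pow 2)).mul (hFc.continuous.pow 2)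
    refine c1.integrable_of_hasCompactSupport ?_
    have h2 : HasCompactSupport fun x => pd i χ x * (Real.exp (-H x) * pd i χ x * F x ^ 2) :=
      (hcs_pd cχ i).mul_right
    have h3 : (fun x => Real.exp (-H x) * pd i χ x ^ 2 * F x ^ 2) =
        fun x => pd i χ x * (Real.exp (-H x) * pd i χ x * F x ^ 2) := by funext x; ring
    rw [h3]; exact h2
  have I3 : ∀ i, Integrable (fun x => χ x ^ 2 * R i x ^ 2 * Real.exp (H x)) volume := by
    intro i
    have c1 : Continuous fun x => χ x ^ 2 * R i x ^ 2 * Real.exp (H x) :=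
      ((hχ.continuous.pow 2).mul ((cR i).pow 2)).mul hEp.continuous
    refine c1.integrable_of_hasCompactSupport ?_
    have h2 : HasCompactSupport fun x => χ x * (χ x * R i x ^ 2 * Real.exp (H x)) :=
      cχ.mul_right
    have h3 : (fun x => χ x ^ 2 * R i x ^ 2 * Real.exp (H x)) =
        fun x => χ x * (χ x * R i x ^ 2 * Real.exp (H x)) := by funext x; ring
    rw [h3]; exact h2
  have I4 : ∀ i, Integrable (fun x => (pd i (cv g ρ) x +
      cv (fun t => g t * pd i H t) ρ x) * pd i ψ x) volume := by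
    intro i
    exact (((continuous_pd hG i).add (continuous_cv (hgb i) hρc hc)).mul
      (continuous_pd hψ i)).integrable_of_hasCompactSupport (hcs_pd cψ i).mul_left
  -- lower bound
  have low : ∀ i, 1 / 2 * (∫ x, Real.exp (-H x) * χ x ^ 2 * pd i F x ^ 2) -
      5 * (∫ x, Real.exp (-H x) * pd i χ x ^ 2 * F x ^ 2) -
      2 * (∫ x, χ x ^ 2 * R i x ^ 2 * Real.exp (H x)) ≤
      ∫ x, (pd i (cv g ρ) x + cv (fun t => g t * pd i H t) ρ x) * pd i ψ x := by
    intro i
    have I5 : Integrable (fun x => 1 / 2 * (Real.exp (-H x) * χ x ^ 2 * pd i F x ^ 2) -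
        5 * (Real.exp (-H x) * pd i χ x ^ 2 * F x ^ 2)) volume :=
      ((I1 i).const_mul _).sub ((I2 i).const_mul _)
    rw [← integral_const_mul, ← integral_const_mul, ← integral_const_mul,
      ← integral_sub ((I1 i).const_mul _) ((I2 i).const_mul _),
      ← integral_sub I5 ((I3 i).const_mul _)]
    refine integral_mono (I5.sub ((I3 i).const_mul _)) (I4 i) fun x => ?_
    show 1 / 2 * (Real.exp (-H x) * χ x ^ 2 * pd i F x ^ 2) -
        5 * (Real.exp (-H x) * pd i χ x ^ 2 * F x ^ 2) -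
        2 * (χ x ^ 2 * R i x ^ 2 * Real.exp (H x)) ≤
      (pd i (cv g ρ) x + cv (fun t => g t * pd i H t) ρ x) * pd i ψ x
    rw [e1, e2]
    exact cacc_pt (hwe x) (Real.exp_pos _).le (Real.exp_pos _).le
  have hsum : ∑ i, (1 / 2 * (∫ x, Real.exp (-H x) * χ x ^ 2 * pd i F x ^ 2) -
      5 * (∫ x, Real.exp (-H x) * pd i χ x ^ 2 * F x ^ 2) -
      2 * (∫ x, χ x ^ 2 * R i x ^ 2 * Real.exp (H x))) ≤ 0 := by
    rw [← hw]
    exact Finset.sum_le_sum fun i _ => low i
  rw [Finset.sum_sub_distrib, Finset.sum_sub_distrib, ← Finset.mul_sum, ← Finset.mul_sum,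
    ← Finset.mul_sum] at hsum
  -- the two error terms
  have b1 : ∀ i, ∫ x, Real.exp (-H x) * pd i χ x ^ 2 * F x ^ 2 ≤
      ∫ x, g x ^ 2 * cv (fun y => Real.exp (H y) * pd i χ y ^ 2) ρ x := by
    intro i
    have cκ : Continuous fun y => Real.exp (H y) * pd i χ y ^ 2 :=
      hEp.continuous.mul ((continuous_pd hχ i).pow 2)
    have sκ : HasCompactSupport fun y => Real.exp (H y) * pd i χ y ^ 2 := by
      have h2 : HasCompactSupport fun x => pd i χ x * (Real.exp (H x) * pd i χ x) :=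
        (hcs_pd cχ i).mul_right
      have h3 : (fun x => Real.exp (H x) * pd i χ x ^ 2) =
          fun x => pd i χ x * (Real.exp (H x) * pd i χ x) := by funext x; ring
      rw [h3]; exact h2
    rw [← int_sq_eq hg2 hρc hc hev cκ sκ]
    refine integral_mono (I2 i) (int_cc cκ (continuous_cv hg2 hρc hc) sκ) fun x => ?_
    show Real.exp (-H x) * pd i χ x ^ 2 * F x ^ 2 ≤
      Real.exp (H x) * pd i χ x ^ 2 * cv (fun t => g t ^ 2) ρ x
    have h2 : Real.exp (-H x) * pd i χ x ^ 2 * F x ^ 2 =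
        Real.exp (H x) * pd i χ x ^ 2 * cv g ρ x ^ 2 := by
      show Real.exp (-H x) * pd i χ x ^ 2 * (cv g ρ x * Real.exp (H x)) ^ 2 = _
      linear_combination (Real.exp (H x) * pd i χ x ^ 2 * cv g ρ x ^ 2) * hwe x
    rw [h2]
    exact mul_le_mul_of_nonneg_left (jensen hg hg2 hρc hc h0 h1 x)
      (mul_nonneg (Real.exp_pos _).le (sq_nonneg _))
  have b2 : ∀ i, ∫ x, χ x ^ 2 * R i x ^ 2 * Real.exp (H x) ≤
      (C * r) ^ 2 * ∫ x, g x ^ 2 * cv (fun y => Real.exp (H y) * χ y ^ 2) ρ x := by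
    intro i
    have cκ : Continuous fun y => Real.exp (H y) * χ y ^ 2 :=
      hEp.continuous.mul (hχ.continuous.pow 2)
    have sκ : HasCompactSupport fun y => Real.exp (H y) * χ y ^ 2 := by
      have h2 : HasCompactSupport fun x => χ x * (Real.exp (H x) * χ x) := cχ.mul_right
      have h3 : (fun x => Real.exp (H x) * χ x ^ 2) =
          fun x => χ x * (Real.exp (H x) * χ x) := by funext x; ring
      rw [h3]; exact h2
    rw [← int_sq_eq hg2 hρc hc hev cκ sκ, ← integral_const_mul]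
    refine integral_mono (I3 i) ((int_cc cκ (continuous_cv hg2 hρc hc) sκ).const_mul _)
      fun x => ?_
    show χ x ^ 2 * R i x ^ 2 * Real.exp (H x) ≤
      (C * r) ^ 2 * (Real.exp (H x) * χ x ^ 2 * cv (fun t => g t ^ 2) ρ x)
    have h2 := r_sq hH hg hg2 i (hL i) hρc hc h0 h1 hr hC x
    have h3 : 0 ≤ Real.exp (H x) * χ x ^ 2 := mul_nonneg (Real.exp_pos _).le (sq_nonneg _)
    have h4 := mul_le_mul_of_nonneg_left h2 h3
    calc χ x ^ 2 * R i x ^ 2 * Real.exp (H x) =
        Real.exp (H x) * χ x ^ 2 * (cv (fun t => g t * pd i H t) ρ x -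
          pd i H x * cv g ρ x) ^ 2 := by rw [hR]; ring
      _ ≤ _ := h4
      _ = _ := by ring
  have s1 := Finset.sum_le_sum fun i (_ : i ∈ Finset.univ) => b1 i
  have s2 : ∑ i, ∫ x, χ x ^ 2 * R i x ^ 2 * Real.exp (H x) ≤
      Fintype.card ι * ((C * r) ^ 2 *
        ∫ x, g x ^ 2 * cv (fun y => Real.exp (H y) * χ y ^ 2) ρ x) := by
    have := Finset.sum_le_sum fun i (_ : i ∈ Finset.univ) => b2 i
    rwa [Finset.sum_const, Finset.card_univ, nsmul_eq_mul] at this
  linarith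

end

end Crest.Agent.R144.Hs865
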