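import Crest.Agent.R144.Hs3_865
import Crest.Agent.R144.Fi3_865

/-!
# R144, static functional inequalities (helper865), file 7: Liouville theorem in `L²(e^{-H})`
-/

set_option autoImplicit false
set_option linter.unusedSectionVars false

open MeasureTheory Set Filter Topology
open scoped ENNReal NNReal ContDiff Convolution Pointwise

namespace Crest.Agent.R144.Hs865

noncomputable section

variable {ι : Type*} [Fintype ι] [DecidableEq ι]

variable {g ρ θ κ ψ χ H : (ι → ℝ) → ℝ}

/-- standard bumps -/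
def bmp (ι : Type*) [Fintype ι] (n : ℕ) : ContDiffBump (0 : ι → ℝ) where
  rIn := 1 / (2 * (n + 1))
  rOut := 1 / (n + 1)
  rIn_pos := by positivity
  rIn_lt_rOut := by
    have h : (0 : ℝ) < n + 1 := by positivity
    exact one_div_lt_one_div_of_lt h (by linarith)

/-- standard mollifiers -/
def rho (n : ℕ) : (ι → ℝ) → ℝ := (bmp ι n).normed volume

theorem contDiff_rho (n : ℕ) : ContDiff ℝ ∞ (rho (ι := ι) n) := (bmp ι n).contDiff_normed

theorem continuous_rho (n : ℕ) : Continuous (rho (ι := ι) n) := (contDiff_rho n).continuous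

theorem hcs_rho (n : ℕ) : HasCompactSupport (rho (ι := ι) n) := (bmp ι n).hasCompactSupport_normed

theorem rho_nonneg (n : ℕ) (x : ι → ℝ) : 0 ≤ rho n x := (bmp ι n).nonneg_normed x

theorem rho_int (n : ℕ) : ∫ x, rho (ι := ι) n x = 1 := (bmp ι n).integral_normed

theorem rho_even (n : ℕ) (x : ι → ℝ) : rho n (-x) = rho n x := (bmp ι n).normed_neg x

theorem rho_supp (n : ℕ) (x : ι → ℝ) (h : rho n x ≠ 0) : ‖x‖ ≤ 1 / (n + 1) := by
  have h1 : x ∈ Function.support ((bmp ι n).normed volume) := h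
  rw [(bmp ι n).support_normed_eq, mem_ball_zero_iff] at h1
  exact h1.le

theorem tendsto_rOut : Tendsto (fun n => (bmp ι n).rOut) atTop (𝓝 0) :=
  tendsto_one_div_add_atTop_nhds_zero_nat

theorem cv_rho_eq (g : (ι → ℝ) → ℝ) (n : ℕ) :
    cv g (rho n) = ((bmp ι n).normed volume ⋆[ContinuousLinearMap.lsmul ℝ ℝ, volume] g) := by
  rw [cv_comm]
  rfl

theorem cv_rho_tendsto (hκ : Continuous κ) (x : ι → ℝ) :
    Tendsto (fun n => cv κ (rho n) x) atTop (𝓝 (κ x)) := by
  simp_rw [cv_rho_eq]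
  exact ContDiffBump.convolution_tendsto_right_of_continuous tendsto_rOut hκ x

theorem cv_rho_ae (hg : LocallyIntegrable g) :
    ∀ᵐ x, Tendsto (fun n => cv g (rho n) x) atTop (𝓝 (g x)) := by
  simp_rw [cv_rho_eq]
  refine ContDiffBump.ae_convolution_tendsto_right_of_locallyIntegrable (K := 2) tendsto_rOut
    (Eventually.of_forall fun n => ?_) hg
  show (1 : ℝ) / (n + 1) ≤ 2 * (1 / (2 * (n + 1)))
  have h : (0 : ℝ) < n + 1 := by positivity
  rw [le_iff_eq_or_lt]
  left
  field_simp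

theorem cv_rho_bdd {M : ℝ} (hM : ∀ x, |κ x| ≤ M) (n : ℕ) (x : ι → ℝ) :
    |cv κ (rho n) x| ≤ M := by
  have i1 : Integrable fun t => rho n (x - t) :=
    ((continuous_rho n).comp (continuous_const.sub continuous_id)
      ).integrable_of_hasCompactSupport ((hcs_rho n).comp_homeomorph (Homeomorph.subLeft x))
  have h1 : |cv κ (rho n) x| ≤ ∫ t, |κ t * rho n (x - t)| := by
    unfold cv
    exact abs_integral_le_integral_abs
  have h2 : ∫ t, |κ t * rho n (x - t)| ≤ ∫ t, M * rho n (x - t) := by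
    refine integral_mono_of_nonneg (ae_of_all _ fun t => abs_nonneg _) (i1.const_mul _)
      (ae_of_all _ fun t => ?_)
    show |κ t * rho n (x - t)| ≤ M * rho n (x - t)
    rw [abs_mul, abs_of_nonneg (rho_nonneg n _)]
    exact mul_le_mul_of_nonneg_right (hM t) (rho_nonneg n _)
  have h3 : ∫ t, M * rho n (x - t) = M := by
    rw [integral_const_mul, int_sub_left, rho_int, mul_one]
  linarith

theorem cv_rho_zero {x : ι → ℝ} {n : ℕ}
    (hx : x ∉ tsupport κ + Metric.closedBall (0 : ι → ℝ) 1) : cv κ (rho n) x = 0 := by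
  have h0 : ∀ t, κ t * rho n (x - t) = 0 := by
    intro t
    by_cases h1 : κ t = 0
    · rw [h1, zero_mul]
    · by_cases h2 : rho n (x - t) = 0
      · rw [h2, mul_zero]
      · exfalso
        refine hx ?_
        have h3 : x = t + (x - t) := by abel
        rw [h3]
        refine Set.add_mem_add (subset_tsupport _ h1) ?_
        rw [mem_closedBall_zero_iff]
        refine (rho_supp n _ h2).trans ?_
        rw [div_le_one (by positivity)]
        have : (0 : ℝ) ≤ n := Nat.cast_nonneg n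
        linarith
  unfold cv
  simp_rw [h0]
  simp

theorem tendsto_kernel (hg2 : LocallyIntegrable fun t => g t ^ 2) (hκ : Continuous κ)
    (cκ : HasCompactSupport κ) :
    Tendsto (fun n => ∫ x, g x ^ 2 * cv κ (rho n) x) atTop (𝓝 (∫ x, g x ^ 2 * κ x)) := by
  obtain ⟨M, hM⟩ := hκ.bounded_above_of_compact_support cκ
  set K : Set (ι → ℝ) := tsupport κ + Metric.closedBall (0 : ι → ℝ) 1 with hK
  have cK : IsCompact K := cκ.isCompact.add (isCompact_closedBall _ _)
  have iK : Integrable (K.indicator fun t => g t ^ 2) :=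
    (integrable_indicator_iff cK.measurableSet).2 (hg2.integrableOn_isCompact cK)
  refine tendsto_integral_of_dominated_convergence
    (fun x => M * K.indicator (fun t => g t ^ 2) x) ?_ (iK.const_mul M) ?_ ?_
  · intro n
    exact (int_lc hg2 (continuous_cv hκ.locallyIntegrable (continuous_rho n) (hcs_rho n))
      (hcs_cv cκ (hcs_rho n))).aestronglyMeasurable
  · intro n
    refine ae_of_all _ fun x => ?_
    by_cases hx : x ∈ K
    · rw [indicator_of_mem hx, Real.norm_eq_abs, abs_mul, abs_of_nonneg (sq_nonneg (g x)),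
        mul_comm]
      exact mul_le_mul_of_nonneg_right (cv_rho_bdd (fun x => hM x) n x) (sq_nonneg _)
    · rw [indicator_of_notMem hx, cv_rho_zero hx, mul_zero, mul_zero, norm_zero]
  · refine ae_of_all _ fun x => ?_
    exact (cv_rho_tendsto hκ x).const_mul _

/-- the cutoff -/
def cut (ι : Type*) [Fintype ι] : ContDiffBump (0 : ι → ℝ) where
  rIn := 1
  rOut := 2
  rIn_pos := by norm_num
  rIn_lt_rOut := by norm_num

/-- the cutoff at scale `R` -/
def cutR (R : ℝ) (x : ι → ℝ) : ℝ := cut ι (R⁻¹ • x)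

theorem contDiff_cutR (R : ℝ) : ContDiff ℝ ∞ (cutR (ι := ι) R) :=
  (cut ι).contDiff.comp (contDiff_const_smul _)

theorem hcs_cutR {R : ℝ} (hR : 0 < R) : HasCompactSupport (cutR (ι := ι) R) := by
  have h : HasCompactSupport (cut ι : (ι → ℝ) → ℝ) := (cut ι).hasCompactSupport
  exact h.comp_smul (inv_ne_zero hR.ne')

theorem cutR_one {R : ℝ} (hR : 0 < R) {x : ι → ℝ} (hx : ‖x‖ ≤ R) : cutR R x = 1 := by
  unfold cutR
  refine (cut ι).one_of_mem_closedBall ?_
  rw [mem_closedBall_zero_iff, norm_smul, norm_inv, Real.norm_eq_abs, abs_of_pos hR]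
  show R⁻¹ * ‖x‖ ≤ 1
  rw [inv_mul_le_iff₀ hR, mul_one]
  exact hx

theorem pd_cutR (R : ℝ) (i : ι) (x : ι → ℝ) :
    pd i (cutR R) x = R⁻¹ * pd i (cut ι) (R⁻¹ • x) := by
  have h1 : HasFDerivAt (cut ι : (ι → ℝ) → ℝ) (fderiv ℝ (cut ι) (R⁻¹ • x)) (R⁻¹ • x) :=
    ((cut ι).contDiff (n := 1)).differentiable (by norm_num) _ |>.hasFDerivAt
  have h2 : HasFDerivAt (fun y : ι → ℝ => R⁻¹ • y) (R⁻¹ • ContinuousLinearMap.id ℝ (ι → ℝ)) x :=
    (R⁻¹ • ContinuousLinearMap.id ℝ (ι → ℝ)).hasFDerivAt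
  have h3 := (h1.comp x h2).fderiv
  have h4 : cutR R = (cut ι : (ι → ℝ) → ℝ) ∘ fun y : ι → ℝ => R⁻¹ • y := rfl
  unfold pd
  rw [h4, h3]
  simp

theorem exists_pd_cut : ∃ M : ℝ, 0 ≤ M ∧ ∀ (i : ι) (x : ι → ℝ), pd i (cut ι) x ^ 2 ≤ M := by
  have h1 : ∀ i : ι, ∃ M : ℝ, ∀ x, ‖pd i (cut ι) x‖ ≤ M := fun i =>
    (continuous_pd (cut ι).contDiff i).bounded_above_of_compact_support
      (hcs_pd (cut ι).hasCompactSupport i)
  choose M hM using h1
  refine ⟨∑ i, M i ^ 2, Finset.sum_nonneg fun i _ => sq_nonneg _, fun i x => ?_⟩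
  have h2 : pd i (cut ι) x ^ 2 ≤ M i ^ 2 := by
    rw [← sq_abs, ← Real.norm_eq_abs]
    exact pow_le_pow_left₀ (norm_nonneg _) (hM i x) 2
  exact h2.trans (Finset.single_le_sum (f := fun i => M i ^ 2) (fun i _ => sq_nonneg _)
    (Finset.mem_univ i))

theorem grad_tendsto (hH : ContDiff ℝ 1 H) (hg : LocallyIntegrable g)
    (hg2 : LocallyIntegrable fun t => g t ^ 2)
    (hg3 : Integrable fun t => g t ^ 2 * Real.exp (H t)) {C : ℝ} (hC : 0 ≤ C)
    (hL : ∀ i x y, |pd i H x - pd i H y| ≤ C * ‖x - y‖)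
    (hF : ∀ φ : (ι → ℝ) → ℝ, ContDiff ℝ ∞ φ → HasCompactSupport φ →
      ∫ x, g x * Lp H φ x = 0) {R0 : ℝ} (hR0 : 0 < R0) :
    Tendsto (fun n => ∫ x in Metric.closedBall (0 : ι → ℝ) R0,
      ∑ i, pd i (fun y => cv g (rho n) y * Real.exp (H y)) x ^ 2) atTop (𝓝 0) := by
  obtain ⟨M1, hM1, hM⟩ := exists_pd_cut (ι := ι)
  set M3 := ∫ t, g t ^ 2 * Real.exp (H t) with hM3
  have hM30 : 0 ≤ M3 := integral_nonneg fun t => mul_nonneg (sq_nonneg _) (Real.exp_pos _).le
  set B : Set (ι → ℝ) := Metric.closedBall (0 : ι → ℝ) R0 with hB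
  have cB : IsCompact B := isCompact_closedBall _ _
  have mB : MeasurableSet B := cB.measurableSet
  have cE : Continuous fun x => Real.exp (-H x) := (contDiff_expneg hH).continuous
  obtain ⟨x0, -, hx0⟩ := cB.exists_isMinOn (Metric.nonempty_closedBall.2 hR0.le) cE.continuousOn
  set c := Real.exp (-H x0) with hc
  have hc0 : 0 < c := Real.exp_pos _
  have hcB : ∀ x ∈ B, c ≤ Real.exp (-H x) := fun x hx => hx0 hx
  have hn0 : ∀ n, 0 ≤ ∫ x in B, ∑ i, pd i (fun y => cv g (rho n) y * Real.exp (H y)) x ^ 2 :=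
    fun n => setIntegral_nonneg mB fun x _ => Finset.sum_nonneg fun i _ => sq_nonneg _
  have hEp : ContDiff ℝ 1 fun x => Real.exp (H x) := Real.contDiff_exp.comp hH
  have hFc : ∀ n, ContDiff ℝ 1 fun y => cv g (rho n) y * Real.exp (H y) := fun n =>
    (contDiff_cv (n := 1) hg ((contDiff_rho n).of_le (by exact_mod_cast le_top))
      (hcs_rho n)).mul hEp
  rw [Metric.tendsto_nhds]
  intro ε hε
  -- choice of the scale
  set A := 10 * (Fintype.card ι * (M1 * M3)) with hA
  have hA0 : 0 ≤ A := by positivity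
  set R := max (max 1 R0) (A / (c * ε) + 1) with hR
  have hR1 : 1 ≤ R := (le_max_left _ _).trans (le_max_left _ _)
  have hRR0 : R0 ≤ R := (le_max_right _ _).trans (le_max_left _ _)
  have hRA : A / (c * ε) < R := lt_of_lt_of_le (by linarith) (le_max_right _ _)
  have hRpos : 0 < R := by linarith
  have hlim : A / R ^ 2 < c * ε := by
    have h1 : A < R * (c * ε) := (div_lt_iff₀ (by positivity)).1 hRA
    rw [div_lt_iff₀ (by positivity)]
    have h2 : R * (c * ε) ≤ R ^ 2 * (c * ε) := by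
      refine mul_le_mul_of_nonneg_right ?_ (by positivity)
      nlinarith
    linarith
  set χ : (ι → ℝ) → ℝ := cutR R with hχ
  have hχ1 : ContDiff ℝ 1 χ := (contDiff_cutR R).of_le (by exact_mod_cast le_top)
  have cχ : HasCompactSupport χ := hcs_cutR hRpos
  -- kernels
  have cκ : ∀ i, Continuous fun y => Real.exp (H y) * pd i χ y ^ 2 := fun i =>
    hEp.continuous.mul ((continuous_pd hχ1 i).pow 2)
  have sκ : ∀ i, HasCompactSupport fun y => Real.exp (H y) * pd i χ y ^ 2 := by
    intro i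
    have h2 : HasCompactSupport fun x => pd i χ x * (Real.exp (H x) * pd i χ x) :=
      (hcs_pd cχ i).mul_right
    have h3 : (fun x => Real.exp (H x) * pd i χ x ^ 2) =
        fun x => pd i χ x * (Real.exp (H x) * pd i χ x) := by funext x; ring
    rw [h3]; exact h2
  have cκ' : Continuous fun y => Real.exp (H y) * χ y ^ 2 :=
    hEp.continuous.mul (hχ1.continuous.pow 2)
  have sκ' : HasCompactSupport fun y => Real.exp (H y) * χ y ^ 2 := by
    have h2 : HasCompactSupport fun x => χ x * (Real.exp (H x) * χ x) := cχ.mul_right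
    have h3 : (fun x => Real.exp (H x) * χ x ^ 2) =
        fun x => χ x * (Real.exp (H x) * χ x) := by funext x; ring
    rw [h3]; exact h2
  -- upper bound and its limit
  set U : ℕ → ℝ := fun n =>
    10 * (∑ i, ∫ x, g x ^ 2 * cv (fun y => Real.exp (H y) * pd i χ y ^ 2) (rho n) x) +
      4 * Fintype.card ι * (C * (1 / (n + 1))) ^ 2 *
        (∫ x, g x ^ 2 * cv (fun y => Real.exp (H y) * χ y ^ 2) (rho n) x) with hU
  have hUlim : Tendsto U atTop (𝓝 (10 * (∑ i, ∫ x, g x ^ 2 *
      (Real.exp (H x) * pd i χ x ^ 2)) + 4 * Fintype.card ι * (C * 0) ^ 2 *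
      (∫ x, g x ^ 2 * (Real.exp (H x) * χ x ^ 2)))) := by
    refine Tendsto.add ?_ ?_
    · refine Tendsto.const_mul _ ?_
      exact tendsto_finsetSum _ fun i _ => tendsto_kernel hg2 (cκ i) (sκ i)
    · refine Tendsto.mul ?_ (tendsto_kernel hg2 cκ' sκ')
      refine Tendsto.const_mul _ ?_
      exact (tendsto_one_div_add_atTop_nhds_zero_nat.const_mul C).pow 2
  have hle : 10 * (∑ i, ∫ x, g x ^ 2 *
      (Real.exp (H x) * pd i χ x ^ 2)) + 4 * Fintype.card ι * (C * 0) ^ 2 *
      (∫ x, g x ^ 2 * (Real.exp (H x) * χ x ^ 2)) < c * ε := by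
    refine lt_of_le_of_lt ?_ hlim
    have h1 : ∀ i, ∫ x, g x ^ 2 * (Real.exp (H x) * pd i χ x ^ 2) ≤ M1 / R ^ 2 * M3 := by
      intro i
      rw [hM3, ← integral_const_mul]
      refine integral_mono (int_lc hg2 (cκ i) (sκ i)) (hg3.const_mul _) fun x => ?_
      show g x ^ 2 * (Real.exp (H x) * pd i χ x ^ 2) ≤
        M1 / R ^ 2 * (g x ^ 2 * Real.exp (H x))
      have h2 : pd i χ x ^ 2 ≤ M1 / R ^ 2 := by
        rw [hχ, pd_cutR, mul_pow, inv_pow, inv_mul_eq_div]
        exact div_le_div_of_nonneg_right (hM i _) (by positivity)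
      calc g x ^ 2 * (Real.exp (H x) * pd i χ x ^ 2) =
          (g x ^ 2 * Real.exp (H x)) * pd i χ x ^ 2 := by ring
        _ ≤ (g x ^ 2 * Real.exp (H x)) * (M1 / R ^ 2) :=
            mul_le_mul_of_nonneg_left h2 (mul_nonneg (sq_nonneg _) (Real.exp_pos _).le)
        _ = _ := by ring
    have h2 := Finset.sum_le_sum fun i (_ : i ∈ Finset.univ) => h1 i
    rw [Finset.sum_const, Finset.card_univ, nsmul_eq_mul] at h2
    have h3 : A / R ^ 2 = 10 * (Fintype.card ι * (M1 / R ^ 2 * M3)) := by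
      rw [hA]; ring
    rw [h3]
    have h4 : 4 * Fintype.card ι * (C * 0) ^ 2 *
      (∫ x, g x ^ 2 * (Real.exp (H x) * χ x ^ 2)) = 0 := by ring
    rw [h4]
    linarith
  have hev := hUlim.eventually (eventually_lt_nhds hle)
  filter_upwards [hev] with n hn
  rw [dist_zero_right, Real.norm_eq_abs, abs_of_nonneg (hn0 n)]
  have hcc := cacc hH hg hg2 hC hL hF (contDiff_rho n) (hcs_rho n) (rho_even n) (rho_nonneg n)
    (rho_int n) (r := 1 / (n + 1)) (rho_supp n) hχ1 cχ
  have hcc2 : ∑ i, ∫ x, Real.exp (-H x) * χ x ^ 2 *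
      pd i (fun y => cv g (rho n) y * Real.exp (H y)) x ^ 2 < c * ε := lt_of_le_of_lt hcc hn
  have hlow : c * (∫ x in B, ∑ i, pd i (fun y => cv g (rho n) y * Real.exp (H y)) x ^ 2) ≤
      ∑ i, ∫ x, Real.exp (-H x) * χ x ^ 2 *
      pd i (fun y => cv g (rho n) y * Real.exp (H y)) x ^ 2 := by
    have cD : ∀ i, Continuous (pd i fun y => cv g (rho n) y * Real.exp (H y)) := fun i =>
      continuous_pd (hFc n) i
    have i1 : ∀ i, IntegrableOn (fun x =>
        pd i (fun y => cv g (rho n) y * Real.exp (H y)) x ^ 2) B volume := fun i =>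
      ((cD i).pow 2).continuousOn.integrableOn_compact cB
    rw [integral_finsetSum _ fun i _ => i1 i, Finset.mul_sum]
    refine Finset.sum_le_sum fun i _ => ?_
    rw [← integral_const_mul]
    have i2 : Integrable (fun x => Real.exp (-H x) * χ x ^ 2 *
        pd i (fun y => cv g (rho n) y * Real.exp (H y)) x ^ 2) volume := by
      have c1 : Continuous fun x => Real.exp (-H x) * χ x ^ 2 *
          pd i (fun y => cv g (rho n) y * Real.exp (H y)) x ^ 2 :=
        (cE.mul (hχ1.continuous.pow 2)).mul ((cD i).pow 2)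
      refine c1.integrable_of_hasCompactSupport ?_
      have h2 : HasCompactSupport fun x => χ x * (Real.exp (-H x) * χ x *
          pd i (fun y => cv g (rho n) y * Real.exp (H y)) x ^ 2) := cχ.mul_right
      have h3 : (fun x => Real.exp (-H x) * χ x ^ 2 *
          pd i (fun y => cv g (rho n) y * Real.exp (H y)) x ^ 2) =
          fun x => χ x * (Real.exp (-H x) * χ x *
          pd i (fun y => cv g (rho n) y * Real.exp (H y)) x ^ 2) := by funext x; ring
      rw [h3]; exact h2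
    calc ∫ x in B, c * pd i (fun y => cv g (rho n) y * Real.exp (H y)) x ^ 2 ≤
        ∫ x in B, Real.exp (-H x) * χ x ^ 2 *
          pd i (fun y => cv g (rho n) y * Real.exp (H y)) x ^ 2 := by
          refine setIntegral_mono_on ((i1 i).const_mul _) i2.integrableOn mB fun x hx => ?_
          have h1 : χ x = 1 := cutR_one hRpos (by
            have := mem_closedBall_zero_iff.1 hx
            linarith)
          rw [h1, one_pow, mul_one]
          exact mul_le_mul_of_nonneg_right (hcB x hx) (sq_nonneg _)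
      _ ≤ _ := setIntegral_le_integral i2 (ae_of_all _ fun x =>
          mul_nonneg (mul_nonneg (Real.exp_pos _).le (sq_nonneg _)) (sq_nonneg _))
  have h5 : c * (∫ x in B, ∑ i, pd i (fun y => cv g (rho n) y * Real.exp (H y)) x ^ 2) <
      c * ε := lt_of_le_of_lt hlow hcc2
  exact lt_of_mul_lt_mul_left h5 hc0.le

end

end Crest.Agent.R144.Hs865
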