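import Crest.Agent.R144.Hs4_865

/-!
# R144, static functional inequalities (helper865), file 8: density of the range of `L`
-/

set_option autoImplicit false
set_option linter.unusedSectionVars false

open MeasureTheory Set Filter Topology
open scoped ENNReal NNReal ContDiff Convolution Pointwise RealInnerProductSpace

namespace Crest.Agent.R144.Hs865

noncomputable section

variable {ι : Type*} [Fintype ι] [DecidableEq ι]

variable {g ρ θ κ ψ χ H : (ι → ℝ) → ℝ}

/-- a sequence of continuous functions with vanishing variance on a compact set and an a.e. limit: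
the limit is a.e. constant -/
theorem const_of_var {B : Set (ι → ℝ)} (cB : IsCompact B) (hB0 : volume B ≠ 0)
    {f : ℕ → (ι → ℝ) → ℝ} (hf : ∀ n, Continuous (f n)) {F : (ι → ℝ) → ℝ}
    (hae : ∀ᵐ x ∂volume.restrict B, Tendsto (fun n => f n x) atTop (𝓝 (F x)))
    (hv : Tendsto (fun n => volume.real B * (∫ x in B, f n x ^ 2) - (∫ x in B, f n x) ^ 2)
      atTop (𝓝 0)) :
    ∃ c, ∀ᵐ x ∂volume.restrict B, F x = c := by
  have hBfin : volume B ≠ ⊤ := cB.measure_lt_top.ne
  have hV : 0 < volume.real B := ENNReal.toReal_pos hB0 hBfin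
  have : IsFiniteMeasure (volume.restrict B) := ⟨by
    rw [Measure.restrict_apply_univ]; exact cB.measure_lt_top⟩
  set V := volume.real B with hVdef
  set m : ℕ → ℝ := fun n => (∫ x in B, f n x) / V with hm
  have i1 : ∀ n, IntegrableOn (f n) B volume := fun n =>
    (hf n).continuousOn.integrableOn_compact cB
  have i2 : ∀ n, IntegrableOn (fun x => f n x ^ 2) B volume := fun n =>
    ((hf n).pow 2).continuousOn.integrableOn_compact cB
  have i3 : ∀ n, IntegrableOn (fun x => (f n x - m n) ^ 2) B volume := fun n =>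
    (((hf n).sub continuous_const).pow 2).continuousOn.integrableOn_compact cB
  have e1 : ∀ n, ∫ x in B, (f n x - m n) ^ 2 =
      (V * (∫ x in B, f n x ^ 2) - (∫ x in B, f n x) ^ 2) / V := by
    intro n
    have h1 : ∫ x in B, (f n x - m n) ^ 2 =
        (∫ x in B, f n x ^ 2) - 2 * m n * (∫ x in B, f n x) + m n ^ 2 * V := by
      have h2 : ∫ x in B, m n ^ 2 = m n ^ 2 * V := by
        rw [setIntegral_const, smul_eq_mul, mul_comm]
      rw [← h2, ← integral_const_mul]
      have i4 : IntegrableOn (fun x => f n x ^ 2 - 2 * m n * f n x) B volume :=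
        (i2 n).sub ((i1 n).const_mul _)
      rw [← integral_sub (i2 n) ((i1 n).const_mul _), ← integral_add i4
        (integrableOn_const hBfin)]
      refine integral_congr_ae (ae_of_all _ fun x => ?_)
      show (f n x - m n) ^ 2 = f n x ^ 2 - 2 * m n * f n x + m n ^ 2
      ring
    rw [h1, hm]
    show _ - 2 * ((∫ x in B, f n x) / V) * _ + ((∫ x in B, f n x) / V) ^ 2 * V = _
    field_simp
    ring
  have l1 : Tendsto (fun n => ∫ x in B, (f n x - m n) ^ 2) atTop (𝓝 0) := by
    simp_rw [e1]
    simpa using hv.div_const V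
  have hmem : ∀ n, MemLp (fun x => f n x - m n) 2 (volume.restrict B) := fun n =>
    (memLp_two_iff_integrable_sq ((hf n).sub continuous_const).aestronglyMeasurable).2 (i3 n)
  have l2 : Tendsto (fun n => eLpNorm ((fun n x => f n x - m n) n - 0) 2 (volume.restrict B))
      atTop (𝓝 0) := by
    have h1 : ∀ n, eLpNorm ((fun n x => f n x - m n) n - 0) 2 (volume.restrict B) =
        ENNReal.ofReal ((∫ x in B, (f n x - m n) ^ 2) ^ (2 : ℝ)⁻¹) := by
      intro n
      rw [sub_zero, (hmem n).eLpNorm_eq_integral_rpow_norm two_ne_zero ENNReal.ofNat_ne_top]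
      congr 2
      · refine integral_congr_ae (ae_of_all _ fun x => ?_)
        show ‖f n x - m n‖ ^ (2 : ℝ≥0∞).toReal = (f n x - m n) ^ 2
        rw [ENNReal.toReal_ofNat, Real.rpow_ofNat, Real.norm_eq_abs, sq_abs]
    simp_rw [h1]
    have h2 : Tendsto (fun n => (∫ x in B, (f n x - m n) ^ 2) ^ (2 : ℝ)⁻¹) atTop
        (𝓝 ((0 : ℝ) ^ (2 : ℝ)⁻¹)) := l1.rpow_const (Or.inr (by norm_num))
    rw [Real.zero_rpow (by norm_num)] at h2
    simpa using ENNReal.tendsto_ofReal h2
  have l3 : TendstoInMeasure (volume.restrict B) (fun n x => f n x - m n) atTop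
      (0 : (ι → ℝ) → ℝ) :=
    tendstoInMeasure_of_tendsto_eLpNorm two_ne_zero
      (fun n => ((hf n).sub continuous_const).aestronglyMeasurable)
      aestronglyMeasurable_zero l2
  obtain ⟨ns, hns, hns2⟩ := l3.exists_seq_tendsto_ae
  have hall : ∀ᵐ x ∂volume.restrict B, Tendsto (fun k => m (ns k)) atTop (𝓝 (F x)) := by
    filter_upwards [hae, hns2] with x h1 h2
    have h3 := (h1.comp hns.tendsto_atTop).sub h2
    have h4 : (fun k => m (ns k)) = fun k => ((fun n => f n x) ∘ ns) k -
        (f (ns k) x - m (ns k)) := by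
      funext k
      show m (ns k) = f (ns k) x - (f (ns k) x - m (ns k))
      ring
    rw [h4]
    simpa using h3
  have hne : (volume.restrict B) ≠ 0 := by
    intro h
    apply hB0
    have := congrArg (fun μ => μ univ) h
    simpa using this
  have : NeBot (ae (volume.restrict B)) := ae_neBot.2 hne
  obtain ⟨x1, hx1⟩ := hall.exists
  refine ⟨F x1, ?_⟩
  filter_upwards [hall] with x hx
  exact tendsto_nhds_unique hx hx1

theorem liouville_ball (hH : ContDiff ℝ 1 H) (hg : LocallyIntegrable g)
    (hg2 : LocallyIntegrable fun t => g t ^ 2)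
    (hg3 : Integrable fun t => g t ^ 2 * Real.exp (H t)) {C : ℝ} (hC : 0 ≤ C)
    (hL : ∀ i x y, |pd i H x - pd i H y| ≤ C * ‖x - y‖)
    (hF : ∀ φ : (ι → ℝ) → ℝ, ContDiff ℝ ∞ φ → HasCompactSupport φ →
      ∫ x, g x * Lp H φ x = 0) {R0 : ℝ} (hR0 : 0 < R0) :
    ∃ c, ∀ᵐ x ∂volume.restrict (Metric.closedBall (0 : ι → ℝ) R0),
      g x * Real.exp (H x) = c := by
  set B : Set (ι → ℝ) := Metric.closedBall (0 : ι → ℝ) R0 with hB
  have cB : IsCompact B := isCompact_closedBall _ _
  have hB0 : volume B ≠ 0 := (Metric.measure_closedBall_pos volume _ hR0).ne'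
  have hEp : ContDiff ℝ 1 fun x => Real.exp (H x) := Real.contDiff_exp.comp hH
  have hFc : ∀ n, ContDiff ℝ 1 fun y => cv g (rho n) y * Real.exp (H y) := fun n =>
    (contDiff_cv (n := 1) hg ((contDiff_rho n).of_le (by exact_mod_cast le_top))
      (hcs_rho n)).mul hEp
  refine const_of_var cB hB0 (f := fun n y => cv g (rho n) y * Real.exp (H y))
    (fun n => (hFc n).continuous) ?_ ?_
  · refine ae_restrict_of_ae ?_
    filter_upwards [cv_rho_ae hg] with x hx
    exact hx.mul_const _
  · have hgt := grad_tendsto hH hg hg2 hg3 hC hL hF hR0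
    set d : ℝ := (Fintype.card ι + 1) * R0 with hd
    have hd0 : 0 < d := by positivity
    have hb : ∀ x ∈ B, ∑ v, (x v - (0 : ι → ℝ) v) ^ 2 ≤ d ^ 2 := by
      intro x hx
      have h1 : ∀ v, (x v - (0 : ι → ℝ) v) ^ 2 ≤ R0 ^ 2 := by
        intro v
        have h2 : |x v| ≤ R0 := (norm_le_pi_norm x v).trans (mem_closedBall_zero_iff.1 hx)
        rw [Pi.zero_apply, sub_zero, ← sq_abs]
        exact pow_le_pow_left₀ (abs_nonneg _) h2 2
      have h2 := Finset.sum_le_sum fun v (_ : v ∈ Finset.univ) => h1 v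
      rw [Finset.sum_const, Finset.card_univ, nsmul_eq_mul] at h2
      refine h2.trans ?_
      rw [hd, mul_pow]
      refine mul_le_mul_of_nonneg_right ?_ (sq_nonneg _)
      have h3 : (0 : ℝ) ≤ Fintype.card ι := Nat.cast_nonneg _
      nlinarith
    have hup : ∀ n, volume.real B * (∫ x in B, (cv g (rho n) x * Real.exp (H x)) ^ 2) -
        (∫ x in B, cv g (rho n) x * Real.exp (H x)) ^ 2 ≤
        2 * d ^ 2 * volume.real B * ∫ x in B,
          ∑ i, pd i (fun y => cv g (rho n) y * Real.exp (H y)) x ^ 2 := by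
      intro n
      have hlip : ∃ L : ℝ≥0, LipschitzOnWith L (fun y => cv g (rho n) y * Real.exp (H y)) B := by
        have hc1 : Continuous fun x => ‖fderiv ℝ (fun y => cv g (rho n) y * Real.exp (H y)) x‖ :=
          ((hFc n).continuous_fderiv one_ne_zero).norm
        obtain ⟨M, hM⟩ := (cB.image hc1).bddAbove
        refine ⟨M.toNNReal, ?_⟩
        refine (convex_closedBall (0 : ι → ℝ) R0).lipschitzOnWith_of_nnnorm_fderiv_le
          (fun x _ => (hFc n).differentiable (by norm_num) x) fun x hx => ?_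
        rw [← NNReal.coe_le_coe, coe_nnnorm, Real.coe_toNNReal']
        exact (hM ⟨x, hx, rfl⟩).trans (le_max_left _ _)
      obtain ⟨L, hL'⟩ := hlip
      exact Fi865.pw_pi (convex_closedBall (0 : ι → ℝ) R0) cB.measurableSet hd0 hb hL'
    have hlo : ∀ n, 0 ≤ volume.real B * (∫ x in B, (cv g (rho n) x * Real.exp (H x)) ^ 2) -
        (∫ x in B, cv g (rho n) x * Real.exp (H x)) ^ 2 := by
      intro n
      have hBfin : volume B ≠ ⊤ := cB.measure_lt_top.ne
      have hV : 0 < volume.real B := ENNReal.toReal_pos hB0 hBfin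
      set V := volume.real B with hVdef
      set f : (ι → ℝ) → ℝ := fun x => cv g (rho n) x * Real.exp (H x) with hf
      set m : ℝ := ∫ x in B, f x with hm
      have i1 : IntegrableOn f B volume := (hFc n).continuous.continuousOn.integrableOn_compact cB
      have i2 : IntegrableOn (fun x => f x ^ 2) B volume :=
        ((hFc n).continuous.pow 2).continuousOn.integrableOn_compact cB
      have h1 : 0 ≤ ∫ x in B, (V * f x - m) ^ 2 := integral_nonneg fun x => sq_nonneg _
      have h2 : ∫ x in B, (V * f x - m) ^ 2 =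
          V ^ 2 * (∫ x in B, f x ^ 2) - 2 * V * m * (∫ x in B, f x) + m ^ 2 * V := by
        have h2 : ∫ x in B, m ^ 2 = m ^ 2 * V := by
          rw [setIntegral_const, smul_eq_mul, mul_comm]
        rw [← h2, ← integral_const_mul, ← integral_const_mul]
        have i4 : IntegrableOn (fun x => V ^ 2 * f x ^ 2 - 2 * V * m * f x) B volume :=
          (i2.const_mul _).sub (i1.const_mul _)
        rw [← integral_sub (i2.const_mul _) (i1.const_mul _), ← integral_add i4
          (integrableOn_const hBfin)]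
        refine integral_congr_ae (ae_of_all _ fun x => ?_)
        show (V * f x - m) ^ 2 = V ^ 2 * f x ^ 2 - 2 * V * m * f x + m ^ 2
        ring
      have h3 : V ^ 2 * (∫ x in B, f x ^ 2) - 2 * V * m * (∫ x in B, f x) + m ^ 2 * V =
          V * (V * (∫ x in B, f x ^ 2) - m ^ 2) := by
        rw [← hm]; ring
      rw [h2, h3] at h1
      exact nonneg_of_mul_nonneg_right h1 hV
    refine tendsto_of_tendsto_of_tendsto_of_le_of_le tendsto_const_nhds ?_ hlo hup
    simpa using hgt.const_mul (2 * d ^ 2 * volume.real B)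

/-- **Liouville theorem** -/
theorem liouville (hH : ContDiff ℝ 1 H) (hg : LocallyIntegrable g)
    (hg2 : LocallyIntegrable fun t => g t ^ 2)
    (hg3 : Integrable fun t => g t ^ 2 * Real.exp (H t)) {C : ℝ} (hC : 0 ≤ C)
    (hL : ∀ i x y, |pd i H x - pd i H y| ≤ C * ‖x - y‖)
    (hF : ∀ φ : (ι → ℝ) → ℝ, ContDiff ℝ ∞ φ → HasCompactSupport φ →
      ∫ x, g x * Lp H φ x = 0) :
    ∃ c, ∀ᵐ x, g x * Real.exp (H x) = c := by
  have h1 : ∀ n : ℕ, ∃ c, ∀ᵐ x ∂volume.restrict (Metric.closedBall (0 : ι → ℝ) (n + 1)),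
      g x * Real.exp (H x) = c := fun n => liouville_ball hH hg hg2 hg3 hC hL hF (by positivity)
  choose c hc using h1
  have hc0 : ∀ n, c n = c 0 := by
    intro n
    have hsub : Metric.closedBall (0 : ι → ℝ) ((0 : ℕ) + 1) ⊆
        Metric.closedBall (0 : ι → ℝ) (n + 1) := Metric.closedBall_subset_closedBall (by
          have : (0 : ℝ) ≤ n := Nat.cast_nonneg n
          push_cast; linarith)
    have h2 := ae_restrict_of_ae_restrict_of_subset hsub (hc n)
    have hne : (volume.restrict (Metric.closedBall (0 : ι → ℝ) ((0 : ℕ) + 1))) ≠ 0 := by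
      intro h
      have h3 : volume (Metric.closedBall (0 : ι → ℝ) ((0 : ℕ) + 1)) ≠ 0 :=
        (Metric.measure_closedBall_pos volume _ (by norm_num)).ne'
      apply h3
      have := congrArg (fun μ => μ univ) h
      simp at this
    have : NeBot (ae (volume.restrict (Metric.closedBall (0 : ι → ℝ) ((0 : ℕ) + 1)))) :=
      ae_neBot.2 hne
    obtain ⟨x, hx1, hx2⟩ := (h2.and (hc 0)).exists
    rw [← hx1, hx2]
  refine ⟨c 0, ?_⟩
  have h3 : ∀ n : ℕ, ∀ᵐ x, x ∈ Metric.closedBall (0 : ι → ℝ) (n + 1) →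
      g x * Real.exp (H x) = c 0 := by
    intro n
    have := (ae_restrict_iff' (isCompact_closedBall (0 : ι → ℝ) (n + 1)).measurableSet).1 (hc n)
    rwa [hc0] at this
  filter_upwards [ae_all_iff.2 h3] with x hx
  obtain ⟨n, hn⟩ := exists_nat_ge ‖x‖
  exact hx n (mem_closedBall_zero_iff.2 (by linarith))

end

end Crest.Agent.R144.Hs865
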