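import Crest.Agent.R144.Hs5_865

/-!
# R144, static functional inequalities (helper865), file 9: the Helffer–Sjöstrand upper bound

`H : (ι → ℝ) → ℝ` of class `C²`, `∇H` Lipschitz, `exp (-H)` integrable.

* `density`   : the functions `Lφ = Δφ − ⟨∇H, ∇φ⟩`, `φ ∈ C_c^∞`, are dense in the centred part of
  `L²(e^{-H})` (only `H` of class `C¹` with Lipschitz gradient is used);
* `hs_upper`  : for `G` of class `C¹` in `L²(e^{-H})` and `ε > 0` there is `φ ∈ C_c^∞` with
  `∫ (G-m)² e^{-H} ≤ 2 ∫ ⟨∇φ,∇G⟩ e^{-H} − ∫ (‖D²φ‖² + D²H(∇φ,∇φ)) e^{-H} + ε`;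
* `hs_var_le` : the dual variance bound.
-/

set_option autoImplicit false
set_option linter.unusedSectionVars false

open MeasureTheory Set Filter Topology
open scoped ENNReal NNReal ContDiff Convolution Pointwise RealInnerProductSpace

namespace Crest.Agent.R144.Hs865

noncomputable section

variable {ι : Type*} [Fintype ι] [DecidableEq ι]

variable {g ρ θ κ φ ψ χ H G : (ι → ℝ) → ℝ}

/-- the measure `e^{-H} dx` -/
def muH (H : (ι → ℝ) → ℝ) : Measure (ι → ℝ) :=
  volume.withDensity fun x => ENNReal.ofReal (Real.exp (-H x))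

theorem meas_w (hH : Continuous H) : Measurable fun x => ENNReal.ofReal (Real.exp (-H x)) :=
  (Real.continuous_exp.comp hH.neg).measurable.ennreal_ofReal

theorem int_mu (hH : Continuous H) (f : (ι → ℝ) → ℝ) :
    ∫ x, f x ∂muH H = ∫ x, f x * Real.exp (-H x) := by
  unfold muH
  rw [integral_withDensity_eq_integral_toReal_smul (meas_w hH)
    (ae_of_all _ fun x => ENNReal.ofReal_lt_top)]
  refine integral_congr_ae (ae_of_all _ fun x => ?_)
  show (ENNReal.ofReal (Real.exp (-H x))).toReal • f x = f x * Real.exp (-H x)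
  rw [ENNReal.toReal_ofReal (Real.exp_pos _).le, smul_eq_mul, mul_comm]

theorem integrable_mu (hH : Continuous H) (f : (ι → ℝ) → ℝ) :
    Integrable f (muH H) ↔ Integrable fun x => f x * Real.exp (-H x) := by
  unfold muH
  rw [integrable_withDensity_iff_integrable_smul' (meas_w hH)
    (ae_of_all _ fun x => ENNReal.ofReal_lt_top)]
  refine integrable_congr (ae_of_all _ fun x => ?_)
  show (ENNReal.ofReal (Real.exp (-H x))).toReal • f x = f x * Real.exp (-H x)
  rw [ENNReal.toReal_ofReal (Real.exp_pos _).le, smul_eq_mul, mul_comm]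

theorem mu_ac : muH H ≪ (volume : Measure (ι → ℝ)) := withDensity_absolutelyContinuous _ _

theorem ac_mu (hH : Continuous H) : (volume : Measure (ι → ℝ)) ≪ muH H :=
  withDensity_absolutelyContinuous' (meas_w hH).aemeasurable
    (ae_of_all _ fun x => by
      have := Real.exp_pos (-H x)
      simp only [ne_eq, ENNReal.ofReal_eq_zero, not_le]
      exact this)

theorem Lp_add (hφ : ContDiff ℝ 2 φ) (hψ : ContDiff ℝ 2 ψ) (x : ι → ℝ) :
    Lp H (fun y => φ y + ψ y) x = Lp H φ x + Lp H ψ x := by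
  have h1 : ∀ i, pd i (fun y => φ y + ψ y) = fun y => pd i φ y + pd i ψ y := fun i =>
    funext fun y => pd_add (hφ.differentiable (by norm_num) y) (hψ.differentiable (by norm_num) y)
  unfold Lp
  rw [← Finset.sum_add_distrib]
  refine Finset.sum_congr rfl fun i _ => ?_
  rw [h1, pd_add ((contDiff_pd (m := 1) hφ (by norm_num) i).differentiable (by norm_num) x)
    ((contDiff_pd (m := 1) hψ (by norm_num) i).differentiable (by norm_num) x)]
  ring

theorem pd_cmul {f : (ι → ℝ) → ℝ} (c : ℝ) {x : ι → ℝ} (i : ι) (hf : DifferentiableAt ℝ f x) :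
    pd i (fun y => c * f y) x = c * pd i f x := by
  rw [pd_mul (differentiableAt_const c) hf, pd_const]; ring

theorem Lp_smul (c : ℝ) (hφ : ContDiff ℝ 2 φ) (x : ι → ℝ) :
    Lp H (fun y => c * φ y) x = c * Lp H φ x := by
  have h1 : ∀ i, pd i (fun y => c * φ y) = fun y => c * pd i φ y := fun i =>
    funext fun y => pd_cmul c i (hφ.differentiable (by norm_num) y)
  unfold Lp
  rw [Finset.mul_sum]
  refine Finset.sum_congr rfl fun i _ => ?_
  rw [h1, pd_cmul c i ((contDiff_pd (m := 1) hφ (by norm_num) i).differentiable (by norm_num) x)]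
  ring

theorem fin_mu (hi : Integrable fun x => Real.exp (-H x)) : IsFiniteMeasure (muH H) :=
  isFiniteMeasure_withDensity_ofReal hi.2

theorem Lp_memLp (hH : ContDiff ℝ 1 H) (hi : Integrable fun x => Real.exp (-H x))
    (hφ : ContDiff ℝ 2 φ) (hc : HasCompactSupport φ) : MemLp (Lp H φ) 2 (muH H) := by
  have := fin_mu hi
  have h1 : MemLp (Lp H φ) ⊤ (muH H) :=
    (continuous_Lp hH hφ).memLp_top_of_hasCompactSupport (hcs_Lp hc) _
  exact h1.mono_exponent le_top

/-- the range of `L` on test functions as a subspace of `L²(e^{-H})` -/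
def rangeL (H : (ι → ℝ) → ℝ) : Submodule ℝ (MeasureTheory.Lp ℝ 2 (muH H)) where
  carrier := {f | ∃ φ : (ι → ℝ) → ℝ, ContDiff ℝ ∞ φ ∧ HasCompactSupport φ ∧
    (f : (ι → ℝ) → ℝ) =ᵐ[muH H] Lp H φ}
  zero_mem' := by
    refine ⟨fun _ => 0, contDiff_const, HasCompactSupport.zero, ?_⟩
    have h1 : Lp H (fun _ : ι → ℝ => (0 : ℝ)) = fun _ => 0 := by
      funext x
      unfold Lp
      refine Finset.sum_eq_zero fun i _ => ?_
      have h2 : pd i (fun _ : ι → ℝ => (0 : ℝ)) = fun _ => 0 := funext fun y => pd_const 0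
      rw [h2, pd_const]; ring
    rw [h1]
    exact Lp.coeFn_zero _ _ _
  add_mem' := by
    rintro f g ⟨φ, h1, h2, h3⟩ ⟨ψ, k1, k2, k3⟩
    refine ⟨fun x => φ x + ψ x, h1.add k1, h2.add k2, ?_⟩
    filter_upwards [MeasureTheory.Lp.coeFn_add f g, h3, k3] with x e1 e2 e3
    rw [e1, Pi.add_apply, e2, e3, Lp_add (contDiff_infty.1 h1 2)
      (contDiff_infty.1 k1 2)]
  smul_mem' := by
    rintro c f ⟨φ, h1, h2, h3⟩
    refine ⟨fun x => c * φ x, contDiff_const.mul h1, h2.mul_left, ?_⟩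
    filter_upwards [MeasureTheory.Lp.coeFn_smul c f, h3] with x e1 e2
    rw [e1, Pi.smul_apply, e2, Lp_smul c (contDiff_infty.1 h1 2), smul_eq_mul]

/-- a function orthogonal to the range of `L` is constant -/
theorem orth_const (hH : ContDiff ℝ 1 H) (hi : Integrable fun x => Real.exp (-H x)) {C : ℝ}
    (hC : 0 ≤ C) (hL : ∀ i x y, |pd i H x - pd i H y| ≤ C * ‖x - y‖)
    {F : (ι → ℝ) → ℝ} (hF : MemLp F 2 (muH H))
    (hFo : ∀ φ : (ι → ℝ) → ℝ, ContDiff ℝ ∞ φ → HasCompactSupport φ →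
      ∫ x, F x * Lp H φ x ∂muH H = 0) :
    ∃ c, ∀ᵐ x ∂muH H, F x = c := by
  have := fin_mu hi
  have cE : Continuous fun x => Real.exp (-H x) := (contDiff_expneg hH).continuous
  have hF1 : Integrable F (muH H) := hF.integrable (by norm_num)
  have hF2 : Integrable (fun x => F x ^ 2) (muH H) := hF.integrable_sq
  set g : (ι → ℝ) → ℝ := fun x => F x * Real.exp (-H x) with hgdef
  have hg1 : Integrable g := (integrable_mu hH.continuous F).1 hF1
  have hg2 : Integrable fun x => F x ^ 2 * Real.exp (-H x) :=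
    (integrable_mu hH.continuous _).1 hF2
  have hwe : ∀ x, Real.exp (-H x) * Real.exp (H x) = 1 := fun x => by
    rw [← Real.exp_add]; simp
  have e1 : (fun x => g x ^ 2) = fun x => (F x ^ 2 * Real.exp (-H x)) * Real.exp (-H x) := by
    funext x; rw [hgdef]; ring
  have e2 : (fun x => g x ^ 2 * Real.exp (H x)) = fun x => F x ^ 2 * Real.exp (-H x) := by
    funext x
    show (F x * Real.exp (-H x)) ^ 2 * Real.exp (H x) = _
    linear_combination (F x ^ 2 * Real.exp (-H x)) * hwe x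
  obtain ⟨c, hc⟩ := liouville (g := g) hH hg1.locallyIntegrable
    (by rw [e1]; exact hg2.locallyIntegrable.mul_continuous cE) (by rw [e2]; exact hg2) hC hL
    (by
      intro φ h1 h2
      have h3 := hFo φ h1 h2
      rw [int_mu hH.continuous] at h3
      rw [← h3]
      refine integral_congr_ae (ae_of_all _ fun x => ?_)
      show F x * Real.exp (-H x) * Lp H φ x = F x * Lp H φ x * Real.exp (-H x)
      ring)
  refine ⟨c, mu_ac.ae_le ?_⟩
  filter_upwards [hc] with x hx
  rw [← hx]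
  show F x = F x * Real.exp (-H x) * Real.exp (H x)
  rw [mul_assoc, hwe, mul_one]

/-- **density of the range of `L`** -/
theorem density (hH : ContDiff ℝ 1 H) (hi : Integrable fun x => Real.exp (-H x)) {C : ℝ}
    (hC : 0 ≤ C) (hL : ∀ i x y, |pd i H x - pd i H y| ≤ C * ‖x - y‖)
    {u : (ι → ℝ) → ℝ} (hu : AEStronglyMeasurable u)
    (hu2 : Integrable fun x => u x ^ 2 * Real.exp (-H x))
    (hu0 : ∫ x, u x * Real.exp (-H x) = 0) {ε : ℝ} (hε : 0 < ε) :
    ∃ φ : (ι → ℝ) → ℝ, ContDiff ℝ ∞ φ ∧ HasCompactSupport φ ∧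
      ∫ x, (Lp H φ x - u x) ^ 2 * Real.exp (-H x) ≤ ε := by
  have := fin_mu hi
  have hum : AEStronglyMeasurable u (muH H) := hu.mono_ac mu_ac
  have hu2' : Integrable (fun x => u x ^ 2) (muH H) := (integrable_mu hH.continuous _).2 hu2
  have huL : MemLp u 2 (muH H) := (memLp_two_iff_integrable_sq hum).2 hu2'
  set U := huL.toLp u with hU
  have hUc : U ∈ (rangeL H).topologicalClosure := by
    rw [← Submodule.orthogonal_orthogonal_eq_closure]
    rw [Submodule.mem_orthogonal]
    intro F hF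
    rw [Submodule.mem_orthogonal] at hF
    obtain ⟨c, hc⟩ := orth_const hH hi hC hL (F := F) (MeasureTheory.Lp.memLp F) (by
      intro φ h1 h2
      have hm := Lp_memLp hH hi (contDiff_infty.1 h1 2) h2
      have h3 := hF (hm.toLp _) ⟨φ, h1, h2, hm.coeFn_toLp⟩
      rw [L2.inner_def] at h3
      rw [← h3]
      refine integral_congr_ae ?_
      filter_upwards [hm.coeFn_toLp] with x hx
      rw [hx]
      simp)
    rw [L2.inner_def]
    have h1 : ∫ x, ⟪F x, U x⟫ ∂muH H = ∫ x, c * u x ∂muH H := by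
      refine integral_congr_ae ?_
      filter_upwards [hc, huL.coeFn_toLp] with x h1 h2
      rw [hU, h1, h2]
      simp [mul_comm]
    rw [h1, integral_const_mul, int_mu hH.continuous, hu0, mul_zero]
  rw [← SetLike.mem_coe, Submodule.topologicalClosure_coe, Metric.mem_closure_iff] at hUc
  obtain ⟨k, ⟨φ, h1, h2, h3⟩, hk⟩ := hUc (Real.sqrt ε) (Real.sqrt_pos.2 hε)
  refine ⟨φ, h1, h2, ?_⟩
  rw [dist_eq_norm] at hk
  have h4 : ‖U - k‖ ^ 2 ≤ ε := by
    have := pow_le_pow_left₀ (norm_nonneg _) hk.le 2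
    rwa [Real.sq_sqrt hε.le] at this
  have h5 : ‖U - k‖ ^ 2 = ∫ x, (Lp H φ x - u x) ^ 2 ∂muH H := by
    rw [← real_inner_self_eq_norm_sq, L2.inner_def]
    refine integral_congr_ae ?_
    filter_upwards [MeasureTheory.Lp.coeFn_sub U k, h3, huL.coeFn_toLp] with x e1 e2 e3
    rw [e1, Pi.sub_apply, e2, hU, e3, real_inner_self_eq_norm_sq, Real.norm_eq_abs, sq_abs]
    ring
  rw [h5, int_mu hH.continuous] at h4
  exact h4

/-- **the Helffer–Sjöstrand upper bound** -/
theorem hs_upper (hH : ContDiff ℝ 2 H) (hi : Integrable fun x => Real.exp (-H x)) {C : ℝ}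
    (hC : 0 ≤ C) (hL : ∀ i x y, |pd i H x - pd i H y| ≤ C * ‖x - y‖)
    (hG : ContDiff ℝ 1 G) (hG2 : Integrable fun x => G x ^ 2 * Real.exp (-H x))
    {m : ℝ} (hm : ∫ x, (G x - m) * Real.exp (-H x) = 0) {ε : ℝ} (hε : 0 < ε) :
    ∃ φ : (ι → ℝ) → ℝ, ContDiff ℝ ∞ φ ∧ HasCompactSupport φ ∧
      ∫ x, (Lp H φ x + (G x - m)) ^ 2 * Real.exp (-H x) ≤ ε ∧
      ∫ x, (G x - m) ^ 2 * Real.exp (-H x) ≤
        2 * (∫ x, (∑ i, pd i φ x * pd i G x) * Real.exp (-H x)) -
        (∫ x, ((∑ i, ∑ j, pd i (pd j φ) x ^ 2) +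
          ∑ i, ∑ j, pd i (pd j H) x * pd i φ x * pd j φ x) * Real.exp (-H x)) + ε := by
  have hH1 : ContDiff ℝ 1 H := hH.of_le (by norm_num)
  have hE : Continuous fun x => Real.exp (-H x) := (contDiff_expneg hH1).continuous
  have hGm : ContDiff ℝ 1 fun x => G x - m := hG.sub contDiff_const
  -- square integrability of `G - m`
  have hG1 : Integrable fun x => G x * Real.exp (-H x) := by
    refine Integrable.mono' (g := fun x => (G x ^ 2 * Real.exp (-H x)) + Real.exp (-H x))
      (hG2.add hi) (hG.continuous.mul hE).aestronglyMeasurable (ae_of_all _ fun x => ?_)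
    rw [Real.norm_eq_abs, abs_mul, abs_of_pos (Real.exp_pos _)]
    have h1 : |G x| ≤ G x ^ 2 + 1 := by
      rw [← sq_abs]; nlinarith [sq_nonneg (|G x| - 1), abs_nonneg (G x)]
    have h2 := mul_le_mul_of_nonneg_right h1 (Real.exp_pos (-H x)).le
    linarith
  have hGm2 : Integrable fun x => (G x - m) ^ 2 * Real.exp (-H x) := by
    have h1 : Integrable fun x => G x ^ 2 * Real.exp (-H x) -
      2 * m * (G x * Real.exp (-H x)) + m ^ 2 * Real.exp (-H x) :=
      (hG2.sub (hG1.const_mul _)).add (hi.const_mul _)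
    refine h1.congr (ae_of_all _ fun x => ?_)
    show G x ^ 2 * Real.exp (-H x) - 2 * m * (G x * Real.exp (-H x)) + m ^ 2 * Real.exp (-H x) =
      (G x - m) ^ 2 * Real.exp (-H x)
    ring
  obtain ⟨φ, h1, h2, h3⟩ := density hH1 hi hC hL (u := fun x => -(G x - m))
    hGm.continuous.neg.aestronglyMeasurable (by simp_rw [neg_sq]; exact hGm2) (by
      have : ∀ x, -(G x - m) * Real.exp (-H x) = -((G x - m) * Real.exp (-H x)) := fun x => by ring
      simp_rw [this]
      rw [integral_neg, hm, neg_zero]) hε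
  have h3' : ∫ x, (Lp H φ x + (G x - m)) ^ 2 * Real.exp (-H x) ≤ ε := by
    refine le_trans (le_of_eq ?_) h3
    refine integral_congr_ae (ae_of_all _ fun x => ?_)
    show (Lp H φ x + (G x - m)) ^ 2 * Real.exp (-H x) =
      (Lp H φ x - -(G x - m)) ^ 2 * Real.exp (-H x)
    ring
  refine ⟨φ, h1, h2, h3', ?_⟩
  have hφ2 : ContDiff ℝ 2 φ := contDiff_infty.1 h1 2
  have hφ3 : ContDiff ℝ 3 φ := contDiff_infty.1 h1 3
  have hbo := bochner hH hφ3 h2
  have hib := ibp hH1 hφ2 h2 hGm
  have e0 : ∀ i x, pd i (fun y => G y - m) x = pd i G x := by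
    intro i x
    rw [pd_sub (hG.differentiable (by norm_num) x) (differentiableAt_const m), pd_const, sub_zero]
  simp_rw [e0] at hib
  have cL : Continuous (Lp H φ) := continuous_Lp hH1 hφ2
  have iL2 : Integrable fun x => Lp H φ x ^ 2 * Real.exp (-H x) := by
    have hcc : Continuous fun x => Lp H φ x * (Lp H φ x * Real.exp (-H x)) := cL.mul (cL.mul hE)
    have h4 : Integrable (fun x => Lp H φ x * (Lp H φ x * Real.exp (-H x))) volume :=
      hcc.integrable_of_hasCompactSupport (hcs_Lp h2).mul_right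
    refine h4.congr (ae_of_all _ fun x => ?_)
    show Lp H φ x * (Lp H φ x * Real.exp (-H x)) = _
    ring
  have iLG : Integrable fun x => Lp H φ x * (G x - m) * Real.exp (-H x) := by
    have hcc : Continuous fun x => Lp H φ x * (G x - m) * Real.exp (-H x) :=
      (cL.mul hGm.continuous).mul hE
    exact hcc.integrable_of_hasCompactSupport (hcs_Lp h2).mul_right.mul_right
  have hex : ∫ x, (Lp H φ x + (G x - m)) ^ 2 * Real.exp (-H x) =
      (∫ x, Lp H φ x ^ 2 * Real.exp (-H x)) + 2 * (∫ x, Lp H φ x * (G x - m) *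
        Real.exp (-H x)) + ∫ x, (G x - m) ^ 2 * Real.exp (-H x) := by
    have i3 : Integrable fun x => Lp H φ x ^ 2 * Real.exp (-H x) +
      2 * (Lp H φ x * (G x - m) * Real.exp (-H x)) := iL2.add (iLG.const_mul 2)
    rw [← integral_const_mul, ← integral_add iL2 (iLG.const_mul 2), ← integral_add i3 hGm2]
    refine integral_congr_ae (ae_of_all _ fun x => ?_)
    show (Lp H φ x + (G x - m)) ^ 2 * Real.exp (-H x) = Lp H φ x ^ 2 * Real.exp (-H x) +
      2 * (Lp H φ x * (G x - m) * Real.exp (-H x)) + (G x - m) ^ 2 * Real.exp (-H x)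
    ring
  rw [hex, hbo, hib] at h3'
  linarith

/-- **dual variance bound**: a bound for the Helffer–Sjöstrand functional on test functions
bounds the variance -/
theorem hs_var_le (hH : ContDiff ℝ 2 H) (hi : Integrable fun x => Real.exp (-H x)) {C : ℝ}
    (hC : 0 ≤ C) (hL : ∀ i x y, |pd i H x - pd i H y| ≤ C * ‖x - y‖)
    (hG : ContDiff ℝ 1 G) (hG2 : Integrable fun x => G x ^ 2 * Real.exp (-H x))
    {m : ℝ} (hm : ∫ x, (G x - m) * Real.exp (-H x) = 0) {B : ℝ}
    (hB : ∀ φ : (ι → ℝ) → ℝ, ContDiff ℝ ∞ φ → HasCompactSupport φ →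
      2 * (∫ x, (∑ i, pd i φ x * pd i G x) * Real.exp (-H x)) ≤
        (∫ x, ((∑ i, ∑ j, pd i (pd j φ) x ^ 2) +
          ∑ i, ∑ j, pd i (pd j H) x * pd i φ x * pd j φ x) * Real.exp (-H x)) + B) :
    ∫ x, (G x - m) ^ 2 * Real.exp (-H x) ≤ B := by
  refine le_of_forall_pos_le_add fun ε hε => ?_
  obtain ⟨φ, h1, h2, -, h3⟩ := hs_upper hH hi hC hL hG hG2 hm hε
  have := hB φ h1 h2
  linarith

end

end Crest.Agent.R144.Hs865
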