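import Crest.Agent.R144.Hs6_865
import Crest.Agent.R144.MW1_121

/-!
# R144, static functional inequalities (helper865), file 10: the upper bound in field form and
wall Hamiltonians

* `fi3`      : `hs_upper` for bounded Hessian, with the field `Y = ∇φ` and 121's energy `en`;
* `wall`     : a `C²` soft wall, `wall = 0` on `(-∞, 0]`, `wall'' t = min t₊ 1`;
* `HamW`     : `H x = ∑ p ∈ J, k p * W p (a p x - c p) + lam / 2 * ∑ x_i² + b x`, its gradient,
  Hessian form, integrability of `(1 + ‖x‖)^n e^{-H}`, and `fi3` for it.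
-/

set_option autoImplicit false
set_option linter.unusedSectionVars false

open MeasureTheory Set Filter Topology
open scoped ENNReal NNReal ContDiff

namespace Crest.Agent.R144.Hs865

noncomputable section

variable {ι : Type*} [Fintype ι] [DecidableEq ι]

variable {φ H G : (ι → ℝ) → ℝ}

/-! ### generalities -/

theorem fderiv_eq_sum (f : (ι → ℝ) → ℝ) (x v : ι → ℝ) :
    fderiv ℝ f x v = ∑ i, v i * pd i f x := by
  have h1 : v = ∑ i, v i • (Pi.single i (1 : ℝ) : ι → ℝ) := by
    funext j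
    rw [Finset.sum_apply]
    simp [Pi.single_apply]
  conv_lhs => rw [h1]
  rw [map_sum]
  refine Finset.sum_congr rfl fun i _ => ?_
  rw [map_smul, smul_eq_mul]; rfl

theorem norm_fderiv_le {f : (ι → ℝ) → ℝ} {x : ι → ℝ} {B : ℝ} (hB : ∀ i, |pd i f x| ≤ B) :
    ‖fderiv ℝ f x‖ ≤ Fintype.card ι * |B| := by
  refine ContinuousLinearMap.opNorm_le_bound _ (by positivity) fun v => ?_
  rw [fderiv_eq_sum, Real.norm_eq_abs]
  refine (Finset.abs_sum_le_sum_abs _ _).trans ?_
  have h1 : ∀ i, |v i * pd i f x| ≤ |B| * ‖v‖ := fun i => by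
    rw [abs_mul, mul_comm]
    exact mul_le_mul ((hB i).trans (le_abs_self _)) (norm_le_pi_norm v i) (abs_nonneg _)
      (abs_nonneg _)
  refine (Finset.sum_le_sum fun i _ => h1 i).trans ?_
  rw [Finset.sum_const, Finset.card_univ, nsmul_eq_mul, mul_assoc]

/-- bounded Hessian implies Lipschitz gradient -/
theorem lip_of_hess (hH : ContDiff ℝ 2 H) {B : ℝ} (hB : ∀ i j x, |pd i (pd j H) x| ≤ B)
    (i : ι) (x y : ι → ℝ) : |pd i H x - pd i H y| ≤ Fintype.card ι * |B| * ‖x - y‖ := by
  have hd : ContDiff ℝ 1 (pd i H) := contDiff_pd hH (by norm_num) i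
  have := Convex.norm_image_sub_le_of_norm_fderiv_le (𝕜 := ℝ) (f := pd i H) (s := univ)
    (fun z _ => hd.differentiable (by norm_num) z)
    (fun z _ => norm_fderiv_le fun j => hB j i z) convex_univ (mem_univ y) (mem_univ x)
  simpa using this

/-- **`hs_upper` in field form** -/
theorem fi3 (hH : ContDiff ℝ 2 H) (hi : Integrable fun x => Real.exp (-H x)) {B : ℝ}
    (hB : ∀ i j x, |pd i (pd j H) x| ≤ B)
    (hG : ContDiff ℝ 1 G) (hG2 : Integrable fun x => G x ^ 2 * Real.exp (-H x))
    {m : ℝ} (hm : ∫ x, (G x - m) * Real.exp (-H x) = 0) {ε : ℝ} (hε : 0 < ε) :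
    ∃ Y : (ι → ℝ) → (ι → ℝ), ContDiff ℝ ∞ Y ∧ HasCompactSupport Y ∧
      (∫ x, (G x - m) ^ 2 * Real.exp (-H x) ≤
        2 * (∫ x, fderiv ℝ G x (Y x) * Real.exp (-H x)) -
        (∫ x, (MW121.en Y x + ∑ i, ∑ j, pd i (pd j H) x * Y x i * Y x j) *
          Real.exp (-H x)) + ε) ∧
      (∫ x, (MW121.en Y x + ∑ i, ∑ j, pd i (pd j H) x * Y x i * Y x j) * Real.exp (-H x) ≤
        2 * (∫ x, (G x - m) ^ 2 * Real.exp (-H x)) + 2 * ε) := by
  have hL := lip_of_hess hH hB
  have hC : 0 ≤ Fintype.card ι * |B| := by positivity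
  obtain ⟨φ, h1, h2, h3, h4⟩ := hs_upper hH hi hC hL hG hG2 hm hε
  have hH1 : ContDiff ℝ 1 H := hH.of_le (by norm_num)
  have hφ2 : ContDiff ℝ 2 φ := contDiff_infty.1 h1 2
  have hφ3 : ContDiff ℝ 3 φ := contDiff_infty.1 h1 3
  have hYc : ContDiff ℝ ∞ fun x i => pd i φ x := by
    rw [contDiff_pi]
    exact fun i => contDiff_pd h1 (by norm_num) i
  have hYi : ∀ x v i, fderiv ℝ (fun x i => pd i φ x) x v i = fderiv ℝ (pd i φ) x v := by
    intro x v i
    have hd : ∀ i, DifferentiableAt ℝ (fun x => pd i φ x) x := fun i =>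
      (contDiff_pd (m := 1) hφ2 (by norm_num) i).differentiable (by norm_num) x
    rw [fderiv_pi hd]; rfl
  have hen : ∀ x, MW121.en (fun x i => pd i φ x) x = ∑ i, ∑ j, pd i (pd j φ) x ^ 2 := by
    intro x
    unfold MW121.en
    rw [Finset.sum_comm]
    refine Finset.sum_congr rfl fun i _ => Finset.sum_congr rfl fun j _ => ?_
    rw [MW121.jac_apply, hYi]; rfl
  have hYs : HasCompactSupport fun (x : ι → ℝ) (i : ι) => pd i φ x := by
    have h5 : HasCompactSupport (fderiv ℝ φ) := h2.fderiv ℝ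
    refine h5.mono fun x hx => ?_
    rw [Function.mem_support] at hx ⊢
    intro h6
    apply hx
    funext i
    show fderiv ℝ φ x (Pi.single i 1) = 0
    rw [h6]; rfl
  have e1 : ∀ x, MW121.en (fun x i => pd i φ x) x + ∑ i, ∑ j, pd i (pd j H) x * pd i φ x *
      pd j φ x = (∑ i, ∑ j, pd i (pd j φ) x ^ 2) +
          ∑ i, ∑ j, pd i (pd j H) x * pd i φ x * pd j φ x := fun x => by rw [hen]
  refine ⟨fun x i => pd i φ x, hYc, hYs, ?_, ?_⟩
  · simp_rw [e1, fderiv_eq_sum G]
    exact h4
  · simp_rw [e1]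
    rw [← bochner hH hφ3 h2]
    have hE : Continuous fun x => Real.exp (-H x) := (contDiff_expneg hH1).continuous
    have cL : Continuous (Lp H φ) := continuous_Lp hH1 hφ2
    have hGm : Continuous fun x => G x - m := hG.continuous.sub continuous_const
    have iL2 : Integrable fun x => Lp H φ x ^ 2 * Real.exp (-H x) := by
      have hcc : Continuous fun x => Lp H φ x * (Lp H φ x * Real.exp (-H x)) :=
        cL.mul (cL.mul hE)
      have h4 : Integrable (fun x => Lp H φ x * (Lp H φ x * Real.exp (-H x))) volume :=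
        hcc.integrable_of_hasCompactSupport (hcs_Lp h2).mul_right
      refine h4.congr (ae_of_all _ fun x => ?_)
      show Lp H φ x * (Lp H φ x * Real.exp (-H x)) = _
      ring
    have iLG : Integrable fun x => Lp H φ x * (G x - m) * Real.exp (-H x) := by
      have hcc : Continuous fun x => Lp H φ x * (G x - m) * Real.exp (-H x) :=
        (cL.mul hGm).mul hE
      exact hcc.integrable_of_hasCompactSupport (hcs_Lp h2).mul_right.mul_right
    have hG1 : Integrable fun x => G x * Real.exp (-H x) := by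
      refine Integrable.mono' (g := fun x => (G x ^ 2 * Real.exp (-H x)) + Real.exp (-H x))
        (hG2.add hi) (hG.continuous.mul hE).aestronglyMeasurable (ae_of_all _ fun x => ?_)
      rw [Real.norm_eq_abs, abs_mul, abs_of_pos (Real.exp_pos _)]
      have h1 : |G x| ≤ G x ^ 2 + 1 := by
        rw [← sq_abs]; nlinarith [sq_nonneg (|G x| - 1), abs_nonneg (G x)]
      have h2 := mul_le_mul_of_nonneg_right h1 (Real.exp_pos (-H x)).le
      linarith
    have hGm2 : Integrable fun x => (G x - m) ^ 2 * Real.exp (-H x) := by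
      have h1 : Integrable fun x => G x ^ 2 * Real.exp (-H x) -
        2 * m * (G x * Real.exp (-H x)) + m ^ 2 * Real.exp (-H x) :=
        (hG2.sub (hG1.const_mul _)).add (hi.const_mul _)
      refine h1.congr (ae_of_all _ fun x => ?_)
      show G x ^ 2 * Real.exp (-H x) - 2 * m * (G x * Real.exp (-H x)) +
        m ^ 2 * Real.exp (-H x) = (G x - m) ^ 2 * Real.exp (-H x)
      ring
    have iS : Integrable fun x => (Lp H φ x + (G x - m)) ^ 2 * Real.exp (-H x) := by
      have h1 : Integrable fun x => Lp H φ x ^ 2 * Real.exp (-H x) +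
        2 * (Lp H φ x * (G x - m) * Real.exp (-H x)) + (G x - m) ^ 2 * Real.exp (-H x) :=
        (iL2.add (iLG.const_mul 2)).add hGm2
      refine h1.congr (ae_of_all _ fun x => ?_)
      show Lp H φ x ^ 2 * Real.exp (-H x) + 2 * (Lp H φ x * (G x - m) * Real.exp (-H x)) +
        (G x - m) ^ 2 * Real.exp (-H x) = (Lp H φ x + (G x - m)) ^ 2 * Real.exp (-H x)
      ring
    calc ∫ x, Lp H φ x ^ 2 * Real.exp (-H x) ≤
        ∫ x, (2 * ((Lp H φ x + (G x - m)) ^ 2 * Real.exp (-H x)) +
          2 * ((G x - m) ^ 2 * Real.exp (-H x))) := by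
          refine integral_mono iL2 ((iS.const_mul 2).add (hGm2.const_mul 2)) fun x => ?_
          show Lp H φ x ^ 2 * Real.exp (-H x) ≤ 2 * ((Lp H φ x + (G x - m)) ^ 2 *
            Real.exp (-H x)) + 2 * ((G x - m) ^ 2 * Real.exp (-H x))
          have h1 : Lp H φ x ^ 2 ≤ 2 * (Lp H φ x + (G x - m)) ^ 2 + 2 * (G x - m) ^ 2 := by
            nlinarith [sq_nonneg (Lp H φ x + 2 * (G x - m))]
          have h2 := mul_le_mul_of_nonneg_right h1 (Real.exp_pos (-H x)).le
          linarith
      _ = 2 * (∫ x, (Lp H φ x + (G x - m)) ^ 2 * Real.exp (-H x)) +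
          2 * ∫ x, (G x - m) ^ 2 * Real.exp (-H x) := by
          rw [integral_add (iS.const_mul 2) (hGm2.const_mul 2), integral_const_mul,
            integral_const_mul]
      _ ≤ _ := by linarith

end

end Crest.Agent.R144.Hs865
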