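import Crest.Agent.R144.Hs7_865

/-!
# R144, static functional inequalities (helper865), file 11: wall Hamiltonians

* `wall`     : a `C²` soft wall, `wall = 0` on `(-∞, 0]`, `wall'' t = min t₊ 1`;
* `HamW`     : `H x = ∑ p ∈ J, k p * W p (a p x - c p) + lam / 2 * ∑ x_i² + b x`, its gradient,
  Hessian form, integrability of `(1 + ‖x‖)^n e^{-H}`, and `fi3` for it.
-/

set_option autoImplicit false
set_option linter.unusedSectionVars false

open MeasureTheory Set Filter Topology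
open scoped ENNReal NNReal ContDiff

namespace Crest.Agent.R144.Hs865

noncomputable section

/-! ### the soft wall -/

/-- `q n t = t₊ ^ n` -/
def tp (n : ℕ) (t : ℝ) : ℝ := max t 0 ^ n

theorem continuous_tp (n : ℕ) : Continuous (tp n) := by
  unfold tp; exact (continuous_id.max continuous_const).pow n

theorem hasDerivAt_tp (n : ℕ) (t : ℝ) : HasDerivAt (tp (n + 2)) ((n + 2) * tp (n + 1) t) t := by
  rcases lt_trichotomy t 0 with h | h | h
  · have h1 : tp (n + 2) =ᶠ[𝓝 t] fun _ => 0 := by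
      filter_upwards [eventually_lt_nhds h] with s hs
      show max s 0 ^ (n + 2) = 0
      rw [max_eq_right hs.le]; simp
    have h2 : (n + 2) * tp (n + 1) t = 0 := by
      unfold tp; rw [max_eq_right h.le]; simp
    rw [h2]
    exact (hasDerivAt_const t (0 : ℝ)).congr_of_eventuallyEq h1
  · subst h
    have h2 : (n + 2) * tp (n + 1) 0 = 0 := by unfold tp; simp
    rw [h2, hasDerivAt_iff_isLittleO]
    have h3 : (fun x : ℝ => tp (n + 2) x - tp (n + 2) 0 - (x - 0) • (0 : ℝ)) =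
        fun x => tp (n + 2) x := by
      funext x; unfold tp; simp
    rw [h3]
    have h4 : (fun x : ℝ => x - 0) = fun x => x := by funext x; ring
    rw [h4]
    refine Asymptotics.isLittleO_iff.2 fun c hc => ?_
    have h5 : Tendsto (fun x : ℝ => max x 0 ^ (n + 1)) (𝓝 0) (𝓝 0) := by
      have h6 := (continuous_tp (n + 1)).tendsto 0
      have h7 : tp (n + 1) 0 = 0 := by unfold tp; simp
      rw [h7] at h6
      exact h6
    filter_upwards [h5.eventually (eventually_lt_nhds hc)] with x hx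
    unfold tp
    rw [Real.norm_eq_abs, Real.norm_eq_abs, abs_of_nonneg (by positivity),
      show n + 2 = (n + 1) + 1 from rfl, pow_succ]
    refine mul_le_mul hx.le ?_ (le_max_right _ _) hc.le
    rcases le_total x 0 with hx0 | hx0
    · rw [max_eq_right hx0]; exact abs_nonneg _
    · rw [max_eq_left hx0]; exact le_abs_self _
  · have h1 : tp (n + 2) =ᶠ[𝓝 t] fun s => s ^ (n + 2) := by
      filter_upwards [eventually_gt_nhds h] with s hs
      show max s 0 ^ (n + 2) = _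
      rw [max_eq_left hs.le]
    have h2 : (n + 2) * tp (n + 1) t = ((n + 2 : ℕ) : ℝ) * t ^ (n + 2 - 1) := by
      unfold tp; rw [max_eq_left h.le]; push_cast; rfl
    rw [h2]
    exact (hasDerivAt_pow (n + 2) t).congr_of_eventuallyEq h1

/-- the soft wall: `0` for `t ≤ 0`, second derivative `min t₊ 1` -/
def wall (t : ℝ) : ℝ := tp 3 t / 6 - tp 3 (t - 1) / 6

theorem hasDerivAt_wall (t : ℝ) : HasDerivAt wall (tp 2 t / 2 - tp 2 (t - 1) / 2) t := by
  have h1 := (hasDerivAt_tp 1 t).div_const 6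
  have h2 := (((hasDerivAt_tp 1 (t - 1)).comp t ((hasDerivAt_id t).sub_const 1))).div_const 6
  have h3 := h1.sub h2
  have e : ((1 : ℕ) + 2 : ℝ) * tp (1 + 1) t / 6 - ((1 : ℕ) + 2 : ℝ) * tp (1 + 1) (t - 1) * 1 / 6 =
      tp 2 t / 2 - tp 2 (t - 1) / 2 := by push_cast; ring
  rw [← e]
  exact h3

theorem deriv_wall : deriv wall = fun t => tp 2 t / 2 - tp 2 (t - 1) / 2 :=
  funext fun t => (hasDerivAt_wall t).deriv

theorem hasDerivAt_wall' (t : ℝ) : HasDerivAt (fun t => tp 2 t / 2 - tp 2 (t - 1) / 2)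
    (tp 1 t - tp 1 (t - 1)) t := by
  have h1 := (hasDerivAt_tp 0 t).div_const 2
  have h2 := (((hasDerivAt_tp 0 (t - 1)).comp t ((hasDerivAt_id t).sub_const 1))).div_const 2
  have h3 := h1.sub h2
  have e : ((0 : ℕ) + 2 : ℝ) * tp (0 + 1) t / 2 - ((0 : ℕ) + 2 : ℝ) * tp (0 + 1) (t - 1) * 1 / 2 =
      tp 1 t - tp 1 (t - 1) := by push_cast; ring
  rw [← e]
  exact h3

theorem deriv2_wall : deriv (deriv wall) = fun t => min (max t 0) 1 := by
  rw [deriv_wall]
  funext t
  rw [(hasDerivAt_wall' t).deriv]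
  unfold tp
  rw [pow_one, pow_one]
  rcases le_total t 0 with h | h
  · rw [max_eq_right h, max_eq_right (by linarith)]
    rw [min_eq_left (by norm_num)]; ring
  · rw [max_eq_left h]
    rcases le_total t 1 with h' | h'
    · rw [max_eq_right (by linarith), min_eq_left h']; ring
    · rw [max_eq_left (by linarith), min_eq_right h']; ring

theorem contDiff_wall : ContDiff ℝ 2 wall := by
  have h1 : ContDiff ℝ 1 (deriv wall) := by
    rw [show (1 : WithTop ℕ∞) = 0 + 1 from (zero_add 1).symm, contDiff_succ_iff_deriv]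
    refine ⟨fun t => ?_, by simp, ?_⟩
    · rw [deriv_wall]; exact (hasDerivAt_wall' t).differentiableAt
    · rw [contDiff_zero, deriv2_wall]
      exact (continuous_id.max continuous_const).min continuous_const
  rw [show (2 : WithTop ℕ∞) = 1 + 1 from by norm_num, contDiff_succ_iff_deriv]
  exact ⟨fun t => (hasDerivAt_wall t).differentiableAt, by simp, h1⟩

theorem deriv2_wall_nonneg (t : ℝ) : 0 ≤ deriv (deriv wall) t := by
  rw [deriv2_wall]; exact le_min (le_max_right _ _) zero_le_one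

theorem deriv2_wall_le_one (t : ℝ) : deriv (deriv wall) t ≤ 1 := by
  rw [deriv2_wall]; exact min_le_right _ _

theorem wall_of_nonpos {t : ℝ} (h : t ≤ 0) : wall t = 0 := by
  unfold wall tp
  rw [max_eq_right h, max_eq_right (by linarith)]; ring

theorem wall_of_ge {t : ℝ} (h : 1 ≤ t) : wall t = t ^ 2 / 2 - t / 2 + 1 / 6 := by
  unfold wall tp
  rw [max_eq_left (by linarith), max_eq_left (by linarith)]; ring

theorem wall_of_mem {t : ℝ} (h : 0 ≤ t) (h' : t ≤ 1) : wall t = t ^ 3 / 6 := by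
  unfold wall tp
  rw [max_eq_left h, max_eq_right (by linarith)]; ring

theorem wall_nonneg (t : ℝ) : 0 ≤ wall t := by
  rcases le_total t 0 with h | h
  · rw [wall_of_nonpos h]
  · rcases le_total t 1 with h' | h'
    · rw [wall_of_mem h h']; positivity
    · rw [wall_of_ge h']; nlinarith

theorem deriv_wall_nonneg (t : ℝ) : 0 ≤ deriv wall t := by
  rw [deriv_wall]
  show 0 ≤ tp 2 t / 2 - tp 2 (t - 1) / 2
  have h : max (t - 1) 0 ≤ max t 0 := max_le_max (by linarith) le_rfl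
  have h2 : max (t - 1) 0 ^ 2 ≤ max t 0 ^ 2 := pow_le_pow_left₀ (le_max_right _ _) h 2
  unfold tp
  linarith

/-! ### wall Hamiltonians -/

variable {ι : Type*} [Fintype ι] [DecidableEq ι]

/-- `H x = ∑ p ∈ J, k p * W p (a p x - c p) + lam / 2 * ∑ x_i² + b x` -/
def HamW {P : Type*} (J : Finset P) (k : P → ℝ) (W : P → ℝ → ℝ) (a : P → (ι → ℝ) →L[ℝ] ℝ)
    (c : P → ℝ) (lam : ℝ) (b : (ι → ℝ) →L[ℝ] ℝ) (x : ι → ℝ) : ℝ :=
  (∑ p ∈ J, k p * W p (a p x - c p)) + lam / 2 * (∑ i, x i ^ 2) + b x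

variable {P : Type*} {J : Finset P} {k : P → ℝ} {W : P → ℝ → ℝ} {a : P → (ι → ℝ) →L[ℝ] ℝ}
  {c : P → ℝ} {lam : ℝ} {b : (ι → ℝ) →L[ℝ] ℝ}

theorem contDiff_HamW (hW : ∀ p, ContDiff ℝ 2 (W p)) : ContDiff ℝ 2 (HamW J k W a c lam b) := by
  unfold HamW
  refine ContDiff.add (ContDiff.add (ContDiff.sum fun p _ => ?_) ?_) b.contDiff
  · exact contDiff_const.mul ((hW p).comp ((a p).contDiff.sub contDiff_const))
  · refine contDiff_const.mul (ContDiff.sum fun i _ => ?_)
    exact (contDiff_apply ℝ ℝ i).pow 2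

theorem pd_clm (l : (ι → ℝ) →L[ℝ] ℝ) (i : ι) (x : ι → ℝ) :
    pd i (fun y => l y) x = l (Pi.single i 1) := by
  unfold pd
  rw [ContinuousLinearMap.fderiv]

theorem pd_coord (i j : ι) (x : ι → ℝ) : pd i (fun y => y j) x = if i = j then 1 else 0 := by
  have h := pd_clm (ContinuousLinearMap.proj (R := ℝ) (φ := fun _ : ι => ℝ) j) i x
  have h2 : (fun y : ι → ℝ => y j) =
      fun y => ContinuousLinearMap.proj (R := ℝ) (φ := fun _ : ι => ℝ) j y := rfl
  rw [h2, h]
  show (Pi.single i (1 : ℝ) : ι → ℝ) j = _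
  rw [Pi.single_apply]
  exact if_congr eq_comm rfl rfl

theorem pd_comp {F : ℝ → ℝ} (hF : ContDiff ℝ 1 F) (l : (ι → ℝ) →L[ℝ] ℝ) (s : ℝ) (i : ι)
    (x : ι → ℝ) : pd i (fun y => F (l y - s)) x = deriv F (l x - s) * l (Pi.single i 1) := by
  have h1 : HasFDerivAt (fun y => l y - s) l x := l.hasFDerivAt.sub_const s
  have h2 := (hF.differentiable (by norm_num) (l x - s)).hasDerivAt.comp_hasFDerivAt x h1
  unfold pd
  have h3 : (fun y => F (l y - s)) = F ∘ fun y => l y - s := rfl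
  rw [h3, h2.fderiv]
  rfl

theorem pd_HamW (hW : ∀ p, ContDiff ℝ 2 (W p)) (i : ι) (x : ι → ℝ) :
    pd i (HamW J k W a c lam b) x =
      (∑ p ∈ J, k p * deriv (W p) (a p x - c p) * a p (Pi.single i 1)) + lam * x i +
        b (Pi.single i 1) := by
  have hW1 : ∀ p, ContDiff ℝ 1 (W p) := fun p => (hW p).of_le (by norm_num)
  have d1 : ∀ p, DifferentiableAt ℝ (fun y => W p (a p y - c p)) x := fun p =>
    (((hW1 p).comp ((a p).contDiff.sub contDiff_const)).differentiable (by norm_num)) x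
  have d2 : ∀ p, DifferentiableAt ℝ (fun y => k p * W p (a p y - c p)) x := fun p =>
    (d1 p).const_mul _
  have d3 : DifferentiableAt ℝ (fun y => ∑ p ∈ J, k p * W p (a p y - c p)) x :=
    DifferentiableAt.fun_sum fun p _ => d2 p
  have d4 : ∀ j, DifferentiableAt ℝ (fun y : ι → ℝ => y j ^ 2) x := fun j =>
    (differentiableAt_apply j x).pow 2
  have d5 : DifferentiableAt ℝ (fun y : ι → ℝ => ∑ j, y j ^ 2) x :=
    DifferentiableAt.fun_sum fun p _ => d4 p
  have d6 : DifferentiableAt ℝ (fun y : ι → ℝ => lam / 2 * (∑ j, y j ^ 2)) x := d5.const_mul _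
  have e1 : pd i (fun y => ∑ p ∈ J, k p * W p (a p y - c p)) x =
      ∑ p ∈ J, k p * deriv (W p) (a p x - c p) * a p (Pi.single i 1) := by
    rw [pd_sum J fun p _ => d2 p]
    refine Finset.sum_congr rfl fun p _ => ?_
    rw [pd_cmul (k p) i (d1 p), pd_comp (hW1 p)]
    ring
  have e2 : pd i (fun y : ι → ℝ => lam / 2 * (∑ j, y j ^ 2)) x = lam * x i := by
    rw [pd_cmul _ i d5, pd_sum Finset.univ fun j _ => d4 j]
    have h1 : ∀ j, pd i (fun y : ι → ℝ => y j ^ 2) x = if i = j then 2 * x j else 0 := by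
      intro j
      have h2 : (fun y : ι → ℝ => y j ^ 2) = fun y => y j * y j := by funext y; ring
      rw [h2, pd_mul (differentiableAt_apply j x) (differentiableAt_apply j x), pd_coord]
      split_ifs with h
      · ring
      · ring
    rw [Finset.sum_congr rfl fun j _ => h1 j]
    simp
    ring
  unfold HamW
  rw [pd_add (f := fun y => (∑ p ∈ J, k p * W p (a p y - c p)) + lam / 2 * (∑ j, y j ^ 2))
    (g := fun y => b y) (d3.fun_add d6) b.differentiableAt,
    pd_add (f := fun y => ∑ p ∈ J, k p * W p (a p y - c p))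
      (g := fun y => lam / 2 * (∑ j, y j ^ 2)) d3 d6, e1, e2, pd_clm]

theorem pd_pd_HamW (hW : ∀ p, ContDiff ℝ 2 (W p)) (i j : ι) (x : ι → ℝ) :
    pd i (pd j (HamW J k W a c lam b)) x =
      (∑ p ∈ J, k p * deriv (deriv (W p)) (a p x - c p) * a p (Pi.single i 1) *
        a p (Pi.single j 1)) + lam * (if i = j then 1 else 0) := by
  have hW1 : ∀ p, ContDiff ℝ 1 (deriv (W p)) := fun p => by
    have := hW p
    rw [show (2 : WithTop ℕ∞) = 1 + 1 from by norm_num, contDiff_succ_iff_deriv] at this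
    exact this.2.2
  have d1 : ∀ p, DifferentiableAt ℝ (fun y => deriv (W p) (a p y - c p)) x := fun p =>
    (((hW1 p).comp ((a p).contDiff.sub contDiff_const)).differentiable (by norm_num)) x
  have d2 : ∀ p, DifferentiableAt ℝ (fun y => (k p * a p (Pi.single j 1)) *
      deriv (W p) (a p y - c p)) x := fun p => (d1 p).const_mul _
  have d3 : DifferentiableAt ℝ (fun y => ∑ p ∈ J, (k p * a p (Pi.single j 1)) *
      deriv (W p) (a p y - c p)) x := DifferentiableAt.fun_sum fun p _ => d2 p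
  have d4 : DifferentiableAt ℝ (fun y : ι → ℝ => y j) x := differentiableAt_apply j x
  have d5 : DifferentiableAt ℝ (fun y : ι → ℝ => lam * y j) x := d4.const_mul _
  have e0 : pd j (HamW J k W a c lam b) = fun y => ((∑ p ∈ J, (k p * a p (Pi.single j 1)) *
      deriv (W p) (a p y - c p)) + lam * y j) + b (Pi.single j 1) := by
    funext y
    rw [pd_HamW hW]
    congr 2
    exact Finset.sum_congr rfl fun p _ => by ring
  rw [e0, pd_add (f := fun y => (∑ p ∈ J, (k p * a p (Pi.single j 1)) *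
      deriv (W p) (a p y - c p)) + lam * y j) (g := fun _ => b (Pi.single j 1)) (d3.fun_add d5)
    (differentiableAt_const _), pd_const, add_zero,
    pd_add (f := fun y => ∑ p ∈ J, (k p * a p (Pi.single j 1)) *
      deriv (W p) (a p y - c p)) (g := fun y => lam * y j) d3 d5, pd_sum J fun p _ => d2 p,
    pd_cmul lam i d4, pd_coord]
  congr 1
  refine Finset.sum_congr rfl fun p _ => ?_
  rw [pd_cmul _ i (d1 p), pd_comp (hW1 p)]
  ring

/-- the Hessian form -/
theorem hess_HamW (hW : ∀ p, ContDiff ℝ 2 (W p)) (x v : ι → ℝ) :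
    ∑ i, ∑ j, pd i (pd j (HamW J k W a c lam b)) x * v i * v j =
      (∑ p ∈ J, k p * deriv (deriv (W p)) (a p x - c p) * (a p v) ^ 2) +
        lam * ∑ i, v i ^ 2 := by
  have hl : ∀ l : (ι → ℝ) →L[ℝ] ℝ, l v = ∑ i, v i * l (Pi.single i 1) := by
    intro l
    have h1 := fderiv_eq_sum (fun y => l y) x v
    have h2 : fderiv ℝ (fun y => l y) x v = l v := by rw [ContinuousLinearMap.fderiv]
    rw [← h2, h1]
    exact Finset.sum_congr rfl fun i _ => by rw [pd_clm]
  simp_rw [pd_pd_HamW hW, add_mul, Finset.sum_add_distrib]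
  congr 1
  · have e1 : ∀ p ∈ J, k p * deriv (deriv (W p)) (a p x - c p) * (a p v) ^ 2 =
        ∑ i, ∑ j, k p * deriv (deriv (W p)) (a p x - c p) * a p (Pi.single i 1) *
          a p (Pi.single j 1) * v i * v j := by
      intro p _
      rw [hl, sq, Finset.sum_mul_sum, Finset.mul_sum]
      refine Finset.sum_congr rfl fun i _ => ?_
      rw [Finset.mul_sum]
      exact Finset.sum_congr rfl fun j _ => by ring
    have e2 : ∑ p ∈ J, k p * deriv (deriv (W p)) (a p x - c p) * (a p v) ^ 2 =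
        ∑ i, ∑ j, ∑ p ∈ J, k p * deriv (deriv (W p)) (a p x - c p) * a p (Pi.single i 1) *
          a p (Pi.single j 1) * v i * v j := by
      rw [Finset.sum_congr (rfl : J = J) e1, Finset.sum_comm]
      refine Finset.sum_congr rfl fun i _ => ?_
      rw [Finset.sum_comm]
    rw [e2]
    refine Finset.sum_congr rfl fun i _ => Finset.sum_congr rfl fun j _ => ?_
    rw [Finset.sum_mul, Finset.sum_mul]
  · rw [Finset.mul_sum]
    refine Finset.sum_congr rfl fun i _ => ?_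
    simp
    ring

/-- bounded Hessian -/
theorem hess_bdd_HamW (hW : ∀ p, ContDiff ℝ 2 (W p)) {M : ℝ} (hM : 0 ≤ M)
    (hWM : ∀ p t, |deriv (deriv (W p)) t| ≤ M) (i j : ι) (x : ι → ℝ) :
    |pd i (pd j (HamW J k W a c lam b)) x| ≤ (∑ p ∈ J, |k p| * M * ‖a p‖ * ‖a p‖) + |lam| := by
  rw [pd_pd_HamW hW]
  refine (abs_add_le _ _).trans (add_le_add ?_ ?_)
  · refine (Finset.abs_sum_le_sum_abs _ _).trans (Finset.sum_le_sum fun p _ => ?_)
    have h1 : ∀ i, |a p (Pi.single i 1)| ≤ ‖a p‖ := by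
      intro i
      have := (a p).le_opNorm (Pi.single i 1)
      rwa [Real.norm_eq_abs, Pi.norm_single, norm_one, mul_one] at this
    rw [abs_mul, abs_mul, abs_mul]
    have := hWM p (a p x - c p)
    gcongr
    · exact h1 i
    · exact h1 j
  · rw [abs_mul]
    split_ifs
    · simp
    · simp

/-! ### integrability -/

theorem integrable_exp_neg_sq {s : ℝ} (hs : 0 < s) :
    Integrable fun x : ι → ℝ => Real.exp (-s * ∑ i, x i ^ 2) := by
  have h1 : Integrable fun x : ι → ℝ => ∏ i, Real.exp (-s * x i ^ 2) :=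
    Integrable.fintype_prod (f := fun _ (t : ℝ) => Real.exp (-s * t ^ 2))
      fun _ => integrable_exp_neg_mul_sq hs
  refine h1.congr (ae_of_all _ fun x => ?_)
  show ∏ i, Real.exp (-s * x i ^ 2) = Real.exp (-s * ∑ i, x i ^ 2)
  rw [← Real.exp_sum, Finset.mul_sum]

theorem norm_le_quad {s : ℝ} (hs : 0 < s) (x : ι → ℝ) :
    ‖x‖ ≤ s * (∑ i, x i ^ 2) + 1 / (4 * s) := by
  have h1 : ‖x‖ ^ 2 ≤ ∑ i, x i ^ 2 := by
    have h2 : ‖x‖ ≤ Real.sqrt (∑ i, x i ^ 2) := by
      refine (pi_norm_le_iff_of_nonneg (Real.sqrt_nonneg _)).2 fun i => ?_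
      refine Real.le_sqrt_of_sq_le ?_
      rw [Real.norm_eq_abs, sq_abs]
      exact Finset.single_le_sum (f := fun i => x i ^ 2) (fun i _ => sq_nonneg _)
        (Finset.mem_univ i)
    have h3 := pow_le_pow_left₀ (norm_nonneg _) h2 2
    rwa [Real.sq_sqrt (Finset.sum_nonneg fun i _ => sq_nonneg _)] at h3
  have h2 : 0 ≤ (2 * s * ‖x‖ - 1) ^ 2 := sq_nonneg _
  have h3 : ‖x‖ ≤ s * ‖x‖ ^ 2 + 1 / (4 * s) := by
    have h4 : s * ‖x‖ ^ 2 + 1 / (4 * s) - ‖x‖ = (2 * s * ‖x‖ - 1) ^ 2 / (4 * s) := by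
      field_simp; ring
    have h5 : 0 ≤ (2 * s * ‖x‖ - 1) ^ 2 / (4 * s) := by positivity
    linarith
  have h4 := mul_le_mul_of_nonneg_left h1 hs.le
  linarith

/-- lower bound of the Hamiltonian -/
theorem HamW_ge (hk : ∀ p ∈ J, 0 ≤ k p) (hW0 : ∀ p ∈ J, ∀ t, 0 ≤ W p t) (hlam : 0 < lam)
    (x : ι → ℝ) : lam / 4 * (∑ i, x i ^ 2) - ‖b‖ ^ 2 / lam ≤ HamW J k W a c lam b x := by
  unfold HamW
  have h1 : 0 ≤ ∑ p ∈ J, k p * W p (a p x - c p) :=
    Finset.sum_nonneg fun p hp => mul_nonneg (hk p hp) (hW0 p hp _)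
  have h2 : |b x| ≤ ‖b‖ * ‖x‖ := b.le_opNorm x
  have h3 := (abs_le.1 h2).1
  have hS : 0 ≤ ∑ i, x i ^ 2 := Finset.sum_nonneg fun i _ => sq_nonneg _
  by_cases hb : ‖b‖ = 0
  · rw [hb] at h3 ⊢
    have h4 : lam / 4 * (∑ i, x i ^ 2) ≤ lam / 2 * (∑ i, x i ^ 2) :=
      mul_le_mul_of_nonneg_right (by linarith) hS
    have h5 : (0 : ℝ) ^ 2 / lam = 0 := by simp
    rw [h5]; linarith
  · have hb' : 0 < ‖b‖ := lt_of_le_of_ne (norm_nonneg _) (Ne.symm hb)
    have h4 := norm_le_quad (s := lam / (4 * ‖b‖)) (by positivity) x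
    have h5 := mul_le_mul_of_nonneg_left h4 hb'.le
    have h6 : ‖b‖ * (lam / (4 * ‖b‖) * (∑ i, x i ^ 2) + 1 / (4 * (lam / (4 * ‖b‖)))) =
        lam / 4 * (∑ i, x i ^ 2) + ‖b‖ ^ 2 / lam := by
      field_simp
    rw [h6] at h5
    linarith

/-- polynomial moments -/
theorem integrable_pow_HamW (hW : ∀ p, ContDiff ℝ 2 (W p)) (hk : ∀ p ∈ J, 0 ≤ k p)
    (hW0 : ∀ p ∈ J, ∀ t, 0 ≤ W p t) (hlam : 0 < lam) (n : ℕ) :
    Integrable fun x => (1 + ‖x‖) ^ n * Real.exp (-HamW J k W a c lam b x) := by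
  have hs : 0 < lam / 8 := by positivity
  set A : ℝ := n.factorial * Real.exp (1 + 1 / (4 * (lam / 8)) + ‖b‖ ^ 2 / lam) with hA
  refine Integrable.mono' (g := fun x => A * Real.exp (-(lam / 8) * ∑ i, x i ^ 2))
    ((integrable_exp_neg_sq hs).const_mul A) ?_ (ae_of_all _ fun x => ?_)
  · refine Continuous.aestronglyMeasurable ?_
    exact ((continuous_const.add continuous_norm).pow n).mul
      (Real.continuous_exp.comp (contDiff_HamW hW).continuous.neg)
  · rw [Real.norm_eq_abs, abs_of_nonneg (by positivity)]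
    have h1 : (1 + ‖x‖) ^ n ≤ n.factorial * Real.exp (1 + ‖x‖) := by
      have := Real.pow_div_factorial_le_exp (1 + ‖x‖) (by positivity) n
      rwa [div_le_iff₀ (by positivity), mul_comm] at this
    have h2 := norm_le_quad hs x
    have h3 := HamW_ge (a := a) (c := c) (b := b) hk hW0 hlam x
    have h4 : Real.exp (1 + ‖x‖) * Real.exp (-HamW J k W a c lam b x) ≤
        Real.exp (1 + 1 / (4 * (lam / 8)) + ‖b‖ ^ 2 / lam) *
          Real.exp (-(lam / 8) * ∑ i, x i ^ 2) := by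
      rw [← Real.exp_add, ← Real.exp_add]
      refine Real.exp_le_exp.2 ?_
      have h5 : -(lam / 8) * ∑ i, x i ^ 2 =
          lam / 8 * (∑ i, x i ^ 2) - lam / 4 * (∑ i, x i ^ 2) := by ring
      linarith
    calc (1 + ‖x‖) ^ n * Real.exp (-HamW J k W a c lam b x) ≤
        (n.factorial * Real.exp (1 + ‖x‖)) * Real.exp (-HamW J k W a c lam b x) :=
          mul_le_mul_of_nonneg_right h1 (Real.exp_pos _).le
      _ = n.factorial * (Real.exp (1 + ‖x‖) * Real.exp (-HamW J k W a c lam b x)) := by ring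
      _ ≤ n.factorial * (Real.exp (1 + 1 / (4 * (lam / 8)) + ‖b‖ ^ 2 / lam) *
          Real.exp (-(lam / 8) * ∑ i, x i ^ 2)) :=
          mul_le_mul_of_nonneg_left h4 (by positivity)
      _ = _ := by rw [hA]; ring

theorem integrable_exp_HamW (hW : ∀ p, ContDiff ℝ 2 (W p)) (hk : ∀ p ∈ J, 0 ≤ k p)
    (hW0 : ∀ p ∈ J, ∀ t, 0 ≤ W p t) (hlam : 0 < lam) :
    Integrable fun x => Real.exp (-HamW J k W a c lam b x) := by
  have := integrable_pow_HamW (a := a) (c := c) (b := b) hW hk hW0 hlam 0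
  simpa using this

/-- linear growth implies square integrability -/
theorem integrable_sq_HamW (hW : ∀ p, ContDiff ℝ 2 (W p)) (hk : ∀ p ∈ J, 0 ≤ k p)
    (hW0 : ∀ p ∈ J, ∀ t, 0 ≤ W p t) (hlam : 0 < lam) {G : (ι → ℝ) → ℝ} (hG : Continuous G)
    {L : ℝ} (hGL : ∀ x, |G x| ≤ L * (1 + ‖x‖)) :
    Integrable fun x => G x ^ 2 * Real.exp (-HamW J k W a c lam b x) := by
  have h0 := integrable_pow_HamW (a := a) (c := c) (b := b) hW hk hW0 hlam 2
  refine Integrable.mono' (h0.const_mul (L ^ 2)) ?_ (ae_of_all _ fun x => ?_)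
  · exact ((hG.pow 2).mul
      (Real.continuous_exp.comp (contDiff_HamW hW).continuous.neg)).aestronglyMeasurable
  · rw [Real.norm_eq_abs, abs_of_nonneg (by positivity)]
    have h1 : G x ^ 2 ≤ (L * (1 + ‖x‖)) ^ 2 := by
      rw [← sq_abs]; exact pow_le_pow_left₀ (abs_nonneg _) (hGL x) 2
    calc G x ^ 2 * Real.exp (-HamW J k W a c lam b x) ≤
        (L * (1 + ‖x‖)) ^ 2 * Real.exp (-HamW J k W a c lam b x) :=
          mul_le_mul_of_nonneg_right h1 (Real.exp_pos _).le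
      _ = _ := by ring

/-- **the Helffer–Sjöstrand upper bound for wall Hamiltonians, field form** -/
theorem fi3_HamW (hW : ∀ p, ContDiff ℝ 2 (W p)) (hk : ∀ p ∈ J, 0 ≤ k p)
    (hW0 : ∀ p ∈ J, ∀ t, 0 ≤ W p t) {M : ℝ} (hM : 0 ≤ M)
    (hWM : ∀ p t, |deriv (deriv (W p)) t| ≤ M) (hlam : 0 < lam) {G : (ι → ℝ) → ℝ}
    (hG : ContDiff ℝ 1 G) {L : ℝ} (hGL : ∀ x, |G x| ≤ L * (1 + ‖x‖))
    {m : ℝ} (hm : ∫ x, (G x - m) * Real.exp (-HamW J k W a c lam b x) = 0)
    {ε : ℝ} (hε : 0 < ε) :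
    ∃ Y : (ι → ℝ) → (ι → ℝ), ContDiff ℝ ∞ Y ∧ HasCompactSupport Y ∧
      (∫ x, (G x - m) ^ 2 * Real.exp (-HamW J k W a c lam b x) ≤
        2 * (∫ x, fderiv ℝ G x (Y x) * Real.exp (-HamW J k W a c lam b x)) -
        (∫ x, (MW121.en Y x + ((∑ p ∈ J, k p * deriv (deriv (W p)) (a p x - c p) *
          (a p (Y x)) ^ 2) + lam * ∑ i, Y x i ^ 2)) *
            Real.exp (-HamW J k W a c lam b x)) + ε) ∧
      (∫ x, (MW121.en Y x + ((∑ p ∈ J, k p * deriv (deriv (W p)) (a p x - c p) *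
          (a p (Y x)) ^ 2) + lam * ∑ i, Y x i ^ 2)) * Real.exp (-HamW J k W a c lam b x) ≤
        2 * (∫ x, (G x - m) ^ 2 * Real.exp (-HamW J k W a c lam b x)) + 2 * ε) := by
  obtain ⟨Y, h1, h2, h3, h4⟩ := fi3 (contDiff_HamW (a := a) (c := c) (b := b) hW)
    (integrable_exp_HamW hW hk hW0 hlam) (fun i j x => hess_bdd_HamW hW hM hWM i j x) hG
    (integrable_sq_HamW hW hk hW0 hlam hG.continuous hGL) hm hε
  simp_rw [hess_HamW hW] at h3 h4
  exact ⟨Y, h1, h2, h3, h4⟩

end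

end Crest.Agent.R144.Hs865
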