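import Crest.Agent.R144.Hsu9_498
import Crest.Agent.R144.Hs7_865

/-!
# R144 (S0197), block HSU (helper498), file 10: coordinates

* `fi3_std` : `Fi3` for the standard basis of `EuclideanSpace ℝ ι`, from 865's `fi3`.
-/

set_option autoImplicit false
set_option linter.unusedSectionVars false

open MeasureTheory Set Filter Topology
open scoped ENNReal NNReal RealInnerProductSpace

namespace Crest.Agent.R144.Hsu498

noncomputable section

section std

variable {ι : Type*} [Fintype ι] [DecidableEq ι]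

/-- coordinates -/
abbrev cE (ι : Type*) [Fintype ι] : EuclideanSpace ℝ ι ≃L[ℝ] (ι → ℝ) := EuclideanSpace.equiv ι ℝ

theorem mp_cE : MeasurePreserving (fun x : EuclideanSpace ℝ ι => cE ι x) volume volume :=
  PiLp.volume_preserving_ofLp ι

theorem me_cE : MeasurableEmbedding (fun x : EuclideanSpace ℝ ι => cE ι x) :=
  (cE ι).toHomeomorph.measurableEmbedding

theorem int_cE (f : (ι → ℝ) → ℝ) : ∫ x : EuclideanSpace ℝ ι, f (cE ι x) = ∫ x, f x :=
  mp_cE.integral_comp me_cE f

theorem integrable_cE (f : (ι → ℝ) → ℝ) :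
    Integrable (fun x : EuclideanSpace ℝ ι => f (cE ι x)) ↔ Integrable f :=
  mp_cE.integrable_comp_emb me_cE

theorem cE_basis (i : ι) : cE ι (EuclideanSpace.basisFun ι ℝ i) = Pi.single i 1 := by
  rw [EuclideanSpace.basisFun_apply]; rfl

theorem norm_cE_le (x : EuclideanSpace ℝ ι) : ‖cE ι x‖ ≤ ‖x‖ := by
  have h := (PiLp.lipschitzWith_ofLp 2 (fun _ : ι => ℝ)).dist_le_mul x 0
  have h2 : ‖x.ofLp‖ ≤ ‖x‖ := by simpa [dist_zero_right] using h
  exact h2

theorem fderiv_comp_cE {G : (ι → ℝ) → ℝ} (hG : Differentiable ℝ G) (x z : EuclideanSpace ℝ ι) :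
    fderiv ℝ (fun x => G (cE ι x)) x z = fderiv ℝ G (cE ι x) (cE ι z) := by
  have h : HasFDerivAt (fun x => G (cE ι x)) ((fderiv ℝ G (cE ι x)).comp
      (cE ι : EuclideanSpace ℝ ι →L[ℝ] (ι → ℝ))) x :=
    (hG (cE ι x)).hasFDerivAt.comp x (cE ι).hasFDerivAt
  rw [h.fderiv]; rfl

theorem fderiv_comp_symm {H : EuclideanSpace ℝ ι → ℝ} (hH : Differentiable ℝ H) (x z : ι → ℝ) :
    fderiv ℝ (fun x => H ((cE ι).symm x)) x z = fderiv ℝ H ((cE ι).symm x) ((cE ι).symm z) := by
  have h : HasFDerivAt (fun x => H ((cE ι).symm x)) ((fderiv ℝ H ((cE ι).symm x)).comp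
      ((cE ι).symm : (ι → ℝ) →L[ℝ] EuclideanSpace ℝ ι)) x :=
    (hH ((cE ι).symm x)).hasFDerivAt.comp x (cE ι).symm.hasFDerivAt
  rw [h.fderiv]; rfl

/-- second derivatives in coordinates -/
theorem pd_pd_symm {H : EuclideanSpace ℝ ι → ℝ} (hH : ContDiff ℝ 2 H) (i j : ι) (x : ι → ℝ) :
    Hs865.pd i (Hs865.pd j fun x => H ((cE ι).symm x)) x =
      fderiv ℝ (fderiv ℝ H) ((cE ι).symm x) (EuclideanSpace.basisFun ι ℝ i)
        (EuclideanSpace.basisFun ι ℝ j) := by
  have hb : ∀ i, (cE ι).symm (Pi.single i 1) = EuclideanSpace.basisFun ι ℝ i := fun i => by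
    rw [← cE_basis, ContinuousLinearEquiv.symm_apply_apply]
  have h1 : (Hs865.pd j fun x => H ((cE ι).symm x)) =
      fun x => fderiv ℝ H ((cE ι).symm x) (EuclideanSpace.basisFun ι ℝ j) := by
    funext y
    unfold Hs865.pd
    rw [fderiv_comp_symm (hH.differentiable (by norm_num)), hb]
  rw [h1]
  unfold Hs865.pd
  have h2 : HasFDerivAt (fderiv ℝ H) (fderiv ℝ (fderiv ℝ H) ((cE ι).symm x)) ((cE ι).symm x) :=
    (((hH.fderiv_right (m := 1) (by norm_num)).differentiable (by norm_num)) _).hasFDerivAt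
  have h3 : HasFDerivAt (fun x => fderiv ℝ H ((cE ι).symm x))
      ((fderiv ℝ (fderiv ℝ H) ((cE ι).symm x)).comp
        ((cE ι).symm : (ι → ℝ) →L[ℝ] EuclideanSpace ℝ ι)) x :=
    h2.comp x (cE ι).symm.hasFDerivAt
  have h4 := h3.clm_apply (hasFDerivAt_const (EuclideanSpace.basisFun ι ℝ j) x)
  rw [h4.fderiv]
  simp only [ContinuousLinearMap.comp_zero, zero_add, ContinuousLinearMap.flip_apply,
    ContinuousLinearMap.comp_apply]
  rw [← hb i]
  rfl

/-- the field in Euclidean coordinates -/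
def up (Y : (ι → ℝ) → (ι → ℝ)) (x : EuclideanSpace ℝ ι) : EuclideanSpace ℝ ι :=
  (cE ι).symm (Y (cE ι x))

theorem hs_up {Y : (ι → ℝ) → (ι → ℝ)} (hY : Differentiable ℝ Y) (x : EuclideanSpace ℝ ι) :
    hs (EuclideanSpace.basisFun ι ℝ) (up Y) x = MW121.en Y (cE ι x) := by
  unfold hs MW121.en
  rw [Finset.sum_comm]
  refine Finset.sum_congr rfl fun i _ => ?_
  have h : HasFDerivAt (up Y) (((cE ι).symm : (ι → ℝ) →L[ℝ] EuclideanSpace ℝ ι).comp
      ((fderiv ℝ Y (cE ι x)).comp (cE ι : EuclideanSpace ℝ ι →L[ℝ] (ι → ℝ)))) x :=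
    (cE ι).symm.hasFDerivAt.comp x ((hY (cE ι x)).hasFDerivAt.comp x (cE ι).hasFDerivAt)
  rw [h.fderiv, EuclideanSpace.norm_sq_eq]
  refine Finset.sum_congr rfl fun u _ => ?_
  rw [MW121.jac_apply, Real.norm_eq_abs, sq_abs, ← cE_basis]
  rfl

theorem fi3_std : Fi3 (EuclideanSpace.basisFun ι ℝ) := by
  intro H G C ε hH hC hi hG hG2 hε
  set H' : (ι → ℝ) → ℝ := fun x => H ((cE ι).symm x) with hH'
  set G' : (ι → ℝ) → ℝ := fun x => G ((cE ι).symm x) with hG'
  have hH'c : ContDiff ℝ 2 H' := hH.comp (cE ι).symm.contDiff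
  have hG'c : ContDiff ℝ 1 G' := hG.comp (cE ι).symm.contDiff
  have eH : ∀ x, H' (cE ι x) = H x := fun x => by
    rw [hH']; show H ((cE ι).symm (cE ι x)) = H x; rw [ContinuousLinearEquiv.symm_apply_apply]
  have eG : ∀ x, G' (cE ι x) = G x := fun x => by
    rw [hG']; show G ((cE ι).symm (cE ι x)) = G x; rw [ContinuousLinearEquiv.symm_apply_apply]
  have hi' : Integrable fun x => Real.exp (-H' x) := by
    rw [← integrable_cE]; simpa only [eH] using hi
  have hG2' : Integrable fun x => G' x ^ 2 * Real.exp (-H' x) := by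
    rw [← integrable_cE]; simpa only [eH, eG] using hG2
  have hB : ∀ i j x, |Hs865.pd i (Hs865.pd j H') x| ≤ C * 1 * 1 := by
    intro i j x
    rw [hH', pd_pd_symm hH]
    have := hC ((cE ι).symm x) (EuclideanSpace.basisFun ι ℝ i) (EuclideanSpace.basisFun ι ℝ j)
    rwa [(EuclideanSpace.basisFun ι ℝ).norm_eq_one, (EuclideanSpace.basisFun ι ℝ).norm_eq_one]
      at this
  -- the mean
  have hG1 : Integrable fun x => G' x * Real.exp (-H' x) := by
    refine Integrable.mono' (g := fun x => (G' x ^ 2 * Real.exp (-H' x)) + Real.exp (-H' x))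
      (hG2'.add hi') (hG'c.continuous.mul
        (Real.continuous_exp.comp hH'c.continuous.neg)).aestronglyMeasurable
        (ae_of_all _ fun x => ?_)
    rw [Real.norm_eq_abs, abs_mul, abs_of_pos (Real.exp_pos _)]
    have h1 : |G' x| ≤ G' x ^ 2 + 1 := by
      rw [← sq_abs]; nlinarith [sq_nonneg (|G' x| - 1), abs_nonneg (G' x)]
    have h2 := mul_le_mul_of_nonneg_right h1 (Real.exp_pos (-H' x)).le
    linarith
  have hZ : 0 < ∫ x, Real.exp (-H' x) := integral_exp_pos hi'
  set m : ℝ := (∫ x, G' x * Real.exp (-H' x)) / ∫ x, Real.exp (-H' x) with hm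
  have hm0 : ∫ x, (G' x - m) * Real.exp (-H' x) = 0 := by
    have e : ∀ x, (G' x - m) * Real.exp (-H' x) =
        G' x * Real.exp (-H' x) - m * Real.exp (-H' x) := fun x => by ring
    simp only [e]
    rw [integral_sub hG1 (hi'.const_mul m), integral_const_mul, hm, div_mul_cancel₀ _ hZ.ne',
      sub_self]
  obtain ⟨Y, hYs, hYc, h1, _⟩ := Hs865.fi3 hH'c hi' hB hG'c hG2' hm0 hε
  refine ⟨up Y, m, ?_, ?_, ?_⟩
  · exact (cE ι).symm.contDiff.comp (hYs.comp (cE ι).contDiff)
  · have h2 : HasCompactSupport fun x : EuclideanSpace ℝ ι => Y (cE ι x) :=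
      hYc.comp_homeomorph (cE ι).toHomeomorph
    exact h2.comp_left (map_zero _)
  · have hYd : Differentiable ℝ Y := hYs.differentiable (by simp)
    have k1 : ∫ x, (G x - m) ^ 2 * Real.exp (-(H x)) =
        ∫ x, (G' x - m) ^ 2 * Real.exp (-H' x) := by
      rw [← int_cE]; simp only [eH, eG]
    have k2 : ∫ x, fderiv ℝ G x (up Y x) * Real.exp (-(H x)) =
        ∫ x, fderiv ℝ G' x (Y x) * Real.exp (-H' x) := by
      rw [← int_cE]
      refine integral_congr_ae (ae_of_all _ fun x => ?_)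
      show fderiv ℝ G x (up Y x) * Real.exp (-(H x)) =
        fderiv ℝ G' (cE ι x) (Y (cE ι x)) * Real.exp (-H' (cE ι x))
      rw [eH, hG', fderiv_comp_symm (hG.differentiable (by norm_num)),
        ContinuousLinearEquiv.symm_apply_apply]
      rfl
    have k3 : ∫ x, ed (EuclideanSpace.basisFun ι ℝ) H (up Y) x * Real.exp (-(H x)) =
        ∫ x, (MW121.en Y x + ∑ i, ∑ j, Hs865.pd i (Hs865.pd j H') x * Y x i * Y x j) *
          Real.exp (-H' x) := by
      rw [← int_cE]
      refine integral_congr_ae (ae_of_all _ fun x => ?_)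
      show (hs (EuclideanSpace.basisFun ι ℝ) (up Y) x +
        fderiv ℝ (fderiv ℝ H) x (up Y x) (up Y x)) * Real.exp (-(H x)) = _
      beta_reduce
      rw [hs_up hYd, eH]
      congr 2
      have e1 : up Y x = ∑ i, Y (cE ι x) i • EuclideanSpace.basisFun ι ℝ i := by
        conv_lhs => rw [← (EuclideanSpace.basisFun ι ℝ).sum_repr (up Y x)]
        rfl
      conv_lhs => rw [e1]
      simp only [map_sum, map_smul, sum_apply, smul_apply, smul_eq_mul]
      rw [Finset.sum_comm]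
      refine Finset.sum_congr rfl fun i _ => ?_
      rw [Finset.mul_sum]
      refine Finset.sum_congr rfl fun j _ => ?_
      rw [hH', pd_pd_symm hH, ContinuousLinearEquiv.symm_apply_apply]
      ring
    rw [k1, k2, k3]
    exact h1

end std

end

end Crest.Agent.R144.Hsu498
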