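import Crest.Agent.R144.Hsu10_498
import Crest.Agent.R144.Ham5_560

/-!
# R144 (S0197), block HSU (helper498), file 11: the hammock polytope

* `hsuV` : hard wall upper bound on `ham F E ξ` with a convex potential `V`;
* `hsu`  : the same with a linear source.
-/

set_option autoImplicit false
set_option linter.unusedSectionVars false

open MeasureTheory Set Filter Topology
open scoped ENNReal NNReal RealInnerProductSpace

namespace Crest.Agent.R144.Hsu498

open Crest.Agent.R144.Ham560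

noncomputable section

section ham

variable {T : Type*} [DecidableEq T] {F : Finset T} {Ed : Finset (T × T)} {ξ : T → ℝ}

/-- the vector of the evaluation at `u` -/
def av (F : Finset T) (u : T) : EuclideanSpace ℝ F :=
  if h : u ∈ F then EuclideanSpace.single ⟨u, h⟩ 1 else 0

theorem inner_av (u : T) (x : EuclideanSpace ℝ F) : ⟪av F u, x⟫ = ext F 0 (cE F x) u := by
  unfold av Ham560.ext
  by_cases h : u ∈ F
  · rw [dif_pos h, dif_pos h, EuclideanSpace.inner_single_left]
    simp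
  · rw [dif_neg h, dif_neg h, inner_zero_left]; rfl

/-- gradient of the edge -/
def aE (F : Finset T) (p : T × T) : EuclideanSpace ℝ F := av F p.1 - av F p.2

/-- constant of the edge -/
def kap (F : Finset T) (ξ : T → ℝ) (p : T × T) : ℝ := ext F ξ 0 p.1 - ext F ξ 0 p.2

theorem ext_split (x : F → ℝ) (u : T) : ext F ξ x u = ext F 0 x u + ext F ξ 0 u := by
  by_cases h : u ∈ F <;> simp [Ham560.ext, h]

theorem grad_eq (p : T × T) (x : EuclideanSpace ℝ F) :
    ext F ξ (cE F x) p.1 - ext F ξ (cE F x) p.2 = ⟪aE F p, x⟫ + kap F ξ p := by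
  unfold aE kap
  rw [inner_sub_left, inner_av, inner_av, ext_split (ξ := ξ) _ p.1, ext_split (ξ := ξ) _ p.2]
  ring

/-- upper wall of an edge -/
def wp (F : Finset T) (ξ : T → ℝ) (p : T × T) : EuclideanSpace ℝ F × ℝ :=
  (‖aE F p‖⁻¹ • aE F p, ‖aE F p‖⁻¹ * (1 - kap F ξ p))

/-- lower wall of an edge -/
def wm (F : Finset T) (ξ : T → ℝ) (p : T × T) : EuclideanSpace ℝ F × ℝ :=
  (-(‖aE F p‖⁻¹ • aE F p), ‖aE F p‖⁻¹ * (1 + kap F ξ p))

theorem sl_wp (p : T × T) (x : EuclideanSpace ℝ F) : sl (wp F ξ p) x =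
    ‖aE F p‖⁻¹ * (1 - (ext F ξ (cE F x) p.1 - ext F ξ (cE F x) p.2)) := by
  rw [grad_eq]
  unfold sl wp
  rw [inner_smul_left]
  simp
  ring

theorem sl_wm (p : T × T) (x : EuclideanSpace ℝ F) : sl (wm F ξ p) x =
    ‖aE F p‖⁻¹ * (1 + (ext F ξ (cE F x) p.1 - ext F ξ (cE F x) p.2)) := by
  rw [grad_eq]
  unfold sl wm
  rw [inner_neg_left, inner_smul_left]
  simp
  ring

open Classical in
/-- the walls of the hammock polytope -/
def walls (F : Finset T) (Ed : Finset (T × T)) (ξ : T → ℝ) : Finset (EuclideanSpace ℝ F × ℝ) :=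
  (Ed.filter fun p => aE F p ≠ 0).image (wp F ξ) ∪ (Ed.filter fun p => aE F p ≠ 0).image (wm F ξ)

theorem mem_walls {j : EuclideanSpace ℝ F × ℝ} : j ∈ walls F Ed ξ ↔
    (∃ p ∈ Ed, aE F p ≠ 0 ∧ wp F ξ p = j) ∨ (∃ p ∈ Ed, aE F p ≠ 0 ∧ wm F ξ p = j) := by
  classical
  unfold walls
  simp only [Finset.mem_union, Finset.mem_image, Finset.mem_filter, and_assoc]

theorem norm_walls : ∀ j ∈ walls F Ed ξ, ‖j.1‖ = 1 := by
  intro j hj
  rcases mem_walls.1 hj with ⟨p, _, hp, rfl⟩ | ⟨p, _, hp, rfl⟩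
  · unfold wp
    rw [norm_smul, norm_inv, norm_norm, inv_mul_cancel₀ (norm_ne_zero_iff.2 hp)]
  · unfold wm
    rw [norm_neg, norm_smul, norm_inv, norm_norm, inv_mul_cancel₀ (norm_ne_zero_iff.2 hp)]

theorem poly_walls (hne : (ham F Ed ξ).Nonempty) :
    poly (walls F Ed ξ) = (fun x => cE F x) ⁻¹' ham F Ed ξ := by
  ext x
  constructor
  · intro hx p hp
    by_cases h : aE F p = 0
    · obtain ⟨y, hy⟩ := hne
      have h1 := hy p hp
      have e1 := grad_eq (ξ := ξ) p x
      have e2 := grad_eq (ξ := ξ) p ((cE F).symm y)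
      rw [ContinuousLinearEquiv.apply_symm_apply] at e2
      rw [h, inner_zero_left] at e1 e2
      rw [e1, ← e2]; exact h1
    · have hn : 0 < ‖aE F p‖⁻¹ := inv_pos.2 (norm_pos_iff.2 h)
      have h1 := hx _ (mem_walls.2 (Or.inl ⟨p, hp, h, rfl⟩))
      have h2 := hx _ (mem_walls.2 (Or.inr ⟨p, hp, h, rfl⟩))
      rw [sl_wp] at h1
      rw [sl_wm] at h2
      have h3 := nonneg_of_mul_nonneg_right h1 hn
      have h4 := nonneg_of_mul_nonneg_right h2 hn
      rw [abs_le]; constructor <;> linarith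
  · intro hx j hj
    rcases mem_walls.1 hj with ⟨p, hp, h, rfl⟩ | ⟨p, hp, h, rfl⟩
    · have h1 := abs_le.1 (hx p hp)
      rw [sl_wp]
      exact mul_nonneg (inv_nonneg.2 (norm_nonneg _)) (by linarith [h1.2])
    · have h1 := abs_le.1 (hx p hp)
      rw [sl_wm]
      exact mul_nonneg (inv_nonneg.2 (norm_nonneg _)) (by linarith [h1.1])

theorem exists_pos_le {α : Type*} (s : Finset α) (f : α → ℝ) (hf : ∀ a ∈ s, 0 < f a) :
    ∃ c : ℝ, 0 < c ∧ ∀ a ∈ s, c ≤ f a := by
  classical
  induction s using Finset.induction_on with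
  | empty => exact ⟨1, one_pos, fun a ha => absurd ha (Finset.notMem_empty a)⟩
  | insert a s _ ih =>
    obtain ⟨c, hc, h⟩ := ih fun b hb => hf b (Finset.mem_insert_of_mem hb)
    refine ⟨min c (f a), lt_min hc (hf a (Finset.mem_insert_self a s)), fun b hb => ?_⟩
    rcases Finset.mem_insert.1 hb with rfl | hb
    · exact min_le_right _ _
    · exact (min_le_left _ _).trans (h b hb)

theorem fderiv2_comp_cE {V : (F → ℝ) → ℝ} (hV : ContDiff ℝ 2 V) (x y z : EuclideanSpace ℝ F) :
    fderiv ℝ (fderiv ℝ fun x => V (cE F x)) x y z =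
      fderiv ℝ (fderiv ℝ V) (cE F x) (cE F y) (cE F z) := by
  have h1 : (fun x => fderiv ℝ (fun x => V (cE F x)) x z) =
      fun x => fderiv ℝ V (cE F x) (cE F z) := by
    funext x
    exact fderiv_comp_cE (hV.differentiable (by norm_num)) x z
  have hV' : ContDiff ℝ 2 fun x => V (cE F x) := hV.comp (cE F).contDiff
  have h2 : HasFDerivAt (fderiv ℝ fun x => V (cE F x))
      (fderiv ℝ (fderiv ℝ fun x => V (cE F x)) x) x :=
    (((hV'.fderiv_right (m := 1) (by norm_num)).differentiable (by norm_num)) _).hasFDerivAt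
  have h3 := (h2.clm_apply (hasFDerivAt_const z x)).fderiv
  have h4 : HasFDerivAt (fderiv ℝ V) (fderiv ℝ (fderiv ℝ V) (cE F x)) (cE F x) :=
    (((hV.fderiv_right (m := 1) (by norm_num)).differentiable (by norm_num)) _).hasFDerivAt
  have h5 : HasFDerivAt (fun x => fderiv ℝ V (cE F x)) ((fderiv ℝ (fderiv ℝ V) (cE F x)).comp
      (cE F : EuclideanSpace ℝ F →L[ℝ] (F → ℝ))) x := h4.comp x (cE F).hasFDerivAt
  have h6 := (h5.clm_apply (hasFDerivAt_const (cE F z) x)).fderiv
  rw [h1, h6] at h3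
  have h7 := congrArg (fun A => A y) h3
  simp only [ContinuousLinearMap.comp_zero, zero_add, ContinuousLinearMap.flip_apply,
    ContinuousLinearMap.comp_apply] at h7
  rw [← h7]
  rfl

/-- **HSU with a convex potential** -/
theorem hsuV (hb : Bornology.IsBounded (ham F Ed ξ)) (hv : volume (ham F Ed ξ) ≠ 0)
    {V : (F → ℝ) → ℝ} (hV : ContDiff ℝ 2 V) {C : ℝ} (hC0 : 0 ≤ C)
    (hC : ∀ x y z, |fderiv ℝ (fderiv ℝ V) x y z| ≤ C * ‖y‖ * ‖z‖)
    (hV0 : ∀ x y, 0 ≤ fderiv ℝ (fderiv ℝ V) x y y) {A : ℝ} (hA0 : 0 ≤ A)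
    (hA : ∀ x, -(A * (1 + ‖x‖)) ≤ V x) {G : (F → ℝ) → ℝ} (hG : ContDiff ℝ 1 G) {L : ℝ≥0}
    (hL : LipschitzWith L G) {ε : ℝ} (hε : 0 < ε) :
    ∃ (Y : (F → ℝ) → (F → ℝ)) (ρ m : ℝ), ContDiff ℝ ((⊤ : ℕ∞) : WithTop ℕ∞) Y ∧
      HasCompactSupport Y ∧ 0 < ρ ∧
      (∀ x ∈ ham F Ed ξ, ∀ p ∈ Ed, 1 - ρ ≤ |ext F ξ x p.1 - ext F ξ x p.2| →
        ext F 0 (Y x) p.1 = ext F 0 (Y x) p.2) ∧
      ∫ x in ham F Ed ξ, (G x - m) ^ 2 * Real.exp (-(V x)) ≤
        2 * (∫ x in ham F Ed ξ, fderiv ℝ G x (Y x) * Real.exp (-(V x))) -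
        (∫ x in ham F Ed ξ, (MW121.en Y x + fderiv ℝ (fderiv ℝ V) x (Y x) (Y x)) *
          Real.exp (-(V x))) + ε := by
  have hne : (ham F Ed ξ).Nonempty := by
    by_contra hcon
    rw [not_nonempty_iff_eq_empty] at hcon
    exact hv (by rw [hcon, measure_empty])
  have hp := poly_walls hne
  have hb' : Bornology.IsBounded (poly (walls F Ed ξ)) := by
    rw [hp]
    exact (cE F).antilipschitz.isBounded_preimage hb
  have hv' : volume (poly (walls F Ed ξ)) ≠ 0 := by
    rw [hp, mp_cE.measure_preimage (measurableSet_ham).nullMeasurableSet]; exact hv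
  have hnorm : ∀ x : EuclideanSpace ℝ F, ‖cE F x‖ ≤ ‖x‖ := norm_cE_le
  have hGd : Differentiable ℝ G := hG.differentiable (by norm_num)
  obtain ⟨W, ρ, m, hWs, hWc, hρ, hrig, hmain⟩ := thmB (J := walls F Ed ξ)
    (U := fun x => V (cE F x)) (G := fun x => G (cE F x)) (A := A) (L := L)
    (EuclideanSpace.basisFun F ℝ) fi3_std
    norm_walls hb' hv' (hV.comp (cE F).contDiff) hC0
    (fun x y z => by
      rw [fderiv2_comp_cE hV]
      refine (hC _ _ _).trans ?_
      have h1 := hnorm y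
      have h2 := hnorm z
      gcongr)
    (fun x y => by rw [fderiv2_comp_cE hV]; exact hV0 _ _)
    (fun x => by
      refine le_trans ?_ (hA (cE F x))
      have := hnorm x
      gcongr)
    (hG.comp (cE F).contDiff) L.2
    (fun x z => by
      rw [fderiv_comp_cE hGd]
      have h1 : ‖fderiv ℝ G (cE F x)‖ ≤ L := norm_fderiv_le_of_lipschitz ℝ hL
      have h2 := (fderiv ℝ G (cE F x)).le_opNorm (cE F z)
      rw [← Real.norm_eq_abs]
      refine h2.trans ?_
      have := hnorm z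
      gcongr) hε
  -- the field downstairs
  set Y : (F → ℝ) → (F → ℝ) := fun x => cE F (W ((cE F).symm x)) with hY
  have hYs : ContDiff ℝ ((⊤ : ℕ∞) : WithTop ℕ∞) Y :=
    (cE F).contDiff.comp (hWs.comp (cE F).symm.contDiff)
  have hYd : Differentiable ℝ Y := hYs.differentiable (by simp)
  have hup : up Y = W := by
    funext x
    unfold up
    rw [hY]
    show (cE F).symm (cE F (W ((cE F).symm (cE F x)))) = W x
    rw [ContinuousLinearEquiv.symm_apply_apply, ContinuousLinearEquiv.symm_apply_apply]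
  have hYc : HasCompactSupport Y := by
    have h2 : HasCompactSupport fun x : F → ℝ => W ((cE F).symm x) :=
      hWc.comp_homeomorph (cE F).symm.toHomeomorph
    exact h2.comp_left (map_zero _)
  have hYW : ∀ x, Y (cE F x) = cE F (W x) := fun x => by
    rw [hY]
    show cE F (W ((cE F).symm (cE F x))) = _
    rw [ContinuousLinearEquiv.symm_apply_apply]
  have hset : ∀ f : (F → ℝ) → ℝ, ∫ x in poly (walls F Ed ξ), f (cE F x) =
      ∫ x in ham F Ed ξ, f x := fun f => by
    rw [hp]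
    exact mp_cE.setIntegral_preimage_emb me_cE f _
  obtain ⟨c, hc0, hc⟩ := exists_pos_le (Ed.filter fun p => aE F p ≠ 0) (fun p => ‖aE F p‖)
    (fun p hp => norm_pos_iff.2 (Finset.mem_filter.1 hp).2)
  refine ⟨Y, ρ * c, m, hYs, hYc, by positivity, ?_, ?_⟩
  · intro x hx p hpE hρx
    by_cases h : aE F p = 0
    · have h1 := grad_eq (ξ := (0 : T → ℝ)) p ((cE F).symm (Y x))
      have h2 := grad_eq (ξ := (0 : T → ℝ)) p (0 : EuclideanSpace ℝ F)
      rw [h, inner_zero_left, ContinuousLinearEquiv.apply_symm_apply] at h1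
      rw [h, inner_zero_left, map_zero] at h2
      have h3 : ∀ u, ext F (0 : T → ℝ) (0 : F → ℝ) u = 0 := fun u => by
        unfold Ham560.ext; split_ifs <;> rfl
      rw [h3, h3] at h2
      linarith
    · have hcp : c ≤ ‖aE F p‖ := hc p (Finset.mem_filter.2 ⟨hpE, h⟩)
      have hnp : 0 < ‖aE F p‖ := norm_pos_iff.2 h
      set x' := (cE F).symm x with hx'
      have ex : cE F x' = x := ContinuousLinearEquiv.apply_symm_apply _ _
      have hx'' : x' ∈ poly (walls F Ed ξ) := by
        rw [hp]; show cE F x' ∈ ham F Ed ξ; rw [ex]; exact hx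
      have key : ⟪aE F p, W x'⟫ = 0 := by
        have habs := hρx
        rcases le_total 0 (ext F ξ x p.1 - ext F ξ x p.2) with h0 | h0
        · rw [abs_of_nonneg h0] at habs
          have h1 := hrig x' hx'' _ (mem_walls.2 (Or.inl ⟨p, hpE, h, rfl⟩)) (by
            rw [sl_wp, ex, inv_mul_le_iff₀ hnp]
            nlinarith)
          unfold wp at h1
          rw [inner_smul_left] at h1
          simpa [h] using h1
        · rw [abs_of_nonpos h0] at habs
          have h1 := hrig x' hx'' _ (mem_walls.2 (Or.inr ⟨p, hpE, h, rfl⟩)) (by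
            rw [sl_wm, ex, inv_mul_le_iff₀ hnp]
            nlinarith)
          unfold wm at h1
          rw [inner_neg_left, inner_smul_left] at h1
          simpa [h] using h1
      have h1 := grad_eq (ξ := (0 : T → ℝ)) p (W x')
      have h3 : kap F (0 : T → ℝ) p = 0 := by
        have h3 : ∀ u, ext F (0 : T → ℝ) (0 : F → ℝ) u = 0 := fun u => by
          unfold Ham560.ext; split_ifs <;> rfl
        unfold kap; rw [h3, h3, sub_zero]
      rw [key, h3, add_zero, ← hYW, ex] at h1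
      linarith
  · unfold TK at hmain
    have k1 : ∫ x in poly (walls F Ed ξ), (G (cE F x) - m) ^ 2 * Real.exp (-(V (cE F x))) =
        ∫ x in ham F Ed ξ, (G x - m) ^ 2 * Real.exp (-(V x)) :=
      hset fun x => (G x - m) ^ 2 * Real.exp (-(V x))
    have k2 : ∫ x in poly (walls F Ed ξ), fderiv ℝ (fun x => G (cE F x)) x (W x) *
        Real.exp (-(V (cE F x))) = ∫ x in ham F Ed ξ, fderiv ℝ G x (Y x) * Real.exp (-(V x)) := by
      rw [← hset]
      refine integral_congr_ae (ae_of_all _ fun x => ?_)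
      beta_reduce
      rw [fderiv_comp_cE hGd, hYW]
    have k3 : ∫ x in poly (walls F Ed ξ), ed (EuclideanSpace.basisFun F ℝ)
        (fun x => V (cE F x)) W x * Real.exp (-(V (cE F x))) =
        ∫ x in ham F Ed ξ, (MW121.en Y x + fderiv ℝ (fderiv ℝ V) x (Y x) (Y x)) *
          Real.exp (-(V x)) := by
      rw [← hset]
      refine integral_congr_ae (ae_of_all _ fun x => ?_)
      beta_reduce
      unfold ed
      rw [fderiv2_comp_cE hV, hYW, ← hs_up hYd, hup]
    rw [k1, k2, k3] at hmain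
    exact hmain

end ham

end

end Crest.Agent.R144.Hsu498
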