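import Crest.Agent.R144.Hsu11_498

/-!
# R144 (S0197), block HSU (helper498), file 12: linear sources, probability laws, tangent fields

* `Nice F Ed ξ Y` : smooth, compact support, rigid near the walls of the hammock polytope;
* `Nice.tan` : nice fields are tangent fields (`MW121.Tan`);
* `hsu` : the upper bound with a linear source;
* `hsu_tilted` : the same for the variance under `(hamP F Ed ξ).tilted`.
-/

set_option autoImplicit false
set_option linter.unusedSectionVars false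

open MeasureTheory Set Filter Topology ProbabilityTheory
open scoped ENNReal NNReal

namespace Crest.Agent.R144.Hsu498

open Crest.Agent.R144.Ham560

noncomputable section

variable {T : Type*} [DecidableEq T] {F : Finset T} {Ed : Finset (T × T)} {ξ : T → ℝ}

/-- smooth fields with compact support, rigid near the walls -/
structure Nice (F : Finset T) (Ed : Finset (T × T)) (ξ : T → ℝ)
    (Y : (F → ℝ) → (F → ℝ)) : Prop where
  smooth : ContDiff ℝ ((⊤ : ℕ∞) : WithTop ℕ∞) Y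
  cpt : HasCompactSupport Y
  rigid : ∃ ρ : ℝ, 0 < ρ ∧ ∀ x ∈ ham F Ed ξ, ∀ p ∈ Ed,
    1 - ρ ≤ |ext F ξ x p.1 - ext F ξ x p.2| → ext F 0 (Y x) p.1 = ext F 0 (Y x) p.2

theorem ext_add_smul (x y : F → ℝ) (t : ℝ) (u : T) :
    ext F ξ (x + t • y) u = ext F ξ x u + t * ext F 0 y u := by
  by_cases h : u ∈ F <;> simp [Ham560.ext, h]

theorem abs_ext_le (y : F → ℝ) (u : T) : |ext F 0 y u| ≤ ‖y‖ := by
  by_cases h : u ∈ F
  · have := norm_le_pi_norm y ⟨u, h⟩
    simpa [Ham560.ext, h] using this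
  · simp [Ham560.ext, h]

theorem Nice.lip {Y : (F → ℝ) → (F → ℝ)} (h : Nice F Ed ξ Y) : ∃ c : ℝ≥0, LipschitzWith c Y :=
  ContDiff.lipschitzWith_of_hasCompactSupport h.cpt h.smooth (by simp)

theorem Nice.bdd {Y : (F → ℝ) → (F → ℝ)} (h : Nice F Ed ξ Y) :
    ∃ B : ℝ, 0 ≤ B ∧ ∀ x, ‖Y x‖ ≤ B := by
  obtain ⟨B, hB⟩ := h.cpt.exists_bound_of_continuous h.smooth.continuous
  exact ⟨max B 0, le_max_right _ _, fun x => (hB x).trans (le_max_left _ _)⟩

/-- nice fields are tangent -/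
theorem Nice.tan {Y : (F → ℝ) → (F → ℝ)} (h : Nice F Ed ξ Y) :
    ∃ (c : ℝ≥0) (t0 : ℝ), MW121.Tan (ham F Ed ξ) Y c t0 := by
  obtain ⟨c, hc⟩ := h.lip
  obtain ⟨B, hB0, hB⟩ := h.bdd
  obtain ⟨ρ, hρ, hr⟩ := h.rigid
  refine ⟨c, ρ / (2 * B + 1), hc, by positivity, ?_⟩
  intro x hx t ht p hp
  rw [ext_add_smul, ext_add_smul]
  by_cases h1 : 1 - ρ ≤ |ext F ξ x p.1 - ext F ξ x p.2|
  · rw [hr x hx p hp h1, add_sub_add_right_eq_sub]; exact hx p hp
  · push Not at h1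
    have h2 : |t * (ext F 0 (Y x) p.1 - ext F 0 (Y x) p.2)| ≤ ρ := by
      rw [abs_mul]
      have h3 : |ext F 0 (Y x) p.1 - ext F 0 (Y x) p.2| ≤ 2 * B + 1 := by
        have h4 := (abs_ext_le (Y x) p.1).trans (hB x)
        have h5 := (abs_ext_le (Y x) p.2).trans (hB x)
        rw [abs_le] at h4 h5 ⊢
        constructor <;> linarith
      calc |t| * |ext F 0 (Y x) p.1 - ext F 0 (Y x) p.2| ≤ ρ / (2 * B + 1) * (2 * B + 1) :=
            mul_le_mul ht h3 (abs_nonneg _) (by positivity)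
        _ = ρ := by field_simp
    have e : ext F ξ x p.1 + t * ext F 0 (Y x) p.1 - (ext F ξ x p.2 + t * ext F 0 (Y x) p.2) =
        (ext F ξ x p.1 - ext F ξ x p.2) + t * (ext F 0 (Y x) p.1 - ext F 0 (Y x) p.2) := by ring
    rw [e]
    refine (abs_add_le _ _).trans ?_
    linarith

/-- **HSU with a linear source** -/
theorem hsu (hb : Bornology.IsBounded (ham F Ed ξ)) (hv : volume (ham F Ed ξ) ≠ 0) (l : F → ℝ)
    {G : (F → ℝ) → ℝ} (hG : ContDiff ℝ 1 G) {L : ℝ≥0} (hL : LipschitzWith L G) {ε : ℝ}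
    (hε : 0 < ε) : ∃ (Y : (F → ℝ) → (F → ℝ)) (m : ℝ), Nice F Ed ξ Y ∧
      ∫ x in ham F Ed ξ, (G x - m) ^ 2 * Real.exp (∑ v, l v * x v) ≤
        2 * (∫ x in ham F Ed ξ, fderiv ℝ G x (Y x) * Real.exp (∑ v, l v * x v)) -
        (∫ x in ham F Ed ξ, MW121.en Y x * Real.exp (∑ v, l v * x v)) + ε := by
  set ℓ : (F → ℝ) →L[ℝ] ℝ := -∑ v, l v • ContinuousLinearMap.proj (R := ℝ) v with hℓ
  have hℓa : ∀ x, ℓ x = -∑ v, l v * x v := fun x => by
    rw [hℓ]
    simp
  have h2 : fderiv ℝ (fderiv ℝ fun x => ℓ x) = 0 := by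
    have e : (fderiv ℝ fun x => ℓ x) = fun _ => ℓ := funext fun x => ℓ.hasFDerivAt.fderiv
    rw [e]; ext x; simp
  obtain ⟨Y, ρ, m, h3, h4, h5, h6, h7⟩ := hsuV hb hv (V := fun x => ℓ x) (C := 0)
    ℓ.contDiff le_rfl (fun x y z => by rw [h2]; simp) (fun x y => by rw [h2]; simp)
    (A := ‖ℓ‖) (norm_nonneg _) (fun x => by
      have := ℓ.le_opNorm x
      rw [Real.norm_eq_abs, abs_le] at this
      nlinarith [norm_nonneg ℓ, this.1]) hG hL hε
  refine ⟨Y, m, ⟨h3, h4, ρ, h5, h6⟩, ?_⟩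
  have e1 : ∀ x, Real.exp (-(ℓ x)) = Real.exp (∑ v, l v * x v) := fun x => by
    rw [hℓa, neg_neg]
  have e2 : ∀ x, fderiv ℝ (fderiv ℝ fun x => ℓ x) x (Y x) (Y x) = 0 := fun x => by
    rw [h2]; rfl
  simp only [e1, e2, add_zero] at h7
  exact h7

/-- integrals under the tilted law -/
theorem integral_tilted_hamP (l : F → ℝ) (c0 : ℝ) (g : (F → ℝ) → ℝ) :
    ∫ x, g x ∂((hamP F Ed ξ).tilted fun h => (∑ v, l v * h v) + c0) =
      (Real.exp c0 / ((∫ x, Real.exp ((∑ v, l v * x v) + c0) ∂(hamP F Ed ξ)) *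
        (volume (ham F Ed ξ)).toReal)) *
      ∫ x in ham F Ed ξ, g x * Real.exp (∑ v, l v * x v) := by
  rw [integral_tilted]
  simp only [smul_eq_mul]
  rw [integral_hamP_real]
  have e : ∀ x : F → ℝ, Real.exp ((∑ v, l v * x v) + c0) /
      (∫ x, Real.exp ((∑ v, l v * x v) + c0) ∂(hamP F Ed ξ)) * g x =
      (Real.exp c0 / ∫ x, Real.exp ((∑ v, l v * x v) + c0) ∂(hamP F Ed ξ)) *
        (g x * Real.exp (∑ v, l v * x v)) := fun x => by
    rw [Real.exp_add]; ring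
  simp only [e]
  rw [integral_const_mul]
  rw [div_mul_eq_div_div]
  ring

/-- **HSU for the variance** under the law tilted by a linear source -/
theorem hsu_tilted (hb : Bornology.IsBounded (ham F Ed ξ)) (hv : volume (ham F Ed ξ) ≠ 0)
    (l : F → ℝ) (c0 : ℝ) {G : (F → ℝ) → ℝ} (hG : ContDiff ℝ 1 G) {L : ℝ≥0}
    (hL : LipschitzWith L G) {ε : ℝ} (hε : 0 < ε) :
    ∃ Y : (F → ℝ) → (F → ℝ), Nice F Ed ξ Y ∧
      Var[G; (hamP F Ed ξ).tilted fun h => (∑ v, l v * h v) + c0] ≤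
        2 * (∫ x, fderiv ℝ G x (Y x) ∂((hamP F Ed ξ).tilted fun h => (∑ v, l v * h v) + c0)) -
        (∫ x, MW121.en Y x ∂((hamP F Ed ξ).tilted fun h => (∑ v, l v * h v) + c0)) + ε := by
  set μ := (hamP F Ed ξ).tilted fun h => (∑ v, l v * h v) + c0 with hμ
  have hfin : volume (ham F Ed ξ) ≠ ∞ := hb.measure_lt_top.ne
  have hvr : 0 < (volume (ham F Ed ξ)).toReal := ENNReal.toReal_pos hv hfin
  have hK : IsCompact (ham F Ed ξ) := Metric.isCompact_of_isClosed_isBounded isClosed_ham hb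
  have hP : IsProbabilityMeasure (hamP F Ed ξ) := by
    constructor
    rw [hamP, Measure.smul_apply, Measure.restrict_apply_univ, smul_eq_mul]
    exact ENNReal.inv_mul_cancel hv hfin
  have hcont : Continuous fun x : F → ℝ => Real.exp ((∑ v, l v * x v) + c0) := by fun_prop
  have hint : Integrable (fun x : F → ℝ => Real.exp ((∑ v, l v * x v) + c0)) (hamP F Ed ξ) := by
    unfold hamP
    refine Integrable.smul_measure ?_ (ENNReal.inv_ne_top.2 hv)
    exact hcont.continuousOn.integrableOn_compact hK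
  have hμP : IsProbabilityMeasure μ := isProbabilityMeasure_tilted hint
  have hZ : 0 < ∫ x, Real.exp ((∑ v, l v * x v) + c0) ∂(hamP F Ed ξ) := integral_exp_pos hint
  set κ : ℝ := Real.exp c0 / ((∫ x, Real.exp ((∑ v, l v * x v) + c0) ∂(hamP F Ed ξ)) *
        (volume (ham F Ed ξ)).toReal) with hκ
  have hκ0 : 0 < κ := by rw [hκ]; positivity
  obtain ⟨Y, m, hY, h1⟩ := hsu hb hv l hG hL (ε := ε / κ) (by positivity)
  refine ⟨Y, hY, ?_⟩
  have hvar : Var[G; μ] ≤ ∫ x, (G x - m) ^ 2 ∂μ := by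
    have h2 : Var[fun x => G x - m; μ] = Var[G; μ] :=
      variance_sub_const hG.continuous.aestronglyMeasurable m
    rw [← h2]
    have hc : Continuous fun x => G x - m := hG.continuous.sub continuous_const
    exact variance_le_expectation_sq hc.aestronglyMeasurable
  refine hvar.trans ?_
  rw [hμ, integral_tilted_hamP, integral_tilted_hamP, integral_tilted_hamP, ← hκ]
  have h3 := mul_le_mul_of_nonneg_left h1 hκ0.le
  refine h3.trans (le_of_eq ?_)
  field_simp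

/-- the same for a linear observable -/
theorem hsu_linear (hb : Bornology.IsBounded (ham F Ed ξ)) (hv : volume (ham F Ed ξ) ≠ 0)
    (l : F → ℝ) (c0 : ℝ) (w : F → ℝ) (c1 : ℝ) {ε : ℝ} (hε : 0 < ε) :
    ∃ Y : (F → ℝ) → (F → ℝ), Nice F Ed ξ Y ∧
      Var[fun x => (∑ v, w v * x v) + c1;
        (hamP F Ed ξ).tilted fun h => (∑ v, l v * h v) + c0] ≤
        2 * (∫ x, ∑ v, w v * Y x v ∂((hamP F Ed ξ).tilted fun h => (∑ v, l v * h v) + c0)) -
        (∫ x, MW121.en Y x ∂((hamP F Ed ξ).tilted fun h => (∑ v, l v * h v) + c0)) + ε := by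
  set ℓ : (F → ℝ) →L[ℝ] ℝ := ∑ v, w v • ContinuousLinearMap.proj (R := ℝ) v with hℓ
  have hℓa : ∀ x, ℓ x = ∑ v, w v * x v := fun x => by
    rw [hℓ]
    simp
  have hG : ContDiff ℝ 1 fun x => ℓ x + c1 := ℓ.contDiff.add contDiff_const
  have hL : LipschitzWith ‖ℓ‖₊ fun x => ℓ x + c1 := by
    refine LipschitzWith.of_dist_le_mul fun x y => ?_
    rw [dist_add_right]
    exact ℓ.lipschitz.dist_le_mul x y
  have hd : ∀ x, fderiv ℝ (fun x => ℓ x + c1) x = ℓ := fun x =>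
    (ℓ.hasFDerivAt.add_const c1).fderiv
  obtain ⟨Y, hY, h⟩ := hsu_tilted hb hv l c0 hG hL hε
  refine ⟨Y, hY, ?_⟩
  simp only [hd] at h
  simp only [hℓa] at h
  exact h

end

end Crest.Agent.R144.Hsu498
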