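import Mathlib

/-!
# R144 (S0197), block HSU (helper498), file 1: soft walls and fibres

* `w0` : a `C²` convex function, zero on `(-∞, 0]`, positive on `(0, ∞)`, `w0'' = min t₊ 1`;
* `sl j x = c - ⟪a, x⟫` for `j = (a, c)`: slack of the wall `j`; `poly J`: the polytope;
* `soft U J k` : the soft potential `U + k ∑ w0 (- slack)`;
* `seg_avg` : one dimensional Poincaré inequality with an averaged end point;
* `fibre` : its integrated form along the direction of the wall (Tonelli and translations).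
-/

set_option autoImplicit false

open MeasureTheory Set Filter Topology
open scoped ENNReal NNReal RealInnerProductSpace

namespace Crest.Agent.R144.Hsu498

noncomputable section

/-! ### the soft wall -/

/-- second derivative of the soft wall -/
def w2 (t : ℝ) : ℝ := min (max t 0) 1

/-- first derivative of the soft wall -/
def w1 (t : ℝ) : ℝ := ∫ s in (0 : ℝ)..t, w2 s

/-- the soft wall -/
def w0 (t : ℝ) : ℝ := ∫ s in (0 : ℝ)..t, w1 s

theorem continuous_w2 : Continuous w2 := by unfold w2; fun_prop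

theorem w2_nonneg (t : ℝ) : 0 ≤ w2 t := le_min (le_max_right _ _) zero_le_one

theorem w2_le_one (t : ℝ) : w2 t ≤ 1 := min_le_right _ _

theorem w2_of_nonpos {t : ℝ} (h : t ≤ 0) : w2 t = 0 := by
  unfold w2; rw [max_eq_right h]; norm_num

theorem w2_of_mem {t : ℝ} (h0 : 0 ≤ t) (h1 : t ≤ 1) : w2 t = t := by
  unfold w2; rw [max_eq_left h0, min_eq_left h1]

theorem w2_pos {t : ℝ} (h : 0 < t) : 0 < w2 t := lt_min (lt_max_of_lt_left h) zero_lt_one

theorem hasDerivAt_w1 (t : ℝ) : HasDerivAt w1 (w2 t) t :=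
  intervalIntegral.integral_hasDerivAt_right (continuous_w2.intervalIntegrable _ _)
    (continuous_w2.stronglyMeasurableAtFilter _ _) continuous_w2.continuousAt

theorem continuous_w1 : Continuous w1 :=
  continuous_iff_continuousAt.2 fun t => (hasDerivAt_w1 t).continuousAt

theorem hasDerivAt_w0 (t : ℝ) : HasDerivAt w0 (w1 t) t :=
  intervalIntegral.integral_hasDerivAt_right (continuous_w1.intervalIntegrable _ _)
    (continuous_w1.stronglyMeasurableAtFilter _ _) continuous_w1.continuousAt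

theorem continuous_w0 : Continuous w0 :=
  continuous_iff_continuousAt.2 fun t => (hasDerivAt_w0 t).continuousAt

theorem w1_of_nonpos {t : ℝ} (h : t ≤ 0) : w1 t = 0 := by
  unfold w1
  rw [intervalIntegral.integral_congr (g := fun _ => (0 : ℝ))]
  · simp
  · intro s hs
    rw [uIcc_of_ge h] at hs
    exact w2_of_nonpos hs.2

theorem w0_of_nonpos {t : ℝ} (h : t ≤ 0) : w0 t = 0 := by
  unfold w0
  rw [intervalIntegral.integral_congr (g := fun _ => (0 : ℝ))]
  · simp
  · intro s hs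
    rw [uIcc_of_ge h] at hs
    exact w1_of_nonpos hs.2

theorem monotone_w1 : Monotone w1 := by
  refine monotone_of_deriv_nonneg (fun t => (hasDerivAt_w1 t).differentiableAt) fun t => ?_
  rw [(hasDerivAt_w1 t).deriv]; exact w2_nonneg t

theorem w1_nonneg (t : ℝ) : 0 ≤ w1 t := by
  rcases le_total t 0 with h | h
  · rw [w1_of_nonpos h]
  · have := monotone_w1 h
    rwa [w1_of_nonpos le_rfl] at this

theorem monotone_w0 : Monotone w0 := by
  refine monotone_of_deriv_nonneg (fun t => (hasDerivAt_w0 t).differentiableAt) fun t => ?_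
  rw [(hasDerivAt_w0 t).deriv]; exact w1_nonneg t

theorem w0_nonneg (t : ℝ) : 0 ≤ w0 t := by
  rcases le_total t 0 with h | h
  · rw [w0_of_nonpos h]
  · have := monotone_w0 h
    rwa [w0_of_nonpos le_rfl] at this

theorem w1_pos {t : ℝ} (h : 0 < t) : 0 < w1 t := by
  unfold w1
  exact intervalIntegral.intervalIntegral_pos_of_pos_on (continuous_w2.intervalIntegrable _ _)
    (fun s hs => w2_pos hs.1) h

theorem w0_pos {t : ℝ} (h : 0 < t) : 0 < w0 t := by
  unfold w0
  exact intervalIntegral.intervalIntegral_pos_of_pos_on (continuous_w1.intervalIntegrable _ _)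
    (fun s hs => w1_pos hs.1) h

theorem w1_le {t : ℝ} (h : 0 ≤ t) : w1 t ≤ t ^ 2 := by
  unfold w1
  calc ∫ s in (0 : ℝ)..t, w2 s ≤ ∫ s in (0 : ℝ)..t, t := by
        refine intervalIntegral.integral_mono_on h (continuous_w2.intervalIntegrable _ _)
          (by simp) fun s hs => ?_
        unfold w2
        exact (min_le_left _ _).trans (max_le hs.2 h)
    _ = t ^ 2 := by simp; ring

theorem w0_le {t : ℝ} (h : 0 ≤ t) : w0 t ≤ t ^ 3 := by
  unfold w0
  calc ∫ s in (0 : ℝ)..t, w1 s ≤ ∫ s in (0 : ℝ)..t, t ^ 2 := by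
        refine intervalIntegral.integral_mono_on h (continuous_w1.intervalIntegrable _ _)
          (by simp) fun s hs => ?_
        exact (monotone_w1 hs.2).trans (w1_le h)
    _ = t ^ 3 := by simp; ring

theorem deriv_w0 : deriv w0 = w1 := funext fun t => (hasDerivAt_w0 t).deriv

theorem deriv_w1 : deriv w1 = w2 := funext fun t => (hasDerivAt_w1 t).deriv

theorem contDiff_w1 : ContDiff ℝ 1 w1 :=
  contDiff_one_iff_deriv.2 ⟨fun t => (hasDerivAt_w1 t).differentiableAt, by
    rw [deriv_w1]; exact continuous_w2⟩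

theorem contDiff_w0 : ContDiff ℝ 2 w0 := by
  have h : ContDiff ℝ (1 + 1) w0 := by
    rw [contDiff_succ_iff_deriv]
    refine ⟨fun t => (hasDerivAt_w0 t).differentiableAt, by simp, ?_⟩
    rw [deriv_w0]; exact contDiff_w1
  have e : (1 + 1 : WithTop ℕ∞) = 2 := by norm_num
  rwa [e] at h

theorem convexOn_w0 : ConvexOn ℝ univ w0 := by
  refine MonotoneOn.convexOn_of_deriv convex_univ continuous_w0.continuousOn
    (fun t _ => (hasDerivAt_w0 t).differentiableAt.differentiableWithinAt) ?_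
  rw [deriv_w0]
  exact monotone_w1.monotoneOn _

/-! ### the polytope and the soft potential -/

section poly

variable {E : Type*} [NormedAddCommGroup E] [InnerProductSpace ℝ E]

/-- slack of the wall `j = (a, c)` -/
def sl (j : E × ℝ) (x : E) : ℝ := j.2 - ⟪j.1, x⟫

/-- the polytope -/
def poly (J : Finset (E × ℝ)) : Set E := {x | ∀ j ∈ J, 0 ≤ sl j x}

/-- the soft potential -/
def soft (U : E → ℝ) (J : Finset (E × ℝ)) (k : ℝ) (x : E) : ℝ :=
  U x + k * ∑ j ∈ J, w0 (-(sl j x))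

variable {J : Finset (E × ℝ)} {U : E → ℝ} {k : ℝ}

theorem contDiff_sl (j : E × ℝ) {n : WithTop ℕ∞} : ContDiff ℝ n (sl j) := by
  unfold sl
  exact contDiff_const.sub (contDiff_const.inner ℝ contDiff_id)

theorem continuous_sl (j : E × ℝ) : Continuous (sl j) := (contDiff_sl j (n := 0)).continuous

theorem hasFDerivAt_sl (j : E × ℝ) (x : E) : HasFDerivAt (sl j) (-(innerSL ℝ j.1)) x := by
  unfold sl
  exact ((innerSL ℝ j.1).hasFDerivAt (x := x)).const_sub j.2

theorem fderiv_sl (j : E × ℝ) (x z : E) : fderiv ℝ (sl j) x z = -⟪j.1, z⟫ := by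
  rw [(hasFDerivAt_sl j x).fderiv]; rfl

theorem sl_add_smul (j : E × ℝ) (x a : E) (u : ℝ) : sl j (x + u • a) = sl j x - u * ⟪j.1, a⟫ := by
  unfold sl
  rw [inner_add_right, inner_smul_right]; ring

theorem isClosed_poly : IsClosed (poly J) := by
  have : poly J = ⋂ j ∈ J, {x | 0 ≤ sl j x} := by ext x; simp [poly]
  rw [this]
  exact isClosed_biInter fun j _ => isClosed_le continuous_const (continuous_sl j)

theorem convex_poly : Convex ℝ (poly J) := by
  intro x hx y hy a b ha hb hab j hj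
  have h1 := hx j hj
  have h2 := hy j hj
  have e : sl j (a • x + b • y) = a * sl j x + b * sl j y := by
    unfold sl
    rw [inner_add_right, inner_smul_right, inner_smul_right]
    have : j.2 = (a + b) * j.2 := by rw [hab, one_mul]
    linear_combination this
  rw [e]; positivity

theorem contDiff_pen (j : E × ℝ) : ContDiff ℝ 2 (fun x => w0 (-(sl j x))) :=
  contDiff_w0.comp (contDiff_sl j).neg

theorem contDiff_soft (hU : ContDiff ℝ 2 U) : ContDiff ℝ 2 (soft U J k) := by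
  unfold soft
  exact hU.add (contDiff_const.mul (ContDiff.sum fun j _ => contDiff_pen j))

theorem convexOn_pen (j : E × ℝ) : ConvexOn ℝ univ (fun x => w0 (-(sl j x))) := by
  refine ⟨convex_univ, fun x _ y _ a b ha hb hab => ?_⟩
  have e : -sl j (a • x + b • y) = a • (-sl j x) + b • (-sl j y) := by
    unfold sl
    rw [inner_add_right, inner_smul_right, inner_smul_right, smul_eq_mul, smul_eq_mul]
    have : j.2 = (a + b) * j.2 := by rw [hab, one_mul]
    linear_combination -this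
  have := convexOn_w0.2 (mem_univ (-sl j x)) (mem_univ (-sl j y)) ha hb hab
  simpa only [e] using this

theorem convexOn_soft (hU : ConvexOn ℝ univ U) (hk : 0 ≤ k) : ConvexOn ℝ univ (soft U J k) := by
  unfold soft
  refine hU.add ?_
  have h : ConvexOn ℝ univ (fun x => ∑ j ∈ J, w0 (-(sl j x))) := by
    classical
    induction J using Finset.induction_on with
    | empty => simpa using convexOn_const (𝕜 := ℝ) (0 : ℝ) (convex_univ (E := E))
    | insert j s hj ih =>
      simp only [Finset.sum_insert hj]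
      exact (convexOn_pen j).add ih
  simpa only [smul_eq_mul] using h.smul hk

theorem pen_nonneg (x : E) : 0 ≤ ∑ j ∈ J, w0 (-(sl j x)) :=
  Finset.sum_nonneg fun _ _ => w0_nonneg _

theorem le_soft (hk : 0 ≤ k) (x : E) : U x ≤ soft U J k x := by
  unfold soft
  have := mul_nonneg hk (pen_nonneg (J := J) x)
  linarith

theorem soft_eq {x : E} (hx : x ∈ poly J) : soft U J k x = U x := by
  unfold soft
  rw [Finset.sum_eq_zero fun j hj => w0_of_nonpos (neg_nonpos.2 (hx j hj))]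
  ring

theorem hasFDerivAt_nsl (j : E × ℝ) (x : E) :
    HasFDerivAt (fun x => -(sl j x)) (innerSL ℝ j.1) x := by
  have h := (hasFDerivAt_sl j x).fun_neg
  rwa [neg_neg] at h

theorem fderiv_pen (j : E × ℝ) (x : E) :
    HasFDerivAt (fun x => w0 (-(sl j x))) (w1 (-(sl j x)) • innerSL ℝ j.1) x := by
  have h := (hasDerivAt_w0 (-(sl j x))).comp_hasFDerivAt x (hasFDerivAt_nsl j x)
  exact h

theorem fderiv_pen2 (j : E × ℝ) (x : E) :
    HasFDerivAt (fun x => w1 (-(sl j x)) • innerSL ℝ j.1)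
      ((w2 (-(sl j x)) • innerSL ℝ j.1).smulRight (innerSL ℝ j.1)) x := by
  have h := (hasDerivAt_w1 (-(sl j x))).comp_hasFDerivAt x (hasFDerivAt_nsl j x)
  exact HasFDerivAt.smul_const h (innerSL ℝ j.1)

theorem fderiv_soft (hU : ContDiff ℝ 2 U) (x : E) :
    fderiv ℝ (soft U J k) x = fderiv ℝ U x + k • ∑ j ∈ J, w1 (-(sl j x)) • innerSL ℝ j.1 := by
  have h1 : HasFDerivAt U (fderiv ℝ U x) x :=
    ((hU.differentiable (by norm_num)) x).hasFDerivAt
  have h2 : HasFDerivAt (fun x => ∑ j ∈ J, w0 (-(sl j x)))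
      (∑ j ∈ J, w1 (-(sl j x)) • innerSL ℝ j.1) x :=
    HasFDerivAt.fun_sum fun j _ => fderiv_pen j x
  have h3 := h1.add (h2.const_mul k)
  exact h3.fderiv

theorem fderiv_soft2 (hU : ContDiff ℝ 2 U) (x : E) :
    fderiv ℝ (fderiv ℝ (soft U J k)) x = fderiv ℝ (fderiv ℝ U) x +
      k • ∑ j ∈ J, (w2 (-(sl j x)) • innerSL ℝ j.1).smulRight (innerSL ℝ j.1) := by
  have e : fderiv ℝ (soft U J k) =
      fun x => fderiv ℝ U x + k • ∑ j ∈ J, w1 (-(sl j x)) • innerSL ℝ j.1 :=
    funext fun x => fderiv_soft hU x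
  rw [e]
  have h1 : HasFDerivAt (fderiv ℝ U) (fderiv ℝ (fderiv ℝ U) x) x :=
    (((hU.fderiv_right (m := 1) (by norm_num)).differentiable (by norm_num)) x).hasFDerivAt
  have h2 : HasFDerivAt (fun x => ∑ j ∈ J, w1 (-(sl j x)) • innerSL ℝ j.1)
      (∑ j ∈ J, (w2 (-(sl j x)) • innerSL ℝ j.1).smulRight (innerSL ℝ j.1)) x :=
    HasFDerivAt.fun_sum fun j _ => fderiv_pen2 j x
  have h3 := h1.add (h2.const_smul k)
  exact h3.fderiv

theorem fderiv_soft2_apply (hU : ContDiff ℝ 2 U) (x y z : E) :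
    fderiv ℝ (fderiv ℝ (soft U J k)) x y z = fderiv ℝ (fderiv ℝ U) x y z +
      k * ∑ j ∈ J, w2 (-(sl j x)) * (⟪j.1, y⟫ * ⟪j.1, z⟫) := by
  rw [fderiv_soft2 hU]
  simp [mul_assoc]

theorem abs_soft2_le (hU : ContDiff ℝ 2 U) {C : ℝ}
    (hC : ∀ x y z, |fderiv ℝ (fderiv ℝ U) x y z| ≤ C * ‖y‖ * ‖z‖) (hk : 0 ≤ k) (x y z : E) :
    |fderiv ℝ (fderiv ℝ (soft U J k)) x y z| ≤
      (C + k * ∑ j ∈ J, ‖j.1‖ * ‖j.1‖) * ‖y‖ * ‖z‖ := by
  rw [fderiv_soft2_apply hU]
  refine (abs_add_le _ _).trans ?_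
  have h1 := hC x y z
  have h2 : |k * ∑ j ∈ J, w2 (-(sl j x)) * (⟪j.1, y⟫ * ⟪j.1, z⟫)| ≤
      k * ∑ j ∈ J, ‖j.1‖ * ‖j.1‖ * (‖y‖ * ‖z‖) := by
    rw [abs_mul, abs_of_nonneg hk]
    refine mul_le_mul_of_nonneg_left ((Finset.abs_sum_le_sum_abs _ _).trans
      (Finset.sum_le_sum fun j _ => ?_)) hk
    rw [abs_mul, abs_of_nonneg (w2_nonneg _), abs_mul]
    have e1 := abs_real_inner_le_norm j.1 y
    have e2 := abs_real_inner_le_norm j.1 z
    have e3 := w2_le_one (-(sl j x))
    calc w2 (-(sl j x)) * (|⟪j.1, y⟫| * |⟪j.1, z⟫|)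
        ≤ 1 * ((‖j.1‖ * ‖y‖) * (‖j.1‖ * ‖z‖)) := by
          refine mul_le_mul e3 (mul_le_mul e1 e2 (abs_nonneg _) (by positivity)) (by positivity)
            zero_le_one
      _ = ‖j.1‖ * ‖j.1‖ * (‖y‖ * ‖z‖) := by ring
  refine (add_le_add h1 h2).trans (le_of_eq ?_)
  rw [← Finset.sum_mul]
  ring

theorem norm_soft2_le (hU : ContDiff ℝ 2 U) {C : ℝ} (hC0 : 0 ≤ C)
    (hC : ∀ x y z, |fderiv ℝ (fderiv ℝ U) x y z| ≤ C * ‖y‖ * ‖z‖) (hk : 0 ≤ k) (x : E) :
    ‖fderiv ℝ (fderiv ℝ (soft U J k)) x‖ ≤ C + k * ∑ j ∈ J, ‖j.1‖ * ‖j.1‖ := by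
  refine ContinuousLinearMap.opNorm_le_bound₂ _ ?_ fun y z => abs_soft2_le hU hC hk x y z
  have : 0 ≤ ∑ j ∈ J, ‖j.1‖ * ‖j.1‖ := Finset.sum_nonneg fun _ _ => by positivity
  positivity

end poly

/-! ### one dimensional inequality -/

theorem sq_integral_le {g : ℝ → ℝ} (hg : Continuous g) {h : ℝ} (hh : 0 ≤ h) :
    (∫ u in (0 : ℝ)..h, g u) ^ 2 ≤ h * ∫ u in (0 : ℝ)..h, g u ^ 2 := by
  rcases hh.eq_or_lt with rfl | hpos
  · simp
  set I := ∫ u in (0 : ℝ)..h, g u with hI
  have i1 : IntervalIntegrable (fun u => g u ^ 2) volume 0 h :=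
    (hg.pow 2).intervalIntegrable _ _
  have i2 : IntervalIntegrable (fun u => 2 * (I / h) * g u) volume 0 h :=
    (continuous_const.mul hg).intervalIntegrable _ _
  have h0 : 0 ≤ ∫ u in (0 : ℝ)..h, (g u - I / h) ^ 2 :=
    intervalIntegral.integral_nonneg hh fun u _ => sq_nonneg _
  have e : ∫ u in (0 : ℝ)..h, (g u - I / h) ^ 2 =
      (∫ u in (0 : ℝ)..h, g u ^ 2) - 2 * (I / h) * I + h * (I / h) ^ 2 := by
    have e1 : ∀ u, (g u - I / h) ^ 2 = (g u ^ 2 - 2 * (I / h) * g u) + (I / h) ^ 2 := fun u => by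
      ring
    simp only [e1]
    rw [intervalIntegral.integral_add (i1.sub i2) (by simp), intervalIntegral.integral_sub i1 i2,
      intervalIntegral.integral_const_mul, ← hI]
    simp
  rw [e] at h0
  have e2 : h * (I / h) ^ 2 = I ^ 2 / h := by field_simp
  have e3 : 2 * (I / h) * I = 2 * (I ^ 2 / h) := by ring
  rw [e2, e3] at h0
  have h1 : I ^ 2 / h ≤ ∫ u in (0 : ℝ)..h, g u ^ 2 := by linarith
  rw [div_le_iff₀ hpos] at h1
  linarith

theorem seg {f : ℝ → ℝ} (hf : ContDiff ℝ 1 f) {h : ℝ} (hh : 0 ≤ h) :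
    f 0 ^ 2 ≤ 2 * f h ^ 2 + 2 * h * ∫ u in (0 : ℝ)..h, deriv f u ^ 2 := by
  have hc : Continuous (deriv f) := hf.continuous_deriv le_rfl
  have h1 : ∫ u in (0 : ℝ)..h, deriv f u = f h - f 0 :=
    intervalIntegral.integral_deriv_eq_sub (fun x _ => (hf.differentiable (by norm_num)) x)
      (hc.intervalIntegrable _ _)
  have h2 := sq_integral_le hc hh
  rw [h1] at h2
  nlinarith [sq_nonneg (f h + (f h - f 0)), sq_nonneg (f 0 - f h)]

theorem seg_avg {f : ℝ → ℝ} (hf : ContDiff ℝ 1 f) {s δ : ℝ} (hs : 0 ≤ s) (hδ : 0 < δ) :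
    f 0 ^ 2 ≤ 4 / δ * (∫ u in (s + δ / 2)..(s + δ), f u ^ 2) +
      2 * (s + δ) * ∫ u in (0 : ℝ)..(s + δ), deriv f u ^ 2 := by
  have hc : Continuous (deriv f) := hf.continuous_deriv le_rfl
  set Q := ∫ u in (0 : ℝ)..(s + δ), deriv f u ^ 2 with hQ
  have h1 : ∀ t ∈ Icc (s + δ / 2) (s + δ), f 0 ^ 2 ≤ 2 * f t ^ 2 + 2 * (s + δ) * Q := by
    intro t ht
    have ht0 : 0 ≤ t := by linarith [ht.1]
    have h2 := seg hf ht0
    have h3 : ∫ u in (0 : ℝ)..t, deriv f u ^ 2 ≤ Q := by
      refine intervalIntegral.integral_mono_interval le_rfl ht0 ht.2 ?_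
        ((hc.pow 2).intervalIntegrable _ _)
      exact Eventually.of_forall fun u => sq_nonneg _
    have h4 : 0 ≤ ∫ u in (0 : ℝ)..t, deriv f u ^ 2 :=
      intervalIntegral.integral_nonneg ht0 fun u _ => sq_nonneg _
    have h5 : 2 * t * (∫ u in (0 : ℝ)..t, deriv f u ^ 2) ≤ 2 * (s + δ) * Q := by
      refine mul_le_mul (by linarith [ht.2]) h3 h4 (by linarith)
    linarith
  have hle : s + δ / 2 ≤ s + δ := by linarith
  have h2 : ∫ t in (s + δ / 2)..(s + δ), f 0 ^ 2 ≤
      ∫ t in (s + δ / 2)..(s + δ), (2 * f t ^ 2 + 2 * (s + δ) * Q) :=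
    intervalIntegral.integral_mono_on hle (by simp)
      ((by have := hf.continuous; fun_prop : Continuous
        fun t => 2 * f t ^ 2 + 2 * (s + δ) * Q).intervalIntegrable _ _) h1
  rw [intervalIntegral.integral_add
    ((by have := hf.continuous; fun_prop : Continuous
        fun t => 2 * f t ^ 2).intervalIntegrable _ _) (by simp),
    intervalIntegral.integral_const_mul] at h2
  simp only [intervalIntegral.integral_const, smul_eq_mul] at h2
  have e : s + δ - (s + δ / 2) = δ / 2 := by ring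
  rw [e] at h2
  have h3 : f 0 ^ 2 ≤ 2 / δ * (2 * (∫ t in (s + δ / 2)..(s + δ), f t ^ 2) +
      δ / 2 * (2 * (s + δ) * Q)) := by
    calc f 0 ^ 2 = 2 / δ * (δ / 2 * f 0 ^ 2) := by field_simp
      _ ≤ _ := mul_le_mul_of_nonneg_left h2 (by positivity)
  refine h3.trans (le_of_eq ?_)
  field_simp
  ring

theorem seg_lint {f : ℝ → ℝ} (hf : ContDiff ℝ 1 f) {s δ : ℝ} (hs : 0 ≤ s) (hδ : 0 < δ) :
    ENNReal.ofReal (f 0 ^ 2) ≤ ∫⁻ u in Ioc 0 (s + δ), ENNReal.ofReal
      (4 / δ * (if s + δ / 2 < u then f u ^ 2 else 0) + 2 * (s + δ) * deriv f u ^ 2) := by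
  have hc : Continuous (deriv f) := hf.continuous_deriv le_rfl
  have hcf : Continuous f := hf.continuous
  have i1 : IntegrableOn (fun u => f u ^ 2) (Ioc 0 (s + δ)) :=
    (((hcf.pow 2).intervalIntegrable 0 (s + δ))).1
  have i1' : IntegrableOn (fun u => if s + δ / 2 < u then f u ^ 2 else 0) (Ioc 0 (s + δ)) := by
    have : (fun u => if s + δ / 2 < u then f u ^ 2 else 0) =
        (Ioi (s + δ / 2)).indicator (fun u => f u ^ 2) := by
      ext u; simp [indicator, mem_Ioi]
    rw [this]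
    exact i1.indicator measurableSet_Ioi
  have i2 : IntegrableOn (fun u => deriv f u ^ 2) (Ioc 0 (s + δ)) :=
    (((hc.pow 2).intervalIntegrable 0 (s + δ))).1
  have i3 : IntegrableOn (fun u => 4 / δ * (if s + δ / 2 < u then f u ^ 2 else 0) +
      2 * (s + δ) * deriv f u ^ 2) (Ioc 0 (s + δ)) :=
    (i1'.const_mul _).add (i2.const_mul _)
  rw [← ofReal_integral_eq_lintegral_ofReal i3 (Eventually.of_forall fun u => by
    have : 0 ≤ (if s + δ / 2 < u then f u ^ 2 else 0) := by split_ifs <;> positivity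
    positivity)]
  refine ENNReal.ofReal_le_ofReal ((seg_avg hf hs hδ).trans (le_of_eq ?_))
  rw [integral_add (i1'.const_mul _) (i2.const_mul _), integral_const_mul, integral_const_mul,
    intervalIntegral.integral_of_le (by linarith : s + δ / 2 ≤ s + δ),
    intervalIntegral.integral_of_le (by linarith : (0 : ℝ) ≤ s + δ)]
  congr 2
  have e : (fun u => if s + δ / 2 < u then f u ^ 2 else 0) =
      (Ioi (s + δ / 2)).indicator (fun u => f u ^ 2) := by
    ext u; simp [indicator, mem_Ioi]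
  rw [e, setIntegral_indicator measurableSet_Ioi]
  congr 2
  ext u
  simp only [mem_inter_iff, mem_Ioc, mem_Ioi]
  constructor
  · rintro ⟨h1, h2⟩
    exact ⟨⟨by linarith, h2⟩, h1⟩
  · rintro ⟨⟨_, h2⟩, h1⟩
    exact ⟨h1, h2⟩

/-! ### the fibre inequality -/

section fibre

variable {E : Type*} [NormedAddCommGroup E] [InnerProductSpace ℝ E] [FiniteDimensional ℝ E]
  [MeasurableSpace E] [BorelSpace E]

theorem fibre {v : E → ℝ} (hv : ContDiff ℝ 1 v) {j : E × ℝ} (hj : ‖j.1‖ = 1) {r δ : ℝ}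
    (hδ : 0 < δ) (hδr : δ ≤ r) {T T' : Set E} (hT : MeasurableSet T) (hT' : MeasurableSet T')
    (hTs : ∀ x ∈ T, r ≤ sl j x ∧ sl j x ≤ 2 * r)
    (hTT' : ∀ x ∈ T, ∀ u ∈ Ioc 0 (sl j x + δ), x + u • j.1 ∈ T') :
    ∫⁻ x in T, ENNReal.ofReal (v x ^ 2) ≤ ENNReal.ofReal (3 * r) *
      ∫⁻ x in T', ENNReal.ofReal (4 / δ * (if sl j x < -(δ / 2) then v x ^ 2 else 0) +
        6 * r * fderiv ℝ v x j.1 ^ 2) := by
  set Φ : E → ℝ≥0∞ := T'.indicator fun x => ENNReal.ofReal
    (4 / δ * (if sl j x < -(δ / 2) then v x ^ 2 else 0) + 6 * r * fderiv ℝ v x j.1 ^ 2) with hΦ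
  have hcd : Continuous fun x => fderiv ℝ v x j.1 :=
    (hv.continuous_fderiv (by norm_num)).clm_apply continuous_const
  have hΦm : Measurable Φ := by
    refine Measurable.indicator ?_ hT'
    refine ENNReal.measurable_ofReal.comp ?_
    refine Measurable.add (Measurable.const_mul (Measurable.ite ?_ ?_ measurable_const) _)
      (Measurable.const_mul (hcd.measurable.pow_const 2) _)
    · exact measurableSet_lt (continuous_sl j).measurable measurable_const
    · exact hv.continuous.measurable.pow_const 2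
  have hjj : ⟪j.1, j.1⟫ = 1 := by rw [real_inner_self_eq_norm_sq, hj]; norm_num
  have hpt : ∀ x ∈ T, ENNReal.ofReal (v x ^ 2) ≤ ∫⁻ u in Ioc (0 : ℝ) (3 * r), Φ (x + u • j.1) := by
    intro x hx
    obtain ⟨h1, h2⟩ := hTs x hx
    have hr : 0 < r := lt_of_lt_of_le hδ hδr
    have hs : 0 ≤ sl j x := hr.le.trans h1
    have hf : ContDiff ℝ 1 fun u : ℝ => v (x + u • j.1) :=
      hv.comp (contDiff_const.add (contDiff_id.smul contDiff_const))
    have hd : ∀ u : ℝ, deriv (fun u : ℝ => v (x + u • j.1)) u = fderiv ℝ v (x + u • j.1) j.1 := by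
      intro u
      have h3 : HasDerivAt (fun u : ℝ => x + u • j.1) j.1 u := by
        simpa using ((hasDerivAt_id u).smul_const j.1).const_add x
      have h4 : HasFDerivAt v (fderiv ℝ v (x + u • j.1)) (x + u • j.1) :=
        ((hv.differentiable (by norm_num)) _).hasFDerivAt
      exact (h4.comp_hasDerivAt u h3).deriv
    have h3 := seg_lint hf hs hδ
    simp only [zero_smul, add_zero] at h3
    refine h3.trans ?_
    calc ∫⁻ u in Ioc 0 (sl j x + δ), ENNReal.ofReal
          (4 / δ * (if sl j x + δ / 2 < u then v (x + u • j.1) ^ 2 else 0) +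
            2 * (sl j x + δ) * deriv (fun u : ℝ => v (x + u • j.1)) u ^ 2)
        ≤ ∫⁻ u in Ioc 0 (sl j x + δ), Φ (x + u • j.1) := by
          refine setLIntegral_mono' measurableSet_Ioc fun u hu => ?_
          rw [hΦ, indicator_of_mem (hTT' x hx u hu)]
          refine ENNReal.ofReal_le_ofReal ?_
          rw [hd u]
          have e1 : (sl j (x + u • j.1) < -(δ / 2)) ↔ (sl j x + δ / 2 < u) := by
            rw [sl_add_smul, hjj, mul_one]
            constructor <;> intro h <;> linarith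
          simp only [e1]
          have h5 : 2 * (sl j x + δ) ≤ 6 * r := by linarith
          have h6 := mul_le_mul_of_nonneg_right h5 (sq_nonneg (fderiv ℝ v (x + u • j.1) j.1))
          linarith
      _ ≤ ∫⁻ u in Ioc (0 : ℝ) (3 * r), Φ (x + u • j.1) :=
          lintegral_mono_set (Ioc_subset_Ioc_right (by linarith))
  calc ∫⁻ x in T, ENNReal.ofReal (v x ^ 2)
      ≤ ∫⁻ x in T, ∫⁻ u in Ioc (0 : ℝ) (3 * r), Φ (x + u • j.1) := setLIntegral_mono' hT hpt
    _ ≤ ∫⁻ x, ∫⁻ u in Ioc (0 : ℝ) (3 * r), Φ (x + u • j.1) := setLIntegral_le_lintegral _ _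
    _ = ∫⁻ u in Ioc (0 : ℝ) (3 * r), ∫⁻ x, Φ (x + u • j.1) := by
        refine lintegral_lintegral_swap ?_
        refine (hΦm.comp ?_).aemeasurable
        exact (continuous_fst.add (continuous_snd.smul continuous_const)).measurable
    _ = ∫⁻ u in Ioc (0 : ℝ) (3 * r), ∫⁻ x, Φ x := by
        refine lintegral_congr fun u => ?_
        exact lintegral_add_right_eq_self Φ (u • j.1)
    _ = ENNReal.ofReal (3 * r) * ∫⁻ x, Φ x := by
        rw [lintegral_const, Measure.restrict_apply_univ, Real.volume_Ioc, sub_zero, mul_comm]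
    _ = _ := by rw [hΦ, lintegral_indicator hT']

end fibre

end

end Crest.Agent.R144.Hsu498
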