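import Crest.Agent.R144.Hsu1_498

/-!
# R144 (S0197), block HSU (helper498), file 2: capacity of the corners

* `packing`, `vol_slab`, `vol_two`, `vol_pair` : slabs have volume `≤ C t`, intersections of two
  slabs of different walls have volume `≤ C t²`;
* `cut N ρ` : a cut-off with `N` scales, `cut_deriv`;
* `exists_mlt` : a smooth multiplier with small Dirichlet energy on the polytope which vanishes where
  two different walls are almost tight.
-/

set_option autoImplicit false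
set_option linter.unusedSectionVars false

open MeasureTheory Set Filter Topology
open scoped ENNReal NNReal RealInnerProductSpace

namespace Crest.Agent.R144.Hsu498

noncomputable section

section vol

variable {E : Type*} [NormedAddCommGroup E] [InnerProductSpace ℝ E] [FiniteDimensional ℝ E]
  [MeasurableSpace E] [BorelSpace E]

/-- disjoint translates of a set inside a set -/
theorem packing {ι : Type*} {S B : Set E} (hS : MeasurableSet S) (I : Finset ι) (w : ι → E)
    (hd : ∀ i ∈ I, ∀ j ∈ I, ∀ x ∈ S, ∀ y ∈ S, x + w i = y + w j → i = j)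
    (hB : ∀ i ∈ I, ∀ x ∈ S, x + w i ∈ B) : (I.card : ℝ≥0∞) * volume S ≤ volume B := by
  have hm : ∀ i, MeasurableSet ((fun x => x + -w i) ⁻¹' S) := fun i =>
    (measurable_add_const _) hS
  have h1 : volume (⋃ i ∈ I, (fun x => x + -w i) ⁻¹' S) = (I.card : ℝ≥0∞) * volume S := by
    rw [measure_biUnion_finset _ fun i _ => hm i]
    · simp only [measure_preimage_add_right]
      rw [Finset.sum_const, nsmul_eq_mul]
    · intro i hi j hj hij
      rw [Function.onFun, Set.disjoint_left]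
      intro x hx hx'
      refine hij (hd i hi j hj _ hx _ hx' ?_)
      simp
  rw [← h1]
  refine measure_mono (iUnion₂_subset fun i hi x hx => ?_)
  have := hB i hi _ hx
  simpa using this

variable {K : Set E}

theorem vol_slab (hK : Bornology.IsBounded K) (hKm : MeasurableSet K) {j : E × ℝ}
    (hj : ‖j.1‖ = 1) :
    ∃ C : ℝ≥0∞, C ≠ ∞ ∧ ∀ t : ℝ, 0 < t →
      volume (K ∩ {x | 0 ≤ sl j x ∧ sl j x ≤ t}) ≤ C * ENNReal.ofReal t := by
  obtain ⟨R, hR⟩ := hK.subset_closedBall (0 : E)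
  have hjj : ⟪j.1, j.1⟫ = 1 := by rw [real_inner_self_eq_norm_sq, hj]; norm_num
  refine ⟨volume (Metric.closedBall (0 : E) (R + 4)) , measure_closedBall_lt_top.ne, ?_⟩
  intro t ht
  rcases le_or_gt t 1 with h1 | h1
  · set N : ℕ := ⌈1 / t⌉₊ with hN
    have hN1 : 1 / t ≤ N := Nat.le_ceil _
    have hN2 : (N : ℝ) < 1 / t + 1 := Nat.ceil_lt_add_one (by positivity)
    have hN3 : t * N ≤ 2 := by
      have : t * N ≤ t * (1 / t + 1) := mul_le_mul_of_nonneg_left hN2.le ht.le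
      have e : t * (1 / t + 1) = 1 + t := by field_simp
      linarith
    have hN4 : 1 ≤ t * N := by
      have := mul_le_mul_of_nonneg_left hN1 ht.le
      have e : t * (1 / t) = 1 := by field_simp
      linarith
    have key := packing (S := K ∩ {x | 0 ≤ sl j x ∧ sl j x ≤ t})
      (B := Metric.closedBall (0 : E) (R + 4)) ?_ (Finset.range N)
      (fun i => (2 * t * i) • j.1) ?_ ?_
    · rw [Finset.card_range] at key
      have e1 : (1 : ℝ≥0∞) ≤ ENNReal.ofReal t * N := by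
        rw [← ENNReal.ofReal_natCast, ← ENNReal.ofReal_mul ht.le, ← ENNReal.ofReal_one]
        exact ENNReal.ofReal_le_ofReal hN4
      calc volume (K ∩ {x | 0 ≤ sl j x ∧ sl j x ≤ t})
          ≤ (ENNReal.ofReal t * N) * volume (K ∩ {x | 0 ≤ sl j x ∧ sl j x ≤ t}) := by
            conv_lhs => rw [← one_mul (volume _)]
            gcongr
        _ = (N * volume (K ∩ {x | 0 ≤ sl j x ∧ sl j x ≤ t})) * ENNReal.ofReal t := by ring
        _ ≤ _ := by gcongr
    · exact hKm.inter ((measurableSet_le measurable_const (continuous_sl j).measurable).inter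
        (measurableSet_le (continuous_sl j).measurable measurable_const))
    · intro i _ i' _ x hx y hy hxy
      have h2 : sl j (x + (2 * t * i) • j.1) = sl j (y + (2 * t * i') • j.1) := by rw [hxy]
      rw [sl_add_smul, sl_add_smul, hjj, mul_one, mul_one] at h2
      obtain ⟨_, hx1, hx2⟩ := hx
      obtain ⟨_, hy1, hy2⟩ := hy
      have h3 : |(i : ℝ) - i'| < 1 := by
        rw [abs_lt]
        constructor
        · nlinarith
        · nlinarith
      have h4 : |(i : ℤ) - i'| < 1 := by exact_mod_cast h3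
      have h5 := Int.abs_lt_one_iff.1 h4
      omega
    · intro i hi x hx
      rw [mem_closedBall_zero_iff]
      have h2 : ‖x‖ ≤ R := by simpa using hR hx.1
      have h3 : (i : ℝ) ≤ N := by exact_mod_cast (Finset.mem_range.1 hi).le
      have h4 : ‖(2 * t * i) • j.1‖ ≤ 4 := by
        rw [norm_smul, hj, mul_one, Real.norm_of_nonneg (by positivity)]
        nlinarith
      exact (norm_add_le _ _).trans (add_le_add h2 h4)
  · calc volume (K ∩ {x | 0 ≤ sl j x ∧ sl j x ≤ t}) ≤ volume (Metric.closedBall (0 : E) (R + 4)) :=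
          measure_mono (inter_subset_left.trans
            (hR.trans (Metric.closedBall_subset_closedBall (by linarith))))
      _ = volume (Metric.closedBall (0 : E) (R + 4)) * 1 := by rw [mul_one]
      _ ≤ _ := by
          gcongr
          rw [← ENNReal.ofReal_one]
          exact ENNReal.ofReal_le_ofReal h1.le

theorem exists_dual {a b : E} (ha : ‖a‖ = 1) (hb : ‖b‖ = 1) (hab : ⟪a, b⟫ ^ 2 < 1) :
    ∃ p q : E, ⟪a, p⟫ = 1 ∧ ⟪b, p⟫ = 0 ∧ ⟪a, q⟫ = 0 ∧ ⟪b, q⟫ = 1 := by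
  have hbb : ⟪b, b⟫ = 1 := by rw [real_inner_self_eq_norm_sq, hb]; norm_num
  have haa : ⟪a, a⟫ = 1 := by rw [real_inner_self_eq_norm_sq, ha]; norm_num
  have he' : ⟪b, a⟫ = ⟪a, b⟫ := real_inner_comm _ _
  have hD : 1 - ⟪a, b⟫ ^ 2 ≠ 0 := by linarith
  refine ⟨(1 / (1 - ⟪a, b⟫ ^ 2)) • (a - ⟪a, b⟫ • b), (1 / (1 - ⟪a, b⟫ ^ 2)) • (b - ⟪a, b⟫ • a),
    ?_, ?_, ?_, ?_⟩
  · rw [inner_smul_right, inner_sub_right, inner_smul_right, haa]; field_simp
  · rw [inner_smul_right, inner_sub_right, inner_smul_right, hbb, he']; ring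
  · rw [inner_smul_right, inner_sub_right, inner_smul_right, haa]; ring
  · rw [inner_smul_right, inner_sub_right, inner_smul_right, hbb, he']; field_simp

theorem sl_expand (l : E × ℝ) (z p q : E) (a b : ℝ) : sl l (z + (a • p + b • q)) =
    sl l z - a * ⟪l.1, p⟫ - b * ⟪l.1, q⟫ := by
  unfold sl
  rw [inner_add_right, inner_add_right, inner_smul_right, inner_smul_right]; ring

theorem nat_eq_of_abs_lt {a b : ℕ} (hab : |(a : ℝ) - b| < 1) : a = b := by
  have h4 : |(a : ℤ) - b| < 1 := by exact_mod_cast hab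
  have h5 := Int.abs_lt_one_iff.1 h4
  omega

theorem vol_two (hK : Bornology.IsBounded K) (hKm : MeasurableSet K) {i j : E × ℝ}
    (hi : ‖i.1‖ = 1) (hj : ‖j.1‖ = 1) (hij : ⟪i.1, j.1⟫ ^ 2 < 1) :
    ∃ C : ℝ≥0∞, C ≠ ∞ ∧ ∀ t : ℝ, 0 < t →
      volume (K ∩ {x | (0 ≤ sl i x ∧ sl i x ≤ t) ∧ (0 ≤ sl j x ∧ sl j x ≤ t)}) ≤
        C * ENNReal.ofReal (t ^ 2) := by
  obtain ⟨R, hR⟩ := hK.subset_closedBall (0 : E)
  obtain ⟨p, q, hip, hjp, hiq, hjq⟩ := exists_dual hi hj hij
  have hB0 : 0 ≤ ‖p‖ + ‖q‖ := by positivity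
  refine ⟨volume (Metric.closedBall (0 : E) (R + 4 * (‖p‖ + ‖q‖))),
    measure_closedBall_lt_top.ne, ?_⟩
  intro t ht
  rcases le_or_gt t 1 with h1 | h1
  · obtain ⟨N, hN3, hN4⟩ : ∃ N : ℕ, t * N ≤ 2 ∧ 1 ≤ t * N := by
      have hN1 : 1 / t ≤ (⌈1 / t⌉₊ : ℝ) := Nat.le_ceil _
      have hN2 : (⌈1 / t⌉₊ : ℝ) < 1 / t + 1 := Nat.ceil_lt_add_one (by positivity)
      refine ⟨⌈1 / t⌉₊, ?_, ?_⟩
      · have : t * (⌈1 / t⌉₊ : ℝ) ≤ t * (1 / t + 1) := mul_le_mul_of_nonneg_left hN2.le ht.le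
        have e : t * (1 / t + 1) = 1 + t := by field_simp
        linarith
      · have := mul_le_mul_of_nonneg_left hN1 ht.le
        have e : t * (1 / t) = 1 := by field_simp
        linarith
    have hSm : MeasurableSet
        (K ∩ {x | (0 ≤ sl i x ∧ sl i x ≤ t) ∧ (0 ≤ sl j x ∧ sl j x ≤ t)}) :=
      hKm.inter (((measurableSet_le measurable_const (continuous_sl i).measurable).inter
        (measurableSet_le (continuous_sl i).measurable measurable_const)).inter
        ((measurableSet_le measurable_const (continuous_sl j).measurable).inter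
        (measurableSet_le (continuous_sl j).measurable measurable_const)))
    have key := packing hSm (B := Metric.closedBall (0 : E) (R + 4 * (‖p‖ + ‖q‖)))
      (Finset.range N ×ˢ Finset.range N)
      (fun m => (2 * t * m.1) • p + (2 * t * m.2) • q) ?_ ?_
    · rw [Finset.card_product, Finset.card_range] at key
      have e1 : (1 : ℝ≥0∞) ≤ ENNReal.ofReal (t ^ 2) * ((N * N : ℕ) : ℝ≥0∞) := by
        rw [← ENNReal.ofReal_natCast, ← ENNReal.ofReal_mul (by positivity), ← ENNReal.ofReal_one]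
        refine ENNReal.ofReal_le_ofReal ?_
        push_cast
        nlinarith
      calc volume (K ∩ {x | (0 ≤ sl i x ∧ sl i x ≤ t) ∧ (0 ≤ sl j x ∧ sl j x ≤ t)})
          ≤ (ENNReal.ofReal (t ^ 2) * ((N * N : ℕ) : ℝ≥0∞)) *
            volume (K ∩ {x | (0 ≤ sl i x ∧ sl i x ≤ t) ∧ (0 ≤ sl j x ∧ sl j x ≤ t)}) := by
            conv_lhs => rw [← one_mul (volume _)]
            gcongr
        _ = (((N * N : ℕ) : ℝ≥0∞) * volume (K ∩ {x | (0 ≤ sl i x ∧ sl i x ≤ t) ∧
            (0 ≤ sl j x ∧ sl j x ≤ t)})) * ENNReal.ofReal (t ^ 2) := by ring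
        _ ≤ _ := by gcongr
    · rintro ⟨m, n⟩ _ ⟨m', n'⟩ _ x hx y hy hxy
      have h2 : sl i (x + ((2 * t * m) • p + (2 * t * n) • q)) =
          sl i (y + ((2 * t * m') • p + (2 * t * n') • q)) := congrArg (sl i) hxy
      have h2' : sl j (x + ((2 * t * m) • p + (2 * t * n) • q)) =
          sl j (y + ((2 * t * m') • p + (2 * t * n') • q)) := congrArg (sl j) hxy
      rw [sl_expand, sl_expand, hip, hiq, mul_one, mul_one, mul_zero, mul_zero, sub_zero,
        sub_zero] at h2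
      rw [sl_expand, sl_expand, hjp, hjq, mul_one, mul_one, mul_zero, mul_zero, sub_zero,
        sub_zero] at h2'
      obtain ⟨_, ⟨hx1, hx2⟩, hx3, hx4⟩ := hx
      obtain ⟨_, ⟨hy1, hy2⟩, hy3, hy4⟩ := hy
      have h3 : m = m' := nat_eq_of_abs_lt (by rw [abs_lt]; constructor <;> nlinarith)
      have h4 : n = n' := nat_eq_of_abs_lt (by rw [abs_lt]; constructor <;> nlinarith)
      rw [h3, h4]
    · rintro ⟨m, n⟩ hmn x hx
      rw [mem_closedBall_zero_iff]
      obtain ⟨hm, hn⟩ := Finset.mem_product.1 hmn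
      have h2 : ‖x‖ ≤ R := by simpa using hR hx.1
      have h3 : (m : ℝ) ≤ N := by exact_mod_cast (Finset.mem_range.1 hm).le
      have h4 : (n : ℝ) ≤ N := by exact_mod_cast (Finset.mem_range.1 hn).le
      have e3 : 2 * t * (m : ℝ) ≤ 4 := by nlinarith
      have e4 : 2 * t * (n : ℝ) ≤ 4 := by nlinarith
      have h5 : ‖(2 * t * m) • p‖ ≤ 4 * ‖p‖ := by
        rw [norm_smul, Real.norm_of_nonneg (by positivity)]
        exact mul_le_mul_of_nonneg_right e3 (norm_nonneg _)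
      have h6 : ‖(2 * t * n) • q‖ ≤ 4 * ‖q‖ := by
        rw [norm_smul, Real.norm_of_nonneg (by positivity)]
        exact mul_le_mul_of_nonneg_right e4 (norm_nonneg _)
      have h7 := norm_add_le ((2 * t * m) • p) ((2 * t * n) • q)
      have h8 := norm_add_le x ((2 * t * m) • p + (2 * t * n) • q)
      show ‖x + ((2 * t * m) • p + (2 * t * n) • q)‖ ≤ R + 4 * (‖p‖ + ‖q‖)
      linarith
  · calc volume (K ∩ {x | (0 ≤ sl i x ∧ sl i x ≤ t) ∧ (0 ≤ sl j x ∧ sl j x ≤ t)})
        ≤ volume (Metric.closedBall (0 : E) (R + 4 * (‖p‖ + ‖q‖))) :=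
          measure_mono (inter_subset_left.trans
            (hR.trans (Metric.closedBall_subset_closedBall (by linarith))))
      _ = volume (Metric.closedBall (0 : E) (R + 4 * (‖p‖ + ‖q‖))) * 1 := by rw [mul_one]
      _ ≤ _ := by
          gcongr
          rw [← ENNReal.ofReal_one]
          exact ENNReal.ofReal_le_ofReal (by nlinarith)

theorem vol_far {κ : ℝ} (hκ : 0 < κ) {S : ℝ → Set E} (hK : volume K ≠ ∞)
    (h : ∀ t, ∀ x ∈ K ∩ S t, κ ≤ t) :
    ∃ C : ℝ≥0∞, C ≠ ∞ ∧ ∀ t : ℝ, 0 < t → volume (K ∩ S t) ≤ C * ENNReal.ofReal (t ^ 2) := by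
  refine ⟨volume K / ENNReal.ofReal (κ ^ 2), ENNReal.div_ne_top hK (by
    rw [Ne, ENNReal.ofReal_eq_zero, not_le]; positivity), fun t ht => ?_⟩
  rcases (K ∩ S t).eq_empty_or_nonempty with h0 | ⟨x, hx⟩
  · rw [h0, measure_empty]; exact zero_le
  · have h1 := h t x hx
    have h2 : (1 : ℝ≥0∞) ≤ (ENNReal.ofReal (κ ^ 2))⁻¹ * ENNReal.ofReal (t ^ 2) := by
      rw [mul_comm, ← div_eq_mul_inv, ENNReal.le_div_iff_mul_le (Or.inl (by
        rw [Ne, ENNReal.ofReal_eq_zero, not_le]; positivity)) (Or.inl ENNReal.ofReal_ne_top),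
        one_mul]
      exact ENNReal.ofReal_le_ofReal (by nlinarith)
    calc volume (K ∩ S t) ≤ volume K * 1 := by rw [mul_one]; exact measure_mono inter_subset_left
      _ ≤ volume K * ((ENNReal.ofReal (κ ^ 2))⁻¹ * ENNReal.ofReal (t ^ 2)) := by gcongr
      _ = _ := by rw [div_eq_mul_inv, mul_assoc]

theorem vol_pair {J : Finset (E × ℝ)} (hJ : ∀ j ∈ J, ‖j.1‖ = 1)
    (hb : Bornology.IsBounded (poly J)) (hv : volume (poly J) ≠ 0) {i j : E × ℝ} (hi : i ∈ J)
    (hj : j ∈ J) (hij : i ≠ j) :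
    ∃ C : ℝ≥0∞, C ≠ ∞ ∧ ∀ t : ℝ, 0 < t →
      volume (poly J ∩ {x | sl i x ≤ t ∧ sl j x ≤ t}) ≤ C * ENNReal.ofReal (t ^ 2) := by
  have hfin : volume (poly J) ≠ ∞ := hb.measure_lt_top.ne
  have hcs := abs_real_inner_le_norm i.1 j.1
  rw [hJ i hi, hJ j hj, mul_one] at hcs
  have hcs2 : ⟪i.1, j.1⟫ ^ 2 ≤ 1 := by
    rw [← sq_abs]; exact pow_le_one₀ (abs_nonneg _) hcs
  rcases hcs2.lt_or_eq with h1 | h1
  · obtain ⟨C, hC, h⟩ := vol_two hb isClosed_poly.measurableSet (hJ i hi) (hJ j hj) h1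
    refine ⟨C, hC, fun t ht => (measure_mono ?_).trans (h t ht)⟩
    rintro x ⟨hx, h2, h3⟩
    exact ⟨hx, ⟨hx i hi, h2⟩, hx j hj, h3⟩
  · rcases mul_self_eq_one_iff.1 ((sq _).symm.trans h1) with h2 | h2
    · have he : i.1 = j.1 := (inner_eq_one_iff_of_norm_eq_one (hJ i hi) (hJ j hj)).1 h2
      have hne : i.2 ≠ j.2 := fun h => hij (Prod.ext he h)
      refine vol_far (κ := |i.2 - j.2|) (abs_pos.2 (sub_ne_zero.2 hne)) hfin ?_
      rintro t x ⟨hx, h3, h4⟩
      have h5 := hx i hi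
      have h6 := hx j hj
      have h7 : i.2 - j.2 = sl i x - sl j x := by unfold sl; rw [he]; ring
      rw [h7, abs_le]
      constructor <;> linarith
    · have he : i.1 = -j.1 := by
        have hn : ‖-j.1‖ = 1 := by rw [norm_neg]; exact hJ j hj
        refine (inner_eq_one_iff_of_norm_eq_one (𝕜 := ℝ) (hJ i hi) hn).1 ?_
        rw [inner_neg_right, h2, neg_neg]
      have hsum : ∀ x, sl i x + sl j x = i.2 + j.2 := by
        intro x; unfold sl; rw [he, inner_neg_left]; ring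
      have hpos : 0 < i.2 + j.2 := by
        by_contra hcon
        push Not at hcon
        obtain ⟨C, hC, h⟩ := vol_slab hb isClosed_poly.measurableSet (hJ i hi)
        apply hv
        have h3 : ∀ t : ℝ, 0 < t → volume (poly J) ≤ C * ENNReal.ofReal t := by
          intro t ht
          refine (measure_mono ?_).trans (h t ht)
          intro x hx
          have h5 := hx i hi
          have h6 := hx j hj
          have h7 := hsum x
          exact ⟨hx, h5, by linarith⟩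
        have h4 : Tendsto (fun t : ℝ => C * ENNReal.ofReal t) (𝓝[>] 0) (𝓝 0) := by
          have h5 : Tendsto (fun t : ℝ => C * ENNReal.ofReal t) (𝓝 0)
              (𝓝 (C * ENNReal.ofReal 0)) :=
            ENNReal.Tendsto.const_mul (ENNReal.continuous_ofReal.tendsto 0) (Or.inr hC)
          rw [ENNReal.ofReal_zero, mul_zero] at h5
          exact h5.mono_left nhdsWithin_le_nhds
        have h5 : volume (poly J) ≤ 0 := by
          refine ge_of_tendsto h4 ?_
          filter_upwards [self_mem_nhdsWithin] with t ht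
          exact h3 t ht
        exact le_antisymm h5 zero_le
      refine vol_far (κ := (i.2 + j.2) / 2) (by linarith) hfin ?_
      rintro t x ⟨hx, h3, h4⟩
      have h7 := hsum x
      linarith

end vol

/-! ### cut-offs with many scales -/

section cut

/-- a cut-off with `N` scales: `1` for `q ≤ ρ² / 4^N`, `0` for `q ≥ 2 ρ²` -/
def cut (N : ℕ) (ρ q : ℝ) : ℝ :=
  (1 / (N : ℝ)) * ∑ m ∈ Finset.range N, Real.smoothTransition (2 - 4 ^ m * q / ρ ^ 2)

theorem contDiff_cut (N : ℕ) (ρ : ℝ) {n : ℕ∞} : ContDiff ℝ n (cut N ρ) := by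
  unfold cut
  refine contDiff_const.mul (ContDiff.sum fun m _ => ?_)
  refine Real.smoothTransition.contDiff.comp ?_
  fun_prop

theorem cut_nonneg (N : ℕ) (ρ q : ℝ) : 0 ≤ cut N ρ q := by
  unfold cut
  exact mul_nonneg (by positivity) (Finset.sum_nonneg fun _ _ => Real.smoothTransition.nonneg _)

theorem cut_le_one (N : ℕ) (ρ q : ℝ) : cut N ρ q ≤ 1 := by
  unfold cut
  have h : ∑ m ∈ Finset.range N, Real.smoothTransition (2 - 4 ^ m * q / ρ ^ 2) ≤ N := by
    calc ∑ m ∈ Finset.range N, Real.smoothTransition (2 - 4 ^ m * q / ρ ^ 2)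
        ≤ ∑ m ∈ Finset.range N, (1 : ℝ) :=
          Finset.sum_le_sum fun _ _ => Real.smoothTransition.le_one _
      _ = N := by simp
  rcases Nat.eq_zero_or_pos N with rfl | hN
  · simp
  · have hN' : (0 : ℝ) < N := by exact_mod_cast hN
    rw [one_div, inv_mul_le_iff₀ hN', mul_one]; exact h

theorem cut_eq_one {N : ℕ} (hN : 0 < N) {ρ q : ℝ} (hρ : 0 < ρ) (h : 4 ^ N * q ≤ ρ ^ 2) :
    cut N ρ q = 1 := by
  unfold cut
  have h1 : ∀ m ∈ Finset.range N, Real.smoothTransition (2 - 4 ^ m * q / ρ ^ 2) = 1 := by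
    intro m hm
    refine Real.smoothTransition.one_of_one_le ?_
    have hm' := Finset.mem_range.1 hm
    have h2 : 4 ^ m * q ≤ ρ ^ 2 := by
      rcases le_total q 0 with hq | hq
      · exact (mul_nonpos_of_nonneg_of_nonpos (by positivity) hq).trans (by positivity)
      · exact (mul_le_mul_of_nonneg_right (pow_le_pow_right₀ (by norm_num) hm'.le) hq).trans h
    have h3 : 4 ^ m * q / ρ ^ 2 ≤ 1 := by rw [div_le_one (by positivity)]; exact h2
    linarith
  rw [Finset.sum_congr rfl h1]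
  have hN' : (N : ℝ) ≠ 0 := by exact_mod_cast hN.ne'
  simp [hN']

theorem cut_eq_zero {N : ℕ} {ρ q : ℝ} (hρ : 0 < ρ) (h : 2 * ρ ^ 2 ≤ q) : cut N ρ q = 0 := by
  unfold cut
  have hq : 0 ≤ q := le_trans (by positivity) h
  have h1 : ∀ m ∈ Finset.range N, Real.smoothTransition (2 - 4 ^ m * q / ρ ^ 2) = 0 := by
    intro m _
    refine Real.smoothTransition.zero_of_nonpos ?_
    have h2 : q ≤ 4 ^ m * q := le_mul_of_one_le_left hq (one_le_pow₀ (by norm_num))
    have h3 : 2 ≤ 4 ^ m * q / ρ ^ 2 := by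
      rw [le_div_iff₀ (by positivity)]; linarith
    linarith
  rw [Finset.sum_congr rfl h1]; simp

theorem deriv_smoothTransition_eq_zero {t : ℝ} (h : t < 0 ∨ 1 < t) :
    deriv Real.smoothTransition t = 0 := by
  rcases h with h | h
  · have : Real.smoothTransition =ᶠ[𝓝 t] fun _ => 0 := by
      filter_upwards [Iio_mem_nhds h] with s hs
      exact Real.smoothTransition.zero_of_nonpos (le_of_lt hs)
    rw [this.deriv_eq, deriv_const]
  · have : Real.smoothTransition =ᶠ[𝓝 t] fun _ => 1 := by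
      filter_upwards [Ioi_mem_nhds h] with s hs
      exact Real.smoothTransition.one_of_one_le (le_of_lt hs)
    rw [this.deriv_eq, deriv_const]

theorem exists_bound_deriv : ∃ C : ℝ, 0 ≤ C ∧ ∀ t, deriv Real.smoothTransition t ^ 2 ≤ C := by
  have hc : Continuous (deriv Real.smoothTransition) :=
    (Real.smoothTransition.contDiff (n := 1)).continuous_deriv le_rfl
  obtain ⟨C, hC⟩ := isCompact_Icc.exists_bound_of_continuousOn (s := Icc (0 : ℝ) 1)
    (hc.pow 2).continuousOn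
  refine ⟨max C 0, le_max_right _ _, fun t => ?_⟩
  by_cases ht : t ∈ Icc (0 : ℝ) 1
  · have := hC t ht
    rw [Real.norm_eq_abs, abs_of_nonneg (sq_nonneg _)] at this
    exact this.trans (le_max_left _ _)
  · have h : t < 0 ∨ 1 < t := by
      rw [mem_Icc, not_and_or, not_le, not_le] at ht; exact ht
    rw [deriv_smoothTransition_eq_zero h]
    simp

theorem sq_sum_le_of_disjoint {ι : Type*} (s : Finset ι) (t : ι → ℝ)
    (h : ∀ i ∈ s, ∀ j ∈ s, i ≠ j → t i * t j = 0) : (∑ i ∈ s, t i) ^ 2 = ∑ i ∈ s, t i ^ 2 := by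
  rw [sq, Finset.sum_mul_sum]
  refine Finset.sum_congr rfl fun i hi => ?_
  rw [Finset.sum_eq_single i]
  · rw [sq]
  · intro j hj hji
    exact h i hi j hj hji.symm
  · intro h'; exact absurd hi h'

theorem hasDerivAt_cut (N : ℕ) (ρ q : ℝ) : HasDerivAt (cut N ρ)
    ((1 / (N : ℝ)) * ∑ m ∈ Finset.range N,
      deriv Real.smoothTransition (2 - 4 ^ m * q / ρ ^ 2) * (-(4 ^ m / ρ ^ 2))) q := by
  unfold cut
  refine HasDerivAt.const_mul _ (HasDerivAt.fun_sum fun m _ => ?_)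
  have h1 : HasDerivAt (fun q : ℝ => 2 - 4 ^ m * q / ρ ^ 2) (-(4 ^ m / ρ ^ 2)) q := by
    have h2 := (((hasDerivAt_id q).const_mul ((4 : ℝ) ^ m)).div_const (ρ ^ 2)).const_sub 2
    simpa using h2
  have h3 : HasDerivAt Real.smoothTransition
      (deriv Real.smoothTransition (2 - 4 ^ m * q / ρ ^ 2)) (2 - 4 ^ m * q / ρ ^ 2) :=
    (((Real.smoothTransition.contDiff (n := 1)).differentiable (by norm_num)) _).hasDerivAt
  exact h3.comp q h1

/-- the derivative of the cut-off, squared -/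
theorem cut_deriv : ∃ C : ℝ, 0 ≤ C ∧ ∀ (N : ℕ) (ρ q : ℝ), 0 < ρ → 0 ≤ q →
    q * deriv (cut N ρ) q ^ 2 ≤ C / (N : ℝ) ^ 2 * ∑ m ∈ Finset.range N,
      4 ^ m / ρ ^ 2 * (if ρ ^ 2 ≤ 4 ^ m * q ∧ 4 ^ m * q ≤ 2 * ρ ^ 2 then 1 else 0) := by
  obtain ⟨C, hC0, hC⟩ := exists_bound_deriv
  refine ⟨2 * C, by positivity, fun N ρ q hρ hq => ?_⟩
  rw [(hasDerivAt_cut N ρ q).deriv]
  set t : ℕ → ℝ := fun m =>
    deriv Real.smoothTransition (2 - 4 ^ m * q / ρ ^ 2) * (-(4 ^ m / ρ ^ 2)) with ht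
  have hsupp : ∀ m, t m ≠ 0 → ρ ^ 2 ≤ 4 ^ m * q ∧ 4 ^ m * q ≤ 2 * ρ ^ 2 := by
    intro m hm
    by_contra hcon
    apply hm
    rw [ht]
    show deriv Real.smoothTransition (2 - 4 ^ m * q / ρ ^ 2) * (-(4 ^ m / ρ ^ 2)) = 0
    rw [deriv_smoothTransition_eq_zero, zero_mul]
    rw [not_and_or, not_le, not_le] at hcon
    rcases hcon with h | h
    · right
      have : 4 ^ m * q / ρ ^ 2 < 1 := by rw [div_lt_one (by positivity)]; exact h
      linarith
    · left
      have : 2 < 4 ^ m * q / ρ ^ 2 := by rw [lt_div_iff₀ (by positivity)]; exact h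
      linarith
  have hdis : ∀ i ∈ Finset.range N, ∀ j ∈ Finset.range N, i ≠ j → t i * t j = 0 := by
    have aux : ∀ i j : ℕ, i < j → t i * t j = 0 := by
      intro i j hij
      by_contra hcon
      obtain ⟨h1, h2⟩ := mul_ne_zero_iff.1 hcon
      obtain ⟨h3, _⟩ := hsupp i h1
      obtain ⟨_, h4⟩ := hsupp j h2
      have h5 : (4 : ℝ) ^ (i + 1) ≤ 4 ^ j := pow_le_pow_right₀ (by norm_num) hij
      have h6 : 4 ^ (i + 1) * q ≤ 4 ^ j * q := mul_le_mul_of_nonneg_right h5 hq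
      rw [pow_succ] at h6
      have h7 : 0 < ρ ^ 2 := by positivity
      nlinarith
    intro i _ j _ hij
    rcases lt_or_gt_of_ne hij with h | h
    · exact aux i j h
    · rw [mul_comm]; exact aux j i h
  rw [mul_pow, sq_sum_le_of_disjoint _ _ hdis]
  have hterm : ∀ m ∈ Finset.range N, q * t m ^ 2 ≤ 2 * C * (4 ^ m / ρ ^ 2 *
      (if ρ ^ 2 ≤ 4 ^ m * q ∧ 4 ^ m * q ≤ 2 * ρ ^ 2 then 1 else 0)) := by
    intro m _
    by_cases h : t m = 0
    · rw [h]
      have : (0 : ℝ) ≤ (if ρ ^ 2 ≤ 4 ^ m * q ∧ 4 ^ m * q ≤ 2 * ρ ^ 2 then 1 else 0) := by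
        split_ifs <;> norm_num
      have : 0 ≤ 2 * C * (4 ^ m / ρ ^ 2 *
        (if ρ ^ 2 ≤ 4 ^ m * q ∧ 4 ^ m * q ≤ 2 * ρ ^ 2 then 1 else 0)) := by positivity
      simpa using this
    · have h1 := hsupp m h
      rw [if_pos h1, mul_one]
      have e : t m ^ 2 = deriv Real.smoothTransition (2 - 4 ^ m * q / ρ ^ 2) ^ 2 *
          (4 ^ m / ρ ^ 2) ^ 2 := by rw [ht]; ring
      rw [e]
      have h2 : deriv Real.smoothTransition (2 - 4 ^ m * q / ρ ^ 2) ^ 2 ≤ C := hC _
      have h3 : q * (4 ^ m / ρ ^ 2) ≤ 2 := by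
        rw [← mul_div_assoc, div_le_iff₀ (by positivity)]; linarith [h1.2]
      have h4 : 0 ≤ (4 : ℝ) ^ m / ρ ^ 2 := by positivity
      calc q * (deriv Real.smoothTransition (2 - 4 ^ m * q / ρ ^ 2) ^ 2 * (4 ^ m / ρ ^ 2) ^ 2)
          = deriv Real.smoothTransition (2 - 4 ^ m * q / ρ ^ 2) ^ 2 *
              ((q * (4 ^ m / ρ ^ 2)) * (4 ^ m / ρ ^ 2)) := by ring
        _ ≤ C * (2 * (4 ^ m / ρ ^ 2)) := by
            refine mul_le_mul h2 (mul_le_mul_of_nonneg_right h3 h4) (by positivity) hC0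
        _ = 2 * C * (4 ^ m / ρ ^ 2) := by ring
  calc q * ((1 / (N : ℝ)) ^ 2 * ∑ m ∈ Finset.range N, t m ^ 2)
      = (1 / (N : ℝ)) ^ 2 * ∑ m ∈ Finset.range N, q * t m ^ 2 := by
        rw [Finset.mul_sum, Finset.mul_sum, Finset.mul_sum]
        exact Finset.sum_congr rfl fun m _ => by ring
    _ ≤ (1 / (N : ℝ)) ^ 2 * ∑ m ∈ Finset.range N, 2 * C * (4 ^ m / ρ ^ 2 *
        (if ρ ^ 2 ≤ 4 ^ m * q ∧ 4 ^ m * q ≤ 2 * ρ ^ 2 then 1 else 0)) :=
        mul_le_mul_of_nonneg_left (Finset.sum_le_sum hterm) (by positivity)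
    _ = _ := by
        rw [← Finset.mul_sum]
        ring

end cut

end

end Crest.Agent.R144.Hsu498
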