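import Crest.Agent.R144.Hsu2_498

/-!
# R144 (S0197), block HSU (helper498), file 3: the multiplier at the corners and the truncation
-/

set_option autoImplicit false
set_option linter.unusedSectionVars false

open MeasureTheory Set Filter Topology
open scoped ENNReal NNReal RealInnerProductSpace

namespace Crest.Agent.R144.Hsu498

noncomputable section

section mlt

variable {E : Type*} [NormedAddCommGroup E] [InnerProductSpace ℝ E] [FiniteDimensional ℝ E]
  [MeasurableSpace E] [BorelSpace E]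

/-- a smooth multiplier vanishing where the two walls of a pair in `P` are almost tight -/
structure Mlt (J : Finset (E × ℝ)) (P : Finset ((E × ℝ) × (E × ℝ))) (η : ℝ) (g : E → ℝ)
    (ρ : ℝ) : Prop where
  smooth : ContDiff ℝ ((⊤ : ℕ∞) : WithTop ℕ∞) g
  nonneg : ∀ x, 0 ≤ g x
  le_one : ∀ x, g x ≤ 1
  pos : 0 < ρ
  zero : ∀ x ∈ poly J, ∀ p ∈ P, sl p.1 x ≤ ρ → sl p.2 x ≤ ρ → g x = 0
  energy : ∫⁻ x in poly J, ENNReal.ofReal (‖fderiv ℝ g x‖ ^ 2) ≤ ENNReal.ofReal η
  mass : ∫⁻ x in poly J, ENNReal.ofReal (1 - g x) ≤ ENNReal.ofReal η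

variable {J : Finset (E × ℝ)}

/-- the quantity in the corner cut-off -/
def qq (i j : E × ℝ) (x : E) : ℝ := sl i x ^ 2 + sl j x ^ 2

theorem hasFDerivAt_qq (i j : E × ℝ) (x : E) : HasFDerivAt (qq i j)
    ((-(2 * sl i x)) • innerSL ℝ i.1 + (-(2 * sl j x)) • innerSL ℝ j.1) x := by
  unfold qq
  have h : ∀ l : E × ℝ, HasFDerivAt (fun x => sl l x ^ 2) ((-(2 * sl l x)) • innerSL ℝ l.1) x := by
    intro l
    have h1 := (hasFDerivAt_sl l x).pow 2
    refine h1.congr_fderiv ?_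
    ext z
    simp
  exact (h i).add (h j)

theorem norm_fderiv_cut_qq {N : ℕ} {ρ : ℝ} {i j : E × ℝ} (hi : ‖i.1‖ = 1) (hj : ‖j.1‖ = 1)
    (x : E) : ‖fderiv ℝ (fun x => 1 - cut N ρ (qq i j x)) x‖ ^ 2 ≤
      8 * (qq i j x * deriv (cut N ρ) (qq i j x) ^ 2) := by
  have h1 : HasDerivAt (cut N ρ) (deriv (cut N ρ) (qq i j x)) (qq i j x) :=
    (hasDerivAt_cut N ρ _).differentiableAt.hasDerivAt
  have h2 := (h1.comp_hasFDerivAt x (hasFDerivAt_qq i j x)).const_sub 1
  have h3 : fderiv ℝ (fun x => 1 - cut N ρ (qq i j x)) x = -(deriv (cut N ρ) (qq i j x) •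
      ((-(2 * sl i x)) • innerSL ℝ i.1 + (-(2 * sl j x)) • innerSL ℝ j.1)) := h2.fderiv
  rw [h3]
  set D := deriv (cut N ρ) (qq i j x) with hD
  have h4 : ‖-(D • ((-(2 * sl i x)) • innerSL ℝ i.1 + (-(2 * sl j x)) • innerSL ℝ j.1))‖ ≤
      |D| * (2 * |sl i x| + 2 * |sl j x|) := by
    rw [norm_neg, norm_smul, Real.norm_eq_abs]
    refine mul_le_mul_of_nonneg_left ?_ (abs_nonneg _)
    refine (norm_add_le _ _).trans ?_
    rw [norm_smul, norm_smul, innerSL_apply_norm, innerSL_apply_norm, hi, hj, mul_one, mul_one,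
      norm_neg, norm_neg, norm_mul, norm_mul]
    simp [Real.norm_eq_abs]
  calc ‖-(D • ((-(2 * sl i x)) • innerSL ℝ i.1 + (-(2 * sl j x)) • innerSL ℝ j.1))‖ ^ 2
      ≤ (|D| * (2 * |sl i x| + 2 * |sl j x|)) ^ 2 := pow_le_pow_left₀ (norm_nonneg _) h4 2
    _ ≤ 8 * (qq i j x * D ^ 2) := by
        unfold qq
        have e1 : (|D| * (2 * |sl i x| + 2 * |sl j x|)) ^ 2 =
            4 * D ^ 2 * (|sl i x| + |sl j x|) ^ 2 := by
          rw [mul_pow, sq_abs]; ring
        rw [e1]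
        have e2 : (|sl i x| + |sl j x|) ^ 2 ≤ 2 * (sl i x ^ 2 + sl j x ^ 2) := by
          have := sq_nonneg (|sl i x| - |sl j x|)
          nlinarith [sq_abs (sl i x), sq_abs (sl j x)]
        have e3 := mul_le_mul_of_nonneg_left e2 (by positivity : 0 ≤ 4 * D ^ 2)
        linarith

theorem exists_mlt1 (hJ : ∀ j ∈ J, ‖j.1‖ = 1) (hb : Bornology.IsBounded (poly J))
    (hv : volume (poly J) ≠ 0) {p : (E × ℝ) × (E × ℝ)} (hi : p.1 ∈ J) (hj : p.2 ∈ J)
    (hij : p.1 ≠ p.2) {η : ℝ} (hη : 0 < η) : ∃ g ρ, Mlt J {p} η g ρ := by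
  obtain ⟨i, j⟩ := p
  dsimp only at hi hj hij
  obtain ⟨C', hC', hvol⟩ := vol_pair hJ hb hv hi hj hij
  obtain ⟨C, hC0, hC⟩ := cut_deriv
  set c : ℝ := C'.toReal with hc
  have hcC : C' = ENNReal.ofReal c := (ENNReal.ofReal_toReal hC').symm
  have hc0 : 0 ≤ c := ENNReal.toReal_nonneg
  obtain ⟨N, hN⟩ := exists_nat_gt (32 * C * c / η)
  have hN0 : 0 < N := by
    have : (0 : ℝ) < N := lt_of_le_of_lt (by positivity) hN
    exact_mod_cast this
  have hNr : (0 : ℝ) < N := by exact_mod_cast hN0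
  set ρ : ℝ := min 1 (η / (4 * c + 1)) with hρ
  have hρ0 : 0 < ρ := lt_min one_pos (by positivity)
  have hρ1 : ρ ≤ 1 := min_le_left _ _
  have hρ2 : 4 * c * ρ ^ 2 ≤ η := by
    have h1 : ρ ≤ η / (4 * c + 1) := min_le_right _ _
    rw [le_div_iff₀ (by positivity)] at h1
    have h2 : ρ ^ 2 ≤ ρ := by nlinarith
    nlinarith
  have hsub : ∀ (m : ℕ) (x : E), x ∈ poly J → 4 ^ m * qq i j x ≤ 2 * ρ ^ 2 →
      sl i x ≤ 2 * ρ / 2 ^ m ∧ sl j x ≤ 2 * ρ / 2 ^ m := by
    intro m x hx h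
    have h4 : (4 : ℝ) ^ m = (2 ^ m) ^ 2 := by rw [← pow_mul, mul_comm m 2, pow_mul]; norm_num
    have h2m : (0 : ℝ) < 2 ^ m := by positivity
    unfold qq at h
    rw [h4] at h
    have key : ∀ s s' : ℝ, 0 ≤ s → (2 ^ m) ^ 2 * (s ^ 2 + s' ^ 2) ≤ 2 * ρ ^ 2 →
        s ≤ 2 * ρ / 2 ^ m := by
      intro s s' _ h5
      rw [le_div_iff₀ h2m]
      refine le_of_sq_le_sq ?_ (by positivity)
      have : 0 ≤ ((2 : ℝ) ^ m) ^ 2 * s' ^ 2 := by positivity
      nlinarith
    refine ⟨key _ _ (hx i hi) h, key (sl j x) (sl i x) (hx j hj) ?_⟩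
    rw [add_comm]; exact h
  have hvm : ∀ m : ℕ, volume (poly J ∩ {x | 4 ^ m * qq i j x ≤ 2 * ρ ^ 2}) ≤
      ENNReal.ofReal (c * (4 * ρ ^ 2 / 4 ^ m)) := by
    intro m
    have h1 : poly J ∩ {x | 4 ^ m * qq i j x ≤ 2 * ρ ^ 2} ⊆
        poly J ∩ {x | sl i x ≤ 2 * ρ / 2 ^ m ∧ sl j x ≤ 2 * ρ / 2 ^ m} :=
      fun x hx => ⟨hx.1, hsub m x hx.1 hx.2⟩
    refine (measure_mono h1).trans ((hvol _ (by positivity)).trans (le_of_eq ?_))
    rw [hcC, ← ENNReal.ofReal_mul hc0]
    congr 1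
    have h4 : (4 : ℝ) ^ m = (2 ^ m) ^ 2 := by rw [← pow_mul, mul_comm m 2, pow_mul]; norm_num
    rw [h4]; ring
  refine ⟨fun x => 1 - cut N ρ (qq i j x), ρ / 2 ^ (N + 1), ?_, ?_, ?_, by positivity, ?_, ?_, ?_⟩
  · refine contDiff_const.sub ((contDiff_cut N ρ).comp ?_)
    unfold qq
    exact ((contDiff_sl i).pow 2).add ((contDiff_sl j).pow 2)
  · intro x; have := cut_le_one N ρ (qq i j x); linarith
  · intro x; have := cut_nonneg N ρ (qq i j x); linarith
  · intro x hx p hp h1 h2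
    rw [Finset.mem_singleton] at hp
    subst hp
    dsimp only at h1 h2
    have h3 := hx i hi
    have h4 := hx j hj
    show 1 - cut N ρ (qq i j x) = 0
    rw [cut_eq_one hN0 hρ0, sub_self]
    unfold qq
    have h5 : sl i x ^ 2 ≤ (ρ / 2 ^ (N + 1)) ^ 2 := pow_le_pow_left₀ h3 h1 2
    have h6 : sl j x ^ 2 ≤ (ρ / 2 ^ (N + 1)) ^ 2 := pow_le_pow_left₀ h4 h2 2
    have h7 : (ρ / 2 ^ (N + 1)) ^ 2 = ρ ^ 2 / (4 * 4 ^ N) := by
      rw [div_pow, ← pow_mul, mul_comm (N + 1) 2, pow_mul]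
      norm_num [pow_succ]; ring
    rw [h7] at h5 h6
    have h8 : (4 : ℝ) ^ N * (ρ ^ 2 / (4 * 4 ^ N) + ρ ^ 2 / (4 * 4 ^ N)) = ρ ^ 2 / 2 := by
      field_simp; ring
    have h9 : (4 : ℝ) ^ N * (sl i x ^ 2 + sl j x ^ 2) ≤
        4 ^ N * (ρ ^ 2 / (4 * 4 ^ N) + ρ ^ 2 / (4 * 4 ^ N)) :=
      mul_le_mul_of_nonneg_left (add_le_add h5 h6) (by positivity)
    have h10 : 0 ≤ ρ ^ 2 := sq_nonneg _
    linarith
  · -- energy
    calc ∫⁻ x in poly J, ENNReal.ofReal (‖fderiv ℝ (fun x => 1 - cut N ρ (qq i j x)) x‖ ^ 2)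
        ≤ ∫⁻ x in poly J, ∑ m ∈ Finset.range N, ENNReal.ofReal (8 * (C / (N : ℝ) ^ 2 *
            (4 ^ m / ρ ^ 2))) * ({x | 4 ^ m * qq i j x ≤ 2 * ρ ^ 2} : Set E).indicator 1 x := by
          refine lintegral_mono fun x => ?_
          have hq : 0 ≤ qq i j x := by unfold qq; positivity
          have h1 := norm_fderiv_cut_qq (N := N) (ρ := ρ) (hJ i hi) (hJ j hj) x
          have h2 := hC N ρ (qq i j x) hρ0 hq
          have h3 : ‖fderiv ℝ (fun x => 1 - cut N ρ (qq i j x)) x‖ ^ 2 ≤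
              ∑ m ∈ Finset.range N, 8 * (C / (N : ℝ) ^ 2 * (4 ^ m / ρ ^ 2)) *
                (if ρ ^ 2 ≤ 4 ^ m * qq i j x ∧ 4 ^ m * qq i j x ≤ 2 * ρ ^ 2 then 1 else 0) := by
            refine h1.trans ((mul_le_mul_of_nonneg_left h2 (by norm_num)).trans (le_of_eq ?_))
            rw [Finset.mul_sum, Finset.mul_sum]
            exact Finset.sum_congr rfl fun m _ => by ring
          refine (ENNReal.ofReal_le_ofReal h3).trans ?_
          rw [ENNReal.ofReal_sum_of_nonneg fun m _ => by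
            have : (0 : ℝ) ≤ (if ρ ^ 2 ≤ 4 ^ m * qq i j x ∧ 4 ^ m * qq i j x ≤ 2 * ρ ^ 2
              then 1 else 0) := by split_ifs <;> norm_num
            positivity]
          refine Finset.sum_le_sum fun m _ => ?_
          by_cases h : ρ ^ 2 ≤ 4 ^ m * qq i j x ∧ 4 ^ m * qq i j x ≤ 2 * ρ ^ 2
          · have h' : x ∈ {x | 4 ^ m * qq i j x ≤ 2 * ρ ^ 2} := h.2
            rw [if_pos h, mul_one, indicator_of_mem h']
            simp
          · rw [if_neg h]; simp
      _ = ∑ m ∈ Finset.range N, ENNReal.ofReal (8 * (C / (N : ℝ) ^ 2 * (4 ^ m / ρ ^ 2))) *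
            volume (poly J ∩ {x | 4 ^ m * qq i j x ≤ 2 * ρ ^ 2}) := by
          have hcq : Continuous (qq i j) := by
            unfold qq
            exact ((continuous_sl i).pow 2).add ((continuous_sl j).pow 2)
          have hms : ∀ m : ℕ, MeasurableSet {x | 4 ^ m * qq i j x ≤ 2 * ρ ^ 2} := fun m =>
            measurableSet_le (continuous_const.mul hcq).measurable measurable_const
          rw [lintegral_finsetSum _ fun m _ =>
            (measurable_one.indicator (hms m)).const_mul _]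
          refine Finset.sum_congr rfl fun m _ => ?_
          rw [lintegral_const_mul _ (measurable_one.indicator (hms m)),
            lintegral_indicator_one (hms m), Measure.restrict_apply (hms m), inter_comm]
      _ ≤ ∑ m ∈ Finset.range N, ENNReal.ofReal (32 * C * c / (N : ℝ) ^ 2) := by
          refine Finset.sum_le_sum fun m _ => ?_
          refine (mul_le_mul_right (hvm m) _).trans (le_of_eq ?_)
          rw [← ENNReal.ofReal_mul (by positivity)]
          congr 1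
          field_simp
          ring
      _ = ENNReal.ofReal (32 * C * c / N) := by
          rw [Finset.sum_const, Finset.card_range, nsmul_eq_mul, ← ENNReal.ofReal_natCast,
            ← ENNReal.ofReal_mul (by positivity)]
          congr 1
          field_simp
      _ ≤ ENNReal.ofReal η := by
          refine ENNReal.ofReal_le_ofReal ?_
          rw [div_le_iff₀ hNr]
          rw [div_lt_iff₀ hη] at hN
          linarith
  · -- mass
    calc ∫⁻ x in poly J, ENNReal.ofReal (1 - (1 - cut N ρ (qq i j x)))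
        ≤ ∫⁻ x in poly J, ({x | 4 ^ 0 * qq i j x ≤ 2 * ρ ^ 2} : Set E).indicator 1 x := by
          refine lintegral_mono fun x => ?_
          rw [sub_sub_cancel]
          by_cases h : x ∈ {x | 4 ^ 0 * qq i j x ≤ 2 * ρ ^ 2}
          · rw [indicator_of_mem h, Pi.one_apply, ← ENNReal.ofReal_one]
            exact ENNReal.ofReal_le_ofReal (cut_le_one _ _ _)
          · have h' : 2 * ρ ^ 2 ≤ qq i j x := by
              by_contra hcon
              push Not at hcon
              exact h (show 4 ^ 0 * qq i j x ≤ 2 * ρ ^ 2 by rw [pow_zero, one_mul]; exact hcon.le)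
            rw [cut_eq_zero hρ0 h']; simp
      _ = volume (poly J ∩ {x | 4 ^ 0 * qq i j x ≤ 2 * ρ ^ 2}) := by
          have hcq : Continuous (qq i j) := by
            unfold qq
            exact ((continuous_sl i).pow 2).add ((continuous_sl j).pow 2)
          have hms : MeasurableSet {x | 4 ^ 0 * qq i j x ≤ 2 * ρ ^ 2} :=
            measurableSet_le (continuous_const.mul hcq).measurable measurable_const
          rw [lintegral_indicator_one hms, Measure.restrict_apply hms, inter_comm]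
      _ ≤ ENNReal.ofReal (c * (4 * ρ ^ 2 / 4 ^ 0)) := hvm 0
      _ ≤ ENNReal.ofReal η := by
          refine ENNReal.ofReal_le_ofReal ?_
          rw [pow_zero, div_one]; linarith

theorem Mlt.mul {P Q : Finset ((E × ℝ) × (E × ℝ))} [DecidableEq ((E × ℝ) × (E × ℝ))] {η : ℝ}
    (hη : 0 < η) {g f : E → ℝ} {ρ r : ℝ} (hg : Mlt J P (η / 4) g ρ) (hf : Mlt J Q (η / 4) f r) :
    Mlt J (P ∪ Q) η (fun x => g x * f x) (min ρ r) where
  smooth := hg.smooth.mul hf.smooth
  nonneg x := mul_nonneg (hg.nonneg x) (hf.nonneg x)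
  le_one x := mul_le_one₀ (hg.le_one x) (hf.nonneg x) (hf.le_one x)
  pos := lt_min hg.pos hf.pos
  zero x hx p hp h1 h2 := by
    rcases Finset.mem_union.1 hp with h | h
    · show g x * f x = 0
      rw [hg.zero x hx p h (h1.trans (min_le_left _ _)) (h2.trans (min_le_left _ _)), zero_mul]
    · show g x * f x = 0
      rw [hf.zero x hx p h (h1.trans (min_le_right _ _)) (h2.trans (min_le_right _ _)), mul_zero]
  energy := by
    have hmg : Measurable fun x => ENNReal.ofReal (2 * ‖fderiv ℝ g x‖ ^ 2) := by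
      have := (hg.smooth.continuous_fderiv (by simp)).norm
      exact ENNReal.measurable_ofReal.comp ((this.pow 2).measurable.const_mul 2)
    calc ∫⁻ x in poly J, ENNReal.ofReal (‖fderiv ℝ (fun x => g x * f x) x‖ ^ 2)
        ≤ ∫⁻ x in poly J, (ENNReal.ofReal (2 * ‖fderiv ℝ g x‖ ^ 2) +
            ENNReal.ofReal (2 * ‖fderiv ℝ f x‖ ^ 2)) := by
          refine lintegral_mono fun x => ?_
          dsimp only
          rw [← ENNReal.ofReal_add (by positivity) (by positivity)]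
          refine ENNReal.ofReal_le_ofReal ?_
          have h1 : DifferentiableAt ℝ g x := (hg.smooth.differentiable (by simp)) x
          have h2 : DifferentiableAt ℝ f x := (hf.smooth.differentiable (by simp)) x
          have h3 : fderiv ℝ (fun x => g x * f x) x = g x • fderiv ℝ f x + f x • fderiv ℝ g x :=
            (h1.hasFDerivAt.mul h2.hasFDerivAt).fderiv
          rw [h3]
          have h4 : ‖g x • fderiv ℝ f x + f x • fderiv ℝ g x‖ ≤
              ‖fderiv ℝ f x‖ + ‖fderiv ℝ g x‖ := by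
            refine (norm_add_le _ _).trans ?_
            rw [norm_smul, norm_smul, Real.norm_of_nonneg (hg.nonneg x),
              Real.norm_of_nonneg (hf.nonneg x)]
            exact add_le_add (mul_le_of_le_one_left (norm_nonneg _) (hg.le_one x))
              (mul_le_of_le_one_left (norm_nonneg _) (hf.le_one x))
          calc ‖g x • fderiv ℝ f x + f x • fderiv ℝ g x‖ ^ 2
              ≤ (‖fderiv ℝ f x‖ + ‖fderiv ℝ g x‖) ^ 2 := pow_le_pow_left₀ (norm_nonneg _) h4 2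
            _ ≤ _ := by nlinarith [sq_nonneg (‖fderiv ℝ f x‖ - ‖fderiv ℝ g x‖)]
      _ ≤ ENNReal.ofReal η := by
          rw [lintegral_add_left hmg]
          have e : ∀ u : E → ℝ, (∫⁻ x in poly J, ENNReal.ofReal (2 * ‖fderiv ℝ u x‖ ^ 2)) =
              2 * ∫⁻ x in poly J, ENNReal.ofReal (‖fderiv ℝ u x‖ ^ 2) := by
            intro u
            rw [← lintegral_const_mul' _ _ (by norm_num)]
            refine lintegral_congr fun x => ?_
            rw [ENNReal.ofReal_mul (by norm_num)]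
            norm_num
          rw [e, e]
          calc 2 * (∫⁻ x in poly J, ENNReal.ofReal (‖fderiv ℝ g x‖ ^ 2)) +
                2 * (∫⁻ x in poly J, ENNReal.ofReal (‖fderiv ℝ f x‖ ^ 2))
              ≤ 2 * ENNReal.ofReal (η / 4) + 2 * ENNReal.ofReal (η / 4) := by
                gcongr
                · exact hg.energy
                · exact hf.energy
            _ = ENNReal.ofReal η := by
                have h2 : (2 : ℝ≥0∞) = ENNReal.ofReal 2 := by norm_num
                rw [h2, ← ENNReal.ofReal_mul (by norm_num), ← ENNReal.ofReal_add (by positivity)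
                  (by positivity)]
                congr 1; ring
  mass := by
    calc ∫⁻ x in poly J, ENNReal.ofReal (1 - g x * f x)
        ≤ ∫⁻ x in poly J, (ENNReal.ofReal (1 - g x) + ENNReal.ofReal (1 - f x)) := by
          refine lintegral_mono fun x => ?_
          dsimp only
          have hg0 := hg.nonneg x
          have hg1 := hg.le_one x
          have hf0 := hf.nonneg x
          have hf1 := hf.le_one x
          rw [← ENNReal.ofReal_add (by linarith) (by linarith)]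
          refine ENNReal.ofReal_le_ofReal ?_
          nlinarith [mul_nonneg (sub_nonneg.2 hg1) (sub_nonneg.2 hf1)]
      _ ≤ ENNReal.ofReal η := by
          have hmg : Measurable fun x => ENNReal.ofReal (1 - g x) :=
            ENNReal.measurable_ofReal.comp
              (measurable_const.sub hg.smooth.continuous.measurable)
          rw [lintegral_add_left hmg]
          refine (add_le_add hg.mass hf.mass).trans ?_
          rw [← ENNReal.ofReal_add (by positivity) (by positivity)]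
          exact ENNReal.ofReal_le_ofReal (by linarith)

theorem exists_mlt_aux (hJ : ∀ j ∈ J, ‖j.1‖ = 1) (hb : Bornology.IsBounded (poly J))
    (hv : volume (poly J) ≠ 0) (P : Finset ((E × ℝ) × (E × ℝ)))
    (hP : ∀ p ∈ P, p.1 ∈ J ∧ p.2 ∈ J ∧ p.1 ≠ p.2) :
    ∀ η : ℝ, 0 < η → ∃ g ρ, Mlt J P η g ρ := by
  classical
  induction P using Finset.induction_on with
  | empty =>
    intro η hη
    refine ⟨fun _ => 1, 1, contDiff_const, fun _ => zero_le_one, fun _ => le_rfl, one_pos,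
      fun x _ p hp => absurd hp (Finset.notMem_empty p), ?_, ?_⟩
    · simp
    · simp
  | insert p P hp ih =>
    intro η hη
    obtain ⟨g, ρ, hg⟩ := ih (fun q hq => hP q (Finset.mem_insert_of_mem hq)) (η / 4) (by positivity)
    obtain ⟨h1, h2, h3⟩ := hP p (Finset.mem_insert_self p P)
    obtain ⟨f, r, hf⟩ := exists_mlt1 hJ hb hv h1 h2 h3 (η := η / 4) (by positivity)
    have h4 := Mlt.mul hη hf hg
    rw [← Finset.insert_eq] at h4
    exact ⟨fun x => f x * g x, min r ρ, h4⟩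

theorem exists_mlt (hJ : ∀ j ∈ J, ‖j.1‖ = 1) (hb : Bornology.IsBounded (poly J))
    (hv : volume (poly J) ≠ 0) {η : ℝ} (hη : 0 < η) : ∃ (g : E → ℝ) (ρ : ℝ),
      ContDiff ℝ ((⊤ : ℕ∞) : WithTop ℕ∞) g ∧ (∀ x, 0 ≤ g x) ∧ (∀ x, g x ≤ 1) ∧ 0 < ρ ∧
      (∀ x ∈ poly J, ∀ i ∈ J, ∀ j ∈ J, i ≠ j → sl i x ≤ ρ → sl j x ≤ ρ → g x = 0) ∧
      ∫⁻ x in poly J, ENNReal.ofReal (‖fderiv ℝ g x‖ ^ 2) ≤ ENNReal.ofReal η ∧
      ∫⁻ x in poly J, ENNReal.ofReal (1 - g x) ≤ ENNReal.ofReal η := by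
  classical
  obtain ⟨g, ρ, h⟩ := exists_mlt_aux hJ hb hv J.offDiag
    (fun p hp => by simpa [Finset.mem_offDiag] using hp) η hη
  refine ⟨g, ρ, h.smooth, h.nonneg, h.le_one, h.pos, ?_, h.energy, h.mass⟩
  intro x hx i hi j hj hij h1 h2
  exact h.zero x hx (i, j) (Finset.mem_offDiag.2 ⟨hi, hj, hij⟩) h1 h2

end mlt

/-! ### truncation -/

section trunc

variable {E : Type*} [NormedAddCommGroup E] [InnerProductSpace ℝ E]

/-- smooth radial truncation -/
def trn (M : ℝ) (y : E) : E := (1 + ‖y‖ ^ 2 / M ^ 2)⁻¹ • y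

theorem trn_pos (M : ℝ) (y : E) : 0 < 1 + ‖y‖ ^ 2 / M ^ 2 := by positivity

theorem contDiff_trn (M : ℝ) {n : WithTop ℕ∞} : ContDiff ℝ n (trn M : E → E) := by
  unfold trn
  refine ContDiff.smul (ContDiff.inv (contDiff_const.add ((contDiff_norm_sq ℝ).div_const _))
    fun y => (trn_pos M y).ne') contDiff_id

theorem trn_zero (M : ℝ) : trn M (0 : E) = 0 := by unfold trn; simp

theorem norm_trn_le_norm (M : ℝ) (y : E) : ‖trn M y‖ ≤ ‖y‖ := by
  unfold trn
  rw [norm_smul, Real.norm_of_nonneg (inv_nonneg.2 (trn_pos M y).le)]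
  refine mul_le_of_le_one_left (norm_nonneg _) (inv_le_one_of_one_le₀ ?_)
  have : 0 ≤ ‖y‖ ^ 2 / M ^ 2 := by positivity
  linarith

theorem norm_trn_le {M : ℝ} (hM : 0 < M) (y : E) : ‖trn M y‖ ≤ M := by
  unfold trn
  rw [norm_smul, Real.norm_of_nonneg (inv_nonneg.2 (trn_pos M y).le), inv_mul_le_iff₀ (trn_pos M y)]
  have e : (1 + ‖y‖ ^ 2 / M ^ 2) * M = M + ‖y‖ ^ 2 / M := by field_simp
  rw [e]
  have h1 : ‖y‖ ≤ M ∨ M ≤ ‖y‖ := le_total _ _
  rcases h1 with h | h
  · have : 0 ≤ ‖y‖ ^ 2 / M := by positivity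
    linarith
  · have : ‖y‖ ≤ ‖y‖ ^ 2 / M := by
      rw [le_div_iff₀ hM]; nlinarith
    linarith

theorem norm_sub_trn_le {M : ℝ} (hM : 0 < M) (y : E) : ‖y - trn M y‖ ≤ ‖y‖ ^ 2 / M := by
  have e : y - trn M y = (1 - (1 + ‖y‖ ^ 2 / M ^ 2)⁻¹) • y := by
    unfold trn; rw [sub_smul, one_smul]
  have hp := trn_pos M y
  have e2 : 1 - (1 + ‖y‖ ^ 2 / M ^ 2)⁻¹ = (‖y‖ ^ 2 / M ^ 2) / (1 + ‖y‖ ^ 2 / M ^ 2) := by
    field_simp; ring
  rw [e, e2, norm_smul, Real.norm_of_nonneg (by positivity), div_mul_eq_mul_div,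
    div_le_iff₀ hp]
  have hy := norm_nonneg y
  set r := ‖y‖ with hr
  have e3 : r ^ 2 / M ^ 2 * r = r ^ 2 / M * (r / M) := by field_simp
  rw [e3]
  refine mul_le_mul_of_nonneg_left ?_ (by positivity)
  have e4 : r ^ 2 / M ^ 2 = (r / M) ^ 2 := by rw [div_pow]
  rw [e4]
  nlinarith [sq_nonneg (r / M - 1)]

theorem inner_trn_sq_le (M : ℝ) (a y : E) : ⟪a, trn M y⟫ ^ 2 ≤ ⟪a, y⟫ ^ 2 := by
  unfold trn
  rw [inner_smul_right, mul_pow]
  have h : ((1 + ‖y‖ ^ 2 / M ^ 2)⁻¹) ≤ 1 := by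
    refine inv_le_one_of_one_le₀ ?_
    have : 0 ≤ ‖y‖ ^ 2 / M ^ 2 := by positivity
    linarith
  have h0 : 0 ≤ ((1 + ‖y‖ ^ 2 / M ^ 2)⁻¹) := inv_nonneg.2 (trn_pos M y).le
  exact mul_le_of_le_one_left (sq_nonneg _) (pow_le_one₀ h0 h)

theorem norm_trn_sub_le {M : ℝ} (hM : 0 < M) (y z : E) : ‖trn M y - trn M z‖ ≤ ‖y - z‖ := by
  have hp := trn_pos M y
  have hq := trn_pos M z
  refine le_of_sq_le_sq ?_ (norm_nonneg _)
  unfold trn
  rw [norm_sub_sq_real, norm_sub_sq_real, norm_smul, norm_smul, inner_smul_left, inner_smul_right,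
    Real.norm_of_nonneg (inv_nonneg.2 hp.le), Real.norm_of_nonneg (inv_nonneg.2 hq.le)]
  simp only [conj_trivial]
  have hcs := real_inner_mul_inner_self_le y z
  rw [real_inner_self_eq_norm_sq, real_inner_self_eq_norm_sq] at hcs
  set a := ‖y‖ ^ 2 with ha
  set b := ‖z‖ ^ 2 with hb
  set c := ⟪y, z⟫ with hc
  set m := M ^ 2 with hm
  have hm0 : 0 < m := by positivity
  have ha0 : 0 ≤ a := by positivity
  have hb0 : 0 ≤ b := by positivity
  have hD : 0 ≤ a - 2 * c + b := by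
    have := sq_nonneg ‖y - z‖
    rw [norm_sub_sq_real] at this
    linarith
  have hp1 : 1 ≤ 1 + a / m := by have : 0 ≤ a / m := by positivity
                                 linarith
  have hq1 : 1 ≤ 1 + b / m := by have : 0 ≤ b / m := by positivity
                                 linarith
  set p := 1 + a / m with hpdef
  set q := 1 + b / m with hqdef
  have e1 : (p⁻¹ * ‖y‖) ^ 2 = a / p ^ 2 := by rw [mul_pow, ← ha]; field_simp
  have e2 : (q⁻¹ * ‖z‖) ^ 2 = b / q ^ 2 := by rw [mul_pow, ← hb]; field_simp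
  rw [e1, e2]
  have e3 : a / p ^ 2 - 2 * (p⁻¹ * (q⁻¹ * c)) + b / q ^ 2 =
      (a - 2 * c + b) / (p * q) - (a - b) ^ 2 / (m * (p * q) ^ 2) := by
    field_simp
    rw [hpdef, hqdef]
    field_simp
    ring
  rw [e3]
  have h4 : (a - 2 * c + b) / (p * q) ≤ a - 2 * c + b := by
    refine div_le_self hD ?_
    nlinarith
  have h5 : 0 ≤ (a - b) ^ 2 / (m * (p * q) ^ 2) := by positivity
  linarith

theorem norm_fderiv_trn_comp {F : Type*} [NormedAddCommGroup F] [NormedSpace ℝ F] {M : ℝ}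
    (hM : 0 < M) {Y : F → E} {x : F} (hY : DifferentiableAt ℝ Y x) (z : F) :
    ‖fderiv ℝ (fun x => trn M (Y x)) x z‖ ≤ ‖fderiv ℝ Y x z‖ := by
  have h1 : DifferentiableAt ℝ (trn M : E → E) (Y x) :=
    ((contDiff_trn M (n := 1)).differentiable (by norm_num)) _
  have h2 : fderiv ℝ (fun x => trn M (Y x)) x = (fderiv ℝ (trn M) (Y x)).comp (fderiv ℝ Y x) :=
    (h1.hasFDerivAt.comp x hY.hasFDerivAt).fderiv
  rw [h2, ContinuousLinearMap.comp_apply]
  have h3 : LipschitzWith 1 (trn M : E → E) := LipschitzWith.of_dist_le_mul fun a b => by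
    rw [dist_eq_norm, dist_eq_norm, NNReal.coe_one, one_mul]
    exact norm_trn_sub_le hM a b
  have h4 : ‖fderiv ℝ (trn M : E → E) (Y x)‖ ≤ 1 := by
    simpa using norm_fderiv_le_of_lipschitz ℝ h3 (x₀ := Y x)
  exact (ContinuousLinearMap.le_opNorm _ _).trans (mul_le_of_le_one_left (norm_nonneg _) h4)

end trunc

end

end Crest.Agent.R144.Hsu498
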