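import Crest.Agent.R144.Hsu3_498

/-!
# R144 (S0197), block HSU (helper498), file 4: the wall estimate and the rigid field
-/

set_option autoImplicit false
set_option linter.unusedSectionVars false

open MeasureTheory Set Filter Topology
open scoped ENNReal NNReal RealInnerProductSpace

namespace Crest.Agent.R144.Hsu498

noncomputable section

section field

variable {E : Type*} [NormedAddCommGroup E] [InnerProductSpace ℝ E] [FiniteDimensional ℝ E]
  [MeasurableSpace E] [BorelSpace E] {ι : Type*} [Fintype ι]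

/-- Hilbert–Schmidt energy density -/
def hs (b : OrthonormalBasis ι ℝ E) (Y : E → E) (x : E) : ℝ := ∑ i, ‖fderiv ℝ Y x (b i)‖ ^ 2

/-- energy density of a field with respect to a potential -/
def ed (b : OrthonormalBasis ι ℝ E) (H : E → ℝ) (Y : E → E) (x : E) : ℝ :=
  hs b Y x + fderiv ℝ (fderiv ℝ H) x (Y x) (Y x)

theorem hs_nonneg (b : OrthonormalBasis ι ℝ E) (Y : E → E) (x : E) : 0 ≤ hs b Y x :=
  Finset.sum_nonneg fun _ _ => sq_nonneg _

theorem continuous_hs (b : OrthonormalBasis ι ℝ E) {Y : E → E} (hY : ContDiff ℝ 1 Y) :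
    Continuous (hs b Y) := by
  unfold hs
  exact continuous_finsetSum _ fun i _ =>
    (((hY.continuous_fderiv (by norm_num)).clm_apply continuous_const).norm).pow 2

theorem continuous_ed (b : OrthonormalBasis ι ℝ E) {H : E → ℝ} {Y : E → E}
    (hH : ContDiff ℝ 2 H) (hY : ContDiff ℝ 1 Y) : Continuous (ed b H Y) := by
  unfold ed
  have h1 : Continuous (fderiv ℝ (fderiv ℝ H)) :=
    (hH.fderiv_right (m := 1) (by norm_num)).continuous_fderiv (by norm_num)
  exact (continuous_hs b hY).add ((h1.clm_apply hY.continuous).clm_apply hY.continuous)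

theorem sq_le_hs (b : OrthonormalBasis ι ℝ E) {a : E} (ha : ‖a‖ = 1) (Y : E → E) (x : E) :
    ‖fderiv ℝ Y x a‖ ^ 2 ≤ hs b Y x := by
  have h1 : fderiv ℝ Y x a = ∑ i, ⟪b i, a⟫ • fderiv ℝ Y x (b i) := by
    conv_lhs => rw [← b.sum_repr' a]
    rw [map_sum]
    simp only [map_smul]
  have h2 : ‖fderiv ℝ Y x a‖ ≤ ∑ i, |⟪b i, a⟫| * ‖fderiv ℝ Y x (b i)‖ := by
    rw [h1]
    refine (norm_sum_le _ _).trans (Finset.sum_le_sum fun i _ => ?_)
    rw [norm_smul, Real.norm_eq_abs]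
  have h3 := Finset.sum_mul_sq_le_sq_mul_sq Finset.univ (fun i => |⟪b i, a⟫|)
    (fun i => ‖fderiv ℝ Y x (b i)‖)
  have h4 : ∑ i, |⟪b i, a⟫| ^ 2 = 1 := by
    have := b.sum_sq_norm_inner_right a
    simp only [Real.norm_eq_abs] at this
    rw [this, ha]; norm_num
  rw [h4, one_mul] at h3
  exact (pow_le_pow_left₀ (norm_nonneg _) h2 2).trans h3

variable {J : Finset (E × ℝ)} {U : E → ℝ} {k : ℝ}

theorem w2_mono {s t : ℝ} (h : s ≤ t) : w2 s ≤ w2 t := by
  unfold w2
  exact min_le_min_right _ (max_le_max_right _ h)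

/-- **wall estimate**: `∫_T ⟪a_j, Y⟫² ≤ C r² · energy` for `T` in the part of the slab
`r ≤ slack ≤ 2 r` of the wall `j` far from the other walls, `C` independent of the soft walls -/
theorem wall (b : OrthonormalBasis ι ℝ E) (hU : ContDiff ℝ 2 U)
    (hU0 : ∀ x y, 0 ≤ fderiv ℝ (fderiv ℝ U) x y y) (hJ : ∀ j ∈ J, ‖j.1‖ = 1)
    (hb : Bornology.IsBounded (poly J)) : ∃ C : ℝ, 0 ≤ C ∧ ∀ (δ r : ℝ) (Y : E → E), 0 < δ →
      δ ≤ r → 3 * r ≤ 1 → ContDiff ℝ 1 Y → ∀ j ∈ J, ∀ T : Set E, MeasurableSet T →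
      T ⊆ poly J → (∀ x ∈ T, r ≤ sl j x ∧ sl j x ≤ 2 * r ∧ ∀ i ∈ J, i ≠ j → 3 * r ≤ sl i x) →
      ∫⁻ x in T, ENNReal.ofReal (⟪j.1, Y x⟫ ^ 2) ≤ ENNReal.ofReal (C * r ^ 2) *
        ∫⁻ x, ENNReal.ofReal (ed b (soft U J (1 / δ ^ 3)) Y x *
          Real.exp (-(soft U J (1 / δ ^ 3) x))) := by
  classical
  obtain ⟨R, hR⟩ := hb.subset_closedBall (0 : E)
  obtain ⟨B, hB⟩ := (isCompact_closedBall (0 : E) (R + 1)).exists_bound_of_continuousOn
    hU.continuous.continuousOn
  have hB' : ∀ x ∈ Metric.closedBall (0 : E) (R + 1), U x ≤ B := fun x hx =>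
    (le_abs_self _).trans (hB x hx)
  set w : ℝ := Real.exp (-(B + 1)) with hw
  have hw0 : 0 < w := Real.exp_pos _
  refine ⟨24 / w, by positivity, ?_⟩
  intro δ r Y hδ hδr hr hY j hj T hT hTK hTs
  have hr0 : 0 < r := lt_of_lt_of_le hδ hδr
  have hδ1 : δ ≤ 1 := by linarith
  set k : ℝ := 1 / δ ^ 3 with hk
  have hk0 : 0 < k := by positivity
  set T' : Set E := ({x | -δ ≤ sl j x} ∩ ⋂ i ∈ J.erase j, {x | 0 ≤ sl i x}) ∩
    Metric.closedBall (0 : E) (R + 1) with hT'
  have hT'm : MeasurableSet T' := by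
    refine MeasurableSet.inter (MeasurableSet.inter ?_ ?_) measurableSet_closedBall
    · exact measurableSet_le measurable_const (continuous_sl j).measurable
    · exact Finset.measurableSet_biInter _ fun i _ =>
        measurableSet_le measurable_const (continuous_sl i).measurable
  have hv : ContDiff ℝ 1 fun x => ⟪j.1, Y x⟫ := contDiff_const.inner ℝ hY
  have hjj : ⟪j.1, j.1⟫ = 1 := by rw [real_inner_self_eq_norm_sq, hJ j hj]; norm_num
  have hTT' : ∀ x ∈ T, ∀ u ∈ Ioc 0 (sl j x + δ), x + u • j.1 ∈ T' := by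
    intro x hx u hu
    obtain ⟨h1, h2, h3⟩ := hTs x hx
    refine ⟨⟨?_, ?_⟩, ?_⟩
    · show -δ ≤ sl j (x + u • j.1)
      rw [sl_add_smul, hjj, mul_one]; linarith [hu.2]
    · refine mem_iInter₂.2 fun i hi => ?_
      obtain ⟨hi1, hi2⟩ := Finset.mem_erase.1 hi
      show 0 ≤ sl i (x + u • j.1)
      rw [sl_add_smul]
      have h4 := h3 i hi2 hi1
      have h5 := abs_real_inner_le_norm i.1 j.1
      rw [hJ i hi2, hJ j hj, mul_one, abs_le] at h5
      have h6 : u * ⟪i.1, j.1⟫ ≤ u * 1 := mul_le_mul_of_nonneg_left h5.2 hu.1.le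
      linarith [hu.2]
    · rw [mem_closedBall_zero_iff]
      have h4 : ‖x‖ ≤ R := by simpa using hR (hTK hx)
      have h5 : ‖u • j.1‖ ≤ 1 := by
        rw [norm_smul, hJ j hj, mul_one, Real.norm_of_nonneg hu.1.le]
        linarith [hu.2]
      exact (norm_add_le _ _).trans (add_le_add h4 h5)
  have key := fibre hv (hJ j hj) hδ hδr hT hT'm (fun x hx => ⟨(hTs x hx).1, (hTs x hx).2.1⟩) hTT'
  refine key.trans ?_
  have hpt : ∀ x ∈ T', 4 / δ * (if sl j x < -(δ / 2) then ⟪j.1, Y x⟫ ^ 2 else 0) +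
      6 * r * fderiv ℝ (fun x => ⟪j.1, Y x⟫) x j.1 ^ 2 ≤
      8 * r / w * (ed b (soft U J k) Y x * Real.exp (-(soft U J k x))) := by
    rintro x ⟨⟨hx1, hx2⟩, hx3⟩
    have hx1' : -δ ≤ sl j x := hx1
    have hx2' : ∀ i ∈ J.erase j, 0 ≤ sl i x := fun i hi => mem_iInter₂.1 hx2 i hi
    -- the weight
    have h1 : soft U J k x ≤ B + 1 := by
      unfold soft
      rw [← Finset.add_sum_erase J _ hj, Finset.sum_eq_zero fun i hi =>
        w0_of_nonpos (neg_nonpos.2 (hx2' i hi)), add_zero]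
      have h2 : w0 (-(sl j x)) ≤ δ ^ 3 :=
        (monotone_w0 (by linarith : -(sl j x) ≤ δ)).trans (w0_le hδ.le)
      have h3 : k * w0 (-(sl j x)) ≤ 1 := by
        refine (mul_le_mul_of_nonneg_left h2 hk0.le).trans (le_of_eq ?_)
        rw [hk]; field_simp
      linarith [hB' x hx3]
    have h2 : w ≤ Real.exp (-(soft U J k x)) := Real.exp_le_exp.2 (by linarith)
    -- the energy
    have h3 : k * (w2 (-(sl j x)) * (⟪j.1, Y x⟫ * ⟪j.1, Y x⟫)) ≤
        fderiv ℝ (fderiv ℝ (soft U J k)) x (Y x) (Y x) := by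
      rw [fderiv_soft2_apply hU]
      have h4 : w2 (-(sl j x)) * (⟪j.1, Y x⟫ * ⟪j.1, Y x⟫) ≤
          ∑ i ∈ J, w2 (-(sl i x)) * (⟪i.1, Y x⟫ * ⟪i.1, Y x⟫) :=
        Finset.single_le_sum (f := fun i => w2 (-(sl i x)) * (⟪i.1, Y x⟫ * ⟪i.1, Y x⟫))
          (fun i _ => mul_nonneg (w2_nonneg _) (mul_self_nonneg _)) hj
      have h5 := mul_le_mul_of_nonneg_left h4 hk0.le
      linarith [hU0 x (Y x)]
    have h4 : fderiv ℝ (fun x => ⟪j.1, Y x⟫) x j.1 ^ 2 ≤ hs b Y x := by
      have e : fderiv ℝ (fun x => ⟪j.1, Y x⟫) x j.1 = ⟪j.1, fderiv ℝ Y x j.1⟫ := by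
        have hd : HasFDerivAt (fun x => innerSL ℝ j.1 (Y x))
            ((innerSL ℝ j.1).comp (fderiv ℝ Y x)) x :=
          (innerSL ℝ j.1).hasFDerivAt.comp x
            ((hY.differentiable (by norm_num)) x).hasFDerivAt
        have : fderiv ℝ (fun x => ⟪j.1, Y x⟫) x = (innerSL ℝ j.1).comp (fderiv ℝ Y x) := hd.fderiv
        rw [this]; rfl
      rw [e]
      refine le_trans ?_ (sq_le_hs b (hJ j hj) Y x)
      have h5 := abs_real_inner_le_norm j.1 (fderiv ℝ Y x j.1)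
      rw [hJ j hj, one_mul] at h5
      rw [← sq_abs]
      exact pow_le_pow_left₀ (abs_nonneg _) h5 2
    have hV : 0 ≤ fderiv ℝ (fderiv ℝ (soft U J k)) x (Y x) (Y x) :=
      le_trans (by have := w2_nonneg (-(sl j x)); have := mul_self_nonneg ⟪j.1, Y x⟫
                   positivity) h3
    have h5 : 4 / δ * (if sl j x < -(δ / 2) then ⟪j.1, Y x⟫ ^ 2 else 0) ≤
        8 * r * fderiv ℝ (fderiv ℝ (soft U J k)) x (Y x) (Y x) := by
      split_ifs with h
      · have h6 : δ / 2 ≤ w2 (-(sl j x)) := by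
          rw [← w2_of_mem (by positivity : 0 ≤ δ / 2) (by linarith)]
          exact w2_mono (by linarith)
        have h7 : 4 / δ * ⟪j.1, Y x⟫ ^ 2 ≤
            8 * r * (k * (w2 (-(sl j x)) * (⟪j.1, Y x⟫ * ⟪j.1, Y x⟫))) := by
          have h8 : 4 / δ ≤ 8 * r * (k * w2 (-(sl j x))) := by
            calc 4 / δ ≤ 8 * r * (k * (δ / 2)) := by
                  rw [hk]
                  have e : 8 * r * (1 / δ ^ 3 * (δ / 2)) = 4 * r / δ ^ 2 := by
                    field_simp; ring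
                  rw [e, div_le_div_iff₀ hδ (by positivity)]
                  nlinarith
              _ ≤ _ := by gcongr
          have h9 := mul_le_mul_of_nonneg_right h8 (sq_nonneg ⟪j.1, Y x⟫)
          calc 4 / δ * ⟪j.1, Y x⟫ ^ 2 ≤ 8 * r * (k * w2 (-(sl j x))) * ⟪j.1, Y x⟫ ^ 2 := h9
            _ = _ := by ring
        exact h7.trans (mul_le_mul_of_nonneg_left h3 (by positivity))
      · rw [mul_zero]; positivity
    have h6 : 4 / δ * (if sl j x < -(δ / 2) then ⟪j.1, Y x⟫ ^ 2 else 0) +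
        6 * r * fderiv ℝ (fun x => ⟪j.1, Y x⟫) x j.1 ^ 2 ≤ 8 * r * ed b (soft U J k) Y x := by
      unfold ed
      have h7 : 6 * r * fderiv ℝ (fun x => ⟪j.1, Y x⟫) x j.1 ^ 2 ≤ 8 * r * hs b Y x := by
        have := hs_nonneg b Y x
        nlinarith [mul_le_mul_of_nonneg_left h4 hr0.le]
      linarith
    have h7 : 0 ≤ ed b (soft U J k) Y x := add_nonneg (hs_nonneg b Y x) hV
    calc _ ≤ 8 * r * ed b (soft U J k) Y x := h6
      _ = 8 * r / w * (ed b (soft U J k) Y x * w) := by field_simp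
      _ ≤ _ := by gcongr
  calc ENNReal.ofReal (3 * r) * ∫⁻ x in T', ENNReal.ofReal
        (4 / δ * (if sl j x < -(δ / 2) then ⟪j.1, Y x⟫ ^ 2 else 0) +
          6 * r * fderiv ℝ (fun x => ⟪j.1, Y x⟫) x j.1 ^ 2)
      ≤ ENNReal.ofReal (3 * r) * ∫⁻ x in T', ENNReal.ofReal
          (8 * r / w * (ed b (soft U J k) Y x * Real.exp (-(soft U J k x)))) :=
        mul_le_mul' le_rfl
          (setLIntegral_mono' hT'm fun x hx => ENNReal.ofReal_le_ofReal (hpt x hx))
    _ ≤ ENNReal.ofReal (3 * r) * ∫⁻ x, ENNReal.ofReal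
          (8 * r / w * (ed b (soft U J k) Y x * Real.exp (-(soft U J k x)))) :=
        mul_le_mul' le_rfl (setLIntegral_le_lintegral _ _)
    _ = ENNReal.ofReal (24 / w * r ^ 2) * ∫⁻ x, ENNReal.ofReal
          (ed b (soft U J k) Y x * Real.exp (-(soft U J k x))) := by
        have e : ∀ x, ENNReal.ofReal
            (8 * r / w * (ed b (soft U J k) Y x * Real.exp (-(soft U J k x)))) =
            ENNReal.ofReal (8 * r / w) *
              ENNReal.ofReal (ed b (soft U J k) Y x * Real.exp (-(soft U J k x))) := fun x => by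
          rw [ENNReal.ofReal_mul (by positivity)]
        simp only [e]
        rw [lintegral_const_mul' _ _ ENNReal.ofReal_ne_top, ← mul_assoc, ← ENNReal.ofReal_mul
          (by positivity)]
        congr 2
        field_simp
        ring

end field

end

end Crest.Agent.R144.Hsu498
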