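import Crest.Agent.R144.Hsu4_498

/-!
# R144 (S0197), block HSU (helper498), file 5: the rigid field, pointwise
-/

set_option autoImplicit false
set_option linter.unusedSectionVars false

open MeasureTheory Set Filter Topology
open scoped ENNReal NNReal RealInnerProductSpace

namespace Crest.Agent.R144.Hsu498

noncomputable section

section field

variable {E : Type*} [NormedAddCommGroup E] [InnerProductSpace ℝ E] [FiniteDimensional ℝ E]
  [MeasurableSpace E] [BorelSpace E] {ι : Type*} [Fintype ι]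

/-- truncated and multiplied field -/
def Zf (g : E → ℝ) (M : ℝ) (Y : E → E) (x : E) : E := g x • trn M (Y x)

/-- weight of the wall `j` -/
def wc (N : ℕ) (r : ℝ) (j : E × ℝ) (x : E) : ℝ := cut N r (sl j x ^ 2)

/-- field made rigid near the walls -/
def Wf (J : Finset (E × ℝ)) (N : ℕ) (r : ℝ) (Z : E → E) (x : E) : E :=
  Z x - ∑ j ∈ J, (wc N r j x * ⟪j.1, Z x⟫) • j.1

variable {J : Finset (E × ℝ)} {N : ℕ} {r : ℝ}

theorem contDiff_wc (j : E × ℝ) : ContDiff ℝ ((⊤ : ℕ∞) : WithTop ℕ∞) (wc N r j) := by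
  unfold wc
  exact (contDiff_cut N r).comp ((contDiff_sl j).pow 2)

theorem contDiff_Zf {g : E → ℝ} {M : ℝ} {Y : E → E}
    (hg : ContDiff ℝ ((⊤ : ℕ∞) : WithTop ℕ∞) g) (hY : ContDiff ℝ ((⊤ : ℕ∞) : WithTop ℕ∞) Y) :
    ContDiff ℝ ((⊤ : ℕ∞) : WithTop ℕ∞) (Zf g M Y) := by
  unfold Zf
  exact hg.smul ((contDiff_trn M).comp hY)

theorem contDiff_Wf {Z : E → E} (hZ : ContDiff ℝ ((⊤ : ℕ∞) : WithTop ℕ∞) Z) :
    ContDiff ℝ ((⊤ : ℕ∞) : WithTop ℕ∞) (Wf J N r Z) := by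
  unfold Wf
  exact hZ.sub (ContDiff.sum fun j _ =>
    ((contDiff_wc j).mul (contDiff_const.inner ℝ hZ)).smul contDiff_const)

theorem hasCompactSupport_Zf {g : E → ℝ} {M : ℝ} {Y : E → E} (hY : HasCompactSupport Y) :
    HasCompactSupport (Zf g M Y) := by
  refine hY.mono' ?_
  refine Function.support_subset_iff'.2 (fun x hx => ?_) |>.trans subset_closure
  have h : Y x = 0 := by simpa using hx
  unfold Zf; rw [h, trn_zero, smul_zero]

theorem hasCompactSupport_Wf {Z : E → E} (hZ : HasCompactSupport Z) :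
    HasCompactSupport (Wf J N r Z) := by
  refine hZ.mono' ?_
  refine Function.support_subset_iff'.2 (fun x hx => ?_) |>.trans subset_closure
  have h : Z x = 0 := by simpa using hx
  unfold Wf; rw [h]; simp

theorem wc_nonneg (j : E × ℝ) (x : E) : 0 ≤ wc N r j x := cut_nonneg _ _ _

theorem wc_le_one (j : E × ℝ) (x : E) : wc N r j x ≤ 1 := cut_le_one _ _ _

theorem wc_ne_zero (hr : 0 < r) {j : E × ℝ} {x : E} (h : wc N r j x ≠ 0) : sl j x ≤ 2 * r := by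
  by_contra hcon
  push Not at hcon
  apply h
  unfold wc
  refine cut_eq_zero hr ?_
  nlinarith

theorem contract (hJ : ∀ j ∈ J, ‖j.1‖ = 1) (t : E × ℝ → ℝ) (h0 : ∀ j ∈ J, 0 ≤ t j)
    (h1 : ∀ j ∈ J, t j ≤ 1) (h2 : ∀ i ∈ J, ∀ j ∈ J, i ≠ j → t i = 0 ∨ t j = 0) (w : E) :
    ‖w - ∑ j ∈ J, (t j * ⟪j.1, w⟫) • j.1‖ ≤ ‖w‖ := by
  by_cases h : ∃ i ∈ J, t i ≠ 0
  · obtain ⟨i, hi, hti⟩ := h
    have e : ∑ j ∈ J, (t j * ⟪j.1, w⟫) • j.1 = (t i * ⟪i.1, w⟫) • i.1 := by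
      refine Finset.sum_eq_single i (fun j hj hji => ?_) fun h' => absurd hi h'
      rcases h2 i hi j hj hji.symm with h' | h'
      · exact absurd h' hti
      · rw [h', zero_mul, zero_smul]
    rw [e]
    refine le_of_sq_le_sq ?_ (norm_nonneg _)
    rw [norm_sub_sq_real, norm_smul, inner_smul_right, hJ i hi, mul_one, Real.norm_eq_abs, sq_abs,
      real_inner_comm i.1 w]
    have h3 := h0 i hi
    have h4 := h1 i hi
    have h5 : t i ^ 2 ≤ 2 * t i := by nlinarith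
    have h6 := mul_le_mul_of_nonneg_right h5 (sq_nonneg ⟪i.1, w⟫)
    nlinarith
  · push Not at h
    rw [Finset.sum_eq_zero fun j hj => by rw [h j hj, zero_mul, zero_smul], sub_zero]

theorem fderiv_Wf {Z : E → E} {x : E} (hZ : DifferentiableAt ℝ Z x) (z : E) :
    fderiv ℝ (Wf J N r Z) x z = (fderiv ℝ Z x z -
      ∑ j ∈ J, (wc N r j x * ⟪j.1, fderiv ℝ Z x z⟫) • j.1) +
      ∑ j ∈ J, (2 * sl j x * deriv (cut N r) (sl j x ^ 2) * ⟪j.1, z⟫ * ⟪j.1, Z x⟫) • j.1 := by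
  have hwc : ∀ j : E × ℝ, HasFDerivAt (wc N r j)
      ((-(2 * sl j x * deriv (cut N r) (sl j x ^ 2))) • innerSL ℝ j.1) x := by
    intro j
    have h1 : HasDerivAt (cut N r) (deriv (cut N r) (sl j x ^ 2)) (sl j x ^ 2) :=
      (hasDerivAt_cut N r _).differentiableAt.hasDerivAt
    have h2 : HasFDerivAt (fun x => sl j x ^ 2) ((-(2 * sl j x)) • innerSL ℝ j.1) x := by
      refine ((hasFDerivAt_sl j x).pow 2).congr_fderiv ?_
      ext z
      simp
    refine (h1.comp_hasFDerivAt x h2).congr_fderiv ?_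
    rw [smul_smul]
    congr 1
    ring
  have hin : ∀ j : E × ℝ, HasFDerivAt (fun x => innerSL ℝ j.1 (Z x))
      ((innerSL ℝ j.1).comp (fderiv ℝ Z x)) x := fun j =>
    (innerSL ℝ j.1).hasFDerivAt.comp x hZ.hasFDerivAt
  have hterm : ∀ j : E × ℝ, HasFDerivAt (fun x => (wc N r j x * innerSL ℝ j.1 (Z x)) • j.1)
      ((wc N r j x • ((innerSL ℝ j.1).comp (fderiv ℝ Z x)) + (innerSL ℝ j.1 (Z x)) •
        ((-(2 * sl j x * deriv (cut N r) (sl j x ^ 2))) • innerSL ℝ j.1)).smulRight j.1) x :=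
    fun j => ((hwc j).mul (hin j)).smul_const j.1
  have hsum := HasFDerivAt.fun_sum (u := J) fun j _ => hterm j
  have hall : HasFDerivAt (Wf J N r Z) _ x := hZ.hasFDerivAt.sub hsum
  rw [hall.fderiv]
  simp only [sub_apply, sum_apply, ContinuousLinearMap.smulRight_apply, add_apply, smul_apply,
    ContinuousLinearMap.comp_apply, innerSL_apply_apply, smul_eq_mul]
  rw [sub_add, ← Finset.sum_sub_distrib]
  congr 1
  refine Finset.sum_congr rfl fun j _ => ?_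
  rw [← sub_smul]
  congr 1
  ring

variable {g : E → ℝ} {ρ : ℝ}

/-- the multiplier kills the corners -/
def Kills (J : Finset (E × ℝ)) (g : E → ℝ) (ρ : ℝ) : Prop :=
  ∀ x ∈ poly J, ∀ i ∈ J, ∀ j ∈ J, i ≠ j → sl i x ≤ ρ → sl j x ≤ ρ → g x = 0

theorem one_active (hK : Kills J g ρ) (hr : 0 < r) (hrρ : 2 * r ≤ ρ) {x : E} (hx : x ∈ poly J)
    (hg : g x ≠ 0) : ∀ i ∈ J, ∀ j ∈ J, i ≠ j → wc N r i x = 0 ∨ wc N r j x = 0 := by
  intro i hi j hj hij
  by_contra hcon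
  rw [not_or] at hcon
  exact hg (hK x hx i hi j hj hij ((wc_ne_zero hr hcon.1).trans hrρ)
    ((wc_ne_zero hr hcon.2).trans hrρ))

theorem Zf_zero {M : ℝ} {Y : E → E} {x : E} (hg : g x = 0) : Zf g M Y x = 0 := by
  unfold Zf; rw [hg, zero_smul]

theorem norm_Zf_le (hg0 : ∀ x, 0 ≤ g x) (hg1 : ∀ x, g x ≤ 1) {M : ℝ} (hM : 0 < M) (Y : E → E)
    (x : E) : ‖Zf g M Y x‖ ≤ M := by
  unfold Zf
  rw [norm_smul, Real.norm_of_nonneg (hg0 x)]
  exact (mul_le_of_le_one_left (norm_nonneg _) (hg1 x)).trans (norm_trn_le hM _)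

theorem norm_Wf_le (hJ : ∀ j ∈ J, ‖j.1‖ = 1) (hK : Kills J g ρ) (hr : 0 < r) (hrρ : 2 * r ≤ ρ)
    {M : ℝ} {Y : E → E} {x : E} (hx : x ∈ poly J) :
    ‖Wf J N r (Zf g M Y) x‖ ≤ ‖Zf g M Y x‖ := by
  by_cases hg : g x = 0
  · unfold Wf; rw [Zf_zero hg]; simp
  · exact contract hJ (fun j => wc N r j x) (fun j _ => wc_nonneg j x) (fun j _ => wc_le_one j x)
      (one_active hK hr hrρ hx hg) _

theorem rigid (hJ : ∀ j ∈ J, ‖j.1‖ = 1) (hK : Kills J g ρ) (hN : 0 < N) (hr : 0 < r)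
    (hrρ : 2 * r ≤ ρ) {M : ℝ} {Y : E → E} {x : E} (hx : x ∈ poly J) {j : E × ℝ} (hj : j ∈ J)
    (hs : sl j x ≤ r / 2 ^ N) : ⟪j.1, Wf J N r (Zf g M Y) x⟫ = 0 := by
  by_cases hg : g x = 0
  · unfold Wf; rw [Zf_zero hg]; simp
  · have h1 : wc N r j x = 1 := by
      unfold wc
      refine cut_eq_one hN hr ?_
      have h2 : sl j x ^ 2 ≤ (r / 2 ^ N) ^ 2 := pow_le_pow_left₀ (hx j hj) hs 2
      have h4 : (4 : ℝ) ^ N = (2 ^ N) ^ 2 := by rw [← pow_mul, mul_comm N 2, pow_mul]; norm_num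
      calc 4 ^ N * sl j x ^ 2 ≤ 4 ^ N * (r / 2 ^ N) ^ 2 :=
            mul_le_mul_of_nonneg_left h2 (by positivity)
        _ = r ^ 2 := by rw [h4]; field_simp
    have h2 : ∑ i ∈ J, (wc N r i x * ⟪i.1, Zf g M Y x⟫) • i.1 = ⟪j.1, Zf g M Y x⟫ • j.1 := by
      rw [Finset.sum_eq_single j, h1, one_mul]
      · intro i hi hij
        rcases one_active (N := N) hK hr hrρ hx hg i hi j hj hij with h | h
        · rw [h, zero_mul, zero_smul]
        · rw [h1] at h; exact absurd h one_ne_zero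
      · intro h; exact absurd hj h
    unfold Wf
    rw [h2, inner_sub_right, inner_smul_right, real_inner_self_eq_norm_sq, hJ j hj]
    ring

theorem norm_Zf_sub_Wf (hJ : ∀ j ∈ J, ‖j.1‖ = 1) (hg0 : ∀ x, 0 ≤ g x) (hg1 : ∀ x, g x ≤ 1)
    {M : ℝ} (hM : 0 < M) (Y : E → E) (x : E) :
    ‖Zf g M Y x - Wf J N r (Zf g M Y) x‖ ≤ M * ∑ j ∈ J, wc N r j x := by
  unfold Wf
  rw [sub_sub_cancel, Finset.mul_sum]
  refine (norm_sum_le _ _).trans (Finset.sum_le_sum fun j hj => ?_)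
  rw [norm_smul, hJ j hj, mul_one, norm_mul, Real.norm_of_nonneg (wc_nonneg j x), mul_comm]
  refine mul_le_mul_of_nonneg_right ?_ (wc_nonneg j x)
  have h1 := abs_real_inner_le_norm j.1 (Zf g M Y x)
  rw [hJ j hj, one_mul] at h1
  exact h1.trans (norm_Zf_le hg0 hg1 hM Y x)

theorem norm_sub_Wf (hJ : ∀ j ∈ J, ‖j.1‖ = 1) (hg0 : ∀ x, 0 ≤ g x) (hg1 : ∀ x, g x ≤ 1)
    {M : ℝ} (hM : 0 < M) (Y : E → E) (x : E) :
    ‖Y x - Wf J N r (Zf g M Y) x‖ ≤ ‖Y x‖ ^ 2 / M + M * (1 - g x) + M * ∑ j ∈ J, wc N r j x := by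
  have h1 := norm_sub_trn_le hM (Y x)
  have h2 : ‖trn M (Y x) - Zf g M Y x‖ ≤ M * (1 - g x) := by
    have e : trn M (Y x) - Zf g M Y x = (1 - g x) • trn M (Y x) := by
      unfold Zf; rw [sub_smul, one_smul]
    rw [e, norm_smul, Real.norm_of_nonneg (by linarith [hg1 x]), mul_comm]
    exact mul_le_mul_of_nonneg_right (norm_trn_le hM _) (by linarith [hg1 x])
  have h3 := norm_Zf_sub_Wf (N := N) (r := r) hJ hg0 hg1 hM Y x
  have e : Y x - Wf J N r (Zf g M Y) x = (Y x - trn M (Y x)) + (trn M (Y x) - Zf g M Y x) +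
      (Zf g M Y x - Wf J N r (Zf g M Y) x) := by abel
  rw [e]
  exact (norm_add_le _ _).trans (add_le_add ((norm_add_le _ _).trans (add_le_add h1 h2)) h3)

theorem inner_Zf_sq_le (hg0 : ∀ x, 0 ≤ g x) (hg1 : ∀ x, g x ≤ 1) (M : ℝ) (Y : E → E) (a x : E) :
    ⟪a, Zf g M Y x⟫ ^ 2 ≤ ⟪a, Y x⟫ ^ 2 := by
  unfold Zf
  rw [inner_smul_right, mul_pow]
  exact (mul_le_of_le_one_left (sq_nonneg _) (pow_le_one₀ (hg0 x) (hg1 x))).trans
    (inner_trn_sq_le M a (Y x))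

theorem norm_fderiv_Wf (hJ : ∀ j ∈ J, ‖j.1‖ = 1)
    (hgs : ContDiff ℝ ((⊤ : ℕ∞) : WithTop ℕ∞) g) (hg0 : ∀ x, 0 ≤ g x) (hg1 : ∀ x, g x ≤ 1)
    (hK : Kills J g ρ) (hr : 0 < r) (hrρ : 2 * r ≤ ρ) {M : ℝ} (hM : 0 < M) {Y : E → E}
    (hY : ContDiff ℝ ((⊤ : ℕ∞) : WithTop ℕ∞) Y) {x : E} (hx : x ∈ poly J) {z : E}
    (hz : ‖z‖ = 1) : ‖fderiv ℝ (Wf J N r (Zf g M Y)) x z‖ ≤ ‖fderiv ℝ Y x z‖ +
      (M * ‖fderiv ℝ g x‖ +
        ∑ j ∈ J, |2 * sl j x * deriv (cut N r) (sl j x ^ 2)| * |⟪j.1, Zf g M Y x⟫|) := by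
  have hZs := contDiff_Zf (M := M) hgs hY
  have hZd : DifferentiableAt ℝ (Zf g M Y) x := (hZs.differentiable (by simp)) x
  have hYd : DifferentiableAt ℝ Y x := (hY.differentiable (by simp)) x
  have hgd : DifferentiableAt ℝ g x := (hgs.differentiable (by simp)) x
  have hTd : DifferentiableAt ℝ (fun x => trn M (Y x)) x :=
    ((contDiff_trn M (n := 1)).differentiable (by norm_num)).differentiableAt.comp x hYd
  have e1 : fderiv ℝ (Zf g M Y) x z =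
      g x • fderiv ℝ (fun x => trn M (Y x)) x z + fderiv ℝ g x z • trn M (Y x) := by
    have h := (hgd.hasFDerivAt.smul hTd.hasFDerivAt)
    have h2 : fderiv ℝ (Zf g M Y) x = _ := h.fderiv
    rw [h2]
    simp
  have hZb : ‖fderiv ℝ (Zf g M Y) x z‖ ≤ ‖fderiv ℝ Y x z‖ + M * ‖fderiv ℝ g x‖ := by
    rw [e1]
    refine (norm_add_le _ _).trans (add_le_add ?_ ?_)
    · rw [norm_smul, Real.norm_of_nonneg (hg0 x)]
      exact (mul_le_of_le_one_left (norm_nonneg _) (hg1 x)).trans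
        (norm_fderiv_trn_comp hM hYd z)
    · rw [norm_smul, mul_comm]
      refine mul_le_mul (norm_trn_le hM _) ?_ (norm_nonneg _) hM.le
      have := (fderiv ℝ g x).le_opNorm z
      rwa [hz, mul_one] at this
  have hsum : ‖∑ j ∈ J, (2 * sl j x * deriv (cut N r) (sl j x ^ 2) * ⟪j.1, z⟫ *
      ⟪j.1, Zf g M Y x⟫) • j.1‖ ≤
      ∑ j ∈ J, |2 * sl j x * deriv (cut N r) (sl j x ^ 2)| * |⟪j.1, Zf g M Y x⟫| := by
    refine (norm_sum_le _ _).trans (Finset.sum_le_sum fun j hj => ?_)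
    rw [norm_smul, hJ j hj, mul_one, Real.norm_eq_abs, abs_mul, abs_mul]
    have h1 := abs_real_inner_le_norm j.1 z
    rw [hJ j hj, hz, mul_one] at h1
    refine mul_le_mul_of_nonneg_right ?_ (abs_nonneg _)
    exact mul_le_of_le_one_right (abs_nonneg _) h1
  rw [fderiv_Wf hZd]
  by_cases hg : g x = 0
  · have hmin : IsLocalMin g x := Eventually.of_forall fun y => by rw [hg]; exact hg0 y
    have h0 : fderiv ℝ (Zf g M Y) x z = 0 := by
      rw [e1, hg, hmin.fderiv_eq_zero]; simp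
    rw [h0]
    simp only [inner_zero_right, mul_zero, zero_smul, Finset.sum_const_zero, sub_zero, zero_add]
    refine hsum.trans ?_
    have := norm_nonneg (fderiv ℝ Y x z)
    have := mul_nonneg hM.le (norm_nonneg (fderiv ℝ g x))
    linarith
  · have h1 := contract hJ (fun j => wc N r j x) (fun j _ => wc_nonneg j x)
      (fun j _ => wc_le_one j x) (one_active hK hr hrρ hx hg) (fderiv ℝ (Zf g M Y) x z)
    refine (norm_add_le _ _).trans ?_
    linarith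

end field

end

end Crest.Agent.R144.Hsu498
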