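import Crest.Agent.R144.Hsu5_498

/-!
# R144 (S0197), block HSU (helper498), file 6: the rigid field, integrated
-/

set_option autoImplicit false
set_option linter.unusedSectionVars false

open MeasureTheory Set Filter Topology
open scoped ENNReal NNReal RealInnerProductSpace

namespace Crest.Agent.R144.Hsu498

noncomputable section

section field

variable {E : Type*} [NormedAddCommGroup E] [InnerProductSpace ℝ E] [FiniteDimensional ℝ E]
  [MeasurableSpace E] [BorelSpace E] {ι : Type*} [Fintype ι]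

variable {J : Finset (E × ℝ)} {N : ℕ} {r : ℝ} {g : E → ℝ} {ρ : ℝ} {U : E → ℝ}

/-- the cost of the rigidification at the wall `j` -/
def wcost (N : ℕ) (r : ℝ) (g : E → ℝ) (M : ℝ) (Y : E → E) (j : E × ℝ) (x : E) : ℝ :=
  4 * (sl j x ^ 2 * deriv (cut N r) (sl j x ^ 2) ^ 2) * ⟪j.1, Zf g M Y x⟫ ^ 2

theorem wcost_nonneg {M : ℝ} {Y : E → E} (j : E × ℝ) (x : E) : 0 ≤ wcost N r g M Y j x := by
  unfold wcost; positivity

theorem continuous_wcost (hgs : ContDiff ℝ ((⊤ : ℕ∞) : WithTop ℕ∞) g) {M : ℝ} {Y : E → E}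
    (hY : ContDiff ℝ ((⊤ : ℕ∞) : WithTop ℕ∞) Y) (j : E × ℝ) :
    Continuous (wcost N r g M Y j) := by
  unfold wcost
  have h1 := (contDiff_Zf (M := M) hgs hY).continuous
  have h2 : Continuous (deriv (cut N r)) := (contDiff_cut N r (n := 1)).continuous_deriv le_rfl
  have h3 := continuous_sl j
  have h4 : Continuous fun x => ⟪j.1, Zf g M Y x⟫ := continuous_const.inner h1
  exact (continuous_const.mul ((h3.pow 2).mul ((h2.comp (h3.pow 2)).pow 2))).mul (h4.pow 2)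

theorem hs_Wf_le (b : OrthonormalBasis ι ℝ E) (hJ : ∀ j ∈ J, ‖j.1‖ = 1)
    (hgs : ContDiff ℝ ((⊤ : ℕ∞) : WithTop ℕ∞) g) (hg0 : ∀ x, 0 ≤ g x) (hg1 : ∀ x, g x ≤ 1)
    (hK : Kills J g ρ) (hr : 0 < r) (hrρ : 2 * r ≤ ρ) {M : ℝ} (hM : 0 < M) {Y : E → E}
    (hY : ContDiff ℝ ((⊤ : ℕ∞) : WithTop ℕ∞) Y) {x : E} (hx : x ∈ poly J) {κ : ℝ} (hκ : 0 < κ) :
    hs b (Wf J N r (Zf g M Y)) x ≤ (1 + κ) * hs b Y x + (1 + 1 / κ) * Fintype.card ι *
      (2 * M ^ 2 * ‖fderiv ℝ g x‖ ^ 2 + 2 * J.card * ∑ j ∈ J, wcost N r g M Y j x) := by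
  set D : ℝ := M * ‖fderiv ℝ g x‖ +
    ∑ j ∈ J, |2 * sl j x * deriv (cut N r) (sl j x ^ 2)| * |⟪j.1, Zf g M Y x⟫| with hD
  have hD0 : 0 ≤ D := add_nonneg (mul_nonneg hM.le (norm_nonneg _))
    (Finset.sum_nonneg fun _ _ => mul_nonneg (abs_nonneg _) (abs_nonneg _))
  have hD2 : D ^ 2 ≤ 2 * M ^ 2 * ‖fderiv ℝ g x‖ ^ 2 +
      2 * J.card * ∑ j ∈ J, wcost N r g M Y j x := by
    have h1 : (∑ j ∈ J, |2 * sl j x * deriv (cut N r) (sl j x ^ 2)| *
        |⟪j.1, Zf g M Y x⟫|) ^ 2 ≤ J.card * ∑ j ∈ J, wcost N r g M Y j x := by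
      refine sq_sum_le_card_mul_sum_sq.trans (le_of_eq ?_)
      congr 1
      refine Finset.sum_congr rfl fun j _ => ?_
      unfold wcost
      rw [mul_pow, sq_abs, sq_abs]; ring
    have h2 : D ^ 2 ≤ 2 * (M * ‖fderiv ℝ g x‖) ^ 2 + 2 * (∑ j ∈ J,
        |2 * sl j x * deriv (cut N r) (sl j x ^ 2)| * |⟪j.1, Zf g M Y x⟫|) ^ 2 := by
      rw [hD]
      nlinarith [sq_nonneg (M * ‖fderiv ℝ g x‖ - ∑ j ∈ J,
        |2 * sl j x * deriv (cut N r) (sl j x ^ 2)| * |⟪j.1, Zf g M Y x⟫|)]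
    rw [mul_pow] at h2
    linarith
  have hi : ∀ i, ‖fderiv ℝ (Wf J N r (Zf g M Y)) x (b i)‖ ^ 2 ≤
      (1 + κ) * ‖fderiv ℝ Y x (b i)‖ ^ 2 + (1 + 1 / κ) * D ^ 2 := by
    intro i
    have h1 := norm_fderiv_Wf (N := N) hJ hgs hg0 hg1 hK hr hrρ hM hY hx (b.norm_eq_one i)
    rw [← hD] at h1
    have h2 := pow_le_pow_left₀ (norm_nonneg _) h1 2
    set A := ‖fderiv ℝ Y x (b i)‖ with hA
    have h3 : 2 * A * D ≤ κ * A ^ 2 + 1 / κ * D ^ 2 := by
      have h4 : 0 ≤ (κ * A - D) ^ 2 / κ := by positivity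
      have h5 : (κ * A - D) ^ 2 / κ = κ * A ^ 2 + 1 / κ * D ^ 2 - 2 * A * D := by
        field_simp; ring
      linarith
    nlinarith
  unfold hs
  calc ∑ i, ‖fderiv ℝ (Wf J N r (Zf g M Y)) x (b i)‖ ^ 2
      ≤ ∑ i, ((1 + κ) * ‖fderiv ℝ Y x (b i)‖ ^ 2 + (1 + 1 / κ) * D ^ 2) :=
        Finset.sum_le_sum fun i _ => hi i
    _ = (1 + κ) * ∑ i, ‖fderiv ℝ Y x (b i)‖ ^ 2 + (1 + 1 / κ) * Fintype.card ι * D ^ 2 := by
        rw [Finset.sum_add_distrib, ← Finset.mul_sum, Finset.sum_const, Finset.card_univ,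
          nsmul_eq_mul]
        ring
    _ ≤ _ := by
        have : 0 ≤ (1 + 1 / κ) * Fintype.card ι := by positivity
        have := mul_le_mul_of_nonneg_left hD2 this
        linarith

theorem hess_Wf_le (hJ : ∀ j ∈ J, ‖j.1‖ = 1) (hg0 : ∀ x, 0 ≤ g x) (hg1 : ∀ x, g x ≤ 1)
    (hK : Kills J g ρ) (hr : 0 < r) (hrρ : 2 * r ≤ ρ) {M : ℝ} (hM : 0 < M) {Y : E → E}
    {C : ℝ} (hC0 : 0 ≤ C) (hC : ∀ x y z, |fderiv ℝ (fderiv ℝ U) x y z| ≤ C * ‖y‖ * ‖z‖)
    (hU0 : ∀ x y, 0 ≤ fderiv ℝ (fderiv ℝ U) x y y) {x : E} (hx : x ∈ poly J) :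
    fderiv ℝ (fderiv ℝ U) x (Wf J N r (Zf g M Y) x) (Wf J N r (Zf g M Y) x) ≤
      fderiv ℝ (fderiv ℝ U) x (Y x) (Y x) + 2 * C * M ^ 2 * ∑ j ∈ J, wc N r j x := by
  set B := fderiv ℝ (fderiv ℝ U) x with hB
  set W := Wf J N r (Zf g M Y) x with hW
  set Z := Zf g M Y x with hZ
  have h1 : B Z Z ≤ B (Y x) (Y x) := by
    have e : Z = (g x * (1 + ‖Y x‖ ^ 2 / M ^ 2)⁻¹) • Y x := by
      rw [hZ]; unfold Zf trn; rw [smul_smul]
    rw [e]
    simp only [map_smul, smul_apply, smul_eq_mul]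
    rw [← mul_assoc]
    refine mul_le_of_le_one_left (hU0 x (Y x)) ?_
    have hi0 : 0 ≤ (1 + ‖Y x‖ ^ 2 / M ^ 2)⁻¹ := inv_nonneg.2 (trn_pos M (Y x)).le
    have hi1 : (1 + ‖Y x‖ ^ 2 / M ^ 2)⁻¹ ≤ 1 := by
      refine inv_le_one_of_one_le₀ ?_
      have : 0 ≤ ‖Y x‖ ^ 2 / M ^ 2 := by positivity
      linarith
    have h2 : g x * (1 + ‖Y x‖ ^ 2 / M ^ 2)⁻¹ ≤ 1 := mul_le_one₀ (hg1 x) hi0 hi1
    have h3 : 0 ≤ g x * (1 + ‖Y x‖ ^ 2 / M ^ 2)⁻¹ := mul_nonneg (hg0 x) hi0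
    exact mul_le_one₀ h2 h3 h2
  have h2 : ‖Z‖ ≤ M := norm_Zf_le hg0 hg1 hM Y x
  have h3 : ‖W‖ ≤ M := (norm_Wf_le hJ hK hr hrρ hx).trans h2
  have h4 : ‖Z - W‖ ≤ M * ∑ j ∈ J, wc N r j x := norm_Zf_sub_Wf hJ hg0 hg1 hM Y x
  have e : B W W = B Z Z - B (Z - W) W - B Z (Z - W) := by
    simp only [map_sub, sub_apply]; ring
  have h5 : |B (Z - W) W| ≤ C * (M * ∑ j ∈ J, wc N r j x) * M :=
    (hC x _ _).trans (mul_le_mul (mul_le_mul_of_nonneg_left h4 hC0) h3 (norm_nonneg _)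
      (mul_nonneg hC0 ((norm_nonneg _).trans h4)))
  have h6 : |B Z (Z - W)| ≤ C * M * (M * ∑ j ∈ J, wc N r j x) :=
    (hC x _ _).trans (mul_le_mul (mul_le_mul_of_nonneg_left h2 hC0) h4 (norm_nonneg _)
      (mul_nonneg hC0 hM.le))
  rw [e]
  have h7 := (abs_le.1 h5).1
  have h8 := (abs_le.1 h6).1
  have e2 : C * (M * ∑ j ∈ J, wc N r j x) * M + C * M * (M * ∑ j ∈ J, wc N r j x) =
      2 * C * M ^ 2 * ∑ j ∈ J, wc N r j x := by ring
  linarith

/-- the cost at one wall -/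
theorem wall_cost {Cc : ℝ} (hCc0 : 0 ≤ Cc) (hCc : ∀ (N : ℕ) (ρ q : ℝ), 0 < ρ → 0 ≤ q →
    q * deriv (cut N ρ) q ^ 2 ≤ Cc / (N : ℝ) ^ 2 * ∑ m ∈ Finset.range N,
      4 ^ m / ρ ^ 2 * (if ρ ^ 2 ≤ 4 ^ m * q ∧ 4 ^ m * q ≤ 2 * ρ ^ 2 then 1 else 0))
    (hgs : ContDiff ℝ ((⊤ : ℕ∞) : WithTop ℕ∞) g) (hg0 : ∀ x, 0 ≤ g x) (hg1 : ∀ x, g x ≤ 1)
    (hK : Kills J g ρ) (hN : 0 < N) (hr : 0 < r) (hrρ : 3 * r ≤ ρ) {M : ℝ} {Y : E → E}
    (hYc : Continuous Y) {δ CW A : ℝ} (hCW : 0 ≤ CW) (hδ : δ ≤ r / 2 ^ N) {j : E × ℝ} (hj : j ∈ J)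
    (hW : ∀ s : ℝ, δ ≤ s → s ≤ r → ∀ T : Set E, MeasurableSet T → T ⊆ poly J →
      (∀ x ∈ T, s ≤ sl j x ∧ sl j x ≤ 2 * s ∧ ∀ i ∈ J, i ≠ j → 3 * s ≤ sl i x) →
      ∫⁻ x in T, ENNReal.ofReal (⟪j.1, Y x⟫ ^ 2) ≤
        ENNReal.ofReal (CW * s ^ 2) * ENNReal.ofReal A) :
    ∫⁻ x in poly J, ENNReal.ofReal (wcost N r g M Y j x) ≤
      ENNReal.ofReal (4 * Cc * CW * A / N) := by
  have hNr : (0 : ℝ) < N := by exact_mod_cast hN
  set T : ℕ → Set E := fun m => poly J ∩ {x | g x ≠ 0 ∧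
    (r ^ 2 ≤ 4 ^ m * sl j x ^ 2 ∧ 4 ^ m * sl j x ^ 2 ≤ 2 * r ^ 2)} with hT
  have hTm : ∀ m, MeasurableSet (T m) := by
    intro m
    refine isClosed_poly.measurableSet.inter (MeasurableSet.inter ?_ (MeasurableSet.inter ?_ ?_))
    · exact (measurableSet_eq_fun hgs.continuous.measurable measurable_const).compl
    · exact measurableSet_le measurable_const
        (measurable_const.mul ((continuous_sl j).pow 2).measurable)
    · exact measurableSet_le (measurable_const.mul ((continuous_sl j).pow 2).measurable)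
        measurable_const
  have hTint : ∀ m ∈ Finset.range N, ∫⁻ x in T m, ENNReal.ofReal (⟪j.1, Y x⟫ ^ 2) ≤
      ENNReal.ofReal (CW * (r / 2 ^ m) ^ 2) * ENNReal.ofReal A := by
    intro m hm
    have hm' := Finset.mem_range.1 hm
    have h2m : (0 : ℝ) < 2 ^ m := by positivity
    have h1m : (1 : ℝ) ≤ 2 ^ m := one_le_pow₀ (by norm_num)
    have hrm : r / 2 ^ m ≤ r := div_le_self hr.le h1m
    refine hW (r / 2 ^ m) ?_ hrm (T m) (hTm m) inter_subset_left ?_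
    · refine hδ.trans ?_
      exact div_le_div_of_nonneg_left hr.le h2m (pow_le_pow_right₀ (by norm_num) hm'.le)
    · rintro x ⟨hx, hgx, h3, h4⟩
      have h0 := hx j hj
      have e4 : (4 : ℝ) ^ m = (2 ^ m) ^ 2 := by rw [← pow_mul, mul_comm m 2, pow_mul]; norm_num
      rw [e4, ← mul_pow] at h3 h4
      have h5 : r ≤ 2 ^ m * sl j x := le_of_sq_le_sq h3 (by positivity)
      have h6 : 2 ^ m * sl j x ≤ 2 * r := by
        refine le_of_sq_le_sq ?_ (by positivity)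
        nlinarith
      have h7 : sl j x ≤ 2 * (r / 2 ^ m) := by
        rw [← mul_div_assoc, le_div_iff₀ h2m]; linarith
      refine ⟨by rw [div_le_iff₀ h2m]; linarith, h7, fun i hi hij => ?_⟩
      by_contra hcon
      push Not at hcon
      exact hgx (hK x hx i hi j hj hij (by linarith) (by linarith))
  calc ∫⁻ x in poly J, ENNReal.ofReal (wcost N r g M Y j x)
      ≤ ∫⁻ x in poly J, ∑ m ∈ Finset.range N, ENNReal.ofReal (4 * (Cc / (N : ℝ) ^ 2 *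
          (4 ^ m / r ^ 2))) * (T m).indicator (fun x => ENNReal.ofReal (⟪j.1, Y x⟫ ^ 2)) x := by
        refine setLIntegral_mono' isClosed_poly.measurableSet fun x hx => ?_
        have h2 := hCc N r (sl j x ^ 2) hr (sq_nonneg _)
        by_cases hgx : g x = 0
        · unfold wcost
          rw [Zf_zero hgx]; simp
        have h3 : wcost N r g M Y j x ≤ ∑ m ∈ Finset.range N, 4 * (Cc / (N : ℝ) ^ 2 *
            (4 ^ m / r ^ 2)) * ((if r ^ 2 ≤ 4 ^ m * sl j x ^ 2 ∧ 4 ^ m * sl j x ^ 2 ≤ 2 * r ^ 2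
              then 1 else 0) * ⟪j.1, Y x⟫ ^ 2) := by
          unfold wcost
          calc 4 * (sl j x ^ 2 * deriv (cut N r) (sl j x ^ 2) ^ 2) * ⟪j.1, Zf g M Y x⟫ ^ 2
              ≤ 4 * (Cc / (N : ℝ) ^ 2 * ∑ m ∈ Finset.range N, 4 ^ m / r ^ 2 *
                (if r ^ 2 ≤ 4 ^ m * sl j x ^ 2 ∧ 4 ^ m * sl j x ^ 2 ≤ 2 * r ^ 2 then 1 else 0)) *
                ⟪j.1, Y x⟫ ^ 2 := by
                refine mul_le_mul (mul_le_mul_of_nonneg_left h2 (by norm_num))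
                  (inner_Zf_sq_le hg0 hg1 M Y j.1 x) (sq_nonneg _) ?_
                have : ∀ m ∈ Finset.range N, (0 : ℝ) ≤ 4 ^ m / r ^ 2 *
                    (if r ^ 2 ≤ 4 ^ m * sl j x ^ 2 ∧ 4 ^ m * sl j x ^ 2 ≤ 2 * r ^ 2
                      then 1 else 0) := fun m _ => by
                  split_ifs
                  · positivity
                  · simp
                have := Finset.sum_nonneg this
                positivity
            _ = _ := by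
                rw [Finset.mul_sum, Finset.mul_sum, Finset.sum_mul]
                exact Finset.sum_congr rfl fun m _ => by ring
        refine (ENNReal.ofReal_le_ofReal h3).trans ?_
        rw [ENNReal.ofReal_sum_of_nonneg fun m _ => by
          have : (0 : ℝ) ≤ (if r ^ 2 ≤ 4 ^ m * sl j x ^ 2 ∧ 4 ^ m * sl j x ^ 2 ≤ 2 * r ^ 2
            then 1 else 0) := by split_ifs <;> norm_num
          positivity]
        refine Finset.sum_le_sum fun m _ => ?_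
        by_cases h : r ^ 2 ≤ 4 ^ m * sl j x ^ 2 ∧ 4 ^ m * sl j x ^ 2 ≤ 2 * r ^ 2
        · have h' : x ∈ T m := ⟨hx, hgx, h⟩
          rw [if_pos h, one_mul, indicator_of_mem h', ENNReal.ofReal_mul (by positivity)]
        · rw [if_neg h]; simp
    _ = ∑ m ∈ Finset.range N, ENNReal.ofReal (4 * (Cc / (N : ℝ) ^ 2 * (4 ^ m / r ^ 2))) *
          ∫⁻ x in T m, ENNReal.ofReal (⟪j.1, Y x⟫ ^ 2) := by
        rw [lintegral_finsetSum' _ fun m _ => ?_]
        · refine Finset.sum_congr rfl fun m _ => ?_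
          rw [lintegral_const_mul' _ _ ENNReal.ofReal_ne_top, lintegral_indicator (hTm m),
            Measure.restrict_restrict (hTm m)]
          rw [inter_eq_left.2 (inter_subset_left : T m ⊆ poly J)]
        · have h5 : Continuous fun x => ⟪j.1, Y x⟫ ^ 2 := (continuous_const.inner hYc).pow 2
          exact (((ENNReal.measurable_ofReal.comp h5.measurable).indicator (hTm m)).const_mul
            _).aemeasurable
    _ ≤ ∑ m ∈ Finset.range N, ENNReal.ofReal (4 * Cc * CW * A / (N : ℝ) ^ 2) := by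
        refine Finset.sum_le_sum fun m hm => ?_
        refine (mul_le_mul' le_rfl (hTint m hm)).trans (le_of_eq ?_)
        rw [← ENNReal.ofReal_mul (by positivity), ← ENNReal.ofReal_mul (by positivity)]
        congr 1
        have e4 : (4 : ℝ) ^ m = (2 ^ m) ^ 2 := by
          rw [← pow_mul, mul_comm m 2, pow_mul]; norm_num
        rw [e4]
        field_simp
    _ = ENNReal.ofReal (4 * Cc * CW * A / N) := by
        rw [Finset.sum_const, Finset.card_range, nsmul_eq_mul, ← ENNReal.ofReal_natCast,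
          ← ENNReal.ofReal_mul (by positivity)]
        congr 1
        field_simp

theorem conv {K : Set E} (hK : IsCompact K) {f ω : E → ℝ} (hf : Continuous f)
    (hf0 : ∀ x, 0 ≤ f x) (hω : Continuous ω) {w c : ℝ} (hω1 : ∀ x ∈ K, ω x ≤ w) (hw : 0 ≤ w)
    (hc : 0 ≤ c) (h : ∫⁻ x in K, ENNReal.ofReal (f x) ≤ ENNReal.ofReal c) :
    ∫ x in K, f x * ω x ≤ w * c := by
  have h1 : ∫ x in K, f x ≤ c := by
    rw [integral_eq_lintegral_of_nonneg_ae (ae_of_all _ hf0) hf.aestronglyMeasurable]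
    exact ENNReal.toReal_le_of_le_ofReal hc h
  have i1 : IntegrableOn (fun x => f x * ω x) K := (hf.mul hω).continuousOn.integrableOn_compact hK
  have i2 : IntegrableOn (fun x => f x * w) K :=
    (hf.mul continuous_const).continuousOn.integrableOn_compact hK
  calc ∫ x in K, f x * ω x ≤ ∫ x in K, f x * w :=
        setIntegral_mono_on i1 i2 hK.measurableSet fun x hx =>
          mul_le_mul_of_nonneg_left (hω1 x hx) (hf0 x)
    _ = (∫ x in K, f x) * w := integral_mul_const _ _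
    _ ≤ c * w := mul_le_mul_of_nonneg_right h1 hw
    _ = w * c := mul_comm _ _

end field

end

end Crest.Agent.R144.Hsu498
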