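import Crest.Agent.R144.Hsu6_498

/-!
# R144 (S0197), block HSU (helper498), file 7: from soft to hard walls
-/

set_option autoImplicit false
set_option linter.unusedSectionVars false

open MeasureTheory Set Filter Topology
open scoped ENNReal NNReal RealInnerProductSpace

namespace Crest.Agent.R144.Hsu498

noncomputable section

section field

variable {E : Type*} [NormedAddCommGroup E] [InnerProductSpace ℝ E] [FiniteDimensional ℝ E]
  [MeasurableSpace E] [BorelSpace E] {ι : Type*} [Fintype ι]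

variable {J : Finset (E × ℝ)} {N : ℕ} {r : ℝ} {g : E → ℝ} {ρ : ℝ} {U : E → ℝ}

/-! ### weighted integrals on a compact set -/

/-- `∫_K f ω` -/
def TK (K : Set E) (ω f : E → ℝ) : ℝ := ∫ x in K, f x * ω x

variable {K : Set E} {ω : E → ℝ}

theorem TK_int (hK : IsCompact K) (hω : Continuous ω) {f : E → ℝ} (hf : Continuous f) :
    IntegrableOn (fun x => f x * ω x) K :=
  (hf.mul hω).continuousOn.integrableOn_compact hK

theorem TK_add (hK : IsCompact K) (hω : Continuous ω) {f h : E → ℝ} (hf : Continuous f)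
    (hh : Continuous h) : TK K ω (fun x => f x + h x) = TK K ω f + TK K ω h := by
  unfold TK
  rw [← integral_add (TK_int hK hω hf) (TK_int hK hω hh)]
  simp only [add_mul]

theorem TK_const_mul (c : ℝ) (f : E → ℝ) : TK K ω (fun x => c * f x) = c * TK K ω f := by
  unfold TK
  rw [← integral_const_mul]
  simp only [mul_assoc]

theorem TK_sum (hK : IsCompact K) (hω : Continuous ω) {α : Type*} (s : Finset α) {f : α → E → ℝ}
    (hf : ∀ i, Continuous (f i)) : TK K ω (fun x => ∑ i ∈ s, f i x) = ∑ i ∈ s, TK K ω (f i) := by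
  unfold TK
  rw [← integral_finsetSum _ fun i _ => TK_int hK hω (hf i)]
  simp only [Finset.sum_mul]

theorem TK_mono (hK : IsCompact K) (hω : Continuous ω) (hω0 : ∀ x, 0 ≤ ω x) {f h : E → ℝ}
    (hf : Continuous f) (hh : Continuous h) (hfh : ∀ x ∈ K, f x ≤ h x) :
    TK K ω f ≤ TK K ω h :=
  setIntegral_mono_on (TK_int hK hω hf) (TK_int hK hω hh) hK.measurableSet fun x hx =>
    mul_le_mul_of_nonneg_right (hfh x hx) (hω0 x)

theorem TK_nonneg (hK : IsCompact K) (hω0 : ∀ x, 0 ≤ ω x) {f : E → ℝ}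
    (hf : ∀ x ∈ K, 0 ≤ f x) : 0 ≤ TK K ω f :=
  setIntegral_nonneg hK.measurableSet fun x hx => mul_nonneg (hf x hx) (hω0 x)

theorem TK_lin (hK : IsCompact K) (hω : Continuous ω) (hω0 : ∀ x, 0 ≤ ω x)
    {f1 f2 f3 f4 f5 f6 f7 f8 f9 : E → ℝ} (h1 : Continuous f1) (h2 : Continuous f2)
    (h3 : Continuous f3) (h4 : Continuous f4) (h5 : Continuous f5) (h6 : Continuous f6)
    (h7 : Continuous f7) (h8 : Continuous f8) (h9 : Continuous f9) {a5 a6 a7 a4 a8 a9 : ℝ}
    (h : ∀ x ∈ K, 2 * f1 x + f2 x ≤ 2 * f3 x + f4 x +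
      (a5 * f5 x + a6 * f6 x + a7 * f7 x + a4 * f4 x + a8 * f8 x + a9 * f9 x)) :
    2 * TK K ω f1 + TK K ω f2 ≤ 2 * TK K ω f3 + TK K ω f4 +
      (a5 * TK K ω f5 + a6 * TK K ω f6 + a7 * TK K ω f7 + a4 * TK K ω f4 + a8 * TK K ω f8 +
        a9 * TK K ω f9) := by
  have key := TK_mono hK hω hω0 (by fun_prop) (by fun_prop) h
  rw [TK_add hK hω (f := fun x => 2 * f1 x) (by fun_prop) h2,
    TK_add hK hω (f := fun x => 2 * f3 x + f4 x) (h := fun x => a5 * f5 x + a6 * f6 x +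
      a7 * f7 x + a4 * f4 x + a8 * f8 x + a9 * f9 x) (by fun_prop) (by fun_prop),
    TK_add hK hω (f := fun x => 2 * f3 x) (by fun_prop) h4,
    TK_add hK hω (f := fun x => a5 * f5 x + a6 * f6 x + a7 * f7 x + a4 * f4 x + a8 * f8 x)
      (h := fun x => a9 * f9 x) (by fun_prop) (by fun_prop),
    TK_add hK hω (f := fun x => a5 * f5 x + a6 * f6 x + a7 * f7 x + a4 * f4 x)
      (h := fun x => a8 * f8 x) (by fun_prop) (by fun_prop),
    TK_add hK hω (f := fun x => a5 * f5 x + a6 * f6 x + a7 * f7 x)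
      (h := fun x => a4 * f4 x) (by fun_prop) (by fun_prop),
    TK_add hK hω (f := fun x => a5 * f5 x + a6 * f6 x)
      (h := fun x => a7 * f7 x) (by fun_prop) (by fun_prop),
    TK_add hK hω (f := fun x => a5 * f5 x)
      (h := fun x => a6 * f6 x) (by fun_prop) (by fun_prop)] at key
  simp only [TK_const_mul] at key
  exact key

/-! ### energies -/

theorem ed_le_ed_soft (b : OrthonormalBasis ι ℝ E) (hU : ContDiff ℝ 2 U) {k : ℝ} (hk : 0 ≤ k)
    (Y : E → E) (x : E) : ed b U Y x ≤ ed b (soft U J k) Y x := by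
  unfold ed
  rw [fderiv_soft2_apply hU]
  have : 0 ≤ ∑ j ∈ J, w2 (-(sl j x)) * (⟪j.1, Y x⟫ * ⟪j.1, Y x⟫) :=
    Finset.sum_nonneg fun _ _ => mul_nonneg (w2_nonneg _) (mul_self_nonneg _)
  have := mul_nonneg hk this
  linarith

theorem le_ed (b : OrthonormalBasis ι ℝ E) {lam : ℝ}
    (hUl : ∀ x y, lam * ‖y‖ ^ 2 ≤ fderiv ℝ (fderiv ℝ U) x y y) (Y : E → E) (x : E) :
    lam * ‖Y x‖ ^ 2 ≤ ed b U Y x := by
  unfold ed
  have := hs_nonneg b Y x
  linarith [hUl x (Y x)]

theorem cs_ed (b : OrthonormalBasis ι ℝ E) {H : E → ℝ} {Y : E → E} (hY : HasCompactSupport Y) :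
    HasCompactSupport (ed b H Y) := by
  refine HasCompactSupport.intro hY fun x hx => ?_
  unfold ed hs
  rw [image_eq_zero_of_notMem_tsupport hx, fderiv_of_notMem_tsupport ℝ hx]
  simp

theorem int_ed (b : OrthonormalBasis ι ℝ E) {H : E → ℝ} {Y : E → E} (hH : ContDiff ℝ 2 H)
    (hYs : ContDiff ℝ 1 Y) (hY : HasCompactSupport Y) {ω : E → ℝ} (hω : Continuous ω) :
    Integrable fun x => ed b H Y x * ω x :=
  ((continuous_ed b hH hYs).mul hω).integrable_of_hasCompactSupport (cs_ed b hY).mul_right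

theorem int_dG {G : E → ℝ} (hG : ContDiff ℝ 1 G) {Y : E → E} (hYc : Continuous Y)
    (hY : HasCompactSupport Y) {ω : E → ℝ} (hω : Continuous ω) :
    Integrable fun x => fderiv ℝ G x (Y x) * ω x := by
  refine ((((hG.continuous_fderiv (by norm_num)).clm_apply hYc).mul
    hω).integrable_of_hasCompactSupport ?_)
  refine HasCompactSupport.mul_right ?_
  refine HasCompactSupport.intro hY fun x hx => ?_
  rw [image_eq_zero_of_notMem_tsupport hx, map_zero]

/-- `2 ab ≤ ...` -/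
theorem two_mul_le {L y β lam : ℝ} (hβ : 0 < β) (hlam : 0 < lam) :
    2 * (L * y) ≤ β * (lam * y ^ 2) + L ^ 2 / (β * lam) := by
  have h : 0 ≤ (β * lam * y - L) ^ 2 / (β * lam) := by positivity
  have e : (β * lam * y - L) ^ 2 / (β * lam) =
      β * (lam * y ^ 2) + L ^ 2 / (β * lam) - 2 * (L * y) := by
    field_simp; ring
  linarith

/-- a priori bound for the energy -/
theorem energy_bound (b : OrthonormalBasis ι ℝ E) (hU : ContDiff ℝ 2 U) {lam : ℝ}
    (hlam : 0 < lam) (hUl : ∀ x y, lam * ‖y‖ ^ 2 ≤ fderiv ℝ (fderiv ℝ U) x y y) {k : ℝ}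
    (hk : 0 ≤ k) (hi : Integrable fun x => Real.exp (-(U x))) {G : E → ℝ} (hG : ContDiff ℝ 1 G)
    {L : ℝ} (hL : ∀ x z, |fderiv ℝ G x z| ≤ L * ‖z‖) {Y : E → E}
    (hYs : ContDiff ℝ ((⊤ : ℕ∞) : WithTop ℕ∞) Y) (hY : HasCompactSupport Y) {m ε : ℝ}
    (hF : ∫ x, (G x - m) ^ 2 * Real.exp (-(soft U J k x)) ≤
      2 * (∫ x, fderiv ℝ G x (Y x) * Real.exp (-(soft U J k x))) -
      (∫ x, ed b (soft U J k) Y x * Real.exp (-(soft U J k x))) + ε) :
    ∫ x, ed b (soft U J k) Y x * Real.exp (-(soft U J k x)) ≤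
      4 * L ^ 2 / lam * (∫ x, Real.exp (-(U x))) + 2 * ε := by
  have hS : ContDiff ℝ 2 (soft U J k) := contDiff_soft hU
  have hω : Continuous fun x => Real.exp (-(soft U J k x)) :=
    Real.continuous_exp.comp hS.continuous.neg
  have hY1 : ContDiff ℝ 1 Y := hYs.of_le (by norm_cast)
  have i1 := int_ed b hS hY1 hY hω
  have i2 := int_dG hG hY1.continuous hY hω
  have i3 : Integrable fun x => Real.exp (-(soft U J k x)) := by
    refine hi.mono' hω.aestronglyMeasurable (ae_of_all _ fun x => ?_)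
    rw [Real.norm_of_nonneg (Real.exp_pos _).le]
    exact Real.exp_le_exp.2 (neg_le_neg (le_soft hk x))
  have h0 : 0 ≤ ∫ x, (G x - m) ^ 2 * Real.exp (-(soft U J k x)) :=
    integral_nonneg fun x => mul_nonneg (sq_nonneg _) (Real.exp_pos _).le
  have h1 : 2 * (∫ x, fderiv ℝ G x (Y x) * Real.exp (-(soft U J k x))) ≤
      1 / 2 * (∫ x, ed b (soft U J k) Y x * Real.exp (-(soft U J k x))) +
      2 * L ^ 2 / lam * ∫ x, Real.exp (-(soft U J k x)) := by
    rw [← integral_const_mul, ← integral_const_mul, ← integral_const_mul,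
      ← integral_add (i1.const_mul _) (i3.const_mul _)]
    refine integral_mono (i2.const_mul _) ((i1.const_mul _).add (i3.const_mul _)) fun x => ?_
    show 2 * (fderiv ℝ G x (Y x) * Real.exp (-(soft U J k x))) ≤
      1 / 2 * (ed b (soft U J k) Y x * Real.exp (-(soft U J k x))) +
        2 * L ^ 2 / lam * Real.exp (-(soft U J k x))
    have e := Real.exp_pos (-(soft U J k x))
    have h2 := (le_abs_self _).trans (hL x (Y x))
    have h3 := two_mul_le (L := L) (y := ‖Y x‖) (β := 1 / 2) (by norm_num) hlam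
    have h4 := (le_ed b hUl Y x).trans (ed_le_ed_soft (J := J) b hU hk Y x)
    have h5 : L ^ 2 / (1 / 2 * lam) = 2 * L ^ 2 / lam := by field_simp
    rw [h5] at h3
    have h6 : 2 * fderiv ℝ G x (Y x) ≤ 1 / 2 * ed b (soft U J k) Y x + 2 * L ^ 2 / lam := by
      linarith
    have h7 := mul_le_mul_of_nonneg_right h6 e.le
    linarith
  have h2 : ∫ x, Real.exp (-(soft U J k x)) ≤ ∫ x, Real.exp (-(U x)) :=
    integral_mono i3 hi fun x => Real.exp_le_exp.2 (neg_le_neg (le_soft hk x))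
  have h3 := mul_le_mul_of_nonneg_left h2 (by positivity : 0 ≤ 2 * L ^ 2 / lam)
  have e : 4 * L ^ 2 / lam * (∫ x, Real.exp (-(U x))) =
      2 * (2 * L ^ 2 / lam * ∫ x, Real.exp (-(U x))) := by ring
  rw [e]
  linarith

/-- from the whole space to the polytope -/
theorem hard_ineq (b : OrthonormalBasis ι ℝ E) (hU : ContDiff ℝ 2 U) {lam : ℝ}
    (hlam : 0 < lam) (hUl : ∀ x y, lam * ‖y‖ ^ 2 ≤ fderiv ℝ (fderiv ℝ U) x y y) {k : ℝ}
    (hk : 0 ≤ k) (hi : Integrable fun x => Real.exp (-(U x))) (hb : IsCompact (poly J))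
    {G : E → ℝ} (hG : ContDiff ℝ 1 G)
    {L : ℝ} (hL : ∀ x z, |fderiv ℝ G x z| ≤ L * ‖z‖) {Y : E → E}
    (hYs : ContDiff ℝ ((⊤ : ℕ∞) : WithTop ℕ∞) Y) (hY : HasCompactSupport Y) {m ε β : ℝ}
    (hβ : 0 < β) (hGi : Integrable fun x => (G x - m) ^ 2 * Real.exp (-(soft U J k x)))
    (hF : ∫ x, (G x - m) ^ 2 * Real.exp (-(soft U J k x)) ≤
      2 * (∫ x, fderiv ℝ G x (Y x) * Real.exp (-(soft U J k x))) -
      (∫ x, ed b (soft U J k) Y x * Real.exp (-(soft U J k x))) + ε) :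
    (TK (poly J) (fun x => Real.exp (-(U x))) (fun x => (G x - m) ^ 2) ≤
      2 * TK (poly J) (fun x => Real.exp (-(U x))) (fun x => fderiv ℝ G x (Y x)) -
      TK (poly J) (fun x => Real.exp (-(U x))) (ed b U Y) + ε +
      β * (∫ x, ed b (soft U J k) Y x * Real.exp (-(soft U J k x))) +
      L ^ 2 / (β * lam) * ∫ x in (poly J)ᶜ, Real.exp (-(soft U J k x))) ∧
    TK (poly J) (fun x => Real.exp (-(U x))) (ed b U Y) ≤
      ∫ x, ed b (soft U J k) Y x * Real.exp (-(soft U J k x)) := by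
  have hS : ContDiff ℝ 2 (soft U J k) := contDiff_soft hU
  have hω : Continuous fun x => Real.exp (-(soft U J k x)) :=
    Real.continuous_exp.comp hS.continuous.neg
  have hωU : Continuous fun x => Real.exp (-(U x)) :=
    Real.continuous_exp.comp hU.continuous.neg
  have hY1 : ContDiff ℝ 1 Y := hYs.of_le (by norm_cast)
  have i1 := int_ed b hS hY1 hY hω
  have i2 := int_dG hG hY1.continuous hY hω
  have i3 : Integrable fun x => Real.exp (-(soft U J k x)) := by
    refine hi.mono' hω.aestronglyMeasurable (ae_of_all _ fun x => ?_)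
    rw [Real.norm_of_nonneg (Real.exp_pos _).le]
    exact Real.exp_le_exp.2 (neg_le_neg (le_soft hk x))
  have hm : MeasurableSet (poly J) := isClosed_poly.measurableSet
  -- on the polytope the two weights agree
  have hagree : ∀ f : E → ℝ, TK (poly J) (fun x => Real.exp (-(U x))) f =
      ∫ x in poly J, f x * Real.exp (-(soft U J k x)) := fun f =>
    setIntegral_congr_fun hm fun x hx => by
      show f x * Real.exp (-(U x)) = f x * Real.exp (-(soft U J k x))
      rw [soft_eq hx]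
  have he0 : ∀ x, 0 ≤ ed b (soft U J k) Y x := fun x =>
    le_trans (by positivity) ((le_ed b hUl Y x).trans (ed_le_ed_soft (J := J) b hU hk Y x))
  have hP : TK (poly J) (fun x => Real.exp (-(U x))) (ed b U Y) ≤
      ∫ x, ed b (soft U J k) Y x * Real.exp (-(soft U J k x)) := by
    rw [hagree]
    refine le_trans (setIntegral_mono_on ?_ i1.integrableOn hm fun x _ =>
      mul_le_mul_of_nonneg_right (ed_le_ed_soft b hU hk Y x) (Real.exp_pos _).le)
      (setIntegral_le_integral i1 (ae_of_all _ fun x =>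
        mul_nonneg (he0 x) (Real.exp_pos _).le))
    exact (int_ed b hU hY1 hY hω).integrableOn
  refine ⟨?_, hP⟩
  have h1 : TK (poly J) (fun x => Real.exp (-(U x))) (fun x => (G x - m) ^ 2) ≤
      ∫ x, (G x - m) ^ 2 * Real.exp (-(soft U J k x)) := by
    rw [hagree]
    exact setIntegral_le_integral hGi (ae_of_all _ fun x =>
      mul_nonneg (sq_nonneg _) (Real.exp_pos _).le)
  have h2 : ∫ x, fderiv ℝ G x (Y x) * Real.exp (-(soft U J k x)) =
      TK (poly J) (fun x => Real.exp (-(U x))) (fun x => fderiv ℝ G x (Y x)) +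
      ∫ x in (poly J)ᶜ, fderiv ℝ G x (Y x) * Real.exp (-(soft U J k x)) := by
    rw [hagree, integral_add_compl hm i2]
  have h3 : 2 * (∫ x in (poly J)ᶜ, fderiv ℝ G x (Y x) * Real.exp (-(soft U J k x))) ≤
      β * (∫ x in (poly J)ᶜ, ed b (soft U J k) Y x * Real.exp (-(soft U J k x))) +
      L ^ 2 / (β * lam) * ∫ x in (poly J)ᶜ, Real.exp (-(soft U J k x)) := by
    rw [← integral_const_mul, ← integral_const_mul, ← integral_const_mul,
      ← integral_add (i1.integrableOn.const_mul _) (i3.integrableOn.const_mul _)]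
    refine integral_mono (i2.integrableOn.const_mul _)
      ((i1.integrableOn.const_mul _).add (i3.integrableOn.const_mul _)) fun x => ?_
    show 2 * (fderiv ℝ G x (Y x) * Real.exp (-(soft U J k x))) ≤
      β * (ed b (soft U J k) Y x * Real.exp (-(soft U J k x))) +
        L ^ 2 / (β * lam) * Real.exp (-(soft U J k x))
    have e := Real.exp_pos (-(soft U J k x))
    have h2 := (le_abs_self _).trans (hL x (Y x))
    have h3 := two_mul_le (L := L) (y := ‖Y x‖) hβ hlam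
    have h4 := mul_le_mul_of_nonneg_left
      ((le_ed b hUl Y x).trans (ed_le_ed_soft (J := J) b hU hk Y x)) hβ.le
    have h6 : 2 * fderiv ℝ G x (Y x) ≤ β * ed b (soft U J k) Y x + L ^ 2 / (β * lam) := by
      linarith
    have h7 := mul_le_mul_of_nonneg_right h6 e.le
    linarith
  have h4 : ∫ x in (poly J)ᶜ, ed b (soft U J k) Y x * Real.exp (-(soft U J k x)) ≤
      ∫ x, ed b (soft U J k) Y x * Real.exp (-(soft U J k x)) :=
    setIntegral_le_integral i1 (ae_of_all _ fun x => mul_nonneg (he0 x) (Real.exp_pos _).le)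
  have h5 := mul_le_mul_of_nonneg_left h4 hβ.le
  rw [h2] at hF
  linarith

/-- from the given field to the rigid field on the polytope -/
theorem modify (b : OrthonormalBasis ι ℝ E) (hU : ContDiff ℝ 2 U) (hb : IsCompact (poly J))
    (hJ : ∀ j ∈ J, ‖j.1‖ = 1)
    {C : ℝ} (hC0 : 0 ≤ C) (hC : ∀ x y z, |fderiv ℝ (fderiv ℝ U) x y z| ≤ C * ‖y‖ * ‖z‖)
    (hU0 : ∀ x y, 0 ≤ fderiv ℝ (fderiv ℝ U) x y y)
    {G : E → ℝ} (hG : ContDiff ℝ 1 G) {L : ℝ} (hL0 : 0 ≤ L)
    (hL : ∀ x z, |fderiv ℝ G x z| ≤ L * ‖z‖) {Y : E → E}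
    (hYs : ContDiff ℝ ((⊤ : ℕ∞) : WithTop ℕ∞) Y)
    (hgs : ContDiff ℝ ((⊤ : ℕ∞) : WithTop ℕ∞) g) (hg0 : ∀ x, 0 ≤ g x) (hg1 : ∀ x, g x ≤ 1)
    (hK : Kills J g ρ) (hr : 0 < r) (hrρ : 2 * r ≤ ρ) {M : ℝ} (hM : 0 < M) {κ : ℝ} (hκ : 0 < κ)
    {ω : E → ℝ} (hω : Continuous ω) (hω0 : ∀ x, 0 ≤ ω x) :
    2 * TK (poly J) ω (fun x => fderiv ℝ G x (Y x)) - TK (poly J) ω (ed b U Y) ≤
      2 * TK (poly J) ω (fun x => fderiv ℝ G x (Wf J N r (Zf g M Y) x)) -
      TK (poly J) ω (ed b U (Wf J N r (Zf g M Y))) +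
      (2 * L / M * TK (poly J) ω (fun x => ‖Y x‖ ^ 2) +
        2 * L * M * TK (poly J) ω (fun x => 1 - g x) +
        (2 * L * M + 2 * C * M ^ 2) * ∑ j ∈ J, TK (poly J) ω (wc N r j) +
        κ * TK (poly J) ω (ed b U Y) +
        (1 + 1 / κ) * Fintype.card ι * (2 * M ^ 2) *
          TK (poly J) ω (fun x => ‖fderiv ℝ g x‖ ^ 2) +
        (1 + 1 / κ) * Fintype.card ι * (2 * J.card) *
          ∑ j ∈ J, TK (poly J) ω (wcost N r g M Y j)) := by
  have hY1 : ContDiff ℝ 1 Y := hYs.of_le (by norm_cast)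
  have hWs : ContDiff ℝ ((⊤ : ℕ∞) : WithTop ℕ∞) (Wf J N r (Zf g M Y)) :=
    contDiff_Wf (contDiff_Zf hgs hYs)
  have hW1 : ContDiff ℝ 1 (Wf J N r (Zf g M Y)) := hWs.of_le (by norm_cast)
  have c1 : Continuous fun x => fderiv ℝ G x (Y x) :=
    (hG.continuous_fderiv (by norm_num)).clm_apply hY1.continuous
  have c2 : Continuous fun x => fderiv ℝ G x (Wf J N r (Zf g M Y) x) :=
    (hG.continuous_fderiv (by norm_num)).clm_apply hW1.continuous
  have c3 := continuous_ed b hU hY1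
  have c4 := continuous_ed b hU hW1
  have c5 : Continuous fun x => ‖Y x‖ ^ 2 := hY1.continuous.norm.pow 2
  have c6 : Continuous fun x => 1 - g x := continuous_const.sub hgs.continuous
  have c7 : ∀ j, Continuous (wc N r j : E → ℝ) := fun j => (contDiff_wc j).continuous
  have c8 : Continuous fun x => ‖fderiv ℝ g x‖ ^ 2 :=
    (hgs.continuous_fderiv (by simp)).norm.pow 2
  have c9 : ∀ j, Continuous (wcost N r g M Y j) := fun j => continuous_wcost hgs hYs j
  have c10 : Continuous fun x => ∑ j ∈ J, wc N r j x := continuous_finsetSum _ fun j _ => c7 j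
  have c11 : Continuous fun x => ∑ j ∈ J, wcost N r g M Y j x :=
    continuous_finsetSum _ fun j _ => c9 j
  -- pointwise
  have hpt : ∀ x ∈ poly J, 2 * fderiv ℝ G x (Y x) + ed b U (Wf J N r (Zf g M Y)) x ≤
      2 * fderiv ℝ G x (Wf J N r (Zf g M Y) x) + ed b U Y x +
      (2 * L / M * ‖Y x‖ ^ 2 + 2 * L * M * (1 - g x) +
        (2 * L * M + 2 * C * M ^ 2) * ∑ j ∈ J, wc N r j x +
        κ * ed b U Y x +
        (1 + 1 / κ) * Fintype.card ι * (2 * M ^ 2) * ‖fderiv ℝ g x‖ ^ 2 +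
        (1 + 1 / κ) * Fintype.card ι * (2 * J.card) * ∑ j ∈ J, wcost N r g M Y j x) := by
    intro x hx
    have h1 := hs_Wf_le b hJ hgs hg0 hg1 hK hr hrρ hM hYs hx hκ (N := N)
    have h2 := hess_Wf_le (N := N) (Y := Y) hJ hg0 hg1 hK hr hrρ hM hC0 hC hU0 hx
    have h3 : fderiv ℝ G x (Y x) - fderiv ℝ G x (Wf J N r (Zf g M Y) x) ≤
        L * (‖Y x‖ ^ 2 / M + M * (1 - g x) + M * ∑ j ∈ J, wc N r j x) := by
      rw [← map_sub]
      exact (le_abs_self _).trans ((hL x _).trans (mul_le_mul_of_nonneg_left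
        (norm_sub_Wf hJ hg0 hg1 hM Y x) hL0))
    have h4 : ed b U (Wf J N r (Zf g M Y)) x ≤ (1 + κ) * ed b U Y x + ((1 + 1 / κ) *
        Fintype.card ι * (2 * M ^ 2 * ‖fderiv ℝ g x‖ ^ 2 +
          2 * J.card * ∑ j ∈ J, wcost N r g M Y j x) +
        2 * C * M ^ 2 * ∑ j ∈ J, wc N r j x) := by
      unfold ed
      have h5 := mul_nonneg hκ.le (hU0 x (Y x))
      linarith
    have e1 : L * (‖Y x‖ ^ 2 / M + M * (1 - g x) + M * ∑ j ∈ J, wc N r j x) =
        (2 * L / M * ‖Y x‖ ^ 2 + 2 * L * M * (1 - g x) + 2 * L * M * ∑ j ∈ J, wc N r j x) / 2 := by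
      field_simp
    rw [e1] at h3
    have e2 : (1 + 1 / κ) * Fintype.card ι * (2 * M ^ 2 * ‖fderiv ℝ g x‖ ^ 2 +
        2 * J.card * ∑ j ∈ J, wcost N r g M Y j x) =
        (1 + 1 / κ) * Fintype.card ι * (2 * M ^ 2) * ‖fderiv ℝ g x‖ ^ 2 +
        (1 + 1 / κ) * Fintype.card ι * (2 * J.card) * ∑ j ∈ J, wcost N r g M Y j x := by ring
    rw [e2] at h4
    linarith
  have key := TK_lin hb hω hω0 c1 c4 c2 c3 c5 c6 c10 c8 c11 hpt
  rw [TK_sum hb hω J c7, TK_sum hb hω J c9] at key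
  linarith

end field

end

end Crest.Agent.R144.Hsu498
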