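import Crest.Agent.R144.Hsu7_498

/-!
# R144 (S0197), block HSU (helper498), file 8: the hard wall upper bound with a strictly convex
potential
-/

set_option autoImplicit false
set_option linter.unusedSectionVars false

open MeasureTheory Set Filter Topology
open scoped ENNReal NNReal RealInnerProductSpace

namespace Crest.Agent.R144.Hsu498

noncomputable section

section field

variable {E : Type*} [NormedAddCommGroup E] [InnerProductSpace ℝ E] [FiniteDimensional ℝ E]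
  [MeasurableSpace E] [BorelSpace E] {ι : Type*} [Fintype ι]

/-- the upper bound on the whole space (865's FI3) -/
def Fi3 (b : OrthonormalBasis ι ℝ E) : Prop :=
  ∀ (H G : E → ℝ) (C ε : ℝ), ContDiff ℝ 2 H →
    (∀ x y z, |fderiv ℝ (fderiv ℝ H) x y z| ≤ C * ‖y‖ * ‖z‖) →
    (Integrable fun x => Real.exp (-(H x))) → ContDiff ℝ 1 G →
    (Integrable fun x => G x ^ 2 * Real.exp (-(H x))) → 0 < ε →
    ∃ (Y : E → E) (m : ℝ), ContDiff ℝ ((⊤ : ℕ∞) : WithTop ℕ∞) Y ∧ HasCompactSupport Y ∧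
      ∫ x, (G x - m) ^ 2 * Real.exp (-(H x)) ≤
        2 * (∫ x, fderiv ℝ G x (Y x) * Real.exp (-(H x))) -
        (∫ x, ed b H Y x * Real.exp (-(H x))) + ε

variable {J : Finset (E × ℝ)} {U : E → ℝ}

theorem tendsto_compl (hU : ContDiff ℝ 2 U) (hi : Integrable fun x => Real.exp (-(U x))) :
    Tendsto (fun n : ℕ => ∫ x in (poly J)ᶜ,
      Real.exp (-(soft U J (1 / (1 / ((n : ℝ) + 1)) ^ 3) x))) atTop (𝓝 0) := by
  have hm : MeasurableSet (poly J) := isClosed_poly.measurableSet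
  have h0 : (0 : ℝ) = ∫ x in (poly J)ᶜ, (0 : ℝ) := by simp
  rw [h0]
  refine tendsto_integral_of_dominated_convergence (fun x => Real.exp (-(U x))) (fun n => ?_)
    hi.integrableOn (fun n => ?_) ?_
  · exact (Real.continuous_exp.comp (contDiff_soft hU).continuous.neg).aestronglyMeasurable
  · refine ae_of_all _ fun x => ?_
    rw [Real.norm_of_nonneg (Real.exp_pos _).le]
    exact Real.exp_le_exp.2 (neg_le_neg (le_soft (by positivity) x))
  · filter_upwards [ae_restrict_mem hm.compl] with x hx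
    have hx' : ∃ j ∈ J, sl j x < 0 := by
      by_contra hcon
      push Not at hcon
      exact hx hcon
    obtain ⟨j, hj, hjx⟩ := hx'
    have hp : 0 < ∑ j ∈ J, w0 (-(sl j x)) :=
      Finset.sum_pos' (fun i _ => w0_nonneg _) ⟨j, hj, w0_pos (by linarith)⟩
    have h1 : Tendsto (fun n : ℕ => U x + 1 / (1 / ((n : ℝ) + 1)) ^ 3 *
        ∑ j ∈ J, w0 (-(sl j x))) atTop atTop := by
      refine tendsto_atTop_add_const_left _ _ (Tendsto.atTop_mul_const hp ?_)
      have e : (fun n : ℕ => 1 / (1 / ((n : ℝ) + 1)) ^ 3) = fun n : ℕ => ((n : ℝ) + 1) ^ 3 := by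
        ext n; field_simp
      rw [e]
      exact (tendsto_pow_atTop (by norm_num)).comp
        (tendsto_atTop_add_const_right _ _ tendsto_natCast_atTop_atTop)
    exact Real.tendsto_exp_neg_atTop_nhds_zero.comp h1

/-- linear growth of a function with bounded derivative -/
theorem growth {G : E → ℝ} (hG : ContDiff ℝ 1 G) {L : ℝ} (hL0 : 0 ≤ L)
    (hL : ∀ x z, |fderiv ℝ G x z| ≤ L * ‖z‖) (x : E) : |G x - G 0| ≤ L * ‖x‖ := by
  have h1 : ∀ x ∈ (univ : Set E), ‖fderiv ℝ G x‖ ≤ L := fun x _ =>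
    ContinuousLinearMap.opNorm_le_bound _ hL0 fun z => hL x z
  have := Convex.norm_image_sub_le_of_norm_fderiv_le (𝕜 := ℝ) (f := G) (s := univ)
    (fun z _ => hG.differentiable (by norm_num) z) h1 convex_univ (mem_univ 0) (mem_univ x)
  simpa using this

theorem int_sq {G : E → ℝ} (hG : ContDiff ℝ 1 G) {L : ℝ} (hL0 : 0 ≤ L)
    (hL : ∀ x z, |fderiv ℝ G x z| ≤ L * ‖z‖) (hU : ContDiff ℝ 2 U)
    (hi : Integrable fun x => Real.exp (-(U x)))
    (hi2 : Integrable fun x => ‖x‖ ^ 2 * Real.exp (-(U x))) {k : ℝ} (hk : 0 ≤ k) (m : ℝ) :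
    Integrable fun x => (G x - m) ^ 2 * Real.exp (-(soft U J k x)) := by
  refine Integrable.mono' (g := fun x => 2 * (G 0 - m) ^ 2 * Real.exp (-(U x)) +
    2 * L ^ 2 * (‖x‖ ^ 2 * Real.exp (-(U x)))) ((hi.const_mul _).add (hi2.const_mul _)) ?_ ?_
  · exact (((hG.continuous.sub continuous_const).pow 2).mul
      (Real.continuous_exp.comp (contDiff_soft hU).continuous.neg)).aestronglyMeasurable
  · refine ae_of_all _ fun x => ?_
    rw [Real.norm_of_nonneg (mul_nonneg (sq_nonneg _) (Real.exp_pos _).le)]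
    have h1 := growth hG hL0 hL x
    have h2 : (G x - m) ^ 2 ≤ 2 * (G 0 - m) ^ 2 + 2 * (L * ‖x‖) ^ 2 := by
      have h3 : (G x - G 0) ^ 2 ≤ (L * ‖x‖) ^ 2 := by
        rw [← sq_abs]; exact pow_le_pow_left₀ (abs_nonneg _) h1 2
      nlinarith [sq_nonneg ((G x - G 0) - (G 0 - m))]
    have h3 : Real.exp (-(soft U J k x)) ≤ Real.exp (-(U x)) :=
      Real.exp_le_exp.2 (neg_le_neg (le_soft hk x))
    calc (G x - m) ^ 2 * Real.exp (-(soft U J k x))
        ≤ (2 * (G 0 - m) ^ 2 + 2 * (L * ‖x‖) ^ 2) * Real.exp (-(U x)) :=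
          mul_le_mul h2 h3 (Real.exp_pos _).le (by positivity)
      _ = _ := by ring

theorem vol_slabs (hJ : ∀ j ∈ J, ‖j.1‖ = 1) (hb : Bornology.IsBounded (poly J)) :
    ∃ c : ℝ, 0 ≤ c ∧ ∀ j ∈ J, ∀ t : ℝ, 0 < t →
      volume (poly J ∩ {x | sl j x ≤ t}) ≤ ENNReal.ofReal (c * t) := by
  have h : ∀ j ∈ J, ∃ C : ℝ≥0∞, C ≠ ∞ ∧ ∀ t : ℝ, 0 < t →
      volume (poly J ∩ {x | 0 ≤ sl j x ∧ sl j x ≤ t}) ≤ C * ENNReal.ofReal t := fun j hj =>
    vol_slab hb isClosed_poly.measurableSet (hJ j hj)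
  choose! C hC1 hC2 using h
  refine ⟨∑ j ∈ J, (C j).toReal, Finset.sum_nonneg fun _ _ => ENNReal.toReal_nonneg, ?_⟩
  intro j hj t ht
  have h1 : (C j).toReal ≤ ∑ j ∈ J, (C j).toReal :=
    Finset.single_le_sum (f := fun j => (C j).toReal) (fun _ _ => ENNReal.toReal_nonneg) hj
  calc volume (poly J ∩ {x | sl j x ≤ t})
      ≤ volume (poly J ∩ {x | 0 ≤ sl j x ∧ sl j x ≤ t}) :=
        measure_mono fun x hx => ⟨hx.1, hx.1 j hj, hx.2⟩
    _ ≤ C j * ENNReal.ofReal t := hC2 j hj t ht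
    _ = ENNReal.ofReal ((C j).toReal * t) := by
        rw [ENNReal.ofReal_mul ENNReal.toReal_nonneg, ENNReal.ofReal_toReal (hC1 j hj)]
    _ ≤ _ := ENNReal.ofReal_le_ofReal (mul_le_mul_of_nonneg_right h1 ht.le)

theorem lint_wc {N : ℕ} {r c : ℝ} (hr : 0 < r) {j : E × ℝ}
    (h : volume (poly J ∩ {x | sl j x ≤ 2 * r}) ≤ ENNReal.ofReal (c * (2 * r))) :
    ∫⁻ x in poly J, ENNReal.ofReal (wc N r j x) ≤ ENNReal.ofReal (c * (2 * r)) := by
  have hms : MeasurableSet {x : E | sl j x ≤ 2 * r} :=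
    measurableSet_le (continuous_sl j).measurable measurable_const
  calc ∫⁻ x in poly J, ENNReal.ofReal (wc N r j x)
      ≤ ∫⁻ x in poly J, ({x : E | sl j x ≤ 2 * r}).indicator 1 x := by
        refine lintegral_mono fun x => ?_
        by_cases hx : x ∈ {x : E | sl j x ≤ 2 * r}
        · rw [indicator_of_mem hx, Pi.one_apply, ← ENNReal.ofReal_one]
          exact ENNReal.ofReal_le_ofReal (wc_le_one j x)
        · have : wc N r j x = 0 := by
            by_contra hcon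
            exact hx (wc_ne_zero hr hcon)
          rw [this]; simp
    _ = volume (poly J ∩ {x | sl j x ≤ 2 * r}) := by
        rw [lintegral_indicator_one hms, Measure.restrict_apply hms, inter_comm]
    _ ≤ _ := h

set_option maxHeartbeats 1600000 in
/-- **hard wall upper bound**, strictly convex potential -/
theorem thmA (b : OrthonormalBasis ι ℝ E) (hF : Fi3 b) (hJ : ∀ j ∈ J, ‖j.1‖ = 1)
    (hb : Bornology.IsBounded (poly J)) (hv : volume (poly J) ≠ 0) (hU : ContDiff ℝ 2 U)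
    {C : ℝ} (hC0 : 0 ≤ C) (hC : ∀ x y z, |fderiv ℝ (fderiv ℝ U) x y z| ≤ C * ‖y‖ * ‖z‖)
    {lam : ℝ} (hlam : 0 < lam) (hUl : ∀ x y, lam * ‖y‖ ^ 2 ≤ fderiv ℝ (fderiv ℝ U) x y y)
    (hi : Integrable fun x => Real.exp (-(U x)))
    (hi2 : Integrable fun x => ‖x‖ ^ 2 * Real.exp (-(U x)))
    {G : E → ℝ} (hG : ContDiff ℝ 1 G) {L : ℝ} (hL0 : 0 ≤ L)
    (hL : ∀ x z, |fderiv ℝ G x z| ≤ L * ‖z‖) {ε : ℝ} (hε : 0 < ε) :
    ∃ (W : E → E) (ρ m : ℝ), ContDiff ℝ ((⊤ : ℕ∞) : WithTop ℕ∞) W ∧ HasCompactSupport W ∧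
      0 < ρ ∧ (∀ x ∈ poly J, ∀ j ∈ J, sl j x ≤ ρ → ⟪j.1, W x⟫ = 0) ∧
      TK (poly J) (fun x => Real.exp (-(U x))) (fun x => (G x - m) ^ 2) ≤
        2 * TK (poly J) (fun x => Real.exp (-(U x))) (fun x => fderiv ℝ G x (W x)) -
        TK (poly J) (fun x => Real.exp (-(U x))) (ed b U W) + ε := by
  have hU0 : ∀ x y, 0 ≤ fderiv ℝ (fderiv ℝ U) x y y := fun x y =>
    le_trans (by positivity) (hUl x y)
  have hK : IsCompact (poly J) := Metric.isCompact_of_isClosed_isBounded isClosed_poly hb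
  set ω : E → ℝ := fun x => Real.exp (-(U x)) with hωdef
  have hω : Continuous ω := Real.continuous_exp.comp hU.continuous.neg
  have hω0 : ∀ x, 0 ≤ ω x := fun x => (Real.exp_pos _).le
  obtain ⟨w', hw'⟩ := hK.exists_bound_of_continuousOn hω.continuousOn
  obtain ⟨w, hw0, hw⟩ : ∃ w : ℝ, 0 ≤ w ∧ ∀ x ∈ poly J, ω x ≤ w :=
    ⟨max w' 0, le_max_right _ _, fun x hx => by
      have := hw' x hx
      rw [Real.norm_of_nonneg (hω0 x)] at this
      exact this.trans (le_max_left _ _)⟩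
  obtain ⟨Cc, hCc0, hCc⟩ := cut_deriv
  obtain ⟨CW, hCW0, hCW⟩ := wall b hU hU0 hJ hb
  obtain ⟨c, hc0, hc⟩ := vol_slabs hJ hb
  set Z : ℝ := ∫ x, Real.exp (-(U x)) with hZ
  have hZ0 : 0 ≤ Z := integral_nonneg fun x => (Real.exp_pos _).le
  obtain ⟨A, hA⟩ : ∃ A : ℝ, A = 4 * L ^ 2 / lam * Z + 2 := ⟨_, rfl⟩
  have hA0 : 0 < A := by rw [hA]; positivity
  obtain ⟨κ, hκ⟩ : ∃ κ : ℝ, κ = ε / (10 * A) := ⟨_, rfl⟩
  have hκ0 : 0 < κ := by rw [hκ]; positivity
  have hκA : κ * A = ε / 10 := by rw [hκ]; field_simp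
  obtain ⟨M, hM⟩ : ∃ M : ℝ, M = 20 * L * A / (lam * ε) + 1 := ⟨_, rfl⟩
  have hM0 : 0 < M := by rw [hM]; positivity
  have hMb : 2 * L / M * (A / lam) ≤ ε / 10 := by
    have h1 : 20 * L * A / (lam * ε) ≤ M := by rw [hM]; linarith
    rw [div_le_iff₀ (by positivity)] at h1
    rw [div_mul_div_comm, div_le_iff₀ (by positivity)]
    linarith
  obtain ⟨nn, hnn⟩ : ∃ nn : ℝ, nn = Fintype.card ι := ⟨_, rfl⟩
  have hnn0 : 0 ≤ nn := by rw [hnn]; positivity
  obtain ⟨jj, hjj⟩ : ∃ jj : ℝ, jj = J.card := ⟨_, rfl⟩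
  have hjj0 : 0 ≤ jj := by rw [hjj]; positivity
  -- the multiplier
  obtain ⟨D1, hD1⟩ : ∃ D : ℝ, D = 2 * L * M * w + (1 + 1 / κ) * nn * (2 * M ^ 2) * w := ⟨_, rfl⟩
  have hD10 : 0 ≤ D1 := by rw [hD1]; positivity
  obtain ⟨η, hη⟩ : ∃ η : ℝ, η = ε / (10 * (D1 + 1)) := ⟨_, rfl⟩
  have hη0 : 0 < η := by rw [hη]; positivity
  have hD1η : D1 * η ≤ ε / 10 := by
    rw [hη, ← mul_div_assoc, div_le_div_iff₀ (by positivity) (by norm_num)]
    nlinarith
  obtain ⟨g, ρ, hgs, hg0, hg1, hρ, hkill, hgE, hgM⟩ := exists_mlt hJ hb hv hη0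
  -- number of scales
  obtain ⟨D2, hD2⟩ : ∃ D : ℝ, D = (1 + 1 / κ) * nn * (2 * jj) * (jj * (w * (4 * Cc * CW * A))) :=
    ⟨_, rfl⟩
  have hD20 : 0 ≤ D2 := by rw [hD2]; positivity
  obtain ⟨N, hN⟩ := exists_nat_gt (10 * D2 / ε)
  have hN0 : 0 < N := by
    have : (0 : ℝ) < N := lt_of_le_of_lt (by positivity) hN
    exact_mod_cast this
  have hNr : (0 : ℝ) < N := by exact_mod_cast hN0
  have hD2N : D2 / N ≤ ε / 10 := by
    rw [div_lt_iff₀ hε] at hN
    rw [div_le_div_iff₀ hNr (by norm_num)]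
    linarith
  -- width of the walls
  obtain ⟨D3, hD3⟩ : ∃ D : ℝ, D = (2 * L * M + 2 * C * M ^ 2) * (jj * (w * (c * 2))) := ⟨_, rfl⟩
  have hD30 : 0 ≤ D3 := by rw [hD3]; positivity
  obtain ⟨r, hr⟩ : ∃ r : ℝ, r = min (ρ / 3) (min (1 / 3) (ε / (10 * (D3 + 1)))) := ⟨_, rfl⟩
  have hr0 : 0 < r := by rw [hr]; exact lt_min (by positivity) (lt_min (by norm_num) (by positivity))
  have hr1 : 3 * r ≤ ρ := by
    have : r ≤ ρ / 3 := by rw [hr]; exact min_le_left _ _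
    linarith
  have hr2 : 3 * r ≤ 1 := by
    have : r ≤ 1 / 3 := by rw [hr]; exact (min_le_right _ _).trans (min_le_left _ _)
    linarith
  have hD3r : D3 * r ≤ ε / 10 := by
    have h1 : r ≤ ε / (10 * (D3 + 1)) := by
      rw [hr]; exact (min_le_right _ _).trans (min_le_right _ _)
    calc D3 * r ≤ D3 * (ε / (10 * (D3 + 1))) := mul_le_mul_of_nonneg_left h1 hD30
      _ ≤ ε / 10 := by
          rw [← mul_div_assoc, div_le_div_iff₀ (by positivity) (by norm_num)]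
          nlinarith
  -- steepness of the soft walls
  have hlim := (tendsto_compl (J := J) hU hi).const_mul (L ^ 2 / (κ * lam))
  rw [mul_zero] at hlim
  have hlim2 : Tendsto (fun n : ℕ => 1 / ((n : ℝ) + 1)) atTop (𝓝 0) :=
    tendsto_one_div_add_atTop_nhds_zero_nat
  obtain ⟨n, hn1, hn2⟩ : ∃ n : ℕ, L ^ 2 / (κ * lam) * (∫ x in (poly J)ᶜ,
      Real.exp (-(soft U J (1 / (1 / ((n : ℝ) + 1)) ^ 3) x))) < ε / 10 ∧
      1 / ((n : ℝ) + 1) < r / 2 ^ N :=
    ((hlim.eventually_lt_const (by positivity)).and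
      (hlim2.eventually_lt_const (by positivity))).exists
  obtain ⟨δ, hδ⟩ : ∃ δ : ℝ, δ = 1 / ((n : ℝ) + 1) := ⟨_, rfl⟩
  have hδ0 : 0 < δ := by rw [hδ]; positivity
  rw [← hδ] at hn1 hn2
  obtain ⟨k, hk⟩ : ∃ k : ℝ, k = 1 / δ ^ 3 := ⟨_, rfl⟩
  have hk0 : 0 ≤ k := by rw [hk]; positivity
  rw [← hk] at hn1
  have hHC := abs_soft2_le (J := J) hU hC hk0
  have hHi : Integrable fun x => Real.exp (-(soft U J k x)) := by
    refine hi.mono' (Real.continuous_exp.comp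
      (contDiff_soft hU).continuous.neg).aestronglyMeasurable (ae_of_all _ fun x => ?_)
    rw [Real.norm_of_nonneg (Real.exp_pos _).le]
    exact Real.exp_le_exp.2 (neg_le_neg (le_soft hk0 x))
  have hG2 : Integrable fun x => G x ^ 2 * Real.exp (-(soft U J k x)) := by
    simpa using int_sq (J := J) hG hL0 hL hU hi hi2 hk0 0
  obtain ⟨ε0, hε0⟩ : ∃ e : ℝ, e = min 1 (ε / 10) := ⟨_, rfl⟩
  have hε00 : 0 < ε0 := by rw [hε0]; exact lt_min one_pos (by positivity)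
  have hε01 : ε0 ≤ 1 := by rw [hε0]; exact min_le_left _ _
  have hε02 : ε0 ≤ ε / 10 := by rw [hε0]; exact min_le_right _ _
  obtain ⟨Y, m, hYs, hYc, hFY⟩ := hF (soft U J k) G _ ε0 (contDiff_soft hU) hHC hHi hG hG2 hε00
  have hGi := int_sq (J := J) hG hL0 hL hU hi hi2 hk0 m
  have hY1 : ContDiff ℝ 1 Y := hYs.of_le (by norm_cast)
  have hP1 : (∫ x, ed b (soft U J k) Y x * Real.exp (-(soft U J k x))) ≤ A := by
    refine (energy_bound b hU hlam hUl hk0 hi hG hL hYs hYc hFY).trans ?_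
    rw [hA]; linarith
  obtain ⟨h1, h2⟩ := hard_ineq b hU hlam hUl hk0 hi hK hG hL hYs hYc hκ0 hGi hFY
  have h3 := modify (N := N) b hU hK hJ hC0 hC hU0 hG hL0 hL hYs hgs hg0 hg1 hkill hr0
    (by linarith : 2 * r ≤ ρ) hM0 hκ0 hω hω0
  have b1 : TK (poly J) ω (ed b U Y) ≤ A := h2.trans hP1
  have b2 : TK (poly J) ω (fun x => ‖Y x‖ ^ 2) ≤ A / lam := by
    rw [le_div_iff₀ hlam, mul_comm]
    refine le_trans ?_ b1
    rw [← TK_const_mul]
    exact TK_mono hK hω hω0 (continuous_const.mul (hY1.continuous.norm.pow 2))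
      (continuous_ed b hU hY1) fun x _ => le_ed b hUl Y x
  have c3 : Continuous fun x => 1 - g x := continuous_const.sub hgs.continuous
  have b3 : TK (poly J) ω (fun x => 1 - g x) ≤ w * η :=
    conv hK c3 (fun x => sub_nonneg.2 (hg1 x)) hω hw hw0 hη0.le hgM
  have b5 : TK (poly J) ω (fun x => ‖fderiv ℝ g x‖ ^ 2) ≤ w * η :=
    conv hK ((hgs.continuous_fderiv (by simp)).norm.pow 2) (fun x => sq_nonneg _) hω hw hw0
      hη0.le hgE
  have b4 : ∑ j ∈ J, TK (poly J) ω (wc N r j) ≤ jj * (w * (c * (2 * r))) := by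
    calc ∑ j ∈ J, TK (poly J) ω (wc N r j) ≤ ∑ j ∈ J, w * (c * (2 * r)) :=
          Finset.sum_le_sum fun j hj => conv hK (contDiff_wc j).continuous
            (fun x => wc_nonneg j x) hω hw hw0 (by positivity)
            (lint_wc hr0 (hc j hj (2 * r) (by positivity)))
      _ = _ := by rw [Finset.sum_const, nsmul_eq_mul, hjj]
  have hlP : ∫⁻ x, ENNReal.ofReal (ed b (soft U J k) Y x * Real.exp (-(soft U J k x))) ≤
      ENNReal.ofReal A := by
    have hpos : ∀ x, 0 ≤ ed b (soft U J k) Y x * Real.exp (-(soft U J k x)) := fun x =>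
      mul_nonneg (le_trans (by positivity)
        ((le_ed b hUl Y x).trans (ed_le_ed_soft (J := J) b hU hk0 Y x))) (Real.exp_pos _).le
    have hsω : Continuous fun x => Real.exp (-(soft U J k x)) :=
      Real.continuous_exp.comp (contDiff_soft hU).continuous.neg
    rw [← ofReal_integral_eq_lintegral_ofReal (int_ed b (contDiff_soft hU) hY1 hYc hsω)
      (ae_of_all _ hpos)]
    exact ENNReal.ofReal_le_ofReal hP1
  have b6 : ∑ j ∈ J, TK (poly J) ω (wcost N r g M Y j) ≤ jj * (w * (4 * Cc * CW * A / N)) := by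
    calc ∑ j ∈ J, TK (poly J) ω (wcost N r g M Y j) ≤ ∑ j ∈ J, w * (4 * Cc * CW * A / N) := by
          refine Finset.sum_le_sum fun j hj => conv hK (continuous_wcost hgs hYs j)
            (fun x => wcost_nonneg j x) hω hw hw0 (by positivity) ?_
          refine wall_cost (δ := δ) hCc0 hCc hgs hg0 hg1 hkill hN0 hr0 hr1 hY1.continuous hCW0
            hn2.le hj fun s hs1 hs2 T hT hTK hTs => ?_
          refine (hCW δ s Y hδ0 hs1 (by linarith) hY1 j hj T hT hTK hTs).trans ?_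
          rw [← hk]
          exact mul_le_mul' le_rfl hlP
      _ = _ := by rw [Finset.sum_const, nsmul_eq_mul, hjj]
  have hWs : ContDiff ℝ ((⊤ : ℕ∞) : WithTop ℕ∞) (Wf J N r (Zf g M Y)) :=
    contDiff_Wf (contDiff_Zf hgs hYs)
  refine ⟨Wf J N r (Zf g M Y), r / 2 ^ N, m, hWs, hasCompactSupport_Wf (hasCompactSupport_Zf hYc),
    by positivity, fun x hx j hj hs => rigid hJ hkill hN0 hr0 (by linarith) hx hj hs, ?_⟩
  rw [← hnn, ← hjj] at h3
  have e1 : 2 * L / M * TK (poly J) ω (fun x => ‖Y x‖ ^ 2) ≤ ε / 10 :=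
    (mul_le_mul_of_nonneg_left b2 (by positivity)).trans hMb
  have e2 : 2 * L * M * TK (poly J) ω (fun x => 1 - g x) +
      (1 + 1 / κ) * nn * (2 * M ^ 2) * TK (poly J) ω (fun x => ‖fderiv ℝ g x‖ ^ 2) ≤ ε / 10 := by
    have e3 := mul_le_mul_of_nonneg_left b3 (by positivity : 0 ≤ 2 * L * M)
    have e4 := mul_le_mul_of_nonneg_left b5 (by positivity : 0 ≤ (1 + 1 / κ) * nn * (2 * M ^ 2))
    have e5 : D1 * η = 2 * L * M * (w * η) + (1 + 1 / κ) * nn * (2 * M ^ 2) * (w * η) := by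
      rw [hD1]; ring
    linarith
  have e3 : (2 * L * M + 2 * C * M ^ 2) * ∑ j ∈ J, TK (poly J) ω (wc N r j) ≤ ε / 10 := by
    refine (mul_le_mul_of_nonneg_left b4 (by positivity)).trans ?_
    have e5 : (2 * L * M + 2 * C * M ^ 2) * (jj * (w * (c * (2 * r)))) = D3 * r := by
      rw [hD3]; ring
    rw [e5]; exact hD3r
  have e4 : κ * TK (poly J) ω (ed b U Y) ≤ ε / 10 :=
    (mul_le_mul_of_nonneg_left b1 hκ0.le).trans hκA.le
  have e5 : (1 + 1 / κ) * nn * (2 * jj) * ∑ j ∈ J, TK (poly J) ω (wcost N r g M Y j) ≤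
      ε / 10 := by
    refine (mul_le_mul_of_nonneg_left b6 (by positivity)).trans ?_
    have e6 : (1 + 1 / κ) * nn * (2 * jj) * (jj * (w * (4 * Cc * CW * A / N))) = D2 / N := by
      rw [hD2]; ring
    rw [e6]; exact hD2N
  have e6 : κ * (∫ x, ed b (soft U J k) Y x * Real.exp (-(soft U J k x))) ≤ ε / 10 :=
    (mul_le_mul_of_nonneg_left hP1 hκ0.le).trans hκA.le
  linarith

end field

end

end Crest.Agent.R144.Hsu498
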