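import Crest.Agent.R144.Hsu8_498

/-!
# R144 (S0197), block HSU (helper498), file 9: the hard wall upper bound, general convex potential
-/

set_option autoImplicit false
set_option linter.unusedSectionVars false

open MeasureTheory Set Filter Topology
open scoped ENNReal NNReal RealInnerProductSpace

namespace Crest.Agent.R144.Hsu498

noncomputable section

section field

variable {E : Type*} [NormedAddCommGroup E] [InnerProductSpace ℝ E] [FiniteDimensional ℝ E]
  [MeasurableSpace E] [BorelSpace E] {ι : Type*} [Fintype ι]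

variable {J : Finset (E × ℝ)} {U : E → ℝ}

/-- the massive potential -/
def Um (U : E → ℝ) (lam : ℝ) (x : E) : ℝ := U x + lam / 2 * ‖x‖ ^ 2

theorem contDiff_Um (hU : ContDiff ℝ 2 U) (lam : ℝ) : ContDiff ℝ 2 (Um U lam) := by
  unfold Um
  exact hU.add (contDiff_const.mul (contDiff_norm_sq ℝ))

theorem fderiv_Um (hU : ContDiff ℝ 2 U) (lam : ℝ) (x : E) :
    fderiv ℝ (Um U lam) x = fderiv ℝ U x + lam • innerSL ℝ x := by
  have h1 : HasFDerivAt U (fderiv ℝ U x) x :=
    ((hU.differentiable (by norm_num)) x).hasFDerivAt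
  have h2 : HasFDerivAt (fun x : E => lam / 2 * ‖x‖ ^ 2) ((lam / 2) • (2 • innerSL ℝ x)) x :=
    (hasStrictFDerivAt_norm_sq x).hasFDerivAt.const_mul (lam / 2)
  have h3 : fderiv ℝ (Um U lam) x = fderiv ℝ U x + (lam / 2) • (2 • innerSL ℝ x) :=
    (h1.add h2).fderiv
  rw [h3]
  congr 1
  ext z
  simp
  ring

theorem fderiv_Um2_apply (hU : ContDiff ℝ 2 U) (lam : ℝ) (x y z : E) :
    fderiv ℝ (fderiv ℝ (Um U lam)) x y z = fderiv ℝ (fderiv ℝ U) x y z + lam * ⟪y, z⟫ := by
  have e : fderiv ℝ (Um U lam) = fun x => fderiv ℝ U x + lam • innerSL ℝ x :=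
    funext fun x => fderiv_Um hU lam x
  rw [e]
  have h1 : HasFDerivAt (fderiv ℝ U) (fderiv ℝ (fderiv ℝ U) x) x :=
    (((hU.fderiv_right (m := 1) (by norm_num)).differentiable (by norm_num)) x).hasFDerivAt
  obtain ⟨I, hI⟩ : ∃ I : E →L[ℝ] E →L[ℝ] ℝ, ∀ u v, I u v = ⟪u, v⟫ := ⟨innerSL ℝ, fun u v => rfl⟩
  have hI' : ∀ u, innerSL ℝ u = I u := fun u => by ext v; rw [hI]; rfl
  simp only [hI']
  have h2 : HasFDerivAt (fun x : E => lam • I x) (lam • I) x :=
    (I.hasFDerivAt (x := x)).const_smul lam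
  have h3 : fderiv ℝ (fun x => fderiv ℝ U x + lam • I x) x =
      fderiv ℝ (fderiv ℝ U) x + lam • I := (h1.add h2).fderiv
  rw [h3]
  show fderiv ℝ (fderiv ℝ U) x y z + lam * I y z = _
  rw [hI]

theorem integrable_gauss {a : ℝ} (ha : 0 < a) : Integrable fun x : E => Real.exp (-(a * ‖x‖ ^ 2)) := by
  have h := (GaussianFourier.integrable_cexp_neg_mul_sq_norm_add (V := E) (b := (a : ℂ))
    (by simpa using ha) 0 0).norm
  refine h.congr (ae_of_all _ fun x => ?_)
  show ‖Complex.exp (-(a : ℂ) * (‖x‖ : ℂ) ^ 2 + 0 * ((inner ℝ (0 : E) x : ℝ) : ℂ))‖ = _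
  rw [Complex.norm_exp]
  congr 1
  simp [← Complex.ofReal_pow]

theorem integrable_Um (hU : ContDiff ℝ 2 U) {A : ℝ}
    (hA : ∀ x, -(A * (1 + ‖x‖)) ≤ U x) {lam : ℝ} (hlam : 0 < lam) :
    (Integrable fun x => Real.exp (-(Um U lam x))) ∧
      Integrable fun x => ‖x‖ ^ 2 * Real.exp (-(Um U lam x)) := by
  have hc : Continuous fun x => Real.exp (-(Um U lam x)) :=
    Real.continuous_exp.comp (contDiff_Um hU lam).continuous.neg
  have key : ∀ x : E, Real.exp (-(Um U lam x)) ≤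
      Real.exp (A + A ^ 2 / lam) * Real.exp (-(lam / 4 * ‖x‖ ^ 2)) := by
    intro x
    rw [← Real.exp_add]
    refine Real.exp_le_exp.2 ?_
    unfold Um
    have h1 := hA x
    have h2 : A * ‖x‖ ≤ lam / 4 * ‖x‖ ^ 2 + A ^ 2 / lam := by
      have h3 : 0 ≤ (lam / 2 * ‖x‖ - A) ^ 2 / lam := by positivity
      have e : (lam / 2 * ‖x‖ - A) ^ 2 / lam =
          lam / 4 * ‖x‖ ^ 2 + A ^ 2 / lam - A * ‖x‖ := by field_simp; ring
      linarith
    linarith
  have hg4 : Integrable fun x : E => Real.exp (A + A ^ 2 / lam) *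
      Real.exp (-(lam / 4 * ‖x‖ ^ 2)) := (integrable_gauss (by positivity)).const_mul _
  have hg8 : Integrable fun x : E => Real.exp (A + A ^ 2 / lam) * (8 / lam) *
      Real.exp (-(lam / 8 * ‖x‖ ^ 2)) := (integrable_gauss (by positivity)).const_mul _
  refine ⟨hg4.mono' hc.aestronglyMeasurable (ae_of_all _ fun x => ?_),
    hg8.mono' ((continuous_norm.pow 2).mul hc).aestronglyMeasurable (ae_of_all _ fun x => ?_)⟩
  · rw [Real.norm_of_nonneg (Real.exp_pos _).le]; exact key x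
  · rw [Real.norm_of_nonneg (by positivity)]
    have h1 : ‖x‖ ^ 2 ≤ 8 / lam * Real.exp (lam / 8 * ‖x‖ ^ 2) := by
      have h2 := Real.add_one_le_exp (lam / 8 * ‖x‖ ^ 2)
      have h3 : lam / 8 * ‖x‖ ^ 2 ≤ Real.exp (lam / 8 * ‖x‖ ^ 2) := by linarith
      calc ‖x‖ ^ 2 = 8 / lam * (lam / 8 * ‖x‖ ^ 2) := by field_simp
        _ ≤ _ := mul_le_mul_of_nonneg_left h3 (by positivity)
    calc ‖x‖ ^ 2 * Real.exp (-(Um U lam x))
        ≤ (8 / lam * Real.exp (lam / 8 * ‖x‖ ^ 2)) *
          (Real.exp (A + A ^ 2 / lam) * Real.exp (-(lam / 4 * ‖x‖ ^ 2))) :=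
          mul_le_mul h1 (key x) (Real.exp_pos _).le (by positivity)
      _ = Real.exp (A + A ^ 2 / lam) * (8 / lam) *
          (Real.exp (lam / 8 * ‖x‖ ^ 2) * Real.exp (-(lam / 4 * ‖x‖ ^ 2))) := by ring
      _ = _ := by
          rw [← Real.exp_add]
          congr 2
          ring

theorem TK_le_of_weight {K : Set E} (hK : IsCompact K) {ω ω' f : E → ℝ} (hω : Continuous ω)
    (hω' : Continuous ω') (hf : Continuous f) (h : ∀ x ∈ K, f x * ω x ≤ f x * ω' x) :
    TK K ω f ≤ TK K ω' f :=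
  setIntegral_mono_on (TK_int hK hω hf) (TK_int hK hω' hf) hK.measurableSet h

/-- **hard wall upper bound** -/
theorem thmB (b : OrthonormalBasis ι ℝ E) (hF : Fi3 b) (hJ : ∀ j ∈ J, ‖j.1‖ = 1)
    (hb : Bornology.IsBounded (poly J)) (hv : volume (poly J) ≠ 0) (hU : ContDiff ℝ 2 U)
    {C : ℝ} (hC0 : 0 ≤ C) (hC : ∀ x y z, |fderiv ℝ (fderiv ℝ U) x y z| ≤ C * ‖y‖ * ‖z‖)
    (hU0 : ∀ x y, 0 ≤ fderiv ℝ (fderiv ℝ U) x y y)
    {A : ℝ} (hA : ∀ x, -(A * (1 + ‖x‖)) ≤ U x)
    {G : E → ℝ} (hG : ContDiff ℝ 1 G) {L : ℝ} (hL0 : 0 ≤ L)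
    (hL : ∀ x z, |fderiv ℝ G x z| ≤ L * ‖z‖) {ε : ℝ} (hε : 0 < ε) :
    ∃ (W : E → E) (ρ m : ℝ), ContDiff ℝ ((⊤ : ℕ∞) : WithTop ℕ∞) W ∧ HasCompactSupport W ∧
      0 < ρ ∧ (∀ x ∈ poly J, ∀ j ∈ J, sl j x ≤ ρ → ⟪j.1, W x⟫ = 0) ∧
      TK (poly J) (fun x => Real.exp (-(U x))) (fun x => (G x - m) ^ 2) ≤
        2 * TK (poly J) (fun x => Real.exp (-(U x))) (fun x => fderiv ℝ G x (W x)) -
        TK (poly J) (fun x => Real.exp (-(U x))) (ed b U W) + ε := by
  have hK : IsCompact (poly J) := Metric.isCompact_of_isClosed_isBounded isClosed_poly hb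
  obtain ⟨R', hR'⟩ := hb.subset_closedBall (0 : E)
  obtain ⟨R, hR0, hR⟩ : ∃ R : ℝ, 0 ≤ R ∧ ∀ x ∈ poly J, ‖x‖ ^ 2 ≤ R := by
    refine ⟨R' ^ 2, sq_nonneg _, fun x hx => ?_⟩
    have h1 : ‖x‖ ≤ R' := by simpa using hR' hx
    exact pow_le_pow_left₀ (norm_nonneg _) h1 2
  have hω : Continuous fun x => Real.exp (-(U x)) :=
    Real.continuous_exp.comp hU.continuous.neg
  have hω0 : ∀ x, 0 ≤ Real.exp (-(U x)) := fun x => (Real.exp_pos _).le
  obtain ⟨Z, hZ⟩ : ∃ Z : ℝ, Z = TK (poly J) (fun x => Real.exp (-(U x))) (fun _ => 1) := ⟨_, rfl⟩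
  have hZ0 : 0 ≤ Z := by rw [hZ]; exact TK_nonneg hK hω0 fun _ _ => zero_le_one
  -- choice of the mass
  obtain ⟨D, hD⟩ : ∃ D : ℝ, D = R ^ 2 * L ^ 2 * Z := ⟨_, rfl⟩
  have hD0 : 0 ≤ D := by rw [hD]; positivity
  obtain ⟨lam, hlam⟩ : ∃ lam : ℝ, lam = min (1 / (R + 1)) (ε / (2 * (D + 1))) := ⟨_, rfl⟩
  have hlam0 : 0 < lam := by rw [hlam]; exact lt_min (by positivity) (by positivity)
  have hlamR : lam * R ≤ 1 := by
    have h1 : lam ≤ 1 / (R + 1) := by rw [hlam]; exact min_le_left _ _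
    rw [le_div_iff₀ (by positivity)] at h1
    nlinarith
  have hlamD : lam * D ≤ ε / 2 := by
    have h1 : lam ≤ ε / (2 * (D + 1)) := by rw [hlam]; exact min_le_right _ _
    rw [le_div_iff₀ (by positivity)] at h1
    nlinarith
  obtain ⟨c, hc⟩ : ∃ c : ℝ, c = Real.exp (-(lam / 2 * R)) := ⟨_, rfl⟩
  have hc0 : 0 < c := by rw [hc]; exact Real.exp_pos _
  have hc1 : 1 - lam / 2 * R ≤ c := by
    rw [hc]; linarith [Real.add_one_le_exp (-(lam / 2 * R))]
  have hc2 : 1 / 2 ≤ c := by linarith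
  have hc3 : c ≤ 1 := by
    rw [hc]; exact Real.exp_le_one_iff.2 (by have : 0 ≤ lam / 2 * R := by positivity
                                             linarith)
  obtain ⟨hi, hi2⟩ := integrable_Um hU hA hlam0
  obtain ⟨W, ρ, m, hWs, hWc, hρ, hrig, hmain⟩ := thmA b hF hJ hb hv (contDiff_Um hU lam)
    (C := C + lam) (by positivity) (fun x y z => by
      rw [fderiv_Um2_apply hU]
      refine (abs_add_le _ _).trans ?_
      have h1 := hC x y z
      have h2 : |lam * ⟪y, z⟫| ≤ lam * (‖y‖ * ‖z‖) := by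
        rw [abs_mul, abs_of_pos hlam0]
        exact mul_le_mul_of_nonneg_left (abs_real_inner_le_norm y z) hlam0.le
      linarith) hlam0 (fun x y => by
      rw [fderiv_Um2_apply hU, real_inner_self_eq_norm_sq]
      linarith [hU0 x y]) hi hi2 hG hL0 hL (ε := ε / 4) (by positivity)
  refine ⟨W, ρ, m, hWs, hWc, hρ, hrig, ?_⟩
  have hW1 : ContDiff ℝ 1 W := hWs.of_le (by norm_cast)
  have hωm : Continuous fun x => Real.exp (-(Um U lam x)) :=
    Real.continuous_exp.comp (contDiff_Um hU lam).continuous.neg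
  -- comparison of the weights
  have hcmp : ∀ x ∈ poly J, c * Real.exp (-(U x)) ≤ Real.exp (-(Um U lam x)) ∧
      Real.exp (-(Um U lam x)) ≤ Real.exp (-(U x)) := by
    intro x hx
    have e : Real.exp (-(Um U lam x)) = Real.exp (-(lam / 2 * ‖x‖ ^ 2)) * Real.exp (-(U x)) := by
      rw [← Real.exp_add]; unfold Um; congr 1; ring
    rw [e]
    have h1 : lam / 2 * ‖x‖ ^ 2 ≤ lam / 2 * R := mul_le_mul_of_nonneg_left (hR x hx) (by positivity)
    constructor
    · refine mul_le_mul_of_nonneg_right ?_ (Real.exp_pos _).le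
      rw [hc]
      exact Real.exp_le_exp.2 (by linarith)
    · refine mul_le_of_le_one_left (Real.exp_pos _).le ?_
      exact Real.exp_le_one_iff.2 (by have : 0 ≤ lam / 2 * ‖x‖ ^ 2 := by positivity
                                      linarith)
  have hTc : ∀ f : E → ℝ, TK (poly J) (fun x => c * Real.exp (-(U x))) f =
      c * TK (poly J) (fun x => Real.exp (-(U x))) f := by
    intro f
    unfold TK
    rw [← integral_const_mul]
    congr 1
    ext x; ring
  have hωc : Continuous fun x => c * Real.exp (-(U x)) := continuous_const.mul hω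
  have cG : Continuous fun x => (G x - m) ^ 2 := (hG.continuous.sub continuous_const).pow 2
  have cE := continuous_ed b hU hW1
  have cN : Continuous fun x => ‖W x‖ ^ 2 := hW1.continuous.norm.pow 2
  have cD : Continuous fun x => fderiv ℝ G x (W x) :=
    (hG.continuous_fderiv (by norm_num)).clm_apply hW1.continuous
  -- left side
  have k1 : c * TK (poly J) (fun x => Real.exp (-(U x))) (fun x => (G x - m) ^ 2) ≤
      TK (poly J) (fun x => Real.exp (-(Um U lam x))) (fun x => (G x - m) ^ 2) := by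
    rw [← hTc]
    exact TK_le_of_weight hK hωc hωm cG fun x hx =>
      mul_le_mul_of_nonneg_left (hcmp x hx).1 (sq_nonneg _)
  -- energy
  have k2 : c * TK (poly J) (fun x => Real.exp (-(U x))) (ed b U W) +
      lam * (c * TK (poly J) (fun x => Real.exp (-(U x))) (fun x => ‖W x‖ ^ 2)) ≤
      TK (poly J) (fun x => Real.exp (-(Um U lam x))) (ed b (Um U lam) W) := by
    have e : TK (poly J) (fun x => Real.exp (-(Um U lam x))) (ed b (Um U lam) W) =
        TK (poly J) (fun x => Real.exp (-(Um U lam x))) (ed b U W) +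
        lam * TK (poly J) (fun x => Real.exp (-(Um U lam x))) (fun x => ‖W x‖ ^ 2) := by
      have cN' : Continuous fun x => lam * ‖W x‖ ^ 2 := continuous_const.mul cN
      rw [← TK_const_mul, ← TK_add hK hωm cE cN']
      congr 1
      ext x
      unfold ed
      rw [fderiv_Um2_apply hU, real_inner_self_eq_norm_sq]
      ring
    rw [e, ← hTc, ← hTc]
    refine add_le_add ?_ (mul_le_mul_of_nonneg_left ?_ hlam0.le)
    · exact TK_le_of_weight hK hωc hωm cE fun x hx =>
        mul_le_mul_of_nonneg_left (hcmp x hx).1 (add_nonneg (hs_nonneg b W x) (hU0 x _))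
    · exact TK_le_of_weight hK hωc hωm cN fun x hx =>
        mul_le_mul_of_nonneg_left (hcmp x hx).1 (sq_nonneg _)
  -- linear term
  have k3 : 2 * TK (poly J) (fun x => Real.exp (-(Um U lam x))) (fun x => fderiv ℝ G x (W x)) ≤
      2 * (c * TK (poly J) (fun x => Real.exp (-(U x))) (fun x => fderiv ℝ G x (W x))) +
      (lam * (c * TK (poly J) (fun x => Real.exp (-(U x))) (fun x => ‖W x‖ ^ 2)) +
        (1 - c) ^ 2 * L ^ 2 / (c * lam) * Z) := by
    have h1 : TK (poly J) (fun x => Real.exp (-(U x)))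
        (fun x => 2 * (1 - c) * L * ‖W x‖) ≤
        TK (poly J) (fun x => Real.exp (-(U x)))
          (fun x => (lam * c) * ‖W x‖ ^ 2 + (1 - c) ^ 2 * L ^ 2 / (c * lam) * 1) := by
      refine TK_mono hK hω hω0 (continuous_const.mul hW1.continuous.norm)
        ((continuous_const.mul cN).add continuous_const) fun x _ => ?_
      have h2 := two_mul_le (L := (1 - c) * L) (y := ‖W x‖) (β := c) hc0 hlam0
      have h3 : ((1 - c) * L) ^ 2 / (c * lam) = (1 - c) ^ 2 * L ^ 2 / (c * lam) := by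
        rw [mul_pow]
      rw [h3] at h2
      linarith
    have cN' : Continuous fun x => lam * c * ‖W x‖ ^ 2 := continuous_const.mul cN
    rw [TK_add hK hω (h := fun _ => (1 - c) ^ 2 * L ^ 2 / (c * lam) * 1) cN' continuous_const,
      TK_const_mul (K := poly J) (lam * c) (fun x => ‖W x‖ ^ 2),
      TK_const_mul (K := poly J) ((1 - c) ^ 2 * L ^ 2 / (c * lam)) (fun _ => 1),
      ← hZ] at h1
    have h2 : 2 * TK (poly J) (fun x => Real.exp (-(Um U lam x)))
        (fun x => fderiv ℝ G x (W x)) ≤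
        2 * (c * TK (poly J) (fun x => Real.exp (-(U x))) (fun x => fderiv ℝ G x (W x))) +
        TK (poly J) (fun x => Real.exp (-(U x))) (fun x => 2 * (1 - c) * L * ‖W x‖) := by
      rw [← hTc]
      unfold TK
      have i1 := TK_int hK hωm cD
      have i2 := TK_int hK hωc cD
      have cW : Continuous fun x => 2 * (1 - c) * L * ‖W x‖ :=
        continuous_const.mul hW1.continuous.norm
      have i3 := TK_int hK hω cW
      rw [← integral_const_mul, ← integral_const_mul, ← integral_add (i2.const_mul 2) i3]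
      refine setIntegral_mono_on (i1.const_mul 2) ((i2.const_mul 2).add i3) hK.measurableSet
        fun x hx => ?_
      show 2 * (fderiv ℝ G x (W x) * Real.exp (-(Um U lam x))) ≤
        2 * (fderiv ℝ G x (W x) * (c * Real.exp (-(U x)))) +
          2 * (1 - c) * L * ‖W x‖ * Real.exp (-(U x))
      obtain ⟨h4, h5⟩ := hcmp x hx
      have h6 := (le_abs_self _).trans (hL x (W x))
      have h7 : 0 ≤ Real.exp (-(Um U lam x)) - c * Real.exp (-(U x)) := by linarith
      have h8 : Real.exp (-(Um U lam x)) - c * Real.exp (-(U x)) ≤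
          (1 - c) * Real.exp (-(U x)) := by linarith
      have h9 : fderiv ℝ G x (W x) * (Real.exp (-(Um U lam x)) - c * Real.exp (-(U x))) ≤
          L * ‖W x‖ * ((1 - c) * Real.exp (-(U x))) :=
        (mul_le_mul_of_nonneg_right h6 h7).trans
          (mul_le_mul_of_nonneg_left h8 (by positivity))
      linarith
    linarith
  -- error
  have k4 : (1 - c) ^ 2 * L ^ 2 / (c * lam) * Z ≤ c * (ε / 2) := by
    have h1 : (1 - c) ^ 2 ≤ (lam / 2 * R) ^ 2 :=
      pow_le_pow_left₀ (by linarith) (by linarith) 2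
    have h2 : (1 - c) ^ 2 * L ^ 2 / (c * lam) * Z = (1 - c) ^ 2 * (L ^ 2 * Z / lam) / c := by
      field_simp
    rw [h2, div_le_iff₀ hc0]
    have h3 : (1 - c) ^ 2 * (L ^ 2 * Z / lam) ≤ (lam / 2 * R) ^ 2 * (L ^ 2 * Z / lam) :=
      mul_le_mul_of_nonneg_right h1 (by positivity)
    have h4 : (lam / 2 * R) ^ 2 * (L ^ 2 * Z / lam) = lam * D / 4 := by
      rw [hD]; field_simp; ring
    have h5 : (1 : ℝ) / 4 ≤ c * c := by nlinarith
    nlinarith
  have k5 : c * TK (poly J) (fun x => Real.exp (-(U x))) (fun x => (G x - m) ^ 2) ≤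
      c * (2 * TK (poly J) (fun x => Real.exp (-(U x))) (fun x => fderiv ℝ G x (W x)) -
        TK (poly J) (fun x => Real.exp (-(U x))) (ed b U W) + ε) := by
    have h6 : ε / 4 ≤ c * (ε / 2) := by nlinarith
    linarith
  exact le_of_mul_le_mul_left k5 hc0

end field

end

end Crest.Agent.R144.Hsu498
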