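import Mathlib
import Crest.Prelude.Def_HexHeights
import Crest.Prelude.Def_TriHeights

/-!
# R144, integer models, base (helper844)

Sites of the triangular lattice are `P2 = ℤ × ℤ` with the adjacency `HexHeights.Adj`.  The up triangle
with base `u` has corners `u, u+(1,0), u+(0,1)` (`TriHeights.corner (u, true)`), the down triangle has
corners `u+(1,0), u+(0,1), u+(1,1)` (`TriHeights.corner (u, false)`).

* `Lip h`        : `h : P2 → ℤ` is globally `1`-Lipschitz;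
* `conf Λ τ`     : the finite set of Lipschitz heights equal to `τ` off `Λ`;
* `upT Λ`        : up triangles touching `Λ`;
* `Cst h u`      : `h` is constant on the up triangle `u`;
* `wt x Λ h`     : `∏_{u ∈ upT Λ} (if Cst h u then 1 else x ^ 2)` (equal, up to a constant factor
  depending on `τ`, to `x ^ #(edges touching Λ with different heights)`);
* `Z x Λ τ`, `ex x Λ τ f` (`f` with values in a real vector space), `pr x Λ τ A`, `mu x Λ τ`.
-/

set_option autoImplicit false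

noncomputable section

namespace Crest.Agent.R144.It844

open Finset MeasureTheory
open Crest.ProbabilityR.HexHeights (Adj)

abbrev P2 : Type := ℤ × ℤ

/-! ### adjacency -/

theorem adj_symm {u v : P2} (h : Adj u v) : Adj v u := by
  unfold Adj at *
  omega

theorem adj_comm {u v : P2} : Adj u v ↔ Adj v u := ⟨adj_symm, adj_symm⟩

theorem adj_ne {u v : P2} (h : Adj u v) : u ≠ v := by
  rintro rfl
  unfold Adj at h
  omega

theorem adj_iff {u v : P2} : Adj u v ↔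
    v = (u.1 + 1, u.2) ∨ v = (u.1 - 1, u.2) ∨ v = (u.1, u.2 + 1) ∨ v = (u.1, u.2 - 1) ∨
    v = (u.1 + 1, u.2 - 1) ∨ v = (u.1 - 1, u.2 + 1) := by
  obtain ⟨a, b⟩ := u
  obtain ⟨c, d⟩ := v
  simp only [Adj, Prod.mk.injEq]
  omega

theorem adj_e1 (u : P2) : Adj u (u.1 + 1, u.2) := adj_iff.2 (Or.inl rfl)
theorem adj_e2 (u : P2) : Adj u (u.1, u.2 + 1) := adj_iff.2 (Or.inr (Or.inr (Or.inl rfl)))
theorem adj_e3 (u : P2) : Adj (u.1, u.2 + 1) (u.1 + 1, u.2) := by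
  unfold Adj; simp only; omega

/-- every edge lies in exactly one up triangle (existence form) -/
theorem adj_up {u v : P2} (h : Adj u v) : ∃ w : P2,
    (u = w ∧ v = (w.1 + 1, w.2)) ∨ (v = w ∧ u = (w.1 + 1, w.2)) ∨
    (u = w ∧ v = (w.1, w.2 + 1)) ∨ (v = w ∧ u = (w.1, w.2 + 1)) ∨
    (u = (w.1 + 1, w.2) ∧ v = (w.1, w.2 + 1)) ∨ (v = (w.1 + 1, w.2) ∧ u = (w.1, w.2 + 1)) := by
  rcases adj_iff.1 h with h | h | h | h | h | h
  · exact ⟨u, Or.inl ⟨rfl, h⟩⟩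
  · exact ⟨v, Or.inr (Or.inl ⟨rfl, by rw [h]; ext <;> simp⟩)⟩
  · exact ⟨u, Or.inr (Or.inr (Or.inl ⟨rfl, h⟩))⟩
  · exact ⟨v, Or.inr (Or.inr (Or.inr (Or.inl ⟨rfl, by rw [h]; ext <;> simp⟩)))⟩
  · refine ⟨(u.1, u.2 - 1), Or.inr (Or.inr (Or.inr (Or.inr (Or.inr ⟨?_, ?_⟩))))⟩
    · rw [h]
    · ext <;> simp
  · refine ⟨(u.1 - 1, u.2), Or.inr (Or.inr (Or.inr (Or.inr (Or.inl ⟨?_, ?_⟩))))⟩
    · ext <;> simp
    · rw [h]

/-! ### Lipschitz heights -/

/-- globally `1`-Lipschitz integer heights -/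
def Lip (h : P2 → ℤ) : Prop := ∀ u v, Adj u v → |h u - h v| ≤ 1

theorem lip_const (m : ℤ) : Lip (fun _ => m) := fun _ _ _ => by simp

theorem Lip.add_const {h : P2 → ℤ} (hh : Lip h) (m : ℤ) : Lip (fun v => h v + m) := fun u v huv => by
  have := hh u v huv
  have e : h u + m - (h v + m) = h u - h v := by ring
  rw [e]; exact this

theorem Lip.neg {h : P2 → ℤ} (hh : Lip h) : Lip (fun v => - h v) := fun u v huv => by
  have := hh v u (adj_symm huv)
  have e : - h u - (- h v) = h v - h u := by ring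
  rw [e]; exact this

theorem Lip.inf {h g : P2 → ℤ} (hh : Lip h) (hg : Lip g) : Lip (h ⊓ g) := fun u v huv => by
  have h1 := hh u v huv
  have h2 := hg u v huv
  simp only [Pi.inf_apply]
  rw [abs_le] at *
  omega

theorem Lip.sup {h g : P2 → ℤ} (hh : Lip h) (hg : Lip g) : Lip (h ⊔ g) := fun u v huv => by
  have h1 := hh u v huv
  have h2 := hg u v huv
  simp only [Pi.sup_apply]
  rw [abs_le] at *
  omega

/-- it is enough to look at the three edges of every up triangle -/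
theorem lip_iff {h : P2 → ℤ} : Lip h ↔ ∀ u : P2, |h u - h (u.1 + 1, u.2)| ≤ 1 ∧
    |h u - h (u.1, u.2 + 1)| ≤ 1 ∧ |h (u.1 + 1, u.2) - h (u.1, u.2 + 1)| ≤ 1 := by
  constructor
  · intro hh u
    exact ⟨hh _ _ (adj_e1 u), hh _ _ (adj_e2 u), hh _ _ (adj_symm (adj_e3 u))⟩
  · intro hh u v huv
    obtain ⟨w, h1 | h1 | h1 | h1 | h1 | h1⟩ := adj_up huv
    · rw [h1.1, h1.2]; exact (hh w).1
    · rw [h1.1, h1.2, abs_sub_comm]; exact (hh w).1
    · rw [h1.1, h1.2]; exact (hh w).2.1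
    · rw [h1.1, h1.2, abs_sub_comm]; exact (hh w).2.1
    · rw [h1.1, h1.2]; exact (hh w).2.2
    · rw [h1.1, h1.2, abs_sub_comm]; exact (hh w).2.2

theorem Lip.row {h : P2 → ℤ} (hh : Lip h) (v : P2) (j : ℕ) :
    |h v - h (v.1 + j, v.2)| ≤ j := by
  induction j with
  | zero => simp
  | succ j ih =>
    have h1 := hh _ _ (adj_e1 (v.1 + (j : ℤ), v.2))
    simp only at h1
    have e : ((j + 1 : ℕ) : ℤ) = (j : ℤ) + 1 := by push_cast; ring
    rw [e, ← add_assoc]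
    rw [abs_le] at *
    omega

/-- from every site one leaves a finite set along the row in at most `Λ.card` steps -/
theorem exists_exit (Λ : Finset P2) (v : P2) :
    ∃ j : ℕ, j ≤ Λ.card ∧ (v.1 + (j : ℤ), v.2) ∉ Λ ∧ ∀ i : ℕ, i < j → (v.1 + (i : ℤ), v.2) ∈ Λ := by
  classical
  have hex : ∃ j : ℕ, j ≤ Λ.card ∧ (v.1 + (j : ℤ), v.2) ∉ Λ := by
    by_contra hcon
    push Not at hcon
    have hinj : ((Finset.range (Λ.card + 1)).image fun i : ℕ => ((v.1 + (i : ℤ), v.2) : P2)) ⊆ Λ := by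
      intro w hw
      obtain ⟨i, hi, rfl⟩ := Finset.mem_image.1 hw
      exact hcon i (Nat.lt_succ_iff.1 (Finset.mem_range.1 hi))
    have hc := Finset.card_le_card hinj
    rw [Finset.card_image_of_injective, Finset.card_range] at hc
    · omega
    · intro a b hab
      simp only [Prod.mk.injEq, and_true] at hab
      omega
  refine ⟨Nat.find hex, (Nat.find_spec hex).1, (Nat.find_spec hex).2, fun i hi => ?_⟩
  by_contra h1
  exact Nat.find_min hex hi ⟨(le_of_lt hi).trans (Nat.find_spec hex).1, h1⟩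

/-- a priori bound -/
theorem Lip.bound {Λ : Finset P2} {τ h : P2 → ℤ} (hh : Lip h) (ho : ∀ v, v ∉ Λ → h v = τ v) (v : P2) :
    ∃ j : ℕ, j ≤ Λ.card ∧ |h v - τ (v.1 + (j : ℤ), v.2)| ≤ j := by
  obtain ⟨j, hj, hjn, -⟩ := exists_exit Λ v
  exact ⟨j, hj, by rw [← ho _ hjn]; exact hh.row v j⟩

theorem conf_finite (Λ : Finset P2) (τ : P2 → ℤ) :
    {h : P2 → ℤ | Lip h ∧ ∀ v, v ∉ Λ → h v = τ v}.Finite := by
  classical
  set bd : P2 → ℤ := fun v => (Λ.card : ℤ) + ∑ j ∈ Finset.range (Λ.card + 1), |τ (v.1 + (j : ℤ), v.2)|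
  refine Set.Finite.of_finite_image (f := fun (h : P2 → ℤ) (v : Λ) => h v) ?_ ?_
  · refine Set.Finite.subset (Set.Finite.pi (t := fun v : Λ => Set.Icc (-(bd v)) (bd v))
      fun v => Set.finite_Icc _ _) ?_
    rintro _ ⟨h, ⟨hh, ho⟩, rfl⟩ v -
    obtain ⟨j, hj, hb⟩ := hh.bound ho (v : P2)
    have h1 : |τ ((v : P2).1 + (j : ℤ), (v : P2).2)| ≤
        ∑ j ∈ Finset.range (Λ.card + 1), |τ ((v : P2).1 + (j : ℤ), (v : P2).2)| :=
      Finset.single_le_sum (f := fun j : ℕ => |τ ((v : P2).1 + (j : ℤ), (v : P2).2)|)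
        (fun _ _ => abs_nonneg _) (Finset.mem_range.2 (Nat.lt_succ_iff.2 hj))
    simp only [Set.mem_Icc, bd]
    have hj' : (j : ℤ) ≤ Λ.card := by exact_mod_cast hj
    generalize ∑ j ∈ Finset.range (Λ.card + 1), |τ ((v : P2).1 + (j : ℤ), (v : P2).2)| = S at *
    rw [abs_le] at *
    constructor <;> omega
  · intro h hh g hg hhg
    funext v
    by_cases hv : v ∈ Λ
    · exact congrFun hhg ⟨v, hv⟩
    · rw [hh.2 v hv, hg.2 v hv]

/-- Lipschitz heights equal to `τ` off `Λ` -/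
def conf (Λ : Finset P2) (τ : P2 → ℤ) : Finset (P2 → ℤ) := (conf_finite Λ τ).toFinset

@[simp] theorem mem_conf {Λ : Finset P2} {τ h : P2 → ℤ} :
    h ∈ conf Λ τ ↔ Lip h ∧ ∀ v, v ∉ Λ → h v = τ v := by
  simp [conf]

theorem self_mem_conf {Λ : Finset P2} {τ : P2 → ℤ} (hτ : Lip τ) : τ ∈ conf Λ τ :=
  mem_conf.2 ⟨hτ, fun _ _ => rfl⟩

theorem conf_nonempty {Λ : Finset P2} {τ : P2 → ℤ} (hτ : Lip τ) : (conf Λ τ).Nonempty :=
  ⟨τ, self_mem_conf hτ⟩

theorem conf_congr {Λ : Finset P2} {τ τ' : P2 → ℤ} (h : ∀ v, v ∉ Λ → τ v = τ' v) :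
    conf Λ τ = conf Λ τ' := by
  ext g
  simp only [mem_conf]
  refine and_congr_right fun _ => forall_congr' fun v => forall_congr' fun hv => ?_
  rw [h v hv]

theorem conf_inf_sup {Λ : Finset P2} {τ : P2 → ℤ} {h g : P2 → ℤ} (hh : h ∈ conf Λ τ)
    (hg : g ∈ conf Λ τ) : h ⊓ g ∈ conf Λ τ ∧ h ⊔ g ∈ conf Λ τ := by
  rw [mem_conf] at hh hg
  refine ⟨mem_conf.2 ⟨hh.1.inf hg.1, fun v hv => ?_⟩, mem_conf.2 ⟨hh.1.sup hg.1, fun v hv => ?_⟩⟩
  · simp [hh.2 v hv, hg.2 v hv]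
  · simp [hh.2 v hv, hg.2 v hv]

/-! ### up triangles and weights -/

/-- up triangles (base points) touching `Λ` -/
def upT (Λ : Finset P2) : Finset P2 :=
  Λ ∪ Λ.image (fun v => (v.1 - 1, v.2)) ∪ Λ.image (fun v => (v.1, v.2 - 1))

@[simp] theorem mem_upT {Λ : Finset P2} {u : P2} :
    u ∈ upT Λ ↔ u ∈ Λ ∨ (u.1 + 1, u.2) ∈ Λ ∨ (u.1, u.2 + 1) ∈ Λ := by
  simp only [upT, Finset.mem_union, Finset.mem_image]
  constructor
  · rintro ((h | ⟨v, hv, h⟩) | ⟨v, hv, h⟩)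
    · exact Or.inl h
    · right; left; rw [← h]; simpa using hv
    · right; right; rw [← h]; simpa using hv
  · rintro (h | h | h)
    · exact Or.inl (Or.inl h)
    · exact Or.inl (Or.inr ⟨_, h, by ext <;> simp⟩)
    · exact Or.inr ⟨_, h, by ext <;> simp⟩

/-- `h` is constant on the up triangle with base `u` -/
def Cst (h : P2 → ℤ) (u : P2) : Prop := h u = h (u.1 + 1, u.2) ∧ h u = h (u.1, u.2 + 1)

instance (h : P2 → ℤ) (u : P2) : Decidable (Cst h u) := by unfold Cst; infer_instance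

/-- weight of an up triangle -/
def tw (x : ℝ) (h : P2 → ℤ) (u : P2) : ℝ := if Cst h u then 1 else x ^ 2

theorem tw_nonneg (x : ℝ) (h : P2 → ℤ) (u : P2) : 0 ≤ tw x h u := by
  unfold tw; split_ifs <;> positivity

theorem tw_pos {x : ℝ} (hx : 0 < x) (h : P2 → ℤ) (u : P2) : 0 < tw x h u := by
  unfold tw; split_ifs <;> positivity

/-- weight of a height in the volume `Λ` -/
def wt (x : ℝ) (Λ : Finset P2) (h : P2 → ℤ) : ℝ := ∏ u ∈ upT Λ, tw x h u

theorem wt_nonneg (x : ℝ) (Λ : Finset P2) (h : P2 → ℤ) : 0 ≤ wt x Λ h :=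
  Finset.prod_nonneg fun _ _ => tw_nonneg _ _ _

theorem wt_pos {x : ℝ} (hx : 0 < x) (Λ : Finset P2) (h : P2 → ℤ) : 0 < wt x Λ h :=
  Finset.prod_pos fun _ _ => tw_pos hx _ _

/-- partition function -/
def Z (x : ℝ) (Λ : Finset P2) (τ : P2 → ℤ) : ℝ := ∑ h ∈ conf Λ τ, wt x Λ h

theorem Z_pos {x : ℝ} (hx : 0 < x) {Λ : Finset P2} {τ : P2 → ℤ} (hτ : Lip τ) : 0 < Z x Λ τ :=
  Finset.sum_pos (fun _ _ => wt_pos hx _ _) (conf_nonempty hτ)

/-- expectation of a vector valued observable -/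
def ex {V : Type*} [AddCommGroup V] [Module ℝ V] (x : ℝ) (Λ : Finset P2) (τ : P2 → ℤ)
    (f : (P2 → ℤ) → V) : V :=
  (Z x Λ τ)⁻¹ • ∑ h ∈ conf Λ τ, wt x Λ h • f h

/-- probability of an event -/
def pr (x : ℝ) (Λ : Finset P2) (τ : P2 → ℤ) (A : Set (P2 → ℤ)) : ℝ :=
  haveI := Classical.decPred fun h => h ∈ A
  ex x Λ τ (fun h => if h ∈ A then (1 : ℝ) else 0)

/-- the law as a measure on heights -/
def mu (x : ℝ) (Λ : Finset P2) (τ : P2 → ℤ) : Measure (P2 → ℤ) :=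
  ∑ h ∈ conf Λ τ, ENNReal.ofReal (wt x Λ h / Z x Λ τ) • Measure.dirac h

section ex
variable {V : Type*} [AddCommGroup V] [Module ℝ V] {x : ℝ} {Λ : Finset P2} {τ : P2 → ℤ}

theorem ex_congr {f g : (P2 → ℤ) → V} (h : ∀ a ∈ conf Λ τ, f a = g a) :
    ex x Λ τ f = ex x Λ τ g := by
  unfold ex
  congr 1
  exact Finset.sum_congr rfl fun a ha => by rw [h a ha]

theorem ex_add (f g : (P2 → ℤ) → V) :
    ex x Λ τ (fun h => f h + g h) = ex x Λ τ f + ex x Λ τ g := by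
  simp only [ex, smul_add, Finset.sum_add_distrib]

theorem ex_smul (c : ℝ) (f : (P2 → ℤ) → V) :
    ex x Λ τ (fun h => c • f h) = c • ex x Λ τ f := by
  simp only [ex, smul_comm _ c, ← Finset.smul_sum]

theorem ex_const (hx : 0 < x) (hτ : Lip τ) (c : V) : ex x Λ τ (fun _ => c) = c := by
  unfold ex
  rw [← Finset.sum_smul, smul_smul]
  have : (Z x Λ τ)⁻¹ * ∑ h ∈ conf Λ τ, wt x Λ h = 1 := inv_mul_cancel₀ (Z_pos hx hτ).ne'
  rw [this, one_smul]

theorem ex_nonneg {f : (P2 → ℤ) → ℝ} (hf : ∀ h ∈ conf Λ τ, 0 ≤ f h) : 0 ≤ ex x Λ τ f := by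
  unfold ex
  refine mul_nonneg (inv_nonneg.2 (Finset.sum_nonneg fun _ _ => wt_nonneg _ _ _))
    (Finset.sum_nonneg fun h hh => mul_nonneg (wt_nonneg _ _ _) (hf h hh))

theorem ex_mono {f g : (P2 → ℤ) → ℝ} (hf : ∀ h ∈ conf Λ τ, f h ≤ g h) :
    ex x Λ τ f ≤ ex x Λ τ g := by
  unfold ex
  refine mul_le_mul_of_nonneg_left (Finset.sum_le_sum fun h hh =>
    mul_le_mul_of_nonneg_left (hf h hh) (wt_nonneg _ _ _))
    (inv_nonneg.2 (Finset.sum_nonneg fun _ _ => wt_nonneg _ _ _))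

end ex

end Crest.Agent.R144.It844
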