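import Crest.Agent.R144.It1_844

/-!
# R144, integer models, bridges to the frozen definitions (helper844)

* `heightExpect_eq` : `HexHeights.heightExpect F x g = ex x (F \ bdryFaces F) 0 G` whenever
  `g h = G (extF h)` for admissible `h` (`extF h` = extension by zero).
* `twoArcExpect_eq` : `TriHeights.twoArcExpect T Ap Am g = ex 1 Λ ξ G`, with `Λ` the vertices of `T` on
  neither arc, `ξ = -1` on `Am` and `0` elsewhere.
-/

set_option autoImplicit false

noncomputable section

namespace Crest.Agent.R144.It844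

open Finset MeasureTheory
open Crest.ProbabilityR.HexHeights (Adj bdryFaces Height IsAdmissible changes heightExpect)

/-! ### counting non-constant edges -/

/-- three pairwise `1`-close integers: the number of unequal pairs is `0` or `2` -/
theorem three_edges {a b c : ℤ} (h1 : |a - b| ≤ 1) (h2 : |a - c| ≤ 1) (h3 : |b - c| ≤ 1) :
    ((if a ≠ b then 1 else 0) + (if a ≠ c then 1 else 0) + (if b ≠ c then 1 else 0) : ℕ) =
      if a = b ∧ a = c then 0 else 2 := by
  rw [abs_le] at h1 h2 h3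
  by_cases e1 : a = b
  · by_cases e2 : a = c
    · simp [← e1, ← e2]
    · simp [← e1, e2]
  · by_cases e2 : a = c
    · simp [← e2, e1, Ne.symm e1]
    · have : b = c := by omega
      simp [← this, e1]

theorem pow_edges (x : ℝ) {h : P2 → ℤ} (hh : Lip h) (u : P2) :
    x ^ ((if h u ≠ h (u.1 + 1, u.2) then 1 else 0) + (if h u ≠ h (u.1, u.2 + 1) then 1 else 0) +
      (if h (u.1 + 1, u.2) ≠ h (u.1, u.2 + 1) then 1 else 0) : ℕ) = tw x h u := by
  obtain ⟨h1, h2, h3⟩ := lip_iff.1 hh u
  rw [three_edges h1 h2 h3]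
  by_cases hc : Cst h u
  · have hc' : h u = h (u.1 + 1, u.2) ∧ h u = h (u.1, u.2 + 1) := hc
    rw [tw, if_pos hc, if_pos hc', pow_zero]
  · have hc' : ¬ (h u = h (u.1 + 1, u.2) ∧ h u = h (u.1, u.2 + 1)) := hc
    rw [tw, if_neg hc, if_neg hc']

/-- edges on which `h` is not constant, listed by up triangles in `U` -/
def nedges (h : P2 → ℤ) (U : Finset P2) : Finset (P2 × P2) :=
  ((U.filter fun u => h u ≠ h (u.1 + 1, u.2)).image fun u => (u, (u.1 + 1, u.2))) ∪
  ((U.filter fun u => h u ≠ h (u.1, u.2 + 1)).image fun u => (u, (u.1, u.2 + 1))) ∪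
  ((U.filter fun u => h (u.1 + 1, u.2) ≠ h (u.1, u.2 + 1)).image fun u => ((u.1, u.2 + 1), (u.1 + 1, u.2)))

theorem card_nedges (h : P2 → ℤ) (U : Finset P2) :
    (nedges h U).card = ∑ u ∈ U, ((if h u ≠ h (u.1 + 1, u.2) then 1 else 0) +
      (if h u ≠ h (u.1, u.2 + 1) then 1 else 0) +
      (if h (u.1 + 1, u.2) ≠ h (u.1, u.2 + 1) then 1 else 0)) := by
  unfold nedges
  rw [Finset.card_union_of_disjoint, Finset.card_union_of_disjoint, Finset.card_image_of_injective,
    Finset.card_image_of_injective, Finset.card_image_of_injective, Finset.card_filter,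
    Finset.card_filter, Finset.card_filter, ← Finset.sum_add_distrib, ← Finset.sum_add_distrib]
  · intro a b hab
    simp only [Prod.mk.injEq] at hab
    ext <;> omega
  · intro a b hab
    exact (Prod.mk.injEq _ _ _ _ ▸ hab).1
  · intro a b hab
    exact (Prod.mk.injEq _ _ _ _ ▸ hab).1
  · rw [Finset.disjoint_left]
    rintro ⟨p, q⟩ h1 h2
    simp only [Finset.mem_image, Finset.mem_filter, Prod.ext_iff] at h1 h2
    obtain ⟨u, -, h3, h4⟩ := h1
    obtain ⟨v, -, h5, h6⟩ := h2
    omega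
  · rw [Finset.disjoint_left]
    rintro ⟨p, q⟩ h1 h2
    simp only [Finset.mem_union, Finset.mem_image, Finset.mem_filter, Prod.ext_iff] at h1 h2
    obtain ⟨v, -, h5, h6⟩ := h2
    rcases h1 with ⟨u, -, h3, h4⟩ | ⟨u, -, h3, h4⟩ <;> omega

theorem pow_card_nedges (x : ℝ) {h : P2 → ℤ} (hh : Lip h) (U : Finset P2) :
    x ^ (nedges h U).card = ∏ u ∈ U, tw x h u := by
  rw [card_nedges, ← Finset.prod_pow_eq_pow_sum]
  exact Finset.prod_congr rfl fun u _ => pow_edges x hh u

/-! ### S0195 -/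

/-- extension by zero -/
def extF {F : Finset P2} (h : Height F) : P2 → ℤ := fun v => if hv : v ∈ F then (h ⟨v, hv⟩ : ℤ) else 0

theorem extF_mem {F : Finset P2} (h : Height F) {v : P2} (hv : v ∈ F) : extF h v = (h ⟨v, hv⟩ : ℤ) := by
  simp [extF, hv]

theorem extF_coe {F : Finset P2} (h : Height F) (v : F) : extF h v = (h v : ℤ) := by
  simp [extF]

theorem extF_nmem {F : Finset P2} (h : Height F) {v : P2} (hv : v ∉ F) : extF h v = 0 := by
  simp [extF, hv]

theorem extF_inj {F : Finset P2} : Function.Injective (extF : Height F → P2 → ℤ) := by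
  intro h g e
  funext v
  have := congrFun e v
  rw [extF_coe, extF_coe] at this
  exact Subtype.ext this

theorem mem_bdry {F : Finset P2} {u : P2} : u ∈ bdryFaces F ↔ u ∈ F ∧ ∃ v, Adj u v ∧ v ∉ F := by
  classical
  simp [bdryFaces]

/-- the free sites of the discrete domain `F` -/
def intF (F : Finset P2) : Finset P2 := F \ bdryFaces F

theorem mem_intF {F : Finset P2} {u : P2} : u ∈ intF F ↔ u ∈ F ∧ ∀ v, Adj u v → v ∈ F := by
  classical
  simp only [intF, Finset.mem_sdiff, mem_bdry]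
  constructor
  · rintro ⟨h1, h2⟩
    refine ⟨h1, fun v hv => ?_⟩
    by_contra h3
    exact h2 ⟨h1, v, hv, h3⟩
  · rintro ⟨h1, h2⟩
    exact ⟨h1, fun ⟨_, v, hv, h3⟩ => h3 (h2 v hv)⟩

theorem IsAdmissible.mem_conf {F : Finset P2} {h : Height F} (hh : IsAdmissible h) :
    extF h ∈ conf (intF F) (fun _ => 0) := by
  classical
  have hz : ∀ v, v ∉ intF F → extF h v = 0 := by
    intro v hv
    by_cases hF : v ∈ F
    · rw [extF_mem h hF]
      refine hh.1 ⟨v, hF⟩ ?_
      rw [mem_bdry]
      rw [mem_intF] at hv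
      push Not at hv
      obtain ⟨w, hw⟩ := hv hF
      exact ⟨hF, w, hw⟩
    · exact extF_nmem h hF
  refine It844.mem_conf.2 ⟨fun u v huv => ?_, hz⟩
  by_cases hu : u ∈ F
  · by_cases hv : v ∈ F
    · rw [extF_mem h hu, extF_mem h hv]
      exact hh.2 ⟨u, hu⟩ ⟨v, hv⟩ huv
    · rw [hz u, hz v]
      · simp
      · exact fun h' => hv (mem_intF.1 h').1
      · exact fun h' => hv ((mem_intF.1 h').2 v huv)
  · rw [hz u, hz v]
    · simp
    · exact fun h' => hu ((mem_intF.1 h').2 u (adj_symm huv))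
    · exact fun h' => hu (mem_intF.1 h').1

theorem exists_height {F : Finset P2} {g : P2 → ℤ} (hg : g ∈ conf (intF F) (fun _ => 0)) :
    ∃ h : Height F, IsAdmissible h ∧ extF h = g := by
  classical
  obtain ⟨hL, h0⟩ := It844.mem_conf.1 hg
  have hb : ∀ v : P2, g v ∈ Set.Icc (-(F.card : ℤ)) (F.card : ℤ) := by
    intro v
    obtain ⟨j, hj, h1⟩ := hL.bound h0 v
    have h2 : (intF F).card ≤ F.card := Finset.card_le_card Finset.sdiff_subset
    rw [sub_zero] at h1
    have h3 : (j : ℤ) ≤ F.card := by exact_mod_cast hj.trans h2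
    rw [Set.mem_Icc, ← abs_le]
    exact h1.trans h3
  refine ⟨fun v => ⟨g v, hb v⟩, ⟨fun u hu => ?_, fun u v huv => hL u v huv⟩, ?_⟩
  · show g u = 0
    refine h0 _ ?_
    unfold intF
    simp [hu]
  · funext v
    by_cases hv : v ∈ F
    · rw [extF_mem _ hv]
    · rw [extF_nmem _ hv, h0]
      exact fun h' => hv (mem_intF.1 h').1

theorem changes_eq {F : Finset P2} {h : Height F} (hh : IsAdmissible h) :
    changes h = (nedges (extF h) (upT (intF F))).card := by
  classical
  have hc := It844.mem_conf.1 (IsAdmissible.mem_conf hh)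
  have hz : ∀ v, v ∉ intF F → extF h v = 0 := hc.2
  have key : ∀ p q : P2, extF h p ≠ extF h q → p ∈ intF F ∨ q ∈ intF F := by
    intro p q hpq
    by_contra hcon
    push Not at hcon
    exact hpq (by rw [hz p hcon.1, hz q hcon.2])
  have memF : ∀ p q : P2, Adj p q → extF h p ≠ extF h q → p ∈ F ∧ q ∈ F := by
    intro p q hpq hne
    rcases key p q hne with h1 | h1
    · exact ⟨(mem_intF.1 h1).1, (mem_intF.1 h1).2 q hpq⟩
    · exact ⟨(mem_intF.1 h1).2 p (adj_symm hpq), (mem_intF.1 h1).1⟩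
  unfold changes
  rw [← Finset.card_image_of_injective (f := fun q : F × F => ((q.1 : P2), (q.2 : P2)))]
  · congr 1
    ext ⟨p, q⟩
    simp only [Finset.mem_image, Finset.mem_filter, Finset.mem_univ, true_and, nedges,
      Finset.mem_union, Prod.mk.injEq, mem_upT]
    constructor
    · rintro ⟨⟨a, b⟩, ⟨hadj, hlex, hne⟩, h1, h2⟩
      simp only at hadj hlex hne h1 h2
      rw [← extF_coe, ← extF_coe, h1, h2] at hne
      rw [h1, h2] at hadj hlex
      have hk := key p q hne
      clear h1 h2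
      rcases adj_iff.1 hadj with e | e | e | e | e | e
      · subst e
        left; left
        refine ⟨p, ⟨?_, hne⟩, rfl, rfl⟩
        rcases hk with hk | hk
        · exact Or.inl hk
        · exact Or.inr (Or.inl hk)
      · exfalso; subst e; simp only at hlex; omega
      · subst e
        left; right
        refine ⟨p, ⟨?_, hne⟩, rfl, rfl⟩
        rcases hk with hk | hk
        · exact Or.inl hk
        · exact Or.inr (Or.inr hk)
      · exfalso; subst e; simp only at hlex; omega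
      · subst e
        right
        refine ⟨(p.1, p.2 - 1), ⟨?_, ?_⟩, ?_, rfl⟩
        · simp only [sub_add_cancel]
          rcases hk with hk | hk
          · exact Or.inr (Or.inr hk)
          · exact Or.inr (Or.inl hk)
        · simp only [sub_add_cancel]
          exact Ne.symm hne
        · simp
      · exfalso; subst e; simp only at hlex; omega
    · rintro ((⟨u, ⟨-, hne⟩, h1, h2⟩ | ⟨u, ⟨-, hne⟩, h1, h2⟩) | ⟨u, ⟨-, hne⟩, h1, h2⟩)
      · subst h1
        subst h2
        have hF := memF _ _ (adj_e1 u) hne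
        refine ⟨(⟨u, hF.1⟩, ⟨_, hF.2⟩), ⟨adj_e1 u, Or.inl ?_, ?_⟩, rfl, rfl⟩
        · simp
        · rw [← extF_coe, ← extF_coe]; exact hne
      · subst h1
        subst h2
        have hF := memF _ _ (adj_e2 u) hne
        refine ⟨(⟨u, hF.1⟩, ⟨_, hF.2⟩), ⟨adj_e2 u, Or.inr ?_, ?_⟩, rfl, rfl⟩
        · simp
        · rw [← extF_coe, ← extF_coe]; exact hne
      · subst h1
        subst h2
        have hF := memF _ _ (adj_e3 u) (Ne.symm hne)
        refine ⟨(⟨_, hF.1⟩, ⟨_, hF.2⟩), ⟨adj_e3 u, Or.inl ?_, ?_⟩, rfl, rfl⟩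
        · simp
        · rw [← extF_coe, ← extF_coe]; exact Ne.symm hne
  · rintro ⟨a, b⟩ ⟨c, d⟩ hab
    simp only [Prod.mk.injEq] at hab
    exact Prod.ext (Subtype.ext hab.1) (Subtype.ext hab.2)

theorem pow_changes (x : ℝ) {F : Finset P2} {h : Height F} (hh : IsAdmissible h) :
    x ^ changes h = wt x (intF F) (extF h) := by
  rw [changes_eq hh, pow_card_nedges x (It844.mem_conf.1 (IsAdmissible.mem_conf hh)).1]
  rfl

theorem sum_admissible {M : Type*} [AddCommMonoid M] (F : Finset P2) [DecidablePred fun h : Height F => IsAdmissible h]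
    (Φ : (P2 → ℤ) → M) :
    ∑ h ∈ Finset.univ.filter (fun h : Height F => IsAdmissible h), Φ (extF h) =
      ∑ h ∈ conf (intF F) (fun _ => 0), Φ h := by
  classical
  refine Finset.sum_bij (fun h _ => extF h) ?_ ?_ ?_ ?_
  · intro h hh
    exact IsAdmissible.mem_conf (Finset.mem_filter.1 hh).2
  · intro h _ g _ e
    exact extF_inj e
  · intro g hg
    obtain ⟨h, h1, h2⟩ := exists_height hg
    exact ⟨h, Finset.mem_filter.2 ⟨Finset.mem_univ _, h1⟩, h2⟩
  · intro h _; rfl

/-- **bridge for S0195** -/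
theorem heightExpect_eq (F : Finset P2) (x : ℝ) (g : Height F → ℂ) (G : (P2 → ℤ) → ℂ)
    (hg : ∀ h : Height F, IsAdmissible h → g h = G (extF h)) :
    heightExpect F x g = ex x (intF F) (fun _ => 0) G := by
  classical
  unfold heightExpect ex
  have e1 : (∑ h ∈ Finset.univ.filter (fun h : Height F => IsAdmissible h), (x : ℂ) ^ changes h * g h) =
      ∑ h ∈ conf (intF F) (fun _ => 0), wt x (intF F) h • G h := by
    rw [← sum_admissible F (fun h => wt x (intF F) h • G h)]
    refine Finset.sum_congr (by congr) fun h hh => ?_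
    have ha := (Finset.mem_filter.1 hh).2
    rw [hg h ha, ← pow_changes x ha, Complex.real_smul]
    push_cast
    rfl
  have e2 : (∑ h ∈ Finset.univ.filter (fun h : Height F => IsAdmissible h), (x : ℂ) ^ changes h) =
      ((Z x (intF F) (fun _ => 0) : ℝ) : ℂ) := by
    unfold Z
    rw [Complex.ofReal_sum, ← sum_admissible F (fun h => ((wt x (intF F) h : ℝ) : ℂ))]
    refine Finset.sum_congr (by congr) fun h hh => ?_
    have ha := (Finset.mem_filter.1 hh).2
    rw [← pow_changes x ha]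
    push_cast
    rfl
  have e1' := e1
  have e2' := e2
  convert (congrArg₂ (fun a b : ℂ => a / b) e1' e2') using 1
  rw [Complex.real_smul, Complex.ofReal_inv, div_eq_inv_mul]

/-! ### S0196 -/

section twoarc
open Crest.ProbabilityR.TriHeights (Tri corner corners verts IsEdge IntHeight IsTwoArcHeight twoArcExpect)

theorem corner_adj (t : Tri) {u v : P2} (hu : u ∈ corners t) (hv : v ∈ corners t) (h : u ≠ v) :
    Adj u v := by
  obtain ⟨⟨a, b⟩, c⟩ := t
  cases c <;>
  · simp only [corners, corner, Finset.mem_image, Finset.mem_univ, true_and, Fin.exists_fin_succ,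
      if_true, if_false, Bool.false_eq_true, Matrix.cons_val_zero, Matrix.cons_val_succ,
      Fin.exists_fin_zero, or_false, Matrix.cons_val_fin_one] at hu hv
    rcases hu with rfl | rfl | rfl <;> rcases hv with rfl | rfl | rfl <;>
      first
        | exact absurd rfl h
        | (unfold Adj; simp only; omega)

theorem IsEdge.adj {T : Finset Tri} {u v : P2} (h : IsEdge T u v) : Adj u v := by
  obtain ⟨h1, t, -, h2, h3⟩ := h
  exact corner_adj t h2 h3 h1

theorem IsEdge.mem {T : Finset Tri} {u v : P2} (h : IsEdge T u v) : u ∈ verts T ∧ v ∈ verts T := by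
  obtain ⟨-, t, ht, h2, h3⟩ := h
  exact ⟨Finset.mem_biUnion.2 ⟨t, ht, h2⟩, Finset.mem_biUnion.2 ⟨t, ht, h3⟩⟩

/-- boundary data of `S0196` (heights `H = (h - 1) / 2`): `-1` on the minus arc, `0` elsewhere -/
def xi (Am : Set P2) : P2 → ℤ :=
  haveI := Classical.decPred fun v => v ∈ Am
  fun v => if v ∈ Am then -1 else 0

theorem xi_cases (Am : Set P2) (v : P2) : xi Am v = -1 ∨ xi Am v = 0 := by
  unfold xi; split_ifs <;> simp

theorem lip_xi (Am : Set P2) : Lip (xi Am) := fun u v _ => by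
  rcases xi_cases Am u with h | h <;> rcases xi_cases Am v with h' | h' <;> rw [h, h'] <;> simp

/-- extension of an integer configuration on `verts T` by the boundary data -/
def extT {T : Finset Tri} (Am : Set P2) (H : IntHeight T) : P2 → ℤ :=
  fun v => if hv : v ∈ verts T then (H ⟨v, hv⟩ : ℤ) else xi Am v

theorem extT_mem {T : Finset Tri} (Am : Set P2) (H : IntHeight T) {v : P2} (hv : v ∈ verts T) :
    extT Am H v = (H ⟨v, hv⟩ : ℤ) := by simp [extT, hv]

theorem extT_coe {T : Finset Tri} (Am : Set P2) (H : IntHeight T) (v : verts T) :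
    extT Am H v = (H v : ℤ) := by simp [extT]

theorem extT_nmem {T : Finset Tri} (Am : Set P2) (H : IntHeight T) {v : P2} (hv : v ∉ verts T) :
    extT Am H v = xi Am v := by simp [extT, hv]

theorem extT_inj {T : Finset Tri} (Am : Set P2) :
    Function.Injective (extT Am : IntHeight T → P2 → ℤ) := by
  intro h g e
  funext v
  have := congrFun e v
  rw [extT_coe, extT_coe] at this
  exact Subtype.ext this

/-- `Λ` is the set of free vertices of the polygon `T` with arcs `Ap`, `Am` -/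
structure FreeSet (T : Finset Tri) (Ap Am : Set P2) (Λ : Finset P2) : Prop where
  vert : ∀ v ∈ Λ, v ∈ verts T
  nAp : ∀ v ∈ Λ, v ∉ Ap
  nAm : ∀ v ∈ Λ, v ∉ Am
  cover : ∀ v ∈ verts T, v ∉ Λ → v ∈ Ap ∨ v ∈ Am
  disj : ∀ v ∈ verts T, v ∈ Ap → v ∉ Am
  nbr : ∀ v ∈ Λ, ∀ w, Adj v w → IsEdge T v w

theorem FreeSet.xi_eq {T : Finset Tri} {Ap Am : Set P2} {Λ : Finset P2} (hF : FreeSet T Ap Am Λ)
    {H : IntHeight T} (hH : IsTwoArcHeight Ap Am H) {v : P2} (hv : v ∉ Λ) :
    extT Am H v = xi Am v := by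
  classical
  by_cases hT : v ∈ verts T
  · rw [extT_mem _ _ hT]
    rcases hF.cover v hT hv with h | h
    · rw [hH.1 ⟨v, hT⟩ h, xi, if_neg (hF.disj v hT h)]
    · rw [hH.2.1 ⟨v, hT⟩ h, xi, if_pos h]
  · exact extT_nmem _ _ hT

theorem FreeSet.mem_conf {T : Finset Tri} {Ap Am : Set P2} {Λ : Finset P2} (hF : FreeSet T Ap Am Λ)
    {H : IntHeight T} (hH : IsTwoArcHeight Ap Am H) : extT Am H ∈ conf Λ (xi Am) := by
  refine It844.mem_conf.2 ⟨fun u v huv => ?_, fun v hv => hF.xi_eq hH hv⟩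
  have key : ∀ u v : P2, IsEdge T u v → |extT Am H u - extT Am H v| ≤ 1 := by
    intro u v h
    rw [extT_mem _ _ (IsEdge.mem h).1, extT_mem _ _ (IsEdge.mem h).2]
    exact hH.2.2 ⟨u, (IsEdge.mem h).1⟩ ⟨v, (IsEdge.mem h).2⟩ h
  by_cases hu : u ∈ Λ
  · exact key u v (hF.nbr u hu v huv)
  · by_cases hv : v ∈ Λ
    · rw [abs_sub_comm]
      exact key v u (hF.nbr v hv u (adj_symm huv))
    · rw [hF.xi_eq hH hu, hF.xi_eq hH hv]
      exact lip_xi Am u v huv

theorem FreeSet.card_lt {T : Finset Tri} {Ap Am : Set P2} {Λ : Finset P2} (hF : FreeSet T Ap Am Λ)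
    (hne : (verts T).Nonempty) : Λ.card < (verts T).card := by
  refine Finset.card_lt_card ⟨hF.vert, fun hsub => ?_⟩
  obtain ⟨v, hv⟩ := hne
  have hvΛ := hsub hv
  obtain ⟨j, -, hjn, hji⟩ := exists_exit Λ v
  rcases Nat.eq_zero_or_pos j with rfl | hj
  · apply hjn; simpa using hvΛ
  · obtain ⟨i, rfl⟩ : ∃ i, j = i + 1 := ⟨j - 1, by omega⟩
    have h1 := hji i (Nat.lt_succ_self i)
    have h2 := hF.nbr _ h1 (v.1 + ((i + 1 : ℕ) : ℤ), v.2) (by
      unfold Adj; simp only; push_cast; omega)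
    exact hjn (hsub (IsEdge.mem h2).2)

theorem FreeSet.exists_height {T : Finset Tri} {Ap Am : Set P2} {Λ : Finset P2}
    (hF : FreeSet T Ap Am Λ) {g : P2 → ℤ} (hg : g ∈ conf Λ (xi Am)) :
    ∃ H : IntHeight T, IsTwoArcHeight Ap Am H ∧ extT Am H = g := by
  classical
  obtain ⟨hL, h0⟩ := It844.mem_conf.1 hg
  have hb : ∀ v ∈ verts T, g v ∈ Set.Icc (-((verts T).card : ℤ)) ((verts T).card : ℤ) := by
    intro v hv
    obtain ⟨j, hj, h1⟩ := hL.bound h0 v
    have h2 := hF.card_lt ⟨v, hv⟩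
    have h3 : (j : ℤ) + 1 ≤ (verts T).card := by exact_mod_cast (by omega : j + 1 ≤ (verts T).card)
    rw [Set.mem_Icc]
    rcases xi_cases Am (v.1 + (j : ℤ), v.2) with h | h <;> rw [h, abs_le] at h1 <;>
      constructor <;> omega
  refine ⟨fun v => ⟨g v, hb v v.2⟩, ⟨fun v hv => ?_, fun v hv => ?_, fun u v huv => hL u v (IsEdge.adj huv)⟩, ?_⟩
  · show g v = 0
    rw [h0 v (fun h => hF.nAp _ h hv), xi, if_neg (hF.disj v v.2 hv)]
  · show g v = -1
    rw [h0 v (fun h => hF.nAm _ h hv), xi, if_pos hv]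
  · funext v
    by_cases hv : v ∈ verts T
    · rw [extT_mem _ _ hv]
    · rw [extT_nmem _ _ hv, h0]
      exact fun h' => hv (hF.vert v h')

theorem wt_one (Λ : Finset P2) (h : P2 → ℤ) : wt 1 Λ h = 1 := by
  unfold wt tw
  refine Finset.prod_eq_one fun u _ => ?_
  split_ifs <;> norm_num

theorem Z_one (Λ : Finset P2) (τ : P2 → ℤ) : Z 1 Λ τ = ((conf Λ τ).card : ℝ) := by
  simp [Z, wt_one]

theorem FreeSet.sum_heights {M : Type*} [AddCommMonoid M] {T : Finset Tri} {Ap Am : Set P2}
    {Λ : Finset P2} (hF : FreeSet T Ap Am Λ)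
    [DecidablePred fun H : IntHeight T => IsTwoArcHeight Ap Am H] (Φ : (P2 → ℤ) → M) :
    ∑ H ∈ Finset.univ.filter (fun H : IntHeight T => IsTwoArcHeight Ap Am H), Φ (extT Am H) =
      ∑ h ∈ conf Λ (xi Am), Φ h := by
  classical
  refine Finset.sum_bij (fun H _ => extT Am H) ?_ ?_ ?_ ?_
  · intro H hH
    exact hF.mem_conf (Finset.mem_filter.1 hH).2
  · intro h _ g _ e
    exact extT_inj Am e
  · intro g hg
    obtain ⟨H, h1, h2⟩ := hF.exists_height hg
    exact ⟨H, Finset.mem_filter.2 ⟨Finset.mem_univ _, h1⟩, h2⟩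
  · intro h _; rfl

/-- **bridge for S0196** -/
theorem twoArcExpect_eq {T : Finset Tri} {Ap Am : Set P2} {Λ : Finset P2} (hF : FreeSet T Ap Am Λ)
    (g : IntHeight T → ℂ) (G : (P2 → ℤ) → ℂ)
    (hg : ∀ H : IntHeight T, IsTwoArcHeight Ap Am H → g H = G (extT Am H)) :
    twoArcExpect T Ap Am g = ex 1 Λ (xi Am) G := by
  classical
  unfold twoArcExpect ex
  have e1 : (∑ H ∈ Finset.univ.filter (fun H : IntHeight T => IsTwoArcHeight Ap Am H), g H) =
      ∑ h ∈ conf Λ (xi Am), wt 1 Λ h • G h := by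
    rw [← hF.sum_heights (fun h => wt 1 Λ h • G h)]
    refine Finset.sum_congr rfl fun H hH => ?_
    rw [hg H (Finset.mem_filter.1 hH).2, wt_one, one_smul]
  have e2 : ((Finset.univ.filter (fun H : IntHeight T => IsTwoArcHeight Ap Am H)).card : ℂ) =
      ((Z 1 Λ (xi Am) : ℝ) : ℂ) := by
    rw [Z_one]
    have := hF.sum_heights (fun _ => (1 : ℕ))
    simp only [Finset.sum_const, smul_eq_mul, mul_one] at this
    rw [this]
    simp
  convert (congrArg₂ (fun a b : ℂ => a / b) e1 e2) using 1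
  rw [Complex.real_smul, Complex.ofReal_inv, div_eq_inv_mul]

/-- `oddHeight` of a two-arc height is `2 h + 1` of the extension at the vertices of `T` -/
theorem oddHeight_eq {T : Finset Tri} (Am : Set P2) (H : IntHeight T) {u : P2} (hu : u ∈ verts T) :
    Crest.ProbabilityR.TriHeights.oddHeight H u = 2 * ((extT Am H u : ℤ) : ℝ) + 1 := by
  unfold Crest.ProbabilityR.TriHeights.oddHeight
  rw [dif_pos hu, extT_mem _ _ hu]

end twoarc

/-- the pairing of `S0195` in terms of the extension -/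
theorem pairing_eq (δ : ℝ) {F : Finset P2} (f : ℂ → ℝ) (h : Height F) :
    Crest.ProbabilityR.HexHeights.pairing δ f h =
      ∑ u ∈ F, (extF h u : ℝ) * ∫ z in Crest.ProbabilityR.HexHeights.cell δ u, f z := by
  unfold Crest.ProbabilityR.HexHeights.pairing
  rw [← Finset.sum_coe_sort F]
  refine Finset.sum_congr rfl fun u _ => ?_
  rw [extF_coe]

end Crest.Agent.R144.It844
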