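import Crest.Agent.R144.Ham2_560

/-!
R144 (S0197), helper620.  GLOBAL KORN INEQUALITY (doc 1585), part 1: the map
`T_t h = h + t (c - h)_+`, `c = h_v + γ`, and its change of variables.

`F` = free sites, `v` any site (free or not), `γ : U → ℝ`.
* `sset F ξ v γ h` : free sites `x ≠ v` with `h x < h v + γ x`;
* `push F ξ v γ t h`;
* `sset_push` : `sset (push t h) = sset h` for `t < 1`;
* `lintegral_push` : `∫⁻ ofReal ((1-t)^#sset h) * f (push t h) = ∫⁻ f`.
-/

set_option autoImplicit false

open MeasureTheory Set
open scoped ENNReal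

noncomputable section

namespace Crest.Agent.R144.Kor620

open Crest.Agent.R144.Ham560 (ext ham ext_mem ext_notMem continuous_ext extL ext_comb)

open scoped Classical in
/-- Free sites `x ≠ v` with `h x < h v + γ x`. -/
def sset {U : Type*} [DecidableEq U] (F : Finset U) (ξ : U → ℝ) (v : U) (γ : U → ℝ)
    (h : F → ℝ) : Finset F :=
  Finset.univ.filter fun x => (x : U) ≠ v ∧ h x < ext F ξ h v + γ x

variable {U : Type*} [DecidableEq U]

/-- The push towards `c = h v + γ` of the sites below `c`. -/
def push (F : Finset U) (ξ : U → ℝ) (v : U) (γ : U → ℝ) (t : ℝ) (h : F → ℝ) (x : F) : ℝ :=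
  if (x : U) = v then h x else h x + t * max 0 (ext F ξ h v + γ x - h x)

variable {F : Finset U} {ξ : U → ℝ} {v : U} {γ : U → ℝ}

theorem mem_sset {h : F → ℝ} {x : F} :
    x ∈ sset F ξ v γ h ↔ (x : U) ≠ v ∧ h x < ext F ξ h v + γ x := by
  simp [sset]

theorem push_of_mem {t : ℝ} {h : F → ℝ} {x : F} (hx : x ∈ sset F ξ v γ h) :
    push F ξ v γ t h x = h x + t * (ext F ξ h v + γ x - h x) := by
  obtain ⟨h1, h2⟩ := mem_sset.mp hx
  rw [push, if_neg h1, max_eq_right (by linarith)]

theorem push_of_notMem {t : ℝ} {h : F → ℝ} {x : F} (hx : x ∉ sset F ξ v γ h) :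
    push F ξ v γ t h x = h x := by
  rw [push]
  split_ifs with h1
  · rfl
  · have : ext F ξ h v + γ x - h x ≤ 0 := by
      by_contra h2
      exact hx (mem_sset.mpr ⟨h1, by linarith⟩)
    rw [max_eq_left this]; ring

theorem ext_push_v (t : ℝ) (h : F → ℝ) : ext F ξ (push F ξ v γ t h) v = ext F ξ h v := by
  by_cases hv : v ∈ F
  · rw [ext_mem hv, ext_mem hv, push, if_pos rfl]
  · rw [ext_notMem hv, ext_notMem hv]

theorem sset_push {t : ℝ} (ht1 : t < 1) (h : F → ℝ) :
    sset F ξ v γ (push F ξ v γ t h) = sset F ξ v γ h := by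
  ext x
  rw [mem_sset, ext_push_v]
  by_cases hx : x ∈ sset F ξ v γ h
  · have h2 := mem_sset.mp hx
    rw [push_of_mem hx]
    refine iff_of_true ⟨h2.1, ?_⟩ hx
    nlinarith [h2.2]
  · rw [push_of_notMem hx, ← mem_sset]

theorem continuous_push (t : ℝ) : Continuous (push F ξ v γ t) := by
  refine continuous_pi fun x => ?_
  by_cases hx : (x : U) = v
  · simp only [push, hx, if_true]; exact continuous_apply _
  · simp only [push, hx, if_false]
    exact (continuous_apply x).add (continuous_const.mul (continuous_const.max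
      (((continuous_ext v).add continuous_const).sub (continuous_apply x))))

/-- The affine map which coincides with `push t` where `sset = S`. -/
def lin (F : Finset U) (v : U) (S : Finset F) (t : ℝ) : (F → ℝ) →ₗ[ℝ] (F → ℝ) :=
  LinearMap.pi fun x => if x ∈ S then (1 - t) • LinearMap.proj x + t • extL F v else
    LinearMap.proj x

theorem lin_apply (S : Finset F) (t : ℝ) (h : F → ℝ) (x : F) :
    lin F v S t h x = if x ∈ S then (1 - t) * h x + t * ext F 0 h v else h x := by
  unfold lin
  rw [LinearMap.pi_apply]
  split_ifs <;> simp [extL]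

/-- Heights relative to `v`. -/
def shear (F : Finset U) (v : U) : (F → ℝ) ≃ₗ[ℝ] (F → ℝ) where
  toFun h x := if (x : U) = v then h x else h x - ext F 0 h v
  invFun h x := if (x : U) = v then h x else h x + ext F 0 h v
  map_add' h k := by
    ext x
    have : ext F 0 (h + k) v = ext F 0 h v + ext F 0 k v := (extL F v).map_add h k
    simp only [Pi.add_apply, this]; split_ifs <;> ring
  map_smul' c h := by
    ext x
    have : ext F 0 (c • h) v = c * ext F 0 h v := (extL F v).map_smul c h
    simp only [Pi.smul_apply, smul_eq_mul, RingHom.id_apply, this]; split_ifs <;> ring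
  left_inv h := by
    ext x
    have : ext F 0 (fun x : F => if (x : U) = v then h x else h x - ext F 0 h v) v =
        ext F 0 h v := by
      by_cases hv : v ∈ F
      · rw [ext_mem hv, ext_mem hv]; simp
      · rw [ext_notMem hv, ext_notMem hv]
    dsimp only
    rw [this]; split_ifs <;> ring
  right_inv h := by
    ext x
    have : ext F 0 (fun x : F => if (x : U) = v then h x else h x + ext F 0 h v) v =
        ext F 0 h v := by
      by_cases hv : v ∈ F
      · rw [ext_mem hv, ext_mem hv]; simp
      · rw [ext_notMem hv, ext_notMem hv]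
    dsimp only
    rw [this]; split_ifs <;> ring

theorem shear_apply (h : F → ℝ) (x : F) :
    shear F v h x = if (x : U) = v then h x else h x - ext F 0 h v := rfl

theorem det_lin {S : Finset F} (hS : ∀ x ∈ S, (x : U) ≠ v) (t : ℝ) :
    LinearMap.det (lin F v S t) = (1 - t) ^ S.card := by
  classical
  set D : (F → ℝ) →ₗ[ℝ] (F → ℝ) :=
    Matrix.toLin' (Matrix.diagonal fun x : F => if x ∈ S then 1 - t else 1) with hD
  have hDa : ∀ (h : F → ℝ) (x : F), D h x = (if x ∈ S then 1 - t else 1) * h x := by
    intro h x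
    rw [hD, Matrix.toLin'_apply, Matrix.mulVec_diagonal]
  have e1 : lin F v S t = ((shear F v).symm : (F → ℝ) →ₗ[ℝ] (F → ℝ)) ∘ₗ D ∘ₗ
      ((shear F v).symm.symm : (F → ℝ) →ₗ[ℝ] (F → ℝ)) := by
    apply LinearMap.ext
    intro h
    apply (shear F v).injective
    simp only [LinearEquiv.symm_symm, LinearMap.coe_comp, Function.comp_apply,
      LinearEquiv.coe_coe, LinearEquiv.apply_symm_apply]
    ext x
    rw [shear_apply, hDa, shear_apply]
    have hv' : ext F 0 (lin F v S t h) v = ext F 0 h v := by
      by_cases hv : v ∈ F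
      · rw [ext_mem hv, ext_mem hv, lin_apply, if_neg]
        intro hmem
        exact hS _ hmem rfl
      · rw [ext_notMem hv, ext_notMem hv]
    rw [hv', lin_apply]
    by_cases hx : x ∈ S
    · rw [if_neg (hS x hx), if_neg (hS x hx), if_pos hx, if_pos hx]; ring
    · rw [if_neg hx, if_neg hx, one_mul]
  rw [e1, LinearMap.det_conj, hD, LinearMap.det_toLin', Matrix.det_diagonal,
    Finset.prod_ite, Finset.prod_const, Finset.prod_const_one, mul_one]
  congr 2
  ext x
  simp

theorem measurableSet_sset (S : Finset F) : MeasurableSet {h : F → ℝ | sset F ξ v γ h = S} := by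
  have : {h : F → ℝ | sset F ξ v γ h = S} =
      ⋂ x : F, {h | ((x : U) ≠ v ∧ h x < ext F ξ h v + γ x) ↔ x ∈ S} := by
    ext h
    simp only [mem_ofPred_eq, mem_iInter]
    rw [Finset.ext_iff]
    exact forall_congr' fun x => by rw [mem_sset]
  rw [this]
  refine MeasurableSet.iInter fun x => ?_
  by_cases hx : (x : U) = v
  · by_cases hS : x ∈ S
    · simp [hx, hS]
    · simp [hx, hS]
  · have hm : MeasurableSet {h : F → ℝ | h x < ext F ξ h v + γ x} :=
      measurableSet_lt (measurable_pi_apply x)
        (((continuous_ext v).add continuous_const).measurable)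
    by_cases hS : x ∈ S
    · simpa [hx, hS] using hm
    · have e : {h : F → ℝ | ((x : U) ≠ v ∧ h x < ext F ξ h v + γ x) ↔ x ∈ S} =
          {h : F → ℝ | h x < ext F ξ h v + γ x}ᶜ := by
        ext h
        simp [hx, hS]
      rw [e]; exact hm.compl

theorem measurable_card_sset :
    Measurable fun h : F → ℝ => (sset F ξ v γ h).card := by
  classical
  refine measurable_to_countable' fun n => ?_
  have : (fun h : F → ℝ => (sset F ξ v γ h).card) ⁻¹' {n} =
      ⋃ S ∈ (Finset.univ.filter fun S : Finset F => S.card = n),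
        {h : F → ℝ | sset F ξ v γ h = S} := by
    ext h
    simp only [mem_preimage, mem_singleton_iff, mem_iUnion, Finset.mem_filter, Finset.mem_univ,
      true_and, exists_prop]
    exact ⟨fun h' => ⟨_, h', rfl⟩, fun ⟨S, h1, h2⟩ => by rw [← h1, ← show _ = S from h2]⟩
  rw [this]
  exact Finset.measurableSet_biUnion _ fun S _ => measurableSet_sset S

/-- **Change of variables** for `push`. -/
theorem lintegral_push {t : ℝ} (ht1 : t < 1) {f : (F → ℝ) → ℝ≥0∞} (hf : Measurable f) :
    ∫⁻ h, ENNReal.ofReal ((1 - t) ^ (sset F ξ v γ h).card) * f (push F ξ v γ t h) =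
      ∫⁻ h, f h := by
  classical
  have ht : 0 < 1 - t := by linarith
  have split : ∀ G : (F → ℝ) → ℝ≥0∞, (∀ S : Finset F, Measurable
      ({h : F → ℝ | sset F ξ v γ h = S}.indicator G)) →
      ∫⁻ h, G h = ∑ S : Finset F, ∫⁻ h, {h : F → ℝ | sset F ξ v γ h = S}.indicator G h := by
    intro G hG
    rw [← lintegral_finsetSum _ (fun S _ => hG S)]
    refine lintegral_congr fun h => ?_
    rw [Finset.sum_eq_single (sset F ξ v γ h)]
    · rw [indicator_of_mem (by rfl)]
    · intro S _ hS
      rw [indicator_of_notMem]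
      intro h'
      exact hS h'.symm
    · intro h'; exact absurd (Finset.mem_univ _) h'
  have hp : Measurable (push F ξ v γ t) := (continuous_push t).measurable
  rw [split f fun S => hf.indicator (measurableSet_sset S), split _ fun S => ?_]
  swap
  · have e : ({h : F → ℝ | sset F ξ v γ h = S}.indicator fun h =>
        ENNReal.ofReal ((1 - t) ^ (sset F ξ v γ h).card) * f (push F ξ v γ t h)) =
        {h : F → ℝ | sset F ξ v γ h = S}.indicator fun h =>
        ENNReal.ofReal ((1 - t) ^ S.card) * f (push F ξ v γ t h) := by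
      ext h
      by_cases hh : sset F ξ v γ h = S
      · rw [indicator_of_mem (by exact hh), indicator_of_mem (by exact hh), hh]
      · rw [indicator_of_notMem (by exact hh), indicator_of_notMem (by exact hh)]
    rw [e]
    exact ((hf.comp hp).const_mul _).indicator (measurableSet_sset S)
  refine Finset.sum_congr rfl fun S _ => ?_
  by_cases hne : ∀ x ∈ S, (x : U) ≠ v
  swap
  · -- empty
    have : {h : F → ℝ | sset F ξ v γ h = S} = ∅ := by
      rw [Set.eq_empty_iff_forall_notMem]
      intro h hh
      change sset F ξ v γ h = S at hh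
      apply hne
      intro x hx
      rw [← hh] at hx
      exact (mem_sset.mp hx).1
    simp [this]
  set k : (F → ℝ) → ℝ≥0∞ := {h : F → ℝ | sset F ξ v γ h = S}.indicator f with hk
  have hkm : Measurable k := hf.indicator (measurableSet_sset S)
  -- the affine map
  let b : F → ℝ := fun x => if x ∈ S then t * ((if v ∈ F then 0 else ξ v) + γ x) else 0
  have haff : ∀ h : F → ℝ, sset F ξ v γ h = S → push F ξ v γ t h = lin F v S t h + b := by
    intro h hh
    ext x
    rw [Pi.add_apply, lin_apply]
    by_cases hx : x ∈ S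
    · rw [if_pos hx, push_of_mem (hh ▸ hx)]
      simp only [b, if_pos hx]
      by_cases hv : v ∈ F
      · rw [ext_mem hv, ext_mem hv, if_pos hv]; ring
      · rw [ext_notMem hv, ext_notMem hv, if_neg hv]; simp; ring
    · rw [if_neg hx, push_of_notMem (hh ▸ hx)]
      simp only [b, if_neg hx, add_zero]
  have hback : ∀ h : F → ℝ, sset F ξ v γ (lin F v S t h + b) = S → sset F ξ v γ h = S := by
    intro h hh
    have hvv : ext F ξ (lin F v S t h + b) v = ext F ξ h v := by
      by_cases hv : v ∈ F
      · have h0 : (⟨v, hv⟩ : F) ∉ S := fun h' => hne _ h' rfl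
        rw [ext_mem hv, ext_mem hv, Pi.add_apply, lin_apply, if_neg h0]
        simp only [b, if_neg h0, add_zero]
      · rw [ext_notMem hv, ext_notMem hv]
    ext x
    have h1 := (Finset.ext_iff.mp hh) x
    rw [mem_sset, hvv, Pi.add_apply, lin_apply] at h1
    rw [mem_sset]
    by_cases hx : x ∈ S
    · rw [if_pos hx] at h1
      simp only [b, if_pos hx] at h1
      refine iff_of_true ⟨hne x hx, ?_⟩ hx
      have h2 := (h1.mpr hx).2
      have h3 : ext F 0 h v + (if v ∈ F then 0 else ξ v) = ext F ξ h v := by
        by_cases hv : v ∈ F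
        · rw [ext_mem hv, ext_mem hv, if_pos hv]; ring
        · rw [ext_notMem hv, ext_notMem hv, if_neg hv]; simp
      nlinarith [h2, h3]
    · rw [if_neg hx] at h1
      simp only [b, if_neg hx, add_zero] at h1
      exact h1
  have e1 : ∀ h, {h : F → ℝ | sset F ξ v γ h = S}.indicator (fun h =>
      ENNReal.ofReal ((1 - t) ^ (sset F ξ v γ h).card) * f (push F ξ v γ t h)) h =
      ENNReal.ofReal ((1 - t) ^ S.card) * k (lin F v S t h + b) := by
    intro h
    by_cases hh : sset F ξ v γ h = S
    · rw [indicator_of_mem (by exact hh), hh, ← haff h hh, hk, indicator_of_mem]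
      change sset F ξ v γ (push F ξ v γ t h) = S
      rw [sset_push ht1, hh]
    · rw [indicator_of_notMem (by exact hh), hk, indicator_of_notMem, mul_zero]
      intro h'
      exact hh (hback h h')
  rw [lintegral_congr e1, lintegral_const_mul' _ _ ENNReal.ofReal_ne_top]
  have hdet : LinearMap.det (lin F v S t) ≠ 0 := by
    rw [det_lin hne]; positivity
  have e2 : ∫⁻ h, k (lin F v S t h + b) =
      ENNReal.ofReal |(LinearMap.det (lin F v S t))⁻¹| * ∫⁻ h, k (h + b) := by
    have hm : Measurable (lin F v S t) :=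
      (LinearMap.continuous_of_finiteDimensional (lin F v S t)).measurable
    have hkb : Measurable fun h : F → ℝ => k (h + b) := hkm.comp (measurable_add_const b)
    rw [← lintegral_map (f := fun h : F → ℝ => k (h + b)) hkb hm,
      Real.map_linearMap_volume_pi_eq_smul_volume_pi hdet, lintegral_smul_measure]
    rfl
  rw [e2, lintegral_add_right_eq_self (μ := volume) k b, ← mul_assoc, det_lin hne,
    ← ENNReal.ofReal_mul (by positivity), abs_of_pos (by positivity),
    mul_inv_cancel₀ (by positivity)]
  simp

end Crest.Agent.R144.Kor620
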