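import Crest.Agent.R144.Coer1_761

/-!
R144 (S0197), helper761.  Korn inequality for the hammock (after helper620, doc 1585), part 1.

`lift M c t x` moves the coordinates `i ∈ M` with `x i < c x i` towards `c x i` by the
proportion `t`, where `c x` does not depend on the coordinates in `M`.

* `lintegral_lift_le` : `∫ (1-t)^{|low|} H (lift t x) ≤ ∫ H`;
* `transport` : comparison of a weighted `L²` norm on `B` with the `L²` norm on `A` and the
  Dirichlet energy, when `lift τ` maps `B` into `A` and the weight does not decrease along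
  the way.
-/

set_option autoImplicit false
set_option linter.unusedSectionVars false

open MeasureTheory Set
open scoped ENNReal

noncomputable section

namespace Crest.Agent.R144.Kor761

open Crest.Agent.R144.Coer761

theorem lintegral_affine {a : ℝ} (ha : 0 < a) (b : ℝ) {K : ℝ → ℝ≥0∞} (hK : Measurable K) :
    ENNReal.ofReal a * ∫⁻ s, K (a * s + b) = ∫⁻ s, K s := by
  have h1 : ∫⁻ s, K (a * s + b) = ∫⁻ y, K (y + b) ∂(Measure.map (a * ·) volume) := by
    exact (lintegral_map (f := fun y => K (y + b)) (hK.comp (measurable_add_const b))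
      (measurable_const_mul a)).symm
  rw [h1, Real.map_volume_mul_left ha.ne', lintegral_smul_measure, smul_eq_mul, ← mul_assoc,
    ← ENNReal.ofReal_mul ha.le, abs_of_pos (inv_pos.mpr ha), mul_inv_cancel₀ ha.ne',
    ENNReal.ofReal_one, one_mul, lintegral_add_right_eq_self K b]

theorem lintegral_push (c : ℝ) {t : ℝ} (ht1 : t < 1) {H : ℝ → ℝ≥0∞}
    (hH : Measurable H) :
    ∫⁻ s, (if s < c then ENNReal.ofReal (1 - t) else 1) * H (s + t * max (c - s) 0) =
      ∫⁻ s, H s := by
  have ha : 0 < 1 - t := by linarith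
  have h1 : ∀ s, (if s < c then ENNReal.ofReal (1 - t) else 1) * H (s + t * max (c - s) 0) =
      ENNReal.ofReal (1 - t) * (Iio c).indicator H ((1 - t) * s + t * c) +
        (Ici c).indicator H s := by
    intro s
    by_cases hs : s < c
    · have h2 : (1 - t) * s + t * c < c := by nlinarith
      have h3 : max (c - s) 0 = c - s := max_eq_left (by linarith)
      rw [if_pos hs, indicator_of_mem (show _ ∈ Iio c from h2),
        indicator_of_notMem (by simpa using hs), h3, add_zero]
      congr 2
      ring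
    · have h2 : ¬ (1 - t) * s + t * c < c := by
        push Not at hs ⊢
        nlinarith
      have h3 : max (c - s) 0 = 0 := max_eq_right (by linarith [not_lt.mp hs])
      rw [if_neg hs, indicator_of_notMem (by simpa using h2),
        indicator_of_mem (show s ∈ Ici c from not_lt.mp hs), h3]
      simp
  simp_rw [h1]
  have hm : Measurable ((Iio c).indicator H) := hH.indicator measurableSet_Iio
  rw [lintegral_add_right _ (hH.indicator measurableSet_Ici),
    lintegral_const_mul' _ _ ENNReal.ofReal_ne_top, lintegral_affine ha _ hm,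
    lintegral_indicator measurableSet_Iio, lintegral_indicator measurableSet_Ici]
  have := lintegral_add_compl (μ := volume) H (measurableSet_Iio (a := c))
  rwa [compl_Iio] at this

variable {ι : Type*} [Fintype ι] [DecidableEq ι]

theorem lintegral_le_of_fibre (i : ι) {f g : (ι → ℝ) → ℝ≥0∞} (hf : Measurable f)
    (hg : Measurable g)
    (h : ∀ x, ∫⁻ t, f (Function.update x i t) ≤ ∫⁻ t, g (Function.update x i t)) :
    ∫⁻ x, f x ≤ ∫⁻ x, g x := by
  have := lintegral_le_of_lmarginal_le (μ := fun _ : ι => (volume : Measure ℝ)) {i} hf hg ?_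
  · simpa [← volume_pi] using this
  · intro x
    rw [lmarginal_singleton, lmarginal_singleton]
    exact h x

/-- Displacement of the coordinates in `M` lying below `c`. -/
def disp (M : Finset ι) (c : (ι → ℝ) → ι → ℝ) (x : ι → ℝ) (i : ι) : ℝ :=
  if i ∈ M then max (c x i - x i) 0 else 0

/-- The partial lift. -/
def lift (M : Finset ι) (c : (ι → ℝ) → ι → ℝ) (t : ℝ) (x : ι → ℝ) : ι → ℝ :=
  x + t • disp M c x

/-- The coordinates which are moved. -/
def low (M : Finset ι) (c : (ι → ℝ) → ι → ℝ) (x : ι → ℝ) : Finset ι :=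
  M.filter fun i => x i < c x i

theorem lift_apply (M : Finset ι) (c : (ι → ℝ) → ι → ℝ) (t : ℝ) (x : ι → ℝ) (i : ι) :
    lift M c t x i = x i + t * disp M c x i := rfl

theorem continuous_disp (M : Finset ι) {c : (ι → ℝ) → ι → ℝ} (hc : Continuous c) :
    Continuous (disp M c) := by
  refine continuous_pi fun i => ?_
  unfold disp
  by_cases hi : i ∈ M
  · simp only [hi, if_true]
    fun_prop
  · simp only [hi, if_false]
    exact continuous_const

theorem continuous_lift (M : Finset ι) {c : (ι → ℝ) → ι → ℝ} (hc : Continuous c) :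
    Continuous fun p : (ι → ℝ) × ℝ => lift M c p.2 p.1 := by
  have := continuous_disp M hc
  unfold lift
  fun_prop

theorem nsq_disp_le {M : Finset ι} {c : (ι → ℝ) → ι → ℝ} {x : ι → ℝ} {L : ℝ}
    (hL : ∀ i ∈ M, x i < c x i → c x i - x i ≤ L) :
    nsq (disp M c x) ≤ (low M c x).card * L ^ 2 := by
  have h1 : nsq (disp M c x) = ∑ i ∈ low M c x, (c x i - x i) ^ 2 := by
    unfold nsq low
    rw [Finset.sum_filter, ← Finset.sum_subset (Finset.subset_univ M)]
    · refine Finset.sum_congr rfl fun i hi => ?_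
      unfold disp
      by_cases h : x i < c x i
      · rw [if_pos hi, if_pos h, max_eq_left (by linarith)]
      · rw [if_pos hi, if_neg h, max_eq_right (by linarith [not_lt.mp h])]
        norm_num
    · intro i _ hi
      simp [disp, hi]
  rw [h1, ← nsmul_eq_mul]
  refine Finset.sum_le_card_nsmul _ _ _ fun i hi => ?_
  rw [low, Finset.mem_filter] at hi
  have h2 := hL i hi.1 hi.2
  have h3 : 0 ≤ c x i - x i := by linarith [hi.2]
  exact pow_le_pow_left₀ h3 h2 2

/-- Weight of one coordinate. -/
def fac (c : (ι → ℝ) → ι → ℝ) (t : ℝ) (x : ι → ℝ) (i : ι) : ℝ≥0∞ :=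
  if x i < c x i then ENNReal.ofReal (1 - t) else 1

theorem measurable_fac {c : (ι → ℝ) → ι → ℝ} (hc : Continuous c) (t : ℝ) (i : ι) :
    Measurable fun x => fac c t x i := by
  unfold fac
  refine Measurable.ite ?_ measurable_const measurable_const
  exact measurableSet_lt (measurable_pi_apply i) ((continuous_apply i).comp hc).measurable

theorem prod_fac (M : Finset ι) (c : (ι → ℝ) → ι → ℝ) {t : ℝ} (ht : t ≤ 1) (x : ι → ℝ) :
    ∏ i ∈ M, fac c t x i = ENNReal.ofReal ((1 - t) ^ (low M c x).card) := by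
  unfold fac low
  rw [Finset.prod_ite, Finset.prod_const, Finset.prod_const_one, mul_one,
    ENNReal.ofReal_pow (by linarith)]

theorem lintegral_one {c : (ι → ℝ) → ι → ℝ} (hc : Continuous c) (i : ι)
    (hci : ∀ x t, c (Function.update x i t) = c x) {t : ℝ} (ht0 : 0 ≤ t) (ht1 : t < 1)
    {H : (ι → ℝ) → ℝ≥0∞} (hH : Measurable H) :
    ∫⁻ x, fac c t x i * H (Function.update x i (x i + t * max (c x i - x i) 0)) ≤
      ∫⁻ x, H x := by
  have hcm : Measurable fun x : ι → ℝ =>
      Function.update x i (x i + t * max (c x i - x i) 0) := by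
    refine measurable_pi_iff.mpr fun j => ?_
    by_cases hj : j = i
    · subst hj
      simp only [Function.update_self]
      have : Continuous fun x : ι → ℝ => c x j := (continuous_apply j).comp hc
      exact (by fun_prop : Continuous fun x : ι → ℝ => x j + t * max (c x j - x j) 0).measurable
    · simp only [Function.update_of_ne hj]
      exact measurable_pi_apply j
  refine lintegral_le_of_fibre i ((measurable_fac hc t i).mul (hH.comp hcm)) hH fun x => ?_
  refine le_of_eq ?_
  have h1 := lintegral_push (c x i) ht1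
    (H := fun s => H (Function.update x i s)) (hH.comp (measurable_update x))
  rw [← h1]
  refine lintegral_congr fun s => ?_
  simp only [fac, hci, Function.update_self, Function.update_idem]

theorem lintegral_prod_fac_le {c : (ι → ℝ) → ι → ℝ} (hc : Continuous c) {t : ℝ} (ht0 : 0 ≤ t)
    (ht1 : t < 1) (M : Finset ι) (hcM : ∀ i ∈ M, ∀ x s, c (Function.update x i s) = c x)
    {H : (ι → ℝ) → ℝ≥0∞} (hH : Measurable H) :
    ∫⁻ x, (∏ i ∈ M, fac c t x i) * H (lift M c t x) ≤ ∫⁻ x, H x := by
  induction M using Finset.induction_on with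
  | empty =>
    have h1 : ∀ x, lift (∅ : Finset ι) c t x = x := by
      intro x; ext i; simp [lift_apply, disp]
    simp [h1]
  | insert i M hi ih =>
    have ih' := ih fun j hj => hcM j (Finset.mem_insert_of_mem hj)
    have hci := hcM i (Finset.mem_insert_self i M)
    have hm : Measurable fun y => (∏ j ∈ M, fac c t y j) * H (lift M c t y) := by
      refine (Finset.measurable_fun_prod M fun j _ => measurable_fac hc t j).mul ?_
      have := (continuous_lift M hc).comp (Continuous.prodMk_left t)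
      exact hH.comp this.measurable
    refine le_trans (le_of_eq ?_) ((lintegral_one hc i hci ht0 ht1 hm).trans ih')
    refine lintegral_congr fun x => ?_
    rw [Finset.prod_insert hi, mul_assoc]
    congr 1
    have e1 : ∏ j ∈ M, fac c t (Function.update x i (x i + t * max (c x i - x i) 0)) j =
        ∏ j ∈ M, fac c t x j := by
      refine Finset.prod_congr rfl fun j hj => ?_
      have hji : j ≠ i := fun h => hi (h ▸ hj)
      simp only [fac, hci, Function.update_of_ne hji]
    have e2 : lift M c t (Function.update x i (x i + t * max (c x i - x i) 0)) =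
        lift (insert i M) c t x := by
      ext j
      rw [lift_apply, lift_apply]
      by_cases hji : j = i
      · subst hji
        simp [disp, hi]
      · simp [disp, hci, hji]
    rw [e1, e2]

theorem lintegral_lift_le {c : (ι → ℝ) → ι → ℝ} (hc : Continuous c) {t : ℝ} (ht0 : 0 ≤ t)
    (ht1 : t < 1) (M : Finset ι) (hcM : ∀ i ∈ M, ∀ x s, c (Function.update x i s) = c x)
    {H : (ι → ℝ) → ℝ≥0∞} (hH : Measurable H) :
    ∫⁻ x, ENNReal.ofReal ((1 - t) ^ (low M c x).card) * H (lift M c t x) ≤ ∫⁻ x, H x := by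
  simp_rw [← prod_fac M c ht1.le]
  exact lintegral_prod_fac_le hc ht0 ht1 M hcM hH

/-- The weight of the Korn inequality. -/
def wt (τ : ℝ) (n : ℕ) : ℝ := (1 - τ) ^ n / (n + 1)

theorem wt_nonneg {τ : ℝ} (h : τ ≤ 1) (n : ℕ) : 0 ≤ wt τ n := by
  unfold wt
  have : 0 ≤ 1 - τ := by linarith
  positivity

theorem wt_le {τ : ℝ} (h : τ ≤ 1) (n : ℕ) : wt τ n ≤ (1 - τ) ^ n := by
  unfold wt
  have : 0 ≤ 1 - τ := by linarith
  exact div_le_self (by positivity) (by linarith [Nat.cast_nonneg (α := ℝ) n])

theorem wt_mul_le {τ : ℝ} (h : τ ≤ 1) (n : ℕ) : wt τ n * n ≤ (1 - τ) ^ n := by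
  unfold wt
  have h1 : 0 ≤ 1 - τ := by linarith
  have h2 : (0:ℝ) < n + 1 := by positivity
  rw [div_mul_eq_mul_div, div_le_iff₀ h2]
  have : 0 ≤ (1 - τ) ^ n := by positivity
  nlinarith

theorem measurable_card_low {c : (ι → ℝ) → ι → ℝ} (hc : Continuous c) (M : Finset ι) :
    Measurable fun x => (low M c x).card := by
  have h1 : ∀ x, (low M c x).card = ∑ i ∈ M, if x i < c x i then 1 else 0 := by
    intro x
    rw [low, Finset.card_filter]
  simp_rw [h1]
  refine Finset.measurable_fun_sum M fun i _ => ?_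
  refine Measurable.ite ?_ measurable_const measurable_const
  exact measurableSet_lt (measurable_pi_apply i) ((continuous_apply i).comp hc).measurable

set_option maxHeartbeats 2000000 in
/-- Transport of a weighted `L²` norm along the lift. -/
theorem transport {c : (ι → ℝ) → ι → ℝ} (hc : Continuous c) (M : Finset ι)
    (hcM : ∀ i ∈ M, ∀ x s, c (Function.update x i s) = c x)
    {g : (ι → ℝ) → ℝ} {G : (ι → ℝ) → ι → ℝ} (h : IsGrad g G) (hg : Measurable g)
    {W : (ι → ℝ) → ℝ≥0∞} (hWm : Measurable W) {A B : Set (ι → ℝ)} (hA : MeasurableSet A)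
    (hB : MeasurableSet B) {τ L : ℝ} (hτ0 : 0 ≤ τ) (hτ1 : τ < 1)
    (hW : ∀ x ∈ B, ∀ s, 0 ≤ s → s ≤ τ → W x ≤ W (lift M c s x))
    (hBA : ∀ x ∈ B, lift M c τ x ∈ A)
    (hL : ∀ x ∈ B, ∀ i ∈ M, x i < c x i → c x i - x i ≤ L) :
    ∫⁻ x in B, ENNReal.ofReal (wt τ (low M c x).card) * ENNReal.ofReal (g x ^ 2) * W x ≤
      2 * (∫⁻ x in A, ENNReal.ofReal (g x ^ 2) * W x) +
      ENNReal.ofReal (2 * L ^ 2 * τ ^ 2) * ∫⁻ x, ENNReal.ofReal (nsq (G x)) * W x := by
  have hGc := h.cont
  have hGn : Continuous fun x => nsq (G x) := measurable_nsq_comp hGc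
  have hcl := continuous_lift M hc
  -- the integrand of the energy term
  set Φ : ℝ → (ι → ℝ) → ℝ≥0∞ := fun s x => ENNReal.ofReal ((1 - s) ^ (low M c x).card) *
    (ENNReal.ofReal (nsq (G (lift M c s x))) * W (lift M c s x)) with hΦ
  have hΦm : Measurable fun p : (ι → ℝ) × ℝ => Φ p.2 p.1 := by
    have h1 : Measurable fun p : (ι → ℝ) × ℝ => (1 - p.2) ^ (low M c p.1).card :=
      (measurable_const.sub measurable_snd).pow ((measurable_card_low hc M).comp measurable_fst)
    have h2 : Measurable fun p : (ι → ℝ) × ℝ => nsq (G (lift M c p.2 p.1)) :=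
      (hGn.comp hcl).measurable
    exact h1.ennreal_ofReal.mul (h2.ennreal_ofReal.mul (hWm.comp hcl.measurable))
  have hpt : ∀ x ∈ B,
      ENNReal.ofReal (wt τ (low M c x).card) * ENNReal.ofReal (g x ^ 2) * W x ≤
      ENNReal.ofReal (2 * L ^ 2 * τ) * (∫⁻ s in Ioc (0:ℝ) τ, Φ s x) +
      2 * (ENNReal.ofReal ((1 - τ) ^ (low M c x).card) *
        A.indicator (fun y => ENNReal.ofReal (g y ^ 2) * W y) (lift M c τ x)) := by
    intro x hx
    set n := (low M c x).card with hn
    have hL2 : nsq (disp M c x) ≤ n * L ^ 2 := nsq_disp_le (hL x hx)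
    have h1 : g x ^ 2 ≤ 2 * (g (x + τ • disp M c x) - g x) ^ 2 + 2 * g (lift M c τ x) ^ 2 := by
      have : lift M c τ x = x + τ • disp M c x := rfl
      rw [this]
      nlinarith [sq_nonneg (2 * g (x + τ • disp M c x) - g x)]
    have h2 := sub_sq_le_segment h x (disp M c x) hτ0
    have hc1 : Continuous fun s : ℝ => nsq (G (x + s • disp M c x)) * nsq (disp M c x) := by
      unfold nsq; fun_prop
    have hc2 : Continuous fun s : ℝ => nsq (G (lift M c s x)) := by
      unfold nsq lift; fun_prop
    have hc3 : Continuous fun s : ℝ => (1 - s) ^ n * nsq (G (lift M c s x)) := by fun_prop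
    have hwt := wt_nonneg hτ1.le n
    have h1τ : 0 ≤ 1 - τ := by linarith
    -- real inequality
    have h3 : wt τ n * ∫ s in (0:ℝ)..τ, nsq (G (x + s • disp M c x)) * nsq (disp M c x) ≤
        L ^ 2 * ∫ s in (0:ℝ)..τ, (1 - s) ^ n * nsq (G (lift M c s x)) := by
      rw [← intervalIntegral.integral_const_mul, ← intervalIntegral.integral_const_mul]
      refine intervalIntegral.integral_mono_on hτ0
        ((continuous_const.mul hc1).intervalIntegrable _ _)
        ((continuous_const.mul hc3).intervalIntegrable _ _) fun s hs => ?_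
      have e : lift M c s x = x + s • disp M c x := rfl
      rw [e]
      have h4 : wt τ n * nsq (disp M c x) ≤ (1 - s) ^ n * L ^ 2 := by
        calc wt τ n * nsq (disp M c x) ≤ wt τ n * (n * L ^ 2) := by gcongr
          _ = (wt τ n * n) * L ^ 2 := by ring
          _ ≤ (1 - τ) ^ n * L ^ 2 := by gcongr; exact wt_mul_le hτ1.le n
          _ ≤ (1 - s) ^ n * L ^ 2 := by
              gcongr
              exact hs.2
      have h5 := nsq_nonneg (G (x + s • disp M c x))
      calc wt τ n * (nsq (G (x + s • disp M c x)) * nsq (disp M c x))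
          = nsq (G (x + s • disp M c x)) * (wt τ n * nsq (disp M c x)) := by ring
        _ ≤ nsq (G (x + s • disp M c x)) * ((1 - s) ^ n * L ^ 2) := by gcongr
        _ = _ := by ring
    have h6 : wt τ n * g x ^ 2 ≤
        (2 * L ^ 2 * τ) * (∫ s in (0:ℝ)..τ, (1 - s) ^ n * nsq (G (lift M c s x))) +
        2 * ((1 - τ) ^ n * g (lift M c τ x) ^ 2) := by
      calc wt τ n * g x ^ 2 ≤ wt τ n * (2 * (g (x + τ • disp M c x) - g x) ^ 2 +
            2 * g (lift M c τ x) ^ 2) := by gcongr
        _ ≤ wt τ n * (2 * (τ * ∫ s in (0:ℝ)..τ,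
              nsq (G (x + s • disp M c x)) * nsq (disp M c x)) + 2 * g (lift M c τ x) ^ 2) := by
            gcongr
        _ = 2 * τ * (wt τ n * ∫ s in (0:ℝ)..τ,
              nsq (G (x + s • disp M c x)) * nsq (disp M c x)) +
              2 * (wt τ n * g (lift M c τ x) ^ 2) := by ring
        _ ≤ 2 * τ * (L ^ 2 * ∫ s in (0:ℝ)..τ, (1 - s) ^ n * nsq (G (lift M c s x))) +
              2 * ((1 - τ) ^ n * g (lift M c τ x) ^ 2) := by
            gcongr
            exact wt_le hτ1.le n
        _ = _ := by ring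
    have hI0 : 0 ≤ ∫ s in (0:ℝ)..τ, (1 - s) ^ n * nsq (G (lift M c s x)) :=
      intervalIntegral.integral_nonneg hτ0 fun s hs =>
        mul_nonneg (pow_nonneg (by linarith [hs.2]) _) (nsq_nonneg _)
    have h7 : ENNReal.ofReal (∫ s in (0:ℝ)..τ, (1 - s) ^ n * nsq (G (lift M c s x))) * W x ≤
        ∫⁻ s in Ioc (0:ℝ) τ, Φ s x := by
      rw [intervalIntegral.integral_of_le hτ0, ofReal_integral_eq_lintegral_ofReal]
      · rw [← lintegral_mul_const _ hc3.measurable.ennreal_ofReal]
        have hpm : Measurable fun s : ℝ => ((x, s) : (ι → ℝ) × ℝ) :=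
          measurable_const.prodMk measurable_id
        have hΦx : Measurable fun s => Φ s x := Measurable.comp (g := fun p : (ι → ℝ) × ℝ =>
          Φ p.2 p.1) (f := fun s : ℝ => ((x, s) : (ι → ℝ) × ℝ)) hΦm hpm
        refine setLIntegral_mono hΦx fun s hs => ?_
        · have h8 : 0 ≤ (1 - s) ^ n := pow_nonneg (by linarith [hs.2]) _
          simp only [hΦ]
          rw [ENNReal.ofReal_mul h8, mul_assoc, ← hn]
          gcongr
          exact hW x hx s hs.1.le hs.2
      · exact (hc3.intervalIntegrable 0 τ).1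
      · refine (ae_restrict_iff' measurableSet_Ioc).mpr (Filter.Eventually.of_forall fun s hs => ?_)
        exact mul_nonneg (pow_nonneg (by linarith [hs.2]) _) (nsq_nonneg _)
    rw [indicator_of_mem (hBA x hx), ← ENNReal.ofReal_mul hwt]
    calc ENNReal.ofReal (wt τ n * g x ^ 2) * W x
        ≤ ENNReal.ofReal ((2 * L ^ 2 * τ) *
          (∫ s in (0:ℝ)..τ, (1 - s) ^ n * nsq (G (lift M c s x))) +
          2 * ((1 - τ) ^ n * g (lift M c τ x) ^ 2)) * W x := by gcongr
      _ = ENNReal.ofReal (2 * L ^ 2 * τ) *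
          (ENNReal.ofReal (∫ s in (0:ℝ)..τ, (1 - s) ^ n * nsq (G (lift M c s x))) * W x) +
          2 * (ENNReal.ofReal ((1 - τ) ^ n) * (ENNReal.ofReal (g (lift M c τ x) ^ 2) * W x)) := by
          have hτL : 0 ≤ 2 * L ^ 2 * τ := by positivity
          have hp : 0 ≤ (1 - τ) ^ n := by positivity
          rw [ENNReal.ofReal_add (by positivity) (by positivity), ENNReal.ofReal_mul hτL,
            ENNReal.ofReal_mul (by norm_num : (0:ℝ) ≤ 2), ENNReal.ofReal_mul hp]
          simp only [ENNReal.ofReal_ofNat]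
          ring
      _ ≤ ENNReal.ofReal (2 * L ^ 2 * τ) * (∫⁻ s in Ioc (0:ℝ) τ, Φ s x) +
          2 * (ENNReal.ofReal ((1 - τ) ^ n) *
            (ENNReal.ofReal (g (lift M c τ x) ^ 2) * W (lift M c τ x))) := by
          gcongr
          exact hW x hx τ hτ0 le_rfl
  -- integrate
  have hm1 : Measurable fun x => ENNReal.ofReal (2 * L ^ 2 * τ) *
      (∫⁻ s in Ioc (0:ℝ) τ, Φ s x) :=
    (hΦm.lintegral_prod_right' (ν := volume.restrict (Ioc (0:ℝ) τ))).const_mul _
  have hmA : Measurable (A.indicator fun y => ENNReal.ofReal (g y ^ 2) * W y) :=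
    ((hg.pow_const 2).ennreal_ofReal.mul hWm).indicator hA
  calc ∫⁻ x in B, ENNReal.ofReal (wt τ (low M c x).card) * ENNReal.ofReal (g x ^ 2) * W x
      ≤ ∫⁻ x in B, (ENNReal.ofReal (2 * L ^ 2 * τ) * (∫⁻ s in Ioc (0:ℝ) τ, Φ s x) +
        2 * (ENNReal.ofReal ((1 - τ) ^ (low M c x).card) *
          A.indicator (fun y => ENNReal.ofReal (g y ^ 2) * W y) (lift M c τ x))) := by
        refine setLIntegral_mono' hB hpt
    _ ≤ ∫⁻ x, (ENNReal.ofReal (2 * L ^ 2 * τ) * (∫⁻ s in Ioc (0:ℝ) τ, Φ s x) +
        2 * (ENNReal.ofReal ((1 - τ) ^ (low M c x).card) *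
          A.indicator (fun y => ENNReal.ofReal (g y ^ 2) * W y) (lift M c τ x))) :=
        setLIntegral_le_lintegral _ _
    _ = ENNReal.ofReal (2 * L ^ 2 * τ) * (∫⁻ x, ∫⁻ s in Ioc (0:ℝ) τ, Φ s x) +
        2 * ∫⁻ x, ENNReal.ofReal ((1 - τ) ^ (low M c x).card) *
          A.indicator (fun y => ENNReal.ofReal (g y ^ 2) * W y) (lift M c τ x) := by
        rw [lintegral_add_left hm1, lintegral_const_mul' _ _ ENNReal.ofReal_ne_top,
          lintegral_const_mul' _ _ (by simp)]
    _ ≤ ENNReal.ofReal (2 * L ^ 2 * τ) * (ENNReal.ofReal τ *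
          ∫⁻ x, ENNReal.ofReal (nsq (G x)) * W x) +
        2 * ∫⁻ x, A.indicator (fun y => ENNReal.ofReal (g y ^ 2) * W y) x := by
        gcongr ?_ * ?_ + 2 * ?_
        · exact le_rfl
        · rw [lintegral_lintegral_swap hΦm.aemeasurable]
          calc ∫⁻ s in Ioc (0:ℝ) τ, ∫⁻ x, Φ s x
              ≤ ∫⁻ s in Ioc (0:ℝ) τ, ∫⁻ x, ENNReal.ofReal (nsq (G x)) * W x := by
                refine setLIntegral_mono measurable_const fun s hs => ?_
                exact lintegral_lift_le hc hs.1.le (lt_of_le_of_lt hs.2 hτ1) M hcM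
                  (H := fun y => ENNReal.ofReal (nsq (G y)) * W y)
                  (hGn.measurable.ennreal_ofReal.mul hWm)
            _ = _ := by
                rw [setLIntegral_const, Real.volume_Ioc, sub_zero, mul_comm]
        · exact lintegral_lift_le hc hτ0 hτ1 M hcM hmA
    _ = _ := by
        rw [lintegral_indicator hA, ← mul_assoc, ← ENNReal.ofReal_mul (by positivity),
          show 2 * L ^ 2 * τ * τ = 2 * L ^ 2 * τ ^ 2 by ring, add_comm]

end Crest.Agent.R144.Kor761
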