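import Crest.Agent.R144.Kor1_620

/-!
R144 (S0197), helper620.  GLOBAL KORN INEQUALITY (doc 1585), part 2.

`kor_main` : for `ζ` of class `C¹` vanishing on the single wall `h u - h v = 1` of the hammock
polytope `K = ham F E ξ`,
`∫_{K ∩ B} ρ w ζ² ≤ C ∫_K ρ ∑_x (∂_x ζ)²`,
`w = r ^ #S / (#S + 1)`, `S = {x : h x < h v + γ x}`, `B = {h : push 1 h ∈ K}`.
-/

set_option autoImplicit false

open MeasureTheory Set
open scoped ENNReal

noncomputable section

namespace Crest.Agent.R144.Kor620

open Crest.Agent.R144.Ham560 (ext ham ext_mem ext_notMem continuous_ext extL ext_comb nbr mem_nbr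
  ext_update isClosed_ham measurableSet_ham convex_ham)

/-- Cauchy–Schwarz on an interval. -/
theorem sq_integral_le {a b : ℝ} (hab : a ≤ b) {f : ℝ → ℝ} (hf : ContinuousOn f (Icc a b)) :
    (∫ s in a..b, f s) ^ 2 ≤ (b - a) * ∫ s in a..b, f s ^ 2 := by
  rcases eq_or_lt_of_le hab with rfl | hlt
  · simp
  set m := ∫ s in a..b, f s with hm
  have hu : uIcc a b = Icc a b := uIcc_of_le hab
  have i1 : IntervalIntegrable f volume a b := (hu ▸ hf).intervalIntegrable
  have i2 : IntervalIntegrable (fun s => f s ^ 2) volume a b :=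
    ((hu ▸ hf).pow 2).intervalIntegrable
  have h0 : 0 ≤ ∫ s in a..b, ((b - a) * f s - m) ^ 2 :=
    intervalIntegral.integral_nonneg hab fun s _ => sq_nonneg _
  have h1 : ∫ s in a..b, ((b - a) * f s - m) ^ 2 =
      (b - a) ^ 2 * (∫ s in a..b, f s ^ 2) - 2 * (b - a) * m * m + m ^ 2 * (b - a) := by
    have e : ∀ s, ((b - a) * f s - m) ^ 2 =
        (b - a) ^ 2 * f s ^ 2 - 2 * (b - a) * m * f s + m ^ 2 := by intro s; ring
    simp only [e]
    rw [intervalIntegral.integral_add ((i2.const_mul _).sub (i1.const_mul _))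
      intervalIntegrable_const, intervalIntegral.integral_sub (i2.const_mul _) (i1.const_mul _),
      intervalIntegral.integral_const_mul, intervalIntegral.integral_const_mul,
      intervalIntegral.integral_const, ← hm, smul_eq_mul]
    ring
  rw [h1] at h0
  have hpos : 0 < b - a := by linarith
  have h2 : 0 ≤ (b - a) * ((b - a) * (∫ s in a..b, f s ^ 2) - m ^ 2) := by linarith
  have h3 := (mul_nonneg_iff_of_pos_left hpos).mp h2
  linarith

/-- The fundamental theorem of calculus with Cauchy–Schwarz, in `ℝ≥0∞`. -/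
theorem sq_sub_le {a b : ℝ} (hab : a ≤ b) {z z' : ℝ → ℝ}
    (hz : ∀ s ∈ Icc a b, HasDerivAt z (z' s) s) (hz' : ContinuousOn z' (Icc a b)) :
    ENNReal.ofReal ((z b - z a) ^ 2) ≤
      ENNReal.ofReal (b - a) * ∫⁻ s in Icc a b, ENNReal.ofReal (z' s ^ 2) := by
  have hu : uIcc a b = Icc a b := uIcc_of_le hab
  have h1 : ∫ s in a..b, z' s = z b - z a := by
    refine intervalIntegral.integral_eq_sub_of_hasDerivAt (fun s hs => hz s (hu ▸ hs)) ?_
    exact (hu ▸ hz').intervalIntegrable
  rw [← h1]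
  have h2 := sq_integral_le hab hz'
  refine (ENNReal.ofReal_le_ofReal h2).trans ?_
  rw [ENNReal.ofReal_mul (by linarith)]
  gcongr
  rw [intervalIntegral.integral_of_le hab, ← integral_Icc_eq_integral_Ioc,
    ofReal_integral_eq_lintegral_ofReal]
  · exact (hz'.pow 2).integrableOn_Icc
  · exact Filter.Eventually.of_forall fun s => sq_nonneg _

/-- One-dimensional link. -/
theorem link_one {a b : ℝ} {z z' : ℝ → ℝ}
    (hz : ∀ s ∈ Icc a b, HasDerivAt z (z' s) s) (hz' : ContinuousOn z' (Icc a b)) (hzb : z b = 0)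
    {s : ℝ} (hs : s ∈ Icc a b) :
    ENNReal.ofReal (z s ^ 2) ≤
      ENNReal.ofReal (b - a) * ∫⁻ s in Icc a b, ENNReal.ofReal (z' s ^ 2) := by
  have hsub : Icc s b ⊆ Icc a b := Icc_subset_Icc_left hs.1
  have h := sq_sub_le hs.2 (fun r hr => hz r (hsub hr)) (hz'.mono hsub)
  rw [hzb, zero_sub, neg_sq] at h
  refine h.trans ?_
  gcongr
  · exact hs.1

variable {U : Type*} [DecidableEq U] {F : Finset U} {E : Finset (U × U)} {ξ : U → ℝ}

/-- Partial derivative. -/
def pd (ζ : (F → ℝ) → ℝ) (x : F) (h : F → ℝ) : ℝ := fderiv ℝ ζ h (Pi.single x 1)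

/-- Energy density. -/
def en (ζ : (F → ℝ) → ℝ) (h : F → ℝ) : ℝ := ∑ x : F, pd ζ x h ^ 2

theorem continuous_pd {ζ : (F → ℝ) → ℝ} (hζ : ContDiff ℝ 1 ζ) (x : F) : Continuous (pd ζ x) :=
  (hζ.continuous_fderiv (by norm_num)).clm_apply continuous_const

theorem continuous_en {ζ : (F → ℝ) → ℝ} (hζ : ContDiff ℝ 1 ζ) : Continuous (en ζ) :=
  continuous_finsetSum _ fun x _ => (continuous_pd hζ x).pow 2

theorem en_nonneg (ζ : (F → ℝ) → ℝ) (h : F → ℝ) : 0 ≤ en ζ h :=
  Finset.sum_nonneg fun _ _ => sq_nonneg _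

theorem fderiv_apply (ζ : (F → ℝ) → ℝ) (h g : F → ℝ) :
    fderiv ℝ ζ h g = ∑ x : F, g x * pd ζ x h := by
  conv_lhs => rw [← Finset.univ_sum_single g]
  rw [map_sum]
  refine Finset.sum_congr rfl fun x _ => ?_
  have : (Pi.single x (g x) : F → ℝ) = g x • Pi.single x (1 : ℝ) := by
    rw [← Pi.single_smul, smul_eq_mul, mul_one]
  rw [this, map_smul, smul_eq_mul]; rfl

theorem sq_fderiv_le (ζ : (F → ℝ) → ℝ) (h g : F → ℝ) {S : Finset F} {D : ℝ}
    (hg0 : ∀ x, x ∉ S → g x = 0) (hg : ∀ x ∈ S, |g x| ≤ D) :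
    (fderiv ℝ ζ h g) ^ 2 ≤ D ^ 2 * S.card * en ζ h := by
  rw [fderiv_apply]
  have h1 : ∑ x : F, g x * pd ζ x h = ∑ x ∈ S, g x * pd ζ x h := by
    symm
    refine Finset.sum_subset (Finset.subset_univ _) fun x _ hx => ?_
    rw [hg0 x hx, zero_mul]
  rw [h1]
  refine (Finset.sum_mul_sq_le_sq_mul_sq _ _ _).trans ?_
  have h2 : ∑ x ∈ S, g x ^ 2 ≤ D ^ 2 * S.card := by
    calc ∑ x ∈ S, g x ^ 2 ≤ ∑ _x ∈ S, D ^ 2 :=
          Finset.sum_le_sum fun x hx => sq_le_sq' (by linarith [(abs_le.mp (hg x hx)).1])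
            (abs_le.mp (hg x hx)).2
      _ = D ^ 2 * S.card := by rw [Finset.sum_const, nsmul_eq_mul]; ring
  have h3 : ∑ x ∈ S, pd ζ x h ^ 2 ≤ en ζ h :=
    Finset.sum_le_sum_of_subset_of_nonneg (Finset.subset_univ _) fun _ _ _ => sq_nonneg _
  exact mul_le_mul h2 h3 (Finset.sum_nonneg fun _ _ => sq_nonneg _) (by positivity)

/-! ### the one-site link -/

/-- Constraints of `ham` that do not involve `u`. -/
def rst (F : Finset U) (E : Finset (U × U)) (ξ : U → ℝ) (u : U) : Set (F → ℝ) :=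
  {x | ∀ p ∈ E, p.1 ≠ u → p.2 ≠ u → |ext F ξ x p.1 - ext F ξ x p.2| ≤ 1}

theorem mem_ham_iff {u : U} (x : F → ℝ) :
    x ∈ ham F E ξ ↔ x ∈ rst F E ξ u ∧ ∀ w ∈ nbr E u, |ext F ξ x u - ext F ξ x w| ≤ 1 := by
  constructor
  · intro h1
    refine ⟨fun p hp _ _ => h1 p hp, fun w hw => ?_⟩
    rcases (mem_nbr.mp hw).2 with h | h
    · exact h1 _ h
    · rw [abs_sub_comm]; exact h1 _ h
  · rintro ⟨h1, h3⟩ p hp
    by_cases ha : p.1 = u
    · by_cases hb : p.2 = u
      · rw [ha, hb]; simp
      · rw [ha]; exact h3 _ (mem_nbr.mpr ⟨hb, Or.inl (by rw [← ha]; exact hp)⟩)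
    · by_cases hb : p.2 = u
      · rw [hb, abs_sub_comm]; exact h3 _ (mem_nbr.mpr ⟨ha, Or.inr (by rw [← hb]; exact hp)⟩)
      · exact h1 p hp ha hb

theorem rst_update {u : U} (hu : u ∈ F) (x : F → ℝ) (t : ℝ) :
    Function.update x ⟨u, hu⟩ t ∈ rst F E ξ u ↔ x ∈ rst F E ξ u := by
  constructor
  · intro h1 p hp ha hb
    have := h1 p hp ha hb
    rwa [ext_update hu, ext_update hu, if_neg ha, if_neg hb] at this
  · intro h1 p hp ha hb
    rw [ext_update hu, ext_update hu, if_neg ha, if_neg hb]; exact h1 p hp ha hb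

/-- `v` is the lowest neighbour of `u`. -/
def low (F : Finset U) (E : Finset (U × U)) (ξ : U → ℝ) (u v : U) : Set (F → ℝ) :=
  {h | ∀ y ∈ nbr E u, ext F ξ h v ≤ ext F ξ h y}

theorem isClosed_low (u v : U) : IsClosed (low F E ξ u v) := by
  have : low F E ξ u v = ⋂ y ∈ nbr E u, {h | ext F ξ h v ≤ ext F ξ h y} := by
    ext h; simp [low]
  rw [this]
  exact isClosed_biInter fun y _ => isClosed_le (continuous_ext v) (continuous_ext y)

/-- Oscillation of the density along the fibre of `u` inside `K`. -/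
def OscAt (F : Finset U) (E : Finset (U × U)) (ξ : U → ℝ) (u : U) (ρ : (F → ℝ) → ℝ≥0∞)
    (Q : ℝ≥0∞) : Prop :=
  ∀ h ∈ ham F E ξ, ∀ h' ∈ ham F E ξ, (∀ x : F, (x : U) ≠ u → h x = h' x) → ρ h ≤ Q * ρ h'

/-- **One-site link.** -/
theorem link {u v : U} (hu : u ∈ F) (hv : v ∈ nbr E u) {ρ : (F → ℝ) → ℝ≥0∞}
    (hρ : Measurable ρ) {Q : ℝ≥0∞} (hQ : OscAt F E ξ u ρ Q) {ζ : (F → ℝ) → ℝ}
    (hζ : ContDiff ℝ 1 ζ)
    (hw : ∀ h ∈ ham F E ξ, ext F ξ h u - ext F ξ h v = 1 → ζ h = 0) :
    ∫⁻ h, (ham F E ξ ∩ low F E ξ u v).indicator (fun h => ρ h * ENNReal.ofReal (ζ h ^ 2)) h ≤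
      4 * Q * ∫⁻ h, (ham F E ξ).indicator (fun h => ρ h * ENNReal.ofReal (en ζ h)) h := by
  classical
  set f : (F → ℝ) → ℝ≥0∞ :=
    (ham F E ξ ∩ low F E ξ u v).indicator fun h => ρ h * ENNReal.ofReal (ζ h ^ 2) with hf
  set g : (F → ℝ) → ℝ≥0∞ :=
    fun h => 4 * Q * (ham F E ξ).indicator (fun h => ρ h * ENNReal.ofReal (en ζ h)) h with hg
  have hfm : Measurable f := (hρ.mul ((hζ.continuous.pow 2).measurable.ennreal_ofReal)).indicator
    (measurableSet_ham.inter (isClosed_low u v).measurableSet)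
  have hgm : Measurable g := ((hρ.mul (continuous_en hζ).measurable.ennreal_ofReal).indicator
    measurableSet_ham).const_mul _
  have hvu : v ≠ u := (mem_nbr.mp hv).1
  have key : ∫⁻ x, f x ∂(Measure.pi fun _ : F => (volume : Measure ℝ)) ≤
      ∫⁻ x, g x ∂(Measure.pi fun _ : F => (volume : Measure ℝ)) := by
    refine lintegral_le_of_lmarginal_le {(⟨u, hu⟩ : F)} hfm hgm ?_
    rw [lmarginal_singleton, lmarginal_singleton]
    intro x
    dsimp only
    by_cases hx : x ∈ rst F E ξ u ∧ ∀ y ∈ nbr E u, ext F ξ x v ≤ ext F ξ x y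
    swap
    · refine lintegral_mono fun t => ?_
      simp only [hf]
      rw [indicator_of_notMem]
      · exact bot_le
      · rintro ⟨h1, h2⟩
        refine hx ⟨?_, fun y hy => ?_⟩
        · have := ((mem_ham_iff (u := u) _).mp h1).1
          rwa [rst_update hu] at this
        · have := h2 y hy
          rwa [ext_update hu, ext_update hu, if_neg hvu, if_neg (mem_nbr.mp hy).1] at this
    obtain ⟨hx1, hx2⟩ := hx
    have hmem : ∀ t, Function.update x ⟨u, hu⟩ t ∈ ham F E ξ ↔
        ∀ w ∈ nbr E u, |t - ext F ξ x w| ≤ 1 := by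
      intro t
      rw [mem_ham_iff (u := u), rst_update hu]
      simp only [hx1, true_and]
      constructor
      · intro h w hw
        have := h w hw
        rwa [ext_update hu, ext_update hu, if_pos rfl, if_neg (mem_nbr.mp hw).1] at this
      · intro h w hw
        rw [ext_update hu, ext_update hu, if_pos rfl, if_neg (mem_nbr.mp hw).1]
        exact h w hw
    obtain ⟨wM, hwM, hM⟩ := Finset.exists_max_image (nbr E u) (fun w => ext F ξ x w) ⟨v, hv⟩
    set a := ext F ξ x wM - 1 with ha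
    set b := ext F ξ x v + 1 with hb
    have hfib : ∀ t, Function.update x ⟨u, hu⟩ t ∈ ham F E ξ ↔ t ∈ Icc a b := by
      intro t
      rw [hmem t, mem_Icc]
      constructor
      · intro h
        have h1 := abs_le.mp (h wM hwM)
        have h2 := abs_le.mp (h v hv)
        constructor <;> linarith
      · rintro ⟨h1, h2⟩ w hw
        have h3 := hM w hw
        have h4 := hx2 w hw
        rw [abs_le]; constructor <;> linarith
    rcases lt_or_ge b a with hab | hab
    · -- empty fibre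
      refine lintegral_mono fun t => ?_
      simp only [hf]
      rw [indicator_of_notMem]
      · exact bot_le
      · rintro ⟨h1, h2⟩
        have := (hfib t).mp h1
        linarith [this.1, this.2]
    have hba : b - a ≤ 2 := by
      have := hx2 wM hwM
      have := hM v hv
      linarith
    have hupd : ∀ s, HasDerivAt (fun t => ζ (Function.update x ⟨u, hu⟩ t))
        (pd ζ ⟨u, hu⟩ (Function.update x ⟨u, hu⟩ s)) s := by
      intro s
      have h1 : HasFDerivAt ζ (fderiv ℝ ζ (Function.update x ⟨u, hu⟩ s))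
          (Function.update x ⟨u, hu⟩ s) :=
        (hζ.differentiable (by norm_num) _).hasFDerivAt
      exact h1.comp_hasDerivAt s (hasDerivAt_update x ⟨u, hu⟩ s)
    have hcu : Continuous fun s : ℝ => Function.update x ⟨u, hu⟩ s :=
      continuous_const.update _ continuous_id
    have hcz : Continuous fun s => pd ζ ⟨u, hu⟩ (Function.update x ⟨u, hu⟩ s) :=
      (continuous_pd hζ _).comp hcu
    have hzb : ζ (Function.update x ⟨u, hu⟩ b) = 0 := by
      refine hw _ ((hfib b).mpr ⟨hab, le_rfl⟩) ?_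
      rw [ext_update hu, ext_update hu, if_pos rfl, if_neg hvu, hb]; ring
    set J : ℝ≥0∞ := ∫⁻ s in Icc a b, ENNReal.ofReal
      (pd ζ ⟨u, hu⟩ (Function.update x ⟨u, hu⟩ s) ^ 2) with hJ
    have hpt : ∀ s ∈ Icc a b, ENNReal.ofReal (ζ (Function.update x ⟨u, hu⟩ s) ^ 2) ≤ 2 * J := by
      intro s hs
      refine (link_one (fun s _ => hupd s) hcz.continuousOn hzb hs).trans ?_
      rw [← hJ]
      gcongr
      rw [show (2 : ℝ≥0∞) = ENNReal.ofReal 2 by simp]
      exact ENNReal.ofReal_le_ofReal hba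
    -- compare
    have hrm : Measurable fun s => ρ (Function.update x ⟨u, hu⟩ s) := hρ.comp hcu.measurable
    calc ∫⁻ t, f (Function.update x ⟨u, hu⟩ t)
        ≤ ∫⁻ t in Icc a b, ρ (Function.update x ⟨u, hu⟩ t) * (2 * J) := by
          rw [← lintegral_indicator measurableSet_Icc]
          refine lintegral_mono fun t => ?_
          simp only [hf]
          by_cases ht : Function.update x ⟨u, hu⟩ t ∈ ham F E ξ ∩ low F E ξ u v
          · have ht' := (hfib t).mp ht.1
            rw [indicator_of_mem ht, indicator_of_mem ht']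
            gcongr
            exact hpt t ht'
          · rw [indicator_of_notMem ht]; exact bot_le
      _ = ∫⁻ t in Icc a b, ∫⁻ s in Icc a b, 2 * (ρ (Function.update x ⟨u, hu⟩ t) *
            ENNReal.ofReal (pd ζ ⟨u, hu⟩ (Function.update x ⟨u, hu⟩ s) ^ 2)) := by
          refine lintegral_congr fun t => ?_
          have hm : Measurable fun s => ENNReal.ofReal
              (pd ζ ⟨u, hu⟩ (Function.update x ⟨u, hu⟩ s) ^ 2) :=
            (hcz.pow 2).measurable.ennreal_ofReal
          rw [lintegral_const_mul _ (hm.const_mul _), lintegral_const_mul _ hm, ← hJ]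
          ring
      _ ≤ ∫⁻ t in Icc a b, ∫⁻ s in Icc a b, 2 * (Q * ρ (Function.update x ⟨u, hu⟩ s) *
            ENNReal.ofReal (pd ζ ⟨u, hu⟩ (Function.update x ⟨u, hu⟩ s) ^ 2)) := by
          refine setLIntegral_mono' measurableSet_Icc fun t ht => ?_
          refine setLIntegral_mono' measurableSet_Icc fun s hs => ?_
          gcongr
          refine hQ _ ((hfib t).mpr ht) _ ((hfib s).mpr hs) fun y hy => ?_
          have hy' : y ≠ ⟨u, hu⟩ := fun h => hy (by rw [h])
          rw [Function.update_of_ne hy', Function.update_of_ne hy']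
      _ = ENNReal.ofReal (b - a) * ∫⁻ s in Icc a b, 2 * (Q * ρ (Function.update x ⟨u, hu⟩ s) *
            ENNReal.ofReal (pd ζ ⟨u, hu⟩ (Function.update x ⟨u, hu⟩ s) ^ 2)) := by
          rw [setLIntegral_const, Real.volume_Icc, mul_comm]
      _ ≤ 2 * ∫⁻ s in Icc a b, 2 * Q * (ρ (Function.update x ⟨u, hu⟩ s) *
            ENNReal.ofReal (en ζ (Function.update x ⟨u, hu⟩ s))) := by
          refine mul_le_mul' ?_ (lintegral_mono fun s => ?_)
          · rw [show (2 : ℝ≥0∞) = ENNReal.ofReal 2 by simp]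
            exact ENNReal.ofReal_le_ofReal hba
          · have h1 : pd ζ ⟨u, hu⟩ (Function.update x ⟨u, hu⟩ s) ^ 2 ≤
                en ζ (Function.update x ⟨u, hu⟩ s) :=
              Finset.single_le_sum (f := fun y => pd ζ y (Function.update x ⟨u, hu⟩ s) ^ 2)
                (fun _ _ => sq_nonneg _) (Finset.mem_univ _)
            calc _ = 2 * Q * (ρ (Function.update x ⟨u, hu⟩ s) *
                  ENNReal.ofReal (pd ζ ⟨u, hu⟩ (Function.update x ⟨u, hu⟩ s) ^ 2)) := by ring
              _ ≤ _ := mul_le_mul' le_rfl (mul_le_mul' le_rfl (ENNReal.ofReal_le_ofReal h1))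
      _ = ∫⁻ t, g (Function.update x ⟨u, hu⟩ t) := by
          have hm : Measurable fun s => ρ (Function.update x ⟨u, hu⟩ s) *
            ENNReal.ofReal (en ζ (Function.update x ⟨u, hu⟩ s)) :=
            hrm.mul ((continuous_en hζ).comp hcu).measurable.ennreal_ofReal
          rw [lintegral_const_mul _ hm, ← mul_assoc, ← mul_assoc,
            show (2 : ℝ≥0∞) * 2 = 4 by norm_num, ← lintegral_indicator measurableSet_Icc,
            ← lintegral_const_mul _ (hm.indicator measurableSet_Icc)]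
          refine lintegral_congr fun t => ?_
          simp only [hg]
          by_cases ht : t ∈ Icc a b
          · rw [indicator_of_mem ht, indicator_of_mem ((hfib t).mpr ht)]
          · rw [indicator_of_notMem ht, indicator_of_notMem (fun h => ht ((hfib t).mp h))]
  have hgm' : Measurable fun h => (ham F E ξ).indicator
      (fun h => ρ h * ENNReal.ofReal (en ζ h)) h :=
    (hρ.mul (continuous_en hζ).measurable.ennreal_ofReal).indicator measurableSet_ham
  have e2 : ∫⁻ x, g x = 4 * Q * ∫⁻ h, (ham F E ξ).indicator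
      (fun h => ρ h * ENNReal.ofReal (en ζ h)) h := by
    simp only [hg]
    rw [lintegral_const_mul _ hgm']
  rw [← e2]
  exact key

/-! ### the weighted inequality -/

/-- The displacement of the push. -/
def disp (F : Finset U) (ξ : U → ℝ) (v : U) (γ : U → ℝ) (h : F → ℝ) (x : F) : ℝ :=
  if (x : U) = v then 0 else max 0 (ext F ξ h v + γ x - h x)

theorem push_eq (v : U) (γ : U → ℝ) (t : ℝ) (h : F → ℝ) :
    push F ξ v γ t h = h + t • disp F ξ v γ h := by
  ext x
  simp only [push, disp, Pi.add_apply, Pi.smul_apply, smul_eq_mul]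
  split_ifs <;> ring

theorem disp_of_notMem {v : U} {γ : U → ℝ} {h : F → ℝ} {x : F} (hx : x ∉ sset F ξ v γ h) :
    disp F ξ v γ h x = 0 := by
  have h1 := push_of_notMem (t := 1) hx
  rw [push_eq] at h1
  simpa using h1

theorem disp_of_mem {v : U} {γ : U → ℝ} {h : F → ℝ} {x : F} (hx : x ∈ sset F ξ v γ h) :
    disp F ξ v γ h x = ext F ξ h v + γ x - h x := by
  have h1 := push_of_mem (t := 1) hx
  rw [push_eq] at h1
  simp only [Pi.add_apply, Pi.smul_apply, smul_eq_mul, one_mul] at h1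
  linarith

/-- Heights whose push is admissible. -/
def good (F : Finset U) (E : Finset (U × U)) (ξ : U → ℝ) (v : U) (γ : U → ℝ) : Set (F → ℝ) :=
  {h | h ∈ ham F E ξ ∧ push F ξ v γ 1 h ∈ ham F E ξ}

theorem measurableSet_good {v : U} {γ : U → ℝ} : MeasurableSet (good F E ξ v γ) :=
  measurableSet_ham.inter ((continuous_push 1).measurable measurableSet_ham)

theorem push_mem_ham {v : U} {γ : U → ℝ} {h : F → ℝ} (hh : h ∈ good F E ξ v γ) {t : ℝ}
    (h0 : 0 ≤ t) (h1 : t ≤ 1) : push F ξ v γ t h ∈ ham F E ξ := by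
  have h2 := convex_ham (F := F) (E := E) (ξ := ξ) hh.1 hh.2 (by linarith : 0 ≤ 1 - t) h0 (by ring)
  have e : push F ξ v γ t h = (1 - t) • h + t • push F ξ v γ 1 h := by
    ext x
    simp only [push_eq, Pi.add_apply, Pi.smul_apply, smul_eq_mul]
    ring
  rw [e]; exact h2

theorem push_mem_low {u v : U} {γ : U → ℝ} {h : F → ℝ} (hu : u ∈ F) (hv : v ∈ nbr E u)
    (hγu : γ u = 1) {θ τ : ℝ} (hγ : ∀ y ∈ nbr E u, y ∈ F → y ≠ v → θ ≤ γ y)
    (hτ0 : 0 ≤ τ) (hτ1 : τ ≤ 1) (hτ : 2 * (1 - τ) ≤ τ * θ) (hh : h ∈ good F E ξ v γ) :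
    push F ξ v γ τ h ∈ low F E ξ u v := by
  intro y hy
  rw [ext_push_v]
  by_cases hyv : y = v
  · rw [hyv, ext_push_v]
  have huv : u ≠ v := fun h => (mem_nbr.mp hv).1 h.symm
  have k1 := abs_le.mp (((mem_ham_iff (u := u) _).mp hh.1).2 v hv)
  by_cases hyF : y ∈ F
  · rw [ext_mem hyF, push, if_neg (by exact hyv)]
    have k2 := abs_le.mp (((mem_ham_iff (u := u) _).mp hh.1).2 y hy)
    rw [ext_mem hyF] at k2
    have k3 := hγ y hy hyF hyv
    have k4 : ext F ξ h v + γ y - h ⟨y, hyF⟩ ≤ max 0 (ext F ξ h v + γ y - h ⟨y, hyF⟩) :=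
      le_max_right _ _
    have k5 : 0 ≤ max 0 (ext F ξ h v + γ y - h ⟨y, hyF⟩) := le_max_left _ _
    have k6 : τ * (ext F ξ h v + γ y - h ⟨y, hyF⟩) ≤
        τ * max 0 (ext F ξ h v + γ y - h ⟨y, hyF⟩) := mul_le_mul_of_nonneg_left k4 hτ0
    have k7 : τ * θ ≤ τ * γ y := mul_le_mul_of_nonneg_left k3 hτ0
    have k8 : h ⟨y, hyF⟩ - ext F ξ h v ≥ -2 := by linarith
    change ext F ξ h v ≤ h ⟨y, hyF⟩ + τ * max 0 (ext F ξ h v + γ y - h ⟨y, hyF⟩)
    nlinarith [mul_le_mul_of_nonneg_left k8 (by linarith : 0 ≤ 1 - τ)]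
  · rw [ext_notMem hyF]
    have k2 := abs_le.mp (((mem_ham_iff (u := u) _).mp hh.2).2 y hy)
    rw [ext_notMem hyF, ext_mem hu, push, if_neg (by exact huv), hγu] at k2
    have k4 : ext F ξ h v + 1 - h ⟨u, hu⟩ ≤ max 0 (ext F ξ h v + 1 - h ⟨u, hu⟩) :=
      le_max_right _ _
    change _ ∧ h ⟨u, hu⟩ + 1 * max 0 (ext F ξ h v + 1 - h ⟨u, hu⟩) - ξ y ≤ 1 at k2
    linarith [k2.2]

/-- The density does not decrease too much along the push. -/
def DensAt (F : Finset U) (E : Finset (U × U)) (ξ : U → ℝ) (v : U) (γ : U → ℝ)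
    (ρ : (F → ℝ) → ℝ≥0∞) (q : ℝ) : Prop :=
  ∀ h ∈ good F E ξ v γ, ∀ t : ℝ, 0 ≤ t → t ≤ 1 →
    ρ h ≤ ENNReal.ofReal q ^ (sset F ξ v γ h).card * ρ (push F ξ v γ t h)

/-- The weight. -/
def wt (F : Finset U) (ξ : U → ℝ) (v : U) (γ : U → ℝ) (κ : ℝ) (h : F → ℝ) : ℝ :=
  κ ^ (sset F ξ v γ h).card / ((sset F ξ v γ h).card + 1)

theorem continuous_push₂ (v : U) (γ : U → ℝ) :
    Continuous fun p : (F → ℝ) × ℝ => push F ξ v γ p.2 p.1 := by
  refine continuous_pi fun x => ?_
  by_cases hx : (x : U) = v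
  · simp only [push, hx, if_true]; exact (continuous_apply x).comp continuous_fst
  · simp only [push, hx, if_false]
    exact ((continuous_apply x).comp continuous_fst).add (continuous_snd.mul
      (continuous_const.max ((((continuous_ext v).comp continuous_fst).add
        continuous_const).sub ((continuous_apply x).comp continuous_fst))))

/-- **GLOBAL KORN INEQUALITY for one wall.** -/
theorem kor_main {u v : U} {γ : U → ℝ} (hu : u ∈ F) (hv : v ∈ nbr E u) (hγu : γ u = 1)
    {θ τ D κ q : ℝ} (hγ : ∀ y ∈ nbr E u, y ∈ F → y ≠ v → θ ≤ γ y)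
    (hτ0 : 0 ≤ τ) (hτ1 : τ < 1) (hτ : 2 * (1 - τ) ≤ τ * θ)
    (hD : ∀ h ∈ ham F E ξ, ∀ x : F, (x : U) ≠ v → ext F ξ h v + γ x - h x ≤ D)
    (hκ : 0 ≤ κ) (hq : 0 ≤ q) (hκq : κ * q ≤ 1 - τ)
    {ρ : (F → ℝ) → ℝ≥0∞} (hρ : Measurable ρ) {Q : ℝ≥0∞} (hQ : OscAt F E ξ u ρ Q)
    (hρq : DensAt F E ξ v γ ρ q) {ζ : (F → ℝ) → ℝ} (hζ : ContDiff ℝ 1 ζ)
    (hw : ∀ h ∈ ham F E ξ, ext F ξ h u - ext F ξ h v = 1 → ζ h = 0) :
    ∫⁻ h, (good F E ξ v γ).indicator
        (fun h => ρ h * ENNReal.ofReal (wt F ξ v γ κ h * ζ h ^ 2)) h ≤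
      (8 * Q + ENNReal.ofReal (2 * D ^ 2)) *
        ∫⁻ h, (ham F E ξ).indicator (fun h => ρ h * ENNReal.ofReal (en ζ h)) h := by
  classical
  set f1 : (F → ℝ) → ℝ≥0∞ :=
    (ham F E ξ ∩ low F E ξ u v).indicator fun h => ρ h * ENNReal.ofReal (ζ h ^ 2) with hf1
  set f2 : (F → ℝ) → ℝ≥0∞ :=
    (ham F E ξ).indicator fun h => ρ h * ENNReal.ofReal (en ζ h) with hf2
  have hf1m : Measurable f1 := (hρ.mul ((hζ.continuous.pow 2).measurable.ennreal_ofReal)).indicator
    (measurableSet_ham.inter (isClosed_low u v).measurableSet)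
  have hf2m : Measurable f2 := (hρ.mul (continuous_en hζ).measurable.ennreal_ofReal).indicator
    measurableSet_ham
  have hlink : ∫⁻ h, f1 h ≤ 4 * Q * ∫⁻ h, f2 h := link hu hv hρ hQ hζ hw
  -- pointwise estimate
  have hpt : ∀ h, (good F E ξ v γ).indicator
      (fun h => ρ h * ENNReal.ofReal (wt F ξ v γ κ h * ζ h ^ 2)) h ≤
      2 * (ENNReal.ofReal ((1 - τ) ^ (sset F ξ v γ h).card) * f1 (push F ξ v γ τ h)) +
      ENNReal.ofReal (2 * D ^ 2) * ∫⁻ t in Icc 0 τ,
        ENNReal.ofReal ((1 - t) ^ (sset F ξ v γ h).card) * f2 (push F ξ v γ t h) := by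
    intro h
    by_cases hh : h ∈ good F E ξ v γ
    swap
    · rw [indicator_of_notMem hh]; exact bot_le
    rw [indicator_of_mem hh]
    set n := (sset F ξ v γ h).card with hn
    have hn0 : (0:ℝ) ≤ n := Nat.cast_nonneg n
    have hz : ∀ s, HasDerivAt (fun t => ζ (push F ξ v γ t h))
        (fderiv ℝ ζ (push F ξ v γ s h) (disp F ξ v γ h)) s := by
      intro s
      have h1 : HasFDerivAt ζ (fderiv ℝ ζ (push F ξ v γ s h)) (push F ξ v γ s h) :=
        (hζ.differentiable (by norm_num) _).hasFDerivAt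
      have h2 : HasDerivAt (fun t => push F ξ v γ t h) (disp F ξ v γ h) s := by
        have e : (fun t => push F ξ v γ t h) = fun t : ℝ => h + t • disp F ξ v γ h := by
          ext t x; rw [push_eq]
        rw [e]
        simpa using ((hasDerivAt_id s).smul_const (disp F ξ v γ h)).const_add h
      exact h1.comp_hasDerivAt s h2
    have hcz : Continuous fun s => fderiv ℝ ζ (push F ξ v γ s h) (disp F ξ v γ h) := by
      have h3 : Continuous fun s => push F ξ v γ s h :=
        (continuous_push₂ v γ).comp (continuous_const.prodMk continuous_id)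
      exact ((hζ.continuous_fderiv (by norm_num)).comp h3).clm_apply continuous_const
    have hstep := sq_sub_le hτ0 (fun s _ => hz s) hcz.continuousOn
    have hpush0 : push F ξ v γ 0 h = h := by rw [push_eq]; simp
    rw [hpush0] at hstep
    -- bound of the displacement
    have hdisp : ∀ x ∈ sset F ξ v γ h, |disp F ξ v γ h x| ≤ D := by
      intro x hx
      have h4 := mem_sset.mp hx
      rw [disp_of_mem hx, abs_le]
      have := hD h hh.1 x h4.1
      constructor <;> linarith [h4.2]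
    have hder : ∀ s, (fderiv ℝ ζ (push F ξ v γ s h) (disp F ξ v γ h)) ^ 2 ≤
        D ^ 2 * n * en ζ (push F ξ v γ s h) := fun s =>
      sq_fderiv_le ζ _ _ (fun x hx => disp_of_notMem hx) hdisp
    have hsq : ζ h ^ 2 ≤ 2 * ζ (push F ξ v γ τ h) ^ 2 + 2 * (ζ (push F ξ v γ τ h) - ζ h) ^ 2 := by
      nlinarith [sq_nonneg (ζ (push F ξ v γ τ h) * 2 - ζ h)]
    -- the density
    have hden : ∀ t ∈ Icc (0:ℝ) τ, ENNReal.ofReal (κ ^ n) * ρ h ≤
        ENNReal.ofReal ((1 - t) ^ n) * ρ (push F ξ v γ t h) := by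
      intro t ht
      calc ENNReal.ofReal (κ ^ n) * ρ h ≤ ENNReal.ofReal (κ ^ n) *
            (ENNReal.ofReal q ^ n * ρ (push F ξ v γ t h)) := by
            gcongr
            exact hρq h hh t ht.1 (by linarith [ht.2])
        _ = ENNReal.ofReal ((κ * q) ^ n) * ρ (push F ξ v γ t h) := by
            rw [← mul_assoc, ← ENNReal.ofReal_pow hq, ← ENNReal.ofReal_mul (by positivity),
              mul_pow]
        _ ≤ _ := by
            gcongr
            linarith [ht.2]
    have hmemt : ∀ t ∈ Icc (0:ℝ) τ, push F ξ v γ t h ∈ ham F E ξ := fun t ht =>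
      push_mem_ham hh ht.1 (by linarith [ht.2])
    have hwt : wt F ξ v γ κ h = κ ^ n / (n + 1) := by rw [wt]
    have hwt0 : 0 ≤ wt F ξ v γ κ h := by rw [hwt]; positivity
    have hwt1 : wt F ξ v γ κ h ≤ κ ^ n := by
      rw [hwt]
      exact div_le_self (by positivity) (by linarith)
    have hwt2 : wt F ξ v γ κ h * n ≤ κ ^ n := by
      rw [hwt, div_mul_eq_mul_div, div_le_iff₀ (by linarith)]
      nlinarith [pow_nonneg hκ n]
    calc ρ h * ENNReal.ofReal (wt F ξ v γ κ h * ζ h ^ 2)
        ≤ ρ h * (ENNReal.ofReal (2 * (wt F ξ v γ κ h * ζ (push F ξ v γ τ h) ^ 2)) +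
            ENNReal.ofReal (2 * wt F ξ v γ κ h) *
              ENNReal.ofReal ((ζ (push F ξ v γ τ h) - ζ h) ^ 2)) := by
          gcongr
          rw [← ENNReal.ofReal_mul (by positivity), ← ENNReal.ofReal_add (by positivity)
            (by positivity)]
          apply ENNReal.ofReal_le_ofReal
          nlinarith [mul_le_mul_of_nonneg_left hsq hwt0]
      _ = ρ h * ENNReal.ofReal (2 * (wt F ξ v γ κ h * ζ (push F ξ v γ τ h) ^ 2)) +
            ρ h * (ENNReal.ofReal (2 * wt F ξ v γ κ h) *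
              ENNReal.ofReal ((ζ (push F ξ v γ τ h) - ζ h) ^ 2)) := by rw [mul_add]
      _ ≤ _ := by
          refine add_le_add ?_ ?_
          · -- endpoint
            have hlow : push F ξ v γ τ h ∈ ham F E ξ ∩ low F E ξ u v :=
              ⟨hmemt τ ⟨hτ0, le_rfl⟩, push_mem_low hu hv hγu hγ hτ0 hτ1.le hτ hh⟩
            rw [hf1, indicator_of_mem hlow, ENNReal.ofReal_mul (by norm_num),
              ENNReal.ofReal_mul hwt0]
            calc ρ h * (ENNReal.ofReal 2 * (ENNReal.ofReal (wt F ξ v γ κ h) *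
                  ENNReal.ofReal (ζ (push F ξ v γ τ h) ^ 2)))
                ≤ ρ h * (ENNReal.ofReal 2 * (ENNReal.ofReal (κ ^ n) *
                  ENNReal.ofReal (ζ (push F ξ v γ τ h) ^ 2))) := by gcongr
              _ = 2 * ((ENNReal.ofReal (κ ^ n) * ρ h) *
                  ENNReal.ofReal (ζ (push F ξ v γ τ h) ^ 2)) := by
                  rw [show ENNReal.ofReal 2 = 2 by simp]; ring
              _ ≤ 2 * ((ENNReal.ofReal ((1 - τ) ^ n) * ρ (push F ξ v γ τ h)) *
                  ENNReal.ofReal (ζ (push F ξ v γ τ h) ^ 2)) := by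
                  exact mul_le_mul' le_rfl (mul_le_mul' (hden τ ⟨hτ0, le_rfl⟩) le_rfl)
              _ = _ := by ring
          · -- path
            have hcen : Continuous fun t => en ζ (push F ξ v γ t h) :=
              (continuous_en hζ).comp
                ((continuous_push₂ v γ).comp (continuous_const.prodMk continuous_id))
            calc ρ h * (ENNReal.ofReal (2 * wt F ξ v γ κ h) *
                  ENNReal.ofReal ((ζ (push F ξ v γ τ h) - ζ h) ^ 2))
                ≤ ρ h * (ENNReal.ofReal (2 * wt F ξ v γ κ h) *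
                  ∫⁻ t in Icc 0 τ, ENNReal.ofReal (D ^ 2 * n * en ζ (push F ξ v γ t h))) := by
                  gcongr
                  refine hstep.trans ?_
                  calc _ ≤ 1 * ∫⁻ t in Icc 0 τ, ENNReal.ofReal
                        ((fderiv ℝ ζ (push F ξ v γ t h) (disp F ξ v γ h)) ^ 2) := by
                        gcongr
                        rw [← ENNReal.ofReal_one]
                        exact ENNReal.ofReal_le_ofReal (by linarith)
                    _ ≤ _ := by
                        rw [one_mul]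
                        exact lintegral_mono fun t => ENNReal.ofReal_le_ofReal (hder t)
              _ = ∫⁻ t in Icc 0 τ, ρ h * (ENNReal.ofReal (2 * wt F ξ v γ κ h) *
                    ENNReal.ofReal (D ^ 2 * n * en ζ (push F ξ v γ t h))) := by
                  have hm : Measurable fun t => ENNReal.ofReal
                      (D ^ 2 * n * en ζ (push F ξ v γ t h)) :=
                    (continuous_const.mul hcen).measurable.ennreal_ofReal
                  rw [lintegral_const_mul _ (hm.const_mul _), lintegral_const_mul _ hm]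
              _ ≤ ∫⁻ t in Icc 0 τ, ENNReal.ofReal (2 * D ^ 2) *
                    (ENNReal.ofReal ((1 - t) ^ n) * f2 (push F ξ v γ t h)) := by
                  refine setLIntegral_mono' measurableSet_Icc fun t ht => ?_
                  have hen := en_nonneg ζ (push F ξ v γ t h)
                  rw [hf2, indicator_of_mem (hmemt t ht)]
                  calc ρ h * (ENNReal.ofReal (2 * wt F ξ v γ κ h) *
                        ENNReal.ofReal (D ^ 2 * n * en ζ (push F ξ v γ t h)))
                      = ρ h * ENNReal.ofReal (2 * D ^ 2 * (wt F ξ v γ κ h * n) *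
                          en ζ (push F ξ v γ t h)) := by
                        rw [← ENNReal.ofReal_mul (by positivity)]
                        congr 2; ring
                    _ ≤ ρ h * ENNReal.ofReal (2 * D ^ 2 * κ ^ n *
                          en ζ (push F ξ v γ t h)) := by
                        gcongr
                    _ = ENNReal.ofReal (2 * D ^ 2) * ((ENNReal.ofReal (κ ^ n) * ρ h) *
                          ENNReal.ofReal (en ζ (push F ξ v γ t h))) := by
                        rw [ENNReal.ofReal_mul (by positivity), ENNReal.ofReal_mul (by positivity)]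
                        ring
                    _ ≤ ENNReal.ofReal (2 * D ^ 2) * ((ENNReal.ofReal ((1 - t) ^ n) *
                          ρ (push F ξ v γ t h)) *
                          ENNReal.ofReal (en ζ (push F ξ v γ t h))) := by
                        exact mul_le_mul' le_rfl (mul_le_mul' (hden t ht) le_rfl)
                    _ = _ := by ring
              _ = _ := by
                  rw [lintegral_const_mul']
                  exact ENNReal.ofReal_ne_top
  -- integrate
  have hcard : Measurable fun p : (F → ℝ) × ℝ => (sset F ξ v γ p.1).card :=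
    measurable_card_sset.comp measurable_fst
  have hjoint : Measurable fun p : (F → ℝ) × ℝ =>
      ENNReal.ofReal ((1 - p.2) ^ (sset F ξ v γ p.1).card) * f2 (push F ξ v γ p.2 p.1) := by
    refine Measurable.mul (Measurable.ennreal_ofReal ?_) (hf2m.comp (continuous_push₂ v γ).measurable)
    exact (measurable_const.sub measurable_snd).pow hcard
  calc ∫⁻ h, (good F E ξ v γ).indicator
        (fun h => ρ h * ENNReal.ofReal (wt F ξ v γ κ h * ζ h ^ 2)) h
      ≤ ∫⁻ h, (2 * (ENNReal.ofReal ((1 - τ) ^ (sset F ξ v γ h).card) * f1 (push F ξ v γ τ h)) +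
        ENNReal.ofReal (2 * D ^ 2) * ∫⁻ t in Icc 0 τ,
          ENNReal.ofReal ((1 - t) ^ (sset F ξ v γ h).card) * f2 (push F ξ v γ t h)) :=
        lintegral_mono hpt
    _ = 2 * (∫⁻ h, ENNReal.ofReal ((1 - τ) ^ (sset F ξ v γ h).card) * f1 (push F ξ v γ τ h)) +
        ENNReal.ofReal (2 * D ^ 2) * ∫⁻ h, ∫⁻ t in Icc 0 τ,
          ENNReal.ofReal ((1 - t) ^ (sset F ξ v γ h).card) * f2 (push F ξ v γ t h) := by
        have hm1 : Measurable fun h => ENNReal.ofReal ((1 - τ) ^ (sset F ξ v γ h).card) *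
            f1 (push F ξ v γ τ h) := by
          refine Measurable.mul (Measurable.ennreal_ofReal ?_)
            (hf1m.comp (continuous_push τ).measurable)
          exact measurable_const.pow measurable_card_sset
        rw [lintegral_add_left (hm1.const_mul _), lintegral_const_mul _ hm1,
          lintegral_const_mul' _ _ ENNReal.ofReal_ne_top]
    _ = 2 * (∫⁻ h, f1 h) + ENNReal.ofReal (2 * D ^ 2) * (ENNReal.ofReal τ * ∫⁻ h, f2 h) := by
        rw [lintegral_push hτ1 hf1m]
        congr 2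
        rw [lintegral_lintegral_swap (f := fun h t =>
          ENNReal.ofReal ((1 - t) ^ (sset F ξ v γ h).card) * f2 (push F ξ v γ t h))
          hjoint.aemeasurable]
        rw [setLIntegral_congr_fun measurableSet_Icc (g := fun _ => ∫⁻ h, f2 h) (fun t ht => by
          exact lintegral_push (lt_of_le_of_lt ht.2 hτ1) hf2m)]
        rw [setLIntegral_const, Real.volume_Icc, sub_zero, mul_comm]
    _ ≤ 2 * (4 * Q * ∫⁻ h, f2 h) + ENNReal.ofReal (2 * D ^ 2) * (1 * ∫⁻ h, f2 h) := by
        gcongr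
        rw [← ENNReal.ofReal_one]
        exact ENNReal.ofReal_le_ofReal hτ1.le
    _ = _ := by ring

end Crest.Agent.R144.Kor620
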