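import Crest.Agent.R144.Kor1_761

/-!
R144 (S0197), helper761.  Korn inequality for the hammock, part 2: the one-site link.

* `link1` : one-dimensional link with a soft wall;
* `link1_hard` : one-dimensional link with a hard wall;
* `link`, `link_hard` : the same on the fibres of one coordinate.
-/

set_option autoImplicit false
set_option linter.unusedSectionVars false

open MeasureTheory Set
open scoped ENNReal

noncomputable section

namespace Crest.Agent.R144.Kor761

open Crest.Agent.R144.Coer761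

/-- One-dimensional Cauchy–Schwarz. -/
theorem sub_sq_le_one {φ φ' : ℝ → ℝ} (h : ∀ t, HasDerivAt φ (φ' t) t) (hc : Continuous φ')
    {s t : ℝ} (hst : s ≤ t) :
    (φ t - φ s) ^ 2 ≤ (t - s) * ∫ y in s..t, φ' y ^ 2 := by
  have hG : IsGrad (ι := Unit) (fun x => φ (x ())) (fun x _ => φ' (x ())) := by
    refine ⟨by fun_prop, fun x v => ?_⟩
    have h1 : HasDerivAt (fun r : ℝ => x () + r * v ()) (v ()) 0 := by
      simpa using ((hasDerivAt_id (0:ℝ)).mul_const (v ())).const_add (x ())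
    have h2 := HasDerivAt.comp (h₂ := φ) (h := fun r : ℝ => x () + r * v ()) 0
      (by simpa using h (x ())) h1
    simpa [Function.comp_def] using h2
  have h1 := sub_sq_le_segment hG (fun _ => s) (fun _ => 1) (t := t - s) (by linarith)
  simp only [nsq, Pi.add_apply, Pi.smul_apply, smul_eq_mul, mul_one, Finset.univ_unique,
    Finset.sum_const, Finset.card_singleton, one_smul, one_pow] at h1
  have h2 : ∫ r in (0:ℝ)..(t - s), φ' (s + r) ^ 2 = ∫ y in s..t, φ' y ^ 2 := by
    have := intervalIntegral.integral_comp_add_left (a := 0) (b := t - s)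
      (fun y => φ' y ^ 2) s
    simpa using this
  rw [h2, show s + (t - s) = t by ring] at h1
  exact h1

/-- The same with a weight which is almost nondecreasing. -/
theorem ofReal_sub_sq_mul_le {φ φ' : ℝ → ℝ} (h : ∀ t, HasDerivAt φ (φ' t) t)
    (hc : Continuous φ') {ω : ℝ → ℝ≥0∞} {C : ℝ≥0∞} (hC : C ≠ ∞) {s t ℓ : ℝ} (hst : s ≤ t)
    (hℓ : t - s ≤ ℓ) (hω : ∀ y, s ≤ y → y ≤ t → ω s ≤ C * ω y) :
    ENNReal.ofReal ((φ t - φ s) ^ 2) * ω s ≤
      ENNReal.ofReal ℓ * (C * ∫⁻ y, ENNReal.ofReal (φ' y ^ 2) * ω y) := by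
  have h1 := sub_sq_le_one h hc hst
  have hcc : Continuous fun y => φ' y ^ 2 := hc.pow 2
  have h2 : ENNReal.ofReal (∫ y in s..t, φ' y ^ 2) = ∫⁻ y in Ioc s t, ENNReal.ofReal (φ' y ^ 2) := by
    rw [intervalIntegral.integral_of_le hst, ofReal_integral_eq_lintegral_ofReal]
    · exact (hcc.intervalIntegrable s t).1
    · exact Filter.Eventually.of_forall fun s => sq_nonneg _
  calc ENNReal.ofReal ((φ t - φ s) ^ 2) * ω s
      ≤ ENNReal.ofReal (ℓ * ∫ y in s..t, φ' y ^ 2) * ω s := by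
        gcongr
        refine h1.trans (mul_le_mul_of_nonneg_right hℓ ?_)
        exact intervalIntegral.integral_nonneg hst fun y _ => sq_nonneg _
    _ = ENNReal.ofReal ℓ * ((∫⁻ y in Ioc s t, ENNReal.ofReal (φ' y ^ 2)) * ω s) := by
        rw [ENNReal.ofReal_mul (by linarith), h2, mul_assoc]
    _ ≤ ENNReal.ofReal ℓ * (C * ∫⁻ y, ENNReal.ofReal (φ' y ^ 2) * ω y) := by
        gcongr ENNReal.ofReal ℓ * ?_
        rw [← lintegral_mul_const _ hcc.measurable.ennreal_ofReal,
          ← lintegral_const_mul' _ _ hC]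
        calc ∫⁻ y in Ioc s t, ENNReal.ofReal (φ' y ^ 2) * ω s
            ≤ ∫⁻ y in Ioc s t, C * (ENNReal.ofReal (φ' y ^ 2) * ω y) := by
              refine setLIntegral_mono' measurableSet_Ioc fun y hy => ?_
              rw [mul_left_comm]
              gcongr
              exact hω y hy.1.le hy.2
          _ ≤ _ := setLIntegral_le_lintegral _ _

/-- One-dimensional link, soft wall. -/
theorem link1 {φ φ' : ℝ → ℝ} (h : ∀ t, HasDerivAt φ (φ' t) t) (hc : Continuous φ')
    {ω D : ℝ → ℝ≥0∞} {α β ℓ : ℝ} (hℓ : β - α ≤ ℓ) (hℓ0 : 0 ≤ ℓ)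
    {I J : Set ℝ} (hI : MeasurableSet I) (hJ : MeasurableSet J)
    (hIs : I ⊆ Icc α β) (hJs : J ⊆ Icc α β) (hIJ : ∀ s ∈ I, ∀ t ∈ J, s ≤ t) {C K : ℝ≥0∞}
    (hC : C ≠ ∞) (hK : K ≠ ∞) (hω : ∀ s ∈ I, ∀ y, s ≤ y → y ≤ β → ω s ≤ C * ω y)
    (hJ0 : volume J ≠ 0) (hD : ∀ t ∈ J, 1 ≤ K * volume J * D t) (hD' : ∀ t ∉ I, 1 ≤ K * D t) :
    ∫⁻ s, ENNReal.ofReal (φ s ^ 2) * ω s ≤
      (K + 2 * C * K * ENNReal.ofReal ℓ) * (∫⁻ s, D s * (ENNReal.ofReal (φ s ^ 2) * ω s)) +
      2 * C * ENNReal.ofReal ℓ * ENNReal.ofReal ℓ * ∫⁻ s, ENNReal.ofReal (φ' s ^ 2) * ω s := by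
  have hJt : volume J ≠ ∞ := by
    refine ne_top_of_le_ne_top ?_ (measure_mono hJs)
    simp [Real.volume_Icc]
  set X := ∫⁻ s, D s * (ENNReal.ofReal (φ s ^ 2) * ω s) with hX
  set Y := ∫⁻ s, ENNReal.ofReal (φ' s ^ 2) * ω s with hY
  -- pointwise on `I`
  have key : ∀ s ∈ I, ENNReal.ofReal (φ s ^ 2) * ω s ≤
      2 * C * K * X + 2 * C * ENNReal.ofReal ℓ * Y := by
    intro s hs
    have h1 : ∀ t ∈ J, ENNReal.ofReal (φ s ^ 2) * ω s ≤
        2 * C * (ENNReal.ofReal (φ t ^ 2) * ω t) + 2 * C * ENNReal.ofReal ℓ * Y := by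
      intro t ht
      have hst := hIJ s hs t ht
      have htβ := (hJs ht).2
      have hsα := (hIs hs).1
      have h2 : φ s ^ 2 ≤ 2 * φ t ^ 2 + 2 * (φ t - φ s) ^ 2 := by
        nlinarith [sq_nonneg (2 * φ t - φ s)]
      have h3 := ofReal_sub_sq_mul_le h hc hC hst (ℓ := ℓ) (by linarith)
        (ω := ω) fun y hy1 hy2 => hω s hs y hy1 (hy2.trans htβ)
      calc ENNReal.ofReal (φ s ^ 2) * ω s
          ≤ ENNReal.ofReal (2 * φ t ^ 2 + 2 * (φ t - φ s) ^ 2) * ω s := by gcongr
        _ = 2 * (ENNReal.ofReal (φ t ^ 2) * ω s) +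
            2 * (ENNReal.ofReal ((φ t - φ s) ^ 2) * ω s) := by
            rw [ENNReal.ofReal_add (by positivity) (by positivity),
              ENNReal.ofReal_mul (by norm_num : (0:ℝ) ≤ 2),
              ENNReal.ofReal_mul (by norm_num : (0:ℝ) ≤ 2)]
            simp only [ENNReal.ofReal_ofNat]
            ring
        _ ≤ 2 * (ENNReal.ofReal (φ t ^ 2) * (C * ω t)) +
            2 * (ENNReal.ofReal ℓ * (C * Y)) := by
            gcongr
            exact hω s hs t hst htβ
        _ = _ := by ring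
    have h4 : volume J * (ENNReal.ofReal (φ s ^ 2) * ω s) ≤
        volume J * (2 * C * K * X + 2 * C * ENNReal.ofReal ℓ * Y) := by
      calc volume J * (ENNReal.ofReal (φ s ^ 2) * ω s)
          = ∫⁻ t in J, ENNReal.ofReal (φ s ^ 2) * ω s := by
            rw [setLIntegral_const, mul_comm]
        _ ≤ ∫⁻ t in J, (2 * C * K * volume J * (D t * (ENNReal.ofReal (φ t ^ 2) * ω t)) +
            2 * C * ENNReal.ofReal ℓ * Y) := by
            refine setLIntegral_mono' hJ fun t ht => (h1 t ht).trans (add_le_add ?_ le_rfl)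
            calc 2 * C * (ENNReal.ofReal (φ t ^ 2) * ω t)
                = 2 * C * (1 * (ENNReal.ofReal (φ t ^ 2) * ω t)) := by rw [one_mul]
              _ ≤ 2 * C * ((K * volume J * D t) * (ENNReal.ofReal (φ t ^ 2) * ω t)) := by
                  gcongr
                  exact hD t ht
              _ = _ := by ring
        _ = (∫⁻ t in J, 2 * C * K * volume J * (D t * (ENNReal.ofReal (φ t ^ 2) * ω t))) +
            ∫⁻ t in J, 2 * C * ENNReal.ofReal ℓ * Y :=
            lintegral_add_right _ measurable_const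
        _ ≤ 2 * C * K * volume J * X + 2 * C * ENNReal.ofReal ℓ * Y * volume J := by
            rw [setLIntegral_const, lintegral_const_mul' _ _ (by finiteness)]
            gcongr
            exact setLIntegral_le_lintegral _ _
        _ = _ := by ring
    exact (ENNReal.mul_le_mul_iff_right hJ0 hJt).mp h4
  -- integrate over `I`
  have hIv : volume I ≤ ENNReal.ofReal ℓ := by
    refine (measure_mono hIs).trans ?_
    rw [Real.volume_Icc]
    exact ENNReal.ofReal_le_ofReal hℓ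
  have h5 : ∫⁻ s in I, ENNReal.ofReal (φ s ^ 2) * ω s ≤
      (2 * C * K * X + 2 * C * ENNReal.ofReal ℓ * Y) * ENNReal.ofReal ℓ := by
    calc ∫⁻ s in I, ENNReal.ofReal (φ s ^ 2) * ω s
        ≤ ∫⁻ s in I, (2 * C * K * X + 2 * C * ENNReal.ofReal ℓ * Y) :=
          setLIntegral_mono' hI key
      _ = (2 * C * K * X + 2 * C * ENNReal.ofReal ℓ * Y) * volume I := setLIntegral_const _ _
      _ ≤ _ := by gcongr
  have h6 : ∫⁻ s in Iᶜ, ENNReal.ofReal (φ s ^ 2) * ω s ≤ K * X := by
    rw [hX, ← lintegral_const_mul' _ _ hK]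
    refine le_trans (setLIntegral_mono' hI.compl fun s hs => ?_) (setLIntegral_le_lintegral _ _)
    calc ENNReal.ofReal (φ s ^ 2) * ω s = 1 * (ENNReal.ofReal (φ s ^ 2) * ω s) := by rw [one_mul]
      _ ≤ (K * D s) * (ENNReal.ofReal (φ s ^ 2) * ω s) := by gcongr; exact hD' s hs
      _ = _ := by ring
  rw [← lintegral_add_compl _ hI]
  refine (add_le_add h5 h6).trans (le_of_eq ?_)
  ring

/-- One-dimensional link, hard wall. -/
theorem link1_hard {φ φ' : ℝ → ℝ} (h : ∀ t, HasDerivAt φ (φ' t) t) (hc : Continuous φ')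
    {ω : ℝ → ℝ≥0∞} {α β ℓ : ℝ} (hℓ : β - α ≤ ℓ) (hℓ0 : 0 ≤ ℓ)
    (h0 : ∀ s, ω s ≠ 0 → s ∈ Icc α β) {C : ℝ≥0∞} (hC : C ≠ ∞)
    (hω : ∀ s, ω s ≠ 0 → ∀ y, s ≤ y → y ≤ β → ω s ≤ C * ω y)
    (hφ : (∃ s, ω s ≠ 0) → φ β = 0) :
    ∫⁻ s, ENNReal.ofReal (φ s ^ 2) * ω s ≤
      C * ENNReal.ofReal ℓ * ENNReal.ofReal ℓ * ∫⁻ s, ENNReal.ofReal (φ' s ^ 2) * ω s := by
  set Y := ∫⁻ s, ENNReal.ofReal (φ' s ^ 2) * ω s with hY
  have key : ∀ s, ENNReal.ofReal (φ s ^ 2) * ω s ≤
      (Icc α β).indicator (fun _ => C * ENNReal.ofReal ℓ * Y) s := by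
    intro s
    by_cases hs : ω s = 0
    · simp [hs]
    have hsI := h0 s hs
    rw [indicator_of_mem hsI]
    have h3 := ofReal_sub_sq_mul_le h hc hC hsI.2 (ℓ := ℓ) (by linarith [hsI.1])
        (ω := ω) fun y hy1 hy2 => hω s hs y hy1 hy2
    rw [hφ ⟨s, hs⟩, zero_sub, neg_sq] at h3
    refine h3.trans (le_of_eq ?_)
    ring
  calc ∫⁻ s, ENNReal.ofReal (φ s ^ 2) * ω s
      ≤ ∫⁻ s, (Icc α β).indicator (fun _ => C * ENNReal.ofReal ℓ * Y) s := lintegral_mono key
    _ = C * ENNReal.ofReal ℓ * Y * volume (Icc α β) := by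
        rw [lintegral_indicator measurableSet_Icc, setLIntegral_const]
    _ ≤ C * ENNReal.ofReal ℓ * Y * ENNReal.ofReal ℓ := by
        gcongr
        rw [Real.volume_Icc]
        exact ENNReal.ofReal_le_ofReal hℓ
    _ = _ := by ring

variable {ι : Type*} [Fintype ι] [DecidableEq ι]

theorem hasDerivAt_fibre {g : (ι → ℝ) → ℝ} {G : (ι → ℝ) → ι → ℝ} (h : IsGrad g G) (i : ι)
    (x : ι → ℝ) (t : ℝ) :
    HasDerivAt (fun s : ℝ => g (Function.update x i s)) (G (Function.update x i t) i) t := by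
  have h1 := h.hasDerivAt (Function.update x i 0) (Pi.single i 1) t
  have e : ∀ s : ℝ, Function.update x i 0 + s • (Pi.single i 1 : ι → ℝ) =
      Function.update x i s := by
    intro s
    ext j
    by_cases hj : j = i
    · subst hj; simp
    · simp [hj]
  simp only [e] at h1
  have e2 : (∑ j, G (Function.update x i t) j * (Pi.single i 1 : ι → ℝ) j) =
      G (Function.update x i t) i := by
    rw [Finset.sum_eq_single i]
    · simp
    · intro j _ hj; simp [hj]
    · simp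
  rw [e2] at h1
  exact h1

theorem continuous_fibre (x : ι → ℝ) (i : ι) : Continuous fun s : ℝ => Function.update x i s := by
  exact continuous_const.update i continuous_id

theorem sq_le_nsq (v : ι → ℝ) (i : ι) : v i ^ 2 ≤ nsq v :=
  Finset.single_le_sum (f := fun j => v j ^ 2) (fun _ _ => sq_nonneg _) (Finset.mem_univ i)

/-- The link on the fibres of one coordinate, soft wall. -/
theorem link (i : ι) {g : (ι → ℝ) → ℝ} {G : (ι → ℝ) → ι → ℝ} (h : IsGrad g G)
    (hg : Measurable g) {W D : (ι → ℝ) → ℝ≥0∞} (hW : Measurable W) (hD : Measurable D)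
    {A : Set (ι → ℝ)} (hA : MeasurableSet A) (hAi : ∀ x s, Function.update x i s ∈ A ↔ x ∈ A)
    {ℓ : ℝ} (hℓ0 : 0 ≤ ℓ) {C K : ℝ≥0∞} (hC : C ≠ ∞) (hK : K ≠ ∞)
    (hfib : ∀ x ∈ A, ∃ (α β : ℝ) (I J : Set ℝ), β - α ≤ ℓ ∧ MeasurableSet I ∧ MeasurableSet J ∧
      I ⊆ Icc α β ∧ J ⊆ Icc α β ∧ (∀ s ∈ I, ∀ t ∈ J, s ≤ t) ∧
      (∀ s ∈ I, ∀ y, s ≤ y → y ≤ β →
        W (Function.update x i s) ≤ C * W (Function.update x i y)) ∧
      volume J ≠ 0 ∧ (∀ t ∈ J, 1 ≤ K * volume J * D (Function.update x i t)) ∧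
      ∀ t ∉ I, 1 ≤ K * D (Function.update x i t)) :
    ∫⁻ x in A, ENNReal.ofReal (g x ^ 2) * W x ≤
      (K + 2 * C * K * ENNReal.ofReal ℓ) * (∫⁻ x, D x * (ENNReal.ofReal (g x ^ 2) * W x)) +
      2 * C * ENNReal.ofReal ℓ * ENNReal.ofReal ℓ * ∫⁻ x, ENNReal.ofReal (nsq (G x)) * W x := by
  have hGn : Continuous fun x => nsq (G x) := measurable_nsq_comp h.cont
  have hm1 : Measurable fun x => ENNReal.ofReal (g x ^ 2) * W x :=
    (hg.pow_const 2).ennreal_ofReal.mul hW
  have hm2 : Measurable fun x => D x * (ENNReal.ofReal (g x ^ 2) * W x) := hD.mul hm1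
  have hm3 : Measurable fun x => ENNReal.ofReal (nsq (G x)) * W x :=
    hGn.measurable.ennreal_ofReal.mul hW
  rw [← lintegral_indicator hA, ← lintegral_const_mul _ hm2, ← lintegral_const_mul _ hm3,
    ← lintegral_add_left (hm2.const_mul _)]
  refine lintegral_le_of_fibre i (hm1.indicator hA)
    ((hm2.const_mul _).add (hm3.const_mul _)) fun x => ?_
  by_cases hx : x ∈ A
  swap
  · have : ∀ t, A.indicator (fun x => ENNReal.ofReal (g x ^ 2) * W x)
        (Function.update x i t) = 0 := fun t => by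
      rw [indicator_of_notMem]
      rwa [hAi]
    simp [this]
  obtain ⟨α, β, I, J, h1, h2, h3, h4, h5, h6, h7, h8, h9, h10⟩ := hfib x hx
  have hGc : Continuous fun t : ℝ => G (Function.update x i t) i :=
    (continuous_apply i).comp (h.cont.comp (continuous_fibre x i))
  have key := link1 (fun t => hasDerivAt_fibre h i x t) hGc
    (ω := fun t => W (Function.update x i t)) (D := fun t => D (Function.update x i t))
    h1 hℓ0 h2 h3 h4 h5 h6 hC hK h7 h8 h9 h10
  have hu : Measurable fun t : ℝ => Function.update x i t := (continuous_fibre x i).measurable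
  calc ∫⁻ t, A.indicator (fun x => ENNReal.ofReal (g x ^ 2) * W x) (Function.update x i t)
      = ∫⁻ t, ENNReal.ofReal (g (Function.update x i t) ^ 2) * W (Function.update x i t) := by
        refine lintegral_congr fun t => ?_
        rw [indicator_of_mem]
        rwa [hAi]
    _ ≤ _ := key
    _ ≤ (K + 2 * C * K * ENNReal.ofReal ℓ) * (∫⁻ t, D (Function.update x i t) *
          (ENNReal.ofReal (g (Function.update x i t) ^ 2) * W (Function.update x i t))) +
        2 * C * ENNReal.ofReal ℓ * ENNReal.ofReal ℓ * ∫⁻ t,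
          ENNReal.ofReal (nsq (G (Function.update x i t))) * W (Function.update x i t) := by
        gcongr with t
        exact sq_le_nsq _ i
    _ = _ := by
        refine Eq.trans ?_ (lintegral_add_left ((hm2.comp hu).const_mul _) _).symm
        refine congrArg₂ (· + ·) ?_ ?_
        · exact (lintegral_const_mul _ (hm2.comp hu)).symm
        · exact (lintegral_const_mul _ (hm3.comp hu)).symm

/-- The link on the fibres of one coordinate, hard wall. -/
theorem link_hard (i : ι) {g : (ι → ℝ) → ℝ} {G : (ι → ℝ) → ι → ℝ} (h : IsGrad g G)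
    (hg : Measurable g) {W : (ι → ℝ) → ℝ≥0∞} (hW : Measurable W)
    {A : Set (ι → ℝ)} (hA : MeasurableSet A) (hAi : ∀ x s, Function.update x i s ∈ A ↔ x ∈ A)
    {ℓ : ℝ} (hℓ0 : 0 ≤ ℓ) {C : ℝ≥0∞} (hC : C ≠ ∞)
    (hfib : ∀ x ∈ A, ∃ (α β : ℝ), β - α ≤ ℓ ∧
      (∀ s, W (Function.update x i s) ≠ 0 → s ∈ Icc α β) ∧
      (∀ s, W (Function.update x i s) ≠ 0 → ∀ y, s ≤ y → y ≤ β →
        W (Function.update x i s) ≤ C * W (Function.update x i y)) ∧
      ((∃ s, W (Function.update x i s) ≠ 0) → g (Function.update x i β) = 0)) :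
    ∫⁻ x in A, ENNReal.ofReal (g x ^ 2) * W x ≤
      C * ENNReal.ofReal ℓ * ENNReal.ofReal ℓ * ∫⁻ x, ENNReal.ofReal (nsq (G x)) * W x := by
  have hGn : Continuous fun x => nsq (G x) := measurable_nsq_comp h.cont
  have hm1 : Measurable fun x => ENNReal.ofReal (g x ^ 2) * W x :=
    (hg.pow_const 2).ennreal_ofReal.mul hW
  have hm3 : Measurable fun x => ENNReal.ofReal (nsq (G x)) * W x :=
    hGn.measurable.ennreal_ofReal.mul hW
  rw [← lintegral_indicator hA, ← lintegral_const_mul _ hm3]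
  refine lintegral_le_of_fibre i (hm1.indicator hA) (hm3.const_mul _) fun x => ?_
  by_cases hx : x ∈ A
  swap
  · have : ∀ t, A.indicator (fun x => ENNReal.ofReal (g x ^ 2) * W x)
        (Function.update x i t) = 0 := fun t => by
      rw [indicator_of_notMem]
      rwa [hAi]
    simp [this]
  obtain ⟨α, β, h1, h2, h3, h4⟩ := hfib x hx
  have hGc : Continuous fun t : ℝ => G (Function.update x i t) i :=
    (continuous_apply i).comp (h.cont.comp (continuous_fibre x i))
  have key := link1_hard (fun t => hasDerivAt_fibre h i x t) hGc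
    (ω := fun t => W (Function.update x i t)) h1 hℓ0 h2 hC h3 h4
  have hu : Measurable fun t : ℝ => Function.update x i t := (continuous_fibre x i).measurable
  calc ∫⁻ t, A.indicator (fun x => ENNReal.ofReal (g x ^ 2) * W x) (Function.update x i t)
      = ∫⁻ t, ENNReal.ofReal (g (Function.update x i t) ^ 2) * W (Function.update x i t) := by
        refine lintegral_congr fun t => ?_
        rw [indicator_of_mem]
        rwa [hAi]
    _ ≤ _ := key
    _ ≤ C * ENNReal.ofReal ℓ * ENNReal.ofReal ℓ * ∫⁻ t,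
          ENNReal.ofReal (nsq (G (Function.update x i t))) * W (Function.update x i t) := by
        gcongr with t
        exact sq_le_nsq _ i
    _ = _ := (lintegral_const_mul _ (hm3.comp hu)).symm

end Crest.Agent.R144.Kor761
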