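import Crest.Agent.R144.Kor2_761
import Crest.Agent.R144.Ham2_560

/-!
R144 (S0197), helper761.  Korn inequality for the hammock (helper620, doc 1585), part 3:
the inequality for one oriented edge `(u, v)`, soft walls and hard walls.

* `Wall ω` : `ω` is even, nonincreasing in `|t|` and constant on `[-1, 1]`;
* `wgt F E ξ ω x = ∏ p ∈ E, ω p (h p.1 - h p.2)`, `h = ext F ξ x`;
* `cone a u v d η` : the cone `a` at `v`, `a + 1` at `u`, `a + 1 + η - d z` elsewhere;
* `lowS` : the free sites below the cone; `Good` : the set on which the lift is admissible;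
* `korn_lower` : soft walls; `korn_lower_hard` : hard walls; `korn_upper`, `korn_upper_hard` :
  mirror images.
-/

set_option autoImplicit false
set_option linter.unusedSectionVars false

open MeasureTheory Set
open scoped ENNReal

noncomputable section

namespace Crest.Agent.R144.Kor761

open Crest.Agent.R144.Coer761 Crest.Agent.R144.Ham560

/-- A wall: even, nonincreasing in `|t|`, constant on `[-1, 1]`. -/
structure Wall (ω : ℝ → ℝ≥0∞) : Prop where
  meas : Measurable ω
  mono : ∀ s t, |t| ≤ max |s| 1 → ω s ≤ ω t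

theorem Wall.even {ω : ℝ → ℝ≥0∞} (h : Wall ω) (s : ℝ) : ω (-s) = ω s :=
  le_antisymm (h.mono _ _ (by simp)) (h.mono _ _ (by simp))

theorem contr {a b c c' s : ℝ} (hs0 : 0 ≤ s) (hs1 : s ≤ 1) (hc : |c - c'| ≤ 1) :
    |(a + s * max (c - a) 0) - (b + s * max (c' - b) 0)| ≤ max |a - b| 1 := by
  have e : ∀ a c : ℝ, a + s * max (c - a) 0 = (1 - s) * a + s * max a c := by
    intro a c
    rcases le_total a c with h | h
    · rw [max_eq_left (by linarith), max_eq_right h]; ring
    · rw [max_eq_right (by linarith), max_eq_left h]; ring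
  rw [e, e]
  have h1 : |max a c - max b c'| ≤ max |a - b| 1 :=
    (abs_max_sub_max_le_max a c b c').trans (max_le_max le_rfl hc)
  have h2 : |a - b| ≤ max |a - b| 1 := le_max_left _ _
  calc |(1 - s) * a + s * max a c - ((1 - s) * b + s * max b c')|
      = |(1 - s) * (a - b) + s * (max a c - max b c')| := by congr 1; ring
    _ ≤ |(1 - s) * (a - b)| + |s * (max a c - max b c')| := abs_add_le _ _
    _ = (1 - s) * |a - b| + s * |max a c - max b c'| := by
        rw [abs_mul, abs_mul, abs_of_nonneg hs0, abs_of_nonneg (by linarith : (0:ℝ) ≤ 1 - s)]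
    _ ≤ (1 - s) * max |a - b| 1 + s * max |a - b| 1 := by
        gcongr
    _ = _ := by ring

theorem contr_fixed {a b c s : ℝ} (hs0 : 0 ≤ s) (hs1 : s ≤ 1) (hc : a < c → c ≤ b + 1) :
    |(a + s * max (c - a) 0) - b| ≤ max |a - b| 1 := by
  rcases le_or_gt c a with h | h
  · rw [max_eq_right (by linarith)]
    simp
  · have h1 := hc h
    rw [max_eq_left (by linarith), abs_le]
    have h2 := neg_abs_le (a - b)
    have h3 := le_max_left |a - b| 1
    have h4 := le_max_right |a - b| 1
    constructor <;> nlinarith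

variable {V : Type*} [DecidableEq V] {F : Finset V} {E : Finset (V × V)} {ξ : V → ℝ}

/-- The weight of a configuration. -/
def wgt (F : Finset V) (E : Finset (V × V)) (ξ : V → ℝ) (ω : V × V → ℝ → ℝ≥0∞)
    (x : F → ℝ) : ℝ≥0∞ :=
  ∏ p ∈ E, ω p (ext F ξ x p.1 - ext F ξ x p.2)

theorem continuous_ext (u : V) : Continuous fun x : F → ℝ => ext F ξ x u := by
  by_cases h : u ∈ F
  · simp only [ext_mem h]; exact continuous_apply _
  · simp only [ext_notMem h]; exact continuous_const

theorem measurable_wgt {ω : V × V → ℝ → ℝ≥0∞} (hω : ∀ p ∈ E, Wall (ω p)) :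
    Measurable (wgt F E ξ ω) := by
  refine Finset.measurable_fun_prod E fun p hp => ?_
  exact (hω p hp).meas.comp
    ((continuous_ext (F := F) (ξ := ξ) p.1).sub (continuous_ext p.2)).measurable

/-- The cone of an oriented edge `(u, v)`, `a` being the height at `v`. -/
def cone (a : ℝ) (u v : V) (d : V → ℝ) (η : ℝ) (z : V) : ℝ :=
  if z = v then a else if z = u then a + 1 else a + 1 + η - d z

/-- `d` behaves like the distance to `u`. -/
structure IsDist (E : Finset (V × V)) (u : V) (d : V → ℝ) : Prop where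
  lip : ∀ p ∈ E, |d p.1 - d p.2| ≤ 1
  self : d u = 0
  one_le : ∀ z, z ≠ u → 1 ≤ d z

theorem IsDist.lip' {u : V} {d : V → ℝ} (h : IsDist E u d) {a b : V}
    (hab : (a, b) ∈ E ∨ (b, a) ∈ E) : |d a - d b| ≤ 1 := by
  rcases hab with h1 | h1
  · exact h.lip _ h1
  · rw [abs_sub_comm]; exact h.lip _ h1

theorem IsDist.eq_one {u v : V} {d : V → ℝ} (h : IsDist E u d) (hv : v ∈ nbr E u) : d v = 1 := by
  obtain ⟨h1, h2⟩ := mem_nbr.mp hv
  have h3 := h.lip' h2
  rw [h.self, zero_sub, abs_neg] at h3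
  exact le_antisymm ((le_abs_self _).trans h3) (h.one_le v h1)

theorem cone_lip {a η : ℝ} {u v : V} {d : V → ℝ} (hd : IsDist E u d) (hv : v ∈ nbr E u)
    (hη0 : 0 ≤ η) (hη1 : η ≤ 1) {b c : V} (hbc : (b, c) ∈ E ∨ (c, b) ∈ E) :
    |cone a u v d η b - cone a u v d η c| ≤ 1 := by
  have hv1 := hd.eq_one hv
  have hvu := (mem_nbr.mp hv).1
  have key : ∀ b c : V, ((b, c) ∈ E ∨ (c, b) ∈ E) →
      cone a u v d η b - cone a u v d η c ≤ 1 := by
    intro b c hbc
    have h1 := abs_le.mp (hd.lip' hbc)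
    unfold cone
    by_cases hb : b = v
    · subst hb
      by_cases hc : c = b
      · subst hc; simp
      · by_cases hcu : c = u
        · subst hcu; simp [hc]
        · have := hd.one_le c hcu
          simp only [if_true, if_neg hc, if_neg hcu]
          linarith [h1.1, h1.2]
    · by_cases hbu : b = u
      · subst hbu
        by_cases hc : c = v
        · subst hc; simp [hb]
        · by_cases hcu : c = b
          · subst hcu; simp [hb]
          · have h2 := hd.one_le c hcu
            have h3 := hd.self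
            simp only [if_neg hb, if_true, if_neg hc, if_neg hcu]
            rw [h3] at h1
            linarith [h1.1, h1.2]
      · have h2 := hd.one_le b hbu
        by_cases hc : c = v
        · subst hc
          simp only [if_neg hb, if_neg hbu, if_true]
          linarith
        · by_cases hcu : c = u
          · subst hcu
            have h3 := hd.self
            simp only [if_neg hb, if_neg hbu, if_neg hc, if_true]
            linarith
          · simp only [if_neg hb, if_neg hbu, if_neg hc, if_neg hcu]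
            linarith [h1.1, h1.2]
  rw [abs_le]
  exact ⟨by linarith [key c b hbc.symm], key b c hbc⟩

/-- The free sites below the cone. -/
def lowS (F : Finset V) (ξ : V → ℝ) (u v : V) (d : V → ℝ) (η : ℝ) (x : F → ℝ) : Finset V :=
  F.filter fun z => z ≠ v ∧ ext F ξ x z < cone (ext F ξ x v) u v d η z

/-- The set on which the lift of the oriented edge `(u, v)` is admissible. -/
def Good (F : Finset V) (E : Finset (V × V)) (ξ : V → ℝ) (u v : V) (d : V → ℝ) (η L : ℝ) :
    Set (F → ℝ) :=
  {x | (∀ z ∈ lowS F ξ u v d η x, cone (ext F ξ x v) u v d η z - ext F ξ x z ≤ L) ∧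
    (∀ z ∈ lowS F ξ u v d η x, ∀ y ∈ nbr E z, y ∉ F → y ≠ v →
      cone (ext F ξ x v) u v d η z ≤ ξ y + 1) ∧
    ∀ y ∈ nbr E u, y ∉ F → y ≠ v → ext F ξ x v ≤ ξ y}

/-- Moved sites. -/
def mvd (F : Finset V) (v : V) : Finset F := Finset.univ.filter fun i => i.1 ≠ v

/-- The cone as a function of the configuration. -/
def cn (F : Finset V) (ξ : V → ℝ) (u v : V) (d : V → ℝ) (η : ℝ) (x : F → ℝ) (i : F) : ℝ :=
  cone (ext F ξ x v) u v d η i.1

theorem continuous_cone (F : Finset V) (ξ : V → ℝ) (u v : V) (d : V → ℝ) (η : ℝ) (z : V) :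
    Continuous fun x : F → ℝ => cone (ext F ξ x v) u v d η z := by
  have := continuous_ext (F := F) (ξ := ξ) v
  unfold cone
  by_cases h1 : z = v
  · simpa [h1] using this
  · by_cases h2 : z = u
    · subst h2; simp only [if_neg h1, if_true]; fun_prop
    · simp only [if_neg h1, if_neg h2]; fun_prop

theorem continuous_cn (F : Finset V) (ξ : V → ℝ) (u v : V) (d : V → ℝ) (η : ℝ) :
    Continuous (cn F ξ u v d η) :=
  continuous_pi fun i => continuous_cone F ξ u v d η i.1

theorem mem_mvd {v : V} {i : F} : i ∈ mvd F v ↔ i.1 ≠ v := by simp [mvd]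

theorem cn_update (u : V) {v : V} (d : V → ℝ) (η : ℝ) {i : F} (hi : i ∈ mvd F v) (x : F → ℝ)
    (s : ℝ) : cn F ξ u v d η (Function.update x i s) = cn F ξ u v d η x := by
  have h1 : ext F ξ (Function.update x i s) v = ext F ξ x v := by
    have := ext_update (ξ := ξ) i.2 x s v
    rw [if_neg (mem_mvd.mp hi).symm] at this
    exact this
  funext j
  simp [cn, h1]

theorem card_low (u v : V) (d : V → ℝ) (η : ℝ) (x : F → ℝ) :
    (low (mvd F v) (cn F ξ u v d η) x).card = (lowS F ξ u v d η x).card := by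
  rw [← Finset.card_map (Function.Embedding.subtype _)]
  congr 1
  ext z
  rw [Finset.mem_map, lowS, Finset.mem_filter]
  constructor
  · rintro ⟨i, hi, rfl⟩
    rw [low, Finset.mem_filter, mem_mvd] at hi
    refine ⟨i.2, hi.1, ?_⟩
    have := hi.2
    simp only [Function.Embedding.coe_subtype]
    rwa [ext_mem i.2]
  · rintro ⟨h1, h2, h3⟩
    refine ⟨⟨z, h1⟩, ?_, rfl⟩
    rw [low, Finset.mem_filter, mem_mvd]
    exact ⟨h2, by rwa [ext_mem h1] at h3⟩

theorem mem_lowS {u v : V} {d : V → ℝ} {η : ℝ} {x : F → ℝ} {z : V} :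
    z ∈ lowS F ξ u v d η x ↔ z ∈ F ∧ z ≠ v ∧ ext F ξ x z < cone (ext F ξ x v) u v d η z := by
  simp [lowS]

theorem measurableSet_Good (F : Finset V) (E : Finset (V × V)) (ξ : V → ℝ) (u v : V)
    (d : V → ℝ) (η L : ℝ) : MeasurableSet (Good F E ξ u v d η L) := by
  have hc := continuous_cone F ξ u v d η
  have he := continuous_ext (F := F) (ξ := ξ)
  have h1 : Good F E ξ u v d η L = {x | ∀ z : F, z.1 ≠ v →
      ext F ξ x z < cone (ext F ξ x v) u v d η z →
      (cone (ext F ξ x v) u v d η z - ext F ξ x z ≤ L ∧ ∀ y : nbr E z, y.1 ∉ F → y.1 ≠ v →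
      cone (ext F ξ x v) u v d η z ≤ ξ y + 1)} ∩
      {x | ∀ y : nbr E u, y.1 ∉ F → y.1 ≠ v → ext F ξ x v ≤ ξ y} := by
    ext x
    simp only [Good, mem_lowS, mem_ofPred_eq, mem_inter_iff]
    constructor
    · rintro ⟨h1, h2, h3⟩
      exact ⟨fun z hz hlt => ⟨h1 z ⟨z.2, hz, hlt⟩, fun y hy hyv => h2 z ⟨z.2, hz, hlt⟩ y y.2 hy hyv⟩,
        fun y hy hyv => h3 y y.2 hy hyv⟩
    · rintro ⟨h1, h3⟩
      exact ⟨fun z hz => (h1 ⟨z, hz.1⟩ hz.2.1 hz.2.2).1,
        fun z hz y hy hyF hyv => (h1 ⟨z, hz.1⟩ hz.2.1 hz.2.2).2 ⟨y, hy⟩ hyF hyv,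
        fun y hy hyF hyv => h3 ⟨y, hy⟩ hyF hyv⟩
  rw [h1]
  refine MeasurableSet.inter ?_ ?_
  · rw [measurableSet_setOfPred]
    refine Measurable.forall fun z => ?_
    refine Measurable.imp measurable_const ?_
    refine Measurable.imp ?_ (Measurable.and ?_ ?_)
    · rw [← measurableSet_setOfPred]
      exact measurableSet_lt (he z).measurable (hc z).measurable
    · rw [← measurableSet_setOfPred]
      exact measurableSet_le ((hc z).sub (he z)).measurable measurable_const
    · refine Measurable.forall fun y => ?_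
      refine Measurable.imp measurable_const (Measurable.imp measurable_const ?_)
      rw [← measurableSet_setOfPred]
      exact measurableSet_le (hc z).measurable measurable_const
  · rw [measurableSet_setOfPred]
    refine Measurable.forall fun y => ?_
    refine Measurable.imp measurable_const (Measurable.imp measurable_const ?_)
    rw [← measurableSet_setOfPred]
    exact measurableSet_le (he v).measurable measurable_const

theorem ext_lift (u v : V) (d : V → ℝ) (η s : ℝ) (x : F → ℝ) (z : V) :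
    ext F ξ (lift (mvd F v) (cn F ξ u v d η) s x) z = ext F ξ x z +
      s * (if z ∈ F ∧ z ≠ v then max (cone (ext F ξ x v) u v d η z - ext F ξ x z) 0 else 0) := by
  by_cases hz : z ∈ F
  · rw [ext_mem hz, ext_mem hz, lift_apply]
    by_cases hzv : z = v
    · simp [disp, mem_mvd, hzv]
    · simp [disp, mem_mvd, hzv, hz, cn]
  · simp [ext_notMem hz, hz]

theorem ext_lift_v (u v : V) (d : V → ℝ) (η s : ℝ) (x : F → ℝ) :
    ext F ξ (lift (mvd F v) (cn F ξ u v d η) s x) v = ext F ξ x v := by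
  rw [ext_lift]; simp

/-- Every gradient larger than one in absolute value decreases along the lift. -/
theorem abs_grad_lift_le {u v : V} {d : V → ℝ} {η L : ℝ} (hd : IsDist E u d)
    (hv : v ∈ nbr E u) (hη0 : 0 ≤ η) (hη1 : η ≤ 1) {x : F → ℝ} (hx : x ∈ Good F E ξ u v d η L)
    {s : ℝ} (hs0 : 0 ≤ s) (hs1 : s ≤ 1) {a b : V} (hab : (a, b) ∈ E ∨ (b, a) ∈ E) :
    |ext F ξ (lift (mvd F v) (cn F ξ u v d η) s x) a -
      ext F ξ (lift (mvd F v) (cn F ξ u v d η) s x) b| ≤
      max |ext F ξ x a - ext F ξ x b| 1 := by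
  rw [ext_lift, ext_lift]
  have hcl := cone_lip (a := ext F ξ x v) hd hv hη0 hη1 hab
  have hself : max (cone (ext F ξ x v) u v d η v - ext F ξ x v) 0 = 0 := by simp [cone]
  -- displacement written as a maximum
  have hD : ∀ z, (z ∈ F ∨ z = v) →
      (if z ∈ F ∧ z ≠ v then max (cone (ext F ξ x v) u v d η z - ext F ξ x z) 0 else 0) =
      max (cone (ext F ξ x v) u v d η z - ext F ξ x z) 0 := by
    intro z hz
    by_cases hzv : z = v
    · subst hzv
      rw [hself]; simp
    · rcases hz with hz | hz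
      · rw [if_pos ⟨hz, hzv⟩]
      · exact absurd hz hzv
  have hD' : ∀ z, ¬ (z ∈ F ∨ z = v) →
      (if z ∈ F ∧ z ≠ v then max (cone (ext F ξ x v) u v d η z - ext F ξ x z) 0 else 0) =
      0 := by
    intro z hz
    rw [if_neg]
    exact fun h => hz (Or.inl h.1)
  have hfix : ∀ a b, ((a, b) ∈ E ∨ (b, a) ∈ E) → (a ∈ F ∨ a = v) → ¬ (b ∈ F ∨ b = v) →
      ext F ξ x a < cone (ext F ξ x v) u v d η a →
      cone (ext F ξ x v) u v d η a ≤ ext F ξ x b + 1 := by
    intro a b hab ha hb hlt
    have hav : a ≠ v := by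
      rintro rfl
      simp [cone] at hlt
    have haF : a ∈ F := ha.resolve_right hav
    have hbF : b ∉ F := fun h => hb (Or.inl h)
    have hbv : b ≠ v := fun h => hb (Or.inr h)
    have hba : b ≠ a := fun h => hbF (h ▸ haF)
    rw [ext_notMem hbF]
    exact hx.2.1 a (mem_lowS.mpr ⟨haF, hav, hlt⟩) b (mem_nbr.mpr ⟨hba, hab⟩) hbF hbv
  by_cases ha : a ∈ F ∨ a = v
  · by_cases hb : b ∈ F ∨ b = v
    · rw [hD a ha, hD b hb]
      exact contr hs0 hs1 hcl
    · rw [hD a ha, hD' b hb, mul_zero, add_zero]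
      exact contr_fixed hs0 hs1 (hfix a b hab ha hb)
  · by_cases hb : b ∈ F ∨ b = v
    · rw [hD' a ha, hD b hb, mul_zero, add_zero, abs_sub_comm, abs_sub_comm (ext F ξ x a)]
      exact contr_fixed hs0 hs1 (hfix b a hab.symm hb ha)
    · rw [hD' a ha, hD' b hb]
      simp

theorem wgt_le_lift {u v : V} {d : V → ℝ} {η L : ℝ} (hd : IsDist E u d)
    (hv : v ∈ nbr E u) (hη0 : 0 ≤ η) (hη1 : η ≤ 1) {ω : V × V → ℝ → ℝ≥0∞}
    (hω : ∀ p ∈ E, Wall (ω p)) {x : F → ℝ} (hx : x ∈ Good F E ξ u v d η L)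
    {s : ℝ} (hs0 : 0 ≤ s) (hs1 : s ≤ 1) :
    wgt F E ξ ω x ≤ wgt F E ξ ω (lift (mvd F v) (cn F ξ u v d η) s x) := by
  refine Finset.prod_le_prod' fun p hp => ?_
  exact (hω p hp).mono _ _ (abs_grad_lift_le hd hv hη0 hη1 hx hs0 hs1 (Or.inl hp))

/-- `v` is a lowest neighbour of `u`. -/
def Amin (F : Finset V) (E : Finset (V × V)) (ξ : V → ℝ) (u v : V) : Set (F → ℝ) :=
  {x | ∀ z ∈ nbr E u, ext F ξ x v ≤ ext F ξ x z}

theorem measurableSet_Amin (F : Finset V) (E : Finset (V × V)) (ξ : V → ℝ) (u v : V) :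
    MeasurableSet (Amin F E ξ u v) := by
  have h1 : Amin F E ξ u v = {x | ∀ z : nbr E u, ext F ξ x v ≤ ext F ξ x z} := by
    ext x
    simp [Amin]
  rw [h1, measurableSet_setOfPred]
  refine Measurable.forall fun z => ?_
  rw [← measurableSet_setOfPred]
  exact measurableSet_le (continuous_ext v).measurable (continuous_ext z.1).measurable

theorem Amin_update {u v : V} (hu : u ∈ F) (hvu : v ≠ u) (x : F → ℝ) (s : ℝ) :
    Function.update x ⟨u, hu⟩ s ∈ Amin F E ξ u v ↔ x ∈ Amin F E ξ u v := by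
  unfold Amin
  simp only [mem_ofPred_eq]
  refine forall₂_congr fun z hz => ?_
  have hzu := (mem_nbr.mp hz).1
  rw [ext_update hu, ext_update hu, if_neg hvu, if_neg hzu]

theorem lift_mem_Amin {u v : V} {d : V → ℝ} {η L : ℝ} (hd : IsDist E u d)
    (hv : v ∈ nbr E u) (hη0 : 0 < η) (hL : η ≤ L) {x : F → ℝ}
    (hx : x ∈ Good F E ξ u v d η L) :
    lift (mvd F v) (cn F ξ u v d η) (1 - η / L) x ∈ Amin F E ξ u v := by
  intro z hz
  rw [ext_lift_v, ext_lift]
  have hzu := (mem_nbr.mp hz).1
  have hL0 : 0 < L := by linarith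
  have hτ : 0 ≤ 1 - η / L := by
    rw [sub_nonneg, div_le_one hL0]; exact hL
  by_cases hzv : z = v
  · subst hzv; simp
  by_cases hzF : z ∈ F
  · rw [if_pos ⟨hzF, hzv⟩]
    have hc : cone (ext F ξ x v) u v d η z = ext F ξ x v + η := by
      unfold cone
      rw [if_neg hzv, if_neg hzu, hd.eq_one hz]; ring
    rcases le_or_gt (cone (ext F ξ x v) u v d η z) (ext F ξ x z) with h | h
    · rw [max_eq_right (by linarith)]
      rw [hc] at h
      linarith
    · have h1 := hx.1 z (mem_lowS.mpr ⟨hzF, hzv, h⟩)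
      rw [max_eq_left (by linarith)]
      set t := η / L with ht
      have h2 : t * L = η := by rw [ht]; field_simp
      have ht0 : 0 ≤ t := by positivity
      rw [hc] at h1 ⊢
      nlinarith
  · rw [if_neg (fun h => hzF h.1), ext_notMem hzF, mul_zero, add_zero]
    exact hx.2.2 z hz hzF hzv

end Crest.Agent.R144.Kor761
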