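import Crest.Agent.R144.Kor3_761

/-!
R144 (S0197), helper761.  Korn inequality for the hammock (helper620, doc 1585), part 4:
the inequality for one oriented edge.

* `Soft` : the layer conditions for soft walls;
* `korn_lower`, `korn_lower_hard`, `korn_upper`, `korn_upper_hard`, `korn`, `korn_hard`.
-/

set_option autoImplicit false
set_option linter.unusedSectionVars false

open MeasureTheory Set
open scoped ENNReal

noncomputable section

namespace Crest.Agent.R144.Kor761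

open Crest.Agent.R144.Coer761 Crest.Agent.R144.Ham560

variable {V : Type*} [DecidableEq V] {F : Finset V} {E : Finset (V × V)} {ξ : V → ℝ}

/-- The layer conditions at the site `u`: up to the distance `1 + δ` the walls cost at most the
factor `κ`, and beyond `1 + δ/2` the wall energy `D` is at least `2 / (K δ)`. -/
structure Soft (E : Finset (V × V)) (ω : V × V → ℝ → ℝ≥0∞) (u : V) (D : ℝ → ℝ≥0∞) (δ : ℝ)
    (κ K : ℝ≥0∞) : Prop where
  wall : ∀ p ∈ E, Wall (ω p)
  pos : 0 < δ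
  le_one : δ ≤ 1
  one_le : 1 ≤ κ
  ne_top : κ ≠ ∞
  ne_top' : K ≠ ∞
  layer : ∀ p ∈ E, (p.1 = u ∨ p.2 = u) → ∀ s t, |t| ≤ 1 + δ → ω p s ≤ κ * ω p t
  meas : Measurable D
  even : ∀ s, D (-s) = D s
  dlayer : ∀ s, 1 + δ / 2 ≤ |s| → 1 ≤ K * ENNReal.ofReal (δ / 2) * D s

/-- The edges at `u`. -/
def touch (E : Finset (V × V)) (u : V) : Finset (V × V) := E.filter fun p => p.1 = u ∨ p.2 = u

theorem wgt_update_le {ω : V × V → ℝ → ℝ≥0∞} {u v : V} {D : ℝ → ℝ≥0∞} {δ : ℝ} {κ K : ℝ≥0∞}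
    (h : Soft E ω u D δ κ K) (hu : u ∈ F) {x : F → ℝ} (hx : x ∈ Amin F E ξ u v)
    {s y : ℝ} (hsy : s ≤ y) (hy : y ≤ ext F ξ x v + 1 + δ) :
    wgt F E ξ ω (Function.update x ⟨u, hu⟩ s) ≤
      κ ^ (touch E u).card * wgt F E ξ ω (Function.update x ⟨u, hu⟩ y) := by
  have key : ∀ p ∈ E, ω p (ext F ξ (Function.update x ⟨u, hu⟩ s) p.1 -
        ext F ξ (Function.update x ⟨u, hu⟩ s) p.2) ≤
      (if p.1 = u ∨ p.2 = u then κ else 1) *
        ω p (ext F ξ (Function.update x ⟨u, hu⟩ y) p.1 -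
          ext F ξ (Function.update x ⟨u, hu⟩ y) p.2) := by
    intro p hp
    have hstep : (p.1 = u ∨ p.2 = u) → ∀ z ∈ nbr E u, ∀ σ t : ℝ, |σ| = |s - ext F ξ x z| →
        |t| = |y - ext F ξ x z| → ω p σ ≤ κ * ω p t := by
      intro hpu z hz σ t hσ ht
      have hz1 : ext F ξ x v ≤ ext F ξ x z := hx z hz
      rcases le_or_gt |t| (1 + δ) with h1 | h1
      · exact h.layer p hp hpu _ _ h1
      · have h2 : y - ext F ξ x z < 0 := by
          by_contra hcon
          push Not at hcon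
          rw [ht, abs_of_nonneg hcon] at h1
          linarith
        have h3 : |t| ≤ |σ| := by
          rw [ht, hσ, abs_of_neg h2, abs_of_nonpos (by linarith)]
          linarith
        calc ω p σ ≤ ω p t := (h.wall p hp).mono _ _ (h3.trans (le_max_left _ _))
          _ = 1 * ω p t := (one_mul _).symm
          _ ≤ κ * ω p t := by gcongr; exact h.one_le
    have h0 : ω p 0 ≤ κ * ω p 0 := by
      calc ω p 0 = 1 * ω p 0 := (one_mul _).symm
        _ ≤ κ * ω p 0 := by gcongr; exact h.one_le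
    simp only [ext_update hu]
    by_cases h1 : p.1 = u
    · by_cases h2 : p.2 = u
      · simp only [h1, h2, if_true, true_or, sub_self]
        exact h0
      · simp only [h1, h2, if_true, true_or, if_false]
        refine hstep (Or.inl h1) p.2 (mem_nbr.mpr ⟨h2, Or.inl ?_⟩) _ _ rfl rfl
        rw [← h1]; exact hp
    · by_cases h2 : p.2 = u
      · simp only [h1, h2, if_true, or_true, if_false]
        refine hstep (Or.inr h2) p.1 (mem_nbr.mpr ⟨h1, Or.inr ?_⟩) _ _ (abs_sub_comm _ _)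
          (abs_sub_comm _ _)
        rw [← h2]; exact hp
      · simp only [h1, h2, if_false, or_false, one_mul]
        exact le_rfl
  calc wgt F E ξ ω (Function.update x ⟨u, hu⟩ s)
      ≤ ∏ p ∈ E, (if p.1 = u ∨ p.2 = u then κ else 1) *
        ω p (ext F ξ (Function.update x ⟨u, hu⟩ y) p.1 -
          ext F ξ (Function.update x ⟨u, hu⟩ y) p.2) := Finset.prod_le_prod' key
    _ = _ := by
        rw [Finset.prod_mul_distrib, Finset.prod_ite, Finset.prod_const, Finset.prod_const_one,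
          mul_one]
        rfl

theorem link_soft {ω : V × V → ℝ → ℝ≥0∞} {u v : V} {D : ℝ → ℝ≥0∞} {δ : ℝ} {κ K : ℝ≥0∞}
    (h : Soft E ω u D δ κ K) (hu : u ∈ F) (hvu : v ≠ u) {N : ℕ} (hN : (touch E u).card ≤ N)
    {g : (F → ℝ) → ℝ} {G : (F → ℝ) → F → ℝ} (hG : IsGrad g G) (hg : Measurable g) :
    ∫⁻ x in Amin F E ξ u v, ENNReal.ofReal (g x ^ 2) * wgt F E ξ ω x ≤
      (K + 2 * κ ^ N * K * ENNReal.ofReal 4) *
        (∫⁻ x, D (ext F ξ x u - ext F ξ x v) * (ENNReal.ofReal (g x ^ 2) * wgt F E ξ ω x)) +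
      2 * κ ^ N * ENNReal.ofReal 4 * ENNReal.ofReal 4 *
        ∫⁻ x, ENNReal.ofReal (nsq (G x)) * wgt F E ξ ω x := by
  have hDm : Measurable fun x : F → ℝ => D (ext F ξ x u - ext F ξ x v) :=
    h.meas.comp ((continuous_ext u).sub (continuous_ext v)).measurable
  refine link ⟨u, hu⟩ hG hg (measurable_wgt h.wall) hDm (measurableSet_Amin F E ξ u v)
    (fun x s => Amin_update hu hvu x s) (by norm_num) (by have := h.ne_top; finiteness) h.ne_top'
    fun x hx => ?_
  set a := ext F ξ x v with ha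
  have hδ := h.pos
  have hδ1 := h.le_one
  have hgrad : ∀ t, ext F ξ (Function.update x ⟨u, hu⟩ t) u -
      ext F ξ (Function.update x ⟨u, hu⟩ t) v = t - a := by
    intro t
    rw [ext_update hu, ext_update hu, if_pos rfl, if_neg hvu]
  refine ⟨a - 1 - δ / 2, a + 1 + δ, Ioo (a - 1 - δ / 2) (a + 1 + δ / 2),
    Icc (a + 1 + δ / 2) (a + 1 + δ), by linarith, measurableSet_Ioo, measurableSet_Icc,
    fun s hs => ⟨hs.1.le, by linarith [hs.2]⟩, fun s hs => ⟨by linarith [hs.1], hs.2⟩,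
    fun s hs t ht => hs.2.le.trans ht.1, fun s _ y hsy hy => ?_, ?_, fun t ht => ?_,
    fun t ht => ?_⟩
  · refine (wgt_update_le h hu hx hsy hy).trans ?_
    gcongr
    exact h.one_le
  · rw [Real.volume_Icc]
    simp only [ne_eq, ENNReal.ofReal_eq_zero, not_le]
    linarith
  · rw [Real.volume_Icc, hgrad, show a + 1 + δ - (a + 1 + δ / 2) = δ / 2 by ring]
    refine h.dlayer _ ?_
    rw [abs_of_nonneg (by linarith [ht.1])]
    linarith [ht.1]
  · rw [hgrad]
    have h1 : 1 + δ / 2 ≤ |t - a| := by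
      by_contra hcon
      push Not at hcon
      have := abs_lt.mp hcon
      exact ht ⟨by linarith [this.1], by linarith [this.2]⟩
    refine (h.dlayer _ h1).trans ?_
    gcongr
    calc K * ENNReal.ofReal (δ / 2) ≤ K * 1 := by
          gcongr
          rw [← ENNReal.ofReal_one]
          exact ENNReal.ofReal_le_ofReal (by linarith)
      _ = K := mul_one K

/-- The constant of the Korn inequality. -/
def KC (κ K : ℝ≥0∞) (N : ℕ) (L : ℝ) : ℝ≥0∞ := 64 * κ ^ N * (1 + K) + ENNReal.ofReal (2 * L ^ 2)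

theorem KC_ne_top {κ K : ℝ≥0∞} (hκ : κ ≠ ∞) (hK : K ≠ ∞) (N : ℕ) (L : ℝ) : KC κ K N L ≠ ∞ := by
  unfold KC
  finiteness

/-- **Korn inequality for one oriented edge**, soft walls, `h_v` low. -/
theorem korn_lower {ω : V × V → ℝ → ℝ≥0∞} {u v : V} {D : ℝ → ℝ≥0∞} {δ : ℝ} {κ K : ℝ≥0∞}
    (h : Soft E ω u D δ κ K) (hu : u ∈ F) (hv : v ∈ nbr E u) {d : V → ℝ}
    (hd : IsDist E u d) {N : ℕ} (hN : (touch E u).card ≤ N) {η L : ℝ} (hη0 : 0 < η)
    (hη1 : η ≤ 1) (hL : η ≤ L)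
    {g : (F → ℝ) → ℝ} {G : (F → ℝ) → F → ℝ} (hG : IsGrad g G) (hg : Measurable g) :
    ∫⁻ x in Good F E ξ u v d η L, ENNReal.ofReal (wt (1 - η / L) (lowS F ξ u v d η x).card) *
        ENNReal.ofReal (g x ^ 2) * wgt F E ξ ω x ≤
      KC κ K N L *
        ((∫⁻ x, D (ext F ξ x u - ext F ξ x v) * (ENNReal.ofReal (g x ^ 2) * wgt F E ξ ω x)) +
        ∫⁻ x, ENNReal.ofReal (nsq (G x)) * wgt F E ξ ω x) := by
  have hvu := (mem_nbr.mp hv).1
  have hL0 : 0 < L := by linarith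
  have hτ0 : 0 ≤ 1 - η / L := by
    rw [sub_nonneg, div_le_one hL0]; exact hL
  have hτ1 : 1 - η / L < 1 := by
    have : 0 < η / L := by positivity
    linarith
  have h1 := transport (continuous_cn F ξ u v d η) (mvd F v)
    (fun i hi x s => cn_update u d η hi x s) hG hg (measurable_wgt h.wall)
    (measurableSet_Amin F E ξ u v) (measurableSet_Good F E ξ u v d η L) hτ0 hτ1
    (L := L)
    (fun x hx s hs0 hs1 => wgt_le_lift hd hv hη0.le hη1 h.wall hx hs0 (by linarith))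
    (fun x hx => lift_mem_Amin hd hv hη0 hL hx)
    (fun x hx i hi hlt => by
      have := hx.1 i.1 (mem_lowS.mpr ⟨i.2, mem_mvd.mp hi, by rw [ext_mem i.2]; exact hlt⟩)
      rw [ext_mem i.2] at this
      exact this)
  simp_rw [card_low] at h1
  refine h1.trans ?_
  have h2 := link_soft (ξ := ξ) (F := F) h hu hvu hN hG hg
  set X := ∫⁻ x, D (ext F ξ x u - ext F ξ x v) * (ENNReal.ofReal (g x ^ 2) * wgt F E ξ ω x)
  set Y := ∫⁻ x, ENNReal.ofReal (nsq (G x)) * wgt F E ξ ω x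
  have hκN : 1 ≤ κ ^ N := one_le_pow₀ h.one_le
  have h4 : ENNReal.ofReal 4 = 4 := by norm_num
  have h5 : ENNReal.ofReal (2 * L ^ 2 * (1 - η / L) ^ 2) ≤ ENNReal.ofReal (2 * L ^ 2) := by
    refine ENNReal.ofReal_le_ofReal ?_
    exact mul_le_of_le_one_right (by positivity) (pow_le_one₀ hτ0 hτ1.le)
  have hK1 : 18 * κ ^ N * K ≤ KC κ K N L := by
    unfold KC
    calc 18 * κ ^ N * K ≤ 64 * κ ^ N * (1 + K) := by
          refine mul_le_mul' (mul_le_mul' (by norm_num) le_rfl) ?_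
          exact le_add_self
      _ ≤ _ := le_self_add
  have hK2 : 64 * κ ^ N + ENNReal.ofReal (2 * L ^ 2) ≤ KC κ K N L := by
    unfold KC
    refine add_le_add ?_ le_rfl
    calc 64 * κ ^ N = 64 * κ ^ N * 1 := (mul_one _).symm
      _ ≤ 64 * κ ^ N * (1 + K) := mul_le_mul' le_rfl le_self_add
  calc 2 * (∫⁻ x in Amin F E ξ u v, ENNReal.ofReal (g x ^ 2) * wgt F E ξ ω x) +
        ENNReal.ofReal (2 * L ^ 2 * (1 - η / L) ^ 2) * Y
      ≤ 2 * ((K + 2 * κ ^ N * K * ENNReal.ofReal 4) * X +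
          2 * κ ^ N * ENNReal.ofReal 4 * ENNReal.ofReal 4 * Y) +
        ENNReal.ofReal (2 * L ^ 2) * Y :=
        add_le_add (mul_le_mul' le_rfl h2) (mul_le_mul' h5 le_rfl)
    _ ≤ 2 * ((κ ^ N * K + 2 * κ ^ N * K * 4) * X + 2 * κ ^ N * 4 * 4 * Y) +
        ENNReal.ofReal (2 * L ^ 2) * Y := by
        rw [h4]
        refine add_le_add (mul_le_mul' le_rfl (add_le_add (mul_le_mul' (add_le_add ?_ le_rfl)
          le_rfl) le_rfl)) le_rfl
        calc K = 1 * K := (one_mul K).symm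
          _ ≤ κ ^ N * K := mul_le_mul' hκN le_rfl
    _ = (18 * κ ^ N * K) * X + (64 * κ ^ N + ENNReal.ofReal (2 * L ^ 2)) * Y := by ring
    _ ≤ KC κ K N L * X + KC κ K N L * Y :=
        add_le_add (mul_le_mul' hK1 le_rfl) (mul_le_mul' hK2 le_rfl)
    _ = _ := by ring

/-- **Korn inequality for one oriented edge**, hard walls, `h_v` low. -/
theorem korn_lower_hard {ω : V × V → ℝ → ℝ≥0∞} {u v : V} (hω : ∀ p ∈ E, Wall (ω p))
    (hhard : ∀ p ∈ E, (p.1 = u ∨ p.2 = u) → ∀ s, ω p s ≠ 0 → |s| ≤ 1)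
    (hu : u ∈ F) (hv : v ∈ nbr E u) {d : V → ℝ}
    (hd : IsDist E u d) {η L : ℝ} (hη0 : 0 < η) (hη1 : η ≤ 1) (hL : η ≤ L)
    {g : (F → ℝ) → ℝ} {G : (F → ℝ) → F → ℝ} (hG : IsGrad g G) (hg : Measurable g)
    (hg0 : ∀ x, wgt F E ξ ω x ≠ 0 → ext F ξ x u = ext F ξ x v + 1 → g x = 0) :
    ∫⁻ x in Good F E ξ u v d η L, ENNReal.ofReal (wt (1 - η / L) (lowS F ξ u v d η x).card) *
        ENNReal.ofReal (g x ^ 2) * wgt F E ξ ω x ≤
      (8 + ENNReal.ofReal (2 * L ^ 2)) *
        ∫⁻ x, ENNReal.ofReal (nsq (G x)) * wgt F E ξ ω x := by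
  have hvu := (mem_nbr.mp hv).1
  have hL0 : 0 < L := by linarith
  have hτ0 : 0 ≤ 1 - η / L := by
    rw [sub_nonneg, div_le_one hL0]; exact hL
  have hτ1 : 1 - η / L < 1 := by
    have : 0 < η / L := by positivity
    linarith
  have h1 := transport (continuous_cn F ξ u v d η) (mvd F v)
    (fun i hi x s => cn_update u d η hi x s) hG hg (measurable_wgt hω)
    (measurableSet_Amin F E ξ u v) (measurableSet_Good F E ξ u v d η L) hτ0 hτ1
    (L := L)
    (fun x hx s hs0 hs1 => wgt_le_lift hd hv hη0.le hη1 hω hx hs0 (by linarith))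
    (fun x hx => lift_mem_Amin hd hv hη0 hL hx)
    (fun x hx i hi hlt => by
      have := hx.1 i.1 (mem_lowS.mpr ⟨i.2, mem_mvd.mp hi, by rw [ext_mem i.2]; exact hlt⟩)
      rw [ext_mem i.2] at this
      exact this)
  simp_rw [card_low] at h1
  refine h1.trans ?_
  -- nonvanishing weights
  have hne : ∀ x : F → ℝ, ∀ s, wgt F E ξ ω (Function.update x ⟨u, hu⟩ s) ≠ 0 →
      ∀ z ∈ nbr E u, |s - ext F ξ x z| ≤ 1 := by
    intro x s hs z hz
    obtain ⟨hzu, hzE⟩ := mem_nbr.mp hz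
    unfold wgt at hs
    rw [Finset.prod_ne_zero_iff] at hs
    rcases hzE with hzE | hzE
    · have := hhard _ hzE (Or.inl rfl) _ (hs _ hzE)
      simpa [ext_update hu, hzu] using this
    · have := hhard _ hzE (Or.inr rfl) _ (hs _ hzE)
      rw [abs_sub_comm] at this
      simpa [ext_update hu, hzu] using this
  have hcomp : ∀ x ∈ Amin F E ξ u v, ∀ s, wgt F E ξ ω (Function.update x ⟨u, hu⟩ s) ≠ 0 →
      ∀ y, s ≤ y → y ≤ ext F ξ x v + 1 → wgt F E ξ ω (Function.update x ⟨u, hu⟩ s) ≤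
        wgt F E ξ ω (Function.update x ⟨u, hu⟩ y) := by
    intro x hx s hs y hsy hy
    have hs' := hne x s hs
    refine Finset.prod_le_prod' fun p hp => ?_
    refine (hω p hp).mono _ _ ?_
    have hz : ∀ z ∈ nbr E u, |y - ext F ξ x z| ≤ 1 := by
      intro z hz
      have h2 := abs_le.mp (hs' z hz)
      have h3 := hx z hz
      rw [abs_le]
      constructor <;> linarith [h2.1]
    simp only [ext_update hu]
    by_cases h1 : p.1 = u
    · by_cases h2 : p.2 = u
      · simp [h1, h2]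
      · simp only [h1, h2, if_true, if_false]
        refine (hz p.2 (mem_nbr.mpr ⟨h2, Or.inl ?_⟩)).trans (le_max_right _ _)
        rw [← h1]; exact hp
    · by_cases h2 : p.2 = u
      · simp only [h1, h2, if_true, if_false]
        rw [abs_sub_comm]
        refine (hz p.1 (mem_nbr.mpr ⟨h1, Or.inr ?_⟩)).trans (le_max_right _ _)
        rw [← h2]; exact hp
      · simp only [h1, h2, if_false]
        exact le_max_left _ _
  have h2 : ∫⁻ x in Amin F E ξ u v, ENNReal.ofReal (g x ^ 2) * wgt F E ξ ω x ≤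
      1 * ENNReal.ofReal 2 * ENNReal.ofReal 2 *
        ∫⁻ x, ENNReal.ofReal (nsq (G x)) * wgt F E ξ ω x := by
    refine link_hard ⟨u, hu⟩ hG hg (measurable_wgt hω) (measurableSet_Amin F E ξ u v)
      (fun x s => Amin_update hu hvu x s) (by norm_num) ENNReal.one_ne_top fun x hx => ?_
    refine ⟨ext F ξ x v - 1, ext F ξ x v + 1, by linarith, fun s hs => ?_, fun s hs y h3 h4 => ?_,
      ?_⟩
    · have := abs_le.mp (hne x s hs v hv)
      exact ⟨by linarith [this.1], by linarith [this.2]⟩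
    · rw [one_mul]
      exact hcomp x hx s hs y h3 h4
    · rintro ⟨s, hs⟩
      have h3 := abs_le.mp (hne x s hs v hv)
      refine hg0 _ ?_ ?_
      · have h4 := hcomp x hx s hs (ext F ξ x v + 1) (by linarith [h3.2]) le_rfl
        intro h5
        rw [h5] at h4
        exact hs (le_antisymm h4 zero_le)
      · rw [ext_update hu, ext_update hu, if_pos rfl, if_neg hvu]
  set Y := ∫⁻ x, ENNReal.ofReal (nsq (G x)) * wgt F E ξ ω x
  have h4 : ENNReal.ofReal 2 = 2 := by norm_num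
  have h5 : ENNReal.ofReal (2 * L ^ 2 * (1 - η / L) ^ 2) ≤ ENNReal.ofReal (2 * L ^ 2) := by
    refine ENNReal.ofReal_le_ofReal ?_
    exact mul_le_of_le_one_right (by positivity) (pow_le_one₀ hτ0 hτ1.le)
  calc 2 * (∫⁻ x in Amin F E ξ u v, ENNReal.ofReal (g x ^ 2) * wgt F E ξ ω x) +
        ENNReal.ofReal (2 * L ^ 2 * (1 - η / L) ^ 2) * Y
      ≤ 2 * (1 * ENNReal.ofReal 2 * ENNReal.ofReal 2 * Y) + ENNReal.ofReal (2 * L ^ 2) * Y :=
        add_le_add (mul_le_mul' le_rfl h2) (mul_le_mul' h5 le_rfl)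
    _ = (8 + ENNReal.ofReal (2 * L ^ 2)) * Y := by
        rw [h4]; ring

end Crest.Agent.R144.Kor761
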