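import Crest.Agent.R144.Kor2_620
import Crest.Agent.R144.MW1_121

/-!
R144 (S0197), helper761.  Korn inequality, hard walls: both sides of an edge.

On top of helper620's `kor_main`:
* `push_one_mem` : when is `push 1 h` in `ham F E ξ`;
* `dens`, `osc_dens`, `densAt_dens` : linear sources;
* `korn_lower`, `korn_upper`, `korn_edge`.
-/

set_option autoImplicit false
set_option linter.unusedSectionVars false

open MeasureTheory Set
open scoped ENNReal

noncomputable section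

namespace Crest.Agent.R144.KorE761

open Crest.Agent.R144.Ham560 (ext ham ext_mem ext_notMem continuous_ext nbr mem_nbr
  ext_update isClosed_ham measurableSet_ham convex_ham ext_neg ham_neg)
open Crest.Agent.R144.Kor620

variable {U : Type*} [DecidableEq U] {F : Finset U} {E : Finset (U × U)} {ξ : U → ℝ}

/-- Conditions on the profile of the cone of the ordered edge `(u, v)`. -/
structure Prof (F : Finset U) (E : Finset (U × U)) (u v : U) (γ : U → ℝ) : Prop where
  apex : γ u = 1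
  lip : ∀ a b, ((a, b) ∈ E ∨ (b, a) ∈ E) → a ≠ v → b ≠ v → |γ a - γ b| ≤ 1
  nbr_v : ∀ a ∈ nbr E v, |γ a| ≤ 1
  nbr_u : ∀ y ∈ nbr E u, y ≠ v → 1 / 2 ≤ γ y

theorem abs_max_sub_le {a b c c' : ℝ} (h1 : |a - b| ≤ 1) (h2 : |c - c'| ≤ 1) :
    |max a c - max b c'| ≤ 1 :=
  (abs_max_sub_max_le_max a c b c').trans (max_le h1 h2)

theorem ext_push_one (v : U) (γ : U → ℝ) (h : F → ℝ) (z : U) :
    ext F ξ (push F ξ v γ 1 h) z =
      if z ∈ F ∧ z ≠ v then max (ext F ξ h z) (ext F ξ h v + γ z) else ext F ξ h z := by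
  by_cases hz : z ∈ F
  · rw [ext_mem hz, ext_mem hz, push]
    by_cases hzv : z = v
    · simp [hzv]
    · simp only [hzv, if_false, hz, ne_eq, not_false_eq_true, and_self, if_true, one_mul]
      rcases le_total (h ⟨z, hz⟩) (ext F ξ h v + γ z) with h1 | h1
      · rw [max_eq_right (by linarith), max_eq_right h1]; ring
      · rw [max_eq_left (by linarith), max_eq_left h1]; ring
  · simp [ext_notMem hz, hz]

/-- The full push of an admissible height is admissible. -/
theorem push_one_mem {u v : U} {γ : U → ℝ} (hγ : Prof F E u v γ) {h : F → ℝ}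
    (hh : h ∈ ham F E ξ)
    (hfix : ∀ a ∈ F, a ≠ v → ∀ b ∈ nbr E a, b ∉ F → b ≠ v → ext F ξ h v + γ a ≤ ξ b + 1) :
    push F ξ v γ 1 h ∈ ham F E ξ := by
  have key : ∀ a b, ((a, b) ∈ E ∨ (b, a) ∈ E) → (a ∈ F ∧ a ≠ v) →
      |ext F ξ (push F ξ v γ 1 h) a - ext F ξ (push F ξ v γ 1 h) b| ≤ 1 := by
    intro a b hab ha
    have h0 : |ext F ξ h a - ext F ξ h b| ≤ 1 := by
      rcases hab with h1 | h1
      · exact hh _ h1
      · rw [abs_sub_comm]; exact hh _ h1
    rw [ext_push_one, ext_push_one, if_pos ha]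
    by_cases hb : b ∈ F ∧ b ≠ v
    · rw [if_pos hb]
      refine abs_max_sub_le h0 ?_
      have := hγ.lip a b hab ha.2 hb.2
      rwa [add_sub_add_left_eq_sub]
    · rw [if_neg hb]
      by_cases hbv : b = v
      · subst hbv
        have h1 : a ∈ nbr E b := mem_nbr.mpr ⟨ha.2, hab.symm⟩
        have h2 := abs_le.mp (hγ.nbr_v a h1)
        have h3 := abs_le.mp h0
        rw [abs_le]
        constructor
        · have := le_max_left (ext F ξ h a) (ext F ξ h b + γ a)
          linarith [h3.1]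
        · have := max_le (show ext F ξ h a ≤ ext F ξ h b + 1 by linarith [h3.2])
            (show ext F ξ h b + γ a ≤ ext F ξ h b + 1 by linarith [h2.2])
          linarith
      · have hbF : b ∉ F := fun h => hb ⟨h, hbv⟩
        have hba : b ≠ a := fun h => hbF (h ▸ ha.1)
        have h1 := hfix a ha.1 ha.2 b (mem_nbr.mpr ⟨hba, hab⟩) hbF hbv
        have h3 := abs_le.mp h0
        rw [ext_notMem hbF] at h3 ⊢
        rw [abs_le]
        constructor
        · have := le_max_left (ext F ξ h a) (ext F ξ h v + γ a)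
          linarith [h3.1]
        · have := max_le (show ext F ξ h a ≤ ξ b + 1 by linarith [h3.2]) h1
          linarith
  intro p hp
  by_cases h1 : p.1 ∈ F ∧ p.1 ≠ v
  · exact key _ _ (Or.inl hp) h1
  by_cases h2 : p.2 ∈ F ∧ p.2 ≠ v
  · rw [abs_sub_comm]
    exact key _ _ (Or.inr hp) h2
  · rw [ext_push_one, ext_push_one, if_neg h1, if_neg h2]
    exact hh p hp

/-- Density of a linear source. -/
def dens (l : F → ℝ) (h : F → ℝ) : ℝ≥0∞ := ENNReal.ofReal (Real.exp (∑ x, l x * h x))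

theorem continuous_lin (l : F → ℝ) : Continuous fun h : F → ℝ => ∑ x, l x * h x := by fun_prop

theorem measurable_dens (l : F → ℝ) : Measurable (dens l) :=
  ((Real.continuous_exp.comp (continuous_lin l)).measurable).ennreal_ofReal

theorem dens_neg (l : F → ℝ) (h : F → ℝ) : dens (-l) (-h) = dens l h := by
  have e : ∑ x, (-l) x * (-h) x = ∑ x, l x * h x :=
    Finset.sum_congr rfl fun x _ => by simp
  unfold dens
  rw [e]

theorem osc_dens {u v : U} (hu : u ∈ F) (hv : v ∈ nbr E u) {l : F → ℝ} {ε : ℝ}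
    (hl : ∀ x, |l x| ≤ ε) : OscAt F E ξ u (dens l) (ENNReal.ofReal (Real.exp (2 * ε))) := by
  intro h hh h' hh' heq
  unfold dens
  rw [← ENNReal.ofReal_mul (Real.exp_pos _).le, ← Real.exp_add]
  apply ENNReal.ofReal_le_ofReal
  rw [Real.exp_le_exp]
  have hvu : v ≠ u := (mem_nbr.mp hv).1
  have e1 : ∑ x, l x * h x - ∑ x, l x * h' x = l ⟨u, hu⟩ * (h ⟨u, hu⟩ - h' ⟨u, hu⟩) := by
    rw [← Finset.sum_sub_distrib, Finset.sum_eq_single (⟨u, hu⟩ : F)]
    · ring
    · intro x _ hx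
      have hx' : (x : U) ≠ u := fun h => hx (Subtype.ext h)
      rw [heq x hx']; ring
    · intro h; exact absurd (Finset.mem_univ _) h
  have k1 := abs_le.mp (((mem_ham_iff (u := u) _).mp hh).2 v hv)
  have k2 := abs_le.mp (((mem_ham_iff (u := u) _).mp hh').2 v hv)
  have e2 : ext F ξ h v = ext F ξ h' v := by
    by_cases hvF : v ∈ F
    · rw [ext_mem hvF, ext_mem hvF]; exact heq ⟨v, hvF⟩ hvu
    · rw [ext_notMem hvF, ext_notMem hvF]
  rw [ext_mem hu] at k1 k2
  rw [e2] at k1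
  have h3 : |h ⟨u, hu⟩ - h' ⟨u, hu⟩| ≤ 2 := by
    rw [abs_le]; constructor <;> linarith [k1.1, k1.2, k2.1, k2.2]
  have h4 : l ⟨u, hu⟩ * (h ⟨u, hu⟩ - h' ⟨u, hu⟩) ≤ ε * 2 := by
    refine (le_abs_self _).trans ?_
    rw [abs_mul]
    have := (abs_nonneg (l ⟨u, hu⟩)).trans (hl ⟨u, hu⟩)
    exact mul_le_mul (hl _) h3 (abs_nonneg _) this
  linarith

theorem densAt_dens {v : U} {γ : U → ℝ} {l : F → ℝ} {ε D : ℝ} (hl : ∀ x, |l x| ≤ ε)
    (hD : ∀ h ∈ ham F E ξ, ∀ x : F, (x : U) ≠ v → ext F ξ h v + γ x - h x ≤ D)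
    (hD0 : 0 ≤ D) :
    DensAt F E ξ v γ (dens l) (Real.exp (D * ε)) := by
  intro h hh t ht0 ht1
  set S := sset F ξ v γ h with hS
  unfold dens
  rw [← ENNReal.ofReal_pow (Real.exp_pos _).le, ← Real.exp_nat_mul,
    ← ENNReal.ofReal_mul (Real.exp_pos _).le, ← Real.exp_add]
  apply ENNReal.ofReal_le_ofReal
  rw [Real.exp_le_exp]
  have e1 : ∑ x, l x * h x - ∑ x, l x * push F ξ v γ t h x =
      ∑ x ∈ S, l x * (h x - push F ξ v γ t h x) := by
    rw [← Finset.sum_sub_distrib, ← Finset.sum_subset (Finset.subset_univ S)]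
    · exact Finset.sum_congr rfl fun x _ => by ring
    · intro x _ hx
      rw [push_of_notMem hx]; ring
  have h2 : ∑ x ∈ S, l x * (h x - push F ξ v γ t h x) ≤ ∑ _x ∈ S, D * ε := by
    refine Finset.sum_le_sum fun x hx => ?_
    have h3 := mem_sset.mp hx
    have h4 := hD h hh.1 x h3.1
    have hε : 0 ≤ ε := (abs_nonneg (l x)).trans (hl x)
    refine (le_abs_self _).trans ?_
    rw [abs_mul, mul_comm D]
    refine mul_le_mul (hl x) ?_ (abs_nonneg _) hε
    rw [push_of_mem hx, abs_le]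
    constructor <;> nlinarith [h3.2]
  rw [Finset.sum_const, nsmul_eq_mul] at h2
  linarith

/-- `50` is enough. -/
theorem const_le {ε : ℝ} (hε : ε ≤ 1 / 20) :
    8 * ENNReal.ofReal (Real.exp (2 * ε)) + ENNReal.ofReal (2 * (5 / 2) ^ 2) ≤
      ENNReal.ofReal 25 := by
  have h1 : Real.exp (2 * ε) ≤ 1.2 := by
    have h2 : Real.exp (2 * ε) ≤ Real.exp (1 / 10) := Real.exp_le_exp.mpr (by linarith)
    have h3 : Real.exp (1 / 10 : ℝ) ≤ 1.2 := by
      have := Real.exp_bound' (x := 1 / 10) (by norm_num) (by norm_num) (n := 3) (by norm_num)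
      norm_num [Finset.sum_range_succ, Nat.factorial] at this
      linarith
    linarith
  rw [show (8 : ℝ≥0∞) = ENNReal.ofReal 8 by simp, ← ENNReal.ofReal_mul (by norm_num),
    ← ENNReal.ofReal_add (by positivity) (by norm_num)]
  apply ENNReal.ofReal_le_ofReal
  norm_num at h1 ⊢
  linarith

theorem exp_small {ε : ℝ} (hε : ε ≤ 1 / 20) : 1 / 6 * Real.exp (5 / 2 * ε) ≤ 1 - 4 / 5 := by
  have h2 : Real.exp (5 / 2 * ε) ≤ Real.exp (1 / 8) := Real.exp_le_exp.mpr (by linarith)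
  have h3 : Real.exp (1 / 8 : ℝ) ≤ 1.2 := by
    have := Real.exp_bound' (x := 1 / 8) (by norm_num) (by norm_num) (n := 3) (by norm_num)
    norm_num [Finset.sum_range_succ, Nat.factorial] at this
    linarith
  norm_num at h3 ⊢
  linarith

/-- Condition on the fixed data, seen from the height `c` at `v`. -/
def LowOK (F : Finset U) (E : Finset (U × U)) (ξ : U → ℝ) (v : U) (γ : U → ℝ) (c : ℝ) : Prop :=
  ∀ a ∈ F, a ≠ v → ∀ b ∈ nbr E a, b ∉ F → b ≠ v → c + γ a ≤ ξ b + 1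

theorem LowOK.mono {v : U} {γ : U → ℝ} {c c' : ℝ} (h : LowOK F E ξ v γ c) (hc : c' ≤ c) :
    LowOK F E ξ v γ c' := fun a ha hav b hb hbF hbv => by
  linarith [h a ha hav b hb hbF hbv]

/-- Korn inequality, `h_v` low. -/
theorem korn_lower {u v : U} {γ : U → ℝ} (hu : u ∈ F) (hv : v ∈ nbr E u) (hγ : Prof F E u v γ)
    (hD : ∀ h ∈ ham F E ξ, ∀ x : F, (x : U) ≠ v → ext F ξ h v + γ x - h x ≤ 5 / 2)
    {l : F → ℝ} {ε : ℝ} (hl : ∀ x, |l x| ≤ ε) (hε : ε ≤ 1 / 20) {c : ℝ}
    (hc : LowOK F E ξ v γ c) {ζ : (F → ℝ) → ℝ} (hζ : ContDiff ℝ 1 ζ)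
    (hw : ∀ h ∈ ham F E ξ, ext F ξ h u - ext F ξ h v = 1 → ζ h = 0) :
    ∫⁻ h, (ham F E ξ ∩ {h | ext F ξ h v ≤ c}).indicator
        (fun h => dens l h * ENNReal.ofReal (wt F ξ v γ (1 / 6) h * ζ h ^ 2)) h ≤
      ENNReal.ofReal 25 *
        ∫⁻ h, (ham F E ξ).indicator (fun h => dens l h * ENNReal.ofReal (en ζ h)) h := by
  have h1 := kor_main hu hv hγ.apex (θ := 1 / 2) (τ := 4 / 5) (D := 5 / 2) (κ := 1 / 6)
    (q := Real.exp (5 / 2 * ε)) (fun y hy _ hyv => hγ.nbr_u y hy hyv) (by norm_num)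
    (by norm_num) (by norm_num) hD (by norm_num) (Real.exp_pos _).le (exp_small hε)
    (measurable_dens l) (osc_dens (ξ := ξ) hu hv hl) (densAt_dens hl hD (by norm_num)) hζ hw
  refine le_trans (lintegral_mono fun h => ?_) (h1.trans (mul_le_mul' (const_le hε) le_rfl))
  refine indicator_le_indicator_of_subset ?_ (fun _ => bot_le) h
  rintro h ⟨h2, h3⟩
  exact ⟨h2, push_one_mem hγ h2 (hc.mono h3)⟩

theorem pd_neg {ζ : (F → ℝ) → ℝ} (hζ : ContDiff ℝ 1 ζ) (x : F) (h : F → ℝ) :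
    pd (fun h => ζ (-h)) x h = -pd ζ x (-h) := by
  unfold pd
  have h1 : HasFDerivAt ζ (fderiv ℝ ζ (-h)) (-h) :=
    (hζ.differentiable (by norm_num) _).hasFDerivAt
  have h2 : HasFDerivAt (fun h : F → ℝ => -h) (-ContinuousLinearMap.id ℝ (F → ℝ)) h :=
    (hasFDerivAt_id h).neg
  have h3 : HasFDerivAt (fun h => ζ (-h))
      ((fderiv ℝ ζ (-h)).comp (-ContinuousLinearMap.id ℝ (F → ℝ))) h := h1.comp h h2
  rw [h3.fderiv]
  simp

theorem en_neg {ζ : (F → ℝ) → ℝ} (hζ : ContDiff ℝ 1 ζ) (h : F → ℝ) :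
    en (fun h => ζ (-h)) h = en ζ (-h) := by
  unfold en
  refine Finset.sum_congr rfl fun x _ => ?_
  rw [pd_neg hζ]; ring

theorem neg_mem_ham_iff {h : F → ℝ} : -h ∈ ham F E (-ξ) ↔ h ∈ ham F E ξ := by
  constructor
  · intro h1
    have := ham_neg h1
    simpa using this
  · exact ham_neg

theorem ext_neg' (h : F → ℝ) (z : U) : ext F (-ξ) h z = -ext F ξ (-h) z := by
  have := ext_neg (F := F) (ξ := ξ) (-h) z
  rw [neg_neg] at this
  exact this

/-- Korn inequality, `h_v` high. -/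
theorem korn_upper {u v : U} {γ : U → ℝ} (hu : u ∈ F) (hv : v ∈ nbr E u) (hγ : Prof F E u v γ)
    (hD : ∀ h ∈ ham F E ξ, ∀ x : F, (x : U) ≠ v → h x - ext F ξ h v + γ x ≤ 5 / 2)
    {l : F → ℝ} {ε : ℝ} (hl : ∀ x, |l x| ≤ ε) (hε : ε ≤ 1 / 20) {c : ℝ}
    (hc : LowOK F E (-ξ) v γ (-c)) {ζ : (F → ℝ) → ℝ} (hζ : ContDiff ℝ 1 ζ)
    (hw : ∀ h ∈ ham F E ξ, ext F ξ h u - ext F ξ h v = -1 → ζ h = 0) :
    ∫⁻ h, (ham F E ξ ∩ {h | c ≤ ext F ξ h v}).indicator
        (fun h => dens l h * ENNReal.ofReal (wt F (-ξ) v γ (1 / 6) (-h) * ζ h ^ 2)) h ≤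
      ENNReal.ofReal 25 *
        ∫⁻ h, (ham F E ξ).indicator (fun h => dens l h * ENNReal.ofReal (en ζ h)) h := by
  have hζ' : ContDiff ℝ 1 fun h : F → ℝ => ζ (-h) := hζ.comp contDiff_neg
  have h1 := korn_lower (ξ := -ξ) (l := -l) (ε := ε) (c := -c) hu hv hγ ?_ ?_ hε hc hζ' ?_
  · rw [← lintegral_neg_eq_self, ← lintegral_neg_eq_self
      (f := fun h => (ham F E ξ).indicator (fun h => dens l h * ENNReal.ofReal (en ζ h)) h)]
    refine le_trans (le_of_eq ?_) (h1.trans (le_of_eq ?_))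
    · refine lintegral_congr fun h => ?_
      have e1 : -h ∈ ham F E ξ ∩ {h | c ≤ ext F ξ h v} ↔
          h ∈ ham F E (-ξ) ∩ {h | ext F (-ξ) h v ≤ -c} := by
        have h2 : -h ∈ ham F E ξ ↔ h ∈ ham F E (-ξ) := by
          rw [← neg_mem_ham_iff, neg_neg]
        simp only [mem_inter_iff, h2, ext_neg']
        constructor
        · rintro ⟨h3, h4⟩
          refine ⟨h3, ?_⟩
          show -ext F ξ (-h) v ≤ -c
          have : c ≤ ext F ξ (-h) v := h4
          linarith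
        · rintro ⟨h3, h4⟩
          refine ⟨h3, ?_⟩
          show c ≤ ext F ξ (-h) v
          have : -ext F ξ (-h) v ≤ -c := h4
          linarith
      have e2 : dens (-l) h = dens l (-h) := by
        rw [← dens_neg l (-h), neg_neg]
      by_cases hmem : -h ∈ ham F E ξ ∩ {h | c ≤ ext F ξ h v}
      · rw [indicator_of_mem hmem, indicator_of_mem (e1.mp hmem), neg_neg, e2]
      · rw [indicator_of_notMem hmem, indicator_of_notMem (fun h => hmem (e1.mpr h))]
    · congr 1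
      refine lintegral_congr fun h => ?_
      have h2 : -h ∈ ham F E ξ ↔ h ∈ ham F E (-ξ) := by
        rw [← neg_mem_ham_iff, neg_neg]
      have e2 : dens (-l) h = dens l (-h) := by
        rw [← dens_neg l (-h), neg_neg]
      by_cases hmem : -h ∈ ham F E ξ
      · rw [indicator_of_mem hmem, indicator_of_mem (h2.mp hmem), e2, en_neg hζ]
      · rw [indicator_of_notMem hmem, indicator_of_notMem (fun h => hmem (h2.mpr h))]
  · intro h hh x hxv
    have h2 : -h ∈ ham F E ξ := by rw [← neg_mem_ham_iff, neg_neg]; exact hh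
    have h3 := hD (-h) h2 x hxv
    rw [ext_neg']
    simp only [Pi.neg_apply] at h3
    linarith
  · intro x
    simpa using hl x
  · intro h hh heq
    have h2 : -h ∈ ham F E ξ := by rw [← neg_mem_ham_iff, neg_neg]; exact hh
    refine hw (-h) h2 ?_
    rw [ext_neg', ext_neg'] at heq
    linarith

/-- The weight of the ordered edge `(u, v)` with threshold `c`. -/
def we (F : Finset U) (ξ : U → ℝ) (v : U) (γ : U → ℝ) (c : ℝ) (h : F → ℝ) : ℝ :=
  if ext F ξ h v ≤ c then wt F ξ v γ (1 / 6) h else wt F (-ξ) v γ (1 / 6) (-h)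

theorem wt_nonneg (v : U) (γ : U → ℝ) (h : F → ℝ) : 0 ≤ wt F ξ v γ (1 / 6) h := by
  unfold wt; positivity

theorem wt_pos (v : U) (γ : U → ℝ) (h : F → ℝ) : 0 < wt F ξ v γ (1 / 6) h := by
  unfold wt; positivity

theorem we_pos (v : U) (γ : U → ℝ) (c : ℝ) (h : F → ℝ) : 0 < we F ξ v γ c h := by
  unfold we
  split_ifs
  · exact wt_pos _ _ _
  · exact wt_pos _ _ _

/-- **Korn inequality for one ordered edge.** -/
theorem korn_edge {u v : U} {γ : U → ℝ} (hu : u ∈ F) (hv : v ∈ nbr E u) (hγ : Prof F E u v γ)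
    (hD : ∀ h ∈ ham F E ξ, ∀ x : F, (x : U) ≠ v → |ext F ξ h v - h x| + γ x ≤ 5 / 2)
    {l : F → ℝ} {ε : ℝ} (hl : ∀ x, |l x| ≤ ε) (hε : ε ≤ 1 / 20) {c : ℝ}
    (hc : ∀ a ∈ F, a ≠ v → ∀ b ∈ nbr E a, b ∉ F → b ≠ v → |ξ b - c| ≤ 1 - γ a)
    {ζ : (F → ℝ) → ℝ} (hζ : ContDiff ℝ 1 ζ)
    (hw : ∀ h ∈ ham F E ξ, |ext F ξ h u - ext F ξ h v| = 1 → ζ h = 0) :
    ∫⁻ h, (ham F E ξ).indicator
        (fun h => dens l h * ENNReal.ofReal (we F ξ v γ c h * ζ h ^ 2)) h ≤
      ENNReal.ofReal 50 *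
        ∫⁻ h, (ham F E ξ).indicator (fun h => dens l h * ENNReal.ofReal (en ζ h)) h := by
  have hlow : LowOK F E ξ v γ c := fun a ha hav b hb hbF hbv => by
    have := (abs_le.mp (hc a ha hav b hb hbF hbv)).1
    linarith
  have hup : LowOK F E (-ξ) v γ (-c) := fun a ha hav b hb hbF hbv => by
    have := (abs_le.mp (hc a ha hav b hb hbF hbv)).2
    simp only [Pi.neg_apply]
    linarith
  have h1 := korn_lower hu hv hγ (fun h hh x hx => by
    have h2 := hD h hh x hx
    have h3 := le_abs_self (ext F ξ h v - h x)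
    linarith) hl hε hlow hζ (fun h hh he => hw h hh (by rw [he]; simp))
  have h2 := korn_upper hu hv hγ (fun h hh x hx => by
    have h2 := hD h hh x hx
    have h3 := neg_abs_le (ext F ξ h v - h x)
    linarith) hl hε hup hζ (fun h hh he => hw h hh (by rw [he]; simp))
  have hpt : ∀ h, (ham F E ξ).indicator
      (fun h => dens l h * ENNReal.ofReal (we F ξ v γ c h * ζ h ^ 2)) h ≤
      (ham F E ξ ∩ {h | ext F ξ h v ≤ c}).indicator
        (fun h => dens l h * ENNReal.ofReal (wt F ξ v γ (1 / 6) h * ζ h ^ 2)) h +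
      (ham F E ξ ∩ {h | c ≤ ext F ξ h v}).indicator
        (fun h => dens l h * ENNReal.ofReal (wt F (-ξ) v γ (1 / 6) (-h) * ζ h ^ 2)) h := by
    intro h
    by_cases hh : h ∈ ham F E ξ
    swap
    · rw [indicator_of_notMem hh]; exact bot_le
    rw [indicator_of_mem hh]
    by_cases hc' : ext F ξ h v ≤ c
    · rw [indicator_of_mem (show h ∈ ham F E ξ ∩ {h | ext F ξ h v ≤ c} from ⟨hh, hc'⟩)]
      refine le_trans ?_ le_self_add
      rw [we, if_pos hc']
    · have hc'' : c ≤ ext F ξ h v := (not_le.mp hc').le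
      rw [indicator_of_mem (s := ham F E ξ ∩ {h | c ≤ ext F ξ h v}) ⟨hh, hc''⟩]
      refine le_trans ?_ le_add_self
      rw [we, if_neg hc']
  have hm : Measurable ((ham F E ξ ∩ {h | ext F ξ h v ≤ c}).indicator
        (fun h => dens l h * ENNReal.ofReal (wt F ξ v γ (1 / 6) h * ζ h ^ 2))) := by
    refine Measurable.indicator ?_ (measurableSet_ham.inter
      ((isClosed_le (continuous_ext v) continuous_const).measurableSet))
    refine (measurable_dens l).mul (Measurable.ennreal_ofReal ?_)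
    refine Measurable.mul ?_ (hζ.continuous.pow 2).measurable
    unfold wt
    have hcard := measurable_card_sset (F := F) (ξ := ξ) (v := v) (γ := γ)
    exact (measurable_const.pow hcard).div
      ((measurable_from_nat.comp hcard).add measurable_const)
  calc ∫⁻ h, (ham F E ξ).indicator
        (fun h => dens l h * ENNReal.ofReal (we F ξ v γ c h * ζ h ^ 2)) h
      ≤ _ := lintegral_mono hpt
    _ = _ := lintegral_add_left hm _
    _ ≤ _ := add_le_add h1 h2
    _ = _ := by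
        rw [← add_mul, ← ENNReal.ofReal_add (by norm_num) (by norm_num)]
        norm_num

end Crest.Agent.R144.KorE761
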