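import Crest.Agent.R144.KorE1_761
import Crest.Agent.R144.Ham5_560

/-!
R144 (S0197), helper761.  Korn inequality, hard walls: vector fields and sums over edges.

* `gr Y u v` : `Y_u - Y_v`, labels outside `F` being `0`;
* `RigidW` : `Y_u = Y_v` on tight edges;
* `EdgeOK` : the hypotheses of `korn_edge`;
* `korn_field` : `∑_{(u,v) ∈ P} ∫_K e^{l·h} w_{uv} (Y_u - Y_v)² ≤ 200 N ∫_K e^{l·h} en Y`;
* `korn_field_tilted`, `korn_field_integral` : the same for `(hamP F E ξ).tilted`;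
* `sum_abs_le` : Cauchy–Schwarz.
-/

set_option autoImplicit false
set_option linter.unusedSectionVars false

open MeasureTheory Set
open scoped ENNReal

noncomputable section

namespace Crest.Agent.R144.KorE761

open Crest.Agent.R144.Ham560 (ext ham ext_mem ext_notMem continuous_ext nbr mem_nbr
  ext_update isClosed_ham measurableSet_ham convex_ham ext_neg ham_neg hamP Anch isCompact_ham
  volume_ham_lt_top volume_ham_ne_zero)
open Crest.Agent.R144.Kor620 (pd wt sset en continuous_en en_nonneg measurable_card_sset)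

variable {U : Type*} [DecidableEq U] {F : Finset U} {E : Finset (U × U)} {ξ : U → ℝ}

/-- The label of `z`. -/
def lab (Y : (F → ℝ) → (F → ℝ)) (z : U) (h : F → ℝ) : ℝ := ext F 0 (Y h) z

/-- The gradient of the labels. -/
def gr (Y : (F → ℝ) → (F → ℝ)) (u v : U) (h : F → ℝ) : ℝ := lab Y u h - lab Y v h

theorem contDiff_lab {Y : (F → ℝ) → (F → ℝ)} {n : WithTop ℕ∞} (hY : ContDiff ℝ n Y) (z : U) :
    ContDiff ℝ n (lab Y z) := by
  unfold lab
  by_cases hz : z ∈ F
  · simp only [ext_mem hz]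
    exact (contDiff_pi.mp hY) ⟨z, hz⟩
  · simp only [ext_notMem hz]
    exact contDiff_const

theorem contDiff_gr {Y : (F → ℝ) → (F → ℝ)} {n : WithTop ℕ∞} (hY : ContDiff ℝ n Y) (u v : U) :
    ContDiff ℝ n (gr Y u v) := (contDiff_lab hY u).sub (contDiff_lab hY v)

/-- The energy of one label. -/
def row (Y : (F → ℝ) → (F → ℝ)) (h : F → ℝ) (z : U) : ℝ := en (lab Y z) h

theorem row_nonneg (Y : (F → ℝ) → (F → ℝ)) (h : F → ℝ) (z : U) : 0 ≤ row Y h z := en_nonneg _ _

theorem row_notMem (Y : (F → ℝ) → (F → ℝ)) (h : F → ℝ) {z : U} (hz : z ∉ F) : row Y h z = 0 := by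
  unfold row en pd lab
  refine Finset.sum_eq_zero fun x _ => ?_
  simp only [ext_notMem hz]
  simp

theorem sum_row {Y : (F → ℝ) → (F → ℝ)} (hY : ContDiff ℝ 1 Y) (h : F → ℝ) :
    ∑ z ∈ F, row Y h z = MW121.en Y h := by
  rw [← Finset.sum_coe_sort, MW121.en]
  refine Finset.sum_congr rfl fun z _ => ?_
  unfold row en pd lab
  refine Finset.sum_congr rfl fun x _ => ?_
  rw [MW121.jac_apply]
  congr 1
  simp only [ext_mem z.2]
  have h1 : HasFDerivAt Y (fderiv ℝ Y h) h := (hY.differentiable one_ne_zero h).hasFDerivAt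
  have h2 := (hasFDerivAt_pi'.mp h1) z
  have h3 : (fun h => Y h ⟨z, z.2⟩) = fun h => Y h z := rfl
  rw [h3, h2.fderiv]
  rfl

theorem en_gr_le {Y : (F → ℝ) → (F → ℝ)} (hY : ContDiff ℝ 1 Y) (u v : U) (h : F → ℝ) :
    en (gr Y u v) h ≤ 2 * row Y h u + 2 * row Y h v := by
  unfold row en
  rw [Finset.mul_sum, Finset.mul_sum, ← Finset.sum_add_distrib]
  refine Finset.sum_le_sum fun x _ => ?_
  have h1 : pd (gr Y u v) x h = pd (lab Y u) x h - pd (lab Y v) x h := by
    unfold pd gr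
    have hu := ((contDiff_lab hY u).differentiable one_ne_zero h).hasFDerivAt
    have hv := ((contDiff_lab hY v).differentiable one_ne_zero h).hasFDerivAt
    have := (hu.sub hv).fderiv
    have e : (fun h => lab Y u h - lab Y v h) = lab Y u - lab Y v := rfl
    rw [e, this]
    rfl
  rw [h1]
  nlinarith [sq_nonneg (pd (lab Y u) x h + pd (lab Y v) x h)]

/-- `Y_u = Y_v` on tight edges. -/
def RigidW (F : Finset U) (E : Finset (U × U)) (ξ : U → ℝ) (Y : (F → ℝ) → (F → ℝ)) : Prop :=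
  ∀ h ∈ ham F E ξ, ∀ p ∈ E, |ext F ξ h p.1 - ext F ξ h p.2| = 1 →
    ext F 0 (Y h) p.1 = ext F 0 (Y h) p.2

/-- The hypotheses of `korn_edge` for the ordered edge `(u, v)` with profile `γ` and
threshold `c`. -/
structure EdgeOK (F : Finset U) (E : Finset (U × U)) (ξ : U → ℝ) (u v : U) (γ : U → ℝ)
    (c : ℝ) : Prop where
  mem : u ∈ F
  nbr : v ∈ nbr E u
  prof : Prof F E u v γ
  dist : ∀ h ∈ ham F E ξ, ∀ x : F, (x : U) ≠ v → |ext F ξ h v - h x| + γ x ≤ 5 / 2
  fix : ∀ a ∈ F, a ≠ v → ∀ b ∈ Crest.Agent.R144.Ham560.nbr E a, b ∉ F → b ≠ v →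
    |ξ b - c| ≤ 1 - γ a

/-- Korn inequality for the gradient of a rigid field along one ordered edge. -/
theorem korn_gr {u v : U} {γ : U → ℝ} {c : ℝ} (h : EdgeOK F E ξ u v γ c)
    {l : F → ℝ} {ε : ℝ} (hl : ∀ x, |l x| ≤ ε) (hε : ε ≤ 1 / 20) {Y : (F → ℝ) → (F → ℝ)}
    (hY : ContDiff ℝ 1 Y) (hR : RigidW F E ξ Y) :
    ∫⁻ x, (ham F E ξ).indicator
        (fun x => dens l x * ENNReal.ofReal (we F ξ v γ c x * gr Y u v x ^ 2)) x ≤
      ENNReal.ofReal 50 *
        ∫⁻ x, (ham F E ξ).indicator (fun x => dens l x * ENNReal.ofReal (en (gr Y u v) x)) x := by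
  refine korn_edge h.mem h.nbr h.prof h.dist hl hε h.fix (contDiff_gr hY u v) fun x hx he => ?_
  unfold gr lab
  rw [sub_eq_zero]
  rcases (mem_nbr.mp h.nbr).2 with h1 | h1
  · exact hR x hx _ h1 he
  · refine (hR x hx _ h1 ?_).symm
    rw [abs_sub_comm]; exact he

theorem sum_fst_le {P : Finset (U × U)} {N : ℕ} {r : U → ℝ} (hr : ∀ z, 0 ≤ r z)
    (hr0 : ∀ z ∉ F, r z = 0) (f : U × U → U)
    (hP : ∀ z ∈ F, (P.filter fun p => f p = z).card ≤ N) :
    ∑ p ∈ P, r (f p) ≤ N * ∑ z ∈ F, r z := by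
  calc ∑ p ∈ P, r (f p) = ∑ p ∈ P.filter (fun p => f p ∈ F), r (f p) := by
        rw [Finset.sum_filter]
        refine Finset.sum_congr rfl fun p _ => ?_
        split_ifs with h
        · rfl
        · exact hr0 _ h
    _ = ∑ z ∈ F, ∑ p ∈ (P.filter fun p => f p ∈ F).filter (fun p => f p = z), r (f p) := by
        rw [Finset.sum_fiberwise_of_maps_to]
        intro p hp
        exact (Finset.mem_filter.mp hp).2
    _ ≤ ∑ z ∈ F, (N : ℝ) * r z := by
        refine Finset.sum_le_sum fun z hz => ?_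
        have h1 : ∑ p ∈ (P.filter fun p => f p ∈ F).filter (fun p => f p = z), r (f p) =
            ((P.filter fun p => f p ∈ F).filter (fun p => f p = z)).card * r z := by
          rw [← nsmul_eq_mul, ← Finset.sum_const]
          exact Finset.sum_congr rfl fun p hp => by rw [(Finset.mem_filter.mp hp).2]
        rw [h1]
        refine mul_le_mul_of_nonneg_right ?_ (hr z)
        have h2 : ((P.filter fun p => f p ∈ F).filter (fun p => f p = z)).card ≤ N := by
          refine le_trans (Finset.card_le_card ?_) (hP z hz)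
          intro p hp
          rw [Finset.mem_filter, Finset.mem_filter] at hp
          exact Finset.mem_filter.mpr ⟨hp.1.1, hp.2⟩
        exact_mod_cast h2
    _ = _ := by rw [Finset.mul_sum]

/-- A finite family of ordered edges satisfying the hypotheses, with bounded multiplicity. -/
structure FamOK (F : Finset U) (E : Finset (U × U)) (ξ : U → ℝ) (P : Finset (U × U))
    (γ : U × U → U → ℝ) (c : U × U → ℝ) (N : ℕ) : Prop where
  ok : ∀ p ∈ P, EdgeOK F E ξ p.1 p.2 (γ p) (c p)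
  fst : ∀ z ∈ F, (P.filter fun p => p.1 = z).card ≤ N
  snd : ∀ z ∈ F, (P.filter fun p => p.2 = z).card ≤ N

theorem sum_en_gr_le {P : Finset (U × U)} {γ : U × U → U → ℝ} {c : U × U → ℝ} {N : ℕ}
    (hP : FamOK F E ξ P γ c N) {Y : (F → ℝ) → (F → ℝ)} (hY : ContDiff ℝ 1 Y) (h : F → ℝ) :
    ∑ p ∈ P, en (gr Y p.1 p.2) h ≤ 4 * N * MW121.en Y h := by
  calc ∑ p ∈ P, en (gr Y p.1 p.2) h ≤ ∑ p ∈ P, (2 * row Y h p.1 + 2 * row Y h p.2) :=
        Finset.sum_le_sum fun p _ => en_gr_le hY _ _ _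
    _ = 2 * ∑ p ∈ P, row Y h p.1 + 2 * ∑ p ∈ P, row Y h p.2 := by
        rw [Finset.sum_add_distrib, Finset.mul_sum, Finset.mul_sum]
    _ ≤ 2 * (N * ∑ z ∈ F, row Y h z) + 2 * (N * ∑ z ∈ F, row Y h z) := by
        have h1 := sum_fst_le (r := row Y h) (row_nonneg Y h) (fun z hz => row_notMem Y h hz)
          Prod.fst hP.fst
        have h2 := sum_fst_le (r := row Y h) (row_nonneg Y h) (fun z hz => row_notMem Y h hz)
          Prod.snd hP.snd
        linarith
    _ = _ := by rw [sum_row hY]; ring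

theorem measurable_dens_mul {f : (F → ℝ) → ℝ} (l : F → ℝ) (hf : Continuous f) :
    Measurable ((ham F E ξ).indicator fun x => dens l x * ENNReal.ofReal (f x)) :=
  ((measurable_dens l).mul hf.measurable.ennreal_ofReal).indicator measurableSet_ham

/-- **Korn inequality for rigid fields**, sum over edges. -/
theorem korn_field {P : Finset (U × U)} {γ : U × U → U → ℝ} {c : U × U → ℝ} {N : ℕ}
    (hP : FamOK F E ξ P γ c N) {l : F → ℝ} {ε : ℝ} (hl : ∀ x, |l x| ≤ ε) (hε : ε ≤ 1 / 20)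
    {Y : (F → ℝ) → (F → ℝ)} (hY : ContDiff ℝ 1 Y) (hR : RigidW F E ξ Y) :
    ∑ p ∈ P, ∫⁻ x, (ham F E ξ).indicator (fun x => dens l x *
        ENNReal.ofReal (we F ξ p.2 (γ p) (c p) x * gr Y p.1 p.2 x ^ 2)) x ≤
      ENNReal.ofReal (200 * N) *
        ∫⁻ x, (ham F E ξ).indicator (fun x => dens l x * ENNReal.ofReal (MW121.en Y x)) x := by
  calc ∑ p ∈ P, ∫⁻ x, (ham F E ξ).indicator (fun x => dens l x *
        ENNReal.ofReal (we F ξ p.2 (γ p) (c p) x * gr Y p.1 p.2 x ^ 2)) x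
      ≤ ∑ p ∈ P, ENNReal.ofReal 50 * ∫⁻ x, (ham F E ξ).indicator (fun x => dens l x *
          ENNReal.ofReal (en (gr Y p.1 p.2) x)) x :=
        Finset.sum_le_sum fun p hp => korn_gr (hP.ok p hp) hl hε hY hR
    _ = ENNReal.ofReal 50 * ∫⁻ x, ∑ p ∈ P, (ham F E ξ).indicator (fun x => dens l x *
          ENNReal.ofReal (en (gr Y p.1 p.2) x)) x := by
        rw [← Finset.mul_sum, lintegral_finsetSum _ fun p _ =>
          measurable_dens_mul l (continuous_en (contDiff_gr hY p.1 p.2))]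
    _ ≤ ENNReal.ofReal 50 * ∫⁻ x, ENNReal.ofReal (4 * N) *
          (ham F E ξ).indicator (fun x => dens l x * ENNReal.ofReal (MW121.en Y x)) x := by
        gcongr with x
        by_cases hx : x ∈ ham F E ξ
        · simp only [indicator_of_mem hx]
          rw [← Finset.mul_sum, ← ENNReal.ofReal_sum_of_nonneg fun p _ => en_nonneg _ _,
            mul_left_comm, ← ENNReal.ofReal_mul (by positivity)]
          gcongr
          exact sum_en_gr_le hP hY x
        · simp [indicator_of_notMem hx]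
    _ = _ := by
        rw [lintegral_const_mul' _ _ ENNReal.ofReal_ne_top, ← mul_assoc,
          ← ENNReal.ofReal_mul (by norm_num)]
        congr 2
        ring

/-! ### tilted laws -/

/-- The tilted law of the hammock with the linear source `l` (and a constant). -/
def lawT (F : Finset U) (E : Finset (U × U)) (ξ : U → ℝ) (l : F → ℝ) (c : ℝ) :
    Measure (F → ℝ) :=
  (hamP F E ξ).tilted fun h => (∑ x, l x * h x) + c

/-- Integrals under the tilted law are multiples of integrals over the polytope. -/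
theorem lintegral_lawT (l : F → ℝ) (c : ℝ) : ∃ K : ℝ≥0∞, ∀ f : (F → ℝ) → ℝ≥0∞,
    ∫⁻ x, f x ∂(lawT F E ξ l c) = K * ∫⁻ x, (ham F E ξ).indicator (fun x => dens l x * f x) x := by
  set Z : ℝ := ∫ x, Real.exp ((∑ i, l i * x i) + c) ∂(hamP F E ξ) with hZ
  refine ⟨(volume (ham F E ξ))⁻¹ * ENNReal.ofReal (Real.exp c / Z), fun f => ?_⟩
  rw [lawT, lintegral_tilted, ← hZ, hamP, lintegral_smul_measure, smul_eq_mul, mul_assoc,
    lintegral_indicator measurableSet_ham]
  congr 1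
  rw [← lintegral_const_mul' _ _ ENNReal.ofReal_ne_top]
  refine lintegral_congr fun x => ?_
  rw [← mul_assoc]
  congr 1
  unfold dens
  have hZ0 : 0 ≤ Z := integral_nonneg fun _ => (Real.exp_pos _).le
  rw [← ENNReal.ofReal_mul (div_nonneg (Real.exp_pos _).le hZ0), Real.exp_add]
  congr 1
  ring

/-- **Korn inequality for rigid fields** under the tilted law. -/
theorem korn_field_tilted {P : Finset (U × U)} {γ : U × U → U → ℝ} {c : U × U → ℝ} {N : ℕ}
    (hP : FamOK F E ξ P γ c N) {l : F → ℝ} {ε : ℝ} (hl : ∀ x, |l x| ≤ ε) (hε : ε ≤ 1 / 20)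
    (c₀ : ℝ) {Y : (F → ℝ) → (F → ℝ)} (hY : ContDiff ℝ 1 Y) (hR : RigidW F E ξ Y) :
    ∑ p ∈ P, ∫⁻ x, ENNReal.ofReal (we F ξ p.2 (γ p) (c p) x * gr Y p.1 p.2 x ^ 2)
        ∂(lawT F E ξ l c₀) ≤
      ENNReal.ofReal (200 * N) * ∫⁻ x, ENNReal.ofReal (MW121.en Y x) ∂(lawT F E ξ l c₀) := by
  obtain ⟨K, hK⟩ := lintegral_lawT (F := F) (E := E) (ξ := ξ) l c₀
  simp only [hK]
  rw [← Finset.mul_sum, mul_left_comm]
  gcongr
  exact korn_field hP hl hε hY hR

theorem isProbabilityMeasure_lawT (hA : Anch F E) (hξ : ∀ u, |ξ u| ≤ 1 / 2) (l : F → ℝ) (c : ℝ) :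
    IsProbabilityMeasure (lawT F E ξ l c) := by
  have := Crest.Agent.R144.Ham560.isProbabilityMeasure_hamP hA hξ
  refine isProbabilityMeasure_tilted ?_
  rw [hamP]
  refine Integrable.smul_measure ?_ (ENNReal.inv_ne_top.mpr (volume_ham_ne_zero hξ))
  refine ContinuousOn.integrableOn_compact (isCompact_ham hA) ?_
  exact (Real.continuous_exp.comp ((continuous_lin l).add continuous_const)).continuousOn

/-- The tilted law is carried by the polytope. -/
theorem ae_lawT_mem (l : F → ℝ) (c : ℝ) : ∀ᵐ x ∂(lawT F E ξ l c), x ∈ ham F E ξ := by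
  refine (tilted_absolutelyContinuous _ _).ae_le ?_
  rw [hamP]
  refine Measure.ae_smul_measure ?_ _
  exact ae_restrict_mem measurableSet_ham

/-- Continuous functions are integrable under the tilted law. -/
theorem integrable_lawT (hA : Anch F E) (hξ : ∀ u, |ξ u| ≤ 1 / 2) (l : F → ℝ) (c : ℝ)
    {f : (F → ℝ) → ℝ} (hf : Continuous f) : Integrable f (lawT F E ξ l c) := by
  have := isProbabilityMeasure_lawT hA hξ l c
  obtain ⟨C, hC⟩ := (isCompact_ham (ξ := ξ) hA).exists_bound_of_continuousOn hf.continuousOn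
  refine Integrable.of_bound hf.aestronglyMeasurable C ?_
  filter_upwards [ae_lawT_mem (F := F) (E := E) (ξ := ξ) l c] with x hx
  exact hC x hx

theorem measurable_we (v : U) (γ : U → ℝ) (c : ℝ) : Measurable (we F ξ v γ c) := by
  have h1 : ∀ ξ : U → ℝ, Measurable (wt F ξ v γ (1 / 6)) := by
    intro ξ
    unfold wt
    have hcard := measurable_card_sset (F := F) (ξ := ξ) (v := v) (γ := γ)
    exact (measurable_const.pow hcard).div
      ((measurable_from_nat.comp hcard).add measurable_const)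
  refine Measurable.ite ?_ (h1 ξ) ((h1 (-ξ)).comp measurable_neg)
  exact (isClosed_le (continuous_ext v) continuous_const).measurableSet

theorem wt_le_one (v : U) (γ : U → ℝ) (h : F → ℝ) : wt F ξ v γ (1 / 6) h ≤ 1 := by
  unfold wt
  rw [div_le_one (by positivity)]
  have : ((1:ℝ) / 6) ^ (sset F ξ v γ h).card ≤ 1 := pow_le_one₀ (by norm_num) (by norm_num)
  have h2 : (0:ℝ) ≤ (sset F ξ v γ h).card := Nat.cast_nonneg _
  linarith

theorem we_le_one (v : U) (γ : U → ℝ) (c : ℝ) (h : F → ℝ) : we F ξ v γ c h ≤ 1 := by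
  unfold we
  split_ifs
  · exact wt_le_one _ _ _
  · exact wt_le_one _ _ _

/-- A lower bound of the weight, in terms of the number of free sites. -/
theorem we_ge (v : U) (γ : U → ℝ) (c : ℝ) (h : F → ℝ) :
    (1 / 6) ^ F.card / (F.card + 1) ≤ we F ξ v γ c h := by
  have key : ∀ (ξ : U → ℝ) (h : F → ℝ),
      (1 / 6 : ℝ) ^ F.card / (F.card + 1) ≤ wt F ξ v γ (1 / 6) h := by
    intro ξ h
    unfold wt
    have h1 : (sset F ξ v γ h).card ≤ F.card := by
      simpa using Finset.card_le_univ (sset F ξ v γ h)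
    have h2 : ((sset F ξ v γ h).card : ℝ) ≤ F.card := by exact_mod_cast h1
    refine div_le_div₀ (by positivity) ?_ (by positivity) (by linarith)
    exact pow_le_pow_of_le_one (by norm_num) (by norm_num) h1
  unfold we
  split_ifs
  · exact key _ _
  · exact key _ _

theorem integrable_we_mul (hA : Anch F E) (hξ : ∀ u, |ξ u| ≤ 1 / 2) (l : F → ℝ) (c₀ : ℝ)
    (v : U) (γ : U → ℝ) (c : ℝ) {f : (F → ℝ) → ℝ} (hf : Continuous f) :
    Integrable (fun x => we F ξ v γ c x * f x) (lawT F E ξ l c₀) := by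
  refine (integrable_lawT hA hξ l c₀ hf).bdd_mul (c := 1)
    (measurable_we v γ c).aestronglyMeasurable ?_
  refine Filter.Eventually.of_forall fun x => ?_
  rw [Real.norm_eq_abs, abs_of_pos (we_pos v γ c x)]
  exact we_le_one v γ c x

theorem continuous_mwen {Y : (F → ℝ) → (F → ℝ)} (hY : ContDiff ℝ 1 Y) :
    Continuous (MW121.en Y) := by
  have : MW121.en Y = fun h => ∑ z ∈ F, row Y h z := by
    funext h; rw [sum_row hY]
  rw [this]
  exact continuous_finsetSum _ fun z _ => continuous_en (contDiff_lab hY z)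

/-- **Korn inequality for rigid fields** under the tilted law, real integrals. -/
theorem korn_field_integral (hA : Anch F E) (hξ : ∀ u, |ξ u| ≤ 1 / 2)
    {P : Finset (U × U)} {γ : U × U → U → ℝ} {c : U × U → ℝ} {N : ℕ}
    (hP : FamOK F E ξ P γ c N) {l : F → ℝ} {ε : ℝ} (hl : ∀ x, |l x| ≤ ε) (hε : ε ≤ 1 / 20)
    (c₀ : ℝ) {Y : (F → ℝ) → (F → ℝ)} (hY : ContDiff ℝ 1 Y) (hR : RigidW F E ξ Y) :
    ∑ p ∈ P, ∫ x, we F ξ p.2 (γ p) (c p) x * gr Y p.1 p.2 x ^ 2 ∂(lawT F E ξ l c₀) ≤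
      200 * N * ∫ x, MW121.en Y x ∂(lawT F E ξ l c₀) := by
  have h1 := korn_field_tilted hP hl hε c₀ hY hR
  have h2 : ∀ p ∈ P, ∫⁻ x, ENNReal.ofReal (we F ξ p.2 (γ p) (c p) x * gr Y p.1 p.2 x ^ 2)
      ∂(lawT F E ξ l c₀) = ENNReal.ofReal
      (∫ x, we F ξ p.2 (γ p) (c p) x * gr Y p.1 p.2 x ^ 2 ∂(lawT F E ξ l c₀)) := by
    intro p _
    rw [ofReal_integral_eq_lintegral_ofReal]
    · exact integrable_we_mul hA hξ l c₀ _ _ _
        ((contDiff_gr hY p.1 p.2).continuous.pow 2)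
    · exact Filter.Eventually.of_forall fun x => mul_nonneg (we_pos _ _ _ _).le (sq_nonneg _)
  have h3 : ∫⁻ x, ENNReal.ofReal (MW121.en Y x) ∂(lawT F E ξ l c₀) =
      ENNReal.ofReal (∫ x, MW121.en Y x ∂(lawT F E ξ l c₀)) := by
    rw [ofReal_integral_eq_lintegral_ofReal]
    · exact integrable_lawT hA hξ l c₀ (continuous_mwen hY)
    · refine Filter.Eventually.of_forall fun x => ?_
      exact Finset.sum_nonneg fun _ _ => Finset.sum_nonneg fun _ _ => sq_nonneg _
  rw [Finset.sum_congr rfl h2, h3, ← ENNReal.ofReal_mul (by positivity),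
    ← ENNReal.ofReal_sum_of_nonneg] at h1
  · refine (ENNReal.ofReal_le_ofReal_iff ?_).mp h1
    refine mul_nonneg (by positivity) (integral_nonneg fun x => ?_)
    exact Finset.sum_nonneg fun _ _ => Finset.sum_nonneg fun _ _ => sq_nonneg _
  · intro p _
    exact integral_nonneg fun x => mul_nonneg (we_pos _ _ _ _).le (sq_nonneg _)

/-! ### Cauchy–Schwarz -/

theorem sq_le_of_forall {X A Q : ℝ} (hX : 0 ≤ X) (hA : 0 ≤ A) (hQ : 0 ≤ Q)
    (h : ∀ t : ℝ, 0 < t → 2 * X ≤ t * A + Q / t) : X ^ 2 ≤ A * Q := by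
  rcases eq_or_lt_of_le hX with h0 | h0
  · rw [← h0]; nlinarith [mul_nonneg hA hQ]
  refine le_of_forall_pos_le_add fun e he => ?_
  have hd : 0 < A + e / (Q + 1) := by positivity
  have h1 := h (X / (A + e / (Q + 1))) (by positivity)
  have h2 : X / (A + e / (Q + 1)) * A ≤ X := by
    rw [div_mul_eq_mul_div, div_le_iff₀ hd]
    have : 0 < e / (Q + 1) := by positivity
    nlinarith
  have h3 : Q / (X / (A + e / (Q + 1))) = Q * (A + e / (Q + 1)) / X := by
    field_simp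
  rw [h3] at h1
  have h4 : X ≤ Q * (A + e / (Q + 1)) / X := by linarith
  rw [le_div_iff₀ h0] at h4
  have h5 : Q * (e / (Q + 1)) ≤ e := by
    rw [mul_div_assoc', div_le_iff₀ (by positivity)]
    nlinarith
  nlinarith

theorem integrable_inv_we (hA : Anch F E) (hξ : ∀ u, |ξ u| ≤ 1 / 2) (l : F → ℝ) (c₀ : ℝ)
    (v : U) (γ : U → ℝ) (c : ℝ) :
    Integrable (fun x => (we F ξ v γ c x)⁻¹) (lawT F E ξ l c₀) := by
  have := isProbabilityMeasure_lawT hA hξ l c₀
  refine Integrable.of_bound (measurable_we v γ c).inv.aestronglyMeasurable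
    (((1 / 6) ^ F.card / (F.card + 1) : ℝ)⁻¹) (Filter.Eventually.of_forall fun x => ?_)
  rw [Real.norm_eq_abs, abs_of_pos (inv_pos.mpr (we_pos v γ c x))]
  exact inv_anti₀ (by positivity) (we_ge v γ c x)

/-- Flow times gradient on arbitrary events: Cauchy–Schwarz and Korn. -/
theorem sum_abs_le (hA : Anch F E) (hξ : ∀ u, |ξ u| ≤ 1 / 2)
    {P : Finset (U × U)} {γ : U × U → U → ℝ} {c : U × U → ℝ} {N : ℕ}
    (hP : FamOK F E ξ P γ c N) {l : F → ℝ} {ε : ℝ} (hl : ∀ x, |l x| ≤ ε) (hε : ε ≤ 1 / 20)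
    (c₀ : ℝ) {Y : (F → ℝ) → (F → ℝ)} (hY : ContDiff ℝ 1 Y) (hR : RigidW F E ξ Y)
    (J : U × U → ℝ) {B : U × U → Set (F → ℝ)} (_hB : ∀ p, MeasurableSet (B p)) :
    (∑ p ∈ P, |J p| * ∫ x in B p, |gr Y p.1 p.2 x| ∂(lawT F E ξ l c₀)) ^ 2 ≤
      (∑ p ∈ P, J p ^ 2 * ∫ x in B p, (we F ξ p.2 (γ p) (c p) x)⁻¹ ∂(lawT F E ξ l c₀)) *
        (200 * N * ∫ x, MW121.en Y x ∂(lawT F E ξ l c₀)) := by
  set μ := lawT F E ξ l c₀ with hμ
  set Q := ∑ p ∈ P, ∫ x, we F ξ p.2 (γ p) (c p) x * gr Y p.1 p.2 x ^ 2 ∂μ with hQ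
  have hkorn : Q ≤ 200 * N * ∫ x, MW121.en Y x ∂μ := korn_field_integral hA hξ hP hl hε c₀ hY hR
  have hwe : ∀ (p : U × U) (x : F → ℝ), 0 < we F ξ p.2 (γ p) (c p) x := fun p x => we_pos _ _ _ _
  have hQ0 : 0 ≤ Q := Finset.sum_nonneg fun p _ =>
    integral_nonneg fun x => mul_nonneg (hwe p x).le (sq_nonneg _)
  have hA0 : 0 ≤ ∑ p ∈ P, J p ^ 2 * ∫ x in B p, (we F ξ p.2 (γ p) (c p) x)⁻¹ ∂μ :=
    Finset.sum_nonneg fun p _ => mul_nonneg (sq_nonneg _)
      (integral_nonneg fun x => (inv_pos.mpr (hwe p x)).le)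
  have hX0 : 0 ≤ ∑ p ∈ P, |J p| * ∫ x in B p, |gr Y p.1 p.2 x| ∂μ :=
    Finset.sum_nonneg fun p _ => mul_nonneg (abs_nonneg _) (integral_nonneg fun x => abs_nonneg _)
  refine (sq_le_of_forall hX0 hA0 hQ0 fun t ht => ?_).trans
    (mul_le_mul_of_nonneg_left hkorn hA0)
  rw [Finset.mul_sum, Finset.mul_sum, hQ, Finset.sum_div, ← Finset.sum_add_distrib]
  refine Finset.sum_le_sum fun p _ => ?_
  have i1 : Integrable (fun x => |gr Y p.1 p.2 x|) μ :=
    integrable_lawT hA hξ l c₀ (contDiff_gr hY p.1 p.2).continuous.abs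
  have i2 : Integrable (fun x => (we F ξ p.2 (γ p) (c p) x)⁻¹) μ :=
    integrable_inv_we hA hξ l c₀ _ _ _
  have i3 : Integrable (fun x => we F ξ p.2 (γ p) (c p) x * gr Y p.1 p.2 x ^ 2) μ :=
    integrable_we_mul hA hξ l c₀ _ _ _ ((contDiff_gr hY p.1 p.2).continuous.pow 2)
  have h1 : ∫ x in B p, 2 * (|J p| * |gr Y p.1 p.2 x|) ∂μ ≤
      ∫ x in B p, (t * J p ^ 2 * (we F ξ p.2 (γ p) (c p) x)⁻¹ +
        t⁻¹ * (we F ξ p.2 (γ p) (c p) x * gr Y p.1 p.2 x ^ 2)) ∂μ := by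
    refine integral_mono ((i1.const_mul _).const_mul _).integrableOn
      ((i2.const_mul _).add (i3.const_mul _)).integrableOn fun x => ?_
    have hw := hwe p x
    set w := we F ξ p.2 (γ p) (c p) x
    set g := gr Y p.1 p.2 x
    show 2 * (|J p| * |g|) ≤ t * J p ^ 2 * w⁻¹ + t⁻¹ * (w * g ^ 2)
    have h2 : t * J p ^ 2 * w⁻¹ + t⁻¹ * (w * g ^ 2) - 2 * (|J p| * |g|) =
        (t * |J p| - w * |g|) ^ 2 / (t * w) := by
      field_simp
      rw [← sq_abs (J p), ← sq_abs g]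
      ring
    have h3 : 0 ≤ (t * |J p| - w * |g|) ^ 2 / (t * w) := by positivity
    linarith
  rw [integral_const_mul, integral_const_mul,
    integral_add (i2.const_mul _).integrableOn (i3.const_mul _).integrableOn,
    integral_const_mul, integral_const_mul] at h1
  refine h1.trans ?_
  have h4 : ∫ x in B p, we F ξ p.2 (γ p) (c p) x * gr Y p.1 p.2 x ^ 2 ∂μ ≤
      ∫ x, we F ξ p.2 (γ p) (c p) x * gr Y p.1 p.2 x ^ 2 ∂μ :=
    setIntegral_le_integral i3
      (Filter.Eventually.of_forall fun x => mul_nonneg (hwe p x).le (sq_nonneg _))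
  have h5 : t⁻¹ * ∫ x in B p, we F ξ p.2 (γ p) (c p) x * gr Y p.1 p.2 x ^ 2 ∂μ ≤
      t⁻¹ * ∫ x, we F ξ p.2 (γ p) (c p) x * gr Y p.1 p.2 x ^ 2 ∂μ :=
    mul_le_mul_of_nonneg_left h4 (inv_pos.mpr ht).le
  rw [div_eq_inv_mul]
  nlinarith

end Crest.Agent.R144.KorE761
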