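import Crest.Agent.R144.KorT2_620

/-!
R144 (S0197), helper620.  TAILS of the push cluster (doc 1585), part 3: consequences.

* `Cfg.of_half` : the structural hypotheses hold for data `|ξ| ≤ 1/2` and `h v ≤ 1/2`;
* `cover_neg` : covering for the mirror cluster;
* `TB μ c Z` : joint tightness bound; `tail_TB`, `moment_TB`;
* `TB_volume` : the hammock law itself; `vol_tail`, `vol_moment`.
-/

set_option autoImplicit false

open MeasureTheory Set
open scoped ENNReal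

noncomputable section

namespace Crest.Agent.R144.Kor620

open Crest.Agent.R144.Ham560 (ext ham ext_mem ext_notMem nbr mem_nbr Fresh tight ext_neg
  vol_tight_le ham_neg)
open Crest.ProbabilityR.HexHeights (Adj)

variable {F : Finset P2} {E : Finset (P2 × P2)} {ξ : P2 → ℝ} {u v : P2} {h : F → ℝ}

/-- All lattice edges touching `F` belong to `E`. -/
def FullE (F : Finset P2) (E : Finset (P2 × P2)) : Prop := ∀ x ∈ F, ∀ y, Adj x y → y ∈ nbr E x

theorem ham_nbr' (hx : h ∈ ham F E ξ) {a b : P2} (hb : b ∈ nbr E a) :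
    |ext F ξ h a - ext F ξ h b| ≤ 1 := by
  rcases (mem_nbr.mp hb).2 with h1 | h1
  · exact hx _ h1
  · rw [abs_sub_comm]; exact hx _ h1

theorem lip_of_half (hE : FullE F E) (hξ : ∀ z, |ξ z| ≤ 1 / 2) (hh : h ∈ ham F E ξ) :
    ∀ a b, Adj a b → |ext F ξ h a - ext F ξ h b| ≤ 1 := by
  intro a b hab
  by_cases ha : a ∈ F
  · exact ham_nbr' hh (hE a ha b hab)
  · by_cases hb : b ∈ F
    · rw [abs_sub_comm]; exact ham_nbr' hh (hE b hb a (adj_symm hab))
    · rw [ext_notMem ha, ext_notMem hb]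
      have h1 := abs_le.mp (hξ a)
      have h2 := abs_le.mp (hξ b)
      rw [abs_le]; constructor <;> linarith

theorem Cfg.of_half (hE : FullE F E) (hξ : ∀ z, |ξ z| ≤ 1 / 2) (huv : Adj u v)
    (hh : h ∈ ham F E ξ) (hv : ext F ξ h v ≤ 1 / 2) : Cfg F E ξ u v h := by
  refine ⟨hE, lip_of_half hE hξ hh, huv, fun z _ h3 => ?_⟩
  have h1 := abs_le.mp (hξ z)
  have h2 : (3 : ℝ) ≤ nrm (z - u) := by exact_mod_cast h3
  linarith

theorem ext_neg' (x : F → ℝ) (w : P2) : ext F (-ξ) (-x) w = -ext F ξ x w := ext_neg x w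

/-- Covering for the mirror cluster. -/
theorem cover_neg {A c : ℝ} (hA : 1 ≤ A) (hc : 1 ≤ c) : ∃ (C ε : ℝ), 1 ≤ C ∧ 0 < ε ∧ ε ≤ 1 ∧
    ∀ (k : ℕ) (u : P2), ∃ Fam : Finset (List (P2 × P2)),
      (∑ T ∈ Fam, (c * ε) ^ T.length ≤ C * (1 / A) ^ k) ∧
      (∀ T ∈ Fam, ∀ e ∈ T, nrm (e.1 - u) ≤ k + 2 ∧ nrm (e.2 - u) ≤ k + 2) ∧
      ∀ (F : Finset P2) (E : Finset (P2 × P2)) (ξ : P2 → ℝ) (v : P2) (h : F → ℝ),
        ((Cfg F E ξ u v h ∧ k ≤ (sset F ξ v (gam u) h).card) ∨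
          (Cfg F E (-ξ) u v (-h) ∧ k ≤ (sset F (-ξ) v (gam u) (-h)).card)) →
        ∃ T ∈ Fam, Fresh F E T ∧ ∀ e ∈ T, 1 - ε ≤ |ext F ξ h e.1 - ext F ξ h e.2| := by
  obtain ⟨C, ε, h1, h2, h3, h4⟩ := cover hA hc
  refine ⟨C, ε, h1, h2, h3, fun k u => ?_⟩
  obtain ⟨Fam, h5, h6, h7⟩ := h4 k u
  refine ⟨Fam, h5, h6, fun F E ξ v h hcase => ?_⟩
  rcases hcase with ⟨h8, h9⟩ | ⟨h8, h9⟩
  · exact h7 F E ξ v h h8 h9
  · obtain ⟨T, hT, hf, ht⟩ := h7 F E (-ξ) v (-h) h8 h9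
    refine ⟨T, hT, hf, fun e he => ?_⟩
    have := ht e he
    rw [ext_neg', ext_neg'] at this
    rwa [show -ext F ξ h e.1 - -ext F ξ h e.2 = -(ext F ξ h e.1 - ext F ξ h e.2) by ring,
      abs_neg] at this

/-- Joint tightness bound for a measure on heights, with constant `c` and normalisation `Z`. -/
def TB (F : Finset P2) (E : Finset (P2 × P2)) (ξ : P2 → ℝ) (μ : Measure (F → ℝ)) (c : ℝ)
    (Z : ℝ≥0∞) : Prop :=
  ∀ T : List (P2 × P2), Fresh F E T → ∀ ε : ℝ, 0 < ε → ε ≤ 1 →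
    μ {h | h ∈ ham F E ξ ∧ ∀ e ∈ T, 1 - ε ≤ |ext F ξ h e.1 - ext F ξ h e.2|} ≤
      ENNReal.ofReal (c * ε) ^ T.length * Z

theorem TB_volume (F : Finset P2) (E : Finset (P2 × P2)) (ξ : P2 → ℝ) {n : ℕ}
    (hn : ∀ v ∈ F, (nbr E v).card ≤ n) :
    TB F E ξ volume (64 * (n : ℝ) ^ 2) (volume (ham F E 0)) := by
  intro T hT ε hε _
  exact vol_tight_le hT hn hε

open scoped Classical in
/-- The cluster of the ordered edge `(u, v)`: upward push if `h v ≤ lam`, downward push otherwise. -/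
def cnum (F : Finset P2) (ξ : P2 → ℝ) (u v : P2) (lam : ℝ) (h : F → ℝ) : ℕ :=
  if ext F ξ h v ≤ lam then (sset F ξ v (gam u) h).card else (sset F (-ξ) v (gam u) (-h)).card

theorem measurable_cnum (lam : ℝ) : Measurable (cnum F ξ u v lam) := by
  classical
  unfold cnum
  refine Measurable.ite ?_ measurable_card_sset ?_
  · exact measurableSet_le (Ham560.continuous_ext v).measurable measurable_const
  · exact (measurable_card_sset (F := F) (ξ := -ξ) (v := v) (γ := gam u)).comp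
      measurable_neg

/-- Tail of the cluster under any law with the joint tightness bound (both signs). -/
theorem tail_TB {A c : ℝ} (hA : 1 ≤ A) (hc : 1 ≤ c) : ∃ C : ℝ, 1 ≤ C ∧
    ∀ (F : Finset P2) (E : Finset (P2 × P2)) (ξ : P2 → ℝ) (μ : Measure (F → ℝ)) (Z : ℝ≥0∞),
      TB F E ξ μ c Z → ∀ (u v : P2) (k : ℕ),
      μ {h | h ∈ ham F E ξ ∧ ((Cfg F E ξ u v h ∧ k ≤ (sset F ξ v (gam u) h).card) ∨
          (Cfg F E (-ξ) u v (-h) ∧ k ≤ (sset F (-ξ) v (gam u) (-h)).card))} ≤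
        ENNReal.ofReal (C * (1 / A) ^ k) * Z := by
  obtain ⟨C, ε, hC, hε0, hε1, hcov⟩ := cover_neg hA hc
  refine ⟨C, hC, fun F E ξ μ Z hTB u v k => ?_⟩
  obtain ⟨Fam, hsum, _, hcov⟩ := hcov k u
  classical
  have hsub : {h | h ∈ ham F E ξ ∧ ((Cfg F E ξ u v h ∧ k ≤ (sset F ξ v (gam u) h).card) ∨
      (Cfg F E (-ξ) u v (-h) ∧ k ≤ (sset F (-ξ) v (gam u) (-h)).card))} ⊆
      ⋃ T ∈ Fam.filter (fun T => Fresh F E T),
        {h | h ∈ ham F E ξ ∧ ∀ e ∈ T, 1 - ε ≤ |ext F ξ h e.1 - ext F ξ h e.2|} := by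
    rintro h ⟨hh, hcase⟩
    obtain ⟨T, hT, hf, ht⟩ := hcov F E ξ v h hcase
    simp only [mem_iUnion]
    exact ⟨T, Finset.mem_filter.mpr ⟨hT, hf⟩, hh, ht⟩
  have hc0 : 0 ≤ c * ε := by positivity
  calc μ _ ≤ ∑ T ∈ Fam.filter (fun T => Fresh F E T),
        μ {h | h ∈ ham F E ξ ∧ ∀ e ∈ T, 1 - ε ≤ |ext F ξ h e.1 - ext F ξ h e.2|} :=
        (measure_mono hsub).trans (measure_biUnion_finset_le _ _)
    _ ≤ ∑ T ∈ Fam.filter (fun T => Fresh F E T), ENNReal.ofReal (c * ε) ^ T.length * Z :=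
        Finset.sum_le_sum fun T hT => hTB T (Finset.mem_filter.mp hT).2 ε hε0 hε1
    _ ≤ ∑ T ∈ Fam, ENNReal.ofReal (c * ε) ^ T.length * Z :=
        Finset.sum_le_sum_of_subset (Finset.filter_subset _ _)
    _ = ENNReal.ofReal (∑ T ∈ Fam, (c * ε) ^ T.length) * Z := by
        rw [ENNReal.ofReal_sum_of_nonneg (fun T _ => by positivity), Finset.sum_mul]
        refine Finset.sum_congr rfl fun T _ => ?_
        rw [ENNReal.ofReal_pow hc0]
    _ ≤ ENNReal.ofReal (C * (1 / A) ^ k) * Z := by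
        gcongr

/-- Exponential moments of the cluster under any law with the joint tightness bound. -/
theorem moment_TB {B c : ℝ} (hB : 1 ≤ B) (hc : 1 ≤ c) : ∃ C : ℝ, 1 ≤ C ∧
    ∀ (F : Finset P2) (E : Finset (P2 × P2)) (ξ : P2 → ℝ) (μ : Measure (F → ℝ)) (Z : ℝ≥0∞),
      TB F E ξ μ c Z → ∀ (u v : P2) (lam : ℝ) (G : Set (F → ℝ)),
      (∀ h ∈ G, h ∈ ham F E ξ ∧ (ext F ξ h v ≤ lam → Cfg F E ξ u v h) ∧
        (lam < ext F ξ h v → Cfg F E (-ξ) u v (-h))) →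
      ∫⁻ h in G, ENNReal.ofReal (B ^ cnum F ξ u v lam h) ∂μ ≤ ENNReal.ofReal C * Z := by
  classical
  have hB0 : 0 < B := by linarith
  obtain ⟨C, hC, htail⟩ := tail_TB (A := 2 * B) (by linarith) hc
  refine ⟨2 * C, by linarith, fun F E ξ μ Z hTB u v lam G hG => ?_⟩
  have hm := measurable_cnum (F := F) (ξ := ξ) (u := u) (v := v) lam
  have hbd : ∀ h, cnum F ξ u v lam h ≤ Fintype.card F := by
    intro h
    unfold cnum
    split_ifs
    · exact Finset.card_le_univ _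
    · exact Finset.card_le_univ _
  have e1 : ∀ h, ENNReal.ofReal (B ^ cnum F ξ u v lam h) =
      ∑ k ∈ Finset.range (Fintype.card F + 1),
        ({h | cnum F ξ u v lam h = k}.indicator (fun _ => ENNReal.ofReal (B ^ k)) h) := by
    intro h
    rw [Finset.sum_eq_single (cnum F ξ u v lam h)]
    · rw [indicator_of_mem (by rfl)]
    · intro k _ hk
      rw [indicator_of_notMem]
      intro h'; exact hk h'.symm
    · intro h'
      exact absurd (Finset.mem_range.mpr (Nat.lt_succ_of_le (hbd h))) h'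
  have hms : ∀ k : ℕ, MeasurableSet {h | cnum F ξ u v lam h = k} := fun k =>
    hm (measurableSet_singleton k)
  rw [lintegral_congr e1, lintegral_finsetSum _ (fun k _ => measurable_const.indicator (hms k))]
  have h2 : ∀ k ∈ Finset.range (Fintype.card F + 1),
      ∫⁻ h in G, ({h | cnum F ξ u v lam h = k}.indicator (fun _ => ENNReal.ofReal (B ^ k)) h) ∂μ ≤
        ENNReal.ofReal (C * (1 / 2) ^ k) * Z := by
    intro k _
    rw [lintegral_indicator_const (hms k), Measure.restrict_apply (hms k)]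
    have h3 : μ ({h | cnum F ξ u v lam h = k} ∩ G) ≤
        ENNReal.ofReal (C * (1 / (2 * B)) ^ k) * Z := by
      refine (measure_mono ?_).trans (htail F E ξ μ Z hTB u v k)
      rintro h ⟨hk, hhG⟩
      obtain ⟨h4, h5, h6⟩ := hG h hhG
      refine ⟨h4, ?_⟩
      change cnum F ξ u v lam h = k at hk
      by_cases hv : ext F ξ h v ≤ lam
      · left
        rw [cnum, if_pos hv] at hk
        exact ⟨h5 hv, hk.ge⟩
      · right
        rw [cnum, if_neg hv] at hk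
        exact ⟨h6 (not_le.mp hv), hk.ge⟩
    calc ENNReal.ofReal (B ^ k) * μ ({h | cnum F ξ u v lam h = k} ∩ G)
        ≤ ENNReal.ofReal (B ^ k) * (ENNReal.ofReal (C * (1 / (2 * B)) ^ k) * Z) := by gcongr
      _ = ENNReal.ofReal (C * (1 / 2) ^ k) * Z := by
          rw [← mul_assoc, ← ENNReal.ofReal_mul (by positivity)]
          congr 2
          rw [show (1 : ℝ) / (2 * B) = (1 / 2) * (1 / B) by field_simp, mul_pow]
          have : B ^ k * (1 / B) ^ k = 1 := by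
            rw [← mul_pow, mul_one_div_cancel hB0.ne', one_pow]
          calc B ^ k * (C * ((1 / 2) ^ k * (1 / B) ^ k)) =
                C * (1 / 2) ^ k * (B ^ k * (1 / B) ^ k) := by ring
            _ = _ := by rw [this, mul_one]
  refine (Finset.sum_le_sum h2).trans ?_
  rw [← Finset.sum_mul]
  gcongr
  rw [← ENNReal.ofReal_sum_of_nonneg (fun k _ => by positivity)]
  apply ENNReal.ofReal_le_ofReal
  rw [← Finset.mul_sum, mul_comm 2 C]
  gcongr
  have h7 := sum_geometric_two_le (Fintype.card F + 1)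
  exact h7

/-- The hammock law itself. -/
theorem vol_moment {B : ℝ} (hB : 1 ≤ B) : ∃ C : ℝ, 1 ≤ C ∧
    ∀ (F : Finset P2) (E : Finset (P2 × P2)) (ξ : P2 → ℝ), FullE F E →
      (∀ w ∈ F, (nbr E w).card ≤ 6) → (∀ z, |ξ z| ≤ 1 / 2) → ∀ (u v : P2), Adj u v →
      ∀ lam : ℝ, |lam| ≤ 1 / 2 →
      ∫⁻ h in ham F E ξ, ENNReal.ofReal (B ^ cnum F ξ u v lam h) ≤
        ENNReal.ofReal C * volume (ham F E 0) := by
  obtain ⟨C, hC, hmom⟩ := moment_TB (c := 64 * ((6 : ℕ) : ℝ) ^ 2) hB (by norm_num)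
  refine ⟨C, hC, fun F E ξ hE hn hξ u v huv lam hlam => ?_⟩
  refine hmom F E ξ volume _ (TB_volume F E ξ hn) u v lam (ham F E ξ) fun h hh => ?_
  have h1 := abs_le.mp hlam
  refine ⟨hh, fun h2 => Cfg.of_half hE hξ huv hh (by linarith), fun h2 => ?_⟩
  refine Cfg.of_half hE (fun z => ?_) huv (ham_neg hh) ?_
  · rw [Pi.neg_apply, abs_neg]; exact hξ z
  · rw [ext_neg']; linarith

end Crest.Agent.R144.Kor620
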