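import Crest.Agent.R144.KorE2_761
import Crest.Agent.R144.KorT3_620

/-!
R144 (S0197), helper761.  Korn inequality, hard walls: the triangular lattice.

With helper620's `gam`, `nrm`, `FullE`, `cnum`:
* `edgeOK_lattice` : the hypotheses of `korn_edge` hold for a lattice edge `(u, v)`, `u` free, when
  the fixed sites at distance at most two from `u` (other than `v`) carry one value `lam`;
* `famOK_lattice` : families of such edges;
* `korn_lattice` : `∑_p ∫ (1/6)^cnum / (cnum + 1) * gr² ≤ 1200 ∫ en Y` under tilted laws;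
* `sum_abs_lattice` : Cauchy–Schwarz.
-/

set_option autoImplicit false
set_option linter.unusedSectionVars false

open MeasureTheory Set
open scoped ENNReal

noncomputable section

namespace Crest.Agent.R144.KorE761

open Crest.Agent.R144.Ham560 (ext ham ext_mem ext_notMem continuous_ext nbr mem_nbr
  hamP Anch)
open Crest.Agent.R144.Kor620 (P2 nrm gam FullE cnum wt sset adj_symm exists_sector pt pt_zero
  nrm_pt adj_pt_succ adj_pt_succ' lip_of_half sec_of_mem)
open Crest.ProbabilityR.HexHeights (Adj)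

variable {F : Finset P2} {E : Finset (P2 × P2)} {ξ : P2 → ℝ} {u v : P2}

theorem adj_cases {a b : P2} (h : Adj a b) : (b.1 = a.1 + 1 ∧ b.2 = a.2) ∨
    (b.1 = a.1 - 1 ∧ b.2 = a.2) ∨ (b.1 = a.1 ∧ b.2 = a.2 + 1) ∨ (b.1 = a.1 ∧ b.2 = a.2 - 1) ∨
    (b.1 = a.1 + 1 ∧ b.2 = a.2 - 1) ∨ (b.1 = a.1 - 1 ∧ b.2 = a.2 + 1) := by
  unfold Adj at h
  omega

theorem nrm_le_iff {z : P2} {n : ℕ} :
    nrm z ≤ n ↔ z.1.natAbs ≤ n ∧ z.2.natAbs ≤ n ∧ (z.1 + z.2).natAbs ≤ n := by
  unfold nrm
  rw [max_le_iff, max_le_iff, and_assoc]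

theorem nrm_adj {a b : P2} (h : Adj a b) (u : P2) : nrm (a - u) ≤ nrm (b - u) + 1 := by
  obtain ⟨h1, h2, h3⟩ := nrm_le_iff.mp (le_refl (nrm (b - u)))
  rw [Prod.fst_sub] at h1 h3
  rw [Prod.snd_sub] at h2 h3
  have k1 : (a.1 - b.1).natAbs ≤ 1 ∧ (a.2 - b.2).natAbs ≤ 1 ∧
      (a.1 + a.2 - (b.1 + b.2)).natAbs ≤ 1 := by
    rcases adj_cases h with h | h | h | h | h | h <;> rw [h.1, h.2] <;>
      exact ⟨by omega, by omega, by omega⟩
  rw [nrm_le_iff, Prod.fst_sub, Prod.snd_sub]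
  generalize nrm (b - u) = n at h1 h2 h3 ⊢
  have g1 : (a.1 - u.1).natAbs ≤ (b.1 - u.1).natAbs + (a.1 - b.1).natAbs := by
    have := Int.natAbs_add_le (b.1 - u.1) (a.1 - b.1)
    rwa [show b.1 - u.1 + (a.1 - b.1) = a.1 - u.1 by ring] at this
  have g2 : (a.2 - u.2).natAbs ≤ (b.2 - u.2).natAbs + (a.2 - b.2).natAbs := by
    have := Int.natAbs_add_le (b.2 - u.2) (a.2 - b.2)
    rwa [show b.2 - u.2 + (a.2 - b.2) = a.2 - u.2 by ring] at this
  have g3 : (a.1 - u.1 + (a.2 - u.2)).natAbs ≤ (b.1 - u.1 + (b.2 - u.2)).natAbs +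
      (a.1 + a.2 - (b.1 + b.2)).natAbs := by
    have := Int.natAbs_add_le (b.1 - u.1 + (b.2 - u.2)) (a.1 + a.2 - (b.1 + b.2))
    rwa [show b.1 - u.1 + (b.2 - u.2) + (a.1 + a.2 - (b.1 + b.2)) =
      a.1 - u.1 + (a.2 - u.2) by ring] at this
  exact ⟨by linarith [k1.1], by linarith [k1.2.1], by linarith [k1.2.2]⟩

theorem nrm_adj_real {a b : P2} (h : Adj a b) (u : P2) :
    |(nrm (a - u) : ℝ) - nrm (b - u)| ≤ 1 := by
  have h1 : ((nrm (a - u) : ℤ) : ℝ) ≤ ((nrm (b - u) : ℤ) : ℝ) + 1 := by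
    exact_mod_cast nrm_adj h u
  have h2 : ((nrm (b - u) : ℤ) : ℝ) ≤ ((nrm (a - u) : ℤ) : ℝ) + 1 := by
    exact_mod_cast nrm_adj (adj_symm h) u
  push_cast at h1 h2
  rw [abs_le]; constructor <;> linarith

theorem one_le_nrm {a u : P2} (h : a ≠ u) : 1 ≤ nrm (a - u) := by
  by_contra hcon
  have h1 : nrm (a - u) ≤ 0 := by omega
  obtain ⟨h2, h3, _⟩ := nrm_le_iff.mp h1
  rw [Prod.fst_sub] at h2
  rw [Prod.snd_sub] at h3
  apply h
  ext
  · omega
  · omega

theorem nrm_self (u : P2) : nrm (u - u) = 0 := by simp [nrm]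

theorem nrm_eq_one {a u : P2} (h : Adj a u) : nrm (a - u) = 1 := by
  have h1 := nrm_adj h u
  rw [nrm_self] at h1
  refine le_antisymm h1 (one_le_nrm ?_)
  rintro rfl
  have := adj_cases h
  omega

theorem ne_of_adj {a b : P2} (h : Adj a b) : a ≠ b := by
  rintro rfl
  have := adj_cases h
  omega

/-- All edges of `E` are lattice edges. -/
def LatE (E : Finset (P2 × P2)) : Prop := ∀ p ∈ E, Adj p.1 p.2

theorem LatE.adj (h : LatE E) {a b : P2} (hab : (a, b) ∈ E ∨ (b, a) ∈ E) : Adj a b := by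
  rcases hab with h1 | h1
  · exact h _ h1
  · exact adj_symm (h _ h1)

theorem LatE.nbr (h : LatE E) {a b : P2} (hab : b ∈ Ham560.nbr E a) : Adj a b :=
  h.adj (mem_nbr.mp hab).2

theorem prof_lattice (hE : LatE E) (huv : Adj u v) : Prof F E u v (gam u) where
  apex := by simp [gam]
  lip a b hab _ _ := by
    have h1 := hE.adj hab
    unfold gam
    by_cases ha : a = u
    · subst ha
      by_cases hb : b = a
      · subst hb; simp
      · have h2 := nrm_eq_one (adj_symm h1)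
        simp only [if_true, if_neg hb, h2]
        norm_num [abs_le]
    · by_cases hb : b = u
      · subst hb
        have h2 := nrm_eq_one h1
        simp only [if_true, if_neg ha, h2]
        norm_num [abs_le]
      · simp only [if_neg ha, if_neg hb]
        have := nrm_adj_real h1 u
        rw [abs_sub_comm] at this
        rwa [sub_sub_sub_cancel_left]
  nbr_v a ha := by
    have h1 := hE.nbr ha
    unfold gam
    by_cases hau : a = u
    · simp [hau]
    · simp only [if_neg hau]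
      have h2 := one_le_nrm hau
      have h3 := nrm_adj (adj_symm h1) u
      have h4 := nrm_eq_one (adj_symm huv)
      rw [h4] at h3
      have h5 : (nrm (a - u) : ℝ) ≤ 2 := by exact_mod_cast h3
      have h6 : (1 : ℝ) ≤ nrm (a - u) := by exact_mod_cast h2
      rw [abs_le]; constructor <;> linarith
  nbr_u y hy _ := by
    have h1 := hE.nbr hy
    have h2 := nrm_eq_one (adj_symm h1)
    have h3 : y ≠ u := (mem_nbr.mp hy).1
    unfold gam
    rw [if_neg h3, h2]
    norm_num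

/-- A height which is `1`-Lipschitz along lattice edges is `1`-Lipschitz for `nrm`. -/
theorem lip_nrm {f : P2 → ℝ} (hf : ∀ a b, Adj a b → |f a - f b| ≤ 1) (u x : P2) :
    |f u - f x| ≤ nrm (x - u) := by
  obtain ⟨d, hd, a, b, rfl⟩ := exists_sector u x
  have hs := sec_of_mem hd
  rw [nrm_pt hs]
  have key1 : ∀ a : ℕ, |f u - f (pt u d.1 d.2 a 0)| ≤ a := by
    intro a
    induction a with
    | zero => simp [pt_zero]
    | succ n ih =>
      have h1 := hf _ _ (adj_pt_succ (u := u) hs n 0)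
      rw [abs_le] at *
      push_cast
      constructor <;> linarith
  have key2 : ∀ b : ℕ, |f u - f (pt u d.1 d.2 a b)| ≤ (a + b : ℕ) := by
    intro b
    induction b with
    | zero => simpa using key1 a
    | succ n ih =>
      have h1 := hf _ _ (adj_pt_succ' (u := u) hs a n)
      rw [abs_le] at *
      push_cast at *
      constructor <;> linarith
  exact key2 b

/-- The hypotheses of `korn_edge` on the lattice. -/
theorem edgeOK_lattice (hE : LatE E) (hF : FullE F E) (hξ : ∀ z, |ξ z| ≤ 1 / 2) (hu : u ∈ F)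
    (huv : Adj u v) {lam : ℝ} (hlam : |lam| ≤ 1 / 2)
    (hfix : ∀ b, b ∉ F → b ≠ v → nrm (b - u) ≤ 2 → ξ b = lam) :
    EdgeOK F E ξ u v (gam u) lam where
  mem := hu
  nbr := hF u hu v huv
  prof := prof_lattice hE huv
  dist h hh x hxv := by
    have hl := lip_of_half hF hξ hh
    have h1 := lip_nrm hl u x
    have h2 := hl u v huv
    rw [ext_mem x.2] at h1
    unfold gam
    have h3 : |ext F ξ h v - h x| ≤ |ext F ξ h u - ext F ξ h v| + |ext F ξ h u - h x| := by
      rw [abs_sub_comm (ext F ξ h u) (ext F ξ h v)]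
      exact abs_sub_le _ _ _
    have h1' : |ext F ξ h u - h x| ≤ nrm ((x : P2) - u) := h1
    by_cases hxu : (x : P2) = u
    · rw [if_pos hxu]
      have h4 : nrm ((x : P2) - u) = 0 := by rw [hxu]; exact nrm_self u
      rw [h4] at h1'
      push_cast at h1'
      linarith
    · rw [if_neg hxu]
      linarith
  fix a ha hav b hb hbF hbv := by
    have h1 := hE.nbr hb
    unfold gam
    by_cases hau : a = u
    · subst hau
      have h2 := nrm_eq_one (adj_symm h1)
      rw [hfix b hbF hbv (by omega)]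
      simp
    · rw [if_neg hau]
      have h2 := one_le_nrm hau
      have h3 := nrm_adj (adj_symm h1) u
      rcases Nat.lt_or_ge 1 (nrm (a - u)) with h4 | h4
      · have h5 : (2 : ℝ) ≤ nrm (a - u) := by exact_mod_cast h4
        have h6 := abs_le.mp (hξ b)
        have h7 := abs_le.mp hlam
        rw [abs_le]; constructor <;> linarith
      · have h5 : nrm (a - u) = 1 := by omega
        rw [h5] at h3
        rw [hfix b hbF hbv (by omega), h5]
        norm_num

/-- A vertex has at most six lattice neighbours. -/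
theorem card_adj_le (P : Finset (P2 × P2)) (hP : ∀ p ∈ P, Adj p.1 p.2) (z : P2) :
    (P.filter fun p => p.1 = z).card ≤ 6 ∧ (P.filter fun p => p.2 = z).card ≤ 6 := by
  let D : Finset P2 := {(1, 0), (-1, 0), (0, 1), (0, -1), (1, -1), (-1, 1)}
  have hD : D.card ≤ 6 := Finset.card_le_six
  constructor
  · refine le_trans (Finset.card_le_card_of_injOn (fun p => p.2 - z) ?_ ?_) hD
    · intro p hp
      have h1 := Finset.mem_filter.mp hp
      have h2 := adj_cases (hP p h1.1)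
      rw [h1.2] at h2
      simp only [D, Finset.coe_insert, Finset.coe_singleton, mem_insert_iff,
        mem_singleton_iff, Prod.ext_iff, Prod.fst_sub, Prod.snd_sub]
      omega
    · intro p hp q hq hpq
      have h1 := (Finset.mem_filter.mp hp).2
      have h2 := (Finset.mem_filter.mp hq).2
      have h3 : p.2 = q.2 := by simpa using hpq
      exact Prod.ext (h1.trans h2.symm) h3
  · refine le_trans (Finset.card_le_card_of_injOn (fun p => p.1 - z) ?_ ?_) hD
    · intro p hp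
      have h1 := Finset.mem_filter.mp hp
      have h2 := adj_cases (hP p h1.1)
      rw [h1.2] at h2
      simp only [D, Finset.coe_insert, Finset.coe_singleton, mem_insert_iff,
        mem_singleton_iff, Prod.ext_iff, Prod.fst_sub, Prod.snd_sub]
      omega
    · intro p hp q hq hpq
      have h1 := (Finset.mem_filter.mp hp).2
      have h2 := (Finset.mem_filter.mp hq).2
      have h3 : p.1 = q.1 := by simpa using hpq
      exact Prod.ext h3 (h1.trans h2.symm)

/-- A family of ordered lattice edges with free first endpoint, around which the fixed sites carry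
one value. -/
structure LatFam (F : Finset P2) (ξ : P2 → ℝ) (P : Finset (P2 × P2)) (lam : P2 × P2 → ℝ) :
    Prop where
  mem : ∀ p ∈ P, p.1 ∈ F
  adj : ∀ p ∈ P, Adj p.1 p.2
  half : ∀ p ∈ P, |lam p| ≤ 1 / 2
  fix : ∀ p ∈ P, ∀ b, b ∉ F → b ≠ p.2 → nrm (b - p.1) ≤ 2 → ξ b = lam p

theorem LatFam.famOK {P : Finset (P2 × P2)} {lam : P2 × P2 → ℝ} (hP : LatFam F ξ P lam)
    (hE : LatE E) (hF : FullE F E) (hξ : ∀ z, |ξ z| ≤ 1 / 2) :
    FamOK F E ξ P (fun p => gam p.1) lam 6 where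
  ok p hp := edgeOK_lattice hE hF hξ (hP.mem p hp) (hP.adj p hp) (hP.half p hp) (hP.fix p hp)
  fst z _ := (card_adj_le P hP.adj z).1
  snd z _ := (card_adj_le P hP.adj z).2

/-- The weight in terms of the cluster number of helper620. -/
theorem we_eq (u v : P2) (lam : ℝ) (h : F → ℝ) :
    we F ξ v (gam u) lam h = (1 / 6) ^ cnum F ξ u v lam h / (cnum F ξ u v lam h + 1) := by
  unfold we cnum wt
  split_ifs <;> rfl

theorem inv_we_eq (u v : P2) (lam : ℝ) (h : F → ℝ) :
    (we F ξ v (gam u) lam h)⁻¹ = 6 ^ cnum F ξ u v lam h * (cnum F ξ u v lam h + 1) := by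
  rw [we_eq, inv_div, one_div, inv_pow, div_inv_eq_mul]
  ring

/-- **Korn inequality on the lattice**, tilted laws. -/
theorem korn_lattice (hA : Anch F E) (hE : LatE E) (hF : FullE F E) (hξ : ∀ z, |ξ z| ≤ 1 / 2)
    {P : Finset (P2 × P2)} {lam : P2 × P2 → ℝ} (hP : LatFam F ξ P lam)
    {l : F → ℝ} {ε : ℝ} (hl : ∀ x, |l x| ≤ ε) (hε : ε ≤ 1 / 20)
    (c₀ : ℝ) {Y : (F → ℝ) → (F → ℝ)} (hY : ContDiff ℝ 1 Y) (hR : RigidW F E ξ Y) :
    ∑ p ∈ P, ∫ x, (1 / 6) ^ cnum F ξ p.1 p.2 (lam p) x / (cnum F ξ p.1 p.2 (lam p) x + 1) *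
        gr Y p.1 p.2 x ^ 2 ∂(lawT F E ξ l c₀) ≤
      1200 * ∫ x, MW121.en Y x ∂(lawT F E ξ l c₀) := by
  have h1 := korn_field_integral hA hξ (hP.famOK hE hF hξ) hl hε c₀ hY hR
  simp only [we_eq] at h1
  refine h1.trans (le_of_eq ?_)
  norm_num

/-- Cauchy–Schwarz and Korn on the lattice. -/
theorem sum_abs_lattice (hA : Anch F E) (hE : LatE E) (hF : FullE F E)
    (hξ : ∀ z, |ξ z| ≤ 1 / 2) {P : Finset (P2 × P2)} {lam : P2 × P2 → ℝ} (hP : LatFam F ξ P lam)
    {l : F → ℝ} {ε : ℝ} (hl : ∀ x, |l x| ≤ ε) (hε : ε ≤ 1 / 20)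
    (c₀ : ℝ) {Y : (F → ℝ) → (F → ℝ)} (hY : ContDiff ℝ 1 Y) (hR : RigidW F E ξ Y)
    (J : P2 × P2 → ℝ) {B : P2 × P2 → Set (F → ℝ)} (hB : ∀ p, MeasurableSet (B p)) :
    (∑ p ∈ P, |J p| * ∫ x in B p, |gr Y p.1 p.2 x| ∂(lawT F E ξ l c₀)) ^ 2 ≤
      (∑ p ∈ P, J p ^ 2 * ∫ x in B p, (6 : ℝ) ^ cnum F ξ p.1 p.2 (lam p) x *
        (cnum F ξ p.1 p.2 (lam p) x + 1) ∂(lawT F E ξ l c₀)) *
        (1200 * ∫ x, MW121.en Y x ∂(lawT F E ξ l c₀)) := by
  have h1 := sum_abs_le hA hξ (hP.famOK hE hF hξ) hl hε c₀ hY hR J hB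
  simp only [inv_we_eq] at h1
  refine h1.trans (le_of_eq ?_)
  norm_num

/-! ### the frozen edges -/

open Crest.ProbabilityR.TriHeights

theorem latE_triE (T : Finset Tri) : LatE (Ham560.triE T) := by
  intro p hp
  have h1 := Ham560.mem_triE.mp hp
  obtain ⟨hne, t, _, h2, h3⟩ := h1
  obtain ⟨⟨a, b⟩, c, d⟩ := p
  obtain ⟨⟨t1, t2⟩, s⟩ := t
  simp only [corners, Finset.mem_image, Finset.mem_univ, true_and] at h2 h3
  obtain ⟨i, hi⟩ := h2
  obtain ⟨j, hj⟩ := h3
  simp only at hne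
  unfold Adj
  cases s <;> fin_cases i <;> fin_cases j <;> simp [corner] at hi hj <;>
    (obtain ⟨rfl, rfl⟩ := hi; obtain ⟨rfl, rfl⟩ := hj; simp at hne ⊢)

end Crest.Agent.R144.KorE761
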