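import Crest.Agent.R144.Kor1_620
import Crest.Agent.R144.Ham6_560
import Crest.Prelude.Def_HexHeights

/-!
R144 (S0197), helper620.  TAILS of the push cluster (doc 1585), part 1: geometry of the cluster in a
sector, the covering of one sector by fresh lists of tight edges.
-/

set_option autoImplicit false

open MeasureTheory Set
open scoped ENNReal

noncomputable section

namespace Crest.Agent.R144.Kor620

open Crest.Agent.R144.Ham560 (ext ham ext_mem ext_notMem nbr mem_nbr Fresh tight)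
open Crest.ProbabilityR.HexHeights (Adj)

abbrev P2 : Type := ℤ × ℤ

/-- Hexagonal norm. -/
def nrm (z : P2) : ℕ := max (max z.1.natAbs z.2.natAbs) (z.1 + z.2).natAbs

/-- The two directions span a sector of angle 60 degrees. -/
structure Sec (p q : P2) : Prop where
  nrm : ∀ a b : ℕ, nrm ((a : ℤ) * p.1 + b * q.1, (a : ℤ) * p.2 + b * q.2) = a + b
  adj1 : ∀ z : P2, Adj z (z.1 + p.1, z.2 + p.2)
  adj2 : ∀ z : P2, Adj z (z.1 + q.1, z.2 + q.2)
  det : (p.1 * q.2 - p.2 * q.1) ^ 2 = 1

/-- The point with sector coordinates `(a, b)`. -/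
def pt (u p q : P2) (a b : ℕ) : P2 :=
  (u.1 + a * p.1 + b * q.1, u.2 + a * p.2 + b * q.2)

theorem pt_zero (u p q : P2) : pt u p q 0 0 = u := by simp [pt]

theorem pt_comm (u p q : P2) (a b : ℕ) : pt u p q a b = pt u q p b a := by
  simp only [pt]; ext <;> ring

theorem Sec.symm {p q : P2} (h : Sec p q) : Sec q p := by
  refine ⟨fun a b => ?_, h.adj2, h.adj1, ?_⟩
  · have := h.nrm b a
    rw [add_comm b a] at this
    rw [← this]; congr 2 <;> ring
  · rw [← h.det]; ring

theorem nrm_pt {u p q : P2} (h : Sec p q) (a b : ℕ) : nrm (pt u p q a b - u) = a + b := by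
  rw [← h.nrm a b]
  congr 1
  ext <;> simp [pt] <;> ring

theorem adj_pt_succ {u p q : P2} (h : Sec p q) (a b : ℕ) :
    Adj (pt u p q a b) (pt u p q (a + 1) b) := by
  have := h.adj1 (pt u p q a b)
  have e : pt u p q (a + 1) b = ((pt u p q a b).1 + p.1, (pt u p q a b).2 + p.2) := by
    simp only [pt]; ext <;> push_cast <;> ring
  rwa [e]

theorem adj_pt_succ' {u p q : P2} (h : Sec p q) (a b : ℕ) :
    Adj (pt u p q a b) (pt u p q a (b + 1)) := by
  rw [pt_comm, pt_comm (b := b + 1)]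
  exact adj_pt_succ h.symm b a

theorem pt_inj {u p q : P2} (h : Sec p q) {a b a' b' : ℕ} (e : pt u p q a b = pt u p q a' b') :
    a = a' ∧ b = b' := by
  have h1 : ((a : ℤ) - a') * p.1 + (b - b') * q.1 = 0 := by
    have := congrArg Prod.fst e; simp only [pt] at this; linarith
  have h2 : ((a : ℤ) - a') * p.2 + (b - b') * q.2 = 0 := by
    have := congrArg Prod.snd e; simp only [pt] at this; linarith
  have hd := h.det
  have ha : ((a : ℤ) - a') * (p.1 * q.2 - p.2 * q.1) = 0 := by linear_combination q.2 * h1 - q.1 * h2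
  have hb : ((b : ℤ) - b') * (p.1 * q.2 - p.2 * q.1) = 0 := by linear_combination p.1 * h2 - p.2 * h1
  have hne : p.1 * q.2 - p.2 * q.1 ≠ 0 := by
    intro h0; rw [h0] at hd; norm_num at hd
  have ha' := (mul_eq_zero.mp ha).resolve_right hne
  have hb' := (mul_eq_zero.mp hb).resolve_right hne
  omega

theorem adj_symm {a b : P2} (h : Adj a b) : Adj b a := by
  unfold Adj at *; omega

/-- The six sectors. -/
def dirs : Finset (P2 × P2) :=
  {((1, 0), (0, 1)), ((0, 1), (-1, 1)), ((-1, 1), (-1, 0)), ((-1, 0), (0, -1)),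
    ((0, -1), (1, -1)), ((1, -1), (1, 0))}

theorem sec_of_mem {d : P2 × P2} (hd : d ∈ dirs) : Sec d.1 d.2 := by
  simp only [dirs, Finset.mem_insert, Finset.mem_singleton] at hd
  rcases hd with rfl | rfl | rfl | rfl | rfl | rfl <;>
  · constructor
    · intro a b; simp only [nrm]; omega
    · intro z; simp only [Adj]; omega
    · intro z; simp only [Adj]; omega
    · norm_num

theorem exists_sector (u x : P2) : ∃ d ∈ dirs, ∃ a b : ℕ, x = pt u d.1 d.2 a b := by
  obtain ⟨u1, u2⟩ := u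
  obtain ⟨x1, x2⟩ := x
  have key : ∀ (p q : P2) (a b : ℤ), (p, q) ∈ dirs → 0 ≤ a → 0 ≤ b →
      x1 = u1 + a * p.1 + b * q.1 → x2 = u2 + a * p.2 + b * q.2 →
      ∃ d ∈ dirs, ∃ a b : ℕ, ((x1, x2) : P2) = pt (u1, u2) d.1 d.2 a b := by
    intro p q a b hd ha hb e1 e2
    refine ⟨(p, q), hd, a.toNat, b.toNat, ?_⟩
    simp only [pt, Int.toNat_of_nonneg ha, Int.toNat_of_nonneg hb]
    exact Prod.ext e1 e2
  by_cases h1 : 0 ≤ x1 - u1
  · by_cases h2 : 0 ≤ x2 - u2
    · exact key (1, 0) (0, 1) (x1 - u1) (x2 - u2) (by simp [dirs]) h1 h2 (by ring) (by ring)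
    · by_cases h3 : 0 ≤ (x1 - u1) + (x2 - u2)
      · -- a (1,-1) + b (1,0), a = -(x2-u2), b = sum
        exact key (1, -1) (1, 0) (-(x2 - u2)) ((x1 - u1) + (x2 - u2)) (by simp [dirs])
          (by omega) h3 (by ring) (by ring)
      · -- a (0,-1) + b (1,-1), b = x1-u1, a = -(x2-u2) - b
        exact key (0, -1) (1, -1) (-(x2 - u2) - (x1 - u1)) (x1 - u1) (by simp [dirs])
          (by omega) h1 (by ring) (by ring)
  · by_cases h2 : 0 ≤ x2 - u2
    · by_cases h3 : 0 ≤ (x1 - u1) + (x2 - u2)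
      · -- a (0,1) + b (-1,1)
        exact key (0, 1) (-1, 1) ((x1 - u1) + (x2 - u2)) (-(x1 - u1)) (by simp [dirs])
          h3 (by omega) (by ring) (by ring)
      · -- a (-1,1) + b (-1,0)
        exact key (-1, 1) (-1, 0) (x2 - u2) (-(x1 - u1) - (x2 - u2)) (by simp [dirs])
          h2 (by omega) (by ring) (by ring)
    · exact key (-1, 0) (0, -1) (-(x1 - u1)) (-(x2 - u2)) (by simp [dirs])
        (by omega) (by omega) (by ring) (by ring)

/-- The cone. -/
def gam (u x : P2) : ℝ := if x = u then 1 else 3 / 2 - nrm (x - u)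

/-- Structural hypotheses on the system, the edge and the height. -/
structure Cfg (F : Finset P2) (E : Finset (P2 × P2)) (ξ : P2 → ℝ) (u v : P2) (h : F → ℝ) :
    Prop where
  nb : ∀ x ∈ F, ∀ y, Adj x y → y ∈ nbr E x
  lip : ∀ a b, Adj a b → |ext F ξ h a - ext F ξ h b| ≤ 1
  uv : Adj u v
  far : ∀ z, z ∉ F → 3 ≤ nrm (z - u) → ext F ξ h v + 3 / 2 - nrm (z - u) ≤ ξ z

/-- The cluster in sector coordinates. -/
def In (F : Finset P2) (ξ : P2 → ℝ) (u v : P2) (h : F → ℝ) (p q : P2) (a b : ℕ) : Prop :=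
  pt u p q a b ∈ F ∧ ext F ξ h (pt u p q a b) < ext F ξ h v + 3 / 2 - (a + b : ℕ)

variable {F : Finset P2} {E : Finset (P2 × P2)} {ξ : P2 → ℝ} {u v : P2} {h : F → ℝ} {p q : P2}

theorem lip_row (hc : Cfg F E ξ u v h) (hs : Sec p q) (a b n : ℕ) :
    |ext F ξ h (pt u p q a b) - ext F ξ h (pt u p q (a + n) b)| ≤ n := by
  induction n with
  | zero => simp
  | succ n ih =>
    have h1 := hc.lip _ _ (adj_pt_succ (u := u) hs (a + n) b)
    rw [abs_le] at *
    push_cast
    rw [← add_assoc]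
    constructor <;> linarith

theorem lip_col (hc : Cfg F E ξ u v h) (hs : Sec p q) (a b n : ℕ) :
    |ext F ξ h (pt u p q a b) - ext F ξ h (pt u p q a (b + n))| ≤ n := by
  rw [pt_comm, pt_comm (b := b + n)]
  exact lip_row hc hs.symm b a n

theorem lip_pt (hc : Cfg F E ξ u v h) (hs : Sec p q) {a b a' b' : ℕ} (ha : a' ≤ a) (hb : b' ≤ b) :
    |ext F ξ h (pt u p q a' b') - ext F ξ h (pt u p q a b)| ≤ (a + b : ℕ) - (a' + b' : ℕ) := by
  obtain ⟨n, rfl⟩ := Nat.exists_eq_add_of_le ha
  obtain ⟨m, rfl⟩ := Nat.exists_eq_add_of_le hb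
  have h1 := abs_le.mp (lip_row hc hs a' b' n)
  have h2 := abs_le.mp (lip_col hc hs (a' + n) b' m)
  rw [abs_le]; push_cast; constructor <;> linarith

/-- The cluster is an order ideal away from the origin. -/
theorem In.ideal (hc : Cfg F E ξ u v h) (hs : Sec p q) {a b a' b' : ℕ} (hab : In F ξ u v h p q a b)
    (ha : a' ≤ a) (hb : b' ≤ b) (h3 : 3 ≤ a' + b') : In F ξ u v h p q a' b' := by
  have h1 := abs_le.mp (lip_pt hc hs ha hb)
  have h2 := hab.2
  have h4 : ext F ξ h (pt u p q a' b') < ext F ξ h v + 3 / 2 - (a' + b' : ℕ) := by linarith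
  refine ⟨?_, h4⟩
  by_contra hF
  have h5 := hc.far _ hF (by rw [nrm_pt hs]; exact h3)
  rw [nrm_pt hs] at h5
  rw [ext_notMem hF] at h4
  linarith

theorem dist_uv (hc : Cfg F E ξ u v h) : |ext F ξ h u - ext F ξ h v| ≤ 1 := hc.lip _ _ hc.uv

/-- Total slack of a row of the cluster. -/
theorem row_slack (hc : Cfg F E ξ u v h) (hs : Sec p q) {n b : ℕ}
    (hab : In F ξ u v h p q (n + 3) b) :
    (n : ℝ) - (ext F ξ h (pt u p q 3 b) - ext F ξ h (pt u p q (n + 3) b)) < 5 / 2 := by
  have h1 := abs_le.mp (lip_pt (a := 3) (b := b) (a' := 0) (b' := 0) hc hs (by omega) (by omega))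
  rw [pt_zero] at h1
  have h2 := hab.2
  have h3 := abs_le.mp (dist_uv hc)
  push_cast at h1 h2
  linarith [h1.2, h3.1]

/-- The list of the first `n` edges of row `b`, starting at abscissa 3, in decreasing order. -/
def rowL (u p q : P2) (b : ℕ) : ℕ → List (P2 × P2)
  | 0 => []
  | n + 1 => (pt u p q (n + 4) b, pt u p q (n + 3) b) :: rowL u p q b n

theorem length_rowL (u p q : P2) (b n : ℕ) : (rowL u p q b n).length = n := by
  induction n with
  | zero => rfl
  | succ n ih => simp [rowL, ih]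

theorem mem_rowL {b n : ℕ} {e : P2 × P2} (he : e ∈ rowL u p q b n) :
    ∃ i < n, e = (pt u p q (i + 4) b, pt u p q (i + 3) b) := by
  induction n with
  | zero => simp [rowL] at he
  | succ n ih =>
    rcases List.mem_cons.mp he with rfl | he
    · exact ⟨n, by omega, rfl⟩
    · obtain ⟨i, hi, h1⟩ := ih he
      exact ⟨i, by omega, h1⟩

theorem fresh_rowL (hnb : ∀ x ∈ F, ∀ y, Adj x y → y ∈ nbr E x) (hs : Sec p q) {b n : ℕ}
    (hF : ∀ i, i ≤ n → pt u p q (i + 3) b ∈ F) {T : List (P2 × P2)} (hT : Fresh F E T)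
    (hTb : ∀ e ∈ T, ∃ a a' b' b'', b < b' ∧ b < b'' ∧ e = (pt u p q a b', pt u p q a' b'')) :
    Fresh F E (rowL u p q b n ++ T) := by
  induction n with
  | zero => exact hT
  | succ n ih =>
    refine Fresh.cons (ih fun i hi => hF i (by omega)) (hF (n + 1) le_rfl) ?_ ?_
    · exact hnb _ (hF (n + 1) le_rfl) _ (adj_symm (adj_pt_succ hs (n + 3) b))
    · intro e he
      rcases List.mem_append.mp he with he | he
      · obtain ⟨i, hi, rfl⟩ := mem_rowL he
        constructor
        · intro e'; have := (pt_inj hs e').1; omega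
        · intro e'; have := (pt_inj hs e').1; omega
      · obtain ⟨a, a', b', b'', h1, h2, rfl⟩ := hTb e he
        constructor
        · intro e'; have := (pt_inj hs e').2; omega
        · intro e'; have := (pt_inj hs e').2; omega

theorem Fresh.sublist {S T : List (P2 × P2)} (hT : Fresh F E T) (hST : S.Sublist T) :
    Fresh F E S := by
  induction hT generalizing S with
  | nil => rw [List.sublist_nil.mp hST]; exact Fresh.nil
  | @cons v u T hT hv hu hf ih =>
    rcases List.sublist_cons_iff.mp hST with h1 | ⟨r, rfl, h1⟩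
    · exact ih h1
    · exact Fresh.cons (ih h1) hv hu fun q hq => hf q (h1.subset hq)

/-- Counting the tight edges of a row. -/
theorem row_count (hc : Cfg F E ξ u v h) (hs : Sec p q) (ε : ℝ) (b n : ℕ) :
    ((n : ℝ) - ((rowL u p q b n).filter
      (fun e => decide (1 - ε ≤ |ext F ξ h e.1 - ext F ξ h e.2|))).length) * ε ≤
      n - (ext F ξ h (pt u p q 3 b) - ext F ξ h (pt u p q (n + 3) b)) := by
  induction n with
  | zero => simp [rowL]
  | succ n ih =>
    have h1 := abs_le.mp (hc.lip _ _ (adj_pt_succ (u := u) hs (n + 3) b))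
    rw [rowL, List.filter_cons]
    have e4 : n + 1 + 3 = n + 4 := by omega
    rw [e4]
    have e5 : n + 3 + 1 = n + 4 := by omega
    rw [e5] at h1
    by_cases ht : 1 - ε ≤ |ext F ξ h (pt u p q (n + 4) b) - ext F ξ h (pt u p q (n + 3) b)|
    · rw [if_pos (by simpa using ht), List.length_cons]
      push_cast
      linarith
    · rw [if_neg (by simpa using ht)]
      push_cast
      have h2 := (abs_lt.mp (not_le.mp ht)).1
      nlinarith

/-! ### sums over families of lists -/

theorem sum_biUnion_le' {α β : Type*} [DecidableEq β] (s : Finset α) (t : α → Finset β)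
    (f : β → ℝ) (hf : ∀ x, 0 ≤ f x) : ∑ x ∈ s.biUnion t, f x ≤ ∑ a ∈ s, ∑ x ∈ t a, f x := by
  classical
  induction s using Finset.induction_on with
  | empty => simp
  | @insert a s ha ih =>
    rw [Finset.biUnion_insert, Finset.sum_insert ha]
    have h1 := Finset.sum_union_inter (s₁ := t a) (s₂ := s.biUnion t) (f := f)
    have h2 : 0 ≤ ∑ x ∈ t a ∩ s.biUnion t, f x := Finset.sum_nonneg fun x _ => hf x
    linarith

theorem sum_image_le' {α β : Type*} [DecidableEq β] (s : Finset α) (g : α → β)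
    (f : β → ℝ) (hf : ∀ x, 0 ≤ f x) : ∑ x ∈ s.image g, f x ≤ ∑ a ∈ s, f (g a) := by
  classical
  have h1 : s.image g = s.biUnion fun a => {g a} := by
    ext x; simp [eq_comm]
  rw [h1]
  refine (sum_biUnion_le' s _ f hf).trans (le_of_eq ?_)
  refine Finset.sum_congr rfl fun a _ => ?_
  simp

/-- Sublists of a row with many edges. -/
def rowFam (u p q : P2) (b N s : ℕ) : Finset (List (P2 × P2)) :=
  ((rowL u p q b N).sublists.toFinset).filter fun l => s ≤ 2 * l.length

theorem sum_rowFam_le (u p q : P2) (b N s : ℕ) {δ : ℝ} (h0 : 0 ≤ δ) (h1 : δ ≤ 1) :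
    ∑ l ∈ rowFam u p q b N s, (δ ^ 2) ^ l.length ≤ 2 ^ N * δ ^ s := by
  calc ∑ l ∈ rowFam u p q b N s, (δ ^ 2) ^ l.length ≤ ∑ _l ∈ rowFam u p q b N s, δ ^ s := by
        refine Finset.sum_le_sum fun l hl => ?_
        rw [← pow_mul]
        exact pow_le_pow_of_le_one h0 h1 (Finset.mem_filter.mp hl).2
    _ = (rowFam u p q b N s).card * δ ^ s := by rw [Finset.sum_const, nsmul_eq_mul]
    _ ≤ 2 ^ N * δ ^ s := by
        gcongr
        have h2 : (rowFam u p q b N s).card ≤ 2 ^ N := by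
          calc (rowFam u p q b N s).card ≤ ((rowL u p q b N).sublists.toFinset).card :=
                Finset.card_filter_le _ _
            _ ≤ (rowL u p q b N).sublists.length := List.toFinset_card_le _
            _ = 2 ^ N := by rw [List.length_sublists, length_rowL]
        exact_mod_cast h2

open scoped Classical in
/-- The far part of the cluster in a sector. -/
def farC (F : Finset P2) (ξ : P2 → ℝ) (u v : P2) (h : F → ℝ) (p q : P2) (L M b0 : ℕ) :
    Finset (ℕ × ℕ) :=
  (Finset.range M ×ˢ Finset.range M).filter fun x =>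
    b0 ≤ x.2 ∧ L + 3 ≤ x.1 ∧ In F ξ u v h p q x.1 x.2

/-- **Covering of a sector by fresh lists of tight edges.** -/
theorem cover_rows {u p q : P2} (hs : Sec p q) {L : ℕ} {ε κ δ : ℝ} (hL : 10 ≤ ε * L)
    (hε : 0 < ε) (hκ0 : 0 < κ) (hκ1 : κ ≤ 1) (hδ0 : 0 < δ) (hδ : 4 * δ ≤ κ) :
    ∀ m b0 : ℕ, ∃ Fam : Finset (List (P2 × P2)),
      (∑ T ∈ Fam, (δ ^ 2) ^ T.length ≤ κ ^ m) ∧
      (∀ T ∈ Fam, ∀ e ∈ T, ∃ i b, b0 ≤ b ∧ b < b0 + m ∧ i + 4 ≤ L + m + 2 ∧
        e = (pt u p q (i + 4) b, pt u p q (i + 3) b)) ∧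
      ∀ (F : Finset P2) (E : Finset (P2 × P2)) (ξ : P2 → ℝ) (v : P2) (h : F → ℝ) (M : ℕ),
        Cfg F E ξ u v h → (∀ a b, In F ξ u v h p q a b → a < M ∧ b < M) →
        m ≤ (farC F ξ u v h p q L M b0).card →
        ∃ T ∈ Fam, Fresh F E T ∧ ∀ e ∈ T, 1 - ε ≤ |ext F ξ h e.1 - ext F ξ h e.2| := by
  classical
  intro m
  induction m using Nat.strong_induction_on with
  | _ m ih =>
  intro b0
  rcases Nat.eq_zero_or_pos m with rfl | hm
  · refine ⟨{[]}, by simp, by simp, fun F E ξ v h M _ _ _ => ⟨[], by simp, Fresh.nil, by simp⟩⟩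
  -- families for the remaining rows
  have hch : ∀ r : ℕ, ∃ Fam : Finset (List (P2 × P2)), 1 ≤ r → r ≤ m →
      (∑ T ∈ Fam, (δ ^ 2) ^ T.length ≤ κ ^ (m - r)) ∧
      (∀ T ∈ Fam, ∀ e ∈ T, ∃ i b, b0 + 1 ≤ b ∧ b < b0 + 1 + (m - r) ∧ i + 4 ≤ L + (m - r) + 2 ∧
        e = (pt u p q (i + 4) b, pt u p q (i + 3) b)) ∧
      ∀ (F : Finset P2) (E : Finset (P2 × P2)) (ξ : P2 → ℝ) (v : P2) (h : F → ℝ) (M : ℕ),
        Cfg F E ξ u v h → (∀ a b, In F ξ u v h p q a b → a < M ∧ b < M) →
        m - r ≤ (farC F ξ u v h p q L M (b0 + 1)).card →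
        ∃ T ∈ Fam, Fresh F E T ∧ ∀ e ∈ T, 1 - ε ≤ |ext F ξ h e.1 - ext F ξ h e.2| := by
    intro r
    by_cases hr : 1 ≤ r ∧ r ≤ m
    · obtain ⟨Fam, h1⟩ := ih (m - r) (by omega) (b0 + 1)
      exact ⟨Fam, fun _ _ => h1⟩
    · exact ⟨∅, fun h1 h2 => absurd ⟨h1, h2⟩ hr⟩
  choose G hG using hch
  let Fam : Finset (List (P2 × P2)) := (Finset.Icc 1 m).biUnion fun r =>
    ((rowFam u p q b0 (L + r - 1) (L + r)) ×ˢ (G r)).image fun x => x.1 ++ x.2
  have hδ1 : δ ≤ 1 := by linarith
  refine ⟨Fam, ?_, ?_, ?_⟩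
  · -- weights
    have h1 : ∑ T ∈ Fam, (δ ^ 2) ^ T.length ≤ ∑ r ∈ Finset.Icc 1 m,
        (2 ^ (L + r - 1) * δ ^ (L + r)) * κ ^ (m - r) := by
      refine (sum_biUnion_le' _ _ (fun T : List (P2 × P2) => (δ ^ 2) ^ T.length)
        fun _ => by positivity).trans ?_
      refine Finset.sum_le_sum fun r hr => ?_
      obtain ⟨hr1, hr2⟩ := Finset.mem_Icc.mp hr
      refine (sum_image_le' _ _ (fun T : List (P2 × P2) => (δ ^ 2) ^ T.length)
        fun _ => by positivity).trans ?_
      rw [Finset.sum_product]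
      calc ∑ l ∈ rowFam u p q b0 (L + r - 1) (L + r), ∑ T ∈ G r, (δ ^ 2) ^ (l ++ T).length
          = ∑ l ∈ rowFam u p q b0 (L + r - 1) (L + r), (δ ^ 2) ^ l.length *
              ∑ T ∈ G r, (δ ^ 2) ^ T.length := by
            refine Finset.sum_congr rfl fun l _ => ?_
            rw [Finset.mul_sum]
            refine Finset.sum_congr rfl fun T _ => ?_
            rw [List.length_append, pow_add]
        _ = (∑ l ∈ rowFam u p q b0 (L + r - 1) (L + r), (δ ^ 2) ^ l.length) *
              ∑ T ∈ G r, (δ ^ 2) ^ T.length := by rw [Finset.sum_mul]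
        _ ≤ (2 ^ (L + r - 1) * δ ^ (L + r)) * κ ^ (m - r) := by
            refine mul_le_mul (sum_rowFam_le u p q b0 _ _ hδ0.le hδ1) (hG r hr1 hr2).1
              (Finset.sum_nonneg fun _ _ => by positivity) (by positivity)
    refine h1.trans ?_
    have h2 : ∀ r ∈ Finset.Icc 1 m, (2 ^ (L + r - 1) * δ ^ (L + r)) * κ ^ (m - r) ≤
        κ ^ m * (1 / 2) ^ r := by
      intro r hr
      obtain ⟨hr1, hr2⟩ := Finset.mem_Icc.mp hr
      have e1 : κ ^ m = κ ^ r * κ ^ (m - r) := by rw [← pow_add]; congr 1; omega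
      have e2 : (2:ℝ) ^ (L + r - 1) ≤ 2 ^ (L + r) := pow_le_pow_right₀ (by norm_num) (by omega)
      have e3 : (2:ℝ) ^ (L + r) * δ ^ (L + r) ≤ (κ / 2) ^ r := by
        rw [← mul_pow]
        calc (2 * δ) ^ (L + r) ≤ (κ / 2) ^ (L + r) := by
              apply pow_le_pow_left₀ (by positivity); linarith
          _ ≤ (κ / 2) ^ r := pow_le_pow_of_le_one (by positivity) (by linarith) (by omega)
      calc (2 ^ (L + r - 1) * δ ^ (L + r)) * κ ^ (m - r)
          ≤ (2 ^ (L + r) * δ ^ (L + r)) * κ ^ (m - r) := by gcongr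
        _ ≤ (κ / 2) ^ r * κ ^ (m - r) := by gcongr
        _ = κ ^ m * (1 / 2) ^ r := by rw [e1]; ring
    refine (Finset.sum_le_sum h2).trans ?_
    rw [← Finset.mul_sum]
    have h3 : ∑ r ∈ Finset.Icc 1 m, ((1:ℝ) / 2) ^ r ≤ 1 := by
      have h4 : ∀ n : ℕ, ∑ r ∈ Finset.Icc 1 n, ((1:ℝ) / 2) ^ r = 1 - (1 / 2) ^ n := by
        intro n
        induction n with
        | zero => simp
        | succ n ihn =>
          rw [Finset.sum_Icc_succ_top (by omega), ihn]; ring
      rw [h4]
      have : (0:ℝ) ≤ (1 / 2) ^ m := by positivity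
      linarith
    calc κ ^ m * ∑ r ∈ Finset.Icc 1 m, ((1:ℝ) / 2) ^ r ≤ κ ^ m * 1 := by gcongr
      _ = κ ^ m := mul_one _
  · -- location
    intro T hT e he
    simp only [Fam, Finset.mem_biUnion, Finset.mem_image, Finset.mem_product, Prod.exists,
      Finset.mem_Icc] at hT
    obtain ⟨r, ⟨hr1, hr2⟩, l, T', ⟨hl, hT'⟩, rfl⟩ := hT
    rcases List.mem_append.mp he with he | he
    · have h1 := (List.mem_sublists.mp (List.mem_toFinset.mp (Finset.mem_filter.mp hl).1)).subset he
      obtain ⟨i, hi, rfl⟩ := mem_rowL h1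
      exact ⟨i, b0, le_rfl, by omega, by omega, rfl⟩
    · obtain ⟨i, b, h1, h2, h3, h4⟩ := (hG r hr1 hr2).2.1 T' hT' e he
      exact ⟨i, b, by omega, by omega, by omega, h4⟩
  · -- covering
    intro F E ξ v h M hc hM hcard
    set R : Finset ℕ := (Finset.range M).filter fun a => L + 3 ≤ a ∧ In F ξ u v h p q a b0 with hR
    have hL1 : 1 ≤ L := by
      by_contra hL0
      have : L = 0 := by omega
      rw [this] at hL; norm_num at hL
    have hsplit : (farC F ξ u v h p q L M b0).card ≤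
        R.card + (farC F ξ u v h p q L M (b0 + 1)).card := by
      have h1 : farC F ξ u v h p q L M b0 ⊆
          (R ×ˢ {b0}) ∪ farC F ξ u v h p q L M (b0 + 1) := by
        intro x hx
        obtain ⟨hx1, hx2, hx3, hx4⟩ := Finset.mem_filter.mp hx
        rw [Finset.mem_product] at hx1
        rw [Finset.mem_union]
        by_cases hb : x.2 = b0
        · left
          rw [Finset.mem_product, Finset.mem_singleton]
          exact ⟨Finset.mem_filter.mpr ⟨hx1.1, hx3, hb ▸ hx4⟩, hb⟩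
        · right
          exact Finset.mem_filter.mpr ⟨Finset.mem_product.mpr hx1, by omega, hx3, hx4⟩
      refine (Finset.card_le_card h1).trans ((Finset.card_union_le _ _).trans ?_)
      rw [Finset.card_product, Finset.card_singleton, mul_one]
    have hR1 : 1 ≤ R.card := by
      have hne : (farC F ξ u v h p q L M b0).Nonempty := Finset.card_pos.mp (by omega)
      obtain ⟨x, hx⟩ := hne
      obtain ⟨hx1, hx2, hx3, hx4⟩ := Finset.mem_filter.mp hx
      have h1 := hx4.ideal hc hs hx3 hx2 (by omega)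
      exact Finset.card_pos.mpr ⟨L + 3, Finset.mem_filter.mpr
        ⟨Finset.mem_range.mpr (hM _ _ h1).1, le_rfl, h1⟩⟩
    set r := min R.card m with hr
    have hr1 : 1 ≤ r := le_min hR1 hm
    have hrm : r ≤ m := min_le_right _ _
    have hIn : In F ξ u v h p q (L + 2 + r) b0 := by
      by_contra hn
      have h1 : R ⊆ Finset.Ico (L + 3) (L + 2 + r) := by
        intro a ha
        obtain ⟨h2, h3, h4⟩ := Finset.mem_filter.mp ha
        rw [Finset.mem_Ico]
        refine ⟨h3, ?_⟩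
        by_contra h5
        exact hn (h4.ideal hc hs (not_lt.mp h5) le_rfl (by omega))
      have h2 := Finset.card_le_card h1
      rw [Nat.card_Ico] at h2
      have h3 : r ≤ R.card := min_le_left _ _
      omega
    have hrest : m - r ≤ (farC F ξ u v h p q L M (b0 + 1)).card := by
      rcases le_total R.card m with h1 | h1
      · have : r = R.card := min_eq_left h1
        omega
      · have : r = m := min_eq_right h1
        omega
    obtain ⟨T', hT', hfr, htight⟩ := (hG r hr1 hrm).2.2 F E ξ v h M hc hM hrest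
    set N := L + r - 1 with hN
    have hN3 : N + 3 = L + 2 + r := by omega
    set l := (rowL u p q b0 N).filter
      (fun e => decide (1 - ε ≤ |ext F ξ h e.1 - ext F ξ h e.2|)) with hl
    have hlen : L + r ≤ 2 * l.length := by
      have h1 := row_count hc hs ε b0 N
      have h2 := row_slack (n := N) (b := b0) hc hs (by rw [hN3]; exact hIn)
      rw [← hl] at h1
      have h3 : ((N:ℝ) - l.length) * ε < 5 / 2 := lt_of_le_of_lt h1 h2
      by_contra hcon
      have h4 : 2 * l.length + 1 ≤ L + r := by omega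
      have h4' : 2 * (l.length : ℝ) + 1 ≤ L + r := by exact_mod_cast h4
      have hNr : (N : ℝ) = L + r - 1 := by
        rw [hN, Nat.cast_sub (by omega)]; push_cast; ring
      -- `N - l.length ≥ (L + r - 1) / 2 ≥ L / 2`
      have h5 : (L : ℝ) / 2 ≤ N - l.length := by
        have : (1:ℝ) ≤ r := by exact_mod_cast hr1
        rw [hNr]; linarith
      have h6 : (L : ℝ) / 2 * ε ≤ (N - l.length) * ε := by gcongr
      linarith
    have hNF : ∀ i, i ≤ N → pt u p q (i + 3) b0 ∈ F := fun i hi =>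
      (hIn.ideal hc hs (a' := i + 3) (b' := b0) (by omega) le_rfl (by omega)).1
    have hTb : ∀ e ∈ T', ∃ a a' b' b'', b0 < b' ∧ b0 < b'' ∧
        e = (pt u p q a b', pt u p q a' b'') := by
      intro e he
      obtain ⟨i, b, h1, h2, h3, h4⟩ := (hG r hr1 hrm).2.1 T' hT' e he
      exact ⟨i + 4, i + 3, b, b, by omega, by omega, h4⟩
    have hfresh : Fresh F E (l ++ T') :=
      Fresh.sublist (fresh_rowL hc.nb hs hNF hfr hTb)
        ((List.filter_sublist (l := rowL u p q b0 N)).append (List.Sublist.refl T'))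
    refine ⟨l ++ T', ?_, hfresh, ?_⟩
    · simp only [Fam, Finset.mem_biUnion, Finset.mem_image, Finset.mem_product, Prod.exists,
        Finset.mem_Icc]
      refine ⟨r, ⟨hr1, hrm⟩, l, T', ⟨?_, hT'⟩, rfl⟩
      exact Finset.mem_filter.mpr ⟨List.mem_toFinset.mpr (List.mem_sublists.mpr
        List.filter_sublist), hlen⟩
    · intro e he
      rcases List.mem_append.mp he with he | he
      · have := (List.mem_filter.mp he).2
        simpa using this
      · exact htight e he

end Crest.Agent.R144.Kor620
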