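import Crest.Agent.R144.KorT1_620

/-!
R144 (S0197), helper620.  TAILS of the push cluster (doc 1585), part 2.

* `cover` : covering of `{k ≤ #S}` by a family of fresh lists of `ε`-tight edges with total weight
  `C A^{-k}`, uniformly in the system, the data and the edge;
* `cover_neg` : the mirror image;
* `vol_tail`, `lintegral_tail` : consequences for volumes.
-/

set_option autoImplicit false

open MeasureTheory Set
open scoped ENNReal

noncomputable section

namespace Crest.Agent.R144.Kor620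

open Crest.Agent.R144.Ham560 (ext ham ext_mem ext_notMem nbr mem_nbr Fresh tight ext_neg
  vol_tight_le)
open Crest.ProbabilityR.HexHeights (Adj)

variable {F : Finset P2} {E : Finset (P2 × P2)} {ξ : P2 → ℝ} {u v : P2} {h : F → ℝ} {p q : P2}

theorem In.comm {a b : ℕ} : In F ξ u v h p q a b ↔ In F ξ u v h q p b a := by
  unfold In
  rw [pt_comm, add_comm a b]

theorem gam_pt (hs : Sec p q) {a b : ℕ} (hab : 1 ≤ a + b) :
    gam u (pt u p q a b) = 3 / 2 - (a + b : ℕ) := by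
  rw [gam, if_neg, nrm_pt hs]
  intro h0
  rw [← pt_zero u p q] at h0
  rw [pt_zero] at h0
  have := pt_inj (u := u) (a' := 0) (b' := 0) hs (by rw [h0, pt_zero])
  omega

/-- A bound for the sector coordinates of points of `F`. -/
theorem exists_bound (F : Finset P2) (u : P2) : ∃ M : ℕ, ∀ p q : P2, Sec p q → ∀ a b : ℕ,
    pt u p q a b ∈ F → a < M ∧ b < M := by
  refine ⟨F.sup (fun x => nrm (x - u)) + 1, fun p q hs a b hab => ?_⟩
  have h1 : nrm (pt u p q a b - u) ≤ F.sup (fun x => nrm (x - u)) :=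
    Finset.le_sup (f := fun x => nrm (x - u)) hab
  rw [nrm_pt hs] at h1
  omega

open scoped Classical in
/-- The number of points of the cluster. -/
theorem card_sset_le {M L : ℕ} (hM : ∀ p q : P2, Sec p q → ∀ a b : ℕ,
    pt u p q a b ∈ F → a < M ∧ b < M) :
    (sset F ξ v (gam u) h).card ≤ 25 + ∑ d ∈ dirs, ((L + 3) ^ 2 +
      (farC F ξ u v h d.1 d.2 L M 0).card + (farC F ξ u v h d.2 d.1 L M 0).card) := by
  set S' : Finset P2 := (sset F ξ v (gam u) h).image Subtype.val with hS'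
  have hcard : S'.card = (sset F ξ v (gam u) h).card :=
    Finset.card_image_of_injective _ Subtype.val_injective
  let D : P2 × P2 → Finset (ℕ × ℕ) := fun d => (Finset.range M ×ˢ Finset.range M).filter fun x =>
    3 ≤ x.1 + x.2 ∧ In F ξ u v h d.1 d.2 x.1 x.2
  let Ball : Finset P2 := ((Finset.Icc (-2 : ℤ) 2) ×ˢ (Finset.Icc (-2 : ℤ) 2)).image fun z => u + z
  have hsub : S' ⊆ Ball ∪ dirs.biUnion fun d => (D d).image fun x => pt u d.1 d.2 x.1 x.2 := by
    intro x hx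
    obtain ⟨y, hy, rfl⟩ := Finset.mem_image.mp hx
    obtain ⟨hy1, hy2⟩ := mem_sset.mp hy
    obtain ⟨d, hd, a, b, hab⟩ := exists_sector u y
    have hs := sec_of_mem hd
    rw [Finset.mem_union]
    by_cases h3 : 3 ≤ a + b
    · right
      rw [Finset.mem_biUnion]
      refine ⟨d, hd, Finset.mem_image.mpr ⟨(a, b), ?_, hab.symm⟩⟩
      have hIn : In F ξ u v h d.1 d.2 a b := by
        refine ⟨hab ▸ y.2, ?_⟩
        rw [hab, gam_pt hs (by omega)] at hy2
        have e : ext F ξ h (pt u d.1 d.2 a b) = h y := by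
          rw [ext_mem (hab ▸ y.2)]
          congr 1
          exact Subtype.ext hab.symm
        rw [e]; linarith
      have hb := hM _ _ hs a b hIn.1
      exact Finset.mem_filter.mpr ⟨Finset.mem_product.mpr
        ⟨Finset.mem_range.mpr hb.1, Finset.mem_range.mpr hb.2⟩, h3, hIn⟩
    · left
      refine Finset.mem_image.mpr ⟨(y : P2) - u, ?_, by abel⟩
      have h4 : nrm ((y : P2) - u) = a + b := by rw [hab, nrm_pt hs]
      rw [Finset.mem_product, Finset.mem_Icc, Finset.mem_Icc]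
      simp only [nrm] at h4
      omega
  have hBall : Ball.card ≤ 25 := by
    refine Finset.card_image_le.trans ?_
    rw [Finset.card_product]; simp
  have hD : ∀ d ∈ dirs, (D d).card ≤ (L + 3) ^ 2 +
      (farC F ξ u v h d.1 d.2 L M 0).card + (farC F ξ u v h d.2 d.1 L M 0).card := by
    intro d hd
    have h1 : D d ⊆ (Finset.range (L + 3) ×ˢ Finset.range (L + 3)) ∪
        farC F ξ u v h d.1 d.2 L M 0 ∪ (farC F ξ u v h d.2 d.1 L M 0).image Prod.swap := by
      intro x hx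
      obtain ⟨hx1, hx2, hx3⟩ := Finset.mem_filter.mp hx
      rw [Finset.mem_product, Finset.mem_range, Finset.mem_range] at hx1
      rw [Finset.mem_union, Finset.mem_union]
      by_cases ha : L + 3 ≤ x.1
      · left; right
        exact Finset.mem_filter.mpr ⟨Finset.mem_product.mpr ⟨Finset.mem_range.mpr hx1.1,
          Finset.mem_range.mpr hx1.2⟩, Nat.zero_le _, ha, hx3⟩
      · by_cases hb : L + 3 ≤ x.2
        · right
          refine Finset.mem_image.mpr ⟨(x.2, x.1), ?_, rfl⟩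
          exact Finset.mem_filter.mpr ⟨Finset.mem_product.mpr ⟨Finset.mem_range.mpr hx1.2,
            Finset.mem_range.mpr hx1.1⟩, Nat.zero_le _, hb, In.comm.mp hx3⟩
        · left; left
          exact Finset.mem_product.mpr ⟨Finset.mem_range.mpr (by omega),
            Finset.mem_range.mpr (by omega)⟩
    refine (Finset.card_le_card h1).trans ((Finset.card_union_le _ _).trans ?_)
    have h2 := Finset.card_union_le (Finset.range (L + 3) ×ˢ Finset.range (L + 3))
      (farC F ξ u v h d.1 d.2 L M 0)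
    rw [Finset.card_product, Finset.card_range] at h2
    have h3 : ((farC F ξ u v h d.2 d.1 L M 0).image Prod.swap).card ≤
        (farC F ξ u v h d.2 d.1 L M 0).card := Finset.card_image_le
    nlinarith
  rw [← hcard]
  refine (Finset.card_le_card hsub).trans ((Finset.card_union_le _ _).trans ?_)
  refine add_le_add hBall (Finset.card_biUnion_le.trans ?_)
  exact Finset.sum_le_sum fun d hd => Finset.card_image_le.trans (hD d hd)

/-- **COVERING OF LARGE CLUSTERS.**  `c` is the constant of the joint density bound. -/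
theorem cover {A c : ℝ} (hA : 1 ≤ A) (hc : 1 ≤ c) : ∃ (C ε : ℝ), 1 ≤ C ∧ 0 < ε ∧ ε ≤ 1 ∧
    ∀ (k : ℕ) (u : P2), ∃ Fam : Finset (List (P2 × P2)),
      (∑ T ∈ Fam, (c * ε) ^ T.length ≤ C * (1 / A) ^ k) ∧
      (∀ T ∈ Fam, ∀ e ∈ T, nrm (e.1 - u) ≤ k + 2 ∧ nrm (e.2 - u) ≤ k + 2) ∧
      ∀ (F : Finset P2) (E : Finset (P2 × P2)) (ξ : P2 → ℝ) (v : P2) (h : F → ℝ),
        Cfg F E ξ u v h → k ≤ (sset F ξ v (gam u) h).card →
        ∃ T ∈ Fam, Fresh F E T ∧ ∀ e ∈ T, 1 - ε ≤ |ext F ξ h e.1 - ext F ξ h e.2| := by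
  classical
  have hA0 : 0 < A := by linarith
  set κ : ℝ := (1 / A) ^ 12 with hκ
  have hκ0 : 0 < κ := by positivity
  have hκ1 : κ ≤ 1 := by
    rw [hκ]
    exact pow_le_one₀ (by positivity) (by rw [div_le_one hA0]; exact hA)
  set δ : ℝ := κ / 4 with hδ
  have hδ0 : 0 < δ := by positivity
  set ε : ℝ := δ ^ 2 / c with hε
  have hc0 : 0 < c := by linarith
  have hε0 : 0 < ε := by positivity
  have hcε : c * ε = δ ^ 2 := by rw [hε]; field_simp
  have hε1 : ε ≤ 1 := by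
    rw [hε, div_le_one hc0]
    have : δ ≤ 1 := by rw [hδ]; linarith
    nlinarith
  obtain ⟨L, hL⟩ := exists_nat_ge (10 / ε)
  have hL' : 10 ≤ ε * L := by
    rw [div_le_iff₀ hε0] at hL; linarith
  set K0 : ℕ := 25 + 6 * (L + 3) ^ 2 with hK0
  refine ⟨12 * A ^ (K0 + 11), ε, ?_, hε0, hε1, fun k u => ?_⟩
  · have : (1:ℝ) ≤ A ^ (K0 + 11) := one_le_pow₀ hA
    linarith
  set m := (k - K0) / 12 with hm
  have hch1 : ∀ d : P2 × P2, ∃ Fam : Finset (List (P2 × P2)), d ∈ dirs →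
      (∑ T ∈ Fam, (δ ^ 2) ^ T.length ≤ κ ^ m) ∧
      (∀ T ∈ Fam, ∀ e ∈ T, ∃ i b, 0 ≤ b ∧ b < 0 + m ∧ i + 4 ≤ L + m + 2 ∧
        e = (pt u d.1 d.2 (i + 4) b, pt u d.1 d.2 (i + 3) b)) ∧
      ∀ (F : Finset P2) (E : Finset (P2 × P2)) (ξ : P2 → ℝ) (v : P2) (h : F → ℝ) (M : ℕ),
        Cfg F E ξ u v h → (∀ a b, In F ξ u v h d.1 d.2 a b → a < M ∧ b < M) →
        m ≤ (farC F ξ u v h d.1 d.2 L M 0).card →
        ∃ T ∈ Fam, Fresh F E T ∧ ∀ e ∈ T, 1 - ε ≤ |ext F ξ h e.1 - ext F ξ h e.2| := by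
    intro d
    by_cases hd : d ∈ dirs
    · obtain ⟨Fam, h1⟩ := cover_rows (u := u) (sec_of_mem hd) hL' hε0 hκ0 hκ1 hδ0 (by
        rw [hδ]; linarith) m 0
      exact ⟨Fam, fun _ => h1⟩
    · exact ⟨∅, fun h => absurd h hd⟩
  have hch2 : ∀ d : P2 × P2, ∃ Fam : Finset (List (P2 × P2)), d ∈ dirs →
      (∑ T ∈ Fam, (δ ^ 2) ^ T.length ≤ κ ^ m) ∧
      (∀ T ∈ Fam, ∀ e ∈ T, ∃ i b, 0 ≤ b ∧ b < 0 + m ∧ i + 4 ≤ L + m + 2 ∧
        e = (pt u d.2 d.1 (i + 4) b, pt u d.2 d.1 (i + 3) b)) ∧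
      ∀ (F : Finset P2) (E : Finset (P2 × P2)) (ξ : P2 → ℝ) (v : P2) (h : F → ℝ) (M : ℕ),
        Cfg F E ξ u v h → (∀ a b, In F ξ u v h d.2 d.1 a b → a < M ∧ b < M) →
        m ≤ (farC F ξ u v h d.2 d.1 L M 0).card →
        ∃ T ∈ Fam, Fresh F E T ∧ ∀ e ∈ T, 1 - ε ≤ |ext F ξ h e.1 - ext F ξ h e.2| := by
    intro d
    by_cases hd : d ∈ dirs
    · obtain ⟨Fam, h1⟩ := cover_rows (u := u) (sec_of_mem hd).symm hL' hε0 hκ0 hκ1 hδ0 (by
        rw [hδ]; linarith) m 0
      exact ⟨Fam, fun _ => h1⟩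
    · exact ⟨∅, fun h => absurd h hd⟩
  choose G1 hG1 using hch1
  choose G2 hG2 using hch2
  refine ⟨dirs.biUnion fun d => G1 d ∪ G2 d, ?_, ?_, ?_⟩
  · rw [hcε]
    have h1 : ∑ T ∈ dirs.biUnion (fun d => G1 d ∪ G2 d), (δ ^ 2) ^ T.length ≤ 12 * κ ^ m := by
      refine (sum_biUnion_le' _ _ (fun T : List (P2 × P2) => (δ ^ 2) ^ T.length)
        fun _ => by positivity).trans ?_
      have h2 : ∀ d ∈ dirs, ∑ T ∈ G1 d ∪ G2 d, (δ ^ 2) ^ T.length ≤ 2 * κ ^ m := by
        intro d hd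
        have h3 := Finset.sum_union_inter (s₁ := G1 d) (s₂ := G2 d)
          (f := fun T : List (P2 × P2) => (δ ^ 2) ^ T.length)
        have h4 : 0 ≤ ∑ T ∈ G1 d ∩ G2 d, (δ ^ 2) ^ T.length :=
          Finset.sum_nonneg fun _ _ => by positivity
        linarith [(hG1 d hd).1, (hG2 d hd).1]
      refine (Finset.sum_le_sum h2).trans (le_of_eq ?_)
      rw [Finset.sum_const]
      have : dirs.card = 6 := by decide
      rw [this]; simp only [nsmul_eq_mul]; push_cast; ring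
    refine h1.trans ?_
    rw [mul_assoc]
    gcongr
    have hk : k ≤ 12 * m + (K0 + 11) := by omega
    have h5 : κ ^ m = (1 / A) ^ (12 * m) := by rw [hκ, ← pow_mul]
    rw [h5]
    have h6 : A ^ (K0 + 11) * (1 / A) ^ k = A ^ (K0 + 11) * (1 / A) ^ k := rfl
    have h7 : (1 / A) ^ (12 * m) * ((1 / A) ^ (K0 + 11) * A ^ (K0 + 11)) = (1 / A) ^ (12 * m) := by
      rw [← mul_pow, one_div_mul_cancel hA0.ne', one_pow, mul_one]
    rw [← h7]
    have h8 : (1 / A) ^ (12 * m) * ((1 / A) ^ (K0 + 11) * A ^ (K0 + 11)) =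
        A ^ (K0 + 11) * (1 / A) ^ (12 * m + (K0 + 11)) := by rw [pow_add]; ring
    rw [h8]
    gcongr A ^ (K0 + 11) * ?_
    exact pow_le_pow_of_le_one (by positivity) (by rw [div_le_one hA0]; exact hA) hk
  · intro T hT e he
    obtain ⟨d, hd, hT⟩ := Finset.mem_biUnion.mp hT
    have hloc : ∀ m' : ℕ, m' = m → 0 < m' → L + 2 * m' + 2 ≤ k + 2 := by
      intro m' h1 h2
      subst h1
      have h3 : 12 * m ≤ k - K0 := by omega
      have h4 : L ≤ K0 := by rw [hK0]; nlinarith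
      omega
    rcases Finset.mem_union.mp hT with hT | hT
    · obtain ⟨i, b, h1, h2, h3, rfl⟩ := (hG1 d hd).2.1 T hT e he
      have h5 := hloc m rfl (by omega)
      rw [nrm_pt (sec_of_mem hd), nrm_pt (sec_of_mem hd)]
      omega
    · obtain ⟨i, b, h1, h2, h3, rfl⟩ := (hG2 d hd).2.1 T hT e he
      have h5 := hloc m rfl (by omega)
      rw [nrm_pt (sec_of_mem hd).symm, nrm_pt (sec_of_mem hd).symm]
      omega
  · intro F E ξ v h hcfg hk
    obtain ⟨M, hM⟩ := exists_bound F u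
    have hcard := card_sset_le (F := F) (ξ := ξ) (u := u) (v := v) (h := h) (L := L) hM
    have hpig : ∃ d ∈ dirs, m ≤ (farC F ξ u v h d.1 d.2 L M 0).card ∨
        m ≤ (farC F ξ u v h d.2 d.1 L M 0).card := by
      by_contra hcon
      push Not at hcon
      have h1 : ∑ d ∈ dirs, ((L + 3) ^ 2 + (farC F ξ u v h d.1 d.2 L M 0).card +
          (farC F ξ u v h d.2 d.1 L M 0).card) ≤ ∑ _d ∈ dirs, ((L + 3) ^ 2 + 2 * (m - 1)) := by
        refine Finset.sum_le_sum fun d hd => ?_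
        obtain ⟨h2, h3⟩ := hcon d hd
        omega
      rw [Finset.sum_const] at h1
      have h6 : dirs.card = 6 := by decide
      rw [h6, smul_eq_mul] at h1
      obtain ⟨h2, h3⟩ := hcon ((1, 0), (0, 1)) (by simp [dirs])
      have hm0 : 0 < m := by omega
      have h4 : 12 * m ≤ k - K0 := by omega
      omega
    obtain ⟨d, hd, hfar⟩ := hpig
    rcases hfar with hfar | hfar
    · obtain ⟨T, hT, h1⟩ := (hG1 d hd).2.2 F E ξ v h M hcfg
        (fun a b hab => hM _ _ (sec_of_mem hd) a b hab.1) hfar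
      exact ⟨T, Finset.mem_biUnion.mpr ⟨d, hd, Finset.mem_union_left _ hT⟩, h1⟩
    · obtain ⟨T, hT, h1⟩ := (hG2 d hd).2.2 F E ξ v h M hcfg
        (fun a b hab => hM _ _ (sec_of_mem hd).symm a b hab.1) hfar
      exact ⟨T, Finset.mem_biUnion.mpr ⟨d, hd, Finset.mem_union_right _ hT⟩, h1⟩

end Crest.Agent.R144.Kor620
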