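import Crest.Agent.R144.Ham5_560

/-!
R144 (S0197), helper460, leaf LCb of helper146's block LC: pinning cost.

* `vol_scl`  : volume under the scaling of the coordinates in `B`;
* `pin_le`   : for a symmetric convex set `K` with `|x_i| ≤ n` on `K` for `i ∈ B`:
               `(e/n)^|B| vol K ≤ vol (K ∩ {|x_i| ≤ e, i ∈ B})`;
* `ham_pin`  : the same on `ham F E 0`;
* `ham_pin_xi` : the version with data `ξ`, `|ξ| ≤ 1/2`, on `B`;
* `hamP_pin`, `hamP_pin_xi` : probability forms.
-/

set_option autoImplicit false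

open MeasureTheory Set
open scoped ENNReal

noncomputable section

namespace Crest.Agent.R144.LcB460

open Crest.Agent.R144.Ham560

section abs

variable {ι : Type*} [Fintype ι] [DecidableEq ι]

/-- Scaling of the coordinates in `B`. -/
def scl (B : Finset ι) (s : ℝ) (x : ι → ℝ) : ι → ℝ := fun i => if i ∈ B then s * x i else x i

theorem scl_eq (B : Finset ι) (s : ℝ) :
    scl B s = Matrix.toLin' (Matrix.diagonal fun i => if i ∈ B then s else 1) := by
  funext x i
  simp only [scl, Matrix.toLin'_apply, Matrix.mulVec_diagonal]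
  split_ifs <;> ring

omit [Fintype ι] in
theorem continuous_scl (B : Finset ι) (s : ℝ) : Continuous (scl B s) := by
  refine continuous_pi fun i => ?_
  unfold scl
  split_ifs
  · exact continuous_const.mul (continuous_apply i)
  · exact continuous_apply i

theorem vol_scl (B : Finset ι) {s : ℝ} (hs : 0 < s) {A : Set (ι → ℝ)} (hA : MeasurableSet A) :
    volume A = ENNReal.ofReal s ^ B.card * volume (scl B s ⁻¹' A) := by
  have hdet : Matrix.det (Matrix.diagonal fun i => if i ∈ B then s else (1 : ℝ)) = s ^ B.card := by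
    rw [Matrix.det_diagonal, Finset.prod_ite, Finset.prod_const, Finset.prod_const_one, mul_one]
    congr 2
    ext i; simp
  have h := Real.smul_map_diagonal_volume_pi (ι := ι) (D := fun i => if i ∈ B then s else (1 : ℝ))
    (by rw [hdet]; positivity)
  conv_lhs => rw [← h]
  rw [Measure.smul_apply, smul_eq_mul, hdet, abs_of_pos (by positivity), ENNReal.ofReal_pow hs.le,
    ← scl_eq, Measure.map_apply (continuous_scl B s).measurable hA]

/-- Joining two groups of coordinates. -/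
def jn (p : ι → Prop) [DecidablePred p] (b : {i // p i} → ℝ) (c : {i // ¬ p i} → ℝ) : ι → ℝ :=
  fun i => if h : p i then b ⟨i, h⟩ else c ⟨i, h⟩

omit [DecidableEq ι] in
/-- Comparison of volumes by slices. -/
theorem slice_mono (p : ι → Prop) [DecidablePred p] {K₁ K₂ : Set (ι → ℝ)}
    (h1 : MeasurableSet K₁) (h2 : MeasurableSet K₂)
    (H : ∀ b : {i // p i} → ℝ, MeasurableSet {c | jn p b c ∈ K₁} → MeasurableSet {c | jn p b c ∈ K₂} →
      volume {c | jn p b c ∈ K₁} ≤ volume {c | jn p b c ∈ K₂}) :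
    volume K₁ ≤ volume K₂ := by
  set φ := MeasurableEquiv.piEquivPiSubtypeProd (fun _ : ι => ℝ) p with hφ
  have hmp := volume_preserving_piEquivPiSubtypeProd (fun _ : ι => ℝ) p
  have hmp' : MeasurePreserving φ.symm (volume.prod volume) volume := by
    rw [← Measure.volume_eq_prod]; exact hmp.symm φ
  rw [← hmp'.measure_preimage h1.nullMeasurableSet, ← hmp'.measure_preimage h2.nullMeasurableSet,
    Measure.prod_apply (φ.symm.measurable h1), Measure.prod_apply (φ.symm.measurable h2)]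
  exact lintegral_mono fun b => H b (measurable_prodMk_left (φ.symm.measurable h1))
    (measurable_prodMk_left (φ.symm.measurable h2))

/-- Pinning the coordinates of `B` in a symmetric convex set costs at most `e / n` each. -/
theorem pin_le {K : Set (ι → ℝ)} (hK : Convex ℝ K) (hsym : ∀ x ∈ K, -x ∈ K)
    (hKm : MeasurableSet K) (B : Finset ι) {n e : ℝ} (he : 0 < e) (hen : e ≤ n)
    (hb : ∀ x ∈ K, ∀ i ∈ B, |x i| ≤ n) :
    ENNReal.ofReal (e / n) ^ B.card * volume K ≤ volume (K ∩ {x | ∀ i ∈ B, |x i| ≤ e}) := by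
  have hn : 0 < n := lt_of_lt_of_le he hen
  set s : ℝ := e / n with hs
  have hs0 : 0 < s := by positivity
  have hs1 : s ≤ 1 := by rw [hs, div_le_one hn]; exact hen
  have hsn : s * n = e := by rw [hs]; field_simp
  have hbox : MeasurableSet {x : ι → ℝ | ∀ i ∈ B, |x i| ≤ e} := by
    have : {x : ι → ℝ | ∀ i ∈ B, |x i| ≤ e} = ⋂ i ∈ B, {x | |x i| ≤ e} := by ext x; simp
    rw [this]
    exact (isClosed_biInter fun i _ =>
      isClosed_le (continuous_apply i).abs continuous_const).measurableSet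
  rw [vol_scl B hs0 (hKm.inter hbox)]
  refine mul_le_mul_right ?_ _
  rcases eq_or_lt_of_le hs1 with h1 | h1
  · refine measure_mono fun x hx => ?_
    have hx' : scl B s x = x := by
      funext i; unfold scl; rw [h1]; simp
    rw [mem_preimage, hx']
    refine ⟨hx, fun i hi => ?_⟩
    have := hb x hx i hi
    have h2 : e = n := by rw [← hsn, h1, one_mul]
    rw [h2]; exact this
  -- slices
  have hpre : MeasurableSet (scl B s ⁻¹' (K ∩ {x | ∀ i ∈ B, |x i| ≤ e})) :=
    (continuous_scl B s).measurable (hKm.inter hbox)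
  refine slice_mono (fun i => i ∈ B) hKm hpre fun b hm1 hm2 => ?_
  by_cases hbn : ∀ i, |b i| ≤ n
  · -- even quasi-concavity of the slice volumes
    refine vol_le_of_mix (s := (1 - s) / 2) (by linarith) (by linarith) hm1 hm2 ?_
    intro c hc c' hc'
    change _ ∈ K at hc hc'
    have h3 := hK hc (hsym _ hc') (by linarith : (0:ℝ) ≤ 1 - (1 - s) / 2)
      (by linarith : (0:ℝ) ≤ (1 - s) / 2) (by ring)
    have h4 : scl B s (jn (fun i => i ∈ B) b ((1 - (1 - s) / 2) • c - ((1 - s) / 2) • c')) =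
        (1 - (1 - s) / 2) • jn (fun i => i ∈ B) b c + ((1 - s) / 2) • -jn (fun i => i ∈ B) b c' := by
      funext i
      unfold scl jn
      simp only [Pi.add_apply, Pi.smul_apply, Pi.neg_apply, smul_eq_mul, Pi.sub_apply]
      by_cases hi : i ∈ B
      · simp only [hi, if_true, dif_pos]; ring
      · simp only [hi, if_false, dif_neg, not_false_eq_true]; ring
    change scl B s _ ∈ K ∩ _
    rw [h4]
    refine ⟨h3, fun i hi => ?_⟩
    rw [← h4]
    unfold scl jn
    rw [if_pos hi, dif_pos hi, abs_mul, abs_of_pos hs0, ← hsn]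
    exact mul_le_mul_of_nonneg_left (hbn ⟨i, hi⟩) hs0.le
  · -- empty slice
    push Not at hbn
    obtain ⟨⟨i, hi⟩, hlt⟩ := hbn
    have : {c | jn (fun i => i ∈ B) b c ∈ K} = ∅ := by
      rw [Set.eq_empty_iff_forall_notMem]
      intro c hc
      have := hb _ hc i hi
      unfold jn at this
      rw [dif_pos hi] at this
      linarith
    rw [this, measure_empty]
    exact bot_le

end abs

section ham

variable {U : Type*} [DecidableEq U] {F : Finset U} {E : Finset (U × U)} {ξ : U → ℝ}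

/-- Configurations with `|x_y - ξ_y| ≤ e` on `B`. -/
def near (F : Finset U) (B : Finset U) (ξ : U → ℝ) (e : ℝ) : Set (F → ℝ) :=
  {x | ∀ y : F, (y : U) ∈ B → |x y - ξ y| ≤ e}

omit [DecidableEq U] in
theorem isClosed_near (B : Finset U) (ξ : U → ℝ) (e : ℝ) : IsClosed (near F B ξ e) := by
  have : near F B ξ e = ⋂ y : F, ⋂ _ : (y : U) ∈ B, {x | |x y - ξ y| ≤ e} := by
    ext x; simp [near]
  rw [this]
  exact isClosed_iInter fun y => isClosed_iInter fun _ =>
    isClosed_le ((continuous_apply y).sub continuous_const).abs continuous_const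

theorem near_zero (B : Finset U) (e : ℝ) :
    near F B 0 e = {x | ∀ y ∈ Finset.univ.filter (fun y : F => (y : U) ∈ B), |x y| ≤ e} := by
  ext x; simp [near]

theorem card_filter_eq {B : Finset U} (hB : B ⊆ F) :
    (Finset.univ.filter (fun y : F => (y : U) ∈ B)).card = B.card := by
  have : B = (Finset.univ.filter (fun y : F => (y : U) ∈ B)).map (Function.Embedding.subtype _) := by
    ext y
    simp only [Finset.mem_map, Finset.mem_filter, Finset.mem_univ, true_and,
      Function.Embedding.subtype_apply, Subtype.exists, exists_and_left, exists_prop,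
      exists_eq_right_right]
    exact ⟨fun h => ⟨h, hB h⟩, fun h => h.1⟩
  conv_rhs => rw [this]
  rw [Finset.card_map]

/-- General pinning inside a symmetric convex set of configurations. -/
theorem pin_near {K : Set (F → ℝ)} (hK : Convex ℝ K) (hsym : ∀ x ∈ K, -x ∈ K)
    (hKm : MeasurableSet K) {B : Finset U} (hB : B ⊆ F) {n e : ℝ} (he : 0 < e) (hen : e ≤ n)
    (hb : ∀ x ∈ K, ∀ y : F, (y : U) ∈ B → |x y| ≤ n) :
    ENNReal.ofReal (e / n) ^ B.card * volume K ≤ volume (K ∩ near F B 0 e) := by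
  have h := pin_le hK hsym hKm (Finset.univ.filter (fun y : F => (y : U) ∈ B)) he hen
    (fun x hx y hy => hb x hx y (by simpa using hy))
  rwa [card_filter_eq hB, ← near_zero] at h

/-- LCb, data `0`. -/
theorem ham_pin {B : Finset U} (hB : B ⊆ F) {n e : ℝ} (he : 0 < e) (hen : e ≤ n)
    (hb : ∀ x ∈ ham F E 0, ∀ y : F, (y : U) ∈ B → |x y| ≤ n) :
    ENNReal.ofReal (e / n) ^ B.card * volume (ham F E 0) ≤
      volume (ham F E 0 ∩ near F B 0 e) :=
  pin_near convex_ham (fun x hx => by simpa using ham_neg hx) measurableSet_ham hB he hen hb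

omit [DecidableEq U] in
theorem convex_near (B : Finset U) (ξ : U → ℝ) (e : ℝ) : Convex ℝ (near F B ξ e) := by
  intro x hx y hy a b ha hb hab v hv
  have h1 := abs_le.mp (hx v hv)
  have h2 := abs_le.mp (hy v hv)
  simp only [Pi.add_apply, Pi.smul_apply, smul_eq_mul]
  have h3 : a * ξ v + b * ξ v = ξ v := by rw [← add_mul, hab, one_mul]
  have h4 : a * e + b * e = e := by rw [← add_mul, hab, one_mul]
  rw [abs_le]; constructor <;> nlinarith

omit [DecidableEq U] in
theorem near_neg {B : Finset U} {e : ℝ} {x : F → ℝ} (hx : x ∈ near F B 0 e) :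
    -x ∈ near F B 0 e := by
  intro v hv
  have := hx v hv
  simpa [near, abs_neg] using this

/-- The shrinking map of the proof of `ham_pin_xi`. -/
def shr (F : Finset U) (B : Finset U) (ξ : U → ℝ) (e : ℝ) (x : F → ℝ) : F → ℝ :=
  fun y => if (y : U) ∈ B then x y / 2 + (1 - e) * ξ y else x y

theorem continuous_shr (B : Finset U) (ξ : U → ℝ) (e : ℝ) : Continuous (shr F B ξ e) := by
  refine continuous_pi fun i => ?_
  unfold shr
  split_ifs
  · exact ((continuous_apply i).div_const _).add continuous_const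
  · exact continuous_apply i

theorem vol_shr {B : Finset U} (hB : B ⊆ F) (ξ : U → ℝ) (e : ℝ) {A : Set (F → ℝ)}
    (hA : MeasurableSet A) :
    volume A = ENNReal.ofReal (1 / 2) ^ B.card * volume (shr F B ξ e ⁻¹' A) := by
  set B' : Finset F := Finset.univ.filter (fun y : F => (y : U) ∈ B) with hB'
  set t : F → ℝ := fun y => if (y : U) ∈ B then (1 - e) * ξ y else 0 with ht
  have h1 : shr F B ξ e ⁻¹' A = scl B' (1 / 2) ⁻¹' ((fun x => x + t) ⁻¹' A) := by
    ext x
    simp only [mem_preimage]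
    have : shr F B ξ e x = scl B' (1 / 2) x + t := by
      funext y
      simp only [shr, scl, hB', ht, Pi.add_apply, Finset.mem_filter, Finset.mem_univ, true_and]
      split_ifs <;> ring
    rw [this]
  have h2 : MeasurableSet ((fun x : F → ℝ => x + t) ⁻¹' A) :=
    (measurable_id.add_const t) hA
  rw [h1, ← card_filter_eq hB, ← vol_scl B' (by norm_num) h2, measure_preimage_add_right]

/-- The neighbours of `B` outside `B`. -/
def bd (F : Finset U) (E : Finset (U × U)) (B : Finset U) : Finset U :=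
  F.filter fun w => w ∉ B ∧ ∃ y ∈ B, w ∈ nbr E y

theorem bd_subset (B : Finset U) : bd F E B ⊆ F := Finset.filter_subset _ _

theorem card_bd_le {B : Finset U} (hB : B ⊆ F) {d : ℕ} (hd : ∀ v ∈ F, (nbr E v).card ≤ d) :
    (bd F E B).card ≤ d * B.card := by
  have h1 : bd F E B ⊆ B.biUnion (nbr E) := by
    intro w hw
    obtain ⟨_, _, y, hy, h⟩ := Finset.mem_filter.mp hw
    exact Finset.mem_biUnion.mpr ⟨y, hy, h⟩
  refine (Finset.card_le_card h1).trans ((Finset.card_biUnion_le).trans ?_)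
  refine (Finset.sum_le_card_nsmul _ _ d fun y hy => hd y (hB hy)).trans ?_
  rw [smul_eq_mul, mul_comm]

/-- LCb, data `ξ` on `B` with `|ξ| ≤ 1/2`. -/
theorem ham_pin_xi {B : Finset U} (hB : B ⊆ F) (hξ : ∀ y ∈ B, |ξ y| ≤ 1 / 2) {n e : ℝ}
    (he : 0 < e) (he' : e ≤ 1) (hen : e ≤ n)
    (hb : ∀ x ∈ ham F E 0, ∀ y : F, (y : U) ∈ B → |x y| ≤ n) :
    ENNReal.ofReal (1 / 2) ^ B.card * ENNReal.ofReal (1 / 4) ^ (bd F E B).card *
        ENNReal.ofReal (e / n) ^ B.card * volume (ham F E 0) ≤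
      volume (ham F E 0 ∩ near F B ξ e) := by
  set K₁ : Set (F → ℝ) := ham F E 0 ∩ near F B 0 e with hK₁
  have hK₁c : Convex ℝ K₁ := convex_ham.inter (convex_near B 0 e)
  have hK₁s : ∀ x ∈ K₁, -x ∈ K₁ := fun x hx => ⟨by simpa using ham_neg hx.1, near_neg hx.2⟩
  have hK₁m : MeasurableSet K₁ := measurableSet_ham.inter (isClosed_near B 0 e).measurableSet
  have hN : ∀ x ∈ K₁, ∀ w : F, (w : U) ∈ bd F E B → |x w| ≤ 2 := by
    rintro x ⟨hx, hxB⟩ ⟨w, hw⟩ hwN
    obtain ⟨_, _, y, hy, h⟩ := Finset.mem_filter.mp hwN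
    have h1 := ham_nbr hx h
    rw [ext_mem (hB hy), ext_mem hw] at h1
    have h2 := hxB ⟨y, hB hy⟩ hy
    simp only [Pi.zero_apply, sub_zero] at h2
    rw [abs_le] at h1 h2 ⊢
    constructor <;> linarith
  have s1 := ham_pin (E := E) hB he hen hb
  have s2 := pin_near hK₁c hK₁s hK₁m (bd_subset (F := F) (E := E) B) (n := 2) (e := 1 / 2)
    (by norm_num) (by norm_num) hN
  have s3 : volume (K₁ ∩ near F (bd F E B) 0 (1 / 2)) ≤
      volume (shr F B ξ e ⁻¹' (ham F E 0 ∩ near F B ξ e)) := by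
    refine measure_mono ?_
    rintro x ⟨⟨hx, hxB⟩, hxN⟩
    have hxB' : ∀ y ∈ B, |ext F 0 x y| ≤ e := by
      intro y hy
      have := hxB ⟨y, hB hy⟩ hy
      rw [ext_mem (hB hy)]
      simpa using this
    have hz : ∀ u, ext F 0 (shr F B ξ e x) u =
        if u ∈ B then ext F 0 x u / 2 + (1 - e) * ξ u else ext F 0 x u := by
      intro u
      by_cases hu : u ∈ F
      · rw [ext_mem hu, ext_mem hu]; rfl
      · rw [ext_notMem hu, ext_notMem hu, if_neg fun h => hu (hB h)]
    have hzB : ∀ u ∈ B, |ext F 0 (shr F B ξ e x) u| ≤ 1 / 2 := by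
      intro u hu
      rw [hz, if_pos hu]
      have h1 := abs_le.mp (hxB' u hu)
      have h2 := abs_le.mp (hξ u hu)
      rw [abs_le]; constructor <;> nlinarith
    have hcross : ∀ u ∈ B, ∀ w, w ∉ B → w ∈ nbr E u → |ext F 0 (shr F B ξ e x) w| ≤ 1 / 2 := by
      intro u hu w hw hwu
      rw [hz, if_neg hw]
      by_cases hwF : w ∈ F
      · have := hxN ⟨w, hwF⟩ (Finset.mem_filter.mpr ⟨hwF, hw, u, hu, hwu⟩)
        rw [ext_mem hwF]
        simpa using this
      · rw [ext_notMem hwF]; norm_num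
    refine ⟨fun p hp => ?_, fun y hy => ?_⟩
    · have h0 := hx p hp
      by_cases h1 : p.1 ∈ B
      · by_cases h2 : p.2 ∈ B
        · rw [hz, hz, if_pos h1, if_pos h2]
          have a1 := abs_le.mp (hxB' _ h1)
          have a2 := abs_le.mp (hxB' _ h2)
          have a3 := abs_le.mp (hξ _ h1)
          have a4 := abs_le.mp (hξ _ h2)
          rw [abs_le]; constructor <;> nlinarith
        · have hne : p.2 ≠ p.1 := fun h => h2 (h ▸ h1)
          have a1 := abs_le.mp (hzB _ h1)
          have a2 := abs_le.mp (hcross _ h1 _ h2 (mem_nbr.mpr ⟨hne, Or.inl hp⟩))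
          rw [abs_le]; constructor <;> linarith
      · by_cases h2 : p.2 ∈ B
        · have hne : p.1 ≠ p.2 := fun h => h1 (h ▸ h2)
          have a1 := abs_le.mp (hzB _ h2)
          have a2 := abs_le.mp (hcross _ h2 _ h1 (mem_nbr.mpr ⟨hne, Or.inr hp⟩))
          rw [abs_le]; constructor <;> linarith
        · rw [hz, hz, if_neg h1, if_neg h2]
          exact h0
    · have h1 := hxB' _ hy
      rw [ext_mem y.2] at h1
      have h3 : shr F B ξ e x y = x y / 2 + (1 - e) * ξ y := by unfold shr; rw [if_pos hy]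
      have h2 := abs_le.mp (hξ _ hy)
      rw [h3]
      rw [abs_le] at h1 ⊢
      constructor <;> nlinarith [h1.1, h1.2]
  have hm : MeasurableSet (ham F E 0 ∩ near F B ξ e) :=
    measurableSet_ham.inter (isClosed_near B ξ e).measurableSet
  rw [vol_shr hB ξ e hm]
  have e1 : (1 / 2 : ℝ) / 2 = 1 / 4 := by norm_num
  rw [e1] at s2
  calc ENNReal.ofReal (1 / 2) ^ B.card * ENNReal.ofReal (1 / 4) ^ (bd F E B).card *
        ENNReal.ofReal (e / n) ^ B.card * volume (ham F E 0)
      = ENNReal.ofReal (1 / 2) ^ B.card * (ENNReal.ofReal (1 / 4) ^ (bd F E B).card *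
        (ENNReal.ofReal (e / n) ^ B.card * volume (ham F E 0))) := by ring
    _ ≤ ENNReal.ofReal (1 / 2) ^ B.card * (ENNReal.ofReal (1 / 4) ^ (bd F E B).card *
        volume K₁) := by gcongr
    _ ≤ ENNReal.ofReal (1 / 2) ^ B.card * volume (K₁ ∩ near F (bd F E B) 0 (1 / 2)) := by
        gcongr
    _ ≤ _ := by gcongr

/-- LCb with the degree bound: `|∂B| ≤ d |B|`. -/
theorem ham_pin_xi' {B : Finset U} (hB : B ⊆ F) (hξ : ∀ y ∈ B, |ξ y| ≤ 1 / 2) {n e : ℝ}
    (he : 0 < e) (he' : e ≤ 1) (hen : e ≤ n) {d : ℕ} (hd : ∀ v ∈ F, (nbr E v).card ≤ d)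
    (hb : ∀ x ∈ ham F E 0, ∀ y : F, (y : U) ∈ B → |x y| ≤ n) :
    ENNReal.ofReal (1 / 4) ^ ((d + 1) * B.card) * ENNReal.ofReal (e / n) ^ B.card *
        volume (ham F E 0) ≤ volume (ham F E 0 ∩ near F B ξ e) := by
  refine le_trans ?_ (ham_pin_xi hB hξ he he' hen hb)
  gcongr
  have h1 : ENNReal.ofReal (1 / 4) ≤ 1 := by
    rw [← ENNReal.ofReal_one]; exact ENNReal.ofReal_le_ofReal (by norm_num)
  rw [Nat.add_mul, one_mul, add_comm, pow_add]
  gcongr ?_ * ?_
  · exact pow_le_pow_left₀ bot_le (ENNReal.ofReal_le_ofReal (by norm_num)) _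
  · exact pow_le_pow_of_le_one bot_le h1 (card_bd_le hB hd)

/-! ### probability forms -/

theorem hamP_apply {A : Set (F → ℝ)} (hA : MeasurableSet A) :
    hamP F E ξ A = (volume (ham F E ξ))⁻¹ * volume (ham F E ξ ∩ A) := by
  unfold hamP
  rw [Measure.smul_apply, Measure.restrict_apply hA, smul_eq_mul, inter_comm]

theorem hamP_of_le (hA : Anch F E) {A : Set (F → ℝ)} (hAm : MeasurableSet A) {c : ℝ≥0∞}
    (h : c * volume (ham F E 0) ≤ volume (ham F E 0 ∩ A)) : c ≤ hamP F E 0 A := by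
  rw [hamP_apply hAm]
  have h0 : volume (ham F E (0 : U → ℝ)) ≠ 0 := volume_ham_ne_zero fun u => by simp
  have h1 : volume (ham F E (0 : U → ℝ)) ≠ ∞ := (volume_ham_lt_top hA).ne
  calc c = (volume (ham F E 0))⁻¹ * (c * volume (ham F E 0)) := by
        rw [mul_comm c, ← mul_assoc, ENNReal.inv_mul_cancel h0 h1, one_mul]
    _ ≤ _ := by gcongr

theorem hamP_pin (hA : Anch F E) {B : Finset U} (hB : B ⊆ F) {n e : ℝ} (he : 0 < e) (hen : e ≤ n)
    (hb : ∀ x ∈ ham F E 0, ∀ y : F, (y : U) ∈ B → |x y| ≤ n) :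
    ENNReal.ofReal (e / n) ^ B.card ≤ hamP F E 0 (near F B 0 e) :=
  hamP_of_le hA (isClosed_near B 0 e).measurableSet (ham_pin hB he hen hb)

theorem hamP_pin_xi (hA : Anch F E) {B : Finset U} (hB : B ⊆ F) (hξ : ∀ y ∈ B, |ξ y| ≤ 1 / 2)
    {n e : ℝ} (he : 0 < e) (he' : e ≤ 1) (hen : e ≤ n) {d : ℕ}
    (hd : ∀ v ∈ F, (nbr E v).card ≤ d)
    (hb : ∀ x ∈ ham F E 0, ∀ y : F, (y : U) ∈ B → |x y| ≤ n) :
    ENNReal.ofReal (1 / 4) ^ ((d + 1) * B.card) * ENNReal.ofReal (e / n) ^ B.card ≤
      hamP F E 0 (near F B ξ e) :=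
  hamP_of_le hA (isClosed_near B ξ e).measurableSet (ham_pin_xi' hB hξ he he' hen hd hb)

/-- Logarithmic form used in the mass-pinning interpolation. -/
theorem log_hamP_pin_xi (hA : Anch F E) {B : Finset U} (hB : B ⊆ F)
    (hξ : ∀ y ∈ B, |ξ y| ≤ 1 / 2) {n e : ℝ} (he : 0 < e) (he' : e ≤ 1) (hen : e ≤ n) {d : ℕ}
    (hd : ∀ v ∈ F, (nbr E v).card ≤ d)
    (hb : ∀ x ∈ ham F E 0, ∀ y : F, (y : U) ∈ B → |x y| ≤ n) :
    -((B.card : ℝ) * ((d + 1) * Real.log 4 + Real.log (n / e))) ≤
      Real.log ((hamP F E 0 (near F B ξ e)).toReal) := by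
  have hn : 0 < n := lt_of_lt_of_le he hen
  have h1 := hamP_pin_xi hA hB hξ he he' hen hd hb
  have : IsProbabilityMeasure (hamP F E (0 : U → ℝ)) :=
    isProbabilityMeasure_hamP hA fun u => by simp
  have h2 := ENNReal.toReal_mono (measure_ne_top (hamP F E 0) (near F B ξ e)) h1
  rw [ENNReal.toReal_mul, ENNReal.toReal_pow, ENNReal.toReal_pow,
    ENNReal.toReal_ofReal (by norm_num), ENNReal.toReal_ofReal (by positivity)] at h2
  have h3 : 0 < (1 / 4 : ℝ) ^ ((d + 1) * B.card) * (e / n) ^ B.card := by positivity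
  have h4 := Real.log_le_log h3 h2
  refine le_trans (le_of_eq ?_) h4
  have l1 : Real.log (1 / 4) = -Real.log 4 := by rw [one_div, Real.log_inv]
  have l2 : Real.log (e / n) = -Real.log (n / e) := by
    rw [Real.log_div he.ne' hn.ne', Real.log_div hn.ne' he.ne']; ring
  have h5 : (1 / 4 : ℝ) ^ ((d + 1) * B.card) ≠ 0 := by positivity
  have h6 : (e / n) ^ B.card ≠ 0 := by positivity
  rw [Real.log_mul h5 h6, Real.log_pow, Real.log_pow, l1, l2]
  push_cast
  ring

end ham

end Crest.Agent.R144.LcB460
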