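import Mathlib
import Crest.Agent.R144.Ham5_560
import Crest.Agent.R144.LcB_460
import Crest.Agent.R144.FF_121

/-!
# R144 (helper121): local comparison, part 1: splitting the free vertices, volumes with data

* `join`, `measurePreserving_join`, `vol_split`: Fubini for `F = X ∪ Q`;
* `touch X E`: edges touching `X`; `away X E`: the others;
* `mem_ham_join`: `join z ∈ ham F E ξ ↔ z.1 ∈ ham Q (away X E) ξ ∧ z.2 ∈ ham X (touch X E) (ext Q ξ z.1)`.
-/

set_option autoImplicit false

open MeasureTheory Set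
open scoped ENNReal

noncomputable section

namespace Crest.Agent.R144.LC121

open Crest.Agent.R144.Ham560

variable {U : Type*} [DecidableEq U] {F X Q : Finset U} {E : Finset (U × U)} {ξ η : U → ℝ}

/-- Join the configuration `z.1` on `Q` and `z.2` on `X`. -/
def join (F X Q : Finset U) (z : (Q → ℝ) × (X → ℝ)) : F → ℝ :=
  fun f => ext Q (ext X 0 z.2) z.1 f

theorem ext_join (hF : F = X ∪ Q) (z : (Q → ℝ) × (X → ℝ)) (u : U) :
    ext F ξ (join F X Q z) u = ext X (ext Q ξ z.1) z.2 u ∨ u ∈ Q := by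
  by_cases hu : u ∈ Q
  · exact Or.inr hu
  · left
    by_cases hX : u ∈ X
    · have : u ∈ F := by rw [hF]; exact Finset.mem_union_left _ hX
      rw [ext_mem this, ext_mem hX]
      simp only [join]
      rw [ext_notMem hu, ext_mem hX]
    · have : u ∉ F := by rw [hF, Finset.mem_union]; tauto
      rw [ext_notMem this, ext_notMem hX, ext_notMem hu]

theorem ext_join_Q (hF : F = X ∪ Q) (z : (Q → ℝ) × (X → ℝ)) {u : U} (hu : u ∈ Q) :
    ext F ξ (join F X Q z) u = z.1 ⟨u, hu⟩ := by
  have : u ∈ F := by rw [hF]; exact Finset.mem_union_right _ hu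
  rw [ext_mem this]
  simp only [join]
  rw [ext_mem hu]

theorem ext_join_X (hF : F = X ∪ Q) (hd : Disjoint X Q) (z : (Q → ℝ) × (X → ℝ)) (u : U) :
    ext F ξ (join F X Q z) u = ext X (ext Q ξ z.1) z.2 u := by
  rcases ext_join (ξ := ξ) hF z u with h | h
  · exact h
  · have hX : u ∉ X := fun h' => (Finset.disjoint_left.mp hd h') h
    rw [ext_join_Q hF z h, ext_notMem hX, ext_mem h]

theorem measurable_join : Measurable (join F X Q) := by
  refine measurable_pi_lambda _ fun f => ?_
  change Measurable fun z : (Q → ℝ) × (X → ℝ) => Ham560.ext Q (Ham560.ext X 0 z.2) z.1 f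
  by_cases h : (f : U) ∈ Q
  · simp only [Ham560.ext, h, dif_pos]
    exact (measurable_pi_apply _).comp measurable_fst
  · by_cases hX : (f : U) ∈ X
    · simp only [Ham560.ext, h, hX, dif_pos, dif_neg, not_false_eq_true]
      exact (measurable_pi_apply _).comp measurable_snd
    · simp only [Ham560.ext, h, hX, dif_neg, not_false_eq_true]
      exact measurable_const

theorem measurePreserving_join (hF : F = X ∪ Q) (hd : Disjoint X Q) :
    MeasurePreserving (join F X Q) (volume.prod volume) volume := by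
  refine ⟨measurable_join, ?_⟩
  symm
  rw [volume_pi]
  refine Measure.pi_eq fun s hs => ?_
  rw [Measure.map_apply measurable_join (MeasurableSet.univ_pi hs)]
  have hQF : ∀ u ∈ Q, u ∈ F := fun u hu => by rw [hF]; exact Finset.mem_union_right _ hu
  have hXF : ∀ u ∈ X, u ∈ F := fun u hu => by rw [hF]; exact Finset.mem_union_left _ hu
  have hpre : join F X Q ⁻¹' (Set.univ.pi s) =
      (Set.univ.pi fun q : Q => s ⟨q, hQF q q.2⟩) ×ˢ
        (Set.univ.pi fun x : X => s ⟨x, hXF x x.2⟩) := by
    ext z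
    simp only [mem_preimage, mem_univ_pi, mem_prod]
    constructor
    · intro h
      refine ⟨fun q => ?_, fun x => ?_⟩
      · have := h ⟨q, hQF q q.2⟩
        simp only [join] at this
        rwa [ext_mem q.2] at this
      · have := h ⟨x, hXF x x.2⟩
        have hx : (x : U) ∉ Q := Finset.disjoint_left.mp hd x.2
        simp only [join] at this
        rwa [ext_notMem hx, ext_mem x.2] at this
    · rintro ⟨h1, h2⟩ f
      simp only [join]
      by_cases hq : (f : U) ∈ Q
      · rw [ext_mem hq]; exact h1 ⟨f, hq⟩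
      · have hx : (f : U) ∈ X := by
          have h3 : (f : U) ∈ X ∪ Q := hF ▸ f.2
          rw [Finset.mem_union] at h3
          tauto
        rw [ext_notMem hq, ext_mem hx]; exact h2 ⟨f, hx⟩
  rw [hpre, Measure.prod_prod, volume_pi_pi, volume_pi_pi]
  -- products
  set g : U → ℝ≥0∞ := fun u => if h : u ∈ F then volume (s ⟨u, h⟩) else 1 with hg
  have e1 : ∏ f : F, volume (s f) = ∏ u ∈ F, g u := by
    rw [← Finset.prod_coe_sort F g]
    refine Finset.prod_congr rfl fun f _ => ?_
    simp [hg]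
  have e2 : ∏ q : Q, volume (s ⟨q, hQF q q.2⟩) = ∏ u ∈ Q, g u := by
    rw [← Finset.prod_coe_sort Q g]
    refine Finset.prod_congr rfl fun f _ => ?_
    simp [hg, hQF f f.2]
  have e3 : ∏ x : X, volume (s ⟨x, hXF x x.2⟩) = ∏ u ∈ X, g u := by
    rw [← Finset.prod_coe_sort X g]
    refine Finset.prod_congr rfl fun f _ => ?_
    simp [hg, hXF f f.2]
  rw [e1, e2, e3, hF, Finset.prod_union hd, mul_comm]

/-- Fubini for `F = X ∪ Q`. -/
theorem vol_split (hF : F = X ∪ Q) (hd : Disjoint X Q) {A : Set (F → ℝ)} (hA : MeasurableSet A) :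
    volume A = ∫⁻ y : Q → ℝ, volume {x : X → ℝ | join F X Q (y, x) ∈ A} := by
  rw [← (measurePreserving_join hF hd).measure_preimage hA.nullMeasurableSet,
    Measure.prod_apply (measurable_join hA)]
  rfl

/-- Edges touching `X`. -/
def touch (X : Finset U) (E : Finset (U × U)) : Finset (U × U) :=
  E.filter fun p => p.1 ∈ X ∨ p.2 ∈ X

/-- Edges not touching `X`. -/
def away (X : Finset U) (E : Finset (U × U)) : Finset (U × U) :=
  E.filter fun p => ¬ (p.1 ∈ X ∨ p.2 ∈ X)

theorem mem_touch {p : U × U} : p ∈ touch X E ↔ p ∈ E ∧ (p.1 ∈ X ∨ p.2 ∈ X) := by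
  simp [touch]

theorem mem_away {p : U × U} : p ∈ away X E ↔ p ∈ E ∧ p.1 ∉ X ∧ p.2 ∉ X := by
  simp [away]

theorem mem_ham_join (hF : F = X ∪ Q) (hd : Disjoint X Q) (z : (Q → ℝ) × (X → ℝ)) :
    join F X Q z ∈ ham F E ξ ↔
      z.1 ∈ ham Q (away X E) ξ ∧ z.2 ∈ ham X (touch X E) (ext Q ξ z.1) := by
  have key : ∀ u, ext F ξ (join F X Q z) u = ext X (ext Q ξ z.1) z.2 u :=
    ext_join_X hF hd z
  have key2 : ∀ u, u ∉ X → ext F ξ (join F X Q z) u = ext Q ξ z.1 u := by
    intro u hu
    rw [key, ext_notMem hu]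
  constructor
  · intro h
    refine ⟨fun p hp => ?_, fun p hp => ?_⟩
    · obtain ⟨h1, h2, h3⟩ := mem_away.mp hp
      rw [← key2 _ h2, ← key2 _ h3]
      exact h p h1
    · obtain ⟨h1, -⟩ := mem_touch.mp hp
      rw [← key, ← key]
      exact h p h1
  · rintro ⟨h1, h2⟩ p hp
    by_cases h : p.1 ∈ X ∨ p.2 ∈ X
    · rw [key, key]
      exact h2 p (mem_touch.mpr ⟨hp, h⟩)
    · push Not at h
      rw [key2 _ h.1, key2 _ h.2]
      exact h1 p (mem_away.mpr ⟨hp, h⟩)

/-- Fubini for the hammock polytope with an event depending on `Q` only. -/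
theorem vol_ham_split (hF : F = X ∪ Q) (hd : Disjoint X Q) {A : Set (Q → ℝ)}
    (hA : MeasurableSet A) :
    volume (ham F E ξ ∩ {x | (fun q : Q => ext F ξ x q) ∈ A}) =
      ∫⁻ y in ham Q (away X E) ξ ∩ A, volume (ham X (touch X E) (ext Q ξ y)) := by
  have hm : MeasurableSet (ham F E ξ ∩ {x | (fun q : Q => ext F ξ x q) ∈ A}) := by
    refine measurableSet_ham.inter ?_
    have : Measurable fun x : F → ℝ => (fun q : Q => ext F ξ x q) :=
      measurable_pi_lambda _ fun q => (continuous_ext (q : U)).measurable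
    exact this hA
  rw [vol_split hF hd hm, ← lintegral_indicator (measurableSet_ham.inter hA)]
  refine lintegral_congr fun y => ?_
  have hq : ∀ x : X → ℝ, (fun q : Q => ext F ξ (join F X Q (y, x)) q) = y := by
    intro x
    funext q
    rw [ext_join_Q hF (y, x) q.2]
  by_cases hy : y ∈ ham Q (away X E) ξ ∩ A
  · rw [indicator_of_mem hy]
    congr 1
    ext x
    simp only [mem_ofPred_eq, mem_inter_iff, mem_ham_join hF hd, hq]
    exact ⟨fun h => h.1.2, fun h => ⟨⟨hy.1, h⟩, hy.2⟩⟩
  · rw [indicator_of_notMem hy]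
    have : {x : X → ℝ | join F X Q (y, x) ∈ ham F E ξ ∩ {x | (fun q : Q => ext F ξ x q) ∈ A}} =
        ∅ := by
      rw [Set.eq_empty_iff_forall_notMem]
      intro x hx
      simp only [mem_ofPred_eq, mem_inter_iff, mem_ham_join hF hd, hq] at hx
      exact hy ⟨hx.1.1, hx.2⟩
    rw [this, measure_empty]

end Crest.Agent.R144.LC121
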