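import Mathlib
import Crest.Agent.R144.LC1_121

/-!
# R144 (helper121): local comparison, part 2: volumes as functions of the data

* `vol_ham_ff`: supermodularity in the data (four functions theorem);
* `vol_ham_le_zero`, `vol_ham_add_const`;
* `vol_layer`: the layer lemma;
* `vol_compare`: small data on `B` are almost optimal, whatever the other data with `|·| ≤ 1/2`.
-/

set_option autoImplicit false

open MeasureTheory Set
open scoped ENNReal

noncomputable section

namespace Crest.Agent.R144.LC121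

open Crest.Agent.R144.Ham560 Crest.Agent.R144.LcB460

variable {U : Type*} [DecidableEq U] {X B : Finset U} {E : Finset (U × U)} {η η' : U → ℝ}

theorem ham_congr (h : ∀ u, u ∉ X → η u = η' u) : ham X E η = ham X E η' := by
  have key : ∀ (x : X → ℝ) (u : U), Ham560.ext X η x u = Ham560.ext X η' x u := by
    intro x u
    by_cases hu : u ∈ X
    · rw [ext_mem hu, ext_mem hu]
    · rw [ext_notMem hu, ext_notMem hu, h u hu]
  unfold ham
  simp only [key]

theorem abs_inf_sub_inf_le {a b c d : ℝ} (h1 : |a - b| ≤ 1) (h2 : |c - d| ≤ 1) :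
    |a ⊓ c - b ⊓ d| ≤ 1 := by
  exact (abs_min_sub_min_le_max a c b d).trans (max_le h1 h2)

theorem abs_sup_sub_sup_le {a b c d : ℝ} (h1 : |a - b| ≤ 1) (h2 : |c - d| ≤ 1) :
    |a ⊔ c - b ⊔ d| ≤ 1 := by
  exact (abs_max_sub_max_le_max a c b d).trans (max_le h1 h2)

theorem ext_inf (x y : X → ℝ) (u : U) :
    Ham560.ext X (η ⊓ η') (x ⊓ y) u = Ham560.ext X η x u ⊓ Ham560.ext X η' y u := by
  by_cases hu : u ∈ X
  · rw [ext_mem hu, ext_mem hu, ext_mem hu]; rfl
  · rw [ext_notMem hu, ext_notMem hu, ext_notMem hu]; rfl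

theorem ext_sup (x y : X → ℝ) (u : U) :
    Ham560.ext X (η ⊔ η') (x ⊔ y) u = Ham560.ext X η x u ⊔ Ham560.ext X η' y u := by
  by_cases hu : u ∈ X
  · rw [ext_mem hu, ext_mem hu, ext_mem hu]; rfl
  · rw [ext_notMem hu, ext_notMem hu, ext_notMem hu]; rfl

theorem ham_inf {x y : X → ℝ} (hx : x ∈ ham X E η) (hy : y ∈ ham X E η') :
    x ⊓ y ∈ ham X E (η ⊓ η') := by
  intro p hp
  rw [ext_inf, ext_inf]
  exact abs_inf_sub_inf_le (hx p hp) (hy p hp)

theorem ham_sup {x y : X → ℝ} (hx : x ∈ ham X E η) (hy : y ∈ ham X E η') :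
    x ⊔ y ∈ ham X E (η ⊔ η') := by
  intro p hp
  rw [ext_sup, ext_sup]
  exact abs_sup_sub_sup_le (hx p hp) (hy p hp)

/-- Supermodularity of the volume in the data. -/
theorem vol_ham_ff : volume (ham X E η) * volume (ham X E η') ≤
    volume (ham X E (η ⊓ η')) * volume (ham X E (η ⊔ η')) :=
  FF121.vol_ff measurableSet_ham measurableSet_ham measurableSet_ham measurableSet_ham
    fun _ hx _ hy => ⟨ham_inf hx hy, ham_sup hx hy⟩

/-- Zero data maximise the volume. -/
theorem vol_ham_le_zero : volume (ham X E η) ≤ volume (ham X E 0) := by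
  refine vol_le_of_half measurableSet_ham measurableSet_ham fun x hx y hy => ?_
  have e0 : (1 / 2 : ℝ) • η + (1 / 2 : ℝ) • (-η) = 0 := by
    rw [smul_neg]; exact add_neg_cancel _
  have := ham_comb (a := 1 / 2) (b := 1 / 2) (by norm_num) (by norm_num) (by norm_num) hx
    (ham_neg hy)
  rw [e0, smul_neg, ← sub_eq_add_neg] at this
  exact this

theorem vol_ham_add_const (k : ℝ) :
    volume (ham X E (fun u => η u + k)) = volume (ham X E η) := by
  have key : ∀ (x : X → ℝ) (u : U),
      Ham560.ext X (fun u => η u + k) (x + fun _ => k) u = Ham560.ext X η x u + k := by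
    intro x u
    by_cases hu : u ∈ X
    · rw [ext_mem hu, ext_mem hu]; rfl
    · rw [ext_notMem hu, ext_notMem hu]
  have : ham X E η = (fun x => x + fun _ => k) ⁻¹' (ham X E (fun u => η u + k)) := by
    ext x
    simp only [ham, mem_preimage, mem_ofPred_eq, key]
    refine forall₂_congr fun p _ => ?_
    rw [add_sub_add_right_eq_sub]
  rw [this, measure_preimage_add_right]

theorem vol_ham_const (k : ℝ) : volume (ham X E (fun _ => k)) = volume (ham X E 0) := by
  have := vol_ham_add_const (X := X) (E := E) (η := 0) k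
  simpa using this

/-- The vertices of `X` next to `B`. -/
def lay (X : Finset U) (E : Finset (U × U)) (B : Finset U) : Finset U :=
  X.filter fun x => ∃ u ∈ B, u ∈ nbr E x

theorem lay_subset : lay X E B ⊆ X := Finset.filter_subset _ _

/-- Layer lemma. -/
theorem vol_layer (hE : ∀ p ∈ E, p.1 ∈ X ∨ p.2 ∈ X) (hBX : Disjoint B X) {k r : ℝ}
    (hr0 : 0 ≤ r) (hr1 : r < 1) (h1 : ∀ u, u ∉ X → u ∉ B → η u = k)
    (h2 : ∀ u ∈ B, |η u - k| ≤ r) :
    ENNReal.ofReal (1 - r) ^ (lay X E B).card * volume (ham X E 0) ≤ volume (ham X E η) := by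
  have hBX' : ∀ u ∈ B, u ∉ X := fun u hu => Finset.disjoint_left.mp hBX hu
  have hpin := pin_near (F := X) (K := ham X E 0) convex_ham
    (fun x hx => by simpa using ham_neg hx) measurableSet_ham (lay_subset (X := X) (E := E) (B := B))
    (n := 1) (e := 1 - r) (by linarith) (by linarith) (fun x hx y hy => by
      obtain ⟨-, u, hu, hun⟩ := Finset.mem_filter.mp hy
      have h3 := ham_nbr hx hun
      rw [ext_mem y.2, ext_notMem (hBX' u hu)] at h3
      simpa using h3)
  rw [div_one] at hpin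
  refine hpin.trans ?_
  have e1 : volume (ham X E η) = volume (ham X E (fun u => η u - k)) := by
    have := vol_ham_add_const (X := X) (E := E) (η := fun u => η u - k) k
    rw [← this]
    simp
  rw [e1]
  refine measure_mono ?_
  rintro x ⟨hx, hn⟩ p hp
  -- value at a non-X vertex
  have hval : ∀ u v : U, u ∈ X → v ∉ X → v ∈ nbr E u →
      |Ham560.ext X 0 x u - Ham560.ext X 0 x v| ≤ 1 →
      |Ham560.ext X (fun u => η u - k) x u - Ham560.ext X (fun u => η u - k) x v| ≤ 1 := by
    intro u v hu hv hnb h0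
    rw [ext_mem hu, ext_notMem hv] at h0 ⊢
    by_cases hvB : v ∈ B
    · have h3 := hn ⟨u, hu⟩ (Finset.mem_filter.mpr ⟨hu, v, hvB, hnb⟩)
      simp only [Pi.zero_apply, sub_zero] at h3
      have h4 := abs_le.mp (h2 v hvB)
      have h5 := abs_le.mp h3
      rw [abs_le]; constructor <;> linarith
    · rw [h1 v hv hvB, sub_self]
      simpa using h0
  have h0 := hx p hp
  by_cases hp1 : p.1 ∈ X
  · by_cases hp2 : p.2 ∈ X
    · rw [ext_mem hp1, ext_mem hp2] at h0 ⊢
      exact h0
    · have hne : p.2 ≠ p.1 := fun h => hp2 (h ▸ hp1)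
      exact hval _ _ hp1 hp2 (mem_nbr.mpr ⟨hne, Or.inl hp⟩) h0
  · have hp2 : p.2 ∈ X := (hE p hp).resolve_left hp1
    have hne : p.1 ≠ p.2 := fun h => hp1 (h ▸ hp2)
    rw [abs_sub_comm] at h0 ⊢
    exact hval _ _ hp2 hp1 (mem_nbr.mpr ⟨hne, Or.inr hp⟩) h0

/-- Cancellation. -/
theorem cancel_aux {a b c z : ℝ≥0∞} (hz0 : z ≠ 0) (hz : z ≠ ∞) (h : a * (c * z) ≤ b * z) :
    c * a ≤ b := by
  have h1 : c * a * z ≤ b * z := by
    calc c * a * z = a * (c * z) := by ring
      _ ≤ b * z := h
  exact (ENNReal.mul_le_mul_iff_left hz0 hz).1 h1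

theorem vol_compare_aux (hA : Anch X E) (hE : ∀ p ∈ E, p.1 ∈ X ∨ p.2 ∈ X) (hBX : Disjoint B X)
    (h1 : ∀ u ∈ B, |η' u| ≤ 1 / 8) (h2 : ∀ u, |η' u| ≤ 1 / 2) (h2' : ∀ u, |η u| ≤ 1 / 2)
    (h3 : ∀ u, u ∉ B → η u = η' u) :
    ENNReal.ofReal (3 / 8) ^ (lay X E B).card *
      (ENNReal.ofReal (3 / 8) ^ (lay X E B).card * volume (ham X E η)) ≤
      volume (ham X E η') := by
  set c : ℝ≥0∞ := ENNReal.ofReal (3 / 8) ^ (lay X E B).card with hc
  have hfin : ∀ ζ : U → ℝ, volume (ham X E ζ) ≠ ∞ := fun ζ => (volume_ham_lt_top hA).ne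
  have h38 : ENNReal.ofReal (1 - 5 / 8) = ENNReal.ofReal (3 / 8) := by norm_num
  -- upper auxiliary data
  set βA : U → ℝ := fun u => if u ∈ B then η u else 1 / 2 with hβA
  set zA : U → ℝ := fun u => if u ∈ B then η u ⊓ η' u else 1 / 2 with hzA
  set v : U → ℝ := fun u => if u ∈ B then (if η' u < η u then η u else 1 / 2) else 1 / 2 with hv
  set w : U → ℝ := fun u => if u ∈ B then (if η' u < η u then η' u else 1 / 2) else 1 / 2 with hw
  have b1 : ∀ u, η u ≤ 1 / 2 := fun u => (abs_le.mp (h2' u)).2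
  have b2 : ∀ u, -(1 / 2) ≤ η u := fun u => (abs_le.mp (h2' u)).1
  have b3 : ∀ u, η' u ≤ 1 / 2 := fun u => (abs_le.mp (h2 u)).2
  have b4 : ∀ u, -(1 / 2) ≤ η' u := fun u => (abs_le.mp (h2 u)).1
  have e1 : η ⊓ zA = η ⊓ η' := by
    funext u
    simp only [Pi.inf_apply, hzA]
    by_cases hu : u ∈ B
    · rw [if_pos hu, ← inf_assoc, inf_idem]
    · rw [if_neg hu, inf_eq_left.mpr (b1 u), ← h3 u hu, inf_idem]
  have e2 : η ⊔ zA = βA := by
    funext u
    simp only [Pi.sup_apply, hzA, hβA]
    by_cases hu : u ∈ B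
    · rw [if_pos hu, if_pos hu, sup_inf_self]
    · rw [if_neg hu, if_neg hu, sup_eq_right.mpr (b1 u)]
  have e3 : βA ⊓ w = zA := by
    funext u
    simp only [Pi.inf_apply, hzA, hβA, hw]
    by_cases hu : u ∈ B
    · rw [if_pos hu, if_pos hu, if_pos hu]
      by_cases hlt : η' u < η u
      · rw [if_pos hlt]
      · rw [if_neg hlt, inf_eq_left.mpr (b1 u), inf_eq_left.mpr (not_lt.mp hlt)]
    · rw [if_neg hu, if_neg hu, if_neg hu, inf_idem]
  have e4 : βA ⊔ w = v := by
    funext u
    simp only [Pi.sup_apply, hv, hβA, hw]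
    by_cases hu : u ∈ B
    · rw [if_pos hu, if_pos hu, if_pos hu]
      by_cases hlt : η' u < η u
      · rw [if_pos hlt, if_pos hlt, sup_eq_left.mpr hlt.le]
      · rw [if_neg hlt, if_neg hlt, sup_eq_right.mpr (b1 u)]
    · rw [if_neg hu, if_neg hu, if_neg hu, sup_idem]
  have i1 : volume (ham X E η) * volume (ham X E zA) ≤
      volume (ham X E (η ⊓ η')) * volume (ham X E βA) := by
    have := vol_ham_ff (X := X) (E := E) (η := η) (η' := zA)
    rwa [e1, e2] at this
  have i2 : volume (ham X E βA) * volume (ham X E w) ≤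
      volume (ham X E zA) * volume (ham X E v) := by
    have := vol_ham_ff (X := X) (E := E) (η := βA) (η' := w)
    rwa [e3, e4] at this
  have i3 : c * volume (ham X E 0) ≤ volume (ham X E w) := by
    have := vol_layer (X := X) (B := B) (E := E) (η := w) (k := 1 / 2) (r := 5 / 8) hE hBX
      (by norm_num) (by norm_num) (fun u _ hu => by simp only [hw, if_neg hu]) (fun u hu => by
        simp only [hw, if_pos hu]
        have h4 := abs_le.mp (h1 u hu)
        by_cases hlt : η' u < η u
        · rw [if_pos hlt, abs_le]; constructor <;> linarith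
        · rw [if_neg hlt, sub_self, abs_zero]; norm_num)
    rwa [h38] at this
  have hZ0 : volume (ham X E 0) ≠ 0 := volume_ham_ne_zero fun u => by simp
  have hβA0 : volume (ham X E βA) ≠ 0 := volume_ham_ne_zero fun u => by
    simp only [hβA]
    by_cases hu : u ∈ B
    · rw [if_pos hu]; exact h2' u
    · rw [if_neg hu]; norm_num
  have i4 : c * volume (ham X E βA) ≤ volume (ham X E zA) := by
    refine cancel_aux hZ0 (hfin 0) ?_
    calc volume (ham X E βA) * (c * volume (ham X E 0))
        ≤ volume (ham X E βA) * volume (ham X E w) := by gcongr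
      _ ≤ volume (ham X E zA) * volume (ham X E v) := i2
      _ ≤ volume (ham X E zA) * volume (ham X E 0) := mul_le_mul' le_rfl vol_ham_le_zero
  have i5 : c * volume (ham X E η) ≤ volume (ham X E (η ⊓ η')) := by
    refine cancel_aux hβA0 (hfin βA) ?_
    calc volume (ham X E η) * (c * volume (ham X E βA))
        ≤ volume (ham X E η) * volume (ham X E zA) := by gcongr
      _ ≤ _ := i1
  -- lower auxiliary data
  set bm : U → ℝ := fun u => if u ∈ B then η' u else -(1 / 2) with hbm
  set zm : U → ℝ := fun u => if u ∈ B then η u ⊓ η' u else -(1 / 2) with hzm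
  set w' : U → ℝ := fun u => if u ∈ B then (if η' u < η u then -(1 / 2) else η' u) else -(1 / 2)
    with hw'
  set v' : U → ℝ := fun u => if u ∈ B then (if η' u < η u then -(1 / 2) else η u) else -(1 / 2)
    with hv'
  have f1 : bm ⊓ (η ⊓ η') = zm := by
    funext u
    simp only [Pi.inf_apply, hzm, hbm]
    by_cases hu : u ∈ B
    · rw [if_pos hu, if_pos hu, inf_comm (η u), ← inf_assoc, inf_idem]
    · rw [if_neg hu, if_neg hu, ← h3 u hu, inf_idem, inf_eq_left.mpr (b2 u)]
  have f2 : bm ⊔ (η ⊓ η') = η' := by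
    funext u
    simp only [Pi.sup_apply, Pi.inf_apply, hbm]
    by_cases hu : u ∈ B
    · rw [if_pos hu, inf_comm, sup_inf_self]
    · rw [if_neg hu, ← h3 u hu, inf_idem, sup_eq_right.mpr (b2 u)]
  have f3 : w' ⊓ zm = v' := by
    funext u
    simp only [Pi.inf_apply, hzm, hw', hv']
    by_cases hu : u ∈ B
    · rw [if_pos hu, if_pos hu, if_pos hu]
      by_cases hlt : η' u < η u
      · rw [if_pos hlt, if_pos hlt, inf_eq_right.mpr hlt.le, inf_eq_left.mpr (b4 u)]
      · rw [if_neg hlt, if_neg hlt, inf_eq_left.mpr (not_lt.mp hlt),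
          inf_eq_right.mpr (not_lt.mp hlt)]
    · rw [if_neg hu, if_neg hu, if_neg hu, inf_idem]
  have f4 : w' ⊔ zm = bm := by
    funext u
    simp only [Pi.sup_apply, hzm, hw', hbm]
    by_cases hu : u ∈ B
    · rw [if_pos hu, if_pos hu, if_pos hu]
      by_cases hlt : η' u < η u
      · rw [if_pos hlt, inf_eq_right.mpr hlt.le, sup_eq_right.mpr (b4 u)]
      · rw [if_neg hlt, inf_eq_left.mpr (not_lt.mp hlt), sup_eq_left.mpr (not_lt.mp hlt)]
    · rw [if_neg hu, if_neg hu, if_neg hu, sup_idem]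
  have j1 : volume (ham X E bm) * volume (ham X E (η ⊓ η')) ≤
      volume (ham X E zm) * volume (ham X E η') := by
    have := vol_ham_ff (X := X) (E := E) (η := bm) (η' := η ⊓ η')
    rwa [f1, f2] at this
  have j2 : volume (ham X E w') * volume (ham X E zm) ≤
      volume (ham X E v') * volume (ham X E bm) := by
    have := vol_ham_ff (X := X) (E := E) (η := w') (η' := zm)
    rwa [f3, f4] at this
  have j3 : c * volume (ham X E 0) ≤ volume (ham X E w') := by
    have := vol_layer (X := X) (B := B) (E := E) (η := w') (k := -(1 / 2)) (r := 5 / 8) hE hBX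
      (by norm_num) (by norm_num) (fun u _ hu => by simp only [hw', if_neg hu]) (fun u hu => by
        simp only [hw', if_pos hu]
        have h4 := abs_le.mp (h1 u hu)
        by_cases hlt : η' u < η u
        · rw [if_pos hlt, sub_self, abs_zero]; norm_num
        · rw [if_neg hlt, abs_le]; constructor <;> linarith)
    rwa [h38] at this
  have hzm0 : volume (ham X E zm) ≠ 0 := volume_ham_ne_zero fun u => by
    simp only [hzm]
    by_cases hu : u ∈ B
    · rw [if_pos hu, abs_le]
      exact ⟨le_inf (b2 u) (b4 u), inf_le_left.trans (b1 u)⟩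
    · rw [if_neg hu, abs_neg]; norm_num
  have j4 : c * volume (ham X E zm) ≤ volume (ham X E bm) := by
    refine cancel_aux hZ0 (hfin 0) ?_
    calc volume (ham X E zm) * (c * volume (ham X E 0))
        ≤ volume (ham X E zm) * volume (ham X E w') := by gcongr
      _ = volume (ham X E w') * volume (ham X E zm) := mul_comm _ _
      _ ≤ volume (ham X E v') * volume (ham X E bm) := j2
      _ ≤ volume (ham X E 0) * volume (ham X E bm) := mul_le_mul' vol_ham_le_zero le_rfl
      _ = _ := mul_comm _ _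
  have j5 : c * volume (ham X E (η ⊓ η')) ≤ volume (ham X E η') := by
    refine cancel_aux hzm0 (hfin zm) ?_
    calc volume (ham X E (η ⊓ η')) * (c * volume (ham X E zm))
        ≤ volume (ham X E (η ⊓ η')) * volume (ham X E bm) := by gcongr
      _ = volume (ham X E bm) * volume (ham X E (η ⊓ η')) := mul_comm _ _
      _ ≤ volume (ham X E zm) * volume (ham X E η') := j1
      _ = _ := mul_comm _ _
  calc c * (c * volume (ham X E η)) ≤ c * volume (ham X E (η ⊓ η')) := by gcongr
    _ ≤ _ := j5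

/-- Truncation of the data. -/
theorem vol_trunc (hA : Anch X E) :
    volume (ham X E η) ≤ volume (ham X E (fun u => max (-(1 / 2)) (min (1 / 2) (η u)))) := by
  have hfin : ∀ ζ : U → ℝ, volume (ham X E ζ) ≠ ∞ := fun ζ => (volume_ham_lt_top hA).ne
  have hZ0 : volume (ham X E 0) ≠ 0 := volume_ham_ne_zero fun u => by simp
  have s1 : volume (ham X E η) ≤ volume (ham X E (η ⊓ fun _ => 1 / 2)) := by
    have h := vol_ham_ff (X := X) (E := E) (η := η) (η' := fun _ => 1 / 2)
    rw [vol_ham_const] at h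
    have h2 : volume (ham X E η) * volume (ham X E 0) ≤
        volume (ham X E (η ⊓ fun _ => 1 / 2)) * volume (ham X E 0) :=
      h.trans (mul_le_mul' le_rfl vol_ham_le_zero)
    exact (ENNReal.mul_le_mul_iff_left hZ0 (hfin 0)).1 h2
  have s2 : volume (ham X E (η ⊓ fun _ => 1 / 2)) ≤
      volume (ham X E ((η ⊓ fun _ => 1 / 2) ⊔ fun _ => -(1 / 2))) := by
    have h := vol_ham_ff (X := X) (E := E) (η := η ⊓ fun _ => 1 / 2) (η' := fun _ => -(1 / 2))
    rw [vol_ham_const] at h
    have h2 : volume (ham X E (η ⊓ fun _ => 1 / 2)) * volume (ham X E 0) ≤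
        volume (ham X E ((η ⊓ fun _ => 1 / 2) ⊔ fun _ => -(1 / 2))) * volume (ham X E 0) := by
      refine h.trans ?_
      rw [mul_comm]
      exact mul_le_mul' le_rfl vol_ham_le_zero
    exact (ENNReal.mul_le_mul_iff_left hZ0 (hfin 0)).1 h2
  refine (s1.trans s2).trans (le_of_eq ?_)
  congr 2
  funext u
  simp only [Pi.sup_apply, Pi.inf_apply]
  rw [sup_comm, inf_comm]

/-- Comparison of data: `η'` small on `B`, bounded by `1/2` elsewhere, `η` arbitrary on `B`. -/
theorem vol_compare (hA : Anch X E) (hE : ∀ p ∈ E, p.1 ∈ X ∨ p.2 ∈ X) (hBX : Disjoint B X)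
    (h1 : ∀ u ∈ B, |η' u| ≤ 1 / 8) (h2 : ∀ u, u ∉ X → |η' u| ≤ 1 / 2)
    (h3 : ∀ u, u ∉ X → u ∉ B → η u = η' u) :
    ENNReal.ofReal (3 / 8) ^ (2 * (lay X E B).card) * volume (ham X E η) ≤
      volume (ham X E η') := by
  -- replace the data on `X` by `0`
  set ζ : U → ℝ := fun u => if u ∈ X then 0 else η u with hζ
  set ζ' : U → ℝ := fun u => if u ∈ X then 0 else η' u with hζ'
  have e1 : ham X E η = ham X E ζ := ham_congr fun u hu => by simp [hζ, hu]
  have e2 : ham X E η' = ham X E ζ' := ham_congr fun u hu => by simp [hζ', hu]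
  have hb : ∀ u, |ζ' u| ≤ 1 / 2 := by
    intro u
    simp only [hζ']
    by_cases hu : u ∈ X
    · rw [if_pos hu, abs_zero]; norm_num
    · rw [if_neg hu]; exact h2 u hu
  rw [e1, e2, two_mul, pow_add, mul_assoc]
  set τ : U → ℝ := fun u => max (-(1 / 2)) (min (1 / 2) (ζ u)) with hτ
  have key := vol_compare_aux (X := X) (B := B) (E := E) (η := τ) (η' := ζ') hA hE hBX ?_ hb ?_ ?_
  · refine le_trans ?_ key
    exact mul_le_mul' le_rfl (mul_le_mul' le_rfl (vol_trunc hA))
  · intro u hu
    have hX : u ∉ X := Finset.disjoint_left.mp hBX hu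
    simp only [hζ', if_neg hX]
    exact h1 u hu
  · intro u
    simp only [hτ]
    rw [abs_le]
    exact ⟨le_max_left _ _, max_le (by norm_num) (min_le_left _ _)⟩
  · intro u hu
    have e3 : ζ u = ζ' u := by
      simp only [hζ, hζ']
      by_cases hX : u ∈ X
      · rw [if_pos hX, if_pos hX]
      · rw [if_neg hX, if_neg hX, h3 u hX hu]
    have h4 := abs_le.mp (hb u)
    simp only [hτ]
    rw [e3, min_eq_right h4.2, max_eq_right h4.1]

end Crest.Agent.R144.LC121
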