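import Mathlib
import Crest.Agent.R144.LC2_121

/-!
# R144 (helper121): local comparison, part 3

* `Anch.touch`, `vol_forest`;
* `ham_congr_edge`;
* `upper_split`, `lower_split`: conditioning on `Q`;
* `LC_bdry`: comparison of the law on `F` with the law on `Q` with free outer side.
-/

set_option autoImplicit false

open MeasureTheory Set
open scoped ENNReal

noncomputable section

namespace Crest.Agent.R144.LC121

open Crest.Agent.R144.Ham560 Crest.Agent.R144.LcB460

variable {U : Type*} [DecidableEq U] {F X Q Q0 B : Finset U} {E : Finset (U × U)}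
  {ξ η η' : U → ℝ}

theorem nbr_touch {v w : U} (hv : v ∈ X) : w ∈ nbr (touch X E) v ↔ w ∈ nbr E v := by
  rw [mem_nbr, mem_nbr, mem_touch, mem_touch]
  constructor
  · rintro ⟨h1, h2 | h2⟩
    · exact ⟨h1, Or.inl h2.1⟩
    · exact ⟨h1, Or.inr h2.1⟩
  · rintro ⟨h1, h2 | h2⟩
    · exact ⟨h1, Or.inl ⟨h2, Or.inl hv⟩⟩
    · exact ⟨h1, Or.inr ⟨h2, Or.inr hv⟩⟩

/-- Sub-regions of an anchored region are anchored. -/
theorem Anch.touch (hA : Anch F E) (hX : X ⊆ F) : Anch X (touch X E) := by
  intro v hv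
  obtain ⟨u, hu, hp⟩ := hA v (hX hv)
  have huX : u ∉ X := fun h => hu (hX h)
  clear hu
  induction hp using Relation.ReflTransGen.head_induction_on with
  | refl => exact absurd hv huX
  | @head a b hab _ ih =>
    by_cases hb : b ∈ X
    · obtain ⟨w, hw, hp⟩ := ih hb
      exact ⟨w, hw, Relation.ReflTransGen.head ((nbr_touch hv).2 hab) hp⟩
    · exact ⟨b, hb, Relation.ReflTransGen.single ((nbr_touch hv).2 hab)⟩

/-- Data matter only at the endpoints of the edges. -/
theorem ham_congr_edge (h : ∀ p ∈ E, (p.1 ∉ X → η p.1 = η' p.1) ∧ (p.2 ∉ X → η p.2 = η' p.2)) :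
    ham X E η = ham X E η' := by
  ext x
  unfold ham
  simp only [mem_ofPred_eq]
  refine forall₂_congr fun p hp => ?_
  have key : ∀ u, (u ∉ X → η u = η' u) → Ham560.ext X η x u = Ham560.ext X η' x u := by
    intro u hu
    by_cases h : u ∈ X
    · rw [ext_mem h, ext_mem h]
    · rw [ext_notMem h, ext_notMem h, hu h]
  rw [key _ (h p hp).1, key _ (h p hp).2]

/-- A forest of free vertices: volume at most `2 ^ |B|`. -/
theorem vol_forest : ∀ (n : ℕ) (B : Finset U) (E : Finset (U × U)) (ξ : U → ℝ), B.card = n →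
    Anch B E → volume (ham B E ξ) ≤ 2 ^ n := by
  intro n
  induction n with
  | zero =>
    intro B E ξ hB _
    have hB' : B = ∅ := Finset.card_eq_zero.mp hB
    subst hB'
    have : IsEmpty (↥(∅ : Finset U)) := ⟨fun x => absurd x.2 (Finset.notMem_empty _)⟩
    have hv : volume (Set.univ : Set (↥(∅ : Finset U) → ℝ)) = 1 := by
      rw [volume_pi, Measure.pi_of_empty _ isEmptyElim]
      simp
    rw [pow_zero, ← hv]
    exact measure_mono (subset_univ _)
  | succ n ih =>
    intro B E ξ hB hA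
    -- a vertex of `B` with a neighbour outside `B`
    have hne : B.Nonempty := by
      rw [← Finset.card_pos, hB]; omega
    obtain ⟨w, hw⟩ := hne
    obtain ⟨u, hu, hp⟩ := hA w hw
    obtain ⟨v, hv, u', hu', hvu⟩ : ∃ v ∈ B, ∃ u', u' ∉ B ∧ u' ∈ nbr E v := by
      clear ih hB
      induction hp using Relation.ReflTransGen.head_induction_on with
      | refl => exact absurd hw hu
      | @head a b hab _ ih =>
        by_cases hb : b ∈ B
        · exact ih hb
        · exact ⟨a, hw, b, hb, hab⟩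
    set Y : Finset U := B.erase v with hY
    have hYB : B = Y ∪ {v} := by
      rw [hY]
      ext a
      simp only [Finset.mem_union, Finset.mem_erase, Finset.mem_singleton]
      constructor
      · intro h
        by_cases hav : a = v
        · exact Or.inr hav
        · exact Or.inl ⟨hav, h⟩
      · rintro (h | h)
        · exact h.2
        · exact h ▸ hv
    have hd : Disjoint Y {v} := by
      rw [Finset.disjoint_singleton_right, hY]
      exact Finset.notMem_erase v B
    have hYc : Y.card = n := by rw [hY, Finset.card_erase_of_mem hv, hB]; rfl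
    have hYA : Anch Y (LC121.touch Y E) := Anch.touch hA (Finset.erase_subset _ _)
    have hsp := vol_ham_split (F := B) (X := Y) (Q := {v}) (E := E) (ξ := 0) hYB hd
      (A := Set.univ) MeasurableSet.univ
    simp only [mem_univ, inter_univ, ofPred_true] at hsp
    refine vol_ham_le_zero.trans ?_
    rw [hsp]
    have h1 : ∀ y : ({v} : Finset U) → ℝ, volume (ham Y (LC121.touch Y E)
        (Ham560.ext {v} 0 y)) ≤ 2 ^ n := fun y => ih Y _ _ hYc hYA
    have h2 : volume (ham {v} (away Y E) (0 : U → ℝ)) ≤ 2 := by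
      have hsub : ham {v} (away Y E) (0 : U → ℝ) ⊆
          Set.univ.pi fun _ : ({v} : Finset U) => Set.Icc (-1 : ℝ) 1 := by
        intro y hy a _
        have hav : (a : U) = v := Finset.mem_singleton.mp a.2
        have hvY : v ∉ Y := Finset.notMem_erase v B
        have huY : u' ∉ Y := fun h => hu' (Finset.mem_of_mem_erase h)
        have hnb : u' ∈ nbr (away Y E) v := by
          rw [mem_nbr] at hvu ⊢
          refine ⟨hvu.1, ?_⟩
          rcases hvu.2 with h | h
          · exact Or.inl (mem_away.mpr ⟨h, hvY, huY⟩)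
          · exact Or.inr (mem_away.mpr ⟨h, huY, hvY⟩)
        have h3 := ham_nbr hy hnb
        have huv : u' ∉ ({v} : Finset U) := by
          rw [Finset.mem_singleton]; rintro rfl; exact hu' hv
        rw [ext_mem (Finset.mem_singleton_self v), ext_notMem huv] at h3
        have ha : a = ⟨v, Finset.mem_singleton_self v⟩ := Subtype.ext hav
        rw [ha]
        simpa [abs_le] using h3
      refine (measure_mono hsub).trans ?_
      rw [volume_pi_pi]
      simp only [Real.volume_Icc]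
      rw [Finset.prod_const]
      simp
      norm_num
    calc ∫⁻ y in ham {v} (away Y E) 0, volume (ham Y (LC121.touch Y E)
          (Ham560.ext {v} 0 y)) ≤ ∫⁻ _ in ham {v} (away Y E) (0 : U → ℝ), (2 : ℝ≥0∞) ^ n :=
          lintegral_mono fun y => h1 y
      _ = 2 ^ n * volume (ham {v} (away Y E) (0 : U → ℝ)) := by
          rw [setLIntegral_const]
      _ ≤ 2 ^ n * 2 := mul_le_mul' le_rfl h2
      _ = 2 ^ (n + 1) := by rw [pow_succ]

/-- A region `F = X ∪ Q0 ∪ B` in which `B` separates `X` from `Q0`. -/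
structure Sep (F X Q0 B : Finset U) (E : Finset (U × U)) : Prop where
  hF : F = X ∪ (Q0 ∪ B)
  dX : Disjoint X (Q0 ∪ B)
  dQ : Disjoint Q0 B
  sep : ∀ p ∈ E, ¬ (p.1 ∈ X ∧ p.2 ∈ Q0) ∧ ¬ (p.1 ∈ Q0 ∧ p.2 ∈ X)

/-- Reference data: `0` on the free vertices. -/
def base (F : Finset U) (ξ : U → ℝ) (u : U) : ℝ := if u ∈ F then 0 else ξ u

theorem abs_base_le (hξ : ∀ u, u ∉ F → |ξ u| ≤ 1 / 2) (u : U) : |base F ξ u| ≤ 1 / 2 := by
  unfold base
  split_ifs with h
  · norm_num
  · exact hξ u h

/-- The constant of the outer side. -/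
def cX (X : Finset U) (E : Finset (U × U)) (B : Finset U) : ℝ≥0∞ :=
  ENNReal.ofReal (3 / 8) ^ (2 * (lay X (touch X E) B).card)

/-- The restriction of a configuration to `Q`. -/
def res (Q : Finset U) (F : Finset U) (ξ : U → ℝ) (x : F → ℝ) : Q → ℝ :=
  fun q => Ham560.ext F ξ x q

theorem ham_dat (h : Sep F X Q0 B E) (y : (Q0 ∪ B : Finset U) → ℝ) :
    ham X (touch X E) (Ham560.ext (Q0 ∪ B) ξ y) =
      ham X (touch X E) (fun u => if u ∈ B then Ham560.ext (Q0 ∪ B) ξ y u else base F ξ u) := by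
  refine ham_congr_edge fun p hp => ?_
  obtain ⟨hpE, hpX⟩ := mem_touch.mp hp
  have main : ∀ u, u ∉ X → u ∉ Q0 → Ham560.ext (Q0 ∪ B) ξ y u =
      if u ∈ B then Ham560.ext (Q0 ∪ B) ξ y u else base F ξ u := by
    intro u hX hQ
    by_cases hB : u ∈ B
    · rw [if_pos hB]
    · have h1 : u ∉ Q0 ∪ B := by rw [Finset.mem_union]; tauto
      have h2 : u ∉ F := by rw [h.hF, Finset.mem_union]; tauto
      rw [if_neg hB, ext_notMem h1, base, if_neg h2]
  obtain ⟨s1, s2⟩ := h.sep p hpE
  constructor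
  · intro h1
    exact main _ h1 fun hQ => s2 ⟨hQ, hpX.resolve_left h1⟩
  · intro h2
    exact main _ h2 fun hQ => s1 ⟨hpX.resolve_right h2, hQ⟩

theorem outer_le (h : Sep F X Q0 B E) (hA : Anch F E) (hξ : ∀ u, u ∉ F → |ξ u| ≤ 1 / 2)
    (y : (Q0 ∪ B : Finset U) → ℝ) :
    cX X E B * volume (ham X (touch X E) (Ham560.ext (Q0 ∪ B) ξ y)) ≤
      volume (ham X (touch X E) (base F ξ)) := by
  rw [ham_dat h]
  have hXF : X ⊆ F := by rw [h.hF]; exact Finset.subset_union_left
  have hBF : ∀ u ∈ B, u ∈ F := fun u hu => by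
    rw [h.hF]; exact Finset.mem_union_right _ (Finset.mem_union_right _ hu)
  refine vol_compare (B := B) (Anch.touch hA hXF) (fun p hp => (mem_touch.mp hp).2) ?_ ?_ ?_ ?_
  · exact (Finset.disjoint_of_subset_right Finset.subset_union_right h.dX).symm
  · intro u hu
    rw [base, if_pos (hBF u hu), abs_zero]; norm_num
  · exact fun u _ => abs_base_le hξ u
  · intro u _ hu
    exact if_neg hu

theorem le_outer (h : Sep F X Q0 B E) (hA : Anch F E) (hξ : ∀ u, u ∉ F → |ξ u| ≤ 1 / 2)
    (y : (Q0 ∪ B : Finset U) → ℝ) (hy : ∀ u ∈ B, |Ham560.ext (Q0 ∪ B) ξ y u| ≤ 1 / 8) :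
    cX X E B * volume (ham X (touch X E) (base F ξ)) ≤
      volume (ham X (touch X E) (Ham560.ext (Q0 ∪ B) ξ y)) := by
  rw [ham_dat h]
  have hXF : X ⊆ F := by rw [h.hF]; exact Finset.subset_union_left
  refine vol_compare (B := B) (Anch.touch hA hXF) (fun p hp => (mem_touch.mp hp).2) ?_ ?_ ?_ ?_
  · exact (Finset.disjoint_of_subset_right Finset.subset_union_right h.dX).symm
  · intro u hu
    rw [if_pos hu]; exact hy u hu
  · intro u _
    by_cases hu : u ∈ B
    · rw [if_pos hu]; exact (hy u hu).trans (by norm_num)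
    · rw [if_neg hu]; exact abs_base_le hξ u
  · intro u _ hu
    rw [if_neg hu]

theorem upper_split (h : Sep F X Q0 B E) (hA : Anch F E) (hξ : ∀ u, u ∉ F → |ξ u| ≤ 1 / 2)
    {A : Set ((Q0 ∪ B : Finset U) → ℝ)} (hAm : MeasurableSet A) :
    cX X E B * volume (ham F E ξ ∩ {x | res (Q0 ∪ B) F ξ x ∈ A}) ≤
      volume (ham X (touch X E) (base F ξ)) *
        volume (ham (Q0 ∪ B) (away X E) ξ ∩ A) := by
  have hsp := vol_ham_split (ξ := ξ) (E := E) h.hF h.dX hAm
  have e : {x : F → ℝ | res (Q0 ∪ B) F ξ x ∈ A} =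
      {x | (fun q : (Q0 ∪ B : Finset U) => Ham560.ext F ξ x q) ∈ A} := rfl
  rw [e, hsp, ← lintegral_const_mul' _ _ (by
    unfold cX; exact ENNReal.pow_ne_top ENNReal.ofReal_ne_top)]
  calc _ ≤ ∫⁻ _ in ham (Q0 ∪ B) (away X E) ξ ∩ A, volume (ham X (touch X E) (base F ξ)) :=
        lintegral_mono fun y => outer_le h hA hξ y
    _ = _ := setLIntegral_const _ _

theorem lower_split (h : Sep F X Q0 B E) (hA : Anch F E) (hξ : ∀ u, u ∉ F → |ξ u| ≤ 1 / 2)
    {A : Set ((Q0 ∪ B : Finset U) → ℝ)} (hAm : MeasurableSet A) :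
    cX X E B * volume (ham X (touch X E) (base F ξ)) *
      volume (ham (Q0 ∪ B) (away X E) ξ ∩ (near (Q0 ∪ B) B 0 (1 / 8) ∩ A)) ≤
      volume (ham F E ξ ∩ {x | res (Q0 ∪ B) F ξ x ∈ A}) := by
  have hsp := vol_ham_split (ξ := ξ) (E := E) h.hF h.dX hAm
  have e : {x : F → ℝ | res (Q0 ∪ B) F ξ x ∈ A} =
      {x | (fun q : (Q0 ∪ B : Finset U) => Ham560.ext F ξ x q) ∈ A} := rfl
  rw [e, hsp]
  have hm : MeasurableSet (ham (Q0 ∪ B) (away X E) ξ ∩ (near (Q0 ∪ B) B 0 (1 / 8) ∩ A)) :=
    measurableSet_ham.inter ((isClosed_near B 0 (1 / 8)).measurableSet.inter hAm)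
  calc _ = ∫⁻ _ in ham (Q0 ∪ B) (away X E) ξ ∩ (near (Q0 ∪ B) B 0 (1 / 8) ∩ A),
        cX X E B * volume (ham X (touch X E) (base F ξ)) := (setLIntegral_const _ _).symm
    _ ≤ ∫⁻ y in ham (Q0 ∪ B) (away X E) ξ ∩ (near (Q0 ∪ B) B 0 (1 / 8) ∩ A),
        volume (ham X (touch X E) (Ham560.ext (Q0 ∪ B) ξ y)) := by
        refine setLIntegral_mono' hm fun y hy => ?_
        refine le_outer h hA hξ y fun u hu => ?_
        have hu' : u ∈ Q0 ∪ B := Finset.mem_union_right _ hu
        rw [ext_mem hu']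
        have := hy.2.1 ⟨u, hu'⟩ hu
        simpa using this
    _ ≤ _ := lintegral_mono_set (inter_subset_inter_right _ inter_subset_right)

end Crest.Agent.R144.LC121
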