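import Mathlib
import Crest.Agent.R144.LC3_121
import Crest.Agent.R144.Ham6_560

/-!
# R144 (helper121): LEMMA LC, local comparison without any partition function ratio

`F = X ∪ Q0 ∪ B`, `B` separates `X` from `Q0`, arbitrary data `|ξ| ≤ 1/2`.

* `LC_bdry`: `Q = Q0 ∪ B` touches the boundary only at vertices with the same value `c0`:
  `P_F^ξ (A) ≤ C^|B| P_Q^{c0} (A)` for every event `A` of the heights on `Q`.
* `LC_int`: `Q` does not touch the boundary: `P_F^ξ (A) ≤ 2 R C^|B| P_{Q \ o}^0 (A)` for gradient events.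
* `LC_tight_bdry`, `LC_tight_int`: the same for the events of LEMMA T.
-/

set_option autoImplicit false

open MeasureTheory Set
open scoped ENNReal

noncomputable section

namespace Crest.Agent.R144.LC121

open Crest.Agent.R144.Ham560 Crest.Agent.R144.LcB460

variable {U : Type*} [DecidableEq U] {F X Q Q0 B : Finset U} {E : Finset (U × U)}
  {ξ η η' : U → ℝ}

/-- Volume of the whole region against the volume of the inner region. -/
theorem inner_all (hd : Disjoint Q0 B) (hB : Anch B (away Q0 E)) :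
    volume (ham (Q0 ∪ B) E ξ) ≤ 2 ^ B.card * volume (ham Q0 (touch Q0 E) 0) := by
  have hsp := vol_ham_split (F := Q0 ∪ B) (X := Q0) (Q := B) (E := E) (ξ := ξ) rfl hd
      (A := Set.univ) MeasurableSet.univ
  simp only [mem_univ, inter_univ, ofPred_true] at hsp
  rw [hsp]
  calc _ ≤ ∫⁻ _ in ham B (away Q0 E) ξ, volume (ham Q0 (touch Q0 E) 0) :=
        lintegral_mono fun y => vol_ham_le_zero
    _ = volume (ham Q0 (touch Q0 E) 0) * volume (ham B (away Q0 E) ξ) := setLIntegral_const _ _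
    _ ≤ volume (ham Q0 (touch Q0 E) 0) * 2 ^ B.card :=
        mul_le_mul' le_rfl (vol_forest _ _ _ _ rfl hB)
    _ = _ := mul_comm _ _

/-- Volume with small heights on `B` against the volume of the inner region. -/
theorem inner_near (hd : Disjoint Q0 B) {c0 : ℝ} (hc0 : |c0| ≤ 1 / 2)
    (hξ : ∀ u, u ∉ Q0 ∪ B → |ξ u| ≤ 1 / 2)
    (hc : ∀ p ∈ E, (p.1 ∈ Q0 → p.2 ∉ Q0 ∪ B → ξ p.2 = c0) ∧
      (p.2 ∈ Q0 → p.1 ∉ Q0 ∪ B → ξ p.1 = c0)) :
    ENNReal.ofReal (3 / 8) ^ (lay Q0 (touch Q0 E) B).card * ENNReal.ofReal (1 / 4) ^ B.card *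
      volume (ham Q0 (touch Q0 E) 0) ≤
      volume (ham (Q0 ∪ B) E ξ ∩ near (Q0 ∪ B) B 0 (1 / 8)) := by
  -- the box
  set bx : Set (B → ℝ) := Set.univ.pi fun _ : B => Set.Icc (-(1 / 8) : ℝ) (1 / 8) with hbx
  have hbxm : MeasurableSet bx := MeasurableSet.univ_pi fun _ => measurableSet_Icc
  have hsp := vol_ham_split (F := Q0 ∪ B) (X := Q0) (Q := B) (E := E) (ξ := ξ) rfl hd hbxm
  have e1 : ham (Q0 ∪ B) E ξ ∩ {x | (fun q : B => Ham560.ext (Q0 ∪ B) ξ x q) ∈ bx} ⊆
      ham (Q0 ∪ B) E ξ ∩ near (Q0 ∪ B) B 0 (1 / 8) := by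
    rintro x ⟨hx, hb⟩
    refine ⟨hx, fun y hy => ?_⟩
    have h1 := hb ⟨y, hy⟩ (mem_univ _)
    change Ham560.ext (Q0 ∪ B) ξ x y ∈ _ at h1
    rw [ext_mem y.2, mem_Icc] at h1
    simp only [Pi.zero_apply, sub_zero]
    rw [abs_le]
    exact h1
  refine le_trans ?_ (measure_mono e1)
  rw [hsp]
  -- every point of the box is admissible
  have hbox : ∀ b ∈ bx, ∀ u, u ∉ Q0 → |Ham560.ext B ξ b u| ≤ 1 / 2 := by
    intro b hb u hu
    by_cases huB : u ∈ B
    · rw [ext_mem huB]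
      have h1 := hb ⟨u, huB⟩ (mem_univ _)
      rw [mem_Icc] at h1
      rw [abs_le]; constructor <;> linarith [h1.1, h1.2]
    · rw [ext_notMem huB]
      exact hξ u (by rw [Finset.mem_union]; tauto)
  have hsub : bx ⊆ ham B (away Q0 E) ξ ∩ bx := by
    intro b hb
    refine ⟨fun p hp => ?_, hb⟩
    obtain ⟨-, h1, h2⟩ := mem_away.mp hp
    have h3 := abs_le.mp (hbox b hb _ h1)
    have h4 := abs_le.mp (hbox b hb _ h2)
    rw [abs_le]; constructor <;> linarith
  have hvol : volume bx = ENNReal.ofReal (1 / 4) ^ B.card := by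
    rw [hbx, volume_pi_pi]
    simp only [Real.volume_Icc]
    rw [Finset.prod_const, Finset.card_univ, Fintype.card_coe]
    norm_num
  have hlow : ∀ b ∈ bx, ENNReal.ofReal (3 / 8) ^ (lay Q0 (touch Q0 E) B).card *
      volume (ham Q0 (touch Q0 E) 0) ≤ volume (ham Q0 (touch Q0 E) (Ham560.ext B ξ b)) := by
    intro b hb
    set ζ : U → ℝ := fun u => if u ∈ B then Ham560.ext B ξ b u else c0 with hζ
    have e2 : ham Q0 (touch Q0 E) (Ham560.ext B ξ b) = ham Q0 (touch Q0 E) ζ := by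
      refine ham_congr_edge fun p hp => ?_
      obtain ⟨hpE, hpQ⟩ := mem_touch.mp hp
      obtain ⟨s1, s2⟩ := hc p hpE
      constructor
      · intro h1
        simp only [hζ]
        by_cases hB : p.1 ∈ B
        · rw [if_pos hB]
        · rw [if_neg hB, ext_notMem hB]
          exact s2 (hpQ.resolve_left h1) (by rw [Finset.mem_union]; tauto)
      · intro h2
        simp only [hζ]
        by_cases hB : p.2 ∈ B
        · rw [if_pos hB]
        · rw [if_neg hB, ext_notMem hB]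
          exact s1 (hpQ.resolve_right h2) (by rw [Finset.mem_union]; tauto)
    rw [e2]
    have h38 : ENNReal.ofReal (1 - 5 / 8) = ENNReal.ofReal (3 / 8) := by norm_num
    rw [← h38]
    refine vol_layer (k := c0) (r := 5 / 8) (fun p hp => (mem_touch.mp hp).2) hd.symm
      (by norm_num) (by norm_num) (fun u _ hu => ?_) (fun u hu => ?_)
    · simp only [hζ, if_neg hu]
    · simp only [hζ, if_pos hu]
      rw [ext_mem hu]
      have h1 := hb ⟨u, hu⟩ (mem_univ _)
      rw [mem_Icc] at h1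
      have h2 := abs_le.mp hc0
      rw [abs_le]; constructor <;> linarith [h1.1, h1.2]
  calc _ = ENNReal.ofReal (3 / 8) ^ (lay Q0 (touch Q0 E) B).card *
        volume (ham Q0 (touch Q0 E) 0) * volume bx := by rw [hvol]; ring
    _ = ∫⁻ _ in bx, ENNReal.ofReal (3 / 8) ^ (lay Q0 (touch Q0 E) B).card *
        volume (ham Q0 (touch Q0 E) 0) := (setLIntegral_const _ _).symm
    _ ≤ ∫⁻ y in bx, volume (ham Q0 (touch Q0 E) (Ham560.ext B ξ y)) :=
        setLIntegral_mono' hbxm hlow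
    _ ≤ _ := lintegral_mono_set hsub

/-- The constant of the inner side. -/
def cQ (Q0 : Finset U) (E : Finset (U × U)) (B : Finset U) : ℝ≥0∞ :=
  ENNReal.ofReal (3 / 8) ^ (lay Q0 (touch Q0 E) B).card * ENNReal.ofReal (1 / 4) ^ B.card

/-- LEMMA LC, region `Q` touching the boundary at vertices with the common value `c0`. -/
theorem LC_bdry (h : Sep F X Q0 B E) (hA : Anch F E) (hξ : ∀ u, u ∉ F → |ξ u| ≤ 1 / 2)
    (hB : Anch B (away Q0 (away X E))) {c0 : ℝ} (hc0 : |c0| ≤ 1 / 2)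
    (hc : ∀ p ∈ away X E, (p.1 ∈ Q0 → p.2 ∉ Q0 ∪ B → ξ p.2 = c0) ∧
      (p.2 ∈ Q0 → p.1 ∉ Q0 ∪ B → ξ p.1 = c0))
    {A : Set ((Q0 ∪ B : Finset U) → ℝ)} (hAm : MeasurableSet A) :
    cX X E B ^ 2 * cQ Q0 (away X E) B *
      (volume (ham F E ξ ∩ {x | res (Q0 ∪ B) F ξ x ∈ A}) *
        volume (ham (Q0 ∪ B) (away X E) ξ)) ≤
      2 ^ B.card * (volume (ham (Q0 ∪ B) (away X E) ξ ∩ A) * volume (ham F E ξ)) := by
  -- the data on `X` do not matter for `Q`
  set ξ' : U → ℝ := fun u => if u ∈ X then 0 else ξ u with hξ'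
  have hsame : ham (Q0 ∪ B) (away X E) ξ = ham (Q0 ∪ B) (away X E) ξ' := by
    refine ham_congr_edge fun p hp => ?_
    obtain ⟨-, h1, h2⟩ := mem_away.mp hp
    exact ⟨fun _ => by simp [hξ', h1], fun _ => by simp [hξ', h2]⟩
  have s1 := upper_split h hA hξ hAm
  have s2 := lower_split h hA hξ (A := Set.univ) MeasurableSet.univ
  have s3 := inner_all (ξ := ξ) h.dQ hB
  have s4 := inner_near (ξ := ξ') (E := away X E) h.dQ hc0 (fun u hu => by
      simp only [hξ']
      by_cases hX : u ∈ X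
      · rw [if_pos hX, abs_zero]; norm_num
      · rw [if_neg hX]
        refine hξ u ?_
        rw [h.hF, Finset.mem_union]; tauto) (fun p hp => by
      obtain ⟨-, h1, h2⟩ := mem_away.mp hp
      obtain ⟨t1, t2⟩ := hc p hp
      simp only [hξ', if_neg h1, if_neg h2]
      exact ⟨t1, t2⟩)
  rw [← hsame] at s4
  simp only [mem_univ, inter_univ, ofPred_true] at s2
  set N := volume (ham F E ξ ∩ {x | res (Q0 ∪ B) F ξ x ∈ A})
  set D := volume (ham F E ξ)
  set ZX := volume (ham X (touch X E) (base F ξ))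
  set vA := volume (ham (Q0 ∪ B) (away X E) ξ ∩ A)
  set vn := volume (ham (Q0 ∪ B) (away X E) ξ ∩ near (Q0 ∪ B) B 0 (1 / 8))
  set vQ := volume (ham (Q0 ∪ B) (away X E) ξ)
  set ZQ := volume (ham Q0 (touch Q0 (away X E)) 0)
  calc cX X E B ^ 2 * cQ Q0 (away X E) B * (N * vQ)
      ≤ cX X E B ^ 2 * cQ Q0 (away X E) B * (N * (2 ^ B.card * ZQ)) :=
        mul_le_mul' le_rfl (mul_le_mul' le_rfl s3)
    _ = 2 ^ B.card * (cX X E B * (cX X E B * N)) * (cQ Q0 (away X E) B * ZQ) := by ring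
    _ ≤ 2 ^ B.card * (cX X E B * (ZX * vA)) * vn :=
        mul_le_mul' (mul_le_mul' le_rfl (mul_le_mul' le_rfl s1)) s4
    _ = 2 ^ B.card * (vA * (cX X E B * ZX * vn)) := by ring
    _ ≤ 2 ^ B.card * (vA * D) := mul_le_mul' le_rfl (mul_le_mul' le_rfl s2)

end Crest.Agent.R144.LC121
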