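import Mathlib
import Crest.Agent.R144.LC4_121

/-!
# R144 (helper121): LEMMA LC for the tight events

* `LC_tight_bdry`: `B` is anchored to the boundary;
* `LC_tight_int`: `B` without one vertex `o` is anchored to `o` (one factor `2 R`, `R` = sup norm bound).
-/

set_option autoImplicit false

open MeasureTheory Set
open scoped ENNReal

noncomputable section

namespace Crest.Agent.R144.LC121

open Crest.Agent.R144.Ham560 Crest.Agent.R144.LcB460

variable {U : Type*} [DecidableEq U] {F X Q Q' Q0 B : Finset U} {E : Finset (U × U)}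
  {ξ η η' : U → ℝ} {S : List ((U × U) × ℝ)}

theorem nbr_mono {E E' : Finset (U × U)} (h : E ⊆ E') (v : U) : nbr E v ⊆ nbr E' v := by
  intro w hw
  rw [mem_nbr] at hw ⊢
  exact ⟨hw.1, hw.2.imp (fun h' => h h') fun h' => h h'⟩

theorem touch_subset : touch X E ⊆ E := Finset.filter_subset _ _

theorem away_subset : away X E ⊆ E := Finset.filter_subset _ _

/-- Fresh lists that avoid `X`. -/
theorem fresh_away (hF : F = X ∪ Q) (hS : FreshR F E S)
    (hX : ∀ q ∈ S, q.1.1 ∉ X ∧ q.1.2 ∉ X) : FreshR Q (away X E) S := by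
  induction hS with
  | nil => exact FreshR.nil
  | @cons v u w S hS hv hu hw hf ih =>
    have h1 := hX _ List.mem_cons_self
    refine FreshR.cons (ih fun q hq => hX q (List.mem_cons_of_mem _ hq)) ?_ ?_ hw hf
    · have := h1.1
      rw [hF, Finset.mem_union] at hv
      exact hv.resolve_left this
    · rw [mem_nbr] at hu ⊢
      refine ⟨hu.1, ?_⟩
      rcases hu.2 with h | h
      · exact Or.inl (mem_away.mpr ⟨h, h1.1, h1.2⟩)
      · exact Or.inr (mem_away.mpr ⟨h, h1.2, h1.1⟩)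

/-- Fresh lists whose heads are in `X`. -/
theorem fresh_touch (hS : FreshR Q E S) (hX : ∀ q ∈ S, q.1.1 ∈ X) : FreshR X (touch X E) S := by
  induction hS with
  | nil => exact FreshR.nil
  | @cons v u w S hS hv hu hw hf ih =>
    have h1 := hX _ List.mem_cons_self
    refine FreshR.cons (ih fun q hq => hX q (List.mem_cons_of_mem _ hq)) h1 ?_ hw hf
    exact (nbr_touch h1).2 hu

/-- The tightness condition alone. -/
def tev (Q : Finset U) (ξ : U → ℝ) (S : List ((U × U) × ℝ)) : Set (Q → ℝ) :=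
  {y | ∀ q ∈ S, 1 - q.2 ≤ |Ham560.ext Q ξ y q.1.1 - Ham560.ext Q ξ y q.1.2|}

theorem isClosed_tev : IsClosed (tev Q ξ S) := by
  have : tev Q ξ S = ⋂ q ∈ S, {y | 1 - q.2 ≤ |Ham560.ext Q ξ y q.1.1 - Ham560.ext Q ξ y q.1.2|} := by
    ext y; simp [tev]
  rw [this]
  exact isClosed_biInter fun q _ => isClosed_le continuous_const
    ((continuous_ext _).sub (continuous_ext _)).abs

theorem ext_res (hF : F = X ∪ Q) {u : U} (hu : u ∉ X) (x : F → ℝ) :
    Ham560.ext Q ξ (res Q F ξ x) u = Ham560.ext F ξ x u := by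
  by_cases hQ : u ∈ Q
  · rw [ext_mem hQ]; rfl
  · rw [ext_notMem hQ, ext_notMem]
    rw [hF, Finset.mem_union]; tauto

theorem tight_res (hF : F = X ∪ Q) (hX : ∀ q ∈ S, q.1.1 ∉ X ∧ q.1.2 ∉ X) :
    tightR F E ξ S = ham F E ξ ∩ {x | res Q F ξ x ∈ tev Q ξ S} := by
  ext x
  simp only [tightR, tev, mem_ofPred_eq, mem_inter_iff]
  refine and_congr_right fun _ => forall₂_congr fun q hq => ?_
  obtain ⟨h1, h2⟩ := hX q hq
  rw [ext_res hF h1, ext_res hF h2]

/-- Common hypotheses on the data near `Q0`. -/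
theorem near_data (h : Sep F X Q0 B E) (hξ : ∀ u, u ∉ F → |ξ u| ≤ 1 / 2)
    {c0 : ℝ} (hc0 : |c0| ≤ 1 / 2)
    (hc : ∀ p ∈ away X E, (p.1 ∈ Q0 → p.2 ∉ Q0 ∪ B → ξ p.2 = c0) ∧
      (p.2 ∈ Q0 → p.1 ∉ Q0 ∪ B → ξ p.1 = c0)) :
    cQ Q0 (away X E) B * volume (ham Q0 (touch Q0 (away X E)) 0) ≤
      volume (ham (Q0 ∪ B) (away X E) ξ ∩ near (Q0 ∪ B) B 0 (1 / 8)) := by
  set ξ' : U → ℝ := fun u => if u ∈ X then 0 else ξ u with hξ'
  have hsame : ham (Q0 ∪ B) (away X E) ξ = ham (Q0 ∪ B) (away X E) ξ' := by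
    refine ham_congr_edge fun p hp => ?_
    obtain ⟨-, h1, h2⟩ := mem_away.mp hp
    exact ⟨fun _ => by simp [hξ', h1], fun _ => by simp [hξ', h2]⟩
  rw [hsame]
  exact inner_near (ξ := ξ') (E := away X E) h.dQ hc0 (fun u hu => by
      simp only [hξ']
      by_cases hX : u ∈ X
      · rw [if_pos hX, abs_zero]; norm_num
      · rw [if_neg hX]
        refine hξ u ?_
        rw [h.hF, Finset.mem_union]; tauto) (fun p hp => by
      obtain ⟨-, h1, h2⟩ := mem_away.mp hp
      obtain ⟨t1, t2⟩ := hc p hp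
      simp only [hξ', if_neg h1, if_neg h2]
      exact ⟨t1, t2⟩)

/-- From an upper bound for the event on `Q` to an upper bound on `F`. -/
theorem assemble (h : Sep F X Q0 B E) (hA : Anch F E) (hξ : ∀ u, u ∉ F → |ξ u| ≤ 1 / 2)
    {c0 : ℝ} (hc0 : |c0| ≤ 1 / 2)
    (hc : ∀ p ∈ away X E, (p.1 ∈ Q0 → p.2 ∉ Q0 ∪ B → ξ p.2 = c0) ∧
      (p.2 ∈ Q0 → p.1 ∉ Q0 ∪ B → ξ p.1 = c0))
    {A : Set ((Q0 ∪ B : Finset U) → ℝ)} (hAm : MeasurableSet A) {κ : ℝ≥0∞}
    (hup : volume (ham (Q0 ∪ B) (away X E) ξ ∩ A) ≤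
      κ * volume (ham Q0 (touch Q0 (away X E)) 0)) :
    cX X E B ^ 2 * cQ Q0 (away X E) B *
      volume (ham F E ξ ∩ {x | res (Q0 ∪ B) F ξ x ∈ A}) ≤ κ * volume (ham F E ξ) := by
  have s1 := upper_split h hA hξ hAm
  have s2 := lower_split h hA hξ (A := Set.univ) MeasurableSet.univ
  have s4 := near_data h hξ hc0 hc
  simp only [mem_univ, inter_univ, ofPred_true] at s2
  set N := volume (ham F E ξ ∩ {x | res (Q0 ∪ B) F ξ x ∈ A})
  set D := volume (ham F E ξ)
  set ZX := volume (ham X (touch X E) (base F ξ))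
  set vA := volume (ham (Q0 ∪ B) (away X E) ξ ∩ A)
  set vn := volume (ham (Q0 ∪ B) (away X E) ξ ∩ near (Q0 ∪ B) B 0 (1 / 8))
  set ZQ := volume (ham Q0 (touch Q0 (away X E)) 0)
  calc cX X E B ^ 2 * cQ Q0 (away X E) B * N
      = cX X E B * cQ Q0 (away X E) B * (cX X E B * N) := by ring
    _ ≤ cX X E B * cQ Q0 (away X E) B * (ZX * (κ * ZQ)) :=
        mul_le_mul' le_rfl (s1.trans (mul_le_mul' le_rfl hup))
    _ = κ * (cX X E B * ZX) * (cQ Q0 (away X E) B * ZQ) := by ring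
    _ ≤ κ * (cX X E B * ZX) * vn := mul_le_mul' le_rfl s4
    _ = κ * (cX X E B * ZX * vn) := by ring
    _ ≤ κ * D := mul_le_mul' le_rfl s2

/-- LEMMA LC for tight events, `B` anchored to the boundary. -/
theorem LC_tight_bdry (h : Sep F X Q0 B E) (hA : Anch F E) (hξ : ∀ u, u ∉ F → |ξ u| ≤ 1 / 2)
    (hB : Anch B (away Q0 (away X E))) {c0 : ℝ} (hc0 : |c0| ≤ 1 / 2)
    (hc : ∀ p ∈ away X E, (p.1 ∈ Q0 → p.2 ∉ Q0 ∪ B → ξ p.2 = c0) ∧
      (p.2 ∈ Q0 → p.1 ∉ Q0 ∪ B → ξ p.1 = c0))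
    {n : ℕ} (hn : ∀ v ∈ F, (nbr E v).card ≤ n) (hS : FreshR F E S)
    (hX : ∀ q ∈ S, q.1.1 ∉ X ∧ q.1.2 ∉ X) :
    cX X E B ^ 2 * cQ Q0 (away X E) B * volume (tightR F E ξ S) ≤
      2 ^ B.card * wgt n S * volume (ham F E ξ) := by
  rw [tight_res h.hF hX]
  refine assemble h hA hξ hc0 hc isClosed_tev.measurableSet ?_
  have h1 : ham (Q0 ∪ B) (away X E) ξ ∩ tev (Q0 ∪ B) ξ S = tightR (Q0 ∪ B) (away X E) ξ S := rfl
  rw [h1]
  have h2 := vol_tightR_le (ξ := ξ) (fresh_away h.hF hS hX) (n := n) (fun v hv =>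
    (Finset.card_le_card (nbr_mono away_subset v)).trans (hn v (by
      rw [h.hF]; exact Finset.mem_union_right _ hv)))
  have h3 := inner_all (ξ := (0 : U → ℝ)) h.dQ hB
  calc _ ≤ wgt n S * volume (ham (Q0 ∪ B) (away X E) 0) := h2
    _ ≤ wgt n S * (2 ^ B.card * volume (ham Q0 (touch Q0 (away X E)) 0)) :=
        mul_le_mul' le_rfl h3
    _ = _ := by ring

theorem ham_touch_zero : ham Q (touch Q E) (0 : U → ℝ) = ham Q E 0 := by
  ext x
  unfold ham
  simp only [mem_ofPred_eq]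
  constructor
  · intro h p hp
    by_cases hq : p.1 ∈ Q ∨ p.2 ∈ Q
    · exact h p (mem_touch.mpr ⟨hp, hq⟩)
    · push Not at hq
      rw [ext_notMem hq.1, ext_notMem hq.2]
      simp
  · exact fun h p hp => h p (mem_touch.mp hp).1

/-- Slicing over the height at `o`. -/
theorem slice_le {o : U} (hQ : Q = Q' ∪ {o}) (ho : o ∉ Q') {n : ℕ}
    (hn : ∀ v ∈ Q, (nbr E v).card ≤ n) (hS : FreshR Q E S) (hSo : ∀ q ∈ S, q.1.1 ≠ o) {R : ℝ} :
    volume (ham Q E ξ ∩ (tev Q ξ S ∩ {y | |Ham560.ext Q ξ y o| ≤ R})) ≤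
      ENNReal.ofReal (2 * R) * (wgt n S * volume (ham Q' E 0)) := by
  have hd : Disjoint Q' {o} := Finset.disjoint_singleton_right.mpr ho
  have hm : MeasurableSet (ham Q E ξ ∩ (tev Q ξ S ∩ {y | |Ham560.ext Q ξ y o| ≤ R})) :=
    measurableSet_ham.inter (isClosed_tev.measurableSet.inter
      (isClosed_le (continuous_ext o).abs continuous_const).measurableSet)
  rw [vol_split hQ hd hm]
  have hoo : o ∈ ({o} : Finset U) := Finset.mem_singleton_self o
  set bx : Set (({o} : Finset U) → ℝ) := {y | |y ⟨o, hoo⟩| ≤ R} with hbx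
  have hbxm : MeasurableSet bx :=
    (isClosed_le (continuous_apply _).abs continuous_const).measurableSet
  have hbv : volume bx = ENNReal.ofReal (2 * R) := by
    have e : bx = Set.univ.pi fun _ : ({o} : Finset U) => Set.Icc (-R) R := by
      ext y
      simp only [hbx, mem_ofPred_eq, mem_pi, mem_univ, true_implies, mem_Icc]
      constructor
      · rintro h ⟨a, ha⟩
        have : a = o := Finset.mem_singleton.mp ha
        subst this
        exact abs_le.mp h
      · intro h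
        exact abs_le.mpr (h ⟨o, hoo⟩)
    rw [e, volume_pi_pi]
    simp only [Real.volume_Icc]
    rw [Finset.prod_const, Finset.card_univ, Fintype.card_coe, Finset.card_singleton, pow_one]
    congr 1; ring
  have hFr : FreshR Q' (touch Q' E) S := by
    refine fresh_touch hS fun q hq => ?_
    have h1 : q.1.1 ∈ Q := by
      clear hSo
      induction hS with
      | nil => simp at hq
      | @cons v u w S hS hv hu hw hf ih =>
        rcases List.mem_cons.mp hq with rfl | hq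
        · exact hv
        · exact ih (by
            refine measurableSet_ham.inter (isClosed_tev.measurableSet.inter
              (isClosed_le (continuous_ext o).abs continuous_const).measurableSet)) hq
    rw [hQ, Finset.mem_union, Finset.mem_singleton] at h1
    exact h1.resolve_right (hSo q hq)
  have hsl : ∀ y : ({o} : Finset U) → ℝ, volume {x : Q' → ℝ | join Q Q' {o} (y, x) ∈
      ham Q E ξ ∩ (tev Q ξ S ∩ {y | |Ham560.ext Q ξ y o| ≤ R})} ≤
      bx.indicator (fun _ => wgt n S * volume (ham Q' E 0)) y := by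
    intro y
    by_cases hy : y ∈ bx
    · rw [indicator_of_mem hy]
      have hsub : {x : Q' → ℝ | join Q Q' {o} (y, x) ∈
          ham Q E ξ ∩ (tev Q ξ S ∩ {y | |Ham560.ext Q ξ y o| ≤ R})} ⊆
          tightR Q' (touch Q' E) (Ham560.ext {o} ξ y) S := by
        rintro x ⟨h1, h2, -⟩
        refine ⟨((mem_ham_join hQ hd (y, x)).mp h1).2, fun q hq => ?_⟩
        have := h2 q hq
        rw [ext_join_X hQ hd, ext_join_X hQ hd] at this
        exact this
      refine (measure_mono hsub).trans ?_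
      rw [← ham_touch_zero (Q := Q')]
      refine vol_tightR_le hFr fun v hv => ?_
      exact (Finset.card_le_card (nbr_mono touch_subset v)).trans (hn v (by
        rw [hQ]; exact Finset.mem_union_left _ hv))
    · rw [indicator_of_notMem hy]
      have : {x : Q' → ℝ | join Q Q' {o} (y, x) ∈
          ham Q E ξ ∩ (tev Q ξ S ∩ {y | |Ham560.ext Q ξ y o| ≤ R})} = ∅ := by
        rw [Set.eq_empty_iff_forall_notMem]
        rintro x ⟨-, -, h3⟩
        refine hy ?_
        change |Ham560.ext Q ξ _ o| ≤ R at h3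
        rw [ext_join_Q hQ _ hoo] at h3
        exact h3
      rw [this, measure_empty]
  calc _ ≤ ∫⁻ y, bx.indicator (fun _ => wgt n S * volume (ham Q' E 0)) y := lintegral_mono hsl
    _ = wgt n S * volume (ham Q' E 0) * volume bx := by
        rw [lintegral_indicator hbxm, setLIntegral_const]
    _ = _ := by rw [hbv, mul_comm]

/-- LEMMA LC for tight events, `B` anchored to one of its vertices. -/
theorem LC_tight_int (h : Sep F X Q0 B E) (hA : Anch F E) (hξ : ∀ u, u ∉ F → |ξ u| ≤ 1 / 2)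
    {o : U} (ho : o ∈ B) (hB : Anch (B.erase o) (away Q0 (away X E))) {c0 : ℝ} (hc0 : |c0| ≤ 1 / 2)
    (hc : ∀ p ∈ away X E, (p.1 ∈ Q0 → p.2 ∉ Q0 ∪ B → ξ p.2 = c0) ∧
      (p.2 ∈ Q0 → p.1 ∉ Q0 ∪ B → ξ p.1 = c0))
    {R : ℝ} (hR : ∀ x ∈ ham F E ξ, |Ham560.ext F ξ x o| ≤ R)
    {n : ℕ} (hn : ∀ v ∈ F, (nbr E v).card ≤ n) (hS : FreshR F E S)
    (hX : ∀ q ∈ S, q.1.1 ∉ X ∧ q.1.2 ∉ X) (hSo : ∀ q ∈ S, q.1.1 ≠ o) :
    cX X E B ^ 2 * cQ Q0 (away X E) B * volume (tightR F E ξ S) ≤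
      2 ^ B.card * ENNReal.ofReal (2 * R) * wgt n S * volume (ham F E ξ) := by
  have hoX : o ∉ X := fun h' => Finset.disjoint_left.mp h.dX h' (Finset.mem_union_right _ ho)
  have hoQ0 : o ∉ Q0 := fun h' => Finset.disjoint_left.mp h.dQ h' ho
  have e1 : tightR F E ξ S = ham F E ξ ∩ {x | res (Q0 ∪ B) F ξ x ∈
      (tev (Q0 ∪ B) ξ S ∩ {y | |Ham560.ext (Q0 ∪ B) ξ y o| ≤ R})} := by
    rw [tight_res h.hF hX]
    ext x
    simp only [mem_inter_iff, mem_ofPred_eq, ext_res h.hF hoX]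
    exact ⟨fun h => ⟨h.1, h.2, hR x h.1⟩, fun h => ⟨h.1, h.2.1⟩⟩
  rw [e1]
  refine assemble h hA hξ hc0 hc (isClosed_tev.measurableSet.inter
      (isClosed_le (continuous_ext o).abs continuous_const).measurableSet) ?_
  have hQ : Q0 ∪ B = (Q0 ∪ B.erase o) ∪ {o} := by
    ext a
    simp only [Finset.mem_union, Finset.mem_erase, Finset.mem_singleton]
    constructor
    · rintro (h | h)
      · exact Or.inl (Or.inl h)
      · by_cases hao : a = o
        · exact Or.inr hao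
        · exact Or.inl (Or.inr ⟨hao, h⟩)
    · rintro ((h | h) | h)
      · exact Or.inl h
      · exact Or.inr h.2
      · exact Or.inr (h ▸ ho)
  have ho' : o ∉ Q0 ∪ B.erase o := by
    simp only [Finset.mem_union, Finset.mem_erase]; tauto
  have h2 := slice_le (ξ := ξ) (R := R) hQ ho' (n := n) (fun v hv =>
    (Finset.card_le_card (nbr_mono (away_subset (X := X)) v)).trans (hn v (by
      rw [h.hF]; exact Finset.mem_union_right _ hv))) (fresh_away h.hF hS hX) hSo
  have h3 := inner_all (ξ := (0 : U → ℝ)) (Q0 := Q0) (B := B.erase o)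
    (Finset.disjoint_of_subset_right (Finset.erase_subset _ _) h.dQ) hB
  have h4 : (2 : ℝ≥0∞) ^ (B.erase o).card ≤ 2 ^ B.card :=
    pow_le_pow_right₀ (by norm_num) (Finset.card_le_card (Finset.erase_subset _ _))
  calc _ ≤ ENNReal.ofReal (2 * R) * (wgt n S * volume (ham (Q0 ∪ B.erase o) (away X E) 0)) := h2
    _ ≤ ENNReal.ofReal (2 * R) * (wgt n S * (2 ^ B.card *
          volume (ham Q0 (touch Q0 (away X E)) 0))) :=
        mul_le_mul' le_rfl (mul_le_mul' le_rfl (h3.trans (mul_le_mul' h4 le_rfl)))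
    _ = _ := by ring

end Crest.Agent.R144.LC121
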