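import Mathlib
import Crest.Agent.R144.LC5_121

/-!
# R144 (helper121): LEMMA LC in boxes of `ℤ × ℤ`

`LC_box`: for a fresh list `S` of edges inside the box of radius `r` about `z`, boundary data constant in
the box, `vol (tightR F E ξ S) ≤ KL ^ (10 r + 5) * max 1 (2 R) * wgt n S * vol (ham F E ξ)`.
The factor `max 1 (2 R)` is absent if the box contains a fixed site (`LC_box_bdry`).
-/

set_option autoImplicit false

open MeasureTheory Set
open scoped ENNReal

noncomputable section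

namespace Crest.Agent.R144.LC121

open Crest.Agent.R144.Ham560 Crest.Agent.R144.LcB460

/-- Boxes of `ℤ × ℤ`. -/
def box (z : ℤ × ℤ) (r : ℕ) : Finset (ℤ × ℤ) :=
  Finset.Icc (z.1 - r) (z.1 + r) ×ˢ Finset.Icc (z.2 - r) (z.2 + r)

theorem mem_box {z u : ℤ × ℤ} {r : ℕ} : u ∈ box z r ↔ |u.1 - z.1| ≤ r ∧ |u.2 - z.2| ≤ r := by
  rw [box, Finset.mem_product, Finset.mem_Icc, Finset.mem_Icc, abs_le, abs_le]
  constructor <;> rintro ⟨⟨h1, h2⟩, h3, h4⟩ <;> refine ⟨⟨?_, ?_⟩, ?_, ?_⟩ <;> linarith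

/-- The boundary layer of the box and the row of `w`. -/
def wall (z w : ℤ × ℤ) (r : ℕ) : Finset (ℤ × ℤ) :=
  (box z r).filter fun u => |u.1 - z.1| = r ∨ |u.2 - z.2| = r ∨ u.2 = w.2

theorem mem_wall {z w u : ℤ × ℤ} {r : ℕ} : u ∈ wall z w r ↔
    (|u.1 - z.1| ≤ r ∧ |u.2 - z.2| ≤ r) ∧ (|u.1 - z.1| = r ∨ |u.2 - z.2| = r ∨ u.2 = w.2) := by
  rw [wall, Finset.mem_filter, mem_box]

theorem wall_subset {z w : ℤ × ℤ} {r : ℕ} : wall z w r ⊆ box z r := Finset.filter_subset _ _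

theorem card_wall (z w : ℤ × ℤ) (r : ℕ) : (wall z w r).card ≤ 10 * r + 5 := by
  have hsub : wall z w r ⊆
      (({z.1 - r, z.1 + r} : Finset ℤ) ×ˢ Finset.Icc (z.2 - r) (z.2 + r)) ∪
      (Finset.Icc (z.1 - r) (z.1 + r) ×ˢ ({z.2 - r, z.2 + r, w.2} : Finset ℤ)) := by
    intro u hu
    obtain ⟨⟨h1, h2⟩, h3⟩ := mem_wall.mp hu
    rw [abs_le] at h1 h2
    simp only [Finset.mem_union, Finset.mem_product, Finset.mem_insert, Finset.mem_singleton,
      Finset.mem_Icc]
    rcases h3 with h3 | h3 | h3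
    · left
      refine ⟨?_, by linarith, by linarith⟩
      rcases abs_eq (by positivity : (0 : ℤ) ≤ r) |>.mp h3 with h | h
      · right; linarith
      · left; linarith
    · right
      refine ⟨⟨by linarith, by linarith⟩, ?_⟩
      rcases abs_eq (by positivity : (0 : ℤ) ≤ r) |>.mp h3 with h | h
      · right; left; linarith
      · left; linarith
    · right
      exact ⟨⟨by linarith, by linarith⟩, Or.inr (Or.inr h3)⟩
  have hI : ∀ a : ℤ, (Finset.Icc (a - r) (a + r)).card = 2 * r + 1 := by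
    intro a
    rw [Int.card_Icc]
    omega
  have c2 : (({z.1 - r, z.1 + r} : Finset ℤ)).card ≤ 2 := Finset.card_le_two
  have c3 : (({z.2 - r, z.2 + r, w.2} : Finset ℤ)).card ≤ 3 := Finset.card_le_three
  calc (wall z w r).card ≤ _ := Finset.card_le_card hsub
    _ ≤ _ := Finset.card_union_le _ _
    _ = (({z.1 - r, z.1 + r} : Finset ℤ)).card * (2 * r + 1) +
        (2 * r + 1) * (({z.2 - r, z.2 + r, w.2} : Finset ℤ)).card := by
        rw [Finset.card_product, Finset.card_product, hI, hI]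
    _ ≤ 2 * (2 * r + 1) + (2 * r + 1) * 3 := by gcongr
    _ = 10 * r + 5 := by ring

/-- Unit steps inside `W`. -/
def Stp (W : Finset (ℤ × ℤ)) (a b : ℤ × ℤ) : Prop :=
  a ∈ W ∧ b ∈ W ∧ (b = (a.1 + 1, a.2) ∨ b = (a.1 - 1, a.2) ∨ b = (a.1, a.2 + 1) ∨
    b = (a.1, a.2 - 1))

theorem Stp.symm {W : Finset (ℤ × ℤ)} {a b : ℤ × ℤ} (h : Stp W a b) : Stp W b a := by
  obtain ⟨h1, h2, h3⟩ := h
  refine ⟨h2, h1, ?_⟩
  rcases h3 with rfl | rfl | rfl | rfl
  · right; left; ext <;> simp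
  · left; ext <;> simp
  · right; right; right; ext <;> simp
  · right; right; left; ext <;> simp

theorem rtg_symm {W : Finset (ℤ × ℤ)} {a b : ℤ × ℤ} (h : Relation.ReflTransGen (Stp W) a b) :
    Relation.ReflTransGen (Stp W) b a := by
  induction h with
  | refl => exact Relation.ReflTransGen.refl
  | tail _ h ih => exact Relation.ReflTransGen.head h.symm ih

theorem horiz {W : Finset (ℤ × ℤ)} (a b c : ℤ)
    (h : ∀ x, min a c ≤ x → x ≤ max a c → (x, b) ∈ W) :
    Relation.ReflTransGen (Stp W) (a, b) (c, b) := by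
  have key : ∀ (n : ℕ) (a : ℤ), (∀ x, a ≤ x → x ≤ a + n → (x, b) ∈ W) →
      Relation.ReflTransGen (Stp W) (a, b) (a + n, b) := by
    intro n
    induction n with
    | zero => intro a _; simpa using Relation.ReflTransGen.refl
    | succ n ih =>
      intro a h
      refine (ih a fun x h1 h2 => h x h1 (by push_cast; linarith)).tail ?_
      refine ⟨h _ (by linarith) (by push_cast; linarith), h _ (by push_cast; linarith) (by push_cast; linarith), Or.inl ?_⟩
      ext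
      · push_cast; ring
      · rfl
  rcases le_total a c with hac | hac
  · have := key (c - a).toNat a (fun x h1 h2 => h x ((min_le_left _ _).trans h1) (by
      rw [Int.toNat_of_nonneg (by linarith)] at h2
      exact le_trans (by linarith) (le_max_right _ _)))
    rwa [Int.toNat_of_nonneg (by linarith), show a + (c - a) = c by ring] at this
  · have := key (a - c).toNat c (fun x h1 h2 => h x ((min_le_right _ _).trans h1) (by
      rw [Int.toNat_of_nonneg (by linarith)] at h2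
      exact le_trans (by linarith) (le_max_left _ _)))
    rw [Int.toNat_of_nonneg (by linarith), show c + (a - c) = a by ring] at this
    exact rtg_symm this

theorem verti {W : Finset (ℤ × ℤ)} (a b c : ℤ)
    (h : ∀ x, min b c ≤ x → x ≤ max b c → (a, x) ∈ W) :
    Relation.ReflTransGen (Stp W) (a, b) (a, c) := by
  have key : ∀ (n : ℕ) (b : ℤ), (∀ x, b ≤ x → x ≤ b + n → (a, x) ∈ W) →
      Relation.ReflTransGen (Stp W) (a, b) (a, b + n) := by
    intro n
    induction n with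
    | zero => intro b _; simpa using Relation.ReflTransGen.refl
    | succ n ih =>
      intro b h
      refine (ih b fun x h1 h2 => h x h1 (by push_cast; linarith)).tail ?_
      refine ⟨h _ (by linarith) (by push_cast; linarith), h _ (by push_cast; linarith) (by push_cast; linarith), Or.inr (Or.inr (Or.inl ?_))⟩
      ext
      · rfl
      · push_cast; ring
  rcases le_total b c with hac | hac
  · have := key (c - b).toNat b (fun x h1 h2 => h x ((min_le_left _ _).trans h1) (by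
      rw [Int.toNat_of_nonneg (by linarith)] at h2
      exact le_trans (by linarith) (le_max_right _ _)))
    rwa [Int.toNat_of_nonneg (by linarith), show b + (c - b) = c by ring] at this
  · have := key (b - c).toNat c (fun x h1 h2 => h x ((min_le_right _ _).trans h1) (by
      rw [Int.toNat_of_nonneg (by linarith)] at h2
      exact le_trans (by linarith) (le_max_left _ _)))
    rw [Int.toNat_of_nonneg (by linarith), show c + (b - c) = b by ring] at this
    exact rtg_symm this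

/-- The wall is connected to `w`. -/
theorem wall_conn {z w : ℤ × ℤ} {r : ℕ} (hw : w ∈ box z r) {u : ℤ × ℤ} (hu : u ∈ wall z w r) :
    Relation.ReflTransGen (Stp (wall z w r)) u w := by
  obtain ⟨w1, w2⟩ := w
  obtain ⟨u1, u2⟩ := u
  have hw' := mem_box.mp hw
  simp only [abs_le] at hw'
  -- the row of `w`
  have row : ∀ v : ℤ, |v - z.1| ≤ r →
      Relation.ReflTransGen (Stp (wall z (w1, w2) r)) (v, w2) (w1, w2) := by
    intro v hv
    rw [abs_le] at hv
    refine horiz _ _ _ fun x h1 h2 => mem_wall.mpr ⟨?_, Or.inr (Or.inr rfl)⟩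
    simp only [abs_le]
    have h3 : z.1 - r ≤ x := le_trans (le_min (by linarith [hv.1]) (by linarith [hw'.1.1])) h1
    have h4 : x ≤ z.1 + r := h2.trans (max_le (by linarith [hv.2]) (by linarith [hw'.1.2]))
    exact ⟨⟨by linarith, by linarith⟩, by linarith [hw'.2.1], by linarith [hw'.2.2]⟩
  -- the sides
  have side : ∀ v c : ℤ, |v - z.1| = r → |c - z.2| ≤ r →
      Relation.ReflTransGen (Stp (wall z (w1, w2) r)) (v, c) (w1, w2) := by
    intro v c hv hc
    refine Relation.ReflTransGen.trans ?_ (row v hv.le)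
    rw [abs_le] at hc
    refine verti _ _ _ fun x h1 h2 => mem_wall.mpr ⟨⟨hv.le, ?_⟩, Or.inl hv⟩
    have h3 : z.2 - r ≤ x := le_trans (le_min (by linarith [hc.1]) (by linarith [hw'.2.1])) h1
    have h4 : x ≤ z.2 + r := h2.trans (max_le (by linarith [hc.2]) (by linarith [hw'.2.2]))
    simp only [abs_le]
    exact ⟨by linarith, by linarith⟩
  obtain ⟨⟨h1, h2⟩, h3⟩ := mem_wall.mp hu
  simp only at h1 h2 h3
  rcases h3 with h3 | h3 | h3
  · exact side u1 u2 h3 h2
  · have hr : |z.1 + r - z.1| = (r : ℤ) := by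
      rw [show z.1 + (r : ℤ) - z.1 = r by ring]; exact abs_of_nonneg (by positivity)
    refine Relation.ReflTransGen.trans ?_ (side (z.1 + r) u2 hr h2)
    rw [abs_le] at h1
    refine horiz _ _ _ fun x h4 h5 => mem_wall.mpr ⟨⟨?_, h2⟩, Or.inr (Or.inl h3)⟩
    have h6 : z.1 - r ≤ x := le_trans (le_min (by linarith [h1.1]) (by linarith)) h4
    have h7 : x ≤ z.1 + r := h5.trans (max_le (by linarith [h1.2]) le_rfl)
    simp only [abs_le]
    exact ⟨by linarith, by linarith⟩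
  · rw [h3]; exact row u1 h1

theorem anch_of_conn {W B : Finset (ℤ × ℤ)} {E' : Finset ((ℤ × ℤ) × (ℤ × ℤ))} {w : ℤ × ℤ}
    (hw : w ∉ B) (hB : B ⊆ W) (hc : ∀ u ∈ W, Relation.ReflTransGen (Stp W) u w)
    (hE : ∀ a b, Stp W a b → a ∈ B → b ∈ nbr E' a) : Anch B E' := by
  intro v hv
  have h := hc v (hB hv)
  clear hc
  induction h using Relation.ReflTransGen.head_induction_on with
  | refl => exact absurd hv hw
  | @head a b hab _ ih =>
    have h1 := hE a b hab hv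
    by_cases hb : b ∈ B
    · obtain ⟨u, hu, hp⟩ := ih hb
      exact ⟨u, hu, Relation.ReflTransGen.head h1 hp⟩
    · exact ⟨b, hb, Relation.ReflTransGen.single h1⟩

/-- Unit steps. -/
def Uni (a b : ℤ × ℤ) : Prop :=
  b = (a.1 + 1, a.2) ∨ b = (a.1 - 1, a.2) ∨ b = (a.1, a.2 + 1) ∨ b = (a.1, a.2 - 1)

/-- Edges are short and contain the unit steps of the free vertices. -/
structure Lat (F : Finset (ℤ × ℤ)) (E : Finset ((ℤ × ℤ) × (ℤ × ℤ))) : Prop where
  short : ∀ p ∈ E, |p.1.1 - p.2.1| ≤ 1 ∧ |p.1.2 - p.2.2| ≤ 1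
  unit : ∀ a ∈ F, ∀ b, Uni a b → b ∈ nbr E a

variable {F X Q0 B : Finset (ℤ × ℤ)} {E : Finset ((ℤ × ℤ) × (ℤ × ℤ))} {ξ : ℤ × ℤ → ℝ}
  {S : List (((ℤ × ℤ) × (ℤ × ℤ)) × ℝ)} {z w : ℤ × ℤ} {r : ℕ}

/-- The outer region. -/
def oX (F : Finset (ℤ × ℤ)) (z : ℤ × ℤ) (r : ℕ) : Finset (ℤ × ℤ) := F.filter fun u => u ∉ box z r

/-- The inner region. -/
def oQ (F : Finset (ℤ × ℤ)) (z w : ℤ × ℤ) (r : ℕ) : Finset (ℤ × ℤ) :=
  F.filter fun u => u ∈ box z r ∧ u ∉ wall z w r

/-- The separating layer. -/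
def oB (F : Finset (ℤ × ℤ)) (z w : ℤ × ℤ) (r : ℕ) : Finset (ℤ × ℤ) := F.filter fun u => u ∈ wall z w r

theorem inner_step {a b : ℤ × ℤ} (h1 : |a.1 - b.1| ≤ 1 ∧ |a.2 - b.2| ≤ 1) (ha : a ∈ box z r)
    (ha' : a ∉ wall z w r) : b ∈ box z r := by
  rw [mem_wall] at ha'
  rw [mem_box] at ha ⊢
  obtain ⟨h2, h3⟩ := ha
  push Not at ha'
  obtain ⟨h4, h5, -⟩ := ha' ⟨h2, h3⟩
  have h6 : |a.1 - z.1| ≤ r - 1 := by
    have := lt_of_le_of_ne h2 h4
    linarith [Int.le_sub_one_of_lt this]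
  have h7 : |a.2 - z.2| ≤ r - 1 := by
    have := lt_of_le_of_ne h3 h5
    linarith [Int.le_sub_one_of_lt this]
  rw [abs_le] at *
  rw [abs_le] at *
  refine ⟨⟨?_, ?_⟩, ?_, ?_⟩ <;> linarith [h1.1.1, h1.1.2, h1.2.1, h1.2.2]

theorem sep_box (hL : Lat F E) : Sep F (oX F z r) (oQ F z w r) (oB F z w r) E where
  hF := by
    ext u
    simp only [oX, oQ, oB, Finset.mem_union, Finset.mem_filter]
    have : u ∈ wall z w r → u ∈ box z r := fun h => wall_subset h
    tauto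
  dX := by
    rw [Finset.disjoint_left]
    intro u h1 h2
    simp only [oX, oQ, oB, Finset.mem_union, Finset.mem_filter] at h1 h2
    have : u ∈ wall z w r → u ∈ box z r := fun h => wall_subset h
    tauto
  dQ := by
    rw [Finset.disjoint_left]
    intro u h1 h2
    simp only [oQ, oB, Finset.mem_filter] at h1 h2
    tauto
  sep := by
    intro p hp
    obtain ⟨s1, s2⟩ := hL.short p hp
    constructor
    · rintro ⟨h1, h2⟩
      simp only [oX, oQ, Finset.mem_filter] at h1 h2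
      exact h1.2 (inner_step (a := p.2) (b := p.1) ⟨by rw [abs_sub_comm]; exact s1,
        by rw [abs_sub_comm]; exact s2⟩ h2.2.1 h2.2.2)
    · rintro ⟨h1, h2⟩
      simp only [oX, oQ, Finset.mem_filter] at h1 h2
      exact h2.2 (inner_step (a := p.1) (b := p.2) ⟨s1, s2⟩ h1.2.1 h1.2.2)

/-- Edges of the wall survive. -/
theorem wall_edge (hL : Lat F E) {a b : ℤ × ℤ} (h : Stp (wall z w r) a b) (ha : a ∈ F) :
    b ∈ nbr (away (oQ F z w r) (away (oX F z r) E)) a := by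
  obtain ⟨h1, h2, h3⟩ := h
  have h4 := hL.unit a ha b h3
  have key : ∀ u ∈ wall z w r, u ∉ oQ F z w r ∧ u ∉ oX F z r := by
    intro u hu
    simp only [oX, oQ, Finset.mem_filter]
    have : u ∈ box z r := wall_subset hu
    tauto
  rw [mem_nbr] at h4 ⊢
  refine ⟨h4.1, ?_⟩
  rcases h4.2 with h | h
  · exact Or.inl (mem_away.mpr ⟨mem_away.mpr ⟨h, (key a h1).2, (key b h2).2⟩, (key a h1).1,
      (key b h2).1⟩)
  · exact Or.inr (mem_away.mpr ⟨mem_away.mpr ⟨h, (key b h2).2, (key a h1).2⟩, (key b h2).1,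
      (key a h1).1⟩)

theorem card_lay {E' : Finset ((ℤ × ℤ) × (ℤ × ℤ))} (hL : Lat F E) (hE : E' ⊆ E) :
    (lay X E' B).card ≤ 9 * B.card := by
  classical
  have hsub : lay X E' B ⊆ (B ×ˢ (Finset.Icc (-1 : ℤ) 1 ×ˢ Finset.Icc (-1 : ℤ) 1)).image
      fun q => (q.1.1 + q.2.1, q.1.2 + q.2.2) := by
    intro u hu
    rw [lay, Finset.mem_filter] at hu
    obtain ⟨-, b, hb, hbu⟩ := hu
    rw [mem_nbr] at hbu
    have h1 : |u.1 - b.1| ≤ 1 ∧ |u.2 - b.2| ≤ 1 := by
      rcases hbu.2 with h | h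
      · exact hL.short _ (hE h)
      · have := hL.short _ (hE h)
        rw [abs_sub_comm u.1, abs_sub_comm u.2]; exact this
    rw [Finset.mem_image]
    refine ⟨(b, (u.1 - b.1, u.2 - b.2)), ?_, ?_⟩
    · simp only [Finset.mem_product, Finset.mem_Icc]
      exact ⟨hb, abs_le.mp h1.1, abs_le.mp h1.2⟩
    · ext <;> simp
  refine (Finset.card_le_card hsub).trans (Finset.card_image_le.trans ?_)
  rw [Finset.card_product, Finset.card_product]
  simp
  omega

/-- The constant of LEMMA LC. -/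
def KL : ℝ := 8 * (8 / 3) ^ 45

theorem one_le_KL : 1 ≤ KL := by unfold KL; norm_num

theorem const_le (hL : Lat F E) :
    ENNReal.ofReal ((3 / 8) ^ 45 / 4) ^ B.card ≤
      cX X E B ^ 2 * cQ Q0 (away X E) B := by
  have h38 : ENNReal.ofReal (3 / 8) ≤ 1 := by
    rw [← ENNReal.ofReal_one]; exact ENNReal.ofReal_le_ofReal (by norm_num)
  have h1 : ENNReal.ofReal (3 / 8) ^ (36 * B.card) ≤ cX X E B ^ 2 := by
    rw [cX, ← pow_mul]
    refine pow_le_pow_right_of_le_one' h38 ?_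
    have := card_lay (X := X) (B := B) hL (touch_subset (X := X) (E := E))
    omega
  have h2 : ENNReal.ofReal (3 / 8) ^ (9 * B.card) ≤
      ENNReal.ofReal (3 / 8) ^ (lay Q0 (touch Q0 (away X E)) B).card :=
    pow_le_pow_right_of_le_one' h38
      (card_lay hL ((touch_subset (X := Q0) (E := away X E)).trans away_subset))
  calc ENNReal.ofReal ((3 / 8) ^ 45 / 4) ^ B.card
      = ENNReal.ofReal (3 / 8) ^ (36 * B.card) * (ENNReal.ofReal (3 / 8) ^ (9 * B.card) *
          ENNReal.ofReal (1 / 4) ^ B.card) := by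
        rw [show ((3 : ℝ) / 8) ^ 45 / 4 = (3 / 8) ^ 36 * ((3 / 8) ^ 9 * (1 / 4)) by ring,
          ENNReal.ofReal_mul (by positivity), ENNReal.ofReal_mul (by positivity),
          ENNReal.ofReal_pow (by norm_num), ENNReal.ofReal_pow (by norm_num), mul_pow, mul_pow,
          ← pow_mul, ← pow_mul]
    _ ≤ _ := by
        unfold cQ
        exact mul_le_mul' h1 (mul_le_mul' h2 le_rfl)

/-- Division by the constants. -/
theorem divide (hL : Lat F E) (hBc : B.card ≤ 10 * r + 5) {N M : ℝ≥0∞}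
    (h : cX X E B ^ 2 * cQ Q0 (away X E) B * N ≤ 2 ^ B.card * M) :
    N ≤ ENNReal.ofReal KL ^ (10 * r + 5) * M := by
  have hK : ENNReal.ofReal KL * ENNReal.ofReal ((3 / 8) ^ 45 / 4) = 2 := by
    rw [← ENNReal.ofReal_mul (by unfold KL; positivity)]
    have : KL * ((3 / 8) ^ 45 / 4) = 2 := by
      unfold KL
      norm_num
    rw [this]; simp
  have h1 : ENNReal.ofReal ((3 / 8) ^ 45 / 4) ^ B.card * N ≤ 2 ^ B.card * M :=
    (mul_le_mul' (const_le hL) le_rfl).trans h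
  have hc0 : ENNReal.ofReal ((3 / 8) ^ 45 / 4) ^ B.card ≠ 0 := by
    refine pow_ne_zero _ ?_
    rw [Ne, ENNReal.ofReal_eq_zero, not_le]
    positivity
  have hct : ENNReal.ofReal ((3 / 8) ^ 45 / 4) ^ B.card ≠ ∞ :=
    ENNReal.pow_ne_top ENNReal.ofReal_ne_top
  have h2 : N ≤ ENNReal.ofReal KL ^ B.card * M := by
    refine (ENNReal.mul_le_mul_iff_right hc0 hct).1 (h1.trans (le_of_eq ?_))
    rw [← mul_assoc, ← mul_pow, mul_comm (ENNReal.ofReal ((3 / 8) ^ 45 / 4)), hK]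
  refine h2.trans (mul_le_mul' ?_ le_rfl)
  refine pow_le_pow_right₀ ?_ hBc
  rw [← ENNReal.ofReal_one]
  exact ENNReal.ofReal_le_ofReal one_le_KL

theorem card_oB : (oB F z w r).card ≤ 10 * r + 5 := by
  refine (Finset.card_le_card ?_).trans (card_wall z w r)
  intro u hu
  exact (Finset.mem_filter.mp hu).2

/-- The fixed sites of the box joined to a free site of the box carry the value `c0`. -/
def Flt (F : Finset (ℤ × ℤ)) (E : Finset ((ℤ × ℤ) × (ℤ × ℤ))) (ξ : ℤ × ℤ → ℝ) (z : ℤ × ℤ) (r : ℕ)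
    (c0 : ℝ) : Prop :=
  ∀ v ∈ F, v ∈ box z r → ∀ u ∈ nbr E v, u ∈ box z r → u ∉ F → ξ u = c0

theorem box_data {c0 : ℝ} (hL : Lat F E) (hc : Flt F E ξ z r c0) :
    ∀ p ∈ away (oX F z r) E, (p.1 ∈ oQ F z w r → p.2 ∉ oQ F z w r ∪ oB F z w r → ξ p.2 = c0) ∧
      (p.2 ∈ oQ F z w r → p.1 ∉ oQ F z w r ∪ oB F z w r → ξ p.1 = c0) := by
  intro p hp
  obtain ⟨hpE, -, -⟩ := mem_away.mp hp
  obtain ⟨s1, s2⟩ := hL.short p hpE
  have key : ∀ v ∈ oQ F z w r, ∀ u, ((v, u) ∈ E ∨ (u, v) ∈ E) → u ∈ box z r →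
      u ∉ oQ F z w r ∪ oB F z w r → ξ u = c0 := by
    intro v hv u hvu hu h
    simp only [oQ, Finset.mem_filter] at hv
    have huF : u ∉ F := fun hF => h (by
      simp only [oQ, oB, Finset.mem_union, Finset.mem_filter]; tauto)
    refine hc v hv.1 hv.2.1 u ?_ hu huF
    rw [mem_nbr]
    exact ⟨fun h' => huF (h' ▸ hv.1), hvu⟩
  constructor
  · intro h1 h2
    have h1' := h1
    simp only [oQ, Finset.mem_filter] at h1
    exact key _ h1' _ (Or.inl hpE) (inner_step (a := p.1) (b := p.2) ⟨s1, s2⟩ h1.2.1 h1.2.2) h2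
  · intro h1 h2
    have h1' := h1
    simp only [oQ, Finset.mem_filter] at h1
    exact key _ h1' _ (Or.inr hpE) (inner_step (a := p.2) (b := p.1) ⟨by rw [abs_sub_comm]; exact s1,
        by rw [abs_sub_comm]; exact s2⟩ h1.2.1 h1.2.2) h2

theorem box_avoid (hS : ∀ q ∈ S, q.1.1 ∈ box z r ∧ q.1.2 ∈ box z r) :
    ∀ q ∈ S, q.1.1 ∉ oX F z r ∧ q.1.2 ∉ oX F z r := by
  intro q hq
  obtain ⟨h1, h2⟩ := hS q hq
  simp only [oX, Finset.mem_filter]
  tauto

/-- LEMMA LC in a box containing a fixed site. -/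
theorem LC_box_bdry (hL : Lat F E) (hA : Anch F E) (hξ : ∀ u, u ∉ F → |ξ u| ≤ 1 / 2)
    {c0 : ℝ} (hc0 : |c0| ≤ 1 / 2) (hc : Flt F E ξ z r c0)
    (hw : w ∈ box z r) (hwF : w ∉ F)
    {n : ℕ} (hn : ∀ v ∈ F, (nbr E v).card ≤ n) (hS : FreshR F E S)
    (hSb : ∀ q ∈ S, q.1.1 ∈ box z r ∧ q.1.2 ∈ box z r) :
    volume (tightR F E ξ S) ≤
      ENNReal.ofReal KL ^ (10 * r + 5) * (wgt n S * volume (ham F E ξ)) := by
  refine divide (X := oX F z r) (B := oB F z w r) (Q0 := oQ F z w r) hL card_oB ?_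
  have h := LC_tight_bdry (sep_box (z := z) (w := w) (r := r) hL) hA hξ ?_ hc0 (box_data hL hc) hn
    hS (box_avoid hSb)
  · rw [mul_assoc (2 ^ _)] at h; exact h
  · refine anch_of_conn (W := wall z w r) (w := w) ?_ ?_ (fun u hu => wall_conn hw hu) ?_
    · simp only [oB, Finset.mem_filter]; tauto
    · intro u hu; exact (Finset.mem_filter.mp hu).2
    · intro a b hab ha
      exact wall_edge hL hab (Finset.mem_filter.mp ha).1

/-- LEMMA LC in a box of free sites. -/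
theorem LC_box_int (hL : Lat F E) (hA : Anch F E) (hξ : ∀ u, u ∉ F → |ξ u| ≤ 1 / 2)
    (hF : box z r ⊆ F) {R : ℝ} (hR : ∀ x ∈ ham F E ξ, ∀ u, |Ham560.ext F ξ x u| ≤ R)
    {n : ℕ} (hn : ∀ v ∈ F, (nbr E v).card ≤ n) (hS : FreshR F E S)
    (hSb : ∀ q ∈ S, q.1.1 ∈ box z r ∧ q.1.2 ∈ box z r)
    (hSo : ∀ q ∈ S, q.1.1 ≠ (z.1 + r, z.2 + r)) :
    volume (tightR F E ξ S) ≤
      ENNReal.ofReal KL ^ (10 * r + 5) *
        (ENNReal.ofReal (2 * R) * wgt n S * volume (ham F E ξ)) := by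
  set o : ℤ × ℤ := (z.1 + r, z.2 + r) with ho
  have hr : |(r : ℤ)| = r := abs_of_nonneg (by positivity)
  have hob : o ∈ box z r := by
    rw [mem_box, ho]
    simp only [add_sub_cancel_left, hr, le_refl, and_self]
  have how : o ∈ wall z o r := by
    rw [mem_wall]
    exact ⟨mem_box.mp hob, Or.inr (Or.inr rfl)⟩
  have hoB : o ∈ oB F z o r := Finset.mem_filter.mpr ⟨hF hob, how⟩
  refine divide (X := oX F z r) (B := oB F z o r) (Q0 := oQ F z o r) hL card_oB ?_
  have h := LC_tight_int (sep_box (z := z) (w := o) (r := r) hL) hA hξ hoB ?_ (c0 := 0) (by norm_num)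
    (box_data hL fun v _ _ u _ hu huF => absurd (hF hu) huF) (R := R) (fun x hx => hR x hx o) hn hS
    (box_avoid hSb) hSo
  · rw [mul_assoc (2 ^ _), mul_assoc (2 ^ _)] at h; exact h
  · refine anch_of_conn (W := wall z o r) (w := o) (Finset.notMem_erase _ _) ?_
      (fun u hu => wall_conn hob hu) ?_
    · intro u hu; exact (Finset.mem_filter.mp (Finset.mem_of_mem_erase hu)).2
    · intro a b hab ha
      exact wall_edge hL hab (Finset.mem_filter.mp (Finset.mem_of_mem_erase ha)).1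

/-- LEMMA LC in a box. -/
theorem LC_box (hL : Lat F E) (hA : Anch F E) (hξ : ∀ u, u ∉ F → |ξ u| ≤ 1 / 2)
    {c0 : ℝ} (hc0 : |c0| ≤ 1 / 2) (hc : Flt F E ξ z r c0)
    {R : ℝ} (hR : ∀ x ∈ ham F E ξ, ∀ u, |Ham560.ext F ξ x u| ≤ R)
    {n : ℕ} (hn : ∀ v ∈ F, (nbr E v).card ≤ n) (hS : FreshR F E S)
    (hSb : ∀ q ∈ S, q.1.1 ∈ box z r ∧ q.1.2 ∈ box z r)
    (hSo : ∀ q ∈ S, q.1.1 ≠ (z.1 + r, z.2 + r)) :
    volume (tightR F E ξ S) ≤
      ENNReal.ofReal KL ^ (10 * r + 5) *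
        (ENNReal.ofReal (max 1 (2 * R)) * wgt n S * volume (ham F E ξ)) := by
  by_cases hF : box z r ⊆ F
  · refine (LC_box_int hL hA hξ hF hR hn hS hSb hSo).trans (mul_le_mul' le_rfl
      (mul_le_mul' (mul_le_mul' (ENNReal.ofReal_le_ofReal (le_max_right _ _)) le_rfl) le_rfl))
  · rw [Finset.not_subset] at hF
    obtain ⟨w, hw, hwF⟩ := hF
    refine (LC_box_bdry hL hA hξ hc0 hc hw hwF hn hS hSb).trans (mul_le_mul' le_rfl ?_)
    rw [mul_assoc]
    refine le_mul_of_one_le_left' ?_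
    rw [← ENNReal.ofReal_one]
    exact ENNReal.ofReal_le_ofReal (le_max_left _ _)

/-- Probability form. -/
theorem hamP_le {U : Type*} [DecidableEq U] {F : Finset U} {E : Finset (U × U)} {ξ : U → ℝ}
    (hA : Anch F E) (hv : volume (ham F E ξ) ≠ 0) {T : Set (F → ℝ)} (hT : MeasurableSet T)
    {κ : ℝ≥0∞} (h : volume (ham F E ξ ∩ T) ≤ κ * volume (ham F E ξ)) : hamP F E ξ T ≤ κ := by
  rw [hamP, Measure.smul_apply, Measure.restrict_apply hT, smul_eq_mul, inter_comm]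
  calc (volume (ham F E ξ))⁻¹ * volume (ham F E ξ ∩ T)
      ≤ (volume (ham F E ξ))⁻¹ * (κ * volume (ham F E ξ)) := mul_le_mul' le_rfl h
    _ = κ * ((volume (ham F E ξ))⁻¹ * volume (ham F E ξ)) := by ring
    _ = κ := by rw [ENNReal.inv_mul_cancel hv (volume_ham_lt_top hA).ne, mul_one]

theorem isClosed_tightR : IsClosed (tightR F E ξ S) := by
  have : tightR F E ξ S = ham F E ξ ∩ tev F ξ S := rfl
  rw [this]
  exact isClosed_ham.inter isClosed_tev

/-- LEMMA LC in a box, probability form. -/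
theorem LC_box_prob (hL : Lat F E) (hA : Anch F E) (hξ : ∀ u, u ∉ F → |ξ u| ≤ 1 / 2)
    {c0 : ℝ} (hc0 : |c0| ≤ 1 / 2) (hc : Flt F E ξ z r c0)
    {R : ℝ} (hR : ∀ x ∈ ham F E ξ, ∀ u, |Ham560.ext F ξ x u| ≤ R)
    {n : ℕ} (hn : ∀ v ∈ F, (nbr E v).card ≤ n) (hS : FreshR F E S)
    (hSb : ∀ q ∈ S, q.1.1 ∈ box z r ∧ q.1.2 ∈ box z r)
    (hSo : ∀ q ∈ S, q.1.1 ≠ (z.1 + r, z.2 + r)) :
    hamP F E ξ (tightR F E ξ S) ≤
      ENNReal.ofReal KL ^ (10 * r + 5) * (ENNReal.ofReal (max 1 (2 * R)) * wgt n S) := by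
  have hv : volume (ham F E ξ) ≠ 0 := by
    have e : ham F E ξ = ham F E (base F ξ) := ham_congr fun u hu => by rw [base, if_neg hu]
    rw [e]
    exact volume_ham_ne_zero (abs_base_le hξ)
  refine hamP_le hA hv isClosed_tightR.measurableSet ?_
  have e : ham F E ξ ∩ tightR F E ξ S = tightR F E ξ S :=
    inter_eq_right.mpr fun x hx => hx.1
  rw [e, mul_assoc]
  exact LC_box hL hA hξ hc0 hc hR hn hS hSb hSo

end Crest.Agent.R144.LC121
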