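import Crest.Agent.R144.Lc9_279

/-!
R144 (S0197), helper279.  Block LC, file 10: `Cov.main`, the mesoscopic large deviation bound for the
box averages in terms of the window parameters.
-/

set_option autoImplicit false
set_option linter.unusedSectionVars false
set_option linter.unusedVariables false

open MeasureTheory Set
open scoped ENNReal

noncomputable section

namespace Crest.Agent.R144.Lc279

open Crest.Agent.R144.Ham560
open Crest.Agent.R144.Lw425 (hd hd_comm hd_le_iff mem_hball hball mem_inn inn mem_sph sph hd_self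
  hd_triangle hd_pos hd_adj LObs)

variable {U : Type*} [DecidableEq U] {F : Finset U} {E : Finset (U × U)}
variable {κ : Type*} [DecidableEq κ] {σ : Finset κ} {e : κ → P2 → U} {L R K r : ℕ}

/-- The configurations for which the average over the box `j` is wrong. -/
def DS (L r : ℕ) (f : (P2 → ℝ) → ℝ) (a : ℝ) (e : κ → P2 → U) (j : κ) : Set (U → ℝ) :=
  {z | a < |BA L r f (z ∘ e j) - mB L r f|}

/-- Deviation in class `c` and few bad windows. -/
def CS (E : Finset (U × U)) (L R K : ℕ) (f : (P2 → ℝ) → ℝ) (B : Set (P2 → ℝ)) (u v : ℝ)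
    (e : κ → P2 → U) (g : ℝ) (c : ℕ × ℕ) (j : κ) : Set (U → ℝ) :=
  {z | u * (K ^ 2 : ℕ) ≤ CX R K (e j) f g c z -
      Ev ((bx L).image (e j)) (tch E ((bx L).image (e j))) 0 (CX R K (e j) f g c) ∧
    CN R K (e j) B c z ≤ v * (K ^ 2 : ℕ)}

/-- Many bad windows in the box `j`. -/
def NS (R K : ℕ) (B : Set (P2 → ℝ)) (v : ℝ) (e : κ → P2 → U) (j : κ) : Set (U → ℝ) :=
  {z | v * (K ^ 2 : ℕ) * ((2 * R + 2) ^ 2 : ℕ) < ∑ c ∈ sq (2 * R + 2), CN R K (e j) B c z}

theorem Cov.DS_sub (h : Cov F E L σ e) (hL : 0 < L) (hr : r ≤ R)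
    (hK : 2 * R + (2 * R + 2) * K ≤ L)
    {f : (P2 → ℝ) → ℝ} (hm : Measurable f) (hf : ∀ z, |f z| ≤ 1) (hd : DependsOn f (hball r))
    {B : Set (P2 → ℝ)} {a v v' : ℝ} (ha : 0 < a) (hv0 : 0 < v') (hv : 8 * v ≤ v' * a)
    (hη : 8 * ((L : ℝ) ^ 2 - ((2 * R + 2) ^ 2 * K ^ 2 : ℕ)) ≤ a * (L : ℝ) ^ 2) :
    ∀ j ∈ σ, DS L r f a e j ⊆ NS R K B v e j ∪
      ⋃ p ∈ sq (2 * R + 2) ×ˢ ({1, -1} : Finset ℝ), CS E L R K f B (a / 2) v' e p.2 p.1 j := by
  intro j hj z hz
  by_cases hN : z ∈ NS R K B v e j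
  · exact Or.inl hN
  · right
    have hN' : ∑ c ∈ sq (2 * R + 2), CN R K (e j) B c z ≤
        v * (K ^ 2 : ℕ) * ((2 * R + 2) ^ 2 : ℕ) := not_lt.mp hN
    obtain ⟨c, hc, h1, h2⟩ := (h.ch j hj).split hL hr hK hm hf hd ha hv0 hv hη hz hN'
    simp only [mem_iUnion]
    rcases le_abs.mp h2 with h3 | h3
    · exact ⟨(c, 1), Finset.mem_product.mpr ⟨hc, by simp⟩, h3, h1⟩
    · refine ⟨(c, -1), Finset.mem_product.mpr ⟨hc, by simp⟩, ?_, h1⟩
      rw [CX_neg]
      have e1 : Ev ((bx L).image (e j)) (tch E ((bx L).image (e j))) 0 (CX R K (e j) f (-1) c) =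
          -Ev ((bx L).image (e j)) (tch E ((bx L).image (e j))) 0 (CX R K (e j) f 1 c) := by
        rw [← Ev_neg]
        congr 1
        funext z; exact CX_neg z
      rw [e1]
      linarith

theorem Cov.main (h : Cov F E L σ e) (hL : 0 < L) (hr : r ≤ R)
    (hK : 2 * R + (2 * R + 2) * K ≤ L) (hK0 : 0 < K)
    {f : (P2 → ℝ) → ℝ} (hm : Measurable f) (hf : ∀ z, |f z| ≤ 1) (hd : DependsOn f (hball r))
    {B : Set (P2 → ℝ)} {ε C : ℝ} (H : LWin R f B ε C) (hε : 0 ≤ ε)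
    {FF : Finset (List ((P2 × P2) × ℝ))} {q0 : ℝ} (hq0 : 0 ≤ q0) (hq1 : q0 ≤ 1)
    (HB : LBad R B FF (ENNReal.ofReal q0))
    {a v v' t : ℝ} (ha : 0 < a) (hv0 : 0 < v') (hvp : 0 < v) (hv : 8 * v ≤ v' * a)
    (hη : 8 * ((L : ℝ) ^ 2 - ((2 * R + 2) ^ 2 * K ^ 2 : ℕ)) ≤ a * (L : ℝ) ^ 2)
    (ht0 : 0 ≤ t) (ht1 : t ≤ 1) (htC : t * C ≤ 2)
    (hρ : 0 ≤ a / 2 - 2 * v' - ε - 2 * t - 2 * q0) (ξ : U → ℝ) {k k1 k2 m : ℕ} (hk1 : 0 < k1)
    (hk : k1 + 2 * (2 * R + 2) ^ 2 * k2 ≤ k) (hmk : (m : ℝ) ≤ v * (K ^ 2 : ℕ) * k1) :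
    volume (ham F E ξ ∩ {x | k ≤ cnt σ (DS L r f a e) (ext F ξ x)}) ≤
      ((2 * R + 2) ^ 2 : ℕ) * (2 ^ (K ^ 2 * σ.card) * ENNReal.ofReal q0 ^ m +
        2 * (2 ^ σ.card * ENNReal.ofReal (Real.exp (-(t * (K ^ 2 : ℕ) *
          (a / 2 - 2 * v' - ε - 2 * t - 2 * q0) * k2))) *
          2 ^ (F \ σ.biUnion fun j => (bx L).image (e j)).card)) * volume (ham F E 0) := by
  classical
  set ρ := a / 2 - 2 * v' - ε - 2 * t - 2 * q0 with hρ'
  set M := 2 * R + 2 with hM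
  set P := sq M ×ˢ ({1, -1} : Finset ℝ) with hP
  have hPc : P.card = 2 * M ^ 2 := by
    rw [hP, Finset.card_product, card_sq]
    have : ({1, -1} : Finset ℝ).card = 2 := by
      rw [Finset.card_pair]; norm_num
    rw [this]; ring
  -- the event inclusion
  have hsub : ham F E ξ ∩ {x | k ≤ cnt σ (DS L r f a e) (ext F ξ x)} ⊆
      (⋃ c ∈ sq M, (ham F E ξ ∩ {x | (m : ℝ) ≤ TN σ (fun _ => sq K) (fun j => wB R (e j) B c)
        (ext F ξ x)})) ∪
      ⋃ p ∈ P, (ham F E ξ ∩ {x | k2 ≤ cnt σ (CS E L R K f B (a / 2) v' e p.2 p.1)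
        (ext F ξ x)}) := by
    rintro x ⟨hx, hx'⟩
    set z := ext F ξ x with hz
    have hx'' : k ≤ cnt σ (DS L r f a e) z := hx'
    have h1 : cnt σ (DS L r f a e) z ≤ cnt σ (NS R K B v e) z +
        ∑ p ∈ P, cnt σ (CS E L R K f B (a / 2) v' e p.2 p.1) z := by
      refine (cnt_mono (h.DS_sub hL hr hK hm hf hd (B := B) ha hv0 hv hη) z).trans ?_
      exact (cnt_union_le z).trans (Nat.add_le_add_left (cnt_iUnion_le _ z) _)
    by_cases h2 : k1 ≤ cnt σ (NS R K B v e) z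
    · left
      simp only [mem_iUnion]
      -- some class has many bad windows
      have h3 : ((k1 : ℝ) * (v * (K ^ 2 : ℕ))) * (M ^ 2 : ℕ) ≤
          ∑ c ∈ sq M, TN σ (fun _ => sq K) (fun j => wB R (e j) B c) z := by
        have e1 : ∑ c ∈ sq M, TN σ (fun _ => sq K) (fun j => wB R (e j) B c) z =
            ∑ j ∈ σ, ∑ c ∈ sq M, CN R K (e j) B c z := by
          unfold TN
          rw [Finset.sum_comm]
        rw [e1]
        rw [cnt_eq] at h2
        calc ((k1 : ℝ) * (v * (K ^ 2 : ℕ))) * (M ^ 2 : ℕ)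
            ≤ ((σ.filter fun j => z ∈ NS R K B v e j).card : ℝ) *
              (v * (K ^ 2 : ℕ) * (M ^ 2 : ℕ)) := by
              have : (k1 : ℝ) ≤ ((σ.filter fun j => z ∈ NS R K B v e j).card : ℝ) := by
                exact_mod_cast h2
              have h4 : (0 : ℝ) ≤ v * (K ^ 2 : ℕ) * (M ^ 2 : ℕ) := by positivity
              nlinarith [mul_le_mul_of_nonneg_right this h4]
          _ = ∑ j ∈ σ.filter fun j => z ∈ NS R K B v e j, v * (K ^ 2 : ℕ) * (M ^ 2 : ℕ) := by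
              rw [Finset.sum_const, nsmul_eq_mul]
          _ ≤ ∑ j ∈ σ.filter fun j => z ∈ NS R K B v e j, ∑ c ∈ sq M, CN R K (e j) B c z := by
              refine Finset.sum_le_sum fun j hj => ?_
              have h5 : z ∈ NS R K B v e j := (Finset.mem_filter.mp hj).2
              exact le_of_lt h5
          _ ≤ _ := Finset.sum_le_sum_of_subset_of_nonneg (Finset.filter_subset _ _)
              fun j _ _ => Finset.sum_nonneg fun c _ => SN_nonneg _ _ _
      by_contra hcon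
      push Not at hcon
      have h4 : ∀ c ∈ sq M, TN σ (fun _ => sq K) (fun j => wB R (e j) B c) z <
          (k1 : ℝ) * (v * (K ^ 2 : ℕ)) := by
        intro c hc
        have h5 : ¬ (m : ℝ) ≤ TN σ (fun _ => sq K) (fun j => wB R (e j) B c) z := fun h6 =>
          hcon c hc ⟨hx, h6⟩
        have h7 := lt_of_lt_of_le (not_le.mp h5) hmk
        linarith
      have hne : (sq M).Nonempty := by
        refine ⟨(0, 0), mem_sq.mpr ⟨?_, ?_⟩⟩ <;> omega
      have h5 := Finset.sum_lt_sum_of_nonempty hne h4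
      rw [Finset.sum_const, nsmul_eq_mul, card_sq] at h5
      linarith
    · right
      simp only [mem_iUnion]
      by_contra hcon
      push Not at hcon
      have h3 : ∀ p ∈ P, cnt σ (CS E L R K f B (a / 2) v' e p.2 p.1) z ≤ k2 := by
        intro p hp
        have h5 : ¬ k2 ≤ cnt σ (CS E L R K f B (a / 2) v' e p.2 p.1) z := fun h6 =>
          hcon p hp ⟨hx, h6⟩
        omega
      have h4 := Finset.sum_le_card_nsmul _ _ k2 h3
      rw [hPc, smul_eq_mul] at h4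
      omega
  refine (measure_mono hsub).trans ((measure_union_le _ _).trans ?_)
  have hq1' : ENNReal.ofReal q0 ≤ 1 := by
    rw [← ENNReal.ofReal_one]; exact ENNReal.ofReal_le_ofReal hq1
  have b1 : volume (⋃ c ∈ sq M, (ham F E ξ ∩ {x | (m : ℝ) ≤ TN σ (fun _ => sq K)
      (fun j => wB R (e j) B c) (ext F ξ x)})) ≤
      (M ^ 2 : ℕ) * (2 ^ (K ^ 2 * σ.card) * ENNReal.ofReal q0 ^ m * volume (ham F E 0)) := by
    refine (measure_biUnion_finset_le _ _).trans ?_
    refine (Finset.sum_le_card_nsmul _ _ _ fun c hc => h.bad hK hc hq1' HB m).trans ?_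
    rw [card_sq, nsmul_eq_mul]
  have b2 : volume (⋃ p ∈ P, (ham F E ξ ∩ {x | k2 ≤ cnt σ
      (CS E L R K f B (a / 2) v' e p.2 p.1) (ext F ξ x)})) ≤
      ((2 * M ^ 2 : ℕ) : ℝ≥0∞) * (2 ^ σ.card * ENNReal.ofReal (Real.exp
        (-(t * (K ^ 2 : ℕ) * ρ * k2))) *
        2 ^ (F \ σ.biUnion fun j => (bx L).image (e j)).card * volume (ham F E 0)) := by
    refine (measure_biUnion_finset_le _ _).trans ?_
    refine (Finset.sum_le_card_nsmul _ _
      (2 ^ σ.card * ENNReal.ofReal (Real.exp (-(t * (K ^ 2 : ℕ) * ρ * k2))) *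
        2 ^ (F \ σ.biUnion fun j => (bx L).image (e j)).card * volume (ham F E 0))
      fun p hp => ?_).trans ?_
    · rw [hP, Finset.mem_product] at hp
      have hlev := h.lev hK H hp.1
      have hg : |p.2| ≤ 1 := by
        have := hp.2
        rw [Finset.mem_insert, Finset.mem_singleton] at this
        rcases this with h1 | h1 <;> rw [h1] <;> norm_num
      refine hlev.meso (a := fun _ _ => p.2) (fun _ _ _ _ => hg) ht0 ht1 htC hε ξ
        (fun _ _ => card_sq K) (q0 := q0) ?_ (u := a / 2) (v := v') hρ k2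
      intro j hj
      exact (h.ch j hj).ref_bad (fun w hw => h.deg w (h.sub j hj hw)) hK hp.1 H.win.mB hq0 HB
    · rw [hPc, nsmul_eq_mul]
  refine (add_le_add b1 b2).trans (le_of_eq ?_)
  push_cast
  ring

end Crest.Agent.R144.Lc279
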