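import Crest.Agent.R144.Lc10_279
import Crest.Agent.R144.Lw7_425

/-!
R144 (S0197), helper279.  Block LC, file 11: `meso`, the mesoscopic large deviation theorem for every
bounded local observable (425's window input plugged in, parameters chosen).
-/

set_option autoImplicit false
set_option linter.unusedSectionVars false
set_option linter.unusedVariables false

open MeasureTheory Set
open scoped ENNReal

noncomputable section

namespace Crest.Agent.R144.Lc279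

open Crest.Agent.R144.Ham560
open Crest.Agent.R144.Lw425 (hd hd_comm hd_le_iff mem_hball hball mem_inn inn mem_sph sph hd_self
  hd_triangle hd_pos hd_adj LObs)

theorem lat_eq (W : Finset P2) : Lw425.lat W = lat W := by
  ext p
  rw [Lw425.mem_lat, mem_lat]

theorem LObs.dep {r : ℕ} {f : (P2 → ℝ) → ℝ} (hf : LObs r f) : DependsOn f (hball r) :=
  fun z z' hz => hf.loc z z' fun a ha => hz a (Finset.mem_coe.mpr ha)

/-- 425's window input in the present notation. -/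
theorem win_input {r : ℕ} {f : (P2 → ℝ) → ℝ} (hf : LObs r f) {ε : ℝ} (hε : 0 < ε) {q0 : ℝ}
    (hq : 0 < q0) : ∃ (R : ℕ) (C : ℝ) (B : Set (P2 → ℝ)) (FF : Finset (List ((P2 × P2) × ℝ))),
      r ≤ R ∧ 0 ≤ C ∧ LWin R f B ε C ∧ LBad R B FF (ENNReal.ofReal q0) := by
  obtain ⟨R, C, B, FF, h1, h2, h3, h4, h5, h6, _, h8⟩ :=
    Lw425.window_input' hf hε (ENNReal.ofReal_pos.mpr hq)
  rw [lat_eq] at h3 h5
  refine ⟨R, C, B, FF, h1.le, h2, ⟨h3, ?_, h4⟩, ⟨h5, ?_, h8⟩⟩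
  · exact dep_mono (LObs.dep hf) (Finset.coe_subset.mpr (hball_mono h1.le))
  · intro S hS
    have := h6 S hS
    rwa [lat_eq] at this

/-! ### Choice of the parameters -/

/-- Elementary bound for the first error term. -/
theorem term_one {q0 x y : ℝ} (hq : 0 < q0) (hqx : q0 ≤ Real.exp (-x)) {n m : ℕ} (hx : 0 ≤ x)
    (hm : 2 * n ≤ x * m) (hy : y ≤ n) :
    (2 : ℝ) ^ n * q0 ^ m ≤ Real.exp (-y) := by
  have h1 : (2 : ℝ) ^ n ≤ Real.exp n := by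
    rw [← Real.exp_one_rpow, ← Real.rpow_natCast]
    exact Real.rpow_le_rpow (by norm_num) (by linarith [Real.exp_one_gt_d9]) (Nat.cast_nonneg _)
  have h2 : q0 ^ m ≤ Real.exp (-(x * m)) := by
    have h3 := pow_le_pow_left₀ hq.le hqx m
    rw [← Real.exp_nat_mul] at h3
    refine h3.trans (le_of_eq ?_)
    congr 1; ring
  calc (2 : ℝ) ^ n * q0 ^ m ≤ Real.exp n * Real.exp (-(x * m)) :=
        mul_le_mul h1 h2 (by positivity) (by positivity)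
    _ = Real.exp (n - x * m) := by rw [← Real.exp_add]; congr 1
    _ ≤ _ := Real.exp_le_exp.mpr (by linarith)

theorem term_two {x y : ℝ} {N S : ℕ} (h : (N : ℝ) + S - x ≤ -y) :
    (2 : ℝ) ^ N * Real.exp (-x) * 2 ^ S ≤ Real.exp (-y) := by
  have h1 : ∀ n : ℕ, (2 : ℝ) ^ n ≤ Real.exp n := by
    intro n
    rw [← Real.exp_one_rpow, ← Real.rpow_natCast]
    exact Real.rpow_le_rpow (by norm_num) (by linarith [Real.exp_one_gt_d9]) (Nat.cast_nonneg _)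
  calc (2 : ℝ) ^ N * Real.exp (-x) * 2 ^ S ≤ Real.exp N * Real.exp (-x) * Real.exp S :=
        mul_le_mul (mul_le_mul_of_nonneg_right (h1 N) (by positivity)) (h1 S) (by positivity)
          (by positivity)
    _ = Real.exp (N + S - x) := by rw [← Real.exp_add, ← Real.exp_add]; congr 1; ring
    _ ≤ _ := Real.exp_le_exp.mpr h


/-- Number of windows per row. -/
theorem exists_K {L M R : ℕ} (hM : 0 < M) (hRM : 2 * R ≤ M) (hML : 8 * M ≤ L) :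
    ∃ K : ℕ, 0 < K ∧ 2 * R + M * K ≤ L ∧ L ≤ 2 * R + M * K + M := by
  have h1 := Nat.mul_div_le (L - 2 * R) M
  have h2 := Nat.lt_mul_div_succ (L - 2 * R) (b := M) hM
  rw [Nat.mul_add, Nat.mul_one] at h2
  refine ⟨(L - 2 * R) / M, ?_, by omega, by omega⟩
  exact Nat.div_pos (by omega) hM

/-- The windows cover the box up to a small fraction. -/
theorem K_bounds {L M R K : ℕ} {a : ℝ} (ha : 0 < a) (hRM : 2 * R ≤ M) (hML : 8 * M ≤ L)
    (h2 : L ≤ 2 * R + M * K + M) (b1 : 64 * (M : ℝ) / a ≤ L) :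
    (L : ℝ) ^ 2 ≤ 4 * (M : ℝ) ^ 2 * (K : ℝ) ^ 2 ∧
      8 * ((L : ℝ) ^ 2 - (M : ℝ) ^ 2 * (K : ℝ) ^ 2) ≤ a * (L : ℝ) ^ 2 := by
  have hK2' : (L : ℝ) ≤ 2 * R + M * K + M := by exact_mod_cast h2
  have hRM' : 2 * (R : ℝ) ≤ M := by exact_mod_cast hRM
  have b4 : 8 * (M : ℝ) ≤ L := by exact_mod_cast hML
  have hM0 : (0 : ℝ) ≤ M := Nat.cast_nonneg _
  have hL0 : (0 : ℝ) ≤ L := Nat.cast_nonneg _
  have hMK : (L : ℝ) ≤ 2 * (M * K) := by linarith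
  constructor
  · calc (L : ℝ) ^ 2 ≤ (2 * (M * K)) ^ 2 := pow_le_pow_left₀ hL0 hMK 2
      _ = _ := by ring
  · have h1 : (L : ℝ) - 2 * M ≤ M * K := by linarith
    have h2 : 0 ≤ (L : ℝ) - 2 * M := by linarith
    have h3 : ((L : ℝ) - 2 * M) ^ 2 ≤ (M * K) ^ 2 := pow_le_pow_left₀ h2 h1 2
    have h4 : 64 * (M : ℝ) ≤ a * L := by
      rw [div_le_iff₀ ha] at b1; linarith
    have h5 : 64 * (M : ℝ) * L ≤ a * L * L := mul_le_mul_of_nonneg_right h4 hL0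
    have h6 : 0 ≤ (M : ℝ) * L := by positivity
    nlinarith

/-- Choice of the counts. -/
theorem counts {M : ℕ} {N : ℕ} {a : ℝ} (hM : (2 : ℝ) ≤ M) (ha : 0 < a)
    (hN : 16 * (M : ℝ) ^ 2 / a ≤ N) :
    ∃ k1 k2 : ℕ, 0 < k1 ∧ a * N / 4 ≤ k1 ∧ a * N / (16 * (M : ℝ) ^ 2) ≤ k2 ∧
      k1 + 2 * M ^ 2 * k2 ≤ ⌈a * (N : ℝ)⌉₊ := by
  have hM0 : (0 : ℝ) < M := by linarith
  have haN : 16 * (M : ℝ) ^ 2 ≤ a * N := by
    rw [div_le_iff₀ ha] at hN; linarith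
  have haN64 : 64 ≤ a * N := by nlinarith
  have ck1 : a * N / 4 ≤ (⌈a * (N : ℝ) / 4⌉₊ : ℝ) := Nat.le_ceil _
  have ck1' : (⌈a * (N : ℝ) / 4⌉₊ : ℝ) < a * N / 4 + 1 := Nat.ceil_lt_add_one (by positivity)
  have ck2 : (⌊a * (N : ℝ) / (8 * (M : ℝ) ^ 2)⌋₊ : ℝ) ≤ a * N / (8 * (M : ℝ) ^ 2) :=
    Nat.floor_le (by positivity)
  have ck2' : a * N / (8 * (M : ℝ) ^ 2) - 1 < (⌊a * (N : ℝ) / (8 * (M : ℝ) ^ 2)⌋₊ : ℝ) :=
    Nat.sub_one_lt_floor _
  have ck : a * N ≤ (⌈a * (N : ℝ)⌉₊ : ℝ) := Nat.le_ceil _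
  refine ⟨⌈a * (N : ℝ) / 4⌉₊, ⌊a * (N : ℝ) / (8 * (M : ℝ) ^ 2)⌋₊, ?_, ck1, ?_, ?_⟩
  · have : (0 : ℝ) < (⌈a * (N : ℝ) / 4⌉₊ : ℝ) := by linarith
    exact_mod_cast this
  · have h1 : a * N / (8 * (M : ℝ) ^ 2) = 2 * (a * N / (16 * (M : ℝ) ^ 2)) := by
      field_simp; ring
    have h2 : 1 ≤ a * N / (16 * (M : ℝ) ^ 2) := by
      rw [le_div_iff₀ (by positivity)]; linarith
    linarith
  · have h1 : ((⌈a * (N : ℝ) / 4⌉₊ + 2 * M ^ 2 * ⌊a * (N : ℝ) / (8 * (M : ℝ) ^ 2)⌋₊ : ℕ) : ℝ) ≤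
        (⌈a * (N : ℝ)⌉₊ : ℝ) := by
      push_cast
      have h2 : 2 * (M : ℝ) ^ 2 * (⌊a * (N : ℝ) / (8 * (M : ℝ) ^ 2)⌋₊ : ℝ) ≤ a * N / 4 := by
        calc 2 * (M : ℝ) ^ 2 * (⌊a * (N : ℝ) / (8 * (M : ℝ) ^ 2)⌋₊ : ℝ) ≤
              2 * (M : ℝ) ^ 2 * (a * N / (8 * (M : ℝ) ^ 2)) :=
              mul_le_mul_of_nonneg_left ck2 (by positivity)
          _ = a * N / 4 := by field_simp; ring
      linarith
    exact_mod_cast h1

/-- First numerical input: enough windows. -/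
theorem est_vn {v a M L n : ℝ} (hv : 0 < v) (ha : 0 < a) (hM : 0 < M)
    (b2 : 4 * M * (1 + 8 / (v * a)) ≤ L) (hn' : L ^ 2 ≤ 4 * M ^ 2 * n) :
    8 ≤ v * a * n := by
  have hva : 0 < v * a := mul_pos hv ha
  have h8 : 0 < 8 / (v * a) := by positivity
  have h0 : 4 * M * (1 + 8 / (v * a)) = 4 * M + 4 * M * (8 / (v * a)) := by ring
  have h0' : 0 < 4 * M * (8 / (v * a)) := by positivity
  have h1 : 4 * M * (8 / (v * a)) ≤ L := by linarith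
  have h1' : 4 * M ≤ L := by linarith
  have hL : 0 < L := by linarith
  have h2 : (4 * M) * (4 * M * (8 / (v * a))) ≤ L * L := mul_le_mul h1' h1 h0'.le hL.le
  have h3 : (4 * M) * (4 * M * (8 / (v * a))) = 4 * M ^ 2 * (4 * (8 / (v * a))) := by ring
  have h6 : 4 * M ^ 2 * (4 * (8 / (v * a))) ≤ 4 * M ^ 2 * n := by
    rw [← h3]
    refine h2.trans ?_
    rw [← pow_two]; exact hn'
  have h7 := le_of_mul_le_mul_left h6 (by positivity)
  have h5 : 8 / (v * a) ≤ n := by linarith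
  rw [div_le_iff₀ hva] at h5
  linarith

/-- Second numerical input: the number of bad windows dominates the entropy. -/
theorem est_m {v a x n N k1 m : ℝ} (hv : 0 < v) (ha : 0 < a) (hx : x = 16 / (v * a)) (hn : 0 < n)
    (hN : 1 ≤ N) (hvn : 8 ≤ v * a * n) (ck1 : a * N / 4 ≤ k1) (cm : v * n * k1 - 1 < m) :
    2 * (n * N) ≤ x * m := by
  have h1 : v * n * (a * N / 4) - 1 ≤ m := by
    have : v * n * (a * N / 4) ≤ v * n * k1 := mul_le_mul_of_nonneg_left ck1 (by positivity)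
    linarith
  have e1 : v * n * (a * N / 8) = v * a * n * N / 8 := by ring
  have h3 : 1 ≤ v * n * (a * N / 8) := by
    rw [e1]
    have : 8 * 1 ≤ v * a * n * N := mul_le_mul hvn hN (by norm_num) (by positivity)
    linarith
  have h2 : v * n * (a * N / 8) ≤ m := by
    have e2 : v * n * (a * N / 4) = 2 * (v * n * (a * N / 8)) := by ring
    linarith
  have hx0 : 0 < x := by rw [hx]; positivity
  have h4 := mul_le_mul_of_nonneg_left h2 hx0.le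
  have h5 : x * (v * n * (a * N / 8)) = 2 * (n * N) := by
    rw [hx]; field_simp; norm_num
  linarith

/-- Third numerical input. -/
theorem est_t {t a M L n N ρ k2 η : ℝ} (ht : 0 < t) (ha : 0 < a) (hM : 0 < M) (hn : 0 < n)
    (hN : 0 < N) (hη : η = t * a ^ 2 / (1024 * M ^ 4)) (hn' : L ^ 2 ≤ 4 * M ^ 2 * n)
    (hρ : a / 4 ≤ ρ) (hk2 : a * N / (16 * M ^ 2) ≤ k2) :
    4 * (η * L ^ 2 * N) ≤ t * n * ρ * k2 := by
  have hη0 : 0 < η := by rw [hη]; positivity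
  have h1 : t * n * (a / 4) * (a * N / (16 * M ^ 2)) ≤ t * n * ρ * k2 := by
    have h2 : t * n * (a / 4) ≤ t * n * ρ := mul_le_mul_of_nonneg_left hρ (by positivity)
    have h0 : 0 ≤ a * N / (16 * M ^ 2) := by positivity
    refine mul_le_mul h2 hk2 h0 ?_
    have : 0 < ρ := by linarith
    positivity
  have h2 : t * n * (a / 4) * (a * N / (16 * M ^ 2)) = 4 * (η * (4 * M ^ 2 * n) * N) := by
    rw [hη]; field_simp; norm_num
  have h3 : η * L ^ 2 * N ≤ η * (4 * M ^ 2 * n) * N :=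
    mul_le_mul_of_nonneg_right (mul_le_mul_of_nonneg_left hn' hη0.le) hN.le
  rw [h2] at h1
  linarith

/-- The numerical estimate. -/
theorem est {v a x q0 t ρ η : ℝ} {M L K N S k1 k2 m : ℕ} (hv : 0 < v) (ha : 0 < a)
    (hx : x = 16 / (v * a)) (hq : 0 < q0) (hqx : q0 ≤ Real.exp (-x)) (ht : 0 < t)
    (hρ : a / 4 ≤ ρ) (hM : (2 : ℝ) ≤ M) (hη : η = t * a ^ 2 / (1024 * (M : ℝ) ^ 4))
    (hη1 : 2 * η * (4 * (M : ℝ) ^ 2) ≤ 1) (b2 : 4 * (M : ℝ) * (1 + 8 / (v * a)) ≤ L)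
    (b3 : 3 * (M : ℝ) ^ 2 / η ≤ L) (hN : 0 < N) (hK : 0 < K)
    (hn : (L : ℝ) ^ 2 ≤ 4 * (M : ℝ) ^ 2 * (K : ℝ) ^ 2) (ck1 : a * N / 4 ≤ k1)
    (hk2 : a * N / (16 * (M : ℝ) ^ 2) ≤ k2) (cm : v * (K : ℝ) ^ 2 * k1 - 1 < m)
    (hS : (S : ℝ) ≤ η * (L : ℝ) ^ 2 * N) :
    ((M : ℝ) ^ 2) * ((2 : ℝ) ^ (K ^ 2 * N) * q0 ^ m +
      2 * ((2 : ℝ) ^ N * Real.exp (-(t * (K : ℝ) ^ 2 * ρ * k2)) * 2 ^ S)) ≤
      Real.exp (-(η * (L : ℝ) ^ 2 * N)) := by
  have hM0 : (0 : ℝ) < M := by linarith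
  have hη0 : 0 < η := by rw [hη]; positivity
  have hN1 : (1 : ℝ) ≤ N := by exact_mod_cast hN
  have hKr : (1 : ℝ) ≤ K := by exact_mod_cast hK
  have hK2 : (0 : ℝ) < (K : ℝ) ^ 2 := by positivity
  have hvn := est_vn hv ha hM0 b2 hn
  have hm := est_m hv ha hx hK2 hN1 hvn ck1 cm
  have hx2 := est_t ht ha hM0 hK2 (by linarith) hη hn hρ hk2
  have hx0 : 0 < x := by rw [hx]; positivity
  have hL1 : (1 : ℝ) ≤ L := by
    have h0 : (0 : ℝ) < L := lt_of_lt_of_le (by positivity) b3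
    have : 0 < L := by exact_mod_cast h0
    exact_mod_cast this
  have hb3 : 3 * (M : ℝ) ^ 2 ≤ L * η := by rwa [div_le_iff₀ hη0] at b3
  have hLL : (L : ℝ) * η ≤ η * (L : ℝ) ^ 2 := by
    have h1 : (L : ℝ) ≤ (L : ℝ) ^ 2 := by nlinarith
    have h2 := mul_le_mul_of_nonneg_left h1 hη0.le
    linarith
  have hM4 : (4 : ℝ) ≤ (M : ℝ) ^ 2 := by nlinarith
  have hηL1 : 1 ≤ η * (L : ℝ) ^ 2 := by linarith
  have hηN : η * (L : ℝ) ^ 2 ≤ η * (L : ℝ) ^ 2 * N := le_mul_of_one_le_right (by positivity) hN1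
  have hηL3 : 3 * (M : ℝ) ^ 2 ≤ η * (L : ℝ) ^ 2 * N := by linarith
  have hNη : (N : ℝ) ≤ η * (L : ℝ) ^ 2 * N := le_mul_of_one_le_left (by positivity) hηL1
  have hy1 : 2 * (η * (L : ℝ) ^ 2 * N) ≤ ((K ^ 2 * N : ℕ) : ℝ) := by
    push_cast
    have h1 : 2 * η * (L : ℝ) ^ 2 ≤ (K : ℝ) ^ 2 := by
      have h2 : 2 * η * (L : ℝ) ^ 2 ≤ 2 * η * (4 * (M : ℝ) ^ 2 * (K : ℝ) ^ 2) :=
        mul_le_mul_of_nonneg_left hn (by positivity)
      have h3 : 2 * η * (4 * (M : ℝ) ^ 2 * (K : ℝ) ^ 2) =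
          (2 * η * (4 * (M : ℝ) ^ 2)) * (K : ℝ) ^ 2 := by ring
      have h4 : (2 * η * (4 * (M : ℝ) ^ 2)) * (K : ℝ) ^ 2 ≤ 1 * (K : ℝ) ^ 2 :=
        mul_le_mul_of_nonneg_right hη1 hK2.le
      linarith
    have h2 := mul_le_mul_of_nonneg_right h1 (by linarith : (0 : ℝ) ≤ N)
    linarith
  have T1 : (2 : ℝ) ^ (K ^ 2 * N) * q0 ^ m ≤ Real.exp (-(2 * (η * (L : ℝ) ^ 2 * N))) := by
    refine term_one hq hqx hx0.le ?_ hy1
    push_cast
    exact hm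
  have T2 : (2 : ℝ) ^ N * Real.exp (-(t * (K : ℝ) ^ 2 * ρ * k2)) * 2 ^ S ≤
      Real.exp (-(2 * (η * (L : ℝ) ^ 2 * N))) := term_two (by linarith)
  have h1 : ((M : ℝ) ^ 2) * ((2 : ℝ) ^ (K ^ 2 * N) * q0 ^ m +
      2 * ((2 : ℝ) ^ N * Real.exp (-(t * (K : ℝ) ^ 2 * ρ * k2)) * 2 ^ S)) ≤
      (M : ℝ) ^ 2 * (Real.exp (-(2 * (η * (L : ℝ) ^ 2 * N))) +
        2 * Real.exp (-(2 * (η * (L : ℝ) ^ 2 * N)))) :=
    mul_le_mul_of_nonneg_left (add_le_add T1 (mul_le_mul_of_nonneg_left T2 (by norm_num)))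
      (by positivity)
  refine h1.trans ?_
  have h3 : 3 * (M : ℝ) ^ 2 ≤ Real.exp (η * (L : ℝ) ^ 2 * N) := by
    have := Real.add_one_le_exp (η * (L : ℝ) ^ 2 * N)
    linarith
  calc (M : ℝ) ^ 2 * (Real.exp (-(2 * (η * (L : ℝ) ^ 2 * N))) +
        2 * Real.exp (-(2 * (η * (L : ℝ) ^ 2 * N)))) =
        3 * (M : ℝ) ^ 2 * Real.exp (-(2 * (η * (L : ℝ) ^ 2 * N))) := by ring
    _ ≤ Real.exp (η * (L : ℝ) ^ 2 * N) * Real.exp (-(2 * (η * (L : ℝ) ^ 2 * N))) :=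
        mul_le_mul_of_nonneg_right h3 (Real.exp_pos _).le
    _ = _ := by rw [← Real.exp_add]; congr 1; ring

/-- Passing to `ℝ≥0∞`. -/
theorem est_enn {q0 y : ℝ} (hq : 0 ≤ q0) (M a m N S : ℕ) :
    (((M ^ 2 : ℕ) : ℝ≥0∞)) * (2 ^ a * ENNReal.ofReal q0 ^ m +
        2 * (2 ^ N * ENNReal.ofReal (Real.exp y) * 2 ^ S)) =
      ENNReal.ofReal (((M : ℝ) ^ 2) * ((2 : ℝ) ^ a * q0 ^ m +
      2 * ((2 : ℝ) ^ N * Real.exp y * 2 ^ S))) := by
  have two : ENNReal.ofReal 2 = 2 := by norm_num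
  rw [ENNReal.ofReal_mul (by positivity), ENNReal.ofReal_add (by positivity) (by positivity),
    ENNReal.ofReal_mul (by positivity), ENNReal.ofReal_mul (by norm_num),
    ENNReal.ofReal_mul (by positivity), ENNReal.ofReal_mul (by positivity),
    ENNReal.ofReal_pow (by norm_num), ENNReal.ofReal_pow hq,
    ENNReal.ofReal_pow (by norm_num), ENNReal.ofReal_pow (by norm_num),
    ENNReal.ofReal_pow (by positivity), ENNReal.ofReal_natCast]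
  simp only [two]
  push_cast
  rfl

/-- **Mesoscopic large deviations** for every local observable: in a system covered by `N` boxes of
side `L` up to `η L² N` sites, all boxes but `a N` have box average within `a` of the reference value
`mB L r f`, up to a set of volume `exp (-η L² N) * vol (ham F E 0)`. -/
theorem meso {r : ℕ} {f : (P2 → ℝ) → ℝ} (hf : LObs r f) {a : ℝ} (ha : 0 < a) (ha1 : a ≤ 1) :
    ∃ η : ℝ, 0 < η ∧ ∃ L1 N1 : ℕ, 0 < L1 ∧ 0 < N1 ∧ ∀ L : ℕ, L1 ≤ L →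
      ∀ (U : Type) [DecidableEq U] (F : Finset U) (E : Finset (U × U)) (κ : Type) [DecidableEq κ]
        (σ : Finset κ) (e : κ → P2 → U), Cov F E L σ e → N1 ≤ σ.card →
        ((F \ σ.biUnion fun j => (bx L).image (e j)).card : ℝ) ≤ η * L ^ 2 * σ.card →
        ∀ ξ : U → ℝ,
          volume (ham F E ξ ∩ {x | a * σ.card ≤ cnt σ (DS L r f a e) (ext F ξ x)}) ≤
            ENNReal.ofReal (Real.exp (-(η * L ^ 2 * σ.card))) * volume (ham F E 0) := by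
  -- parameters
  obtain ⟨v', hv'⟩ : ∃ v' : ℝ, v' = a / 32 := ⟨_, rfl⟩
  obtain ⟨v, hv⟩ : ∃ v : ℝ, v = v' * a / 8 := ⟨_, rfl⟩
  have hv'0 : 0 < v' := by rw [hv']; positivity
  have hv0 : 0 < v := by rw [hv]; positivity
  obtain ⟨x, hx⟩ : ∃ x : ℝ, x = 16 / (v * a) := ⟨_, rfl⟩
  have hx0 : 0 < x := by rw [hx]; positivity
  obtain ⟨q0, hq00, hq1, hq2⟩ : ∃ q0 : ℝ, 0 < q0 ∧ q0 ≤ a / 32 ∧ q0 ≤ Real.exp (-x) :=
    ⟨min (a / 32) (Real.exp (-x)), lt_min (by positivity) (Real.exp_pos _), min_le_left _ _,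
      min_le_right _ _⟩
  obtain ⟨R, C, B, FF, hrR, hC, HW, HB⟩ := win_input hf (ε := a / 32) (by positivity) hq00
  obtain ⟨t, ht0, ht1, ht2⟩ : ∃ t : ℝ, 0 < t ∧ t ≤ a / 32 ∧ t * C ≤ 2 := by
    refine ⟨min (a / 32) (2 / (C + 1)), lt_min (by positivity) (by positivity), min_le_left _ _, ?_⟩
    calc min (a / 32) (2 / (C + 1)) * C ≤ 2 / (C + 1) * C :=
          mul_le_mul_of_nonneg_right (min_le_right _ _) hC
      _ ≤ 2 := by rw [div_mul_eq_mul_div, div_le_iff₀ (by positivity)]; nlinarith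
  obtain ⟨M, hM⟩ : ∃ M : ℕ, M = 2 * R + 2 := ⟨_, rfl⟩
  have hM2 : (2 : ℝ) ≤ M := by rw [hM]; push_cast; have := Nat.cast_nonneg (α := ℝ) R; linarith
  have hM0 : (0 : ℝ) < M := by linarith
  have hMp : 0 < M := by omega
  obtain ⟨η, hη⟩ : ∃ η : ℝ, η = t * a ^ 2 / (1024 * (M : ℝ) ^ 4) := ⟨_, rfl⟩
  have hη0 : 0 < η := by rw [hη]; positivity
  have hη1 : 2 * η * (4 * (M : ℝ) ^ 2) ≤ 1 := by
    have h1 : t * a ^ 2 ≤ 1 := by
      have : t ≤ 1 := by linarith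
      have h2 : a ^ 2 ≤ 1 := pow_le_one₀ ha.le ha1
      nlinarith
    have h2 : η * (M : ℝ) ^ 4 = t * a ^ 2 / 1024 := by rw [hη]; field_simp
    have h3 : (M : ℝ) ^ 2 ≤ (M : ℝ) ^ 4 := pow_le_pow_right₀ (by linarith) (by norm_num)
    have h4 : η * (M : ℝ) ^ 2 ≤ η * (M : ℝ) ^ 4 := mul_le_mul_of_nonneg_left h3 hη0.le
    linarith
  -- size of the boxes and number of boxes
  obtain ⟨L1, hL1⟩ := exists_nat_ge (max (max (64 * (M : ℝ) / a) (4 * (M : ℝ) * (1 + 8 / (v * a))))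
    (max (3 * (M : ℝ) ^ 2 / η) (8 * M)))
  obtain ⟨N1, hN1⟩ := exists_nat_ge (16 * (M : ℝ) ^ 2 / a)
  have hN1p : 0 < N1 := by
    have : (0 : ℝ) < N1 := lt_of_lt_of_le (by positivity) hN1
    exact_mod_cast this
  have hL1p : 0 < L1 := by
    have : (0 : ℝ) < L1 := lt_of_lt_of_le (by positivity)
      ((le_max_right _ _).trans ((le_max_right _ _).trans hL1))
    exact_mod_cast this
  refine ⟨η, hη0, L1, N1, hL1p, hN1p, ?_⟩
  intro L hL U _ F E κ _ σ e hcov hN hS ξ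
  have hLr : (L1 : ℝ) ≤ L := by exact_mod_cast hL
  have b1 : 64 * (M : ℝ) / a ≤ L := ((le_max_left _ _).trans (le_max_left _ _)).trans (hL1.trans hLr)
  have b2 : 4 * (M : ℝ) * (1 + 8 / (v * a)) ≤ L :=
    ((le_max_right _ _).trans (le_max_left _ _)).trans (hL1.trans hLr)
  have b3 : 3 * (M : ℝ) ^ 2 / η ≤ L :=
    ((le_max_left _ _).trans (le_max_right _ _)).trans (hL1.trans hLr)
  have b4 : 8 * (M : ℝ) ≤ L := ((le_max_right _ _).trans (le_max_right _ _)).trans (hL1.trans hLr)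
  have hNr : 16 * (M : ℝ) ^ 2 / a ≤ σ.card := hN1.trans (by exact_mod_cast hN)
  have hLp : (0 : ℝ) < L := by linarith
  have hL0 : 0 < L := by exact_mod_cast hLp
  have hML : 8 * M ≤ L := by exact_mod_cast b4
  have hRM : 2 * R ≤ M := by omega
  obtain ⟨K, hK0, hK1, hK2⟩ := exists_K hMp hRM hML
  obtain ⟨hn, hη'⟩ := K_bounds ha hRM hML hK2 b1
  obtain ⟨k1, k2, hk10, ck1, ck2, hkk⟩ := counts hM2 ha hNr
  have hσ : 0 < σ.card := by omega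
  obtain ⟨m, cm, cm'⟩ : ∃ m : ℕ, (m : ℝ) ≤ v * (K ^ 2 : ℕ) * k1 ∧ v * (K : ℝ) ^ 2 * k1 - 1 < m := by
    refine ⟨⌊v * (K ^ 2 : ℕ) * k1⌋₊, Nat.floor_le (by positivity), ?_⟩
    have := Nat.sub_one_lt_floor (v * (K ^ 2 : ℕ) * (k1 : ℝ))
    push_cast at this ⊢
    exact this
  obtain ⟨ρ, hρd⟩ : ∃ ρ : ℝ, ρ = a / 2 - 2 * v' - a / 32 - 2 * t - 2 * q0 := ⟨_, rfl⟩
  have hρ : a / 4 ≤ ρ := by rw [hρd, hv']; linarith
  have hset : ham F E ξ ∩ {x | a * σ.card ≤ cnt σ (DS L r f a e) (ext F ξ x)} =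
      ham F E ξ ∩ {x | ⌈a * (σ.card : ℝ)⌉₊ ≤ cnt σ (DS L r f a e) (ext F ξ x)} := by
    ext x
    simp only [mem_inter_iff, mem_ofPred_eq]
    rw [Nat.ceil_le]
  rw [hset]
  subst hM
  have key := hcov.main (K := K) hL0 hrR hK1 hK0 hf.meas hf.bd (LObs.dep hf) HW (by positivity)
    (q0 := q0) hq00.le (by linarith) HB ha hv'0 hv0 (by rw [hv]; linarith) (by
      push_cast at hη' ⊢
      exact hη') ht0.le (by linarith) ht2 (by rw [← hρd]; linarith) ξ hk10 hkk cm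
  rw [← hρd] at key
  refine key.trans ?_
  refine mul_le_mul' ?_ le_rfl
  rw [est_enn hq00.le]
  refine ENNReal.ofReal_le_ofReal ?_
  have := est hv0 ha hx hq00 hq2 ht0 hρ hM2 hη hη1 b2 b3 hσ hK0 hn ck1 ck2 cm' hS
  push_cast at this ⊢
  exact this

end Crest.Agent.R144.Lc279
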