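import Crest.Agent.R144.Lc11_279

/-!
R144 (S0197), helper279.  Block LC, file 12: `box0`, the law of large numbers for the box averages
around all sites of a region of the lattice, in every system with a global chart.
-/

set_option autoImplicit false
set_option linter.unusedSectionVars false
set_option linter.unusedVariables false

open MeasureTheory Set
open scoped ENNReal

noncomputable section

namespace Crest.Agent.R144.Lc279

open Crest.Agent.R144.Ham560
open Crest.Agent.R144.Lw425 (hd hd_comm hd_le_iff mem_hball hball mem_inn inn mem_sph sph hd_self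
  hd_triangle hd_pos hd_adj LObs)

/-! ### Regions of the lattice -/

/-- The square `[-R, R]²`. -/
def BX (R : ℕ) : Finset P2 := Finset.Icc (-(R : ℤ)) R ×ˢ Finset.Icc (-(R : ℤ)) R

theorem mem_BX {R : ℕ} {v : P2} :
    v ∈ BX R ↔ (-(R : ℤ) ≤ v.1 ∧ v.1 ≤ R) ∧ (-(R : ℤ) ≤ v.2 ∧ v.2 ≤ R) := by
  rw [BX, Finset.mem_product, Finset.mem_Icc, Finset.mem_Icc]

/-- The sites of `W` with a site of the complement at distance at most `R`. -/
def nr (R : ℕ) (W : Finset P2) : Finset P2 := W.filter fun v => ∃ u ∈ BX R, v + u ∉ W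

theorem mem_nr {R : ℕ} {W : Finset P2} {v : P2} :
    v ∈ nr R W ↔ v ∈ W ∧ ∃ u ∈ BX R, v + u ∉ W := by
  rw [nr, Finset.mem_filter]

theorem nr_subset (R : ℕ) (W : Finset P2) : nr R W ⊆ W := Finset.filter_subset _ _

theorem nr_mono {R R' : ℕ} (h : R ≤ R') (W : Finset P2) : nr R W ⊆ nr R' W := by
  intro v hv
  rw [mem_nr] at hv ⊢
  obtain ⟨h1, u, hu, h2⟩ := hv
  refine ⟨h1, u, ?_, h2⟩
  rw [mem_BX] at hu ⊢
  have : (R : ℤ) ≤ R' := by exact_mod_cast h
  omega

theorem deep {R : ℕ} {W : Finset P2} {v : P2} (hv : v ∈ W \ nr R W) {u : P2} (hu : u ∈ BX R) :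
    v + u ∈ W := by
  rw [Finset.mem_sdiff, mem_nr] at hv
  by_contra h
  exact hv.2 ⟨hv.1, u, hu, h⟩

/-- Residue class. -/
def cls (M : ℕ) (v : P2) : P2 := (v.1 % M, v.2 % M)

/-- Grid of class `c` inside `W`. -/
def gr (M : ℕ) (W : Finset P2) (c : P2) : Finset P2 := (W \ nr M W).filter fun v => cls M v = c

theorem mem_gr {M : ℕ} {W : Finset P2} {c v : P2} :
    v ∈ gr M W c ↔ v ∈ W \ nr M W ∧ cls M v = c := by
  rw [gr, Finset.mem_filter]

theorem cls_mem {M : ℕ} (hM : 0 < M) (v : P2) : cls M v ∈ bx M := by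
  have hM' : (0 : ℤ) < M := by exact_mod_cast hM
  rw [mem_bx]
  exact ⟨⟨Int.emod_nonneg _ hM'.ne', Int.emod_lt_of_pos _ hM'⟩,
    ⟨Int.emod_nonneg _ hM'.ne', Int.emod_lt_of_pos _ hM'⟩⟩

theorem emod_aux {M w c : ℤ} (hM : 0 < M) (h0 : 0 ≤ c) (h1 : c < M) :
    (w - (w - c) % M) % M = c := by
  have h2 : w - (w - c) % M = c + M * ((w - c) / M) := by
    have := Int.emod_add_mul_ediv (w - c) M
    linarith
  rw [h2, Int.add_mul_emod_self_left, Int.emod_eq_of_lt h0 h1]

theorem card_gr {M : ℕ} (hM : 0 < M) (W : Finset P2) {c : P2} (hc : c ∈ bx M) :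
    (W \ nr (2 * M) W).card ≤ (gr M W c).card * M ^ 2 := by
  have hM' : (0 : ℤ) < M := by exact_mod_cast hM
  rw [mem_bx] at hc
  have hsub : W \ nr (2 * M) W ⊆ (gr M W c).biUnion fun v => (bx M).image fun u => v + u := by
    intro w hw
    set p := (w.1 - c.1) % M with hp
    set q := (w.2 - c.2) % M with hq
    have p0 : 0 ≤ p := Int.emod_nonneg _ hM'.ne'
    have p1 : p < M := Int.emod_lt_of_pos _ hM'
    have q0 : 0 ≤ q := Int.emod_nonneg _ hM'.ne'
    have q1 : q < M := Int.emod_lt_of_pos _ hM'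
    rw [Finset.mem_biUnion]
    refine ⟨(w.1 - p, w.2 - q), ?_, ?_⟩
    · rw [mem_gr, Finset.mem_sdiff, mem_nr]
      refine ⟨⟨?_, ?_⟩, ?_⟩
      · have := deep hw (u := (-p, -q)) (by rw [mem_BX]; push_cast; omega)
        have e : w + (-p, -q) = ((w.1 - p, w.2 - q) : P2) := by
          ext <;> simp [sub_eq_add_neg]
        rwa [e] at this
      · rintro ⟨_, u, hu, h2⟩
        apply h2
        rw [mem_BX] at hu
        have := deep hw (u := (-p + u.1, -q + u.2)) (by rw [mem_BX]; push_cast; omega)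
        have e : w + (-p + u.1, -q + u.2) = ((w.1 - p, w.2 - q) : P2) + u := by
          ext
          · simp; ring
          · simp; ring
        rwa [e] at this
      · unfold cls
        ext
        · exact emod_aux hM' hc.1.1 hc.1.2
        · exact emod_aux hM' hc.2.1 hc.2.2
    · rw [Finset.mem_image]
      refine ⟨(p, q), mem_bx.mpr ⟨⟨p0, p1⟩, ⟨q0, q1⟩⟩, ?_⟩
      ext <;> simp
  refine (Finset.card_le_card hsub).trans ?_
  refine Finset.card_biUnion_le_card_mul _ _ _ fun v _ => ?_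
  refine Finset.card_image_le.trans ?_
  rw [card_bx]

/-! ### Systems with a global chart -/

variable {U : Type*} [DecidableEq U] {F : Finset U} {E : Finset (U × U)}

/-- The region `W` of the lattice covers a part of the system. -/
structure GCh (F : Finset U) (E : Finset (U × U)) (W : Finset P2) (e : P2 → U) (D : Set P2) :
    Prop where
  ch : Ch E W e D
  sub : W.image e ⊆ F
  deg : ∀ v ∈ F, (nbr E v).card ≤ 6

variable {W : Finset P2} {e : P2 → U} {D : Set P2}

theorem Ch.window' (h : Ch E W e D) {W' : Finset P2} {D' : Set P2} (x : P2)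
    (hW : ∀ v ∈ W', x + v ∈ W) (hD : ∀ v ∈ D', x + v ∈ D) (hs : (W' : Set P2) ⊆ D')
    (hc : ∀ v ∈ W', ∀ w, hd v w = 1 → w ∈ D') :
    Ch E W' (fun v => e (x + v)) D' := by
  have h1 := h.window x hW hD hs hc
  refine ⟨h1.sub, h1.inj, h1.cl, fun v hv w hvw => ?_, fun p hp hp' => ?_⟩
  · rcases h1.edge v hv w hvw with h2 | h2
    · exact Or.inl (mem_tch.mp h2).1
    · exact Or.inr (mem_tch.mp h2).1
  · refine h1.edge' p (mem_tch.mpr ⟨hp, ?_⟩) hp'
    rcases hp' with h2 | h2
    · left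
      obtain ⟨v, hv, hvp⟩ := Finset.mem_image.mp h2
      rw [← hvp]; exact Finset.mem_image_of_mem e (hW v hv)
    · right
      obtain ⟨v, hv, hvp⟩ := Finset.mem_image.mp h2
      rw [← hvp]; exact Finset.mem_image_of_mem e (hW v hv)

theorem GCh.cov (h : GCh F E W e D) {R : ℕ} (c : P2) :
    Cov F E R (gr (R + 1) W c) (fun v u => e (v + u)) where
  ch := by
    intro v hv
    rw [mem_gr] at hv
    refine h.ch.window' v ?_ ?_ (bx_sub_cl R) fun u hu w hw => cl_of_adj hu hw
    · intro u hu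
      refine deep hv.1 ?_
      rw [mem_bx] at hu
      rw [mem_BX]; push_cast; omega
    · intro u hu
      refine h.ch.sub (Finset.mem_coe.mpr (deep hv.1 ?_))
      rw [mem_cl] at hu
      rw [mem_BX]; push_cast; omega
  sub := by
    intro v hv x hx
    rw [mem_gr] at hv
    obtain ⟨u, hu, rfl⟩ := Finset.mem_image.mp hx
    refine h.sub (Finset.mem_image_of_mem e (deep hv.1 ?_))
    rw [mem_bx] at hu
    rw [mem_BX]; push_cast; omega
  disj := by
    intro v hv v' hv' hne
    rw [Set.disjoint_left]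
    rintro x ⟨u, hu, rfl⟩ hx
    obtain ⟨u', hu', h1⟩ := Finset.mem_image.mp (Finset.mem_coe.mp hx)
    rw [mem_gr] at hv hv'
    rw [mem_cl] at hu
    rw [mem_bx] at hu'
    have m1 : v + u ∈ W := deep hv.1 (by rw [mem_BX]; push_cast; omega)
    have m2 : v' + u' ∈ W := deep hv'.1 (by rw [mem_BX]; push_cast; omega)
    have h2 : v' + u' = v + u := h.ch.inj (h.ch.sub m2) (h.ch.sub m1) h1
    apply hne
    have h3 : cls (R + 1) v = cls (R + 1) v' := by rw [hv.2, hv'.2]
    have c1 := congrArg Prod.fst h3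
    have c2 := congrArg Prod.snd h3
    simp only [cls] at c1 c2
    have d1 := congrArg Prod.fst h2
    have d2 := congrArg Prod.snd h2
    simp only [Prod.fst_add, Prod.snd_add] at d1 d2
    have key : ∀ s s' t t' : ℤ, s % ((R + 1 : ℕ) : ℤ) = s' % ((R + 1 : ℕ) : ℤ) → -1 ≤ t → t ≤ R →
        0 ≤ t' → t' < R → s' + t' = s + t → s = s' := by
      intro s s' t t' h4 h5 h6 h7 h8 h9
      have h10 := Int.emod_emod_of_dvd (s - s') (dvd_refl ((R + 1 : ℕ) : ℤ))
      have h11 : ((R + 1 : ℕ) : ℤ) ∣ s - s' := Int.ModEq.dvd (show s' ≡ s [ZMOD _] from h4.symm)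
      obtain ⟨k, hk⟩ := h11
      have h12 : k = 0 := by
        have hk' : s - s' = (R + 1) * k := by push_cast at hk; exact hk
        have h13 : s - s' = t' - t := by omega
        rcases lt_trichotomy k 0 with h14 | h14 | h14
        · have : ((R : ℤ) + 1) * k ≤ ((R : ℤ) + 1) * (-1) :=
            mul_le_mul_of_nonneg_left (by omega) (by omega)
          omega
        · exact h14
        · have : ((R : ℤ) + 1) * 1 ≤ ((R : ℤ) + 1) * k :=
            mul_le_mul_of_nonneg_left (by omega) (by omega)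
          omega
      rw [h12, mul_zero] at hk
      omega
    ext
    · exact key _ _ _ _ c1 hu.1.1 hu.1.2 hu'.1.1 hu'.1.2 d1
    · exact key _ _ _ _ c2 hu.2.1 hu.2.2 hu'.2.1 hu'.2.2 d2
  deg := h.deg

variable {κ : Type*} [DecidableEq κ]

theorem Cov.card_boxes {L : ℕ} {σ : Finset κ} {e : κ → P2 → U} (h : Cov F E L σ e) :
    (σ.biUnion fun j => (bx L).image (e j)).card = σ.card * L ^ 2 := by
  rw [Finset.card_biUnion]
  · rw [Finset.sum_congr rfl fun j hj => ?_, Finset.sum_const, smul_eq_mul]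
    rw [Finset.card_image_of_injOn ((h.ch j hj).inj.mono (bx_sub_cl L)), card_bx]
  · intro j hj k hk hne
    show Disjoint _ _
    rw [← Finset.disjoint_coe]
    refine (h.disj j hj k hk hne).mono_left ?_
    rw [Finset.coe_image]
    exact Set.image_mono (bx_sub_cl L)

/-- Elementary estimates for the grid of one class. -/
theorem GCh.grid (h : GCh F E W e D) {R : ℕ} (hR : 4 ≤ R) {c : P2} (hc : c ∈ bx (R + 1))
    {η θ : ℝ} (hη : 0 < η) (hθ : θ ≤ η / 64) (hθ2 : θ ≤ 1 / 2) (hRη : 64 / η ≤ R)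
    (h1 : ((nr (2 * (R + 1)) W).card : ℝ) ≤ θ * W.card)
    (h2 : ((F \ W.image e).card : ℝ) ≤ θ * W.card) :
    (W.card : ℝ) ≤ 4 * ((R : ℝ) ^ 2 * (gr (R + 1) W c).card) ∧
      ((F \ (gr (R + 1) W c).biUnion fun v => (bx R).image fun u => e (v + u)).card : ℝ) ≤
        η * R ^ 2 * (gr (R + 1) W c).card := by
  set n : ℝ := (W.card : ℝ) with hn
  set N : ℝ := ((gr (R + 1) W c).card : ℝ) with hN
  have hn0 : 0 ≤ n := Nat.cast_nonneg _
  have hN0 : 0 ≤ N := Nat.cast_nonneg _
  have hRr : (4 : ℝ) ≤ R := by exact_mod_cast hR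
  have hθ0 : 0 ≤ θ * n := le_trans (Nat.cast_nonneg _) h2
  have hA : n - θ * n ≤ N * ((R : ℝ) + 1) ^ 2 := by
    have h3 := card_gr (Nat.succ_pos R) W hc
    rw [Nat.succ_eq_add_one] at h3
    have h4 : W.card ≤ (W \ nr (2 * (R + 1)) W).card + (nr (2 * (R + 1)) W).card := by
      have := Finset.card_sdiff_add_card_eq_card (nr_subset (2 * (R + 1)) W)
      omega
    have h5 : (W.card : ℝ) ≤ (gr (R + 1) W c).card * ((R : ℝ) + 1) ^ 2 +
        (nr (2 * (R + 1)) W).card := by
      have : W.card ≤ (gr (R + 1) W c).card * (R + 1) ^ 2 + (nr (2 * (R + 1)) W).card := by omega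
      exact_mod_cast this
    linarith
  have hRR : 2 * ((R : ℝ) + 1) ^ 2 ≤ 4 * (R : ℝ) ^ 2 := by nlinarith
  have hA' : n ≤ 4 * (R ^ 2 * N) := by
    have h3 : θ * n ≤ 1 / 2 * n := mul_le_mul_of_nonneg_right hθ2 hn0
    have h4 := mul_le_mul_of_nonneg_right hRR hN0
    linarith
  refine ⟨hA', ?_⟩
  -- better lower bound
  have hM : (0 : ℝ) < (R : ℝ) + 1 := by positivity
  have hq : 2 / ((R : ℝ) + 1) ≤ η / 32 := by
    have h3 : 64 ≤ R * η := by rwa [div_le_iff₀ hη] at hRη
    rw [div_le_iff₀ hM]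
    linarith
  have hq1 : 2 / ((R : ℝ) + 1) ≤ 1 := by
    rw [div_le_one hM]; linarith
  have hB : (1 - 2 / (R + 1) - θ) * n ≤ R ^ 2 * N := by
    have h3 : (1 - 2 / ((R : ℝ) + 1)) * ((R : ℝ) + 1) ^ 2 ≤ (R : ℝ) ^ 2 := by
      have : (1 - 2 / ((R : ℝ) + 1)) * ((R : ℝ) + 1) ^ 2 = (R : ℝ) ^ 2 - 1 := by
        field_simp; ring
      linarith
    have h4 : 0 ≤ 1 - 2 / ((R : ℝ) + 1) := by linarith
    have h5 : (1 - 2 / ((R : ℝ) + 1)) * (n - θ * n) ≤
        (1 - 2 / ((R : ℝ) + 1)) * (N * ((R : ℝ) + 1) ^ 2) := mul_le_mul_of_nonneg_left hA h4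
    have h6 := mul_le_mul_of_nonneg_right h3 hN0
    have h8 : 0 ≤ 2 / ((R : ℝ) + 1) * (θ * n) := by positivity
    linarith
  have hcov := h.cov (R := R) c
  set X := (gr (R + 1) W c).biUnion fun v => (bx R).image fun u => e (v + u) with hX
  have hXc : (X.card : ℝ) = N * R ^ 2 := by
    have := hcov.card_boxes
    rw [hX, this]; push_cast; rfl
  have hXs : X ⊆ W.image e := by
    intro x hx
    obtain ⟨v, hv, hx⟩ := Finset.mem_biUnion.mp hx
    obtain ⟨u, hu, rfl⟩ := Finset.mem_image.mp hx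
    rw [mem_gr] at hv
    refine Finset.mem_image_of_mem e (deep hv.1 ?_)
    rw [mem_bx] at hu
    rw [mem_BX]; push_cast; omega
  have hU : ((F \ X).card : ℝ) ≤ (F \ W.image e).card + (n - N * R ^ 2) := by
    have h3 : F \ X ⊆ (F \ W.image e) ∪ (W.image e \ X) := by
      intro x hx
      rw [Finset.mem_sdiff] at hx
      rw [Finset.mem_union, Finset.mem_sdiff, Finset.mem_sdiff]
      by_cases h4 : x ∈ W.image e
      · exact Or.inr ⟨h4, hx.2⟩
      · exact Or.inl ⟨hx.1, h4⟩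
    have h4 := (Finset.card_le_card h3).trans (Finset.card_union_le _ _)
    have h5 := Finset.card_sdiff_add_card_eq_card hXs
    have h6 : (W.image e).card ≤ W.card := Finset.card_image_le
    have h7 : ((F \ X).card : ℝ) + X.card ≤ (F \ W.image e).card + W.card := by
      have : (F \ X).card + X.card ≤ (F \ W.image e).card + W.card := by omega
      exact_mod_cast this
    rw [hXc] at h7
    linarith
  have h9 : (2 * θ + 2 / ((R : ℝ) + 1)) * n ≤ (η / 16) * n :=
    mul_le_mul_of_nonneg_right (by linarith) hn0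
  have h10 : (η / 16) * n ≤ (η / 16) * (4 * (R ^ 2 * N)) :=
    mul_le_mul_of_nonneg_left hA' (by positivity)
  have h11 : 0 ≤ η * R ^ 2 * N := by positivity
  linarith

/-- Deterministic step: if the sum over `W` is large then some class has many bad boxes. -/
theorem bad_class {M : ℕ} (hM : 0 < M) {W : Finset P2} {X : P2 → ℝ} {a a' : ℝ} (hX : ∀ v, |X v| ≤ 3)
    (ha : 0 < a) (ha' : a' ≤ a / 16) (hnr : ((nr M W).card : ℝ) ≤ a / 16 * W.card) (hW : 0 < W.card)
    (hsum : a * W.card ≤ ∑ v ∈ W, |X v|) :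
    ∃ c ∈ bx M, a' * (gr M W c).card ≤ (((gr M W c).filter fun v => a / 8 < |X v|).card : ℝ) := by
  by_contra hcon
  push Not at hcon
  have h1 : ∑ v ∈ W, |X v| = ∑ v ∈ W \ nr M W, |X v| + ∑ v ∈ nr M W, |X v| :=
    (Finset.sum_sdiff (nr_subset M W)).symm
  have h2 : ∑ v ∈ nr M W, |X v| ≤ 3 * (a / 16 * W.card) := by
    refine (Finset.sum_le_card_nsmul _ _ 3 fun v _ => hX v).trans ?_
    rw [nsmul_eq_mul]; linarith
  have h3 : ∑ v ∈ W \ nr M W, |X v| = ∑ c ∈ bx M, ∑ v ∈ gr M W c, |X v| :=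
    (Finset.sum_fiberwise_of_maps_to (fun v _ => cls_mem hM v) _).symm
  have h4 : ∀ c ∈ bx M, ∑ v ∈ gr M W c, |X v| ≤ 5 / 16 * a * (gr M W c).card := by
    intro c hc
    have h5 := hcon c hc
    have h6 : ∀ v ∈ gr M W c, |X v| ≤ a / 8 + if a / 8 < |X v| then 3 else 0 := by
      intro v _
      split_ifs with h7
      · have := hX v; linarith
      · push Not at h7; linarith
    refine (Finset.sum_le_sum h6).trans ?_
    rw [Finset.sum_add_distrib, Finset.sum_const, nsmul_eq_mul, ← Finset.sum_filter,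
      Finset.sum_const, nsmul_eq_mul]
    have h7 : a' * (gr M W c).card ≤ a / 16 * (gr M W c).card :=
      mul_le_mul_of_nonneg_right ha' (Nat.cast_nonneg _)
    linarith
  have h5 := Finset.sum_le_sum h4
  rw [← Finset.mul_sum] at h5
  have h6 : ∑ c ∈ bx M, ((gr M W c).card : ℝ) = ((W \ nr M W).card : ℝ) := by
    have := Finset.card_eq_sum_card_fiberwise (s := W \ nr M W) (t := bx M) (f := cls M)
      fun v _ => cls_mem hM v
    rw [this]; push_cast; rfl
  have h7 : ((W \ nr M W).card : ℝ) ≤ W.card := by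
    exact_mod_cast Finset.card_le_card Finset.sdiff_subset
  have h8 : 5 / 16 * a * ((W \ nr M W).card : ℝ) ≤ 5 / 16 * a * W.card :=
    mul_le_mul_of_nonneg_left h7 (by positivity)
  rw [h6] at h5
  have h9 : 0 < a * W.card := mul_pos ha (by exact_mod_cast hW)
  linarith

theorem abs_mB_le {L r : ℕ} {f : (P2 → ℝ) → ℝ} (hf : LObs r f) : |mB L r f| ≤ 1 := by
  unfold mB
  exact abs_Ev_le (bd_BA hf.meas hf.bd) (anch_bx L) (vr_zero_pos (anch_bx L)) fun z =>
    abs_BA_le hf.bd z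

/-- **Law of large numbers for the box averages**, exponential form, general system with a global
chart; `m` is any number close to the reference value. -/
theorem box0 {r : ℕ} {f : (P2 → ℝ) → ℝ} (hf : LObs r f) {a : ℝ} (ha : 0 < a) (ha1 : a ≤ 1) :
    ∃ R0 : ℕ, 0 < R0 ∧ ∀ R : ℕ, R0 ≤ R → ∃ c : ℝ, 0 < c ∧ ∃ θ : ℝ, 0 < θ ∧ ∃ N2 : ℕ,
      ∀ (U : Type) [DecidableEq U] (F : Finset U) (E : Finset (U × U)) (W : Finset P2)
        (e : P2 → U) (D : Set P2), GCh F E W e D → N2 ≤ W.card →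
        ((nr (2 * (R + 1)) W).card : ℝ) ≤ θ * W.card →
        ((F \ W.image e).card : ℝ) ≤ θ * W.card →
        ∀ m : ℝ, |mB R r f - m| ≤ a / 16 → ∀ ξ : U → ℝ,
          volume (ham F E ξ ∩ {x | a * W.card ≤
            ∑ v ∈ W, |BA R r f (fun u => ext F ξ x (e (v + u))) - m|}) ≤
            ENNReal.ofReal (Real.exp (-(c * W.card))) * volume (ham F E 0) := by
  obtain ⟨η, hη, L1, N1, hL1, hN1, hmeso⟩ := meso hf (a := a / 16) (by positivity) (by linarith)
  obtain ⟨q, hq⟩ := exists_nat_ge (64 / η)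
  refine ⟨max (max L1 q) 4, by positivity, fun R hR => ?_⟩
  have hR1 : L1 ≤ R := ((le_max_left _ _).trans (le_max_left _ _)).trans hR
  have hR2 : q ≤ R := ((le_max_right _ _).trans (le_max_left _ _)).trans hR
  have hR4 : 4 ≤ R := (le_max_right _ _).trans hR
  have hRη : 64 / η ≤ R := hq.trans (by exact_mod_cast hR2)
  have hRr : (4 : ℝ) ≤ R := by exact_mod_cast hR4
  obtain ⟨p, hp⟩ := exists_nat_ge (8 * ((R : ℝ) + 1) ^ 2 / η)
  refine ⟨η / 8, by positivity, min (min (η / 64) (a / 16)) (1 / 2), by positivity,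
    max (max p (4 * R ^ 2 * N1)) 1, ?_⟩
  intro U _ F E W e D h hW hnr hFW m hm ξ
  set θ := min (min (η / 64) (a / 16)) (1 / 2) with hθd
  have hθ1 : θ ≤ η / 64 := (min_le_left _ _).trans (min_le_left _ _)
  have hθ2 : θ ≤ a / 16 := (min_le_left _ _).trans (min_le_right _ _)
  have hθ3 : θ ≤ 1 / 2 := min_le_right _ _
  have hW1 : 1 ≤ W.card := (le_max_right _ _).trans hW
  have hWp : p ≤ W.card := ((le_max_left _ _).trans (le_max_left _ _)).trans hW
  have hWN : 4 * R ^ 2 * N1 ≤ W.card := ((le_max_right _ _).trans (le_max_left _ _)).trans hW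
  have hWr : (1 : ℝ) ≤ W.card := by exact_mod_cast hW1
  set n : ℝ := (W.card : ℝ) with hn
  -- the event is covered by the bad classes
  set G : P2 → Set (F → ℝ) := fun c => ham F E ξ ∩ {x | a / 16 * (gr (R + 1) W c).card ≤
    cnt (gr (R + 1) W c) (DS R r f (a / 16) fun v u => e (v + u)) (ext F ξ x)} with hG
  have hsub : ham F E ξ ∩ {x | a * n ≤
      ∑ v ∈ W, |BA R r f (fun u => ext F ξ x (e (v + u))) - m|} ⊆ ⋃ c ∈ bx (R + 1), G c := by
    rintro x ⟨hx, hx'⟩
    have hx'' : a * n ≤ ∑ v ∈ W, |BA R r f (fun u => ext F ξ x (e (v + u))) - m| := hx'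
    have hmb : |m| ≤ 2 := by
      have h1 := abs_mB_le (L := R) hf
      have h2 := abs_sub_abs_le_abs_sub m (mB R r f)
      rw [abs_sub_comm] at hm
      linarith
    obtain ⟨c, hc, hcc⟩ := bad_class (M := R + 1) (Nat.succ_pos R) (W := W)
      (X := fun v => BA R r f (fun u => ext F ξ x (e (v + u))) - m) (a := a) (a' := a / 16)
      (fun v => by
        have h1 := abs_BA_le (L := R) (r := r) hf.bd (fun u => ext F ξ x (e (v + u)))
        have h2 := abs_sub (BA R r f (fun u => ext F ξ x (e (v + u)))) m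
        show |BA R r f (fun u => ext F ξ x (e (v + u))) - m| ≤ 3
        linarith) ha le_rfl (by
        have h1 : ((nr (R + 1) W).card : ℝ) ≤ (nr (2 * (R + 1)) W).card := by
          exact_mod_cast Finset.card_le_card (nr_mono (by omega) W)
        have h2 : θ * n ≤ a / 16 * n := mul_le_mul_of_nonneg_right hθ2 (by positivity)
        linarith) hW1 hx''
    refine mem_biUnion (x := c) (Finset.mem_coe.mpr hc) ⟨hx, ?_⟩
    refine hcc.trans ?_
    classical
    rw [cnt_eq]
    norm_cast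
    refine Finset.card_le_card fun v hv => ?_
    rw [Finset.mem_filter] at hv ⊢
    refine ⟨hv.1, ?_⟩
    show a / 16 < |BA R r f (ext F ξ x ∘ fun u => e (v + u)) - mB R r f|
    have h1 : a / 8 < |BA R r f (fun u => ext F ξ x (e (v + u))) - m| := hv.2
    have h2 := abs_sub_le (BA R r f (fun u => ext F ξ x (e (v + u)))) (mB R r f) m
    have h3 : (ext F ξ x ∘ fun u => e (v + u)) = fun u => ext F ξ x (e (v + u)) := rfl
    rw [h3]
    linarith
  refine (measure_mono hsub).trans ((measure_biUnion_finset_le _ _).trans ?_)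
  have hone : ∀ c ∈ bx (R + 1), volume (G c) ≤
      ENNReal.ofReal (Real.exp (-(η / 4 * n))) * volume (ham F E 0) := by
    intro c hc
    obtain ⟨g1, g2⟩ := h.grid hR4 hc hη hθ1 hθ3 hRη hnr hFW
    have hN : N1 ≤ (gr (R + 1) W c).card := by
      have h3 : ((4 * R ^ 2 * N1 : ℕ) : ℝ) ≤ W.card := by exact_mod_cast hWN
      push_cast at h3
      have h4 : (4 * (R : ℝ) ^ 2) * N1 ≤ (4 * (R : ℝ) ^ 2) * (gr (R + 1) W c).card := by linarith
      have h5 := le_of_mul_le_mul_left h4 (by positivity)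
      exact_mod_cast h5
    have h6 := hmeso R hR1 U F E P2 (gr (R + 1) W c) (fun v u => e (v + u)) (h.cov c) hN g2 ξ
    refine h6.trans (mul_le_mul' (ENNReal.ofReal_le_ofReal (Real.exp_le_exp.mpr ?_)) le_rfl)
    have h7 : η / 4 * n ≤ η / 4 * (4 * ((R : ℝ) ^ 2 * (gr (R + 1) W c).card)) :=
      mul_le_mul_of_nonneg_left g1 (by positivity)
    linarith
  refine (Finset.sum_le_card_nsmul _ _ _ hone).trans ?_
  rw [nsmul_eq_mul, card_bx, ← mul_assoc]
  refine mul_le_mul' ?_ le_rfl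
  rw [← ENNReal.ofReal_natCast, ← ENNReal.ofReal_mul (Nat.cast_nonneg _)]
  refine ENNReal.ofReal_le_ofReal ?_
  have h8 : (((R + 1) ^ 2 : ℕ) : ℝ) ≤ Real.exp (η / 8 * n) := by
    have h9 : 8 * ((R : ℝ) + 1) ^ 2 / η ≤ n := hp.trans (by rw [hn]; exact_mod_cast hWp)
    rw [div_le_iff₀ hη] at h9
    have h10 := Real.add_one_le_exp (η / 8 * n)
    push_cast
    linarith
  calc (((R + 1) ^ 2 : ℕ) : ℝ) * Real.exp (-(η / 4 * n)) ≤
        Real.exp (η / 8 * n) * Real.exp (-(η / 4 * n)) :=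
        mul_le_mul_of_nonneg_right h8 (Real.exp_pos _).le
    _ = _ := by rw [← Real.exp_add]; congr 1; ring

end Crest.Agent.R144.Lc279
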