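import Crest.Agent.R144.Lc12_279

/-!
R144 (S0197), helper279.  Block LC, file 13: the limit functional `m0`; the law of large numbers with
slowly varying weights in every system with a global chart.
-/

set_option autoImplicit false
set_option linter.unusedSectionVars false
set_option linter.unusedVariables false

open MeasureTheory Set Filter Topology
open scoped ENNReal

noncomputable section

namespace Crest.Agent.R144.Lc279

open Crest.Agent.R144.Ham560
open Crest.Agent.R144.Lw425 (hd hd_comm hd_le_iff mem_hball hball mem_inn inn mem_sph sph hd_self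
  hd_triangle hd_pos hd_adj LObs)

/-! ### Deterministic comparison of sums -/

theorem bx_BX {R : ℕ} {x : P2} (hx : x ∈ bx R) : x ∈ BX R := by
  rw [mem_bx] at hx
  rw [mem_BX]; omega

theorem shift_sum {W : Finset P2} {g w : P2 → ℝ} (hg : ∀ v, |g v| ≤ 1) (hw : ∀ v ∈ W, |w v| ≤ 1)
    {R : ℕ} {θ : ℝ} {x : P2} (hx : x ∈ BX R) (hθ : ∀ u ∈ W, u - x ∈ W → |w (u - x) - w u| ≤ θ)
    (hθ0 : 0 ≤ θ) :
    |∑ v ∈ W, w v * g (v + x) - ∑ v ∈ W, w v * g v| ≤ 2 * (nr R W).card + θ * W.card := by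
  classical
  have hwg : ∀ v ∈ W, ∀ u, |w v * g u| ≤ 1 := by
    intro v hv u
    rw [abs_mul]
    exact mul_le_one₀ (hw v hv) (abs_nonneg _) (hg u)
  have e1 : ∑ v ∈ W, w v * g (v + x) = ∑ v ∈ W.filter (fun v => v + x ∈ W), w v * g (v + x) +
      ∑ v ∈ W.filter (fun v => ¬ v + x ∈ W), w v * g (v + x) :=
    (Finset.sum_filter_add_sum_filter_not _ _ _).symm
  have e2 : ∑ v ∈ W, w v * g v = ∑ v ∈ W.filter (fun v => v - x ∈ W), w v * g v +
      ∑ v ∈ W.filter (fun v => ¬ v - x ∈ W), w v * g v :=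
    (Finset.sum_filter_add_sum_filter_not _ _ _).symm
  have e3 : ∑ v ∈ W.filter (fun v => v + x ∈ W), w v * g (v + x) =
      ∑ u ∈ W.filter (fun v => v - x ∈ W), w (u - x) * g u := by
    refine Finset.sum_bij' (fun v _ => v + x) (fun u _ => u - x) ?_ ?_ ?_ ?_ ?_
    · intro v hv
      rw [Finset.mem_filter] at hv ⊢
      rw [add_sub_cancel_right]; exact ⟨hv.2, hv.1⟩
    · intro u hu
      rw [Finset.mem_filter] at hu ⊢
      rw [sub_add_cancel]; exact ⟨hu.2, hu.1⟩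
    · intro v _; exact add_sub_cancel_right v x
    · intro u _; exact sub_add_cancel u x
    · intro v _; rw [add_sub_cancel_right]
  have b1 : |∑ v ∈ W.filter (fun v => ¬ v + x ∈ W), w v * g (v + x)| ≤ (nr R W).card := by
    refine (Finset.abs_sum_le_sum_abs _ _).trans ?_
    refine (Finset.sum_le_card_nsmul _ _ 1 fun v hv => hwg v (Finset.mem_filter.mp hv).1 _).trans ?_
    rw [nsmul_eq_mul, mul_one]
    have : W.filter (fun v => ¬ v + x ∈ W) ⊆ nr R W := by
      intro v hv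
      rw [Finset.mem_filter] at hv
      rw [mem_nr]; exact ⟨hv.1, x, hx, hv.2⟩
    exact_mod_cast Finset.card_le_card this
  have b2 : |∑ v ∈ W.filter (fun v => ¬ v - x ∈ W), w v * g v| ≤ (nr R W).card := by
    refine (Finset.abs_sum_le_sum_abs _ _).trans ?_
    refine (Finset.sum_le_card_nsmul _ _ 1 fun v hv => hwg v (Finset.mem_filter.mp hv).1 _).trans ?_
    rw [nsmul_eq_mul, mul_one]
    have : W.filter (fun v => ¬ v - x ∈ W) ⊆ nr R W := by
      intro v hv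
      rw [Finset.mem_filter] at hv
      rw [mem_nr]
      refine ⟨hv.1, -x, ?_, by rw [← sub_eq_add_neg]; exact hv.2⟩
      rw [mem_BX] at hx ⊢
      simp only [Prod.fst_neg, Prod.snd_neg]
      omega
    exact_mod_cast Finset.card_le_card this
  have b3 : |∑ u ∈ W.filter (fun v => v - x ∈ W), w (u - x) * g u -
      ∑ v ∈ W.filter (fun v => v - x ∈ W), w v * g v| ≤ θ * W.card := by
    rw [← Finset.sum_sub_distrib]
    refine (Finset.abs_sum_le_sum_abs _ _).trans ?_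
    refine (Finset.sum_le_card_nsmul _ _ θ fun u hu => ?_).trans ?_
    · rw [Finset.mem_filter] at hu
      rw [← sub_mul, abs_mul]
      calc |w (u - x) - w u| * |g u| ≤ θ * 1 :=
            mul_le_mul (hθ u hu.1 hu.2) (hg u) (abs_nonneg _) hθ0
        _ = θ := mul_one θ
    · rw [nsmul_eq_mul, mul_comm]
      refine mul_le_mul_of_nonneg_left ?_ hθ0
      exact_mod_cast Finset.card_filter_le _ _
  rw [e1, e2, e3]
  rw [abs_le] at b1 b2 b3 ⊢
  constructor <;> linarith [b1.1, b1.2, b2.1, b2.2, b3.1, b3.2]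

theorem card_pos {L r : ℕ} (h : 2 * r ≤ L) : (pos L r).card = (L - 2 * r) ^ 2 := by
  rw [pos, Finset.card_product, Int.card_Ico]
  have : ((L : ℤ) - r - r).toNat = L - 2 * r := by omega
  rw [this, pow_two]

theorem card_pos' {L r : ℕ} (h : 2 * r ≤ L) :
    (L : ℝ) ^ 2 - (pos L r).card ≤ 4 * r * L := by
  rw [card_pos h, Nat.cast_pow, Nat.cast_sub h]
  push_cast
  nlinarith [Nat.cast_nonneg (α := ℝ) r]

/-- Sum of local averages against the sum of the local quantities. -/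
theorem avg_sum {W : Finset P2} {g w : P2 → ℝ} (hg : ∀ v, |g v| ≤ 1) (hw : ∀ v ∈ W, |w v| ≤ 1)
    {R r : ℕ} (hR : 0 < R) (hr : 2 * r ≤ R) {θ : ℝ} (hθ0 : 0 ≤ θ)
    (hθ : ∀ x ∈ bx R, ∀ u ∈ W, u - x ∈ W → |w (u - x) - w u| ≤ θ) :
    |∑ v ∈ W, w v * ((∑ x ∈ pos R r, g (v + x)) / (R : ℝ) ^ 2) - ∑ v ∈ W, w v * g v| ≤
      2 * (nr R W).card + (θ + 4 * r / R) * W.card := by
  have hRr : (0 : ℝ) < R := by exact_mod_cast hR
  set S1 := ∑ v ∈ W, w v * g v with hS1
  have hS1b : |S1| ≤ W.card := by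
    refine (Finset.abs_sum_le_sum_abs _ _).trans ?_
    refine (Finset.sum_le_card_nsmul _ _ 1 fun v hv => ?_).trans ?_
    · rw [abs_mul]; exact mul_le_one₀ (hw v hv) (abs_nonneg _) (hg v)
    · rw [nsmul_eq_mul, mul_one]
  have e1 : (∑ v ∈ W, w v * ((∑ x ∈ pos R r, g (v + x)) / (R : ℝ) ^ 2)) * (R : ℝ) ^ 2 =
      ∑ x ∈ pos R r, ∑ v ∈ W, w v * g (v + x) := by
    rw [Finset.sum_mul, Finset.sum_comm]
    refine Finset.sum_congr rfl fun v _ => ?_
    rw [mul_assoc, div_mul_cancel₀ _ (by positivity), Finset.mul_sum]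
  have h1 : |∑ x ∈ pos R r, ∑ v ∈ W, w v * g (v + x) - (pos R r).card * S1| ≤
      (R : ℝ) ^ 2 * (2 * (nr R W).card + θ * W.card) := by
    have e2 : ∑ x ∈ pos R r, ∑ v ∈ W, w v * g (v + x) - (pos R r).card * S1 =
        ∑ x ∈ pos R r, (∑ v ∈ W, w v * g (v + x) - S1) := by
      rw [Finset.sum_sub_distrib, Finset.sum_const, nsmul_eq_mul]
    rw [e2]
    refine (Finset.abs_sum_le_sum_abs _ _).trans ?_
    refine (Finset.sum_le_card_nsmul _ _ (2 * (nr R W).card + θ * W.card) fun x hx => ?_).trans ?_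
    · have hx' := pos_subset R r hx
      exact shift_sum hg hw (bx_BX hx') (hθ x hx') hθ0
    · rw [nsmul_eq_mul]
      refine mul_le_mul_of_nonneg_right ?_ (by positivity)
      exact_mod_cast card_pos_le R r
  have h2 : |(pos R r).card * S1 - (R : ℝ) ^ 2 * S1| ≤ 4 * r * R * W.card := by
    rw [← sub_mul, abs_mul]
    have h3 : |((pos R r).card : ℝ) - (R : ℝ) ^ 2| ≤ 4 * r * R := by
      rw [abs_sub_comm, abs_of_nonneg]
      · exact card_pos' hr
      · have : ((pos R r).card : ℝ) ≤ (R : ℝ) ^ 2 := by exact_mod_cast card_pos_le R r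
        linarith
    exact mul_le_mul h3 hS1b (abs_nonneg _) (by positivity)
  have h3 : |(∑ v ∈ W, w v * ((∑ x ∈ pos R r, g (v + x)) / (R : ℝ) ^ 2) - S1) * (R : ℝ) ^ 2| ≤
      (R : ℝ) ^ 2 * (2 * (nr R W).card + θ * W.card) + 4 * r * R * W.card := by
    rw [sub_mul, e1, mul_comm S1]
    exact (abs_sub_le _ ((pos R r).card * S1) _).trans (add_le_add h1 h2)
  rw [abs_mul, abs_of_pos (by positivity : (0 : ℝ) < (R : ℝ) ^ 2)] at h3
  have h4 : (R : ℝ) ^ 2 * (2 * (nr R W).card + θ * W.card) + 4 * r * R * W.card =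
      (2 * (nr R W).card + (θ + 4 * r / R) * W.card) * (R : ℝ) ^ 2 := by
    field_simp
    ring
  rw [h4] at h3
  exact le_of_mul_le_mul_right h3 (by positivity)

/-! ### Expectations from tails -/

variable {U : Type*} [DecidableEq U] {F : Finset U} {E : Finset (U × U)} {ξ : U → ℝ}

theorem hamP_apply {S : Set (F → ℝ)} (hS : MeasurableSet S) :
    hamP F E ξ S = (volume (ham F E ξ))⁻¹ * volume (ham F E ξ ∩ S) := by
  rw [hamP, Measure.smul_apply, Measure.restrict_apply hS, smul_eq_mul, inter_comm]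

theorem hamP_le {A : Set (U → ℝ)} (hAm : MeasurableSet A) (hA : Anch F E) {q κ : ℝ}
    (hq : 0 ≤ q) (hv : 0 < vr F E ξ)
    (hκv : volume (ham F E 0) ≤ ENNReal.ofReal κ * volume (ham F E ξ))
    (h : volume (ham F E ξ ∩ {x | ext F ξ x ∈ A}) ≤ ENNReal.ofReal q * volume (ham F E 0)) :
    hamP F E ξ {x | ext F ξ x ∈ A} ≤ ENNReal.ofReal (q * κ) := by
  have hm : MeasurableSet {x : F → ℝ | ext F ξ x ∈ A} := (measurable_ext F ξ) hAm
  rw [hamP_apply hm]
  have h0 : volume (ham F E ξ) ≠ 0 := by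
    intro h0
    unfold vr at hv
    rw [h0] at hv
    simp at hv
  have h1 : volume (ham F E ξ) ≠ ⊤ := (volume_ham_lt_top hA).ne
  calc (volume (ham F E ξ))⁻¹ * volume (ham F E ξ ∩ {x | ext F ξ x ∈ A})
      ≤ (volume (ham F E ξ))⁻¹ * (ENNReal.ofReal q * (ENNReal.ofReal κ * volume (ham F E ξ))) :=
        mul_le_mul' le_rfl (h.trans (mul_le_mul' le_rfl hκv))
    _ = ENNReal.ofReal q * ENNReal.ofReal κ * ((volume (ham F E ξ))⁻¹ * volume (ham F E ξ)) := by
        ring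
    _ = ENNReal.ofReal (q * κ) := by
        rw [ENNReal.inv_mul_cancel h0 h1, mul_one, ENNReal.ofReal_mul hq]

theorem Ev_le_of_tail {X : (U → ℝ) → ℝ} (hX : Bd X) (hA : Anch F E) {C a q κ : ℝ} (hC : 0 ≤ C)
    (hXC : ∀ z, X z ≤ C) (hq : 0 ≤ q) (hκ : 0 ≤ κ) (ha : 0 ≤ a) (hv : 0 < vr F E ξ)
    (hκv : volume (ham F E 0) ≤ ENNReal.ofReal κ * volume (ham F E ξ))
    (h : volume (ham F E ξ ∩ {x | a ≤ X (ext F ξ x)}) ≤ ENNReal.ofReal q * volume (ham F E 0)) :
    Ev F E ξ X ≤ a + C * (q * κ) := by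
  set A : Set (U → ℝ) := {z | a ≤ X z} with hAd
  have hAm : MeasurableSet A := measurableSet_le measurable_const hX.1
  have h1 : Ev F E ξ X ≤ Ev F E ξ fun z => a + C * A.indicator 1 z := by
    refine Ev_mono hX ((Bd.const a).add ((Bd.ind hAm).const_mul C)) hA hv fun z => ?_
    by_cases hz : z ∈ A
    · rw [indicator_of_mem hz, Pi.one_apply, mul_one]
      linarith [hXC z]
    · rw [indicator_of_notMem hz, mul_zero, add_zero]
      exact (not_le.mp hz).le
  rw [Ev_add (Bd.const a) ((Bd.ind hAm).const_mul C) hA hv, Ev_const hA hv, Ev_const_mul] at h1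
  have h2 : Ev F E ξ (A.indicator 1) ≤ q * κ := by
    have hp := isProb hA hv
    have e1 : Ev F E ξ (A.indicator 1) = (hamP F E ξ).real {x | ext F ξ x ∈ A} := by
      have hm : MeasurableSet {x : F → ℝ | ext F ξ x ∈ A} := (measurable_ext F ξ) hAm
      rw [← integral_indicator_one hm]
      rfl
    rw [e1, Measure.real]
    exact ENNReal.toReal_le_of_le_ofReal (by positivity) (hamP_le hAm hA hq hv hκv h)
  have := mul_le_mul_of_nonneg_left h2 hC
  linarith

/-! ### The limit functional -/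

theorem gch_bx (L : ℕ) : GCh (bx L) (lat (bx L)) (bx L) id univ where
  ch := by
    refine ⟨subset_univ _, Function.injective_id.injOn, fun _ _ _ _ => mem_univ _, ?_, ?_⟩
    · intro v hv w hvw
      exact Or.inl (mem_lat.mpr ⟨hvw, Or.inl hv⟩)
    · intro p hp _
      rw [mem_lat] at hp
      exact ⟨p.1, p.2, hp.1, hp.2, rfl⟩
  sub := by rw [Finset.image_id]
  deg := fun v _ => card_nbr_lat_le _ v

theorem card_nr_bx (M L : ℕ) : ((nr M (bx L)).card : ℝ) ≤ 4 * M * L := by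
  rcases le_or_gt (2 * M) L with h | h
  · have h1 : nr M (bx L) ⊆ bx L \ pos L M := by
      intro v hv
      rw [mem_nr] at hv
      rw [Finset.mem_sdiff]
      refine ⟨hv.1, fun h2 => ?_⟩
      obtain ⟨u, hu, h3⟩ := hv.2
      rw [mem_pos] at h2
      rw [mem_BX] at hu
      apply h3
      rw [mem_bx]
      simp only [Prod.fst_add, Prod.snd_add]
      omega
    have h2 := Finset.card_le_card h1
    have h3 := Finset.card_sdiff_add_card_eq_card (pos_subset L M)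
    rw [card_bx] at h3
    have h4 : ((nr M (bx L)).card : ℝ) + (pos L M).card ≤ (L : ℝ) ^ 2 := by
      have : (nr M (bx L)).card + (pos L M).card ≤ L ^ 2 := by omega
      exact_mod_cast this
    linarith [card_pos' h]
  · have h1 : ((nr M (bx L)).card : ℝ) ≤ (L : ℝ) ^ 2 := by
      have := Finset.card_le_card (nr_subset M (bx L))
      rw [card_bx] at this
      exact_mod_cast this
    have h2 : (L : ℝ) ≤ 2 * M := by exact_mod_cast h.le
    have h3 : (0 : ℝ) ≤ L := Nat.cast_nonneg _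
    nlinarith

theorem BA_shift {R r : ℕ} {f : (P2 → ℝ) → ℝ} (z : P2 → ℝ) (v : P2) :
    BA R r f (fun u => z (v + u)) =
      (∑ x ∈ pos R r, f fun u => z (v + x + u)) / (R : ℝ) ^ 2 := by
  unfold BA
  simp only [add_assoc]

theorem pos_zero (L : ℕ) : pos L 0 = bx L := by
  ext v
  rw [mem_pos, mem_bx]
  push_cast
  simp

/-- The averages over large boxes are close to the reference values of medium boxes. -/
theorem mB_near {r : ℕ} {f : (P2 → ℝ) → ℝ} (hf : LObs r f) {a : ℝ} (ha : 0 < a) (ha1 : a ≤ 1) :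
    ∃ R0 : ℕ, ∀ R : ℕ, R0 ≤ R → ∃ L0 : ℕ, ∀ L : ℕ, L0 ≤ L → |mB L 0 f - mB R r f| ≤ 5 * a := by
  obtain ⟨R0, hR0, hbox⟩ := box0 hf ha ha1
  obtain ⟨q, hq⟩ := exists_nat_ge (4 * (r : ℝ) / a)
  refine ⟨max (max R0 q) (2 * r), fun R hR => ?_⟩
  have hR1 : R0 ≤ R := ((le_max_left _ _).trans (le_max_left _ _)).trans hR
  have hR2 : q ≤ R := ((le_max_right _ _).trans (le_max_left _ _)).trans hR
  have hR3 : 2 * r ≤ R := (le_max_right _ _).trans hR
  have hRp : 0 < R := by omega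
  have hRr : (0 : ℝ) < R := by exact_mod_cast hRp
  have hrR : 4 * (r : ℝ) / R ≤ a := by
    have h1 : 4 * (r : ℝ) / a ≤ R := hq.trans (by exact_mod_cast hR2)
    rw [div_le_iff₀ ha] at h1
    rw [div_le_iff₀ hRr]; linarith
  obtain ⟨c, hc, θ, hθ, N2, hsys⟩ := hbox R hR1
  obtain ⟨L0, hL0⟩ := exists_nat_ge (max (max (8 * ((R : ℝ) + 1) / θ) (8 * (R : ℝ) / a))
    (max (1 / (c * a)) (max N2 1)))
  refine ⟨L0, fun L hL => ?_⟩
  have hLr : (L0 : ℝ) ≤ L := by exact_mod_cast hL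
  have b1 : 8 * ((R : ℝ) + 1) / θ ≤ L :=
    ((le_max_left _ _).trans (le_max_left _ _)).trans (hL0.trans hLr)
  have b2 : 8 * (R : ℝ) / a ≤ L :=
    ((le_max_right _ _).trans (le_max_left _ _)).trans (hL0.trans hLr)
  have b3 : 1 / (c * a) ≤ L :=
    ((le_max_left _ _).trans (le_max_right _ _)).trans (hL0.trans hLr)
  have b4 : (N2 : ℝ) ≤ L := ((le_max_left _ _).trans ((le_max_right _ _).trans
    (le_max_right _ _))).trans (hL0.trans hLr)
  have b5 : (1 : ℝ) ≤ L := ((le_max_right _ _).trans ((le_max_right _ _).trans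
    (le_max_right _ _))).trans (hL0.trans hLr)
  rw [div_le_iff₀ hθ] at b1
  rw [div_le_iff₀ ha] at b2
  rw [div_le_iff₀ (by positivity)] at b3
  have hL2 : (L : ℝ) ≤ (L : ℝ) ^ 2 := by nlinarith
  have hLp : (0 : ℝ) < (L : ℝ) ^ 2 := by positivity
  set m := mB R r f with hm
  have hA := anch_bx L
  have hv : 0 < vr (bx L) (lat (bx L)) 0 := vr_zero_pos hA
  -- the tail
  have h1 := hsys P2 (bx L) (lat (bx L)) (bx L) id univ (gch_bx L) (by
    rw [card_bx]
    have : (N2 : ℝ) ≤ ((L ^ 2 : ℕ) : ℝ) := by push_cast; linarith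
    exact_mod_cast this) (by
    refine (card_nr_bx _ _).trans ?_
    rw [card_bx]; push_cast
    have h3 : (0 : ℝ) ≤ L := by linarith
    have := mul_le_mul_of_nonneg_right b1 h3
    nlinarith) (by
    rw [Finset.image_id, Finset.sdiff_self, Finset.card_empty]
    push_cast; positivity) m (by rw [sub_self, abs_zero]; positivity) 0
  rw [card_bx] at h1
  set X : (P2 → ℝ) → ℝ := fun z =>
    (∑ v ∈ bx L, |BA R r f (fun u => z (v + u)) - m|) / (L : ℝ) ^ 2 with hX
  have hmb : |m| ≤ 1 := abs_mB_le hf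
  have hXi : ∀ v (z : P2 → ℝ), |BA R r f (fun u => z (v + u)) - m| ≤ 2 := by
    intro v z
    have h2 := abs_BA_le (L := R) (r := r) hf.bd (fun u => z (v + u))
    have h3 := abs_sub (BA R r f (fun u => z (v + u))) m
    linarith
  have hXm : Measurable X := by
    refine Measurable.div_const ?_ _
    refine Finset.measurable_sum _ fun v _ => ?_
    exact (((measurable_BA hf.meas).comp (measurable_shift v)).sub_const m).abs
  have hX0 : ∀ z, 0 ≤ X z := fun z => by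
    rw [hX]; exact div_nonneg (Finset.sum_nonneg fun _ _ => abs_nonneg _) hLp.le
  have hX2 : ∀ z, X z ≤ 2 := by
    intro z
    rw [hX]
    simp only
    rw [div_le_iff₀ hLp]
    refine (Finset.sum_le_card_nsmul _ _ 2 fun v _ => hXi v z).trans ?_
    rw [nsmul_eq_mul, card_bx]; push_cast; linarith
  have hXB : Bd X := ⟨hXm, 2, fun z => by rw [abs_of_nonneg (hX0 z)]; exact hX2 z⟩
  have h2 : Ev (bx L) (lat (bx L)) 0 X ≤ a + 2 * (Real.exp (-(c * ((L ^ 2 : ℕ) : ℝ))) * 1) := by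
    refine Ev_le_of_tail hXB hA (by norm_num) hX2 (Real.exp_pos _).le zero_le_one ha.le hv
      (by rw [ENNReal.ofReal_one, one_mul]) ?_
    refine (measure_mono ?_).trans h1
    rintro x ⟨hx, hx'⟩
    refine ⟨hx, ?_⟩
    have hx'' : a ≤ X (ext (bx L) 0 x) := hx'
    rw [hX] at hx''
    simp only at hx''
    rw [le_div_iff₀ hLp] at hx''
    simp only [mem_ofPred_eq, id_eq]
    push_cast
    exact hx''
  have h3 : Real.exp (-(c * ((L ^ 2 : ℕ) : ℝ))) ≤ a := by
    have h4 : 1 / a ≤ c * (L : ℝ) ^ 2 := by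
      have h5 : 1 ≤ (c * (L : ℝ) ^ 2) * a := by
        have h6 : L * (c * a) ≤ (L : ℝ) ^ 2 * (c * a) :=
          mul_le_mul_of_nonneg_right hL2 (by positivity)
        linarith
      rw [div_le_iff₀ ha]; exact h5
    push_cast
    rw [Real.exp_neg]
    have h7 := Real.add_one_le_exp (c * (L : ℝ) ^ 2)
    have h8 : 1 / a ≤ Real.exp (c * (L : ℝ) ^ 2) := by linarith
    rw [inv_le_comm₀ (Real.exp_pos _) ha, ← one_div]
    exact h8
  -- comparison
  have hdet : ∀ z, |BA L 0 f z - m| ≤ X z + 2 * a := by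
    intro z
    set g : P2 → ℝ := fun v => f fun u => z (v + u) with hg
    have h4 := avg_sum (W := bx L) (g := g) (w := fun _ => 1) (fun v => hf.bd _)
      (fun v _ => by simp) hRp hR3 (θ := 0) le_rfl (fun _ _ _ _ _ => by simp)
    simp only [one_mul] at h4
    have h5 : BA L 0 f z * (L : ℝ) ^ 2 = ∑ v ∈ bx L, g v := by
      unfold BA
      rw [div_mul_cancel₀ _ hLp.ne', pos_zero]
    have h6 : |∑ v ∈ bx L, (∑ x ∈ pos R r, g (v + x)) / (R : ℝ) ^ 2 - m * (L : ℝ) ^ 2| ≤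
        X z * (L : ℝ) ^ 2 := by
      have e1 : m * (L : ℝ) ^ 2 = ∑ v ∈ bx L, m := by
        rw [Finset.sum_const, card_bx, nsmul_eq_mul]; push_cast; ring
      rw [e1, ← Finset.sum_sub_distrib, hX]
      simp only
      rw [div_mul_cancel₀ _ hLp.ne']
      refine (Finset.abs_sum_le_sum_abs _ _).trans (le_of_eq ?_)
      refine Finset.sum_congr rfl fun v _ => ?_
      rw [BA_shift]
    have h7 : |(BA L 0 f z - m) * (L : ℝ) ^ 2| ≤ (X z + 2 * a) * (L : ℝ) ^ 2 := by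
      rw [sub_mul, h5]
      have h8 := abs_sub_le (∑ v ∈ bx L, g v)
        (∑ v ∈ bx L, (∑ x ∈ pos R r, g (v + x)) / (R : ℝ) ^ 2) (m * (L : ℝ) ^ 2)
      rw [abs_sub_comm] at h4
      have h9 : 2 * ((nr R (bx L)).card : ℝ) + (0 + 4 * r / R) * (bx L).card ≤
          2 * a * (L : ℝ) ^ 2 := by
        rw [card_bx]
        push_cast
        have h10 := card_nr_bx R L
        have h11 : 4 * (r : ℝ) / R * (L : ℝ) ^ 2 ≤ a * (L : ℝ) ^ 2 :=
          mul_le_mul_of_nonneg_right hrR hLp.le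
        have h12 : 8 * (R : ℝ) * L ≤ a * (L : ℝ) ^ 2 := by
          have h3 : (0 : ℝ) ≤ L := by linarith
          have := mul_le_mul_of_nonneg_right b2 h3
          nlinarith
        linarith
      linarith
    rw [abs_mul, abs_of_pos hLp] at h7
    exact le_of_mul_le_mul_right h7 hLp
  have hBA := bd_BA (L := L) (r := 0) hf.meas hf.bd
  have e1 : mB L 0 f - m = Ev (bx L) (lat (bx L)) 0 fun z => BA L 0 f z - m := by
    rw [Ev_sub hBA (Bd.const m) hA hv, Ev_const hA hv]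
    rfl
  rw [e1]
  have h4 : |Ev (bx L) (lat (bx L)) 0 fun z => BA L 0 f z - m| ≤
      Ev (bx L) (lat (bx L)) 0 fun z => X z + 2 * a := by
    rw [abs_le, ← Ev_neg]
    constructor
    · refine Ev_mono ((hXB.add (Bd.const _)).neg) (hBA.sub (Bd.const m)) hA hv fun z => ?_
      exact (abs_le.mp (hdet z)).1
    · exact Ev_mono (hBA.sub (Bd.const m)) (hXB.add (Bd.const _)) hA hv fun z =>
        (abs_le.mp (hdet z)).2
  rw [Ev_add hXB (Bd.const _) hA hv, Ev_const hA hv] at h4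
  linarith

/-- The limit functional (the plane state). -/
def m0 (f : (P2 → ℝ) → ℝ) : ℝ := limUnder atTop fun L : ℕ => mB L 0 f

theorem tendsto_mB {r : ℕ} {f : (P2 → ℝ) → ℝ} (hf : LObs r f) :
    Tendsto (fun L : ℕ => mB L 0 f) atTop (𝓝 (m0 f)) := by
  refine CauchySeq.tendsto_limUnder (Metric.cauchySeq_iff'.mpr fun ε hε => ?_)
  obtain ⟨R0, hR0⟩ := mB_near hf (a := min 1 (ε / 11)) (by positivity) (min_le_left _ _)
  obtain ⟨L0, hL0⟩ := hR0 R0 le_rfl
  refine ⟨L0, fun L hL => ?_⟩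
  have h1 := hL0 L hL
  have h2 := hL0 L0 le_rfl
  rw [Real.dist_eq]
  have h3 := abs_sub_le (mB L 0 f) (mB R0 r f) (mB L0 0 f)
  rw [abs_sub_comm (mB R0 r f)] at h3
  have h4 : min 1 (ε / 11) ≤ ε / 11 := min_le_right _ _
  linarith

theorem mB_close {r : ℕ} {f : (P2 → ℝ) → ℝ} (hf : LObs r f) {a : ℝ} (ha : 0 < a) :
    ∃ R0 : ℕ, ∀ R : ℕ, R0 ≤ R → |mB R r f - m0 f| ≤ a := by
  obtain ⟨R0, hR0⟩ := mB_near hf (a := min 1 (a / 5)) (by positivity) (min_le_left _ _)
  refine ⟨R0, fun R hR => ?_⟩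
  obtain ⟨L0, hL0⟩ := hR0 R hR
  have h1 : Tendsto (fun L : ℕ => |mB L 0 f - mB R r f|) atTop (𝓝 |m0 f - mB R r f|) :=
    ((tendsto_mB hf).sub_const _).abs
  have h2 : |m0 f - mB R r f| ≤ 5 * min 1 (a / 5) :=
    le_of_tendsto h1 (eventually_atTop.mpr ⟨L0, fun L hL => hL0 L hL⟩)
  rw [abs_sub_comm]
  have h4 : min 1 (a / 5) ≤ a / 5 := min_le_right _ _
  linarith

theorem abs_m0_le {r : ℕ} {f : (P2 → ℝ) → ℝ} (hf : LObs r f) : |m0 f| ≤ 1 := by
  refine le_of_tendsto (tendsto_mB hf).abs (Eventually.of_forall fun L => ?_)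
  exact abs_Ev_le (bd_BA hf.meas hf.bd) (anch_bx L) (vr_zero_pos (anch_bx L)) fun z =>
    abs_BA_le hf.bd z

/-- **Law of large numbers for the box averages.** -/
theorem box1 {r : ℕ} {f : (P2 → ℝ) → ℝ} (hf : LObs r f) {a : ℝ} (ha : 0 < a) (ha1 : a ≤ 1) :
    ∃ R0 : ℕ, 0 < R0 ∧ ∀ R : ℕ, R0 ≤ R → ∃ c : ℝ, 0 < c ∧ ∃ θ : ℝ, 0 < θ ∧ ∃ N2 : ℕ,
      ∀ (U : Type) [DecidableEq U] (F : Finset U) (E : Finset (U × U)) (W : Finset P2)
        (e : P2 → U) (D : Set P2), GCh F E W e D → N2 ≤ W.card →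
        ((nr (2 * (R + 1)) W).card : ℝ) ≤ θ * W.card →
        ((F \ W.image e).card : ℝ) ≤ θ * W.card → ∀ ξ : U → ℝ,
          volume (ham F E ξ ∩ {x | a * W.card ≤
            ∑ v ∈ W, |BA R r f (fun u => ext F ξ x (e (v + u))) - m0 f|}) ≤
            ENNReal.ofReal (Real.exp (-(c * W.card))) * volume (ham F E 0) := by
  obtain ⟨R0, hR0, hbox⟩ := box0 hf ha ha1
  obtain ⟨R1, hR1⟩ := mB_close hf (a := a / 16) (by positivity)
  refine ⟨max R0 R1, by positivity, fun R hR => ?_⟩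
  obtain ⟨c, hc, θ, hθ, N2, h⟩ := hbox R ((le_max_left _ _).trans hR)
  refine ⟨c, hc, θ, hθ, N2, ?_⟩
  intro U _ F E W e D hG hW h1 h2 ξ
  exact h U F E W e D hG hW h1 h2 (m0 f) (hR1 R ((le_max_right _ _).trans hR)) ξ

/-- **Law of large numbers with slowly varying weights**, exponential form, general system with a
global chart. -/
theorem lln {r : ℕ} {f : (P2 → ℝ) → ℝ} (hf : LObs r f) {a : ℝ} (ha : 0 < a) (ha1 : a ≤ 1) :
    ∃ R : ℕ, 0 < R ∧ ∃ c : ℝ, 0 < c ∧ ∃ θ : ℝ, 0 < θ ∧ ∃ N2 : ℕ,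
      ∀ (U : Type) [DecidableEq U] (F : Finset U) (E : Finset (U × U)) (W : Finset P2)
        (e : P2 → U) (D : Set P2), GCh F E W e D → N2 ≤ W.card →
        ((nr (2 * (R + 1)) W).card : ℝ) ≤ θ * W.card →
        ((F \ W.image e).card : ℝ) ≤ θ * W.card →
        ∀ w : P2 → ℝ, (∀ v ∈ W, |w v| ≤ 1) →
        (∀ x ∈ bx R, ∀ u ∈ W, u - x ∈ W → |w (u - x) - w u| ≤ θ) → ∀ ξ : U → ℝ,
          volume (ham F E ξ ∩ {x | a * W.card ≤
            |∑ v ∈ W, w v * (f (fun u => ext F ξ x (e (v + u))) - m0 f)|}) ≤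
            ENNReal.ofReal (Real.exp (-(c * W.card))) * volume (ham F E 0) := by
  obtain ⟨R0, hR0, hbox⟩ := box1 hf (a := a / 2) (by positivity) (by linarith)
  obtain ⟨q, hq⟩ := exists_nat_ge (64 * (r : ℝ) / a)
  set R := max (max R0 q) (2 * r) with hRd
  have hR1 : R0 ≤ R := (le_max_left _ _).trans (le_max_left _ _)
  have hR2 : q ≤ R := (le_max_right _ _).trans (le_max_left _ _)
  have hR3 : 2 * r ≤ R := le_max_right _ _
  have hRp : 0 < R := lt_of_lt_of_le hR0 hR1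
  have hRr : (0 : ℝ) < R := by exact_mod_cast hRp
  have hrR : 4 * (r : ℝ) / R ≤ a / 16 := by
    have h1 : 64 * (r : ℝ) / a ≤ R := hq.trans (by exact_mod_cast hR2)
    rw [div_le_iff₀ ha] at h1
    rw [div_le_iff₀ hRr]; linarith
  obtain ⟨c, hc, θ, hθ, N2, h⟩ := hbox R hR1
  refine ⟨R, hRp, c, hc, min θ (a / 32), by positivity, N2, ?_⟩
  intro U _ F E W e D hG hW h1 h2 w hw hw' ξ
  have hθ1 : min θ (a / 32) ≤ θ := min_le_left _ _
  have hθ2 : min θ (a / 32) ≤ a / 32 := min_le_right _ _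
  have hn0 : (0 : ℝ) ≤ W.card := Nat.cast_nonneg _
  have k1 : min θ (a / 32) * (W.card : ℝ) ≤ θ * W.card := mul_le_mul_of_nonneg_right hθ1 hn0
  have k2 : min θ (a / 32) * (W.card : ℝ) ≤ a / 32 * W.card := mul_le_mul_of_nonneg_right hθ2 hn0
  refine (measure_mono ?_).trans (h U F E W e D hG hW (h1.trans k1) (h2.trans k1) ξ)
  rintro x ⟨hx, hx'⟩
  refine ⟨hx, ?_⟩
  simp only [mem_ofPred_eq] at hx' ⊢
  set z : P2 → ℝ := fun v => ext F ξ x (e v) with hz
  set g : P2 → ℝ := fun v => f fun u => z (v + u) with hg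
  have h4 := avg_sum (W := W) (g := g) (w := w) (fun v => hf.bd _) hw hRp hR3 (θ := a / 32)
    (by positivity) (fun x hx u hu hux => (hw' x hx u hu hux).trans hθ2)
  have h5 : ((nr R W).card : ℝ) ≤ a / 32 * W.card := by
    have h6 : ((nr R W).card : ℝ) ≤ (nr (2 * (R + 1)) W).card := by
      exact_mod_cast Finset.card_le_card (nr_mono (by omega) W)
    linarith
  have h6 : (4 * (r : ℝ) / R) * W.card ≤ a / 16 * W.card := mul_le_mul_of_nonneg_right hrR hn0
  have e1 : ∑ v ∈ W, w v * (f (fun u => ext F ξ x (e (v + u))) - m0 f) =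
      ∑ v ∈ W, w v * (g v - m0 f) := rfl
  have e2 : ∀ v, BA R r f (fun u => ext F ξ x (e (v + u))) =
      (∑ y ∈ pos R r, g (v + y)) / (R : ℝ) ^ 2 := fun v => BA_shift z v
  rw [e1] at hx'
  have e3 : ∑ v ∈ W, w v * (g v - m0 f) =
      (∑ v ∈ W, w v * g v - ∑ v ∈ W, w v * ((∑ y ∈ pos R r, g (v + y)) / (R : ℝ) ^ 2)) +
        ∑ v ∈ W, w v * (BA R r f (fun u => ext F ξ x (e (v + u))) - m0 f) := by
    rw [← Finset.sum_sub_distrib, ← Finset.sum_add_distrib]
    refine Finset.sum_congr rfl fun v _ => ?_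
    rw [e2]; ring
  have h7 : |∑ v ∈ W, w v * (BA R r f (fun u => ext F ξ x (e (v + u))) - m0 f)| ≤
      ∑ v ∈ W, |BA R r f (fun u => ext F ξ x (e (v + u))) - m0 f| := by
    refine (Finset.abs_sum_le_sum_abs _ _).trans (Finset.sum_le_sum fun v hv => ?_)
    rw [abs_mul]
    exact mul_le_of_le_one_left (abs_nonneg _) (hw v hv)
  have h8 := abs_add_le
    (∑ v ∈ W, w v * g v - ∑ v ∈ W, w v * ((∑ y ∈ pos R r, g (v + y)) / (R : ℝ) ^ 2))
    (∑ v ∈ W, w v * (BA R r f (fun u => ext F ξ x (e (v + u))) - m0 f))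
  rw [← e3] at h8
  rw [abs_sub_comm] at h4
  linarith

end Crest.Agent.R144.Lc279
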