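import Crest.Agent.R144.Lmu2_425

/-!
R144 (S0197), helper425.  Lmu3: properties of the measure `μ₀`.

* `ext_of_LObs` : pinned laws are determined by the local observables;
* `m_translate`, `m_neg` : invariances of the limit functional;
* `exists_mu0'` : the measure `μ₀` is a probability measure on pinned `1`-Lipschitz heights, invariant under
  translations `shft x` and under `h ↦ -h`, with bounded densities, and represents the functional.
-/

set_option autoImplicit false

open MeasureTheory Set Filter Topology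
open scoped ENNReal

noncomputable section

namespace Crest.Agent.R144.Lw425

open Crest.Agent.R144.Ham560
open Crest.Agent.R144.Lc279 (Ev bx mem_bx card_bx anch_bx card_nbr_lat_le mem_nbr_lat)

/-- Every finite set is contained in a ball. -/
theorem exists_hball (s : Finset (ℤ × ℤ)) : ∃ r : ℕ, ∀ a ∈ s, a ∈ hball r := by
  refine ⟨s.sup fun a => (hd a 0).toNat, fun a ha => ?_⟩
  rw [mem_hball]
  have h1 : (hd a 0).toNat ≤ s.sup fun a => (hd a 0).toNat :=
    Finset.le_sup (f := fun a => (hd a 0).toNat) ha
  have h2 := hd_nonneg a 0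
  omega

theorem zero_mem_hball (r : ℕ) : (0 : ℤ × ℤ) ∈ hball r :=
  mem_hball.mpr (by rw [hd_self]; positivity)

/-- Indicator of an event of the gradients in a ball. -/
theorem LObs_indicator {r : ℕ} {A : Set (ℤ × ℤ → ℝ)} (hA : MeasurableSet A)
    (hloc : ∀ h h' : ℤ × ℤ → ℝ, (∀ a ∈ hball r, h a = h' a) → (h ∈ A ↔ h' ∈ A)) :
    LObs r (fun h => A.indicator 1 fun a => h a - h 0) where
  meas := by
    refine (measurable_one.indicator hA).comp ?_
    exact measurable_pi_lambda _ fun a => (measurable_pi_apply a).sub (measurable_pi_apply 0)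
  bd := by
    intro h
    by_cases hh : (fun a => h a - h 0) ∈ A
    · rw [indicator_of_mem hh]; simp
    · rw [indicator_of_notMem hh]; simp
  loc := by
    intro h h' hh
    have h1 : (fun a => h a - h 0) ∈ A ↔ (fun a => h' a - h' 0) ∈ A := by
      refine hloc _ _ fun a ha => ?_
      rw [hh a ha, hh 0 (zero_mem_hball r)]
    by_cases h2 : (fun a => h a - h 0) ∈ A
    · rw [indicator_of_mem h2, indicator_of_mem (h1.mp h2)]; rfl
    · rw [indicator_of_notMem h2, indicator_of_notMem fun h3 => h2 (h1.mpr h3)]
  shift := by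
    intro h c
    simp only [add_sub_add_right_eq_sub]

theorem measure_eq_integral_ind {μ : Measure (ℤ × ℤ → ℝ)} (h0 : ∀ᵐ h ∂μ, h 0 = 0)
    {A : Set (ℤ × ℤ → ℝ)} (hA : MeasurableSet A) :
    ∫ h, A.indicator (1 : (ℤ × ℤ → ℝ) → ℝ) (fun a => h a - h 0) ∂μ = μ.real A := by
  rw [← integral_indicator_one hA]
  refine integral_congr_ae ?_
  filter_upwards [h0] with h hh
  simp only [hh, sub_zero]

/-- Pinned laws are determined by the local observables. -/
theorem ext_of_LObs {μ μ' : Measure (ℤ × ℤ → ℝ)} [IsProbabilityMeasure μ] [IsProbabilityMeasure μ']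
    (h0 : ∀ᵐ h ∂μ, h 0 = 0) (h0' : ∀ᵐ h ∂μ', h 0 = 0)
    (h : ∀ r f, LObs r f → ∫ h, f h ∂μ = ∫ h, f h ∂μ') : μ = μ' := by
  refine ext_of_generate_finite (measurableCylinders fun _ : ℤ × ℤ => ℝ)
    generateFrom_measurableCylinders.symm isPiSystem_measurableCylinders ?_ (by simp)
  intro A hA
  obtain ⟨s, S, hS, rfl⟩ := (mem_measurableCylinders A).mp hA
  obtain ⟨r, hr⟩ := exists_hball s
  have hm : MeasurableSet (cylinder s S) :=
    (Finset.measurable_restrict (X := fun _ : ℤ × ℤ => ℝ) s) hS
  have hobs := LObs_indicator (r := r) hm (by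
    intro g g' hg
    rw [mem_cylinder, mem_cylinder]
    have : s.restrict g = s.restrict g' := by
      funext a
      exact hg a (hr a a.2)
    rw [this])
  have h1 := h r _ hobs
  rw [measure_eq_integral_ind h0 hm, measure_eq_integral_ind h0' hm] at h1
  exact (measureReal_eq_measureReal_iff (measure_ne_top _ _) (measure_ne_top _ _)).mp h1

/-- Translated observables. -/
theorem LObs.trans {r : ℕ} {f : (ℤ × ℤ → ℝ) → ℝ} (hf : LObs r f) (x : ℤ × ℤ) :
    LObs (r + (hd x 0).toNat) fun h => f fun a => h (x + a) where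
  meas := hf.meas.comp (measurable_pi_lambda _ fun a => measurable_pi_apply _)
  bd := fun h => hf.bd _
  loc := by
    intro h h' hh
    refine hf.loc _ _ fun a ha => hh _ ?_
    rw [mem_hball] at ha ⊢
    have h1 := hd_triangle (x + a) x 0
    rw [hd_add_left x a] at h1
    have h2 := hd_nonneg x 0
    push_cast
    omega
  shift := fun h c => hf.shift (fun a => h (x + a)) c

theorem LObs.neg {r : ℕ} {f : (ℤ × ℤ → ℝ) → ℝ} (hf : LObs r f) : LObs r fun h => f (-h) where
  meas := hf.meas.comp measurable_neg
  bd := fun h => hf.bd _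
  loc := by
    intro h h' hh
    refine hf.loc _ _ fun a ha => ?_
    rw [Pi.neg_apply, Pi.neg_apply, hh a ha]
  shift := by
    intro h c
    have := hf.shift (-h) (-c)
    rw [← this]
    congr 1
    funext a
    simp only [Pi.neg_apply]
    ring

/-- The box averages. -/
def bav (L : ℕ) (f : (ℤ × ℤ → ℝ) → ℝ) : ℝ :=
  ((bx L).card : ℝ)⁻¹ * ∑ x ∈ bx L, Ev (bx L) (Lc279.lat (bx L)) 0 fun z => f fun a => z (x + a)

/-- Moving the box. -/
theorem bav_translate {r : ℕ} {f : (ℤ × ℤ → ℝ) → ℝ} (hf : LObs r f) (x : ℤ × ℤ) :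
    Tendsto (fun L => bav L (fun h => f fun a => h (x + a)) - bav L f) atTop (𝓝 0) := by
  classical
  have hratio := core_ratio
  have h2 : Tendsto (fun L : ℕ => 2 * (1 - ((core' L).card : ℝ) / (bx L).card) +
      2 * (1 - ((core' L).card : ℝ) / (bx L).card)) atTop (𝓝 0) := by
    have := ((hratio.const_sub 1).const_mul 2).add ((hratio.const_sub 1).const_mul 2)
    simpa using this
  refine squeeze_zero_norm' ?_ h2
  filter_upwards [tendsto_mg.eventually_ge_atTop (hd x 0).toNat, eventually_gt_atTop 0] with L hL hL0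
  set g : ℤ × ℤ → ℝ := fun y => Ev (bx L) (Lc279.lat (bx L)) 0 fun z => f fun a => z (y + a) with hg
  have hgb : ∀ y, |g y| ≤ 1 := fun y => abs_Ev_le fun h => hf.bd _
  have e1 : bav L (fun h => f fun a => h (x + a)) =
      (((bx L).image fun y => y + x).card : ℝ)⁻¹ * ∑ y ∈ (bx L).image (fun y => y + x), g y := by
    unfold bav
    rw [Finset.card_image_of_injective _ (add_left_injective x),
      Finset.sum_image fun a _ b _ h => add_left_injective x h]
    congr 1
    refine Finset.sum_congr rfl fun y _ => ?_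
    simp only [hg]
    congr 1
    funext z
    congr 1
    funext a
    rw [add_assoc]
  have hcard : ((bx L).image fun y => y + x).card = (bx L).card :=
    Finset.card_image_of_injective _ (add_left_injective x)
  have hsub : core' L ⊆ (bx L).image fun y => y + x := by
    intro y hy
    rw [mem_core'] at hy
    refine Finset.mem_image.mpr ⟨y - x, ?_, by abel⟩
    have h3 := hd_le_iff.mp (le_refl (hd x 0))
    simp only [Prod.fst_zero, Prod.snd_zero, sub_zero] at h3
    rw [mem_bx]
    simp only [Prod.fst_sub, Prod.snd_sub]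
    omega
  have k1 := avg_sub_le hsub (core'_nonempty hL0) hgb
  have k2 := avg_sub_le (core'_subset L) (core'_nonempty hL0) hgb
  rw [hcard] at k1
  rw [Real.norm_eq_abs, e1, hcard]
  have e2 : bav L f = ((bx L).card : ℝ)⁻¹ * ∑ y ∈ bx L, g y := rfl
  rw [e2]
  rw [abs_sub_comm] at k1
  refine (abs_sub_le _ (((core' L).card : ℝ)⁻¹ * ∑ x ∈ core' L, g x) _).trans (add_le_add k1 k2)

/-- The zero-data law is even. -/
theorem Ev_neg {F : Finset (ℤ × ℤ)} {E : Finset ((ℤ × ℤ) × (ℤ × ℤ))} (f : (ℤ × ℤ → ℝ) → ℝ) :
    Ev F E 0 (fun z => f (-z)) = Ev F E 0 f := by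
  unfold Ev
  have hK : (fun x : F → ℝ => -x) ⁻¹' ham F E 0 = ham F E 0 := by
    ext x
    constructor
    · intro h
      have := ham_neg (show -x ∈ ham F E 0 from h)
      simpa using this
    · intro h
      show -x ∈ ham F E 0
      simpa using ham_neg h
  have hmp : MeasurePreserving (fun x : F → ℝ => -x) volume volume :=
    Measure.measurePreserving_neg volume
  have hemb : MeasurableEmbedding (fun x : F → ℝ => -x) :=
    (MeasurableEquiv.neg (F → ℝ)).measurableEmbedding
  rw [integral_hamP_real, integral_hamP_real]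
  congr 1
  have := hmp.setIntegral_preimage_emb hemb (fun x => f (Ham560.ext F 0 x)) (ham F E 0)
  rw [hK] at this
  rw [← this]
  refine integral_congr_ae (Eventually.of_forall fun x => ?_)
  have e : Ham560.ext F 0 (-x) = -Ham560.ext F 0 x := by
    funext u
    have := ext_neg (F := F) (ξ := 0) x u
    simpa using this
  simp only [e]

theorem bav_neg (L : ℕ) (f : (ℤ × ℤ → ℝ) → ℝ) : bav L (fun h => f (-h)) = bav L f := by
  unfold bav
  congr 1
  refine Finset.sum_congr rfl fun x _ => ?_
  exact Ev_neg fun z => f fun a => z (x + a)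

/-- `μ` is the plane state of the functional `m`. -/
structure IsMu0 (μ : Measure (ℤ × ℤ → ℝ)) (m : ((ℤ × ℤ → ℝ) → ℝ) → ℝ) : Prop where
  prob : IsProbabilityMeasure μ
  eq : ∀ r f, LObs r f → ∫ h, f h ∂μ = m f
  pin : ∀ᵐ h ∂μ, h 0 = 0
  lip : ∀ᵐ h ∂μ, ∀ v w, |h v - h w| ≤ (hd v w : ℝ)
  dom : ∀ r, ∀ A : Set (pb r → ℝ), MeasurableSet A → μ {h | rst r h ∈ A} ≤ domC r 6 * volume A
  trans : ∀ x, μ.map (shft x) = μ
  neg : μ.map (fun h => -h) = μ

/-- **The measure `μ₀`, with its properties.** -/
theorem exists_mu0' {m : ((ℤ × ℤ → ℝ) → ℝ) → ℝ}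
    (hm : ∀ r f, LObs r f → Tendsto (fun L : ℕ => bav L f) atTop (𝓝 (m f))) :
    ∃ μ : Measure (ℤ × ℤ → ℝ), IsMu0 μ m := by
  obtain ⟨μ, hp, hs, heq, hdom⟩ := exists_mu0 hm
  have h0 : ∀ᵐ h ∂μ, h 0 = 0 := by
    filter_upwards [hs] with h hh
    have := hh 0
    rw [hd_self] at this
    simpa using this
  have hmt : ∀ r f, LObs r f → ∀ x, m (fun h => f fun a => h (x + a)) = m f := by
    intro r f hf x
    have h1 := (hm _ _ (hf.trans x)).sub (hm r f hf)
    have h2 := tendsto_nhds_unique h1 (bav_translate hf x)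
    linarith
  have hmn : ∀ r f, LObs r f → m (fun h => f (-h)) = m f := by
    intro r f hf
    have h1 := hm _ _ hf.neg
    simp only [bav_neg] at h1
    exact tendsto_nhds_unique h1 (hm r f hf)
  refine ⟨μ, hp, heq, h0, ?_, hdom, ?_, ?_⟩
  · -- Lipschitz
    rw [ae_all_iff]
    intro v
    rw [ae_all_iff]
    intro w
    obtain ⟨r, hr⟩ := exists_hball {v, w}
    set A : Set (ℤ × ℤ → ℝ) := {h | (hd v w : ℝ) < |h v - h w|} with hA
    have hAm : MeasurableSet A := measurableSet_lt measurable_const
      ((measurable_pi_apply v).sub (measurable_pi_apply w)).abs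
    have hobs := LObs_indicator (r := r) hAm (by
      intro g g' hg
      simp only [hA, mem_ofPred_eq]
      rw [hg v (hr v (by simp)), hg w (hr w (by simp))])
    have h1 := heq r _ hobs
    rw [measure_eq_integral_ind h0 hAm] at h1
    have h2 : m (fun h => A.indicator 1 fun a => h a - h 0) = 0 := by
      refine tendsto_nhds_unique (hm r _ hobs) ?_
      have : ∀ L : ℕ, bav L (fun h => A.indicator 1 fun a => h a - h 0) = 0 := by
        intro L
        unfold bav
        rw [Finset.sum_eq_zero, mul_zero]
        intro x _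
        unfold Ev
        refine integral_eq_zero_of_ae ?_
        filter_upwards [bxP_ae L] with y hy
        have h3 := lipAll hy (x + v) (x + w)
        rw [hd_add_left'] at h3
        rw [indicator_of_notMem]
        · rfl
        · simp only [hA, mem_ofPred_eq, sub_sub_sub_cancel_right, not_lt]
          exact h3
      simp only [this]
      exact tendsto_const_nhds
    rw [h2] at h1
    have h3 : μ A = 0 := by
      rw [Measure.real, ENNReal.toReal_eq_zero_iff] at h1
      exact h1.resolve_right (measure_ne_top _ _)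
    rw [ae_iff]
    refine measure_mono_null ?_ h3
    intro h hh
    exact not_le.mp hh
  · intro x
    have hpx : IsProbabilityMeasure (μ.map (shft x)) :=
      Measure.isProbabilityMeasure_map (measurable_shft x).aemeasurable
    refine ext_of_LObs ?_ h0 ?_
    · rw [ae_map_iff (measurable_shft x).aemeasurable
        (measurableSet_eq_fun (measurable_pi_apply 0) measurable_const)]
      refine Eventually.of_forall fun h => ?_
      simp [shft]
    · intro r f hf
      rw [integral_map (measurable_shft x).aemeasurable hf.meas.aestronglyMeasurable]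
      rw [heq r f hf, ← hmt r f hf x, ← heq _ _ (hf.trans x)]
      refine integral_congr_ae (Eventually.of_forall fun h => ?_)
      exact hf.shft_eq x h
  · have hpx : IsProbabilityMeasure (μ.map fun h => -h) :=
      Measure.isProbabilityMeasure_map measurable_neg.aemeasurable
    refine ext_of_LObs ?_ h0 ?_
    · rw [ae_map_iff measurable_neg.aemeasurable
        (measurableSet_eq_fun (measurable_pi_apply 0) measurable_const)]
      filter_upwards [h0] with h hh
      rw [Pi.neg_apply, hh, neg_zero]
    · intro r f hf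
      rw [integral_map measurable_neg.aemeasurable hf.meas.aestronglyMeasurable]
      rw [heq r f hf, ← hmn r f hf, ← heq _ _ hf.neg]

end Crest.Agent.R144.Lw425
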