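import Crest.Agent.R144.Lc13_279
import Crest.Agent.R144.Lmu3_425

/-!
R144 (S0197), helper279.  Block LC, file 14: the plane state `mu0` (425's measure for the functional
`m0`), and ergodicity `(I2)`: block averages converge to `m0 f` in `L¹`.
-/

set_option autoImplicit false
set_option linter.unusedSectionVars false
set_option linter.unusedVariables false

open MeasureTheory Set Filter Topology
open scoped ENNReal

noncomputable section

namespace Crest.Agent.R144.Lc279

open Crest.Agent.R144.Ham560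
open Crest.Agent.R144.Lw425 (hd hd_comm hd_le_iff mem_hball hball mem_inn inn mem_sph sph hd_self
  hd_triangle hd_pos hd_adj LObs IsMu0 exists_mu0' bav)

theorem bav_eq {r : ℕ} {f : (P2 → ℝ) → ℝ} (hf : LObs r f) (L : ℕ) : bav L f = mB L 0 f := by
  unfold bav mB
  have e1 : BA L 0 f = fun z => ((L : ℝ) ^ 2)⁻¹ * ∑ x ∈ bx L, f fun v => z (x + v) := by
    funext z
    unfold BA
    rw [pos_zero, div_eq_inv_mul]
  have hs : ∀ x ∈ bx L, Bd (fun z : P2 → ℝ => f fun v => z (x + v)) := fun x _ =>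
    ⟨hf.meas.comp (measurable_shift x), 1, fun z => hf.bd _⟩
  rw [e1, Ev_const_mul, Ev_sum hs (anch_bx L) (vr_zero_pos (anch_bx L)), card_bx]
  push_cast
  rfl

theorem tendsto_bav {r : ℕ} {f : (P2 → ℝ) → ℝ} (hf : LObs r f) :
    Tendsto (fun L : ℕ => bav L f) atTop (𝓝 (m0 f)) :=
  (tendsto_mB hf).congr fun L => (bav_eq hf L).symm

/-- **The plane state.** -/
theorem exists_mu : ∃ μ : Measure (ℤ × ℤ → ℝ), IsMu0 μ m0 :=
  exists_mu0' fun _ _ hf => tendsto_bav hf

/-- The plane state as a term. -/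
def mu0 : Measure (ℤ × ℤ → ℝ) := exists_mu.choose

theorem isMu0 : IsMu0 mu0 m0 := exists_mu.choose_spec

instance : IsProbabilityMeasure mu0 := isMu0.prob

theorem integral_mu0 {r : ℕ} {f : (P2 → ℝ) → ℝ} (hf : LObs r f) : ∫ h, f h ∂mu0 = m0 f :=
  isMu0.eq r f hf

end Crest.Agent.R144.Lc279
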