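import Crest.Agent.R144.TorC_95
import Crest.Agent.R144.Ham5_560

/-!
R144 (S0197), helper95.

* `finite_rect`, `finite_rect_map` : the quotients are finite;
* `ex_eq_hamP` : the free-gauge state is 560's `hamP (univ.erase o) E 0` (pinned at `o`);
* `two_growth` : `Two V ⟹ V p ≤ C (1 + |p.1| + |p.2|)` (RP concavity).
-/

set_option autoImplicit false

open MeasureTheory Set Function Filter Topology
open scoped ENNReal
open Crest.ProbabilityR.HexHeights (Adj)
open Crest.Agent.R144.Tp952 (th sw Two)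
open Crest.Agent.R144.Ham560 (ext ham hamP Anch nbr mem_nbr)

namespace Crest.Agent.R144.Tor95

/-! ### finiteness -/

theorem finite_rect {N m : ℤ} (hN : 0 < N) (hm : 0 < m) : Finite ((ℤ × ℤ) ⧸ rect N m) := by
  have : Finite (↥(Set.Icc (0:ℤ) N) × ↥(Set.Icc (-m) m)) := inferInstance
  refine Finite.of_surjective (fun z : ↥(Set.Icc (0:ℤ) N) × ↥(Set.Icc (-m) m) =>
    (((z.1.1, z.2.1) : ℤ × ℤ) : (ℤ × ℤ) ⧸ rect N m)) ?_
  intro q
  obtain ⟨p, h1, h2, rfl⟩ := exists_rep hm q
  refine ⟨(⟨p.1 % N, Int.emod_nonneg _ hN.ne', (Int.emod_lt_of_pos _ hN).le⟩,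
    ⟨p.2, h1.le, h2⟩), ?_⟩
  refine mk_eq_mk_rect.2 ⟨p.1 / N, 0, ?_⟩
  have e := Int.emod_add_mul_ediv p.1 N
  ext
  · simp only
    linarith
  · simp

theorem finite_map {Γ : AddSubgroup (ℤ × ℤ)} (g : (ℤ × ℤ) ≃+ (ℤ × ℤ))
    [Finite ((ℤ × ℤ) ⧸ Γ)] : Finite ((ℤ × ℤ) ⧸ Γ.map g.toAddMonoidHom) :=
  Finite.of_equiv _ (QuotientAddGroup.congr Γ (Γ.map g.toAddMonoidHom) g rfl).toEquiv

/-! ### the pinned form -/

section pinned

variable {Q : Type*} [Fintype Q] [DecidableEq Q]

open Classical in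
/-- The edge set of the relation `R`. -/
noncomputable def edg (R : Q → Q → Prop) : Finset (Q × Q) :=
  Finset.univ.filter fun p => R p.1 p.2

omit [DecidableEq Q] in
theorem mem_edg {R : Q → Q → Prop} {p : Q × Q} : p ∈ edg R ↔ R p.1 p.2 := by
  simp [edg]

theorem mem_ham_iff {R : Q → Q → Prop} {o : Q} (x : ↥(Finset.univ.erase o) → ℝ) :
    x ∈ ham (Finset.univ.erase o) (edg R) 0 ↔ ext (Finset.univ.erase o) 0 x ∈ lip R := by
  constructor
  · intro h p q hpq
    exact h (p, q) (mem_edg.2 hpq)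
  · intro h p hp
    exact h p.1 p.2 (mem_edg.1 hp)

/-- Heights on `Q` from the value `c` at `o` and the other values relative to it. -/
def shiftExt (o : Q) (z : (↥(Finset.univ.erase o) → ℝ) × ℝ) : Q → ℝ :=
  fun q => ext (Finset.univ.erase o) 0 z.1 q + z.2

theorem ext_o (o : Q) (x : ↥(Finset.univ.erase o) → ℝ) :
    ext (Finset.univ.erase o) 0 x o = 0 := by
  rw [Crest.Agent.R144.Ham560.ext_notMem (by simp)]; rfl

/-- `Q` as free sites plus the base point. -/
noncomputable def baseEquiv (o : Q) : (↥(Finset.univ.erase o : Finset Q) ⊕ Unit) ≃ Q where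
  toFun := Sum.elim (fun q => q.1) (fun _ => o)
  invFun := fun q => if h : q ∈ (Finset.univ.erase o : Finset Q) then Sum.inl ⟨q, h⟩ else Sum.inr ()
  left_inv := by
    rintro (⟨q, hq⟩ | u)
    · exact dif_pos hq
    · exact dif_neg (by simp)
  right_inv := by
    intro q
    by_cases h : q ∈ (Finset.univ.erase o : Finset Q)
    · simp only [dif_pos h, Sum.elim_inl]
    · simp only [dif_neg h, Sum.elim_inr]
      simp only [Finset.mem_erase, Finset.mem_univ, and_true, not_not] at h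
      exact h.symm

/-- Gluing of relative heights (translated by `c`) and the base height `c`. -/
noncomputable def baseE (o : Q) : ((↥(Finset.univ.erase o : Finset Q) → ℝ) × (Unit → ℝ)) ≃ᵐ (Q → ℝ) :=
  (MeasurableEquiv.sumPiEquivProdPi
    (fun _ : ↥(Finset.univ.erase o : Finset Q) ⊕ Unit => ℝ)).symm.trans
    (MeasurableEquiv.piCongrLeft (fun _ : Q => ℝ) (baseEquiv o))

theorem baseE_apply (o : Q) (z : (↥(Finset.univ.erase o : Finset Q) → ℝ) × (Unit → ℝ)) (c : ℝ)
    (hz : z.2 () = c) (x : ↥(Finset.univ.erase o : Finset Q) → ℝ) (hx : ∀ q, z.1 q = x q + c) :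
    baseE o z = shiftExt o (x, c) := by
  funext q
  obtain ⟨s, rfl⟩ := (baseEquiv o).surjective q
  simp only [baseE, MeasurableEquiv.coe_trans, Function.comp_apply]
  rw [MeasurableEquiv.piCongrLeft]
  simp only [MeasurableEquiv.coe_mk, Equiv.piCongrLeft_apply_apply]
  rcases s with ⟨q, hq⟩ | u
  · have e1 : shiftExt o (x, c) ((baseEquiv o) (Sum.inl ⟨q, hq⟩)) = x ⟨q, hq⟩ + c := by
      change ext (Finset.univ.erase o) 0 x q + c = _
      rw [Crest.Agent.R144.Ham560.ext_mem hq]
    rw [e1, ← hx]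
    rfl
  · have e1 : shiftExt o (x, c) ((baseEquiv o) (Sum.inr u)) = c := by
      change ext (Finset.univ.erase o) 0 x o + c = _
      rw [ext_o, zero_add]
    rw [e1, ← hz]
    rfl

theorem baseE_measurePreserving (o : Q) : MeasurePreserving (baseE o)
    (volume : Measure ((↥(Finset.univ.erase o : Finset Q) → ℝ) × (Unit → ℝ)))
    (volume : Measure (Q → ℝ)) := by
  have a1 := volume_measurePreserving_piCongrLeft (fun _ : Q => ℝ) (baseEquiv o)
  have a2 := volume_measurePreserving_sumPiEquivProdPi_symm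
    (fun _ : ↥(Finset.univ.erase o : Finset Q) ⊕ Unit => ℝ)
  exact a1.comp a2

/-- Integral over all heights as an iterated integral over relative heights and the base height. -/
theorem lintegral_shiftExt (o : Q) (f : (Q → ℝ) → ℝ≥0∞) (hf : Measurable f) :
    ∫⁻ h, f h = ∫⁻ c : ℝ, ∫⁻ x : ↥(Finset.univ.erase o : Finset Q) → ℝ, f (shiftExt o (x, c)) := by
  have hmp := baseE_measurePreserving o
  have hmp2 := volume_preserving_funUnique Unit ℝ
  rw [← hmp.lintegral_comp_emb (baseE o).measurableEmbedding]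
  have hfe : Measurable fun z => f (baseE o z) := hf.comp (baseE o).measurable
  rw [show (volume : Measure ((↥(Finset.univ.erase o : Finset Q) → ℝ) × (Unit → ℝ))) =
      (volume : Measure (↥(Finset.univ.erase o : Finset Q) → ℝ)).prod volume from rfl,
    lintegral_prod_symm _ hfe.aemeasurable]
  rw [← hmp2.symm.lintegral_comp_emb (MeasurableEquiv.funUnique Unit ℝ).symm.measurableEmbedding]
  refine lintegral_congr fun c => ?_
  rw [← lintegral_add_right_eq_self
    (fun x : ↥(Finset.univ.erase o : Finset Q) → ℝ =>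
      f (baseE o (x, (MeasurableEquiv.funUnique Unit ℝ).symm c))) (fun _ => c)]
  refine lintegral_congr fun x => ?_
  rw [baseE_apply o _ c rfl x (fun q => rfl)]

theorem shiftExt_mem_lip {R : Q → Q → Prop} (o : Q)
    (z : (↥(Finset.univ.erase o : Finset Q) → ℝ) × ℝ) :
    shiftExt o z ∈ lip R ↔ z.1 ∈ ham (Finset.univ.erase o) (edg R) 0 := by
  rw [mem_ham_iff]
  exact lip_shift R _ _

theorem shiftExt_o (o : Q) (z : (↥(Finset.univ.erase o : Finset Q) → ℝ) × ℝ) :
    shiftExt o z o = z.2 := by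
  rw [shiftExt, ext_o, zero_add]

/-- `lintegral` version of the bridge: shift invariant nonnegative observables. -/
theorem lintegral_nu_eq {R : Q → Q → Prop} (o : Q) (f : (Q → ℝ) → ℝ≥0∞) (hf : Measurable f)
    (hs : ∀ (h : Q → ℝ) (c : ℝ), f (fun q => h q + c) = f h) :
    ∫⁻ h, f h ∂(nu R o) =
      ∫⁻ x in ham (Finset.univ.erase o) (edg R) 0, f (ext (Finset.univ.erase o) 0 x) := by
  have hK : MeasurableSet (lip R ∩ gauge o) :=
    ((isClosed_lip R).inter (isClosed_gauge o)).measurableSet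
  have hH : MeasurableSet (ham (Finset.univ.erase o) (edg R) (0 : Q → ℝ)) :=
    Crest.Agent.R144.Ham560.measurableSet_ham
  rw [nu, ← lintegral_indicator hK, lintegral_shiftExt o _ (hf.indicator hK)]
  have e1 : ∀ c : ℝ, ∫⁻ x : ↥(Finset.univ.erase o : Finset Q) → ℝ,
      (lip R ∩ gauge o).indicator f (shiftExt o (x, c)) =
      (Set.Icc (-(1 / 2) : ℝ) (1 / 2)).indicator (fun _ =>
        ∫⁻ x in ham (Finset.univ.erase o) (edg R) 0, f (ext (Finset.univ.erase o) 0 x)) c := by
    intro c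
    by_cases hc : c ∈ Set.Icc (-(1 / 2) : ℝ) (1 / 2)
    · rw [Set.indicator_of_mem hc, ← lintegral_indicator hH]
      refine lintegral_congr fun x => ?_
      have hg : shiftExt o (x, c) ∈ gauge o := by
        change |shiftExt o (x, c) o| ≤ 1 / 2
        rw [shiftExt_o, abs_le]; exact hc
      by_cases hx : x ∈ ham (Finset.univ.erase o) (edg R) 0
      · rw [Set.indicator_of_mem (show shiftExt o (x, c) ∈ lip R ∩ gauge o from
          ⟨(shiftExt_mem_lip o (x, c)).2 hx, hg⟩), Set.indicator_of_mem hx]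
        exact hs _ c
      · rw [Set.indicator_of_notMem (fun h => hx ((shiftExt_mem_lip o (x, c)).1 h.1)),
          Set.indicator_of_notMem hx]
    · rw [Set.indicator_of_notMem hc]
      refine (lintegral_congr fun x => ?_).trans lintegral_zero
      refine Set.indicator_of_notMem (fun h => hc ?_) _
      have : |shiftExt o (x, c) o| ≤ 1 / 2 := h.2
      rw [shiftExt_o, abs_le] at this
      exact this
  simp_rw [e1]
  rw [lintegral_indicator measurableSet_Icc, setLIntegral_const, Real.volume_Icc]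
  norm_num

/-- Continuous version of the bridge. -/
theorem measurable_ext (o : Q) : Measurable (fun x : ↥(Finset.univ.erase o : Finset Q) → ℝ =>
    (ext (Finset.univ.erase o) 0 x : Q → ℝ)) :=
  measurable_pi_iff.2 fun q =>
    (Crest.Agent.R144.Ham560.continuous_ext (F := Finset.univ.erase o) (ξ := 0) q).measurable

/-- **Bridge**: for a bounded-below shift invariant continuous observable the free-gauge integral is
the integral over 560's polytope pinned at `o`. -/
theorem integral_nu_eq {R : Q → Q → Prop} {o : Q} (hc : Conn R o) {F : (Q → ℝ) → ℝ}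
    (hF : Continuous F) (hs : ShiftInv F) :
    ∫ h, F h ∂(nu R o) =
      ∫ x in ham (Finset.univ.erase o) (edg R) 0, F (ext (Finset.univ.erase o) 0 x) := by
  have hmeasE := measurable_ext (Q := Q) o
  have p1 : ∫⁻ h, ENNReal.ofReal (F h) ∂(nu R o) =
      ∫⁻ x in ham (Finset.univ.erase o) (edg R) 0,
        ENNReal.ofReal (F (ext (Finset.univ.erase o) 0 x)) :=
    lintegral_nu_eq o (fun h => ENNReal.ofReal (F h)) (hF.measurable.ennreal_ofReal)
      (fun h c => by rw [hs h c])
  have p2 : ∫⁻ h, ENNReal.ofReal (-F h) ∂(nu R o) =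
      ∫⁻ x in ham (Finset.univ.erase o) (edg R) 0,
        ENNReal.ofReal (-F (ext (Finset.univ.erase o) 0 x)) :=
    lintegral_nu_eq o (fun h => ENNReal.ofReal (-F h)) (hF.neg.measurable.ennreal_ofReal)
      (fun h c => by rw [hs h c])
  have i1 : Integrable F (nu R o) := integrable_of_cont hc hF
  have i2 : Integrable (fun x => F (ext (Finset.univ.erase o) 0 x))
      (volume.restrict (ham (Finset.univ.erase o) (edg R) (0 : Q → ℝ))) := by
    refine ⟨(hF.measurable.comp hmeasE).aestronglyMeasurable, ?_⟩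
    have i3 := i1.2
    rw [HasFiniteIntegral] at i3 ⊢
    have p3 := lintegral_nu_eq (R := R) o (fun h => ‖F h‖ₑ) (by fun_prop)
      (fun h c => by rw [hs h c])
    rwa [← p3]
  rw [integral_eq_lintegral_pos_part_sub_lintegral_neg_part i1,
    integral_eq_lintegral_pos_part_sub_lintegral_neg_part i2, p1, p2]

/-- **Bridge** to 560's probability `hamP`. -/
theorem ex_eq_hamP {R : Q → Q → Prop} {o : Q} (hc : Conn R o) {F : (Q → ℝ) → ℝ}
    (hF : Continuous F) (hs : ShiftInv F) :
    ex R o F = ∫ x, F (ext (Finset.univ.erase o) 0 x) ∂(hamP (Finset.univ.erase o) (edg R) 0) := by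
  have h1 := integral_nu_eq hc hF hs
  have h2 := integral_nu_eq hc (F := fun _ => (1 : ℝ)) continuous_const (fun _ _ => rfl)
  rw [Crest.Agent.R144.Ham560.integral_hamP_real, ex, h1]
  have h3 : (nu R o).real univ = (volume (ham (Finset.univ.erase o) (edg R) (0 : Q → ℝ))).toReal := by
    simpa [Measure.real] using h2
  rw [h3]

end pinned

/-! ### growth -/

theorem two_rp2 {V : ℤ × ℤ → ℝ} (hV : Two V) (a b : ℤ) (ha : 0 ≤ a) (hb : 0 ≤ b) :
    V (-a, 2 * a) + V (-(a + 2 * b), 2 * (a + 2 * b)) ≤ 2 * V (-(a + b), 2 * (a + b)) := by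
  rcases eq_or_lt_of_le hb with rfl | hb'
  · simp only [mul_zero, add_zero]; linarith
  have hne : ((b, a) : ℤ × ℤ) ≠ (0, a + 2 * b) := by
    intro h; have := congrArg Prod.fst h; simp at this; omega
  set f : ℤ × ℤ → ℝ := fun p => if p = (b, a) then 1 else -1 with hf
  have h := hV.rp {((b, a) : ℤ × ℤ), (0, a + 2 * b)} f (by
    intro p hp
    simp only [Finset.mem_insert, Finset.mem_singleton] at hp
    rcases hp with rfl | rfl
    · exact ha
    · simp only; omega) (by
    rw [Finset.sum_pair hne]; simp [hf, hne.symm])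
  rw [Finset.sum_pair hne, Finset.sum_pair hne, Finset.sum_pair hne] at h
  have e1 : f (b, a) = 1 := by simp [hf]
  have e2 : f (0, a + 2 * b) = -1 := by simp only [hf]; rw [if_neg hne.symm]
  have t1 : ((b, a) : ℤ × ℤ) - th (b, a) = (-a, 2 * a) := by ext <;> simp [th]; ring
  have t2 : ((b, a) : ℤ × ℤ) - th (0, a + 2 * b) = (-(a + b), 2 * (a + b)) := by
    ext <;> simp [th] <;> ring
  have t3 : ((0, a + 2 * b) : ℤ × ℤ) - th (b, a) = (-(a + b), 2 * (a + b)) := by
    ext
    · simp [th]; ring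
    · simp [th]; ring
  have t4 : ((0, a + 2 * b) : ℤ × ℤ) - th (0, a + 2 * b) = (-(a + 2 * b), 2 * (a + 2 * b)) := by
    ext <;> simp [th] <;> ring
  rw [e1, e2, t1, t2, t3, t4] at h
  linarith

theorem two_nonneg {V : ℤ × ℤ → ℝ} (hV : Two V) (p : ℤ × ℤ) : 0 ≤ V p := by
  by_cases hp : p = 0
  · rw [hp, hV.zero]
  set f : ℤ × ℤ → ℝ := fun q => if q = p then 1 else -1 with hf
  have h := hV.pd {p, 0} f (by rw [Finset.sum_pair hp]; simp [hf, Ne.symm hp])
  rw [Finset.sum_pair hp, Finset.sum_pair hp, Finset.sum_pair hp] at h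
  have e1 : f p = 1 := by simp [hf]
  have e2 : f 0 = -1 := by simp only [hf]; rw [if_neg (Ne.symm hp)]
  rw [e1, e2, sub_self, sub_self, sub_zero, zero_sub, hV.neg, hV.zero] at h
  linarith

theorem two_quasi {V : ℤ × ℤ → ℝ} (hV : Two V) (p q : ℤ × ℤ) :
    V (p + q) ≤ 2 * V p + 2 * V q := by
  -- coefficients `1, -2, 1` at `p + q, q, 0`, summed over a multiset-like family
  by_cases hp : p = 0
  · rw [hp, zero_add, hV.zero]; linarith [two_nonneg hV q]
  by_cases hq : q = 0
  · rw [hq, add_zero, hV.zero]; linarith [two_nonneg hV p]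
  by_cases hpq : p + q = 0
  · rw [hpq, hV.zero]; linarith [two_nonneg hV p, two_nonneg hV q]
  have n1 : p + q ≠ q := fun h => hp (by simpa using h)
  set f : ℤ × ℤ → ℝ := fun r => if r = q then -2 else 1 with hf
  have hs : p + q ∉ ({q, 0} : Finset (ℤ × ℤ)) := by simp [n1, hpq]
  have S : ∀ F : ℤ × ℤ → ℝ, ∑ r ∈ insert (p + q) ({q, 0} : Finset (ℤ × ℤ)), F r =
      F (p + q) + (F q + F 0) := fun F => by
    rw [Finset.sum_insert hs, Finset.sum_pair hq]
  have e1 : f (p + q) = 1 := by simp only [hf]; rw [if_neg n1]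
  have e2 : f q = -2 := by simp [hf]
  have e3 : f 0 = 1 := by simp only [hf]; rw [if_neg (Ne.symm hq)]
  have h := hV.pd (insert (p + q) {q, 0}) f (by rw [S, e1, e2, e3]; norm_num)
  rw [S, S, S, S, e1, e2, e3] at h
  have t1 : p + q - q = p := by abel
  have t2 : q - (p + q) = -p := by abel
  rw [sub_self, sub_self, sub_self, t1, t2, sub_zero, sub_zero, zero_sub, zero_sub, hV.neg,
    hV.neg, hV.neg, hV.zero] at h
  linarith

theorem two_axis {V : ℤ × ℤ → ℝ} (hV : Two V) (k : ℕ) :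
    V (-(k : ℤ), 2 * (k : ℤ)) ≤ k * V (-1, 2) := by
  -- increments are nonincreasing
  set W : ℕ → ℝ := fun k => V (-(k : ℤ), 2 * (k : ℤ)) with hW
  have hW0 : W 0 = 0 := by
    have h00 : V ((0 : ℤ), (0 : ℤ)) = 0 := hV.zero
    simp only [hW]
    simpa using h00
  have hinc : ∀ k : ℕ, W (k + 2) - W (k + 1) ≤ W (k + 1) - W k := by
    intro k
    have h := two_rp2 hV (k : ℤ) 1 (by positivity) (by norm_num)
    simp only [mul_one] at h
    simp only [hW]
    push_cast
    linarith
  have hinc' : ∀ k : ℕ, W (k + 1) - W k ≤ W 1 := by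
    intro k
    induction k with
    | zero => rw [hW0]; simp
    | succ n ih => exact (hinc n).trans ih
  have : ∀ k : ℕ, W k ≤ k * W 1 := by
    intro k
    induction k with
    | zero => rw [hW0]; simp
    | succ n ih =>
      have := hinc' n
      push_cast
      linarith
  have h1 := this k
  simp only [hW] at h1
  simpa using h1

theorem two_axis_int {V : ℤ × ℤ → ℝ} (hV : Two V) (k : ℤ) :
    V (-k, 2 * k) ≤ |(k : ℝ)| * V (-1, 2) := by
  rcases le_total 0 k with h | h
  · obtain ⟨n, rfl⟩ := Int.eq_ofNat_of_zero_le h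
    have := two_axis hV n
    simpa using this
  · obtain ⟨n, hn⟩ := Int.eq_ofNat_of_zero_le (neg_nonneg.2 h)
    have hk : k = -(n : ℤ) := by linarith
    subst hk
    have := two_axis hV n
    rw [show ((- -(n : ℤ), 2 * -(n : ℤ)) : ℤ × ℤ) = -(-(n : ℤ), 2 * (n : ℤ)) by ext <;> simp,
      hV.neg]
    simpa using this

theorem two_axis_int' {V : ℤ × ℤ → ℝ} (hV : Two V) (k : ℤ) :
    V (2 * k, -k) ≤ |(k : ℝ)| * V (-1, 2) := by
  have := two_axis_int hV k
  rwa [← hV.swap] at this

/-- **Linear growth** from reflection positivity. -/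
theorem two_growth {V : ℤ × ℤ → ℝ} (hV : Two V) :
    ∃ C : ℝ, 0 ≤ C ∧ ∀ p : ℤ × ℤ, V p ≤ C * (1 + |(p.1 : ℝ)| + |(p.2 : ℝ)|) := by
  have h1 := two_nonneg hV (-1, 2)
  have h2 := two_nonneg hV (1, 0)
  refine ⟨12 * V (-1, 2) + 8 * V (1, 0), by linarith, fun p => ?_⟩
  obtain ⟨x, y⟩ := p
  -- `p = i (2,-1) + j (-1,2) + (r, 0)` with `r ∈ {0,1,2}`, `3 j = 2 y + x - r`
  set r : ℤ := (x + 2 * y) % 3 with hr
  have hr0 : 0 ≤ r := Int.emod_nonneg _ (by norm_num)
  have hr3 : r < 3 := Int.emod_lt_of_pos _ (by norm_num)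
  set j : ℤ := (x + 2 * y) / 3 with hj
  have e := Int.emod_add_mul_ediv (x + 2 * y) 3
  rw [← hr, ← hj] at e
  set i : ℤ := 2 * j - y with hi
  have hp : ((x, y) : ℤ × ℤ) = ((2 * i, -i) + (-j, 2 * j)) + (r, 0) := by
    ext
    · simp only [Prod.fst_add]; linarith
    · simp only [Prod.snd_add]; linarith
  have hVr : V (r, 0) ≤ 4 * V (1, 0) := by
    have hcases : r = 0 ∨ r = 1 ∨ r = 2 := by omega
    rcases hcases with h | h | h
    · have h00 : V ((0 : ℤ), (0 : ℤ)) = 0 := hV.zero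
      rw [h, h00]; linarith
    · rw [h]; linarith
    · rw [h, show ((2, 0) : ℤ × ℤ) = (1, 0) + (1, 0) from rfl]
      linarith [two_quasi hV (1, 0) (1, 0)]
  have hij : |(i : ℝ)| ≤ 2 * (1 + |(x : ℝ)| + |(y : ℝ)|) ∧
      |(j : ℝ)| ≤ 1 + |(x : ℝ)| + |(y : ℝ)| := by
    have e' : (r : ℝ) + 3 * (j : ℝ) = x + 2 * y := by exact_mod_cast e
    have hr0' : (0 : ℝ) ≤ r := by exact_mod_cast hr0
    have hr3' : (r : ℝ) ≤ 2 := by exact_mod_cast (by omega : r ≤ 2)
    have hx1 := le_abs_self (x : ℝ)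
    have hx2 := neg_abs_le (x : ℝ)
    have hy1 := le_abs_self (y : ℝ)
    have hy2 := neg_abs_le (y : ℝ)
    have hi' : (i : ℝ) = 2 * j - y := by rw [hi]; push_cast; ring
    have hj1 : |(j : ℝ)| ≤ 1 + |(x : ℝ)| + |(y : ℝ)| := by
      rw [abs_le]; constructor <;> linarith
    refine ⟨?_, hj1⟩
    rw [hi', abs_le]
    constructor <;> linarith
  have s1 := two_quasi hV ((2 * i, -i) + (-j, 2 * j)) (r, 0)
  have s2 := two_quasi hV (2 * i, -i) (-j, 2 * j)
  have s3 := two_axis_int' hV i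
  have s4 := two_axis_int hV j
  rw [hp]
  simp only [Prod.fst_add, Prod.snd_add] at *
  have hfst : ((2 * i + -j + r : ℤ) : ℝ) = x := by
    have := congrArg Prod.fst hp
    simp only [Prod.fst_add] at this
    exact_mod_cast this.symm
  have hsnd : ((-i + 2 * j + 0 : ℤ) : ℝ) = y := by
    have := congrArg Prod.snd hp
    simp only [Prod.snd_add] at this
    exact_mod_cast this.symm
  rw [hfst, hsnd]
  have m1 := mul_le_mul_of_nonneg_right hij.1 h1
  have m2 := mul_le_mul_of_nonneg_right hij.2 h1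
  have m3 : 0 ≤ (|(x : ℝ)| + |(y : ℝ)|) * V (1, 0) := by positivity
  nlinarith

end Crest.Agent.R144.Tor95
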