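import Crest.Agent.R144.Lc14_279
import Crest.Agent.R144.TorD_95

/-!
R144 (S0197), helper279.  Block LC, file 17: tori.  Translation invariance of the pinned torus law for
bounded Borel gradient observables; local convergence (I3) and the law of large numbers on tori.
-/

set_option autoImplicit false
set_option linter.unusedSectionVars false
set_option linter.unusedVariables false

open MeasureTheory Set Filter Topology
open scoped ENNReal

noncomputable section

namespace Crest.Agent.R144.Lc279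

open Crest.Agent.R144.Ham560
open Crest.Agent.R144.Lw425 (hd hd_comm hd_le_iff mem_hball hball mem_inn inn mem_sph sph hd_self
  hd_triangle hd_pos hd_adj LObs)
open Crest.Agent.R144.Tor95 (nu lip gauge isClosed_lip isClosed_gauge Rt edg mem_edg Rt_mk
  Rt_translate rect mem_rect mk_eq_mk_rect conn_Rt volume_shift lip_shift lintegral_nu_eq)
open Crest.ProbabilityR.HexHeights (Adj)

section gauge

variable {Q : Type} [Fintype Q] [DecidableEq Q]

/-- Gauge change, Borel version. -/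
theorem lgauge {R : Q → Q → Prop} (o o' : Q) {f : (Q → ℝ) → ℝ≥0∞} (hf : Measurable f)
    (hs : ∀ (h : Q → ℝ) (c : ℝ), f (fun q => h q + c) = f h) :
    ∫⁻ h, f h ∂(nu R o) = ∫⁻ h, f h ∂(nu R o') := by
  have hK : MeasurableSet (lip R) := (isClosed_lip R).measurableSet
  set g : (Q → ℝ) → ℝ≥0∞ := (lip R).indicator f with hg
  have hgm : Measurable g := hf.indicator hK
  have hgs : ∀ (h : Q → ℝ) (c : ℝ), g (fun q => h q + c) = g h := by
    intro h c
    by_cases h1 : h ∈ lip R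
    · rw [hg, Set.indicator_of_mem ((lip_shift R h c).mpr h1), Set.indicator_of_mem h1, hs]
    · rw [hg, Set.indicator_of_notMem (fun h2 => h1 ((lip_shift R h c).mp h2)),
        Set.indicator_of_notMem h1]
  set ρ : ℝ → ℝ≥0∞ := (Set.Icc (-(1/2) : ℝ) (1/2)).indicator 1 with hρ
  have hρm : Measurable ρ := measurable_one.indicator measurableSet_Icc
  have hone : ∀ a : ℝ, ∫⁻ c : ℝ, ρ (a + c) = 1 := by
    intro a
    rw [lintegral_add_left_eq_self (fun c => ρ c) a, hρ, lintegral_indicator_one measurableSet_Icc,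
      Real.volume_Icc]
    norm_num
  have hone' : ∀ a : ℝ, ∫⁻ c : ℝ, ρ (a - c) = 1 := by
    intro a
    rw [lintegral_sub_left_eq_self (fun c => ρ c) a]
    have := hone 0
    simpa using this
  have hform : ∀ p : Q, ∫⁻ h, f h ∂(nu R p) = ∫⁻ h, g h * ρ (h p) := by
    intro p
    rw [nu, ← lintegral_indicator (hK.inter (isClosed_gauge p).measurableSet)]
    refine lintegral_congr fun h => ?_
    have hmem : h ∈ Tor95.gauge p ↔ h p ∈ Set.Icc (-(1/2) : ℝ) (1/2) := by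
      show |h p| ≤ 1 / 2 ↔ _
      rw [Set.mem_Icc, abs_le]
    by_cases h1 : h ∈ lip R
    · by_cases h2 : h ∈ Tor95.gauge p
      · rw [Set.indicator_of_mem (show h ∈ lip R ∩ Tor95.gauge p from ⟨h1, h2⟩), hg, hρ,
          Set.indicator_of_mem h1, Set.indicator_of_mem (hmem.mp h2), Pi.one_apply, mul_one]
      · rw [Set.indicator_of_notMem (fun h3 => h2 h3.2), hg, hρ, Set.indicator_of_mem h1,
          Set.indicator_of_notMem (fun h3 => h2 (hmem.mpr h3)), mul_zero]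
    · rw [Set.indicator_of_notMem (fun h3 => h1 h3.1), hg, Set.indicator_of_notMem h1, zero_mul]
  rw [hform, hform]
  calc ∫⁻ h : Q → ℝ, g h * ρ (h o)
      = ∫⁻ h : Q → ℝ, ∫⁻ c : ℝ, g h * ρ (h o) * ρ (h o' + c) := by
        refine lintegral_congr fun h => ?_
        have hm1 : Measurable fun c : ℝ => ρ (h o' + c) :=
          hρm.comp (measurable_const.add measurable_id)
        rw [lintegral_const_mul _ hm1, hone, mul_one]
    _ = ∫⁻ c : ℝ, ∫⁻ h : Q → ℝ, g h * ρ (h o) * ρ (h o' + c) := by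
        refine lintegral_lintegral_swap (Measurable.aemeasurable ?_)
        refine Measurable.mul (Measurable.mul ?_ ?_) ?_
        · exact hgm.comp measurable_fst
        · exact hρm.comp ((measurable_pi_apply o).comp measurable_fst)
        · exact hρm.comp (((measurable_pi_apply o').comp measurable_fst).add measurable_snd)
    _ = ∫⁻ c : ℝ, ∫⁻ h : Q → ℝ, g h * ρ (h o - c) * ρ (h o') := by
        refine lintegral_congr fun c => ?_
        rw [← (volume_shift (Q := Q) (-c)).lintegral_comp_emb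
          (MeasurableEquiv.addRight (fun _ : Q => -c)).measurableEmbedding]
        refine lintegral_congr fun h => ?_
        have e1 : h o' + -c + c = h o' := by ring
        have e2 : h o + -c = h o - c := (sub_eq_add_neg _ _).symm
        show g (fun q => h q + -c) * ρ (h o + -c) * ρ (h o' + -c + c) = _
        rw [hgs h (-c), e1, e2]
    _ = ∫⁻ h : Q → ℝ, ∫⁻ c : ℝ, g h * ρ (h o - c) * ρ (h o') := by
        refine (lintegral_lintegral_swap (Measurable.aemeasurable ?_)).symm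
        refine Measurable.mul (Measurable.mul ?_ ?_) ?_
        · exact hgm.comp measurable_fst
        · exact hρm.comp (((measurable_pi_apply o).comp measurable_fst).sub measurable_snd)
        · exact hρm.comp ((measurable_pi_apply o').comp measurable_fst)
    _ = ∫⁻ h : Q → ℝ, g h * ρ (h o') := by
        refine lintegral_congr fun h => ?_
        have : (fun c : ℝ => g h * ρ (h o - c) * ρ (h o')) =
            fun c => (g h * ρ (h o')) * ρ (h o - c) := by funext c; ring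
        have hm1 : Measurable fun c : ℝ => ρ (h o - c) :=
          hρm.comp (measurable_const.sub measurable_id)
        rw [this, lintegral_const_mul _ hm1, hone', mul_one]

/-- Relabelling, Borel version. -/
theorem lrelabel {R : Q → Q → Prop} (σ : Q ≃ Q) (hR : ∀ p q, R p q ↔ R (σ p) (σ q)) (o : Q)
    (f : (Q → ℝ) → ℝ≥0∞) :
    ∫⁻ h, f (h ∘ σ) ∂(nu R (σ o)) = ∫⁻ h, f h ∂(nu R o) := by
  have hmp := volume_measurePreserving_piCongrLeft (fun _ : Q => ℝ) σ
  set E := MeasurableEquiv.piCongrLeft (fun _ : Q => ℝ) σ with hE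
  have hEa : ∀ (g : Q → ℝ) (q : Q), E g (σ q) = g q := by
    intro g q
    exact Equiv.piCongrLeft_apply_apply (fun _ : Q => ℝ) σ g q
  have hcomp : ∀ g : Q → ℝ, E g ∘ σ = g := fun g => funext fun q => hEa g q
  have hpre : E ⁻¹' (lip R ∩ gauge (σ o)) = lip R ∩ gauge o := by
    ext g
    simp only [Set.mem_preimage, Set.mem_inter_iff]
    refine and_congr ⟨fun h p q hpq => ?_, fun h p q hpq => ?_⟩ ?_
    · have := h (σ p) (σ q) ((hR p q).1 hpq)
      rwa [hEa, hEa] at this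
    · obtain ⟨p, rfl⟩ := σ.surjective p
      obtain ⟨q, rfl⟩ := σ.surjective q
      rw [hEa, hEa]
      exact h p q ((hR p q).2 hpq)
    · change |E g (σ o)| ≤ 1 / 2 ↔ |g o| ≤ 1 / 2
      rw [hEa]
  rw [nu, nu, ← hpre]
  have hm := (hmp.restrict_preimage_emb E.measurableEmbedding (lip R ∩ gauge (σ o)))
  rw [← hm.lintegral_comp_emb E.measurableEmbedding]
  refine lintegral_congr fun g => ?_
  simp only [hcomp]

end gauge

/-! ### The pinned torus law -/

section torus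

variable (Γ : AddSubgroup P2) [Fintype (P2 ⧸ Γ)] [DecidableEq (P2 ⧸ Γ)]

/-- Free sites of the torus. -/
abbrev tF : Finset (P2 ⧸ Γ) := Finset.univ.erase 0

/-- Edges of the torus. -/
abbrev tE : Finset ((P2 ⧸ Γ) × (P2 ⧸ Γ)) := edg (Rt Γ)

/-- The quotient map. -/
abbrev tq (v : P2) : P2 ⧸ Γ := (v : P2 ⧸ Γ)

/-- Translation invariance, Borel, nonnegative. -/
theorem tor_ltrans (t : P2 ⧸ Γ) {f : (P2 ⧸ Γ → ℝ) → ℝ≥0∞} (hf : Measurable f)
    (hs : ∀ (h : P2 ⧸ Γ → ℝ) (c : ℝ), f (fun q => h q + c) = f h) :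
    ∫⁻ x in ham (tF Γ) (tE Γ) 0, f (fun q => ext (tF Γ) 0 x (q + t)) =
      ∫⁻ x in ham (tF Γ) (tE Γ) 0, f (ext (tF Γ) 0 x) := by
  have hm : Measurable fun h : P2 ⧸ Γ → ℝ => f fun q => h (q + t) :=
    hf.comp (measurable_pi_iff.2 fun q => measurable_pi_apply _)
  rw [← lintegral_nu_eq (R := Rt Γ) 0 f hf hs,
    ← lintegral_nu_eq (R := Rt Γ) 0 (fun h => f fun q => h (q + t)) hm
      (fun h c => hs (fun q => h (q + t)) c)]
  have h1 := lrelabel (R := Rt Γ) (Equiv.addRight t)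
    (fun p q => by simpa using Rt_translate Γ t p q) 0 f
  simp only [Equiv.coe_addRight, zero_add] at h1
  rw [← h1]
  exact lgauge 0 t hm fun h c => hs (fun q => h (q + t)) c

theorem tor_anch : Anch (tF Γ) (tE Γ) := by
  intro v _
  refine ⟨0, by simp, ?_⟩
  have key : ∀ w, Relation.ReflTransGen (Rt Γ) v w →
      Relation.ReflTransGen (fun a b => b ∈ nbr (tE Γ) a) v w := by
    intro w h
    induction h with
    | refl => exact Relation.ReflTransGen.refl
    | @tail b c _ hbc ih =>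
      by_cases hbc' : c = b
      · rw [hbc']; exact ih
      · exact ih.tail (mem_nbr.mpr ⟨hbc', Or.inl (mem_edg.mpr hbc)⟩)
  exact key 0 (conn_Rt Γ v 0)

theorem tor_vr : 0 < vr (tF Γ) (tE Γ) 0 := vr_zero_pos (tor_anch Γ)

/-- Translation invariance, bounded Borel gradient observables. -/
theorem tor_trans (t : P2 ⧸ Γ) {f : (P2 ⧸ Γ → ℝ) → ℝ} (hf : Measurable f) {C : ℝ}
    (hC : ∀ h, |f h| ≤ C) (hs : ∀ (h : P2 ⧸ Γ → ℝ) (c : ℝ), f (fun q => h q + c) = f h) :
    Ev (tF Γ) (tE Γ) 0 (fun h => f fun q => h (q + t)) = Ev (tF Γ) (tE Γ) 0 f := by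
  have hA := tor_anch Γ
  have hv := tor_vr Γ
  have hm : Measurable fun h : P2 ⧸ Γ → ℝ => f fun q => h (q + t) :=
    hf.comp (measurable_pi_iff.2 fun q => measurable_pi_apply _)
  have key : ∀ g : (P2 ⧸ Γ → ℝ) → ℝ, Measurable g → (∀ h, 0 ≤ g h) →
      Ev (tF Γ) (tE Γ) 0 g = (∫⁻ x in ham (tF Γ) (tE Γ) 0,
        ENNReal.ofReal (g (ext (tF Γ) 0 x))).toReal / (volume (ham (tF Γ) (tE Γ) 0)).toReal := by
    intro g hg hg0
    unfold Ev
    rw [integral_hamP_real, integral_eq_lintegral_of_nonneg_ae (Eventually.of_forall fun x => hg0 _)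
      (hg.comp (measurable_ext _ _)).aestronglyMeasurable]
  have h1 : Ev (tF Γ) (tE Γ) 0 (fun h => f (fun q => h (q + t)) + C) =
      Ev (tF Γ) (tE Γ) 0 fun h => f h + C := by
    rw [key _ (hm.add_const C) (fun h => by linarith [(abs_le.mp (hC fun q => h (q + t))).1]),
      key _ (hf.add_const C) (fun h => by linarith [(abs_le.mp (hC h)).1])]
    congr 2
    exact tor_ltrans Γ t (f := fun h => ENNReal.ofReal (f h + C))
      (hf.add_const C).ennreal_ofReal fun h c => by rw [hs h c]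
  have hB : Bd f := ⟨hf, C, hC⟩
  have hB' : Bd fun h : P2 ⧸ Γ → ℝ => f fun q => h (q + t) := ⟨hm, C, fun h => hC _⟩
  rw [Ev_add hB' (Bd.const C) hA hv, Ev_add hB (Bd.const C) hA hv] at h1
  linarith

/-! ### Fundamental rectangles -/

/-- The rectangle `[0, A + 2) × [0, B + 2)` is a fundamental domain. -/
structure Rec (A B : ℕ) : Prop where
  inj : ∀ v w : P2, (0 ≤ v.1 ∧ v.1 < A + 2) → (0 ≤ v.2 ∧ v.2 < B + 2) →
    (0 ≤ w.1 ∧ w.1 < A + 2) → (0 ≤ w.2 ∧ w.2 < B + 2) → tq Γ v = tq Γ w → v = w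
  card : Fintype.card (P2 ⧸ Γ) ≤ (A + 2) * (B + 2)

/-- The inner rectangle. -/
def rW (A B : ℕ) : Finset P2 := Finset.Ico (1 : ℤ) (A + 1) ×ˢ Finset.Ico (1 : ℤ) (B + 1)

theorem mem_rW {A B : ℕ} {v : P2} :
    v ∈ rW A B ↔ (1 ≤ v.1 ∧ v.1 < A + 1) ∧ (1 ≤ v.2 ∧ v.2 < B + 1) := by
  rw [rW, Finset.mem_product, Finset.mem_Ico, Finset.mem_Ico]

theorem card_rW (A B : ℕ) : (rW A B).card = A * B := by
  rw [rW, Finset.card_product, Int.card_Ico, Int.card_Ico]
  congr 1 <;> omega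

/-- The outer rectangle. -/
def rD (A B : ℕ) : Set P2 := {v | (0 ≤ v.1 ∧ v.1 < A + 2) ∧ (0 ≤ v.2 ∧ v.2 < B + 2)}

theorem tq_add (v w : P2) : tq Γ (v + w) = tq Γ v + tq Γ w := rfl

theorem Rt_lift {v : P2} {q : P2 ⧸ Γ} (h : Rt Γ (tq Γ v) q) :
    ∃ w, hd v w = 1 ∧ q = tq Γ w := by
  obtain ⟨a, b, hab, ha, rfl⟩ := h
  refine ⟨b + (v - a), ?_, ?_⟩
  · have h1 : hd a b = 1 := hd_eq_one_iff_adj.mpr hab
    have h2 := hd_add (v - a) a b
    rw [sub_add_cancel, h1, add_comm (v - a) b] at h2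
    exact h2
  · show tq Γ b = tq Γ (b + (v - a))
    rw [tq_add]
    have : tq Γ (v - a) = 0 := by
      show ((v - a : P2) : P2 ⧸ Γ) = 0
      rw [QuotientAddGroup.mk_sub, ha, sub_self]
    rw [this, add_zero]

theorem Rt_symm {p q : P2 ⧸ Γ} (h : Rt Γ p q) : Rt Γ q p := by
  obtain ⟨a, b, hab, ha, hb⟩ := h
  exact ⟨b, a, Tor95.Adj_symm hab, hb, ha⟩

theorem tor_deg (q : P2 ⧸ Γ) : (nbr (tE Γ) q).card ≤ 6 := by
  obtain ⟨v, rfl⟩ := QuotientAddGroup.mk_surjective q
  have hsub : nbr (tE Γ) (tq Γ v) ⊆ (nb6 v).image (tq Γ) := by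
    intro q hq
    rw [mem_nbr, mem_edg, mem_edg] at hq
    have h1 : Rt Γ (tq Γ v) q := by
      rcases hq.2 with h2 | h2
      · exact h2
      · exact Rt_symm Γ h2
    obtain ⟨w, hw, rfl⟩ := Rt_lift Γ h1
    exact Finset.mem_image_of_mem _ (mem_nb6.mpr hw)
  exact (Finset.card_le_card hsub).trans (Finset.card_image_le.trans (card_nb6_le v))

theorem Rec.gch {A B : ℕ} (h : Rec Γ A B) : GCh (tF Γ) (tE Γ) (rW A B) (tq Γ) (rD A B) where
  ch := by
    refine ⟨?_, ?_, ?_, ?_, ?_⟩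
    · intro v hv
      rw [Finset.mem_coe, mem_rW] at hv
      show (0 ≤ v.1 ∧ v.1 < A + 2) ∧ (0 ≤ v.2 ∧ v.2 < B + 2)
      omega
    · intro v hv w hw hvw
      exact h.inj v w hv.1 hv.2 hw.1 hw.2 hvw
    · intro v hv w hvw
      rw [mem_rW] at hv
      have := hd_le_iff.mp hvw.le
      show (0 ≤ w.1 ∧ w.1 < A + 2) ∧ (0 ≤ w.2 ∧ w.2 < B + 2)
      omega
    · intro v _ w hvw
      exact Or.inl (mem_edg.mpr (Rt_mk (hd_eq_one_iff_adj.mp hvw)))
    · intro p hp hp'
      have hp2 := mem_edg.mp hp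
      rcases hp' with h1 | h1
      · obtain ⟨v, hv, hvp⟩ := Finset.mem_image.mp h1
        rw [← hvp] at hp2
        obtain ⟨w, hw, hwp⟩ := Rt_lift Γ hp2
        exact ⟨v, w, hw, Or.inl hv, Prod.ext hvp.symm hwp⟩
      · obtain ⟨v, hv, hvp⟩ := Finset.mem_image.mp h1
        have hp3 := Rt_symm Γ hp2
        rw [← hvp] at hp3
        obtain ⟨w, hw, hwp⟩ := Rt_lift Γ hp3
        exact ⟨w, v, by rw [hd_comm]; exact hw, Or.inr hv, Prod.ext hwp hvp.symm⟩
  sub := by
    intro q hq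
    obtain ⟨v, hv, rfl⟩ := Finset.mem_image.mp hq
    rw [Finset.mem_erase]
    refine ⟨fun h0 => ?_, Finset.mem_univ _⟩
    rw [mem_rW] at hv
    have h1 : tq Γ v = tq Γ 0 := h0
    have h2 := h.inj v 0 (by omega) (by omega) (by simp; omega) (by simp; omega) h1
    rw [h2] at hv
    simp at hv
  deg := fun q _ => tor_deg Γ q

end torus

/-! ### Local convergence on tori -/

theorem card_nr_rW (M A B : ℕ) : ((nr M (rW A B)).card : ℝ) ≤ 2 * M * (A + B) := by
  have hsub : nr M (rW A B) ⊆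
      ((Finset.Ico (1 : ℤ) (1 + M) ×ˢ Finset.Ico (1 : ℤ) (B + 1)) ∪
        (Finset.Ico ((A : ℤ) + 1 - M) (A + 1) ×ˢ Finset.Ico (1 : ℤ) (B + 1))) ∪
      ((Finset.Ico (1 : ℤ) (A + 1) ×ˢ Finset.Ico (1 : ℤ) (1 + M)) ∪
        (Finset.Ico (1 : ℤ) (A + 1) ×ˢ Finset.Ico ((B : ℤ) + 1 - M) (B + 1))) := by
    intro v hv
    obtain ⟨h1, u, hu, h2⟩ := mem_nr.mp hv
    rw [mem_rW] at h1 h2
    rw [mem_BX] at hu
    simp only [Prod.fst_add, Prod.snd_add] at h2
    simp only [Finset.mem_union, Finset.mem_product, Finset.mem_Ico]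
    omega
  have h1 := (Finset.card_le_card hsub).trans ((Finset.card_union_le _ _).trans
    (Nat.add_le_add (Finset.card_union_le _ _) (Finset.card_union_le _ _)))
  simp only [Finset.card_product, Int.card_Ico] at h1
  have e1 : ((1 : ℤ) + M - 1).toNat = M := by omega
  have e2 : ((B : ℤ) + 1 - 1).toNat = B := by omega
  have e3 : ((A : ℤ) + 1 - ((A : ℤ) + 1 - M)).toNat = M := by omega
  have e4 : ((A : ℤ) + 1 - 1).toNat = A := by omega
  have e5 : ((B : ℤ) + 1 - ((B : ℤ) + 1 - M)).toNat = M := by omega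
  rw [e1, e2, e3, e4, e5] at h1
  have h2 : ((nr M (rW A B)).card : ℝ) ≤ ((M * B + M * B + (A * M + A * M) : ℕ) : ℝ) := by
    exact_mod_cast h1
  push_cast at h2
  linarith

theorem sum_le_prod {A B T : ℕ} (hT : 0 < T) (hA : T ≤ A) (hB : T ≤ B) :
    ((A : ℝ) + B) * T ≤ 2 * (A * B) := by
  have h1 : (T : ℝ) ≤ A := by exact_mod_cast hA
  have h2 : (T : ℝ) ≤ B := by exact_mod_cast hB
  have h3 : (0 : ℝ) < T := by exact_mod_cast hT
  nlinarith

/-- **Local convergence on tori**, box form. -/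
theorem tor_box {r : ℕ} {f : (P2 → ℝ) → ℝ} (hf : LObs r f) {a : ℝ} (ha : 0 < a) (ha1 : a ≤ 1) :
    ∃ R0 : ℕ, 0 < R0 ∧ ∀ R : ℕ, R0 ≤ R → ∃ T : ℕ, ∀ (Γ : AddSubgroup P2) [Fintype (P2 ⧸ Γ)]
      [DecidableEq (P2 ⧸ Γ)] (A B : ℕ), T ≤ A → T ≤ B → Rec Γ A B →
        Ev (tF Γ) (tE Γ) 0 (fun h => |BA R r f (fun u => h (tq Γ u)) - m0 f|) ≤ 2 * a := by
  obtain ⟨R0, hR0, hbox⟩ := box1 hf ha ha1
  refine ⟨R0, hR0, fun R hR => ?_⟩
  obtain ⟨c, hc, θ, hθ, N2, hsys⟩ := hbox R hR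
  obtain ⟨T, hT⟩ := exists_nat_ge (max (max (8 * ((R : ℝ) + 1) / θ) (12 / θ))
    (max (2 / (c * a)) (max N2 1)))
  refine ⟨T, ?_⟩
  intro Γ _ _ A B hTA hTB hrec
  have b1 : 8 * ((R : ℝ) + 1) / θ ≤ T := ((le_max_left _ _).trans (le_max_left _ _)).trans hT
  have b2 : 12 / θ ≤ T := ((le_max_right _ _).trans (le_max_left _ _)).trans hT
  have b3 : 2 / (c * a) ≤ T := ((le_max_left _ _).trans (le_max_right _ _)).trans hT
  have b4 : (N2 : ℝ) ≤ T := ((le_max_left _ _).trans ((le_max_right _ _).trans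
    (le_max_right _ _))).trans hT
  have b5 : (1 : ℝ) ≤ T := ((le_max_right _ _).trans ((le_max_right _ _).trans
    (le_max_right _ _))).trans hT
  have hTp : 0 < T := by
    have : (0 : ℝ) < T := by linarith
    exact_mod_cast this
  rw [div_le_iff₀ hθ] at b1 b2
  rw [div_le_iff₀ (by positivity)] at b3
  have hAB := sum_le_prod hTp hTA hTB
  have hAr : (T : ℝ) ≤ A := by exact_mod_cast hTA
  have hBr : (T : ℝ) ≤ B := by exact_mod_cast hTB
  have hABT : (T : ℝ) ≤ A * B := by nlinarith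
  have hW : ((rW A B).card : ℝ) = A * B := by rw [card_rW]; push_cast; ring
  have hWp : (0 : ℝ) < (rW A B).card := by rw [hW]; linarith
  have h1 := hsys (P2 ⧸ Γ) (tF Γ) (tE Γ) (rW A B) (tq Γ) (rD A B) (hrec.gch Γ) (by
      have : (N2 : ℝ) ≤ (rW A B).card := by rw [hW]; linarith
      exact_mod_cast this) (by
      refine (card_nr_rW _ _ _).trans ?_
      rw [hW]
      push_cast
      have h2 : 8 * ((R : ℝ) + 1) * (A + B) ≤ T * θ * (A + B) :=
        mul_le_mul_of_nonneg_right b1 (by positivity)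
      have h3 : θ * (((A : ℝ) + B) * T) ≤ θ * (2 * (A * B)) := mul_le_mul_of_nonneg_left hAB hθ.le
      linarith) (by
      have h4 : (rW A B).image (tq Γ) ⊆ tF Γ := (hrec.gch Γ).sub
      have h5 := Finset.card_sdiff_add_card_eq_card h4
      have h6 : ((rW A B).image (tq Γ)).card = A * B := by
        rw [Finset.card_image_of_injOn ((hrec.gch Γ).ch.inj.mono (hrec.gch Γ).ch.sub), card_rW]
      have h7 : (tF Γ).card ≤ (A + 2) * (B + 2) := (Finset.card_le_univ _).trans hrec.card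
      have h8 : ((tF Γ \ (rW A B).image (tq Γ)).card : ℝ) ≤ 2 * (A + B) + 4 := by
        have : (tF Γ \ (rW A B).image (tq Γ)).card ≤ 2 * (A + B) + 4 := by
          have e : (A + 2) * (B + 2) = A * B + (2 * (A + B) + 4) := by ring
          omega
        exact_mod_cast this
      refine h8.trans ?_
      rw [hW]
      have h9 : 12 * ((A : ℝ) + B) ≤ T * θ * (A + B) :=
        mul_le_mul_of_nonneg_right b2 (by positivity)
      have h10 : θ * (((A : ℝ) + B) * T) ≤ θ * (2 * (A * B)) :=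
        mul_le_mul_of_nonneg_left hAB hθ.le
      linarith) 0
  have hA' := tor_anch Γ
  have hv := tor_vr Γ
  have hm0 := abs_m0_le hf
  set g : P2 → (P2 ⧸ Γ → ℝ) → ℝ := fun v h => |BA R r f (fun u => h (tq Γ (v + u))) - m0 f|
    with hg
  have hgm : ∀ v, Measurable (g v) := fun v => by
    refine (((measurable_BA hf.meas).comp ?_).sub_const (m0 f)).abs
    exact measurable_pi_iff.2 fun u => measurable_pi_apply _
  have hg2 : ∀ v h, |g v h| ≤ 2 := by
    intro v h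
    rw [hg]
    simp only
    rw [abs_abs]
    have h2 := abs_BA_le (L := R) (r := r) hf.bd (fun u => h (tq Γ (v + u)))
    have h3 := abs_sub (BA R r f (fun u => h (tq Γ (v + u)))) (m0 f)
    linarith
  have hgB : ∀ v, Bd (g v) := fun v => ⟨hgm v, 2, hg2 v⟩
  have hgs : ∀ (h : P2 ⧸ Γ → ℝ) (c : ℝ), g 0 (fun q => h q + c) = g 0 h := by
    intro h c
    rw [hg]
    simp only
    congr 2
    unfold BA
    congr 1
    exact Finset.sum_congr rfl fun x _ => hf.shift (fun u => h (tq Γ (0 + (x + u)))) c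
  have hgt : ∀ v, Ev (tF Γ) (tE Γ) 0 (g v) = Ev (tF Γ) (tE Γ) 0 (g 0) := by
    intro v
    rw [← tor_trans Γ (tq Γ v) (hgm 0) (hg2 0) hgs]
    congr 1
    funext h
    rw [hg]
    simp only
    congr 3
    funext u
    rw [zero_add, add_comm v u, tq_add]
  set X : (P2 ⧸ Γ → ℝ) → ℝ := fun h => ((rW A B).card : ℝ)⁻¹ * ∑ v ∈ rW A B, g v h with hX
  have hXB : Bd X := (Bd.sum fun v _ => hgB v).const_mul _
  have hEX : Ev (tF Γ) (tE Γ) 0 X = Ev (tF Γ) (tE Γ) 0 (g 0) := by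
    rw [hX, Ev_const_mul, Ev_sum (fun v _ => hgB v) hA' hv, Finset.sum_congr rfl fun v _ => hgt v,
      Finset.sum_const, nsmul_eq_mul, ← mul_assoc, inv_mul_cancel₀ hWp.ne', one_mul]
  have hg0 : (fun h : P2 ⧸ Γ → ℝ => |BA R r f (fun u => h (tq Γ u)) - m0 f|) = g 0 := by
    funext h
    rw [hg]
    simp only [zero_add]
  rw [hg0, ← hEX]
  have h2 : Ev (tF Γ) (tE Γ) 0 X ≤ a + 2 * (Real.exp (-(c * (rW A B).card)) * 1) := by
    refine Ev_le_of_tail hXB hA' (by norm_num) (fun h => ?_) (Real.exp_pos _).le zero_le_one ha.le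
      hv (by rw [ENNReal.ofReal_one, one_mul]) ((measure_mono ?_).trans h1)
    · rw [hX]
      simp only
      rw [inv_mul_le_iff₀ hWp]
      refine (Finset.sum_le_card_nsmul _ _ 2 fun v _ => (le_abs_self _).trans (hg2 v h)).trans ?_
      rw [nsmul_eq_mul]
    · rintro x ⟨hx, hx'⟩
      refine ⟨hx, ?_⟩
      have hx'' : a ≤ X (ext (tF Γ) 0 x) := hx'
      rw [hX] at hx''
      simp only at hx''
      rw [le_inv_mul_iff₀ hWp, mul_comm] at hx''
      exact hx''
  have h3 : 2 * (Real.exp (-(c * (rW A B).card)) * 1) ≤ a := by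
    rw [Real.exp_neg, mul_one]
    have h4 : 2 / a ≤ c * (rW A B).card := by
      rw [div_le_iff₀ ha, hW]
      have : (T : ℝ) * (c * a) ≤ A * B * (c * a) := mul_le_mul_of_nonneg_right hABT (by positivity)
      linarith
    have h5 := Real.add_one_le_exp (c * ((rW A B).card : ℝ))
    rw [← div_eq_mul_inv, div_le_iff₀ (Real.exp_pos _)]
    rw [div_le_iff₀ ha] at h4
    nlinarith
  linarith

/-- **Local convergence on tori** (one observable). -/
theorem tor_lc {r : ℕ} {f : (P2 → ℝ) → ℝ} (hf : LObs r f) {ε : ℝ} (hε : 0 < ε) :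
    ∃ T : ℕ, ∀ (Γ : AddSubgroup P2) [Fintype (P2 ⧸ Γ)] [DecidableEq (P2 ⧸ Γ)] (A B : ℕ),
      T ≤ A → T ≤ B → Rec Γ A B →
        |Ev (tF Γ) (tE Γ) 0 (fun h => f fun u => h (tq Γ u)) - m0 f| ≤ ε := by
  obtain ⟨R0, hR0, hbox⟩ := tor_box hf (a := min 1 (ε / 4)) (by positivity) (min_le_left _ _)
  set a := min 1 (ε / 4) with had
  have ha : 0 < a := by positivity
  have ha1 : a ≤ ε / 4 := min_le_right _ _
  obtain ⟨q, hq⟩ := exists_nat_ge (4 * (r : ℝ) / a)
  set R := max (max R0 q) (2 * r) with hRd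
  have hR1 : R0 ≤ R := (le_max_left _ _).trans (le_max_left _ _)
  have hR2 : q ≤ R := (le_max_right _ _).trans (le_max_left _ _)
  have hR3 : 2 * r ≤ R := le_max_right _ _
  have hRp : 0 < R := by omega
  have hRr : (0 : ℝ) < R := by exact_mod_cast hRp
  have hrR : 4 * (r : ℝ) / R ≤ a := by
    have h1 : 4 * (r : ℝ) / a ≤ R := hq.trans (by exact_mod_cast hR2)
    rw [div_le_iff₀ ha] at h1
    rw [div_le_iff₀ hRr]; linarith
  obtain ⟨T, hT⟩ := hbox R hR1
  refine ⟨T, ?_⟩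
  intro Γ _ _ A B hTA hTB hrec
  have h1 := hT Γ A B hTA hTB hrec
  have hA := tor_anch Γ
  have hv := tor_vr Γ
  have hfm : ∀ x : P2, Measurable fun h : P2 ⧸ Γ → ℝ => f fun u => h (tq Γ (x + u)) := fun x =>
    hf.meas.comp (measurable_pi_iff.2 fun u => measurable_pi_apply _)
  -- the mean of the box average
  have hmean : ∀ x : P2, Ev (tF Γ) (tE Γ) 0 (fun h => f fun u => h (tq Γ (x + u))) =
      Ev (tF Γ) (tE Γ) 0 fun h => f fun u => h (tq Γ u) := by
    intro x
    rw [← tor_trans Γ (tq Γ x) (f := fun h => f fun u => h (tq Γ u)) (by simpa using hfm 0)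
      (fun h => hf.bd _) (fun h c => hf.shift _ c)]
    congr 1
    funext h
    congr 1
    funext u
    rw [add_comm x u, tq_add]
  have hBA : Ev (tF Γ) (tE Γ) 0 (fun h => BA R r f fun u => h (tq Γ u)) =
      (pos R r).card / (R : ℝ) ^ 2 * Ev (tF Γ) (tE Γ) 0 fun h => f fun u => h (tq Γ u) := by
    have e1 : (fun h : P2 ⧸ Γ → ℝ => BA R r f fun u => h (tq Γ u)) =
        fun h => ((R : ℝ) ^ 2)⁻¹ * ∑ x ∈ pos R r, f fun u => h (tq Γ (x + u)) := by
      funext h
      unfold BA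
      rw [div_eq_inv_mul]
    rw [e1, Ev_const_mul, Ev_sum (fun x _ => ⟨hfm x, 1, fun h => hf.bd _⟩) hA hv,
      Finset.sum_congr rfl fun x _ => hmean x, Finset.sum_const, nsmul_eq_mul]
    ring
  set e := Ev (tF Γ) (tE Γ) 0 fun h => f fun u => h (tq Γ u) with he
  have he1 : |e| ≤ 1 := abs_Ev_le ⟨by simpa using hfm 0, 1, fun h => hf.bd _⟩ hA hv
    fun h => hf.bd _
  have hBB : Bd fun h : P2 ⧸ Γ → ℝ => BA R r f fun u => h (tq Γ u) :=
    ⟨(measurable_BA hf.meas).comp (measurable_pi_iff.2 fun u => measurable_pi_apply _), 1,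
      fun h => abs_BA_le hf.bd _⟩
  have h2 : |Ev (tF Γ) (tE Γ) 0 (fun h => BA R r f fun u => h (tq Γ u)) - m0 f| ≤ 2 * a := by
    have e1 : Ev (tF Γ) (tE Γ) 0 (fun h => BA R r f fun u => h (tq Γ u)) - m0 f =
        Ev (tF Γ) (tE Γ) 0 fun h => (BA R r f fun u => h (tq Γ u)) - m0 f := by
      rw [Ev_sub hBB (Bd.const _) hA hv, Ev_const hA hv]
    rw [e1]
    have hD := hBB.sub (Bd.const (m0 f))
    have hDa : Bd fun h : P2 ⧸ Γ → ℝ => |(BA R r f fun u => h (tq Γ u)) - m0 f| := by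
      obtain ⟨C, hC⟩ := hD.2
      exact ⟨hD.1.abs, C, fun h => by rw [abs_abs]; exact hC h⟩
    rw [abs_le]
    constructor
    · have := Ev_mono hDa.neg hD hA hv fun h => neg_abs_le _
      rw [Ev_neg] at this
      linarith
    · exact (Ev_mono hD hDa hA hv fun h => le_abs_self _).trans h1
  rw [hBA] at h2
  have h3 : |((pos R r).card : ℝ) / (R : ℝ) ^ 2 * e - e| ≤ a := by
    have e1 : ((pos R r).card : ℝ) / (R : ℝ) ^ 2 * e - e =
        -(((R : ℝ) ^ 2 - (pos R r).card) / (R : ℝ) ^ 2 * e) := by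
      field_simp; ring
    have h4 : 0 ≤ ((R : ℝ) ^ 2 - (pos R r).card) / (R : ℝ) ^ 2 := by
      refine div_nonneg ?_ (by positivity)
      have : ((pos R r).card : ℝ) ≤ (R : ℝ) ^ 2 := by exact_mod_cast card_pos_le R r
      linarith
    rw [e1, abs_neg, abs_mul, abs_of_nonneg h4]
    have h5 : ((R : ℝ) ^ 2 - (pos R r).card) / (R : ℝ) ^ 2 ≤ 4 * r / R := by
      rw [div_le_div_iff₀ (by positivity) hRr]
      have := mul_le_mul_of_nonneg_right (card_pos' hR3) hRr.le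
      linarith
    calc _ ≤ (4 * (r : ℝ) / R) * 1 := mul_le_mul h5 he1 (abs_nonneg _) (by positivity)
      _ ≤ a := by rw [mul_one]; exact hrR
  have h4 := abs_sub_le e (((pos R r).card : ℝ) / (R : ℝ) ^ 2 * e) (m0 f)
  rw [abs_sub_comm] at h3
  linarith

/-- **Law of large numbers on tori**: any window, slowly varying weights. -/
theorem tor_lln {r : ℕ} {f : (P2 → ℝ) → ℝ} (hf : LObs r f) {a : ℝ} (ha : 0 < a) :
    ∃ R : ℕ, 0 < R ∧ ∃ T : ℕ, ∀ (Γ : AddSubgroup P2) [Fintype (P2 ⧸ Γ)]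
      [DecidableEq (P2 ⧸ Γ)] (A B : ℕ), T ≤ A → T ≤ B → Rec Γ A B →
      ∀ (V : Finset P2) (w : P2 → ℝ) (θ : ℝ), 0 ≤ θ → (∀ v ∈ V, |w v| ≤ 1) →
      (∀ x ∈ bx R, ∀ u ∈ V, u - x ∈ V → |w (u - x) - w u| ≤ θ) →
        Ev (tF Γ) (tE Γ) 0 (fun h => |∑ v ∈ V, w v * (f (fun u => h (tq Γ (v + u))) - m0 f)|) ≤
          (a + θ) * V.card + 2 * (nr R V).card := by
  obtain ⟨R0, hR0, hbox⟩ := tor_box hf (a := min 1 (a / 4)) (by positivity) (min_le_left _ _)
  set a' := min 1 (a / 4) with had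
  have ha' : 0 < a' := by positivity
  have ha1 : a' ≤ a / 4 := min_le_right _ _
  obtain ⟨q, hq⟩ := exists_nat_ge (4 * (r : ℝ) / a')
  set R := max (max R0 q) (2 * r) with hRd
  have hR1 : R0 ≤ R := (le_max_left _ _).trans (le_max_left _ _)
  have hR2 : q ≤ R := (le_max_right _ _).trans (le_max_left _ _)
  have hR3 : 2 * r ≤ R := le_max_right _ _
  have hRp : 0 < R := by omega
  have hRr : (0 : ℝ) < R := by exact_mod_cast hRp
  have hrR : 4 * (r : ℝ) / R ≤ a' := by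
    have h1 : 4 * (r : ℝ) / a' ≤ R := hq.trans (by exact_mod_cast hR2)
    rw [div_le_iff₀ ha'] at h1
    rw [div_le_iff₀ hRr]; linarith
  obtain ⟨T, hT⟩ := hbox R hR1
  refine ⟨R, hRp, T, ?_⟩
  intro Γ _ _ A B hTA hTB hrec V w θ hθ0 hw hw'
  have h1 := hT Γ A B hTA hTB hrec
  have hA := tor_anch Γ
  have hv := tor_vr Γ
  have hm0 := abs_m0_le hf
  set g : P2 → (P2 ⧸ Γ → ℝ) → ℝ := fun v h => |BA R r f (fun u => h (tq Γ (v + u))) - m0 f|
    with hg
  have hgm : ∀ v, Measurable (g v) := fun v => by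
    refine (((measurable_BA hf.meas).comp ?_).sub_const (m0 f)).abs
    exact measurable_pi_iff.2 fun u => measurable_pi_apply _
  have hg2 : ∀ v h, |g v h| ≤ 2 := by
    intro v h
    rw [hg]
    simp only
    rw [abs_abs]
    have h2 := abs_BA_le (L := R) (r := r) hf.bd (fun u => h (tq Γ (v + u)))
    have h3 := abs_sub (BA R r f (fun u => h (tq Γ (v + u)))) (m0 f)
    linarith
  have hgB : ∀ v, Bd (g v) := fun v => ⟨hgm v, 2, hg2 v⟩
  have hgs : ∀ (h : P2 ⧸ Γ → ℝ) (c : ℝ), g 0 (fun q => h q + c) = g 0 h := by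
    intro h c
    rw [hg]
    simp only
    congr 2
    unfold BA
    congr 1
    exact Finset.sum_congr rfl fun x _ => hf.shift (fun u => h (tq Γ (0 + (x + u)))) c
  have hg0 : (fun h : P2 ⧸ Γ → ℝ => |BA R r f (fun u => h (tq Γ u)) - m0 f|) = g 0 := by
    funext h
    rw [hg]
    simp only [zero_add]
  rw [hg0] at h1
  have hgt : ∀ v, Ev (tF Γ) (tE Γ) 0 (g v) ≤ 2 * a' := by
    intro v
    refine le_of_eq_of_le ?_ h1
    rw [← tor_trans Γ (tq Γ v) (hgm 0) (hg2 0) hgs]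
    congr 1
    funext h
    rw [hg]
    simp only
    congr 3
    funext u
    rw [zero_add, add_comm v u, tq_add]
  have hfm : ∀ x : P2, Measurable fun h : P2 ⧸ Γ → ℝ => f fun u => h (tq Γ (x + u)) := fun x =>
    hf.meas.comp (measurable_pi_iff.2 fun u => measurable_pi_apply _)
  -- pointwise comparison
  have hpt : ∀ h : P2 ⧸ Γ → ℝ, |∑ v ∈ V, w v * (f (fun u => h (tq Γ (v + u))) - m0 f)| ≤
      ∑ v ∈ V, g v h + (2 * (nr R V).card + (θ + a') * V.card) := by
    intro h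
    set z : P2 → ℝ := fun v => h (tq Γ v) with hz
    set gg : P2 → ℝ := fun v => f fun u => z (v + u) with hgg
    have h4 := avg_sum (W := V) (g := gg) (w := w) (fun v => hf.bd _) hw hRp hR3 hθ0 hw'
    have e3 : ∑ v ∈ V, w v * (f (fun u => h (tq Γ (v + u))) - m0 f) =
        (∑ v ∈ V, w v * gg v - ∑ v ∈ V, w v * ((∑ y ∈ pos R r, gg (v + y)) / (R : ℝ) ^ 2)) +
          ∑ v ∈ V, w v * (BA R r f (fun u => z (v + u)) - m0 f) := by
      rw [← Finset.sum_sub_distrib, ← Finset.sum_add_distrib]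
      refine Finset.sum_congr rfl fun v _ => ?_
      rw [BA_shift]
      have : f (fun u => h (tq Γ (v + u))) = gg v := rfl
      rw [this]; ring
    have h7 : |∑ v ∈ V, w v * (BA R r f (fun u => z (v + u)) - m0 f)| ≤ ∑ v ∈ V, g v h := by
      refine (Finset.abs_sum_le_sum_abs _ _).trans (Finset.sum_le_sum fun v hv => ?_)
      rw [abs_mul]
      exact mul_le_of_le_one_left (abs_nonneg _) (hw v hv)
    have h8 := abs_add_le
      (∑ v ∈ V, w v * gg v - ∑ v ∈ V, w v * ((∑ y ∈ pos R r, gg (v + y)) / (R : ℝ) ^ 2))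
      (∑ v ∈ V, w v * (BA R r f (fun u => z (v + u)) - m0 f))
    rw [← e3] at h8
    rw [abs_sub_comm] at h4
    have h9 : (θ + 4 * r / R) * (V.card : ℝ) ≤ (θ + a') * V.card :=
      mul_le_mul_of_nonneg_right (by linarith) (Nat.cast_nonneg _)
    linarith
  have hYm : Measurable fun h : P2 ⧸ Γ → ℝ =>
      |∑ v ∈ V, w v * (f (fun u => h (tq Γ (v + u))) - m0 f)| := by
    refine Measurable.abs (Finset.measurable_sum _ fun v _ => ?_)
    exact ((hfm v).sub_const _).const_mul _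
  have hSB : Bd fun h : P2 ⧸ Γ → ℝ => ∑ v ∈ V, g v h := Bd.sum fun v _ => hgB v
  have hYB : Bd fun h : P2 ⧸ Γ → ℝ =>
      |∑ v ∈ V, w v * (f (fun u => h (tq Γ (v + u))) - m0 f)| := by
    obtain ⟨C, hC⟩ := hSB.2
    refine ⟨hYm, C + (2 * (nr R V).card + (θ + a') * V.card), fun h => ?_⟩
    rw [abs_abs]
    have := hpt h
    have := (le_abs_self _).trans (hC h)
    linarith
  have h2 := Ev_mono hYB (hSB.add (Bd.const (2 * (nr R V).card + (θ + a') * V.card))) hA hv hpt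
  rw [Ev_add hSB (Bd.const _) hA hv, Ev_const hA hv, Ev_sum (fun v _ => hgB v) hA hv] at h2
  have h3 : ∑ v ∈ V, Ev (tF Γ) (tE Γ) 0 (g v) ≤ V.card * (2 * a') := by
    refine (Finset.sum_le_card_nsmul _ _ _ fun v _ => hgt v).trans ?_
    rw [nsmul_eq_mul]
  have h4 : a' * (V.card : ℝ) ≤ a / 4 * V.card := mul_le_mul_of_nonneg_right ha1 (Nat.cast_nonneg _)
  have h5 : 0 ≤ a * (V.card : ℝ) := by positivity
  linarith

end Crest.Agent.R144.Lc279
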