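import Crest.Agent.R144.Lc17_279

/-!
R144 (S0197), helper279.  Block LC, file 18: local convergence (I3) of 95's torus states `exT` for the
rectangular tori `rect N m` and their images under the swap.
-/

set_option autoImplicit false
set_option linter.unusedSectionVars false
set_option linter.unusedVariables false

open MeasureTheory Set Filter Topology
open scoped ENNReal

noncomputable section

namespace Crest.Agent.R144.Lc279

open Crest.Agent.R144.Ham560
open Crest.Agent.R144.Lw425 (hd hd_comm hd_le_iff mem_hball hball mem_inn inn mem_sph sph hd_self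
  hd_triangle hd_pos hd_adj LObs)
open Crest.Agent.R144.Tor95 (nu lip gauge isClosed_lip isClosed_gauge Rt edg mem_edg Rt_mk
  Rt_translate rect mem_rect mk_eq_mk_rect conn_Rt volume_shift lip_shift lintegral_nu_eq Conn ex exT
  nu_lt_top nu_real_pos swE exists_rep)
open Crest.ProbabilityR.HexHeights (Adj)

section bridge

variable {Q : Type} [Fintype Q] [DecidableEq Q]

theorem volume_ham_pinned_lt {R : Q → Q → Prop} {o : Q} (hc : Conn R o) :
    volume (ham (Finset.univ.erase o) (edg R) (0 : Q → ℝ)) < ⊤ := by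
  have h := lintegral_nu_eq (R := R) o (fun _ => 1) measurable_const (fun _ _ => rfl)
  rw [lintegral_one, setLIntegral_one] at h
  rw [← h]
  exact nu_lt_top hc

/-- bounded Borel version of 95's bridge -/
theorem integral_nu_eq' {R : Q → Q → Prop} {o : Q} (hc : Conn R o) {F : (Q → ℝ) → ℝ}
    (hF : Measurable F) {C : ℝ} (hC : ∀ h, |F h| ≤ C)
    (hs : ∀ (h : Q → ℝ) (c : ℝ), F (fun q => h q + c) = F h) :
    ∫ h, F h ∂(nu R o) =
      ∫ x in ham (Finset.univ.erase o) (edg R) 0, F (ext (Finset.univ.erase o) 0 x) := by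
  have p1 : ∫⁻ h, ENNReal.ofReal (F h) ∂(nu R o) =
      ∫⁻ x in ham (Finset.univ.erase o) (edg R) 0,
        ENNReal.ofReal (F (ext (Finset.univ.erase o) 0 x)) :=
    lintegral_nu_eq o (fun h => ENNReal.ofReal (F h)) hF.ennreal_ofReal
      (fun h c => by rw [hs h c])
  have p2 : ∫⁻ h, ENNReal.ofReal (-F h) ∂(nu R o) =
      ∫⁻ x in ham (Finset.univ.erase o) (edg R) 0,
        ENNReal.ofReal (-F (ext (Finset.univ.erase o) 0 x)) :=
    lintegral_nu_eq o (fun h => ENNReal.ofReal (-F h)) hF.neg.ennreal_ofReal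
      (fun h c => by rw [hs h c])
  have f1 : IsFiniteMeasure (nu R o) := ⟨nu_lt_top hc⟩
  have f2 : IsFiniteMeasure (volume.restrict (ham (Finset.univ.erase o) (edg R) (0 : Q → ℝ))) :=
    ⟨by rw [Measure.restrict_apply_univ]; exact volume_ham_pinned_lt hc⟩
  have i1 : Integrable F (nu R o) :=
    Integrable.of_bound hF.aestronglyMeasurable C (Eventually.of_forall hC)
  have i2 : Integrable (fun x => F (ext (Finset.univ.erase o) 0 x))
      (volume.restrict (ham (Finset.univ.erase o) (edg R) (0 : Q → ℝ))) :=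
    Integrable.of_bound (hF.comp (measurable_ext _ _)).aestronglyMeasurable C
      (Eventually.of_forall fun x => hC _)
  rw [integral_eq_lintegral_pos_part_sub_lintegral_neg_part i1,
    integral_eq_lintegral_pos_part_sub_lintegral_neg_part i2, p1, p2]

theorem ex_eq_Ev {R : Q → Q → Prop} {o : Q} (hc : Conn R o) {F : (Q → ℝ) → ℝ}
    (hF : Measurable F) {C : ℝ} (hC : ∀ h, |F h| ≤ C)
    (hs : ∀ (h : Q → ℝ) (c : ℝ), F (fun q => h q + c) = F h) :
    ex R o F = Ev (Finset.univ.erase o) (edg R) 0 F := by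
  have h1 := integral_nu_eq' hc hF hC hs
  have h2 := integral_nu_eq' hc (F := fun _ => (1 : ℝ)) measurable_const (C := 1) (by simp)
    (fun _ _ => rfl)
  unfold Ev
  rw [integral_hamP_real, ex, h1]
  have h3 : (nu R o).real univ = (volume (ham (Finset.univ.erase o) (edg R) (0 : Q → ℝ))).toReal := by
    simpa [Measure.real] using h2
  rw [h3]

end bridge

/-! ### Rectangular tori -/

theorem rec_rect {A B : ℕ} {N m : ℤ} (hN : N = A + 2) (hm : 2 * m = B + 2)
    [Fintype (P2 ⧸ rect N m)] [DecidableEq (P2 ⧸ rect N m)] : Rec (rect N m) A B where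
  inj := by
    intro v w hv1 hv2 hw1 hw2 h
    obtain ⟨a, b, hab⟩ := mk_eq_mk_rect.mp h
    have h1 := congrArg Prod.fst hab
    have h2 := congrArg Prod.snd hab
    simp only at h1 h2
    have hb : b = 0 := by
      have h3 : w.2 - v.2 = b * (B + 2) := by
        rw [← hm]; linarith
      rcases lt_trichotomy b 0 with h4 | h4 | h4
      · have : b * ((B : ℤ) + 2) ≤ (-1) * ((B : ℤ) + 2) :=
          mul_le_mul_of_nonneg_right (by omega) (by omega)
        omega
      · exact h4
      · have : 1 * ((B : ℤ) + 2) ≤ b * ((B : ℤ) + 2) :=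
          mul_le_mul_of_nonneg_right (by omega) (by omega)
        omega
    have ha : a = 0 := by
      rw [hb] at h1
      have h3 : w.1 - v.1 = a * (A + 2) := by
        rw [← hN]; linarith
      rcases lt_trichotomy a 0 with h4 | h4 | h4
      · have : a * ((A : ℤ) + 2) ≤ (-1) * ((A : ℤ) + 2) :=
          mul_le_mul_of_nonneg_right (by omega) (by omega)
        omega
      · exact h4
      · have : 1 * ((A : ℤ) + 2) ≤ a * ((A : ℤ) + 2) :=
          mul_le_mul_of_nonneg_right (by omega) (by omega)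
        omega
    rw [ha, hb] at hab
    rw [hab]
    ext <;> simp
  card := by
    have hA0 : (0 : ℤ) < N := by rw [hN]; positivity
    have hm0 : 0 < 2 * m := by rw [hm]; positivity
    set S : Finset P2 := Finset.Ico (0 : ℤ) (A + 2) ×ˢ Finset.Ico (0 : ℤ) (B + 2) with hS
    have hSc : S.card = (A + 2) * (B + 2) := by
      rw [hS, Finset.card_product, Int.card_Ico, Int.card_Ico]
      congr 1
    rw [← hSc, ← Finset.card_univ]
    refine (Finset.card_le_card (t := S.image (tq (rect N m))) ?_).trans Finset.card_image_le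
    intro q _
    obtain ⟨v, rfl⟩ := QuotientAddGroup.mk_surjective q
    rw [Finset.mem_image]
    set b := v.2 / (2 * m) with hb
    set y := v.2 % (2 * m) with hy
    have e1 : y + 2 * m * b = v.2 := Int.emod_add_mul_ediv v.2 (2 * m)
    have y0 : 0 ≤ y := Int.emod_nonneg _ hm0.ne'
    have y1 : y < 2 * m := Int.emod_lt_of_pos _ hm0
    set x0 := v.1 + b * m with hx0
    set a := x0 / N with ha
    set x := x0 % N with hx
    have e2 : x + N * a = x0 := Int.emod_add_mul_ediv x0 N
    have x1 : 0 ≤ x := Int.emod_nonneg _ hA0.ne'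
    have x2 : x < N := Int.emod_lt_of_pos _ hA0
    refine ⟨(x, y), ?_, ?_⟩
    · rw [hS, Finset.mem_product, Finset.mem_Ico, Finset.mem_Ico]
      simp only
      rw [hN] at x2
      rw [hm] at y1
      exact ⟨⟨x1, x2⟩, ⟨y0, y1⟩⟩
    · refine mk_eq_mk_rect.mpr ⟨a, b, ?_⟩
      ext
      · simp only; linarith
      · simp only; linarith

theorem Rec.sw {Γ : AddSubgroup P2} [Fintype (P2 ⧸ Γ)] [DecidableEq (P2 ⧸ Γ)]
    [Fintype (P2 ⧸ Γ.map swE.toAddMonoidHom)] [DecidableEq (P2 ⧸ Γ.map swE.toAddMonoidHom)]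
    {A B : ℕ} (h : Rec Γ A B) : Rec (Γ.map swE.toAddMonoidHom) B A where
  inj := by
    intro v w hv1 hv2 hw1 hw2 hvw
    have h1 : -v + w ∈ Γ.map swE.toAddMonoidHom := QuotientAddGroup.eq.mp hvw
    obtain ⟨g, hg, hgv⟩ := h1
    have h2 : Tp952.sw g = -v + w := hgv
    have h3 : tq Γ (Tp952.sw v) = tq Γ (Tp952.sw w) := by
      refine QuotientAddGroup.eq.mpr ?_
      have e : -Tp952.sw v + Tp952.sw w = g := by
        have e1 := congrArg Prod.fst h2
        have e2 := congrArg Prod.snd h2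
        simp only [Tp952.sw, Prod.fst_add, Prod.snd_add, Prod.fst_neg, Prod.snd_neg] at e1 e2
        ext
        · simp only [Tp952.sw, Prod.fst_add, Prod.fst_neg]; omega
        · simp only [Tp952.sw, Prod.snd_add, Prod.snd_neg]; omega
      rw [e]; exact hg
    have h4 := h.inj (Tp952.sw v) (Tp952.sw w) hv2 hv1 hw2 hw1 h3
    have e1 := congrArg Prod.fst h4
    have e2 := congrArg Prod.snd h4
    simp only [Tp952.sw] at e1 e2
    exact Prod.ext e2 e1
  card := by
    have h1 : Fintype.card (P2 ⧸ Γ.map swE.toAddMonoidHom) = Fintype.card (P2 ⧸ Γ) :=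
      Fintype.card_congr (QuotientAddGroup.congr Γ (Γ.map swE.toAddMonoidHom) swE rfl).symm.toEquiv
    rw [h1, mul_comm]
    exact h.card

/-- **(I3)** local convergence of the torus states. -/
theorem tlc {Γ : ℕ → AddSubgroup P2} [∀ k, Fintype (P2 ⧸ Γ k)] {A B : ℕ → ℕ}
    (hA : Tendsto A atTop atTop) (hB : Tendsto B atTop atTop)
    (hrec : ∀ k, Rec (Γ k) (A k) (B k)) {r : ℕ}
    {f : (P2 → ℝ) → ℝ} (hf : LObs r f) :
    Tendsto (fun k => exT (Γ k) f) atTop (𝓝 (∫ h, f h ∂mu0)) := by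
  classical
  rw [integral_mu0 hf, Metric.tendsto_atTop']
  intro ε hε
  obtain ⟨T, hT⟩ := tor_lc hf (ε := ε / 2) (by positivity)
  obtain ⟨k0, hk0⟩ := eventually_atTop.mp ((hA.eventually_ge_atTop T).and
    (hB.eventually_ge_atTop T))
  refine ⟨k0, fun k hk => ?_⟩
  obtain ⟨h1, h2⟩ := hk0 k hk.le
  have h3 := hT (Γ k) (A k) (B k) h1 h2 (hrec k)
  have h4 : exT (Γ k) f = Ev (tF (Γ k)) (tE (Γ k)) 0 (fun h => f fun u => h (tq (Γ k) u)) := by
    refine ex_eq_Ev (conn_Rt (Γ k) 0) ?_ (C := 1) (fun h => hf.bd _) (fun h c => hf.shift _ c)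
    exact hf.meas.comp (measurable_pi_iff.2 fun u => measurable_pi_apply _)
  rw [Real.dist_eq, h4]
  exact lt_of_le_of_lt h3 (by linarith)

/-- The sequence of rectangular tori `rect (k + 3) (k + 2)`. -/
theorem tlc_rect [∀ k : ℕ, Fintype (P2 ⧸ rect ((k : ℤ) + 3) ((k : ℤ) + 2))] {r : ℕ}
    {f : (P2 → ℝ) → ℝ} (hf : LObs r f) :
    Tendsto (fun k : ℕ => exT (rect ((k : ℤ) + 3) ((k : ℤ) + 2)) f) atTop
      (𝓝 (∫ h, f h ∂mu0)) := by
  refine tlc (A := fun k => k + 1) (B := fun k => 2 * k + 2) (tendsto_add_atTop_nat 1) ?_ ?_ hf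
  · exact tendsto_atTop_mono (fun k => show k ≤ 2 * k + 2 by omega) tendsto_id
  · intro k
    classical
    exact rec_rect (by push_cast; ring) (by push_cast; ring)

/-- The swapped tori. -/
theorem tlc_rect_sw [∀ k : ℕ, Fintype (P2 ⧸ rect ((k : ℤ) + 3) ((k : ℤ) + 2))]
    [∀ k : ℕ, Fintype (P2 ⧸ (rect ((k : ℤ) + 3) ((k : ℤ) + 2)).map swE.toAddMonoidHom)] {r : ℕ}
    {f : (P2 → ℝ) → ℝ} (hf : LObs r f) :
    Tendsto (fun k : ℕ => exT ((rect ((k : ℤ) + 3) ((k : ℤ) + 2)).map swE.toAddMonoidHom) f) atTop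
      (𝓝 (∫ h, f h ∂mu0)) := by
  classical
  refine tlc (A := fun k => 2 * k + 2) (B := fun k => k + 1) ?_ (tendsto_add_atTop_nat 1) ?_ hf
  · exact tendsto_atTop_mono (fun k => show k ≤ 2 * k + 2 by omega) tendsto_id
  · intro k
    exact Rec.sw (rec_rect (A := k + 1) (B := 2 * k + 2) (by push_cast; ring) (by push_cast; ring))

end Crest.Agent.R144.Lc279
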