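import Crest.Agent.R144.Ham5_560

/-!
R144 (S0197), helper279.  Block LC (averaged local convergence), file 1: integration over blocks.

* `J F g ξ` : integral of `g : (U → ℝ) → ℝ≥0∞` over the heights in the finite set `F`, the others being
  given by `ξ`;
* `J_union`, `J_prod` (Fubini), `J_pl` (Prekopa–Leindler);
* `hI E` : indicator of the Lipschitz configurations; `volume_ham`;
* `Sys F E s Q A` : disjoint non-adjacent blocks `Q i`; `J_sys` : factorisation over the blocks;
* `tens` : the tensorised Prekopa–Leindler inequality.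
-/

set_option autoImplicit false
set_option linter.unusedSectionVars false
set_option linter.unusedVariables false

open MeasureTheory Set
open scoped ENNReal

noncomputable section

namespace Crest.Agent.R144.Lc279

open Crest.Agent.R144.Ham560

variable {U : Type*} [DecidableEq U]

/-- Integral over the heights in `F`. -/
def J (F : Finset U) (g : (U → ℝ) → ℝ≥0∞) (ξ : U → ℝ) : ℝ≥0∞ := ∫⁻ x : F → ℝ, g (ext F ξ x)

variable {F S T : Finset U} {E : Finset (U × U)} {ξ η : U → ℝ} {f g m : (U → ℝ) → ℝ≥0∞}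

theorem ext_eq_updateFinset (x : F → ℝ) : ext F ξ x = Function.updateFinset ξ F x := by
  funext u
  rw [Function.updateFinset_def]
  rfl

theorem J_eq_lmarginal : J F g = lmarginal (fun _ : U => (volume : Measure ℝ)) F g := by
  funext ξ
  unfold J lmarginal
  rw [volume_pi]
  exact lintegral_congr fun x => by rw [ext_eq_updateFinset]

theorem measurable_J (hg : Measurable g) : Measurable (J F g) := by
  rw [J_eq_lmarginal]; exact hg.lmarginal _

theorem measurable_ext (F : Finset U) (ξ : U → ℝ) : Measurable (fun x : F → ℝ => ext F ξ x) := by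
  refine measurable_pi_lambda _ fun u => ?_
  exact (continuous_ext u).measurable

theorem J_union (hg : Measurable g) (h : Disjoint S T) (ξ : U → ℝ) :
    J (S ∪ T) g ξ = J S (J T g) ξ := by
  rw [J_eq_lmarginal, J_eq_lmarginal, J_eq_lmarginal, lmarginal_union _ _ hg h]

@[simp] theorem J_empty (ξ : U → ℝ) : J ∅ g ξ = g ξ := by
  rw [J_eq_lmarginal, lmarginal_empty]

theorem J_congr (h : ∀ u, u ∉ F → ξ u = η u) : J F g ξ = J F g η := by
  unfold J
  refine lintegral_congr fun x => ?_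
  congr 1
  funext u
  by_cases hu : u ∈ F
  · rw [ext_mem hu, ext_mem hu]
  · rw [ext_notMem hu, ext_notMem hu]; exact h u hu

theorem J_mono (h : ∀ x : F → ℝ, f (ext F ξ x) ≤ g (ext F ξ x)) : J F f ξ ≤ J F g ξ :=
  lintegral_mono h

theorem J_congr' (h : ∀ x : F → ℝ, f (ext F ξ x) = g (ext F ξ x)) : J F f ξ = J F g ξ :=
  lintegral_congr h

/-- A function depending only on the coordinates in `A`. -/
theorem dep_ext {A : Set U} {β : Type*} {f : (U → ℝ) → β} (hf : DependsOn f A)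
    (h : Disjoint A (F : Set U)) (ξ : U → ℝ) (x : F → ℝ) : f (ext F ξ x) = f ξ := by
  refine hf fun u hu => ?_
  exact ext_notMem (fun hF => Set.disjoint_left.mp h hu hF) x

theorem J_mul_left {A : Set U} (hf : DependsOn f A) (h : Disjoint A (F : Set U))
    (hg : Measurable g) (ξ : U → ℝ) : J F (fun z => f z * g z) ξ = f ξ * J F g ξ := by
  have h1 : ∫⁻ x : F → ℝ, f ξ * g (ext F ξ x) = f ξ * ∫⁻ x : F → ℝ, g (ext F ξ x) :=
    lintegral_const_mul _ (hg.comp (measurable_ext F ξ))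
  unfold J
  rw [← h1]
  refine lintegral_congr fun x => ?_
  show f (ext F ξ x) * g (ext F ξ x) = _
  rw [dep_ext hf h]

theorem J_mul_right {A : Set U} (hf : DependsOn f A) (h : Disjoint A (F : Set U))
    (hg : Measurable g) (ξ : U → ℝ) : J F (fun z => g z * f z) ξ = J F g ξ * f ξ := by
  rw [mul_comm, ← J_mul_left hf h hg]
  exact J_congr' fun x => mul_comm _ _

theorem dep_J {A : Set U} (hg : DependsOn g A) : DependsOn (J F g) (A \ F) := by
  intro z z' h
  unfold J
  refine lintegral_congr fun x => hg fun u hu => ?_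
  by_cases hF : u ∈ F
  · rw [ext_mem hF, ext_mem hF]
  · rw [ext_notMem hF, ext_notMem hF]
    exact h u ⟨hu, hF⟩

theorem dep_mono {A B : Set U} {β : Type*} {f : (U → ℝ) → β} (hf : DependsOn f A) (h : A ⊆ B) :
    DependsOn f B := fun z z' hz => hf fun u hu => hz u (h hu)

theorem dep_mul {A : Set U} (hf : DependsOn f A) (hg : DependsOn g A) :
    DependsOn (fun z => f z * g z) A := fun z z' h => by
  show f z * g z = f z' * g z'
  rw [hf h, hg h]

theorem dep_prod {ι : Type*} {s : Finset ι} {A : Set U} {p : ι → (U → ℝ) → ℝ≥0∞}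
    (h : ∀ i ∈ s, DependsOn (p i) A) : DependsOn (fun z => ∏ i ∈ s, p i z) A := fun z z' hz =>
  Finset.prod_congr rfl fun i hi => h i hi hz

/-- Fubini over disjoint blocks. -/
theorem J_prod {ι : Type*} [DecidableEq ι] (s : Finset ι) (Q : ι → Finset U) (A : ι → Set U)
    (p : ι → (U → ℝ) → ℝ≥0∞) (hp : ∀ i ∈ s, Measurable (p i)) (hd : ∀ i ∈ s, DependsOn (p i) (A i))
    (hQA : ∀ i ∈ s, (Q i : Set U) ⊆ A i)
    (hA : ∀ i ∈ s, ∀ j ∈ s, i ≠ j → Disjoint (A i) (Q j : Set U)) (ξ : U → ℝ) :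
    J (s.biUnion Q) (fun z => ∏ i ∈ s, p i z) ξ = ∏ i ∈ s, J (Q i) (p i) ξ := by
  induction s using Finset.induction generalizing ξ with
  | empty => simp
  | @insert a s ha ih =>
    have hmem : ∀ i ∈ s, i ∈ insert a s := fun i hi => Finset.mem_insert_of_mem hi
    have hane : ∀ i ∈ s, a ≠ i := fun i hi h => ha (h ▸ hi)
    have hdisj : Disjoint (Q a) (s.biUnion Q) := by
      rw [Finset.disjoint_biUnion_right]
      intro i hi
      have := hA a (Finset.mem_insert_self _ _) i (hmem i hi) (hane i hi)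
      rw [← Finset.disjoint_coe]
      exact this.mono_left (hQA a (Finset.mem_insert_self _ _))
    have hAB : Disjoint (A a) ((s.biUnion Q : Finset U) : Set U) := by
      rw [Finset.coe_biUnion, Set.disjoint_iUnion₂_right]
      intro i hi
      exact hA a (Finset.mem_insert_self _ _) i (hmem i hi) (hane i hi)
    have hmp : Measurable fun z : U → ℝ => ∏ i ∈ s, p i z :=
      Finset.measurable_prod _ fun i hi => hp i (hmem i hi)
    have hmpa : Measurable (p a) := hp a (Finset.mem_insert_self _ _)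
    rw [Finset.biUnion_insert, Finset.prod_insert ha]
    have e0 : (fun z : U → ℝ => ∏ i ∈ insert a s, p i z) = fun z => p a z * ∏ i ∈ s, p i z := by
      funext z; exact Finset.prod_insert ha
    rw [e0, J_union (g := fun z : U → ℝ => p a z * ∏ i ∈ s, p i z) (hmpa.mul hmp) hdisj]
    have e1 : J (s.biUnion Q) (fun z : U → ℝ => p a z * ∏ i ∈ s, p i z) =
        fun z => p a z * ∏ i ∈ s, J (Q i) (p i) z := by
      funext z
      rw [J_mul_left (hd a (Finset.mem_insert_self _ _)) hAB hmp]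
      rw [ih (fun i hi => hp i (hmem i hi)) (fun i hi => hd i (hmem i hi))
        (fun i hi => hQA i (hmem i hi))
        (fun i hi j hj hij => hA i (hmem i hi) j (hmem j hj) hij)]
    rw [e1]
    refine J_mul_right (A := (Q a : Set U)ᶜ) ?_ disjoint_compl_left hmpa ξ
    refine dep_prod fun i hi => ?_
    refine dep_mono (dep_J (hd i (hmem i hi))) ?_
    intro u hu hua
    exact Set.disjoint_left.mp (hA i (hmem i hi) a (Finset.mem_insert_self _ _) (hane i hi).symm)
      hu.1 hua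

/-! ### Prekopa–Leindler -/

/-- The midpoint. -/
def mid (z z' : U → ℝ) : U → ℝ := (1 / 2 : ℝ) • z + (1 / 2 : ℝ) • z'

omit [DecidableEq U] in
theorem mid_apply (z z' : U → ℝ) (u : U) : mid z z' u = (z u + z' u) / 2 := by
  simp only [mid, Pi.add_apply, Pi.smul_apply, smul_eq_mul]; ring

omit [DecidableEq U] in
theorem mid_comm (z z' : U → ℝ) : mid z z' = mid z' z := add_comm _ _

omit [DecidableEq U] in
theorem mid_self (z : U → ℝ) : mid z z = z := by
  funext u; rw [mid_apply]; ring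

theorem ext_mid (x y : F → ℝ) :
    ext F (mid ξ η) ((1 / 2 : ℝ) • x + (1 / 2 : ℝ) • y) = mid (ext F ξ x) (ext F η y) := by
  funext u
  have h1 := ext_comb (F := F) (ξ := ξ) (η := η) (1 / 2) (1 / 2) x y u
  have h2 : mid (ext F ξ x) (ext F η y) u = 1 / 2 * ext F ξ x u + 1 / 2 * ext F η y u := by
    rw [mid_apply]; ring
  rw [h2, ← h1]
  rfl

theorem J_pl (hf : Measurable f) (hg : Measurable g) (hm : Measurable m)
    (H : ∀ x y : F → ℝ, f (ext F ξ x) * g (ext F η y) ≤
      m (mid (ext F ξ x) (ext F η y)) ^ 2) :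
    J F f ξ * J F g η ≤ J F m (mid ξ η) ^ 2 := by
  have key := PL_fintype (ι := F) (1 / 2) (by norm_num) (by norm_num)
    (fun x => f (ext F ξ x)) (fun y => g (ext F η y)) (fun w => m (ext F (mid ξ η) w))
    (hf.comp (measurable_ext F ξ)) (hg.comp (measurable_ext F η))
    (hm.comp (measurable_ext F (mid ξ η))) ?_
  · have h3 := ENNReal.rpow_le_rpow key (z := 2) (by norm_num)
    rw [ENNReal.mul_rpow_of_nonneg _ _ (by norm_num : (0 : ℝ) ≤ 2), ← ENNReal.rpow_mul,
      ← ENNReal.rpow_mul] at h3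
    norm_num at h3
    unfold J
    exact_mod_cast h3
  · intro x y
    have h1 := H x y
    have e1 : (1 - (1 / 2 : ℝ)) • x + (1 / 2 : ℝ) • y = (1 / 2 : ℝ) • x + (1 / 2 : ℝ) • y := by
      norm_num
    have h2 := ENNReal.rpow_le_rpow h1 (z := 1 / 2) (by norm_num)
    rw [ENNReal.mul_rpow_of_nonneg _ _ (by norm_num : (0 : ℝ) ≤ 1 / 2)] at h2
    have e2 : (m (mid (ext F ξ x) (ext F η y)) ^ 2) ^ (1 / 2 : ℝ) =
        m (mid (ext F ξ x) (ext F η y)) := by
      rw [← ENNReal.rpow_natCast, ← ENNReal.rpow_mul]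
      norm_num
    rw [e2, ← ext_mid] at h2
    simp only [e1]
    have e3 : (1 - (1 / 2 : ℝ)) = 1 / 2 := by norm_num
    rw [e3]
    exact h2

/-! ### The hammock indicator -/

/-- Lipschitz configurations for the edges `E`. -/
def HS (E : Finset (U × U)) : Set (U → ℝ) := {h | ∀ p ∈ E, |h p.1 - h p.2| ≤ 1}

omit [DecidableEq U] in
theorem measurableSet_HS (E : Finset (U × U)) : MeasurableSet (HS E) := by
  have : HS E = ⋂ p ∈ E, {h : U → ℝ | |h p.1 - h p.2| ≤ 1} := by ext h; simp [HS]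
  rw [this]
  exact Finset.measurableSet_biInter _ fun p _ =>
    measurableSet_le ((measurable_pi_apply p.1).sub (measurable_pi_apply p.2)).abs
      measurable_const

/-- The indicator of the Lipschitz configurations. -/
def hI (E : Finset (U × U)) : (U → ℝ) → ℝ≥0∞ := (HS E).indicator 1

omit [DecidableEq U] in
theorem measurable_hI (E : Finset (U × U)) : Measurable (hI E) :=
  measurable_one.indicator (measurableSet_HS E)

omit [DecidableEq U] in
theorem hI_of_mem {h : U → ℝ} (hh : h ∈ HS E) : hI E h = 1 := by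
  rw [hI, indicator_of_mem hh]; rfl

omit [DecidableEq U] in
theorem hI_of_notMem {h : U → ℝ} (hh : h ∉ HS E) : hI E h = 0 := indicator_of_notMem hh _

theorem ext_mem_HS {x : F → ℝ} : ext F ξ x ∈ HS E ↔ x ∈ ham F E ξ := Iff.rfl

theorem J_hI_mul (g : (U → ℝ) → ℝ≥0∞) (ξ : U → ℝ) :
    J F (fun z => hI E z * g z) ξ = ∫⁻ x in ham F E ξ, g (ext F ξ x) := by
  unfold J
  rw [← lintegral_indicator measurableSet_ham]
  refine lintegral_congr fun x => ?_
  show hI E (ext F ξ x) * g (ext F ξ x) = _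
  by_cases hx : x ∈ ham F E ξ
  · rw [indicator_of_mem hx, hI_of_mem (ext_mem_HS.mpr hx), one_mul]
  · rw [indicator_of_notMem hx, hI_of_notMem (fun h => hx (ext_mem_HS.mp h)), zero_mul]

theorem volume_ham (ξ : U → ℝ) : volume (ham F E ξ) = J F (hI E) ξ := by
  have := J_hI_mul (F := F) (E := E) (fun _ => 1) ξ
  simp only [mul_one, lintegral_const, Measure.restrict_apply_univ, one_mul] at this
  exact this.symm

omit [DecidableEq U] in
theorem dep_hI {A : Set U} (h : ∀ p ∈ E, p.1 ∈ A ∧ p.2 ∈ A) : DependsOn (hI E) A := by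
  intro z z' hz
  have : z ∈ HS E ↔ z' ∈ HS E := by
    constructor
    · intro h1 p hp
      rw [← hz _ (h p hp).1, ← hz _ (h p hp).2]; exact h1 p hp
    · intro h1 p hp
      rw [hz _ (h p hp).1, hz _ (h p hp).2]; exact h1 p hp
  by_cases h1 : z ∈ HS E
  · rw [hI_of_mem h1, hI_of_mem (this.mp h1)]
  · rw [hI_of_notMem h1, hI_of_notMem (fun h2 => h1 (this.mpr h2))]

omit [DecidableEq U] in
theorem HS_mid {z z' : U → ℝ} (h : z ∈ HS E) (h' : z' ∈ HS E) : mid z z' ∈ HS E := by
  intro p hp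
  rw [mid_apply, mid_apply]
  have h1 := abs_le.mp (h p hp)
  have h2 := abs_le.mp (h' p hp)
  rw [abs_le]; constructor <;> linarith

omit [DecidableEq U] in
theorem hI_mid (z z' : U → ℝ) : hI E z * hI E z' ≤ hI E (mid z z') ^ 2 := by
  by_cases h : z ∈ HS E
  · by_cases h' : z' ∈ HS E
    · rw [hI_of_mem h, hI_of_mem h', hI_of_mem (HS_mid h h')]; simp
    · rw [hI_of_notMem h', mul_zero]; exact bot_le
  · rw [hI_of_notMem h, zero_mul]; exact bot_le

/-! ### Systems of blocks -/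

variable {ι : Type*}

/-- Disjoint, pairwise non-adjacent blocks `Q i ⊆ F`; everything attached to the block `i` lives in
`A i`. -/
structure Sys (F : Finset U) (E : Finset (U × U)) (s : Finset ι) (Q : ι → Finset U)
    (A : ι → Set U) : Prop where
  sub : ∀ i ∈ s, Q i ⊆ F
  QA : ∀ i ∈ s, (Q i : Set U) ⊆ A i
  disj : ∀ i ∈ s, ∀ j ∈ s, i ≠ j → Disjoint (A i) (Q j : Set U)
  edge : ∀ i ∈ s, ∀ p ∈ E, (p.1 ∈ Q i ∨ p.2 ∈ Q i) → p.1 ∈ A i ∧ p.2 ∈ A i

/-- The edges touching `Q`. -/
def tch (E : Finset (U × U)) (Q : Finset U) : Finset (U × U) :=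
  E.filter fun p => p.1 ∈ Q ∨ p.2 ∈ Q

/-- The edges touching no block. -/
def far (E : Finset (U × U)) (Q : Finset U) : Finset (U × U) :=
  E.filter fun p => p.1 ∉ Q ∧ p.2 ∉ Q

theorem mem_tch {Q : Finset U} {p : U × U} : p ∈ tch E Q ↔ p ∈ E ∧ (p.1 ∈ Q ∨ p.2 ∈ Q) :=
  Finset.mem_filter

theorem mem_far {Q : Finset U} {p : U × U} : p ∈ far E Q ↔ p ∈ E ∧ p.1 ∉ Q ∧ p.2 ∉ Q :=
  Finset.mem_filter

theorem dep_far (Q : Finset U) : DependsOn (hI (far E Q)) (Q : Set U)ᶜ :=
  dep_hI fun _ hp => (mem_far.mp hp).2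

theorem Sys.dep_tch {s : Finset ι} {Q : ι → Finset U} {A : ι → Set U} (h : Sys F E s Q A)
    {i : ι} (hi : i ∈ s) : DependsOn (hI (tch E (Q i))) (A i) :=
  dep_hI fun p hp => h.edge i hi p (mem_tch.mp hp).1 (mem_tch.mp hp).2

omit [DecidableEq U] in
theorem prod_hI_eq {s : Finset ι} {E' : ι → Finset (U × U)} (z : U → ℝ) :
    ∏ i ∈ s, hI (E' i) z = (⋂ i ∈ s, HS (E' i)).indicator 1 z := by
  by_cases h : z ∈ ⋂ i ∈ s, HS (E' i)
  · rw [indicator_of_mem h]
    rw [mem_iInter₂] at h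
    exact Finset.prod_eq_one fun i hi => hI_of_mem (h i hi)
  · rw [indicator_of_notMem h]
    rw [mem_iInter₂] at h
    push Not at h
    obtain ⟨i, hi, hz⟩ := h
    exact Finset.prod_eq_zero hi (hI_of_notMem hz)

theorem hI_factor (E : Finset (U × U)) (s : Finset ι) (Q : ι → Finset U) (z : U → ℝ) :
    hI E z = hI (far E (s.biUnion Q)) z * ∏ i ∈ s, hI (tch E (Q i)) z := by
  rw [prod_hI_eq]
  by_cases h : z ∈ HS E
  · have h1 : z ∈ HS (far E (s.biUnion Q)) := fun p hp => h p (mem_far.mp hp).1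
    have h2 : z ∈ ⋂ i ∈ s, HS (tch E (Q i)) := by
      rw [mem_iInter₂]; exact fun i _ p hp => h p (mem_tch.mp hp).1
    rw [hI_of_mem h, hI_of_mem h1, indicator_of_mem h2]; simp
  · rw [hI_of_notMem h]
    by_cases h1 : z ∈ HS (far E (s.biUnion Q))
    · have h2 : z ∉ ⋂ i ∈ s, HS (tch E (Q i)) := by
        intro h2
        rw [mem_iInter₂] at h2
        refine h fun p hp => ?_
        by_cases h3 : ∃ i ∈ s, p.1 ∈ Q i ∨ p.2 ∈ Q i
        · obtain ⟨i, hi, h4⟩ := h3
          exact h2 i hi p (mem_tch.mpr ⟨hp, h4⟩)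
        · push Not at h3
          refine h1 p (mem_far.mpr ⟨hp, ?_, ?_⟩)
          · simp only [Finset.mem_biUnion, not_exists, not_and]
            exact fun i hi => (h3 i hi).1
          · simp only [Finset.mem_biUnion, not_exists, not_and]
            exact fun i hi => (h3 i hi).2
      rw [indicator_of_notMem h2, mul_zero]
    · rw [hI_of_notMem h1, zero_mul]

/-- Factorisation of an integral over `F` with block weights. -/
theorem Sys.J_eq [DecidableEq ι] {s : Finset ι} {Q : ι → Finset U} {A : ι → Set U}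
    (h : Sys F E s Q A)
    (p : ι → (U → ℝ) → ℝ≥0∞) (hp : ∀ i ∈ s, Measurable (p i)) (hd : ∀ i ∈ s, DependsOn (p i) (A i))
    (ξ : U → ℝ) :
    J F (fun z => hI E z * ∏ i ∈ s, p i z) ξ =
      J (F \ s.biUnion Q) (fun z => hI (far E (s.biUnion Q)) z *
        ∏ i ∈ s, J (Q i) (fun z => hI (tch E (Q i)) z * p i z) z) ξ := by
  have hsub : s.biUnion Q ⊆ F := Finset.biUnion_subset.mpr h.sub
  have hF : F = (F \ s.biUnion Q) ∪ s.biUnion Q := (Finset.sdiff_union_of_subset hsub).symm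
  have hm : ∀ i ∈ s, Measurable fun z : U → ℝ => hI (tch E (Q i)) z * p i z := fun i hi =>
    (measurable_hI _).mul (hp i hi)
  have hmp : Measurable fun z : U → ℝ => ∏ i ∈ s, (hI (tch E (Q i)) z * p i z) :=
    Finset.measurable_prod _ hm
  have e0 : (fun z : U → ℝ => hI E z * ∏ i ∈ s, p i z) = fun z =>
      hI (far E (s.biUnion Q)) z * ∏ i ∈ s, (hI (tch E (Q i)) z * p i z) := by
    funext z
    rw [hI_factor E s Q z, Finset.prod_mul_distrib, mul_assoc]
  rw [e0]
  conv_lhs => rw [hF]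
  rw [J_union (g := fun z : U → ℝ => hI (far E (s.biUnion Q)) z *
    ∏ i ∈ s, (hI (tch E (Q i)) z * p i z)) ((measurable_hI _).mul hmp) Finset.sdiff_disjoint]
  refine J_congr' fun x => ?_
  rw [J_mul_left (dep_far _) disjoint_compl_left hmp]
  congr 1
  exact J_prod s Q A _ hm (fun i hi => dep_mul (h.dep_tch hi) (hd i hi)) h.QA h.disj _

/-- **Tensorisation**: the block inequalities multiply. -/
theorem Sys.tens [DecidableEq ι] {s : Finset ι} {Q : ι → Finset U} {A : ι → Set U}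
    (h : Sys F E s Q A)
    {p q r : ι → (U → ℝ) → ℝ≥0∞} (hp : ∀ i ∈ s, Measurable (p i))
    (hq : ∀ i ∈ s, Measurable (q i)) (hr : ∀ i ∈ s, Measurable (r i))
    (dp : ∀ i ∈ s, DependsOn (p i) (A i)) (dq : ∀ i ∈ s, DependsOn (q i) (A i))
    (dr : ∀ i ∈ s, DependsOn (r i) (A i)) (c : ι → ℝ≥0∞)
    (H : ∀ i ∈ s, ∀ z z' : U → ℝ, J (Q i) (fun z => hI (tch E (Q i)) z * p i z) z *
      J (Q i) (fun z => hI (tch E (Q i)) z * q i z) z' ≤
      c i * J (Q i) (fun z => hI (tch E (Q i)) z * r i z) (mid z z') ^ 2) (ξ η : U → ℝ) :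
    J F (fun z => hI E z * ∏ i ∈ s, p i z) ξ * J F (fun z => hI E z * ∏ i ∈ s, q i z) η ≤
      (∏ i ∈ s, c i) * J F (fun z => hI E z * ∏ i ∈ s, r i z) (mid ξ η) ^ 2 := by
  rw [h.J_eq p hp dp, h.J_eq q hq dq, h.J_eq r hr dr]
  have hm : ∀ w : ι → (U → ℝ) → ℝ≥0∞, (∀ i ∈ s, Measurable (w i)) →
      Measurable fun z : U → ℝ => hI (far E (s.biUnion Q)) z *
        ∏ i ∈ s, J (Q i) (fun z => hI (tch E (Q i)) z * w i z) z := fun w hw =>
    (measurable_hI _).mul (Finset.measurable_prod _ fun i hi =>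
      measurable_J ((measurable_hI _).mul (hw i hi)))
  set K : ℝ≥0∞ := (∏ i ∈ s, c i) ^ (1 / 2 : ℝ) with hK
  have hK2 : K ^ 2 = ∏ i ∈ s, c i := by
    rw [hK, ← ENNReal.rpow_natCast, ← ENNReal.rpow_mul]; norm_num
  have key := J_pl (F := F \ s.biUnion Q) (ξ := ξ) (η := η) (hm p hp) (hm q hq)
    ((hm r hr).const_mul K) ?_
  · refine key.trans (le_of_eq ?_)
    have e1 : J (F \ s.biUnion Q) (fun z : U → ℝ => K * (hI (far E (s.biUnion Q)) z *
        ∏ i ∈ s, J (Q i) (fun z => hI (tch E (Q i)) z * r i z) z)) (mid ξ η) =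
        K * J (F \ s.biUnion Q) (fun z : U → ℝ => hI (far E (s.biUnion Q)) z *
        ∏ i ∈ s, J (Q i) (fun z => hI (tch E (Q i)) z * r i z) z) (mid ξ η) := by
      unfold J
      exact lintegral_const_mul _ ((hm r hr).comp (measurable_ext _ _))
    rw [e1, mul_pow, hK2]
  · intro x y
    set z := ext (F \ s.biUnion Q) ξ x
    set z' := ext (F \ s.biUnion Q) η y
    have h1 : ∏ i ∈ s, (J (Q i) (fun z => hI (tch E (Q i)) z * p i z) z *
        J (Q i) (fun z => hI (tch E (Q i)) z * q i z) z') ≤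
        ∏ i ∈ s, (c i * J (Q i) (fun z => hI (tch E (Q i)) z * r i z) (mid z z') ^ 2) :=
      Finset.prod_le_prod' fun i hi => H i hi z z'
    rw [Finset.prod_mul_distrib, Finset.prod_mul_distrib, Finset.prod_pow] at h1
    calc _ = (hI (far E (s.biUnion Q)) z * hI (far E (s.biUnion Q)) z') *
          ((∏ i ∈ s, J (Q i) (fun z => hI (tch E (Q i)) z * p i z) z) *
            ∏ i ∈ s, J (Q i) (fun z => hI (tch E (Q i)) z * q i z) z') := by ring
      _ ≤ hI (far E (s.biUnion Q)) (mid z z') ^ 2 * ((∏ i ∈ s, c i) *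
          (∏ i ∈ s, J (Q i) (fun z => hI (tch E (Q i)) z * r i z) (mid z z')) ^ 2) :=
          mul_le_mul' (hI_mid z z') h1
      _ = _ := by rw [← hK2]; ring

end Crest.Agent.R144.Lc279
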