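import Crest.Agent.R144.Lc2_279

/-!
R144 (S0197), helper279.  Block LC, file 3: exponential inequality, comparison of means,
concentration for sums over blocks.
-/

set_option autoImplicit false
set_option linter.unusedSectionVars false
set_option linter.unusedVariables false

open MeasureTheory Set
open scoped ENNReal

noncomputable section

namespace Crest.Agent.R144.Lc279

open Crest.Agent.R144.Ham560

variable {U : Type*} [DecidableEq U] {F : Finset U} {E : Finset (U × U)} {ξ η : U → ℝ}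

/-! ### Expectations -/

theorem isProb (hA : Anch F E) (hv : 0 < vr F E ξ) : IsProbabilityMeasure (hamP F E ξ) := by
  constructor
  rw [hamP, Measure.smul_apply, Measure.restrict_apply_univ, smul_eq_mul]
  refine ENNReal.inv_mul_cancel ?_ (volume_ham_lt_top hA).ne
  intro h
  rw [vr, h] at hv
  simp at hv

/-- Bounded measurable functions. -/
structure Bd (f : (U → ℝ) → ℝ) : Prop where
  meas : Measurable f
  bdd : ∃ M, ∀ z, |f z| ≤ M

theorem Bd.const (c : ℝ) : Bd (fun _ : U → ℝ => c) := ⟨measurable_const, |c|, fun _ => le_rfl⟩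

theorem Bd.add {f g : (U → ℝ) → ℝ} (hf : Bd f) (hg : Bd g) : Bd fun z => f z + g z := by
  obtain ⟨a, ha⟩ := hf.bdd
  obtain ⟨b, hb⟩ := hg.bdd
  exact ⟨hf.meas.add hg.meas, a + b, fun z => (abs_add_le _ _).trans (add_le_add (ha z) (hb z))⟩

theorem Bd.const_mul {f : (U → ℝ) → ℝ} (hf : Bd f) (c : ℝ) : Bd fun z => c * f z := by
  obtain ⟨a, ha⟩ := hf.bdd
  refine ⟨hf.meas.const_mul c, |c| * a, fun z => ?_⟩
  rw [abs_mul]; exact mul_le_mul_of_nonneg_left (ha z) (abs_nonneg c)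

theorem Bd.neg {f : (U → ℝ) → ℝ} (hf : Bd f) : Bd fun z => -f z := by
  have := hf.const_mul (-1)
  simpa using this

theorem Bd.sub {f g : (U → ℝ) → ℝ} (hf : Bd f) (hg : Bd g) : Bd fun z => f z - g z := by
  have := hf.add hg.neg
  simpa [sub_eq_add_neg] using this

theorem Bd.mul {f g : (U → ℝ) → ℝ} (hf : Bd f) (hg : Bd g) : Bd fun z => f z * g z := by
  obtain ⟨a, ha⟩ := hf.bdd
  obtain ⟨b, hb⟩ := hg.bdd
  refine ⟨hf.meas.mul hg.meas, a * b, fun z => ?_⟩
  rw [abs_mul]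
  exact mul_le_mul (ha z) (hb z) (abs_nonneg _) ((abs_nonneg _).trans (ha z))

theorem Bd.exp {f : (U → ℝ) → ℝ} (hf : Bd f) : Bd fun z => Real.exp (f z) := by
  obtain ⟨a, ha⟩ := hf.bdd
  refine ⟨Real.measurable_exp.comp hf.meas, Real.exp a, fun z => ?_⟩
  rw [abs_of_pos (Real.exp_pos _)]
  exact Real.exp_le_exp.mpr ((le_abs_self _).trans (ha z))

theorem Bd.sum {ι : Type*} {s : Finset ι} {f : ι → (U → ℝ) → ℝ} (h : ∀ i ∈ s, Bd (f i)) :
    Bd fun z => ∑ i ∈ s, f i z := by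
  classical
  induction s using Finset.induction with
  | empty => simpa using Bd.const (U := U) 0
  | @insert a s ha ih =>
    have h1 := (h a (Finset.mem_insert_self _ _)).add
      (ih fun i hi => h i (Finset.mem_insert_of_mem hi))
    simpa [Finset.sum_insert ha] using h1

theorem Bd.ind {B : Set (U → ℝ)} (hB : MeasurableSet B) : Bd (B.indicator (1 : (U → ℝ) → ℝ)) := by
  refine ⟨measurable_one.indicator hB, 1, fun z => ?_⟩
  by_cases h : z ∈ B
  · rw [indicator_of_mem h]; simp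
  · rw [indicator_of_notMem h]; simp

theorem Bd.integrableOn {f : (U → ℝ) → ℝ} (hf : Bd f) (hA : Anch F E) :
    IntegrableOn (fun x : F → ℝ => f (ext F ξ x)) (ham F E ξ) := by
  obtain ⟨M, hM⟩ := hf.bdd
  exact integrableOn_ham hA hf.meas hM

theorem Bd.integrable {f : (U → ℝ) → ℝ} (hf : Bd f) (hA : Anch F E) (hv : 0 < vr F E ξ) :
    Integrable (fun x : F → ℝ => f (ext F ξ x)) (hamP F E ξ) := by
  refine (hf.integrableOn (ξ := ξ) hA).integrable.smul_measure ?_
  intro h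
  rw [ENNReal.inv_eq_top] at h
  rw [vr, h] at hv
  simp at hv

theorem Ev_mono {f g : (U → ℝ) → ℝ} (hf : Bd f) (hg : Bd g) (hA : Anch F E)
    (hv : 0 < vr F E ξ) (h : ∀ z, f z ≤ g z) : Ev F E ξ f ≤ Ev F E ξ g :=
  integral_mono (hf.integrable hA hv) (hg.integrable hA hv) fun x => h _

theorem Ev_add {f g : (U → ℝ) → ℝ} (hf : Bd f) (hg : Bd g) (hA : Anch F E)
    (hv : 0 < vr F E ξ) : Ev F E ξ (fun z => f z + g z) = Ev F E ξ f + Ev F E ξ g :=
  integral_add (hf.integrable hA hv) (hg.integrable hA hv)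

theorem Ev_sub {f g : (U → ℝ) → ℝ} (hf : Bd f) (hg : Bd g) (hA : Anch F E)
    (hv : 0 < vr F E ξ) : Ev F E ξ (fun z => f z - g z) = Ev F E ξ f - Ev F E ξ g :=
  integral_sub (hf.integrable hA hv) (hg.integrable hA hv)

theorem Ev_const_mul (c : ℝ) (f : (U → ℝ) → ℝ) :
    Ev F E ξ (fun z => c * f z) = c * Ev F E ξ f := integral_const_mul _ _

theorem Ev_mul_const (c : ℝ) (f : (U → ℝ) → ℝ) :
    Ev F E ξ (fun z => f z * c) = Ev F E ξ f * c := integral_mul_const _ _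

theorem Ev_neg (f : (U → ℝ) → ℝ) : Ev F E ξ (fun z => -f z) = -Ev F E ξ f := integral_neg _

theorem Ev_const (hA : Anch F E) (hv : 0 < vr F E ξ) (c : ℝ) : Ev F E ξ (fun _ => c) = c := by
  have := isProb (ξ := ξ) hA hv
  unfold Ev
  simp

theorem Ev_sum {ι : Type*} {s : Finset ι} {f : ι → (U → ℝ) → ℝ} (h : ∀ i ∈ s, Bd (f i))
    (hA : Anch F E) (hv : 0 < vr F E ξ) :
    Ev F E ξ (fun z => ∑ i ∈ s, f i z) = ∑ i ∈ s, Ev F E ξ (f i) :=
  integral_finsetSum _ fun i hi => (h i hi).integrable hA hv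

theorem Ev_nonneg {f : (U → ℝ) → ℝ} (h : ∀ z, 0 ≤ f z) : 0 ≤ Ev F E ξ f :=
  integral_nonneg fun x => h _

theorem Ev_le {f : (U → ℝ) → ℝ} (hf : Bd f) (hA : Anch F E) (hv : 0 < vr F E ξ) {c : ℝ}
    (h : ∀ z, f z ≤ c) : Ev F E ξ f ≤ c := by
  have := Ev_mono hf (Bd.const c) hA hv h
  rwa [Ev_const hA hv] at this

theorem abs_Ev_le {f : (U → ℝ) → ℝ} (hf : Bd f) (hA : Anch F E) (hv : 0 < vr F E ξ) {c : ℝ}
    (h : ∀ z, |f z| ≤ c) : |Ev F E ξ f| ≤ c := by
  rw [abs_le]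
  constructor
  · have := Ev_le hf.neg hA hv (c := c) fun z => (neg_le_abs _).trans (h z)
    rw [Ev_neg] at this
    linarith
  · exact Ev_le hf hA hv fun z => (le_abs_self _).trans (h z)

/-- Jensen. -/
theorem exp_Ev_le {f : (U → ℝ) → ℝ} (hf : Bd f) (hA : Anch F E) (hv : 0 < vr F E ξ) :
    Real.exp (Ev F E ξ f) ≤ Ev F E ξ fun z => Real.exp (f z) := by
  set c := Ev F E ξ f with hc
  have h1 := Ev_mono (ξ := ξ) (f := fun z => Real.exp c * (1 - c) + Real.exp c * f z)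
    (g := fun z => Real.exp (f z)) ((Bd.const _).add (hf.const_mul _)) hf.exp hA hv ?_
  · rw [Ev_add (Bd.const _) (hf.const_mul _) hA hv, Ev_const hA hv, Ev_const_mul, ← hc] at h1
    linarith
  · intro z
    have h2 := Real.add_one_le_exp (f z - c)
    rw [Real.exp_sub] at h2
    have h3 : Real.exp c * (f z - c + 1) ≤ Real.exp (f z) := by
      have := mul_le_mul_of_nonneg_left h2 (Real.exp_pos c).le
      rwa [mul_div_cancel₀ _ (Real.exp_pos c).ne'] at this
    linarith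

theorem vr_mul_Ev (hv : 0 < vr F E ξ) (f : (U → ℝ) → ℝ) :
    vr F E ξ * Ev F E ξ f = ∫ x in ham F E ξ, f (ext F ξ x) := by
  rw [Ev_eq]; field_simp

theorem lintegral_ham_ofReal {f : (U → ℝ) → ℝ} (hf : Bd f) (h0 : ∀ z, 0 ≤ f z) (hA : Anch F E)
    (hv : 0 < vr F E ξ) : ∫⁻ x in ham F E ξ, ENNReal.ofReal (f (ext F ξ x)) =
      ENNReal.ofReal (vr F E ξ * Ev F E ξ f) := by
  rw [vr_mul_Ev hv, ofReal_integral_eq_lintegral_ofReal (hf.integrableOn hA)
    (Filter.Eventually.of_forall fun x => h0 _)]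

/-! ### The exponential inequality -/

variable {ι : Type*} [DecidableEq ι]

/-- Weighted sum of the block observables. -/
def SX (s : Finset ι) (a : ι → ℝ) (f : ι → (U → ℝ) → ℝ) (z : U → ℝ) : ℝ := ∑ i ∈ s, a i * f i z

/-- Number of bad blocks. -/
def SN (s : Finset ι) (B : ι → Set (U → ℝ)) (z : U → ℝ) : ℝ :=
  ∑ i ∈ s, (B i).indicator (1 : (U → ℝ) → ℝ) z

theorem SN_nonneg (s : Finset ι) (B : ι → Set (U → ℝ)) (z : U → ℝ) : 0 ≤ SN s B z :=
  Finset.sum_nonneg fun i _ => indicator_nonneg (fun _ _ => zero_le_one) _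

theorem SN_le (s : Finset ι) (B : ι → Set (U → ℝ)) (z : U → ℝ) : SN s B z ≤ s.card := by
  refine (Finset.sum_le_card_nsmul _ _ 1 fun i _ => ?_).trans (by simp)
  by_cases h : z ∈ B i
  · rw [indicator_of_mem h]; simp
  · rw [indicator_of_notMem h]; simp

/-- A family of windows. -/
structure Fam (F : Finset U) (E : Finset (U × U)) (s : Finset ι) (Q : ι → Finset U)
    (A : ι → Set U) (f : ι → (U → ℝ) → ℝ) (B : ι → Set (U → ℝ)) (ε C : ℝ) : Prop where
  sys : Sys F E s Q A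
  win : ∀ i ∈ s, Win (Q i) (tch E (Q i)) (f i) (B i) ε C
  df : ∀ i ∈ s, DependsOn (f i) (A i)
  dB : ∀ i ∈ s, DependsOn (fun z => z ∈ B i) (A i)

variable {s : Finset ι} {Q : ι → Finset U} {A : ι → Set U} {f : ι → (U → ℝ) → ℝ}
  {B : ι → Set (U → ℝ)} {ε C : ℝ}

theorem ind_dep {A : Set U} {B : Set (U → ℝ)} (h : DependsOn (fun z => z ∈ B) A) :
    DependsOn (B.indicator (1 : (U → ℝ) → ℝ)) A := by
  intro z z' hz
  have h1 : (z ∈ B) = (z' ∈ B) := h hz
  by_cases h2 : z ∈ B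
  · rw [indicator_of_mem h2, indicator_of_mem (h1 ▸ h2)]; rfl
  · rw [indicator_of_notMem h2, indicator_of_notMem (fun h3 => h2 (h1 ▸ h3))]

theorem Fam.bdX (H : Fam F E s Q A f B ε C) (a : ι → ℝ) : Bd (SX s a f) :=
  Bd.sum fun i hi => (Bd.const_mul ⟨(H.win i hi).meas, 1, (H.win i hi).bdd⟩ _)

theorem Fam.bdN (H : Fam F E s Q A f B ε C) : Bd (SN s B) :=
  Bd.sum fun i hi => Bd.ind (H.win i hi).mB

/-- The weight `e^{t X - 2 t N}` as a product over the windows. -/
def PW (s : Finset ι) (a : ι → ℝ) (f : ι → (U → ℝ) → ℝ) (B : ι → Set (U → ℝ)) (t : ℝ)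
    (z : U → ℝ) : ℝ≥0∞ :=
  ∏ i ∈ s, ENNReal.ofReal (Real.exp (t * a i * f i z - 2 * t * (B i).indicator 1 z))

theorem PW_eq (a : ι → ℝ) (t : ℝ) (z : U → ℝ) :
    PW s a f B t z = ENNReal.ofReal (Real.exp (t * SX s a f z - 2 * t * SN s B z)) := by
  unfold PW
  rw [← ENNReal.ofReal_prod_of_nonneg fun i _ => (Real.exp_pos _).le, ← Real.exp_sum]
  congr 2
  unfold SX SN
  rw [Finset.mul_sum, Finset.mul_sum, ← Finset.sum_sub_distrib]
  exact Finset.sum_congr rfl fun i _ => by ring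

theorem Fam.bdE (H : Fam F E s Q A f B ε C) (a : ι → ℝ) (t : ℝ) :
    Bd fun z => Real.exp (t * SX s a f z - 2 * t * SN s B z) :=
  (((H.bdX a).const_mul t).sub (H.bdN.const_mul (2 * t))).exp

theorem Fam.measurable_PW (H : Fam F E s Q A f B ε C) (a : ι → ℝ) (t : ℝ) :
    Measurable (PW s a f B t) := by
  have : PW s a f B t = fun z =>
      ENNReal.ofReal (Real.exp (t * SX s a f z - 2 * t * SN s B z)) := by
    funext z; exact PW_eq a t z
  rw [this]
  exact ENNReal.measurable_ofReal.comp (H.bdE a t).meas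

theorem Fam.dep_PW (H : Fam F E s Q A f B ε C) (a : ι → ℝ) (t : ℝ) {D : Set U}
    (hD : ∀ i ∈ s, A i ⊆ D) : DependsOn (PW s a f B t) D := by
  refine dep_prod fun i hi => dep_mono (A := A i) ?_ (hD i hi)
  intro z z' hz
  show ENNReal.ofReal _ = ENNReal.ofReal _
  rw [H.df i hi hz, ind_dep (H.dB i hi) hz]

theorem Fam.J_eq (H : Fam F E s Q A f B ε C) (hA : Anch F E) (hv : 0 < vr F E ξ) (a : ι → ℝ)
    (t : ℝ) :
    J F (fun z => hI E z * PW s a f B t z) ξ =
      ENNReal.ofReal (vr F E ξ * Ev F E ξ fun z => Real.exp (t * SX s a f z - 2 * t * SN s B z)) := by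
  rw [J_hI_mul, ← lintegral_ham_ofReal (H.bdE a t) (fun z => (Real.exp_pos _).le) hA hv]
  exact lintegral_congr fun x => PW_eq a t _

/-- The exponential inequality, `ℝ≥0∞` form (no positivity assumption). -/
theorem Fam.J_two (H : Fam F E s Q A f B ε C) {a : ι → ℝ} (ha : ∀ i ∈ s, |a i| ≤ 1) {t : ℝ}
    (ht0 : 0 ≤ t) (ht1 : t ≤ 1) (htC : t * C ≤ 2) (hε : 0 ≤ ε) (ξ η : U → ℝ) :
    J F (fun z => hI E z * PW s a f B t z) ξ *
      J F (fun z => hI E z * PW s (fun i => -a i) f B t z) η ≤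
      ENNReal.ofReal (Real.exp (s.card * (t * ε + 2 * t ^ 2))) *
        volume (ham F E (mid ξ η)) ^ 2 := by
  have hm : ∀ (b : ι → ℝ), ∀ i ∈ s, Measurable fun z : U → ℝ =>
      ENNReal.ofReal (Real.exp (t * b i * f i z - 2 * t * (B i).indicator 1 z)) := by
    intro b i hi
    refine ENNReal.measurable_ofReal.comp (Real.measurable_exp.comp ?_)
    exact ((H.win i hi).meas.const_mul _).sub
      ((measurable_one.indicator (H.win i hi).mB).const_mul _)
  have hd : ∀ (b : ι → ℝ), ∀ i ∈ s, DependsOn (fun z : U → ℝ =>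
      ENNReal.ofReal (Real.exp (t * b i * f i z - 2 * t * (B i).indicator 1 z))) (A i) := by
    intro b i hi z z' hz
    show ENNReal.ofReal _ = ENNReal.ofReal _
    rw [H.df i hi hz, ind_dep (H.dB i hi) hz]
  have key := H.sys.tens (p := fun i z => ENNReal.ofReal (Real.exp (t * a i * f i z -
      2 * t * (B i).indicator 1 z)))
    (q := fun i z => ENNReal.ofReal (Real.exp (t * (-a i) * f i z -
      2 * t * (B i).indicator 1 z))) (r := fun _ _ => 1) (hm a) (hm fun i => -a i)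
    (fun _ _ => measurable_const) (hd a) (hd fun i => -a i) (fun _ _ => fun _ _ _ => rfl)
    (fun _ => ENNReal.ofReal (Real.exp (t * ε + 2 * t ^ 2))) ?_ ξ η
  · have e1 : J F (fun z => hI E z * ∏ i ∈ s, (fun (_ : ι) (_ : U → ℝ) => (1 : ℝ≥0∞)) i z)
        (mid ξ η) = volume (ham F E (mid ξ η)) := by
      rw [volume_ham]
      refine J_congr' fun x => ?_
      simp
    rw [e1, Finset.prod_const, ← ENNReal.ofReal_pow (Real.exp_pos _).le,
      ← Real.exp_nat_mul] at key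
    exact key
  · intro i hi z z'
    have h3 := (H.win i hi).two (a := a i) (ha i hi) ht0 ht1 htC hε z z'
    have e1 : J (Q i) (fun z => hI (tch E (Q i)) z *
        (fun (_ : ι) (_ : U → ℝ) => (1 : ℝ≥0∞)) i z) (mid z z') =
        volume (ham (Q i) (tch E (Q i)) (mid z z')) := by
      rw [volume_ham]
      refine J_congr' fun x => ?_
      simp
    rw [e1]
    exact h3

theorem Fam.two_exp (H : Fam F E s Q A f B ε C) (hA : Anch F E) (h1 : 0 < vr F E ξ)
    (h2 : 0 < vr F E η) {a : ι → ℝ} (ha : ∀ i ∈ s, |a i| ≤ 1) {t : ℝ} (ht0 : 0 ≤ t) (ht1 : t ≤ 1)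
    (htC : t * C ≤ 2) (hε : 0 ≤ ε) :
    (Ev F E ξ fun z => Real.exp (t * SX s a f z - 2 * t * SN s B z)) *
      (Ev F E η fun z => Real.exp (-(t * SX s a f z) - 2 * t * SN s B z)) ≤
      Real.exp (s.card * (t * ε + 2 * t ^ 2) + 2 * Dl F E ξ η) := by
  have key := H.J_two ha ht0 ht1 htC hε ξ η
  rw [H.J_eq hA h1, H.J_eq hA h2 (fun i => -a i), ← ofReal_vr hA, ← ENNReal.ofReal_pow vr_nonneg,
      ← ENNReal.ofReal_mul (mul_nonneg h1.le (Ev_nonneg fun z => (Real.exp_pos _).le)),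
      ← exp_two_Dl hA h1 h2, ← ENNReal.ofReal_mul (Real.exp_pos _).le] at key
  rw [ENNReal.ofReal_le_ofReal_iff (by positivity)] at key
  have e2 : ∀ z : U → ℝ, SX s (fun i => -a i) f z = -SX s a f z := by
    intro z
    unfold SX
    rw [← Finset.sum_neg_distrib]
    exact Finset.sum_congr rfl fun i _ => by ring
  have e3 : (fun z : U → ℝ => Real.exp (t * SX s (fun i => -a i) f z - 2 * t * SN s B z)) =
      fun z => Real.exp (-(t * SX s a f z) - 2 * t * SN s B z) := by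
    funext z; rw [e2]; congr 1; ring
  rw [e3] at key
  have hpos : 0 < vr F E ξ * vr F E η := mul_pos h1 h2
  refine le_of_mul_le_mul_left ?_ hpos
  calc _ = vr F E ξ * (Ev F E ξ fun z => Real.exp (t * SX s a f z - 2 * t * SN s B z)) *
        (vr F E η * Ev F E η fun z => Real.exp (-(t * SX s a f z) - 2 * t * SN s B z)) := by ring
    _ ≤ _ := key
    _ = _ := by rw [Real.exp_add]; ring

/-- **Comparison of means.** -/
theorem Fam.mean_le (H : Fam F E s Q A f B ε C) (hA : Anch F E) (h1 : 0 < vr F E ξ)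
    (h2 : 0 < vr F E η) {a : ι → ℝ} (ha : ∀ i ∈ s, |a i| ≤ 1) {t : ℝ} (ht0 : 0 < t) (ht1 : t ≤ 1)
    (htC : t * C ≤ 2) (hε : 0 ≤ ε) :
    |Ev F E ξ (SX s a f) - Ev F E η (SX s a f)| ≤
      s.card * (ε + 2 * t) + 2 / t * Dl F E ξ η + 2 * Ev F E ξ (SN s B) + 2 * Ev F E η (SN s B) := by
  have key : ∀ (b : ι → ℝ), (∀ i ∈ s, |b i| ≤ 1) →
      Ev F E ξ (SX s b f) - Ev F E η (SX s b f) ≤
      s.card * (ε + 2 * t) + 2 / t * Dl F E ξ η + 2 * Ev F E ξ (SN s B) + 2 * Ev F E η (SN s B) := by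
    intro b hb
    have h3 := H.two_exp hA h1 h2 hb ht0.le ht1 htC hε
    have b1 : Bd fun z : U → ℝ => t * SX s b f z - 2 * t * SN s B z :=
      ((H.bdX b).const_mul t).sub (H.bdN.const_mul (2 * t))
    have b2 : Bd fun z : U → ℝ => -(t * SX s b f z) - 2 * t * SN s B z :=
      ((H.bdX b).const_mul t).neg.sub (H.bdN.const_mul (2 * t))
    have j1 := exp_Ev_le (ξ := ξ) b1 hA h1
    have j2 := exp_Ev_le (ξ := η) b2 hA h2
    have h4 : Real.exp (Ev F E ξ (fun z => t * SX s b f z - 2 * t * SN s B z) +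
        Ev F E η fun z => -(t * SX s b f z) - 2 * t * SN s B z) ≤
        Real.exp (s.card * (t * ε + 2 * t ^ 2) + 2 * Dl F E ξ η) := by
      rw [Real.exp_add]
      exact (mul_le_mul j1 j2 (Real.exp_pos _).le (Ev_nonneg fun z => (Real.exp_pos _).le)).trans h3
    have h5 := Real.exp_le_exp.mp h4
    rw [Ev_sub ((H.bdX b).const_mul t) (H.bdN.const_mul (2 * t)) hA h1,
      Ev_sub ((H.bdX b).const_mul t).neg (H.bdN.const_mul (2 * t)) hA h2, Ev_neg, Ev_const_mul,
      Ev_const_mul, Ev_const_mul, Ev_const_mul] at h5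
    have h6 : t * (Ev F E ξ (SX s b f) - Ev F E η (SX s b f)) ≤
        t * (s.card * (ε + 2 * t) + 2 / t * Dl F E ξ η + 2 * Ev F E ξ (SN s B) +
          2 * Ev F E η (SN s B)) := by
      have h7 : t * (2 / t * Dl F E ξ η) = 2 * Dl F E ξ η := by field_simp
      nlinarith
    exact le_of_mul_le_mul_left h6 ht0
  rw [abs_le]
  constructor
  · have h3 := key (fun i => -a i) fun i hi => by rw [abs_neg]; exact ha i hi
    have e2 : SX s (fun i => -a i) f = fun z => -SX s a f z := by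
      funext z
      unfold SX
      rw [← Finset.sum_neg_distrib]
      exact Finset.sum_congr rfl fun i _ => by ring
    rw [e2, Ev_neg, Ev_neg] at h3
    linarith
  · exact key a ha

/-- Exponential moments of the centred sum. -/
theorem Fam.exp_le (H : Fam F E s Q A f B ε C) (hA : Anch F E) (h1 : 0 < vr F E ξ)
    {a : ι → ℝ} (ha : ∀ i ∈ s, |a i| ≤ 1) {t : ℝ} (ht0 : 0 ≤ t) (ht1 : t ≤ 1)
    (htC : t * C ≤ 2) (hε : 0 ≤ ε) :
    (Ev F E ξ fun z => Real.exp (t * (SX s a f z - Ev F E ξ (SX s a f)) - 2 * t * SN s B z)) ≤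
      Real.exp (s.card * (t * ε + 2 * t ^ 2) + 2 * t * Ev F E ξ (SN s B)) := by
  have h3 := H.two_exp hA h1 h1 ha ht0 ht1 htC hε
  have hD : Dl F E ξ ξ = 0 := by unfold Dl; rw [mid_self]; ring
  rw [hD, mul_zero, add_zero] at h3
  have b2 : Bd fun z : U → ℝ => -(t * SX s a f z) - 2 * t * SN s B z :=
    ((H.bdX a).const_mul t).neg.sub (H.bdN.const_mul (2 * t))
  have j2 := exp_Ev_le (ξ := ξ) b2 hA h1
  rw [Ev_sub ((H.bdX a).const_mul t).neg (H.bdN.const_mul (2 * t)) hA h1, Ev_neg, Ev_const_mul,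
      Ev_const_mul] at j2
  set m := Ev F E ξ (SX s a f) with hm
  set N := Ev F E ξ (SN s B) with hN
  have e1 : (fun z : U → ℝ => Real.exp (t * (SX s a f z - m) - 2 * t * SN s B z)) =
      fun z => Real.exp (-(t * m)) * Real.exp (t * SX s a f z - 2 * t * SN s B z) := by
    funext z; rw [← Real.exp_add]; congr 1; ring
  rw [e1, Ev_const_mul]
  set I := Ev F E ξ fun z => Real.exp (t * SX s a f z - 2 * t * SN s B z) with hI'
  have hI0 : 0 ≤ I := Ev_nonneg fun z => (Real.exp_pos _).le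
  have h4 : I * Real.exp (-(t * m) - 2 * t * N) ≤ Real.exp (s.card * (t * ε + 2 * t ^ 2)) :=
    (mul_le_mul_of_nonneg_left j2 hI0).trans h3
  calc Real.exp (-(t * m)) * I
      = I * Real.exp (-(t * m) - 2 * t * N) * Real.exp (2 * t * N) := by
        rw [mul_assoc, ← Real.exp_add, mul_comm]; congr 2; ring
    _ ≤ Real.exp (s.card * (t * ε + 2 * t ^ 2)) * Real.exp (2 * t * N) :=
        mul_le_mul_of_nonneg_right h4 (Real.exp_pos _).le
    _ = _ := by rw [Real.exp_add]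

/-- **Concentration**: one-sided tail. -/
theorem Fam.tail_le (H : Fam F E s Q A f B ε C) (hA : Anch F E) (h1 : 0 < vr F E ξ)
    {a : ι → ℝ} (ha : ∀ i ∈ s, |a i| ≤ 1) {t : ℝ} (ht0 : 0 ≤ t) (ht1 : t ≤ 1)
    (htC : t * C ≤ 2) (hε : 0 ≤ ε) (u v : ℝ) :
    (hamP F E ξ).real {x | u ≤ SX s a f (ext F ξ x) - Ev F E ξ (SX s a f) ∧
        SN s B (ext F ξ x) ≤ v} ≤
      Real.exp (-(t * u) + 2 * t * v + s.card * (t * ε + 2 * t ^ 2) +
        2 * t * Ev F E ξ (SN s B)) := by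
  have hP := isProb (ξ := ξ) hA h1
  set m := Ev F E ξ (SX s a f) with hm
  set D : Set (U → ℝ) := {z | u ≤ SX s a f z - m ∧ SN s B z ≤ v} with hD
  have hDm : MeasurableSet D :=
    (measurableSet_le measurable_const ((H.bdX a).meas.sub_const m)).inter
      (measurableSet_le H.bdN.meas measurable_const)
  have e1 : (hamP F E ξ).real {x | u ≤ SX s a f (ext F ξ x) - m ∧ SN s B (ext F ξ x) ≤ v} =
      Ev F E ξ (D.indicator 1) := by
    have e2 : {x : F → ℝ | u ≤ SX s a f (ext F ξ x) - m ∧ SN s B (ext F ξ x) ≤ v} =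
        (fun x : F → ℝ => ext F ξ x) ⁻¹' D := rfl
    rw [e2]
    unfold Ev
    have e3 : (fun x : F → ℝ => D.indicator (1 : (U → ℝ) → ℝ) (ext F ξ x)) =
        ((fun x : F → ℝ => ext F ξ x) ⁻¹' D).indicator 1 := by
      funext x; rfl
    rw [e3, integral_indicator_one (measurable_ext F ξ hDm)]
  rw [e1]
  have h3 := H.exp_le (ξ := ξ) hA h1 ha ht0 ht1 htC hε
  have b1 : Bd fun z : U → ℝ => Real.exp (t * (SX s a f z - m) - 2 * t * SN s B z) :=
    ((((H.bdX a).sub (Bd.const m)).const_mul t).sub (H.bdN.const_mul (2 * t))).exp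
  have h4 := Ev_mono (ξ := ξ) (Bd.ind hDm) (b1.const_mul (Real.exp (-(t * u) + 2 * t * v))) hA h1 ?_
  · rw [Ev_const_mul] at h4
    refine h4.trans ((mul_le_mul_of_nonneg_left h3 (Real.exp_pos _).le).trans (le_of_eq ?_))
    rw [← Real.exp_add]
    congr 1; ring
  · intro z
    by_cases hz : z ∈ D
    · rw [indicator_of_mem hz, ← Real.exp_add]
      show (1 : ℝ) ≤ _
      rw [← Real.exp_zero]
      refine Real.exp_le_exp.mpr ?_
      obtain ⟨h5, h6⟩ := hz
      nlinarith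
    · rw [indicator_of_notMem hz]; positivity

end Crest.Agent.R144.Lc279
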