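import Crest.Agent.R144.Lc3_279

/-!
R144 (S0197), helper279.  Block LC, file 4: boxes inside a domain, large deviation form.

* `J_half` : scaling of the heights;
* `vol_le_zero` : zero data maximise the volume;
* `Fam.box_le` : one box with windows: `∫ e^{tX-2tN}` over the box with data `z` is at most
  `exp (n (tε+2t²) + t X̄ + 2 t N̄) * vol (ham Λ (z/2))`, `X̄, N̄` = expectations for zero data;
* `Lev` : two-level system (boxes, windows inside the boxes);
* `Lev.ld`, `Lev.tail` : large deviation estimate for a domain with arbitrary data.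
-/

set_option autoImplicit false
set_option linter.unusedSectionVars false
set_option linter.unusedVariables false

open MeasureTheory Set
open scoped ENNReal

noncomputable section

namespace Crest.Agent.R144.Lc279

open Crest.Agent.R144.Ham560

variable {U : Type*} [DecidableEq U] {F : Finset U} {E : Finset (U × U)} {ξ η : U → ℝ}

theorem ext_half (x : F → ℝ) : ext F ((1 / 2 : ℝ) • ξ) ((1 / 2 : ℝ) • x) =
    (1 / 2 : ℝ) • ext F ξ x := by
  funext u
  by_cases hu : u ∈ F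
  · rw [ext_mem hu, Pi.smul_apply, Pi.smul_apply, ext_mem hu]
  · rw [ext_notMem hu, Pi.smul_apply, Pi.smul_apply, ext_notMem hu]

theorem lintegral_half {ι : Type*} [Fintype ι] {G : (ι → ℝ) → ℝ≥0∞} (hG : Measurable G) :
    ∫⁻ x : ι → ℝ, G ((1 / 2 : ℝ) • x) = 2 ^ Fintype.card ι * ∫⁻ x, G x := by
  have h1 := Measure.map_addHaar_smul (volume : Measure (ι → ℝ)) (r := (1 / 2 : ℝ)) (by norm_num)
  have h2 : ∫⁻ x : ι → ℝ, G ((1 / 2 : ℝ) • x) =
      ∫⁻ y, G y ∂(Measure.map (fun x : ι → ℝ => (1 / 2 : ℝ) • x) volume) :=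
    (lintegral_map hG (measurable_const_smul _)).symm
  rw [h2]
  have h3 : Measure.map (fun x : ι → ℝ => (1 / 2 : ℝ) • x) volume =
      ENNReal.ofReal |((1 / 2 : ℝ) ^ Module.finrank ℝ (ι → ℝ))⁻¹| • volume := h1
  rw [h3, lintegral_smul_measure, Module.finrank_fintype_fun_eq_card, smul_eq_mul]
  congr 1
  rw [abs_of_pos (by positivity), ← inv_pow]
  have : ((1 / 2 : ℝ))⁻¹ = 2 := by norm_num
  rw [this, ENNReal.ofReal_pow (by norm_num)]
  norm_num

theorem J_half {g : (U → ℝ) → ℝ≥0∞} (hg : Measurable g) (ξ : U → ℝ) :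
    J F (fun z => g ((1 / 2 : ℝ) • z)) ξ = 2 ^ F.card * J F g ((1 / 2 : ℝ) • ξ) := by
  unfold J
  have h := lintegral_half (ι := F) (G := fun x => g (ext F ((1 / 2 : ℝ) • ξ) x))
    (hg.comp (measurable_ext F _))
  rw [Fintype.card_coe] at h
  rw [← h]
  exact lintegral_congr fun x => by rw [ext_half]

theorem vol_ham_neg : volume (ham F E (-ξ)) = volume (ham F E ξ) := by
  rw [← vol_neg (ham F E ξ)]
  congr 1
  ext x
  rw [Set.mem_neg]
  constructor
  · intro h
    have := ham_neg h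
    rwa [neg_neg] at this
  · intro h
    have := ham_neg h
    rwa [neg_neg] at this

/-- Zero data maximise the volume. -/
theorem vol_le_zero (ξ : U → ℝ) : volume (ham F E ξ) ≤ volume (ham F E 0) := by
  have h := vol_mul_le_mid (F := F) (E := E) (ξ := ξ) (η := -ξ)
  have h0 : mid ξ (-ξ) = 0 := by
    funext u; rw [mid_apply]; simp
  rw [h0, vol_ham_neg, ← sq] at h
  exact (ENNReal.pow_le_pow_left_iff (by norm_num)).mp h

theorem vr_zero_pos (hA : Anch F E) : 0 < vr F E 0 :=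
  ENNReal.toReal_pos (volume_ham_ne_zero fun u => by simp) (volume_ham_lt_top hA).ne

theorem mid_zero (z : U → ℝ) : mid z 0 = (1 / 2 : ℝ) • z := by
  funext u; rw [mid_apply]; simp; ring

variable {ι : Type*} [DecidableEq ι] {s : Finset ι} {Q : ι → Finset U} {A : ι → Set U}
  {f : ι → (U → ℝ) → ℝ} {B : ι → Set (U → ℝ)} {ε C : ℝ}

theorem SX_neg (a : ι → ℝ) (z : U → ℝ) : SX s (fun i => -a i) f z = -SX s a f z := by
  unfold SX
  rw [← Finset.sum_neg_distrib]
  exact Finset.sum_congr rfl fun i _ => by ring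

/-- One box. -/
theorem Fam.box_le (H : Fam F E s Q A f B ε C) (hA : Anch F E) {a : ι → ℝ}
    (ha : ∀ i ∈ s, |a i| ≤ 1) {t : ℝ} (ht0 : 0 ≤ t) (ht1 : t ≤ 1) (htC : t * C ≤ 2) (hε : 0 ≤ ε)
    (z : U → ℝ) :
    J F (fun z => hI E z * PW s a f B t z) z ≤
      ENNReal.ofReal (Real.exp (s.card * (t * ε + 2 * t ^ 2) + t * Ev F E 0 (SX s a f) +
        2 * t * Ev F E 0 (SN s B))) * volume (ham F E ((1 / 2 : ℝ) • z)) := by
  have h0 := vr_zero_pos hA
  have key := H.J_two ha ht0 ht1 htC hε z 0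
  rw [mid_zero, H.J_eq hA h0 (fun i => -a i)] at key
  set I := J F (fun z => hI E z * PW s a f B t z) z with hI'
  set X0 := Ev F E 0 (SX s a f) with hX0
  set N0 := Ev F E 0 (SN s B) with hN0
  set c := s.card * (t * ε + 2 * t ^ 2) with hc
  have b2 : Bd fun z : U → ℝ => t * SX s (fun i => -a i) f z - 2 * t * SN s B z :=
    ((H.bdX _).const_mul t).sub (H.bdN.const_mul (2 * t))
  have j2 := exp_Ev_le (ξ := 0) b2 hA h0
  have e1 : Ev F E 0 (fun z : U → ℝ => t * SX s (fun i => -a i) f z - 2 * t * SN s B z) =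
      -(t * X0 + 2 * t * N0) := by
    rw [Ev_sub ((H.bdX _).const_mul t) (H.bdN.const_mul (2 * t)) hA h0, Ev_const_mul,
      Ev_const_mul]
    have : SX s (fun i => -a i) f = fun z => -SX s a f z := by funext z; exact SX_neg a z
    rw [this, Ev_neg]
    ring
  rw [e1] at j2
  have h1 : I * (ENNReal.ofReal (vr F E 0) * ENNReal.ofReal (Real.exp (-(t * X0 + 2 * t * N0)))) ≤
      ENNReal.ofReal (Real.exp c) * (volume (ham F E ((1 / 2 : ℝ) • z)) *
        ENNReal.ofReal (vr F E 0)) := by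
    calc _ ≤ I * ENNReal.ofReal (vr F E 0 * Ev F E 0 fun z =>
          Real.exp (t * SX s (fun i => -a i) f z - 2 * t * SN s B z)) := by
          gcongr
          rw [← ENNReal.ofReal_mul h0.le]
          exact ENNReal.ofReal_le_ofReal (mul_le_mul_of_nonneg_left j2 h0.le)
      _ ≤ _ := key
      _ ≤ _ := by
          rw [sq, ofReal_vr hA]
          exact mul_le_mul' le_rfl (mul_le_mul' le_rfl (vol_le_zero _))
  have hv0 : ENNReal.ofReal (vr F E 0) ≠ 0 := by
    rw [ne_eq, ENNReal.ofReal_eq_zero, not_le]; exact h0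
  have h2 : I * ENNReal.ofReal (Real.exp (-(t * X0 + 2 * t * N0))) ≤
      ENNReal.ofReal (Real.exp c) * volume (ham F E ((1 / 2 : ℝ) • z)) := by
    rw [← ENNReal.mul_le_mul_iff_left hv0 ENNReal.ofReal_ne_top]
    calc _ = I * (ENNReal.ofReal (vr F E 0) *
          ENNReal.ofReal (Real.exp (-(t * X0 + 2 * t * N0)))) := by ring
      _ ≤ _ := h1
      _ = _ := by ring
  have e2 : ENNReal.ofReal (Real.exp (-(t * X0 + 2 * t * N0))) *
      ENNReal.ofReal (Real.exp (t * X0 + 2 * t * N0)) = 1 := by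
    rw [← ENNReal.ofReal_mul (Real.exp_pos _).le, ← Real.exp_add]
    simp
  calc I = I * ENNReal.ofReal (Real.exp (-(t * X0 + 2 * t * N0))) *
        ENNReal.ofReal (Real.exp (t * X0 + 2 * t * N0)) := by rw [mul_assoc, e2, mul_one]
    _ ≤ ENNReal.ofReal (Real.exp c) * volume (ham F E ((1 / 2 : ℝ) • z)) *
        ENNReal.ofReal (Real.exp (t * X0 + 2 * t * N0)) := by gcongr
    _ = ENNReal.ofReal (Real.exp c) * ENNReal.ofReal (Real.exp (t * X0 + 2 * t * N0)) *
        volume (ham F E ((1 / 2 : ℝ) • z)) := by ring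
    _ = _ := by
        rw [← ENNReal.ofReal_mul (Real.exp_pos _).le, ← Real.exp_add]
        congr 3
        ring

/-! ### Two levels -/

variable {κ : Type*} [DecidableEq κ]

/-- Boxes `Λ j`, `j ∈ σ`, with windows `Q j i`, `i ∈ s j`, inside. -/
structure Lev (F : Finset U) (E : Finset (U × U)) (σ : Finset κ) (Λ : κ → Finset U)
    (D : κ → Set U) (s : κ → Finset ι) (Q : κ → ι → Finset U) (A : κ → ι → Set U)
    (f : κ → ι → (U → ℝ) → ℝ) (B : κ → ι → Set (U → ℝ)) (ε C : ℝ) : Prop where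
  out : Sys F E σ Λ D
  anch : ∀ j ∈ σ, Anch (Λ j) (tch E (Λ j))
  fam : ∀ j ∈ σ, Fam (Λ j) (tch E (Λ j)) (s j) (Q j) (A j) (f j) (B j) ε C
  sub : ∀ j ∈ σ, ∀ i ∈ s j, A j i ⊆ D j

variable {σ : Finset κ} {Λ : κ → Finset U} {D : κ → Set U} {s : κ → Finset ι}
  {Q : κ → ι → Finset U} {A : κ → ι → Set U} {f : κ → ι → (U → ℝ) → ℝ}
  {B : κ → ι → Set (U → ℝ)}

/-- Total observable. -/
def TX (σ : Finset κ) (s : κ → Finset ι) (a : κ → ι → ℝ) (f : κ → ι → (U → ℝ) → ℝ)
    (z : U → ℝ) : ℝ := ∑ j ∈ σ, SX (s j) (a j) (f j) z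

/-- Total number of bad windows. -/
def TN (σ : Finset κ) (s : κ → Finset ι) (B : κ → ι → Set (U → ℝ)) (z : U → ℝ) : ℝ :=
  ∑ j ∈ σ, SN (s j) (B j) z

/-- Number of windows. -/
def TC (σ : Finset κ) (s : κ → Finset ι) : ℝ := ∑ j ∈ σ, ((s j).card : ℝ)

/-- Reference value of the observable (zero data on the boxes). -/
def RX (E : Finset (U × U)) (σ : Finset κ) (Λ : κ → Finset U) (s : κ → Finset ι)
    (a : κ → ι → ℝ) (f : κ → ι → (U → ℝ) → ℝ) : ℝ :=
  ∑ j ∈ σ, Ev (Λ j) (tch E (Λ j)) 0 (SX (s j) (a j) (f j))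

/-- Reference value of the number of bad windows. -/
def RN (E : Finset (U × U)) (σ : Finset κ) (Λ : κ → Finset U) (s : κ → Finset ι)
    (B : κ → ι → Set (U → ℝ)) : ℝ :=
  ∑ j ∈ σ, Ev (Λ j) (tch E (Λ j)) 0 (SN (s j) (B j))

/-- **Large deviation form.** -/
theorem Lev.ld (H : Lev F E σ Λ D s Q A f B ε C) {a : κ → ι → ℝ}
    (ha : ∀ j ∈ σ, ∀ i ∈ s j, |a j i| ≤ 1) {t : ℝ} (ht0 : 0 ≤ t) (ht1 : t ≤ 1)
    (htC : t * C ≤ 2) (hε : 0 ≤ ε) (ξ : U → ℝ) :
    ∫⁻ x in ham F E ξ, ENNReal.ofReal (Real.exp (t * TX σ s a f (ext F ξ x) -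
        2 * t * TN σ s B (ext F ξ x))) ≤
      ENNReal.ofReal (Real.exp (TC σ s * (t * ε + 2 * t ^ 2) + t * RX E σ Λ s a f +
        2 * t * RN E σ Λ s B)) * (2 ^ (F \ σ.biUnion Λ).card * volume (ham F E 0)) := by
  set S := F \ σ.biUnion Λ with hS
  have e0 : ∫⁻ x in ham F E ξ, ENNReal.ofReal (Real.exp (t * TX σ s a f (ext F ξ x) -
        2 * t * TN σ s B (ext F ξ x))) =
      J F (fun z => hI E z * ∏ j ∈ σ, PW (s j) (a j) (f j) (B j) t z) ξ := by
    rw [J_hI_mul]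
    refine lintegral_congr fun x => ?_
    have : ∏ j ∈ σ, PW (s j) (a j) (f j) (B j) t (ext F ξ x) =
        ∏ j ∈ σ, ENNReal.ofReal (Real.exp (t * SX (s j) (a j) (f j) (ext F ξ x) -
          2 * t * SN (s j) (B j) (ext F ξ x))) :=
      Finset.prod_congr rfl fun j _ => PW_eq _ _ _
    rw [this, ← ENNReal.ofReal_prod_of_nonneg fun i _ => (Real.exp_pos _).le, ← Real.exp_sum]
    congr 2
    unfold TX TN
    rw [Finset.mul_sum, Finset.mul_sum, ← Finset.sum_sub_distrib]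
  rw [e0, H.out.J_eq _ (fun j hj => (H.fam j hj).measurable_PW _ _)
    (fun j hj => (H.fam j hj).dep_PW _ _ (H.sub j hj))]
  set cj : κ → ℝ := fun j => (s j).card * (t * ε + 2 * t ^ 2) +
    t * Ev (Λ j) (tch E (Λ j)) 0 (SX (s j) (a j) (f j)) +
    2 * t * Ev (Λ j) (tch E (Λ j)) 0 (SN (s j) (B j)) with hcj
  have hsum : ∑ j ∈ σ, cj j = TC σ s * (t * ε + 2 * t ^ 2) + t * RX E σ Λ s a f +
      2 * t * RN E σ Λ s B := by
    simp only [hcj, Finset.sum_add_distrib, TC, RX, RN, Finset.mul_sum, Finset.sum_mul]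
  set g : (U → ℝ) → ℝ≥0∞ := fun z => hI (far E (σ.biUnion Λ)) z *
    ∏ j ∈ σ, J (Λ j) (fun z => hI (tch E (Λ j)) z * 1) z with hg
  have hgm : Measurable g := (measurable_hI _).mul (Finset.measurable_prod _ fun j _ =>
    measurable_J ((measurable_hI _).mul measurable_const))
  have h1 : J S (fun z => hI (far E (σ.biUnion Λ)) z *
      ∏ j ∈ σ, J (Λ j) (fun z => hI (tch E (Λ j)) z * PW (s j) (a j) (f j) (B j) t z) z) ξ ≤
      J S (fun z => ENNReal.ofReal (Real.exp (∑ j ∈ σ, cj j)) * g ((1 / 2 : ℝ) • z)) ξ := by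
    refine J_mono fun x => ?_
    set z := ext S ξ x
    have h2 : ∏ j ∈ σ, J (Λ j) (fun z => hI (tch E (Λ j)) z * PW (s j) (a j) (f j) (B j) t z) z ≤
        ∏ j ∈ σ, (ENNReal.ofReal (Real.exp (cj j)) *
          J (Λ j) (fun z => hI (tch E (Λ j)) z * 1) ((1 / 2 : ℝ) • z)) := by
      refine Finset.prod_le_prod' fun j hj => ?_
      have h3 := (H.fam j hj).box_le (H.anch j hj) (ha j hj) ht0 ht1 htC hε z
      have e3 : J (Λ j) (fun z => hI (tch E (Λ j)) z * 1) ((1 / 2 : ℝ) • z) =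
          volume (ham (Λ j) (tch E (Λ j)) ((1 / 2 : ℝ) • z)) := by
        rw [volume_ham]; exact J_congr' fun x => mul_one _
      rw [e3]
      exact h3
    have h4 : hI (far E (σ.biUnion Λ)) z ≤ hI (far E (σ.biUnion Λ)) ((1 / 2 : ℝ) • z) := by
      by_cases hz : z ∈ HS (far E (σ.biUnion Λ))
      · have : (1 / 2 : ℝ) • z ∈ HS (far E (σ.biUnion Λ)) := by
          intro p hp
          have h5 := abs_le.mp (hz p hp)
          simp only [Pi.smul_apply, smul_eq_mul]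
          rw [abs_le]; constructor <;> linarith
        rw [hI_of_mem hz, hI_of_mem this]
      · rw [hI_of_notMem hz]; exact bot_le
    rw [Finset.prod_mul_distrib, ← ENNReal.ofReal_prod_of_nonneg fun i _ => (Real.exp_pos _).le,
      ← Real.exp_sum] at h2
    calc _ ≤ hI (far E (σ.biUnion Λ)) ((1 / 2 : ℝ) • z) *
          (ENNReal.ofReal (Real.exp (∑ j ∈ σ, cj j)) *
            ∏ j ∈ σ, J (Λ j) (fun z => hI (tch E (Λ j)) z * 1) ((1 / 2 : ℝ) • z)) :=
          mul_le_mul' h4 h2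
      _ = _ := by rw [hg]; ring
  refine h1.trans ?_
  have e4 : J S (fun z => ENNReal.ofReal (Real.exp (∑ j ∈ σ, cj j)) * g ((1 / 2 : ℝ) • z)) ξ =
      ENNReal.ofReal (Real.exp (∑ j ∈ σ, cj j)) * J S (fun z => g ((1 / 2 : ℝ) • z)) ξ := by
    unfold J
    exact lintegral_const_mul _ ((hgm.comp (measurable_const_smul _)).comp (measurable_ext _ _))
  rw [e4, J_half hgm, hsum]
  gcongr
  have e5 : J S g ((1 / 2 : ℝ) • ξ) = volume (ham F E ((1 / 2 : ℝ) • ξ)) := by
    have h6 := H.out.J_eq (fun _ _ => 1) (fun _ _ => measurable_const)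
      (fun _ _ => fun _ _ _ => rfl) ((1 / 2 : ℝ) • ξ)
    rw [← h6, volume_ham]
    refine J_congr' fun x => ?_
    simp
  rw [e5]
  exact vol_le_zero _

theorem Lev.bdX (H : Lev F E σ Λ D s Q A f B ε C) (a : κ → ι → ℝ) : Bd (TX σ s a f) :=
  Bd.sum fun j hj => (H.fam j hj).bdX _

theorem Lev.bdN (H : Lev F E σ Λ D s Q A f B ε C) : Bd (TN σ s B) :=
  Bd.sum fun j hj => (H.fam j hj).bdN

/-- Upper tail of the observable on the event of few bad windows. -/
theorem Lev.tail (H : Lev F E σ Λ D s Q A f B ε C) {a : κ → ι → ℝ}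
    (ha : ∀ j ∈ σ, ∀ i ∈ s j, |a j i| ≤ 1) {t : ℝ} (ht0 : 0 ≤ t) (ht1 : t ≤ 1)
    (htC : t * C ≤ 2) (hε : 0 ≤ ε) (ξ : U → ℝ) (u v : ℝ) :
    volume (ham F E ξ ∩ {x | u ≤ TX σ s a f (ext F ξ x) - RX E σ Λ s a f ∧
        TN σ s B (ext F ξ x) ≤ v}) ≤
      ENNReal.ofReal (Real.exp (-(t * u) + 2 * t * v + TC σ s * (t * ε + 2 * t ^ 2) +
        2 * t * RN E σ Λ s B)) * (2 ^ (F \ σ.biUnion Λ).card * volume (ham F E 0)) := by
  have key := H.ld ha ht0 ht1 htC hε ξ
  set R := RX E σ Λ s a f with hR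
  set c := TC σ s * (t * ε + 2 * t ^ 2) with hc
  set N := RN E σ Λ s B with hN
  set V : Set (F → ℝ) := {x | u ≤ TX σ s a f (ext F ξ x) - R ∧ TN σ s B (ext F ξ x) ≤ v} with hV
  have hVm : MeasurableSet V :=
    (measurableSet_le measurable_const (((H.bdX a).meas.comp (measurable_ext F ξ)).sub_const R)).inter
      (measurableSet_le ((H.bdN).meas.comp (measurable_ext F ξ)) measurable_const)
  have h1 : ENNReal.ofReal (Real.exp (t * (R + u) - 2 * t * v)) * volume (ham F E ξ ∩ V) ≤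
      ∫⁻ x in ham F E ξ, ENNReal.ofReal (Real.exp (t * TX σ s a f (ext F ξ x) -
        2 * t * TN σ s B (ext F ξ x))) := by
    rw [← setLIntegral_const]
    calc _ ≤ ∫⁻ x in ham F E ξ ∩ V, ENNReal.ofReal (Real.exp (t * TX σ s a f (ext F ξ x) -
        2 * t * TN σ s B (ext F ξ x))) := by
          refine setLIntegral_mono' (measurableSet_ham.inter hVm) fun x hx => ?_
          refine ENNReal.ofReal_le_ofReal (Real.exp_le_exp.mpr ?_)
          obtain ⟨_, h2, h3⟩ := hx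
          nlinarith
      _ ≤ _ := lintegral_mono_set inter_subset_left
  have h2 := h1.trans key
  set W : ℝ≥0∞ := 2 ^ (F \ σ.biUnion Λ).card * volume (ham F E 0) with hW
  have e1 : ENNReal.ofReal (Real.exp (-(t * (R + u) - 2 * t * v))) *
      ENNReal.ofReal (Real.exp (t * (R + u) - 2 * t * v)) = 1 := by
    rw [← ENNReal.ofReal_mul (Real.exp_pos _).le, ← Real.exp_add]
    simp
  calc volume (ham F E ξ ∩ V) = ENNReal.ofReal (Real.exp (-(t * (R + u) - 2 * t * v))) *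
        (ENNReal.ofReal (Real.exp (t * (R + u) - 2 * t * v)) * volume (ham F E ξ ∩ V)) := by
        rw [← mul_assoc, e1, one_mul]
    _ ≤ ENNReal.ofReal (Real.exp (-(t * (R + u) - 2 * t * v))) *
        (ENNReal.ofReal (Real.exp (c + t * R + 2 * t * N)) * W) := by gcongr
    _ = _ := by
        rw [← mul_assoc, ← ENNReal.ofReal_mul (Real.exp_pos _).le, ← Real.exp_add]
        congr 3
        ring

end Crest.Agent.R144.Lc279
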