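import Crest.Agent.R144.Lc4_279

/-!
R144 (S0197), helper279.  Block LC, file 5: mesoscopic large deviations (number of boxes in which the
box average of the observable deviates from its reference value).
-/

set_option autoImplicit false
set_option linter.unusedSectionVars false
set_option linter.unusedVariables false

open MeasureTheory Set
open scoped ENNReal

noncomputable section

namespace Crest.Agent.R144.Lc279

open Crest.Agent.R144.Ham560

variable {U : Type*} [DecidableEq U] {F : Finset U} {E : Finset (U × U)} {ξ η : U → ℝ}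
variable {ι : Type*} [DecidableEq ι] {κ : Type*} [DecidableEq κ] {ε C : ℝ}
variable {σ : Finset κ} {Λ : κ → Finset U} {D : κ → Set U} {s : κ → Finset ι}
  {Q : κ → ι → Finset U} {A : κ → ι → Set U} {f : κ → ι → (U → ℝ) → ℝ}
  {B : κ → ι → Set (U → ℝ)}

/-- Windows only in the boxes of `T`. -/
def sJ (T : Finset κ) (s : κ → Finset ι) (j : κ) : Finset ι := if j ∈ T then s j else ∅

theorem Lev.restrict (H : Lev F E σ Λ D s Q A f B ε C) (T : Finset κ) :
    Lev F E σ Λ D (sJ T s) Q A f B ε C := by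
  have hsub : ∀ j, sJ T s j ⊆ s j := by
    intro j; unfold sJ; split_ifs
    · exact subset_rfl
    · exact Finset.empty_subset _
  refine ⟨H.out, H.anch, fun j hj => ?_, fun j hj i hi => H.sub j hj i (hsub j hi)⟩
  have h := H.fam j hj
  exact ⟨⟨fun i hi => h.sys.sub i (hsub j hi), fun i hi => h.sys.QA i (hsub j hi),
    fun i hi k hk => h.sys.disj i (hsub j hi) k (hsub j hk),
    fun i hi => h.sys.edge i (hsub j hi)⟩, fun i hi => h.win i (hsub j hi),
    fun i hi => h.df i (hsub j hi), fun i hi => h.dB i (hsub j hi)⟩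

theorem sum_sJ {T : Finset κ} (hT : T ⊆ σ) (g : κ → Finset ι → ℝ) (h0 : ∀ j, g j ∅ = 0) :
    ∑ j ∈ σ, g j (sJ T s j) = ∑ j ∈ T, g j (s j) := by
  rw [← Finset.sum_subset hT]
  · exact Finset.sum_congr rfl fun j hj => by rw [sJ, if_pos hj]
  · intro j _ hj
    rw [sJ, if_neg hj, h0]

/-- Deviation in all boxes of `T`. -/
theorem Lev.joint (H : Lev F E σ Λ D s Q A f B ε C) {a : κ → ι → ℝ}
    (ha : ∀ j ∈ σ, ∀ i ∈ s j, |a j i| ≤ 1) {t : ℝ} (ht0 : 0 ≤ t) (ht1 : t ≤ 1)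
    (htC : t * C ≤ 2) (hε : 0 ≤ ε) (ξ : U → ℝ) {n : ℕ} (hn : ∀ j ∈ σ, (s j).card = n) {q0 : ℝ}
    (hq0 : ∀ j ∈ σ, Ev (Λ j) (tch E (Λ j)) 0 (SN (s j) (B j)) ≤ q0 * n) (u v : ℝ)
    {T : Finset κ} (hT : T ⊆ σ) :
    volume (ham F E ξ ∩ {x | ∀ j ∈ T, u * n ≤ SX (s j) (a j) (f j) (ext F ξ x) -
        Ev (Λ j) (tch E (Λ j)) 0 (SX (s j) (a j) (f j)) ∧ SN (s j) (B j) (ext F ξ x) ≤ v * n}) ≤
      ENNReal.ofReal (Real.exp (-(t * n * (u - 2 * v - ε - 2 * t - 2 * q0) * T.card))) *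
        (2 ^ (F \ σ.biUnion Λ).card * volume (ham F E 0)) := by
  have H' := H.restrict T
  have ha' : ∀ j ∈ σ, ∀ i ∈ sJ T s j, |a j i| ≤ 1 := by
    intro j hj i hi
    unfold sJ at hi
    split_ifs at hi with h
    · exact ha j hj i hi
    · simp at hi
  have key := H'.tail ha' ht0 ht1 htC hε ξ (u * n * T.card) (v * n * T.card)
  have eX : ∀ z, TX σ (sJ T s) a f z = ∑ j ∈ T, SX (s j) (a j) (f j) z := fun z =>
    sum_sJ hT (fun j w => SX w (a j) (f j) z) fun j => by simp [SX]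
  have eN : ∀ z, TN σ (sJ T s) B z = ∑ j ∈ T, SN (s j) (B j) z := fun z =>
    sum_sJ hT (fun j w => SN w (B j) z) fun j => by simp [SN]
  have eRX : RX E σ Λ (sJ T s) a f =
      ∑ j ∈ T, Ev (Λ j) (tch E (Λ j)) 0 (SX (s j) (a j) (f j)) :=
    sum_sJ hT (fun j w => Ev (Λ j) (tch E (Λ j)) 0 (SX w (a j) (f j))) fun j => by
      have : (SX ∅ (a j) (f j)) = fun _ : U → ℝ => (0 : ℝ) := by funext z; simp [SX]
      rw [this]
      simp [Ev]
  have eRN : RN E σ Λ (sJ T s) B = ∑ j ∈ T, Ev (Λ j) (tch E (Λ j)) 0 (SN (s j) (B j)) :=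
    sum_sJ hT (fun j w => Ev (Λ j) (tch E (Λ j)) 0 (SN w (B j))) fun j => by
      have : (SN ∅ (B j)) = fun _ : U → ℝ => (0 : ℝ) := by funext z; simp [SN]
      rw [this]
      simp [Ev]
  have eC : TC σ (sJ T s) = n * T.card := by
    unfold TC
    rw [sum_sJ hT (fun j w => (w.card : ℝ)) fun j => by simp]
    rw [Finset.sum_congr rfl fun j hj => by rw [hn j (hT hj)]]
    rw [Finset.sum_const, nsmul_eq_mul]; ring
  refine (measure_mono ?_).trans (key.trans ?_)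
  · rintro x ⟨hx, hx'⟩
    refine ⟨hx, ?_, ?_⟩
    · rw [eX, eRX, ← Finset.sum_sub_distrib]
      calc u * n * T.card = ∑ j ∈ T, u * n := by rw [Finset.sum_const, nsmul_eq_mul]; ring
        _ ≤ _ := Finset.sum_le_sum fun j hj => (hx' j hj).1
    · rw [eN]
      calc _ ≤ ∑ j ∈ T, v * n := Finset.sum_le_sum fun j hj => (hx' j hj).2
        _ = v * n * T.card := by rw [Finset.sum_const, nsmul_eq_mul]; ring
  · gcongr
    rw [eC, eRN]
    have h1 : ∑ j ∈ T, Ev (Λ j) (tch E (Λ j)) 0 (SN (s j) (B j)) ≤ q0 * n * T.card := by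
      calc _ ≤ ∑ j ∈ T, q0 * n := Finset.sum_le_sum fun j hj => hq0 j (hT hj)
        _ = _ := by rw [Finset.sum_const, nsmul_eq_mul]; ring
    nlinarith

/-- Number of boxes of `σ` in which `z` lies in `P j`. -/
def cnt (σ : Finset κ) (P : κ → Set (U → ℝ)) (z : U → ℝ) : ℕ := {j | j ∈ σ ∧ z ∈ P j}.ncard

theorem cnt_eq (σ : Finset κ) (P : κ → Set (U → ℝ)) (z : U → ℝ) [DecidablePred fun j => z ∈ P j] :
    cnt σ P z = (σ.filter fun j => z ∈ P j).card := by
  unfold cnt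
  rw [← Set.ncard_coe_finset]
  congr 1
  ext j
  simp

theorem cnt_mono {P P' : κ → Set (U → ℝ)} (h : ∀ j ∈ σ, P j ⊆ P' j) (z : U → ℝ) :
    cnt σ P z ≤ cnt σ P' z := by
  classical
  rw [cnt_eq, cnt_eq]
  refine Finset.card_le_card fun j hj => ?_
  rw [Finset.mem_filter] at hj ⊢
  exact ⟨hj.1, h j hj.1 hj.2⟩

theorem cnt_union_le {P P' : κ → Set (U → ℝ)} (z : U → ℝ) :
    cnt σ (fun j => P j ∪ P' j) z ≤ cnt σ P z + cnt σ P' z := by
  classical
  rw [cnt_eq, cnt_eq, cnt_eq]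
  refine (Finset.card_le_card ?_).trans (Finset.card_union_le _ _)
  intro j hj
  rw [Finset.mem_filter] at hj
  rw [Finset.mem_union, Finset.mem_filter, Finset.mem_filter]
  rcases hj.2 with h | h
  · exact Or.inl ⟨hj.1, h⟩
  · exact Or.inr ⟨hj.1, h⟩

theorem cnt_iUnion_le {γ : Type*} (c : Finset γ) {P : γ → κ → Set (U → ℝ)} (z : U → ℝ) :
    cnt σ (fun j => ⋃ g ∈ c, P g j) z ≤ ∑ g ∈ c, cnt σ (P g) z := by
  classical
  induction c using Finset.induction with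
  | empty =>
    rw [Finset.sum_empty, nonpos_iff_eq_zero, cnt_eq, Finset.card_eq_zero]
    simp
  | @insert g c hg ih =>
    rw [Finset.sum_insert hg]
    have e : (fun j => ⋃ g' ∈ insert g c, P g' j) = fun j => P g j ∪ ⋃ g' ∈ c, P g' j := by
      funext j; rw [Finset.set_biUnion_insert]
    rw [e]
    exact (cnt_union_le z).trans (Nat.add_le_add_left ih _)

/-- **Mesoscopic large deviations**, one-sided: number of boxes with a deviation and few bad
windows. -/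
theorem Lev.meso (H : Lev F E σ Λ D s Q A f B ε C) {a : κ → ι → ℝ}
    (ha : ∀ j ∈ σ, ∀ i ∈ s j, |a j i| ≤ 1) {t : ℝ} (ht0 : 0 ≤ t) (ht1 : t ≤ 1)
    (htC : t * C ≤ 2) (hε : 0 ≤ ε) (ξ : U → ℝ) {n : ℕ} (hn : ∀ j ∈ σ, (s j).card = n) {q0 : ℝ}
    (hq0 : ∀ j ∈ σ, Ev (Λ j) (tch E (Λ j)) 0 (SN (s j) (B j)) ≤ q0 * n)
    {u v : ℝ} (hr : 0 ≤ u - 2 * v - ε - 2 * t - 2 * q0) (k : ℕ) :
    volume (ham F E ξ ∩ {x | k ≤ cnt σ (fun j => {z | u * n ≤ SX (s j) (a j) (f j) z -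
        Ev (Λ j) (tch E (Λ j)) 0 (SX (s j) (a j) (f j)) ∧ SN (s j) (B j) z ≤ v * n})
          (ext F ξ x)}) ≤
      2 ^ σ.card * ENNReal.ofReal (Real.exp (-(t * n * (u - 2 * v - ε - 2 * t - 2 * q0) * k))) *
        2 ^ (F \ σ.biUnion Λ).card * volume (ham F E 0) := by
  classical
  set Cj : κ → Set (U → ℝ) := fun j => {z | u * n ≤ SX (s j) (a j) (f j) z -
    Ev (Λ j) (tch E (Λ j)) 0 (SX (s j) (a j) (f j)) ∧ SN (s j) (B j) z ≤ v * n} with hCj
  set ρ := u - 2 * v - ε - 2 * t - 2 * q0 with hρ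
  have hsub : ham F E ξ ∩ {x | k ≤ cnt σ Cj (ext F ξ x)} ⊆
      (⋃ T ∈ σ.powerset.filter (fun T => k ≤ T.card),
        (ham F E ξ ∩ {x | ∀ j ∈ T, u * n ≤ SX (s j) (a j) (f j) (ext F ξ x) -
        Ev (Λ j) (tch E (Λ j)) 0 (SX (s j) (a j) (f j)) ∧
          SN (s j) (B j) (ext F ξ x) ≤ v * n})) := by
    rintro x ⟨hx, h3⟩
    have h3' : k ≤ cnt σ Cj (ext F ξ x) := h3
    rw [cnt_eq] at h3'
    simp only [mem_iUnion]
    refine ⟨σ.filter fun j => ext F ξ x ∈ Cj j, Finset.mem_filter.mpr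
      ⟨Finset.mem_powerset.mpr (Finset.filter_subset _ _), h3'⟩, hx, fun j hj => ?_⟩
    exact (Finset.mem_filter.mp hj).2
  refine (measure_mono hsub).trans ?_
  refine (measure_biUnion_finset_le _ _).trans ?_
  have h1 : ∀ T ∈ σ.powerset.filter (fun T => k ≤ T.card),
      volume (ham F E ξ ∩ {x | ∀ j ∈ T, u * n ≤ SX (s j) (a j) (f j) (ext F ξ x) -
        Ev (Λ j) (tch E (Λ j)) 0 (SX (s j) (a j) (f j)) ∧
          SN (s j) (B j) (ext F ξ x) ≤ v * n}) ≤
      ENNReal.ofReal (Real.exp (-(t * n * ρ * k))) *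
        (2 ^ (F \ σ.biUnion Λ).card * volume (ham F E 0)) := by
    intro T hT
    rw [Finset.mem_filter, Finset.mem_powerset] at hT
    refine (H.joint ha ht0 ht1 htC hε ξ hn hq0 u v hT.1).trans ?_
    gcongr ENNReal.ofReal (Real.exp ?_) * _
    have h2 : (k : ℝ) ≤ T.card := by exact_mod_cast hT.2
    have h3 : 0 ≤ t * n * ρ := by positivity
    nlinarith
  refine (Finset.sum_le_card_nsmul _ _ _ h1).trans ?_
  rw [nsmul_eq_mul]
  have h2 : (((σ.powerset.filter fun T => k ≤ T.card).card : ℕ) : ℝ≥0∞) ≤ 2 ^ σ.card := by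
    have : (σ.powerset.filter fun T => k ≤ T.card).card ≤ 2 ^ σ.card := by
      rw [← Finset.card_powerset]; exact Finset.card_filter_le _ _
    exact_mod_cast this
  calc _ ≤ 2 ^ σ.card * (ENNReal.ofReal (Real.exp (-(t * n * ρ * k))) *
        (2 ^ (F \ σ.biUnion Λ).card * volume (ham F E 0))) := mul_le_mul' h2 le_rfl
    _ = _ := by ring

end Crest.Agent.R144.Lc279
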