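import Crest.Agent.R144.Lc6_279
import Crest.Agent.R144.Ham6_560

/-!
R144 (S0197), helper279.  Block LC, file 7: charts, boxes and the windows inside a box.
-/

set_option autoImplicit false
set_option linter.unusedSectionVars false
set_option linter.unusedVariables false

open MeasureTheory Set
open scoped ENNReal

noncomputable section

namespace Crest.Agent.R144.Lc279

open Crest.Agent.R144.Ham560
open Crest.Agent.R144.Lw425 (hd hd_comm hd_le_iff mem_hball hball mem_inn inn mem_sph sph hd_self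
  hd_triangle hd_pos hd_adj LObs)

variable {U : Type*} [DecidableEq U] {F : Finset U} {E : Finset (U × U)}

/-! ### Charts -/

/-- `e` identifies the lattice system on `W` with the system of the edges of `E` touching
`W.image e`. -/
structure Ch (E : Finset (U × U)) (W : Finset P2) (e : P2 → U) (D : Set P2) : Prop where
  sub : (W : Set P2) ⊆ D
  inj : Set.InjOn e D
  cl : ∀ v ∈ W, ∀ w, hd v w = 1 → w ∈ D
  edge : ∀ v ∈ W, ∀ w, hd v w = 1 → (e v, e w) ∈ E ∨ (e w, e v) ∈ E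
  edge' : ∀ p ∈ E, (p.1 ∈ W.image e ∨ p.2 ∈ W.image e) →
    ∃ v w, hd v w = 1 ∧ (v ∈ W ∨ w ∈ W) ∧ p = (e v, e w)

variable {W : Finset P2} {e : P2 → U} {D : Set P2}

theorem Ch.ends (h : Ch E W e D) {v w : P2} (hvw : hd v w = 1) (hW : v ∈ W ∨ w ∈ W) :
    v ∈ D ∧ w ∈ D := by
  rcases hW with h1 | h1
  · exact ⟨h.sub h1, h.cl v h1 w hvw⟩
  · exact ⟨h.cl w h1 v (by rw [hd_comm]; exact hvw), h.sub h1⟩

theorem Ch.image_mem (h : Ch E W e D) {v : P2} (hv : v ∈ D) : e v ∈ W.image e ↔ v ∈ W := by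
  constructor
  · intro h1
    obtain ⟨c, hc, hcb⟩ := Finset.mem_image.mp h1
    exact h.inj (h.sub hc) hv hcb ▸ hc
  · exact Finset.mem_image_of_mem e

theorem Ch.place (h : Ch E W e D) : Place W (lat W) (tch E (W.image e)) e D where
  sub := h.sub
  inj := h.inj
  edge := by
    intro p hp
    rw [mem_lat] at hp
    exact h.ends hp.1 hp.2
  lip := by
    intro z
    constructor
    · intro hz p hp
      rw [mem_lat] at hp
      obtain ⟨h1, h2⟩ := hp
      have hD := h.ends h1 h2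
      have hE : (e p.1, e p.2) ∈ E ∨ (e p.2, e p.1) ∈ E := by
        rcases h2 with h2 | h2
        · exact h.edge _ h2 _ h1
        · exact (h.edge _ h2 _ (by rw [hd_comm]; exact h1)).symm
      have hT : e p.1 ∈ W.image e ∨ e p.2 ∈ W.image e :=
        h2.imp (Finset.mem_image_of_mem e) (Finset.mem_image_of_mem e)
      rcases hE with hE | hE
      · exact hz _ (mem_tch.mpr ⟨hE, hT⟩)
      · rw [abs_sub_comm]
        exact hz _ (mem_tch.mpr ⟨hE, hT.symm⟩)
    · intro hz p hp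
      rw [mem_tch] at hp
      obtain ⟨v, w, h1, h2, rfl⟩ := h.edge' p hp.1 hp.2
      exact hz (v, w) (mem_lat.mpr ⟨h1, h2⟩)

theorem Ch.anch (h : Ch E W e D) (hA : Anch W (lat W)) :
    Anch (W.image e) (tch E (W.image e)) := by
  refine h.place.anch hA ?_ ?_
  · intro p hp
    rw [mem_lat] at hp
    obtain ⟨h1, h2⟩ := hp
    have hE : (e p.1, e p.2) ∈ E ∨ (e p.2, e p.1) ∈ E := by
      rcases h2 with h2 | h2
      · exact h.edge _ h2 _ h1
      · exact (h.edge _ h2 _ (by rw [hd_comm]; exact h1)).symm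
    have hT : e p.1 ∈ W.image e ∨ e p.2 ∈ W.image e :=
      h2.imp (Finset.mem_image_of_mem e) (Finset.mem_image_of_mem e)
    rcases hE with hE | hE
    · exact Or.inl (mem_tch.mpr ⟨hE, hT⟩)
    · exact Or.inr (mem_tch.mpr ⟨hE, hT.symm⟩)
  · intro p hp h1
    rw [mem_lat, h1, hd_self] at hp
    omega

theorem hd_add (x v w : P2) : hd (x + v) (x + w) = hd v w := by
  unfold hd
  simp only [Prod.fst_add, Prod.snd_add, add_sub_add_left_eq_sub]

/-- A translated smaller chart. -/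
theorem Ch.window (h : Ch E W e D) {W' : Finset P2} {D' : Set P2} (x : P2)
    (hW : ∀ v ∈ W', x + v ∈ W) (hD : ∀ v ∈ D', x + v ∈ D) (hs : (W' : Set P2) ⊆ D')
    (hc : ∀ v ∈ W', ∀ w, hd v w = 1 → w ∈ D') :
    Ch (tch E (W.image e)) W' (fun v => e (x + v)) D' where
  sub := hs
  inj := by
    intro v hv w hw hvw
    exact add_left_cancel (h.inj (hD v hv) (hD w hw) hvw)
  cl := hc
  edge := by
    intro v hv w hvw
    have hE := h.edge (x + v) (hW v hv) (x + w) (by rw [hd_add]; exact hvw)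
    have hT := Finset.mem_image_of_mem e (hW v hv)
    rcases hE with hE | hE
    · exact Or.inl (mem_tch.mpr ⟨hE, Or.inl hT⟩)
    · exact Or.inr (mem_tch.mpr ⟨hE, Or.inr hT⟩)
  edge' := by
    intro p hp hp'
    rw [mem_tch] at hp
    obtain ⟨v, w, h1, h2, rfl⟩ := h.edge' p hp.1 hp.2
    have hvw := h.ends h1 h2
    have key : ∀ u : P2, u ∈ D → e u ∈ W'.image (fun v => e (x + v)) → ∃ u' ∈ W', u = x + u' := by
      intro u hu h3
      obtain ⟨c, hc, hcb⟩ := Finset.mem_image.mp h3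
      exact ⟨c, hc, (h.inj (h.sub (hW c hc)) hu hcb).symm⟩
    refine ⟨v - x, w - x, ?_, ?_, ?_⟩
    · rw [← hd_add x, add_sub_cancel, add_sub_cancel]; exact h1
    · rcases hp' with h3 | h3
      · obtain ⟨u', hu', rfl⟩ := key v hvw.1 h3
        left; rwa [add_sub_cancel_left]
      · obtain ⟨u', hu', rfl⟩ := key w hvw.2 h3
        right; rwa [add_sub_cancel_left]
    · rw [add_sub_cancel, add_sub_cancel]

/-! ### Boxes -/

/-- The box `[0, L)²`. -/
def bx (L : ℕ) : Finset P2 := Finset.Ico (0 : ℤ) L ×ˢ Finset.Ico (0 : ℤ) L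

/-- The box together with its neighbours. -/
def cl (L : ℕ) : Set P2 := {v | (-1 ≤ v.1 ∧ v.1 ≤ L) ∧ (-1 ≤ v.2 ∧ v.2 ≤ L)}

theorem mem_bx {L : ℕ} {v : P2} : v ∈ bx L ↔ (0 ≤ v.1 ∧ v.1 < L) ∧ (0 ≤ v.2 ∧ v.2 < L) := by
  rw [bx, Finset.mem_product, Finset.mem_Ico, Finset.mem_Ico]

theorem mem_cl {L : ℕ} {v : P2} : v ∈ cl L ↔ (-1 ≤ v.1 ∧ v.1 ≤ L) ∧ (-1 ≤ v.2 ∧ v.2 ≤ L) :=
  Iff.rfl

theorem card_bx (L : ℕ) : (bx L).card = L ^ 2 := by
  rw [bx, Finset.card_product, Int.card_Ico]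
  simp [sq]

theorem bx_sub_cl (L : ℕ) : (bx L : Set P2) ⊆ cl L := by
  intro v hv
  rw [Finset.mem_coe, mem_bx] at hv
  rw [mem_cl]; omega

theorem cl_of_adj {L : ℕ} {v w : P2} (hv : v ∈ bx L) (h : hd v w = 1) : w ∈ cl L := by
  rw [mem_bx] at hv
  have := hd_le_iff.mp h.le
  rw [mem_cl]; omega

theorem anch_bx (L : ℕ) : Anch (bx L) (lat (bx L)) := by
  have key : ∀ (n : ℕ) (v : P2), v ∈ bx L → (L : ℤ) - v.1 ≤ n → ∃ u, u ∉ bx L ∧
      Relation.ReflTransGen (fun a b => b ∈ nbr (lat (bx L)) a) v u := by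
    intro n
    induction n with
    | zero =>
      intro v hv hn
      rw [mem_bx] at hv
      push_cast at hn
      omega
    | succ n ih =>
      intro v hv hn
      have hstep : hd v (v.1 + 1, v.2) = 1 := hd_adj 1 0 rfl (by simp) (by omega)
      have hnb : ((v.1 + 1, v.2) : P2) ∈ nbr (lat (bx L)) v := mem_nbr_lat.mpr ⟨hstep, Or.inl hv⟩
      by_cases h4 : ((v.1 + 1, v.2) : P2) ∈ bx L
      · obtain ⟨u, hu, hp⟩ := ih (v.1 + 1, v.2) h4 (by push_cast at hn; simp only; omega)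
        exact ⟨u, hu, Relation.ReflTransGen.head hnb hp⟩
      · exact ⟨_, h4, Relation.ReflTransGen.single hnb⟩
  intro v hv
  exact key ((L : ℤ) - v.1).toNat v hv (Int.self_le_toNat _)

/-- A box chart. -/
abbrev BCh (E : Finset (U × U)) (L : ℕ) (e : P2 → U) : Prop := Ch E (bx L) e (cl L)

/-! ### The windows of class `c` inside a box -/

/-- Centre of the window `k` of class `c`; `M = 2R + 2`. -/
def ctr (R : ℕ) (c k : ℕ × ℕ) : P2 :=
  (((R + c.1 + (2 * R + 2) * k.1 : ℕ) : ℤ), ((R + c.2 + (2 * R + 2) * k.2 : ℕ) : ℤ))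

/-- The index set of the windows of one class. -/
def sq (K : ℕ) : Finset (ℕ × ℕ) := Finset.range K ×ˢ Finset.range K

theorem card_sq (K : ℕ) : (sq K).card = K ^ 2 := by
  unfold Lc279.sq
  rw [Finset.card_product, Finset.card_range, pow_two]

theorem mem_sq {K : ℕ} {k : ℕ × ℕ} : k ∈ sq K ↔ k.1 < K ∧ k.2 < K := by
  rw [sq, Finset.mem_product, Finset.mem_range, Finset.mem_range]

theorem ctr_bound {L R K : ℕ} (hK : 2 * R + (2 * R + 2) * K ≤ L) {c k : ℕ × ℕ}
    (hc : c ∈ sq (2 * R + 2)) (hk : k ∈ sq K) :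
    ((R : ℤ) ≤ (ctr R c k).1 ∧ (ctr R c k).1 < L - R) ∧
    ((R : ℤ) ≤ (ctr R c k).2 ∧ (ctr R c k).2 < L - R) := by
  rw [mem_sq] at hc hk
  have key : ∀ a b : ℕ, a < 2 * R + 2 → b < K →
      R ≤ R + a + (2 * R + 2) * b ∧ R + a + (2 * R + 2) * b + R < L := by
    intro a b ha hb
    refine ⟨by omega, ?_⟩
    have h1 : (2 * R + 2) * (b + 1) ≤ (2 * R + 2) * K := Nat.mul_le_mul_left _ hb
    rw [Nat.mul_add, Nat.mul_one] at h1
    omega
  have h1 := key c.1 k.1 hc.1 hk.1
  have h2 := key c.2 k.2 hc.2 hk.2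
  unfold ctr
  simp only
  refine ⟨⟨?_, ?_⟩, ⟨?_, ?_⟩⟩
  · exact_mod_cast h1.1
  · have := h1.2; zify at this ⊢; linarith
  · exact_mod_cast h2.1
  · have := h2.2; zify at this ⊢; linarith

theorem ball_bound {R : ℕ} {v : P2} (h : v ∈ hball R) :
    (-(R : ℤ) ≤ v.1 ∧ v.1 ≤ R) ∧ (-(R : ℤ) ≤ v.2 ∧ v.2 ≤ R) := by
  have := hd_le_iff.mp (mem_hball.mp h)
  simp only [Prod.fst_zero, Prod.snd_zero, sub_zero] at this
  exact ⟨this.1, this.2.1⟩

theorem ctr_ball {L R K : ℕ} (hK : 2 * R + (2 * R + 2) * K ≤ L) {c k : ℕ × ℕ}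
    (hc : c ∈ sq (2 * R + 2)) (hk : k ∈ sq K) {v : P2} (hv : v ∈ hball R) :
    ctr R c k + v ∈ bx L := by
  have h1 := ctr_bound hK hc hk
  have h2 := ball_bound hv
  rw [mem_bx, Prod.fst_add, Prod.snd_add]
  omega

theorem ctr_ball' {L R K : ℕ} (hK : 2 * R + (2 * R + 2) * K ≤ L) {c k : ℕ × ℕ}
    (hc : c ∈ sq (2 * R + 2)) (hk : k ∈ sq K) {v : P2} (hv : v ∈ hball (R + 1)) :
    ctr R c k + v ∈ cl L := by
  have h1 := ctr_bound hK hc hk
  have h2 := ball_bound hv
  push_cast at h2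
  rw [mem_cl, Prod.fst_add, Prod.snd_add]
  omega

theorem inn_sub_hball (R : ℕ) : inn R ⊆ hball R := by
  intro v hv
  rw [mem_hball]; exact (mem_inn.mp hv).le

theorem hball_mono {R R' : ℕ} (h : R ≤ R') : hball R ⊆ hball R' := by
  intro v hv
  rw [mem_hball] at hv ⊢
  exact hv.trans (by exact_mod_cast h)

/-- The chart of a window. -/
theorem Ch.win_chart {L R K : ℕ} (h : BCh E L e) (hK : 2 * R + (2 * R + 2) * K ≤ L) {c k : ℕ × ℕ}
    (hc : c ∈ sq (2 * R + 2)) (hk : k ∈ sq K) :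
    Ch (tch E ((bx L).image e)) (inn R) (fun v => e (ctr R c k + v)) (hball (R + 1)) := by
  refine h.window (ctr R c k) (fun v hv => ctr_ball hK hc hk (inn_sub_hball R hv))
    (fun v hv => ctr_ball' hK hc hk hv) ?_ ?_
  · intro v hv
    exact hball_mono (Nat.le_succ R) (inn_sub_hball R hv)
  · intro v hv w hvw
    rw [Finset.mem_coe, mem_hball]
    have h1 := hd_triangle w v 0
    rw [hd_comm w v, hvw] at h1
    have h2 := mem_inn.mp hv
    push_cast; omega

/-- Centres of different windows of one class are far apart. -/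
theorem ctr_far {R : ℕ} {c k k' : ℕ × ℕ} (hne : k ≠ k') {v w : P2} (hv : v ∈ hball R)
    (hw : w ∈ hball (R + 1)) : ctr R c k + v ≠ ctr R c k' + w := by
  intro h
  have hv' := ball_bound hv
  have hw' := ball_bound hw
  push_cast at hw'
  have h1 := congrArg Prod.fst h
  have h2 := congrArg Prod.snd h
  simp only [Prod.fst_add, Prod.snd_add, ctr] at h1 h2
  push_cast at h1 h2
  have key : ∀ a b : ℕ, ∀ d : ℤ, (2 * (R : ℤ) + 2) * a - (2 * R + 2) * b = d →
      -(2 * (R : ℤ) + 1) ≤ d → d ≤ 2 * R + 1 → a = b := by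
    intro a b d h3 h4 h5
    by_contra hab
    rcases lt_or_gt_of_ne hab with h6 | h6
    · have h7 : (a : ℤ) + 1 ≤ b := by exact_mod_cast h6
      have h8 : (2 * (R : ℤ) + 2) * (a + 1) ≤ (2 * R + 2) * b :=
        mul_le_mul_of_nonneg_left h7 (by positivity)
      linarith
    · have h7 : (b : ℤ) + 1 ≤ a := by exact_mod_cast h6
      have h8 : (2 * (R : ℤ) + 2) * (b + 1) ≤ (2 * R + 2) * a :=
        mul_le_mul_of_nonneg_left h7 (by positivity)
      linarith
  apply hne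
  ext
  · exact key k.1 k'.1 (w.1 - v.1) (by linarith) (by omega) (by omega)
  · exact key k.2 k'.2 (w.2 - v.2) (by linarith) (by omega) (by omega)

/-- The block of the window `k` of class `c`. -/
def wQ (R : ℕ) (e : P2 → U) (c k : ℕ × ℕ) : Finset U := (inn R).image fun v => e (ctr R c k + v)

/-- The sites attached to it. -/
def wA (R : ℕ) (e : P2 → U) (c k : ℕ × ℕ) : Set U := (fun v => e (ctr R c k + v)) '' (hball R)

/-- The observable on the window. -/
def wf (R : ℕ) (e : P2 → U) (f : (P2 → ℝ) → ℝ) (c k : ℕ × ℕ) (z : U → ℝ) : ℝ :=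
  f fun v => z (e (ctr R c k + v))

/-- The bad set of the window. -/
def wB (R : ℕ) (e : P2 → U) (B : Set (P2 → ℝ)) (c k : ℕ × ℕ) : Set (U → ℝ) :=
  {z | (fun v => z (e (ctr R c k + v))) ∈ B}

/-- A window on the lattice. -/
structure LWin (R : ℕ) (f : (P2 → ℝ) → ℝ) (B : Set (P2 → ℝ)) (ε C : ℝ) : Prop where
  win : Win (inn R) (lat (inn R)) f B ε C
  df : DependsOn f (hball R)
  dB : DependsOn (fun z => z ∈ B) (sph R)

theorem dep_comp {β : Type*} {G : (P2 → ℝ) → β} {D : Set P2} (h : DependsOn G D) (φ : P2 → U) :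
    DependsOn (fun z : U → ℝ => G fun v => z (φ v)) (φ '' D) := by
  intro z z' hz
  exact h fun v hv => hz _ (mem_image_of_mem φ hv)

/-- The family of the windows of class `c` in a box. -/
theorem Ch.fam {L R K : ℕ} (h : BCh E L e) (hK : 2 * R + (2 * R + 2) * K ≤ L)
    {f : (P2 → ℝ) → ℝ} {B : Set (P2 → ℝ)} {ε C : ℝ} (H : LWin R f B ε C) {c : ℕ × ℕ}
    (hc : c ∈ sq (2 * R + 2)) :
    Fam ((bx L).image e) (tch E ((bx L).image e)) (sq K) (wQ R e c) (wA R e c) (wf R e f c)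
      (wB R e B c) ε C where
  sys := by
    refine ⟨?_, ?_, ?_, ?_⟩
    · intro k hk u hu
      obtain ⟨v, hv, rfl⟩ := Finset.mem_image.mp hu
      exact Finset.mem_image_of_mem e (ctr_ball hK hc hk (inn_sub_hball R hv))
    · intro k hk u hu
      obtain ⟨v, hv, rfl⟩ := Finset.mem_image.mp (Finset.mem_coe.mp hu)
      exact ⟨v, Finset.mem_coe.mpr (inn_sub_hball R hv), rfl⟩
    · intro k hk k' hk' hne
      rw [Set.disjoint_left]
      rintro u ⟨v, hv, rfl⟩ hu
      obtain ⟨w, hw, hvw⟩ := Finset.mem_image.mp (Finset.mem_coe.mp hu)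
      have h1 : ctr R c k + v ∈ Lc279.cl L := bx_sub_cl L (ctr_ball hK hc hk hv)
      have h2 : ctr R c k' + w ∈ Lc279.cl L := bx_sub_cl L (ctr_ball hK hc hk' (inn_sub_hball R hw))
      have h3 := h.inj h2 h1 hvw
      exact ctr_far hne hv (hball_mono (Nat.le_succ R) (inn_sub_hball R hw)) h3.symm
    · intro k hk p hp hpQ
      have hw := h.win_chart hK hc hk
      obtain ⟨v, w, h1, h2, rfl⟩ := hw.edge' p hp hpQ
      have hb : v ∈ hball R ∧ w ∈ hball R := by
        rw [mem_hball, mem_hball]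
        have h3 := hd_triangle w v 0
        have h4 := hd_triangle v w 0
        rw [hd_comm w v, h1] at h3
        rw [h1] at h4
        rcases h2 with h2 | h2
        · have := mem_inn.mp h2; omega
        · have := mem_inn.mp h2; omega
      exact ⟨⟨v, Finset.mem_coe.mpr hb.1, rfl⟩, ⟨w, Finset.mem_coe.mpr hb.2, rfl⟩⟩
  win := by
    intro k hk
    have hw := h.win_chart hK hc hk
    have hA := hw.anch H.win.anch
    refine hw.place.win H.win hA ?_ ?_
    · exact dep_mono H.df (by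
        intro v hv; exact Finset.mem_coe.mpr (hball_mono (Nat.le_succ R) (Finset.mem_coe.mp hv)))
    · refine dep_mono H.dB ?_
      intro v hv
      have h1 := mem_sph.mp (Finset.mem_coe.mp hv)
      refine ⟨Finset.mem_coe.mpr ?_, fun h2 => ?_⟩
      · rw [mem_hball]; push_cast; omega
      · have := mem_inn.mp (Finset.mem_coe.mp h2); omega
  df := fun k hk => dep_comp H.df _
  dB := by
    intro k hk
    refine dep_comp (G := fun z => z ∈ B) (dep_mono H.dB ?_) _
    intro v hv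
    have h1 := mem_sph.mp (Finset.mem_coe.mp hv)
    rw [Finset.mem_coe, mem_hball]; omega

end Crest.Agent.R144.Lc279
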