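import Crest.Agent.R144.Lc7_279

/-!
R144 (S0197), helper279.  Block LC, file 8: bad windows (joint bound for all windows of one class).
-/

set_option autoImplicit false
set_option linter.unusedSectionVars false
set_option linter.unusedVariables false

open MeasureTheory Set
open scoped ENNReal

noncomputable section

namespace Crest.Agent.R144.Lc279

open Crest.Agent.R144.Ham560
open Crest.Agent.R144.Lw425 (hd hd_comm hd_le_iff mem_hball hball mem_inn inn mem_sph sph hd_self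
  hd_triangle hd_pos hd_adj LObs)

variable {U : Type*} [DecidableEq U] {F : Finset U} {E : Finset (U × U)}

theorem FreshR.mem {S : List ((U × U) × ℝ)} (h : FreshR F E S) :
    ∀ q ∈ S, q.1.1 ∈ F ∧ q.1.2 ∈ nbr E q.1.1 := by
  induction h with
  | nil => simp
  | cons hS hv hu hw hf ih =>
    intro q hq
    rcases List.mem_cons.mp hq with rfl | hq
    · exact ⟨hv, hu⟩
    · exact ih q hq

/-- Image of a list of edges. -/
def mapL (φ : P2 → U) (S : List ((P2 × P2) × ℝ)) : List ((U × U) × ℝ) :=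
  S.map fun q => ((φ q.1.1, φ q.1.2), q.2)

theorem wgt_mapL (φ : P2 → U) (S : List ((P2 × P2) × ℝ)) (n : ℕ) :
    wgt n (mapL φ S) = wgt n S := by
  unfold wgt mapL
  rw [List.map_map]
  rfl

/-- The covering of the bad set on the lattice. -/
structure LBad (R : ℕ) (B : Set (P2 → ℝ)) (FF : Finset (List ((P2 × P2) × ℝ))) (q : ℝ≥0∞) :
    Prop where
  cov : ∀ h ∈ HS (lat (hball R)), h ∈ B → ∃ S ∈ FF, ∀ p ∈ S, 1 - p.2 ≤ |h p.1.1 - h p.1.2|
  fresh : ∀ S ∈ FF, FreshR (hball R) (lat (hball R)) S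
  sum : ∑ S ∈ FF, wgt 6 S ≤ q

/-- Placed families. -/
def wF [DecidableEq (List ((U × U) × ℝ))] (R : ℕ) (e : P2 → U)
    (FF : Finset (List ((P2 × P2) × ℝ))) (c k : ℕ × ℕ) : Finset (List ((U × U) × ℝ)) :=
  FF.image (mapL fun v => e (ctr R c k + v))

theorem wF_sum [DecidableEq (List ((U × U) × ℝ))] {R : ℕ} {B : Set (P2 → ℝ)}
    {FF : Finset (List ((P2 × P2) × ℝ))} {q : ℝ≥0∞} (H : LBad R B FF q) (e : P2 → U)
    (c k : ℕ × ℕ) : ∑ S ∈ wF R e FF c k, wgt 6 S ≤ q := by
  unfold wF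
  refine (Finset.sum_image_le_of_nonneg (fun _ _ => bot_le)).trans ?_
  simp only [wgt_mapL]
  exact H.sum

variable {e : P2 → U} {L R K : ℕ} {c k : ℕ × ℕ}

theorem hball_nbr {v w : P2} (hv : v ∈ hball R) (h : hd v w = 1) : w ∈ hball (R + 1) := by
  rw [mem_hball] at hv ⊢
  have h1 := hd_triangle w v 0
  rw [hd_comm w v, h] at h1
  push_cast; omega

theorem Ch.fresh (h : BCh E L e) (hF : (bx L).image e ⊆ F)
    (hK : 2 * R + (2 * R + 2) * K ≤ L) (hc : c ∈ sq (2 * R + 2)) (hk : k ∈ sq K)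
    {S : List ((P2 × P2) × ℝ)} (hS : FreshR (hball R) (lat (hball R)) S) :
    FreshR F E (mapL (fun v => e (ctr R c k + v)) S) := by
  induction hS with
  | nil => exact FreshR.nil
  | @cons v u w S hS hv hu hw hf ih =>
    have hu' := mem_nbr_lat.mp hu
    have hvb := ctr_ball hK hc hk hv
    have hub : ctr R c k + u ∈ Lc279.cl L := ctr_ball' hK hc hk (hball_nbr hv hu'.1)
    have hvc : ctr R c k + v ∈ Lc279.cl L := bx_sub_cl L hvb
    refine FreshR.cons ih (hF (Finset.mem_image_of_mem e hvb)) ?_ hw ?_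
    · rw [mem_nbr]
      refine ⟨?_, ?_⟩
      · intro h1
        have h2 := add_left_cancel (h.inj hub hvc h1)
        rw [h2, hd_self] at hu'
        omega
      · exact h.edge _ hvb _ (by rw [hd_add]; exact hu'.1)
    · intro q hq
      obtain ⟨q', hq', rfl⟩ := List.mem_map.mp hq
      have h1 := FreshR.mem hS q' hq'
      have h2 := hf q' hq'
      have h3 : ctr R c k + q'.1.1 ∈ Lc279.cl L := bx_sub_cl L (ctr_ball hK hc hk h1.1)
      have h4 : ctr R c k + q'.1.2 ∈ Lc279.cl L :=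
        ctr_ball' hK hc hk (hball_nbr h1.1 (mem_nbr_lat.mp h1.2).1)
      exact ⟨fun h5 => h2.1 (add_left_cancel (h.inj h3 hvc h5)),
        fun h5 => h2.2 (add_left_cancel (h.inj h4 hvc h5))⟩

theorem Ch.bad_cover [DecidableEq (List ((U × U) × ℝ))] (h : BCh E L e) {ξ : U → ℝ}
    (hK : 2 * R + (2 * R + 2) * K ≤ L) (hc : c ∈ sq (2 * R + 2)) (hk : k ∈ sq K)
    {B : Set (P2 → ℝ)} {FF : Finset (List ((P2 × P2) × ℝ))} {q : ℝ≥0∞} (H : LBad R B FF q) :
    ham F E ξ ∩ {x | ext F ξ x ∈ wB R e B c k} ⊆ ⋃ S ∈ wF R e FF c k, tightR F E ξ S := by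
  rintro x ⟨hx, hB⟩
  have hlip : (fun v => ext F ξ x (e (ctr R c k + v))) ∈ HS (lat (hball R)) := by
    intro p hp
    rw [mem_lat] at hp
    obtain ⟨h1, h2⟩ := hp
    have hE : (e (ctr R c k + p.1), e (ctr R c k + p.2)) ∈ E ∨
        (e (ctr R c k + p.2), e (ctr R c k + p.1)) ∈ E := by
      rcases h2 with h2 | h2
      · exact h.edge _ (ctr_ball hK hc hk h2) _ (by rw [hd_add]; exact h1)
      · exact (h.edge _ (ctr_ball hK hc hk h2) _ (by rw [hd_add, hd_comm]; exact h1)).symm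
    rcases hE with hE | hE
    · exact hx _ hE
    · rw [abs_sub_comm]; exact hx _ hE
  obtain ⟨S, hS, hS'⟩ := H.cov _ hlip hB
  simp only [mem_iUnion]
  refine ⟨_, Finset.mem_image_of_mem _ hS, hx, ?_⟩
  intro q hq
  obtain ⟨q', hq', rfl⟩ := List.mem_map.mp hq
  exact hS' q' hq'

/-- The box as a system of its own. -/
theorem Ch.self {W : Finset P2} {D : Set P2} (h : Ch E W e D) :
    Ch (tch E (W.image e)) W e D where
  sub := h.sub
  inj := h.inj
  cl := h.cl
  edge := by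
    intro v hv w hvw
    have hT := Finset.mem_image_of_mem e hv
    rcases h.edge v hv w hvw with hE | hE
    · exact Or.inl (mem_tch.mpr ⟨hE, Or.inl hT⟩)
    · exact Or.inr (mem_tch.mpr ⟨hE, Or.inr hT⟩)
  edge' := fun p hp hp' => h.edge' p (mem_tch.mp hp).1 hp'

theorem nbr_tch_subset (Q : Finset U) (a : U) : nbr (tch E Q) a ⊆ nbr E a := by
  intro b hb
  rw [mem_nbr] at hb ⊢
  exact ⟨hb.1, hb.2.imp (fun h => (mem_tch.mp h).1) fun h => (mem_tch.mp h).1⟩

/-- One window in a box with zero data. -/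
theorem Ch.bad_one (h : BCh E L e) (hdeg : ∀ v ∈ (bx L).image e, (nbr E v).card ≤ 6)
    (hK : 2 * R + (2 * R + 2) * K ≤ L) (hc : c ∈ sq (2 * R + 2)) (hk : k ∈ sq K)
    {B : Set (P2 → ℝ)} {FF : Finset (List ((P2 × P2) × ℝ))} {q : ℝ≥0∞} (H : LBad R B FF q) :
    volume (ham ((bx L).image e) (tch E ((bx L).image e)) 0 ∩
      {x | ext ((bx L).image e) 0 x ∈ wB R e B c k}) ≤
      q * volume (ham ((bx L).image e) (tch E ((bx L).image e)) 0) := by
  classical
  have key := vol_bad_le (F := (bx L).image e) (E := tch E ((bx L).image e)) (ξ := 0)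
    ({()} : Finset Unit) (fun _ => wF R e FF c k)
    (fun _ => {x | ext ((bx L).image e) 0 x ∈ wB R e B c k}) (n := 6)
    (fun v hv => (Finset.card_le_card (nbr_tch_subset _ _)).trans (hdeg v hv))
    (fun _ _ => h.self.bad_cover hK hc hk H) ?_ ?_
  · rw [Finset.prod_singleton] at key
    have e0 : (⋂ b ∈ ({()} : Finset Unit), {x : ↥((bx L).image e) → ℝ |
        ext ((bx L).image e) 0 x ∈ wB R e B c k}) =
        {x : ↥((bx L).image e) → ℝ | ext ((bx L).image e) 0 x ∈ wB R e B c k} := by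
      ext x; simp
    rw [e0] at key
    exact key.trans (mul_le_mul' (wF_sum H e c k) le_rfl)
  · intro _ _ S hS
    obtain ⟨S', hS', rfl⟩ := Finset.mem_image.mp hS
    exact h.self.fresh subset_rfl hK hc hk (H.fresh S' hS')
  · intro b _ b' _ hbb
    exact absurd (Subsingleton.elim b b') hbb

/-- Reference value of the number of bad windows. -/
theorem Ch.ref_bad (h : BCh E L e) (hdeg : ∀ v ∈ (bx L).image e, (nbr E v).card ≤ 6)
    (hK : 2 * R + (2 * R + 2) * K ≤ L) (hc : c ∈ sq (2 * R + 2))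
    {B : Set (P2 → ℝ)} (hB : MeasurableSet B)
    {FF : Finset (List ((P2 × P2) × ℝ))} {q0 : ℝ} (hq0 : 0 ≤ q0)
    (H : LBad R B FF (ENNReal.ofReal q0)) :
    Ev ((bx L).image e) (tch E ((bx L).image e)) 0 (SN (sq K) (wB R e B c)) ≤
      q0 * (K ^ 2 : ℕ) := by
  have hA := h.anch (anch_bx L)
  have h0 := vr_zero_pos hA
  have hm : ∀ k, MeasurableSet (wB R e B c k) := fun k =>
    (measurable_comp (fun v => e (ctr R c k + v))) hB
  have e1 : Ev ((bx L).image e) (tch E ((bx L).image e)) 0 (SN (sq K) (wB R e B c)) =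
      ∑ k ∈ sq K, Ev ((bx L).image e) (tch E ((bx L).image e)) 0
        ((wB R e B c k).indicator 1) :=
    Ev_sum (fun k _ => Bd.ind (hm k)) hA h0
  rw [e1, ← card_sq K]
  have h2 : ∀ k ∈ sq K, Ev ((bx L).image e) (tch E ((bx L).image e)) 0
      ((wB R e B c k).indicator 1) ≤ q0 := by
    intro k hk
    have h3 := h.bad_one hdeg hK hc hk H
    have hP := isProb (ξ := 0) hA h0
    have hms : MeasurableSet {x : ↥((bx L).image e) → ℝ |
        ext ((bx L).image e) 0 x ∈ wB R e B c k} := measurable_ext _ _ (hm k)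
    have e2 : Ev ((bx L).image e) (tch E ((bx L).image e)) 0
        ((wB R e B c k).indicator 1) =
        (hamP ((bx L).image e) (tch E ((bx L).image e)) 0).real
          {x | ext ((bx L).image e) 0 x ∈ wB R e B c k} := by
      unfold Ev
      rw [← integral_indicator_one hms]
      rfl
    rw [e2, Measure.real]
    refine ENNReal.toReal_le_of_le_ofReal hq0 ?_
    rw [hamP, Measure.smul_apply, Measure.restrict_apply hms, smul_eq_mul, inter_comm]
    have hv : volume (ham ((bx L).image e) (tch E ((bx L).image e)) 0) ≠ 0 :=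
      volume_ham_ne_zero fun u => by simp
    have hv' : volume (ham ((bx L).image e) (tch E ((bx L).image e)) 0) ≠ ∞ :=
      (volume_ham_lt_top hA).ne
    calc _ ≤ (volume (ham ((bx L).image e) (tch E ((bx L).image e)) 0))⁻¹ *
          (ENNReal.ofReal q0 * volume (ham ((bx L).image e) (tch E ((bx L).image e)) 0)) := by
          gcongr
      _ = _ := by
          rw [mul_comm (ENNReal.ofReal q0), ← mul_assoc, ENNReal.inv_mul_cancel hv hv', one_mul]
  calc _ ≤ ∑ k ∈ sq K, q0 := Finset.sum_le_sum h2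
    _ = _ := by rw [Finset.sum_const, nsmul_eq_mul]; ring

/-! ### Systems of boxes -/

variable {κ : Type*} [DecidableEq κ]

/-- Boxes of side `L` inside a system. -/
structure Cov (F : Finset U) (E : Finset (U × U)) (L : ℕ) (σ : Finset κ) (e : κ → P2 → U) :
    Prop where
  ch : ∀ j ∈ σ, BCh E L (e j)
  sub : ∀ j ∈ σ, (bx L).image (e j) ⊆ F
  disj : ∀ j ∈ σ, ∀ k ∈ σ, j ≠ k → Disjoint (e j '' cl L) ((bx L).image (e k) : Set U)
  deg : ∀ v ∈ F, (nbr E v).card ≤ 6

variable {σ : Finset κ} {e : κ → P2 → U}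

theorem Cov.lev (h : Cov F E L σ e) (hK : 2 * R + (2 * R + 2) * K ≤ L)
    {f : (P2 → ℝ) → ℝ} {B : Set (P2 → ℝ)} {ε C : ℝ} (H : LWin R f B ε C) {c : ℕ × ℕ}
    (hc : c ∈ sq (2 * R + 2)) :
    Lev F E σ (fun j => (bx L).image (e j)) (fun j => e j '' cl L) (fun _ => sq K)
      (fun j => wQ R (e j) c) (fun j => wA R (e j) c) (fun j => wf R (e j) f c)
      (fun j => wB R (e j) B c) ε C where
  out := by
    refine ⟨h.sub, ?_, h.disj, ?_⟩
    · intro j hj u hu
      obtain ⟨v, hv, rfl⟩ := Finset.mem_image.mp (Finset.mem_coe.mp hu)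
      exact ⟨v, bx_sub_cl L hv, rfl⟩
    · intro j hj p hp hp'
      obtain ⟨v, w, h1, h2, rfl⟩ := (h.ch j hj).edge' p hp hp'
      have h3 := (h.ch j hj).ends h1 h2
      exact ⟨⟨v, h3.1, rfl⟩, ⟨w, h3.2, rfl⟩⟩
  anch := fun j hj => (h.ch j hj).anch (anch_bx L)
  fam := fun j hj => (h.ch j hj).fam hK H hc
  sub := by
    intro j hj k hk u hu
    obtain ⟨v, hv, rfl⟩ := hu
    exact ⟨_, bx_sub_cl L (ctr_ball hK hc hk (Finset.mem_coe.mp hv)), rfl⟩

/-- Joint bound for the number of bad windows of class `c`. -/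
theorem Cov.bad (h : Cov F E L σ e) {ξ : U → ℝ} (hK : 2 * R + (2 * R + 2) * K ≤ L)
    {c : ℕ × ℕ} (hc : c ∈ sq (2 * R + 2)) {B : Set (P2 → ℝ)}
    {FF : Finset (List ((P2 × P2) × ℝ))} {q : ℝ≥0∞} (hq : q ≤ 1) (H : LBad R B FF q) (m : ℕ) :
    volume (ham F E ξ ∩ {x | (m : ℝ) ≤ TN σ (fun _ => sq K) (fun j => wB R (e j) B c)
      (ext F ξ x)}) ≤ 2 ^ (K ^ 2 * σ.card) * q ^ m * volume (ham F E 0) := by
  classical
  have key := vol_bad_card_le (F := F) (E := E) (ξ := ξ) (σ ×ˢ sq K)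
    (fun b => wF R (e b.1) FF c b.2) (fun b => {x | ext F ξ x ∈ wB R (e b.1) B c b.2})
    (n := 6) h.deg ?_ ?_ ?_ hq ?_ m
  · rw [Finset.card_product, card_sq, mul_comm σ.card] at key
    refine le_trans (measure_mono ?_) key
    rintro x ⟨hx, hx'⟩
    refine ⟨hx, ?_⟩
    have e1 : TN σ (fun _ => sq K) (fun j => wB R (e j) B c) (ext F ξ x) =
        (((σ ×ˢ sq K).filter fun b => ext F ξ x ∈ wB R (e b.1) B c b.2).card : ℝ) := by
      unfold TN SN
      rw [← Finset.sum_product', Finset.card_filter]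
      push_cast
      refine Finset.sum_congr rfl fun b _ => ?_
      by_cases hb : ext F ξ x ∈ wB R (e b.1) B c b.2
      · rw [indicator_of_mem hb, if_pos hb]; rfl
      · rw [indicator_of_notMem hb, if_neg hb]
    have hx'' : (m : ℝ) ≤ TN σ (fun _ => sq K) (fun j => wB R (e j) B c) (ext F ξ x) := hx'
    rw [e1] at hx''
    have h2 : m ≤ ((σ ×ˢ sq K).filter fun b => ext F ξ x ∈ wB R (e b.1) B c b.2).card := by
      exact_mod_cast hx''
    show m ≤ {b | b ∈ σ ×ˢ sq K ∧ x ∈ {x | ext F ξ x ∈ wB R (e b.1) B c b.2}}.ncard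
    have e2 : {b | b ∈ σ ×ˢ sq K ∧ x ∈ {x | ext F ξ x ∈ wB R (e b.1) B c b.2}} =
        ((σ ×ˢ sq K).filter fun b => ext F ξ x ∈ wB R (e b.1) B c b.2 : Finset _) := by
      ext b; simp
    rw [e2, Set.ncard_coe_finset]
    exact h2
  · intro b hb
    rw [Finset.mem_product] at hb
    exact (h.ch b.1 hb.1).bad_cover hK hc hb.2 H
  · intro b hb S hS
    rw [Finset.mem_product] at hb
    obtain ⟨S', hS', rfl⟩ := Finset.mem_image.mp hS
    exact (h.ch b.1 hb.1).fresh (h.sub b.1 hb.1) hK hc hb.2 (H.fresh S' hS')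
  · intro b hb b' hb' hne S hS S' hS' q hq q' hq'
    rw [Finset.mem_product] at hb hb'
    obtain ⟨T, hT, rfl⟩ := Finset.mem_image.mp hS
    obtain ⟨T', hT', rfl⟩ := Finset.mem_image.mp hS'
    obtain ⟨p, hp, rfl⟩ := List.mem_map.mp hq
    obtain ⟨p', hp', rfl⟩ := List.mem_map.mp hq'
    have h1 := FreshR.mem (H.fresh T hT) p hp
    have h2 := FreshR.mem (H.fresh T' hT') p' hp'
    have a1 : ctr R c b.2 + p.1.1 ∈ bx L := ctr_ball hK hc hb.2 h1.1
    have a2 : p'.1.1 ∈ hball (R + 1) := hball_mono (Nat.le_succ R) h2.1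
    have a3 : p'.1.2 ∈ hball (R + 1) := hball_nbr h2.1 (mem_nbr_lat.mp h2.2).1
    have key : ∀ w ∈ hball (R + 1),
        e b'.1 (ctr R c b'.2 + w) ≠ e b.1 (ctr R c b.2 + p.1.1) := by
      intro w hw heq
      have hwc : ctr R c b'.2 + w ∈ cl L := ctr_ball' hK hc hb'.2 hw
      by_cases hj : b.1 = b'.1
      · have hk : b.2 ≠ b'.2 := fun hk => hne (Prod.ext hj hk)
        rw [hj] at heq
        have := (h.ch b'.1 hb'.1).inj hwc (bx_sub_cl L a1) heq
        exact ctr_far hk h1.1 hw this.symm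
      · refine Set.disjoint_left.mp (h.disj b'.1 hb'.1 b.1 hb.1 (Ne.symm hj))
          (mem_image_of_mem _ hwc) ?_
        rw [heq]
        exact Finset.mem_coe.mpr (Finset.mem_image_of_mem _ a1)
    exact ⟨key _ a2, key _ a3⟩
  · intro b _
    exact wF_sum H _ _ _

end Crest.Agent.R144.Lc279
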