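import Crest.Agent.R144.Lc8_279

/-!
R144 (S0197), helper279.  Block LC, file 9: box averages; number of boxes with a wrong average.
-/

set_option autoImplicit false
set_option linter.unusedSectionVars false
set_option linter.unusedVariables false

open MeasureTheory Set
open scoped ENNReal

noncomputable section

namespace Crest.Agent.R144.Lc279

open Crest.Agent.R144.Ham560
open Crest.Agent.R144.Lw425 (hd hd_comm hd_le_iff mem_hball hball mem_inn inn mem_sph sph hd_self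
  hd_triangle hd_pos hd_adj LObs)

variable {U : Type*} [DecidableEq U] {F : Finset U} {E : Finset (U × U)}

/-- Centres used in the box average. -/
def pos (L r : ℕ) : Finset P2 := Finset.Ico (r : ℤ) (L - r) ×ˢ Finset.Ico (r : ℤ) (L - r)

/-- Box average. -/
def BA (L r : ℕ) (f : (P2 → ℝ) → ℝ) (h : P2 → ℝ) : ℝ :=
  (∑ x ∈ pos L r, f fun v => h (x + v)) / (L : ℝ) ^ 2

/-- Reference value of the box average: zero data. -/
def mB (L r : ℕ) (f : (P2 → ℝ) → ℝ) : ℝ := Ev (bx L) (lat (bx L)) 0 (BA L r f)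

theorem mem_pos {L r : ℕ} {x : P2} : x ∈ pos L r ↔
    ((r : ℤ) ≤ x.1 ∧ x.1 < L - r) ∧ ((r : ℤ) ≤ x.2 ∧ x.2 < L - r) := by
  rw [pos, Finset.mem_product, Finset.mem_Ico, Finset.mem_Ico]

theorem pos_subset (L r : ℕ) : pos L r ⊆ bx L := by
  intro x hx
  rw [mem_pos] at hx
  rw [mem_bx]; omega

theorem card_pos_le (L r : ℕ) : (pos L r).card ≤ L ^ 2 := by
  rw [← card_bx]; exact Finset.card_le_card (pos_subset L r)

theorem pos_ball {L r : ℕ} {x v : P2} (hx : x ∈ pos L r) (hv : v ∈ hball r) : x + v ∈ bx L := by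
  rw [mem_pos] at hx
  have := ball_bound hv
  rw [mem_bx, Prod.fst_add, Prod.snd_add]; omega

theorem dep_BA {L r : ℕ} {f : (P2 → ℝ) → ℝ} (hf : DependsOn f (hball r)) :
    DependsOn (BA L r f) (bx L) := by
  intro z z' hz
  unfold BA
  congr 1
  refine Finset.sum_congr rfl fun x hx => hf fun v hv => ?_
  exact hz _ (Finset.mem_coe.mpr (pos_ball hx (Finset.mem_coe.mp hv)))

theorem measurable_shift (x : P2) : Measurable fun h : P2 → ℝ => fun v => h (x + v) :=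
  measurable_pi_lambda _ fun v => measurable_pi_apply _

theorem abs_BA_le {L r : ℕ} {f : (P2 → ℝ) → ℝ} (hf : ∀ z, |f z| ≤ 1) (h : P2 → ℝ) :
    |BA L r f h| ≤ 1 := by
  unfold BA
  rw [abs_div, abs_of_nonneg (by positivity : (0:ℝ) ≤ (L:ℝ) ^ 2)]
  refine div_le_one_of_le₀ ?_ (by positivity)
  refine (Finset.abs_sum_le_sum_abs _ _).trans ?_
  refine (Finset.sum_le_card_nsmul _ _ 1 fun x _ => hf _).trans ?_
  rw [nsmul_eq_mul, mul_one]
  exact_mod_cast card_pos_le L r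

theorem measurable_BA {L r : ℕ} {f : (P2 → ℝ) → ℝ} (hf : Measurable f) : Measurable (BA L r f) := by
  unfold BA
  exact (Finset.measurable_sum _ fun x _ => hf.comp (measurable_shift x)).div_const _

theorem bd_BA {L r : ℕ} {f : (P2 → ℝ) → ℝ} (hf : Measurable f) (hb : ∀ z, |f z| ≤ 1) :
    Bd (BA L r f) := ⟨measurable_BA hf, 1, abs_BA_le hb⟩

/-! ### The centres -/

theorem ctr_inj {R K : ℕ} : Set.InjOn (fun p : (ℕ × ℕ) × (ℕ × ℕ) => ctr R p.1 p.2)
    (sq (2 * R + 2) ×ˢ sq K : Finset _) := by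
  intro p hp p' hp' h
  rw [Finset.mem_coe, Finset.mem_product, mem_sq, mem_sq] at hp hp'
  have h1 := congrArg Prod.fst h
  have h2 := congrArg Prod.snd h
  simp only [ctr, Nat.cast_inj] at h1 h2
  have key : ∀ a b a' b' : ℕ, a < 2 * R + 2 → a' < 2 * R + 2 →
      R + a + (2 * R + 2) * b = R + a' + (2 * R + 2) * b' → a = a' ∧ b = b' := by
    intro a b a' b' ha ha' hh
    have h3 : a + (2 * R + 2) * b = a' + (2 * R + 2) * b' := by omega
    have h4 : (a + (2 * R + 2) * b) % (2 * R + 2) = (a' + (2 * R + 2) * b') % (2 * R + 2) := by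
      rw [h3]
    rw [Nat.add_mul_mod_self_left, Nat.add_mul_mod_self_left, Nat.mod_eq_of_lt ha,
      Nat.mod_eq_of_lt ha'] at h4
    subst h4
    refine ⟨rfl, ?_⟩
    have h5 : (2 * R + 2) * b = (2 * R + 2) * b' := by omega
    exact Nat.eq_of_mul_eq_mul_left (by omega) h5
  obtain ⟨a1, a2⟩ := key _ _ _ _ hp.1.1 hp'.1.1 h1
  obtain ⟨b1, b2⟩ := key _ _ _ _ hp.1.2 hp'.1.2 h2
  ext
  · exact a1
  · exact b1
  · exact a2
  · exact b2

/-- Sum over the windows of all classes. -/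
def WS (R K : ℕ) (f : (P2 → ℝ) → ℝ) (h : P2 → ℝ) : ℝ :=
  ∑ c ∈ sq (2 * R + 2), ∑ k ∈ sq K, f fun v => h (ctr R c k + v)

theorem BA_WS {L R K r : ℕ} (hr : r ≤ R) (hK : 2 * R + (2 * R + 2) * K ≤ L)
    {f : (P2 → ℝ) → ℝ} (hf : ∀ z, |f z| ≤ 1) (h : P2 → ℝ) :
    |BA L r f h * (L : ℝ) ^ 2 - WS R K f h| ≤ (L : ℝ) ^ 2 - ((2 * R + 2) ^ 2 * K ^ 2 : ℕ) := by
  have hL : 0 < (L : ℝ) ^ 2 ∨ L = 0 := by
    rcases Nat.eq_zero_or_pos L with h0 | h0
    · exact Or.inr h0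
    · left; positivity
  set Cn : Finset P2 := (sq (2 * R + 2) ×ˢ sq K).image fun p => ctr R p.1 p.2 with hCn
  have hsub : Cn ⊆ pos L r := by
    intro x hx
    obtain ⟨p, hp, rfl⟩ := Finset.mem_image.mp hx
    rw [Finset.mem_product] at hp
    have := ctr_bound hK hp.1 hp.2
    rw [mem_pos]
    have hr' : (r : ℤ) ≤ R := by exact_mod_cast hr
    omega
  have hcard : Cn.card = (2 * R + 2) ^ 2 * K ^ 2 := by
    rw [hCn, Finset.card_image_of_injOn ctr_inj, Finset.card_product, card_sq, card_sq]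
  have hWS : WS R K f h = ∑ x ∈ Cn, f fun v => h (x + v) := by
    rw [hCn, Finset.sum_image ctr_inj, Finset.sum_product]
    rfl
  have hBA : BA L r f h * (L : ℝ) ^ 2 = ∑ x ∈ pos L r, f fun v => h (x + v) := by
    rcases hL with hL | hL
    · unfold BA; rw [div_mul_cancel₀ _ hL.ne']
    · subst hL
      have : pos 0 r = ∅ := by
        rw [Finset.eq_empty_iff_forall_notMem]
        intro x hx
        rw [mem_pos] at hx
        push_cast at hx
        omega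
      rw [this]
      simp
  rw [hBA, hWS, ← Finset.sum_sdiff hsub, add_sub_cancel_right]
  refine (Finset.abs_sum_le_sum_abs _ _).trans ?_
  refine (Finset.sum_le_card_nsmul _ _ 1 fun x _ => hf _).trans ?_
  rw [nsmul_eq_mul, mul_one]
  have h1 : (pos L r \ Cn).card + Cn.card = (pos L r).card := Finset.card_sdiff_add_card_eq_card hsub
  have h2 := card_pos_le L r
  rw [hcard] at h1
  have h3 : (pos L r \ Cn).card + (2 * R + 2) ^ 2 * K ^ 2 ≤ L ^ 2 := by omega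
  have h4 : (((pos L r \ Cn).card + (2 * R + 2) ^ 2 * K ^ 2 : ℕ) : ℝ) ≤ ((L ^ 2 : ℕ) : ℝ) := by
    exact_mod_cast h3
  rw [Nat.cast_add, Nat.cast_pow L] at h4
  linarith

/-! ### One box -/

/-- The sum over the windows of class `c` in a box. -/
abbrev CX (R K : ℕ) (e : P2 → U) (f : (P2 → ℝ) → ℝ) (g : ℝ) (c : ℕ × ℕ) (z : U → ℝ) : ℝ :=
  SX (sq K) (fun _ => g) (wf R e f c) z

/-- The number of bad windows of class `c` in a box. -/
abbrev CN (R K : ℕ) (e : P2 → U) (B : Set (P2 → ℝ)) (c : ℕ × ℕ) (z : U → ℝ) : ℝ :=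
  SN (sq K) (wB R e B c) z

theorem CX_neg {R K : ℕ} {e : P2 → U} {f : (P2 → ℝ) → ℝ} {c : ℕ × ℕ} (z : U → ℝ) :
    CX R K e f (-1) c z = -CX R K e f 1 c z := by
  unfold CX SX
  rw [← Finset.sum_neg_distrib]
  exact Finset.sum_congr rfl fun i _ => by ring

theorem sum_CX {R K : ℕ} {e : P2 → U} {f : (P2 → ℝ) → ℝ} (z : U → ℝ) :
    ∑ c ∈ sq (2 * R + 2), CX R K e f 1 c z = WS R K f (z ∘ e) := by
  unfold CX SX WS
  refine Finset.sum_congr rfl fun c _ => Finset.sum_congr rfl fun k _ => ?_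
  rw [one_mul]; rfl

theorem abs_CX_le {R K : ℕ} {e : P2 → U} {f : (P2 → ℝ) → ℝ} (hf : ∀ z, |f z| ≤ 1) {c : ℕ × ℕ}
    (z : U → ℝ) : |CX R K e f 1 c z| ≤ (K ^ 2 : ℕ) := by
  unfold CX SX
  refine (Finset.abs_sum_le_sum_abs _ _).trans ?_
  refine (Finset.sum_le_card_nsmul _ _ 1 fun k _ => ?_).trans ?_
  · rw [one_mul]; exact hf _
  · rw [nsmul_eq_mul, mul_one, card_sq]

theorem bd_CX {R K : ℕ} {e : P2 → U} {f : (P2 → ℝ) → ℝ} (hm : Measurable f)
    (hf : ∀ z, |f z| ≤ 1) (g : ℝ) {c : ℕ × ℕ} : Bd (CX R K e f g c) :=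
  Bd.sum fun k _ => Bd.const_mul (f := wf R e f c k)
    ⟨hm.comp (measurable_comp _), 1, fun z => hf _⟩ g

variable {e : P2 → U} {L R K r : ℕ}

/-- A box with a wrong average has many bad windows or one class of windows with a deviation. -/
theorem Ch.split (h : BCh E L e) (hL : 0 < L) (hr : r ≤ R) (hK : 2 * R + (2 * R + 2) * K ≤ L)
    {f : (P2 → ℝ) → ℝ} (hm : Measurable f) (hf : ∀ z, |f z| ≤ 1) (hd : DependsOn f (hball r))
    {B : Set (P2 → ℝ)} {a v v' : ℝ} (ha : 0 < a) (hv0 : 0 < v') (hv : 8 * v ≤ v' * a)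
    (hη : 8 * ((L : ℝ) ^ 2 - ((2 * R + 2) ^ 2 * K ^ 2 : ℕ)) ≤ a * (L : ℝ) ^ 2)
    {z : U → ℝ} (hz : a < |BA L r f (z ∘ e) - mB L r f|)
    (hN : ∑ c ∈ sq (2 * R + 2), CN R K e B c z ≤ v * (K ^ 2 : ℕ) * ((2 * R + 2) ^ 2 : ℕ)) :
    ∃ c ∈ sq (2 * R + 2), CN R K e B c z ≤ v' * (K ^ 2 : ℕ) ∧
      a / 2 * (K ^ 2 : ℕ) ≤ |CX R K e f 1 c z -
        Ev ((bx L).image e) (tch E ((bx L).image e)) 0 (CX R K e f 1 c)| := by
  classical
  set Λ := (bx L).image e with hΛ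
  have hA := h.anch (anch_bx L)
  have h0 := vr_zero_pos hA
  set M : ℕ := 2 * R + 2 with hM
  set n : ℝ := ((K ^ 2 : ℕ) : ℝ) with hn
  have hn0 : 0 ≤ n := Nat.cast_nonneg _
  set X : ℕ × ℕ → ℝ := fun c => CX R K e f 1 c z - Ev Λ (tch E Λ) 0 (CX R K e f 1 c) with hX
  -- the reference value
  have eB : mB L r f = Ev Λ (tch E Λ) 0 (fun z => BA L r f (z ∘ e)) := by
    have := h.place.Ev_eq (G := BA L r f) (dep_mono (dep_BA hd) (bx_sub_cl L)) 0
    unfold mB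
    rw [this]
    rfl
  have bBA : Bd fun z : U → ℝ => BA L r f (z ∘ e) :=
    ⟨(measurable_BA hm).comp (measurable_comp e), 1, fun z => abs_BA_le hf _⟩
  have bWS : Bd fun z : U → ℝ => WS R K f (z ∘ e) := by
    have : (fun z : U → ℝ => WS R K f (z ∘ e)) = fun z => ∑ c ∈ sq (2 * R + 2), CX R K e f 1 c z := by
      funext z; exact (sum_CX z).symm
    rw [this]
    exact Bd.sum fun c _ => bd_CX hm hf 1
  have h1 : |mB L r f * (L : ℝ) ^ 2 - ∑ c ∈ sq (2 * R + 2), Ev Λ (tch E Λ) 0 (CX R K e f 1 c)| ≤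
      (L : ℝ) ^ 2 - ((2 * R + 2) ^ 2 * K ^ 2 : ℕ) := by
    rw [eB, ← Ev_mul_const, ← Ev_sum (fun c _ => bd_CX hm hf 1) hA h0]
    have e2 : (fun z : U → ℝ => ∑ c ∈ sq (2 * R + 2), CX R K e f 1 c z) =
        fun z => WS R K f (z ∘ e) := by funext z; exact sum_CX z
    rw [e2, ← Ev_sub (by
      have := bBA.const_mul ((L : ℝ) ^ 2)
      simpa [mul_comm] using this) bWS hA h0]
    refine abs_Ev_le ?_ hA h0 fun z => BA_WS hr hK hf _
    exact (by
      have := bBA.const_mul ((L : ℝ) ^ 2)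
      simpa [mul_comm] using this : Bd fun z : U → ℝ => BA L r f (z ∘ e) * (L : ℝ) ^ 2).sub bWS
  have h2 := BA_WS hr hK hf (z ∘ e)
  rw [← sum_CX (e := e) z] at h2
  -- sum of the deviations
  have hLpos : 0 < (L : ℝ) ^ 2 := by
    positivity
  have h3 : 3 / 4 * a * (L : ℝ) ^ 2 < |∑ c ∈ sq (2 * R + 2), X c| := by
    have e3 : ∑ c ∈ sq (2 * R + 2), X c =
        ∑ c ∈ sq (2 * R + 2), CX R K e f 1 c z -
          ∑ c ∈ sq (2 * R + 2), Ev Λ (tch E Λ) 0 (CX R K e f 1 c) := by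
      rw [← Finset.sum_sub_distrib]
    rw [e3]
    set P := ∑ c ∈ sq (2 * R + 2), CX R K e f 1 c z
    set P' := ∑ c ∈ sq (2 * R + 2), Ev Λ (tch E Λ) 0 (CX R K e f 1 c)
    have h4 : a * (L : ℝ) ^ 2 < |(BA L r f (z ∘ e) - mB L r f) * (L : ℝ) ^ 2| := by
      rw [abs_mul, abs_of_pos hLpos]
      exact mul_lt_mul_of_pos_right hz hLpos
    have h5 : (BA L r f (z ∘ e) - mB L r f) * (L : ℝ) ^ 2 =
        (P - P') + ((BA L r f (z ∘ e) * (L : ℝ) ^ 2 - P) - (mB L r f * (L : ℝ) ^ 2 - P')) := by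
      ring
    rw [h5] at h4
    have h6 := abs_add_le (P - P')
      ((BA L r f (z ∘ e) * (L : ℝ) ^ 2 - P) - (mB L r f * (L : ℝ) ^ 2 - P'))
    have h7 := abs_sub (BA L r f (z ∘ e) * (L : ℝ) ^ 2 - P) (mB L r f * (L : ℝ) ^ 2 - P')
    linarith
  by_contra hcon
  push Not at hcon
  -- bad classes
  set G := (sq (2 * R + 2)).filter fun c => CN R K e B c z ≤ v' * n with hG
  set G' := (sq (2 * R + 2)).filter fun c => ¬ CN R K e B c z ≤ v' * n with hG'
  have hsplit : ∑ c ∈ sq (2 * R + 2), X c = ∑ c ∈ G, X c + ∑ c ∈ G', X c :=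
    (Finset.sum_filter_add_sum_filter_not _ _ _).symm
  have hXb : ∀ c, |X c| ≤ 2 * n := by
    intro c
    have a1 := abs_CX_le (R := R) (K := K) (e := e) hf (c := c) z
    have a2 := abs_Ev_le (ξ := 0) (bd_CX (R := R) (K := K) (e := e) hm hf 1 (c := c)) hA h0
      (fun z => abs_CX_le hf z)
    have a3 := abs_sub (CX R K e f 1 c z) (Ev Λ (tch E Λ) 0 (CX R K e f 1 c))
    show |CX R K e f 1 c z - Ev Λ (tch E Λ) 0 (CX R K e f 1 c)| ≤ 2 * n
    linarith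
  have h8 : |∑ c ∈ G, X c| ≤ (M ^ 2 : ℕ) * (a / 2 * n) := by
    refine (Finset.abs_sum_le_sum_abs _ _).trans ?_
    refine (Finset.sum_le_card_nsmul _ _ (a / 2 * n) fun c hc => ?_).trans ?_
    · rw [hG, Finset.mem_filter] at hc
      exact (hcon c hc.1 hc.2).le
    · rw [nsmul_eq_mul]
      refine mul_le_mul_of_nonneg_right ?_ (by positivity)
      have : G.card ≤ M ^ 2 := by rw [← card_sq]; exact Finset.card_filter_le _ _
      exact_mod_cast this
  have h9 : (G'.card : ℝ) * (v' * n) ≤ v * n * (M ^ 2 : ℕ) := by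
    calc (G'.card : ℝ) * (v' * n) = ∑ c ∈ G', v' * n := by rw [Finset.sum_const, nsmul_eq_mul]
      _ ≤ ∑ c ∈ G', CN R K e B c z := by
          refine Finset.sum_le_sum fun c hc => ?_
          rw [hG', Finset.mem_filter] at hc
          exact (not_le.mp hc.2).le
      _ ≤ ∑ c ∈ sq (2 * R + 2), CN R K e B c z :=
          Finset.sum_le_sum_of_subset_of_nonneg (Finset.filter_subset _ _)
            fun c _ _ => SN_nonneg _ _ _
      _ ≤ _ := hN
  have h10 : |∑ c ∈ G', X c| ≤ (M ^ 2 : ℕ) * (a / 4 * n) := by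
    refine (Finset.abs_sum_le_sum_abs _ _).trans ?_
    refine (Finset.sum_le_card_nsmul _ _ (2 * n) fun c _ => hXb c).trans ?_
    rw [nsmul_eq_mul]
    have h11 : v' * ((G'.card : ℝ) * (2 * n)) ≤ v' * (((M ^ 2 : ℕ) : ℝ) * (a / 4 * n)) := by
      have hM0 : (0 : ℝ) ≤ (M ^ 2 : ℕ) := Nat.cast_nonneg _
      have h12 : 8 * v * (n * (M ^ 2 : ℕ)) ≤ v' * a * (n * (M ^ 2 : ℕ)) :=
        mul_le_mul_of_nonneg_right hv (by positivity)
      nlinarith
    exact le_of_mul_le_mul_left h11 hv0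
  have h11 : |∑ c ∈ sq (2 * R + 2), X c| ≤ 3 / 4 * a * ((M ^ 2 : ℕ) * n) := by
    rw [hsplit]
    refine (abs_add_le _ _).trans ?_
    linarith
  have h12 : ((M ^ 2 : ℕ) : ℝ) * n ≤ (L : ℝ) ^ 2 := by
    have h13 : M ^ 2 * K ^ 2 ≤ L ^ 2 := by
      rw [← mul_pow]
      exact Nat.pow_le_pow_left (by omega) 2
    have h14 : ((M ^ 2 * K ^ 2 : ℕ) : ℝ) ≤ ((L ^ 2 : ℕ) : ℝ) := by exact_mod_cast h13
    rw [Nat.cast_mul, Nat.cast_pow L] at h14
    exact h14
  have h13 : 3 / 4 * a * ((M ^ 2 : ℕ) * n) ≤ 3 / 4 * a * (L : ℝ) ^ 2 :=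
    mul_le_mul_of_nonneg_left h12 (by positivity)
  linarith

end Crest.Agent.R144.Lc279
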