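import Mathlib

/-! R144, block LC (helper146, msg 7199), leaf LCa: mass-pinning interpolation, pure calculus. -/

set_option autoImplicit false
set_option linter.unusedSectionVars false
set_option linter.unusedVariables false
open MeasureTheory Filter Set
open scoped Topology

namespace Crest.Agent.R144.LcA400

variable {Ω : Type*} [MeasurableSpace Ω]

/-- Unnormalised Gibbs integral of `f` with pinning `exp (-(M * G))`. -/
noncomputable def J (μ : Measure Ω) (G f : Ω → ℝ) (M : ℝ) : ℝ :=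
  ∫ x, f x * Real.exp (-(M * G x)) ∂μ

/-- Partition function. -/
noncomputable def Z (μ : Measure Ω) (G : Ω → ℝ) (M : ℝ) : ℝ :=
  ∫ x, Real.exp (-(M * G x)) ∂μ

/-- Gibbs expectation. -/
noncomputable def E (μ : Measure Ω) (G : Ω → ℝ) (M : ℝ) (f : Ω → ℝ) : ℝ :=
  (∫ x, f x * Real.exp (-(M * G x)) ∂μ) / Z μ G M

/-- Bounded measurable. -/
def Bd (f : Ω → ℝ) : Prop := Measurable f ∧ ∃ c : ℝ, ∀ x, |f x| ≤ c

lemma Bd.mul {f g : Ω → ℝ} (hf : Bd f) (hg : Bd g) : Bd (fun x => f x * g x) := by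
  obtain ⟨hf, c, hc⟩ := hf
  obtain ⟨hg, d, hd⟩ := hg
  refine ⟨hf.mul hg, c * d, fun x => ?_⟩
  rw [abs_mul]
  exact mul_le_mul (hc x) (hd x) (abs_nonneg _) ((abs_nonneg _).trans (hc x))

lemma Bd.add {f g : Ω → ℝ} (hf : Bd f) (hg : Bd g) : Bd (fun x => f x + g x) := by
  obtain ⟨hf, c, hc⟩ := hf
  obtain ⟨hg, d, hd⟩ := hg
  exact ⟨hf.add hg, c + d, fun x => (abs_add_le _ _).trans (add_le_add (hc x) (hd x))⟩

lemma Bd.const (c : ℝ) : Bd (fun _ : Ω => c) := ⟨measurable_const, |c|, fun _ => le_rfl⟩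

lemma Bd.smul {f : Ω → ℝ} (c : ℝ) (hf : Bd f) : Bd (fun x => c * f x) := (Bd.const c).mul hf

lemma exp_le {G : Ω → ℝ} {g K M : ℝ} (hG : ∀ x, |G x| ≤ g) (hM : |M| ≤ K) (x : Ω) :
    Real.exp (-(M * G x)) ≤ Real.exp (K * g) := by
  apply Real.exp_le_exp.2
  have h1 : |M * G x| ≤ K * g := by
    rw [abs_mul]
    exact mul_le_mul hM (hG x) (abs_nonneg _) ((abs_nonneg _).trans hM)
  have := neg_abs_le (M * G x)
  linarith

lemma Bd.exp {G : Ω → ℝ} (hG : Bd G) (M : ℝ) : Bd (fun x => Real.exp (-(M * G x))) := by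
  obtain ⟨hm, g, hg⟩ := hG
  refine ⟨Real.measurable_exp.comp ((hm.const_mul M).neg), Real.exp (|M| * g), fun x => ?_⟩
  rw [abs_of_pos (Real.exp_pos _)]
  exact exp_le hg le_rfl x

lemma Bd.integrable {f : Ω → ℝ} (μ : Measure Ω) [IsFiniteMeasure μ] (hf : Bd f) :
    Integrable f μ := by
  obtain ⟨hm, c, hc⟩ := hf
  exact Integrable.of_bound hm.aestronglyMeasurable c (ae_of_all _ fun x => by
    rw [Real.norm_eq_abs]; exact hc x)

lemma Bd.integrable_w {f G : Ω → ℝ} (μ : Measure Ω) [IsFiniteMeasure μ] (hf : Bd f) (hG : Bd G)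
    (M : ℝ) : Integrable (fun x => f x * Real.exp (-(M * G x))) μ :=
  (hf.mul (hG.exp M)).integrable μ

lemma J_def (μ : Measure Ω) (G f : Ω → ℝ) (M : ℝ) :
    J μ G f M = ∫ x, f x * Real.exp (-(M * G x)) ∂μ := rfl

lemma J_one (μ : Measure Ω) (G : Ω → ℝ) (M : ℝ) : J μ G (fun _ => 1) M = Z μ G M := by
  simp [J, Z]

lemma E_eq (μ : Measure Ω) (G f : Ω → ℝ) (M : ℝ) : E μ G M f = J μ G f M / Z μ G M := rfl

variable (μ : Measure Ω) [IsFiniteMeasure μ]

lemma J_add {G f g : Ω → ℝ} (hf : Bd f) (hg : Bd g) (hG : Bd G) (M : ℝ) :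
    J μ G (fun x => f x + g x) M = J μ G f M + J μ G g M := by
  unfold J
  rw [← integral_add (hf.integrable_w μ hG M) (hg.integrable_w μ hG M)]
  congr 1; funext x; ring

lemma J_smul {G f : Ω → ℝ} (c : ℝ) (M : ℝ) :
    J μ G (fun x => c * f x) M = c * J μ G f M := by
  unfold J
  rw [← integral_const_mul]
  congr 1; funext x; ring

lemma hasDerivAt_J {G f : Ω → ℝ} (hf : Bd f) (hG : Bd G) (M : ℝ) :
    HasDerivAt (J μ G f) (-(J μ G (fun x => f x * G x) M)) M := by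
  obtain ⟨g, hg⟩ := hG.2
  obtain ⟨c, hc⟩ := hf.2
  have key := (hasDerivAt_integral_of_dominated_loc_of_deriv_le (μ := μ) (𝕜 := ℝ)
    (F := fun (M : ℝ) (x : Ω) => f x * Real.exp (-(M * G x)))
    (F' := fun (M : ℝ) (x : Ω) => f x * (Real.exp (-(M * G x)) * (-(G x))))
    (bound := fun _ => c * (Real.exp ((|M| + 1) * g) * g))
    (s := Metric.ball M 1) (x₀ := M)
    (Metric.ball_mem_nhds M one_pos)
    (Eventually.of_forall fun M' => (hf.integrable_w μ hG M').aestronglyMeasurable)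
    (hf.integrable_w μ hG M) ?_ ?_ (integrable_const _) ?_).2
  · refine key.congr_deriv ?_
    unfold J
    rw [← integral_neg]
    congr 1; funext x; ring
  · exact (hf.1.mul (((hG.exp M).1).mul hG.1.neg)).aestronglyMeasurable
  · refine ae_of_all _ fun x M' hM' => ?_
    have h1 : |M'| ≤ |M| + 1 := by
      rw [Metric.mem_ball, Real.dist_eq] at hM'
      have := abs_add_le (M' - M) M
      rw [sub_add_cancel] at this
      linarith
    rw [Real.norm_eq_abs, abs_mul, abs_mul, abs_neg, abs_of_pos (Real.exp_pos _)]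
    have h2 := exp_le hg h1 x
    have h3 : 0 ≤ c := (abs_nonneg _).trans (hc x)
    have h4 : Real.exp (-(M' * G x)) * |G x| ≤ Real.exp ((|M| + 1) * g) * g :=
      mul_le_mul h2 (hg x) (abs_nonneg _) (Real.exp_pos _).le
    exact mul_le_mul (hc x) h4 (by positivity) h3
  · refine ae_of_all _ fun x M' _ => ?_
    have h1 : HasDerivAt (fun M : ℝ => -(M * G x)) (-(G x)) M' :=
      (hasDerivAt_mul_const (G x)).fun_neg
    exact (h1.exp).const_mul (f x)

lemma Z_pos (hμ : μ ≠ 0) {G : Ω → ℝ} (hG : Bd G) (M : ℝ) : 0 < Z μ G M := by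
  unfold Z
  rw [integral_pos_iff_support_of_nonneg (fun x => (Real.exp_pos _).le) ((hG.exp M).integrable μ)]
  have : Function.support (fun x => Real.exp (-(M * G x))) = univ := by
    ext x; simp [Real.exp_ne_zero]
  rw [this]
  exact Measure.measure_univ_pos.2 hμ

/-- Gibbs covariance. -/
noncomputable def Cv (G : Ω → ℝ) (M : ℝ) (f g : Ω → ℝ) : ℝ :=
  E μ G M (fun x => f x * g x) - E μ G M f * E μ G M g

lemma hasDerivAt_E (hμ : μ ≠ 0) {G f : Ω → ℝ} (hf : Bd f) (hG : Bd G) (M : ℝ) :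
    HasDerivAt (fun M => E μ G M f) (-(Cv μ G M f G)) M := by
  have hZ := (Z_pos μ hμ hG M).ne'
  have h1 := hasDerivAt_J μ hf hG M
  have h2 : HasDerivAt (Z μ G) (-(J μ G (fun x => G x) M)) M := by
    have := hasDerivAt_J μ (Bd.const 1) hG M
    have h3 : J μ G (fun _ => (1 : ℝ)) = Z μ G := by funext M; exact J_one μ G M
    rw [h3] at this
    simpa using this
  have h4 := h1.div h2 hZ
  refine h4.congr_deriv ?_
  simp only [Cv, E_eq]
  field_simp
  ring

lemma hasDerivAt_logZ (hμ : μ ≠ 0) {G : Ω → ℝ} (hG : Bd G) (M : ℝ) :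
    HasDerivAt (fun M => Real.log (Z μ G M)) (-(E μ G M G)) M := by
  have hZ := (Z_pos μ hμ hG M).ne'
  have h2 : HasDerivAt (Z μ G) (-(J μ G (fun x => G x) M)) M := by
    have := hasDerivAt_J μ (Bd.const 1) hG M
    have h3 : J μ G (fun _ => (1 : ℝ)) = Z μ G := by funext M; exact J_one μ G M
    rw [h3] at this
    simpa using this
  refine (h2.log hZ).congr_deriv ?_
  simp only [E_eq]
  rw [neg_div]

lemma E_add (hμ : μ ≠ 0) {G f g : Ω → ℝ} (hf : Bd f) (hg : Bd g) (hG : Bd G) (M : ℝ) :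
    E μ G M (fun x => f x + g x) = E μ G M f + E μ G M g := by
  rw [E_eq, J_add μ hf hg hG, add_div]; rfl

lemma E_smul {G f : Ω → ℝ} (c : ℝ) (M : ℝ) :
    E μ G M (fun x => c * f x) = c * E μ G M f := by
  rw [E_eq, J_smul, mul_div_assoc]; rfl

lemma E_const (hμ : μ ≠ 0) {G : Ω → ℝ} (hG : Bd G) (c : ℝ) (M : ℝ) :
    E μ G M (fun _ => c) = c := by
  have hZ := (Z_pos μ hμ hG M).ne'
  have : (fun _ : Ω => c) = fun x => c * (fun _ : Ω => (1 : ℝ)) x := by funext x; simp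
  rw [this, E_smul, E_eq, J_one, div_self hZ, mul_one]

lemma E_nonneg (hμ : μ ≠ 0) {G f : Ω → ℝ} (hG : Bd G) (hf : ∀ x, 0 ≤ f x) (M : ℝ) :
    0 ≤ E μ G M f := by
  rw [E_eq]
  exact div_nonneg (integral_nonneg fun x => mul_nonneg (hf x) (Real.exp_pos _).le)
    (Z_pos μ hμ hG M).le

lemma var_nonneg (hμ : μ ≠ 0) {G f : Ω → ℝ} (hf : Bd f) (hG : Bd G) (M : ℝ) :
    0 ≤ Cv μ G M f f := by
  set m := E μ G M f with hm
  have h0 : 0 ≤ E μ G M (fun x => (f x * f x + (-2 * m) * f x) + m ^ 2) :=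
    E_nonneg μ hμ hG (fun x => by nlinarith [sq_nonneg (f x - m)]) M
  have h1 := E_add μ hμ ((hf.mul hf).add (hf.smul (-2 * m))) (Bd.const (m ^ 2)) hG M
  have h2 := E_add μ hμ (hf.mul hf) (hf.smul (-2 * m)) hG M
  have h3 := E_smul μ (G := G) (f := f) (-2 * m) M
  have h4 := E_const μ hμ hG (m ^ 2) M
  rw [h1, h2, h3, h4, ← hm] at h0
  simp only [Cv, ← hm]
  nlinarith

lemma var_lin (hμ : μ ≠ 0) {G F : Ω → ℝ} (hF : Bd F) (hG : Bd G) (t M : ℝ) :
    Cv μ G M (fun x => F x + t * G x) (fun x => F x + t * G x)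
      = Cv μ G M F F + 2 * t * Cv μ G M F G + t ^ 2 * Cv μ G M G G := by
  have e1 : E μ G M (fun x => (F x + t * G x) * (F x + t * G x))
      = E μ G M (fun x => F x * F x) + 2 * t * E μ G M (fun x => F x * G x)
        + t ^ 2 * E μ G M (fun x => G x * G x) := by
    have : (fun x => (F x + t * G x) * (F x + t * G x))
        = fun x => ((fun x => F x * F x + (2 * t) * (F x * G x)) x) + t ^ 2 * (G x * G x) := by
      funext x; ring
    rw [this, E_add μ hμ ((hF.mul hF).add ((hF.mul hG).smul (2 * t))) ((hG.mul hG).smul (t ^ 2)) hG M,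
      E_add μ hμ (hF.mul hF) ((hF.mul hG).smul (2 * t)) hG M, E_smul, E_smul]
  have e2 : E μ G M (fun x => F x + t * G x) = E μ G M F + t * E μ G M G := by
    rw [E_add μ hμ hF (hG.smul t) hG M, E_smul]
  unfold Cv
  rw [e1, e2]
  ring

/-- One-sided covariance bound with a free parameter. -/
lemma cov_le (hμ : μ ≠ 0) {G F : Ω → ℝ} (hF : Bd F) (hG : Bd G) {s t M : ℝ} (ht : 0 < t)
    (hv : Cv μ G M F F ≤ s ^ 2) :
    |Cv μ G M F G| ≤ s ^ 2 / (2 * t) + t * Cv μ G M G G / 2 := by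
  have h1 := var_nonneg μ hμ (hF.add (hG.smul t)) hG M
  have h2 := var_nonneg μ hμ (hF.add (hG.smul (-t))) hG M
  rw [var_lin μ hμ hF hG] at h1 h2
  have h3 : |Cv μ G M F G| * (2 * t) ≤ s ^ 2 + t ^ 2 * Cv μ G M G G := by
    rcases abs_cases (Cv μ G M F G) with ⟨h, _⟩ | ⟨h, _⟩ <;> rw [h] <;> nlinarith
  have h4 : |Cv μ G M F G| ≤ (s ^ 2 + t ^ 2 * Cv μ G M G G) / (2 * t) := by
    rw [le_div_iff₀ (by positivity)]; exact h3
  refine h4.trans (le_of_eq ?_)
  field_simp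

/-- `A M = -M E_M G - log Z M`; its derivative is `M Var_M G`. -/
noncomputable def A (G : Ω → ℝ) (M : ℝ) : ℝ := -(M * E μ G M G) - Real.log (Z μ G M)

lemma hasDerivAt_A (hμ : μ ≠ 0) {G : Ω → ℝ} (hG : Bd G) (M : ℝ) :
    HasDerivAt (A μ G) (M * Cv μ G M G G) M := by
  have h1 := ((hasDerivAt_id M).mul (hasDerivAt_E μ hμ hG hG M)).neg
  have h2 := h1.sub (hasDerivAt_logZ μ hμ hG M)
  refine h2.congr_deriv ?_
  simp only [id]
  ring

lemma A_mono (hμ : μ ≠ 0) {G : Ω → ℝ} (hG : Bd G) {M0 M1 : ℝ} (h0 : 0 ≤ M0) (h1 : M0 ≤ M1) :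
    A μ G M0 ≤ A μ G M1 := by
  have hmono : MonotoneOn (A μ G) (Icc M0 M1) := by
    apply monotoneOn_of_deriv_nonneg (convex_Icc _ _)
    · exact fun M _ => (hasDerivAt_A μ hμ hG M).continuousAt.continuousWithinAt
    · exact fun M _ => (hasDerivAt_A μ hμ hG M).differentiableAt.differentiableWithinAt
    · intro M hM
      rw [interior_Icc] at hM
      rw [(hasDerivAt_A μ hμ hG M).deriv]
      exact mul_nonneg (h0.trans hM.1.le) (var_nonneg μ hμ hG hG M)
  exact hmono ⟨le_rfl, h1⟩ ⟨h1, le_rfl⟩ h1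

/-- Interpolation with free parameters `s, lam`. -/
lemma step (hμ : μ ≠ 0) {G F : Ω → ℝ} (hF : Bd F) (hG : Bd G) {M0 M1 s lam : ℝ}
    (h0 : 0 < M0) (h1 : M0 ≤ M1) (hs : 0 < s) (hl : 0 < lam)
    (hv : ∀ M ∈ Icc M0 M1, Cv μ G M F F ≤ s ^ 2) {σ : ℝ} (hσ : |σ| = 1) :
    σ * (E μ G M1 F - E μ G M0 F) ≤
      s / 2 * (lam * (A μ G M1 - A μ G M0) + Real.log (M1 / M0) / lam) := by
  let Φ : ℝ → ℝ := fun M => s / 2 * (lam * A μ G M + Real.log M / lam) - σ * E μ G M F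
  have hd : ∀ M, 0 < M → HasDerivAt Φ
      (s / 2 * (lam * (M * Cv μ G M G G) + M⁻¹ / lam) - σ * (-(Cv μ G M F G))) M := by
    intro M hM
    exact ((((hasDerivAt_A μ hμ hG M).const_mul lam).add
      ((Real.hasDerivAt_log hM.ne').div_const lam)).const_mul (s / 2)).sub
        ((hasDerivAt_E μ hμ hF hG M).const_mul σ)
  have hmono : MonotoneOn Φ (Icc M0 M1) := by
    apply monotoneOn_of_deriv_nonneg (convex_Icc _ _)
    · exact fun M hM => (hd M (h0.trans_le hM.1)).continuousAt.continuousWithinAt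
    · intro M hM
      rw [interior_Icc] at hM
      exact (hd M (h0.trans hM.1)).differentiableAt.differentiableWithinAt
    · intro M hM
      rw [interior_Icc] at hM
      have hMp : 0 < M := h0.trans hM.1
      rw [(hd M hMp).deriv]
      have hc := cov_le μ hμ hF hG (t := s * lam * M) (by positivity)
        (hv M ⟨hM.1.le, hM.2.le⟩)
      have e1 : s ^ 2 / (2 * (s * lam * M)) = s / 2 * (M⁻¹ / lam) := by
        field_simp
      have h5 : -(σ * Cv μ G M F G) ≤ |Cv μ G M F G| := by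
        have := neg_abs_le (σ * Cv μ G M F G)
        rw [abs_mul, hσ, one_mul] at this
        linarith
      rw [e1] at hc
      nlinarith
  have h := hmono ⟨le_rfl, h1⟩ ⟨h1, le_rfl⟩ h1
  simp only [Φ] at h
  have h2 : Real.log (M1 / M0) = Real.log M1 - Real.log M0 :=
    Real.log_div (h0.trans_le h1).ne' h0.ne'
  rw [h2]
  have h3 : (Real.log M1 - Real.log M0) / lam = Real.log M1 / lam - Real.log M0 / lam := by ring
  rw [h3]
  nlinarith

/-- **LEAF LCa** (general form with the increment of `A`). -/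
theorem pinning' (hμ : μ ≠ 0) {G F : Ω → ℝ} (hF : Bd F) (hG : Bd G) {M0 M1 v : ℝ}
    (h0 : 0 < M0) (h1 : M0 ≤ M1)
    (hv : ∀ M ∈ Icc M0 M1, Cv μ G M F F ≤ v) :
    |E μ G M1 F - E μ G M0 F| ≤
      Real.sqrt (v * Real.log (M1 / M0) * (A μ G M1 - A μ G M0)) := by
  set R := A μ G M1 - A μ G M0 with hR
  set ℓ := Real.log (M1 / M0) with hℓ
  have hR0 : 0 ≤ R := sub_nonneg.2 (A_mono μ hμ hG h0.le h1)
  have hℓ0 : 0 ≤ ℓ := Real.log_nonneg ((one_le_div h0).2 h1)
  have hv0 : 0 ≤ v := (var_nonneg μ hμ hF hG M0).trans (hv M0 ⟨le_rfl, h1⟩)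
  have key : ∀ ε : ℝ, 0 < ε → |E μ G M1 F - E μ G M0 F| ≤
      Real.sqrt (v + ε) * Real.sqrt ((ℓ + ε) * (R + ε)) := by
    intro ε hε
    have hs : 0 < Real.sqrt (v + ε) := Real.sqrt_pos.2 (by linarith)
    have hs2 : Real.sqrt (v + ε) ^ 2 = v + ε := Real.sq_sqrt (by linarith)
    have hRε : 0 < R + ε := by linarith
    have hℓε : 0 < ℓ + ε := by linarith
    set lam := Real.sqrt ((ℓ + ε) / (R + ε)) with hlam
    have hl : 0 < lam := Real.sqrt_pos.2 (by positivity)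
    have hb : ∀ σ : ℝ, |σ| = 1 → σ * (E μ G M1 F - E μ G M0 F) ≤
        Real.sqrt (v + ε) * Real.sqrt ((ℓ + ε) * (R + ε)) := by
      intro σ hσ
      refine (step μ hμ hF hG h0 h1 hs hl (fun M hM => ?_) hσ).trans ?_
      · rw [hs2]; linarith [hv M hM]
      · rw [← hR, ← hℓ]
        have hq : lam * (R + ε) = Real.sqrt ((ℓ + ε) * (R + ε)) := by
          rw [hlam, Real.sqrt_div hℓε.le, Real.sqrt_mul hℓε.le]
          have := Real.mul_self_sqrt hRε.le
          have h2 := (Real.sqrt_pos.2 hRε).ne'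
          field_simp
          rw [sq, this]
        have hq2 : (ℓ + ε) / lam = Real.sqrt ((ℓ + ε) * (R + ε)) := by
          rw [hlam, Real.sqrt_div hℓε.le, Real.sqrt_mul hℓε.le]
          have h3 := Real.mul_self_sqrt hℓε.le
          have h2 := (Real.sqrt_pos.2 hRε).ne'
          have h4 := (Real.sqrt_pos.2 hℓε).ne'
          rw [div_div_eq_mul_div, div_eq_iff h4]
          linear_combination (-(Real.sqrt (R + ε))) * h3
        have h5 : lam * R + ℓ / lam ≤ 2 * Real.sqrt ((ℓ + ε) * (R + ε)) := by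
          have h6 : lam * R ≤ lam * (R + ε) := mul_le_mul_of_nonneg_left (by linarith) hl.le
          have h7 : ℓ / lam ≤ (ℓ + ε) / lam := div_le_div_of_nonneg_right (by linarith) hl.le
          rw [hq] at h6
          rw [hq2] at h7
          linarith
        nlinarith
    rcases abs_cases (E μ G M1 F - E μ G M0 F) with ⟨h, _⟩ | ⟨h, _⟩
    · rw [h]; simpa using hb 1 (by simp)
    · rw [h]; simpa using hb (-1) (by simp)
  have hlim : Tendsto (fun ε : ℝ => Real.sqrt (v + ε) * Real.sqrt ((ℓ + ε) * (R + ε)))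
      (𝓝[>] 0) (𝓝 (Real.sqrt (v + 0) * Real.sqrt ((ℓ + 0) * (R + 0)))) := by
    apply Tendsto.mono_left _ nhdsWithin_le_nhds
    have : Continuous (fun ε : ℝ => Real.sqrt (v + ε) * Real.sqrt ((ℓ + ε) * (R + ε))) := by
      fun_prop
    exact this.tendsto 0
  have h := ge_of_tendsto hlim (eventually_nhdsWithin_of_forall fun ε hε => key ε hε)
  refine h.trans (le_of_eq ?_)
  rw [add_zero, add_zero, add_zero, mul_assoc, Real.sqrt_mul hv0]

/-- **LEAF LCa**, literal form of msg 7199. -/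
theorem pinning (hμ : μ ≠ 0) {G F : Ω → ℝ} {g c : ℝ} (hGm : Measurable G) (hFm : Measurable F)
    (hG0 : ∀ x, 0 ≤ G x) (hG1 : ∀ x, G x ≤ g) (hFc : ∀ x, |F x| ≤ c) {M0 M1 v : ℝ}
    (h0 : 0 < M0) (h1 : M0 ≤ M1)
    (hv : ∀ M ∈ Icc M0 M1, E μ G M (fun x => F x ^ 2) - (E μ G M F) ^ 2 ≤ v) :
    |E μ G M1 F - E μ G M0 F| ≤
      Real.sqrt (v * Real.log (M1 / M0) *
        (M0 * E μ G M0 G + Real.log (Z μ G M0 / Z μ G M1))) := by
  have hG : Bd G := ⟨hGm, g, fun x => by rw [abs_of_nonneg (hG0 x)]; exact hG1 x⟩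
  have hF : Bd F := ⟨hFm, c, hFc⟩
  have hv' : ∀ M ∈ Icc M0 M1, Cv μ G M F F ≤ v := by
    intro M hM
    have := hv M hM
    simp only [Cv]
    have e : (fun x => F x * F x) = fun x => F x ^ 2 := by funext x; ring
    rw [e]; nlinarith
  refine (pinning' μ hμ hF hG h0 h1 hv').trans (Real.sqrt_le_sqrt ?_)
  have hv0 : 0 ≤ v := (var_nonneg μ hμ hF hG M0).trans (hv' M0 ⟨le_rfl, h1⟩)
  have hℓ0 : 0 ≤ Real.log (M1 / M0) := Real.log_nonneg ((one_le_div h0).2 h1)
  apply mul_le_mul_of_nonneg_left _ (mul_nonneg hv0 hℓ0)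
  have hE : 0 ≤ M1 * E μ G M1 G :=
    mul_nonneg (h0.le.trans h1) (E_nonneg μ hμ hG hG0 M1)
  rw [Real.log_div (Z_pos μ hμ hG M0).ne' (Z_pos μ hμ hG M1).ne']
  unfold A
  linarith

end Crest.Agent.R144.LcA400
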