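import Crest.Agent.R144.Lw7_425

/-!
R144 (S0197), helper425.  Ldom (leaf DOM): the joint law of the height differences
`x_{φ a} - x_{φ 0}`, `a ∈ hball R \ 0`, under the uniform measure on a hammock polytope has a density
bounded by an explicit constant depending only on `R` (times `volume (ham F E 0)`).
-/

set_option autoImplicit false

open MeasureTheory Set Filter Topology
open scoped ENNReal

noncomputable section

namespace Crest.Agent.R144.Lw425

open Crest.Agent.R144.Ham560

variable {U : Type*} [DecidableEq U] {F : Finset U} {E : Finset (U × U)} {ξ : U → ℝ}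

/-- The punctured ball. -/
def pb (R : ℕ) : Finset (ℤ × ℤ) := (hball R).erase 0

theorem mem_pb {R : ℕ} {a : ℤ × ℤ} : a ∈ pb R ↔ a ≠ 0 ∧ hd a 0 ≤ R := by
  rw [pb, Finset.mem_erase, mem_hball]

/-- A fresh list consisting of the edges to the parents. -/
theorem exists_tree {R : ℕ} {φ : ℤ × ℤ → U} (hW : Win F E R φ) {w : ℝ} (hw : 0 < w)
    (A : Finset (ℤ × ℤ)) : (∀ a ∈ A, a ∈ pb R) → ∃ S : List ((U × U) × ℝ), FreshR F E S ∧
      S.length = A.card ∧ ∀ q ∈ S, ∃ a ∈ A, q = ((φ a, φ (stp a)), w) := by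
  induction A using Finset.induction_on_max_value (fun a : ℤ × ℤ => hd a 0) with
  | empty => exact fun _ => ⟨[], FreshR.nil, rfl, by simp⟩
  | @insert a s has hmax ih =>
    intro hA
    obtain ⟨S, h1, h2, h3⟩ := ih fun b hb => hA b (Finset.mem_insert_of_mem hb)
    have ha := mem_pb.mp (hA a (Finset.mem_insert_self _ _))
    obtain ⟨g1, g2⟩ := stp_spec ha.1
    have hab : a ∈ hball R := mem_hball.mpr ha.2
    have hsb : stp a ∈ hball R := mem_hball.mpr (by omega)
    refine ⟨((φ a, φ (stp a)), w) :: S, ?_, ?_, ?_⟩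
    · refine FreshR.cons h1 (hW.free a hab) (hW.edge a hab _ hsb g1) hw ?_
      intro q hq
      obtain ⟨b, hb, rfl⟩ := h3 q hq
      have hb' := mem_pb.mp (hA b (Finset.mem_insert_of_mem hb))
      obtain ⟨k1, k2⟩ := stp_spec hb'.1
      have hbb : b ∈ hball R := mem_hball.mpr hb'.2
      have hsbb : stp b ∈ hball R := mem_hball.mpr (by omega)
      have hle := hmax b hb
      constructor
      · intro he
        have := hW.inj _ hbb _ hab he
        exact has (this ▸ hb)
      · intro he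
        have := hW.inj _ hsbb _ hab he
        rw [this] at k2
        omega
    · rw [List.length_cons, h2, Finset.card_insert_of_notMem has]
    · intro q hq
      rcases List.mem_cons.mp hq with rfl | hq
      · exact ⟨a, Finset.mem_insert_self _ _, rfl⟩
      · obtain ⟨b, hb, hb'⟩ := h3 q hq
        exact ⟨b, Finset.mem_insert_of_mem hb, hb'⟩

/-- The height differences seen from the centre of the window. -/
def dif (R : ℕ) (φ : ℤ × ℤ → U) (h : U → ℝ) : pb R → ℝ := fun a => h (φ a) - h (φ 0)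

omit [DecidableEq U] in
theorem wgt_of_const (n : ℕ) {w : ℝ} (S : List ((U × U) × ℝ)) (h : ∀ q ∈ S, q.2 = w) :
    wgt n S = ENNReal.ofReal (64 * (n : ℝ) ^ 2 * w) ^ S.length := by
  induction S with
  | nil => rfl
  | cons q S ih =>
    rw [wgt_cons, ih fun q' hq' => h q' (List.mem_cons_of_mem _ hq'), h q List.mem_cons_self,
      List.length_cons]
    exact (pow_succ' _ _).symm

/-- Joint bound for a cube of height differences. -/
theorem dif_ball_le {R : ℕ} {φ : ℤ × ℤ → U} (hW : Win F E R φ) {n : ℕ}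
    (hn : ∀ v ∈ F, (nbr E v).card ≤ n) (y : pb R → ℝ) {s : ℝ} (hs : 0 < s) :
    volume (ham F E ξ ∩ {x | ∀ a : pb R, |dif R φ (Ham560.ext F ξ x) a - y a| ≤ s}) ≤
      ENNReal.ofReal (64 * (n : ℝ) ^ 2 * (2 * s)) ^ (pb R).card * volume (ham F E 0) := by
  classical
  obtain ⟨S, h1, h2, h3⟩ := exists_tree hW (w := 2 * s) (by positivity) (pb R) fun a ha => ha
  -- the centres
  set y' : ℤ × ℤ → ℝ := fun a => if h : a ∈ pb R then y ⟨a, h⟩ else 0 with hy'
  set ψ : U → ℤ × ℤ := Function.invFunOn φ (hball R : Set (ℤ × ℤ)) with hψ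
  have hinj : Set.InjOn φ (hball R : Set (ℤ × ℤ)) := fun a ha b hb hab =>
    hW.inj a (Finset.mem_coe.mp ha) b (Finset.mem_coe.mp hb) hab
  have hψφ : ∀ a ∈ hball R, ψ (φ a) = a := fun a ha =>
    hinj.leftInvOn_invFunOn (Finset.mem_coe.mpr ha)
  have hkey := vol_box_le (ξ := ξ) h1 hn (fun q => y' (ψ q.1) - y' (ψ q.2))
  have hwgt : wgt n S = ENNReal.ofReal (64 * (n : ℝ) ^ 2 * (2 * s)) ^ (pb R).card := by
    rw [wgt_of_const n (w := 2 * s) S (by
      intro q hq
      obtain ⟨a, _, rfl⟩ := h3 q hq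
      rfl), h2]
  rw [hwgt] at hkey
  refine (measure_mono ?_).trans hkey
  rintro x ⟨hx, hx'⟩
  refine ⟨hx, fun q hq => ?_⟩
  obtain ⟨a, ha, rfl⟩ := h3 q hq
  have ha' := mem_pb.mp ha
  obtain ⟨g1, g2⟩ := stp_spec ha'.1
  have hab : a ∈ hball R := mem_hball.mpr ha'.2
  have hsb : stp a ∈ hball R := mem_hball.mpr (by omega)
  show |Ham560.ext F ξ x (φ a) - Ham560.ext F ξ x (φ (stp a)) -
    (y' (ψ (φ a)) - y' (ψ (φ (stp a))))| ≤ 2 * s
  rw [hψφ a hab, hψφ _ hsb]
  have e : ∀ b ∈ hball R, |Ham560.ext F ξ x (φ b) - Ham560.ext F ξ x (φ 0) - y' b| ≤ s := by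
    intro b hb
    by_cases hb0 : b = 0
    · subst hb0
      have : y' 0 = 0 := by
        simp only [hy']
        rw [dif_neg]
        intro h; exact (mem_pb.mp h).1 rfl
      rw [this]; simp; exact hs.le
    · have hbp : b ∈ pb R := mem_pb.mpr ⟨hb0, mem_hball.mp hb⟩
      have := hx' ⟨b, hbp⟩
      have e2 : y' b = y ⟨b, hbp⟩ := by simp only [hy']; rw [dif_pos hbp]
      rw [e2]; exact this
  have e1 := abs_le.mp (e a hab)
  have e2 := abs_le.mp (e _ hsb)
  rw [abs_le]; constructor <;> linarith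

/-- The constant of the domination. -/
def domC (R n : ℕ) : ℝ≥0∞ := ENNReal.ofReal (64 * (n : ℝ) ^ 2) ^ (pb R).card

theorem volume_closedBall_pb {R : ℕ} (y : pb R → ℝ) {s : ℝ} (hs : 0 ≤ s) :
    volume (Metric.closedBall y s) = ENNReal.ofReal (2 * s) ^ (pb R).card := by
  rw [Real.volume_pi_closedBall y hs, Fintype.card_coe, ENNReal.ofReal_pow (by positivity)]

theorem measurable_dif (R : ℕ) (φ : ℤ × ℤ → U) :
    Measurable (fun x : F → ℝ => dif R φ (Ham560.ext F ξ x)) :=
  measurable_pi_lambda _ fun a =>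
    ((continuous_ext (F := F) (ξ := ξ) (φ a)).sub (continuous_ext (φ 0))).measurable

/-- The linear part of the difference map on a window of free sites. -/
def difL (F : Finset U) (R : ℕ) (φ : ℤ × ℤ → U) : (F → ℝ) →ₗ[ℝ] (pb R → ℝ) :=
  LinearMap.pi fun a => extL F (φ a) - extL F (φ 0)

theorem difL_apply (R : ℕ) (φ : ℤ × ℤ → U) (x : F → ℝ) :
    difL F R φ x = dif R φ (Ham560.ext F 0 x) := rfl

theorem dif_eq_difL {R : ℕ} {φ : ℤ × ℤ → U} (hW : Win F E R φ) (x : F → ℝ) :
    dif R φ (Ham560.ext F ξ x) = difL F R φ x := by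
  rw [difL_apply]
  funext a
  have ha := mem_pb.mp a.2
  have h0 : (0 : ℤ × ℤ) ∈ hball R := mem_hball.mpr (by rw [hd_self]; positivity)
  unfold dif
  rw [ext_mem (hW.free _ (mem_hball.mpr ha.2)), ext_mem (hW.free _ h0),
    ext_mem (hW.free _ (mem_hball.mpr ha.2)), ext_mem (hW.free _ h0)]

theorem difL_surjective {R : ℕ} {φ : ℤ × ℤ → U} (hW : Win F E R φ) :
    Function.Surjective (difL F R φ) := by
  classical
  intro y
  have h0 : (0 : ℤ × ℤ) ∈ hball R := mem_hball.mpr (by rw [hd_self]; positivity)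
  have hinj : Set.InjOn φ (hball R : Set (ℤ × ℤ)) := fun a ha b hb hab =>
    hW.inj a (Finset.mem_coe.mp ha) b (Finset.mem_coe.mp hb) hab
  set ψ : U → ℤ × ℤ := Function.invFunOn φ (hball R : Set (ℤ × ℤ)) with hψ
  have hψφ : ∀ a ∈ hball R, ψ (φ a) = a := fun a ha =>
    hinj.leftInvOn_invFunOn (Finset.mem_coe.mpr ha)
  refine ⟨fun u => if h : ψ u ∈ pb R then y ⟨ψ u, h⟩ else 0, ?_⟩
  rw [← dif_eq_difL (ξ := 0) hW]
  funext a
  have ha := mem_pb.mp a.2
  unfold dif
  rw [ext_mem (hW.free _ (mem_hball.mpr ha.2)), ext_mem (hW.free _ h0)]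
  simp only
  rw [hψφ _ (mem_hball.mpr ha.2), hψφ _ h0, dif_pos a.2, dif_neg, sub_zero]
  intro h; exact (mem_pb.mp h).1 rfl

/-- **DOM.**  Domination of the law of the height differences. -/
theorem dif_dom {R : ℕ} {φ : ℤ × ℤ → U} (hW : Win F E R φ) {n : ℕ}
    (hn : ∀ v ∈ F, (nbr E v).card ≤ n) (hfin : volume (ham F E 0) ≠ ∞)
    {A : Set (pb R → ℝ)} (hA : MeasurableSet A) :
    volume (ham F E ξ ∩ {x | dif R φ (Ham560.ext F ξ x) ∈ A}) ≤
      domC R n * volume (ham F E 0) * volume A := by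
  set T : (F → ℝ) → (pb R → ℝ) := fun x => dif R φ (Ham560.ext F ξ x) with hT
  have hTm : Measurable T := measurable_dif R φ
  have hTL : T = difL F R φ := by funext x; exact dif_eq_difL hW x
  set ρ : Measure (pb R → ℝ) := (volume.restrict (ham F E ξ)).map T with hρ
  have hρA : ∀ B : Set (pb R → ℝ), MeasurableSet B →
      ρ B = volume (ham F E ξ ∩ {x | dif R φ (Ham560.ext F ξ x) ∈ B}) := by
    intro B hB
    rw [hρ, Measure.map_apply hTm hB, Measure.restrict_apply (hTm hB), inter_comm]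
    rfl
  have hac : ρ ≪ volume := by
    obtain ⟨c, _, hc⟩ := LinearMap.exists_map_addHaar_eq_smul_addHaar (L := difL F R φ)
      (μ := (volume : Measure (F → ℝ))) (ν := (volume : Measure (pb R → ℝ)))
      (difL_surjective hW)
    intro B hB
    have h2 : (volume.map T) B = 0 := by
      rw [hTL, hc, Measure.smul_apply, hB, smul_zero]
    exact (Measure.absolutelyContinuous_of_le (Measure.map_mono Measure.restrict_le_self hTm)) h2
  set c : ℝ≥0∞ := domC R n * volume (ham F E 0) with hc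
  have hctop : c ≠ ∞ := ENNReal.mul_ne_top (ENNReal.pow_ne_top ENNReal.ofReal_ne_top) hfin
  have hloc : IsLocallyFiniteMeasure (c • (volume : Measure (pb R → ℝ))) :=
    ⟨fun y => by
      refine ⟨Metric.closedBall y 1, Metric.closedBall_mem_nhds y one_pos, ?_⟩
      rw [Measure.smul_apply, smul_eq_mul]
      exact ENNReal.mul_lt_top hctop.lt_top (isCompact_closedBall y 1).measure_lt_top⟩
  have key := (Besicovitch.vitaliFamily (volume : Measure (pb R → ℝ))).measure_le_of_frequently_le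
    (ρ := ρ) (c • volume) hac A ?_
  · rw [← hρA A hA]
    rw [Measure.smul_apply, smul_eq_mul] at key
    exact key
  · intro y _
    refine (Besicovitch.tendsto_filterAt (volume : Measure (pb R → ℝ)) y).frequently ?_
    refine Eventually.frequently ?_
    filter_upwards [self_mem_nhdsWithin] with s hs
    have hs' : (0:ℝ) < s := hs
    rw [hρA _ Metric.isClosed_closedBall.measurableSet, Measure.smul_apply, smul_eq_mul,
      volume_closedBall_pb y hs'.le]
    refine (measure_mono ?_).trans ((dif_ball_le (ξ := ξ) hW hn y hs').trans (le_of_eq ?_))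
    · rintro x ⟨hx, hx'⟩
      refine ⟨hx, fun a => ?_⟩
      have h1 : dif R φ (Ham560.ext F ξ x) ∈ Metric.closedBall y s := hx'
      rw [Metric.mem_closedBall, dist_pi_le_iff hs'.le] at h1
      have := h1 a
      rwa [Real.dist_eq] at this
    · rw [hc, domC, ENNReal.ofReal_mul (by positivity), mul_pow]
      ring

/-- Probability form for data with comparable partition function. -/
theorem dif_dom_prob {R : ℕ} {φ : ℤ × ℤ → U} (hW : Win F E R φ) {n : ℕ}
    (hn : ∀ v ∈ F, (nbr E v).card ≤ n) (hfin : volume (ham F E 0) ≠ ∞)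
    {A : Set (pb R → ℝ)} (hA : MeasurableSet A) {κ : ℝ≥0∞}
    (hκ : volume (ham F E 0) ≤ κ * volume (ham F E ξ)) :
    hamP F E ξ {x | dif R φ (Ham560.ext F ξ x) ∈ A} ≤ domC R n * κ * volume A := by
  have hm : MeasurableSet {x : F → ℝ | dif R φ (Ham560.ext F ξ x) ∈ A} :=
    measurable_dif (ξ := ξ) R φ hA
  have e : hamP F E ξ {x | dif R φ (Ham560.ext F ξ x) ∈ A} =
      volume (ham F E ξ ∩ {x | dif R φ (Ham560.ext F ξ x) ∈ A}) / volume (ham F E ξ) := uP_apply hm
  rw [e]
  refine ENNReal.div_le_of_le_mul ?_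
  refine (dif_dom hW hn hfin hA).trans ?_
  calc domC R n * volume (ham F E 0) * volume A ≤
        domC R n * (κ * volume (ham F E ξ)) * volume A := by gcongr
    _ = domC R n * κ * volume A * volume (ham F E ξ) := by ring

end Crest.Agent.R144.Lw425
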