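import Crest.Agent.R144.Ldom_425

/-!
R144 (S0197), helper425.  Lmu1: from a convergent functional on local observables to a MEASURE.

`exists_mu` : `ν n` probability measures on pinned heights (`|h a| ≤ (hd a 0 : ℝ)`), marginals on `pb r` eventually
dominated by `C r • volume`, `∫ f ∂(ν n) → m f` for every local bounded measurable observable `f`.  Then there
is a probability measure `μ` with `∫ f ∂μ = m f`, carried by the same heights, with dominated marginals.
-/

set_option autoImplicit false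

open MeasureTheory Set Filter Topology
open scoped ENNReal BoundedContinuousFunction

noncomputable section

namespace Crest.Agent.R144.Lw425

/-- Pinned heights as a compact space. -/
abbrev HX : Type := ∀ a : ℤ × ℤ, Set.Icc (-(hd a 0 : ℝ)) (hd a 0 : ℝ)

theorem hd_cast_nonneg (a : ℤ × ℤ) : -(hd a 0 : ℝ) ≤ (hd a 0 : ℝ) := by
  have : (0 : ℝ) ≤ (hd a 0 : ℝ) := by exact_mod_cast hd_nonneg a 0
  linarith

/-- The embedding in heights. -/
def emb (h : HX) : ℤ × ℤ → ℝ := fun a => h a

/-- Clamping. -/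
def clmp (h : ℤ × ℤ → ℝ) : HX := fun a => Set.projIcc _ _ (hd_cast_nonneg a) (h a)

theorem continuous_emb : Continuous emb :=
  continuous_pi fun a => continuous_subtype_val.comp (continuous_apply a)

theorem measurable_emb : Measurable emb := continuous_emb.measurable

theorem measurable_clmp : Measurable clmp :=
  measurable_pi_lambda _ fun a =>
    (continuous_projIcc (h := hd_cast_nonneg a)).measurable.comp (measurable_pi_apply a)

theorem emb_clmp {h : ℤ × ℤ → ℝ} (hh : ∀ a, |h a| ≤ (hd a 0 : ℝ)) : emb (clmp h) = h := by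
  funext a
  unfold emb clmp
  have := abs_le.mp (hh a)
  rw [Set.projIcc_of_mem _ this]

theorem abs_emb_le (h : HX) (a : ℤ × ℤ) : |emb h a| ≤ hd a 0 := abs_le.mpr (h a).2

/-- Restriction to the punctured ball. -/
def rst (r : ℕ) (h : ℤ × ℤ → ℝ) : pb r → ℝ := fun a => h a

theorem measurable_rst (r : ℕ) : Measurable (rst r) :=
  measurable_pi_lambda _ fun _ => measurable_pi_apply _

theorem continuous_rst (r : ℕ) : Continuous (rst r) :=
  continuous_pi fun _ => continuous_apply _

/-- Extension by zero. -/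
def xt (r : ℕ) (z : pb r → ℝ) (a : ℤ × ℤ) : ℝ := if h : a ∈ pb r then z ⟨a, h⟩ else 0

theorem measurable_xt (r : ℕ) : Measurable (xt r) := by
  refine measurable_pi_lambda _ fun a => ?_
  by_cases h : a ∈ pb r
  · simp only [xt, h, dif_pos]; exact measurable_pi_apply _
  · simp only [xt, h, dif_neg, not_false_eq_true]; exact measurable_const

theorem LObs.eq_xt {r : ℕ} {f : (ℤ × ℤ → ℝ) → ℝ} (hf : LObs r f) {h : ℤ × ℤ → ℝ} (h0 : h 0 = 0) :
    f h = f (xt r (rst r h)) := by
  refine hf.loc _ _ fun a ha => ?_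
  by_cases hp : a ∈ pb r
  · simp only [xt, dif_pos hp]; rfl
  · simp only [xt, dif_neg hp]
    have : a = 0 := by
      by_contra hne
      exact hp (mem_pb.mpr ⟨hne, mem_hball.mp ha⟩)
    rw [this, h0]

/-- The box containing the restrictions. -/
def pbx (r : ℕ) : Set (pb r → ℝ) := Set.pi Set.univ fun a => Set.Icc (-(hd a 0 : ℝ)) (hd a 0)

theorem isCompact_pbx (r : ℕ) : IsCompact (pbx r) := isCompact_univ_pi fun _ => isCompact_Icc

/-- Measure domination on the marginal. -/
theorem map_le {r : ℕ} {μ : Measure (ℤ × ℤ → ℝ)} (hs : ∀ᵐ h ∂μ, ∀ a, |h a| ≤ (hd a 0 : ℝ))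
    {C : ℝ≥0∞} (hC : ∀ A : Set (pb r → ℝ), MeasurableSet A → μ {h | rst r h ∈ A} ≤ C * volume A) :
    μ.map (rst r) ≤ C • (volume.restrict (pbx r)) := by
  refine Measure.le_iff.mpr fun A hA => ?_
  rw [Measure.map_apply (measurable_rst r) hA, Measure.smul_apply, smul_eq_mul,
    Measure.restrict_apply hA]
  have h1 : μ (rst r ⁻¹' A) = μ {h | rst r h ∈ A ∩ pbx r} := by
    refine measure_congr ?_
    filter_upwards [hs] with h hh
    refine propext ⟨fun h1 => ⟨h1, fun a _ => abs_le.mp (hh a)⟩, fun h1 => h1.1⟩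
  rw [h1]
  exact hC _ (hA.inter (isCompact_pbx r).isClosed.measurableSet)

/-- Comparison of a local observable with a continuous function on the marginal. -/
theorem approx_le {r : ℕ} {μ : Measure (ℤ × ℤ → ℝ)} [IsProbabilityMeasure μ]
    (hs : ∀ᵐ h ∂μ, ∀ a, |h a| ≤ (hd a 0 : ℝ)) {C : ℝ≥0∞} (hCt : C ≠ ∞)
    (hC : ∀ A : Set (pb r → ℝ), MeasurableSet A → μ {h | rst r h ∈ A} ≤ C * volume A)
    {f : (ℤ × ℤ → ℝ) → ℝ} (hf : LObs r f) (g : (pb r → ℝ) →ᵇ ℝ) :
    |∫ h, f h ∂μ - ∫ h, g (rst r h) ∂μ| ≤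
      C.toReal * ∫ z in pbx r, ‖f (xt r z) - g z‖ := by
  have hfm : Measurable fun z => f (xt r z) := hf.meas.comp (measurable_xt r)
  have hbdd : ∀ z, ‖f (xt r z) - g z‖ ≤ 1 + ‖g‖ := fun z =>
    (norm_sub_le _ _).trans (add_le_add (by rw [Real.norm_eq_abs]; exact hf.bd _)
      (g.norm_coe_le_norm z))
  have i1 : Integrable (fun h => f h) μ :=
    Integrable.of_bound hf.meas.aestronglyMeasurable 1 (Eventually.of_forall fun h => by
      rw [Real.norm_eq_abs]; exact hf.bd h)
  have i2 : Integrable (fun h => g (rst r h)) μ :=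
    Integrable.of_bound ((g.continuous.comp (continuous_rst r)).measurable.aestronglyMeasurable) ‖g‖
      (Eventually.of_forall fun h => g.norm_coe_le_norm _)
  rw [← integral_sub i1 i2]
  have h0 : ∀ᵐ h ∂μ, h 0 = 0 := by
    filter_upwards [hs] with h hh
    have := hh 0
    rw [hd_self] at this
    simpa using this
  have e1 : ∫ h, (f h - g (rst r h)) ∂μ = ∫ h, (f (xt r (rst r h)) - g (rst r h)) ∂μ := by
    refine integral_congr_ae ?_
    filter_upwards [h0] with h hh
    rw [hf.eq_xt hh]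
  rw [e1]
  have hfin : IsFiniteMeasure ((volume : Measure (pb r → ℝ)).restrict (pbx r)) :=
    ⟨by rw [Measure.restrict_apply_univ]; exact (isCompact_pbx r).measure_lt_top⟩
  have hm : Measurable fun z => ‖f (xt r z) - g z‖ :=
    (hfm.sub g.continuous.measurable).norm
  calc |∫ h, (f (xt r (rst r h)) - g (rst r h)) ∂μ|
      ≤ ∫ h, ‖f (xt r (rst r h)) - g (rst r h)‖ ∂μ := by
        rw [← Real.norm_eq_abs]; exact norm_integral_le_integral_norm _
    _ = ∫ z, ‖f (xt r z) - g z‖ ∂(μ.map (rst r)) := by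
        rw [integral_map (measurable_rst r).aemeasurable hm.aestronglyMeasurable]
    _ ≤ ∫ z, ‖f (xt r z) - g z‖ ∂(C • (volume.restrict (pbx r))) := by
        refine integral_mono_measure (map_le hs hC) (Eventually.of_forall fun z => norm_nonneg _) ?_
        refine Integrable.smul_measure ?_ hCt
        exact Integrable.of_bound hm.aestronglyMeasurable (1 + ‖g‖) (Eventually.of_forall fun z => by
          rw [norm_norm]; exact hbdd z)
    _ = C.toReal * ∫ z in pbx r, ‖f (xt r z) - g z‖ := by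
        rw [integral_smul_measure]; rfl

/-- Domination passes to weak limits. -/
theorem dom_limit {r : ℕ} {U : Filter ℕ} [U.NeBot] {ν : ℕ → ProbabilityMeasure HX}
    {ν0 : ProbabilityMeasure HX} (hlim : Tendsto ν U (𝓝 ν0)) {C : ℝ≥0∞} (hCt : C ≠ ∞)
    (hC : ∀ᶠ n in U, ∀ A : Set (pb r → ℝ), MeasurableSet A →
      (ν n : Measure HX) {h | rst r (emb h) ∈ A} ≤ C * volume A)
    {A : Set (pb r → ℝ)} (hA : MeasurableSet A) :
    (ν0 : Measure HX) {h | rst r (emb h) ∈ A} ≤ C * volume A := by
  have : TopologicalSpace.MetrizableSpace HX :=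
    TopologicalSpace.metrizableSpace_of_t3_secondCountable HX
  -- open sets
  have hopen : ∀ O : Set (pb r → ℝ), IsOpen O →
      (ν0 : Measure HX) {h | rst r (emb h) ∈ O} ≤ C * volume O := by
    intro O hO
    have h1 : IsOpen {h : HX | rst r (emb h) ∈ O} :=
      hO.preimage ((continuous_rst r).comp continuous_emb)
    refine (ProbabilityMeasure.le_liminf_measure_open_of_tendsto hlim h1).trans ?_
    refine Filter.liminf_le_of_frequently_le' ?_
    refine Eventually.frequently ?_
    filter_upwards [hC] with n hn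
    exact hn O hO.measurableSet
  -- outer regularity
  refine ENNReal.le_of_forall_pos_le_add fun ε hε _ => ?_
  by_cases hC0 : C = 0
  · have := hopen Set.univ isOpen_univ
    rw [hC0, zero_mul] at this
    have h2 : (ν0 : Measure HX) {h | rst r (emb h) ∈ A} ≤ 0 :=
      (measure_mono fun h _ => mem_univ (rst r (emb h))).trans this
    exact h2.trans bot_le
  · have hε' : (ε : ℝ≥0∞) / C ≠ 0 := (ENNReal.div_pos (by exact_mod_cast hε.ne') hCt).ne'
    obtain ⟨O, hAO, hO, hle⟩ := A.exists_isOpen_le_add (volume : Measure (pb r → ℝ)) hε'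
    calc (ν0 : Measure HX) {h | rst r (emb h) ∈ A} ≤
          (ν0 : Measure HX) {h | rst r (emb h) ∈ O} := measure_mono fun h hh => hAO hh
      _ ≤ C * volume O := hopen O hO
      _ ≤ C * (volume A + ε / C) := by gcongr
      _ = C * volume A + ε := by rw [mul_add, ENNReal.mul_div_cancel hC0 hCt]

/-- **From a functional to a measure.** -/
theorem exists_mu {ν : ℕ → Measure (ℤ × ℤ → ℝ)} (hp : ∀ n, IsProbabilityMeasure (ν n))
    (hs : ∀ n, ∀ᵐ h ∂(ν n), ∀ a, |h a| ≤ (hd a 0 : ℝ)) {C : ℕ → ℝ≥0∞} (hCt : ∀ r, C r ≠ ∞)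
    (hC : ∀ r, ∀ᶠ n in atTop, ∀ A : Set (pb r → ℝ), MeasurableSet A →
      ν n {h | rst r h ∈ A} ≤ C r * volume A)
    {m : ((ℤ × ℤ → ℝ) → ℝ) → ℝ}
    (hm : ∀ r f, LObs r f → Tendsto (fun n => ∫ h, f h ∂(ν n)) atTop (𝓝 (m f))) :
    ∃ μ : Measure (ℤ × ℤ → ℝ), IsProbabilityMeasure μ ∧ (∀ᵐ h ∂μ, ∀ a, |h a| ≤ (hd a 0 : ℝ)) ∧
      (∀ r f, LObs r f → ∫ h, f h ∂μ = m f) ∧
      ∀ r, ∀ A : Set (pb r → ℝ), MeasurableSet A → μ {h | rst r h ∈ A} ≤ C r * volume A := by
  -- transfer to the compact space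
  have hpm : ∀ n, IsProbabilityMeasure ((ν n).map clmp) := fun n => by
    have := hp n
    exact Measure.isProbabilityMeasure_map measurable_clmp.aemeasurable
  set P : ℕ → ProbabilityMeasure HX := fun n => ⟨(ν n).map clmp, hpm n⟩ with hP
  set V : Ultrafilter ℕ := Ultrafilter.of atTop with hV
  have hVle : (V : Filter ℕ) ≤ atTop := Ultrafilter.of_le atTop
  obtain ⟨P0, -, hP0⟩ := (isCompact_univ (X := ProbabilityMeasure HX)).ultrafilter_le_nhds
    (V.map P) (by simp)
  have hlim : Tendsto P (V : Filter ℕ) (𝓝 P0) := hP0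
  have hback : ∀ n, ∀ G : (ℤ × ℤ → ℝ) → ℝ, Measurable G →
      ∫ h, G (emb h) ∂((P n : Measure HX)) = ∫ h, G h ∂(ν n) := by
    intro n G hG
    show ∫ h, G (emb h) ∂((ν n).map clmp) = _
    rw [integral_map (f := fun h => G (emb h)) measurable_clmp.aemeasurable
      (hG.comp measurable_emb).aestronglyMeasurable]
    refine integral_congr_ae ?_
    filter_upwards [hs n] with h hh
    rw [emb_clmp hh]
  have hdomP : ∀ r, ∀ᶠ n in (V : Filter ℕ), ∀ A : Set (pb r → ℝ), MeasurableSet A →
      (P n : Measure HX) {h | rst r (emb h) ∈ A} ≤ C r * volume A := by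
    intro r
    filter_upwards [hVle (hC r)] with n hn A hA
    have hmeas : MeasurableSet {h : HX | rst r (emb h) ∈ A} :=
      ((measurable_rst r).comp measurable_emb) hA
    have e : (P n : Measure HX) {h | rst r (emb h) ∈ A} = ν n {h | rst r h ∈ A} := by
      show ((ν n).map clmp) _ = _
      rw [Measure.map_apply measurable_clmp hmeas]
      refine measure_congr ?_
      filter_upwards [hs n] with h hh
      show (rst r (emb (clmp h)) ∈ A) = (rst r h ∈ A)
      rw [emb_clmp hh]
    rw [e]; exact hn A hA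
  have hdom0 : ∀ r, ∀ A : Set (pb r → ℝ), MeasurableSet A →
      (P0 : Measure HX) {h | rst r (emb h) ∈ A} ≤ C r * volume A := fun r A hA =>
    dom_limit hlim (hCt r) (hdomP r) hA
  -- the measure
  set μ : Measure (ℤ × ℤ → ℝ) := (P0 : Measure HX).map emb with hμ
  have hμp : IsProbabilityMeasure μ := Measure.isProbabilityMeasure_map measurable_emb.aemeasurable
  have hμs : ∀ᵐ h ∂μ, ∀ a, |h a| ≤ (hd a 0 : ℝ) := by
    rw [hμ, ae_map_iff measurable_emb.aemeasurable]
    · exact Eventually.of_forall fun h a => abs_emb_le h a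
    · rw [show {h : ℤ × ℤ → ℝ | ∀ a, |h a| ≤ (hd a 0 : ℝ)} = ⋂ a, {h | |h a| ≤ (hd a 0 : ℝ)} by
        ext h; simp]
      exact MeasurableSet.iInter fun a => measurableSet_le (measurable_pi_apply a).abs
        measurable_const
  have hμC : ∀ r, ∀ A : Set (pb r → ℝ), MeasurableSet A → μ {h | rst r h ∈ A} ≤ C r * volume A := by
    intro r A hA
    have : μ {h | rst r h ∈ A} = (P0 : Measure HX) {h | rst r (emb h) ∈ A} := by
      have h1 : MeasurableSet {h : ℤ × ℤ → ℝ | rst r h ∈ A} := (measurable_rst r) hA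
      rw [hμ, Measure.map_apply measurable_emb h1]
      rfl
    rw [this]; exact hdom0 r A hA
  refine ⟨μ, hμp, hμs, ?_, hμC⟩
  intro r f hf
  -- compare through a continuous function
  have hfin : IsFiniteMeasure ((volume : Measure (pb r → ℝ)).restrict (pbx r)) :=
    ⟨by rw [Measure.restrict_apply_univ]; exact (isCompact_pbx r).measure_lt_top⟩
  have hint : Integrable (fun z => f (xt r z)) ((volume : Measure (pb r → ℝ)).restrict (pbx r)) :=
    Integrable.of_bound (hf.meas.comp (measurable_xt r)).aestronglyMeasurable 1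
      (Eventually.of_forall fun z => by rw [Real.norm_eq_abs]; exact hf.bd _)
  have hle : ∀ ε > 0, |m f - ∫ h, f h ∂μ| ≤ 2 * (C r).toReal * ε := by
    intro ε hε
    obtain ⟨g, hg, _⟩ := hint.exists_boundedContinuous_integral_sub_le hε
    have hgm : Measurable fun h : ℤ × ℤ → ℝ => g (rst r h) :=
      (g.continuous.comp (continuous_rst r)).measurable
    -- limit of `g`
    have hgc : Continuous fun h : HX => g (rst r (emb h)) :=
      g.continuous.comp ((continuous_rst r).comp continuous_emb)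
    set gb : HX →ᵇ ℝ := BoundedContinuousFunction.ofNormedAddCommGroup
      (fun h : HX => g (rst r (emb h))) hgc ‖g‖ (fun h => g.norm_coe_le_norm _) with hgb
    have hgl := (ProbabilityMeasure.tendsto_iff_forall_integral_tendsto.mp hlim) gb
    have e0 : ∫ h, gb h ∂(P0 : Measure HX) = ∫ h, g (rst r h) ∂μ := by
      rw [hμ, integral_map measurable_emb.aemeasurable hgm.aestronglyMeasurable]
      rfl
    have en : ∀ n, ∫ h, gb h ∂(P n : Measure HX) = ∫ h, g (rst r h) ∂(ν n) := fun n =>
      hback n (fun h => g (rst r h)) hgm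
    have hgl' : Tendsto (fun n => ∫ h, g (rst r h) ∂(ν n)) (V : Filter ℕ)
        (𝓝 (∫ h, g (rst r h) ∂μ)) := by
      rw [← e0]
      exact hgl.congr fun n => en n
    have hfl : Tendsto (fun n => ∫ h, f h ∂(ν n)) (V : Filter ℕ) (𝓝 (m f)) := (hm r f hf).mono_left hVle
    have hdiff : Tendsto (fun n => |∫ h, f h ∂(ν n) - ∫ h, g (rst r h) ∂(ν n)|) (V : Filter ℕ)
        (𝓝 |m f - ∫ h, g (rst r h) ∂μ|) := (hfl.sub hgl').abs
    have hb1 : |m f - ∫ h, g (rst r h) ∂μ| ≤ (C r).toReal * ε := by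
      refine le_of_tendsto hdiff ?_
      filter_upwards [hVle (hC r)] with n hn
      have := hp n
      refine (approx_le (hs n) (hCt r) hn hf g).trans ?_
      gcongr
    have hb2 : |∫ h, f h ∂μ - ∫ h, g (rst r h) ∂μ| ≤ (C r).toReal * ε := by
      refine (approx_le hμs (hCt r) (hμC r) hf g).trans ?_
      gcongr
    have := abs_sub_le (m f) (∫ h, g (rst r h) ∂μ) (∫ h, f h ∂μ)
    rw [abs_sub_comm (∫ h, g (rst r h) ∂μ)] at this
    linarith
  have h0 : |m f - ∫ h, f h ∂μ| ≤ 0 := by
    refine le_of_forall_pos_le_add fun η hη => ?_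
    have hpos : 0 < 2 * (C r).toReal + 1 := by positivity
    have := hle (η / (2 * (C r).toReal + 1)) (by positivity)
    refine this.trans ?_
    rw [zero_add, mul_div_assoc', div_le_iff₀ hpos]
    nlinarith
  have := abs_nonpos_iff.mp h0
  linarith

end Crest.Agent.R144.Lw425
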