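import Crest.Agent.R144.Lmu1_425
import Crest.Agent.R144.Lc7_279

/-!
R144 (S0197), helper425.  Lmu2: the measure `μ₀` from zero-data boxes.

* `lipAll` : a height with zero data on a box is `1`-Lipschitz on the whole lattice;
* `win_tr` : translated windows inside the box;
* `avgLaw` : the averaged laws of `z (x + ·) - z x`, `x ∈ core L`;
* `exists_mu0` : convergence of the box averages of all local observables to `m f` gives a probability
  measure with `∫ f ∂μ = m f`, translation and reflection invariant.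
-/

set_option autoImplicit false

open MeasureTheory Set Filter Topology
open scoped ENNReal

noncomputable section

namespace Crest.Agent.R144.Lw425

open Crest.Agent.R144.Ham560
open Crest.Agent.R144.Lc279 (Ev bx mem_bx card_bx anch_bx card_nbr_lat_le mem_nbr_lat)

/-! ### Zero data on a box -/

theorem lipAll {L : ℕ} {y : bx L → ℝ} (hy : y ∈ ham (bx L) (Lc279.lat (bx L)) 0) (v w : ℤ × ℤ) :
    |Ham560.ext (bx L) 0 y v - Ham560.ext (bx L) 0 y w| ≤ hd v w := by
  have h1 : ∀ v w, hd v w = 1 →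
      |Ham560.ext (bx L) 0 y v - Ham560.ext (bx L) 0 y w| ≤ 1 := by
    intro v w hvw
    by_cases hin : v ∈ bx L ∨ w ∈ bx L
    · exact hy (v, w) (Lc279.mem_lat.mpr ⟨hvw, hin⟩)
    · push Not at hin
      rw [ext_notMem hin.1, ext_notMem hin.2]
      simp
  have key : ∀ (n : ℕ) (v w : ℤ × ℤ), hd v w ≤ n →
      |Ham560.ext (bx L) 0 y v - Ham560.ext (bx L) 0 y w| ≤ hd v w := by
    intro n
    induction n with
    | zero =>
      intro v w h
      have h0 : hd v w = 0 := le_antisymm (by simpa using h) (hd_nonneg _ _)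
      rw [hd_eq_zero h0, hd_self]; simp
    | succ n ih =>
      intro v w h
      by_cases hvw : v = w
      · subst hvw; rw [hd_self]; simp
      obtain ⟨c, hc1, hc2, _⟩ := exists_step hvw
      have g1 := ih c w (by push_cast at h; omega)
      have g2 := h1 v c hc1
      have g3 := abs_sub_le (Ham560.ext (bx L) 0 y v) (Ham560.ext (bx L) 0 y c)
        (Ham560.ext (bx L) 0 y w)
      have g4 : ((hd c w : ℤ) : ℝ) = hd v w - 1 := by rw [hc2]; push_cast; ring
      rw [g4] at g1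
      linarith
  exact key (hd v w).toNat v w (Int.self_le_toNat _)

/-- Heights seen from `x`. -/
def shft (x : ℤ × ℤ) (z : ℤ × ℤ → ℝ) : ℤ × ℤ → ℝ := fun a => z (x + a) - z x

theorem measurable_shft (x : ℤ × ℤ) : Measurable (shft x) :=
  measurable_pi_lambda _ fun _ => (measurable_pi_apply _).sub (measurable_pi_apply _)

theorem hd_add_left' (x a b : ℤ × ℤ) : hd (x + a) (x + b) = hd a b := by
  unfold hd
  simp only [Prod.fst_add, Prod.snd_add, add_sub_add_left_eq_sub]

theorem LObs.shft_eq {r : ℕ} {f : (ℤ × ℤ → ℝ) → ℝ} (hf : LObs r f) (x : ℤ × ℤ) (z : ℤ × ℤ → ℝ) :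
    f (shft x z) = f fun a => z (x + a) := by
  have := hf.shift (fun a => z (x + a)) (-(z x))
  rw [← this]
  rfl

/-- The translated window. -/
theorem win_tr {L r : ℕ} {x : ℤ × ℤ} (hx : ((r : ℤ) ≤ x.1 ∧ x.1 + r < L) ∧ (r : ℤ) ≤ x.2 ∧ x.2 + r < L) :
    Win (bx L) (Lc279.lat (bx L)) r (fun a => x + a) where
  inj := fun a _ b _ h => add_left_cancel h
  free := by
    intro a ha
    have := hd_le_iff.mp (mem_hball.mp ha)
    simp only [Prod.fst_zero, Prod.snd_zero, sub_zero] at this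
    rw [mem_bx]
    simp only [Prod.fst_add, Prod.snd_add]
    omega
  edge := by
    intro a ha b _ hab
    have := hd_le_iff.mp (mem_hball.mp ha)
    simp only [Prod.fst_zero, Prod.snd_zero, sub_zero] at this
    refine mem_nbr_lat.mpr ⟨by rw [hd_add_left']; exact hab, Or.inl ?_⟩
    rw [mem_bx]
    simp only [Prod.fst_add, Prod.snd_add]
    omega
  only := by
    intro p hp a ha
    rw [Lc279.mem_lat] at hp
    have ha' := mem_inn.mp ha
    have key : ∀ c : ℤ × ℤ, hd (x + a) c = 1 → ∃ b ∈ hball r, hd a b = 1 ∧ c = x + b := by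
      intro c hc
      have e : c = x + (c - x) := by abel
      rw [e, hd_add_left'] at hc
      refine ⟨c - x, ?_, hc, e⟩
      have h4 := hd_triangle (c - x) a 0
      rw [hd_comm (c - x) a, hc] at h4
      rw [mem_hball]; omega
    constructor
    · intro h
      exact key p.2 (by rw [← h]; exact hp.1)
    · intro h
      exact key p.1 (by rw [← h, hd_comm]; exact hp.1)

/-! ### The averaged laws -/

/-- Margin. -/
def mg (L : ℕ) : ℕ := Nat.sqrt L / 2

/-- Sites far from the boundary of the box. -/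
def core' (L : ℕ) : Finset (ℤ × ℤ) :=
  Finset.Ico (mg L : ℤ) (L - mg L) ×ˢ Finset.Ico (mg L : ℤ) (L - mg L)

theorem mem_core' {L : ℕ} {x : ℤ × ℤ} : x ∈ core' L ↔
    ((mg L : ℤ) ≤ x.1 ∧ x.1 < L - mg L) ∧ ((mg L : ℤ) ≤ x.2 ∧ x.2 < L - mg L) := by
  rw [core', Finset.mem_product, Finset.mem_Ico, Finset.mem_Ico]

theorem core'_subset (L : ℕ) : core' L ⊆ bx L := by
  intro x hx
  rw [mem_core'] at hx
  rw [mem_bx]; omega

theorem mg_lt {L : ℕ} (hL : 0 < L) : 2 * mg L < L := by
  unfold mg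
  rcases Nat.lt_or_ge L 2 with h | h
  · have : L = 1 := by omega
    subst this; norm_num
  · have h1 : Nat.sqrt L < L := Nat.sqrt_lt_self (by omega)
    omega

theorem card_core' {L : ℕ} : (core' L).card = (L - 2 * mg L) ^ 2 := by
  rw [core', Finset.card_product, Int.card_Ico]
  have : ((L : ℤ) - mg L - mg L).toNat = L - 2 * mg L := by omega
  rw [this, sq]

theorem core'_nonempty {L : ℕ} (hL : 0 < L) : (core' L).Nonempty := by
  rw [← Finset.card_pos, card_core']
  have := mg_lt hL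
  exact Nat.pow_pos (by omega)

theorem tendsto_mg : Tendsto mg atTop atTop := by
  rw [tendsto_atTop]
  intro b
  filter_upwards [eventually_ge_atTop ((2 * b) ^ 2)] with L hL
  unfold mg
  have h1 : 2 * b ≤ Nat.sqrt L := Nat.le_sqrt'.mpr hL
  omega

/-- The law of the box. -/
def bxP (L : ℕ) : Measure (bx L → ℝ) := hamP (bx L) (Lc279.lat (bx L)) 0

instance (L : ℕ) : IsProbabilityMeasure (bxP L) :=
  isProbabilityMeasure_hamP (anch_bx L) (by intro u; simp)

theorem bxP_ae (L : ℕ) : ∀ᵐ y ∂(bxP L), y ∈ ham (bx L) (Lc279.lat (bx L)) 0 := by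
  unfold bxP hamP
  refine Measure.ae_smul_measure ?_ _
  exact ae_restrict_mem measurableSet_ham

/-- Full height. -/
def fh (L : ℕ) (y : bx L → ℝ) : ℤ × ℤ → ℝ := Ham560.ext (bx L) 0 y

theorem measurable_fh (L : ℕ) : Measurable (fh L) :=
  measurable_pi_lambda _ fun a => (continuous_ext (F := bx L) (ξ := 0) a).measurable

/-- The averaged law. -/
def avgLaw (L : ℕ) : Measure (ℤ × ℤ → ℝ) :=
  ((core' L).card : ℝ≥0∞)⁻¹ • ∑ x ∈ core' L, (bxP L).map fun y => shft x (fh L y)

theorem measurable_sf (L : ℕ) (x : ℤ × ℤ) : Measurable fun y : bx L → ℝ => shft x (fh L y) :=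
  (measurable_shft x).comp (measurable_fh L)

theorem avgLaw_apply {L : ℕ} {A : Set (ℤ × ℤ → ℝ)} (hA : MeasurableSet A) :
    avgLaw L A = ((core' L).card : ℝ≥0∞)⁻¹ * ∑ x ∈ core' L, bxP L {y | shft x (fh L y) ∈ A} := by
  unfold avgLaw
  rw [Measure.smul_apply, Measure.finsetSum_apply, smul_eq_mul]
  congr 1
  refine Finset.sum_congr rfl fun x _ => ?_
  rw [Measure.map_apply (measurable_sf L x) hA]
  rfl

theorem isProb_avgLaw {L : ℕ} (hL : 0 < L) : IsProbabilityMeasure (avgLaw L) := by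
  constructor
  rw [avgLaw_apply MeasurableSet.univ]
  simp only [mem_univ, ofPred_true, measure_univ, Finset.sum_const, nsmul_eq_mul, mul_one]
  refine ENNReal.inv_mul_cancel ?_ (ENNReal.natCast_ne_top _)
  have := (core'_nonempty hL).card_pos
  exact_mod_cast this.ne'

theorem avgLaw_ae {L : ℕ} {P : (ℤ × ℤ → ℝ) → Prop} (hP : MeasurableSet {h | P h})
    (h : ∀ x, ∀ᵐ y ∂(bxP L), P (shft x (fh L y))) : ∀ᵐ h ∂(avgLaw L), P h := by
  rw [ae_iff]
  have hm : MeasurableSet {h : ℤ × ℤ → ℝ | ¬ P h} := hP.compl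
  rw [avgLaw_apply hm]
  have : ∀ x ∈ core' L, bxP L {y | shft x (fh L y) ∈ {h : ℤ × ℤ → ℝ | ¬ P h}} = 0 := by
    intro x _
    exact ae_iff.mp (h x)
  rw [Finset.sum_eq_zero this, mul_zero]

theorem integral_avgLaw {L : ℕ} {f : (ℤ × ℤ → ℝ) → ℝ} (hf : Measurable f) {C : ℝ}
    (hC : ∀ h, |f h| ≤ C) :
    ∫ h, f h ∂(avgLaw L) =
      ((core' L).card : ℝ)⁻¹ * ∑ x ∈ core' L, ∫ y, f (shft x (fh L y)) ∂(bxP L) := by
  unfold avgLaw
  rw [integral_smul_measure, integral_finsetSum_measure]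
  · rw [ENNReal.toReal_inv, ENNReal.toReal_natCast, smul_eq_mul]
    congr 1
    refine Finset.sum_congr rfl fun x _ => ?_
    rw [integral_map (measurable_sf L x).aemeasurable hf.aestronglyMeasurable]
  · intro x _
    have : IsProbabilityMeasure ((bxP L).map fun y => shft x (fh L y)) :=
      Measure.isProbabilityMeasure_map (measurable_sf L x).aemeasurable
    exact Integrable.of_bound hf.aestronglyMeasurable C (Eventually.of_forall fun h => by
      rw [Real.norm_eq_abs]; exact hC h)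

/-- Expectation of a local observable at `x`. -/
theorem Ev_shft {L r : ℕ} {f : (ℤ × ℤ → ℝ) → ℝ} (hf : LObs r f) (x : ℤ × ℤ) :
    ∫ y, f (shft x (fh L y)) ∂(bxP L) =
      Ev (bx L) (Lc279.lat (bx L)) 0 fun z => f fun a => z (x + a) := by
  unfold Ev bxP
  refine integral_congr_ae (Eventually.of_forall fun y => ?_)
  exact hf.shft_eq x (fh L y)

theorem abs_Ev_le {L : ℕ} {f : (ℤ × ℤ → ℝ) → ℝ} (hb : ∀ h, |f h| ≤ 1) :
    |Ev (bx L) (Lc279.lat (bx L)) 0 f| ≤ 1 := by
  have := norm_integral_le_of_norm_le_const (μ := bxP L)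
    (f := fun x => f (Ham560.ext (bx L) 0 x)) (C := 1) (Eventually.of_forall fun x => by
      rw [Real.norm_eq_abs]; exact hb _)
  rw [Real.norm_eq_abs] at this
  show |∫ x, f (Ham560.ext (bx L) 0 x) ∂(bxP L)| ≤ 1
  simpa using this

/-! ### Full averages and core averages -/

/-- Comparison of averages over a set and over a subset. -/
theorem avg_sub_le {α : Type*} [DecidableEq α] {A B : Finset α} (hAB : A ⊆ B) (hA : A.Nonempty)
    {g : α → ℝ} (hg : ∀ x, |g x| ≤ 1) :
    |(A.card : ℝ)⁻¹ * ∑ x ∈ A, g x - (B.card : ℝ)⁻¹ * ∑ x ∈ B, g x| ≤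
      2 * (1 - (A.card : ℝ) / B.card) := by
  have hA0 : (0 : ℝ) < A.card := by exact_mod_cast hA.card_pos
  have hB0 : (0 : ℝ) < B.card := by exact_mod_cast (hA.mono hAB).card_pos
  have hsum : ∑ x ∈ B, g x = ∑ x ∈ A, g x + ∑ x ∈ B \ A, g x := by
    rw [add_comm, Finset.sum_sdiff hAB]
  have hS1 : |∑ x ∈ A, g x| ≤ A.card := by
    refine (Finset.abs_sum_le_sum_abs _ _).trans ?_
    refine (Finset.sum_le_card_nsmul _ _ 1 fun x _ => hg x).trans ?_
    simp
  have hS2 : |∑ x ∈ B \ A, g x| ≤ B.card - A.card := by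
    refine (Finset.abs_sum_le_sum_abs _ _).trans ?_
    refine (Finset.sum_le_card_nsmul _ _ 1 fun x _ => hg x).trans ?_
    rw [Finset.card_sdiff_of_subset hAB, nsmul_eq_mul, mul_one,
      Nat.cast_sub (Finset.card_le_card hAB)]
  have e : (A.card : ℝ)⁻¹ * ∑ x ∈ A, g x - (B.card : ℝ)⁻¹ * ∑ x ∈ B, g x =
      ((A.card : ℝ)⁻¹ - (B.card : ℝ)⁻¹) * ∑ x ∈ A, g x - (B.card : ℝ)⁻¹ * ∑ x ∈ B \ A, g x := by
    rw [hsum]; ring
  have hinv : 0 ≤ (A.card : ℝ)⁻¹ - (B.card : ℝ)⁻¹ := by
    rw [sub_nonneg]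
    exact inv_anti₀ hA0 (by exact_mod_cast Finset.card_le_card hAB)
  rw [e]
  refine (abs_sub _ _).trans ?_
  rw [abs_mul, abs_mul, abs_of_nonneg hinv, abs_of_pos (inv_pos.mpr hB0)]
  have h1 : ((A.card : ℝ)⁻¹ - (B.card : ℝ)⁻¹) * |∑ x ∈ A, g x| ≤
      ((A.card : ℝ)⁻¹ - (B.card : ℝ)⁻¹) * A.card := mul_le_mul_of_nonneg_left hS1 hinv
  have h2 : (B.card : ℝ)⁻¹ * |∑ x ∈ B \ A, g x| ≤ (B.card : ℝ)⁻¹ * (B.card - A.card) :=
    mul_le_mul_of_nonneg_left hS2 (inv_pos.mpr hB0).le
  have h3 : ((A.card : ℝ)⁻¹ - (B.card : ℝ)⁻¹) * A.card = 1 - A.card / B.card := by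
    field_simp
  have h4 : (B.card : ℝ)⁻¹ * (B.card - A.card) = 1 - A.card / B.card := by
    field_simp
  linarith

theorem core_ratio : Tendsto (fun L : ℕ => ((core' L).card : ℝ) / (bx L).card) atTop (𝓝 1) := by
  have h1 : Tendsto (fun L : ℕ => (mg L : ℝ) / L) atTop (𝓝 0) := by
    have h2 : Tendsto (fun L : ℕ => (1 : ℝ) / Real.sqrt L) atTop (𝓝 0) := by
      have := (Real.tendsto_sqrt_atTop.comp tendsto_natCast_atTop_atTop).inv_tendsto_atTop
      refine this.congr fun L => ?_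
      simp
    refine squeeze_zero' (Eventually.of_forall fun L => by positivity) ?_ h2
    filter_upwards [eventually_gt_atTop 0] with L hL
    have hL' : (0 : ℝ) < L := by exact_mod_cast hL
    have hs : 0 < Real.sqrt L := Real.sqrt_pos.mpr hL'
    rw [div_le_div_iff₀ hL' hs, one_mul]
    have h3 : (mg L : ℝ) ≤ Real.sqrt L := by
      have h4 : mg L ≤ Nat.sqrt L := Nat.div_le_self _ _
      have h5 : ((Nat.sqrt L : ℕ) : ℝ) ≤ Real.sqrt L := Real.nat_sqrt_le_real_sqrt
      exact (by exact_mod_cast h4 : (mg L : ℝ) ≤ (Nat.sqrt L : ℕ)).trans h5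
    calc (mg L : ℝ) * Real.sqrt L ≤ Real.sqrt L * Real.sqrt L :=
          mul_le_mul_of_nonneg_right h3 hs.le
      _ = L := Real.mul_self_sqrt hL'.le
  have h2 : Tendsto (fun L : ℕ => (1 - 2 * ((mg L : ℝ) / L)) ^ 2) atTop (𝓝 1) := by
    have := ((h1.const_mul 2).const_sub 1).pow 2
    simpa using this
  refine h2.congr' ?_
  filter_upwards [eventually_gt_atTop 0] with L hL
  have hL' : (0 : ℝ) < L := by exact_mod_cast hL
  rw [card_core', card_bx, Nat.cast_pow, Nat.cast_pow, ← div_pow]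
  congr 1
  rw [Nat.cast_sub (mg_lt hL).le]
  push_cast
  field_simp

/-- **The measure `μ₀`.** -/
theorem exists_mu0 {m : ((ℤ × ℤ → ℝ) → ℝ) → ℝ}
    (hm : ∀ r f, LObs r f → Tendsto (fun L : ℕ => ((bx L).card : ℝ)⁻¹ *
      ∑ x ∈ bx L, Ev (bx L) (Lc279.lat (bx L)) 0 fun z => f fun a => z (x + a)) atTop (𝓝 (m f))) :
    ∃ μ : Measure (ℤ × ℤ → ℝ), IsProbabilityMeasure μ ∧ (∀ᵐ h ∂μ, ∀ a, |h a| ≤ (hd a 0 : ℝ)) ∧
      (∀ r f, LObs r f → ∫ h, f h ∂μ = m f) ∧
      ∀ r, ∀ A : Set (pb r → ℝ), MeasurableSet A → μ {h | rst r h ∈ A} ≤ domC r 6 * volume A := by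
  refine exists_mu (ν := fun n => avgLaw (n + 1)) (fun n => isProb_avgLaw (Nat.succ_pos n)) ?_
    (C := fun r => domC r 6) (fun r => ENNReal.pow_ne_top ENNReal.ofReal_ne_top) ?_ ?_
  · intro n
    refine avgLaw_ae ?_ ?_
    · rw [show {h : ℤ × ℤ → ℝ | ∀ a, |h a| ≤ (hd a 0 : ℝ)} = ⋂ a, {h | |h a| ≤ (hd a 0 : ℝ)} by
        ext h; simp]
      exact MeasurableSet.iInter fun a => measurableSet_le (measurable_pi_apply a).abs
        measurable_const
    · intro x
      filter_upwards [bxP_ae (n + 1)] with y hy a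
      have := lipAll hy (x + a) x
      have e : hd (x + a) x = hd a 0 := hd_add_left x a
      rw [e] at this
      exact this
  · intro r
    have h1 : ∀ᶠ n : ℕ in atTop, r + 1 ≤ mg (n + 1) := by
      have := (tendsto_mg.comp (tendsto_add_atTop_nat 1)).eventually_ge_atTop (r + 1)
      exact this
    filter_upwards [h1] with n hn A hA
    have hAm : MeasurableSet {h : ℤ × ℤ → ℝ | rst r h ∈ A} := (measurable_rst r) hA
    rw [avgLaw_apply hAm]
    have hx : ∀ x ∈ core' (n + 1), bxP (n + 1) {y | shft x (fh (n + 1) y) ∈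
        {h : ℤ × ℤ → ℝ | rst r h ∈ A}} ≤ domC r 6 * volume A := by
      intro x hx
      rw [mem_core'] at hx
      have hW := win_tr (L := n + 1) (r := r) (x := x) (by push_cast at hx ⊢; omega)
      have h2 := dif_dom_prob (ξ := 0) hW (fun v _ => card_nbr_lat_le _ v)
        (volume_ham_lt_top (anch_bx (n + 1))).ne hA (κ := 1) (by rw [one_mul])
      rw [mul_one] at h2
      refine le_trans (measure_mono ?_) h2
      intro y hy
      have hy' : rst r (shft x (fh (n + 1) y)) ∈ A := hy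
      show dif r (fun a => x + a) (Ham560.ext (bx (n + 1)) 0 y) ∈ A
      have e : dif r (fun a => x + a) (Ham560.ext (bx (n + 1)) 0 y) =
          rst r (shft x (fh (n + 1) y)) := by
        funext a
        simp only [dif, rst, shft, fh, add_zero]
      rw [e]; exact hy'
    have hcard : ((core' (n + 1)).card : ℝ≥0∞) ≠ 0 := by
      have := (core'_nonempty (Nat.succ_pos n)).card_pos
      exact_mod_cast this.ne'
    calc _ ≤ ((core' (n + 1)).card : ℝ≥0∞)⁻¹ * ∑ x ∈ core' (n + 1), domC r 6 * volume A := by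
          gcongr with x hx'
          exact hx x hx'
      _ = domC r 6 * volume A := by
          rw [Finset.sum_const, nsmul_eq_mul, ← mul_assoc,
            ENNReal.inv_mul_cancel hcard (ENNReal.natCast_ne_top _), one_mul]
  · intro r f hf
    have h1 := (hm r f hf).comp (tendsto_add_atTop_nat 1)
    have h2 : Tendsto (fun n : ℕ => 2 * (1 - ((core' (n + 1)).card : ℝ) / (bx (n + 1)).card)) atTop
        (𝓝 0) := by
      have := ((core_ratio.comp (tendsto_add_atTop_nat 1)).const_sub 1).const_mul 2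
      simpa using this
    have h3 : Tendsto (fun n : ℕ => ∫ h, f h ∂(avgLaw (n + 1)) -
        ((bx (n + 1)).card : ℝ)⁻¹ * ∑ x ∈ bx (n + 1),
          Ev (bx (n + 1)) (Lc279.lat (bx (n + 1))) 0 fun z => f fun a => z (x + a)) atTop (𝓝 0) := by
      refine squeeze_zero_norm (fun n => ?_) h2
      rw [Real.norm_eq_abs, integral_avgLaw hf.meas (C := 1) hf.bd]
      have e : ∀ x ∈ core' (n + 1), ∫ y, f (shft x (fh (n + 1) y)) ∂(bxP (n + 1)) =
          Ev (bx (n + 1)) (Lc279.lat (bx (n + 1))) 0 fun z => f fun a => z (x + a) :=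
        fun x _ => Ev_shft hf x
      rw [Finset.sum_congr rfl e]
      exact avg_sub_le (core'_subset _) (core'_nonempty (Nat.succ_pos n))
        fun x => abs_Ev_le fun h => hf.bd _
    have h4 := h3.add h1
    rw [zero_add] at h4
    refine h4.congr fun n => ?_
    simp

end Crest.Agent.R144.Lw425
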