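import Crest.Agent.R144.Lmu3_425
import Crest.Agent.R144.Lc11_279

/-!
R144 (S0197), helper425.  Lmu4: ergodicity of `μ₀` in `L¹` and covariance under lattice automorphisms.

* `LAut A` : `A` is an additive bijection of `ℤ × ℤ` preserving the hexagonal distance;
* `sig A N L u` : the tiling of `bx N` by the boxes `A (x + bx L)`, `x ≡ u mod (L + 1)`;
* `card_cover`, `card_left` : counting;
* `sum_G_le` : averaged deviation of the box averages, from `Lc279.meso`.
-/

set_option autoImplicit false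

open MeasureTheory Set Filter Topology
open scoped ENNReal

noncomputable section

namespace Crest.Agent.R144.Lw425

open Crest.Agent.R144.Ham560
open Crest.Agent.R144.Lc279 (Ev bx mem_bx card_bx anch_bx card_nbr_lat_le mem_nbr_lat cl mem_cl
  bx_sub_cl cl_of_adj Ch BCh Cov DS cnt BA mB pos mem_pos hd_add)

/-- Lattice automorphisms. -/
def LAut (A : ℤ × ℤ ≃+ ℤ × ℤ) : Prop := ∀ v w, hd (A v) (A w) = hd v w

variable {A : ℤ × ℤ ≃+ ℤ × ℤ}

/-! ### The tiling -/

/-- Base points of the boxes inside `bx N`. -/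
def IN (A : ℤ × ℤ ≃+ ℤ × ℤ) (N L : ℕ) : Finset (ℤ × ℤ) := by
  classical
  exact ((bx N).image A.symm).filter fun x => ∀ v ∈ cl L, A (x + v) ∈ bx N

theorem zero_mem_cl (L : ℕ) : (0 : ℤ × ℤ) ∈ cl L := by
  rw [mem_cl]; simp

theorem mem_IN {N L : ℕ} {x : ℤ × ℤ} : x ∈ IN A N L ↔ ∀ v ∈ cl L, A (x + v) ∈ bx N := by
  classical
  unfold IN
  rw [Finset.mem_filter]
  constructor
  · exact fun h => h.2
  · intro h
    refine ⟨Finset.mem_image.mpr ⟨A x, ?_, A.symm_apply_apply x⟩, h⟩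
    have := h 0 (zero_mem_cl L)
    rwa [add_zero] at this

/-- Base points congruent to `u`. -/
def sig (A : ℤ × ℤ ≃+ ℤ × ℤ) (N L : ℕ) (u : ℤ × ℤ) : Finset (ℤ × ℤ) :=
  (IN A N L).filter fun x => x.1 % (L + 1) = u.1 ∧ x.2 % (L + 1) = u.2

theorem mem_sig {N L : ℕ} {u x : ℤ × ℤ} : x ∈ sig A N L u ↔
    x ∈ IN A N L ∧ x.1 % (L + 1) = u.1 ∧ x.2 % (L + 1) = u.2 := Finset.mem_filter

/-- The chart of a box. -/
theorem chart (hA : LAut A) {N L : ℕ} {x : ℤ × ℤ} (hx : ∀ v ∈ bx L, A (x + v) ∈ bx N) :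
    BCh (Lc279.lat (bx N)) L (fun v => A (x + v)) where
  sub := bx_sub_cl L
  inj := fun v _ w _ h => add_left_cancel (A.injective h)
  cl := fun v hv w h => cl_of_adj hv h
  edge := by
    intro v hv w hvw
    left
    rw [Lc279.mem_lat]
    exact ⟨by rw [hA, hd_add]; exact hvw, Or.inl (hx v hv)⟩
  edge' := by
    intro p hp hp'
    rw [Lc279.mem_lat] at hp
    have e1 : ∀ u, A (x + (A.symm u - x)) = u := by intro u; simp
    refine ⟨A.symm p.1 - x, A.symm p.2 - x, ?_, ?_, ?_⟩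
    · have := hA (x + (A.symm p.1 - x)) (x + (A.symm p.2 - x))
      rw [e1, e1, hd_add] at this
      rw [← this]; exact hp.1
    · rcases hp' with h | h
      · left
        obtain ⟨v, hv, hvb⟩ := Finset.mem_image.mp h
        have : A.symm p.1 - x = v := by rw [← hvb]; simp
        rw [this]; exact hv
      · right
        obtain ⟨v, hv, hvb⟩ := Finset.mem_image.mp h
        have : A.symm p.2 - x = v := by rw [← hvb]; simp
        rw [this]; exact hv
    · rw [e1, e1]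

theorem eq_of_emod {L : ℕ} {a b c d m : ℤ} (h1 : a % (L + 1) = m) (h2 : b % (L + 1) = m)
    (h : a + c = b + d) (hc : -1 ≤ c ∧ c ≤ L) (hd : 0 ≤ d ∧ d < L) : a = b := by
  have h3 : ((L : ℤ) + 1) ∣ a - b := by
    rw [← h2] at h1
    exact Int.ModEq.dvd (show Int.ModEq (L + 1) b a from h1.symm)
  have h4 : a - b = 0 := by
    refine Int.eq_zero_of_abs_lt_dvd h3 ?_
    rw [abs_lt]
    constructor <;> omega
  omega

/-- The boxes of one class form a covering system. -/
theorem cov (hA : LAut A) {N L : ℕ} (u : ℤ × ℤ) :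
    Cov (bx N) (Lc279.lat (bx N)) L (sig A N L u) (fun x v => A (x + v)) where
  ch := fun x hx => chart hA fun v hv => mem_IN.mp (mem_sig.mp hx).1 v (bx_sub_cl L hv)
  sub := by
    intro x hx y hy
    obtain ⟨v, hv, rfl⟩ := Finset.mem_image.mp hy
    exact mem_IN.mp (mem_sig.mp hx).1 v (bx_sub_cl L hv)
  disj := by
    intro j hj k hk hne
    rw [Set.disjoint_left]
    rintro y ⟨v, hv, rfl⟩ hy
    obtain ⟨w, hw, hwv⟩ := Finset.mem_image.mp (Finset.mem_coe.mp hy)
    have h := A.injective hwv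
    apply hne
    have h1 := (mem_sig.mp hj).2
    have h2 := (mem_sig.mp hk).2
    rw [mem_cl] at hv
    rw [mem_bx] at hw
    have e1 := congrArg Prod.fst h
    have e2 := congrArg Prod.snd h
    simp only [Prod.fst_add, Prod.snd_add] at e1 e2
    refine Prod.ext ?_ ?_
    · exact eq_of_emod h1.1 h2.1 e1.symm hv.1 hw.1
    · exact eq_of_emod h1.2 h2.2 e2.symm hv.2 hw.2
  deg := fun v _ => card_nbr_lat_le _ _

/-! ### Counting -/

theorem hd_cl {L : ℕ} {v w : ℤ × ℤ} (hv : v ∈ cl L) (hw : w ∈ cl L) : hd v w ≤ 2 * L + 2 := by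
  rw [mem_cl] at hv hw
  rw [hd_le_iff]
  omega

/-- Points deep inside are base points. -/
theorem pos_sub {N L : ℕ} {y y' : ℤ × ℤ} (hy : y ∈ pos N (2 * L + 2))
    (h : hd y y' ≤ 2 * L + 2) : y' ∈ bx N := by
  rw [mem_pos] at hy
  rw [hd_le_iff] at h
  rw [mem_bx]
  push_cast at hy
  omega

/-- The base point of a site. -/
theorem exists_base {N L : ℕ} (hA : LAut A) {u : ℤ × ℤ} (hu : u ∈ bx (L + 1)) {y : ℤ × ℤ}
    (hy : y ∈ pos N (2 * L + 2)) : ∃ x ∈ sig A N L u, ∃ v ∈ bx (L + 1), y = A (x + v) := by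
  rw [mem_bx] at hu
  push_cast at hu
  set w := A.symm y with hw
  have hL : (0 : ℤ) < (L : ℤ) + 1 := by positivity
  have key : ∀ a b : ℤ, 0 ≤ b → b < (L : ℤ) + 1 → (a - (a - b) % (L + 1)) % (L + 1) = b := by
    intro a b hb hb'
    have h1 : (a - (a - b) % (L + 1)) = b + ((L : ℤ) + 1) * ((a - b) / (L + 1)) := by
      have := Int.emod_add_mul_ediv (a - b) (L + 1)
      linarith
    rw [h1, Int.add_mul_emod_self_left]
    exact Int.emod_eq_of_lt hb hb'
  have hv : ((w.1 - u.1) % (L + 1), (w.2 - u.2) % (L + 1)) ∈ bx (L + 1) := by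
    rw [mem_bx]
    push_cast
    exact ⟨⟨Int.emod_nonneg _ hL.ne', Int.emod_lt_of_pos _ hL⟩,
      ⟨Int.emod_nonneg _ hL.ne', Int.emod_lt_of_pos _ hL⟩⟩
  have hyx : y = A ((w.1 - (w.1 - u.1) % (L + 1), w.2 - (w.2 - u.2) % (L + 1)) +
      ((w.1 - u.1) % (L + 1), (w.2 - u.2) % (L + 1))) := by
    have : ((w.1 - (w.1 - u.1) % ((L : ℤ) + 1), w.2 - (w.2 - u.2) % ((L : ℤ) + 1)) +
      ((w.1 - u.1) % ((L : ℤ) + 1), (w.2 - u.2) % ((L : ℤ) + 1)) : ℤ × ℤ) = w := by
      refine Prod.ext ?_ ?_ <;> simp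
    rw [this, hw, A.apply_symm_apply]
  refine ⟨(w.1 - (w.1 - u.1) % (L + 1), w.2 - (w.2 - u.2) % (L + 1)), ?_, _, hv, hyx⟩
  rw [mem_sig]
  refine ⟨mem_IN.mpr fun v' hv' => ?_, key _ _ hu.1.1 hu.1.2, key _ _ hu.2.1 hu.2.2⟩
  refine pos_sub hy ?_
  rw [hyx, hA, hd_add]
  refine hd_cl ?_ hv'
  rw [mem_bx] at hv
  push_cast at hv
  rw [mem_cl]
  omega

theorem card_layer (N D : ℕ) : (bx N \ pos N D).card ≤ 4 * D * N := by
  have hsub : pos N D ⊆ bx N := Lc279.pos_subset N D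
  rw [Finset.card_sdiff_of_subset hsub, card_bx]
  have h1 : (pos N D).card = (N - 2 * D) ^ 2 := by
    rw [pos, Finset.card_product, Int.card_Ico, sq]
    have : ((N : ℤ) - D - D).toNat = N - 2 * D := by omega
    rw [this]
  rw [h1]
  rcases Nat.lt_or_ge N (2 * D) with h | h
  · have h2 : N - 2 * D = 0 := by omega
    rw [h2]
    have h3 : N * N ≤ 2 * D * N := Nat.mul_le_mul_right N h.le
    simp only [ne_eq, OfNat.ofNat_ne_zero, not_false_eq_true, zero_pow, Nat.sub_zero]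
    nlinarith
  · obtain ⟨k, rfl⟩ := Nat.exists_eq_add_of_le h
    rw [Nat.add_sub_cancel_left, Nat.sub_le_iff_le_add]
    nlinarith

/-- Uncovered sites. -/
theorem card_left (hA : LAut A) {N L : ℕ} {u : ℤ × ℤ} (hu : u ∈ bx (L + 1)) :
    (bx N \ (sig A N L u).biUnion fun x => (bx L).image fun v => A (x + v)).card ≤
      4 * (2 * L + 2) * N + (2 * L + 1) * (sig A N L u).card := by
  classical
  have hsub : bx N \ (sig A N L u).biUnion (fun x => (bx L).image fun v => A (x + v)) ⊆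
      (bx N \ pos N (2 * L + 2)) ∪
        (sig A N L u).biUnion fun x => (bx (L + 1) \ bx L).image fun v => A (x + v) := by
    intro y hy
    rw [Finset.mem_sdiff] at hy
    rw [Finset.mem_union]
    by_cases h : y ∈ pos N (2 * L + 2)
    · right
      obtain ⟨x, hx, v, hv, rfl⟩ := exists_base hA hu h
      rw [Finset.mem_biUnion]
      refine ⟨x, hx, Finset.mem_image.mpr ⟨v, ?_, rfl⟩⟩
      rw [Finset.mem_sdiff]
      refine ⟨hv, fun hv' => hy.2 ?_⟩
      rw [Finset.mem_biUnion]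
      exact ⟨x, hx, Finset.mem_image.mpr ⟨v, hv', rfl⟩⟩
    · left
      rw [Finset.mem_sdiff]; exact ⟨hy.1, h⟩
  refine (Finset.card_le_card hsub).trans ((Finset.card_union_le _ _).trans
    (Nat.add_le_add (card_layer N _) ?_))
  refine Finset.card_biUnion_le.trans ?_
  refine (Finset.sum_le_card_nsmul _ _ (2 * L + 1) fun x _ => ?_).trans ?_
  · refine Finset.card_image_le.trans ?_
    have h1 : bx L ⊆ bx (L + 1) := by
      intro v hv
      rw [mem_bx] at hv ⊢
      push_cast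
      omega
    rw [Finset.card_sdiff_of_subset h1, card_bx, card_bx, Nat.sub_le_iff_le_add]
    nlinarith
  · rw [smul_eq_mul, mul_comm]

/-- Number of boxes. -/
theorem card_cover (hA : LAut A) {N L : ℕ} {u : ℤ × ℤ} (hu : u ∈ bx (L + 1)) :
    N ^ 2 ≤ 4 * (2 * L + 2) * N + (L + 1) ^ 2 * (sig A N L u).card := by
  classical
  have hsub : bx N ⊆ (bx N \ pos N (2 * L + 2)) ∪
        (sig A N L u).biUnion fun x => (bx (L + 1)).image fun v => A (x + v) := by
    intro y hy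
    rw [Finset.mem_union]
    by_cases h : y ∈ pos N (2 * L + 2)
    · right
      obtain ⟨x, hx, v, hv, rfl⟩ := exists_base hA hu h
      rw [Finset.mem_biUnion]
      exact ⟨x, hx, Finset.mem_image.mpr ⟨v, hv, rfl⟩⟩
    · left
      rw [Finset.mem_sdiff]; exact ⟨hy, h⟩
  rw [← card_bx]
  refine (Finset.card_le_card hsub).trans ((Finset.card_union_le _ _).trans
    (Nat.add_le_add (card_layer N _) ?_))
  refine Finset.card_biUnion_le.trans ?_
  refine (Finset.sum_le_card_nsmul _ _ ((L + 1) ^ 2) fun x _ => ?_).trans ?_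
  · refine Finset.card_image_le.trans ?_
    rw [card_bx]
  · rw [smul_eq_mul, mul_comm]

/-- The base points, as a subset of the box. -/
theorem pos_sub_image (hA : LAut A) {N L : ℕ} : pos N (2 * L + 2) ⊆ (IN A N L).image A := by
  intro y hy
  refine Finset.mem_image.mpr ⟨A.symm y, ?_, A.apply_symm_apply y⟩
  rw [mem_IN]
  intro v hv
  refine pos_sub hy ?_
  have h1 : y = A (A.symm y + 0) := by simp
  rw [h1]
  have h2 : A.symm (A (A.symm y + 0)) = A.symm y := by simp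
  rw [h2, hA, hd_add]
  exact hd_cl (zero_mem_cl L) hv

theorem image_sub {N L : ℕ} : (IN A N L).image A ⊆ bx N := by
  intro y hy
  obtain ⟨x, hx, rfl⟩ := Finset.mem_image.mp hy
  have := mem_IN.mp hx 0 (zero_mem_cl L)
  rwa [add_zero] at this

/-- Partition into classes. -/
theorem sum_sig {N L : ℕ} (G : ℤ × ℤ → ℝ) :
    ∑ x ∈ IN A N L, G x = ∑ u ∈ bx (L + 1), ∑ x ∈ sig A N L u, G x := by
  have hL : (0 : ℤ) < (L : ℤ) + 1 := by positivity
  have h1 : ∀ x ∈ IN A N L, ((x.1 % ((L : ℤ) + 1), x.2 % ((L : ℤ) + 1)) : ℤ × ℤ) ∈ bx (L + 1) := by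
    intro x _
    rw [mem_bx]
    push_cast
    exact ⟨⟨Int.emod_nonneg _ hL.ne', Int.emod_lt_of_pos _ hL⟩,
      ⟨Int.emod_nonneg _ hL.ne', Int.emod_lt_of_pos _ hL⟩⟩
  rw [← Finset.sum_fiberwise_of_maps_to h1]
  refine Finset.sum_congr rfl fun u _ => ?_
  unfold sig
  refine Finset.sum_congr (Finset.filter_congr fun x _ => ?_) fun _ _ => rfl
  rw [Prod.ext_iff]

/-! ### Deviations of the box averages -/

theorem cnt_cast {κ U : Type*} [DecidableEq κ] (σ : Finset κ) (P : κ → Set (U → ℝ)) (z : U → ℝ) :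
    (cnt σ P z : ℝ) = ∑ j ∈ σ, (P j).indicator (1 : (U → ℝ) → ℝ) z := by
  classical
  rw [Lc279.cnt_eq, Finset.card_filter]
  push_cast
  refine Finset.sum_congr rfl fun j _ => ?_
  simp [Set.indicator]

theorem isProb_bxP (N : ℕ) : IsProbabilityMeasure (bxP N) :=
  isProbabilityMeasure_hamP (anch_bx N) fun u => by simp

theorem measurable_BAA (A : ℤ × ℤ ≃+ ℤ × ℤ) {L r : ℕ} {f : (ℤ × ℤ → ℝ) → ℝ} (hf : Measurable f)
    (x : ℤ × ℤ) : Measurable fun z : ℤ × ℤ → ℝ => BA L r f fun v => z (A (x + v)) :=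
  (Lc279.measurable_BA hf).comp (measurable_pi_lambda _ fun v => measurable_pi_apply _)

/-- One class. -/
theorem sum_class {r : ℕ} {f : (ℤ × ℤ → ℝ) → ℝ} (hf : LObs r f) {a : ℝ} (ha : 0 < a) (ha1 : a ≤ 1) :
    ∃ L0 : ℕ, ∀ L, L0 ≤ L → ∀ᶠ N : ℕ in atTop, ∀ A : ℤ × ℤ ≃+ ℤ × ℤ, LAut A → ∀ u ∈ bx (L + 1),
      ∑ x ∈ sig A N L u, Ev (bx N) (Lc279.lat (bx N)) 0
        (fun z => |BA L r f (fun v => z (A (x + v))) - mB L r f|) ≤
      5 * a * (sig A N L u).card := by
  obtain ⟨η, hη, L1, N1, hL1, hN1, H⟩ := Lc279.meso hf ha ha1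
  obtain ⟨L2, hL2⟩ := exists_nat_ge (6 / η)
  refine ⟨max L1 L2, fun L hL => ?_⟩
  have hLa : L1 ≤ L := (le_max_left _ _).trans hL
  have hLb : (6 / η : ℝ) ≤ L := hL2.trans (by exact_mod_cast (le_max_right _ _).trans hL)
  have hL0 : 0 < L := lt_of_lt_of_le hL1 hLa
  have hLr : (1 : ℝ) ≤ L := by exact_mod_cast hL0
  have hLη : (2 * (L : ℝ) + 1) ≤ η / 2 * (L : ℝ) ^ 2 := by
    rw [div_le_iff₀ hη] at hLb
    nlinarith
  obtain ⟨c0, hc0⟩ : ∃ c0 : ℝ, c0 = max (N1 : ℝ) (-Real.log a / (η * (L : ℝ) ^ 2)) := ⟨_, rfl⟩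
  have e1 : ∀ᶠ N : ℕ in atTop, 16 * ((L : ℝ) + 1) ≤ N :=
    tendsto_natCast_atTop_atTop.eventually_ge_atTop _
  have e2 : ∀ᶠ N : ℕ in atTop, 32 * ((L : ℝ) + 1) ^ 3 / (η * (L : ℝ) ^ 2) ≤ N :=
    tendsto_natCast_atTop_atTop.eventually_ge_atTop _
  have e3 : ∀ᶠ N : ℕ in atTop, c0 * (2 * ((L : ℝ) + 1) ^ 2) ≤ N :=
    tendsto_natCast_atTop_atTop.eventually_ge_atTop _
  filter_upwards [e1, e2, e3] with N h1 h2 h3 A hA u hu
  have hηL : 0 < η * (L : ℝ) ^ 2 := by positivity
  have hN0 : (0 : ℝ) < N := lt_of_lt_of_le (by positivity) h1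
  have hN1' : (1 : ℝ) ≤ N := by linarith
  set σ := sig A N L u with hσ
  have hc := card_cover hA (N := N) hu
  rw [← hσ] at hc
  have hcr : (N : ℝ) ^ 2 ≤ 8 * ((L : ℝ) + 1) * N + ((L : ℝ) + 1) ^ 2 * σ.card := by
    have : ((N ^ 2 : ℕ) : ℝ) ≤ ((4 * (2 * L + 2) * N + (L + 1) ^ 2 * σ.card : ℕ) : ℝ) := by
      exact_mod_cast hc
    push_cast at this
    linarith
  have hσN : (N : ℝ) ^ 2 ≤ 2 * ((L : ℝ) + 1) ^ 2 * σ.card := by
    have : 16 * ((L : ℝ) + 1) * N ≤ N * N := mul_le_mul_of_nonneg_right h1 hN0.le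
    nlinarith
  have hL2p : (0 : ℝ) < 2 * ((L : ℝ) + 1) ^ 2 := by positivity
  have hσc : c0 ≤ σ.card := by
    have h4 : c0 * (2 * ((L : ℝ) + 1) ^ 2) ≤ (σ.card : ℝ) * (2 * ((L : ℝ) + 1) ^ 2) := by
      have : (N : ℝ) ≤ N ^ 2 := by nlinarith
      linarith
    exact le_of_mul_le_mul_right h4 hL2p
  have hσN1 : N1 ≤ σ.card := by
    have : (N1 : ℝ) ≤ σ.card := by rw [hc0] at hσc; exact (le_max_left _ _).trans hσc
    exact_mod_cast this
  have hleft : ((bx N \ σ.biUnion fun x => (bx L).image fun v => A (x + v)).card : ℝ) ≤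
      η * (L : ℝ) ^ 2 * σ.card := by
    have h4 : ((bx N \ σ.biUnion fun x => (bx L).image fun v => A (x + v)).card : ℝ) ≤
        ((4 * (2 * L + 2) * N + (2 * L + 1) * σ.card : ℕ) : ℝ) := by
      exact_mod_cast card_left hA hu
    push_cast at h4
    have h5 : 8 * ((L : ℝ) + 1) * N ≤ η / 2 * (L : ℝ) ^ 2 * σ.card := by
      rw [div_le_iff₀ hηL] at h2
      have h6 : 32 * ((L : ℝ) + 1) ^ 3 * N ≤ N * (η * (L : ℝ) ^ 2) * N :=
        mul_le_mul_of_nonneg_right h2 hN0.le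
      have h7 : N * (η * (L : ℝ) ^ 2) * N ≤ (η * (L : ℝ) ^ 2) * (2 * ((L : ℝ) + 1) ^ 2 * σ.card) := by
        have := mul_le_mul_of_nonneg_left hσN hηL.le
        nlinarith
      have h8 : (4 * ((L : ℝ) + 1) ^ 2) * (8 * ((L : ℝ) + 1) * N) ≤
          (4 * ((L : ℝ) + 1) ^ 2) * (η / 2 * (L : ℝ) ^ 2 * σ.card) := by nlinarith
      exact le_of_mul_le_mul_left h8 (by positivity)
    have h6 : (2 * (L : ℝ) + 1) * σ.card ≤ η / 2 * (L : ℝ) ^ 2 * σ.card :=
      mul_le_mul_of_nonneg_right hLη (Nat.cast_nonneg _)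
    linarith
  have key := H L hLa (ℤ × ℤ) (bx N) (Lc279.lat (bx N)) (ℤ × ℤ) σ (fun x v => A (x + v))
    (cov hA u) hσN1 hleft 0
  -- the bad event
  have := isProb_bxP N
  set S : Set (bx N → ℝ) := {y | a * σ.card ≤ cnt σ (DS L r f a fun x v => A (x + v)) (fh N y)}
    with hS
  have hDSm : ∀ x, MeasurableSet (DS L r f a (fun x v => A (x + v)) x) := fun x =>
    measurableSet_lt measurable_const (((measurable_BAA A hf.meas x).sub_const _).abs)
  have hSm : MeasurableSet S := by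
    have : S = {y | a * σ.card ≤ ∑ x ∈ σ,
        (DS L r f a (fun x v => A (x + v)) x).indicator (1 : (ℤ × ℤ → ℝ) → ℝ) (fh N y)} := by
      rw [hS]; ext y
      rw [mem_ofPred_eq, mem_ofPred_eq, cnt_cast]
    rw [this]
    refine measurableSet_le measurable_const (Finset.measurable_sum _ fun x _ => ?_)
    exact (measurable_one.indicator (hDSm x)).comp (measurable_fh N)
  have hPS : (bxP N).real S ≤ a := by
    have h4 : bxP N S ≤ ENNReal.ofReal a := by
      have hv0 : volume (ham (bx N) (Lc279.lat (bx N)) 0) ≠ 0 :=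
        (volume_ham_pos fun u => by simp).ne'
      have hvt : volume (ham (bx N) (Lc279.lat (bx N)) 0) ≠ ⊤ := (volume_ham_lt_top (anch_bx N)).ne
      rw [bxP, hamP, Measure.smul_apply, Measure.restrict_apply hSm, smul_eq_mul, inter_comm]
      calc _ ≤ (volume (ham (bx N) (Lc279.lat (bx N)) 0))⁻¹ *
            (ENNReal.ofReal (Real.exp (-(η * (L : ℝ) ^ 2 * σ.card))) *
              volume (ham (bx N) (Lc279.lat (bx N)) 0)) := mul_le_mul' le_rfl key
        _ = ENNReal.ofReal (Real.exp (-(η * (L : ℝ) ^ 2 * σ.card))) := by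
            rw [mul_comm, mul_assoc, ENNReal.mul_inv_cancel hv0 hvt, mul_one]
        _ ≤ _ := by
            refine ENNReal.ofReal_le_ofReal ?_
            have h5 : -Real.log a / (η * (L : ℝ) ^ 2) ≤ σ.card := by
              rw [hc0] at hσc; exact (le_max_right _ _).trans hσc
            rw [div_le_iff₀ hηL] at h5
            calc Real.exp (-(η * (L : ℝ) ^ 2 * σ.card)) ≤ Real.exp (Real.log a) :=
                  Real.exp_le_exp.mpr (by linarith)
              _ = a := Real.exp_log ha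
    rw [Measure.real]
    exact ENNReal.toReal_le_of_le_ofReal ha.le h4
  -- integrate
  have hbd : ∀ x (z : ℤ × ℤ → ℝ), |BA L r f (fun v => z (A (x + v))) - mB L r f| ≤ 2 := by
    intro x z
    have h4 : |BA L r f fun v => z (A (x + v))| ≤ 1 := Lc279.abs_BA_le hf.bd _
    have h5 : |mB L r f| ≤ 1 := abs_Ev_le fun h => Lc279.abs_BA_le hf.bd _
    exact (abs_sub _ _).trans (by linarith)
  have hGi : ∀ x ∈ σ, Integrable (fun y => |BA L r f (fun v => fh N y (A (x + v))) - mB L r f|)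
      (bxP N) := by
    intro x _
    refine Integrable.of_bound (C := 2) ?_ (Eventually.of_forall fun y => ?_)
    · exact ((((measurable_BAA A hf.meas x).sub_const _).abs).comp
        (measurable_fh N)).aestronglyMeasurable
    · rw [Real.norm_eq_abs, abs_abs]; exact hbd x _
  have hEv : ∑ x ∈ σ, Ev (bx N) (Lc279.lat (bx N)) 0
      (fun z => |BA L r f (fun v => z (A (x + v))) - mB L r f|) =
      ∫ y, ∑ x ∈ σ, |BA L r f (fun v => fh N y (A (x + v))) - mB L r f| ∂(bxP N) := by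
    rw [integral_finsetSum _ hGi]; rfl
  rw [hEv]
  have hpt : ∀ y, ∑ x ∈ σ, |BA L r f (fun v => fh N y (A (x + v))) - mB L r f| ≤
      3 * a * σ.card + 2 * σ.card * S.indicator (1 : (bx N → ℝ) → ℝ) y := by
    intro y
    have h4 : ∑ x ∈ σ, |BA L r f (fun v => fh N y (A (x + v))) - mB L r f| ≤
        ∑ x ∈ σ, (a + 2 * (DS L r f a (fun x v => A (x + v)) x).indicator
          (1 : (ℤ × ℤ → ℝ) → ℝ) (fh N y)) := by
      refine Finset.sum_le_sum fun x _ => ?_
      by_cases h5 : fh N y ∈ DS L r f a (fun x v => A (x + v)) x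
      · rw [indicator_of_mem h5]
        have := hbd x (fh N y)
        simp only [Pi.one_apply]
        linarith
      · rw [indicator_of_notMem h5]
        have : |BA L r f (fun v => fh N y (A (x + v))) - mB L r f| ≤ a := not_lt.mp h5
        linarith
    rw [Finset.sum_add_distrib, Finset.sum_const, nsmul_eq_mul, ← Finset.mul_sum, ← cnt_cast] at h4
    by_cases h5 : y ∈ S
    · rw [indicator_of_mem h5]
      have h6 : (cnt σ (DS L r f a fun x v => A (x + v)) (fh N y) : ℝ) ≤ σ.card := by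
        rw [cnt_cast]
        refine (Finset.sum_le_card_nsmul _ _ 1 fun x _ => ?_).trans (by simp)
        exact indicator_le_self' (fun _ _ => zero_le_one) _
      have h7 : 0 ≤ a * σ.card := by positivity
      simp only [Pi.one_apply]
      linarith
    · rw [indicator_of_notMem h5]
      have h6 : (cnt σ (DS L r f a fun x v => A (x + v)) (fh N y) : ℝ) < a * σ.card := not_le.mp h5
      linarith
  have hiS : Integrable (S.indicator (1 : (bx N → ℝ) → ℝ)) (bxP N) :=
    (integrable_const (1 : ℝ)).indicator hSm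
  have hi : Integrable (fun y => 3 * a * σ.card + 2 * σ.card * S.indicator (1 : (bx N → ℝ) → ℝ) y)
      (bxP N) := (integrable_const _).add (hiS.const_mul _)
  refine (integral_mono (integrable_finsetSum _ hGi) hi hpt).trans ?_
  rw [integral_add (integrable_const _) (hiS.const_mul _), integral_const, integral_const_mul]
  have h4 : ∫ y, S.indicator (1 : (bx N → ℝ) → ℝ) y ∂(bxP N) = (bxP N).real S :=
    integral_indicator_one hSm
  rw [h4]
  simp only [probReal_univ, smul_eq_mul, one_mul]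
  have h5 := mul_le_mul_of_nonneg_left hPS (by positivity : (0 : ℝ) ≤ 2 * σ.card)
  linarith

end Crest.Agent.R144.Lw425
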