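import Crest.Agent.R144.Lmu4_425

/-!
R144 (S0197), helper425.  Lmu5: ergodicity of `μ₀` in `L¹` and covariance under lattice automorphisms.

* `mB_tendsto` : the reference values converge to `m f`;
* `IsMu0.erg_aut` : `∫ |BA L r f (h ∘ A) - m f| dμ₀ → 0` for every lattice automorphism `A`;
* `IsMu0.map_aut` : `μ₀` is invariant under lattice automorphisms;
* `IsMu0.erg` : `∫ |mean over the box of f - m f| dμ₀ → 0`.
-/

set_option autoImplicit false

open MeasureTheory Set Filter Topology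
open scoped ENNReal

noncomputable section

namespace Crest.Agent.R144.Lw425

open Crest.Agent.R144.Ham560
open Crest.Agent.R144.Lc279 (Ev bx mem_bx card_bx anch_bx card_nbr_lat_le mem_nbr_lat cl mem_cl
  bx_sub_cl cl_of_adj Ch BCh Cov DS cnt BA mB pos mem_pos hd_add)

variable {A : ℤ × ℤ ≃+ ℤ × ℤ}

/-- The deviation as a local observable. -/
def dev (A : ℤ × ℤ ≃+ ℤ × ℤ) (L r : ℕ) (f : (ℤ × ℤ → ℝ) → ℝ) (c : ℝ) (h : ℤ × ℤ → ℝ) : ℝ :=
  |BA L r f (fun v => h (A v)) - c| / 2

theorem dev_LObs {L r : ℕ} {f : (ℤ × ℤ → ℝ) → ℝ} (hf : LObs r f) {c : ℝ} (hc : |c| ≤ 1) :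
    ∃ r', LObs r' (dev A L r f c) := by
  classical
  obtain ⟨r', hr'⟩ := exists_hball ((bx L).image A)
  refine ⟨r', ?_, ?_, ?_, ?_⟩
  · have : Measurable fun h : ℤ × ℤ → ℝ => BA L r f fun v => h (A v) :=
      (Lc279.measurable_BA hf.meas).comp (measurable_pi_lambda _ fun v => measurable_pi_apply _)
    exact ((this.sub_const _).abs).div_const _
  · intro h
    unfold dev
    have h4 : |BA L r f fun v => h (A v)| ≤ 1 := Lc279.abs_BA_le hf.bd _
    have h5 := abs_sub (BA L r f fun v => h (A v)) c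
    rw [abs_div, abs_abs, abs_of_pos (by norm_num : (0 : ℝ) < 2)]
    linarith
  · intro h h' hh
    unfold dev
    have : BA L r f (fun v => h (A v)) = BA L r f fun v => h' (A v) := by
      refine Lc279.dep_BA (Lc279.LObs.dep hf) fun v hv => ?_
      exact hh _ (hr' _ (Finset.mem_image_of_mem A (Finset.mem_coe.mp hv)))
    rw [this]
  · intro h c'
    unfold dev BA
    have : ∀ x : ℤ × ℤ, (f fun v => h (A (x + v)) + c') = f fun v => h (A (x + v)) := fun x =>
      hf.shift (fun v => h (A (x + v))) c'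
    simp only [this]

/-- The two average forms. -/
theorem dev_shift (A : ℤ × ℤ ≃+ ℤ × ℤ) (L r : ℕ) (f : (ℤ × ℤ → ℝ) → ℝ) (c : ℝ) (x : ℤ × ℤ)
    (z : ℤ × ℤ → ℝ) :
    |BA L r f (fun v => z (A (x + v))) - c| = 2 * dev A L r f c fun a => z (A x + a) := by
  unfold dev
  simp only [map_add]
  ring

/-- The reference values converge. -/
theorem mB_sub_le {L r : ℕ} (hL : 0 < L) {f : (ℤ × ℤ → ℝ) → ℝ} (hf : LObs r f) :
    |mB L r f - bav L f| ≤ 4 * r / L := by
  have := isProb_bxP L
  have hLr : (0 : ℝ) < L := by exact_mod_cast hL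
  have hint : ∀ x ∈ pos L r, Integrable (fun y => f fun v => fh L y (x + v)) (bxP L) := by
    intro x _
    refine Integrable.of_bound (C := 1) ?_ (Eventually.of_forall fun y => ?_)
    · exact ((hf.meas.comp (measurable_pi_lambda _ fun v => measurable_pi_apply _)).comp
        (measurable_fh L)).aestronglyMeasurable
    · rw [Real.norm_eq_abs]; exact hf.bd _
  have e1 : mB L r f = (∑ x ∈ pos L r, Ev (bx L) (Lc279.lat (bx L)) 0 fun z => f fun v => z (x + v)) /
      (L : ℝ) ^ 2 := by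
    unfold mB
    have : Ev (bx L) (Lc279.lat (bx L)) 0 (BA L r f) =
        ∫ y, (∑ x ∈ pos L r, f fun v => fh L y (x + v)) / (L : ℝ) ^ 2 ∂(bxP L) := rfl
    rw [this, integral_div, integral_finsetSum _ hint]
    rfl
  have e2 : bav L f = (∑ x ∈ bx L, Ev (bx L) (Lc279.lat (bx L)) 0 fun z => f fun v => z (x + v)) /
      (L : ℝ) ^ 2 := by
    unfold bav
    rw [card_bx]
    push_cast
    rw [inv_mul_eq_div]
  rw [e1, e2, ← sub_div, abs_div, abs_of_pos (by positivity : (0 : ℝ) < (L : ℝ) ^ 2)]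
  rw [div_le_div_iff₀ (by positivity) hLr]
  have hsub : pos L r ⊆ bx L := Lc279.pos_subset L r
  have h1 : |∑ x ∈ bx L \ pos L r, Ev (bx L) (Lc279.lat (bx L)) 0 fun z => f fun v => z (x + v)| ≤
      4 * r * L := by
    refine (Finset.abs_sum_le_sum_abs _ _).trans ?_
    refine (Finset.sum_le_card_nsmul _ _ 1 fun x _ => abs_Ev_le fun h => hf.bd _).trans ?_
    have h2 := card_layer L r
    rw [nsmul_eq_mul, mul_one]
    calc ((bx L \ pos L r).card : ℝ) ≤ ((4 * r * L : ℕ) : ℝ) := by exact_mod_cast h2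
      _ = _ := by push_cast; ring
  rw [← Finset.sum_sdiff hsub, sub_add_cancel_right, abs_neg]
  have := mul_le_mul_of_nonneg_right h1 hLr.le
  calc _ ≤ 4 * (r : ℝ) * L * L := this
    _ = _ := by ring

theorem mB_tendsto {m : ((ℤ × ℤ → ℝ) → ℝ) → ℝ}
    (hm : ∀ r f, LObs r f → Tendsto (fun L : ℕ => bav L f) atTop (𝓝 (m f)))
    {r : ℕ} {f : (ℤ × ℤ → ℝ) → ℝ} (hf : LObs r f) :
    Tendsto (fun L => mB L r f) atTop (𝓝 (m f)) := by
  have h1 : Tendsto (fun L : ℕ => mB L r f - bav L f) atTop (𝓝 0) := by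
    refine squeeze_zero_norm' (a := fun L : ℕ => 4 * (r : ℝ) / L) ?_
      (tendsto_const_div_atTop_nhds_zero_nat _)
    filter_upwards [eventually_gt_atTop 0] with L hL
    rw [Real.norm_eq_abs]
    exact mB_sub_le hL hf
  have := h1.add (hm r f hf)
  simpa using this

theorem abs_mB_le {L r : ℕ} {f : (ℤ × ℤ → ℝ) → ℝ} (hf : LObs r f) : |mB L r f| ≤ 1 :=
  abs_Ev_le fun h => Lc279.abs_BA_le hf.bd _

/-- Ratio of the sizes. -/
theorem image_ratio (hA : LAut A) (L : ℕ) :
    Tendsto (fun N : ℕ => (((IN A N L).image A).card : ℝ) / (bx N).card) atTop (𝓝 1) := by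
  have h1 : Tendsto (fun N : ℕ => 1 - 4 * (2 * (L : ℝ) + 2) / N) atTop (𝓝 1) := by
    simpa using (tendsto_const_div_atTop_nhds_zero_nat (4 * (2 * (L : ℝ) + 2))).const_sub 1
  refine tendsto_of_tendsto_of_tendsto_of_le_of_le' h1 tendsto_const_nhds ?_ ?_
  · filter_upwards [eventually_gt_atTop 0] with N hN
    have hNr : (0 : ℝ) < N := by exact_mod_cast hN
    have h2 := Finset.card_le_card (pos_sub_image hA (N := N) (L := L))
    have h3 := card_layer N (2 * L + 2)
    have hsub : pos N (2 * L + 2) ⊆ bx N := Lc279.pos_subset N _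
    rw [Finset.card_sdiff_of_subset hsub, card_bx, Nat.sub_le_iff_le_add] at h3
    rw [card_bx]
    have h4 : (N : ℝ) ^ 2 ≤ 4 * (2 * L + 2) * N + ((IN A N L).image A).card := by
      have : ((N ^ 2 : ℕ) : ℝ) ≤ ((4 * (2 * L + 2) * N + ((IN A N L).image A).card : ℕ) : ℝ) := by
        exact_mod_cast h3.trans (Nat.add_le_add_left h2 _)
      push_cast at this
      exact this
    rw [le_div_iff₀ (by positivity)]
    push_cast
    have h5 : (1 - 4 * (2 * (L : ℝ) + 2) / N) * (N : ℝ) ^ 2 =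
        (N : ℝ) ^ 2 - 4 * (2 * L + 2) * N := by
      field_simp
    rw [h5]; linarith
  · filter_upwards [eventually_gt_atTop 0] with N hN
    have hNr : (0 : ℝ) < (bx N).card := by
      rw [card_bx]; positivity
    rw [div_le_one hNr]
    exact_mod_cast Finset.card_le_card (image_sub (A := A) (N := N) (L := L))

/-- The expected deviation of the box averages is small. -/
theorem dev_le {m : ((ℤ × ℤ → ℝ) → ℝ) → ℝ}
    (hm : ∀ r f, LObs r f → Tendsto (fun L : ℕ => bav L f) atTop (𝓝 (m f)))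
    {r : ℕ} {f : (ℤ × ℤ → ℝ) → ℝ} (hf : LObs r f) {a : ℝ} (ha : 0 < a) (ha1 : a ≤ 1) :
    ∃ L0 : ℕ, ∀ L, L0 ≤ L → ∀ A : ℤ × ℤ ≃+ ℤ × ℤ, LAut A →
      m (dev A L r f (mB L r f)) ≤ 5 * a / 2 := by
  obtain ⟨L0, H⟩ := sum_class hf ha ha1
  refine ⟨L0, fun L hL A hA => ?_⟩
  obtain ⟨r', hr'⟩ := dev_LObs (A := A) (L := L) hf (abs_mB_le (L := L) hf)
  set g := dev A L r f (mB L r f) with hg
  have h1 := hm r' g hr'
  have h2 : Tendsto (fun N : ℕ => 5 * a / 2 +
      2 * (1 - (((IN A N L).image A).card : ℝ) / (bx N).card)) atTop (𝓝 (5 * a / 2)) := by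
    have := (((image_ratio hA L).const_sub 1).const_mul 2).const_add (5 * a / 2)
    simpa using this
  refine le_of_tendsto_of_tendsto h1 h2 ?_
  have hr1 : ∀ᶠ N : ℕ in atTop, ((IN A N L).image A).Nonempty := by
    have := (image_ratio hA L).eventually (lt_mem_nhds (show (0 : ℝ) < 1 by norm_num))
    filter_upwards [this] with N hN
    rw [← Finset.card_pos]
    by_contra h0
    have : ((IN A N L).image A).card = 0 := by omega
    rw [this] at hN
    simp at hN
  filter_upwards [H L hL, hr1] with N hN hne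
  have h3 : ∑ x ∈ IN A N L, Ev (bx N) (Lc279.lat (bx N)) 0
        (fun z => |BA L r f (fun v => z (A (x + v))) - mB L r f|) ≤ 5 * a * (IN A N L).card := by
    rw [sum_sig]
    refine (Finset.sum_le_sum fun u hu => hN A hA u hu).trans ?_
    rw [← Finset.mul_sum]
    have := sum_sig (A := A) (N := N) (L := L) fun _ => 1
    simp only [Finset.sum_const, nsmul_eq_mul, mul_one] at this
    rw [this]
  set G : ℤ × ℤ → ℝ := fun y => Ev (bx N) (Lc279.lat (bx N)) 0 fun z => g fun a => z (y + a) with hG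
  have hGb : ∀ y, |G y| ≤ 1 := fun y => abs_Ev_le fun h => hr'.bd _
  have h4 : ∑ x ∈ IN A N L, Ev (bx N) (Lc279.lat (bx N)) 0
        (fun z => |BA L r f (fun v => z (A (x + v))) - mB L r f|) = 2 * ∑ x ∈ IN A N L, G (A x) := by
    rw [Finset.mul_sum]
    refine Finset.sum_congr rfl fun x _ => ?_
    simp only [dev_shift]
    rw [hG]
    show ∫ y, 2 * g _ ∂_ = 2 * ∫ y, g _ ∂_
    rw [integral_const_mul]
  have h5 : ∑ x ∈ IN A N L, G (A x) = ∑ y ∈ (IN A N L).image A, G y := by
    rw [Finset.sum_image fun a _ b _ h => A.injective h]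
  have hcard : ((IN A N L).image A).card = (IN A N L).card :=
    Finset.card_image_of_injective _ A.injective
  have h6 := avg_sub_le (image_sub (A := A) (N := N) (L := L)) hne hGb
  have h7 : bav N g = ((bx N).card : ℝ)⁻¹ * ∑ y ∈ bx N, G y := rfl
  rw [← h7] at h6
  have h8 : (((IN A N L).image A).card : ℝ)⁻¹ * ∑ y ∈ (IN A N L).image A, G y ≤ 5 * a / 2 := by
    have hpos : (0 : ℝ) < ((IN A N L).image A).card := by exact_mod_cast hne.card_pos
    rw [inv_mul_le_iff₀ hpos, ← h5, hcard]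
    linarith
  have h9 := (abs_le.mp h6).1
  linarith

/-- **Ergodicity of `μ₀` and covariance.** -/
theorem IsMu0.erg_aut {μ : Measure (ℤ × ℤ → ℝ)} {m : ((ℤ × ℤ → ℝ) → ℝ) → ℝ} (H : IsMu0 μ m)
    (hm : ∀ r f, LObs r f → Tendsto (fun L : ℕ => bav L f) atTop (𝓝 (m f)))
    {r : ℕ} {f : (ℤ × ℤ → ℝ) → ℝ} (hf : LObs r f) (hA : LAut A) :
    Tendsto (fun L => ∫ h, |BA L r f (fun v => h (A v)) - m f| ∂μ) atTop (𝓝 0) := by
  have := H.prob
  rw [Metric.tendsto_atTop]
  intro ε hε
  set a : ℝ := min 1 (ε / 12) with ha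
  have ha0 : 0 < a := lt_min one_pos (by positivity)
  have ha1 : a ≤ 1 := min_le_left _ _
  have ha2 : a ≤ ε / 12 := min_le_right _ _
  obtain ⟨L0, h0⟩ := dev_le hm hf ha0 ha1
  obtain ⟨L1, h1⟩ := Metric.tendsto_atTop.mp (mB_tendsto hm hf) (ε / 3) (by positivity)
  refine ⟨max L0 L1, fun L hL => ?_⟩
  have h2 := h0 L ((le_max_left _ _).trans hL) A hA
  have h3 := h1 L ((le_max_right _ _).trans hL)
  rw [Real.dist_eq] at h3
  obtain ⟨r', hr'⟩ := dev_LObs (A := A) (L := L) hf (abs_mB_le (L := L) hf)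
  rw [← H.eq r' _ hr'] at h2
  have hmeas : Measurable fun h : ℤ × ℤ → ℝ => BA L r f fun v => h (A v) :=
    (Lc279.measurable_BA hf.meas).comp (measurable_pi_lambda _ fun v => measurable_pi_apply _)
  have hb : ∀ h : ℤ × ℤ → ℝ, |BA L r f fun v => h (A v)| ≤ 1 := fun h => Lc279.abs_BA_le hf.bd _
  have hi : ∀ c : ℝ, Integrable (fun h : ℤ × ℤ → ℝ => |BA L r f (fun v => h (A v)) - c|) μ := by
    intro c
    refine Integrable.of_bound (C := 1 + |c|) ((hmeas.sub_const _).abs).aestronglyMeasurable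
      (Eventually.of_forall fun h => ?_)
    rw [Real.norm_eq_abs, abs_abs]
    exact (abs_sub _ _).trans (by linarith [hb h])
  have h4 : ∫ h, |BA L r f (fun v => h (A v)) - m f| ∂μ ≤
      ∫ h, (|BA L r f (fun v => h (A v)) - mB L r f| + |mB L r f - m f|) ∂μ :=
    integral_mono (hi _) ((hi _).add (integrable_const _)) fun h => abs_sub_le _ _ _
  rw [integral_add (hi _) (integrable_const _), integral_const] at h4
  simp only [probReal_univ, smul_eq_mul, one_mul] at h4
  have h5 : ∫ h, |BA L r f (fun v => h (A v)) - mB L r f| ∂μ = 2 * ∫ h, dev A L r f (mB L r f) h ∂μ := by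
    rw [← integral_const_mul]
    refine integral_congr_ae (Eventually.of_forall fun h => ?_)
    unfold dev
    simp only
    ring
  rw [h5] at h4
  have h6 : 0 ≤ ∫ h, |BA L r f (fun v => h (A v)) - m f| ∂μ := integral_nonneg fun h => abs_nonneg _
  rw [Real.dist_eq, sub_zero, abs_of_nonneg h6]
  linarith

/-! ### Invariance under automorphisms -/

theorem LObs.aut {r : ℕ} {f : (ℤ × ℤ → ℝ) → ℝ} (hf : LObs r f) (hA : LAut A) :
    LObs r fun h => f fun v => h (A v) where
  meas := hf.meas.comp (measurable_pi_lambda _ fun a => measurable_pi_apply _)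
  bd := fun h => hf.bd _
  loc := by
    intro h h' hh
    refine hf.loc _ _ fun a ha => hh _ ?_
    rw [mem_hball] at ha ⊢
    have := hA a 0
    rw [map_zero] at this
    rw [this]; exact ha
  shift := fun h c => hf.shift (fun v => h (A v)) c

theorem IsMu0.trans_eq {μ : Measure (ℤ × ℤ → ℝ)} {m : ((ℤ × ℤ → ℝ) → ℝ) → ℝ} (H : IsMu0 μ m)
    {r : ℕ} {f : (ℤ × ℤ → ℝ) → ℝ} (hf : LObs r f) (x : ℤ × ℤ) :
    ∫ h, f (fun a => h (x + a)) ∂μ = ∫ h, f h ∂μ := by
  have h1 := H.trans x
  calc ∫ h, f (fun a => h (x + a)) ∂μ = ∫ h, f (shft x h) ∂μ := by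
        refine integral_congr_ae (Eventually.of_forall fun h => ?_)
        exact (hf.shft_eq x h).symm
    _ = ∫ h, f h ∂(μ.map (shft x)) :=
        (integral_map (measurable_shft x).aemeasurable hf.meas.aestronglyMeasurable).symm
    _ = _ := by rw [h1]

/-- **Automorphisms.** -/
theorem IsMu0.aut_eq {μ : Measure (ℤ × ℤ → ℝ)} {m : ((ℤ × ℤ → ℝ) → ℝ) → ℝ} (H : IsMu0 μ m)
    (hm : ∀ r f, LObs r f → Tendsto (fun L : ℕ => bav L f) atTop (𝓝 (m f)))
    {r : ℕ} {f : (ℤ × ℤ → ℝ) → ℝ} (hf : LObs r f) (hA : LAut A) :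
    ∫ h, f (fun v => h (A v)) ∂μ = ∫ h, f h ∂μ := by
  have := H.prob
  rw [H.eq r f hf]
  have h1 := H.erg_aut hm hf hA
  have hint : ∀ x, Integrable (fun h : ℤ × ℤ → ℝ => f fun v => h (A (x + v))) μ := by
    intro x
    refine Integrable.of_bound (C := 1) ?_ (Eventually.of_forall fun h => ?_)
    · exact (hf.meas.comp (measurable_pi_lambda _ fun v => measurable_pi_apply _)).aestronglyMeasurable
    · rw [Real.norm_eq_abs]; exact hf.bd _
  -- expectation of the box average
  have h2 : ∀ L : ℕ, ∫ h, BA L r f (fun v => h (A v)) ∂μ =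
      ((pos L r).card / (L : ℝ) ^ 2) * ∫ h, f (fun v => h (A v)) ∂μ := by
    intro L
    unfold BA
    rw [integral_div, integral_finsetSum _ fun x _ => hint x]
    have : ∀ x ∈ pos L r, ∫ h, f (fun v => h (A (x + v))) ∂μ = ∫ h, f (fun v => h (A v)) ∂μ := by
      intro x _
      have := H.trans_eq (hf.aut hA) (A x)
      rw [← this]
      simp only [map_add]
    rw [Finset.sum_congr rfl this, Finset.sum_const, nsmul_eq_mul]
    ring
  have h3 : Tendsto (fun L : ℕ => ((pos L r).card : ℝ) / (L : ℝ) ^ 2) atTop (𝓝 1) := by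
    have h4 : Tendsto (fun L : ℕ => 1 - 4 * (r : ℝ) / L) atTop (𝓝 1) := by
      simpa using (tendsto_const_div_atTop_nhds_zero_nat (4 * (r : ℝ))).const_sub 1
    refine tendsto_of_tendsto_of_tendsto_of_le_of_le' h4 tendsto_const_nhds ?_ ?_
    · filter_upwards [eventually_gt_atTop 0] with L hL
      have hLr : (0 : ℝ) < L := by exact_mod_cast hL
      have h5 := card_layer L r
      rw [Finset.card_sdiff_of_subset (Lc279.pos_subset L r), card_bx,
        Nat.sub_le_iff_le_add] at h5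
      have h6 : (L : ℝ) ^ 2 ≤ 4 * r * L + (pos L r).card := by
        have : ((L ^ 2 : ℕ) : ℝ) ≤ ((4 * r * L + (pos L r).card : ℕ) : ℝ) := by exact_mod_cast h5
        push_cast at this
        exact this
      rw [le_div_iff₀ (by positivity)]
      have h7 : (1 - 4 * (r : ℝ) / L) * (L : ℝ) ^ 2 = (L : ℝ) ^ 2 - 4 * r * L := by field_simp
      rw [h7]; linarith
    · filter_upwards [eventually_gt_atTop 0] with L hL
      rw [div_le_one (by positivity)]
      exact_mod_cast Lc279.card_pos_le L r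
  have h4 : Tendsto (fun L : ℕ => ∫ h, BA L r f (fun v => h (A v)) ∂μ - m f) atTop (𝓝 0) := by
    refine squeeze_zero_norm' (Eventually.of_forall fun L => ?_) h1
    have hi : Integrable (fun h : ℤ × ℤ → ℝ => BA L r f fun v => h (A v)) μ := by
      unfold BA
      exact (integrable_finsetSum _ fun x _ => hint x).div_const _
    have e : ∫ h, BA L r f (fun v => h (A v)) ∂μ - m f =
        ∫ h, (BA L r f (fun v => h (A v)) - m f) ∂μ := by
      rw [integral_sub hi (integrable_const _), integral_const]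
      simp
    rw [e]
    exact norm_integral_le_integral_norm _
  simp only [h2] at h4
  have h5 := (h3.mul_const (∫ h, f (fun v => h (A v)) ∂μ)).sub_const (m f)
  have h6 := tendsto_nhds_unique h4 h5
  linarith

theorem measurable_aut (A : ℤ × ℤ ≃+ ℤ × ℤ) :
    Measurable fun (h : ℤ × ℤ → ℝ) (v : ℤ × ℤ) => h (A v) :=
  measurable_pi_lambda _ fun v => measurable_pi_apply _

/-- **`μ₀` is invariant under lattice automorphisms.** -/
theorem IsMu0.map_aut {μ : Measure (ℤ × ℤ → ℝ)} {m : ((ℤ × ℤ → ℝ) → ℝ) → ℝ} (H : IsMu0 μ m)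
    (hm : ∀ r f, LObs r f → Tendsto (fun L : ℕ => bav L f) atTop (𝓝 (m f)))
    (hA : LAut A) : μ.map (fun h v => h (A v)) = μ := by
  have := H.prob
  have hpx : IsProbabilityMeasure (μ.map fun (h : ℤ × ℤ → ℝ) v => h (A v)) :=
    Measure.isProbabilityMeasure_map (measurable_aut A).aemeasurable
  refine ext_of_LObs ?_ H.pin ?_
  · rw [ae_map_iff (measurable_aut A).aemeasurable
      (measurableSet_eq_fun (measurable_pi_apply 0) measurable_const)]
    filter_upwards [H.pin] with h hh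
    rw [map_zero, hh]
  · intro r f hf
    rw [integral_map (measurable_aut A).aemeasurable hf.meas.aestronglyMeasurable]
    exact H.aut_eq hm hf hA

/-! ### Ergodicity, box averages -/

/-- Mean over a translated box. -/
def BM (R : ℕ) (f : (ℤ × ℤ → ℝ) → ℝ) (h : ℤ × ℤ → ℝ) : ℝ :=
  ((bx R).card : ℝ)⁻¹ * ∑ p ∈ bx R, f fun v => h (p + v)

theorem BM_sub_BA {R r : ℕ} (hR : 0 < R) {f : (ℤ × ℤ → ℝ) → ℝ} (hf : ∀ h, |f h| ≤ 1)
    (h : ℤ × ℤ → ℝ) : |BM R f h - BA R r f h| ≤ 4 * r / R := by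
  have hRr : (0 : ℝ) < R := by exact_mod_cast hR
  have hsub : pos R r ⊆ bx R := Lc279.pos_subset R r
  have h1 : |∑ x ∈ bx R \ pos R r, f fun v => h (x + v)| ≤ 4 * r * R := by
    refine (Finset.abs_sum_le_sum_abs _ _).trans ?_
    refine (Finset.sum_le_card_nsmul _ _ 1 fun x _ => hf _).trans ?_
    have h2 := card_layer R r
    rw [nsmul_eq_mul, mul_one]
    calc ((bx R \ pos R r).card : ℝ) ≤ ((4 * r * R : ℕ) : ℝ) := by exact_mod_cast h2
      _ = _ := by push_cast; ring
  unfold BM BA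
  rw [card_bx]
  push_cast
  rw [inv_mul_eq_div, ← sub_div, abs_div, abs_of_pos (by positivity : (0 : ℝ) < (R : ℝ) ^ 2),
    div_le_div_iff₀ (by positivity) hRr, ← Finset.sum_sdiff hsub, add_sub_cancel_right]
  have := mul_le_mul_of_nonneg_right h1 hRr.le
  calc _ ≤ 4 * (r : ℝ) * R * R := this
    _ = _ := by ring

/-- A trivial automorphism. -/
theorem LAut_refl : LAut (AddEquiv.refl (ℤ × ℤ)) := fun _ _ => rfl

/-- **(I2)** Ergodicity of `μ₀` in `L¹`. -/
theorem IsMu0.erg {μ : Measure (ℤ × ℤ → ℝ)} {m : ((ℤ × ℤ → ℝ) → ℝ) → ℝ} (H : IsMu0 μ m)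
    (hm : ∀ r f, LObs r f → Tendsto (fun L : ℕ => bav L f) atTop (𝓝 (m f)))
    {r : ℕ} {f : (ℤ × ℤ → ℝ) → ℝ} (hf : LObs r f) :
    Tendsto (fun R => ∫ h, |BM R f h - m f| ∂μ) atTop (𝓝 0) := by
  have := H.prob
  have h1 := H.erg_aut hm hf LAut_refl
  have h2 := h1.add (tendsto_const_div_atTop_nhds_zero_nat (4 * (r : ℝ)))
  rw [add_zero] at h2
  refine squeeze_zero' (Eventually.of_forall fun R => integral_nonneg fun h => abs_nonneg _) ?_ h2
  filter_upwards [eventually_gt_atTop 0] with R hR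
  have hBA : Measurable (BA R r f) := Lc279.measurable_BA hf.meas
  have hBM : Measurable (BM R f) := by
    unfold BM
    exact (Finset.measurable_sum _ fun x _ =>
      hf.meas.comp (measurable_pi_lambda _ fun v => measurable_pi_apply _)).const_mul _
  have i1 : Integrable (fun h => |BA R r f h - m f|) μ := by
    refine Integrable.of_bound (C := 1 + |m f|) ((hBA.sub_const _).abs).aestronglyMeasurable
      (Eventually.of_forall fun h => ?_)
    rw [Real.norm_eq_abs, abs_abs]
    exact (abs_sub _ _).trans (by linarith [Lc279.abs_BA_le (L := R) (r := r) hf.bd h])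
  have hpt : ∀ h, |BM R f h - m f| ≤ |BA R r f h - m f| + 4 * r / R := by
    intro h
    have h3 := BM_sub_BA (r := r) hR hf.bd h
    have h4 := abs_sub_le (BM R f h) (BA R r f h) (m f)
    linarith
  have i2 : Integrable (fun h => |BM R f h - m f|) μ := by
    refine (i1.add (integrable_const (4 * (r : ℝ) / R))).mono'
      ((hBM.sub_const _).abs).aestronglyMeasurable (Eventually.of_forall fun h => ?_)
    rw [Real.norm_eq_abs, abs_abs]
    exact hpt h
  refine (integral_mono i2 (i1.add (integrable_const _)) hpt).trans ?_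
  have := integral_add i1 (integrable_const (4 * (r : ℝ) / R))
  simp only [Pi.add_apply] at this ⊢
  rw [this, integral_const]
  simp

end Crest.Agent.R144.Lw425
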