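import Crest.Agent.R144.Lmu5_425
import Crest.Agent.R144.Lc14_279
import Crest.Agent.R144.Bl3_565

/-!
R144 (S0197), helper425.  Lmu6: the plane state `mu0` (a measure), unconditional.

* `bav_tendsto` : convergence of the box averages (279's `tendsto_mB`);
* `mu0`, `isMu0` : the plane state and its properties;
* `mu0_inv` : 565's structure `Inv`;
* `mu0_erg`, `mu0_aut` : ergodicity in `L¹`, lattice automorphisms.
-/

set_option autoImplicit false

open MeasureTheory Set Filter Topology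
open scoped ENNReal

noncomputable section

namespace Crest.Agent.R144.Lw425

open Crest.Agent.R144.Ham560
open Crest.Agent.R144.Lc279 (Ev bx mem_bx card_bx anch_bx card_nbr_lat_le mem_nbr_lat cl mem_cl
  bx_sub_cl cl_of_adj Ch BCh Cov DS cnt BA mB pos mem_pos hd_add m0)

theorem bav_eq {L r : ℕ} {f : (ℤ × ℤ → ℝ) → ℝ} (hf : LObs r f) : bav L f = mB L 0 f := by
  have := isProb_bxP L
  have hint : ∀ x ∈ pos L 0, Integrable (fun y => f fun v => fh L y (x + v)) (bxP L) := by
    intro x _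
    refine Integrable.of_bound (C := 1) ?_ (Eventually.of_forall fun y => ?_)
    · exact ((hf.meas.comp (measurable_pi_lambda _ fun v => measurable_pi_apply _)).comp
        (measurable_fh L)).aestronglyMeasurable
    · rw [Real.norm_eq_abs]; exact hf.bd _
  unfold mB
  have h1 : Ev (bx L) (Lc279.lat (bx L)) 0 (BA L 0 f) =
      ∫ y, (∑ x ∈ pos L 0, f fun v => fh L y (x + v)) / (L : ℝ) ^ 2 ∂(bxP L) := rfl
  rw [h1, integral_div, integral_finsetSum _ hint, Lc279.pos_zero]
  unfold bav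
  rw [card_bx]
  push_cast
  rw [inv_mul_eq_div]
  rfl

theorem bav_tendsto : ∀ r f, LObs r f → Tendsto (fun L : ℕ => bav L f) atTop (𝓝 (m0 f)) := by
  intro r f hf
  simp only [bav_eq hf]
  exact Lc279.tendsto_mB hf

/-- **The plane state** (279's term). -/
abbrev mu0 : Measure (ℤ × ℤ → ℝ) := Lc279.mu0

theorem isMu0 : IsMu0 mu0 m0 := Lc279.isMu0

/-- The rotation by 120 degrees. -/
def rotA : ℤ × ℤ ≃+ ℤ × ℤ where
  toFun v := (-v.1 - v.2, v.1)
  invFun v := (v.2, -v.1 - v.2)
  left_inv v := by ext <;> simp only <;> ring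
  right_inv v := by ext <;> simp only <;> ring
  map_add' v w := by ext <;> simp only [Prod.fst_add, Prod.snd_add] <;> ring

theorem LAut_rotA : LAut rotA := by
  intro a b
  have h : ∀ k : ℤ, hd (rotA a) (rotA b) ≤ k ↔ hd a b ≤ k := fun k => by
    rw [hd_le_iff, hd_le_iff]
    show _ ∧ _ ∧ _ ↔ _
    simp only [rotA, AddEquiv.coe_mk, Equiv.coe_fn_mk]
    omega
  exact le_antisymm ((h _).mpr le_rfl) ((h _).mp le_rfl)

theorem mu0_aut {A : ℤ × ℤ ≃+ ℤ × ℤ} (hA : LAut A) : mu0.map (fun h v => h (A v)) = mu0 :=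
  isMu0.map_aut bav_tendsto hA

theorem mu0_erg {r : ℕ} {f : (ℤ × ℤ → ℝ) → ℝ} (hf : LObs r f) :
    Tendsto (fun R => ∫ h, |BM R f h - m0 f| ∂mu0) atTop (𝓝 0) := isMu0.erg bav_tendsto hf

theorem mu0_inv : Bl565.Inv mu0 where
  prob := isMu0.prob
  trans := isMu0.trans
  rot := mu0_aut LAut_rotA

end Crest.Agent.R144.Lw425
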