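import Crest.Agent.R144.Lmu6_425
import Crest.Agent.R144.Fib1_674

/-!
R144 (S0197), helper425.  Lmu7: the DLR equations of the plane state.

* `measurable_Ev`, `Ev_bound`, `Ev_off`, `Ev_tower`, `Ev_touch`, `Ev_shift`, `Ev_local` : general
  facts on conditional expectations;
* `Ev_place` : translations;
* `LObs.cond` : conditional expectations of local observables are local observables;
* `dlr` : `∫ f dμ₀ = ∫ E (f | outside I) dμ₀`; `dlr_lintegral` : the same for nonnegative functions.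
-/

set_option autoImplicit false

open MeasureTheory Set Filter Topology
open scoped ENNReal

noncomputable section

namespace Crest.Agent.R144.Lw425

open Crest.Agent.R144.Ham560
open Crest.Agent.R144.Lc279 (Ev vr HS bx mem_bx card_bx anch_bx card_nbr_lat_le mem_nbr_lat
  hd_add m0 tch mem_tch Place Bd)

section General

variable {U : Type*} [DecidableEq U] {F I : Finset U} {E : Finset (U × U)} {ξ : U → ℝ}

theorem measurable_ext2 (F : Finset U) :
    Measurable fun p : (U → ℝ) × (F → ℝ) => Ham560.ext F p.1 p.2 := by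
  refine measurable_pi_lambda _ fun u => ?_
  by_cases h : u ∈ F
  · simp only [ext_mem h]; exact (measurable_pi_apply _).comp measurable_snd
  · simp only [ext_notMem h]; exact (measurable_pi_apply _).comp measurable_fst

/-- The numerator. -/
theorem setIntegral_ham_eq (f : (U → ℝ) → ℝ) (ξ : U → ℝ) :
    ∫ x in ham F E ξ, f (Ham560.ext F ξ x) =
      ∫ x : F → ℝ, (HS E).indicator f (Ham560.ext F ξ x) := by
  rw [← integral_indicator measurableSet_ham]
  refine integral_congr_ae (ae_of_all _ fun x => ?_)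
  by_cases h : x ∈ ham F E ξ
  · simp only [indicator_of_mem h, indicator_of_mem (Lc279.ext_mem_HS.mpr h)]
  · simp only [indicator_of_notMem h, indicator_of_notMem fun h' => h (Lc279.ext_mem_HS.mp h')]

theorem measurable_Ev {f : (U → ℝ) → ℝ} (hf : Measurable f) : Measurable fun ξ => Ev F E ξ f := by
  simp only [Lc279.Ev_eq, setIntegral_ham_eq]
  refine Measurable.div ?_ ?_
  · have h1 : Measurable (Function.uncurry fun (ξ : U → ℝ) (x : F → ℝ) =>
        (HS E).indicator f (Ham560.ext F ξ x)) :=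
      (hf.indicator (Lc279.measurableSet_HS E)).comp (measurable_ext2 F)
    exact h1.stronglyMeasurable.integral_prod_right.measurable
  · have h2 : Measurable fun ξ => volume (ham F E ξ) := by
      simp only [Lc279.volume_ham]
      exact Lc279.measurable_J (Lc279.measurable_hI E)
    exact h2.ennreal_toReal

theorem Ev_bound {f : (U → ℝ) → ℝ} (hf : Measurable f) (hb : ∀ z, |f z| ≤ 1) (hA : Anch F E)
    (ξ : U → ℝ) : |Ev F E ξ f| ≤ 1 := by
  rcases (Lc279.vr_nonneg (F := F) (E := E) (ξ := ξ)).eq_or_lt with h | h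
  · rw [Lc279.Ev_eq, ← h, div_zero, abs_zero]; exact zero_le_one
  · exact Lc279.abs_Ev_le ⟨hf, 1, hb⟩ hA h hb

/-- Only the outer heights matter. -/
theorem ext_off {ζ : U → ℝ} (h : ∀ u, u ∉ F → ξ u = ζ u) (x : F → ℝ) :
    Ham560.ext F ξ x = Ham560.ext F ζ x := by
  funext u
  by_cases hu : u ∈ F
  · rw [ext_mem hu, ext_mem hu]
  · rw [ext_notMem hu, ext_notMem hu, h u hu]

theorem Ev_off {ζ : U → ℝ} (h : ∀ u, u ∉ F → ξ u = ζ u) (f : (U → ℝ) → ℝ) :
    Ev F E ξ f = Ev F E ζ f := by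
  have h1 : ham F E ξ = ham F E ζ := by
    ext x; rw [← Lc279.ext_mem_HS, ← Lc279.ext_mem_HS, ext_off h]
  rw [Lc279.Ev_eq, Lc279.Ev_eq]
  unfold vr
  rw [h1]
  simp only [ext_off h]

/-- Only the heights at the sites of `D` matter. -/
theorem Ev_local {D : Set U} (hE : ∀ p ∈ E, p.1 ∈ D ∧ p.2 ∈ D) {f : (U → ℝ) → ℝ}
    (hf : DependsOn f D) {ζ : U → ℝ} (h : ∀ u ∈ D, ξ u = ζ u) : Ev F E ξ f = Ev F E ζ f := by
  have h0 : ∀ x : F → ℝ, ∀ u ∈ D, Ham560.ext F ξ x u = Ham560.ext F ζ x u := by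
    intro x u hu
    by_cases hF : u ∈ F
    · rw [ext_mem hF, ext_mem hF]
    · rw [ext_notMem hF, ext_notMem hF, h u hu]
  have h1 : ham F E ξ = ham F E ζ := by
    ext x
    constructor
    · intro hx p hp
      rw [← h0 x _ (hE p hp).1, ← h0 x _ (hE p hp).2]; exact hx p hp
    · intro hx p hp
      rw [h0 x _ (hE p hp).1, h0 x _ (hE p hp).2]; exact hx p hp
  rw [Lc279.Ev_eq, Lc279.Ev_eq]
  unfold vr
  rw [h1]
  congr 1
  refine integral_congr_ae (ae_of_all _ fun x => ?_)
  exact hf fun u hu => h0 x u hu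

theorem Anch.sub (h : Anch F E) (hI : I ⊆ F) : Anch I E := by
  intro v hv
  obtain ⟨u, hu, hp⟩ := h v (hI hv)
  exact ⟨u, fun h' => hu (hI h'), hp⟩

/-- **The tower property.** -/
theorem Ev_tower (hI : I ⊆ F) (hA : Anch F E) {f : (U → ℝ) → ℝ} (hf : Measurable f)
    (hb : ∀ z, |f z| ≤ 1) : Ev F E ξ f = Ev F E ξ fun z => Ev I E z f := by
  rw [Lc279.Ev_eq, Lc279.Ev_eq]
  congr 1
  have hAI : Anch I E := Anch.sub hA hI
  rw [Fib674.integral_ham hI (Lc279.integrableOn_ham hA hf hb),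
    Fib674.integral_ham hI (Lc279.integrableOn_ham hA (measurable_Ev hf) (Ev_bound hf hb hAI))]
  refine integral_congr_ae (ae_of_all _ fun z => ?_)
  beta_reduce
  set ζ : U → ℝ := Ham560.ext (F \ I) ξ z with hζ
  have e1 : ∀ x : I → ℝ, Ham560.ext F ξ (Fib674.glue F I z x) = Ham560.ext I ζ x := fun x =>
    Fib674.ext_glue hI ξ z x
  have e2 : ∀ x : I → ℝ, Ev I E (Ham560.ext F ξ (Fib674.glue F I z x)) f = Ev I E ζ f := fun x => by
    refine Ev_off (fun u hu => ?_) f
    rw [e1, ext_notMem hu]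
  simp only [e1] at e2 ⊢
  simp only [e2]
  rw [setIntegral_const]
  have hfin : volume (ham I E ζ) < ⊤ := volume_ham_lt_top hAI
  rcases (Lc279.vr_nonneg (F := I) (E := E) (ξ := ζ)).eq_or_lt with h | h
  · have h0 : volume (ham I E ζ) = 0 := by
      have := h.symm
      unfold vr at this
      rw [ENNReal.toReal_eq_zero_iff] at this
      exact this.resolve_right hfin.ne
    rw [setIntegral_measure_zero _ h0, Measure.real, h0]
    simp
  · rw [smul_eq_mul]
    exact (Lc279.vr_mul_Ev h f).symm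

/-- Only the edges touching the block matter. -/
theorem Ev_touch {ζ : U → ℝ} (h : ∀ p ∈ E, |ζ p.1 - ζ p.2| ≤ 1) (f : (U → ℝ) → ℝ) :
    Ev I E ζ f = Ev I (tch E I) ζ f := by
  have h1 : ham I E ζ = ham I (tch E I) ζ := by
    ext x
    rw [Fib674.ham_all_iff]
    constructor
    · rintro ⟨_, h2⟩ p hp
      exact h2 p (Fib674.mem_Ein.mpr (mem_tch.mp hp))
    · intro h2
      exact ⟨fun p hp => h p (Fib674.mem_Eout.mp hp).1,
        fun p hp => h2 p (mem_tch.mpr (Fib674.mem_Ein.mp hp))⟩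
  rw [Lc279.Ev_eq, Lc279.Ev_eq]
  unfold vr
  rw [h1]

/-- Constants. -/
theorem Ev_shift {f : (U → ℝ) → ℝ} (hf : ∀ z (c : ℝ), f (fun a => z a + c) = f z) (ξ : U → ℝ)
    (c : ℝ) : Ev F E (fun a => ξ a + c) f = Ev F E ξ f := by
  have e1 : ∀ x : F → ℝ, Ham560.ext F (fun a => ξ a + c) (fun v => x v + c) =
      fun u => Ham560.ext F ξ x u + c := by
    intro x
    funext u
    by_cases hu : u ∈ F
    · rw [ext_mem hu, ext_mem hu]
    · rw [ext_notMem hu, ext_notMem hu]
  have e2 : (fun x : F → ℝ => fun v => x v + c) ⁻¹' ham F E (fun a => ξ a + c) = ham F E ξ := by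
    ext x
    constructor
    · intro h p hp
      have := h p hp
      rw [e1] at this
      simpa using this
    · intro h p hp
      rw [e1]
      simpa using h p hp
  have hmp : MeasurePreserving (fun x : F → ℝ => fun v => x v + c) volume volume := by
    have := measurePreserving_add_right (volume : Measure (F → ℝ)) (fun _ => c)
    exact this
  have hemb : MeasurableEmbedding (fun x : F → ℝ => fun v => x v + c) :=
    (MeasurableEquiv.addRight (fun _ : F => c)).measurableEmbedding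
  rw [Lc279.Ev_eq, Lc279.Ev_eq]
  unfold vr
  have h1 := hmp.setIntegral_preimage_emb hemb (fun x => f (Ham560.ext F (fun a => ξ a + c) x))
    (ham F E fun a => ξ a + c)
  rw [e2] at h1
  have h2 := hmp.measure_preimage_emb hemb (ham F E fun a => ξ a + c)
  rw [e2] at h2
  rw [← h1, h2]
  simp only [e1, hf]

end General

/-! ### The lattice -/

theorem tch_lat {W I : Finset (ℤ × ℤ)} (h : I ⊆ W) : tch (Lc279.lat W) I = Lc279.lat I := by
  ext p
  rw [mem_tch, Lc279.mem_lat, Lc279.mem_lat]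
  constructor
  · rintro ⟨⟨h1, _⟩, h2⟩; exact ⟨h1, h2⟩
  · rintro ⟨h1, h2⟩
    exact ⟨⟨h1, h2.imp (fun a => h a) (fun a => h a)⟩, h2⟩

/-- Translated blocks. -/
theorem place_add (x : ℤ × ℤ) (I : Finset (ℤ × ℤ)) :
    Place I (Lc279.lat I) (Lc279.lat (I.image fun a => x + a)) (fun a => x + a) univ where
  sub := subset_univ _
  inj := (add_right_injective x).injOn
  edge := fun _ _ => ⟨mem_univ _, mem_univ _⟩
  lip := by
    intro h
    have hmem : ∀ v, x + v ∈ I.image (fun a => x + a) ↔ v ∈ I := by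
      intro v
      rw [Finset.mem_image]
      constructor
      · rintro ⟨a, ha, hav⟩; rwa [← add_left_cancel hav]
      · exact fun hv => ⟨v, hv, rfl⟩
    constructor
    · intro hh p hp
      rw [Lc279.mem_lat] at hp
      refine hh (x + p.1, x + p.2) (Lc279.mem_lat.mpr ⟨by rw [hd_add]; exact hp.1, ?_⟩)
      exact hp.2.imp (fun a => (hmem _).mpr a) (fun a => (hmem _).mpr a)
    · intro hh p hp
      rw [Lc279.mem_lat] at hp
      have e1 : x + (p.1 - x) = p.1 := by abel
      have e2 : x + (p.2 - x) = p.2 := by abel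
      have := hh (p.1 - x, p.2 - x) (Lc279.mem_lat.mpr ⟨?_, ?_⟩)
      · simp only [Function.comp_apply, e1, e2] at this
        exact this
      · rw [← hd_add x]
        simp only [e1, e2]
        exact hp.1
      · refine hp.2.imp (fun a => (hmem _).mp ?_) (fun a => (hmem _).mp ?_)
        · simp only [e1]; exact a
        · simp only [e2]; exact a

theorem Ev_place (x : ℤ × ℤ) (I : Finset (ℤ × ℤ)) (f : (ℤ × ℤ → ℝ) → ℝ) (z : ℤ × ℤ → ℝ) :
    Ev (I.image fun a => x + a) (Lc279.lat (I.image fun a => x + a)) z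
      (fun z => f fun a => z (x + a)) = Ev I (Lc279.lat I) (fun a => z (x + a)) f :=
  (place_add x I).Ev_eq (dependsOn_univ f) z

/-- Conditional expectations of local observables. -/
theorem LObs.cond {r : ℕ} {f : (ℤ × ℤ → ℝ) → ℝ} (hf : LObs r f) (I : Finset (ℤ × ℤ)) :
    ∃ r', LObs r' fun h => Ev I (Lc279.lat I) h f := by
  classical
  obtain ⟨r', hr'⟩ := exists_hball (hball r ∪ (Lc279.lat I).image Prod.fst ∪
    (Lc279.lat I).image Prod.snd)
  refine ⟨r', measurable_Ev hf.meas, Ev_bound hf.meas hf.bd (Bl565.anch_lat I), ?_,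
    fun h c => Ev_shift hf.shift h c⟩
  intro h h' hh
  refine Ev_local (D := (hball r' : Set (ℤ × ℤ))) ?_ ?_ fun u hu => hh u (Finset.mem_coe.mp hu)
  · intro p hp
    refine ⟨Finset.mem_coe.mpr (hr' _ ?_), Finset.mem_coe.mpr (hr' _ ?_)⟩
    · rw [Finset.mem_union, Finset.mem_union]
      exact Or.inl (Or.inr (Finset.mem_image_of_mem _ hp))
    · rw [Finset.mem_union]
      exact Or.inr (Finset.mem_image_of_mem _ hp)
  · intro z z' hz
    refine hf.loc _ _ fun a ha => hz a (Finset.mem_coe.mpr (hr' a ?_))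
    rw [Finset.mem_union, Finset.mem_union]
    exact Or.inl (Or.inl ha)

/-- The finite volume equation at a site deep inside. -/
theorem Ev_deep {L : ℕ} {r : ℕ} {f : (ℤ × ℤ → ℝ) → ℝ} (hf : LObs r f) {I : Finset (ℤ × ℤ)}
    {x : ℤ × ℤ} (hx : ∀ a ∈ I, x + a ∈ bx L) :
    Ev (bx L) (Lc279.lat (bx L)) 0 (fun z => f fun a => z (x + a)) =
      Ev (bx L) (Lc279.lat (bx L)) 0 fun z => Ev I (Lc279.lat I) (fun a => z (x + a)) f := by
  have hI : I.image (fun a => x + a) ⊆ bx L := by
    intro y hy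
    obtain ⟨a, ha, rfl⟩ := Finset.mem_image.mp hy
    exact hx a ha
  rw [Ev_tower hI (anch_bx L)
    (f := fun z => f fun a => z (x + a)) (hf.meas.comp (measurable_pi_lambda _ fun a =>
      measurable_pi_apply _)) fun z => hf.bd _]
  refine integral_congr_ae ?_
  filter_upwards [bxP_ae L] with y hy
  rw [Ev_touch (I := I.image fun a => x + a) (fun p hp => hy p hp), tch_lat hI]
  exact Ev_place x I f _

/-- **The DLR equations of the plane state.** -/
theorem dlr {r : ℕ} {f : (ℤ × ℤ → ℝ) → ℝ} (hf : LObs r f) (I : Finset (ℤ × ℤ)) :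
    ∫ h, f h ∂mu0 = ∫ h, Ev I (Lc279.lat I) h f ∂mu0 := by
  classical
  obtain ⟨r', hg⟩ := hf.cond I
  obtain ⟨r0, hr0⟩ := exists_hball I
  rw [isMu0.eq r f hf, isMu0.eq r' _ hg]
  have h1 := (bav_tendsto r f hf).sub (bav_tendsto r' _ hg)
  have h2 : Tendsto (fun L : ℕ => bav L f - bav L fun h => Ev I (Lc279.lat I) h f) atTop (𝓝 0) := by
    have h3 : Tendsto (fun L : ℕ => 2 * (1 - ((core' L).card : ℝ) / (bx L).card) +
        2 * (1 - ((core' L).card : ℝ) / (bx L).card)) atTop (𝓝 0) := by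
      have := ((core_ratio.const_sub 1).const_mul 2).add ((core_ratio.const_sub 1).const_mul 2)
      simpa using this
    refine squeeze_zero_norm' ?_ h3
    filter_upwards [tendsto_mg.eventually_ge_atTop r0, eventually_gt_atTop 0] with L hL hL0
    set g1 : ℤ × ℤ → ℝ := fun y => Ev (bx L) (Lc279.lat (bx L)) 0 fun z => f fun a => z (y + a)
      with hg1
    set g2 : ℤ × ℤ → ℝ := fun y => Ev (bx L) (Lc279.lat (bx L)) 0 fun z =>
      Ev I (Lc279.lat I) (fun a => z (y + a)) f with hg2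
    have b1 : ∀ y, |g1 y| ≤ 1 := fun y => abs_Ev_le fun h => hf.bd _
    have b2 : ∀ y, |g2 y| ≤ 1 := fun y => abs_Ev_le fun h => hg.bd _
    have e1 : bav L f = ((bx L).card : ℝ)⁻¹ * ∑ y ∈ bx L, g1 y := rfl
    have e2 : (bav L fun h => Ev I (Lc279.lat I) h f) = ((bx L).card : ℝ)⁻¹ * ∑ y ∈ bx L, g2 y := rfl
    have e3 : ∑ y ∈ core' L, g1 y = ∑ y ∈ core' L, g2 y := by
      refine Finset.sum_congr rfl fun y hy => Ev_deep hf fun a ha => ?_
      rw [mem_core'] at hy
      have h4 := mem_hball.mp (hr0 a ha)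
      have h5 := hd_le_iff.mp h4
      simp only [Prod.fst_zero, Prod.snd_zero, sub_zero] at h5
      rw [mem_bx]
      simp only [Prod.fst_add, Prod.snd_add]
      omega
    have k1 := avg_sub_le (core'_subset L) (core'_nonempty hL0) b1
    have k2 := avg_sub_le (core'_subset L) (core'_nonempty hL0) b2
    rw [Real.norm_eq_abs, e1, e2]
    rw [← e3] at k2
    rw [abs_sub_comm] at k1
    exact (abs_sub_le _ (((core' L).card : ℝ)⁻¹ * ∑ x ∈ core' L, g1 x) _).trans (add_le_add k1 k2)
  have := tendsto_nhds_unique h1 h2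
  linarith

/-! ### Nonnegative functions -/

section General2

variable {U : Type*} [DecidableEq U] {F : Finset U} {E : Finset (U × U)} {ξ : U → ℝ}

theorem lintegral_hamP' (G : (U → ℝ) → ℝ≥0∞) (ξ : U → ℝ) :
    ∫⁻ x, G (Ham560.ext F ξ x) ∂(hamP F E ξ) =
      (volume (ham F E ξ))⁻¹ * Lc279.J F (fun z => Lc279.hI E z * G z) ξ := by
  rw [hamP, lintegral_smul_measure, Lc279.J_hI_mul, smul_eq_mul]

theorem measurable_lintegral_hamP {G : (U → ℝ) → ℝ≥0∞} (hG : Measurable G) :
    Measurable fun ξ => ∫⁻ x, G (Ham560.ext F ξ x) ∂(hamP F E ξ) := by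
  simp only [lintegral_hamP']
  refine Measurable.mul ?_ (Lc279.measurable_J ((Lc279.measurable_hI E).mul hG))
  have : Measurable fun ξ => volume (ham F E ξ) := by
    simp only [Lc279.volume_ham]
    exact Lc279.measurable_J (Lc279.measurable_hI E)
  exact this.inv

theorem isFinite_hamP (hA : Anch F E) (ξ : U → ℝ) : IsFiniteMeasure (hamP F E ξ) := by
  constructor
  rw [hamP, Measure.smul_apply, Measure.restrict_apply_univ, smul_eq_mul]
  exact lt_of_le_of_lt (ENNReal.inv_mul_le_one _) ENNReal.one_lt_top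

theorem lintegral_eq_ofReal_Ev (hA : Anch F E) {G : (U → ℝ) → ℝ≥0∞} (hG : Measurable G) {n : ℕ}
    (hn : 0 < n) (hb : ∀ z, G z ≤ n) (ξ : U → ℝ) :
    ∫⁻ x, G (Ham560.ext F ξ x) ∂(hamP F E ξ) =
      n * ENNReal.ofReal (Ev F E ξ fun z => (G z / n).toReal) := by
  have := isFinite_hamP hA ξ
  have hn0 : (n : ℝ≥0∞) ≠ 0 := by exact_mod_cast hn.ne'
  have hn1 : (n : ℝ≥0∞) ≠ ⊤ := ENNReal.natCast_ne_top n
  have h1 : ∀ z, G z / n ≤ 1 := fun z =>
    ENNReal.div_le_of_le_mul (by rw [one_mul]; exact hb z)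
  unfold Ev
  rw [ofReal_integral_eq_lintegral_ofReal, ← lintegral_const_mul']
  · refine lintegral_congr fun x => ?_
    rw [ENNReal.ofReal_toReal (ne_top_of_le_ne_top ENNReal.one_ne_top (h1 _)),
      ENNReal.mul_div_cancel hn0 hn1]
  · exact hn1
  · refine Integrable.of_bound (C := 1) ?_ (ae_of_all _ fun x => ?_)
    · exact ((hG.div_const _).ennreal_toReal.comp (Lc279.measurable_ext F ξ)).aestronglyMeasurable
    · rw [Real.norm_eq_abs, abs_of_nonneg ENNReal.toReal_nonneg]
      exact ENNReal.toReal_le_of_le_ofReal zero_le_one (by simpa using h1 _)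
  · exact ae_of_all _ fun x => ENNReal.toReal_nonneg

end General2

/-- **The DLR equations for nonnegative local functions.** -/
theorem dlr_lintegral {r : ℕ} {G : (ℤ × ℤ → ℝ) → ℝ≥0∞} (hG : Measurable G)
    (loc : ∀ h h', (∀ a ∈ hball r, h a = h' a) → G h = G h')
    (shift : ∀ h (c : ℝ), G (fun a => h a + c) = G h) (I : Finset (ℤ × ℤ)) :
    ∫⁻ h, G h ∂mu0 =
      ∫⁻ h, ∫⁻ x, G (Ham560.ext I h x) ∂(hamP I (Lc279.lat I) h) ∂mu0 := by
  have hA := Bl565.anch_lat I
  -- truncated version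
  have key : ∀ n : ℕ, 0 < n → ∫⁻ h, min (G h) n ∂mu0 =
      ∫⁻ h, ∫⁻ x, min (G (Ham560.ext I h x)) n ∂(hamP I (Lc279.lat I) h) ∂mu0 := by
    intro n hn
    have hn0 : (n : ℝ≥0∞) ≠ 0 := by exact_mod_cast hn.ne'
    have hn1 : (n : ℝ≥0∞) ≠ ⊤ := ENNReal.natCast_ne_top n
    have hGm : Measurable fun h => min (G h) n := hG.min measurable_const
    have h1 : ∀ z, min (G z) n / n ≤ 1 := fun z =>
      ENNReal.div_le_of_le_mul (by rw [one_mul]; exact min_le_right _ _)
    have hobs : LObs r fun h => (min (G h) n / n).toReal := by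
      refine ⟨(hGm.div_const _).ennreal_toReal, fun h => ?_, fun h h' hh => ?_, fun h c => ?_⟩
      · rw [abs_of_nonneg ENNReal.toReal_nonneg]
        exact ENNReal.toReal_le_of_le_ofReal zero_le_one (by simpa using h1 _)
      · simp only [loc h h' hh]
      · simp only [shift h c]
    have h2 := dlr hobs I
    have h3 : ∫⁻ h, min (G h) n ∂mu0 = n * ENNReal.ofReal (∫ h, (min (G h) n / n).toReal ∂mu0) := by
      rw [ofReal_integral_eq_lintegral_ofReal, ← lintegral_const_mul']
      · refine lintegral_congr fun x => ?_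
        rw [ENNReal.ofReal_toReal (ne_top_of_le_ne_top ENNReal.one_ne_top (h1 _)),
          ENNReal.mul_div_cancel hn0 hn1]
      · exact hn1
      · refine Integrable.of_bound (C := 1) hobs.meas.aestronglyMeasurable (ae_of_all _ fun x => ?_)
        rw [Real.norm_eq_abs]; exact hobs.bd _
      · exact ae_of_all _ fun x => ENNReal.toReal_nonneg
    have h4 : ∀ h, ∫⁻ x, min (G (Ham560.ext I h x)) n ∂(hamP I (Lc279.lat I) h) =
        n * ENNReal.ofReal (Ev I (Lc279.lat I) h fun z => (min (G z) n / n).toReal) := fun h =>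
      lintegral_eq_ofReal_Ev hA hGm hn (fun z => min_le_right _ _) h
    rw [h3, h2]
    simp only [h4]
    rw [lintegral_const_mul' _ _ hn1, ofReal_integral_eq_lintegral_ofReal]
    · obtain ⟨r', hg⟩ := hobs.cond I
      refine Integrable.of_bound (C := 1) hg.meas.aestronglyMeasurable (ae_of_all _ fun x => ?_)
      rw [Real.norm_eq_abs]; exact hg.bd _
    · refine ae_of_all _ fun h => ?_
      exact Lc279.Ev_nonneg fun z => ENNReal.toReal_nonneg
  -- monotone convergence
  have hsup : ∀ a : ℝ≥0∞, ⨆ n : ℕ, min a ((n + 1 : ℕ) : ℝ≥0∞) = a := by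
    intro a
    refine le_antisymm (iSup_le fun n => min_le_left _ _) ?_
    rcases eq_or_ne a ⊤ with h | h
    · subst h
      have : ∀ n : ℕ, min (⊤ : ℝ≥0∞) ((n + 1 : ℕ) : ℝ≥0∞) = ((n + 1 : ℕ) : ℝ≥0∞) := fun n =>
        min_eq_right le_top
      simp only [this]
      rw [← ENNReal.iSup_natCast]
      exact iSup_le fun n => le_iSup_of_le n (by exact_mod_cast Nat.le_succ n)
    · obtain ⟨n, hn⟩ := ENNReal.exists_nat_gt h
      refine le_iSup_of_le n ?_
      rw [min_eq_left]
      refine hn.le.trans ?_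
      exact_mod_cast Nat.le_succ n
  have hmono : ∀ a : ℝ≥0∞, Monotone fun n : ℕ => min a ((n + 1 : ℕ) : ℝ≥0∞) := by
    intro a n m hnm
    exact min_le_min le_rfl (by exact_mod_cast Nat.succ_le_succ hnm)
  have e1 : ∫⁻ h, G h ∂mu0 = ⨆ n : ℕ, ∫⁻ h, min (G h) ((n + 1 : ℕ) : ℝ≥0∞) ∂mu0 := by
    rw [← lintegral_iSup (fun n => hG.min measurable_const) (fun n m hnm h => hmono _ hnm)]
    simp only [hsup]
  have e2 : ∀ h, ∫⁻ x, G (Ham560.ext I h x) ∂(hamP I (Lc279.lat I) h) =
      ⨆ n : ℕ, ∫⁻ x, min (G (Ham560.ext I h x)) ((n + 1 : ℕ) : ℝ≥0∞) ∂(hamP I (Lc279.lat I) h) := by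
    intro h
    have hm : ∀ n : ℕ, Measurable fun x : I → ℝ =>
        min (G (Ham560.ext I h x)) ((n + 1 : ℕ) : ℝ≥0∞) := fun n =>
      (hG.comp (Lc279.measurable_ext I h)).min measurable_const
    rw [← lintegral_iSup hm (fun n m hnm x => hmono _ hnm)]
    simp only [hsup]
  simp only [e2]
  rw [lintegral_iSup, e1]
  · exact iSup_congr fun n => key (n + 1) (Nat.succ_pos n)
  · exact fun n => measurable_lintegral_hamP (hG.min measurable_const)
  · intro n m hnm h
    exact lintegral_mono fun x => hmono _ hnm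

end Crest.Agent.R144.Lw425
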