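import Crest.Agent.R144.Lmu7_425
import Crest.Agent.R144.Zb3_560

/-!
R144 (S0197), helper425.  Lmu8: tight edges and path tails under the plane state.

* `mu0_tight` : `mu0 {S tight} ≤ wgt 6 S` for fresh lists;
* `bdP V E ρ ε Λ φ m u` : some path with `m` edges from `u` costs at most `φ u`; `mu0_bdP_le`;
* `PLn` : the upper bound of the length of the optimal paths, `lintegral_PLn_le`.
-/

set_option autoImplicit false

open MeasureTheory Set Filter Topology
open scoped ENNReal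

noncomputable section

namespace Crest.Agent.R144.Lw425

open Crest.Agent.R144.Ham560 Crest.Agent.R144.Tri560 Crest.Agent.R144.Zb560
open Crest.Agent.R144.Lc279 (Ev vr HS bx mem_bx card_bx anch_bx card_nbr_lat_le mem_nbr_lat
  hd_add m0 tch mem_tch Place Bd mapL wgt_mapL)

/-- All the edges of the list are tight. -/
def tgt (S : List (((ℤ × ℤ) × (ℤ × ℤ)) × ℝ)) : Set (ℤ × ℤ → ℝ) :=
  {h | ∀ p ∈ S, 1 - p.2 ≤ |h p.1.1 - h p.1.2|}

theorem tgt_cons (q : ((ℤ × ℤ) × (ℤ × ℤ)) × ℝ) (S : List (((ℤ × ℤ) × (ℤ × ℤ)) × ℝ)) :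
    tgt (q :: S) = {h | 1 - q.2 ≤ |h q.1.1 - h q.1.2|} ∩ tgt S := by
  ext h
  simp only [tgt, mem_inter_iff, Set.mem_ofPred_eq, List.mem_cons, forall_eq_or_imp]

theorem measurableSet_tgt (S : List (((ℤ × ℤ) × (ℤ × ℤ)) × ℝ)) : MeasurableSet (tgt S) := by
  induction S with
  | nil => simp [tgt]
  | cons q S ih =>
    rw [tgt_cons]
    exact (measurableSet_le measurable_const
      ((measurable_pi_apply q.1.1).sub (measurable_pi_apply q.1.2)).abs).inter ih

/-- Translation of fresh lists. -/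
theorem FreshR.translate {V W : Finset (ℤ × ℤ)} {S : List (((ℤ × ℤ) × (ℤ × ℤ)) × ℝ)}
    (hS : FreshR V (Lc279.lat V) S) {x : ℤ × ℤ} (hx : ∀ a ∈ V, x + a ∈ W) :
    FreshR W (Lc279.lat W) (mapL (fun a => x + a) S) := by
  induction hS with
  | nil => exact FreshR.nil
  | @cons v u w S hS hv hu hw hf ih =>
    have hu' := mem_nbr_lat.mp hu
    refine FreshR.cons ih (hx v hv) ?_ hw ?_
    · rw [mem_nbr_lat]
      exact ⟨by rw [hd_add]; exact hu'.1, Or.inl (hx v hv)⟩
    · intro q hq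
      obtain ⟨q', hq', rfl⟩ := List.mem_map.mp hq
      have h2 := hf q' hq'
      exact ⟨fun h5 => h2.1 (add_left_cancel h5), fun h5 => h2.2 (add_left_cancel h5)⟩

theorem wgt_ne_top {U : Type*} (n : ℕ) (S : List ((U × U) × ℝ)) : wgt n S ≠ ⊤ := by
  induction S with
  | nil => exact ENNReal.one_ne_top
  | cons q S ih => exact ENNReal.mul_ne_top ENNReal.ofReal_ne_top ih

/-- The zero-data bound. -/
theorem bxP_tight {L : ℕ} {S : List (((ℤ × ℤ) × (ℤ × ℤ)) × ℝ)}
    (hS : FreshR (bx L) (Lc279.lat (bx L)) S) : bxP L {y | fh L y ∈ tgt S} ≤ wgt 6 S := by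
  have hv0 : volume (ham (bx L) (Lc279.lat (bx L)) 0) ≠ 0 := (volume_ham_pos fun u => by simp).ne'
  have hvt : volume (ham (bx L) (Lc279.lat (bx L)) 0) ≠ ⊤ := (volume_ham_lt_top (anch_bx L)).ne
  have hm : MeasurableSet {y | fh L y ∈ tgt S} := (measurable_fh L) (measurableSet_tgt S)
  rw [bxP, Lc279.hamP_apply hm]
  have h1 := vol_tightR_le (ξ := 0) hS fun v _ => card_nbr_lat_le (bx L) v
  calc _ ≤ (volume (ham (bx L) (Lc279.lat (bx L)) 0))⁻¹ *
        (wgt 6 S * volume (ham (bx L) (Lc279.lat (bx L)) 0)) := mul_le_mul' le_rfl h1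
    _ = wgt 6 S := by rw [mul_comm, mul_assoc, ENNReal.mul_inv_cancel hv0 hvt, mul_one]

/-- **Tight edges under the plane state.** -/
theorem mu0_tight {V : Finset (ℤ × ℤ)} {S : List (((ℤ × ℤ) × (ℤ × ℤ)) × ℝ)}
    (hS : FreshR V (Lc279.lat V) S) : mu0 (tgt S) ≤ wgt 6 S := by
  classical
  obtain ⟨r0, hr0⟩ := exists_hball (V ∪ (Lc279.lat V).image Prod.snd ∪ (Lc279.lat V).image Prod.fst)
  have hSV : ∀ q ∈ S, q.1.1 ∈ hball r0 ∧ q.1.2 ∈ hball r0 := by
    intro q hq
    have h1 := Lc279.FreshR.mem hS q hq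
    have h2 := (mem_nbr.mp h1.2).2
    refine ⟨hr0 _ ?_, hr0 _ ?_⟩
    · rw [Finset.mem_union, Finset.mem_union]; exact Or.inl (Or.inl h1.1)
    · rw [Finset.mem_union, Finset.mem_union]
      rcases h2 with h2 | h2
      · exact Or.inl (Or.inr (Finset.mem_image_of_mem Prod.snd h2))
      · exact Or.inr (Finset.mem_image_of_mem Prod.fst h2)
  have hobs := LObs_indicator (r := r0) (measurableSet_tgt S) (by
    intro g g' hg
    constructor
    · intro h q hq
      rw [← hg _ (hSV q hq).1, ← hg _ (hSV q hq).2]; exact h q hq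
    · intro h q hq
      rw [hg _ (hSV q hq).1, hg _ (hSV q hq).2]; exact h q hq)
  set f : (ℤ × ℤ → ℝ) → ℝ := fun h => (tgt S).indicator 1 fun a => h a - h 0 with hf
  have h1 : mu0.real (tgt S) = m0 f := by
    rw [← measure_eq_integral_ind isMu0.pin (measurableSet_tgt S), isMu0.eq r0 f hobs]
  have hw : wgt 6 S ≠ ⊤ := wgt_ne_top 6 S
  have h2 : m0 f ≤ (wgt 6 S).toReal := by
    have h3 : Tendsto (fun L : ℕ => (wgt 6 S).toReal + 2 * (1 - ((core' L).card : ℝ) / (bx L).card))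
        atTop (𝓝 (wgt 6 S).toReal) := by
      have := ((core_ratio.const_sub 1).const_mul 2).const_add (wgt 6 S).toReal
      simpa using this
    refine le_of_tendsto_of_tendsto (bav_tendsto r0 f hobs) h3 ?_
    filter_upwards [tendsto_mg.eventually_ge_atTop r0, eventually_gt_atTop 0] with L hL hL0
    set g : ℤ × ℤ → ℝ := fun y => Ev (bx L) (Lc279.lat (bx L)) 0 fun z => f fun a => z (y + a)
      with hg
    have b1 : ∀ y, |g y| ≤ 1 := fun y => abs_Ev_le fun h => hobs.bd _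
    have e1 : bav L f = ((bx L).card : ℝ)⁻¹ * ∑ y ∈ bx L, g y := rfl
    have k1 := (abs_le.mp (avg_sub_le (core'_subset L) (core'_nonempty hL0) b1)).1
    rw [← e1] at k1
    have k2 : ((core' L).card : ℝ)⁻¹ * ∑ y ∈ core' L, g y ≤ (wgt 6 S).toReal := by
      have hpos : (0 : ℝ) < (core' L).card := by exact_mod_cast (core'_nonempty hL0).card_pos
      rw [inv_mul_le_iff₀ hpos, ← nsmul_eq_mul]
      refine Finset.sum_le_card_nsmul _ _ _ fun y hy => ?_
      rw [mem_core'] at hy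
      have hyV : ∀ a ∈ V, y + a ∈ bx L := by
        intro a ha
        have h4 := mem_hball.mp (hr0 a (by
          rw [Finset.mem_union, Finset.mem_union]; exact Or.inl (Or.inl ha)))
        have h5 := hd_le_iff.mp h4
        simp only [Prod.fst_zero, Prod.snd_zero, sub_zero] at h5
        rw [mem_bx]
        simp only [Prod.fst_add, Prod.snd_add]
        omega
      have hS' := FreshR.translate hS hyV
      have h6 := bxP_tight hS'
      rw [wgt_mapL] at h6
      have h7 : g y = (bxP L).real {x | fh L x ∈ tgt (mapL (fun a => y + a) S)} := by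
        have hm : MeasurableSet {x | fh L x ∈ tgt (mapL (fun a => y + a) S)} :=
          (measurable_fh L) (measurableSet_tgt _)
        rw [← integral_indicator_one hm]
        refine integral_congr_ae (ae_of_all _ fun x => ?_)
        show (tgt S).indicator 1 (fun a => fh L x (y + a) - fh L x (y + 0)) = _
        have : (fun a => fh L x (y + a) - fh L x (y + 0)) ∈ tgt S ↔
            fh L x ∈ tgt (mapL (fun a => y + a) S) := by
          constructor
          · intro h q hq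
            obtain ⟨q', hq', rfl⟩ := List.mem_map.mp hq
            have := h q' hq'
            simpa using this
          · intro h q hq
            have := h _ (List.mem_map.mpr ⟨q, hq, rfl⟩)
            simpa using this
        by_cases hx : fh L x ∈ tgt (mapL (fun a => y + a) S)
        · rw [indicator_of_mem (this.mpr hx), indicator_of_mem
            (show x ∈ {x | fh L x ∈ tgt (mapL (fun a => y + a) S)} from hx)]
          rfl
        · rw [indicator_of_notMem (fun h => hx (this.mp h)), indicator_of_notMem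
            (show x ∉ {x | fh L x ∈ tgt (mapL (fun a => y + a) S)} from hx)]
      rw [h7]
      exact ENNReal.toReal_mono hw h6
    linarith
  rw [← h1] at h2
  exact (ENNReal.toReal_le_toReal (measure_ne_top _ _) hw).mp h2

/-! ### Paths -/

variable {V : Finset (ℤ × ℤ)} {E : Finset ((ℤ × ℤ) × (ℤ × ℤ))} {ρ ε Λ κ : ℝ} {φ : ℤ × ℤ → ℝ}
  {m : ℕ} {u : ℤ × ℤ}

/-- Some path with `m` edges from `u` costs at most `φ u`. -/
def bdP (V : Finset (ℤ × ℤ)) (E : Finset ((ℤ × ℤ) × (ℤ × ℤ))) (ρ ε Λ : ℝ) (φ : ℤ × ℤ → ℝ) (m : ℕ)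
    (u : ℤ × ℤ) : Set (ℤ × ℤ → ℝ) :=
  ⋃ l ∈ (pt V E u).filter (fun l => l.length = m + 1), {h | cost φ (cz ρ ε Λ h) l ≤ φ u}

theorem continuous_cost' (l : List (ℤ × ℤ)) :
    Continuous fun h : ℤ × ℤ → ℝ => cost φ (cz ρ ε Λ h) l := by
  induction l with
  | nil => exact continuous_const
  | cons a s ih =>
    match s with
    | [] => exact continuous_const
    | b :: t =>
      simp only [cost_cons]
      refine Continuous.add ?_ ih
      have ha : Continuous fun h : ℤ × ℤ → ℝ => h a := continuous_apply a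
      have hb : Continuous fun h : ℤ × ℤ → ℝ => h b := continuous_apply b
      unfold cz sr
      fun_prop

theorem measurableSet_bdP : MeasurableSet (bdP V E ρ ε Λ φ m u) := by
  refine Finset.measurableSet_biUnion _ fun l _ => ?_
  exact (isClosed_le (continuous_cost' l) continuous_const).measurableSet

/-- The covering. -/
theorem bdP_subset (hε : 0 < ε) (hΛ : 0 < Λ) (hκ : 4 * κ ≤ Λ)
    (hφL : ∀ a b, b ∈ nbr E a → |φ a - φ b| ≤ κ) :
    bdP V E ρ ε Λ φ m u ⊆ ⋃ S ∈ Fam V E m u, tgt (S.map fun q => (q, ρ + ε)) := by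
  intro h hh
  set x : (∅ : Finset (ℤ × ℤ)) → ℝ := fun _ => 0 with hx
  have hext : Ham560.ext ∅ h x = h := by
    funext v
    rw [ext_notMem (Finset.notMem_empty v)]
  have hmem : x ∈ bad V E ρ ε Λ 0 φ ∅ h m u := by
    simp only [bdP, bad, mem_iUnion, Set.mem_ofPred_eq] at hh ⊢
    obtain ⟨l, hl, hc⟩ := hh
    refine ⟨l, hl, ?_⟩
    rw [hext, add_zero]; exact hc
  have h1 := bad_subset (c0 := 0) hε hΛ hκ hφL (by rw [mul_zero]; positivity) hmem
  simp only [mem_iUnion] at h1 ⊢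
  obtain ⟨S, hS, h2⟩ := h1
  refine ⟨S, hS, ?_⟩
  intro p hp
  obtain ⟨q, hq, rfl⟩ := List.mem_map.mp hp
  have := h2 q hq
  rw [hext] at this
  exact this

theorem wgt_map_c {U : Type*} (n : ℕ) (w : ℝ) (S : List (U × U)) :
    wgt n (S.map fun q => (q, w)) = ENNReal.ofReal (64 * (n : ℝ) ^ 2 * w) ^ S.length := by
  unfold wgt
  rw [List.map_map]
  have : (fun q : (U × U) × ℝ => ENNReal.ofReal (64 * (n : ℝ) ^ 2 * q.2)) ∘ (fun q : U × U => (q, w)) =
      fun _ => ENNReal.ofReal (64 * (n : ℝ) ^ 2 * w) := rfl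
  rw [this, List.map_const', List.prod_replicate]

/-- The ratio of the path tails. -/
def dpar (ρ ε : ℝ) : ℝ := Real.sqrt (64 * 6 ^ 2 * (ρ + ε))

theorem mu0_bdP_le (hρ : 0 < ρ) (hε : 0 < ε) (hΛ : 0 < Λ) (hκ : 4 * κ ≤ Λ) (hd : dpar ρ ε ≤ 1)
    (hφL : ∀ a b, b ∈ nbr (Lc279.lat V) a → |φ a - φ b| ≤ κ) :
    mu0 (bdP V (Lc279.lat V) ρ ε Λ φ m u) ≤ ENNReal.ofReal (12 * dpar ρ ε) ^ m := by
  have hd0 : 0 ≤ dpar ρ ε := Real.sqrt_nonneg _
  have hd2 : dpar ρ ε ^ 2 = 64 * 6 ^ 2 * (ρ + ε) := Real.sq_sqrt (by positivity)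
  calc mu0 (bdP V (Lc279.lat V) ρ ε Λ φ m u)
      ≤ mu0 (⋃ S ∈ Fam V (Lc279.lat V) m u, tgt (S.map fun q => (q, ρ + ε))) :=
        measure_mono (bdP_subset hε hΛ hκ hφL)
    _ ≤ ∑ S ∈ Fam V (Lc279.lat V) m u, mu0 (tgt (S.map fun q => (q, ρ + ε))) :=
        measure_biUnion_finset_le _ _
    _ ≤ ∑ _S ∈ Fam V (Lc279.lat V) m u, ENNReal.ofReal (dpar ρ ε) ^ m := by
        refine Finset.sum_le_sum fun S hS => ?_
        refine (mu0_tight ((Fam_fresh hS).toR (w := ρ + ε) (by positivity))).trans ?_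
        rw [wgt_map_c]
        have e1 : ENNReal.ofReal (64 * ((6 : ℕ) : ℝ) ^ 2 * (ρ + ε)) =
            ENNReal.ofReal (dpar ρ ε) ^ 2 := by
          rw [← ENNReal.ofReal_pow hd0, hd2]
          norm_num
        rw [e1, ← pow_mul]
        refine pow_le_pow_right_of_le_one' ?_ (Fam_len hS).1
        rw [← ENNReal.ofReal_one]
        exact ENNReal.ofReal_le_ofReal hd
    _ = (Fam V (Lc279.lat V) m u).card * ENNReal.ofReal (dpar ρ ε) ^ m := by
        rw [Finset.sum_const, nsmul_eq_mul]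
    _ ≤ ((2 * 6) ^ m : ℕ) * ENNReal.ofReal (dpar ρ ε) ^ m := by
        gcongr
        exact Fam_card (fun v _ => card_nbr_lat_le V v) m u
    _ = ENNReal.ofReal (12 * dpar ρ ε) ^ m := by
        rw [ENNReal.ofReal_mul (by norm_num), mul_pow]
        have : ENNReal.ofReal 12 = 12 := by norm_num
        rw [this]
        push_cast
        rw [← mul_pow, mul_pow (12 : ℝ≥0∞)]
        norm_num

/-- Upper bound of the number of sites of the optimal paths from `u`. -/
def PLn (V : Finset (ℤ × ℤ)) (ρ ε Λ : ℝ) (φ : ℤ × ℤ → ℝ) (u : ℤ × ℤ) (h : ℤ × ℤ → ℝ) : ℝ≥0∞ :=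
  ∑' m : ℕ, ((m + 1 : ℕ) : ℝ≥0∞) * (bdP V (Lc279.lat V) ρ ε Λ φ m u).indicator 1 h

theorem measurable_PLn : Measurable (PLn V ρ ε Λ φ u) :=
  Measurable.tsum fun m => (measurable_one.indicator measurableSet_bdP).const_mul _

/-- The mean path length. -/
def KL (ρ ε : ℝ) : ℝ≥0∞ := ∑' m : ℕ, ((m + 1 : ℕ) : ℝ≥0∞) * ENNReal.ofReal (12 * dpar ρ ε) ^ m

theorem lintegral_PLn_le (hρ : 0 < ρ) (hε : 0 < ε) (hΛ : 0 < Λ) (hκ : 4 * κ ≤ Λ)
    (hd : dpar ρ ε ≤ 1) (hφL : ∀ a b, b ∈ nbr (Lc279.lat V) a → |φ a - φ b| ≤ κ) :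
    ∫⁻ h, PLn V ρ ε Λ φ u h ∂mu0 ≤ KL ρ ε := by
  unfold PLn KL
  rw [lintegral_tsum fun m =>
    ((measurable_one.indicator measurableSet_bdP).const_mul _).aemeasurable]
  refine ENNReal.tsum_le_tsum fun m => ?_
  rw [lintegral_const_mul _ (measurable_one.indicator measurableSet_bdP),
    lintegral_indicator_one measurableSet_bdP]
  gcongr
  exact mu0_bdP_le hρ hε hΛ hκ hd hφL

theorem KL_ne_top {ρ ε : ℝ} (h : 12 * dpar ρ ε < 1) : KL ρ ε ≠ ⊤ := by
  have hd0 : 0 ≤ 12 * dpar ρ ε := mul_nonneg (by norm_num) (Real.sqrt_nonneg _)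
  have h1 : Summable fun m : ℕ => ((m + 1 : ℕ) : ℝ) * (12 * dpar ρ ε) ^ m := by
    have h2 := summable_pow_mul_geometric_of_norm_lt_one (R := ℝ) 1 (r := 12 * dpar ρ ε)
      (by rw [Real.norm_eq_abs, abs_of_nonneg hd0]; exact h)
    have h3 := summable_geometric_of_lt_one hd0 h
    refine (h2.add h3).congr fun m => ?_
    push_cast; ring
  have h2 : KL ρ ε = ENNReal.ofReal (∑' m : ℕ, ((m + 1 : ℕ) : ℝ) * (12 * dpar ρ ε) ^ m) := by
    rw [ENNReal.ofReal_tsum_of_nonneg (fun m => by positivity) h1]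
    unfold KL
    refine tsum_congr fun m => ?_
    rw [ENNReal.ofReal_mul (p := ((m + 1 : ℕ) : ℝ)) (Nat.cast_nonneg _), ENNReal.ofReal_natCast,
      ENNReal.ofReal_pow hd0]
  rw [h2]
  exact ENNReal.ofReal_ne_top

/-- Lengths of optimal paths. -/
theorem length_le_PLn {F : Finset (ℤ × ℤ)} {ζ : ℤ × ℤ → ℝ} {x : F → ℝ} {l : List (ℤ × ℤ)}
    (hl : IsOpt V (Lc279.lat V) φ (cz ρ ε Λ (Ham560.ext F ζ x)) u l) :
    (l.length : ℝ≥0∞) ≤ PLn V ρ ε Λ φ u (Ham560.ext F ζ x) := by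
  have hp := List.length_pos_iff.mpr (pt_ne_nil hl.1)
  obtain ⟨m, hm⟩ : ∃ m, l.length = m + 1 := ⟨l.length - 1, by omega⟩
  refine le_trans ?_ (ENNReal.le_tsum m)
  have h1 : Ham560.ext F ζ x ∈ bdP V (Lc279.lat V) ρ ε Λ φ m u := by
    simp only [bdP, mem_iUnion, Set.mem_ofPred_eq]
    refine ⟨l, Finset.mem_filter.mpr ⟨hl.1, hm⟩, ?_⟩
    rw [← hl.2]
    exact iv_le u
  rw [indicator_of_mem h1, Pi.one_apply, mul_one, hm]

/-- Locality and shift invariance. -/
theorem cz_congr {h h' : ℤ × ℤ → ℝ} {c : ℝ} {a b : ℤ × ℤ} (ha : h a = h' a + c)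
    (hb : h b = h' b + c) : cz ρ ε Λ h a b = cz ρ ε Λ h' a b := by
  rw [cz, cz, ha, hb]; congr 2; ring

theorem cost_congr {h h' : ℤ × ℤ → ℝ} {c : ℝ} : ∀ {l : List (ℤ × ℤ)},
    (∀ a ∈ l, h a = h' a + c) → cost φ (cz ρ ε Λ h) l = cost φ (cz ρ ε Λ h') l
  | [], _ => rfl
  | [a], _ => rfl
  | a :: b :: t, hh => by
    rw [cost_cons, cost_cons, cost_congr (l := b :: t) fun v hv => hh v (List.mem_cons_of_mem _ hv),
      cz_congr (hh a List.mem_cons_self) (hh b (List.mem_cons_of_mem _ List.mem_cons_self))]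

theorem PLn_congr {h h' : ℤ × ℤ → ℝ} {c : ℝ} (hu : u ∈ V) (hh : ∀ a ∈ V, h a = h' a + c) :
    PLn V ρ ε Λ φ u h = PLn V ρ ε Λ φ u h' := by
  unfold PLn
  refine tsum_congr fun m => ?_
  have : h ∈ bdP V (Lc279.lat V) ρ ε Λ φ m u ↔ h' ∈ bdP V (Lc279.lat V) ρ ε Λ φ m u := by
    simp only [bdP, mem_iUnion, Set.mem_ofPred_eq]
    refine exists_congr fun l => exists_congr fun hl => ?_
    have hV := pt_mem' (Finset.mem_filter.mp hl).1 hu
    rw [cost_congr fun a ha => hh a (hV a ha)]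
  by_cases h1 : h ∈ bdP V (Lc279.lat V) ρ ε Λ φ m u
  · rw [indicator_of_mem h1, indicator_of_mem (this.mp h1)]; rfl
  · rw [indicator_of_notMem h1, indicator_of_notMem (fun h2 => h1 (this.mpr h2))]

end Crest.Agent.R144.Lw425
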