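import Crest.Agent.R144.Lmu8_425
import Crest.Agent.R144.Bl3_565

/-!
R144 (S0197), helper425.  Lmu9: **POS**, the shared scalar `abT` is bounded.

* `en_ref_le` : energy of the reference field on a fibre;
* `bbB_le`, `lintegral_bbB_le` : the block energies;
* `abT_le` : `abT P mu0 r L ≤ BP P` for all `r`, `L`, provided `12 * dpar ρ ε < 1`, `4 ≤ Λ`.
-/

set_option autoImplicit false

open MeasureTheory Set Filter Topology
open scoped ENNReal NNReal

noncomputable section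

namespace Crest.Agent.R144.Lw425

open Crest.Agent.R144.Ham560 Crest.Agent.R144.Tri560 Crest.Agent.R144.Zb560
open Crest.Agent.R144.BQ565 Crest.Agent.R144.Bl565
open Crest.Agent.R144.MW121 (jac jac_apply en en_nonneg measurable_en)
open Crest.Agent.R144.Lc279 (Ev vr HS bx mem_bx card_bx anch_bx card_nbr_lat_le mem_nbr_lat
  m0)

variable {P : Par} {m : ℕ} {I V : Finset (ℤ × ℤ)} {E : Finset ((ℤ × ℤ) × (ℤ × ℤ))}
  {ζ : ℤ × ℤ → ℝ} {xi : Fin 2 → ℝ}

/-- Coefficients of the three coordinate fields. -/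
def cf (xi : Fin 2 → ℝ) : Fin 3 → ℝ :=
  ![xi 0 - (xi 0 + xi 1) / 3, xi 1 - (xi 0 + xi 1) / 3, -((xi 0 + xi 1) / 3)]

theorem cf_sq_ek (k : Fin 3) : ∑ j, cf (ek k) j ^ 2 = 2 / 3 := by
  fin_cases k <;> simp [cf, ek, Fin.sum_univ_three] <;> norm_num

theorem cmb_eq (x : I → ℝ) (u : I) :
    (cmb (refL (refF_L2 P I V E) ζ) xi : llip I).1 x u =
      ∑ k, cf xi k * Zx V E P.rho P.eps P.Lam (ps k) I ζ u x := by
  have h1 : (cmb (refL (refF_L2 P I V E) ζ) xi : llip I).1 x u =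
      ∑ i, xi i * L2 P V E i (Ham560.ext I ζ x) u := by
    unfold cmb
    rw [Submodule.coe_sum, Finset.sum_apply, Finset.sum_apply]
    rfl
  rw [h1, Fin.sum_univ_two, Fin.sum_univ_three]
  simp only [L2, Lf, Zk, Zx, cf, Fin.castSucc_zero, Fin.castSucc_one, Matrix.cons_val_zero,
    Matrix.cons_val_one, Matrix.cons_val]
  ring

/-- Energy of the reference field at a point of differentiability. -/
theorem en_ref_le {x : I → ℝ}
    (hd : ∀ (k : Fin 3) (u : I), DifferentiableAt ℝ (Zx V E P.rho P.eps P.Lam (ps k) I ζ u) x) :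
    en (cmb (refL (refF_L2 P I V E) ζ) xi : llip I).1 x ≤ (∑ j, cf xi j ^ 2) *
      ∑ u : I, ∑ k : Fin 3, ∑ z, pd (Zx V E P.rho P.eps P.Lam (ps k) I ζ u) x z ^ 2 := by
  have hY : (cmb (refL (refF_L2 P I V E) ζ) xi : llip I).1 =
      fun (x : I → ℝ) (u : I) => ∑ k, cf xi k * Zx V E P.rho P.eps P.Lam (ps k) I ζ u x := by
    funext x u; exact cmb_eq x u
  have hdu : ∀ u : I, HasFDerivAt (fun x : I → ℝ =>
      ∑ k, cf xi k * Zx V E P.rho P.eps P.Lam (ps k) I ζ u x)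
      (∑ k, cf xi k • fderiv ℝ (Zx V E P.rho P.eps P.Lam (ps k) I ζ u) x) x := by
    intro u
    have := HasFDerivAt.fun_sum (u := Finset.univ) fun k (_ : k ∈ (Finset.univ : Finset (Fin 3))) =>
      (hd k u).hasFDerivAt.const_mul (cf xi k)
    exact this
  have hjac : ∀ u v : I, jac (cmb (refL (refF_L2 P I V E) ζ) xi : llip I).1 x u v =
      ∑ k, cf xi k * pd (Zx V E P.rho P.eps P.Lam (ps k) I ζ u) x v := by
    intro u v
    rw [jac_apply, hY, fderiv_pi fun u => (hdu u).differentiableAt]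
    simp only [ContinuousLinearMap.coe_pi']
    rw [(hdu u).fderiv]
    simp only [FunLike.coe_sum, Finset.sum_apply, FunLike.coe_smul,
      Pi.smul_apply, smul_eq_mul]
    rfl
  unfold MW121.en
  rw [Finset.mul_sum]
  refine Finset.sum_le_sum fun u _ => ?_
  rw [Finset.sum_comm, Finset.mul_sum]
  refine Finset.sum_le_sum fun v _ => ?_
  rw [hjac]
  exact Finset.sum_mul_sq_le_sq_mul_sq _ _ _

/-- Sum of the path lengths over the block. -/
def GG (P : Par) (m : ℕ) (I : Finset (ℤ × ℤ)) (h : ℤ × ℤ → ℝ) : ℝ≥0∞ :=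
  ∑ u ∈ I, ∑ k : Fin 3, PLn (win m I) P.rho P.eps P.Lam (ps k) u h

theorem measurable_GG : Measurable (GG P m I) :=
  Finset.measurable_sum _ fun _ _ => Finset.measurable_sum _ fun _ _ => measurable_PLn

/-- The constant. -/
def CE (P : Par) (xi : Fin 2 → ℝ) : ℝ := (∑ j, cf xi j ^ 2) * (2 * P.Lam / P.eps) ^ 2

theorem bbB_le (P : Par) (m : ℕ) (I : Finset (ℤ × ℤ)) (ζ : ℤ × ℤ → ℝ) (xi : Fin 2 → ℝ) :
    ENNReal.ofReal (bbB P m I ζ xi) ≤ ENNReal.ofReal (CE P xi) *
      ∫⁻ x, GG P m I (Ham560.ext I ζ x) ∂(hamP I (Lc279.lat I) ζ) := by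
  set V := win m I with hV
  set E := Lc279.lat V with hE
  have h1 : bbB P m I ζ xi ≤
      ∫ x, en (cmb (refL (refF_L2 P I V E) ζ) xi : llip I).1 x ∂(hamP I (Lc279.lat I) ζ) :=
    bT_le_ref (anch_lat I)
  have hmeas : Measurable (en (cmb (refL (refF_L2 P I V E) ζ) xi : llip I).1) :=
    measurable_en _
  refine (ENNReal.ofReal_le_ofReal h1).trans ?_
  rw [integral_eq_lintegral_of_nonneg_ae (ae_of_all _ fun x => en_nonneg _ x)
    hmeas.aestronglyMeasurable]
  refine ENNReal.ofReal_toReal_le.trans ?_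
  have hGm : Measurable fun x : I → ℝ => GG P m I (Ham560.ext I ζ x) :=
    measurable_GG.comp (Lc279.measurable_ext I ζ)
  rw [← lintegral_const_mul _ hGm]
  refine lintegral_mono_ae ?_
  have hac : hamP I (Lc279.lat I) ζ ≪ volume := (goodLaw_hamP' (anch_lat I) ζ).ac
  have hae : ∀ᵐ x ∂(hamP I (Lc279.lat I) ζ), ∀ (k : Fin 3) (u : I),
      DifferentiableAt ℝ (Zx V E P.rho P.eps P.Lam (ps k) I ζ u) x := by
    rw [ae_all_iff]
    intro k
    rw [ae_all_iff]
    intro u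
    exact hac.ae_le (lip_Zx P.eps_pos P.Lam_nonneg (u : ℤ × ℤ)).ae_differentiableAt
  filter_upwards [hae] with x hx
  have h2 := en_ref_le (xi := xi) hx
  have h3 : ∀ (u : I) (k : Fin 3), ENNReal.ofReal
      (∑ z, pd (Zx V E P.rho P.eps P.Lam (ps k) I ζ u) x z ^ 2) ≤
      ENNReal.ofReal ((2 * P.Lam / P.eps) ^ 2) *
        PLn V P.rho P.eps P.Lam (ps k) u (Ham560.ext I ζ x) := by
    intro u k
    obtain ⟨l, hl⟩ := exists_isOpt V E (ps k) (cz P.rho P.eps P.Lam (Ham560.ext I ζ x)) u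
    refine (ENNReal.ofReal_le_ofReal (row_Z_le P.eps_pos P.Lam_nonneg (hx k u) hl)).trans ?_
    rw [ENNReal.ofReal_mul (by positivity), ENNReal.ofReal_natCast]
    exact mul_le_mul' le_rfl (length_le_PLn hl)
  refine (ENNReal.ofReal_le_ofReal h2).trans ?_
  have hc0 : 0 ≤ ∑ j, cf xi j ^ 2 := Finset.sum_nonneg fun j _ => sq_nonneg _
  rw [ENNReal.ofReal_mul hc0, CE, ENNReal.ofReal_mul hc0, mul_assoc]
  refine mul_le_mul' le_rfl ?_
  rw [ENNReal.ofReal_sum_of_nonneg fun u _ => Finset.sum_nonneg fun k _ =>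
    Finset.sum_nonneg fun z _ => sq_nonneg _]
  have h4 : ∀ u : I, ENNReal.ofReal
      (∑ k : Fin 3, ∑ z, pd (Zx V E P.rho P.eps P.Lam (ps k) I ζ u) x z ^ 2) ≤
      ENNReal.ofReal ((2 * P.Lam / P.eps) ^ 2) *
        ∑ k : Fin 3, PLn V P.rho P.eps P.Lam (ps k) u (Ham560.ext I ζ x) := by
    intro u
    rw [ENNReal.ofReal_sum_of_nonneg fun k _ => Finset.sum_nonneg fun z _ => sq_nonneg _,
      Finset.mul_sum]
    exact Finset.sum_le_sum fun k _ => h3 u k
  refine (Finset.sum_le_sum fun u _ => h4 u).trans ?_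
  rw [← Finset.mul_sum]
  refine mul_le_mul' le_rfl (le_of_eq ?_)
  unfold GG
  rw [← Finset.sum_coe_sort I]

/-- Locality of the sum of the path lengths. -/
theorem GG_congr {h h' : ℤ × ℤ → ℝ} {c : ℝ} (hh : ∀ a ∈ win m I, h a = h' a + c) :
    GG P m I h = GG P m I h' := by
  unfold GG
  exact Finset.sum_congr rfl fun u hu => Finset.sum_congr rfl fun k _ =>
    PLn_congr (subset_win m I hu) hh

/-- Parameters for which the path tails are summable. -/
structure Small (P : Par) : Prop where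
  small : 12 * dpar P.rho P.eps < 1
  big : 4 ≤ P.Lam

theorem lintegral_GG_le (hP : Small P) :
    ∫⁻ h, GG P m I h ∂mu0 ≤ I.card * (3 * KL P.rho P.eps) := by
  unfold GG
  rw [lintegral_finsetSum _ fun u _ => Finset.measurable_sum _ fun k _ => measurable_PLn]
  rw [← nsmul_eq_mul]
  refine Finset.sum_le_card_nsmul _ _ _ fun u _ => ?_
  rw [lintegral_finsetSum _ fun k _ => measurable_PLn]
  have h1 : ∀ k : Fin 3, ∫⁻ h, PLn (win m I) P.rho P.eps P.Lam (ps k) u h ∂mu0 ≤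
      KL P.rho P.eps := by
    intro k
    refine lintegral_PLn_le (κ := 1) P.rho_pos P.eps_pos (by linarith [hP.big])
      (by linarith [hP.big]) ?_ ?_
    · have := hP.small
      have h0 : 0 ≤ dpar P.rho P.eps := Real.sqrt_nonneg _
      linarith
    · intro a b hab
      have h2 := abs_ps_sub_le k a b
      rw [(mem_nbr_lat.mp hab).1] at h2
      exact_mod_cast h2
  refine (Finset.sum_le_card_nsmul _ _ _ fun k _ => h1 k).trans ?_
  simp

theorem lintegral_bbB_le (hP : Small P) (xi : Fin 2 → ℝ) :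
    ∫⁻ h, ENNReal.ofReal (bbB P m I h xi) ∂mu0 ≤
      ENNReal.ofReal (CE P xi) * (I.card * (3 * KL P.rho P.eps)) := by
  classical
  obtain ⟨r, hr⟩ := exists_hball (win m I)
  have hdlr := dlr_lintegral (r := r) (G := GG P m I) measurable_GG
    (fun h h' hh => GG_congr (c := 0) fun a ha => by rw [hh a (hr a ha), add_zero])
    (fun h c => GG_congr (c := c) fun a _ => rfl) I
  calc ∫⁻ h, ENNReal.ofReal (bbB P m I h xi) ∂mu0
      ≤ ∫⁻ h, ENNReal.ofReal (CE P xi) *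
        ∫⁻ x, GG P m I (Ham560.ext I h x) ∂(hamP I (Lc279.lat I) h) ∂mu0 :=
        lintegral_mono fun h => bbB_le P m I h xi
    _ = ENNReal.ofReal (CE P xi) * ∫⁻ h, GG P m I h ∂mu0 := by
        rw [lintegral_const_mul _ (measurable_lintegral_hamP measurable_GG), ← hdlr]
    _ ≤ _ := mul_le_mul' le_rfl (lintegral_GG_le hP)

/-- The bound. -/
def BP (P : Par) : ℝ :=
  (ENNReal.ofReal (1 / 6) * (3 * (3 * (ENNReal.ofReal (2 / 3 * (2 * P.Lam / P.eps) ^ 2) *
    (3 * KL P.rho P.eps))))).toReal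

theorem lintegral_trE_le (hP : Small P) (r : ℕ) (o : Fin 3) :
    ∫⁻ h, ENNReal.ofReal (trE (bbO P r o h)) ∂mu0 ≤
      3 * (ENNReal.ofReal (2 / 3 * (2 * P.Lam / P.eps) ^ 2) * (3 * KL P.rho P.eps)) := by
  set s : ℕ := r / 2 with hs
  have h1 : ∀ h, ENNReal.ofReal (trE (bbO P r o h)) ≤
      ∑ k, ENNReal.ofReal (((s : ℝ) ^ 2)⁻¹) * ENNReal.ofReal (bbB P (cw r) (bk r o) h (ek k)) := by
    intro h
    rw [trE_eq_sum (bbO_symm r o h 0 1)]
    have h2 : (1 / 2 : ℝ) * ∑ k, qd (bbO P r o h) (ek k) ≤ ∑ k, qd (bbO P r o h) (ek k) := by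
      have : 0 ≤ ∑ k, qd (bbO P r o h) (ek k) := Finset.sum_nonneg fun k _ => qd_bbO_nonneg r o h _
      linarith
    refine (ENNReal.ofReal_le_ofReal h2).trans ?_
    rw [ENNReal.ofReal_sum_of_nonneg fun k _ => qd_bbO_nonneg r o h _]
    refine Finset.sum_le_sum fun k _ => ?_
    rw [qd_bbO, ENNReal.ofReal_mul (by positivity)]
  refine (lintegral_mono h1).trans ?_
  rw [lintegral_finsetSum _ fun k _ => ((measurable_bbB _ _).ennreal_ofReal).const_mul _]
  have h3 : ∀ k : Fin 3, ∫⁻ h, ENNReal.ofReal (((s : ℝ) ^ 2)⁻¹) *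
      ENNReal.ofReal (bbB P (cw r) (bk r o) h (ek k)) ∂mu0 ≤
      ENNReal.ofReal (2 / 3 * (2 * P.Lam / P.eps) ^ 2) * (3 * KL P.rho P.eps) := by
    intro k
    rw [lintegral_const_mul _ (measurable_bbB _ _).ennreal_ofReal]
    have h4 := lintegral_bbB_le (m := cw r) (I := bk r o) hP (ek k)
    rw [CE, cf_sq_ek, card_bk, ← hs] at h4
    refine (mul_le_mul' le_rfl h4).trans ?_
    rcases Nat.eq_zero_or_pos s with h0 | h0
    · rw [h0]
      simp
    · have hs0 : (0 : ℝ) < (s : ℝ) ^ 2 := by positivity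
      have e1 : ENNReal.ofReal (((s : ℝ) ^ 2)⁻¹) * ((s ^ 2 : ℕ) : ℝ≥0∞) = 1 := by
        rw [← ENNReal.ofReal_natCast, ← ENNReal.ofReal_mul (by positivity)]
        push_cast
        rw [inv_mul_cancel₀ hs0.ne', ENNReal.ofReal_one]
      calc ENNReal.ofReal (((s : ℝ) ^ 2)⁻¹) * (ENNReal.ofReal (2 / 3 * (2 * P.Lam / P.eps) ^ 2) *
            (((s ^ 2 : ℕ) : ℝ≥0∞) * (3 * KL P.rho P.eps)))
          = (ENNReal.ofReal (((s : ℝ) ^ 2)⁻¹) * ((s ^ 2 : ℕ) : ℝ≥0∞)) *
            (ENNReal.ofReal (2 / 3 * (2 * P.Lam / P.eps) ^ 2) * (3 * KL P.rho P.eps)) := by ring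
        _ ≤ _ := by rw [e1, one_mul]
  refine (Finset.sum_le_card_nsmul _ _ _ fun k _ => h3 k).trans ?_
  simp

/-- **POS.** -/
theorem abT_le (hP : Small P) (r : ℕ) (L : ℝ) : abT P mu0 r L ≤ BP P := by
  have hK := KL_ne_top hP.small
  have hfin : (3 : ℝ≥0∞) * (ENNReal.ofReal (2 / 3 * (2 * P.Lam / P.eps) ^ 2) *
      (3 * KL P.rho P.eps)) ≠ ⊤ :=
    ENNReal.mul_ne_top (by norm_num) (ENNReal.mul_ne_top ENNReal.ofReal_ne_top
      (ENNReal.mul_ne_top (by norm_num) hK))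
  set D : ℝ≥0∞ := 3 * (ENNReal.ofReal (2 / 3 * (2 * P.Lam / P.eps) ^ 2) *
      (3 * KL P.rho P.eps)) with hD
  have h1 : ∀ o : Fin 3, ∫ h, (if trE (bbO P r o h) ≤ L then trE (bbO P r o h) else 0) ∂mu0 ≤
      D.toReal := by
    intro o
    have hm : Measurable fun h : ℤ × ℤ → ℝ =>
        if trE (bbO P r o h) ≤ L then trE (bbO P r o h) else 0 :=
      Measurable.ite (measurableSet_le (measurable_trE r o) measurable_const) (measurable_trE r o)
        measurable_const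
    rw [integral_eq_lintegral_of_nonneg_ae (ae_of_all _ fun h => ?_) hm.aestronglyMeasurable]
    · refine ENNReal.toReal_mono hfin ((lintegral_mono fun h => ?_).trans (lintegral_trE_le hP r o))
      refine ENNReal.ofReal_le_ofReal ?_
      show (if trE (bbO P r o h) ≤ L then trE (bbO P r o h) else 0) ≤ _
      split_ifs
      · exact le_rfl
      · exact trE_bbO_nonneg r o h
    · show 0 ≤ (if trE (bbO P r o h) ≤ L then trE (bbO P r o h) else 0)
      split_ifs
      · exact trE_bbO_nonneg r o h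
      · exact le_rfl
  unfold abT
  have h2 : BP P = (1 / 6) * (3 * D.toReal) := by
    unfold BP
    rw [← hD, ENNReal.toReal_mul, ENNReal.toReal_mul, ENNReal.toReal_ofReal (by norm_num)]
    norm_num
  rw [h2]
  refine mul_le_mul_of_nonneg_left ?_ (by norm_num)
  refine (Finset.sum_le_card_nsmul _ _ _ fun o _ => h1 o).trans ?_
  simp

end Crest.Agent.R144.Lw425
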