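import Mathlib

/-!
R144 (S0197), helper770, LOWER side (probabilistic half), file 1:
Lipschitz partitions replacing a measurable choice of near-minimisers.
-/

set_option autoImplicit false

open MeasureTheory Set Filter Topology Metric
open scoped ENNReal NNReal

noncomputable section

namespace Crest.Agent.R144.LoA770

variable {X : Type*} [MetricSpace X] [MeasurableSpace X] [BorelSpace X]

/-- a radius at which the thickening of a compact set has almost no excess mass -/
theorem exists_thick_small (ν : Measure X) [IsFiniteMeasure ν] {K : Set X} (hK : IsCompact K)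
    {η : ℝ} (hη : 0 < η) :
    ∃ δ > 0, ∀ δ', 0 < δ' → δ' ≤ δ → ν.real (thickening δ' K \ K) ≤ η := by
  have h1 : Tendsto (fun r => ν (thickening r K)) (𝓝[>] 0) (𝓝 (ν (closure K))) :=
    tendsto_measure_thickening ⟨1, one_pos, measure_ne_top _ _⟩
  rw [hK.isClosed.closure_eq] at h1
  have h2 := (ENNReal.tendsto_toReal (measure_ne_top ν K)).comp h1
  have h3 : ∀ᶠ r in 𝓝[>] (0 : ℝ), ν.real (thickening r K) < ν.real K + η :=
    h2.eventually (gt_mem_nhds (show (ν K).toReal < ν.real K + η by rw [Measure.real]; linarith))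
  rw [eventually_nhdsWithin_iff, Metric.eventually_nhds_iff] at h3
  obtain ⟨δ, hδ, h4⟩ := h3
  refine ⟨δ / 2, by positivity, fun δ' h0 h5 => ?_⟩
  have h6 := h4 (y := δ') (by rw [Real.dist_eq, sub_zero, abs_of_pos h0]; linarith) h0
  rw [measureReal_sdiff (self_subset_thickening h0 K) hK.measurableSet (measure_ne_top _ _)]
  linarith

/-- finitely many pairwise disjoint compact sets have disjoint thickenings -/
theorem exists_thick_disjoint {N : ℕ} {K : ℕ → Set X} (hK : ∀ j, IsCompact (K j))
    (hd : Pairwise (Function.onFun Disjoint K)) :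
    ∃ δ > 0, ∀ δ', 0 < δ' → δ' ≤ δ → ∀ i < N, ∀ j < N, i ≠ j →
      Disjoint (thickening δ' (K i)) (thickening δ' (K j)) := by
  have h1 : ∀ p : ℕ × ℕ, ∃ δ > 0, p.1 ≠ p.2 → Disjoint (thickening δ (K p.1)) (thickening δ (K p.2)) := by
    intro p
    by_cases h : p.1 = p.2
    · exact ⟨1, one_pos, fun h' => absurd h h'⟩
    · obtain ⟨δ, hδ, h2⟩ := (hd h).exists_thickenings (hK p.1) (hK p.2).isClosed
      exact ⟨δ, hδ, fun _ => h2⟩
  choose d hd0 hd1 using h1
  have h2 : ∃ δ > 0, ∀ p ∈ Finset.range N ×ˢ Finset.range N, δ ≤ d p := by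
    generalize Finset.range N ×ˢ Finset.range N = s
    induction s using Finset.induction_on with
    | empty => exact ⟨1, one_pos, by simp⟩
    | insert a s _ ih =>
      obtain ⟨δ, hδ, h3⟩ := ih
      refine ⟨min δ (d a), lt_min hδ (hd0 a), fun p hp => ?_⟩
      rcases Finset.mem_insert.1 hp with rfl | hp
      · exact min_le_right _ _
      · exact (min_le_left _ _).trans (h3 p hp)
  obtain ⟨δ, hδ, h3⟩ := h2
  refine ⟨δ, hδ, fun δ' h0 h4 i hi j hj hij => ?_⟩
  have h5 := h3 (i, j) (by simp [hi, hj])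
  exact (hd1 (i, j) hij).mono (thickening_mono (h4.trans h5) _) (thickening_mono (h4.trans h5) _)

/-- **Lipschitz selection**: a measurable choice among countably many bounded energies can be
replaced by a finite Lipschitz partition, up to a small error. -/
theorem exists_lip_selection (ν : Measure X) [IsFiniteMeasure ν] [ν.InnerRegularCompactLTTop]
    {A : ℕ → Set X} (hA : ∀ j, MeasurableSet (A j)) (hd : Pairwise (Function.onFun Disjoint A))
    (hc : ⋃ j, A j = univ) {e : ℕ → X → ℝ} (hem : ∀ j, Measurable (e j))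
    (he0 : ∀ j x, 0 ≤ e j x) (heM : ∀ j, ∃ M, ∀ x, e j x ≤ M) {e0 : X → ℝ} (h0m : Measurable e0)
    (h00 : ∀ x, 0 ≤ e0 x) {M0 : ℝ} (h0M : ∀ x, e0 x ≤ M0) {G : X → ℝ} (hG : Integrable G ν)
    (hG0 : ∀ x, 0 ≤ G x) (heG : ∀ j, ∀ x ∈ A j, e j x ≤ G x) {η : ℝ} (hη : 0 < η) :
    ∃ (N : ℕ) (χ : ℕ → X → ℝ), (∀ j, ∃ K : ℝ≥0, LipschitzWith K (χ j)) ∧ (∀ j x, 0 ≤ χ j x) ∧
      (∀ x, ∑ j ∈ Finset.range N, χ j x ≤ 1) ∧
      ∫ x, (∑ j ∈ Finset.range N, χ j x * e j x + (1 - ∑ j ∈ Finset.range N, χ j x) * e0 x) ∂ν ≤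
        ∫ x, G x ∂ν + η := by
  choose M hM using heM
  by_cases hX : Nonempty X
  swap
  · rw [not_nonempty_iff] at hX
    refine ⟨0, fun _ _ => 0, fun _ => ⟨0, LipschitzWith.const 0⟩, fun _ _ => le_rfl, fun x => by simp, ?_⟩
    have hz : ν = 0 := Measure.eq_zero_of_isEmpty ν
    simp only [hz, integral_zero_measure]
    linarith
  obtain ⟨x0⟩ := hX
  have hM0 : 0 ≤ M0 := (h00 x0).trans (h0M x0)
  have hMj : ∀ j, 0 ≤ M j := fun j => (he0 j x0).trans (hM j x0)
  -- the number of templates
  set η1 : ℝ := η / (8 * (M0 + 1)) with hη1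
  have hη1p : 0 < η1 := by positivity
  obtain ⟨N, hN⟩ : ∃ N : ℕ, ν.real (⋃ j ∈ {j | N ≤ j}, A j) ≤ η1 := by
    have h1 : Tendsto (fun n => ν (⋃ j ∈ {j | n ≤ j}, A j)) atTop (𝓝 (ν (⋂ n, ⋃ j ∈ {j | n ≤ j}, A j))) := by
      refine tendsto_measure_iInter_atTop (fun n => ?_) ?_ ⟨0, measure_ne_top _ _⟩
      · exact (MeasurableSet.biUnion (to_countable _) fun j _ => hA j).nullMeasurableSet
      · intro a b hab
        refine biUnion_mono ?_ fun _ _ => subset_rfl
        exact fun j (hj : b ≤ j) => hab.trans hj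
    have h2 : (⋂ n, ⋃ j ∈ {j | n ≤ j}, A j) = ∅ := by
      rw [eq_empty_iff_forall_notMem]
      intro x hx
      rw [mem_iInter] at hx
      have h3 := hx 0
      simp only [mem_iUnion, mem_setOf_eq, exists_prop] at h3
      obtain ⟨j, -, hj⟩ := h3
      have h4 := hx (j + 1)
      simp only [mem_iUnion, mem_setOf_eq, exists_prop] at h4
      obtain ⟨k, hk, hk'⟩ := h4
      exact disjoint_left.1 (hd (show j ≠ k by omega)) hj hk'
    rw [h2, measure_empty] at h1
    have h3 := (ENNReal.tendsto_toReal ENNReal.zero_ne_top).comp h1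
    have h4 : ∀ᶠ n in atTop, ν.real (⋃ j ∈ {j | n ≤ j}, A j) < η1 :=
      h3.eventually (gt_mem_nhds (by simpa using hη1p))
    obtain ⟨n, hn⟩ := h4.exists
    exact ⟨n, hn.le⟩
  -- compact subsets
  have hcmp : ∀ j, ∃ K ⊆ A j, IsCompact K ∧ ν.real (A j \ K) ≤ η1 / (N + 1) := by
    intro j
    obtain ⟨K, hK, hKc, h1⟩ := (hA j).exists_isCompact_diff_lt (μ := ν) (measure_ne_top _ _)
      (ε := ENNReal.ofReal (η1 / (N + 1))) (by
        have : 0 < η1 / (N + 1) := by positivity
        exact (ENNReal.ofReal_pos.2 this).ne')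
    refine ⟨K, hK, hKc, ?_⟩
    have h2 := ENNReal.toReal_mono ENNReal.ofReal_ne_top h1.le
    rwa [ENNReal.toReal_ofReal (by positivity)] at h2
  choose K hKA hKc hKm using hcmp
  have hKd : Pairwise (Function.onFun Disjoint K) := fun i j hij => (hd hij).mono (hKA i) (hKA j)
  obtain ⟨δ1, hδ1, hdis⟩ := exists_thick_disjoint (N := N) hKc hKd
  have hrad : ∀ j, ∃ δ > 0, ∀ δ', 0 < δ' → δ' ≤ δ →
      ν.real (thickening δ' (K j) \ K j) ≤ η / (4 * (N + 1) * (M j + 1)) := by
    intro j
    have := hMj j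
    exact exists_thick_small ν (hKc j) (by positivity)
  choose d hd0 hdm using hrad
  obtain ⟨δ, hδ, hδ', hδ''⟩ : ∃ δ > 0, δ ≤ δ1 ∧ ∀ j < N, δ ≤ d j := by
    have : ∀ n : ℕ, ∃ δ > 0, δ ≤ δ1 ∧ ∀ j < n, δ ≤ d j := by
      intro n
      induction n with
      | zero => exact ⟨δ1, hδ1, le_rfl, by simp⟩
      | succ n ih =>
        obtain ⟨δ, h1, h2, h3⟩ := ih
        refine ⟨min δ (d n), lt_min h1 (hd0 n), (min_le_left _ _).trans h2, fun j hj => ?_⟩
        rcases Nat.lt_succ_iff_lt_or_eq.1 hj with h | rfl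
        · exact (min_le_left _ _).trans (h3 j h)
        · exact min_le_right _ _
    exact this N
  set χ : ℕ → X → ℝ := fun j x => (thickenedIndicator hδ (K j) x : ℝ) with hχ
  have hχ0 : ∀ j x, 0 ≤ χ j x := fun j x => NNReal.coe_nonneg _
  have hχ1 : ∀ j x, χ j x ≤ 1 := fun j x => by
    have := thickenedIndicator_le_one hδ (K j) x
    exact_mod_cast this
  have hχz : ∀ j x, x ∉ thickening δ (K j) → χ j x = 0 := fun j x hx => by
    have h1 := thickenedIndicator_zero hδ (K j) hx
    show ((thickenedIndicator hδ (K j) x : ℝ≥0) : ℝ) = 0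
    rw [h1, NNReal.coe_zero]
  have hχo : ∀ j, ∀ x ∈ K j, χ j x = 1 := fun j x hx => by
    have h1 := thickenedIndicator_one hδ (K j) hx
    show ((thickenedIndicator hδ (K j) x : ℝ≥0) : ℝ) = 1
    rw [h1, NNReal.coe_one]
  have hχL : ∀ j, ∃ C : ℝ≥0, LipschitzWith C (χ j) := by
    intro j
    have h1 := lipschitzWith_thickenedIndicator hδ (K j)
    exact ⟨δ.toNNReal⁻¹, LipschitzWith.of_dist_le_mul fun x y => h1.dist_le_mul x y⟩
  have hχm : ∀ j, Measurable (χ j) := fun j => by
    obtain ⟨C, hC⟩ := hχL j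
    exact hC.continuous.measurable
  -- the partition property
  have hsum : ∀ x, ∑ j ∈ Finset.range N, χ j x ≤ 1 := by
    intro x
    by_cases h : ∃ i < N, x ∈ thickening δ (K i)
    · obtain ⟨i, hi, hx⟩ := h
      rw [Finset.sum_eq_single_of_mem i (Finset.mem_range.2 hi)]
      · exact hχ1 i x
      · intro j hj hji
        refine hχz j x fun hx' => ?_
        exact disjoint_left.1 (hdis δ hδ hδ' i hi j (Finset.mem_range.1 hj) (Ne.symm hji)) hx hx'
    · push Not at h
      rw [Finset.sum_eq_zero fun j hj => hχz j x (h j (Finset.mem_range.1 hj))]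
      exact zero_le_one
  refine ⟨N, χ, hχL, hχ0, hsum, ?_⟩
  have hint : ∀ j, Integrable (fun x => χ j x * e j x) ν := by
    intro j
    refine Integrable.of_bound ((hχm j).mul (hem j)).aestronglyMeasurable (M j) (ae_of_all _ fun x => ?_)
    rw [Real.norm_eq_abs, abs_of_nonneg (mul_nonneg (hχ0 j x) (he0 j x))]
    calc χ j x * e j x ≤ 1 * M j := mul_le_mul (hχ1 j x) (hM j x) (he0 j x) zero_le_one
      _ = M j := one_mul _
  have hint0 : Integrable (fun x => (1 - ∑ j ∈ Finset.range N, χ j x) * e0 x) ν := by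
    refine Integrable.of_bound (((measurable_const.sub (Finset.measurable_fun_sum _ fun j _ => hχm j)).mul
      h0m)).aestronglyMeasurable M0 (ae_of_all _ fun x => ?_)
    have h1 := hsum x
    have h2 : 0 ≤ ∑ j ∈ Finset.range N, χ j x := Finset.sum_nonneg fun j _ => hχ0 j x
    rw [Real.norm_eq_abs, abs_of_nonneg (mul_nonneg (by linarith) (h00 x))]
    calc (1 - ∑ j ∈ Finset.range N, χ j x) * e0 x ≤ 1 * M0 :=
          mul_le_mul (by linarith) (h0M x) (h00 x) zero_le_one
      _ = M0 := one_mul _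
  -- one template
  have h1 : ∀ j < N, ∫ x, χ j x * e j x ∂ν ≤ ∫ x in K j, G x ∂ν + η / (4 * (N + 1)) := by
    intro j hj
    have hsub : ∀ x, χ j x * e j x ≤ (K j).indicator G x +
        (thickening δ (K j) \ K j).indicator (fun _ => M j) x := by
      intro x
      by_cases hx : x ∈ K j
      · rw [indicator_of_mem hx, indicator_of_notMem (fun h => h.2 hx), hχo j x hx, one_mul, add_zero]
        exact heG j x (hKA j hx)
      · rw [indicator_of_notMem hx, zero_add]
        by_cases hx' : x ∈ thickening δ (K j)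
        · rw [indicator_of_mem (show x ∈ thickening δ (K j) \ K j from ⟨hx', hx⟩)]
          calc χ j x * e j x ≤ 1 * M j := mul_le_mul (hχ1 j x) (hM j x) (he0 j x) zero_le_one
            _ = M j := one_mul _
        · rw [hχz j x hx', zero_mul]
          exact indicator_nonneg (fun _ _ => hMj j) x
    have hmD : MeasurableSet (thickening δ (K j) \ K j) :=
      isOpen_thickening.measurableSet.diff (hKc j).measurableSet
    have hI : Integrable ((thickening δ (K j) \ K j).indicator (fun _ => M j)) ν :=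
      (integrable_indicator_iff hmD).2 (integrable_const _).integrableOn
    calc ∫ x, χ j x * e j x ∂ν ≤ ∫ x, ((K j).indicator G x +
          (thickening δ (K j) \ K j).indicator (fun _ => M j) x) ∂ν :=
          integral_mono (hint j) ((hG.indicator (hKc j).measurableSet).add hI) hsub
      _ = ∫ x in K j, G x ∂ν + ν.real (thickening δ (K j) \ K j) * M j := by
          rw [integral_add (hG.indicator (hKc j).measurableSet) hI,
            integral_indicator (hKc j).measurableSet, integral_indicator_const _ hmD, smul_eq_mul]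
      _ ≤ ∫ x in K j, G x ∂ν + η / (4 * (N + 1)) := by
          gcongr
          have h2 := hdm j δ hδ (hδ'' j hj)
          have h3 := hMj j
          calc ν.real (thickening δ (K j) \ K j) * M j
              ≤ η / (4 * (N + 1) * (M j + 1)) * (M j + 1) := by
                refine mul_le_mul h2 (by linarith) h3 (by positivity)
            _ = η / (4 * (N + 1)) := by field_simp
  have hKun : ∑ j ∈ Finset.range N, ∫ x in K j, G x ∂ν ≤ ∫ x, G x ∂ν := by
    rw [← integral_biUnion_finset (Finset.range N) (fun j _ => (hKc j).measurableSet)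
      (fun i _ j _ hij => hKd hij) (fun j _ => hG.integrableOn)]
    exact setIntegral_le_integral hG (ae_of_all _ hG0)
  -- the rest
  have h2 : ∫ x, (1 - ∑ j ∈ Finset.range N, χ j x) * e0 x ∂ν ≤ η / 4 := by
    set B : Set X := (⋃ j ∈ Finset.range N, K j)ᶜ with hB
    have hBm : MeasurableSet B :=
      ((Finset.range N).measurableSet_biUnion fun j _ => (hKc j).measurableSet).compl
    have hsub : ∀ x, (1 - ∑ j ∈ Finset.range N, χ j x) * e0 x ≤ B.indicator (fun _ => M0) x := by
      intro x
      have h0 : 0 ≤ ∑ j ∈ Finset.range N, χ j x := Finset.sum_nonneg fun j _ => hχ0 j x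
      by_cases hx : x ∈ B
      · rw [indicator_of_mem hx]
        calc (1 - ∑ j ∈ Finset.range N, χ j x) * e0 x ≤ 1 * M0 :=
              mul_le_mul (by linarith) (h0M x) (h00 x) zero_le_one
          _ = M0 := one_mul _
      · rw [indicator_of_notMem hx]
        rw [hB, mem_compl_iff, not_not, mem_iUnion₂] at hx
        obtain ⟨j, hj, hx⟩ := hx
        have h3 : χ j x ≤ ∑ j ∈ Finset.range N, χ j x :=
          Finset.single_le_sum (f := fun j => χ j x) (fun j _ => hχ0 j x) hj
        rw [hχo j x hx] at h3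
        have h4 : ∑ j ∈ Finset.range N, χ j x = 1 := le_antisymm (hsum x) h3
        rw [h4, sub_self, zero_mul]
    have hI : Integrable (B.indicator (fun _ => M0)) ν :=
      (integrable_indicator_iff hBm).2 (integrable_const _).integrableOn
    have hBν : ν.real B ≤ 2 * η1 := by
      have h3 : B ⊆ (⋃ j ∈ {j | N ≤ j}, A j) ∪ ⋃ j ∈ Finset.range N, (A j \ K j) := by
        intro x hx
        have h4 : x ∈ ⋃ j, A j := hc ▸ mem_univ x
        obtain ⟨j, hj⟩ := mem_iUnion.1 h4
        by_cases hjN : j < N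
        · right
          refine mem_iUnion₂.2 ⟨j, Finset.mem_range.2 hjN, hj, fun hx' => hx ?_⟩
          exact mem_iUnion₂.2 ⟨j, Finset.mem_range.2 hjN, hx'⟩
        · left
          exact mem_iUnion₂.2 ⟨j, not_lt.1 hjN, hj⟩
      calc ν.real B ≤ ν.real ((⋃ j ∈ {j | N ≤ j}, A j) ∪ ⋃ j ∈ Finset.range N, (A j \ K j)) :=
            measureReal_mono h3 (measure_ne_top _ _)
        _ ≤ ν.real (⋃ j ∈ {j | N ≤ j}, A j) + ν.real (⋃ j ∈ Finset.range N, (A j \ K j)) :=
            measureReal_union_le _ _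
        _ ≤ η1 + ∑ j ∈ Finset.range N, ν.real (A j \ K j) := by
            gcongr
            exact measureReal_biUnion_finset_le _ _
        _ ≤ η1 + ∑ _j ∈ Finset.range N, η1 / (N + 1) := by
            gcongr with j hj
            exact hKm j
        _ ≤ 2 * η1 := by
            rw [Finset.sum_const, Finset.card_range, nsmul_eq_mul]
            have h5 : (N : ℝ) * (η1 / (N + 1)) ≤ η1 := by
              rw [mul_div_assoc', div_le_iff₀ (by positivity)]
              nlinarith
            linarith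
    calc ∫ x, (1 - ∑ j ∈ Finset.range N, χ j x) * e0 x ∂ν ≤ ∫ x, B.indicator (fun _ => M0) x ∂ν :=
          integral_mono hint0 hI hsub
      _ = ν.real B * M0 := by rw [integral_indicator_const _ hBm, smul_eq_mul]
      _ ≤ 2 * η1 * (M0 + 1) := by
          refine mul_le_mul hBν (by linarith) hM0 (by positivity)
      _ = η / 4 := by rw [hη1]; field_simp; norm_num
  rw [integral_add (integrable_finsetSum _ fun j _ => hint j) hint0,
    integral_finsetSum _ fun j _ => hint j]
  calc ∑ j ∈ Finset.range N, ∫ x, χ j x * e j x ∂ν +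
        ∫ x, (1 - ∑ j ∈ Finset.range N, χ j x) * e0 x ∂ν
      ≤ ∑ j ∈ Finset.range N, (∫ x in K j, G x ∂ν + η / (4 * (N + 1))) + η / 4 := by
        gcongr with j hj
        exact h1 j (Finset.mem_range.1 hj)
    _ = ∑ j ∈ Finset.range N, ∫ x in K j, G x ∂ν + N * (η / (4 * (N + 1))) + η / 4 := by
        rw [Finset.sum_add_distrib, Finset.sum_const, Finset.card_range, nsmul_eq_mul]
    _ ≤ ∫ x, G x ∂ν + η / 4 + η / 4 := by
        have h5 : (N : ℝ) * (η / (4 * (N + 1))) ≤ η / 4 := by
          rw [mul_div_assoc', div_le_div_iff₀ (by positivity) (by positivity)]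
          nlinarith
        linarith
    _ ≤ ∫ x, G x ∂ν + η := by linarith

end Crest.Agent.R144.LoA770
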