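import Mathlib
import Crest.Agent.R144.MW1_121

/-!
R144 (S0197), helper770, LOWER side (probabilistic half), file 3:
the Euclidean retraction onto a disc in index coordinates, and its effect on the vector energy.

`N2 a b = a² + a b + b²` is the square of the Euclidean length of `a + b e^{iπ/3}`.
-/

set_option autoImplicit false

open MeasureTheory Set Filter Topology Metric
open scoped ENNReal NNReal

noncomputable section

namespace Crest.Agent.R144.LoA770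

open Crest.Agent.R144.MW121 (jac jac_apply en)

/-- squared Euclidean length in index coordinates -/
def N2 (a b : ℝ) : ℝ := a ^ 2 + a * b + b ^ 2

theorem N2_nonneg (a b : ℝ) : 0 ≤ N2 a b := by unfold N2; nlinarith [sq_nonneg (a + b)]

theorem N2_eq (a b : ℝ) : N2 a b = (a ^ 2 + b ^ 2 + (a + b) ^ 2) / 2 := by unfold N2; ring

theorem sq_le_N2 (a b : ℝ) : a ^ 2 ≤ 2 * N2 a b := by unfold N2; nlinarith [sq_nonneg (a + b)]

theorem sq_le_N2' (a b : ℝ) : b ^ 2 ≤ 2 * N2 a b := by unfold N2; nlinarith [sq_nonneg (a + b)]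

theorem N2_le (a b : ℝ) {M : ℝ} (ha : |a| ≤ M) (hb : |b| ≤ M) : N2 a b ≤ 3 * M ^ 2 := by
  have hM : 0 ≤ M := (abs_nonneg a).trans ha
  have h1 : a ^ 2 ≤ M ^ 2 := by rw [← sq_abs]; exact pow_le_pow_left₀ (abs_nonneg _) ha 2
  have h2 : b ^ 2 ≤ M ^ 2 := by rw [← sq_abs]; exact pow_le_pow_left₀ (abs_nonneg _) hb 2
  unfold N2
  nlinarith [sq_nonneg (a - b)]

theorem N2_conv {t : ℝ} (h0 : 0 ≤ t) (h1 : t ≤ 1) (a b a' b' : ℝ) :
    N2 ((1 - t) * a + t * a') ((1 - t) * b + t * b') ≤ (1 - t) * N2 a b + t * N2 a' b' := by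
  have h := N2_nonneg (a - a') (b - b')
  have e : (1 - t) * N2 a b + t * N2 a' b' - N2 ((1 - t) * a + t * a') ((1 - t) * b + t * b') =
      t * (1 - t) * N2 (a - a') (b - b') := by unfold N2; ring
  nlinarith [mul_nonneg (mul_nonneg h0 (sub_nonneg.2 h1)) h]

/-- finite convex combinations, the rest of the weight being at the first vector -/
theorem N2_conv_sum {ι : Type*} (s : Finset ι) (χ : ι → ℝ) (h0 : ∀ j ∈ s, 0 ≤ χ j)
    (h1 : ∑ j ∈ s, χ j ≤ 1) (a b : ℝ) (u v : ι → ℝ) :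
    N2 (a + ∑ j ∈ s, χ j * u j) (b + ∑ j ∈ s, χ j * v j) ≤
      ∑ j ∈ s, χ j * N2 (a + u j) (b + v j) + (1 - ∑ j ∈ s, χ j) * N2 a b := by
  -- variance identity: the difference is nonnegative by Cauchy-Schwarz, in the sum of squares form
  have key : ∀ c : ι → ℝ, ∀ d : ℝ, (d + ∑ j ∈ s, χ j * c j) ^ 2 ≤
      ∑ j ∈ s, χ j * (d + c j) ^ 2 + (1 - ∑ j ∈ s, χ j) * d ^ 2 := by
    intro c d
    have hcs : (∑ j ∈ s, χ j * c j) ^ 2 ≤ ∑ j ∈ s, χ j * c j ^ 2 := by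
      have h2 : (∑ j ∈ s, χ j * c j) ^ 2 ≤ (∑ j ∈ s, χ j) * ∑ j ∈ s, χ j * c j ^ 2 := by
        refine Finset.sum_sq_le_sum_mul_sum_of_sq_eq_mul s (fun j hj => h0 j hj)
          (fun j hj => mul_nonneg (h0 j hj) (sq_nonneg _)) fun j _ => by ring
      have h3 : 0 ≤ ∑ j ∈ s, χ j * c j ^ 2 :=
        Finset.sum_nonneg fun j hj => mul_nonneg (h0 j hj) (sq_nonneg _)
      nlinarith
    have e : ∑ j ∈ s, χ j * (d + c j) ^ 2 = d ^ 2 * (∑ j ∈ s, χ j) + 2 * d * (∑ j ∈ s, χ j * c j) +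
        ∑ j ∈ s, χ j * c j ^ 2 := by
      rw [Finset.mul_sum, Finset.mul_sum, ← Finset.sum_add_distrib, ← Finset.sum_add_distrib]
      exact Finset.sum_congr rfl fun j _ => by ring
    rw [e]
    nlinarith
  simp only [N2_eq]
  have h1' := key u a
  have h2' := key v b
  have h3' := key (fun j => u j + v j) (a + b)
  have e3 : ∑ j ∈ s, χ j * (u j + v j) = ∑ j ∈ s, χ j * u j + ∑ j ∈ s, χ j * v j := by
    rw [← Finset.sum_add_distrib]; exact Finset.sum_congr rfl fun j _ => by ring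
  rw [e3] at h3'
  have e4 : ∑ j ∈ s, χ j * (((a + u j) ^ 2 + (b + v j) ^ 2 + (a + u j + (b + v j)) ^ 2) / 2) =
      (∑ j ∈ s, χ j * (a + u j) ^ 2 + ∑ j ∈ s, χ j * (b + v j) ^ 2 +
        ∑ j ∈ s, χ j * (a + b + (u j + v j)) ^ 2) / 2 := by
    rw [← Finset.sum_add_distrib, ← Finset.sum_add_distrib, Finset.sum_div]
    exact Finset.sum_congr rfl fun j _ => by ring
  rw [e4, show a + ∑ j ∈ s, χ j * u j + (b + ∑ j ∈ s, χ j * v j) =
    a + b + (∑ j ∈ s, χ j * u j + ∑ j ∈ s, χ j * v j) by ring]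
  linarith

/-! ### the retraction -/

/-- the radial factor -/
def rfac (R : ℝ) (a b : ℝ) : ℝ := min 1 (R / Real.sqrt (N2 a b))

theorem rfac_nonneg {R : ℝ} (hR : 0 ≤ R) (a b : ℝ) : 0 ≤ rfac R a b :=
  le_min zero_le_one (div_nonneg hR (Real.sqrt_nonneg _))

theorem rfac_le_one (R a b : ℝ) : rfac R a b ≤ 1 := min_le_left _ _

theorem rfac_mul {R : ℝ} (hR : 0 ≤ R) (a b : ℝ) :
    rfac R a b * Real.sqrt (N2 a b) = min (Real.sqrt (N2 a b)) R := by
  rcases (Real.sqrt_nonneg (N2 a b)).eq_or_lt with h | h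
  · rw [← h, mul_zero, min_eq_left hR]
  · unfold rfac
    rw [min_mul_of_nonneg _ _ h.le, one_mul, div_mul_cancel₀ _ h.ne']

/-- first component of the retraction onto the disc of radius `R` -/
def cl0 (R : ℝ) (a b : ℝ) : ℝ := rfac R a b * a

/-- second component -/
def cl1 (R : ℝ) (a b : ℝ) : ℝ := rfac R a b * b

/-- the retraction is a contraction -/
theorem N2_cl_le {R : ℝ} (hR : 0 ≤ R) (a b a' b' : ℝ) :
    N2 (cl0 R a b - cl0 R a' b') (cl1 R a b - cl1 R a' b') ≤ N2 (a - a') (b - b') := by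
  set α := rfac R a b with hα
  set β := rfac R a' b' with hβ
  set p := Real.sqrt (N2 a b) with hp
  set q := Real.sqrt (N2 a' b') with hq
  have hp2 : p ^ 2 = N2 a b := Real.sq_sqrt (N2_nonneg a b)
  have hq2 : q ^ 2 = N2 a' b' := Real.sq_sqrt (N2_nonneg a' b')
  have hp0 : 0 ≤ p := Real.sqrt_nonneg _
  have hq0 : 0 ≤ q := Real.sqrt_nonneg _
  have hα0 : 0 ≤ α := rfac_nonneg hR a b
  have hα1 : α ≤ 1 := rfac_le_one R a b
  have hβ0 : 0 ≤ β := rfac_nonneg hR a' b'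
  have hβ1 : β ≤ 1 := rfac_le_one R a' b'
  have hαp : α * p = min p R := rfac_mul hR a b
  have hβq : β * q = min q R := rfac_mul hR a' b'
  set B := a * a' + (a * b' + a' * b) / 2 + b * b' with hB
  have hCS : B ≤ p * q := by
    have h1 : B ^ 2 ≤ (p * q) ^ 2 := by
      rw [mul_pow, hp2, hq2, hB]
      unfold N2
      nlinarith [sq_nonneg (a * b' - a' * b)]
    exact (abs_le_of_sq_le_sq' h1 (mul_nonneg hp0 hq0)).2
  have hL : N2 (cl0 R a b - cl0 R a' b') (cl1 R a b - cl1 R a' b') =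
      α ^ 2 * p ^ 2 + β ^ 2 * q ^ 2 - 2 * (α * β) * B := by
    rw [hp2, hq2, hB]; unfold N2 cl0 cl1; rw [← hα, ← hβ]; ring
  have hRr : N2 (a - a') (b - b') = p ^ 2 + q ^ 2 - 2 * B := by
    rw [hp2, hq2, hB]; unfold N2; ring
  rw [hL, hRr]
  have hmin : (α * p - β * q) ^ 2 ≤ (p - q) ^ 2 := by
    rw [hαp, hβq, ← sq_abs (min p R - min q R), ← sq_abs (p - q)]
    refine pow_le_pow_left₀ (abs_nonneg _) ?_ 2
    have h := abs_min_sub_min_le_max p R q R
    simpa using h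
  have hαβ : α * β ≤ 1 := by nlinarith
  nlinarith [mul_le_mul_of_nonneg_left hCS (sub_nonneg.2 hαβ)]

/-- inside the disc nothing happens -/
theorem cl_eq {R : ℝ} (hR : 0 ≤ R) {a b : ℝ} (h : N2 a b ≤ R ^ 2) :
    cl0 R a b = a ∧ cl1 R a b = b := by
  rcases (Real.sqrt_nonneg (N2 a b)).eq_or_lt with h0 | h0
  · have h1 : N2 a b = 0 := by
      have := Real.sq_sqrt (N2_nonneg a b)
      rw [← h0] at this
      linarith
    have h2 : a = 0 := by
      have := sq_le_N2 a b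
      rw [h1] at this
      exact pow_eq_zero_iff (two_ne_zero) |>.1 (le_antisymm (by linarith) (sq_nonneg a))
    have h3 : b = 0 := by
      have := sq_le_N2' a b
      rw [h1] at this
      exact pow_eq_zero_iff (two_ne_zero) |>.1 (le_antisymm (by linarith) (sq_nonneg b))
    subst h2 h3
    simp [cl0, cl1]
  · have h1 : rfac R a b = 1 := by
      unfold rfac
      refine min_eq_left ?_
      rw [le_div_iff₀ h0, one_mul]
      calc Real.sqrt (N2 a b) ≤ Real.sqrt (R ^ 2) := Real.sqrt_le_sqrt h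
        _ = R := Real.sqrt_sq hR
    simp [cl0, cl1, h1]

theorem N2_cl_le_sq {R : ℝ} (hR : 0 ≤ R) (a b : ℝ) : N2 (cl0 R a b) (cl1 R a b) ≤ R ^ 2 := by
  have h1 : N2 (cl0 R a b) (cl1 R a b) = (rfac R a b * Real.sqrt (N2 a b)) ^ 2 := by
    rw [mul_pow, Real.sq_sqrt (N2_nonneg a b)]; unfold N2 cl0 cl1; ring
  rw [h1, rfac_mul hR]
  exact pow_le_pow_left₀ (le_min (Real.sqrt_nonneg _) hR) (min_le_right _ _) 2

theorem abs_le_of_N2 {a b M : ℝ} (hM : 0 ≤ M) (h : N2 a b ≤ M ^ 2) : |a| ≤ 2 * M ∧ |b| ≤ 2 * M := by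
  have h1 := sq_le_N2 a b
  have h2 := sq_le_N2' a b
  constructor
  · refine abs_le_of_sq_le_sq ?_ (by linarith); nlinarith
  · refine abs_le_of_sq_le_sq ?_ (by linarith); nlinarith

theorem abs_cl_le {R : ℝ} (hR : 0 ≤ R) (a b : ℝ) : |cl0 R a b| ≤ 2 * R ∧ |cl1 R a b| ≤ 2 * R :=
  abs_le_of_N2 hR (N2_cl_le_sq hR a b)

theorem abs_cl_sub_le {R : ℝ} (hR : 0 ≤ R) {a b a' b' M : ℝ} (h1 : |a - a'| ≤ M)
    (h2 : |b - b'| ≤ M) :
    |cl0 R a b - cl0 R a' b'| ≤ 4 * M ∧ |cl1 R a b - cl1 R a' b'| ≤ 4 * M := by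
  have hM : 0 ≤ M := (abs_nonneg _).trans h1
  have h3 : N2 (cl0 R a b - cl0 R a' b') (cl1 R a b - cl1 R a' b') ≤ (2 * M) ^ 2 := by
    refine (N2_cl_le hR a b a' b').trans ((N2_le _ _ h1 h2).trans ?_)
    nlinarith [sq_nonneg M]
  have h4 := abs_le_of_N2 (by linarith : (0:ℝ) ≤ 2 * M) h3
  constructor
  · linarith [h4.1]
  · linarith [h4.2]

/-! ### the vector energy -/

section

variable {V : Type*} [Fintype V] [DecidableEq V]

/-- vector energy of a pair of fields (Euclidean trace in index coordinates) -/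
def enN (Y0 Y1 : (V → ℝ) → (V → ℝ)) (x : V → ℝ) : ℝ :=
  ∑ w, ∑ v, N2 (jac Y0 x w v) (jac Y1 x w v)

theorem enN_nonneg (Y0 Y1 : (V → ℝ) → (V → ℝ)) (x : V → ℝ) : 0 ≤ enN Y0 Y1 x :=
  Finset.sum_nonneg fun _ _ => Finset.sum_nonneg fun _ _ => N2_nonneg _ _

/-- derivative of a component along a coordinate direction -/
theorem hasDerivAt_comp {Y : (V → ℝ) → (V → ℝ)} {x : V → ℝ} (h : DifferentiableAt ℝ Y x) (w v : V) :
    HasDerivAt (fun t : ℝ => Y (x + t • (Pi.single v 1 : V → ℝ)) w) (jac Y x w v) 0 := by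
  have h1 : HasDerivAt (fun t : ℝ => x + t • (Pi.single v 1 : V → ℝ)) (Pi.single v 1 : V → ℝ) 0 := by
    have := ((hasDerivAt_id (0 : ℝ)).smul_const (Pi.single v 1 : V → ℝ)).const_add x
    simpa using this
  have h2 : HasFDerivAt Y (fderiv ℝ Y x) (x + (0 : ℝ) • (Pi.single v 1 : V → ℝ)) := by
    simpa using h.hasFDerivAt
  have h3 := h2.comp_hasDerivAt (0 : ℝ) h1
  have h4 := (hasDerivAt_pi.1 h3) w
  rw [jac_apply]
  exact h4

/-- **clipping decreases the vector energy** -/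
theorem N2_jac_le {Y0 Y1 Z0 Z1 : (V → ℝ) → (V → ℝ)} {x : V → ℝ}
    (h0 : DifferentiableAt ℝ Y0 x) (h1 : DifferentiableAt ℝ Y1 x)
    (g0 : DifferentiableAt ℝ Z0 x) (g1 : DifferentiableAt ℝ Z1 x)
    (hc : ∀ y w, N2 (Z0 y w - Z0 x w) (Z1 y w - Z1 x w) ≤ N2 (Y0 y w - Y0 x w) (Y1 y w - Y1 x w))
    (w v : V) : N2 (jac Z0 x w v) (jac Z1 x w v) ≤ N2 (jac Y0 x w v) (jac Y1 x w v) := by
  have e : ∀ {Y : (V → ℝ) → (V → ℝ)}, DifferentiableAt ℝ Y x →
      Tendsto (fun t : ℝ => t⁻¹ * (Y (x + t • (Pi.single v 1 : V → ℝ)) w - Y x w)) (𝓝[≠] 0)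
        (𝓝 (jac Y x w v)) := by
    intro Y hY
    have := (hasDerivAt_comp hY w v).tendsto_slope_zero
    simpa [smul_eq_mul] using this
  have hN : Continuous fun p : ℝ × ℝ => N2 p.1 p.2 := by unfold N2; fun_prop
  have t1 := (hN.tendsto _).comp ((e g0).prodMk_nhds (e g1))
  have t2 := (hN.tendsto _).comp ((e h0).prodMk_nhds (e h1))
  refine le_of_tendsto_of_tendsto t1 t2 ?_
  filter_upwards with t
  simp only [Function.comp_apply]
  have e2 : ∀ c a b : ℝ, N2 (c * a) (c * b) = c ^ 2 * N2 a b := by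
    intro c a b; unfold N2; ring
  rw [e2, e2]
  exact mul_le_mul_of_nonneg_left (hc _ w) (sq_nonneg _)

end

end Crest.Agent.R144.LoA770
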