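import Crest.Agent.R144.BQ8_565
import Crest.Agent.R144.LoA1_770
import Crest.Agent.R144.LoA3_770

/-!
R144 (S0197), helper770, LOWER side (probabilistic half), file 4:
local templates for the trial field: clipped perturbations of the reference pair, and mixtures of
them by a Lipschitz partition of the data.
-/

set_option autoImplicit false
set_option linter.unusedSectionVars false

open MeasureTheory Set Filter Topology Metric
open scoped ENNReal NNReal

noncomputable section

namespace Crest.Agent.R144.LoA770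

open Crest.Agent.R144.Ham560 Crest.Agent.R144.BQ565
open Crest.Agent.R144.MW121 (jac jac_apply en measurable_jac measurable_en en_nonneg)

variable {U : Type*} [DecidableEq U] {I W C : Finset U} {E : Finset (U × U)} {o : U}
  {L : Fin 2 → (U → ℝ) → U → ℝ} {ctr : Fin 2 → ℝ} {cL R ρ : ℝ}

/-- reference pair of fields seen on a window -/
structure RefP (I W : Finset U) (E : Finset (U × U)) (o : U) (L : Fin 2 → (U → ℝ) → U → ℝ)
    (ctr : Fin 2 → ℝ) (cL R ρ : ℝ) : Prop where
  IW : I ⊆ W
  oW : o ∈ W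
  oI : o ∉ I
  ends : ∀ p ∈ E, p.1 ∈ W ∧ p.2 ∈ W
  cL0 : 0 ≤ cL
  R0 : 0 ≤ R
  ρ0 : 0 < ρ
  lip : ∀ i h h' (M : ℝ), (∀ w ∈ W, |h w - h' w| ≤ M) → ∀ u ∈ I, |L i h u - L i h' u| ≤ cL * M
  sh : ∀ i h (c : ℝ) u, L i (fun v => h v + c) u = L i h u
  rig : ∀ i h, ∀ p ∈ E, Inn I p → 1 - ρ ≤ |h p.1 - h p.2| → L i h p.1 = L i h p.2
  near : ∀ h, ∀ u ∈ I, N2 (L 0 h u - ctr 0) (L 1 h u - ctr 1) ≤ R ^ 2

/-- local templates -/
structure Tmpl (I W C : Finset U) (E : Finset (U × U)) (T : Fin 2 → (U → ℝ) → I → ℝ) (K : ℝ) :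
    Prop where
  lip : ∃ cT : ℝ, 0 ≤ cT ∧ ∀ i h h' (M : ℝ), (∀ w ∈ W, |h w - h' w| ≤ M) →
    ∀ w : I, |T i h w - T i h' w| ≤ cT * M
  bd : ∀ i h w, |T i h w| ≤ K
  core : ∀ i h (w : I), (w : U) ∉ C → T i h w = 0
  sh : ∀ i h (c : ℝ) w, T i (fun v => h v + c) w = T i h w
  rig : ∃ ρ > 0, ∀ i h, (∀ p ∈ E, Inn I p → |h p.1 - h p.2| ≤ 1) →
    ∀ a b : I, ((a : U), (b : U)) ∈ E → 1 - ρ ≤ |h a - h b| → T i h a = T i h b

/-! ### clipping of a pair -/

/-- the retraction as a map of pairs -/
def clp (R : ℝ) (a : Fin 2 → ℝ) (i : Fin 2) : ℝ := rfac R (a 0) (a 1) * a i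

theorem clp_zero (R : ℝ) (a : Fin 2 → ℝ) : clp R a 0 = cl0 R (a 0) (a 1) := rfl
theorem clp_one (R : ℝ) (a : Fin 2 → ℝ) : clp R a 1 = cl1 R (a 0) (a 1) := rfl

theorem abs_clp_le (hR : 0 ≤ R) (a : Fin 2 → ℝ) (i : Fin 2) : |clp R a i| ≤ 2 * R := by
  have h := abs_cl_le hR (a 0) (a 1)
  fin_cases i
  · exact h.1
  · exact h.2

theorem clp_eq (hR : 0 ≤ R) {a : Fin 2 → ℝ} (h : N2 (a 0) (a 1) ≤ R ^ 2) (i : Fin 2) :
    clp R a i = a i := by
  have h := cl_eq hR h
  fin_cases i
  · exact h.1
  · exact h.2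

theorem abs_clp_sub_le (hR : 0 ≤ R) {a b : Fin 2 → ℝ} {M : ℝ} (h : ∀ i, |a i - b i| ≤ M)
    (i : Fin 2) : |clp R a i - clp R b i| ≤ 4 * M := by
  have h := abs_cl_sub_le hR (h 0) (h 1)
  fin_cases i
  · exact h.1
  · exact h.2

/-! ### one template -/

/-- heights of the block seen from the reference site -/
def res (o : U) (h : U → ℝ) : I → ℝ := fun u => h u - h o

/-- unclipped centred field -/
def raw (L : Fin 2 → (U → ℝ) → U → ℝ) (ctr : Fin 2 → ℝ) (o : U)
    (D : Fin 2 → (I → ℝ) → (I → ℝ)) (h : U → ℝ) (w : I) (i : Fin 2) : ℝ :=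
  (L i h w - ctr i) + D i (res o h) w

/-- one template -/
def tpl (R : ℝ) (L : Fin 2 → (U → ℝ) → U → ℝ) (ctr : Fin 2 → ℝ) (o : U)
    (D : Fin 2 → (I → ℝ) → (I → ℝ)) (i : Fin 2) (h : U → ℝ) (w : I) : ℝ :=
  clp R (raw L ctr o D h w) i - (L i h w - ctr i)

theorem RefP.abs_le (H : RefP I W E o L ctr cL R ρ) (h : U → ℝ) {u : U} (hu : u ∈ I) (i : Fin 2) :
    |L i h u - ctr i| ≤ 2 * R := by
  have h := abs_le_of_N2 H.R0 (H.near h u hu)
  fin_cases i
  · exact h.1
  · exact h.2

theorem tmpl_tpl (H : RefP I W E o L ctr cL R ρ) {D : Fin 2 → (I → ℝ) → (I → ℝ)}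
    (hD : ∀ i, V0f I E C (D i)) : Tmpl I W C E (tpl R L ctr o D) (4 * R) where
  lip := by
    choose c hc using fun i => (hD i).lip
    set k : ℝ := cL + 2 * ((c 0 : ℝ) + c 1) with hk
    have hk0 : 0 ≤ k := by
      have h0 := (c 0).2
      have h1 := (c 1).2
      have := H.cL0
      positivity
    refine ⟨4 * k + cL, by have := H.cL0; linarith, fun i h h' M hM w => ?_⟩
    have hM0 : 0 ≤ M := (abs_nonneg _).trans (hM o H.oW)
    have hL : ∀ i, |L i h w - L i h' w| ≤ cL * M := fun i => H.lip i h h' M hM w w.2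
    have hraw : ∀ i, |raw L ctr o D h w i - raw L ctr o D h' w i| ≤ k * M := by
      intro i
      have h1 : dist (res o h : I → ℝ) (res o h') ≤ 2 * M := by
        rw [dist_pi_le_iff (by linarith)]
        intro u
        rw [Real.dist_eq]
        have e : res (I := I) o h u - res o h' u = (h u - h' u) - (h o - h' o) := by
          simp only [res]; ring
        rw [e]
        refine (abs_sub _ _).trans ?_
        linarith [hM u (H.IW u.2), hM o H.oW]
      have h2 : |D i (res o h) w - D i (res o h') w| ≤ c i * (2 * M) := by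
        rw [← Real.dist_eq]
        refine (dist_le_pi_dist _ _ w).trans (((hc i).dist_le_mul _ _).trans ?_)
        exact mul_le_mul_of_nonneg_left h1 (c i).2
      have h3 : (c i : ℝ) ≤ c 0 + c 1 := by
        have h0 := (c 0).2
        have h1 := (c 1).2
        fin_cases i
        · simp only [Fin.zero_eta]; exact le_add_of_nonneg_right h1
        · simp only [Fin.mk_one]; exact le_add_of_nonneg_left h0
      have e : raw L ctr o D h w i - raw L ctr o D h' w i =
          (L i h w - L i h' w) + (D i (res o h) w - D i (res o h') w) := by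
        simp only [raw]; ring
      rw [e]
      refine (abs_add_le _ _).trans ?_
      have h4 : (c i : ℝ) * (2 * M) ≤ (c 0 + c 1) * (2 * M) :=
        mul_le_mul_of_nonneg_right h3 (by linarith)
      rw [hk]
      linarith [hL i]
    have h5 := abs_clp_sub_le H.R0 hraw i
    have e : tpl R L ctr o D i h w - tpl R L ctr o D i h' w =
        (clp R (raw L ctr o D h w) i - clp R (raw L ctr o D h' w) i) - (L i h w - L i h' w) := by
      simp only [tpl]; ring
    rw [e]
    refine (abs_sub _ _).trans ?_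
    linarith [hL i]
  bd := fun i h w => by
    have h1 := abs_clp_le H.R0 (raw L ctr o D h w) i
    have h2 := H.abs_le h w.2 i
    refine (abs_sub _ _).trans ?_
    linarith
  core := fun i h w hw => by
    have e : ∀ i, raw L ctr o D h w i = L i h w - ctr i := fun i => by
      simp only [raw]; rw [(hD i).core _ w hw, add_zero]
    have h1 : N2 (raw L ctr o D h w 0) (raw L ctr o D h w 1) ≤ R ^ 2 := by
      rw [e, e]; exact H.near h w w.2
    unfold tpl
    rw [clp_eq H.R0 h1, e, sub_self]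
  sh := fun i h c w => by
    have e : res (I := I) o (fun v => h v + c) = res o h := by
      funext u; simp only [res]; ring
    unfold tpl raw
    simp only [H.sh, e]
  rig := by
    choose r hr0 hr using fun i => (hD i).rig
    refine ⟨min ρ (min (r 0) (r 1)), lt_min H.ρ0 (lt_min (hr0 0) (hr0 1)), ?_⟩
    intro i h hh a b hab hge
    have hi : Inn I ((a : U), (b : U)) := ⟨a.2, b.2⟩
    have e1 : ∀ p : U × U, Inn I p →
        ext I 0 (res o h : I → ℝ) p.1 - ext I 0 (res o h) p.2 = h p.1 - h p.2 := by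
      intro p hp
      rw [ext_mem hp.1, ext_mem hp.2]; simp only [res]; ring
    have m1 : min ρ (min (r 0) (r 1)) ≤ ρ := min_le_left _ _
    have hL : ∀ i, L i h a = L i h b := fun i => H.rig i h _ hab hi (by linarith)
    have hDe : ∀ i, D i (res o h) a = D i (res o h) b := by
      intro i
      have m2 : min ρ (min (r 0) (r 1)) ≤ r i := by
        refine (min_le_right _ _).trans ?_
        fin_cases i
        · exact min_le_left _ _
        · exact min_le_right _ _
      have h1 := hr i (res o h) (fun p hp hpi => by rw [e1 p hpi]; exact hh p hp hpi) _ hab hi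
        (by rw [e1 _ hi]; linarith)
      rw [ext_mem a.2, ext_mem b.2] at h1
      exact h1
    have hraw : raw L ctr o D h a = raw L ctr o D h b := by
      funext i; simp only [raw, hL i, hDe i]
    simp only [tpl, hraw, hL i]

/-! ### mixtures -/

/-- the data of the window seen from the reference site -/
def zt (I W : Finset U) (o : U) (h : U → ℝ) : ↥(W \ I) → ℝ := fun b => h b - h o

/-- mixture of templates -/
def mix (o : U) (N : ℕ) (χ : ℕ → (↥(W \ I) → ℝ) → ℝ) (T : ℕ → Fin 2 → (U → ℝ) → I → ℝ)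
    (i : Fin 2) (h : U → ℝ) (w : I) : ℝ :=
  ∑ j ∈ Finset.range N, χ j (zt I W o h) * T j i h w

theorem dist_zt_le (oW : o ∈ W) {h h' : U → ℝ} {M : ℝ} (hM : ∀ w ∈ W, |h w - h' w| ≤ M) :
    dist (zt I W o h) (zt I W o h') ≤ 2 * M := by
  have hM0 : 0 ≤ M := (abs_nonneg _).trans (hM o oW)
  rw [dist_pi_le_iff (by linarith)]
  intro u
  rw [Real.dist_eq]
  have e : zt I W o h u - zt I W o h' u = (h u - h' u) - (h o - h' o) := by
    simp only [zt]; ring
  rw [e]
  refine (abs_sub _ _).trans ?_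
  linarith [hM u (Finset.mem_sdiff.1 u.2).1, hM o oW]

theorem tmpl_mix (oW : o ∈ W) {K : ℝ} (hK : 0 ≤ K) {N : ℕ}
    {χ : ℕ → (↥(W \ I) → ℝ) → ℝ} {T : ℕ → Fin 2 → (U → ℝ) → I → ℝ}
    (hT : ∀ j, Tmpl I W C E (T j) K) (hχL : ∀ j, ∃ k : ℝ≥0, LipschitzWith k (χ j))
    (hχ0 : ∀ j x, 0 ≤ χ j x) (hχ1 : ∀ x, ∑ j ∈ Finset.range N, χ j x ≤ 1) :
    Tmpl I W C E (mix o N χ T) K where
  lip := by
    choose k hk using hχL
    choose c hc0 hc using fun j => (hT j).lip
    refine ⟨∑ j ∈ Finset.range N, (k j * 2 * K + c j),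
      Finset.sum_nonneg fun j _ => by have := hc0 j; positivity, fun i h h' M hM w => ?_⟩
    have hM0 : 0 ≤ M := (abs_nonneg _).trans (hM o oW)
    have h1 : ∀ j ∈ Finset.range N, |χ j (zt I W o h) * T j i h w - χ j (zt I W o h') * T j i h' w| ≤
        (k j * 2 * K + c j) * M := by
      intro j hj
      have h2 : |χ j (zt I W o h) - χ j (zt I W o h')| ≤ k j * (2 * M) := by
        rw [← Real.dist_eq]
        exact ((hk j).dist_le_mul _ _).trans
          (mul_le_mul_of_nonneg_left (dist_zt_le oW hM) (k j).2)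
      have h3 : |χ j (zt I W o h')| ≤ 1 := by
        rw [abs_of_nonneg (hχ0 j _)]
        exact (Finset.single_le_sum (f := fun j => χ j (zt I W o h')) (fun j _ => hχ0 j _) hj).trans
          (hχ1 _)
      have e : χ j (zt I W o h) * T j i h w - χ j (zt I W o h') * T j i h' w =
          (χ j (zt I W o h) - χ j (zt I W o h')) * T j i h w +
            χ j (zt I W o h') * (T j i h w - T j i h' w) := by ring
      rw [e]
      refine (abs_add_le _ _).trans ?_
      rw [abs_mul, abs_mul]
      have h4 := mul_le_mul h2 ((hT j).bd i h w) (abs_nonneg _) (by positivity)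
      have h5 := mul_le_mul h3 (hc j i h h' M hM w) (abs_nonneg _) zero_le_one
      calc _ ≤ k j * (2 * M) * K + 1 * (c j * M) := add_le_add h4 h5
        _ = (k j * 2 * K + c j) * M := by ring
    simp only [mix]
    rw [← Finset.sum_sub_distrib, Finset.sum_mul]
    exact (Finset.abs_sum_le_sum_abs _ _).trans (Finset.sum_le_sum h1)
  bd := fun i h w => by
    refine (Finset.abs_sum_le_sum_abs _ _).trans ?_
    calc ∑ j ∈ Finset.range N, |χ j (zt I W o h) * T j i h w|
        ≤ ∑ j ∈ Finset.range N, χ j (zt I W o h) * K := by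
          refine Finset.sum_le_sum fun j _ => ?_
          rw [abs_mul, abs_of_nonneg (hχ0 j _)]
          exact mul_le_mul_of_nonneg_left ((hT j).bd i h w) (hχ0 j _)
      _ = (∑ j ∈ Finset.range N, χ j (zt I W o h)) * K := by rw [Finset.sum_mul]
      _ ≤ 1 * K := mul_le_mul_of_nonneg_right (hχ1 _) hK
      _ = K := one_mul K
  core := fun i h w hw => by
    simp only [mix]
    exact Finset.sum_eq_zero fun j _ => by rw [(hT j).core i h w hw, mul_zero]
  sh := fun i h c w => by
    have e : zt I W o (fun v => h v + c) = zt I W o h := by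
      funext u; simp only [zt]; ring
    simp only [mix, e, (hT _).sh]
  rig := by
    choose r hr0 hr using fun j => (hT j).rig
    have h2 : ∃ δ > 0, ∀ p ∈ Finset.range N, δ ≤ r p := by
      generalize Finset.range N = s
      induction s using Finset.induction_on with
      | empty => exact ⟨1, one_pos, by simp⟩
      | insert a s _ ih =>
        obtain ⟨δ, hδ, h3⟩ := ih
        refine ⟨min δ (r a), lt_min hδ (hr0 a), fun p hp => ?_⟩
        rcases Finset.mem_insert.1 hp with rfl | hp
        · exact min_le_right _ _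
        · exact (min_le_left _ _).trans (h3 p hp)
    obtain ⟨δ, hδ, h3⟩ := h2
    refine ⟨δ, hδ, fun i h hh a b hab hge => ?_⟩
    simp only [mix]
    refine Finset.sum_congr rfl fun j hj => ?_
    rw [hr j i h hh a b hab (by linarith [h3 j hj])]

end Crest.Agent.R144.LoA770
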