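import Crest.Agent.R144.LoA4_770

/-!
R144 (S0197), helper770, LOWER side (probabilistic half), file 5:
**existence of near-optimal local templates** (`exists_tmpl`).
-/

set_option autoImplicit false
set_option linter.unusedSectionVars false
set_option maxHeartbeats 400000

open MeasureTheory Set Filter Topology Metric
open scoped ENNReal NNReal

noncomputable section

namespace Crest.Agent.R144.LoA770

open Crest.Agent.R144.Ham560 Crest.Agent.R144.BQ565
open Crest.Agent.R144.MW121 (jac jac_apply en measurable_jac measurable_en en_nonneg)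

section Gen

variable {V : Type*} [Fintype V] [DecidableEq V]

theorem abs_jac_le {Y : (V → ℝ) → (V → ℝ)} {k : ℝ≥0} (h : LipschitzWith k Y) (x : V → ℝ)
    (w v : V) : |jac Y x w v| ≤ k := by
  have h1 : ‖fderiv ℝ Y x‖ ≤ k := norm_fderiv_le_of_lipschitz ℝ h
  rw [jac_apply]
  have h2 : ‖fderiv ℝ Y x (Pi.single v 1)‖ ≤ k := by
    refine (ContinuousLinearMap.le_opNorm _ _).trans ?_
    rw [Pi.norm_single, norm_one, mul_one]; exact h1
  exact (norm_le_pi_norm (fderiv ℝ Y x (Pi.single v 1)) w).trans h2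

theorem measurable_enN (Y0 Y1 : (V → ℝ) → (V → ℝ)) : Measurable (enN Y0 Y1) := by
  unfold enN N2
  refine Finset.measurable_sum _ fun w _ => Finset.measurable_sum _ fun v _ => ?_
  exact (((measurable_jac Y0 w v).pow_const 2).add ((measurable_jac Y0 w v).mul
    (measurable_jac Y1 w v))).add ((measurable_jac Y1 w v).pow_const 2)

/-- uniform bound of the vector energy -/
theorem enN_le {Y0 Y1 : (V → ℝ) → (V → ℝ)} {k : ℝ≥0} (h0 : LipschitzWith k Y0)
    (h1 : LipschitzWith k Y1) (x : V → ℝ) :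
    enN Y0 Y1 x ≤ Fintype.card V * (Fintype.card V * (3 * (k : ℝ) ^ 2)) := by
  unfold enN
  calc ∑ w, ∑ v, N2 (jac Y0 x w v) (jac Y1 x w v) ≤ ∑ _w : V, ∑ _v : V, 3 * (k : ℝ) ^ 2 :=
        Finset.sum_le_sum fun w _ => Finset.sum_le_sum fun v _ =>
          N2_le _ _ (abs_jac_le h0 x w v) (abs_jac_le h1 x w v)
    _ = _ := by simp [Finset.sum_const, Finset.card_univ]

/-- the vector energy as a combination of three scalar energies -/
theorem enN_eq {Y0 Y1 : (V → ℝ) → (V → ℝ)} {x : V → ℝ} (h0 : DifferentiableAt ℝ Y0 x)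
    (h1 : DifferentiableAt ℝ Y1 x) : enN Y0 Y1 x = (en Y0 x + en Y1 x + en (Y0 + Y1) x) / 2 := by
  unfold enN
  simp only [MW121.en]
  rw [← Finset.sum_add_distrib, ← Finset.sum_add_distrib, Finset.sum_div]
  refine Finset.sum_congr rfl fun w _ => ?_
  rw [← Finset.sum_add_distrib, ← Finset.sum_add_distrib, Finset.sum_div]
  refine Finset.sum_congr rfl fun v _ => ?_
  rw [jac_add h0 h1, N2_eq]

theorem integral_enN {μ : Measure (V → ℝ)} (hμ : GoodLaw μ) {Y0 Y1 : (V → ℝ) → (V → ℝ)}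
    (h0 : LocallyLipschitz Y0) (h1 : LocallyLipschitz Y1) :
    ∫ x, enN Y0 Y1 x ∂μ = (∫ x, en Y0 x ∂μ + ∫ x, en Y1 x ∂μ + ∫ x, en (Y0 + Y1) x ∂μ) / 2 := by
  have i0 := hμ.integrable_en h0
  have i1 := hμ.integrable_en h1
  have i2 : Integrable (en (Y0 + Y1)) μ := hμ.integrable_en (show LocallyLipschitz (Y0 + Y1) from
    h0.add h1)
  have e1 : ∫ x, enN Y0 Y1 x ∂μ = ∫ x, (en Y0 x + en Y1 x + en (Y0 + Y1) x) / 2 ∂μ := by
    refine integral_congr_ae ?_
    filter_upwards [hμ.ae_diff h0, hμ.ae_diff h1] with x d0 d1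
    exact enN_eq d0 d1
  rw [e1, integral_div]
  have e2 : ∫ x, (en Y0 x + en Y1 x + en (Y0 + Y1) x) ∂μ =
      ∫ x, (en Y0 x + en Y1 x) ∂μ + ∫ x, en (Y0 + Y1) x ∂μ := integral_add (i0.add i1) i2
  rw [e2, integral_add i0 i1]

end Gen

variable {U : Type*} [DecidableEq U] {I W C : Finset U} {E : Finset (U × U)} {o : U}
  {L : Fin 2 → (U → ℝ) → U → ℝ} {ctr : Fin 2 → ℝ} {cL R ρ : ℝ}

/-- functions which are Lipschitz in a finite window are continuous -/
theorem continuous_of_win {f : (U → ℝ) → ℝ} {c : ℝ} (hc : 0 ≤ c)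
    (h : ∀ h h' (M : ℝ), (∀ w ∈ W, |h w - h' w| ≤ M) → |f h - f h'| ≤ c * M) : Continuous f := by
  rw [continuous_iff_continuousAt]
  intro h0
  rw [Metric.continuousAt_iff']
  intro ε hε
  have h1 : ∀ᶠ g in 𝓝 h0, ∀ w ∈ W, |g w - h0 w| < ε / (c + 1) := by
    rw [Filter.eventually_all_finset]
    intro w _
    have h2 : Tendsto (fun g : U → ℝ => |g w - h0 w|) (𝓝 h0) (𝓝 0) := by
      have : Continuous fun g : U → ℝ => |g w - h0 w| := by fun_prop
      have h3 := this.tendsto h0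
      simpa using h3
    exact h2.eventually (gt_mem_nhds (by positivity))
  filter_upwards [h1] with g hg
  rw [Real.dist_eq]
  refine (h g h0 _ fun w hw => (hg w hw).le).trans_lt ?_
  rw [mul_div_assoc', div_lt_iff₀ (by positivity)]
  nlinarith

/-- freezing the outside -/
theorem abs_ext_sub_ext_le (h : U → ℝ) (x y : I → ℝ) (u : U) :
    |ext I h x u - ext I h y u| ≤ dist x y := abs_ext_sub_le x y u

theorem ext_ext (h : U → ℝ) (x y : I → ℝ) : ext I (ext I h x) y = ext I h y := by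
  funext u
  by_cases hu : u ∈ I
  · rw [ext_mem hu, ext_mem hu]
  · rw [ext_notMem hu, ext_notMem hu, ext_notMem hu]

/-- field of a template (or of any local field) on a fibre -/
def fib (I : Finset U) (T : Fin 2 → (U → ℝ) → I → ℝ) (h : U → ℝ) (i : Fin 2) :
    (I → ℝ) → (I → ℝ) := fun x w => T i (ext I h x) w

/-- the reference fields restricted to the block -/
def rL (I : Finset U) (L : Fin 2 → (U → ℝ) → U → ℝ) : Fin 2 → (U → ℝ) → I → ℝ :=
  fun i h w => L i h w

theorem lip_fib {T : Fin 2 → (U → ℝ) → I → ℝ} {c : ℝ} (hc : 0 ≤ c)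
    (h : ∀ i h h' (M : ℝ), (∀ w ∈ W, |h w - h' w| ≤ M) → ∀ w : I, |T i h w - T i h' w| ≤ c * M)
    (g : U → ℝ) (i : Fin 2) : LipschitzWith ⟨c, hc⟩ (fib I T g i) := by
  refine LipschitzWith.of_dist_le_mul fun x y => ?_
  change dist _ _ ≤ c * dist x y
  rw [dist_pi_le_iff (mul_nonneg hc dist_nonneg)]
  intro w
  rw [Real.dist_eq]
  exact h i _ _ _ (fun u _ => abs_ext_sub_ext_le g x y u) w

theorem RefP.lip' (H : RefP I W E o L ctr cL R ρ) : ∀ i h h' (M : ℝ),
    (∀ w ∈ W, |h w - h' w| ≤ M) → ∀ w : I, |rL I L i h w - rL I L i h' w| ≤ cL * M :=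
  fun i h h' M hM w => H.lip i h h' M hM w w.2

/-- total field on the block -/
def tot (L : Fin 2 → (U → ℝ) → U → ℝ) (T : Fin 2 → (U → ℝ) → I → ℝ) :
    Fin 2 → (U → ℝ) → I → ℝ := fun i h w => L i h w + T i h w

/-- local vector energy of the total field -/
def eN (L : Fin 2 → (U → ℝ) → U → ℝ) (T : Fin 2 → (U → ℝ) → I → ℝ) (h : U → ℝ) : ℝ :=
  enN (fib I (tot L T) h 0) (fib I (tot L T) h 1) fun u => h u

theorem eN_nonneg (T : Fin 2 → (U → ℝ) → I → ℝ) (h : U → ℝ) : 0 ≤ eN L T h := enN_nonneg _ _ _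

theorem fib_ext (T : Fin 2 → (U → ℝ) → I → ℝ) (h : U → ℝ) (x : I → ℝ) (i : Fin 2) :
    fib I T (ext I h x) i = fib I T h i := by
  funext y w; simp only [fib, ext_ext]

theorem eN_ext (T : Fin 2 → (U → ℝ) → I → ℝ) (h : U → ℝ) (x : I → ℝ) :
    eN L T (ext I h x) = enN (fib I (tot L T) h 0) (fib I (tot L T) h 1) x := by
  have e : (fun u : I => ext I h x u) = x := by funext u; exact ext_mem u.2 x
  unfold eN
  rw [fib_ext, fib_ext, e]

theorem lip_tot (H : RefP I W E o L ctr cL R ρ) {T : Fin 2 → (U → ℝ) → I → ℝ} {cT : ℝ}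
    (hT : ∀ i h h' (M : ℝ), (∀ w ∈ W, |h w - h' w| ≤ M) → ∀ w : I, |T i h w - T i h' w| ≤ cT * M) :
    ∀ i h h' (M : ℝ), (∀ w ∈ W, |h w - h' w| ≤ M) → ∀ w : I,
      |tot L T i h w - tot L T i h' w| ≤ (cL + cT) * M := by
  intro i h h' M hM w
  have e : tot L T i h w - tot L T i h' w = (L i h w - L i h' w) + (T i h w - T i h' w) := by
    simp only [tot]; ring
  rw [e]
  refine (abs_add_le _ _).trans ?_
  have h1 := H.lip i h h' M hM w w.2
  have h2 := hT i h h' M hM w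
  linarith

/-- joint measurability of the vector energy with parameters -/
theorem measurable_enN_param [Countable U] {g0 g1 : (U → ℝ) → (I → ℝ) → (I → ℝ)}
    (h0 : Continuous (Function.uncurry g0)) (h1 : Continuous (Function.uncurry g1)) :
    Measurable fun p : (U → ℝ) × (I → ℝ) => enN (g0 p.1) (g1 p.1) p.2 := by
  have m0 : Measurable fun p : (U → ℝ) × (I → ℝ) => fderiv ℝ (g0 p.1) p.2 :=
    measurable_fderiv_with_param ℝ h0
  have m1 : Measurable fun p : (U → ℝ) × (I → ℝ) => fderiv ℝ (g1 p.1) p.2 :=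
    measurable_fderiv_with_param ℝ h1
  unfold enN N2
  refine Finset.measurable_sum _ fun u _ => Finset.measurable_sum _ fun v _ => ?_
  simp only [jac_apply]
  have k0 : Measurable fun p : (U → ℝ) × (I → ℝ) => (fderiv ℝ (g0 p.1) p.2) (Pi.single v 1) u :=
    (measurable_pi_apply u).comp (m0.apply_continuousLinearMap _)
  have k1 : Measurable fun p : (U → ℝ) × (I → ℝ) => (fderiv ℝ (g1 p.1) p.2) (Pi.single v 1) u :=
    (measurable_pi_apply u).comp (m1.apply_continuousLinearMap _)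
  exact ((k0.pow_const 2).add (k0.mul k1)).add (k1.pow_const 2)

theorem continuous_fib_uncurry {T : Fin 2 → (U → ℝ) → I → ℝ} {c : ℝ} (hc : 0 ≤ c)
    (h : ∀ i h h' (M : ℝ), (∀ w ∈ W, |h w - h' w| ≤ M) → ∀ w : I, |T i h w - T i h' w| ≤ c * M)
    (i : Fin 2) : Continuous (Function.uncurry fun g : U → ℝ => fib I T g i) := by
  refine continuous_pi fun w => ?_
  have h1 : Continuous fun g : U → ℝ => T i g w :=
    continuous_of_win (W := W) hc fun g g' M hM => h i g g' M hM w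
  exact h1.comp continuous_ext_pi

/-- the local energy is Borel -/
theorem measurable_eN [Countable U] (H : RefP I W E o L ctr cL R ρ)
    {T : Fin 2 → (U → ℝ) → I → ℝ} {K : ℝ} (hT : Tmpl I W C E T K) : Measurable (eN L T) := by
  obtain ⟨cT, hcT, hl⟩ := hT.lip
  have h0 : 0 ≤ cL + cT := add_nonneg H.cL0 hcT
  have c0 := continuous_fib_uncurry h0 (lip_tot H hl) 0
  have c1 := continuous_fib_uncurry h0 (lip_tot H hl) 1
  have h1 : Measurable fun p : (U → ℝ) × (I → ℝ) =>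
      enN (fib I (tot L T) p.1 0) (fib I (tot L T) p.1 1) p.2 :=
    measurable_enN_param (g0 := fun h => fib I (tot L T) h 0) (g1 := fun h => fib I (tot L T) h 1)
      c0 c1
  have h2 : Measurable fun h : U → ℝ => ((h, fun u : I => h u) : (U → ℝ) × (I → ℝ)) :=
    measurable_id.prodMk (measurable_pi_lambda _ fun u => measurable_pi_apply _)
  have h3 : eN L T = (fun p : (U → ℝ) × (I → ℝ) =>
      enN (fib I (tot L T) p.1 0) (fib I (tot L T) p.1 1) p.2) ∘
      fun h : U → ℝ => ((h, fun u : I => h u) : (U → ℝ) × (I → ℝ)) := rfl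
  rw [h3]
  exact h1.comp h2

theorem eN_bdd (H : RefP I W E o L ctr cL R ρ)
    {T : Fin 2 → (U → ℝ) → I → ℝ} {K : ℝ} (hT : Tmpl I W C E T K) :
    ∃ B, ∀ h, |eN L T h| ≤ B := by
  obtain ⟨cT, hcT, hl⟩ := hT.lip
  have h0 : 0 ≤ cL + cT := add_nonneg H.cL0 hcT
  refine ⟨Fintype.card I * (Fintype.card I * (3 * (cL + cT) ^ 2)), fun h => ?_⟩
  rw [abs_of_nonneg (eN_nonneg _ _)]
  exact enN_le (lip_fib h0 (lip_tot H hl) h 0) (lip_fib h0 (lip_tot H hl) h 1) _

theorem fib_tot_congr (H : RefP I W E o L ctr cL R ρ)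
    {T : Fin 2 → (U → ℝ) → I → ℝ} {K : ℝ} (hT : Tmpl I W C E T K) {h h' : U → ℝ}
    (hh : ∀ w ∈ W, w ∉ I → h w = h' w) (i : Fin 2) :
    fib I (tot L T) h i = fib I (tot L T) h' i := by
  obtain ⟨cT, hcT, hl⟩ := hT.lip
  funext x w
  have h1 := lip_tot H hl i (ext I h x) (ext I h' x) 0 (fun u hu => by
    by_cases hI : u ∈ I
    · rw [ext_mem hI, ext_mem hI]; simp
    · rw [ext_notMem hI, ext_notMem hI, hh u hu hI]; simp) w
  rw [mul_zero] at h1
  have := abs_nonpos_iff.1 h1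
  simp only [fib]
  linarith

theorem eN_congr (H : RefP I W E o L ctr cL R ρ)
    {T : Fin 2 → (U → ℝ) → I → ℝ} {K : ℝ} (hT : Tmpl I W C E T K) {h h' : U → ℝ}
    (hh : ∀ w ∈ W, h w = h' w) : eN L T h = eN L T h' := by
  unfold eN
  rw [fib_tot_congr H hT (fun w hw _ => hh w hw) 0, fib_tot_congr H hT (fun w hw _ => hh w hw) 1]
  congr 1
  funext u
  exact hh u (H.IW u.2)

theorem eN_shift (H : RefP I W E o L ctr cL R ρ)
    {T : Fin 2 → (U → ℝ) → I → ℝ} {K : ℝ} (hT : Tmpl I W C E T K) (h : U → ℝ) (c : ℝ) :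
    eN L T (fun v => h v + c) = eN L T h := by
  have e : ∀ i, (fib I (tot L T) h i) =
      fun x => fib I (tot L T) (fun v => h v + c) i (fun v => x v + c) := by
    intro i
    funext x w
    have e1 : ext I (fun v => h v + c) (fun v => x v + c) = fun u => ext I h x u + c := by
      funext v; exact ext_shift x c v
    simp only [fib, tot, e1, H.sh, hT.sh]
  have key : ∀ (Y : (I → ℝ) → (I → ℝ)) (x : I → ℝ) (u v : I),
      jac (fun x => Y (fun v => x v + c)) x u v = jac Y (fun v => x v + c) u v := by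
    intro Y x u v
    have e : (fun x : I → ℝ => Y (fun v => x v + c)) = fun x => Y (x + fun _ => c) := rfl
    have e2 : ∀ x : I → ℝ, (fun v => x v + c) = x + fun _ => c := fun _ => rfl
    simp only [jac_apply]
    rw [e, fderiv_comp_add_right, e2]
  unfold eN
  rw [e 0, e 1]
  unfold enN
  simp only [key]

/-! ### energies of the unclipped fields -/

/-- unclipped field on a fibre with normalised data -/
def uf (L : Fin 2 → (U → ℝ) → U → ℝ) (D : Fin 2 → (I → ℝ) → (I → ℝ)) (ζ : U → ℝ) (i : Fin 2) :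
    (I → ℝ) → (I → ℝ) := fun x w => L i (ext I ζ x) w + D i x w

/-- its mean vector energy -/
def eD (E : Finset (U × U)) (L : Fin 2 → (U → ℝ) → U → ℝ) (D : Fin 2 → (I → ℝ) → (I → ℝ))
    (ζ : U → ℝ) : ℝ := ∫ x, enN (uf L D ζ 0) (uf L D ζ 1) x ∂(hamP I E ζ)

theorem eD_nonneg (D : Fin 2 → (I → ℝ) → (I → ℝ)) (ζ : U → ℝ) : 0 ≤ eD E L D ζ :=
  integral_nonneg fun x => enN_nonneg _ _ _

theorem lip_uf (H : RefP I W E o L ctr cL R ρ) {D : Fin 2 → (I → ℝ) → (I → ℝ)}
    (hD : ∀ i, V0f I E C (D i)) : ∃ k : ℝ≥0, ∀ ζ i, LipschitzWith k (uf L D ζ i) := by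
  choose c hc using fun i => (hD i).lip
  refine ⟨⟨cL, H.cL0⟩ + (c 0 + c 1), fun ζ i => ?_⟩
  have h1 : LipschitzWith ⟨cL, H.cL0⟩ (fib I (rL I L) ζ i) := lip_fib H.cL0 H.lip' ζ i
  have h2 : LipschitzWith (c 0 + c 1) (D i) := by
    refine (hc i).weaken ?_
    fin_cases i
    · exact le_add_of_nonneg_right (c 1).2
    · exact le_add_of_nonneg_left (c 0).2
  have h3 : uf L D ζ i = fun x => fib I (rL I L) ζ i x + D i x := rfl
  rw [h3]
  exact h1.add h2

theorem measurable_eD [Countable U] (H : RefP I W E o L ctr cL R ρ)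
    {D : Fin 2 → (I → ℝ) → (I → ℝ)} (hD : ∀ i, V0f I E C (D i)) : Measurable (eD E L D) := by
  have hc : ∀ i, Continuous (Function.uncurry fun ζ : U → ℝ => uf L D ζ i) := by
    intro i
    refine continuous_pi fun w => ?_
    have h1 : Continuous fun g : U → ℝ => L i g w :=
      continuous_of_win (W := W) H.cL0 fun g g' M hM => H.lip i g g' M hM w w.2
    have h2 : Continuous fun p : (U → ℝ) × (I → ℝ) => L i (ext I p.1 p.2) w :=
      h1.comp continuous_ext_pi
    have h3 : Continuous fun p : (U → ℝ) × (I → ℝ) => D i p.2 w := by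
      have h4 : Continuous fun x : I → ℝ => D i x w :=
        (continuous_apply w).comp (hD i).ll.continuous
      exact h4.comp continuous_snd
    exact h2.add h3
  have h1 : Measurable fun p : (U → ℝ) × (I → ℝ) => enN (uf L D p.1 0) (uf L D p.1 1) p.2 :=
    measurable_enN_param (g0 := fun ζ => uf L D ζ 0) (g1 := fun ζ => uf L D ζ 1) (hc 0) (hc 1)
  have h2 : Measurable (Function.uncurry fun (ζ : U → ℝ) (x : I → ℝ) =>
      enN (uf L D ζ 0) (uf L D ζ 1) x) := h1
  exact measurable_mean_param h2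

theorem hamP_mass_le (hA : Anch I E) (ζ : U → ℝ) : (hamP I E ζ) Set.univ ≤ 1 := by
  rw [hamP, Measure.smul_apply, Measure.restrict_apply_univ, smul_eq_mul]
  exact ENNReal.inv_mul_le_one _

theorem eD_bdd (H : RefP I W E o L ctr cL R ρ) (hA : Anch I E)
    {D : Fin 2 → (I → ℝ) → (I → ℝ)} (hD : ∀ i, V0f I E C (D i)) :
    ∃ B, 0 ≤ B ∧ ∀ ζ, eD E L D ζ ≤ B := by
  obtain ⟨k, hk⟩ := lip_uf H hD
  set B : ℝ := Fintype.card I * (Fintype.card I * (3 * (k : ℝ) ^ 2)) with hB
  have hB0 : 0 ≤ B := by positivity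
  refine ⟨B, hB0, fun ζ => ?_⟩
  have hfin := (goodLaw_hamP' hA ζ).fin
  have h1 : eD E L D ζ ≤ ∫ _x, B ∂(hamP I E ζ) := by
    refine integral_mono_of_nonneg (ae_of_all _ fun x => enN_nonneg _ _ _) (integrable_const _)
      (ae_of_all _ fun x => enN_le (hk ζ 0) (hk ζ 1) x)
  rw [integral_const, smul_eq_mul] at h1
  refine h1.trans ?_
  have h2 : (hamP I E ζ).real Set.univ ≤ 1 := by
    have := ENNReal.toReal_mono ENNReal.one_ne_top (hamP_mass_le hA ζ)
    simpa [Measure.real] using this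
  nlinarith

theorem eD_congr (H : RefP I W E o L ctr cL R ρ) (D : Fin 2 → (I → ℝ) → (I → ℝ))
    {ζ ζ' : U → ℝ} (h : ∀ w ∈ W, w ∉ I → ζ w = ζ' w) : eD E L D ζ = eD E L D ζ' := by
  have h1 : ham I E ζ = ham I E ζ' := ham_congr' fun b hb hE => by
    obtain ⟨p, hp, hpb⟩ := hE
    have h2 := H.ends p hp
    rcases hpb with rfl | rfl
    · exact h _ h2.1 hb
    · exact h _ h2.2 hb
  have h2 : hamP I E ζ = hamP I E ζ' := by unfold hamP; rw [h1]
  have h3 : ∀ i, uf L D ζ i = uf L D ζ' i := by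
    intro i
    funext x w
    have h4 := H.lip i (ext I ζ x) (ext I ζ' x) 0 (fun u hu => by
      by_cases hI : u ∈ I
      · rw [ext_mem hI, ext_mem hI]; simp
      · rw [ext_notMem hI, ext_notMem hI, h u hu hI]; simp) w w.2
    rw [mul_zero] at h4
    have := abs_nonpos_iff.1 h4
    simp only [uf]
    linarith
  unfold eD
  rw [h2, h3, h3]

theorem integral_hamP_shift (f : (I → ℝ) → ℝ) (ζ : U → ℝ) (c : ℝ) :
    ∫ x, f x ∂(hamP I E fun u => ζ u + c) = ∫ x, f (fun v => x v + c) ∂(hamP I E ζ) := by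
  rw [integral_hamP_real, integral_hamP_real, setIntegral_shift]
  congr 1
  exact Vr_shift' c

/-- the unclipped field with the reference site subtracted -/
def us (L : Fin 2 → (U → ℝ) → U → ℝ) (o : U) (D : Fin 2 → (I → ℝ) → (I → ℝ)) (h : U → ℝ)
    (i : Fin 2) : (I → ℝ) → (I → ℝ) :=
  fun x w => L i (ext I h x) w + D i (res o (ext I h x)) w

theorem integral_us (H : RefP I W E o L ctr cL R ρ) (D : Fin 2 → (I → ℝ) → (I → ℝ)) (h : U → ℝ) :
    ∫ x, enN (us L o D h 0) (us L o D h 1) x ∂(hamP I E h) =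
      eD E L D (fun u => h u - h o) := by
  have e0 : h = fun u => (fun u => h u - h o) u + h o := by funext u; simp
  have key : ∀ (Y : (I → ℝ) → (I → ℝ)) (c : ℝ) (x : I → ℝ) (u v : I),
      jac (fun x => Y (fun v => x v + c)) x u v = jac Y (fun v => x v + c) u v := by
    intro Y c x u v
    have e : (fun x : I → ℝ => Y (fun v => x v + c)) = fun x => Y (x + fun _ => c) := rfl
    have e2 : ∀ x : I → ℝ, (fun v => x v + c) = x + fun _ => c := fun _ => rfl
    simp only [jac_apply]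
    rw [e, fderiv_comp_add_right, e2]
  have e1 : ∀ i, (uf L D (fun u => h u - h o) i) =
      fun x => us L o D h i (fun v => x v + h o) := by
    intro i
    funext x w
    have e2 : ext I h (fun v => x v + h o) = fun u => ext I (fun u => h u - h o) x u + h o := by
      funext u
      by_cases hu : u ∈ I
      · rw [ext_mem hu, ext_mem hu]
      · rw [ext_notMem hu, ext_notMem hu]; ring
    have e3 : (res o (ext I h (fun v => x v + h o)) : I → ℝ) = x := by
      funext u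
      simp only [res]
      rw [ext_mem u.2, ext_notMem H.oI]
      ring
    simp only [us, uf]
    rw [e3, e2, H.sh]
  conv_lhs => rw [show hamP I E h = hamP I E (fun u => (fun u => h u - h o) u + h o) by rw [← e0]]
  rw [integral_hamP_shift]
  unfold eD
  refine integral_congr_ae (ae_of_all _ fun x => ?_)
  simp only
  rw [e1 0, e1 1]
  unfold enN
  simp only [key]

/-- extension of window data by `0` -/
def et (I W : Finset U) (z : ↥(W \ I) → ℝ) (u : U) : ℝ :=
  if h : u ∈ W \ I then z ⟨u, h⟩ else 0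

theorem continuous_et : Continuous (et I W) := by
  refine continuous_pi fun u => ?_
  by_cases h : u ∈ W \ I
  · simp only [et, dif_pos h]; exact continuous_apply _
  · simp only [et, dif_neg h]; exact continuous_const

theorem et_zt (h : U → ℝ) {w : U} (hw : w ∈ W) (hI : w ∉ I) :
    et I W (zt I W o h) w = h w - h o := by
  have : w ∈ W \ I := Finset.mem_sdiff.2 ⟨hw, hI⟩
  simp only [et, dif_pos this, zt]

theorem eD_zt (H : RefP I W E o L ctr cL R ρ) (D : Fin 2 → (I → ℝ) → (I → ℝ)) (h : U → ℝ) :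
    eD E L D (fun u => h u - h o) = eD E L D (et I W (zt I W o h)) :=
  eD_congr H D fun w hw hI => (et_zt h hw hI).symm

/-! ### the block matrix -/

variable {hA : Anch I E} {hZ : RefF I L}

theorem bb_congr_data (H : RefP I W E o L ctr cL R ρ) {ζ ζ' : U → ℝ}
    (h : ∀ w ∈ W, w ∉ I → ζ w = ζ' w) (xi : Fin 2 → ℝ) :
    bb C hA hZ ζ xi = bb C hA hZ ζ' xi := by
  have h1 : ham I E ζ = ham I E ζ' := ham_congr' fun b hb hE => by
    obtain ⟨p, hp, hpb⟩ := hE
    have h2 := H.ends p hp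
    rcases hpb with rfl | rfl
    · exact h _ h2.1 hb
    · exact h _ h2.2 hb
  have h2 : hamP I E ζ = hamP I E ζ' := by unfold hamP; rw [h1]
  have h3 : refL hZ ζ = refL hZ ζ' := by
    funext i
    refine Subtype.ext ?_
    funext x w
    have h4 := H.lip i (ext I ζ x) (ext I ζ' x) 0 (fun u hu => by
      by_cases hI : u ∈ I
      · rw [ext_mem hI, ext_mem hI]; simp
      · rw [ext_notMem hI, ext_notMem hI, h u hu hI]; simp) w w.2
    rw [mul_zero] at h4
    have := abs_nonpos_iff.1 h4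
    change L i (ext I ζ x) w = L i (ext I ζ' x) w
    linarith
  unfold bb
  refine le_antisymm (le_bT fun Y hY => ?_) (le_bT fun Y hY => ?_)
  · have := bT_le (ζ := ζ) (L := refL hZ ζ) (xi := xi) hA hY
    exact this.trans_eq (by rw [h2, h3])
  · have := bT_le (ζ := ζ') (L := refL hZ ζ') (xi := xi) hA hY
    exact this.trans_eq (by rw [h2, h3])

/-- Euclidean trace of the block matrix -/
def tr3 (hA : Anch I E) (hZ : RefF I L) (C : Finset U) (ζ : U → ℝ) : ℝ :=
  (bb C hA hZ ζ (Pi.single 0 1) + bb C hA hZ ζ (Pi.single 1 1) +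
    bb C hA hZ ζ (Pi.single 0 1 + Pi.single 1 1)) / 2

theorem tr3_nonneg (ζ : U → ℝ) : 0 ≤ tr3 hA hZ C ζ := by
  unfold tr3
  have h0 := bT_nonneg (C := C) (ζ := ζ) (L := refL hZ ζ) (xi := Pi.single 0 1) hA
  have h1 := bT_nonneg (C := C) (ζ := ζ) (L := refL hZ ζ) (xi := Pi.single 1 1) hA
  have h2 := bT_nonneg (C := C) (ζ := ζ) (L := refL hZ ζ) (xi := Pi.single 0 1 + Pi.single 1 1) hA
  unfold bb
  linarith

theorem tr3_eq (ζ : U → ℝ) : tr3 hA hZ C ζ =
    bbm C hA hZ ζ 0 0 + bbm C hA hZ ζ 0 1 + bbm C hA hZ ζ 1 1 := by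
  have hs : bbm C hA hZ ζ 1 0 = bbm C hA hZ ζ 0 1 := by
    have := bTm_symm (C := C) (ζ := ζ) (L := refL hZ ζ) hA
    exact this.apply 0 1
  have e : ∀ xi : Fin 2 → ℝ, bb C hA hZ ζ xi = xi 0 * xi 0 * bbm C hA hZ ζ 0 0 +
      xi 0 * xi 1 * bbm C hA hZ ζ 0 1 + (xi 1 * xi 0 * bbm C hA hZ ζ 0 1 +
      xi 1 * xi 1 * bbm C hA hZ ζ 1 1) := by
    intro xi
    have := bT_quad (C := C) (ζ := ζ) (L := refL hZ ζ) (xi := xi) hA
    change bb C hA hZ ζ xi = ∑ i, ∑ j, xi i * xi j * bbm C hA hZ ζ i j at this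
    rw [this, Fin.sum_univ_two, Fin.sum_univ_two, Fin.sum_univ_two, hs]
  unfold tr3
  rw [e, e, e]
  simp
  ring

theorem measurable_tr3 [Countable U] : Measurable (tr3 hA hZ C) :=
  (((measurable_bb hA hZ _).add (measurable_bb hA hZ _)).add (measurable_bb hA hZ _)).div_const 2

theorem tr3_shift (H : RefP I W E o L ctr cL R ρ) (ζ : U → ℝ) (c : ℝ) :
    tr3 hA hZ C (fun u => ζ u + c) = tr3 hA hZ C ζ := by
  unfold tr3
  rw [bb_shift hA hZ H.sh, bb_shift hA hZ H.sh, bb_shift hA hZ H.sh]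

theorem tr3_zt (H : RefP I W E o L ctr cL R ρ) (h : U → ℝ) :
    tr3 hA hZ C (et I W (zt I W o h)) = tr3 hA hZ C h := by
  have h1 : tr3 hA hZ C (et I W (zt I W o h)) = tr3 hA hZ C (fun u => h u - h o) := by
    unfold tr3
    rw [bb_congr_data H (fun w hw hI => et_zt h hw hI), bb_congr_data H (fun w hw hI => et_zt h hw hI),
      bb_congr_data H (fun w hw hI => et_zt h hw hI)]
  rw [h1]
  have h2 := tr3_shift (hA := hA) (hZ := hZ) (C := C) H (fun u => h u - h o) (h o)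
  rw [← h2]
  congr 1
  funext u; ring

/-- the energies of `V₀` perturbations in terms of the linear combinations of 565 -/
theorem eD_eq (H : RefP I W E o L ctr cL R ρ) (hA : Anch I E) (hZ : RefF I L)
    {D : Fin 2 → (I → ℝ) → (I → ℝ)} (hD : ∀ i, V0f I E C (D i)) (ζ : U → ℝ) :
    eD E L D ζ = (∫ x, en (∑ i, (Pi.single 0 1 : Fin 2 → ℝ) i • ((refL hZ ζ i).1 + D i)) x ∂(hamP I E ζ) +
      ∫ x, en (∑ i, (Pi.single 1 1 : Fin 2 → ℝ) i • ((refL hZ ζ i).1 + D i)) x ∂(hamP I E ζ) +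
      ∫ x, en (∑ i, (Pi.single 0 1 + Pi.single 1 1 : Fin 2 → ℝ) i • ((refL hZ ζ i).1 + D i)) x
        ∂(hamP I E ζ)) / 2 := by
  obtain ⟨k, hk⟩ := lip_uf H hD
  have h := integral_enN (goodLaw_hamP' hA ζ) (hk ζ 0).locallyLipschitz (hk ζ 1).locallyLipschitz
  unfold eD
  rw [h]
  have e0 : (∑ i, (Pi.single 0 1 : Fin 2 → ℝ) i • ((refL hZ ζ i).1 + D i)) = uf L D ζ 0 := by
    rw [Fin.sum_univ_two]
    simp only [Pi.single_eq_same, one_smul]
    rw [Pi.single_eq_of_ne (by decide), zero_smul, add_zero]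
    rfl
  have e1 : (∑ i, (Pi.single 1 1 : Fin 2 → ℝ) i • ((refL hZ ζ i).1 + D i)) = uf L D ζ 1 := by
    rw [Fin.sum_univ_two]
    simp only [Pi.single_eq_same, one_smul]
    rw [Pi.single_eq_of_ne (by decide), zero_smul, zero_add]
    rfl
  have e2 : (∑ i, (Pi.single 0 1 + Pi.single 1 1 : Fin 2 → ℝ) i • ((refL hZ ζ i).1 + D i)) =
      uf L D ζ 0 + uf L D ζ 1 := by
    rw [Fin.sum_univ_two]
    simp only [Pi.add_apply, Pi.single_eq_same]
    rw [Pi.single_eq_of_ne (by decide : (0 : Fin 2) ≠ 1), Pi.single_eq_of_ne (by decide : (1 : Fin 2) ≠ 0)]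
    simp only [add_zero, zero_add, one_smul]
    rfl
  rw [e0, e1, e2]

theorem tr3_le_ref (H : RefP I W E o L ctr cL R ρ) (ζ : U → ℝ) :
    tr3 hA hZ C ζ ≤ eD E L (0 : Fin 2 → (I → ℝ) → (I → ℝ)) ζ := by
  have h0 : ∀ i : Fin 2, V0f I E C ((0 : Fin 2 → (I → ℝ) → (I → ℝ)) i) := fun i => V0f.zero
  rw [eD_eq H hA hZ h0]
  have key : ∀ xi : Fin 2 → ℝ, bb C hA hZ ζ xi ≤
      ∫ x, en (∑ i, xi i • ((refL hZ ζ i).1 + (0 : Fin 2 → (I → ℝ) → (I → ℝ)) i)) x ∂(hamP I E ζ) := by
    intro xi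
    have h1 := bT_le_ref (C := C) (ζ := ζ) (L := refL hZ ζ) (xi := xi) hA
    rw [coe_cmb] at h1
    simp only [Pi.zero_apply, add_zero]
    exact h1
  unfold tr3
  have a := key (Pi.single 0 1)
  have b := key (Pi.single 1 1)
  have c := key (Pi.single 0 1 + Pi.single 1 1)
  linarith

end Crest.Agent.R144.LoA770
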