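import Crest.Agent.R144.LoA5_770

/-!
R144 (S0197), helper770, LOWER side (probabilistic half), file 6:
**existence of near-optimal local templates** (`exists_tmpl`).
-/

set_option autoImplicit false
set_option linter.unusedSectionVars false
set_option maxHeartbeats 400000

open MeasureTheory Set Filter Topology Metric
open scoped ENNReal NNReal

noncomputable section

namespace Crest.Agent.R144.LoA770

open Crest.Agent.R144.Ham560 Crest.Agent.R144.BQ565
open Crest.Agent.R144.MW121 (jac jac_apply en measurable_jac measurable_en en_nonneg)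

section Gen

variable {V : Type*} [Fintype V] [DecidableEq V]

theorem jac_add_sum {Y : (V → ℝ) → (V → ℝ)} {Z : ℕ → (V → ℝ) → (V → ℝ)} {x : V → ℝ}
    (hY : DifferentiableAt ℝ Y x) (hZ : ∀ j, DifferentiableAt ℝ (Z j) x) (N : ℕ) (c : ℕ → ℝ)
    (w v : V) : jac (Y + ∑ j ∈ Finset.range N, c j • Z j) x w v =
      jac Y x w v + ∑ j ∈ Finset.range N, c j * jac (Z j) x w v := by
  have hd : ∀ n, DifferentiableAt ℝ (∑ j ∈ Finset.range n, c j • Z j) x := by
    intro n
    induction n with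
    | zero => simpa using differentiableAt_const (𝕜 := ℝ) (0 : V → ℝ)
    | succ n ih =>
      rw [Finset.sum_range_succ]
      exact ih.add ((hZ n).const_smul (c n))
  rw [jac_add hY (hd N)]
  congr 1
  induction N with
  | zero =>
    simp only [Finset.range_zero, Finset.sum_empty]
    rw [jac_apply]
    have : fderiv ℝ (0 : (V → ℝ) → (V → ℝ)) x = 0 := fderiv_const_apply (0 : V → ℝ)
    rw [this]; rfl
  | succ n ih =>
    rw [Finset.sum_range_succ, Finset.sum_range_succ, jac_add (hd n) ((hZ n).const_smul (c n)),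
      jac_smul' (hZ n), ih]

end Gen

variable {U : Type*} [DecidableEq U] {I W C : Finset U} {E : Finset (U × U)} {o : U}
  {L : Fin 2 → (U → ℝ) → U → ℝ} {ctr : Fin 2 → ℝ} {cL R ρ : ℝ}

/-- one sequence of `V₀` pairs, near-optimal for the Euclidean trace for all data -/
theorem near_min (H : RefP I W E o L ctr cL R ρ) (hA : Anch I E) (hZ : RefF I L) :
    ∃ D : ℕ → Fin 2 → (I → ℝ) → (I → ℝ), (∀ n i, V0f I E C (D n i)) ∧
      ∀ ζ : U → ℝ, ∀ η > 0, ∃ n, eD E L (D n) ζ ≤ tr3 hA hZ C ζ + η := by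
  obtain ⟨D, hD, h⟩ := exists_seq_bT I E C (Fin 2)
  refine ⟨D, hD, fun ζ η hη => ?_⟩
  obtain ⟨n, hn⟩ := h hA ζ (refL hZ ζ) (η / 3) (by positivity)
  refine ⟨n, ?_⟩
  rw [eD_eq H hA hZ (hD n)]
  have a := hn (Pi.single 0 1)
  have b := hn (Pi.single 1 1)
  have c := hn (Pi.single 0 1 + Pi.single 1 1)
  have ea : (∑ i, |(Pi.single 0 1 : Fin 2 → ℝ) i|) = 1 := by
    rw [Fin.sum_univ_two]; simp
  have eb : (∑ i, |(Pi.single 1 1 : Fin 2 → ℝ) i|) = 1 := by
    rw [Fin.sum_univ_two]; simp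
  have ec : (∑ i, |(Pi.single 0 1 + Pi.single 1 1 : Fin 2 → ℝ) i|) = 2 := by
    rw [Fin.sum_univ_two]; simp; norm_num
  rw [ea] at a
  rw [eb] at b
  rw [ec] at c
  unfold tr3 bb
  linarith

/-- locally Lipschitz fields of the unclipped templates -/
theorem ll_us (H : RefP I W E o L ctr cL R ρ) {D : Fin 2 → (I → ℝ) → (I → ℝ)}
    (hD : ∀ i, V0f I E C (D i)) (h : U → ℝ) (i : Fin 2) : LocallyLipschitz (us L o D h i) := by
  obtain ⟨c, hc⟩ := (hD i).lip
  have h1 : LipschitzWith ⟨cL, H.cL0⟩ (fib I (rL I L) h i) := lip_fib H.cL0 H.lip' h i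
  have h2 : LipschitzWith 1 (fun x : I → ℝ => (res o (ext I h x) : I → ℝ)) := by
    refine LipschitzWith.of_dist_le_mul fun x y => ?_
    rw [NNReal.coe_one, one_mul, dist_pi_le_iff dist_nonneg]
    intro u
    have e : dist (res (I := I) o (ext I h x) u) (res o (ext I h y) u) = dist (x u) (y u) := by
      simp only [res]
      rw [ext_mem u.2, ext_mem u.2, ext_notMem H.oI, ext_notMem H.oI, Real.dist_eq, Real.dist_eq]
      congr 1
      ring
    rw [e]
    exact dist_le_pi_dist x y u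
  have h3 : us L o D h i = fun x => fib I (rL I L) h i x + D i (res o (ext I h x)) := rfl
  rw [h3]
  exact (h1.add (hc.comp h2)).locallyLipschitz

theorem zt_ext (H : RefP I W E o L ctr cL R ρ) (h : U → ℝ) (x : I → ℝ) :
    zt I W o (ext I h x) = zt I W o h := by
  funext b
  have hb := (Finset.mem_sdiff.1 b.2).2
  simp only [zt]
  rw [ext_notMem hb, ext_notMem H.oI]

/-- the field of a mixture on a fibre -/
theorem fib_mix (H : RefP I W E o L ctr cL R ρ) (N : ℕ) (χ : ℕ → (↥(W \ I) → ℝ) → ℝ)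
    (T : ℕ → Fin 2 → (U → ℝ) → I → ℝ) (h : U → ℝ) (i : Fin 2) :
    fib I (tot L (mix o N χ T)) h i =
      fib I (rL I L) h i + ∑ j ∈ Finset.range N, χ j (zt I W o h) • fib I (T j) h i := by
  funext x w
  simp only [fib, tot, mix, rL, Pi.add_apply, Finset.sum_apply, Pi.smul_apply, smul_eq_mul,
    zt_ext H]

/-- **the pointwise energy inequality of a mixture of clipped templates** -/
theorem enN_mix_le (H : RefP I W E o L ctr cL R ρ) (hA : Anch I E)
    {D : ℕ → Fin 2 → (I → ℝ) → (I → ℝ)} (hD : ∀ n i, V0f I E C (D n i)) {N : ℕ}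
    {χ : ℕ → (↥(W \ I) → ℝ) → ℝ} (hχ0 : ∀ j x, 0 ≤ χ j x)
    (hχ1 : ∀ x, ∑ j ∈ Finset.range N, χ j x ≤ 1) (h : U → ℝ) :
    ∀ᵐ x ∂(hamP I E h),
      enN (fib I (tot L (mix o N χ fun j => tpl R L ctr o (D j))) h 0)
        (fib I (tot L (mix o N χ fun j => tpl R L ctr o (D j))) h 1) x ≤
      ∑ j ∈ Finset.range N, χ j (zt I W o h) * enN (us L o (D j) h 0) (us L o (D j) h 1) x +
        (1 - ∑ j ∈ Finset.range N, χ j (zt I W o h)) *
          enN (us L o (0 : Fin 2 → (I → ℝ) → (I → ℝ)) h 0)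
            (us L o (0 : Fin 2 → (I → ℝ) → (I → ℝ)) h 1) x := by
  have hg := goodLaw_hamP' hA h
  have hr : ∀ i, LipschitzWith ⟨cL, H.cL0⟩ (fib I (rL I L) h i) := fun i => lip_fib H.cL0 H.lip' h i
  have ht : ∀ j i, LocallyLipschitz (fib I (tpl R L ctr o (D j)) h i) := by
    intro j i
    obtain ⟨c, hc0, hc⟩ := (tmpl_tpl (C := C) H (hD j)).lip
    exact (lip_fib hc0 hc h i).locallyLipschitz
  have hu : ∀ j i, LocallyLipschitz (us L o (D j) h i) := fun j i => ll_us H (hD j) h i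
  have a1 : ∀ᵐ x ∂(hamP I E h), ∀ i, DifferentiableAt ℝ (fib I (rL I L) h i) x :=
    ae_all_iff.2 fun i => hg.ae_diff (hr i).locallyLipschitz
  have a2 : ∀ᵐ x ∂(hamP I E h), ∀ j i, DifferentiableAt ℝ (fib I (tpl R L ctr o (D j)) h i) x :=
    ae_all_iff.2 fun j => ae_all_iff.2 fun i => hg.ae_diff (ht j i)
  have a3 : ∀ᵐ x ∂(hamP I E h), ∀ j i, DifferentiableAt ℝ (us L o (D j) h i) x :=
    ae_all_iff.2 fun j => ae_all_iff.2 fun i => hg.ae_diff (hu j i)
  filter_upwards [a1, a2, a3] with x d1 d2 d3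
  set c : ℕ → ℝ := fun j => χ j (zt I W o h) with hc
  have e0 : ∀ i, us L o (0 : Fin 2 → (I → ℝ) → (I → ℝ)) h i = fib I (rL I L) h i := by
    intro i; funext y w; simp [us, fib, rL]
  unfold enN
  rw [Finset.mul_sum]
  have e1 : ∑ j ∈ Finset.range N, χ j (zt I W o h) * ∑ w, ∑ v, N2 (jac (us L o (D j) h 0) x w v)
      (jac (us L o (D j) h 1) x w v) = ∑ w, ∑ j ∈ Finset.range N, χ j (zt I W o h) *
        ∑ v, N2 (jac (us L o (D j) h 0) x w v) (jac (us L o (D j) h 1) x w v) := by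
    rw [Finset.sum_comm]
    exact Finset.sum_congr rfl fun j _ => Finset.mul_sum _ _ _
  rw [e1, ← Finset.sum_add_distrib]
  refine Finset.sum_le_sum fun w _ => ?_
  rw [Finset.mul_sum]
  have e2 : ∑ j ∈ Finset.range N, χ j (zt I W o h) * ∑ v, N2 (jac (us L o (D j) h 0) x w v)
      (jac (us L o (D j) h 1) x w v) = ∑ v, ∑ j ∈ Finset.range N, χ j (zt I W o h) *
        N2 (jac (us L o (D j) h 0) x w v) (jac (us L o (D j) h 1) x w v) := by
    rw [Finset.sum_comm]
    exact Finset.sum_congr rfl fun j _ => Finset.mul_sum _ _ _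
  rw [e2, ← Finset.sum_add_distrib]
  refine Finset.sum_le_sum fun v _ => ?_
  rw [fib_mix H, fib_mix H, jac_add_sum (d1 0) (fun j => d2 j 0), jac_add_sum (d1 1) (fun j => d2 j 1),
    e0, e0]
  refine (N2_conv_sum (Finset.range N) c (fun j _ => hχ0 j _) (hχ1 _) _ _ _ _).trans ?_
  refine add_le_add (Finset.sum_le_sum fun j _ => ?_) le_rfl
  refine mul_le_mul_of_nonneg_left ?_ (hχ0 j _)
  rw [← jac_add (d1 0) (d2 j 0), ← jac_add (d1 1) (d2 j 1)]
  refine N2_jac_le (d3 j 0) (d3 j 1) ((d1 0).add (d2 j 0)) ((d1 1).add (d2 j 1)) ?_ w v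
  intro y w
  have ez : ∀ i (y : I → ℝ), (fib I (rL I L) h i + fib I (tpl R L ctr o (D j)) h i) y w =
      clp R (raw L ctr o (D j) (ext I h y) w) i + ctr i := by
    intro i y
    simp only [Pi.add_apply, fib, rL, tpl]
    ring
  have ey : ∀ i (y : I → ℝ), us L o (D j) h i y w = raw L ctr o (D j) (ext I h y) w i + ctr i := by
    intro i y
    simp only [us, raw]
    ring
  rw [ez, ez, ez, ez, ey, ey, ey, ey, clp_zero, clp_zero, clp_one, clp_one]
  simp only [add_sub_add_right_eq_sub]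
  exact N2_cl_le H.R0 _ _ _ _

/-- mean of the energy on a fibre -/
theorem mean_mix_le (H : RefP I W E o L ctr cL R ρ) (hA : Anch I E)
    {D : ℕ → Fin 2 → (I → ℝ) → (I → ℝ)} (hD : ∀ n i, V0f I E C (D n i)) {N : ℕ}
    {χ : ℕ → (↥(W \ I) → ℝ) → ℝ} (hχL : ∀ j, ∃ k : ℝ≥0, LipschitzWith k (χ j))
    (hχ0 : ∀ j x, 0 ≤ χ j x)
    (hχ1 : ∀ x, ∑ j ∈ Finset.range N, χ j x ≤ 1) (h : U → ℝ) :
    ∫ x, eN L (mix o N χ fun j => tpl R L ctr o (D j)) (ext I h x) ∂(hamP I E h) ≤
      ∑ j ∈ Finset.range N, χ j (zt I W o h) * eD E L (D j) (et I W (zt I W o h)) +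
        (1 - ∑ j ∈ Finset.range N, χ j (zt I W o h)) *
          eD E L (0 : Fin 2 → (I → ℝ) → (I → ℝ)) (et I W (zt I W o h)) := by
  have hg := goodLaw_hamP' hA h
  have hfin := hg.fin
  simp only [eN_ext]
  have hint : ∀ (D : Fin 2 → (I → ℝ) → (I → ℝ)), (∀ i, V0f I E C (D i)) →
      Integrable (fun x => enN (us L o D h 0) (us L o D h 1) x) (hamP I E h) := by
    intro D hD
    have i0 := hg.integrable_en (ll_us H hD h 0)
    have i1 := hg.integrable_en (ll_us H hD h 1)
    have i2 : Integrable (en (us L o D h 0 + us L o D h 1)) (hamP I E h) :=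
      hg.integrable_en (show LocallyLipschitz (us L o D h 0 + us L o D h 1) from
        (ll_us H hD h 0).add (ll_us H hD h 1))
    refine (((i0.add i1).add i2).div_const 2).congr ?_
    filter_upwards [hg.ae_diff (ll_us H hD h 0), hg.ae_diff (ll_us H hD h 1)] with x d0 d1
    simp only [Pi.add_apply]
    rw [enN_eq d0 d1]
  have h0 : ∀ i : Fin 2, V0f I E C ((0 : Fin 2 → (I → ℝ) → (I → ℝ)) i) := fun i => V0f.zero
  have hK : (0 : ℝ) ≤ 4 * R := by have := H.R0; linarith
  have hsum : Integrable (fun x => ∑ j ∈ Finset.range N, χ j (zt I W o h) *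
      enN (us L o (D j) h 0) (us L o (D j) h 1) x) (hamP I E h) :=
    integrable_finsetSum _ fun j _ => (hint _ (hD j)).const_mul _
  have hrest : Integrable (fun x => (1 - ∑ j ∈ Finset.range N, χ j (zt I W o h)) *
      enN (us L o (0 : Fin 2 → (I → ℝ) → (I → ℝ)) h 0)
        (us L o (0 : Fin 2 → (I → ℝ) → (I → ℝ)) h 1) x) (hamP I E h) := (hint _ h0).const_mul _
  have h1 := integral_mono_of_nonneg (μ := hamP I E h) (ae_of_all _ fun x => enN_nonneg
      (fib I (tot L (mix o N χ fun j => tpl R L ctr o (D j))) h 0)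
      (fib I (tot L (mix o N χ fun j => tpl R L ctr o (D j))) h 1) x) (hsum.add hrest)
      (enN_mix_le H hA hD hχ0 hχ1 h)
  refine h1.trans (le_of_eq ?_)
  simp only [Pi.add_apply]
  rw [integral_add hsum hrest, integral_finsetSum _ fun j _ => (hint _ (hD j)).const_mul _,
    integral_const_mul, integral_us H, eD_zt H]
  congr 1
  refine Finset.sum_congr rfl fun j _ => ?_
  rw [integral_const_mul, integral_us H, eD_zt H]

theorem measurable_zt : Measurable (zt I W o) :=
  measurable_pi_lambda _ fun b => (measurable_pi_apply _).sub (measurable_pi_apply _)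

/-- **Existence of near-optimal local templates.** -/
theorem exists_tmpl [Countable U] (H : RefP I W E o L ctr cL R ρ) (hA : Anch I E)
    (hZ : RefF I L) {μ : Measure (U → ℝ)} [IsProbabilityMeasure μ]
    (hdlr : ∀ F : (U → ℝ) → ℝ, Measurable F → (∃ B, ∀ h, |F h| ≤ B) →
      (∀ h h', (∀ w ∈ W, h w = h' w) → F h = F h') → (∀ h (c : ℝ), F (fun v => h v + c) = F h) →
      ∫ h, F h ∂μ = ∫ h, ∫ x, F (ext I h x) ∂(hamP I E h) ∂μ) {η : ℝ} (hη : 0 < η) :
    ∃ T : Fin 2 → (U → ℝ) → I → ℝ, Tmpl I W C E T (4 * R) ∧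
      ∫ h, eN L T h ∂μ ≤ ∫ h, tr3 hA hZ C h ∂μ + η := by
  obtain ⟨D, hD, hnear⟩ := near_min (C := C) H hA hZ
  have h0 : ∀ i : Fin 2, V0f I E C ((0 : Fin 2 → (I → ℝ) → (I → ℝ)) i) := fun i => V0f.zero
  have hztm : Measurable (zt I W o) := measurable_zt
  set ν : Measure (↥(W \ I) → ℝ) := μ.map (zt I W o) with hν
  have hνp : IsProbabilityMeasure ν := Measure.isProbabilityMeasure_map hztm.aemeasurable
  have hetm : Measurable (et I W) := continuous_et.measurable
  set e : ℕ → (↥(W \ I) → ℝ) → ℝ := fun j z => eD E L (D j) (et I W z) with he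
  set e0 : (↥(W \ I) → ℝ) → ℝ := fun z => eD E L (0 : Fin 2 → (I → ℝ) → (I → ℝ)) (et I W z) with he0
  set G : (↥(W \ I) → ℝ) → ℝ := fun z => tr3 hA hZ C (et I W z) + η / 2 with hG
  have hem : ∀ j, Measurable (e j) := fun j => (measurable_eD H (hD j)).comp hetm
  have he0m : Measurable e0 := (measurable_eD H h0).comp hetm
  have hGm : Measurable G := (measurable_tr3.comp hetm).add_const _
  obtain ⟨B0, hB00, hB0⟩ := eD_bdd H hA h0
  have hGb : ∀ z, |G z| ≤ B0 + η / 2 := by
    intro z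
    have h1 := tr3_nonneg (hA := hA) (hZ := hZ) (C := C) (et I W z)
    have h2 := tr3_le_ref (hA := hA) (hZ := hZ) (C := C) H (et I W z)
    have h3 := hB0 (et I W z)
    rw [abs_of_nonneg (by simp only [hG]; linarith)]
    simp only [hG]; linarith
  set A' : ℕ → Set (↥(W \ I) → ℝ) := fun j => {z | e j z ≤ G z} with hA'
  have hA'm : ∀ j, MeasurableSet (A' j) := fun j => measurableSet_le (hem j) hGm
  have hcov : ⋃ j, disjointed A' j = univ := by
    rw [iUnion_disjointed, eq_univ_iff_forall]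
    intro z
    obtain ⟨n, hn⟩ := hnear (et I W z) (η / 2) (by positivity)
    exact mem_iUnion.2 ⟨n, hn⟩
  obtain ⟨N, χ, hχL, hχ0, hχ1, hsel⟩ := exists_lip_selection ν
    (A := disjointed A') (fun j => MeasurableSet.disjointed hA'm j) (disjoint_disjointed A') hcov
    hem (fun j z => eD_nonneg _ _)
    (fun j => by
      obtain ⟨B, _, hB⟩ := eD_bdd H hA (hD j)
      exact ⟨B, fun z => hB _⟩)
    he0m (fun z => eD_nonneg _ _) (fun z => hB0 _)
    (Integrable.of_bound hGm.aestronglyMeasurable (B0 + η / 2) (ae_of_all _ fun z => by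
      rw [Real.norm_eq_abs]; exact hGb z))
    (fun z => by
      have h1 := tr3_nonneg (hA := hA) (hZ := hZ) (C := C) (et I W z)
      simp only [hG]; linarith)
    (fun j z hz => disjointed_subset A' j hz) (show 0 < η / 2 by positivity)
  have hK : (0 : ℝ) ≤ 4 * R := by have := H.R0; linarith
  have hT : Tmpl I W C E (mix o N χ fun j => tpl R L ctr o (D j)) (4 * R) :=
    tmpl_mix H.oW hK (fun j => tmpl_tpl H (hD j)) hχL hχ0 hχ1
  refine ⟨_, hT, ?_⟩
  rw [hdlr _ (measurable_eN H hT) (eN_bdd H hT) (fun h h' hh => eN_congr H hT hh)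
    (fun h c => eN_shift H hT h c)]
  -- the integrand is dominated by a function of the window data
  set Φ : (↥(W \ I) → ℝ) → ℝ := fun z => ∑ j ∈ Finset.range N, χ j z * e j z +
    (1 - ∑ j ∈ Finset.range N, χ j z) * e0 z with hΦ
  have hχm : ∀ j, Measurable (χ j) := fun j => by
    obtain ⟨k, hk⟩ := hχL j
    exact hk.continuous.measurable
  have hΦm : Measurable Φ :=
    (Finset.measurable_sum _ fun j _ => (hχm j).mul (hem j)).add
      ((measurable_const.sub (Finset.measurable_sum _ fun j _ => hχm j)).mul he0m)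
  choose Bj hBj0 hBj using fun j => eD_bdd H hA (hD j)
  have hΦb : ∀ z, |Φ z| ≤ ∑ j ∈ Finset.range N, Bj j + B0 := by
    intro z
    have h1 : 0 ≤ ∑ j ∈ Finset.range N, χ j z := Finset.sum_nonneg fun j _ => hχ0 j z
    have h2 := hχ1 z
    have hχle : ∀ j ∈ Finset.range N, χ j z ≤ 1 := fun j hj =>
      (Finset.single_le_sum (f := fun j => χ j z) (fun j _ => hχ0 j z) hj).trans h2
    have h3 : 0 ≤ Φ z := add_nonneg
      (Finset.sum_nonneg fun j _ => mul_nonneg (hχ0 j z) (eD_nonneg _ _))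
      (mul_nonneg (by linarith) (eD_nonneg _ _))
    rw [abs_of_nonneg h3]
    refine add_le_add (Finset.sum_le_sum fun j hj => ?_) ?_
    · calc χ j z * e j z ≤ 1 * Bj j := mul_le_mul (hχle j hj) (hBj j _) (eD_nonneg _ _) zero_le_one
        _ = Bj j := one_mul _
    · calc (1 - ∑ j ∈ Finset.range N, χ j z) * e0 z ≤ 1 * B0 :=
            mul_le_mul (by linarith) (hB0 _) (eD_nonneg _ _) zero_le_one
        _ = B0 := one_mul _
  have hΦi : Integrable (fun h => Φ (zt I W o h)) μ :=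
    Integrable.of_bound (hΦm.comp hztm).aestronglyMeasurable _ (ae_of_all _ fun h => by
      rw [Real.norm_eq_abs]; exact hΦb _)
  calc ∫ h, ∫ x, eN L (mix o N χ fun j => tpl R L ctr o (D j)) (ext I h x) ∂(hamP I E h) ∂μ
      ≤ ∫ h, Φ (zt I W o h) ∂μ := by
        refine integral_mono_of_nonneg (ae_of_all _ fun h => integral_nonneg fun x => eN_nonneg _ _)
          hΦi (ae_of_all _ fun h => mean_mix_le H hA hD hχL hχ0 hχ1 h)
    _ = ∫ z, Φ z ∂ν := by
        rw [hν, integral_map hztm.aemeasurable hΦm.aestronglyMeasurable]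
    _ ≤ ∫ z, G z ∂ν + η / 2 := hsel
    _ = ∫ h, G (zt I W o h) ∂μ + η / 2 := by
        rw [hν, integral_map hztm.aemeasurable hGm.aestronglyMeasurable]
    _ = ∫ h, (tr3 hA hZ C h + η / 2) ∂μ + η / 2 := by
        simp only [hG, tr3_zt H]
    _ = ∫ h, tr3 hA hZ C h ∂μ + η := by
        rw [integral_add, integral_const]
        · simp; ring
        · refine Integrable.of_bound measurable_tr3.aestronglyMeasurable B0 (ae_of_all _ fun h => ?_)
          have h1 := tr3_nonneg (hA := hA) (hZ := hZ) (C := C) h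
          rw [Real.norm_eq_abs, abs_of_nonneg h1]
          exact (tr3_le_ref H h).trans (hB0 h)
        · exact integrable_const _

end Crest.Agent.R144.LoA770
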