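import Mathlib

/-!
# R144 (S0197), helper95, lower bound (trace form), file 1: the algebra of `tr (J * J)`

`J w v` is the derivative of the label `w` in the direction `v`.  `J = A + B + C`: explicit part,
derivative of the scalar cut-offs, derivative of the templates.  Templates only exist for labels in
the deep parts `dp q` of the blocks `I q`, they only see the window `W q`, and labels of `W q \ I q`
do not see the sites of `dp q` as long as the template is switched on.
-/

set_option autoImplicit false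
set_option linter.unusedSectionVars false

open Finset

noncomputable section

namespace Crest.Agent.R144.LoB95

section Algebra

variable {V ι : Type*} [Fintype V] [DecidableEq V] [Fintype ι] [DecidableEq ι]

/-- block geometry -/
structure Geom (I dp W : ι → Finset V) : Prop where
  sub : ∀ q, dp q ⊆ I q
  disj : ∀ q q' v, v ∈ I q → v ∈ I q' → q = q'
  win : ∀ q q' v, v ∈ W q → v ∈ dp q' → q' = q

/-- crossing pairs: one site deep in a block, the other one outside this block -/
def Crs (I dp : ι → Finset V) (w v : V) : Prop :=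
  ∃ q, (w ∈ dp q ∧ v ∉ I q) ∨ (v ∈ dp q ∧ w ∉ I q)

/-- pairs in the same block -/
def Same (I : ι → Finset V) (w v : V) : Prop := ∃ q, w ∈ I q ∧ v ∈ I q

/-- deep sites -/
def Deep (dp : ι → Finset V) (w : V) : Prop := ∃ q, w ∈ dp q

theorem Crs.symm {I dp : ι → Finset V} {w v : V} (h : Crs I dp w v) : Crs I dp v w := by
  obtain ⟨q, h⟩ := h
  exact ⟨q, h.symm⟩

theorem Same.symm {I : ι → Finset V} {w v : V} (h : Same I w v) : Same I v w := by
  obtain ⟨q, h1, h2⟩ := h
  exact ⟨q, h2, h1⟩

open Classical in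
/-- the pointwise inequality for one ordered pair -/
theorem pair_le {I dp W : ι → Finset V} (hG : Geom I dp W) {J A B C : V → V → ℝ}
    (hJ : ∀ w v, J w v = A w v + B w v + C w v)
    (hB : ∀ w v, ¬ Deep dp w → B w v = 0) (hC : ∀ w v, ¬ Deep dp w → C w v = 0)
    (hCW : ∀ q w v, w ∈ dp q → v ∉ W q → C w v = 0)
    (hns : ∀ q w v, w ∈ dp q → v ∈ W q → v ∉ I q → C w v = 0 ∨ A v w = 0) (w v : V) :
    J w v * J v w ≤
      (if Same I w v then (J w v ^ 2 + J v w ^ 2) / 2 else 0) +
      ((if ¬ Deep dp w then A w v ^ 2 / 2 else 0) + (if ¬ Deep dp v then A v w ^ 2 / 2 else 0)) +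
      (if Crs I dp w v then (A w v ^ 2 + A v w ^ 2) + (B w v ^ 2 + B v w ^ 2) else 0) := by
  have n1 : 0 ≤ (if ¬ Deep dp w then A w v ^ 2 / 2 else 0) := by split_ifs <;> positivity
  have n2 : 0 ≤ (if ¬ Deep dp v then A v w ^ 2 / 2 else 0) := by split_ifs <;> positivity
  have n3 : 0 ≤ (if Crs I dp w v then (A w v ^ 2 + A v w ^ 2) + (B w v ^ 2 + B v w ^ 2) else 0) := by
    split_ifs <;> positivity
  by_cases hs : Same I w v
  · rw [if_pos hs]
    nlinarith [sq_nonneg (J w v - J v w)]
  · rw [if_neg hs, zero_add]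
    -- the main claim for a deep first site
    have main : ∀ w v : V, ¬ Same I w v → Deep dp w →
        J w v * J v w ≤ (A w v ^ 2 + A v w ^ 2) + (B w v ^ 2 + B v w ^ 2) ∧ Crs I dp w v := by
      intro w v hs hd
      obtain ⟨q, hw⟩ := hd
      have hvI : v ∉ I q := fun h => hs ⟨q, hG.sub q hw, h⟩
      refine ⟨?_, q, Or.inl ⟨hw, hvI⟩⟩
      by_cases hc : C w v = 0
      · have hc' : C v w = 0 := by
          by_cases hv : Deep dp v
          · obtain ⟨q', hv'⟩ := hv
            by_cases hW : w ∈ W q'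
            · exfalso
              have := hG.win q' q w hW hw
              subst this
              exact hvI (hG.sub q hv')
            · exact hCW q' v w hv' hW
          · exact hC v w hv
        rw [hJ w v, hJ v w, hc, hc', add_zero, add_zero]
        nlinarith [sq_nonneg (A w v + B w v - (A v w + B v w)), sq_nonneg (A w v - B w v),
          sq_nonneg (A v w - B v w)]
      · have hW : v ∈ W q := by
          by_contra h
          exact hc (hCW q w v hw h)
        have hvd : ¬ Deep dp v := by
          rintro ⟨q', hv'⟩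
          have := hG.win q q' v hW hv'
          subst this
          exact hvI (hG.sub _ hv')
        have h0 : A v w = 0 := (hns q w v hw hW hvI).resolve_left hc
        have h1 : J v w = 0 := by rw [hJ v w, h0, hB v w hvd, hC v w hvd]; ring
        rw [h1, mul_zero]
        positivity
    by_cases hdw : Deep dp w
    · obtain ⟨h1, h2⟩ := main w v hs hdw
      rw [if_pos h2]
      linarith
    · by_cases hdv : Deep dp v
      · obtain ⟨h1, h2⟩ := main v w (fun h => hs h.symm) hdv
        rw [if_pos h2.symm]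
        linarith [mul_comm (J w v) (J v w)]
      · rw [if_pos hdw, if_pos hdv]
        have e1 : J w v = A w v := by rw [hJ w v, hB w v hdw, hC w v hdw]; ring
        have e2 : J v w = A v w := by rw [hJ v w, hB v w hdv, hC v w hdv]; ring
        rw [e1, e2] at *
        nlinarith [sq_nonneg (A w v - A v w)]

theorem sum_swap_half (a : V → V → ℝ) (P : V → V → Prop) [∀ w v, Decidable (P w v)]
    (hP : ∀ w v, P w v → P v w) :
    ∑ w, ∑ v, (if P w v then (a w v + a v w) / 2 else 0) = ∑ w, ∑ v, if P w v then a w v else 0 := by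
  have h1 : ∑ w, ∑ v, (if P w v then (a w v + a v w) / 2 else 0) =
      (∑ w, ∑ v, (if P w v then a w v else 0)) / 2 + (∑ w, ∑ v, (if P w v then a v w else 0)) / 2 := by
    simp only [Finset.sum_div, ← Finset.sum_add_distrib]
    refine Finset.sum_congr rfl fun w _ => Finset.sum_congr rfl fun v _ => ?_
    split_ifs <;> ring
  have h2 : ∑ w, ∑ v, (if P w v then a v w else 0) = ∑ w, ∑ v, (if P w v then a w v else 0) := by
    rw [Finset.sum_comm]
    refine Finset.sum_congr rfl fun w _ => Finset.sum_congr rfl fun v _ => ?_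
    by_cases h : P v w
    · rw [if_pos h, if_pos (hP _ _ h)]
    · rw [if_neg h, if_neg fun h' => h (hP _ _ h')]
  rw [h1, h2]
  ring

open Classical in
/-- the sum over pairs in the same block -/
theorem sum_same {I dp W : ι → Finset V} (hG : Geom I dp W) (a : V → V → ℝ) :
    ∑ w, ∑ v, (if Same I w v then a w v else 0) = ∑ q, ∑ w ∈ I q, ∑ v ∈ I q, a w v := by
  have h1 : ∀ w v, (if Same I w v then a w v else 0) =
      ∑ q, if w ∈ I q then (if v ∈ I q then a w v else 0) else 0 := by
    intro w v
    by_cases h : Same I w v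
    · obtain ⟨q, h1, h2⟩ := h
      rw [if_pos ⟨q, h1, h2⟩, Finset.sum_eq_single q]
      · rw [if_pos h1, if_pos h2]
      · intro q' _ hq'
        rw [if_neg fun h => hq' (hG.disj _ _ w h h1)]
      · intro h; exact absurd (Finset.mem_univ q) h
    · rw [if_neg h]
      symm
      refine Finset.sum_eq_zero fun q _ => ?_
      by_cases h1 : w ∈ I q
      · rw [if_pos h1, if_neg fun h2 => h ⟨q, h1, h2⟩]
      · rw [if_neg h1]
  simp only [h1]
  have h2 : ∑ w, ∑ v, ∑ q, (if w ∈ I q then (if v ∈ I q then a w v else 0) else 0) =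
      ∑ q, ∑ w, ∑ v, (if w ∈ I q then (if v ∈ I q then a w v else 0) else 0) := by
    rw [Finset.sum_comm' (t' := univ) (s' := fun _ => univ) (by simp)]
    simp only [Finset.sum_comm (s := (univ : Finset V)) (t := (univ : Finset ι))]
    refine (Finset.sum_congr rfl fun q _ => ?_)
    rw [Finset.sum_comm]
  rw [h2]
  refine Finset.sum_congr rfl fun q _ => ?_
  have h3 : ∀ w, ∑ v, (if w ∈ I q then (if v ∈ I q then a w v else 0) else 0) =
      if w ∈ I q then ∑ v ∈ I q, a w v else 0 := by
    intro w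
    by_cases h : w ∈ I q
    · simp only [if_pos h, Finset.sum_ite_mem, Finset.univ_inter]
    · simp only [if_neg h, Finset.sum_const_zero]
  simp only [h3, Finset.sum_ite_mem, Finset.univ_inter]

open Classical in
/-- **the algebraic trace inequality** -/
theorem trace_le {I dp W : ι → Finset V} (hG : Geom I dp W) {J A B C : V → V → ℝ}
    (hJ : ∀ w v, J w v = A w v + B w v + C w v)
    (hB : ∀ w v, ¬ Deep dp w → B w v = 0) (hC : ∀ w v, ¬ Deep dp w → C w v = 0)
    (hCW : ∀ q w v, w ∈ dp q → v ∉ W q → C w v = 0)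
    (hns : ∀ q w v, w ∈ dp q → v ∈ W q → v ∉ I q → C w v = 0 ∨ A v w = 0) :
    ∑ w, ∑ v, J w v * J v w ≤
      ∑ q, ∑ w ∈ I q, ∑ v ∈ I q, J w v ^ 2 +
      ∑ w, (if ¬ Deep dp w then ∑ v, A w v ^ 2 else 0) +
      2 * ∑ w, ∑ v, (if Crs I dp w v then A w v ^ 2 + B w v ^ 2 else 0) := by
  have h0 : ∑ w, ∑ v, J w v * J v w ≤ ∑ w, ∑ v,
      ((if Same I w v then (J w v ^ 2 + J v w ^ 2) / 2 else 0) +
      ((if ¬ Deep dp w then A w v ^ 2 / 2 else 0) + (if ¬ Deep dp v then A v w ^ 2 / 2 else 0)) +
      (if Crs I dp w v then (A w v ^ 2 + A v w ^ 2) + (B w v ^ 2 + B v w ^ 2) else 0)) :=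
    Finset.sum_le_sum fun w _ => Finset.sum_le_sum fun v _ => pair_le hG hJ hB hC hCW hns w v
  refine h0.trans (le_of_eq ?_)
  simp only [Finset.sum_add_distrib]
  have e1 : ∑ w, ∑ v, (if Same I w v then (J w v ^ 2 + J v w ^ 2) / 2 else 0) =
      ∑ q, ∑ w ∈ I q, ∑ v ∈ I q, J w v ^ 2 := by
    rw [sum_swap_half (fun w v => J w v ^ 2) (Same I) (fun w v h => h.symm)]
    exact sum_same hG _
  have e2 : ∑ w, ∑ v, (if ¬ Deep dp w then A w v ^ 2 / 2 else 0) +
      ∑ w, ∑ v, (if ¬ Deep dp v then A v w ^ 2 / 2 else 0) =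
      ∑ w, (if ¬ Deep dp w then ∑ v, A w v ^ 2 else 0) := by
    have : ∑ w, ∑ v, (if ¬ Deep dp v then A v w ^ 2 / 2 else 0) =
        ∑ w, ∑ v, (if ¬ Deep dp w then A w v ^ 2 / 2 else 0) := Finset.sum_comm
    rw [this, ← Finset.sum_add_distrib]
    refine Finset.sum_congr rfl fun w _ => ?_
    rw [← Finset.sum_add_distrib]
    by_cases h : Deep dp w
    · simp [h]
    · simp only [h, not_false_eq_true, if_true]
      exact Finset.sum_congr rfl fun v _ => by ring
  have e3 : ∑ w, ∑ v, (if Crs I dp w v then (A w v ^ 2 + A v w ^ 2) + (B w v ^ 2 + B v w ^ 2) else 0) =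
      2 * ∑ w, ∑ v, (if Crs I dp w v then A w v ^ 2 + B w v ^ 2 else 0) := by
    have h := sum_swap_half (fun w v => A w v ^ 2 + B w v ^ 2) (Crs I dp) (fun w v h => h.symm)
    rw [← h, Finset.mul_sum]
    refine Finset.sum_congr rfl fun w _ => ?_
    rw [Finset.mul_sum]
    refine Finset.sum_congr rfl fun v _ => ?_
    split_ifs <;> ring
  rw [e1, e2, e3]

end Algebra

end Crest.Agent.R144.LoB95
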