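import Crest.Agent.R144.LoB1_95
import Crest.Agent.R144.Fib4_674
import Crest.Agent.R144.MW1_121

/-!
# R144 (S0197), helper95, lower bound (trace form), file 2: the field

`L = Z + g T`, `Y_w = chi (V_w) * Psi (L_w)` on the active sites `S`, `0` elsewhere.
`Z` tangent on `S`, `T` templates (zero off the deep parts of the blocks), `g` scalar cut-offs,
`V` a tangent field which vanishes off `S` (560's scalar field).  Main result: `tan_Y`.
-/

set_option autoImplicit false
set_option linter.unusedSectionVars false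

open MeasureTheory Set
open scoped ENNReal NNReal

noncomputable section

namespace Crest.Agent.R144.LoB95

open Crest.Agent.R144.Ham560
open Crest.Agent.R144.MW121 (jac jac_apply Tan)
open Crest.Agent.R144.Fib674 (pd)

variable {U : Type*} [DecidableEq U] {F : Finset U} {E : Finset (U × U)} {ξ : U → ℝ}

/-- slack of a pair of sites -/
def slk (F : Finset U) (ξ : U → ℝ) (x : F → ℝ) (a b : U) : ℝ :=
  max 0 (1 - |ext F ξ x a - ext F ξ x b|)

theorem slk_nonneg (x : F → ℝ) (a b : U) : 0 ≤ slk F ξ x a b := le_max_left _ _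

/-- a scalar label field which is Lipschitz and tangent on the edges inside `S` -/
structure Fd (F : Finset U) (E : Finset (U × U)) (ξ : U → ℝ) (S : Finset U) (C : ℝ)
    (f : (F → ℝ) → F → ℝ) : Prop where
  lip : ∀ x y w, |f x w - f y w| ≤ C * ‖x - y‖
  edge : ∀ x ∈ ham F E ξ, ∀ (a b : F), (a : U) ∈ S → (b : U) ∈ S → (b : U) ∈ nbr E a →
    |f x a - f x b| ≤ C * slk F ξ x a b

/-- geometry of the blocks in the vertex set -/
structure BG (E : Finset (U × U)) (S : Finset U) {ι : Type*} (I dp W : ι → Finset U) : Prop where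
  IS : ∀ q, I q ⊆ S
  sub : ∀ q, dp q ⊆ I q
  disj : ∀ q q' v, v ∈ I q → v ∈ I q' → q = q'
  win : ∀ q q' v, v ∈ W q → v ∈ dp q' → q' = q
  nb : ∀ q a b, a ∈ dp q → b ∈ nbr E a → b ∈ S → b ∈ I q

variable {κ ι : Type*} [Fintype κ] [Fintype ι]

/-- constant of the trial field -/
def KY (C : ℝ) : ℝ := C * C + C * (2 * C + C * C)

theorem KY_nonneg {C : ℝ} (hC : 0 ≤ C) : 0 ≤ KY C := by unfold KY; positivity

/-- the cut-off seen by a label -/
def Gw (dp : ι → Finset U) (g : ι → (F → ℝ) → ℝ) (x : F → ℝ) (w : F) : ℝ :=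
  ∑ q, if (w : U) ∈ dp q then g q x else 0

/-- the vector field -/
def Lf (dp : ι → Finset U) (g : ι → (F → ℝ) → ℝ) (Z T : κ → (F → ℝ) → F → ℝ) (i : κ) (x : F → ℝ)
    (w : F) : ℝ := Z i x w + Gw dp g x w * T i x w

/-- clamp to `[0,1]` -/
def chi (s : ℝ) : ℝ := max 0 (min 1 s)

theorem chi_nonneg (s : ℝ) : 0 ≤ chi s := le_max_left _ _
theorem chi_le_one (s : ℝ) : chi s ≤ 1 := max_le zero_le_one (min_le_left _ _)
theorem chi_zero : chi 0 = 0 := by simp [chi]
theorem chi_one {s : ℝ} (h : 1 ≤ s) : chi s = 1 := by simp [chi, h]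
theorem abs_chi_le (s : ℝ) : |chi s| ≤ 1 := by
  rw [abs_of_nonneg (chi_nonneg s)]; exact chi_le_one s
theorem chi_lip (s t : ℝ) : |chi s - chi t| ≤ |s - t| := by
  refine (abs_max_sub_max_le_max _ _ _ _).trans (max_le (by simp) ?_)
  exact (abs_min_sub_min_le_max _ _ _ _).trans (max_le (by simp) le_rfl)

/-- the trial field -/
def Yw (S : Finset U) (dp : ι → Finset U) (g : ι → (F → ℝ) → ℝ) (Z T : κ → (F → ℝ) → F → ℝ)
    (V : (F → ℝ) → F → ℝ) (Psi : (κ → ℝ) → ℝ) (x : F → ℝ) (w : F) : ℝ :=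
  if (w : U) ∈ S then chi (V x w) * Psi (fun i => Lf dp g Z T i x w) else 0

/-- hypotheses on the data of the trial field -/
structure Low (F : Finset U) (E : Finset (U × U)) (ξ : U → ℝ) (S : Finset U)
    (I dp W : ι → Finset U) (g : ι → (F → ℝ) → ℝ) (Z T : κ → (F → ℝ) → F → ℝ)
    (V : (F → ℝ) → F → ℝ) (Psi : (κ → ℝ) → ℝ) (C : ℝ) : Prop where
  C1 : 1 ≤ C
  bg : BG E S I dp W
  fZ : ∀ i, Fd F E ξ S C (Z i)
  fT : ∀ i, Fd F E ξ S C (T i)
  T0 : ∀ i x (w : F), (∀ q, (w : U) ∉ dp q) → T i x w = 0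
  TB : ∀ i x w, |T i x w| ≤ C
  TW : ∀ i (x : F → ℝ) q (w v : F) (t : ℝ), (w : U) ∈ dp q → (v : U) ∉ W q →
    T i (x + t • (Pi.single v 1 : F → ℝ)) w = T i x w
  glip : ∀ q x y, |g q x - g q y| ≤ C * ‖x - y‖
  g0 : ∀ q x, 0 ≤ g q x
  g1 : ∀ q x, g q x ≤ 1
  fV : Fd F E ξ F C V
  VS : ∀ x (w : F), (w : U) ∉ S → V x w = 0
  VF : ∀ x ∈ ham F E ξ, ∀ (a : F) (b : U), b ∉ F → b ∈ nbr E a → |V x a| ≤ C * slk F ξ x a b
  Plip : ∀ l l' : κ → ℝ, |Psi l - Psi l'| ≤ C * ‖l - l'‖
  PB : ∀ l, |Psi l| ≤ C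

section

variable {S : Finset U} {I dp W : ι → Finset U} {g : ι → (F → ℝ) → ℝ} {Z T : κ → (F → ℝ) → F → ℝ}
  {V : (F → ℝ) → F → ℝ} {Psi : (κ → ℝ) → ℝ} {C : ℝ}

theorem Gw_eq (bg : BG E S I dp W) (x : F → ℝ) {w : F} {q : ι} (h : (w : U) ∈ dp q) :
    Gw dp g x w = g q x := by
  classical
  rw [Gw, Finset.sum_eq_single q]
  · rw [if_pos h]
  · intro q' _ hq
    rw [if_neg]
    intro h'
    exact hq (bg.disj _ _ _ (bg.sub _ h') (bg.sub _ h))
  · intro h'; exact absurd (Finset.mem_univ q) h'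

theorem Gw_eq_zero (x : F → ℝ) {w : F} (h : ∀ q, (w : U) ∉ dp q) : Gw dp g x w = 0 :=
  Finset.sum_eq_zero fun q _ => by rw [if_neg (h q)]

variable (H : Low F E ξ S I dp W g Z T V Psi C)
include H

theorem Low.C0 : 0 ≤ C := zero_le_one.trans H.C1

/-- the product `g T` -/
theorem Low.gT_lip (i : κ) (x y : F → ℝ) (w : F) :
    |Gw dp g x w * T i x w - Gw dp g y w * T i y w| ≤ (C + C * C) * ‖x - y‖ := by
  have hC := H.C0
  by_cases h : ∃ q, (w : U) ∈ dp q
  · obtain ⟨q, hq⟩ := h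
    rw [Gw_eq H.bg x hq, Gw_eq H.bg y hq]
    have e : g q x * T i x w - g q y * T i y w =
        g q x * (T i x w - T i y w) + (g q x - g q y) * T i y w := by ring
    rw [e]
    have h1 := (H.fT i).lip x y w
    have h2 := H.glip q x y
    have h3 := H.TB i y w
    calc _ ≤ |g q x| * |T i x w - T i y w| + |g q x - g q y| * |T i y w| := by
          rw [← abs_mul, ← abs_mul]; exact abs_add_le _ _
      _ ≤ 1 * (C * ‖x - y‖) + (C * ‖x - y‖) * C := by
          refine add_le_add (mul_le_mul ?_ h1 (abs_nonneg _) zero_le_one)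
            (mul_le_mul h2 h3 (abs_nonneg _) (by positivity))
          rw [abs_of_nonneg (H.g0 q x)]; exact H.g1 q x
      _ = _ := by ring
  · push Not at h
    rw [Gw_eq_zero x h, Gw_eq_zero y h]
    simp only [zero_mul, sub_self, abs_zero]
    positivity

theorem Low.gT_edge (i : κ) {x : F → ℝ} (hx : x ∈ ham F E ξ) {a b : F} (ha : (a : U) ∈ S) (hb : (b : U) ∈ S)
    (hab : (b : U) ∈ nbr E a) :
    |Gw dp g x a * T i x a - Gw dp g x b * T i x b| ≤ C * slk F ξ x a b := by
  have hC := H.C0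
  have hs := slk_nonneg (ξ := ξ) x (a : U) b
  have hT := (H.fT i).edge x hx a b ha hb hab
  have one : ∀ q, |g q x * (T i x a - T i x b)| ≤ C * slk F ξ x a b := by
    intro q
    rw [abs_mul, abs_of_nonneg (H.g0 q x)]
    calc g q x * |T i x a - T i x b| ≤ 1 * (C * slk F ξ x a b) :=
          mul_le_mul (H.g1 q x) hT (abs_nonneg _) zero_le_one
      _ = _ := one_mul _
  have nbsym : ∀ {a b : U}, b ∈ nbr E a → a ∈ nbr E b := by
    intro a b h
    rw [mem_nbr] at h ⊢
    exact ⟨h.1.symm, h.2.symm⟩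
  by_cases h : ∃ q, (a : U) ∈ dp q
  · obtain ⟨q, hq⟩ := h
    have hbI : (b : U) ∈ I q := H.bg.nb q a b hq hab hb
    by_cases h' : ∃ q', (b : U) ∈ dp q'
    · obtain ⟨q', hq'⟩ := h'
      have : q = q' := H.bg.disj _ _ _ hbI (H.bg.sub _ hq')
      subst this
      rw [Gw_eq H.bg x hq, Gw_eq H.bg x hq', ← mul_sub]
      exact one q
    · push Not at h'
      rw [Gw_eq H.bg x hq, Gw_eq_zero x h', zero_mul, sub_zero]
      have h0 := H.T0 i x b h'
      have := one q
      rwa [h0, sub_zero] at this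
  · push Not at h
    rw [Gw_eq_zero x h, zero_mul, zero_sub, abs_neg]
    by_cases h' : ∃ q', (b : U) ∈ dp q'
    · obtain ⟨q', hq'⟩ := h'
      rw [Gw_eq H.bg x hq']
      have h0 := H.T0 i x a h
      have := one q'
      rwa [h0, zero_sub, mul_neg, abs_neg] at this
    · push Not at h'
      rw [Gw_eq_zero x h', zero_mul, abs_zero]
      positivity

theorem Low.L_lip (i : κ) (x y : F → ℝ) (w : F) :
    |Lf dp g Z T i x w - Lf dp g Z T i y w| ≤ (2 * C + C * C) * ‖x - y‖ := by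
  have h1 := (H.fZ i).lip x y w
  have h2 := H.gT_lip i x y w
  have e : Lf dp g Z T i x w - Lf dp g Z T i y w = (Z i x w - Z i y w) +
      (Gw dp g x w * T i x w - Gw dp g y w * T i y w) := by unfold Lf; ring
  rw [e]
  refine (abs_add_le _ _).trans ((add_le_add h1 h2).trans (le_of_eq (by ring)))

theorem Low.L_edge (i : κ) {x : F → ℝ} (hx : x ∈ ham F E ξ) {a b : F} (ha : (a : U) ∈ S) (hb : (b : U) ∈ S)
    (hab : (b : U) ∈ nbr E a) :
    |Lf dp g Z T i x a - Lf dp g Z T i x b| ≤ 2 * C * slk F ξ x a b := by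
  have h1 := (H.fZ i).edge x hx a b ha hb hab
  have h2 := H.gT_edge i hx ha hb hab
  have e : Lf dp g Z T i x a - Lf dp g Z T i x b = (Z i x a - Z i x b) +
      (Gw dp g x a * T i x a - Gw dp g x b * T i x b) := by unfold Lf; ring
  rw [e]
  refine (abs_add_le _ _).trans ((add_le_add h1 h2).trans (le_of_eq (by ring)))

omit H in
theorem prod_le {a a' b b' A B : ℝ} (h1 : |a - a'| ≤ A) (h2 : |b'| ≤ C) (h3 : |a| ≤ 1)
    (h4 : |b - b'| ≤ B) : |a * b - a' * b'| ≤ A * C + B := by
  have e : a * b - a' * b' = (a - a') * b' + a * (b - b') := by ring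
  rw [e]
  refine (abs_add_le _ _).trans ?_
  rw [abs_mul, abs_mul]
  have hA : 0 ≤ A := (abs_nonneg _).trans h1
  have hB : 0 ≤ B := (abs_nonneg _).trans h4
  refine add_le_add (mul_le_mul h1 h2 (abs_nonneg _) hA) ?_
  calc |a| * |b - b'| ≤ 1 * B := mul_le_mul h3 h4 (abs_nonneg _) zero_le_one
    _ = B := one_mul _

theorem Low.Y_lip (x y : F → ℝ) (w : F) :
    |Yw S dp g Z T V Psi x w - Yw S dp g Z T V Psi y w| ≤ KY C * ‖x - y‖ := by
  have hC := H.C0
  unfold Yw
  split_ifs with hw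
  · have h1 : |chi (V x w) - chi (V y w)| ≤ C * ‖x - y‖ := (chi_lip _ _).trans (H.fV.lip x y w)
    have h2 : |Psi (fun i => Lf dp g Z T i x w) - Psi (fun i => Lf dp g Z T i y w)| ≤
        C * ((2 * C + C * C) * ‖x - y‖) := by
      refine (H.Plip _ _).trans (mul_le_mul_of_nonneg_left ?_ hC)
      rw [pi_norm_le_iff_of_nonneg (by positivity)]
      intro i
      rw [Real.norm_eq_abs]
      exact H.L_lip i x y w
    refine (prod_le h1 (H.PB _) (abs_chi_le _) h2).trans (le_of_eq ?_)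
    unfold KY; ring
  · rw [sub_self, abs_zero]
    exact mul_nonneg (KY_nonneg hC) (norm_nonneg _)

theorem Low.Y_edge {x : F → ℝ} (hx : x ∈ ham F E ξ) {a b : F} (hab : (b : U) ∈ nbr E a) :
    |Yw S dp g Z T V Psi x a - Yw S dp g Z T V Psi x b| ≤ KY C * slk F ξ x a b := by
  have hC := H.C0
  have hC1 := H.C1
  have hs := slk_nonneg (ξ := ξ) x (a : U) b
  have hV := H.fV.edge x hx a b a.2 b.2 hab
  have hK : C * C ≤ KY C := by unfold KY; nlinarith [mul_nonneg hC hC]
  unfold Yw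
  by_cases ha : (a : U) ∈ S
  · by_cases hb : (b : U) ∈ S
    · rw [if_pos ha, if_pos hb]
      have h1 : |chi (V x a) - chi (V x b)| ≤ C * slk F ξ x a b := (chi_lip _ _).trans hV
      have h2 : |Psi (fun i => Lf dp g Z T i x a) - Psi (fun i => Lf dp g Z T i x b)| ≤
          C * (2 * C * slk F ξ x a b) := by
        refine (H.Plip _ _).trans (mul_le_mul_of_nonneg_left ?_ hC)
        rw [pi_norm_le_iff_of_nonneg (by positivity)]
        intro i
        rw [Real.norm_eq_abs]
        exact H.L_edge i hx ha hb hab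
      refine (prod_le h1 (H.PB _) (abs_chi_le _) h2).trans ?_
      unfold KY
      nlinarith [mul_nonneg (mul_nonneg hC hC) (mul_nonneg hC hs)]
    · rw [if_pos ha, if_neg hb, sub_zero, abs_mul]
      have h0 := H.VS x b hb
      rw [h0, sub_zero] at hV
      have h1 : |chi (V x a)| ≤ C * slk F ξ x a b := by
        have := chi_lip (V x a) 0
        rw [chi_zero, sub_zero, sub_zero] at this
        exact this.trans hV
      calc |chi (V x a)| * |Psi fun i => Lf dp g Z T i x a| ≤ (C * slk F ξ x a b) * C :=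
            mul_le_mul h1 (H.PB _) (abs_nonneg _) (by positivity)
        _ = (C * C) * slk F ξ x a b := by ring
        _ ≤ _ := mul_le_mul_of_nonneg_right hK hs
  · by_cases hb : (b : U) ∈ S
    · rw [if_neg ha, if_pos hb, zero_sub, abs_neg, abs_mul]
      have h0 := H.VS x a ha
      rw [h0, zero_sub, abs_neg] at hV
      have h1 : |chi (V x b)| ≤ C * slk F ξ x a b := by
        have := chi_lip (V x b) 0
        rw [chi_zero, sub_zero, sub_zero] at this
        exact this.trans hV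
      calc |chi (V x b)| * |Psi fun i => Lf dp g Z T i x b| ≤ (C * slk F ξ x a b) * C :=
            mul_le_mul h1 (H.PB _) (abs_nonneg _) (by positivity)
        _ = (C * C) * slk F ξ x a b := by ring
        _ ≤ _ := mul_le_mul_of_nonneg_right hK hs
    · rw [if_neg ha, if_neg hb, sub_zero, abs_zero]
      exact mul_nonneg (KY_nonneg hC) hs

theorem Low.Y_bdry {x : F → ℝ} (hx : x ∈ ham F E ξ) {a : F} {b : U} (hb : b ∉ F) (hab : b ∈ nbr E a) :
    |Yw S dp g Z T V Psi x a| ≤ KY C * slk F ξ x a b := by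
  have hC := H.C0
  have hs := slk_nonneg (ξ := ξ) x (a : U) b
  have hK : C * C ≤ KY C := by unfold KY; nlinarith [mul_nonneg hC hC]
  unfold Yw
  split_ifs with ha
  · have h1 : |chi (V x a)| ≤ C * slk F ξ x a b := by
      have := chi_lip (V x a) 0
      rw [chi_zero, sub_zero, sub_zero] at this
      exact this.trans (H.VF x hx a b hb hab)
    rw [abs_mul]
    calc |chi (V x a)| * |Psi fun i => Lf dp g Z T i x a| ≤ (C * slk F ξ x a b) * C :=
          mul_le_mul h1 (H.PB _) (abs_nonneg _) (by positivity)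
      _ = (C * C) * slk F ξ x a b := by ring
      _ ≤ _ := mul_le_mul_of_nonneg_right hK hs
  · rw [abs_zero]
    exact mul_nonneg (KY_nonneg hC) hs

/-- **the trial field is tangent to the polytope.** -/
theorem Low.tan_Y : Tan (ham F E ξ) (Yw S dp g Z T V Psi) (KY C).toNNReal (1 / KY C) where
  lip := by
    refine LipschitzWith.of_dist_le_mul fun x y => ?_
    rw [dist_pi_le_iff (by positivity), Real.coe_toNNReal _ (KY_nonneg H.C0)]
    intro w
    rw [Real.dist_eq, dist_eq_norm]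
    exact H.Y_lip x y w
  pos := by
    have h1 := H.C1
    have : 0 < KY C := by unfold KY; positivity
    positivity
  inv := by
    intro x hx t ht p hp
    have h1 := H.C1
    have hK : 0 < KY C := by unfold KY; positivity
    set Y := Yw S dp g Z T V Psi x with hY
    -- extension of the field by zero
    have hext : ∀ u : U, ext F ξ (x + t • Y) u = ext F ξ x u + t * ext F 0 Y u := by
      intro u
      by_cases hu : u ∈ F
      · rw [ext_mem hu, ext_mem hu, ext_mem hu]; rfl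
      · rw [ext_notMem hu, ext_notMem hu, ext_notMem hu]; simp
    have hsl : ∀ a b : U, |ext F ξ x a - ext F ξ x b| ≤ 1 →
        slk F ξ x a b = 1 - |ext F ξ x a - ext F ξ x b| := by
      intro a b h
      unfold slk
      rw [max_eq_right (by linarith)]
    have hsym : ∀ a b : U, slk F ξ x a b = slk F ξ x b a := by
      intro a b
      unfold slk
      rw [abs_sub_comm]
    have hp1 := hx p hp
    have key : p.1 ≠ p.2 → |ext F 0 Y p.1 - ext F 0 Y p.2| ≤ KY C * slk F ξ x p.1 p.2 := by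
      intro hne
      have hn : p.2 ∈ nbr E p.1 := mem_nbr.mpr ⟨hne.symm, Or.inl hp⟩
      have hn' : p.1 ∈ nbr E p.2 := mem_nbr.mpr ⟨hne, Or.inr hp⟩
      by_cases ha : p.1 ∈ F
      · by_cases hb : p.2 ∈ F
        · rw [ext_mem ha, ext_mem hb]
          exact H.Y_edge hx (a := ⟨p.1, ha⟩) (b := ⟨p.2, hb⟩) hn
        · rw [ext_mem ha, ext_notMem hb, Pi.zero_apply, sub_zero]
          exact H.Y_bdry hx (a := ⟨p.1, ha⟩) hb hn
      · by_cases hb : p.2 ∈ F
        · rw [ext_notMem ha, ext_mem hb, Pi.zero_apply, zero_sub, abs_neg, hsym]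
          exact H.Y_bdry hx (a := ⟨p.2, hb⟩) ha hn'
        · rw [ext_notMem ha, ext_notMem hb, Pi.zero_apply, Pi.zero_apply, sub_self, abs_zero]
          exact mul_nonneg hK.le (slk_nonneg _ _ _)
    rw [hext, hext]
    by_cases hne : p.1 = p.2
    · rw [hne]; simp
    have h2 := key hne
    rw [hsl _ _ hp1] at h2
    have h4 : |t| * KY C ≤ 1 := by
      calc |t| * KY C ≤ 1 / KY C * KY C := by gcongr
        _ = 1 := by field_simp
    have h5 : |t * (ext F 0 Y p.1 - ext F 0 Y p.2)| ≤ 1 - |ext F ξ x p.1 - ext F ξ x p.2| := by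
      rw [abs_mul]
      calc |t| * |ext F 0 Y p.1 - ext F 0 Y p.2| ≤
            |t| * (KY C * (1 - |ext F ξ x p.1 - ext F ξ x p.2|)) := by gcongr
        _ = (|t| * KY C) * (1 - |ext F ξ x p.1 - ext F ξ x p.2|) := by ring
        _ ≤ 1 * (1 - |ext F ξ x p.1 - ext F ξ x p.2|) := by
            apply mul_le_mul_of_nonneg_right h4; linarith
        _ = _ := one_mul _
    calc |ext F ξ x p.1 + t * ext F 0 Y p.1 - (ext F ξ x p.2 + t * ext F 0 Y p.2)|
        = |(ext F ξ x p.1 - ext F ξ x p.2) + t * (ext F 0 Y p.1 - ext F 0 Y p.2)| := by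
          congr 1; ring
      _ ≤ |ext F ξ x p.1 - ext F ξ x p.2| + |t * (ext F 0 Y p.1 - ext F 0 Y p.2)| :=
          abs_add_le _ _
      _ ≤ 1 := by linarith

end

end Crest.Agent.R144.LoB95
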