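import Crest.Agent.R144.LoB2_95

/-!
# R144 (S0197), helper95, lower bound (trace form), file 3: the pointwise trace inequality

`Low.trace_le`: at a point `x` where everything is differentiable, where the cut-off field is `> 1`
as soon as `Psi` is alive, and where switched-on windows do not see deep sites,
`tr (jac Y * jac Y) ≤ ∑ blocks (∂_v Y_w)² + explicit terms`.
-/

set_option autoImplicit false
set_option linter.unusedSectionVars false

open MeasureTheory Set Filter Topology
open scoped ENNReal NNReal

noncomputable section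

namespace Crest.Agent.R144.LoB95

open Crest.Agent.R144.Ham560
open Crest.Agent.R144.MW121 (jac jac_apply Tan)
open Crest.Agent.R144.Fib674 (pd)

variable {U : Type*} [DecidableEq U] {F : Finset U} {E : Finset (U × U)} {ξ : U → ℝ}
variable {κ ι : Type*} [Fintype κ] [Fintype ι]

/-! ### partial derivatives -/

theorem pd_add {f h : (F → ℝ) → ℝ} {x : F → ℝ} (hf : DifferentiableAt ℝ f x)
    (hh : DifferentiableAt ℝ h x) (v : F) : pd v (fun y => f y + h y) x = pd v f x + pd v h x := by
  unfold pd
  rw [show (fun y => f y + h y) = f + h from rfl, fderiv_add hf hh]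
  rfl

theorem pd_mul {f h : (F → ℝ) → ℝ} {x : F → ℝ} (hf : DifferentiableAt ℝ f x)
    (hh : DifferentiableAt ℝ h x) (v : F) :
    pd v (fun y => f y * h y) x = pd v f x * h x + f x * pd v h x := by
  unfold pd
  rw [show (fun y => f y * h y) = f * h from rfl, fderiv_mul hf hh]
  simp only [ContinuousLinearMap.add_apply, _root_.smul_apply, smul_eq_mul]
  ring

theorem pd_congr {f h : (F → ℝ) → ℝ} {x : F → ℝ} (hfh : f =ᶠ[𝓝 x] h) (v : F) :
    pd v f x = pd v h x := by
  unfold pd
  rw [hfh.fderiv_eq]

theorem pd_eq_zero_of_line {f : (F → ℝ) → ℝ} {x : F → ℝ} (hf : DifferentiableAt ℝ f x) {v : F}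
    (h : ∀ t : ℝ, f (x + t • (Pi.single v 1 : F → ℝ)) = f x) : pd v f x = 0 := by
  unfold pd
  rw [← hf.lineDeriv_eq_fderiv]
  unfold lineDeriv
  simp only [h, deriv_const]

/-- a function with values in `[0,1]` has zero derivative where it vanishes -/
theorem pd_eq_zero_of_min {f : (F → ℝ) → ℝ} {x : F → ℝ} (h0 : ∀ y, 0 ≤ f y) (hx : f x = 0)
    (v : F) : pd v f x = 0 := by
  unfold pd
  have : IsLocalMin f x := Filter.Eventually.of_forall fun y => by rw [hx]; exact h0 y
  rw [this.fderiv_eq_zero]
  rfl

/-- sites of `F` in `A` -/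
def inF (F A : Finset U) : Finset F := Finset.univ.filter fun v : F => (v : U) ∈ A

@[simp] theorem mem_inF {A : Finset U} {v : F} : v ∈ inF F A ↔ (v : U) ∈ A := by simp [inF]

/-! ### the objects at a point -/

section

variable (S : Finset U) (I dp W : ι → Finset U) (g : ι → (F → ℝ) → ℝ)
  (Z T : κ → (F → ℝ) → F → ℝ) (V : (F → ℝ) → F → ℝ) (Psi : (κ → ℝ) → ℝ)

/-- gradient of `Psi` at the label `w` -/
def pw [DecidableEq κ] (x : F → ℝ) (w : F) (i : κ) : ℝ :=
  if (w : U) ∈ S then fderiv ℝ Psi (fun i => Lf dp g Z T i x w) (Pi.single i 1) else 0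

/-- its square norm -/
def nP [DecidableEq κ] (x : F → ℝ) (w : F) : ℝ := ∑ i, pw S dp g Z T Psi x w i ^ 2

/-- derivative of the cut-off seen by `w` -/
def dG (x : F → ℝ) (w v : F) : ℝ := ∑ q, if (w : U) ∈ dp q then pd v (g q) x else 0

/-- square of the derivative of the explicit field -/
def eZ (x : F → ℝ) (w v : F) : ℝ := ∑ i, pd v (fun y => Z i y w) x ^ 2

/-- square norm of the template at the label `w` -/
def eT (x : F → ℝ) (w : F) : ℝ := ∑ i, T i x w ^ 2

/-- squared gradient of the cut-off `q` -/
def eg (x : F → ℝ) (q : ι) : ℝ := ∑ v, pd v (g q) x ^ 2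

/-- squared derivatives of the trial field inside the block `q` -/
def blk [DecidableEq κ] (x : F → ℝ) (q : ι) : ℝ :=
  ∑ w ∈ inF F (I q), ∑ v ∈ inF F (I q),
    (∑ i, pw S dp g Z T Psi x w i * pd v (fun y => Lf dp g Z T i y w) x) ^ 2

/-- points where all data are differentiable -/
structure DAt (x : F → ℝ) : Prop where
  Z : ∀ i (w : F), DifferentiableAt ℝ (fun y => Z i y w) x
  T : ∀ i (w : F), DifferentiableAt ℝ (fun y => T i y w) x
  g : ∀ q, DifferentiableAt ℝ (g q) x

/-- good points -/
structure GAt (x : F → ℝ) : Prop where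
  cut : ∀ w : F, (w : U) ∈ S → (fun i => Lf dp g Z T i x w) ∈ tsupport Psi → 1 < V x w
  see : ∀ q, 0 < g q x → ∀ v w : F, (v : U) ∈ W q → (v : U) ∉ I q → (w : U) ∈ dp q →
    ∀ i, pd w (fun y => Z i y v) x = 0

end

section

variable {S : Finset U} {I dp W : ι → Finset U} {g : ι → (F → ℝ) → ℝ}
  {Z T : κ → (F → ℝ) → F → ℝ} {V : (F → ℝ) → F → ℝ} {Psi : (κ → ℝ) → ℝ} {x : F → ℝ}

theorem diff_Gw (hd : DAt g Z T x) (w : F) : DifferentiableAt ℝ (fun y => Gw dp g y w) x := by
  unfold Gw
  refine DifferentiableAt.fun_sum fun q _ => ?_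
  split_ifs
  · exact hd.g q
  · exact differentiableAt_const _

theorem pd_Gw (hd : DAt g Z T x) (w v : F) : pd v (fun y => Gw dp g y w) x = dG dp g x w v := by
  unfold pd dG Gw
  rw [fderiv_fun_sum]
  · rw [_root_.sum_apply]
    refine Finset.sum_congr rfl fun q _ => ?_
    split_ifs
    · rfl
    · simp
  · intro q _
    split_ifs
    · exact hd.g q
    · exact differentiableAt_const _

theorem diff_L (hd : DAt g Z T x) (i : κ) (w : F) :
    DifferentiableAt ℝ (fun y => Lf dp g Z T i y w) x := by
  unfold Lf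
  exact (hd.Z i w).add ((diff_Gw hd w).mul (hd.T i w))

theorem pd_L (hd : DAt g Z T x) (i : κ) (w v : F) :
    pd v (fun y => Lf dp g Z T i y w) x = pd v (fun y => Z i y w) x +
      (dG dp g x w v * T i x w + Gw dp g x w * pd v (fun y => T i y w) x) := by
  unfold Lf
  rw [pd_add (f := fun y => Z i y w) (h := fun y => Gw dp g y w * T i y w) (hd.Z i w)
    ((diff_Gw hd w).mul (hd.T i w)), pd_mul (diff_Gw hd w) (hd.T i w), pd_Gw hd]

theorem dG_eq (bg : BG E S I dp W) (x : F → ℝ) {w : F} {q : ι} (h : (w : U) ∈ dp q) (v : F) :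
    dG dp g x w v = pd v (g q) x := by
  classical
  rw [dG, Finset.sum_eq_single q]
  · rw [if_pos h]
  · intro q' _ hq
    rw [if_neg]
    intro h'
    exact hq (bg.disj _ _ _ (bg.sub _ h') (bg.sub _ h))
  · intro h'; exact absurd (Finset.mem_univ q) h'

theorem dG_eq_zero (x : F → ℝ) {w : F} (h : ∀ q, (w : U) ∉ dp q) (v : F) : dG dp g x w v = 0 :=
  Finset.sum_eq_zero fun q _ => by rw [if_neg (h q)]

variable [DecidableEq κ] {C : ℝ}

/-- derivative of one component of the trial field -/
theorem hasFDerivAt_Y (H : Low F E ξ S I dp W g Z T V Psi C) (hP : Differentiable ℝ Psi)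
    (hd : DAt g Z T x) (hg : GAt S I dp W g Z T V Psi x) (w : F) :
    HasFDerivAt (fun y => Yw S dp g Z T V Psi y w)
      (∑ i, pw S dp g Z T Psi x w i • fderiv ℝ (fun y => Lf dp g Z T i y w) x) x := by
  by_cases hw : (w : U) ∈ S
  · -- chain rule
    have hL : HasFDerivAt (fun y => (fun i => Lf dp g Z T i y w))
        (ContinuousLinearMap.pi fun i => fderiv ℝ (fun y => Lf dp g Z T i y w) x) x := by
      rw [hasFDerivAt_pi]
      exact fun i => (diff_L hd i w).hasFDerivAt
    have hc : HasFDerivAt (fun y => Psi (fun i => Lf dp g Z T i y w))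
        ((fderiv ℝ Psi (fun i => Lf dp g Z T i x w)).comp
          (ContinuousLinearMap.pi fun i => fderiv ℝ (fun y => Lf dp g Z T i y w) x)) x :=
      (hP _).hasFDerivAt.comp x hL
    have e : (fderiv ℝ Psi (fun i => Lf dp g Z T i x w)).comp
          (ContinuousLinearMap.pi fun i => fderiv ℝ (fun y => Lf dp g Z T i y w) x) =
        ∑ i, pw S dp g Z T Psi x w i • fderiv ℝ (fun y => Lf dp g Z T i y w) x := by
      ext z
      simp only [ContinuousLinearMap.comp_apply, _root_.sum_apply,
        _root_.smul_apply, smul_eq_mul]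
      set u : κ → ℝ := ContinuousLinearMap.pi (fun i => fderiv ℝ (fun y => Lf dp g Z T i y w) x) z
      have hu : u = ∑ i, u i • (Pi.single i 1 : κ → ℝ) := by
        funext j
        simp [Finset.sum_apply, Pi.single_apply]
      conv_lhs => rw [hu]
      rw [map_sum]
      refine Finset.sum_congr rfl fun i _ => ?_
      rw [map_smul, smul_eq_mul, mul_comm, pw, if_pos hw]
      rfl
    rw [e] at hc
    have hcL : ContinuousAt (fun y => (fun i => Lf dp g Z T i y w)) x := hL.continuousAt
    by_cases ht : (fun i => Lf dp g Z T i x w) ∈ tsupport Psi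
    · have h1 := hg.cut w hw ht
      have hVc : Continuous fun y => V y w := by
        have : LipschitzWith C.toNNReal (fun y => V y w) := by
          refine LipschitzWith.of_dist_le_mul fun y z => ?_
          rw [Real.dist_eq, dist_eq_norm, Real.coe_toNNReal _ H.C0]
          exact H.fV.lip y z w
        exact this.continuous
      have h2 : ∀ᶠ y in 𝓝 x, 1 < V y w := (hVc.tendsto x).eventually (lt_mem_nhds h1)
      refine hc.congr_of_eventuallyEq ?_
      filter_upwards [h2] with y hy
      rw [Yw, if_pos hw, chi_one hy.le, one_mul]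
    · -- both sides vanish near `x`
      have h0 : ∀ᶠ l in 𝓝 (fun i => Lf dp g Z T i x w), Psi l = 0 := by
        have := (isClosed_tsupport Psi).isOpen_compl.mem_nhds ht
        filter_upwards [this] with l hl
        exact image_eq_zero_of_notMem_tsupport hl
      refine hc.congr_of_eventuallyEq ?_
      filter_upwards [hcL.eventually h0] with y hy
      rw [Yw, if_pos hw, hy, mul_zero]
  · have e : ∑ i, pw S dp g Z T Psi x w i • fderiv ℝ (fun y => Lf dp g Z T i y w) x = 0 :=
      Finset.sum_eq_zero fun i _ => by rw [pw, if_neg hw, zero_smul]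
    rw [e]
    have : (fun y => Yw S dp g Z T V Psi y w) = fun _ => 0 := by
      funext y; rw [Yw, if_neg hw]
    rw [this]
    exact hasFDerivAt_const _ _

theorem jac_Y (H : Low F E ξ S I dp W g Z T V Psi C) (hP : Differentiable ℝ Psi)
    (hd : DAt g Z T x) (hg : GAt S I dp W g Z T V Psi x) (w v : F) :
    jac (Yw S dp g Z T V Psi) x w v =
      ∑ i, pw S dp g Z T Psi x w i * pd v (fun y => Lf dp g Z T i y w) x := by
  have h : HasFDerivAt (Yw S dp g Z T V Psi)
      (ContinuousLinearMap.pi fun w => ∑ i, pw S dp g Z T Psi x w i •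
        fderiv ℝ (fun y => Lf dp g Z T i y w) x) x := by
    rw [hasFDerivAt_pi]
    exact fun w => hasFDerivAt_Y H hP hd hg w
  rw [jac_apply, h.fderiv]
  simp [pd, _root_.sum_apply]

open Classical in
/-- **the pointwise trace inequality** -/
theorem Low.trace_le (H : Low F E ξ S I dp W g Z T V Psi C) (hP : Differentiable ℝ Psi)
    (hd : DAt g Z T x) (hg : GAt S I dp W g Z T V Psi x) :
    (jac (Yw S dp g Z T V Psi) x * jac (Yw S dp g Z T V Psi) x).trace ≤
      ∑ q, blk S I dp g Z T Psi x q +
      ∑ w : F, (if ¬ ∃ q, (w : U) ∈ dp q then nP S dp g Z T Psi x w * ∑ v, eZ Z x w v else 0) +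
      2 * (∑ w : F, nP S dp g Z T Psi x w *
          (∑ v : F, if Crs (fun q => inF F (I q)) (fun q => inF F (dp q)) w v then eZ Z x w v else 0) +
        ∑ q, ∑ w ∈ inF F (dp q), nP S dp g Z T Psi x w * eT T x w * eg g x q) := by
  set p := pw S dp g Z T Psi x with hp
  set J : F → F → ℝ := fun w v => jac (Yw S dp g Z T V Psi) x w v with hJ
  set A : F → F → ℝ := fun w v => ∑ i, p w i * pd v (fun y => Z i y w) x with hA
  set B : F → F → ℝ := fun w v => dG dp g x w v * ∑ i, p w i * T i x w with hB
  set D : F → F → ℝ := fun w v => Gw dp g x w * ∑ i, p w i * pd v (fun y => T i y w) x with hD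
  have bg := H.bg
  have hdeep : ∀ w : F, Deep (fun q => inF F (dp q)) w ↔ ∃ q, (w : U) ∈ dp q := by
    intro w
    unfold Deep
    simp only [mem_inF]
  have hG : Geom (fun q => inF F (I q)) (fun q => inF F (dp q)) (fun q => inF F (W q)) :=
    { sub := fun q v hv => by
        rw [mem_inF] at hv ⊢
        exact bg.sub q hv
      disj := fun q q' v h1 h2 => bg.disj q q' v (mem_inF.mp h1) (mem_inF.mp h2)
      win := fun q q' v h1 h2 => bg.win q q' v (mem_inF.mp h1) (mem_inF.mp h2) }
  have h1 := LoB95.trace_le hG (J := J) (A := A) (B := B) (C := D)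
    (fun w v => by
      simp only [hJ, hA, hB, hD]
      rw [jac_Y H hP hd hg, Finset.mul_sum, Finset.mul_sum, ← Finset.sum_add_distrib,
        ← Finset.sum_add_distrib]
      refine Finset.sum_congr rfl fun i _ => ?_
      rw [pd_L hd]
      ring)
    (fun w v hw => by
      rw [hdeep] at hw
      push Not at hw
      simp only [hB]
      rw [dG_eq_zero x hw, zero_mul])
    (fun w v hw => by
      rw [hdeep] at hw
      push Not at hw
      simp only [hD]
      rw [Gw_eq_zero x hw, zero_mul])
    (fun q w v hw hv => by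
      rw [mem_inF] at hw hv
      simp only [hD]
      rw [Finset.sum_eq_zero, mul_zero]
      intro i _
      rw [pd_eq_zero_of_line (hd.T i w) fun t => H.TW i x q w v t hw hv, mul_zero])
    (fun q w v hw hv hvI => by
      rw [mem_inF] at hw hv hvI
      by_cases h0 : g q x = 0
      · left
        simp only [hD]
        rw [Gw_eq bg x hw, h0, zero_mul]
      · right
        have hpos : 0 < g q x := lt_of_le_of_ne (H.g0 q x) (Ne.symm h0)
        simp only [hA]
        refine Finset.sum_eq_zero fun i _ => ?_
        rw [hg.see q hpos v w hv hvI hw i, mul_zero])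
  have etr : (jac (Yw S dp g Z T V Psi) x * jac (Yw S dp g Z T V Psi) x).trace =
      ∑ w, ∑ v, J w v * J v w := by
    simp only [Matrix.trace, Matrix.diag, Matrix.mul_apply, hJ]
  rw [etr]
  refine h1.trans ?_
  have hA2 : ∀ w v, A w v ^ 2 ≤ nP S dp g Z T Psi x w * eZ Z x w v := by
    intro w v
    exact Finset.sum_mul_sq_le_sq_mul_sq _ _ _
  have hnP : ∀ w, 0 ≤ nP S dp g Z T Psi x w := fun w => Finset.sum_nonneg fun _ _ => sq_nonneg _
  have heZ : ∀ w v, 0 ≤ eZ Z x w v := fun w v => Finset.sum_nonneg fun _ _ => sq_nonneg _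
  refine add_le_add (add_le_add (le_of_eq ?_) ?_) ?_
  · refine Finset.sum_congr rfl fun q _ => ?_
    unfold blk
    refine Finset.sum_congr rfl fun w _ => Finset.sum_congr rfl fun v _ => ?_
    simp only [hJ]
    rw [jac_Y H hP hd hg]
  · refine Finset.sum_le_sum fun w _ => ?_
    simp only [hdeep]
    split_ifs
    · exact le_rfl
    · rw [Finset.mul_sum]
      exact Finset.sum_le_sum fun v _ => hA2 w v
  · refine mul_le_mul_of_nonneg_left ?_ zero_le_two
    have h2 : ∑ w, ∑ v, (if Crs (fun q => inF F (I q)) (fun q => inF F (dp q)) w v then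
        A w v ^ 2 + B w v ^ 2 else 0) ≤
        ∑ w, ∑ v, ((if Crs (fun q => inF F (I q)) (fun q => inF F (dp q)) w v then
          nP S dp g Z T Psi x w * eZ Z x w v else 0) + B w v ^ 2) := by
      refine Finset.sum_le_sum fun w _ => Finset.sum_le_sum fun v _ => ?_
      split_ifs
      · linarith [hA2 w v]
      · linarith [sq_nonneg (B w v)]
    refine h2.trans ?_
    simp only [Finset.sum_add_distrib]
    refine add_le_add (le_of_eq ?_) ?_
    · refine Finset.sum_congr rfl fun w _ => ?_
      rw [Finset.mul_sum]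
      refine Finset.sum_congr rfl fun v _ => ?_
      split_ifs <;> ring
    · -- the cut-off part
      have h3 : ∀ w : F, ∑ v, B w v ^ 2 ≤
          ∑ q, if (w : U) ∈ dp q then nP S dp g Z T Psi x w * eT T x w * eg g x q else 0 := by
        intro w
        by_cases hw : ∃ q, (w : U) ∈ dp q
        · obtain ⟨q, hq⟩ := hw
          have h4 : ∑ v, B w v ^ 2 ≤ nP S dp g Z T Psi x w * eT T x w * eg g x q := by
            have h5 : ∀ v, B w v ^ 2 ≤ nP S dp g Z T Psi x w * eT T x w * pd v (g q) x ^ 2 := by
              intro v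
              simp only [hB]
              rw [dG_eq bg x hq, mul_pow, mul_comm]
              refine mul_le_mul_of_nonneg_right ?_ (sq_nonneg _)
              exact Finset.sum_mul_sq_le_sq_mul_sq _ _ _
            refine (Finset.sum_le_sum fun v _ => h5 v).trans (le_of_eq ?_)
            rw [← Finset.mul_sum]
            rfl
          refine h4.trans ?_
          have h6 : ∀ q', 0 ≤ (if (w : U) ∈ dp q' then
              nP S dp g Z T Psi x w * eT T x w * eg g x q' else 0) := by
            intro q'
            split_ifs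
            · exact mul_nonneg (mul_nonneg (hnP w) (Finset.sum_nonneg fun _ _ => sq_nonneg _))
                (Finset.sum_nonneg fun _ _ => sq_nonneg _)
            · exact le_rfl
          refine le_trans (le_of_eq ?_) (Finset.single_le_sum (fun q' _ => h6 q') (Finset.mem_univ q))
          rw [if_pos hq]
        · push Not at hw
          have h4 : ∀ v, B w v ^ 2 = 0 := by
            intro v
            simp only [hB]
            rw [dG_eq_zero x hw, zero_mul, zero_pow two_ne_zero]
          rw [Finset.sum_eq_zero fun v _ => h4 v]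
          refine Finset.sum_nonneg fun q _ => ?_
          rw [if_neg (hw q)]
      refine (Finset.sum_le_sum fun w _ => h3 w).trans (le_of_eq ?_)
      rw [Finset.sum_comm]
      refine Finset.sum_congr rfl fun q _ => ?_
      rw [inF, Finset.sum_filter]

end

end Crest.Agent.R144.LoB95
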