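import Crest.Agent.R144.LoB3_95

/-!
# R144 (S0197), helper95, lower bound (trace form), file 4: the energy inside a block

`blk_le`: at a good point, with `ξ` the (constant) slope of the block and `Zl` the window version of
`Z`, the sum over the block of `(∂_v Y_w)²` is at most `(1+θ)²` times the LOCAL functional
`Qb = ∑_{w,v ∈ I q} (ξ · ∂_v (Zl + T)_w)²` plus explicit errors.
-/

set_option autoImplicit false
set_option linter.unusedSectionVars false

open MeasureTheory Set Filter Topology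
open scoped ENNReal NNReal

noncomputable section

namespace Crest.Agent.R144.LoB95

open Crest.Agent.R144.Ham560
open Crest.Agent.R144.MW121 (jac jac_apply Tan)
open Crest.Agent.R144.Fib674 (pd)

theorem sq_add_le (a b : ℝ) {θ : ℝ} (hθ : 0 < θ) :
    (a + b) ^ 2 ≤ (1 + θ) * a ^ 2 + (1 + θ⁻¹) * b ^ 2 := by
  have h1 : 0 ≤ (θ * a - b) ^ 2 * θ⁻¹ := by positivity
  have h2 : (θ * a - b) ^ 2 * θ⁻¹ = θ * a ^ 2 - 2 * a * b + θ⁻¹ * b ^ 2 := by
    field_simp
    ring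
  nlinarith

theorem convex_sq (a b : ℝ) {g : ℝ} (h0 : 0 ≤ g) (h1 : g ≤ 1) :
    ((1 - g) * a + g * b) ^ 2 ≤ (1 - g) * a ^ 2 + g * b ^ 2 := by
  nlinarith [mul_nonneg (mul_nonneg (sub_nonneg.mpr h1) h0) (sq_nonneg (a - b))]

theorem sum4 {V : Type*} (s : Finset V) (a b c d : V → V → ℝ) (A1 A2 A3 : ℝ) :
    ∑ w ∈ s, ∑ v ∈ s, (A1 * (a w v + b w v) + A2 * c w v + A3 * d w v) =
      A1 * ((∑ w ∈ s, ∑ v ∈ s, a w v) + ∑ w ∈ s, ∑ v ∈ s, b w v) +
        A2 * (∑ w ∈ s, ∑ v ∈ s, c w v) + A3 * ∑ w ∈ s, ∑ v ∈ s, d w v := by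
  simp only [Finset.sum_add_distrib, mul_add, ← Finset.mul_sum]

/-- one pair of sites -/
theorem pair_blk {κ : Type*} [Fintype κ] (p s z t l : κ → ℝ) {g d θ : ℝ} (hθ : 0 < θ)
    (h0 : 0 ≤ g) (h1 : g ≤ 1) (τ : κ → ℝ) (hl : ∀ i, l i = z i + (d * τ i + g * t i)) :
    (∑ i, p i * l i) ^ 2 ≤
      (1 + θ) ^ 2 * ((1 - g) * ((∑ i, s i ^ 2) * ∑ i, z i ^ 2) +
        g * (∑ i, s i * (z i + t i)) ^ 2) +
      (1 + θ) * (1 + θ⁻¹) * ((∑ i, s i ^ 2) * (∑ i, τ i ^ 2) * d ^ 2) +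
      (1 + θ⁻¹) * ((∑ i, (p i - s i) ^ 2) * ∑ i, l i ^ 2) := by
  have e1 : ∑ i, p i * l i = (∑ i, s i * l i) + ∑ i, (p i - s i) * l i := by
    rw [← Finset.sum_add_distrib]
    exact Finset.sum_congr rfl fun i _ => by ring
  have e2 : ∑ i, s i * l i = ((1 - g) * (∑ i, s i * z i) + g * ∑ i, s i * (z i + t i)) +
      d * ∑ i, s i * τ i := by
    simp only [hl, Finset.mul_sum]
    rw [← Finset.sum_add_distrib, ← Finset.sum_add_distrib]
    exact Finset.sum_congr rfl fun i _ => by ring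
  have cs1 : (∑ i, (p i - s i) * l i) ^ 2 ≤ (∑ i, (p i - s i) ^ 2) * ∑ i, l i ^ 2 :=
    Finset.sum_mul_sq_le_sq_mul_sq _ _ _
  have cs2 : (∑ i, s i * z i) ^ 2 ≤ (∑ i, s i ^ 2) * ∑ i, z i ^ 2 :=
    Finset.sum_mul_sq_le_sq_mul_sq _ _ _
  have cs3 : (∑ i, s i * τ i) ^ 2 ≤ (∑ i, s i ^ 2) * ∑ i, τ i ^ 2 :=
    Finset.sum_mul_sq_le_sq_mul_sq _ _ _
  have hθ' : 0 < θ⁻¹ := inv_pos.mpr hθ
  rw [e1]
  refine (sq_add_le _ _ hθ).trans ?_
  have h2 : (∑ i, s i * l i) ^ 2 ≤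
      (1 + θ) * ((1 - g) * ((∑ i, s i ^ 2) * ∑ i, z i ^ 2) +
        g * (∑ i, s i * (z i + t i)) ^ 2) +
      (1 + θ⁻¹) * ((∑ i, s i ^ 2) * (∑ i, τ i ^ 2) * d ^ 2) := by
    rw [e2]
    refine (sq_add_le _ _ hθ).trans (add_le_add ?_ ?_)
    · refine mul_le_mul_of_nonneg_left ?_ (by positivity)
      refine (convex_sq _ _ h0 h1).trans ?_
      exact add_le_add (mul_le_mul_of_nonneg_left cs2 (sub_nonneg.mpr h1)) le_rfl
    · refine mul_le_mul_of_nonneg_left ?_ (by positivity)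
      rw [mul_pow, mul_comm]
      exact mul_le_mul_of_nonneg_right cs3 (sq_nonneg _)
  have h3 := mul_le_mul_of_nonneg_left h2 (show (0:ℝ) ≤ 1 + θ by positivity)
  have h4 := mul_le_mul_of_nonneg_left cs1 (show (0:ℝ) ≤ 1 + θ⁻¹ by positivity)
  calc _ ≤ _ := add_le_add h3 h4
    _ = _ := by ring

variable {U : Type*} [DecidableEq U] {F : Finset U} {E : Finset (U × U)} {ξ : U → ℝ}
variable {κ ι : Type*} [Fintype κ] [Fintype ι]

/-- the local functional of a block -/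
def Qb (I : Finset U) (s : κ → ℝ) (Zl T : κ → (F → ℝ) → F → ℝ) (x : F → ℝ) : ℝ :=
  ∑ w ∈ inF F I, ∑ v ∈ inF F I,
    (∑ i, s i * (pd v (fun y => Zl i y w) x + pd v (fun y => T i y w) x)) ^ 2

theorem Qb_nonneg (I : Finset U) (s : κ → ℝ) (Zl T : κ → (F → ℝ) → F → ℝ) (x : F → ℝ) :
    0 ≤ Qb I s Zl T x :=
  Finset.sum_nonneg fun _ _ => Finset.sum_nonneg fun _ _ => sq_nonneg _

section

variable {S : Finset U} {I dp W : ι → Finset U} {g : ι → (F → ℝ) → ℝ}
  {Z T : κ → (F → ℝ) → F → ℝ} {V : (F → ℝ) → F → ℝ} {Psi : (κ → ℝ) → ℝ} {x : F → ℝ}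
  [DecidableEq κ] {C : ℝ}

open Classical in
/-- **the energy inside a block.** -/
theorem blk_le (H : Low F E ξ S I dp W g Z T V Psi C) (hd : DAt g Z T x) (q : ι)
    (s : κ → ℝ) (Zl : κ → (F → ℝ) → F → ℝ) {θ K : ℝ} (hθ : 0 < θ)
    (hloc : 0 < g q x → ∀ w : F, (w : U) ∈ I q → ∀ i v,
      pd v (fun y => Z i y w) x = pd v (fun y => Zl i y w) x)
    (hK : ∀ i (w v : F), |pd v (fun y => Lf dp g Z T i y w) x| ≤ K) :
    blk S I dp g Z T Psi x q ≤
      (1 + θ) ^ 2 * (Qb (I q) s Zl T x +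
        (if g q x < 1 then (∑ i, s i ^ 2) * ∑ w ∈ inF F (I q), ∑ v, eZ Z x w v else 0)) +
      (1 + θ) * (1 + θ⁻¹) * ((∑ i, s i ^ 2) * (∑ w ∈ inF F (I q), eT T x w) * eg g x q) +
      (1 + θ⁻¹) * (Fintype.card κ * K ^ 2 * (inF F (I q)).card *
        ∑ w ∈ inF F (I q), ∑ i, (pw S dp g Z T Psi x w i - s i) ^ 2) := by
  have hg0 := H.g0 q x
  have hg1 := H.g1 q x
  have hθ' : 0 < θ⁻¹ := inv_pos.mpr hθ
  -- one pair
  have key : ∀ w ∈ inF F (I q), ∀ v : F,
      (∑ i, pw S dp g Z T Psi x w i * pd v (fun y => Lf dp g Z T i y w) x) ^ 2 ≤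
      (1 + θ) ^ 2 * ((∑ i, s i * (pd v (fun y => Zl i y w) x + pd v (fun y => T i y w) x)) ^ 2 +
        (if g q x < 1 then (∑ i, s i ^ 2) * eZ Z x w v else 0)) +
      (1 + θ) * (1 + θ⁻¹) * ((∑ i, s i ^ 2) * eT T x w * pd v (g q) x ^ 2) +
      (1 + θ⁻¹) * ((∑ i, (pw S dp g Z T Psi x w i - s i) ^ 2) * (Fintype.card κ * K ^ 2)) := by
    intro w hw v
    rw [mem_inF] at hw
    -- the derivative of `L` with the cut-off of the block
    have hl : ∀ i, pd v (fun y => Lf dp g Z T i y w) x = pd v (fun y => Z i y w) x +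
        (pd v (g q) x * T i x w + g q x * pd v (fun y => T i y w) x) := by
      intro i
      rw [pd_L hd]
      by_cases hdp : (w : U) ∈ dp q
      · rw [dG_eq H.bg x hdp, Gw_eq H.bg x hdp]
      · have hnd : ∀ q', (w : U) ∉ dp q' := by
          intro q' h'
          have : q = q' := H.bg.disj _ _ _ hw (H.bg.sub _ h')
          exact hdp (this ▸ h')
        have h1 : ∀ y, T i y w = 0 := fun y => H.T0 i y w hnd
        have h2 : pd v (fun y => T i y w) x = 0 := by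
          have : (fun y => T i y w) = fun _ => 0 := funext h1
          rw [this]; simp [pd]
        rw [dG_eq_zero x hnd, Gw_eq_zero x hnd, h1 x, h2]
        ring
    refine (pair_blk (pw S dp g Z T Psi x w) s (fun i => pd v (fun y => Z i y w) x)
      (fun i => pd v (fun y => T i y w) x) (fun i => pd v (fun y => Lf dp g Z T i y w) x)
      hθ hg0 hg1 (fun i => T i x w) hl).trans ?_
    refine add_le_add (add_le_add ?_ le_rfl) ?_
    · refine mul_le_mul_of_nonneg_left ?_ (by positivity)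
      rw [add_comm]
      refine add_le_add ?_ ?_
      · by_cases h0 : 0 < g q x
        · have e : ∑ i, s i * (pd v (fun y => Z i y w) x + pd v (fun y => T i y w) x) =
              ∑ i, s i * (pd v (fun y => Zl i y w) x + pd v (fun y => T i y w) x) :=
            Finset.sum_congr rfl fun i _ => by rw [hloc h0 w hw i v]
          rw [e]
          calc _ ≤ 1 * _ := mul_le_mul_of_nonneg_right hg1 (sq_nonneg _)
            _ = _ := one_mul _
        · have h0' : g q x = 0 := le_antisymm (not_lt.mp h0) hg0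
          rw [h0', zero_mul]
          exact sq_nonneg _
      · split_ifs with h
        · have h5 : 0 ≤ (∑ i, s i ^ 2) * eZ Z x w v :=
            mul_nonneg (Finset.sum_nonneg fun _ _ => sq_nonneg _)
              (Finset.sum_nonneg fun _ _ => sq_nonneg _)
          calc (1 - g q x) * ((∑ i, s i ^ 2) * eZ Z x w v) ≤ 1 * ((∑ i, s i ^ 2) * eZ Z x w v) :=
                mul_le_mul_of_nonneg_right (by linarith) h5
            _ = _ := one_mul _
        · have : g q x = 1 := le_antisymm hg1 (not_lt.mp h)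
          rw [this, sub_self, zero_mul]
    · refine mul_le_mul_of_nonneg_left ?_ (by positivity)
      refine mul_le_mul_of_nonneg_left ?_ (Finset.sum_nonneg fun _ _ => sq_nonneg _)
      calc ∑ i, pd v (fun y => Lf dp g Z T i y w) x ^ 2 ≤ ∑ _i : κ, K ^ 2 := by
            refine Finset.sum_le_sum fun i _ => ?_
            rw [← sq_abs]
            exact pow_le_pow_left₀ (abs_nonneg _) (hK i w v) 2
        _ = Fintype.card κ * K ^ 2 := by simp
  have h1 : blk S I dp g Z T Psi x q ≤ ∑ w ∈ inF F (I q), ∑ v ∈ inF F (I q),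
      ((1 + θ) ^ 2 * ((∑ i, s i * (pd v (fun y => Zl i y w) x + pd v (fun y => T i y w) x)) ^ 2 +
        (if g q x < 1 then (∑ i, s i ^ 2) * eZ Z x w v else 0)) +
      (1 + θ) * (1 + θ⁻¹) * ((∑ i, s i ^ 2) * eT T x w * pd v (g q) x ^ 2) +
      (1 + θ⁻¹) * ((∑ i, (pw S dp g Z T Psi x w i - s i) ^ 2) * (Fintype.card κ * K ^ 2))) :=
    Finset.sum_le_sum fun w hw => Finset.sum_le_sum fun v _ => key w hw v
  refine h1.trans ?_
  rw [sum4]
  have hS : 0 ≤ ∑ i, s i ^ 2 := Finset.sum_nonneg fun _ _ => sq_nonneg _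
  have t1 : (1 + θ) ^ 2 * ∑ w ∈ inF F (I q), ∑ v ∈ inF F (I q),
      (if g q x < 1 then (∑ i, s i ^ 2) * eZ Z x w v else 0) ≤
      (1 + θ) ^ 2 * (if g q x < 1 then (∑ i, s i ^ 2) * ∑ w ∈ inF F (I q), ∑ v, eZ Z x w v
        else 0) := by
    refine mul_le_mul_of_nonneg_left ?_ (by positivity)
    split_ifs
    · rw [Finset.mul_sum]
      refine Finset.sum_le_sum fun w _ => ?_
      rw [← Finset.mul_sum]
      refine mul_le_mul_of_nonneg_left ?_ hS
      exact Finset.sum_le_sum_of_subset_of_nonneg (Finset.subset_univ _)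
        fun _ _ _ => Finset.sum_nonneg fun _ _ => sq_nonneg _
    · simp
  have t2 : ∑ w ∈ inF F (I q), ∑ v ∈ inF F (I q), (∑ i, s i ^ 2) * eT T x w * pd v (g q) x ^ 2 ≤
      (∑ i, s i ^ 2) * (∑ w ∈ inF F (I q), eT T x w) * eg g x q := by
    rw [Finset.mul_sum, Finset.sum_mul]
    refine Finset.sum_le_sum fun w _ => ?_
    rw [← Finset.mul_sum]
    refine mul_le_mul_of_nonneg_left ?_ (mul_nonneg hS (Finset.sum_nonneg fun _ _ => sq_nonneg _))
    exact Finset.sum_le_sum_of_subset_of_nonneg (Finset.subset_univ _) fun _ _ _ => sq_nonneg _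
  have t3 : ∑ w ∈ inF F (I q), ∑ _v ∈ inF F (I q),
      (∑ i, (pw S dp g Z T Psi x w i - s i) ^ 2) * (Fintype.card κ * K ^ 2) =
      Fintype.card κ * K ^ 2 * (inF F (I q)).card *
        ∑ w ∈ inF F (I q), ∑ i, (pw S dp g Z T Psi x w i - s i) ^ 2 := by
    simp only [Finset.sum_const, nsmul_eq_mul]
    rw [Finset.mul_sum]
    exact Finset.sum_congr rfl fun w _ => by ring
  rw [t3]
  have t2' := mul_le_mul_of_nonneg_left t2 (show (0:ℝ) ≤ (1 + θ) * (1 + θ⁻¹) by positivity)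
  have e0 : ∑ w ∈ inF F (I q), ∑ v ∈ inF F (I q),
      (∑ i, s i * (pd v (fun y => Zl i y w) x + pd v (fun y => T i y w) x)) ^ 2 =
      Qb (I q) s Zl T x := rfl
  rw [e0, mul_add, mul_add]
  linarith

end

end Crest.Agent.R144.LoB95
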