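import Crest.Agent.R144.LoB5_95

/-!
# R144 (S0197), helper95, lower bound (trace form), file 6: 560's field in the trace inequality

`Gm` : geometry (active sites `S`, blocks `I q`, deep parts, windows `W q`, neighbourhoods `N q`,
metric `dd`), `Tm` : templates.  `exists_low`, `tan_inst` (the trial field is tangent),
`gat_inst`, `dat_ae`, and the final pointwise inequality `main`.
-/

set_option autoImplicit false
set_option linter.unusedSectionVars false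

open MeasureTheory Set Filter Topology
open scoped ENNReal NNReal

noncomputable section

namespace Crest.Agent.R144.LoB95

open Crest.Agent.R144.Ham560
open Crest.Agent.R144.Tri560
open Crest.Agent.R144.Zb560 (sr iv IsOpt pt cz Zx gx gq lp pt_spec pt_mem' op isOpt_op no_visit
  cz_nonneg mem_lp single_mem_pt)
open Crest.Agent.R144.MW121 (jac jac_apply Tan)
open Crest.Agent.R144.Fib674 (pd)

variable {U : Type*} [DecidableEq U] {κ ι : Type*} [Fintype κ] [Fintype ι]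

/-- geometry -/
structure Gm (F S S' : Finset U) (E : Finset (U × U)) (I dp W N : ι → Finset U)
    (dd : U → U → ℕ) (k : ℕ) : Prop where
  SF : S ⊆ F
  SS : S ⊆ S'
  nS : ∀ a ∈ S, ∀ b ∈ nbr E a, b ∈ S'
  IS : ∀ q, I q ⊆ S
  sub : ∀ q, dp q ⊆ I q
  disj : ∀ q q' v, v ∈ I q → v ∈ I q' → q = q'
  k1 : 1 < k
  dd0 : ∀ a, dd a a = 0
  dds : ∀ a b, dd a b = dd b a
  ddt : ∀ a b d, dd a d ≤ dd a b + dd b d
  dd1 : ∀ a b, b ∈ nbr E a → dd a b ≤ 1
  deep : ∀ q, ∀ w ∈ dp q, ∀ z, z ∉ I q → k ≤ dd z w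
  WS : ∀ q, W q ⊆ S
  Wc : ∀ q, ∀ v ∈ W q, ∃ w ∈ I q, dd w v < k
  Ww : ∀ q, ∀ w ∈ I q, ∀ a ∈ S, dd w a < k → a ∈ W q
  NS : ∀ q, N q ⊆ S
  IN : ∀ q, I q ⊆ N q
  bN : ∀ q, ∀ z ∈ S, z ∉ I q → (∃ z' ∈ I q, z' ∈ nbr E z) → z ∈ N q

/-- templates -/
structure Tm (F : Finset U) (E : Finset (U × U)) (ξ : U → ℝ) (S : Finset U) (dp W : ι → Finset U)
    (T : κ → (F → ℝ) → F → ℝ) (CT B : ℝ) : Prop where
  fT : ∀ i, Fd F E ξ S CT (T i)
  T0 : ∀ i x (w : F), (∀ q, (w : U) ∉ dp q) → T i x w = 0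
  TB : ∀ i x w, |T i x w| ≤ B
  TW : ∀ i (x : F → ℝ) q (w v : F) (t : ℝ), (w : U) ∈ dp q → (v : U) ∉ W q →
    T i (x + t • (Pi.single v 1 : F → ℝ)) w = T i x w

variable {F S S' : Finset U} {E : Finset (U × U)} {ξ : U → ℝ} {I dp W N : ι → Finset U}
  {dd : U → U → ℕ} {k : ℕ}

theorem Gm.bg (H : Gm F S S' E I dp W N dd k) : BG E S I dp W where
  IS := H.IS
  sub := H.sub
  disj := H.disj
  win := by
    intro q q' v hv hv'
    obtain ⟨w, hw, hd⟩ := H.Wc q v hv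
    by_cases h : w ∈ I q'
    · exact (H.disj _ _ w hw h).symm
    · have := H.deep q' v hv' w h
      omega
  nb := by
    intro q a b ha hb _
    by_contra h
    have h1 := H.deep q a ha b h
    have h2 := H.dd1 a b hb
    rw [H.dds] at h2
    have := H.k1
    omega

theorem Fd.mono {C C' : ℝ} (hC : C ≤ C') {f : (F → ℝ) → F → ℝ} (h : Fd F E ξ S C f) :
    Fd F E ξ S C' f where
  lip x y w := (h.lip x y w).trans (mul_le_mul_of_nonneg_right hC (norm_nonneg _))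
  edge x hx a b ha hb hab := (h.edge x hx a b ha hb hab).trans
    (mul_le_mul_of_nonneg_right hC (slk_nonneg _ _ _))

variable {ρ ε Λ c0 : ℝ}

/-- 560's field on the free sites -/
def Zf (S : Finset U) (E : Finset (U × U)) (ρ ε Λ : ℝ) (φ : U → ℝ) (F : Finset U) (ξ : U → ℝ)
    (x : F → ℝ) (w : F) : ℝ := Zx S E ρ ε Λ φ F ξ w x

theorem abs_ext_sub_le {x : F → ℝ} (hx : x ∈ ham F E ξ) {a b : U} (h : b ∈ nbr E a) :
    |ext F ξ x a - ext F ξ x b| ≤ 1 := by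
  rcases (mem_nbr.mp h).2 with h | h
  · exact hx _ h
  · rw [abs_sub_comm]; exact hx _ h

theorem sr_le_slk (hρ : 0 ≤ ρ) (hε : 0 < ε) (hΛ : 0 ≤ Λ) {x : F → ℝ} (hx : x ∈ ham F E ξ)
    {a b : U} (h : b ∈ nbr E a) :
    Λ * sr ρ ε (ext F ξ x a - ext F ξ x b) ≤ Λ / ε * slk F ξ x a b := by
  have h1 := Zb560.sr_le hρ hε (abs_ext_sub_le hx h)
  have h2 : 1 - |ext F ξ x a - ext F ξ x b| ≤ slk F ξ x a b := le_max_right _ _
  calc Λ * sr ρ ε (ext F ξ x a - ext F ξ x b) =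
      Λ / ε * (ε * sr ρ ε (ext F ξ x a - ext F ξ x b)) := by field_simp
    _ ≤ Λ / ε * slk F ξ x a b := by gcongr; exact h1.trans h2

theorem fd_Zf (hρ : 0 ≤ ρ) (hε : 0 < ε) (hΛ : 0 ≤ Λ) (φ : U → ℝ) :
    Fd F E ξ S (max (Zb560.lcz S ε Λ : ℝ) (Λ / ε)) (Zf S E ρ ε Λ φ F ξ) where
  lip x y w := by
    have h := (Zb560.lip_Zx (V := S) (E := E) (ρ := ρ) (φ := φ) (F := F) (ξ := ξ) hε hΛ
      (w : U)).dist_le_mul x y
    rw [Real.dist_eq, dist_eq_norm] at h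
    exact h.trans (mul_le_mul_of_nonneg_right (le_max_left _ _) (norm_nonneg _))
  edge x hx a b ha hb hab := by
    refine (Zb560.Z_sub_le hΛ hab ha hb).trans ((sr_le_slk hρ hε hΛ hx hab).trans ?_)
    exact mul_le_mul_of_nonneg_right (le_max_right _ _) (slk_nonneg _ _ _)

theorem Zf_nonneg (hΛ : 0 ≤ Λ) {φ : U → ℝ} (hφ : ∀ a, 0 ≤ φ a) (h : U → ℝ) (u : U) :
    0 ≤ Zb560.Z S E ρ ε Λ φ h u :=
  Zb560.le_iv fun l _ => cost_nonneg hφ (cz_nonneg hΛ h) l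

theorem Zf_zero (hΛ : 0 ≤ Λ) {φ : U → ℝ} (hφ : ∀ a, 0 ≤ φ a) (h : U → ℝ) {u : U} (hu : φ u = 0) :
    Zb560.Z S E ρ ε Λ φ h u = 0 :=
  le_antisymm (hu ▸ Zb560.Z_le u) (Zf_nonneg hΛ hφ h u)

/-- the cut-off field is tangent to all the walls -/
theorem fd_V (H : Gm F S S' E I dp W N dd k) (hρ : 0 ≤ ρ) (hε : 0 < ε) (hΛ : 0 ≤ Λ) {φ0 : U → ℝ}
    (h0 : ∀ a, 0 ≤ φ0 a) (h0S : ∀ a, a ∉ S → φ0 a = 0) :
    Fd F E ξ F (max (Zb560.lcz S' ε Λ : ℝ) (Λ / ε)) (Zf S' E ρ ε Λ φ0 F ξ) ∧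
    (∀ x (w : F), (w : U) ∉ S → Zf S' E ρ ε Λ φ0 F ξ x w = 0) ∧
    (∀ x ∈ ham F E ξ, ∀ (a : F) (b : U), b ∉ F → b ∈ nbr E a →
      |Zf S' E ρ ε Λ φ0 F ξ x a| ≤ max (Zb560.lcz S' ε Λ : ℝ) (Λ / ε) * slk F ξ x a b) := by
  have hz : ∀ (x : F → ℝ) (u : U), u ∉ S → Zb560.Z S' E ρ ε Λ φ0 (ext F ξ x) u = 0 :=
    fun x u hu => Zf_zero hΛ h0 _ (h0S u hu)
  have nbsym : ∀ {a b : U}, b ∈ nbr E a → a ∈ nbr E b := by
    intro a b h
    rw [mem_nbr] at h ⊢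
    exact ⟨h.1.symm, h.2.symm⟩
  -- the basic edge estimate
  have hE : ∀ x ∈ ham F E ξ, ∀ a b : U, b ∈ nbr E a →
      |Zb560.Z S' E ρ ε Λ φ0 (ext F ξ x) a - Zb560.Z S' E ρ ε Λ φ0 (ext F ξ x) b| ≤
      max (Zb560.lcz S' ε Λ : ℝ) (Λ / ε) * slk F ξ x a b := by
    intro x hx a b hab
    have key : a ∈ S' → b ∈ S' → _ := fun ha hb =>
      (Zb560.Z_sub_le (V := S') (E := E) (ρ := ρ) (ε := ε) (φ := φ0) (h := ext F ξ x) hΛ hab ha
        hb).trans ((sr_le_slk hρ hε hΛ hx hab).trans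
        (mul_le_mul_of_nonneg_right (le_max_right (Zb560.lcz S' ε Λ : ℝ) _) (slk_nonneg _ _ _)))
    by_cases ha : a ∈ S
    · exact key (H.SS ha) (H.nS a ha b hab)
    · by_cases hb : b ∈ S
      · exact key (H.nS b hb a (nbsym hab)) (H.SS hb)
      · rw [hz x a ha, hz x b hb, sub_self, abs_zero]
        refine mul_nonneg (le_max_of_le_right (by positivity)) (slk_nonneg _ _ _)
  refine ⟨⟨fun x y w => ?_, fun x hx a b _ _ hab => hE x hx a b hab⟩, fun x w hw => hz x w hw,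
    fun x hx a b hb hab => ?_⟩
  · have h := (Zb560.lip_Zx (V := S') (E := E) (ρ := ρ) (φ := φ0) (F := F) (ξ := ξ) hε hΛ
      (w : U)).dist_le_mul x y
    rw [Real.dist_eq, dist_eq_norm] at h
    exact h.trans (mul_le_mul_of_nonneg_right (le_max_left _ _) (norm_nonneg _))
  · have h := hE x hx a b hab
    rwa [hz x b (fun h => hb (H.SF h)), sub_zero] at h

/-- the cut-offs -/
def gf (S : Finset U) (E : Finset (U × U)) (N : ι → Finset U) (k : ℕ) (ρ ε Λ c0 : ℝ)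
    (φs : κ → U → ℝ) (F : Finset U) (ξ : U → ℝ) (q : ι) (x : F → ℝ) : ℝ :=
  gx S E (N q) k ρ ε Λ c0 φs F ξ x

theorem gf_nonneg {φs : κ → U → ℝ} (q : ι) (x : F → ℝ) : 0 ≤ gf S E N k ρ ε Λ c0 φs F ξ q x :=
  Zb560.gq_nonneg

theorem gf_le_one {φs : κ → U → ℝ} (q : ι) (x : F → ℝ) : gf S E N k ρ ε Λ c0 φs F ξ q x ≤ 1 :=
  Zb560.gq_le_one

/-- the data of the trial field satisfy `Low` -/
theorem exists_low (H : Gm F S S' E I dp W N dd k) (hρ : 0 ≤ ρ) (hε : 0 < ε) (hΛ : 0 ≤ Λ)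
    (hc0 : 0 < c0) (φs : κ → U → ℝ) {φ0 : U → ℝ} (h0 : ∀ a, 0 ≤ φ0 a)
    (h0S : ∀ a, a ∉ S → φ0 a = 0) {T : κ → (F → ℝ) → F → ℝ} {CT B : ℝ}
    (hT : Tm F E ξ S dp W T CT B) {Psi : (κ → ℝ) → ℝ} {CP : ℝ}
    (hPl : ∀ l l' : κ → ℝ, |Psi l - Psi l'| ≤ CP * ‖l - l'‖) (hPB : ∀ l, |Psi l| ≤ CP) :
    ∃ C, Low F E ξ S I dp W (gf S E N k ρ ε Λ c0 φs F ξ) (fun i => Zf S E ρ ε Λ (φs i) F ξ) T
      (Zf S' E ρ ε Λ φ0 F ξ) Psi C := by
  obtain ⟨v1, v2, v3⟩ := fd_V (ξ := ξ) H hρ hε hΛ h0 h0S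
  set c1 : ℝ := max (Zb560.lcz S ε Λ : ℝ) (Λ / ε)
  set c2 : ℝ := max (Zb560.lcz S' ε Λ : ℝ) (Λ / ε)
  set c3 : ℝ := (S.card + 1) * (2 * Λ / ε) / c0
  have p1 : 0 ≤ c1 := le_max_of_le_right (by positivity)
  have p2 : 0 ≤ c2 := le_max_of_le_right (by positivity)
  have p3 : 0 ≤ c3 := by positivity
  set C : ℝ := 1 + c1 + c2 + c3 + |CT| + |B| + |CP|
  have q1 : c1 ≤ C := by
    have := abs_nonneg CT; have := abs_nonneg B; have := abs_nonneg CP; simp only [C]; linarith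
  have q2 : c2 ≤ C := by
    have := abs_nonneg CT; have := abs_nonneg B; have := abs_nonneg CP; simp only [C]; linarith
  have q3 : c3 ≤ C := by
    have := abs_nonneg CT; have := abs_nonneg B; have := abs_nonneg CP; simp only [C]; linarith
  have q4 : CT ≤ C := by
    have := le_abs_self CT; have := abs_nonneg B; have := abs_nonneg CP; simp only [C]; linarith
  have q5 : B ≤ C := by
    have := abs_nonneg CT; have := le_abs_self B; have := abs_nonneg CP; simp only [C]; linarith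
  have q6 : CP ≤ C := by
    have := abs_nonneg CT; have := abs_nonneg B; have := le_abs_self CP; simp only [C]; linarith
  refine ⟨C, ?_⟩
  exact
    { C1 := by
        have := abs_nonneg CT; have := abs_nonneg B; have := abs_nonneg CP
        simp only [C]; linarith
      bg := H.bg
      fZ := fun i => (fd_Zf hρ hε hΛ (φs i)).mono q1
      fT := fun i => (hT.fT i).mono q4
      T0 := hT.T0
      TB := fun i x w => (hT.TB i x w).trans q5
      TW := hT.TW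
      glip := fun q x y => by
        have h := (Zb560.lip_gx (V := S) (E := E) (N := N q) (k := k) (ρ := ρ) (φs := φs) (F := F)
          (ξ := ξ) hε hΛ hc0 (H.NS q)).dist_le_mul x y
        rw [Real.dist_eq, dist_eq_norm, Real.coe_toNNReal _ p3] at h
        exact h.trans (mul_le_mul_of_nonneg_right q3 (norm_nonneg _))
      g0 := fun q x => Zb560.gq_nonneg
      g1 := fun q x => Zb560.gq_le_one
      fV := v1.mono q2
      VS := v2
      VF := fun x hx a b hb hab => (v3 x hx a b hb hab).trans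
        (mul_le_mul_of_nonneg_right q2 (slk_nonneg _ _ _))
      Plip := fun l l' => (hPl l l').trans (mul_le_mul_of_nonneg_right q6 (norm_nonneg _))
      PB := fun l => (hPB l).trans q6 }

/-! ### good points -/

/-- almost every point is a point of differentiability -/
theorem dat_ae {g : ι → (F → ℝ) → ℝ} {Z T : κ → (F → ℝ) → F → ℝ} {V : (F → ℝ) → F → ℝ}
    {Psi : (κ → ℝ) → ℝ} {C : ℝ} (H : Low F E ξ S I dp W g Z T V Psi C) :
    ∀ᵐ x : F → ℝ, DAt g Z T x := by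
  have hC := H.C0
  have lipae : ∀ f : (F → ℝ) → ℝ, (∀ x y, |f x - f y| ≤ C * ‖x - y‖) →
      ∀ᵐ x : F → ℝ, DifferentiableAt ℝ f x := by
    intro f hf
    have : LipschitzWith C.toNNReal f := by
      refine LipschitzWith.of_dist_le_mul fun y z => ?_
      rw [Real.dist_eq, dist_eq_norm, Real.coe_toNNReal _ hC]
      exact hf y z
    exact this.ae_differentiableAt
  have h1 : ∀ᵐ x : F → ℝ, ∀ i, ∀ w : F, DifferentiableAt ℝ (fun y => Z i y w) x :=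
    ae_all_iff.mpr fun i => ae_all_iff.mpr fun w => lipae _ fun x y => (H.fZ i).lip x y w
  have h2 : ∀ᵐ x : F → ℝ, ∀ i, ∀ w : F, DifferentiableAt ℝ (fun y => T i y w) x :=
    ae_all_iff.mpr fun i => ae_all_iff.mpr fun w => lipae _ fun x y => (H.fT i).lip x y w
  have h3 : ∀ᵐ x : F → ℝ, ∀ q, DifferentiableAt ℝ (g q) x :=
    ae_all_iff.mpr fun q => lipae _ fun x y => H.glip q x y
  filter_upwards [h1, h2, h3] with x a b c
  exact ⟨a, b, c⟩

/-- switched-on windows do not see the deep sites -/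
theorem see_inst (H : Gm F S S' E I dp W N dd k) (hΛ : 0 ≤ Λ) (hc0 : 0 < c0)
    {φs : κ → U → ℝ} {x : F → ℝ} {q : ι} (hg : 0 < gf S E N k ρ ε Λ c0 φs F ξ q x) {v w : F}
    (hv : (v : U) ∉ I q) (hw : (w : U) ∈ dp q) (i : κ)
    (hd : DifferentiableAt ℝ (fun y => Zf S E ρ ε Λ (φs i) F ξ y v) x) :
    pd w (fun y => Zf S E ρ ε Λ (φs i) F ξ y v) x = 0 := by
  have ho := isOpt_op S E (φs i) (cz ρ ε Λ (ext F ξ x)) v
  refine Zb560.pd_Z_eq_zero (F := F) (ξ := ξ) hd ho (z := w) ?_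
  refine no_visit (cz_nonneg hΛ _) dd H.dd0 H.ddt H.dd1 (I := (I q : Set U)) (k := k) ?_
    (by simpa using hv) (by simpa using H.sub q hw) (fun z hz => H.deep q w hw z (by simpa using hz))
    ho
  intro z hz hzS hz' l hl
  have hzN : z ∈ N q := H.bN q z hzS (by simpa using hz) (by simpa using hz')
  exact Zb560.opt_short hc0 hg i hzN hl

/-- inside a switched-on block, the field is the window field (near the point) -/
theorem loc_inst (H : Gm F S S' E I dp W N dd k) (hε : 0 < ε) (hΛ : 0 ≤ Λ) (hc0 : 0 < c0)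
    {φs : κ → U → ℝ} {x : F → ℝ} {q : ι} (hg : 0 < gf S E N k ρ ε Λ c0 φs F ξ q x) {w : F}
    (hw : (w : U) ∈ I q) (i : κ) (v : F) :
    pd v (fun y => Zf S E ρ ε Λ (φs i) F ξ y w) x =
      pd v (fun y => Zf (W q) E ρ ε Λ (φs i) F ξ y w) x := by
  refine pd_congr ?_ v
  have hcont : Continuous (gf S E N k ρ ε Λ c0 φs F ξ q) :=
    (Zb560.lip_gx (V := S) (E := E) (N := N q) (k := k) (ρ := ρ) (φs := φs) (F := F)
      (ξ := ξ) hε hΛ hc0 (H.NS q)).continuous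
  filter_upwards [(hcont.tendsto x).eventually (lt_mem_nhds hg)] with y hy
  refine (Zb560.iv_window_of_short dd H.dd0 H.ddt H.dd1 (H.WS q) (k := k) ?_ ?_
    (H.IS q hw)).symm
  · intro l hl
    exact Zb560.opt_short hc0 hy i (H.IN q hw) hl
  · intro a ha hda
    exact H.Ww q w hw a ha hda

theorem gat_inst (H : Gm F S S' E I dp W N dd k) (hΛ : 0 ≤ Λ) (hc0 : 0 < c0)
    {φs : κ → U → ℝ} {V : (F → ℝ) → F → ℝ} {T : κ → (F → ℝ) → F → ℝ} {Psi : (κ → ℝ) → ℝ}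
    {x : F → ℝ}
    (hd : DAt (gf S E N k ρ ε Λ c0 φs F ξ) (fun i => Zf S E ρ ε Λ (φs i) F ξ) T x)
    (hcut : ∀ w : F, (w : U) ∈ S → (fun i => Lf dp (gf S E N k ρ ε Λ c0 φs F ξ)
      (fun i => Zf S E ρ ε Λ (φs i) F ξ) T i x w) ∈ tsupport Psi → 1 < V x w) :
    GAt S I dp W (gf S E N k ρ ε Λ c0 φs F ξ) (fun i => Zf S E ρ ε Λ (φs i) F ξ) T V Psi x where
  cut := hcut
  see := fun q hq v w _ hvI hw i => see_inst H hΛ hc0 hq hvI hw i (hd.Z i v)

end Crest.Agent.R144.LoB95
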