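import Crest.Agent.R144.LoB6_95

/-!
# R144 (S0197), helper95, lower bound (trace form), file 7: the final pointwise inequality

`main`: at almost every good point,
`tr (jac Y * jac Y) ≤ (1+θ)² ∑ q, Qb q + P² (a ∑ (non deep sites) m + b tl S + c ∑ (1 + #I q) tl (N q))
 + P₂² d ∑ q, #I q ∑ w ∈ I q, (L m w + B + R)²`, with `m w` the length of the longest cheap path.
-/

set_option autoImplicit false
set_option linter.unusedSectionVars false

open MeasureTheory Set Filter Topology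
open scoped ENNReal NNReal

noncomputable section

namespace Crest.Agent.R144.LoB95

open Crest.Agent.R144.Ham560
open Crest.Agent.R144.Tri560
open Crest.Agent.R144.Zb560 (sr iv IsOpt pt cz Zx gx gq lp pt_spec pt_mem' op isOpt_op no_visit
  cz_nonneg mem_lp single_mem_pt)
open Crest.Agent.R144.MW121 (jac jac_apply Tan)
open Crest.Agent.R144.Fib674 (pd)

variable {U : Type*} [DecidableEq U] {κ ι : Type*} [Fintype κ] [Fintype ι]
variable {F S S' : Finset U} {E : Finset (U × U)} {ξ : U → ℝ} {I dp W N : ι → Finset U}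
  {dd : U → U → ℕ} {k : ℕ} {ρ ε Λ c0 : ℝ}

theorem sum_inF {A : Finset U} (hA : A ⊆ F) (f : U → ℝ) :
    ∑ w ∈ inF F A, f w = ∑ u ∈ A, f u := by
  refine Finset.sum_bij (fun w _ => (w : U)) (fun w hw => mem_inF.mp hw) ?_ ?_ (fun _ _ => rfl)
  · intro w _ w' _ h
    exact Subtype.ext h
  · intro u hu
    exact ⟨⟨u, hA hu⟩, mem_inF.mpr hu, rfl⟩

theorem card_inF {A : Finset U} (hA : A ⊆ F) : ((inF F A).card : ℝ) = A.card := by
  have := sum_inF hA fun _ => (1 : ℝ)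
  simpa using this

theorem abs_pd_le_of_lip {C : ℝ} (hC : 0 ≤ C) {f : (F → ℝ) → ℝ}
    (hf : ∀ x y, |f x - f y| ≤ C * ‖x - y‖) (x : F → ℝ) (v : F) : |pd v f x| ≤ C := by
  have hl : LipschitzWith C.toNNReal f := by
    refine LipschitzWith.of_dist_le_mul fun y z => ?_
    rw [Real.dist_eq, dist_eq_norm, Real.coe_toNNReal _ hC]
    exact hf y z
  have h1 : ‖fderiv ℝ f x (Pi.single v 1)‖ ≤ C.toNNReal * ‖(Pi.single v (1 : ℝ) : F → ℝ)‖ :=
    (ContinuousLinearMap.le_opNorm _ _).trans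
      (mul_le_mul_of_nonneg_right (norm_fderiv_le_of_lipschitz ℝ hl) (norm_nonneg _))
  have h2 : ‖(Pi.single v (1 : ℝ) : F → ℝ)‖ = 1 := by
    rw [Pi.norm_single]; simp
  rw [h2, mul_one, Real.coe_toNNReal _ hC] at h1
  exact h1

theorem abs_pd_gx_le {N : Finset U} {φs : κ → U → ℝ} (hε : 0 < ε) (hΛ : 0 ≤ Λ) (hc0 : 0 < c0)
    {x : F → ℝ} (hd : DifferentiableAt ℝ (gx S E N k ρ ε Λ c0 φs F ξ) x) (z : F) :
    |pd z (gx S E N k ρ ε Λ c0 φs F ξ) x| ≤ 2 * Λ / ε / c0 := by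
  refine Zb560.abs_pd_le hd z fun t => ?_
  have h8 : 0 ≤ 2 * Λ / ε / c0 * |t| := by positivity
  have hx0 : 0 ≤ gx S E N k ρ ε Λ c0 φs F ξ x := Zb560.gq_nonneg
  refine max_le (by linarith) ?_
  have hx1 : Zb560.gap S E N k ρ ε Λ c0 φs (ext F ξ x) ≤ gx S E N k ρ ε Λ c0 φs F ξ x :=
    le_max_right _ _
  by_cases h1 : Zb560.gap S E N k ρ ε Λ c0 φs (ext F ξ x) < 1
  · obtain ⟨i, w, hw, l, hl, hk, he⟩ := Zb560.exists_gap_eq h1
    have hfold : ∀ y : F → ℝ, Zb560.gap S E N k ρ ε Λ c0 φs (ext F ξ y) ≤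
        (cost (φs i) (cz ρ ε Λ (ext F ξ y)) l - φs i w) / c0 := fun y =>
      Zb560.fold_min_le_of_mem (f := fun p : κ × U × List U =>
        (cost (φs p.1) (cz ρ ε Λ (ext F ξ y)) p.2.2 - φs p.1 p.2.1) / c0) (a := (i, w, l))
        (Finset.mem_product.mpr ⟨Finset.mem_univ _, mem_lp.mpr ⟨hw, hl, hk⟩⟩)
    have h6 := hfold (x + t • Pi.single z 1)
    have h7 := Zb560.cost_line_le (ρ := ρ) (ξ := ξ) (φ := φs i) (x := x) (z := z) (t := t) hε hΛ l
      (pt_spec hl).1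
    refine h6.trans ?_
    have h9 : (cost (φs i) (cz ρ ε Λ (ext F ξ (x + t • Pi.single z 1))) l - φs i w) / c0 ≤
        (cost (φs i) (cz ρ ε Λ (ext F ξ x)) l - φs i w + 2 * Λ / ε * |t|) / c0 :=
      div_le_div_of_nonneg_right (by linarith) hc0.le
    have h10 : (cost (φs i) (cz ρ ε Λ (ext F ξ x)) l - φs i w + 2 * Λ / ε * |t|) / c0 =
        Zb560.gap S E N k ρ ε Λ c0 φs (ext F ξ x) + 2 * Λ / ε / c0 * |t| := by
      rw [he]; field_simp
    linarith
  · have h2 : Zb560.gap S E N k ρ ε Λ c0 φs (ext F ξ (x + t • Pi.single z 1)) ≤ 1 :=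
      Zb560.fold_min_le_left _ _ _
    linarith

/-- bound of the derivative of the vector field -/
def KL (ε Λ c0 B CT : ℝ) : ℝ := 2 * Λ / ε + (2 * Λ / ε / c0 * B + CT)

theorem abs_pd_L_le (H : Gm F S S' E I dp W N dd k) (hε : 0 < ε) (hΛ : 0 ≤ Λ) (hc0 : 0 < c0)
    {φs : κ → U → ℝ} {T : κ → (F → ℝ) → F → ℝ} {CT B : ℝ} (hT : Tm F E ξ S dp W T CT B)
    (hCT : 0 ≤ CT) {x : F → ℝ}
    (hd : DAt (gf S E N k ρ ε Λ c0 φs F ξ) (fun i => Zf S E ρ ε Λ (φs i) F ξ) T x) (i : κ)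
    (w v : F) :
    |pd v (fun y => Lf dp (gf S E N k ρ ε Λ c0 φs F ξ) (fun i => Zf S E ρ ε Λ (φs i) F ξ) T i y w)
      x| ≤ KL ε Λ c0 B CT := by
  have hB : 0 ≤ B := (abs_nonneg _).trans (hT.TB i x w)
  rw [pd_L hd]
  have h1 : |pd v (fun y => Zf S E ρ ε Λ (φs i) F ξ y w) x| ≤ 2 * Λ / ε :=
    Zb560.abs_pd_Z_le (V := S) (E := E) (ρ := ρ) (φ := φs i) (ξ := ξ) hε hΛ (hd.Z i w) v
  have h2 : |dG dp (gf S E N k ρ ε Λ c0 φs F ξ) x w v| ≤ 2 * Λ / ε / c0 := by
    by_cases hw : ∃ q, (w : U) ∈ dp q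
    · obtain ⟨q, hq⟩ := hw
      rw [dG_eq H.bg x hq]
      exact abs_pd_gx_le hε hΛ hc0 (hd.g q) v
    · push Not at hw
      rw [dG_eq_zero x hw, abs_zero]; positivity
  have h3 : |Gw dp (gf S E N k ρ ε Λ c0 φs F ξ) x w| ≤ 1 := by
    by_cases hw : ∃ q, (w : U) ∈ dp q
    · obtain ⟨q, hq⟩ := hw
      rw [Gw_eq H.bg x hq, abs_of_nonneg (gf_nonneg q x)]
      exact gf_le_one q x
    · push Not at hw
      rw [Gw_eq_zero x hw, abs_zero]; exact zero_le_one
  have h4 : |pd v (fun y => T i y w) x| ≤ CT :=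
    abs_pd_le_of_lip hCT (fun y z => (hT.fT i).lip y z w) x v
  have h5 := hT.TB i x w
  unfold KL
  refine (abs_add_le _ _).trans (add_le_add h1 ((abs_add_le _ _).trans (add_le_add ?_ ?_)))
  · rw [abs_mul]
    exact mul_le_mul h2 h5 (abs_nonneg _) (by positivity)
  · rw [abs_mul]
    calc _ ≤ 1 * CT := mul_le_mul h3 h4 (abs_nonneg _) zero_le_one
      _ = CT := one_mul _

/-- constant in front of the windows with a long cheap path -/
def cE (κc ε Λ c0 B θ : ℝ) : ℝ :=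
  κc * (2 * (B ^ 2 * (2 * Λ / ε / c0) ^ 2) + (1 + θ) ^ 2 * (2 * Λ / ε) ^ 2 +
    (1 + θ) * (1 + θ⁻¹) * (B ^ 2 * (2 * Λ / ε / c0) ^ 2))

variable [DecidableEq κ]

/-- slope of `Psi` -/
def sl' (Psi : (κ → ℝ) → ℝ) (l : κ → ℝ) (i : κ) : ℝ := fderiv ℝ Psi l (Pi.single i 1)

open Classical in
/-- **the pointwise inequality** -/
theorem main (H : Gm F S S' E I dp W N dd k) (hρ : 0 ≤ ρ) (hε : 0 < ε) (hΛ : 0 ≤ Λ)
    (hc0 : 0 < c0) {φs : κ → U → ℝ} {L : ℝ} (hL0 : 0 ≤ L)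
    (hφ : ∀ i a b, b ∈ nbr E a → |φs i a - φs i b| ≤ L)
    {T : κ → (F → ℝ) → F → ℝ} {CT B : ℝ} (hCT : 0 ≤ CT) (hB : 0 ≤ B) (hT : Tm F E ξ S dp W T CT B)
    {V : (F → ℝ) → F → ℝ} {Psi : (κ → ℝ) → ℝ} {C : ℝ}
    (hLow : Low F E ξ S I dp W (gf S E N k ρ ε Λ c0 φs F ξ) (fun i => Zf S E ρ ε Λ (φs i) F ξ) T
      V Psi C)
    (hP : Differentiable ℝ Psi) {P P2 : ℝ} (hP0 : 0 ≤ P) (hP20 : 0 ≤ P2)
    (hP1 : ∀ l, ∑ i, sl' Psi l i ^ 2 ≤ P ^ 2)
    (hP2 : ∀ l l', ∑ i, (sl' Psi l i - sl' Psi l' i) ^ 2 ≤ P2 ^ 2 * ‖l - l'‖ ^ 2)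
    {x : F → ℝ}
    (hd : DAt (gf S E N k ρ ε Λ c0 φs F ξ) (fun i => Zf S E ρ ε Λ (φs i) F ξ) T x)
    (hcut : ∀ w : F, (w : U) ∈ S → (fun i => Lf dp (gf S E N k ρ ε Λ c0 φs F ξ)
      (fun i => Zf S E ρ ε Λ (φs i) F ξ) T i x w) ∈ tsupport Psi → 1 < V x w)
    {θ : ℝ} (hθ : 0 < θ) (a : ι → κ → ℝ) {R : ℝ} (hR : 0 ≤ R)
    (ha : ∀ q, ∀ w ∈ I q, ∀ i, |φs i w - a q i| ≤ R) :
    (jac (Yw S dp (gf S E N k ρ ε Λ c0 φs F ξ) (fun i => Zf S E ρ ε Λ (φs i) F ξ) T V Psi) x *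
      jac (Yw S dp (gf S E N k ρ ε Λ c0 φs F ξ) (fun i => Zf S E ρ ε Λ (φs i) F ξ) T V Psi)
        x).trace ≤
      (1 + θ) ^ 2 * ∑ q, Qb (I q) (sl' Psi (a q)) (fun i => Zf (W q) E ρ ε Λ (φs i) F ξ) T x +
      P ^ 2 * (Fintype.card κ * (2 * Λ / ε) ^ 2 *
        ∑ w ∈ S.filter (fun w => ∀ q, w ∉ dp q), (mc S E ρ ε Λ c0 φs (ext F ξ x) w : ℝ)) +
      P ^ 2 * (2 * (Fintype.card κ * (2 * Λ / ε) ^ 2) *
        tl S k (mc S E ρ ε Λ c0 φs (ext F ξ x))) +
      P ^ 2 * (cE (Fintype.card κ) ε Λ c0 B θ *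
        ∑ q, (1 + (I q).card) * tl (N q) k (mc S E ρ ε Λ c0 φs (ext F ξ x))) +
      P2 ^ 2 * ((1 + θ⁻¹) * (Fintype.card κ * KL ε Λ c0 B CT ^ 2) *
        ∑ q, (I q).card * ∑ w ∈ I q, (L * mc S E ρ ε Λ c0 φs (ext F ξ x) w + B + R) ^ 2) := by
  -- abbreviations
  set g := gf S E N k ρ ε Λ c0 φs F ξ with hgdef
  set Z : κ → (F → ℝ) → F → ℝ := fun i => Zf S E ρ ε Λ (φs i) F ξ with hZdef
  set m := mc S E ρ ε Λ c0 φs (ext F ξ x) with hm
  set Kc : ℝ := (Fintype.card κ : ℝ) with hKc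
  set A0 : ℝ := (2 * Λ / ε) ^ 2 with hA0
  set B0 : ℝ := (2 * Λ / ε / c0) ^ 2 with hB0
  have hKc0 : 0 ≤ Kc := Nat.cast_nonneg _
  have hA00 : 0 ≤ A0 := sq_nonneg _
  have hB00 : 0 ≤ B0 := sq_nonneg _
  have hθ' : 0 < θ⁻¹ := inv_pos.mpr hθ
  have hISF : ∀ q, I q ⊆ F := fun q => (H.IS q).trans H.SF
  have hdpF : ∀ q, dp q ⊆ F := fun q => (H.sub q).trans (hISF q)
  have hg := gat_inst H hΛ hc0 hd hcut
  have h0 := hLow.trace_le hP hd hg
  -- slopes
  have hnP : ∀ w : F, nP S dp g Z T Psi x w ≤ P ^ 2 := by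
    intro w
    unfold nP pw
    by_cases hw : (w : U) ∈ S
    · simp only [if_pos hw]; exact hP1 _
    · simp only [if_neg hw]; simp; positivity
  have hnP0 : ∀ w : F, 0 ≤ nP S dp g Z T Psi x w := fun w =>
    Finset.sum_nonneg fun _ _ => sq_nonneg _
  have hnPS : ∀ w : F, (w : U) ∉ S → nP S dp g Z T Psi x w = 0 := by
    intro w hw
    unfold nP pw
    simp [if_neg hw]
  -- rows
  have hrow : ∀ w : F, ∑ v, eZ Z x w v ≤ Kc * A0 * m w := by
    intro w
    unfold eZ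
    rw [Finset.sum_comm]
    calc ∑ i, ∑ v, pd v (fun y => Z i y w) x ^ 2 ≤ ∑ _i : κ, A0 * m w :=
          Finset.sum_le_sum fun i _ => row_le hε hΛ hc0 (hd.Z i w)
      _ = Kc * A0 * m w := by simp [hKc, mul_assoc]
  have hrow0 : ∀ w : F, 0 ≤ ∑ v, eZ Z x w v := fun w =>
    Finset.sum_nonneg fun _ _ => Finset.sum_nonneg fun _ _ => sq_nonneg _
  have hcross : ∀ w : F, (∑ v : F, if Crs (fun q => inF F (I q)) (fun q => inF F (dp q)) w v then
      eZ Z x w v else 0) ≤ Kc * A0 * (if k < m w then (m w : ℝ) else 0) := by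
    intro w
    have e : (∑ v : F, if Crs (fun q => inF F (I q)) (fun q => inF F (dp q)) w v then
        eZ Z x w v else 0) = ∑ i, ∑ v : F, (if Crs (fun q => inF F (I q)) (fun q => inF F (dp q)) w v
          then pd v (fun y => Z i y w) x ^ 2 else 0) := by
      rw [Finset.sum_comm]
      refine Finset.sum_congr rfl fun v _ => ?_
      split_ifs
      · rfl
      · simp
    rw [e]
    calc _ ≤ ∑ _i : κ, A0 * (if k < m w then (m w : ℝ) else 0) :=
          Finset.sum_le_sum fun i _ =>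
            cross_le hε hΛ hc0 dd H.dd0 H.dds H.ddt H.dd1 H.deep (hd.Z i w)
      _ = _ := by simp [hKc, mul_assoc]
  have heT : ∀ w : F, eT T x w ≤ Kc * B ^ 2 := by
    intro w
    unfold eT
    calc _ ≤ ∑ _i : κ, B ^ 2 := Finset.sum_le_sum fun i _ => by
          rw [← sq_abs]; exact pow_le_pow_left₀ (abs_nonneg _) (hT.TB i x w) 2
      _ = _ := by simp [hKc]
  have heT0 : ∀ w : F, 0 ≤ eT T x w := fun w => Finset.sum_nonneg fun _ _ => sq_nonneg _
  have heg : ∀ q, eg g x q ≤ B0 * tl (N q) k m := fun q => eg_le hε hΛ hc0 (hd.g q)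
  have heg0 : ∀ q, 0 ≤ eg g x q := fun q => Finset.sum_nonneg fun _ _ => sq_nonneg _
  -- term A
  have tA : ∑ w : F, (if ¬ ∃ q, (w : U) ∈ dp q then nP S dp g Z T Psi x w * ∑ v, eZ Z x w v
      else 0) ≤ P ^ 2 * (Kc * A0 * ∑ w ∈ S.filter (fun w => ∀ q, w ∉ dp q), (m w : ℝ)) := by
    have h1 : ∀ w : F, (if ¬ ∃ q, (w : U) ∈ dp q then nP S dp g Z T Psi x w * ∑ v, eZ Z x w v
        else 0) ≤ if w ∈ inF F (S.filter (fun w => ∀ q, w ∉ dp q)) then P ^ 2 * (Kc * A0 * m w)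
          else 0 := by
      intro w
      by_cases hw : (w : U) ∈ S
      · by_cases hq : ∃ q, (w : U) ∈ dp q
        · rw [if_neg (not_not.mpr hq)]
          split_ifs <;> positivity
        · rw [if_pos hq, if_pos]
          · exact mul_le_mul (hnP w) (hrow w) (hrow0 w) (sq_nonneg _)
          · rw [mem_inF, Finset.mem_filter]
            push Not at hq
            exact ⟨hw, hq⟩
      · rw [hnPS w hw, zero_mul]
        split_ifs <;> positivity
    refine (Finset.sum_le_sum fun w _ => h1 w).trans (le_of_eq ?_)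
    rw [Finset.sum_ite_mem, Finset.univ_inter,
      sum_inF ((Finset.filter_subset _ _).trans H.SF) fun w => P ^ 2 * (Kc * A0 * m w),
      ← Finset.mul_sum, ← Finset.mul_sum]
  -- term B
  have tB : ∑ w : F, nP S dp g Z T Psi x w *
      (∑ v : F, if Crs (fun q => inF F (I q)) (fun q => inF F (dp q)) w v then eZ Z x w v else 0) ≤
      P ^ 2 * (Kc * A0 * tl S k m) := by
    have h1 : ∀ w : F, nP S dp g Z T Psi x w *
        (∑ v : F, if Crs (fun q => inF F (I q)) (fun q => inF F (dp q)) w v then eZ Z x w v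
          else 0) ≤ if w ∈ inF F S then P ^ 2 * (Kc * A0 * (if k < m w then (m w : ℝ) else 0))
            else 0 := by
      intro w
      by_cases hw : (w : U) ∈ S
      · rw [if_pos (mem_inF.mpr hw)]
        refine mul_le_mul (hnP w) (hcross w) ?_ (sq_nonneg _)
        refine Finset.sum_nonneg fun v _ => ?_
        split_ifs
        · exact Finset.sum_nonneg fun _ _ => sq_nonneg _
        · exact le_rfl
      · rw [hnPS w hw, zero_mul, if_neg (fun h => hw (mem_inF.mp h))]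
    refine (Finset.sum_le_sum fun w _ => h1 w).trans (le_of_eq ?_)
    rw [Finset.sum_ite_mem, Finset.univ_inter,
      sum_inF H.SF fun w => P ^ 2 * (Kc * A0 * (if k < m w then (m w : ℝ) else 0)),
      ← Finset.mul_sum, ← Finset.mul_sum]
    rfl
  -- term C
  have tC : ∑ q, ∑ w ∈ inF F (dp q), nP S dp g Z T Psi x w * eT T x w * eg g x q ≤
      P ^ 2 * (Kc * (B ^ 2 * B0) * ∑ q, (1 + (I q).card) * tl (N q) k m) := by
    rw [Finset.mul_sum, Finset.mul_sum]
    refine Finset.sum_le_sum fun q _ => ?_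
    have htl := tl_nonneg (N q) k m
    have h1 : ∀ w ∈ inF F (dp q), nP S dp g Z T Psi x w * eT T x w * eg g x q ≤
        P ^ 2 * (Kc * B ^ 2) * (B0 * tl (N q) k m) := by
      intro w _
      refine mul_le_mul ?_ (heg q) (heg0 q) (by positivity)
      exact mul_le_mul (hnP w) (heT w) (heT0 w) (sq_nonneg _)
    refine (Finset.sum_le_sum h1).trans ?_
    rw [Finset.sum_const, nsmul_eq_mul, card_inF (hdpF q)]
    have h2 : ((dp q).card : ℝ) ≤ 1 + (I q).card := by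
      have : (dp q).card ≤ (I q).card := Finset.card_le_card (H.sub q)
      have : ((dp q).card : ℝ) ≤ (I q).card := by exact_mod_cast this
      linarith
    calc ((dp q).card : ℝ) * (P ^ 2 * (Kc * B ^ 2) * (B0 * tl (N q) k m)) ≤
        (1 + (I q).card) * (P ^ 2 * (Kc * B ^ 2) * (B0 * tl (N q) k m)) := by gcongr
      _ = _ := by ring
  -- blocks
  have tD : ∀ q, blk S I dp g Z T Psi x q ≤
      (1 + θ) ^ 2 * Qb (I q) (sl' Psi (a q)) (fun i => Zf (W q) E ρ ε Λ (φs i) F ξ) T x +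
      P ^ 2 * (Kc * ((1 + θ) ^ 2 * A0 + (1 + θ) * (1 + θ⁻¹) * (B ^ 2 * B0)) *
        ((1 + (I q).card) * tl (N q) k m)) +
      P2 ^ 2 * ((1 + θ⁻¹) * (Kc * KL ε Λ c0 B CT ^ 2) *
        ((I q).card * ∑ w ∈ I q, (L * m w + B + R) ^ 2)) := by
    intro q
    have htl := tl_nonneg (N q) k m
    have h1 := blk_le hLow hd q (sl' Psi (a q)) (fun i => Zf (W q) E ρ ε Λ (φs i) F ξ)
      (K := KL ε Λ c0 B CT) hθ
      (fun h w hw i v => loc_inst H hε hΛ hc0 h hw i v)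
      (fun i w v => abs_pd_L_le H hε hΛ hc0 hT hCT hd i w v)
    refine h1.trans ?_
    have hs0 : 0 ≤ ∑ i, sl' Psi (a q) i ^ 2 := Finset.sum_nonneg fun _ _ => sq_nonneg _
    -- the event `g < 1`
    have h2 : (if g q x < 1 then (∑ i, sl' Psi (a q) i ^ 2) *
        ∑ w ∈ inF F (I q), ∑ v, eZ Z x w v else 0) ≤
        P ^ 2 * (Kc * A0 * ((1 + (I q).card) * tl (N q) k m)) := by
      split_ifs with hlt
      · have h3 : (k : ℝ) + 1 ≤ tl (N q) k m := tl_of_gx_lt hc0 hlt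
        have h4 : ∑ w ∈ inF F (I q), ∑ v, eZ Z x w v ≤ Kc * A0 * ∑ w ∈ I q, (m w : ℝ) := by
          rw [Finset.mul_sum, ← sum_inF (hISF q) fun w => Kc * A0 * (m w : ℝ)]
          exact Finset.sum_le_sum fun w _ => hrow w
        have h5 : ∑ w ∈ I q, (m w : ℝ) ≤ (1 + (I q).card) * tl (N q) k m := by
          have h6 : ∀ w ∈ I q, (m w : ℝ) ≤ (if k < m w then (m w : ℝ) else 0) + k := by
            intro w _
            split_ifs with hk
            · have : (0 : ℝ) ≤ k := Nat.cast_nonneg k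
              linarith
            · have : (m w : ℝ) ≤ k := by exact_mod_cast not_lt.mp hk
              linarith
          have h7 : ∑ w ∈ I q, (if k < m w then (m w : ℝ) else 0) ≤ tl (N q) k m :=
            Finset.sum_le_sum_of_subset_of_nonneg (H.IN q) fun _ _ _ => by
              split_ifs <;> positivity
          calc ∑ w ∈ I q, (m w : ℝ) ≤ ∑ w ∈ I q, ((if k < m w then (m w : ℝ) else 0) + k) :=
                Finset.sum_le_sum h6
            _ = ∑ w ∈ I q, (if k < m w then (m w : ℝ) else 0) + (I q).card * k := by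
                rw [Finset.sum_add_distrib, Finset.sum_const, nsmul_eq_mul]
            _ ≤ tl (N q) k m + (I q).card * tl (N q) k m := by
                refine add_le_add h7 (mul_le_mul_of_nonneg_left (by linarith) (Nat.cast_nonneg _))
            _ = _ := by ring
        calc (∑ i, sl' Psi (a q) i ^ 2) * ∑ w ∈ inF F (I q), ∑ v, eZ Z x w v
            ≤ P ^ 2 * (Kc * A0 * ∑ w ∈ I q, (m w : ℝ)) :=
              mul_le_mul (hP1 _) h4 (Finset.sum_nonneg fun w _ => hrow0 w) (sq_nonneg _)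
          _ ≤ _ := by
              refine mul_le_mul_of_nonneg_left ?_ (sq_nonneg _)
              exact mul_le_mul_of_nonneg_left h5 (by positivity)
      · positivity
    -- templates
    have h8 : (∑ i, sl' Psi (a q) i ^ 2) * (∑ w ∈ inF F (I q), eT T x w) * eg g x q ≤
        P ^ 2 * (Kc * (B ^ 2 * B0) * ((1 + (I q).card) * tl (N q) k m)) := by
      have h9 : ∑ w ∈ inF F (I q), eT T x w ≤ (I q).card * (Kc * B ^ 2) := by
        refine (Finset.sum_le_sum fun w _ => heT w).trans (le_of_eq ?_)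
        rw [Finset.sum_const, nsmul_eq_mul, card_inF (hISF q)]
      calc _ ≤ P ^ 2 * ((I q).card * (Kc * B ^ 2)) * (B0 * tl (N q) k m) := by
            refine mul_le_mul ?_ (heg q) (heg0 q) (by positivity)
            exact mul_le_mul (hP1 _) h9 (Finset.sum_nonneg fun w _ => heT0 w) (sq_nonneg _)
        _ = P ^ 2 * (Kc * (B ^ 2 * B0) * ((I q).card * tl (N q) k m)) := by ring
        _ ≤ _ := by
            gcongr
            linarith
    -- variation of the slope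
    have h10 : ∑ w ∈ inF F (I q), ∑ i, (pw S dp g Z T Psi x w i - sl' Psi (a q) i) ^ 2 ≤
        P2 ^ 2 * ∑ w ∈ I q, (L * m w + B + R) ^ 2 := by
      rw [Finset.mul_sum, ← sum_inF (hISF q) fun w => P2 ^ 2 * (L * (m w : ℝ) + B + R) ^ 2]
      refine Finset.sum_le_sum fun w hw => ?_
      rw [mem_inF] at hw
      have hwS : (w : U) ∈ S := H.IS q hw
      have h11 : ∀ i, pw S dp g Z T Psi x w i = sl' Psi (fun i => Lf dp g Z T i x w) i := by
        intro i
        rw [pw, if_pos hwS]; rfl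
      simp only [h11]
      refine (hP2 _ _).trans (mul_le_mul_of_nonneg_left ?_ (sq_nonneg _))
      refine pow_le_pow_left₀ (norm_nonneg _) ?_ 2
      rw [pi_norm_le_iff_of_nonneg (by positivity)]
      intro i
      rw [Real.norm_eq_abs, Pi.sub_apply]
      have h12 : |Z i x w - φs i w| ≤ L * m w := disp_le hΛ hc0 hL0 (hφ i) w
      have h13 : |Gw dp g x w * T i x w| ≤ B := by
        rw [abs_mul]
        have h14 : |Gw dp g x w| ≤ 1 := by
          by_cases hwd : ∃ q, (w : U) ∈ dp q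
          · obtain ⟨q', hq'⟩ := hwd
            rw [Gw_eq H.bg x hq', abs_of_nonneg (gf_nonneg q' x)]
            exact gf_le_one q' x
          · push Not at hwd
            rw [Gw_eq_zero x hwd, abs_zero]; exact zero_le_one
        calc _ ≤ 1 * B := mul_le_mul h14 (hT.TB i x w) (abs_nonneg _) zero_le_one
          _ = B := one_mul _
      have h15 := ha q w hw i
      have e : Lf dp g Z T i x w - a q i = (Z i x w - φs i w) + Gw dp g x w * T i x w +
          (φs i w - a q i) := by unfold Lf; ring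
      rw [e]
      refine (abs_add_three _ _ _).trans ?_
      linarith
    have h2' := mul_le_mul_of_nonneg_left h2 (show (0:ℝ) ≤ (1 + θ) ^ 2 by positivity)
    have h8' := mul_le_mul_of_nonneg_left h8 (show (0:ℝ) ≤ (1 + θ) * (1 + θ⁻¹) by positivity)
    have h10' := mul_le_mul_of_nonneg_left h10
      (show (0:ℝ) ≤ (1 + θ⁻¹) * (Kc * KL ε Λ c0 B CT ^ 2 * (I q).card) by positivity)
    rw [card_inF (hISF q)]
    rw [mul_add]
    calc _ ≤ (1 + θ) ^ 2 * Qb (I q) (sl' Psi (a q)) (fun i => Zf (W q) E ρ ε Λ (φs i) F ξ) T x +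
          (1 + θ) ^ 2 * (P ^ 2 * (Kc * A0 * ((1 + (I q).card) * tl (N q) k m))) +
          (1 + θ) * (1 + θ⁻¹) * (P ^ 2 * (Kc * (B ^ 2 * B0) * ((1 + (I q).card) * tl (N q) k m))) +
          (1 + θ⁻¹) * (Kc * KL ε Λ c0 B CT ^ 2 * (I q).card) *
            (P2 ^ 2 * ∑ w ∈ I q, (L * m w + B + R) ^ 2) := by
            refine add_le_add (add_le_add (add_le_add le_rfl h2') h8') ?_
            refine le_trans (le_of_eq ?_) h10'
            ring
      _ = _ := by ring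
  -- assembly
  have tD' := Finset.sum_le_sum fun q (_ : q ∈ (Finset.univ : Finset ι)) => tD q
  simp only [Finset.sum_add_distrib, ← Finset.mul_sum] at tD'
  have tB' := mul_le_mul_of_nonneg_left (add_le_add tB tC) (show (0:ℝ) ≤ 2 by norm_num)
  refine h0.trans ((add_le_add (add_le_add tD' tA) tB').trans (le_of_eq ?_))
  unfold cE
  rw [← hA0, ← hB0]
  ring

end Crest.Agent.R144.LoB95
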