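import Crest.Agent.R144.LoB8_95

/-!
# R144 (S0197), helper95, lower bound (trace form), file 9: the symmetric explicit field (565)

`Zl ψ i = Z (ψ i) - (Z (ψ 0) + Z (ψ 1) + Z (ψ 2)) / 3`, `i : Fin 2`.  `zat_inst`, `exists_low'`,
`gat_inst'`, `dat_ae'`, `disp_le'`, and the cut-off criterion `cut_of_short`.
-/

set_option autoImplicit false
set_option linter.unusedSectionVars false

open MeasureTheory Set Filter Topology
open scoped ENNReal NNReal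

noncomputable section

namespace Crest.Agent.R144.LoB95

open Crest.Agent.R144.Ham560
open Crest.Agent.R144.Tri560
open Crest.Agent.R144.Zb560 (sr iv IsOpt pt cz Zx gx gq lp pt_spec pt_mem' op isOpt_op no_visit
  cz_nonneg mem_lp single_mem_pt Ei mem_nbr_Ei)
open Crest.Agent.R144.MW121 (jac jac_apply Tan)
open Crest.Agent.R144.Fib674 (pd)

variable {U : Type*} [DecidableEq U] {ι : Type*} [Fintype ι]
variable {F S S' : Finset U} {E : Finset (U × U)} {ξ : U → ℝ} {I dp W N : ι → Finset U}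
  {dd : U → U → ℕ} {k : ℕ} {ρ ε Λ c0 : ℝ}

/-- a family of three scalars minus its mean -/
def l3 (a : Fin 3 → ℝ) (i : Fin 2) : ℝ := a i.castSucc - (a 0 + a 1 + a 2) / 3

theorem abs_l3_le {a : Fin 3 → ℝ} {c : ℝ} (h : ∀ k, |a k| ≤ c) (i : Fin 2) : |l3 a i| ≤ 2 * c := by
  have h0 := abs_le.mp (h 0)
  have h1 := abs_le.mp (h 1)
  have h2 := abs_le.mp (h 2)
  have hi := abs_le.mp (h i.castSucc)
  have hc : 0 ≤ c := (abs_nonneg _).trans (h 0)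
  unfold l3
  rw [abs_le]
  constructor <;> linarith [h0.1, h0.2, h1.1, h1.2, h2.1, h2.2, hi.1, hi.2]

theorem l3_sq_le (a : Fin 3 → ℝ) (i : Fin 2) : l3 a i ^ 2 ≤ ∑ k, a k ^ 2 := by
  rw [Fin.sum_univ_three]
  unfold l3
  fin_cases i
  · change (a 0 - (a 0 + a 1 + a 2) / 3) ^ 2 ≤ _
    nlinarith [sq_nonneg (a 0 + a 1 + a 2), sq_nonneg (a 1 - a 2), sq_nonneg (a 0),
      sq_nonneg (a 1), sq_nonneg (a 2)]
  · change (a 1 - (a 0 + a 1 + a 2) / 3) ^ 2 ≤ _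
    nlinarith [sq_nonneg (a 0 + a 1 + a 2), sq_nonneg (a 0 - a 2), sq_nonneg (a 0),
      sq_nonneg (a 1), sq_nonneg (a 2)]

theorem l3_sub (a b : Fin 3 → ℝ) (i : Fin 2) : l3 a i - l3 b i = l3 (fun k => a k - b k) i := by
  unfold l3; ring

/-- the symmetric explicit field -/
def Zl (S : Finset U) (E : Finset (U × U)) (ρ ε Λ : ℝ) (ψ : Fin 3 → U → ℝ) (F : Finset U)
    (ξ : U → ℝ) (i : Fin 2) (x : F → ℝ) (w : F) : ℝ :=
  l3 (fun k => Zf S E ρ ε Λ (ψ k) F ξ x w) i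

/-- its reference positions -/
def ph (ψ : Fin 3 → U → ℝ) (i : Fin 2) (w : U) : ℝ := l3 (fun k => ψ k w) i

theorem fd_Zl (hρ : 0 ≤ ρ) (hε : 0 < ε) (hΛ : 0 ≤ Λ) (ψ : Fin 3 → U → ℝ) (i : Fin 2) :
    Fd F E ξ S (2 * max (Zb560.lcz S ε Λ : ℝ) (Λ / ε)) (Zl S E ρ ε Λ ψ F ξ i) where
  lip x y w := by
    unfold Zl
    rw [l3_sub]
    refine (abs_l3_le (c := max (Zb560.lcz S ε Λ : ℝ) (Λ / ε) * ‖x - y‖) (fun k =>
      (fd_Zf hρ hε hΛ (ψ k)).lip x y w) i).trans (le_of_eq (by ring))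
  edge x hx a b ha hb hab := by
    unfold Zl
    rw [l3_sub]
    refine (abs_l3_le (c := max (Zb560.lcz S ε Λ : ℝ) (Λ / ε) * slk F ξ x a b) (fun k =>
      (fd_Zf hρ hε hΛ (ψ k)).edge x hx a b ha hb hab) i).trans (le_of_eq (by ring))

/-- the data of the trial field satisfy `Low` -/
theorem exists_low' (H : Gm F S S' E I dp W N dd k) (hρ : 0 ≤ ρ) (hε : 0 < ε) (hΛ : 0 ≤ Λ)
    (hc0 : 0 < c0) (ψ : Fin 3 → U → ℝ) {φ0 : U → ℝ} (h0 : ∀ a, 0 ≤ φ0 a)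
    (h0S : ∀ a, a ∉ S → φ0 a = 0) {T : Fin 2 → (F → ℝ) → F → ℝ} {CT B : ℝ}
    (hT : Tm F E ξ S dp W T CT B) {Psi : (Fin 2 → ℝ) → ℝ} {CP : ℝ}
    (hPl : ∀ l l' : Fin 2 → ℝ, |Psi l - Psi l'| ≤ CP * ‖l - l'‖) (hPB : ∀ l, |Psi l| ≤ CP) :
    Low F E ξ S I dp W (gf S E N k ρ ε Λ c0 ψ F ξ) (Zl S E ρ ε Λ ψ F ξ) T
      (Zf S' E ρ ε Λ φ0 F ξ) Psi
      (1 + 2 * max (Zb560.lcz S ε Λ : ℝ) (Λ / ε) + max (Zb560.lcz S' ε Λ : ℝ) (Λ / ε) +
        (S.card + 1) * (2 * Λ / ε) / c0 + |CT| + |B| + |CP|) := by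
  obtain ⟨v1, v2, v3⟩ := fd_V (ξ := ξ) H hρ hε hΛ h0 h0S
  set c1 : ℝ := 2 * max (Zb560.lcz S ε Λ : ℝ) (Λ / ε)
  set c2 : ℝ := max (Zb560.lcz S' ε Λ : ℝ) (Λ / ε)
  set c3 : ℝ := (S.card + 1) * (2 * Λ / ε) / c0
  have p1 : 0 ≤ c1 := mul_nonneg zero_le_two (le_max_of_le_right (by positivity))
  have p2 : 0 ≤ c2 := le_max_of_le_right (by positivity)
  have p3 : 0 ≤ c3 := by positivity
  set C : ℝ := 1 + c1 + c2 + c3 + |CT| + |B| + |CP| with hC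
  have n1 := abs_nonneg CT
  have n2 := abs_nonneg B
  have n3 := abs_nonneg CP
  have n4 := le_abs_self CT
  have n5 := le_abs_self B
  have n6 := le_abs_self CP
  exact
    { C1 := by linarith
      bg := H.bg
      fZ := fun i => (fd_Zl hρ hε hΛ ψ i).mono (by linarith)
      fT := fun i => (hT.fT i).mono (by linarith)
      T0 := hT.T0
      TB := fun i x w => (hT.TB i x w).trans (by linarith)
      TW := hT.TW
      glip := fun q x y => by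
        have h := (Zb560.lip_gx (V := S) (E := E) (N := N q) (k := k) (ρ := ρ) (φs := ψ) (F := F)
          (ξ := ξ) hε hΛ hc0 (H.NS q)).dist_le_mul x y
        rw [Real.dist_eq, dist_eq_norm, Real.coe_toNNReal _ p3] at h
        exact h.trans (mul_le_mul_of_nonneg_right (by linarith) (norm_nonneg _))
      g0 := fun q x => Zb560.gq_nonneg
      g1 := fun q x => Zb560.gq_le_one
      fV := v1.mono (by linarith)
      VS := v2
      VF := fun x hx a b hb hab => (v3 x hx a b hb hab).trans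
        (mul_le_mul_of_nonneg_right (by linarith) (slk_nonneg _ _ _))
      Plip := fun l l' => (hPl l l').trans
        (mul_le_mul_of_nonneg_right (by linarith) (norm_nonneg _))
      PB := fun l => (hPB l).trans (by linarith) }

/-! ### displacement with a Lipschitz bound inside `S` only -/

theorem Ei_Ei : Ei S (Ei S E) = Ei S E := by
  unfold Ei
  rw [Finset.filter_filter]
  congr 1
  ext p
  simp

theorem pt_Ei (u : U) : pt S (Ei S E) u = pt S E u := by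
  unfold pt
  rw [Ei_Ei]

theorem iv_Ei (φ : U → ℝ) (c : U → U → ℝ) (u : U) : iv S (Ei S E) φ c u = iv S E φ c u := by
  unfold iv
  simp only [pt_Ei]

theorem disp_le' (hΛ : 0 ≤ Λ) (hc0 : 0 < c0) {κ : Type*} [Fintype κ] {φs : κ → U → ℝ} {i : κ}
    {L : ℝ} (hL0 : 0 ≤ L) (hφ : ∀ a ∈ S, ∀ b ∈ S, b ∈ nbr E a → |φs i a - φs i b| ≤ L)
    (x : F → ℝ) (w : F) :
    |Zx S E ρ ε Λ (φs i) F ξ w x - φs i w| ≤ L * mc S E ρ ε Λ c0 φs (ext F ξ x) w := by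
  have ho := isOpt_op S E (φs i) (cz ρ ε Λ (ext F ξ x)) w
  set l := op S E (φs i) (cz ρ ε Λ (ext F ξ x)) w
  have ho' : IsOpt S (Ei S E) (φs i) (cz ρ ε Λ (ext F ξ x)) w l := by
    obtain ⟨h1, h2⟩ := ho
    refine ⟨by rw [pt_Ei]; exact h1, by rw [iv_Ei]; exact h2⟩
  have h1 := Zb560.iv_sub_abs_le (κ := L) (cz_nonneg hΛ (ext F ξ x))
    (fun a b hab => by
      rw [mem_nbr_Ei] at hab
      exact hφ a hab.2.1 b hab.2.2 hab.1) ho'
  rw [iv_Ei] at h1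
  have h2 := opt_le_mc (c0 := c0) (φs := φs) hc0 ho
  refine le_trans h1 (mul_le_mul_of_nonneg_left ?_ hL0)
  have h3 := pe_length _ (Zb560.pt_ne_nil ho.1)
  have h4 : (pe l).length ≤ mc S E ρ ε Λ c0 φs (ext F ξ x) w := by omega
  exact_mod_cast h4

/-! ### good points -/

/-- all the elementary data are differentiable -/
structure DA3 (S : Finset U) (E : Finset (U × U)) (N : ι → Finset U) (k : ℕ) (ρ ε Λ c0 : ℝ)
    (ψ : Fin 3 → U → ℝ) (F : Finset U) (ξ : U → ℝ) (T : Fin 2 → (F → ℝ) → F → ℝ)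
    (x : F → ℝ) : Prop where
  Z : ∀ k (w : F), DifferentiableAt ℝ (fun y => Zf S E ρ ε Λ (ψ k) F ξ y w) x
  T : ∀ i (w : F), DifferentiableAt ℝ (fun y => T i y w) x
  g : ∀ q, DifferentiableAt ℝ (gf S E N k ρ ε Λ c0 ψ F ξ q) x

theorem diff_l3 {a : Fin 3 → (F → ℝ) → ℝ} {x : F → ℝ} (h : ∀ k, DifferentiableAt ℝ (a k) x)
    (i : Fin 2) : DifferentiableAt ℝ (fun y => l3 (fun k => a k y) i) x := by
  have e : (fun y => l3 (fun k => a k y) i) =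
      a i.castSucc - (3 : ℝ)⁻¹ • (a 0 + a 1 + a 2) := by
    funext y
    simp only [l3, Pi.sub_apply, Pi.smul_apply, Pi.add_apply, smul_eq_mul]
    ring
  rw [e]
  exact (h _).sub ((((h 0).add (h 1)).add (h 2)).const_smul (3 : ℝ)⁻¹)

theorem pd_l3 {a : Fin 3 → (F → ℝ) → ℝ} {x : F → ℝ} (h : ∀ k, DifferentiableAt ℝ (a k) x)
    (i : Fin 2) (v : F) :
    pd v (fun y => l3 (fun k => a k y) i) x = l3 (fun k => pd v (a k) x) i := by
  unfold l3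
  have e : (fun y => a i.castSucc y - (a 0 y + a 1 y + a 2 y) / 3) =
      a i.castSucc - (3 : ℝ)⁻¹ • (a 0 + a 1 + a 2) := by
    funext y
    simp only [Pi.sub_apply, Pi.smul_apply, Pi.add_apply, smul_eq_mul]
    ring
  unfold pd
  rw [e, fderiv_sub (h _) (((h 0).add (h 1)).add (h 2) |>.const_smul _),
    fderiv_const_smul (((h 0).add (h 1)).add (h 2)), fderiv_add ((h 0).add (h 1)) (h 2),
    fderiv_add (h 0) (h 1)]
  simp only [_root_.sub_apply, _root_.smul_apply, _root_.add_apply, smul_eq_mul]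
  ring

variable {ψ : Fin 3 → U → ℝ} {T : Fin 2 → (F → ℝ) → F → ℝ} {x : F → ℝ}

theorem DA3.dat (h : DA3 S E N k ρ ε Λ c0 ψ F ξ T x) :
    DAt (gf S E N k ρ ε Λ c0 ψ F ξ) (Zl S E ρ ε Λ ψ F ξ) T x where
  Z i w := diff_l3 (fun k => h.Z k w) i
  T := h.T
  g := h.g

theorem dat_ae' (H : Gm F S S' E I dp W N dd k) (hε : 0 < ε) (hΛ : 0 ≤ Λ)
    (hc0 : 0 < c0) {CT B : ℝ} (hCT : 0 ≤ CT)
    (hT : Tm F E ξ S dp W T CT B) : ∀ᵐ x : F → ℝ, DA3 S E N k ρ ε Λ c0 ψ F ξ T x := by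
  have h1 : ∀ᵐ x : F → ℝ, ∀ k, ∀ w : F,
      DifferentiableAt ℝ (fun y => Zf S E ρ ε Λ (ψ k) F ξ y w) x :=
    ae_all_iff.mpr fun k => ae_all_iff.mpr fun w =>
      (Zb560.lip_Zx (V := S) (E := E) (ρ := ρ) (φ := ψ k) (F := F) (ξ := ξ) hε hΛ
        (w : U)).ae_differentiableAt
  have h2 : ∀ᵐ x : F → ℝ, ∀ i, ∀ w : F, DifferentiableAt ℝ (fun y => T i y w) x := by
    refine ae_all_iff.mpr fun i => ae_all_iff.mpr fun w => ?_
    have : LipschitzWith CT.toNNReal (fun y => T i y w) := by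
      refine LipschitzWith.of_dist_le_mul fun y z => ?_
      rw [Real.dist_eq, dist_eq_norm, Real.coe_toNNReal _ hCT]
      exact (hT.fT i).lip y z w
    exact this.ae_differentiableAt
  have h3 : ∀ᵐ x : F → ℝ, ∀ q, DifferentiableAt ℝ (gf S E N k ρ ε Λ c0 ψ F ξ q) x :=
    ae_all_iff.mpr fun q =>
      (Zb560.lip_gx (V := S) (E := E) (N := N q) (k := k) (ρ := ρ) (φs := ψ) (F := F)
          (ξ := ξ) hε hΛ hc0 (H.NS q)).ae_differentiableAt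
  filter_upwards [h1, h2, h3] with x a b c
  exact ⟨a, b, c⟩

theorem loc_ev (H : Gm F S S' E I dp W N dd k) (hε : 0 < ε) (hΛ : 0 ≤ Λ) (hc0 : 0 < c0)
    {q : ι} (hg : 0 < gf S E N k ρ ε Λ c0 ψ F ξ q x) {w : F}
    (hw : (w : U) ∈ I q) (j : Fin 3) :
    (fun y => Zf S E ρ ε Λ (ψ j) F ξ y w) =ᶠ[𝓝 x] fun y => Zf (W q) E ρ ε Λ (ψ j) F ξ y w := by
  have hcont : Continuous (gf S E N k ρ ε Λ c0 ψ F ξ q) :=
    (Zb560.lip_gx (V := S) (E := E) (N := N q) (k := k) (ρ := ρ) (φs := ψ) (F := F)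
      (ξ := ξ) hε hΛ hc0 (H.NS q)).continuous
  filter_upwards [(hcont.tendsto x).eventually (lt_mem_nhds hg)] with y hy
  refine (Zb560.iv_window_of_short dd H.dd0 H.ddt H.dd1 (H.WS q) (k := k) ?_ ?_
    (H.IS q hw)).symm
  · intro l hl
    exact Zb560.opt_short hc0 hy j (H.IN q hw) hl
  · intro a ha hda
    exact H.Ww q w hw a ha hda

theorem loc_inst' (H : Gm F S S' E I dp W N dd k) (hε : 0 < ε) (hΛ : 0 ≤ Λ) (hc0 : 0 < c0)
    {q : ι} (hg : 0 < gf S E N k ρ ε Λ c0 ψ F ξ q x) {w : F}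
    (hw : (w : U) ∈ I q) (i : Fin 2) (v : F) :
    pd v (fun y => Zl S E ρ ε Λ ψ F ξ i y w) x =
      pd v (fun y => Zl (W q) E ρ ε Λ ψ F ξ i y w) x := by
  refine pd_congr ?_ v
  filter_upwards [loc_ev H hε hΛ hc0 hg hw i.castSucc, loc_ev H hε hΛ hc0 hg hw 0,
    loc_ev H hε hΛ hc0 hg hw 1, loc_ev H hε hΛ hc0 hg hw 2] with y h1 h2 h3 h4
  simp only [Zl, l3]
  rw [h1, h2, h3, h4]

theorem see_inst' (H : Gm F S S' E I dp W N dd k) (hΛ : 0 ≤ Λ) (hc0 : 0 < c0)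
    {q : ι} (hg : 0 < gf S E N k ρ ε Λ c0 ψ F ξ q x) {v w : F}
    (hv : (v : U) ∉ I q) (hw : (w : U) ∈ dp q) (i : Fin 2)
    (hd : ∀ j, DifferentiableAt ℝ (fun y => Zf S E ρ ε Λ (ψ j) F ξ y v) x) :
    pd w (fun y => Zl S E ρ ε Λ ψ F ξ i y v) x = 0 := by
  have h : ∀ j, pd w (fun y => Zf S E ρ ε Λ (ψ j) F ξ y v) x = 0 := fun j =>
    see_inst H hΛ hc0 hg hv hw j (hd j)
  have h1 := pd_l3 hd i w
  unfold Zl
  rw [h1]
  unfold l3
  simp [h]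

theorem gat_inst' (H : Gm F S S' E I dp W N dd k) (hΛ : 0 ≤ Λ) (hc0 : 0 < c0)
    {V : (F → ℝ) → F → ℝ} {Psi : (Fin 2 → ℝ) → ℝ} (hd : DA3 S E N k ρ ε Λ c0 ψ F ξ T x)
    (hcut : ∀ w : F, (w : U) ∈ S → (fun i => Lf dp (gf S E N k ρ ε Λ c0 ψ F ξ)
      (Zl S E ρ ε Λ ψ F ξ) T i x w) ∈ tsupport Psi → 1 < V x w) :
    GAt S I dp W (gf S E N k ρ ε Λ c0 ψ F ξ) (Zl S E ρ ε Λ ψ F ξ) T V Psi x where
  cut := hcut
  see := fun _q hq v _w _ hvI hw i => see_inst' H hΛ hc0 hq hvI hw i fun j => hd.Z j v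

theorem row_l3 (hd : DA3 S E N k ρ ε Λ c0 ψ F ξ T x) (i : Fin 2) (w v : F) :
    pd v (fun y => Zl S E ρ ε Λ ψ F ξ i y w) x ^ 2 ≤
      ∑ j, pd v (fun y => Zf S E ρ ε Λ (ψ j) F ξ y w) x ^ 2 := by
  have h1 := pd_l3 (fun j => hd.Z j w) i v
  unfold Zl
  rw [h1]
  exact l3_sq_le _ _

open Classical in
/-- the symmetric field satisfies everything that the pointwise inequality needs -/
theorem zat_inst (H : Gm F S S' E I dp W N dd k) (hε : 0 < ε) (hΛ : 0 ≤ Λ) (hc0 : 0 < c0)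
    (hd : DA3 S E N k ρ ε Λ c0 ψ F ξ T x) {L : ℝ} (hL0 : 0 ≤ L)
    (hψ : ∀ j, ∀ a ∈ S, ∀ b ∈ S, b ∈ nbr E a → |ψ j a - ψ j b| ≤ L) :
    ZAt S I dp k (gf S E N k ρ ε Λ c0 ψ F ξ) (Zl S E ρ ε Λ ψ F ξ)
      (fun q => Zl (W q) E ρ ε Λ ψ F ξ) (ph ψ) (mc S E ρ ε Λ c0 ψ (ext F ξ x))
      (3 * (2 * Λ / ε) ^ 2) (2 * (2 * Λ / ε)) (2 * L) x where
  row i w := by
    calc ∑ v, pd v (fun y => Zl S E ρ ε Λ ψ F ξ i y w) x ^ 2
        ≤ ∑ v, ∑ j, pd v (fun y => Zf S E ρ ε Λ (ψ j) F ξ y w) x ^ 2 :=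
          Finset.sum_le_sum fun v _ => row_l3 hd i w v
      _ = ∑ j, ∑ v, pd v (fun y => Zf S E ρ ε Λ (ψ j) F ξ y w) x ^ 2 := Finset.sum_comm
      _ ≤ ∑ _j : Fin 3, (2 * Λ / ε) ^ 2 * mc S E ρ ε Λ c0 ψ (ext F ξ x) w :=
          Finset.sum_le_sum fun j _ => row_le hε hΛ hc0 (hd.Z j w)
      _ = _ := by
          rw [Finset.sum_const, Finset.card_univ, Fintype.card_fin, nsmul_eq_mul]
          push_cast
          ring
  cross i w := by
    calc _ ≤ ∑ v : F, ∑ j, (if Crs (fun q => inF F (I q)) (fun q => inF F (dp q)) w v then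
          pd v (fun y => Zf S E ρ ε Λ (ψ j) F ξ y w) x ^ 2 else 0) := by
          refine Finset.sum_le_sum fun v _ => ?_
          split_ifs with h
          · exact row_l3 hd i w v
          · simp
      _ = ∑ j, ∑ v : F, (if Crs (fun q => inF F (I q)) (fun q => inF F (dp q)) w v then
          pd v (fun y => Zf S E ρ ε Λ (ψ j) F ξ y w) x ^ 2 else 0) := Finset.sum_comm
      _ ≤ ∑ _j : Fin 3, (2 * Λ / ε) ^ 2 * (if k < mc S E ρ ε Λ c0 ψ (ext F ξ x) w then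
          (mc S E ρ ε Λ c0 ψ (ext F ξ x) w : ℝ) else 0) :=
          Finset.sum_le_sum fun j _ => by
            exact cross_le hε hΛ hc0 dd H.dd0 H.dds H.ddt H.dd1 H.deep (hd.Z j w)
      _ = _ := by
          rw [Finset.sum_const, Finset.card_univ, Fintype.card_fin, nsmul_eq_mul]
          push_cast
          ring
  loc q hg w hw i v := loc_inst' H hε hΛ hc0 hg hw i v
  sup i w v := by
    have h1 := pd_l3 (fun j => hd.Z j w) i v
    unfold Zl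
    rw [h1]
    exact abs_l3_le (fun j => Zb560.abs_pd_Z_le (V := S) (E := E) (ρ := ρ) (φ := ψ j) (ξ := ξ)
      hε hΛ (hd.Z j w) v) i
  disp i w := by
    unfold Zl ph
    rw [l3_sub]
    refine (abs_l3_le (c := L * mc S E ρ ε Λ c0 ψ (ext F ξ x) w) (fun j =>
      disp_le' (φs := ψ) hΛ hc0 hL0 (hψ j) x w) i).trans (le_of_eq (by ring))

end Crest.Agent.R144.LoB95
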