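import Crest.Agent.R144.Bl3_565

/-!
# R144 (S0197), helper95, lower bound, definitions shared with 549 / 761 / 770

* `dv v G h` : derivative of the local function `G` in the height of the site `v`;
* `Ph I G h` : the matrix `∑ v w ∈ I, ∂_v (G i)_w ∂_v (G j)_w`;
* `Gt P m I Tl` : 565's reference field of the block `I` plus the template;
* `Tpl m I Tl B C` : templates.
-/

set_option autoImplicit false

open MeasureTheory Set Filter Topology
open scoped ENNReal NNReal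

noncomputable section

namespace Crest.Agent.R144.LoC95

open Crest.Agent.R144.Lc279 (lat mem_lat mem_nbr_lat P2)
open Crest.Agent.R144.Lw425 (hd)
open Crest.Agent.R144.Bl565 (Par ps L2 win cor)

/-- derivative in the height of the site `v` -/
def dv (v : P2) (G : (P2 → ℝ) → ℝ) (h : P2 → ℝ) : ℝ := lineDeriv ℝ G h (Pi.single v 1)

/-- the matrix of the squared derivatives inside the block -/
def Ph (I : Finset P2) (G : Fin 2 → (P2 → ℝ) → P2 → ℝ) (h : P2 → ℝ) :
    Matrix (Fin 2) (Fin 2) ℝ :=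
  Matrix.of fun i j => ∑ v ∈ I, ∑ w ∈ I, dv v (fun h => G i h w) h * dv v (fun h => G j h w) h

theorem Ph_apply (I : Finset P2) (G : Fin 2 → (P2 → ℝ) → P2 → ℝ) (h : P2 → ℝ) (i j : Fin 2) :
    Ph I G h i j =
      ∑ v ∈ I, ∑ w ∈ I, dv v (fun h => G i h w) h * dv v (fun h => G j h w) h := rfl

/-- 565's reference field of the block plus the template -/
def Gt (P : Par) (m : ℕ) (I : Finset P2) (Tl : Fin 2 → (P2 → ℝ) → P2 → ℝ) (i : Fin 2)
    (h : P2 → ℝ) (w : P2) : ℝ :=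
  L2 P (win m I) (lat (win m I)) i h w + Tl i h w

/-- local templates on the block `I` with collar `m` -/
structure Tpl (m : ℕ) (I : Finset P2) (Tl : Fin 2 → (P2 → ℝ) → P2 → ℝ) (B C : ℝ) : Prop where
  loc : ∀ i h h', (∀ v ∈ win m I, h v = h' v) → ∀ w, Tl i h w = Tl i h' w
  lip : ∀ i h h' (M : ℝ), (∀ v ∈ win m I, |h v - h' v| ≤ M) → ∀ w, |Tl i h w - Tl i h' w| ≤ C * M
  off : ∀ i h w, w ∉ cor m I → Tl i h w = 0
  bdd : ∀ i h w, |Tl i h w| ≤ B
  rig : ∃ ρ : ℝ, 0 < ρ ∧ ∀ i h, (∀ a ∈ I, ∀ b ∈ I, hd a b = 1 → |h a - h b| ≤ 1) →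
    ∀ a ∈ I, ∀ b ∈ I, hd a b = 1 → 1 - ρ ≤ |h a - h b| → Tl i h a = Tl i h b
  sh : ∀ i h (c : ℝ) w, Tl i (fun v => h v + c) w = Tl i h w

end Crest.Agent.R144.LoC95
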