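import Crest.Agent.R144.LoB9_95
import Crest.Agent.R144.Bl3_565

/-!
# R144 (S0197), helper95, lower bound, instances, file 1: lattice windows in a graph

`Lch F E e Rg dd m` : the chart `e : P2 → U` identifies the neighbourhood of the region `Rg` of the
triangular lattice with a part of the graph `(U, E)`.  `Lch.gm` : the geometry of the blocks
`q + I`, `q ∈ Q`.  `Z_tr` : transport of 560's fields for charts injective on the window.
-/

set_option autoImplicit false
set_option linter.unusedSectionVars false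

open MeasureTheory Set Filter Topology
open scoped ENNReal NNReal

noncomputable section

namespace Crest.Agent.R144.LoC95

open Crest.Agent.R144.Ham560
open Crest.Agent.R144.Tri560
open Crest.Agent.R144.Zb560 (sr iv IsOpt pt cz Zx gx gq lp pt_spec pt_mem' op isOpt_op no_visit
  cz_nonneg mem_lp single_mem_pt Ei mem_nbr_Ei)
open Crest.Agent.R144.LoB95
open Crest.Agent.R144.Lc279 (lat mem_lat mem_nbr_lat P2)
open Crest.Agent.R144.Lw425 (hd hd_comm hd_le_iff mem_hball hball hd_self hd_triangle hd_pos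
  hd_nonneg)
open Crest.Agent.R144.Bl565 (Par ps L2 win cor mem_win mem_cor subset_win cor_subset hd_add
  abs_ps_sub_le)

variable {U : Type*} [DecidableEq U]

/-! ### transport of the fields -/

theorem Z_tr {V : Finset P2} {σ : P2 → U} (hσ : Set.InjOn σ V) {V' : Finset U}
    (hV : V' = V.image σ) {E : Finset (P2 × P2)} {E' : Finset (U × U)}
    (hE : ∀ a ∈ V, ∀ b ∈ V, σ b ∈ nbr E' (σ a) ↔ b ∈ nbr E a) (ρ ε Λ : ℝ) {φ : P2 → ℝ}
    {φ' : U → ℝ} (hφ : ∀ a ∈ V, φ' (σ a) = φ a) (h : U → ℝ) {u : P2} (hu : u ∈ V) :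
    Zb560.Z V' E' ρ ε Λ φ' h (σ u) = Zb560.Z V E ρ ε Λ φ (h ∘ σ) u := by
  classical
  set E1 : Finset (↥V × ↥V) := Finset.univ.filter fun p => (p.2 : P2) ∈ nbr E (p.1 : P2)
    with hE1
  have nsym : ∀ {a b : P2}, b ∈ nbr E a → a ∈ nbr E b := by
    intro a b h
    rw [mem_nbr] at h ⊢
    exact ⟨h.1.symm, h.2.symm⟩
  have n1 : ∀ a b : V, b ∈ nbr E1 a ↔ (b : P2) ∈ nbr E (a : P2) := by
    intro a b
    rw [mem_nbr]
    simp only [hE1, Finset.mem_filter, Finset.mem_univ, true_and]
    constructor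
    · rintro ⟨_, h1 | h1⟩
      · exact h1
      · exact nsym h1
    · intro h1
      refine ⟨fun he => ?_, Or.inl h1⟩
      rw [mem_nbr] at h1
      exact h1.1 (congrArg _ he)
  have e1 := Bl565.Z_map (σ := (Subtype.val : V → P2)) (V := Finset.univ) (V' := V) (E := E1)
    (E' := E) Subtype.val_injective (by simp) (fun a _ b _ => (n1 a b).symm) ρ ε Λ φ (h ∘ σ)
    ⟨u, hu⟩
  have e2 := Bl565.Z_map (σ := fun a : V => σ a) (V := Finset.univ) (V' := V') (E := E1)
    (E' := E') (fun a b hab => Subtype.ext (hσ a.2 b.2 hab))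
    (by rw [hV]; simp)
    (fun a _ b _ => (hE a a.2 b b.2).trans (n1 a b).symm) ρ ε Λ φ' h ⟨u, hu⟩
  simp only at e1 e2
  rw [e1, e2]
  have : φ' ∘ (fun a : V => σ a) = φ ∘ (Subtype.val : V → P2) := by
    funext a; exact hφ a a.2
  rw [this]
  rfl

/-! ### charts -/

/-- The chart `e` identifies the neighbourhood of the region `Rg` with a part of the graph. -/
structure Lch (F : Finset U) (E : Finset (U × U)) (e : P2 → U) (Rg : Finset P2)
    (dd : U → U → ℕ) (m : ℕ) : Prop where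
  inj : Set.InjOn e (win 2 Rg)
  sub : ∀ a ∈ Rg, e a ∈ F
  nb : ∀ a ∈ win 1 Rg, ∀ u, u ∈ nbr E (e a) ↔ ∃ b, hd a b = 1 ∧ e b = u
  dd0 : ∀ a, dd a a = 0
  dds : ∀ a b, dd a b = dd b a
  ddt : ∀ a b d, dd a d ≤ dd a b + dd b d
  dd1 : ∀ a b, b ∈ nbr E a → dd a b ≤ 1
  ddl : ∀ a ∈ Rg, ∀ b ∈ Rg, (dd (e a) (e b) : ℤ) ≤ hd a b
  ddc : ∀ a ∈ Rg, ∀ z, dd (e a) z ≤ m → ∃ b, e b = z ∧ hd a b ≤ (dd (e a) z : ℤ)

/-- translates -/
def tr (q : P2) (A : Finset P2) : Finset P2 := A.image (q + ·)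

theorem mem_tr {q : P2} {A : Finset P2} {v : P2} : v ∈ tr q A ↔ v - q ∈ A := by
  rw [tr, Finset.mem_image]
  constructor
  · rintro ⟨a, ha, rfl⟩; simpa using ha
  · intro h; exact ⟨v - q, h, by abel⟩

theorem add_mem_tr {q : P2} {A : Finset P2} {v : P2} : q + v ∈ tr q A ↔ v ∈ A := by
  rw [mem_tr, add_sub_cancel_left]

theorem tr_subset {q : P2} {A B : Finset P2} (h : A ⊆ B) : tr q A ⊆ tr q B := fun v hv => by
  rw [mem_tr] at hv ⊢; exact h hv

theorem card_tr (q : P2) (A : Finset P2) : (tr q A).card = A.card := by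
  rw [tr, Finset.card_image_of_injective]
  intro a b h
  simpa using h

/-- a family of positions of the block `I` -/
structure Pos (I : Finset P2) (m : ℕ) (Rg : Finset P2) (Q : Finset P2) : Prop where
  m1 : 1 ≤ m
  dis : ∀ q ∈ Q, ∀ q' ∈ Q, ∀ v, v ∈ tr q I → v ∈ tr q' I → q = q'
  inn : ∀ q ∈ Q, tr q (win m I) ⊆ Rg

section

variable {F : Finset U} {E : Finset (U × U)} {e : P2 → U} {Rg : Finset P2} {dd : U → U → ℕ}
  {m : ℕ} {I Q : Finset P2}

theorem win_mono {m m' : ℕ} (h : m ≤ m') (A : Finset P2) : win m A ⊆ win m' A := fun v hv => by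
  rw [mem_win] at hv ⊢
  obtain ⟨a, ha, h1⟩ := hv
  exact ⟨a, ha, h1.trans (by exact_mod_cast h)⟩

theorem mem_win_one {A : Finset P2} {a b : P2} (ha : a ∈ A) (h : hd a b = 1) : b ∈ win 1 A := by
  rw [mem_win]
  exact ⟨a, ha, by rw [hd_comm, h]; simp⟩

theorem mem_win_succ {n : ℕ} {A : Finset P2} {a b : P2} (ha : a ∈ win n A) (h : hd a b = 1) :
    b ∈ win (n + 1) A := by
  rw [mem_win] at ha ⊢
  obtain ⟨c, hc, h1⟩ := ha
  refine ⟨c, hc, ?_⟩
  have := hd_triangle b a c
  rw [hd_comm b a, h] at this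
  push_cast
  linarith

/-- the active sites -/
abbrev SS (e : P2 → U) (Rg : Finset P2) : Finset U := Rg.image e

/-- the block at `q`, in the graph -/
abbrev bI (e : P2 → U) (A : Finset P2) (q : P2) : Finset U := (tr q A).image e

namespace Lch

variable (H : Lch F E e Rg dd m)
include H

theorem inj1 {a b : P2} (ha : a ∈ win 1 Rg) (hb : b ∈ win 1 Rg) (h : e a = e b) : a = b :=
  H.inj (win_mono one_le_two _ ha) (win_mono one_le_two _ hb) h

theorem inj0 {a b : P2} (ha : a ∈ Rg) (hb : b ∈ Rg) (h : e a = e b) : a = b :=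
  H.inj1 (subset_win _ _ ha) (subset_win _ _ hb) h

theorem mem_image {A : Finset P2} (hA : A ⊆ Rg) {a : P2} (ha : a ∈ Rg) :
    e a ∈ A.image e ↔ a ∈ A := by
  constructor
  · intro h
    obtain ⟨b, hb, he⟩ := Finset.mem_image.mp h
    rwa [← H.inj0 (hA hb) ha he]
  · exact Finset.mem_image_of_mem e

/-- adjacency inside the region -/
theorem nbr_iff {a b : P2} (ha : a ∈ win 1 Rg) (hb : b ∈ win 1 Rg) :
    e b ∈ nbr E (e a) ↔ hd a b = 1 := by
  rw [H.nb a ha]
  constructor
  · rintro ⟨c, hc, he⟩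
    have hc' : c ∈ win 2 Rg := mem_win_succ ha hc
    rwa [← H.inj hc' (win_mono one_le_two _ hb) he]
  · intro h
    exact ⟨b, h, rfl⟩

/-- the geometry of the blocks -/
theorem gm (P : Pos I m Rg Q) :
    Gm F (SS e Rg) ((win 1 Rg).image e) E (fun q : Q => bI e I q) (fun q : Q => bI e (cor m I) q)
      (fun q : Q => bI e (win m I) q) (fun q : Q => bI e (win m I) q) dd (m + 1) where
  SF := by
    intro u hu
    obtain ⟨a, ha, rfl⟩ := Finset.mem_image.mp hu
    exact H.sub a ha
  SS := Finset.image_subset_image (subset_win _ _)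
  nS := by
    intro u hu v hv
    obtain ⟨a, ha, rfl⟩ := Finset.mem_image.mp hu
    obtain ⟨b, hb, rfl⟩ := (H.nb a (subset_win _ _ ha) v).mp hv
    exact Finset.mem_image_of_mem e (mem_win_one ha hb)
  IS := fun q => Finset.image_subset_image ((tr_subset (subset_win _ _)).trans (P.inn q q.2))
  sub := fun q => Finset.image_subset_image (tr_subset (cor_subset _ _))
  disj := by
    intro q q' v hv hv'
    obtain ⟨a, ha, rfl⟩ := Finset.mem_image.mp hv
    have haR := P.inn q q.2 (tr_subset (subset_win _ _) ha)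
    rw [H.mem_image ((tr_subset (subset_win _ _)).trans (P.inn q' q'.2)) haR] at hv'
    exact Subtype.ext (P.dis q q.2 q' q'.2 a ha hv')
  k1 := by have := P.m1; omega
  dd0 := H.dd0
  dds := H.dds
  ddt := H.ddt
  dd1 := H.dd1
  deep := by
    intro q w hw z hz
    by_contra hlt
    obtain ⟨a, ha, rfl⟩ := Finset.mem_image.mp hw
    have ha' := (mem_tr.mp ha)
    rw [mem_cor] at ha'
    have haR := P.inn q q.2 (mem_tr.mpr (subset_win _ _ ha'.1))
    obtain ⟨b, rfl, hb⟩ := H.ddc a haR z (by rw [H.dds]; omega)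
    refine hz (Finset.mem_image_of_mem e (mem_tr.mpr (ha'.2 _ ?_)))
    have h1 : hd (b - q) (a - q) = hd a b := by
      rw [hd_comm]
      have := hd_add (q : P2) (a - q) (b - q)
      simp only [add_sub_cancel] at this
      exact this.symm
    rw [h1]
    rw [H.dds] at hlt
    have : ((dd (e a) (e b) : ℕ) : ℤ) ≤ m := by omega
    push_cast
    omega
  WS := fun q => Finset.image_subset_image (P.inn q q.2)
  Wc := by
    intro q v hv
    obtain ⟨a, ha, rfl⟩ := Finset.mem_image.mp hv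
    obtain ⟨c, hc, h1⟩ := mem_win.mp (mem_tr.mp ha)
    refine ⟨e (q + c), Finset.mem_image_of_mem e (add_mem_tr.mpr hc), ?_⟩
    have hcR : (q : P2) + c ∈ Rg := P.inn q q.2 (add_mem_tr.mpr (subset_win _ _ hc))
    have h2 := H.ddl _ hcR a (P.inn q q.2 ha)
    have h3 : hd ((q : P2) + c) a = hd (a - q) c := by
      have := hd_add (q : P2) c (a - q)
      simp only [add_sub_cancel] at this
      rw [this, hd_comm]
    rw [h3] at h2
    omega
  Ww := by
    intro q w hw z hz hlt
    obtain ⟨a, ha, rfl⟩ := Finset.mem_image.mp hw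
    obtain ⟨b, hb, rfl⟩ := Finset.mem_image.mp hz
    have haR := P.inn q q.2 (tr_subset (subset_win _ _) ha)
    obtain ⟨b', he, hb'⟩ := H.ddc a haR (e b) (by omega)
    have hbw : b' ∈ tr q (win m I) := by
      rw [mem_tr, mem_win]
      refine ⟨a - q, mem_tr.mp ha, ?_⟩
      have h1 : hd (b' - q) (a - q) = hd a b' := by
        rw [hd_comm]
        have := hd_add (q : P2) (a - q) (b' - q)
        simp only [add_sub_cancel] at this
        exact this.symm
      rw [h1]
      omega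
    rw [← he]
    exact Finset.mem_image_of_mem e hbw
  NS := fun q => Finset.image_subset_image (P.inn q q.2)
  IN := fun q => Finset.image_subset_image (tr_subset (subset_win _ _))
  bN := by
    intro q z hz _ hz'
    obtain ⟨a, ha, rfl⟩ := Finset.mem_image.mp hz
    obtain ⟨z', hz1, hz2⟩ := hz'
    obtain ⟨c, hc, rfl⟩ := Finset.mem_image.mp hz1
    have hcR := P.inn q q.2 (tr_subset (subset_win _ _) hc)
    rw [H.nbr_iff (subset_win _ _ ha) (subset_win _ _ hcR)] at hz2
    refine Finset.mem_image_of_mem e (mem_tr.mpr (mem_win.mpr ⟨c - q, mem_tr.mp hc, ?_⟩))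
    have h1 : hd (a - q) (c - q) = hd a c := by
      have := hd_add (q : P2) (a - q) (c - q)
      simp only [add_sub_cancel] at this
      exact this.symm
    rw [h1, hz2]
    exact_mod_cast P.m1

end Lch

end

end Crest.Agent.R144.LoC95
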