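import Crest.Agent.R144.LoC1_95
import Crest.Agent.R144.LoC0_95

/-!
# R144 (S0197), helper95, lower bound, instances, file 2: placed templates

`Loc F E Rg` : the graph is the lattice near `Rg`.  `Loc.gm` : geometry.  `Tp` : the placed
templates, `exists_tm` : they satisfy `Tm` with a constant independent of the graph.
`Qb_eq` : the block functional is the quadratic form of `Ph`.
-/

set_option autoImplicit false
set_option linter.unusedSectionVars false

open MeasureTheory Set Filter Topology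
open scoped ENNReal NNReal

noncomputable section

namespace Crest.Agent.R144.LoC95

open Crest.Agent.R144.Ham560
open Crest.Agent.R144.Tri560
open Crest.Agent.R144.Fib674 (pd)
open Crest.Agent.R144.LoB95
open Crest.Agent.R144.Lc279 (lat mem_lat mem_nbr_lat P2)
open Crest.Agent.R144.Lw425 (hd hd_comm hd_le_iff mem_hball hball hd_self hd_triangle hd_pos
  hd_nonneg)
open Crest.Agent.R144.Bl565 (Par ps L2 win cor mem_win mem_cor subset_win cor_subset hd_add
  abs_ps_sub_le sym_add qd ps_sum)

/-- the graph is the lattice near the region -/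
structure Loc (F : Finset P2) (E : Finset (P2 × P2)) (Rg : Finset P2) : Prop where
  sub : Rg ⊆ F
  nb : ∀ a ∈ win 1 Rg, ∀ b, b ∈ nbr E a ↔ hd a b = 1
  sh : ∀ a b, b ∈ nbr E a → hd a b ≤ 1

/-- hexagonal distance as a natural number -/
def hn (a b : P2) : ℕ := (hd a b).toNat

theorem coe_hn (a b : P2) : ((hn a b : ℕ) : ℤ) = hd a b := Int.toNat_of_nonneg (hd_nonneg a b)

variable {F : Finset P2} {E : Finset (P2 × P2)} {Rg : Finset P2} {m : ℕ} {I Q : Finset P2}

theorem Loc.lch (H : Loc F E Rg) (m : ℕ) : Lch F E (fun a => a) Rg hn m where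
  inj := fun a _ b _ h => h
  sub := H.sub
  nb := by
    intro a ha u
    rw [H.nb a ha]
    simp
  dd0 a := by simp [hn, hd_self]
  dds a b := by rw [hn, hn, hd_comm]
  ddt a b d := by
    have := hd_triangle a b d
    rw [← coe_hn, ← coe_hn, ← coe_hn] at this
    exact_mod_cast this
  dd1 a b h := by
    have := H.sh a b h
    rw [← coe_hn] at this
    exact_mod_cast this
  ddl a _ b _ := by rw [coe_hn]
  ddc a _ z _ := ⟨z, rfl, by rw [coe_hn]⟩

theorem image_id' (A : Finset P2) : A.image (fun a : P2 => a) = A := by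
  ext a; simp

theorem Loc.gm (H : Loc F E Rg) (P : Pos I m Rg Q) :
    Gm F Rg (win 1 Rg) E (fun q : Q => tr q I) (fun q : Q => tr q (cor m I))
      (fun q : Q => tr q (win m I)) (fun q : Q => tr q (win m I)) hn (m + 1) := by
  have h := (H.lch m).gm P
  simpa only [image_id'] using h

/-! ### placed templates -/

/-- the configuration seen from `q` -/
def hq (F : Finset P2) (ξ : P2 → ℝ) (x : F → ℝ) (q : P2) (a : P2) : ℝ := ext F ξ x (q + a)

open Classical in
/-- the placed templates -/
def Tp (F : Finset P2) (ξ : P2 → ℝ) (Q : Finset P2) (m : ℕ) (I : Finset P2)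
    (Tl : Fin 2 → (P2 → ℝ) → P2 → ℝ) (i : Fin 2) (x : F → ℝ) (w : F) : ℝ :=
  ∑ q ∈ Q, if (w : P2) ∈ tr q (cor m I) then Tl i (hq F ξ x q) (w - q) else 0

variable {ξ : P2 → ℝ} {Tl : Fin 2 → (P2 → ℝ) → P2 → ℝ} {B C : ℝ}

theorem Tp_eq (P : Pos I m Rg Q) (i : Fin 2) (x : F → ℝ) {w : F} {q : P2} (hqQ : q ∈ Q)
    (hw : (w : P2) ∈ tr q (cor m I)) : Tp F ξ Q m I Tl i x w = Tl i (hq F ξ x q) (w - q) := by
  classical
  rw [Tp, Finset.sum_eq_single q]
  · rw [if_pos hw]
  · intro q' hq' hne
    rw [if_neg]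
    intro h'
    exact hne (P.dis q' hq' q hqQ _ (tr_subset (cor_subset _ _) h') (tr_subset (cor_subset _ _) hw))
  · intro h; exact absurd hqQ h

theorem Tp_zero (i : Fin 2) (x : F → ℝ) {w : F} (hw : ∀ q ∈ Q, (w : P2) ∉ tr q (cor m I)) :
    Tp F ξ Q m I Tl i x w = 0 :=
  Finset.sum_eq_zero fun q hqQ => by rw [if_neg (hw q hqQ)]

theorem Tp_eq' (P : Pos I m Rg Q) (T : Tpl m I Tl B C) (i : Fin 2) (x : F → ℝ) {w : F} {q : P2}
    (hqQ : q ∈ Q) (hw : (w : P2) ∈ tr q I) :
    Tp F ξ Q m I Tl i x w = Tl i (hq F ξ x q) (w - q) := by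
  by_cases h : (w : P2) ∈ tr q (cor m I)
  · exact Tp_eq P i x hqQ h
  · rw [T.off i _ _ (fun h' => h (mem_tr.mpr h')), Tp_zero]
    intro q' hq' h'
    have := P.dis q' hq' q hqQ _ (tr_subset (cor_subset _ _) h') hw
    subst this
    exact h h'

theorem Tpl.C_nonneg (T : Tpl m I Tl B C) : 0 ≤ C := by
  have := T.lip 0 0 0 1 (fun _ _ => by simp) 0
  simp only [sub_self, abs_zero, mul_one] at this
  exact this

theorem Tpl.B_nonneg (T : Tpl m I Tl B C) : 0 ≤ B := (abs_nonneg _).trans (T.bdd 0 0 0)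

/-- the placed templates are admissible, with constants independent of the graph -/
theorem exists_tm (T : Tpl m I Tl B C) : ∃ CT : ℝ, 0 ≤ CT ∧ ∀ (F : Finset P2)
    (E : Finset (P2 × P2)) (ξ : P2 → ℝ) (Rg Q : Finset P2), Loc F E Rg → Pos I m Rg Q →
    Tm F E ξ Rg (fun q : Q => tr q (cor m I)) (fun q : Q => tr q (win m I))
      (Tp F ξ Q m I Tl) CT B := by
  obtain ⟨r0, hr0, hrig⟩ := T.rig
  have hC := T.C_nonneg
  have hB := T.B_nonneg
  refine ⟨C + 2 * B / r0, by positivity, fun F E ξ Rg Q H P => ?_⟩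
  have hCT : C ≤ C + 2 * B / r0 := by
    have : 0 ≤ 2 * B / r0 := by positivity
    linarith
  have hCT2 : 2 * B / r0 ≤ C + 2 * B / r0 := by linarith
  have bdd : ∀ i (x : F → ℝ) (w : F), |Tp F ξ Q m I Tl i x w| ≤ B := by
    intro i x w
    by_cases h : ∃ q ∈ Q, (w : P2) ∈ tr q (cor m I)
    · obtain ⟨q, hqQ, hw⟩ := h
      rw [Tp_eq P i x hqQ hw]
      exact T.bdd _ _ _
    · push Not at h
      rw [Tp_zero i x h, abs_zero]
      exact hB
  -- one side in the deep part
  have edge1 : ∀ i, ∀ x ∈ ham F E ξ, ∀ a b : F, (a : P2) ∈ Rg → (b : P2) ∈ nbr E a →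
      (∃ q ∈ Q, (a : P2) ∈ tr q (cor m I)) →
      |Tp F ξ Q m I Tl i x a - Tp F ξ Q m I Tl i x b| ≤ (C + 2 * B / r0) * slk F ξ x a b := by
    rintro i x hx a b haR hab ⟨q, hqQ, ha⟩
    have hab' : hd (a : P2) b = 1 := (H.nb _ (subset_win _ _ haR) _).mp hab
    have ha' := mem_tr.mp ha
    rw [mem_cor] at ha'
    have hb' : (b : P2) - q ∈ I := by
      refine ha'.2 _ ?_
      have h1 : hd ((b : P2) - q) (a - q) = 1 := by
        have := hd_add q ((b : P2) - q) (a - q)
        simp only [add_sub_cancel] at this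
        rw [← this, hd_comm, hab']
      rw [h1]
      have := P.m1
      push_cast
      omega
    have hbI : (b : P2) ∈ tr q I := mem_tr.mpr hb'
    rw [Tp_eq P i x hqQ ha, Tp_eq' P T i x hqQ hbI]
    have hint : ∀ u ∈ I, ∀ v ∈ I, hd u v = 1 → |hq F ξ x q u - hq F ξ x q v| ≤ 1 := by
      intro u hu v hv huv
      have h1 : q + u ∈ Rg := P.inn q hqQ (add_mem_tr.mpr (subset_win _ _ hu))
      have h2 : q + v ∈ nbr E (q + u) := by
        rw [H.nb _ (subset_win _ _ h1), hd_add]; exact huv
      exact abs_ext_sub_le hx h2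
    have hs := slk_nonneg (ξ := ξ) x (a : P2) b
    by_cases hr : 1 - r0 ≤ |hq F ξ x q (a - q) - hq F ξ x q (b - q)|
    · have h1 : hd ((a : P2) - q) (b - q) = 1 := by
        have := hd_add q ((a : P2) - q) (b - q)
        simp only [add_sub_cancel] at this
        rw [← this, hab']
      rw [hrig i _ hint _ ha'.1 _ hb' h1 hr, sub_self, abs_zero]
      positivity
    · push Not at hr
      have h2 : r0 ≤ slk F ξ x a b := by
        have e1 : hq F ξ x q (a - q) = ext F ξ x a := by simp [hq]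
        have e2 : hq F ξ x q (b - q) = ext F ξ x b := by simp [hq]
        rw [e1, e2] at hr
        have : 1 - |ext F ξ x a - ext F ξ x b| ≤ slk F ξ x a b := le_max_right _ _
        linarith
      calc |Tl i (hq F ξ x q) (a - q) - Tl i (hq F ξ x q) (b - q)| ≤ B + B :=
            (abs_sub _ _).trans (add_le_add (T.bdd _ _ _) (T.bdd _ _ _))
        _ = 2 * B / r0 * r0 := by field_simp; ring
        _ ≤ 2 * B / r0 * slk F ξ x a b := by gcongr
        _ ≤ _ := by gcongr
  exact
    { fT := fun i =>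
        { lip := by
            intro x y w
            by_cases h : ∃ q ∈ Q, (w : P2) ∈ tr q (cor m I)
            · obtain ⟨q, hqQ, hw⟩ := h
              rw [Tp_eq P i x hqQ hw, Tp_eq P i y hqQ hw]
              refine (T.lip i _ _ ‖x - y‖ (fun v _ => ext_lip x y _) _).trans ?_
              exact mul_le_mul_of_nonneg_right hCT (norm_nonneg _)
            · push Not at h
              rw [Tp_zero i x h, Tp_zero i y h, sub_self, abs_zero]
              positivity
          edge := by
            intro x hx a b ha hb hab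
            by_cases h : ∃ q ∈ Q, (a : P2) ∈ tr q (cor m I)
            · exact edge1 i x hx a b ha hab h
            · by_cases h' : ∃ q ∈ Q, (b : P2) ∈ tr q (cor m I)
              · have hba : (a : P2) ∈ nbr E b := by
                  rw [mem_nbr] at hab ⊢
                  exact ⟨hab.1.symm, hab.2.symm⟩
                have h1 := edge1 i x hx b a hb hba h'
                rw [abs_sub_comm]
                have e1 : slk F ξ x (b : P2) a = slk F ξ x a b := by
                  unfold slk; rw [abs_sub_comm]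
                rwa [e1] at h1
              · push Not at h h'
                rw [Tp_zero i x h, Tp_zero i x h', sub_self, abs_zero]
                have hs := slk_nonneg (ξ := ξ) x (a : P2) b
                positivity }
      T0 := by
        intro i x w hw
        exact Tp_zero i x fun q hqQ => hw ⟨q, hqQ⟩
      TB := bdd
      TW := by
        intro i x q w v t hw hv
        rw [Tp_eq P i _ q.2 hw, Tp_eq P i x q.2 hw]
        refine T.loc i _ _ (fun a ha => ?_) _
        unfold hq
        have hne : (q : P2) + a ≠ v := fun he => hv (he ▸ add_mem_tr.mpr ha)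
        by_cases hF : (q : P2) + a ∈ F
        · rw [ext_mem hF, ext_mem hF]
          have : (⟨(q : P2) + a, hF⟩ : F) ≠ v := fun he => hne (congrArg Subtype.val he)
          simp [Pi.single_eq_of_ne this]
        · rw [ext_notMem hF, ext_notMem hF] }

/-! ### derivatives -/

theorem hq_line (x : F → ℝ) (v : F) (t : ℝ) (q : P2) :
    hq F ξ (x + t • (Pi.single v 1 : F → ℝ)) q =
      hq F ξ x q + t • (Pi.single ((v : P2) - q) 1 : P2 → ℝ) := by
  funext a
  unfold hq
  simp only [Pi.add_apply, Pi.smul_apply, smul_eq_mul]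
  by_cases hF : q + a ∈ F
  · rw [ext_mem hF, ext_mem hF]
    simp only [Pi.add_apply, Pi.smul_apply, smul_eq_mul]
    congr 2
    by_cases he : q + a = v
    · have h1 : (⟨q + a, hF⟩ : F) = v := Subtype.ext he
      have h2 : a = (v : P2) - q := by rw [← he]; simp
      rw [h1, h2, Pi.single_eq_same, Pi.single_eq_same]
    · have h1 : (⟨q + a, hF⟩ : F) ≠ v := fun h => he (congrArg Subtype.val h)
      have h2 : a ≠ (v : P2) - q := fun h => he (by rw [h]; simp)
      rw [Pi.single_eq_of_ne h1, Pi.single_eq_of_ne h2]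
  · rw [ext_notMem hF, ext_notMem hF]
    have h2 : a ≠ (v : P2) - q := fun h => hF (by rw [h]; simp)
    rw [Pi.single_eq_of_ne h2]
    ring

theorem pd_eq_dv {f : (F → ℝ) → ℝ} {G : (P2 → ℝ) → ℝ} {q : P2} {c : ℝ}
    (hf : ∀ y, f y = G (hq F ξ y q) + c) {x : F → ℝ} (hd : DifferentiableAt ℝ f x) (v : F) :
    pd v f x = dv ((v : P2) - q) G (hq F ξ x q) := by
  unfold pd dv
  rw [← hd.lineDeriv_eq_fderiv]
  unfold lineDeriv
  simp only [hf, hq_line]
  exact deriv_add_const c

/-- translation of the reference field -/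
theorem Zl_tr (P : Par) (H : Loc F E Rg) (hP : Pos I m Rg Q) {q : P2} (hqQ : q ∈ Q) (i : Fin 2)
    (y : F → ℝ) (w : F) :
    Zl (tr q (win m I)) E P.rho P.eps P.Lam ps F ξ i y w =
      L2 P (win m I) (lat (win m I)) i (hq F ξ y q) ((w : P2) - q) + ps i.castSucc q := by
  have h1 := (sym_add q).Lf_eq P (V := win m I) (V' := tr q (win m I)) (E := lat (win m I))
    (E' := E) (by intro v; rw [tr, Finset.mem_image]) (by
      intro a ha b hb
      have haR : q + a ∈ Rg := hP.inn q hqQ (add_mem_tr.mpr ha)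
      rw [H.nb _ (subset_win _ _ haR), mem_nbr_lat, hd_add]
      constructor
      · intro h; exact ⟨h, Or.inl ha⟩
      · intro h; exact h.1) i.castSucc (ext F ξ y) ((w : P2) - q)
  simp only [add_sub_cancel, Equiv.refl_apply, ps_sum, zero_div, sub_zero] at h1
  exact h1

/-- **the block functional is the quadratic form of `Ph`** -/
theorem Qb_eq (P : Par) (H : Loc F E Rg) (hP : Pos I m Rg Q) (T : Tpl m I Tl B C) {q : P2}
    (hqQ : q ∈ Q) (s : Fin 2 → ℝ) {x : F → ℝ}
    (hz : ∀ i (w : F), DifferentiableAt ℝ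
      (fun y => Zl (tr q (win m I)) E P.rho P.eps P.Lam ps F ξ i y w) x)
    (ht : ∀ i (w : F), DifferentiableAt ℝ (fun y => Tp F ξ Q m I Tl i y w) x) :
    Qb (tr q I) s (Zl (tr q (win m I)) E P.rho P.eps P.Lam ps F ξ) (Tp F ξ Q m I Tl) x =
      qd (Ph I (Gt P m I Tl) (hq F ξ x q)) s := by
  have hIF : tr q I ⊆ F := (tr_subset (subset_win _ _)).trans ((hP.inn q hqQ).trans H.sub)
  have key : ∀ (i : Fin 2) (w v : F), (w : P2) ∈ tr q I →
      pd v (fun y => Zl (tr q (win m I)) E P.rho P.eps P.Lam ps F ξ i y w) x +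
        pd v (fun y => Tp F ξ Q m I Tl i y w) x =
      dv ((v : P2) - q) (fun h => Gt P m I Tl i h ((w : P2) - q)) (hq F ξ x q) := by
    intro i w v hw
    rw [← pd_add (hz i w) (ht i w) v]
    refine pd_eq_dv (c := ps i.castSucc q) (fun y => ?_) ((hz i w).add (ht i w)) v
    simp only [Pi.add_apply]
    rw [Zl_tr P H hP hqQ, Tp_eq' hP T i y hqQ hw]
    unfold Gt
    ring
  have e1 : Qb (tr q I) s (Zl (tr q (win m I)) E P.rho P.eps P.Lam ps F ξ)
      (Tp F ξ Q m I Tl) x = ∑ w ∈ inF F (tr q I), ∑ v ∈ inF F (tr q I),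
      (∑ i, s i * dv ((v : P2) - q) (fun h => Gt P m I Tl i h ((w : P2) - q))
        (hq F ξ x q)) ^ 2 := by
    unfold Qb
    refine Finset.sum_congr rfl fun w hw => Finset.sum_congr rfl fun v _ => ?_
    congr 1
    refine Finset.sum_congr rfl fun i _ => ?_
    rw [key i w v (mem_inF.mp hw)]
  have sumtr : ∀ f : P2 → ℝ, ∑ w ∈ inF F (tr q I), f ((w : P2) - q) = ∑ u ∈ I, f u := by
    intro f
    rw [sum_inF hIF fun u => f (u - q), tr, Finset.sum_image]
    · simp
    · intro a _ b _ h
      simpa using h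
  rw [e1]
  rw [sumtr fun w => ∑ v ∈ inF F (tr q I),
      (∑ i, s i * dv ((v : P2) - q) (fun h => Gt P m I Tl i h w) (hq F ξ x q)) ^ 2]
  have e2 : ∀ w : P2, ∑ v ∈ inF F (tr q I),
      (∑ i, s i * dv ((v : P2) - q) (fun h => Gt P m I Tl i h w) (hq F ξ x q)) ^ 2 =
      ∑ v ∈ I, (∑ i, s i * dv v (fun h => Gt P m I Tl i h w) (hq F ξ x q)) ^ 2 := fun w =>
    sumtr fun v => (∑ i, s i * dv v (fun h => Gt P m I Tl i h w) (hq F ξ x q)) ^ 2
  simp only [e2]
  rw [Finset.sum_comm]
  unfold qd
  simp only [Ph_apply, Fin.sum_univ_two, Finset.sum_mul, ← Finset.sum_add_distrib]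
  refine Finset.sum_congr rfl fun v _ => Finset.sum_congr rfl fun w _ => ?_
  ring

end Crest.Agent.R144.LoC95
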