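import Crest.Agent.R144.LoC2_95
import Crest.Agent.R144.Bl5_565

/-!
# R144 (S0197), helper95, lower bound, instances, file 3: cut-off criterion, comparison of windows

* `mc_le_mcw` : the cheap paths of the region are cheap paths of its neighbourhood;
* `cut_pos` : the cut-off field is `> 1` far from the outside when no cheap path is long;
* `sum_tl_le` : overlap of the windows.
-/

set_option autoImplicit false
set_option linter.unusedSectionVars false

open MeasureTheory Set Filter Topology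
open scoped ENNReal NNReal

noncomputable section

namespace Crest.Agent.R144.LoC95

open Crest.Agent.R144.Ham560
open Crest.Agent.R144.Tri560
open Crest.Agent.R144.Zb560 (sr iv IsOpt pt cz Zx gx gq lp pt_spec pt_mem' mem_pt op isOpt_op
  no_visit cz_nonneg mem_lp single_mem_pt pt_ne_nil exists_isOpt)
open Crest.Agent.R144.Fib674 (pd)
open Crest.Agent.R144.LoB95
open Crest.Agent.R144.Lc279 (lat mem_lat mem_nbr_lat P2)
open Crest.Agent.R144.Lw425 (hd hd_comm hd_le_iff mem_hball hball hd_self hd_triangle hd_pos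
  hd_nonneg)
open Crest.Agent.R144.Bl565 (Par ps L2 win cor mem_win mem_cor subset_win cor_subset hd_add
  abs_ps_sub_le sym_add qd ps_sum mcw ps_zero ps_one ps_two)

variable {F : Finset P2} {E : Finset (P2 × P2)} {Rg : Finset P2} {m : ℕ} {I Q : Finset P2}
  {ξ : P2 → ℝ}

/-! ### comparison of the cheap paths -/

theorem chain_mono {A : Finset P2} {E E' : Finset (P2 × P2)}
    (h : ∀ a ∈ A, ∀ b ∈ A, b ∈ nbr E a → b ∈ nbr E' a) : ∀ l : List P2, (∀ a ∈ l, a ∈ A) →
    l.IsChain (fun a b => b ∈ nbr E a) → l.IsChain (fun a b => b ∈ nbr E' a)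
  | [], _, _ => List.isChain_nil
  | [a], _, _ => List.isChain_singleton a
  | a :: b :: t, hl, hc => by
    rw [List.isChain_cons_cons] at hc ⊢
    exact ⟨h a (hl a (by simp)) b (hl b (by simp)) hc.1,
      chain_mono h (b :: t) (fun c hc => hl c (List.mem_cons_of_mem _ hc)) hc.2⟩

theorem pt_mono' {A B : Finset P2} {E E' : Finset (P2 × P2)} (hAB : A ⊆ B)
    (h : ∀ a ∈ A, ∀ b ∈ A, b ∈ nbr E a → b ∈ nbr E' a) (u : P2) : pt A E u ⊆ pt B E' u := by
  intro l hl
  rcases mem_pt.mp hl with rfl | ⟨h1, h2, h3, h4⟩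
  · exact single_mem_pt _
  · exact mem_pt.mpr (Or.inr ⟨h1, fun a ha => hAB (h2 a ha), h3, chain_mono h l h2 h4⟩)

theorem mc_mono {A B : Finset P2} {E E' : Finset (P2 × P2)} (hAB : A ⊆ B)
    (h : ∀ a ∈ A, ∀ b ∈ A, b ∈ nbr E a → b ∈ nbr E' a) (ρ ε Λ c0 : ℝ) {κ : Type*} [Fintype κ]
    (φs : κ → P2 → ℝ) (g : P2 → ℝ) (w : P2) :
    mc A E ρ ε Λ c0 φs g w ≤ mc B E' ρ ε Λ c0 φs g w := by
  unfold mc
  exact Finset.sup_mono (Finset.filter_subset_filter _ (pt_mono' hAB h w))

theorem Loc.nb_lat (H : Loc F E Rg) : ∀ a ∈ win 1 Rg, ∀ b ∈ win 1 Rg, b ∈ nbr E a →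
    b ∈ nbr (lat (win 1 Rg)) a := by
  intro a ha b _ hab
  rw [H.nb a ha] at hab
  rw [mem_nbr_lat]
  exact ⟨hab, Or.inl ha⟩

theorem mc_le_mcw (H : Loc F E Rg) (P : Par) (c0 : ℝ) (g : P2 → ℝ) (w : P2) :
    mc Rg E P.rho P.eps P.Lam c0 ps g w ≤ mcw P c0 (win 1 Rg) g w := by
  refine mc_mono (subset_win 1 Rg) (fun a ha b hb hab => ?_) _ _ _ _ _ _ _
  exact H.nb_lat a (subset_win _ _ ha) b (subset_win _ _ hb) hab

theorem tl_mono {N : Finset P2} {k k' : ℕ} {f f' : P2 → ℕ} (hk : k' ≤ k)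
    (hf : ∀ w, f w ≤ f' w) : tl N k f ≤ tl N k' f' := by
  unfold tl
  refine Finset.sum_le_sum fun z _ => ?_
  have h1 : (f z : ℝ) ≤ f' z := by exact_mod_cast hf z
  split_ifs with h2 h3
  · exact h1
  · exact absurd (lt_of_le_of_lt hk (h2.trans_le (hf z))) h3
  · exact Nat.cast_nonneg _
  · exact le_rfl

/-! ### the cut-off field far from the outside -/

theorem cost_swap {φ φ' : P2 → ℝ} {c : P2 → P2 → ℝ} : ∀ (l : List P2) (h : l ≠ []),
    cost φ' c l = cost φ c l + (φ' (l.getLast h) - φ (l.getLast h))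
  | [], h => absurd rfl h
  | [a], _ => by simp [cost]
  | a :: b :: t, h => by
    rw [cost_cons, cost_cons, cost_swap (φ := φ) (φ' := φ') (b :: t) (by simp)]
    rw [List.getLast_cons (by simp : b :: t ≠ [])]
    ring

theorem last_le_cost {φ : P2 → ℝ} {c : P2 → P2 → ℝ} (hc : ∀ a b, 0 ≤ c a b) :
    ∀ (l : List P2) (h : l ≠ []), φ (l.getLast h) ≤ cost φ c l
  | [], h => absurd rfl h
  | [a], _ => by simp [cost]
  | a :: b :: t, h => by
    rw [cost_cons, List.getLast_cons (by simp : b :: t ≠ [])]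
    have h1 := last_le_cost (φ := φ) hc (b :: t) (by simp)
    have h2 := hc a b
    linarith

/-- one of the three coordinates decreases by half the distance -/
theorem exists_decrease (a b : P2) : ∃ k, ps k b ≤ ps k a - (hd a b : ℝ) / 2 := by
  have key : (hd a b : ℝ) ≤ max (max |(a.1 : ℝ) - b.1| |(a.2 : ℝ) - b.2|)
      |(a.1 : ℝ) - b.1 + (a.2 - b.2)| := by
    unfold hd
    push_cast
    exact le_rfl
  set x : ℝ := (a.1 : ℝ) - b.1 with hx
  set y : ℝ := (a.2 : ℝ) - b.2 with hy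
  set d : ℝ := (hd a b : ℝ) with hd'
  by_contra hcon
  push Not at hcon
  have h0 := hcon 0
  have h1 := hcon 1
  have h2 := hcon 2
  simp only [ps_zero, ps_one, ps_two] at h0 h1 h2
  have b1 : x < d / 2 := by rw [hx]; linarith
  have b2 : y < d / 2 := by rw [hy]; linarith
  have b3 : -(x + y) < d / 2 := by rw [hx, hy]; linarith
  have hM : max (max |x| |y|) |x + y| < d := by
    refine max_lt (max_lt ?_ ?_) ?_
    · rw [abs_lt]; constructor <;> linarith
    · rw [abs_lt]; constructor <;> linarith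
    · rw [abs_lt]; constructor <;> linarith
  linarith

open Classical in
/-- terminal values of the cut-off field -/
def fi0 (Rg : Finset P2) (a : P2) : ℝ := if a ∈ Rg then 2 else 0

theorem fi0_nonneg (Rg : Finset P2) (a : P2) : 0 ≤ fi0 Rg a := by
  unfold fi0; split_ifs <;> norm_num

theorem fi0_off {Rg : Finset P2} {a : P2} (h : a ∉ Rg) : fi0 Rg a = 0 := by
  unfold fi0; rw [if_neg h]

theorem cut_pos (H : Loc F E Rg) (P : Par) {c0 : ℝ} (hc0 : 0 < c0) {M : ℕ} (hM : 2 ≤ M)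
    {g : P2 → ℝ} {a : P2} (ha : a ∈ Rg) (hmc : mcw P c0 (win 1 Rg) g a < M)
    (hfar : ∀ b, b ∉ Rg → (M : ℤ) ≤ hd a b) :
    1 < Zb560.Z (win 1 Rg) E P.rho P.eps P.Lam (fi0 Rg) g a := by
  by_contra hle
  push Not at hle
  have hcz := cz_nonneg (ρ := P.rho) (ε := P.eps) P.Lam_nonneg g
  obtain ⟨l, hl⟩ := exists_isOpt (win 1 Rg) E (fi0 Rg) (cz P.rho P.eps P.Lam g) a
  have hne := pt_ne_nil hl.1
  have hcost : cost (fi0 Rg) (cz P.rho P.eps P.Lam g) l ≤ 1 := by
    rw [← hl.2]; exact hle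
  set z := l.getLast hne with hz
  have hz1 : fi0 Rg z ≤ 1 := (last_le_cost hcz l hne).trans hcost
  have hzR : z ∉ Rg := by
    intro h
    unfold fi0 at hz1
    rw [if_pos h] at hz1
    norm_num at hz1
  have hMz := hfar z hzR
  have hMz' : (M : ℝ) ≤ hd a z := by exact_mod_cast hMz
  obtain ⟨k, hk⟩ := exists_decrease a z
  have hM2 : (2 : ℝ) ≤ M := by exact_mod_cast hM
  have hck : cost (ps k) (cz P.rho P.eps P.Lam g) l < ps k a + c0 := by
    rw [cost_swap (φ := fi0 Rg) (φ' := ps k) l hne, ← hz]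
    have := fi0_nonneg Rg z
    linarith
  have hl' : l ∈ pt (win 1 Rg) (lat (win 1 Rg)) a :=
    pt_mono' (subset_refl _) (fun a ha b hb hab => H.nb_lat a ha b hb hab) a hl.1
  have h1 : l.length ≤ mcw P c0 (win 1 Rg) g a := length_le_mc hl' hck
  obtain ⟨_, h2, h3⟩ := pt_spec hl.1
  have H' := H.lch 0
  have h4 := Zb560.dd_le hn H'.dd0 H'.ddt (R := fun a b => b ∈ nbr E a) H'.dd1 l a h2 h3 z
    (List.getLast_mem hne)
  have h5 : ((hn a z : ℕ) : ℤ) = hd a z := coe_hn a z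
  omega

/-! ### sums over windows -/

theorem sum_tl_le (hP : Pos I m Rg Q) (k : ℕ) (f : P2 → ℕ) :
    ∑ q ∈ Q, tl (tr q (win m I)) k f ≤ (win m I).card * tl Rg k f := by
  classical
  have h1 : ∀ q ∈ Q, tl (tr q (win m I)) k f = ∑ v ∈ win m I,
      (fun z => if k < f z then (f z : ℝ) else 0) (q + v) := by
    intro q _
    unfold tl tr
    rw [Finset.sum_image]
    intro a _ b _ h
    simpa using h
  rw [Finset.sum_congr rfl h1, Finset.sum_comm]
  have h2 : ∀ v ∈ win m I, ∑ q ∈ Q, (fun z => if k < f z then (f z : ℝ) else 0) (q + v) ≤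
      tl Rg k f := by
    intro v hv
    unfold tl
    have hinj : Set.InjOn (fun q : P2 => q + v) Q := fun a _ b _ h => by simpa using h
    rw [← Finset.sum_image (f := fun z => if k < f z then (f z : ℝ) else 0) hinj]
    refine Finset.sum_le_sum_of_subset_of_nonneg ?_ fun _ _ _ => by split_ifs <;> positivity
    intro z hz
    obtain ⟨q, hqQ, rfl⟩ := Finset.mem_image.mp hz
    exact hP.inn q hqQ (add_mem_tr.mpr hv)
  refine (Finset.sum_le_sum h2).trans ?_
  rw [Finset.sum_const, nsmul_eq_mul]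

theorem sum_blocks_le (hP : Pos I m Rg Q) {f : P2 → ℝ} (hf : ∀ z, 0 ≤ f z) :
    ∑ q ∈ Q, ∑ w ∈ tr q I, f w ≤ ∑ w ∈ Rg, f w := by
  classical
  rw [← Finset.sum_biUnion]
  · refine Finset.sum_le_sum_of_subset_of_nonneg ?_ fun _ _ _ => hf _
    intro z hz
    obtain ⟨q, hqQ, hz'⟩ := Finset.mem_biUnion.mp hz
    exact hP.inn q hqQ (tr_subset (subset_win _ _) hz')
  · intro q hqQ q' hq' hne
    rw [Function.onFun, Finset.disjoint_left]
    intro z hz hz'
    exact hne (hP.dis q hqQ q' hq' z hz hz')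

end Crest.Agent.R144.LoC95
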