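import Crest.Agent.R144.LoC3_95

/-!
# R144 (S0197), helper95, lower bound, instances, file 4: the trial field on a region

`exists_field` : for a template family `Tl` on the block `I`, a region `Rg` where the graph is the
lattice, positions `Q` of the block and a test function `Psi` in index coordinates, a field `Y`
tangent to the hammock polytope, with explicit pointwise bounds of `tr (jac Y * jac Y)` and of
`Y - Psi`.
-/

set_option autoImplicit false
set_option linter.unusedSectionVars false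

open MeasureTheory Set Filter Topology
open scoped ENNReal NNReal

noncomputable section

namespace Crest.Agent.R144.LoC95

open Crest.Agent.R144.Ham560
open Crest.Agent.R144.Tri560
open Crest.Agent.R144.MW121 (jac jac_apply Tan)
open Crest.Agent.R144.Fib674 (pd)
open Crest.Agent.R144.LoB95
open Crest.Agent.R144.Lc279 (lat mem_lat mem_nbr_lat P2)
open Crest.Agent.R144.Lw425 (hd hd_comm hd_le_iff mem_hball hball hd_self hd_triangle hd_pos
  hd_nonneg)
open Crest.Agent.R144.Bl565 (Par ps L2 win cor mem_win mem_cor subset_win cor_subset hd_add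
  abs_ps_sub_le sym_add qd ps_sum mcw ps_zero ps_one ps_two ps_add)

/-- index coordinates of a site -/
def ix (w : P2) (i : Fin 2) : ℝ := ps i.castSucc w

@[simp] theorem ix_zero (w : P2) : ix w 0 = w.1 := rfl
@[simp] theorem ix_one (w : P2) : ix w 1 = w.2 := rfl

theorem ph_eq (i : Fin 2) (w : P2) : ph ps i w = ix w i := by
  unfold ph l3 ix
  rw [ps_sum]
  ring

theorem ix_add (a b : P2) (i : Fin 2) : ix (a + b) i = ix a i + ix b i := ps_add _ _ _

/-- hypotheses on the test function -/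
structure PsiH (Psi : (Fin 2 → ℝ) → ℝ) (p0 p1 p2 : ℝ) : Prop where
  diff : Differentiable ℝ Psi
  n1 : 0 ≤ p1
  n2 : 0 ≤ p2
  b : ∀ l, |Psi l| ≤ p0
  g1 : ∀ l, ∑ i, sl' Psi l i ^ 2 ≤ p1 ^ 2
  g2 : ∀ l l', ∑ i, (sl' Psi l i - sl' Psi l' i) ^ 2 ≤ p2 ^ 2 * ‖l - l'‖ ^ 2

theorem PsiH.n0 {Psi : (Fin 2 → ℝ) → ℝ} {p0 p1 p2 : ℝ} (h : PsiH Psi p0 p1 p2) : 0 ≤ p0 :=
  (abs_nonneg _).trans (h.b 0)

theorem PsiH.lip {Psi : (Fin 2 → ℝ) → ℝ} {p0 p1 p2 : ℝ} (h : PsiH Psi p0 p1 p2)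
    (l l' : Fin 2 → ℝ) : |Psi l - Psi l'| ≤ 2 * p1 * ‖l - l'‖ := by
  have hn : ∀ y, ‖fderiv ℝ Psi y‖ ≤ 2 * p1 := by
    intro y
    refine ContinuousLinearMap.opNorm_le_bound _ (by have := h.n1; positivity) fun z => ?_
    have h1 : fderiv ℝ Psi y z = z 0 * sl' Psi y 0 + z 1 * sl' Psi y 1 := by
      have e : z = z 0 • (Pi.single 0 1 : Fin 2 → ℝ) + z 1 • (Pi.single 1 1 : Fin 2 → ℝ) := by
        ext i; fin_cases i <;> simp
      conv_lhs => rw [e]
      rw [map_add, map_smul, map_smul]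
      rfl
    have h2 := h.g1 y
    rw [Fin.sum_univ_two] at h2
    have a0 : |sl' Psi y 0| ≤ p1 := abs_le_of_sq_le_sq (by nlinarith [sq_nonneg (sl' Psi y 1)]) h.n1
    have a1 : |sl' Psi y 1| ≤ p1 := abs_le_of_sq_le_sq (by nlinarith [sq_nonneg (sl' Psi y 0)]) h.n1
    have b0 : |z 0| ≤ ‖z‖ := norm_le_pi_norm z 0
    have b1 : |z 1| ≤ ‖z‖ := norm_le_pi_norm z 1
    rw [h1, Real.norm_eq_abs]
    calc |z 0 * sl' Psi y 0 + z 1 * sl' Psi y 1| ≤ |z 0| * |sl' Psi y 0| + |z 1| * |sl' Psi y 1| := by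
          rw [← abs_mul, ← abs_mul]; exact abs_add_le _ _
      _ ≤ ‖z‖ * p1 + ‖z‖ * p1 := by
          gcongr
      _ = 2 * p1 * ‖z‖ := by ring
  have h3 := Convex.norm_image_sub_le_of_norm_fderiv_le (𝕜 := ℝ) (f := Psi) (s := Set.univ)
    (fun y _ => h.diff y) (fun y _ => hn y) convex_univ (Set.mem_univ l') (Set.mem_univ l)
  simpa [Real.norm_eq_abs] using h3

/-! ### the explicit right-hand sides -/

section rhs

variable (P : Par) (c0 : ℝ) (m : ℕ) (I : Finset P2) (Tl : Fin 2 → (P2 → ℝ) → P2 → ℝ)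
  (Rg Q : Finset P2) (Psi : (Fin 2 → ℝ) → ℝ) (M : ℕ) (h : P2 → ℝ)

/-- main term -/
def MT : ℝ := ∑ q ∈ Q, qd (Ph I (Gt P m I Tl) (fun a => h (q + a))) (sl' Psi (ix q))

/-- sites outside of the deep parts of the blocks -/
def NT : ℝ := ∑ w ∈ Rg.filter (fun w => ∀ q ∈ Q, w ∉ tr q (cor m I)),
  (mcw P c0 (win 1 Rg) h w : ℝ)

/-- long cheap paths -/
def LT : ℝ := ∑ w ∈ Rg, if m < mcw P c0 (win 1 Rg) h w then (mcw P c0 (win 1 Rg) h w : ℝ) else 0

/-- second moments -/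
def ST : ℝ := ∑ w ∈ Rg, ((mcw P c0 (win 1 Rg) h w : ℝ) + 1) ^ 2

/-- macroscopic cheap paths -/
def Bad : Prop := ∃ w ∈ Rg, M ≤ mcw P c0 (win 1 Rg) h w

/-- constant of the collar -/
def A1c : ℝ := 6 * (2 * P.Lam / P.eps) ^ 2

/-- constant of the long paths -/
def A2c (B θ : ℝ) : ℝ := 2 * A1c P +
  cE' 2 (3 * (2 * P.Lam / P.eps) ^ 2) P.eps P.Lam c0 B θ * ((1 + I.card) * (win m I).card)

end rhs

theorem NT_nonneg (P : Par) (c0 : ℝ) (m : ℕ) (I Rg Q : Finset P2) (h : P2 → ℝ) :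
    0 ≤ NT P c0 m I Rg Q h := Finset.sum_nonneg fun _ _ => Nat.cast_nonneg _

theorem LT_nonneg (P : Par) (c0 : ℝ) (m : ℕ) (Rg : Finset P2) (h : P2 → ℝ) :
    0 ≤ LT P c0 m Rg h := Finset.sum_nonneg fun _ _ => by split_ifs <;> positivity

theorem ST_nonneg (P : Par) (c0 : ℝ) (Rg : Finset P2) (h : P2 → ℝ) :
    0 ≤ ST P c0 Rg h := Finset.sum_nonneg fun _ _ => sq_nonneg _

theorem A1c_nonneg (P : Par) : 0 ≤ A1c P := by unfold A1c; positivity

theorem cE'_nonneg {a b e L c B θ : ℝ} (ha : 0 ≤ a) (hb : 0 ≤ b) (hθ : 0 < θ) :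
    0 ≤ cE' a b e L c B θ := by unfold cE'; positivity

theorem A2c_nonneg (P : Par) {c0 : ℝ} (m : ℕ) (I : Finset P2) (B : ℝ) {θ : ℝ} (hθ : 0 < θ) :
    0 ≤ A2c P c0 m I B θ := by
  have h1 := A1c_nonneg P
  have h2 : 0 ≤ cE' 2 (3 * (2 * P.Lam / P.eps) ^ 2) P.eps P.Lam c0 B θ :=
    cE'_nonneg (by norm_num) (by positivity) hθ
  unfold A2c
  positivity

theorem card_win_one (A : Finset P2) : (win 1 A).card ≤ A.card * (hball 1).card := by
  unfold win
  exact Finset.card_biUnion_le_card_mul _ _ _ fun a _ => Finset.card_image_le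

theorem trace_crude {F : Finset P2} {Y : (F → ℝ) → (F → ℝ)} {c : ℝ≥0} (hY : LipschitzWith c Y)
    (x : F → ℝ) : (jac Y x * jac Y x).trace ≤ (F.card : ℝ) ^ 2 * (c : ℝ) ^ 2 := by
  rw [Matrix.trace]
  simp only [Matrix.diag_apply, Matrix.mul_apply]
  have h1 : ∀ u v : F, jac Y x u v * jac Y x v u ≤ (c : ℝ) ^ 2 := by
    intro u v
    have h2 := MW121.abs_jac_le hY x u v
    have h3 := MW121.abs_jac_le hY x v u
    calc jac Y x u v * jac Y x v u ≤ |jac Y x u v * jac Y x v u| := le_abs_self _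
      _ = |jac Y x u v| * |jac Y x v u| := abs_mul _ _
      _ ≤ c * c := mul_le_mul h2 h3 (abs_nonneg _) c.2
      _ = (c : ℝ) ^ 2 := by ring
  calc ∑ u, ∑ v, jac Y x u v * jac Y x v u ≤ ∑ _u : F, ∑ _v : F, (c : ℝ) ^ 2 :=
        Finset.sum_le_sum fun u _ => Finset.sum_le_sum fun v _ => h1 u v
    _ = _ := by
        simp only [Finset.sum_const, Finset.card_univ, Fintype.card_coe, nsmul_eq_mul]
        ring

end Crest.Agent.R144.LoC95
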