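import Crest.Agent.R144.LoC4_95

/-!
# R144 (S0197), helper95, lower bound, instances, file 5: constants and error sums
-/

set_option autoImplicit false
set_option linter.unusedSectionVars false

open MeasureTheory Set Filter Topology
open scoped ENNReal NNReal

noncomputable section

namespace Crest.Agent.R144.LoC95

open Crest.Agent.R144.Ham560
open Crest.Agent.R144.Tri560
open Crest.Agent.R144.MW121 (jac jac_apply Tan)
open Crest.Agent.R144.Fib674 (pd)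
open Crest.Agent.R144.LoB95
open Crest.Agent.R144.Lc279 (lat mem_lat mem_nbr_lat P2)
open Crest.Agent.R144.Lw425 (hd hd_comm hd_le_iff mem_hball hball hd_self hd_triangle hd_pos
  hd_nonneg)
open Crest.Agent.R144.Bl565 (Par ps L2 win cor mem_win mem_cor subset_win cor_subset hd_add
  abs_ps_sub_le sym_add qd ps_sum mcw ps_zero ps_one ps_two ps_add)

/-- numeric bound of the constant of the data -/
theorem CL_le {κ0 LE b1 c0 CT B p0 p1 N R V x1 x2 : ℝ} (hκ : 0 ≤ κ0) (hLE : 0 ≤ LE) (hb : 0 ≤ b1)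
    (hc0 : 0 < c0) (hCT : 0 ≤ CT) (hB : 0 ≤ B) (hp0 : 0 ≤ p0) (hp1 : 0 ≤ p1) (hN : 1 ≤ N)
    (hR : R + 1 ≤ N) (hV : V + 1 ≤ (b1 + 1) * N)
    (hx1 : x1 ≤ max ((R + 1) * κ0) LE) (hx2 : x2 ≤ max ((V + 1) * κ0) LE) :
    1 + 2 * x1 + x2 + (R + 1) * κ0 / c0 + CT + B + (2 * p1 + p0) ≤
      (1 + 2 * (κ0 + LE) + ((b1 + 1) * κ0 + LE) + κ0 / c0 + CT + B + 2) * N * (1 + p0 + p1) := by
  have y1 : x1 ≤ (κ0 + LE) * N := by
    refine hx1.trans (max_le ?_ ?_)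
    · nlinarith [mul_le_mul_of_nonneg_right hR hκ]
    · nlinarith
  have y2 : x2 ≤ ((b1 + 1) * κ0 + LE) * N := by
    refine hx2.trans (max_le ?_ ?_)
    · nlinarith [mul_le_mul_of_nonneg_right hV hκ, mul_nonneg hLE (by linarith : 0 ≤ N)]
    · have : 0 ≤ (b1 + 1) * κ0 * N := by positivity
      nlinarith
  have y3 : (R + 1) * κ0 / c0 ≤ κ0 / c0 * N := by
    have : 0 ≤ κ0 / c0 := by positivity
    calc (R + 1) * κ0 / c0 = κ0 / c0 * (R + 1) := by ring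
      _ ≤ _ := mul_le_mul_of_nonneg_left hR this
  set S : ℝ := 1 + p0 + p1 with hS
  have hS1 : 1 ≤ S := by linarith
  have hN0 : 0 ≤ N := by linarith
  have hNS : N ≤ N * S := le_mul_of_one_le_right hN0 hS1
  have h1 : 1 ≤ N * S := hN.trans hNS
  have hSN : S ≤ N * S := le_mul_of_one_le_left (by linarith) hN
  have q1 : 0 ≤ κ0 + LE := by positivity
  have q2 : 0 ≤ (b1 + 1) * κ0 + LE := by positivity
  have q3 : 0 ≤ κ0 / c0 := by positivity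
  have z1 : (κ0 + LE) * N ≤ (κ0 + LE) * (N * S) := mul_le_mul_of_nonneg_left hNS q1
  have z2 : ((b1 + 1) * κ0 + LE) * N ≤ ((b1 + 1) * κ0 + LE) * (N * S) :=
    mul_le_mul_of_nonneg_left hNS q2
  have z3 : κ0 / c0 * N ≤ κ0 / c0 * (N * S) := mul_le_mul_of_nonneg_left hNS q3
  have z4 : CT ≤ CT * (N * S) := le_mul_of_one_le_right hCT h1
  have z5 : B ≤ B * (N * S) := le_mul_of_one_le_right hB h1
  have z6 : 2 * p1 + p0 ≤ 2 * (N * S) := by linarith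
  calc _ ≤ N * S + 2 * ((κ0 + LE) * (N * S)) + ((b1 + 1) * κ0 + LE) * (N * S) +
        κ0 / c0 * (N * S) + CT * (N * S) + B * (N * S) + 2 * (N * S) := by linarith
    _ = _ := by ring

theorem crude_num {C K N S f : ℝ} (hC : 1 ≤ C) (hCK : C ≤ K * N * S) (hf : 0 ≤ f) (hfN : f ≤ N)
    : f ^ 2 * KY C ^ 2 ≤ 16 * K ^ 6 * N ^ 8 * S ^ 6 := by
  have hC0 : 0 ≤ C := by linarith
  have hKY : KY C ≤ 4 * C ^ 3 := by
    unfold KY
    have h1 : C ^ 2 ≤ C ^ 3 := pow_le_pow_right₀ hC (by norm_num)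
    have e : C * C + C * (2 * C + C * C) = 3 * C ^ 2 + C ^ 3 := by ring
    rw [e]
    linarith
  have hKY0 : 0 ≤ KY C := KY_nonneg hC0
  have hN0 : 0 ≤ N := hf.trans hfN
  have h2 : KY C ^ 2 ≤ (4 * C ^ 3) ^ 2 := pow_le_pow_left₀ hKY0 hKY 2
  have h3 : f ^ 2 ≤ N ^ 2 := pow_le_pow_left₀ hf hfN 2
  have h4 : C ^ 6 ≤ (K * N * S) ^ 6 := pow_le_pow_left₀ hC0 hCK 6
  calc f ^ 2 * KY C ^ 2 ≤ N ^ 2 * (4 * C ^ 3) ^ 2 :=
        mul_le_mul h3 h2 (sq_nonneg _) (sq_nonneg _)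
    _ = 16 * N ^ 2 * C ^ 6 := by ring
    _ ≤ 16 * N ^ 2 * (K * N * S) ^ 6 := mul_le_mul_of_nonneg_left h4 (by positivity)
    _ = _ := by ring

section sums

variable {F : Finset P2} {E : Finset (P2 × P2)} {Rg : Finset P2} {m : ℕ} {I Q : Finset P2}

theorem sum_N_le (H : Loc F E Rg) (P : Par) (c0 : ℝ) (h : P2 → ℝ) :
    (∑ w ∈ Rg.filter (fun w => ∀ q : Q, w ∉ tr (q : P2) (cor m I)),
      (mc Rg E P.rho P.eps P.Lam c0 ps h w : ℝ)) ≤ NT P c0 m I Rg Q h := by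
  unfold NT
  have hfil : Rg.filter (fun w => ∀ q : Q, w ∉ tr (q : P2) (cor m I)) =
      Rg.filter (fun w => ∀ q ∈ Q, w ∉ tr q (cor m I)) := by
    ext w
    simp
  rw [hfil]
  exact Finset.sum_le_sum fun w _ => by exact_mod_cast mc_le_mcw H P c0 h w

theorem tl_le_LT (H : Loc F E Rg) (P : Par) (c0 : ℝ) (h : P2 → ℝ) :
    tl Rg (m + 1) (mc Rg E P.rho P.eps P.Lam c0 ps h) ≤ LT P c0 m Rg h :=
  tl_mono (Nat.le_succ m) fun w => mc_le_mcw H P c0 h w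

theorem sum_W_le (H : Loc F E Rg) (hP : Pos I m Rg Q) (P : Par) (c0 : ℝ) (h : P2 → ℝ) :
    (∑ q : Q, (1 + ((tr (q : P2) I).card : ℝ)) *
      tl (tr (q : P2) (win m I)) (m + 1) (mc Rg E P.rho P.eps P.Lam c0 ps h)) ≤
      ((1 + I.card) * (win m I).card) * LT P c0 m Rg h := by
  have h3 : ∑ q : Q, (1 + ((tr (q : P2) I).card : ℝ)) *
      tl (tr (q : P2) (win m I)) (m + 1) (mc Rg E P.rho P.eps P.Lam c0 ps h) =
      (1 + I.card) * ∑ q ∈ Q, tl (tr q (win m I)) (m + 1)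
        (mc Rg E P.rho P.eps P.Lam c0 ps h) := by
    rw [Finset.mul_sum, ← Finset.sum_coe_sort Q]
    refine Finset.sum_congr rfl fun q _ => ?_
    rw [card_tr]
  rw [h3, mul_assoc]
  refine mul_le_mul_of_nonneg_left ?_ (by positivity)
  refine (sum_tl_le hP (m + 1) _).trans ?_
  exact mul_le_mul_of_nonneg_left (tl_le_LT H P c0 h) (Nat.cast_nonneg _)

theorem sum_S_le (H : Loc F E Rg) (hP : Pos I m Rg Q) (P : Par) (c0 : ℝ) (h : P2 → ℝ) {B R : ℝ}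
    (hB : 0 ≤ B) (hR : 0 ≤ R) :
    (∑ q : Q, ((tr (q : P2) I).card : ℝ) * ∑ w ∈ tr (q : P2) I,
      (2 * 1 * (mc Rg E P.rho P.eps P.Lam c0 ps h w : ℝ) + B + R) ^ 2) ≤
      (I.card * (2 + B + R) ^ 2) * ST P c0 Rg h := by
  have h3 : ∑ q : Q, ((tr (q : P2) I).card : ℝ) * ∑ w ∈ tr (q : P2) I,
      (2 * 1 * (mc Rg E P.rho P.eps P.Lam c0 ps h w : ℝ) + B + R) ^ 2 =
      I.card * ∑ q ∈ Q, ∑ w ∈ tr q I,
      (2 * 1 * (mc Rg E P.rho P.eps P.Lam c0 ps h w : ℝ) + B + R) ^ 2 := by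
    rw [Finset.mul_sum, ← Finset.sum_coe_sort Q]
    refine Finset.sum_congr rfl fun q _ => ?_
    rw [card_tr]
  rw [h3, mul_assoc]
  refine mul_le_mul_of_nonneg_left ?_ (Nat.cast_nonneg _)
  refine (sum_blocks_le hP (fun _ => sq_nonneg _)).trans ?_
  unfold ST
  rw [Finset.mul_sum]
  refine Finset.sum_le_sum fun w _ => ?_
  rw [← mul_pow]
  have h4 : (mc Rg E P.rho P.eps P.Lam c0 ps h w : ℝ) ≤ mcw P c0 (win 1 Rg) h w := by
    exact_mod_cast mc_le_mcw H P c0 h w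
  have h5 : (0 : ℝ) ≤ mcw P c0 (win 1 Rg) h w := Nat.cast_nonneg _
  have h6 : (0 : ℝ) ≤ mc Rg E P.rho P.eps P.Lam c0 ps h w := Nat.cast_nonneg _
  refine pow_le_pow_left₀ (by positivity) ?_ 2
  nlinarith [mul_nonneg (add_nonneg hB hR) h5]

end sums

end Crest.Agent.R144.LoC95
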