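import Crest.Agent.R144.LoC5_95

/-!
# R144 (S0197), helper95, lower bound, instances, file 6: the trial field on a region

The trial field `YC` and its properties at good points.
-/

set_option autoImplicit false
set_option linter.unusedSectionVars false

open MeasureTheory Set Filter Topology
open scoped ENNReal NNReal

noncomputable section

namespace Crest.Agent.R144.LoC95

open Crest.Agent.R144.Ham560
open Crest.Agent.R144.Tri560
open Crest.Agent.R144.MW121 (jac jac_apply Tan)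
open Crest.Agent.R144.Fib674 (pd)
open Crest.Agent.R144.LoB95
open Crest.Agent.R144.Lc279 (lat mem_lat mem_nbr_lat P2)
open Crest.Agent.R144.Lw425 (hd hd_comm hd_le_iff mem_hball hball hd_self hd_triangle hd_pos
  hd_nonneg)
open Crest.Agent.R144.Bl565 (Par ps L2 win cor mem_win mem_cor subset_win cor_subset hd_add
  abs_ps_sub_le sym_add qd ps_sum mcw ps_zero ps_one ps_two ps_add)

section defs

variable (P : Par) (c0 : ℝ) (m : ℕ) (I : Finset P2) (Tl : Fin 2 → (P2 → ℝ) → P2 → ℝ)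
  (F : Finset P2) (E : Finset (P2 × P2)) (ξ : P2 → ℝ) (Rg Q : Finset P2) (Psi : (Fin 2 → ℝ) → ℝ)

/-- deep parts -/
def dC (q : Q) : Finset P2 := tr (q : P2) (cor m I)

/-- windows -/
def wC (q : Q) : Finset P2 := tr (q : P2) (win m I)

/-- cut-offs -/
def gC : Q → (F → ℝ) → ℝ := gf Rg E (wC m I Q) (m + 1) P.rho P.eps P.Lam c0 ps F ξ

/-- explicit field -/
def ZC : Fin 2 → (F → ℝ) → F → ℝ := Zl Rg E P.rho P.eps P.Lam ps F ξ

/-- cut-off field -/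
def VC : (F → ℝ) → F → ℝ := Zf (win 1 Rg) E P.rho P.eps P.Lam (fi0 Rg) F ξ

/-- position field -/
def LC (i : Fin 2) (x : F → ℝ) (w : F) : ℝ :=
  Lf (dC m I Q) (gC P c0 m I F E ξ Rg Q) (ZC P F E ξ Rg) (Tp F ξ Q m I Tl) i x w

/-- trial field -/
def YC : (F → ℝ) → F → ℝ :=
  Yw Rg (dC m I Q) (gC P c0 m I F E ξ Rg Q) (ZC P F E ξ Rg) (Tp F ξ Q m I Tl) (VC P F E ξ Rg) Psi

end defs

variable {P : Par} {c0 : ℝ} {m : ℕ} {I : Finset P2} {Tl : Fin 2 → (P2 → ℝ) → P2 → ℝ}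
  {F : Finset P2} {E : Finset (P2 × P2)} {ξ : P2 → ℝ} {Rg Q : Finset P2} {Psi : (Fin 2 → ℝ) → ℝ}
  {B C CT : ℝ}

theorem gmC (H : Loc F E Rg) (hP : Pos I m Rg Q) :
    Gm F Rg (win 1 Rg) E (fun q : Q => tr q I) (dC m I Q) (wC m I Q) (wC m I Q) hn (m + 1) :=
  H.gm hP

/-- displacement of the position field -/
theorem disp_L (H : Loc F E Rg) (hP : Pos I m Rg Q) (hc0 : 0 < c0)
    (hTm : Tm F E ξ Rg (dC m I Q) (wC m I Q) (Tp F ξ Q m I Tl) CT B) (x : F → ℝ) (w : F)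
    (i : Fin 2) : |LC P c0 m I Tl F E ξ Rg Q i x w - ix w i| ≤
      2 * mcw P c0 (win 1 Rg) (ext F ξ x) w + B := by
  have h1 : |ZC P F E ξ Rg i x w - ix w i| ≤ 2 * mcw P c0 (win 1 Rg) (ext F ξ x) w := by
    have h2 : |l3 (fun k => Zf Rg E P.rho P.eps P.Lam (ps k) F ξ x w - ps k w) i| ≤
        2 * (1 * mc Rg E P.rho P.eps P.Lam c0 ps (ext F ξ x) w) :=
      abs_l3_le (fun k => disp_le' (φs := ps) P.Lam_nonneg hc0 zero_le_one (fun a ha b _ hab => by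
        have := abs_ps_sub_le k a b
        rw [(H.nb a (subset_win _ _ ha) b).mp hab] at this
        simpa using this) x w) i
    rw [← l3_sub] at h2
    have h3 : l3 (fun k => ps k (w : P2)) i = ix w i := ph_eq i w
    rw [h3] at h2
    refine h2.trans ?_
    have h4 : (mc Rg E P.rho P.eps P.Lam c0 ps (ext F ξ x) w : ℝ) ≤
        mcw P c0 (win 1 Rg) (ext F ξ x) w := by exact_mod_cast mc_le_mcw H P c0 _ _
    linarith
  have h5 : |Gw (dC m I Q) (gC P c0 m I F E ξ Rg Q) x w * Tp F ξ Q m I Tl i x w| ≤ B := by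
    rw [abs_mul]
    have h6 : |Gw (dC m I Q) (gC P c0 m I F E ξ Rg Q) x w| ≤ 1 := by
      by_cases hwd : ∃ q : Q, (w : P2) ∈ dC m I Q q
      · obtain ⟨q', hq'⟩ := hwd
        have g0 : 0 ≤ gC P c0 m I F E ξ Rg Q q' x := gf_nonneg q' x
        rw [Gw_eq (gmC H hP).bg x hq', abs_of_nonneg g0]
        exact gf_le_one q' x
      · push Not at hwd
        rw [Gw_eq_zero x hwd, abs_zero]; exact zero_le_one
    calc _ ≤ 1 * B := mul_le_mul h6 (hTm.TB i x w) (abs_nonneg _) zero_le_one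
      _ = B := one_mul _
  have e : LC P c0 m I Tl F E ξ Rg Q i x w - ix w i = (ZC P F E ξ Rg i x w - ix w i) +
      Gw (dC m I Q) (gC P c0 m I F E ξ Rg Q) x w * Tp F ξ Q m I Tl i x w := by
    unfold LC Lf; ring
  rw [e]
  exact (abs_add_le _ _).trans (add_le_add h1 h5)

/-- separation hypothesis -/
def Sep (Rg : Finset P2) (Psi : (Fin 2 → ℝ) → ℝ) (B : ℝ) (M : ℕ) : Prop :=
  ∀ a ∈ Rg, (∃ l ∈ tsupport Psi, ∀ i, |l i - ix a i| ≤ 2 * M + B) →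
    ∀ b, b ∉ Rg → (M : ℤ) ≤ hd a b

theorem cut_L (H : Loc F E Rg) (hP : Pos I m Rg Q) (hc0 : 0 < c0)
    (hTm : Tm F E ξ Rg (dC m I Q) (wC m I Q) (Tp F ξ Q m I Tl) CT B) {M : ℕ} (hM : 2 ≤ M)
    (hsep : Sep Rg Psi B M) {x : F → ℝ} (hx : ¬ Bad P c0 Rg M (ext F ξ x)) {w : F}
    (hw : (w : P2) ∈ Rg) (hs : (fun i => LC P c0 m I Tl F E ξ Rg Q i x w) ∈ tsupport Psi) :
    1 < VC P F E ξ Rg x w := by
  unfold Bad at hx
  push Not at hx
  refine cut_pos H P hc0 hM hw (hx w hw) (hsep w hw ⟨_, hs, fun i => ?_⟩)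
  refine (disp_L H hP hc0 hTm x w i).trans ?_
  have : (mcw P c0 (win 1 Rg) (ext F ξ x) w : ℝ) ≤ M := by exact_mod_cast (hx w hw).le
  linarith

/-- displacement of the trial field -/
theorem disp_Y (H : Loc F E Rg) (hP : Pos I m Rg Q) (hc0 : 0 < c0)
    (hTm : Tm F E ξ Rg (dC m I Q) (wC m I Q) (Tp F ξ Q m I Tl) CT B) {M : ℕ} (hM : 2 ≤ M)
    (hsep : Sep Rg Psi B M) {p0 p1 p2 : ℝ} (hPsi : PsiH Psi p0 p1 p2) {x : F → ℝ}
    (hx : ¬ Bad P c0 Rg M (ext F ξ x)) {w : F} (hw : (w : P2) ∈ Rg) :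
    |YC P c0 m I Tl F E ξ Rg Q Psi x w - Psi (ix w)| ≤
      2 * p1 * (2 * mcw P c0 (win 1 Rg) (ext F ξ x) w + B) := by
  have hp1 := hPsi.n1
  have hYw : YC P c0 m I Tl F E ξ Rg Q Psi x w =
      Psi (fun i => LC P c0 m I Tl F E ξ Rg Q i x w) := by
    unfold YC Yw
    rw [if_pos hw]
    change chi (VC P F E ξ Rg x w) * Psi (fun i => LC P c0 m I Tl F E ξ Rg Q i x w) = _
    by_cases h0 : Psi (fun i => LC P c0 m I Tl F E ξ Rg Q i x w) = 0
    · rw [h0, mul_zero]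
    · have h1 : (fun i => LC P c0 m I Tl F E ξ Rg Q i x w) ∈ tsupport Psi := subset_tsupport _ h0
      rw [chi_one (cut_L H hP hc0 hTm hM hsep hx hw h1).le, one_mul]
  rw [hYw]
  refine (hPsi.lip _ _).trans (mul_le_mul_of_nonneg_left ?_ (by positivity))
  have hB : 0 ≤ 2 * (mcw P c0 (win 1 Rg) (ext F ξ x) w : ℝ) + B :=
    (abs_nonneg _).trans (disp_L H hP hc0 hTm x w 0)
  rw [pi_norm_le_iff_of_nonneg hB]
  intro i
  rw [Real.norm_eq_abs, Pi.sub_apply]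
  exact disp_L H hP hc0 hTm x w i

/-- derivatives exist almost everywhere, including those of the window fields -/
def GD (P : Par) (c0 : ℝ) (m : ℕ) (I : Finset P2) (Tl : Fin 2 → (P2 → ℝ) → P2 → ℝ)
    (F : Finset P2) (E : Finset (P2 × P2)) (ξ : P2 → ℝ) (Rg Q : Finset P2) (x : F → ℝ) : Prop :=
  DA3 Rg E (wC m I Q) (m + 1) P.rho P.eps P.Lam c0 ps F ξ (Tp F ξ Q m I Tl) x ∧
  ∀ q : Q, ∀ k : Fin 3, ∀ w : F, DifferentiableAt ℝ
    (fun y => Zf (wC m I Q q) E P.rho P.eps P.Lam (ps k) F ξ y w) x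

theorem gd_ae (H : Loc F E Rg) (hP : Pos I m Rg Q) (hc0 : 0 < c0) (hCT : 0 ≤ CT)
    (hTm : Tm F E ξ Rg (dC m I Q) (wC m I Q) (Tp F ξ Q m I Tl) CT B) :
    ∀ᵐ x : F → ℝ, GD P c0 m I Tl F E ξ Rg Q x := by
  have hae1 := dat_ae' (ψ := ps) (ξ := ξ) (ρ := P.rho) (gmC H hP) P.eps_pos P.Lam_nonneg hc0
    hCT hTm
  have hae2 : ∀ᵐ x : F → ℝ, ∀ q : Q, ∀ k : Fin 3, ∀ w : F, DifferentiableAt ℝ
      (fun y => Zf (wC m I Q q) E P.rho P.eps P.Lam (ps k) F ξ y w) x :=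
    ae_all_iff.mpr fun q => ae_all_iff.mpr fun k => ae_all_iff.mpr fun w =>
      (Zb560.lip_Zx (V := wC m I Q q) (E := E) (ρ := P.rho) (φ := ps k) (F := F) (ξ := ξ)
        P.eps_pos P.Lam_nonneg (w : P2)).ae_differentiableAt
  filter_upwards [hae1, hae2] with x h1 h2
  exact ⟨h1, h2⟩

theorem MT_eq (H : Loc F E Rg) (hP : Pos I m Rg Q) (T : Tpl m I Tl B C) {x : F → ℝ}
    (hx : GD P c0 m I Tl F E ξ Rg Q x) :
    MT P m I Tl Q Psi (ext F ξ x) = ∑ q : Q, Qb (tr (q : P2) I) (sl' Psi (ix q))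
      (Zl (wC m I Q q) E P.rho P.eps P.Lam ps F ξ) (Tp F ξ Q m I Tl) x := by
  unfold MT
  rw [← Finset.sum_coe_sort Q fun q => qd (Ph I (Gt P m I Tl) (fun a => ext F ξ x (q + a)))
    (sl' Psi (ix q))]
  refine Finset.sum_congr rfl fun q _ => ?_
  exact (Qb_eq P H hP T q.2 _ (fun i w => diff_l3 (fun k => hx.2 q k w) i) hx.1.T).symm

theorem MT_nonneg (H : Loc F E Rg) (hP : Pos I m Rg Q) (T : Tpl m I Tl B C) {x : F → ℝ}
    (hx : GD P c0 m I Tl F E ξ Rg Q x) : 0 ≤ MT P m I Tl Q Psi (ext F ξ x) := by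
  rw [MT_eq H hP T hx]
  exact Finset.sum_nonneg fun q _ => Qb_nonneg _ _ _ _ _

end Crest.Agent.R144.LoC95
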