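import Crest.Agent.R144.LoC6_95

/-!
# R144 (S0197), helper95, lower bound, instances, file 7: the final statement

`exists_field` : for a template family `Tl` on the block `I`, a region `Rg` where the graph is the
lattice, positions `Q` of the block and a test function `Psi` in index coordinates, a field `Y`
tangent to the hammock polytope, with explicit pointwise bounds of `tr (jac Y * jac Y)` and of
`Y - Psi`.
-/

set_option autoImplicit false
set_option linter.unusedSectionVars false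

open MeasureTheory Set Filter Topology
open scoped ENNReal NNReal

noncomputable section

namespace Crest.Agent.R144.LoC95

open Crest.Agent.R144.Ham560
open Crest.Agent.R144.Tri560
open Crest.Agent.R144.MW121 (jac jac_apply Tan)
open Crest.Agent.R144.Fib674 (pd)
open Crest.Agent.R144.LoB95
open Crest.Agent.R144.Lc279 (lat mem_lat mem_nbr_lat P2)
open Crest.Agent.R144.Lw425 (hd hd_comm hd_le_iff mem_hball hball hd_self hd_triangle hd_pos
  hd_nonneg)
open Crest.Agent.R144.Bl565 (Par ps L2 win cor mem_win mem_cor subset_win cor_subset hd_add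
  abs_ps_sub_le sym_add qd ps_sum mcw ps_zero ps_one ps_two ps_add)

variable {P : Par} {c0 : ℝ} {m : ℕ} {I : Finset P2} {Tl : Fin 2 → (P2 → ℝ) → P2 → ℝ}
  {F : Finset P2} {E : Finset (P2 × P2)} {ξ : P2 → ℝ} {Rg Q : Finset P2} {Psi : (Fin 2 → ℝ) → ℝ}
  {B C CT : ℝ}

/-- size of the block -/
def sz (I : Finset P2) : ℝ := ∑ v ∈ I, ∑ i, |ix v i|

theorem sz_nonneg (I : Finset P2) : 0 ≤ sz I :=
  Finset.sum_nonneg fun _ _ => Finset.sum_nonneg fun _ _ => abs_nonneg _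

theorem ix_sub_le {q w : P2} (hw : w ∈ tr q I) (i : Fin 2) : |ix w i - ix q i| ≤ sz I := by
  have h3 : ix w i - ix q i = ix (w - q) i := by
    have := ix_add q (w - q) i
    rw [add_sub_cancel] at this
    linarith
  rw [h3]
  have h4 : |ix (w - q) i| ≤ ∑ i, |ix (w - q) i| :=
    Finset.single_le_sum (f := fun i => |ix (w - q) i|) (fun _ _ => abs_nonneg _)
      (Finset.mem_univ i)
  refine h4.trans ?_
  exact Finset.single_le_sum (f := fun v => ∑ i, |ix v i|)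
    (fun _ _ => Finset.sum_nonneg fun _ _ => abs_nonneg _) (mem_tr.mp hw)

/-- constant of the second order terms -/
def A3c (P : Par) (c0 : ℝ) (I : Finset P2) (B CT θ : ℝ) : ℝ :=
  (1 + θ⁻¹) * (2 * KL' (2 * (2 * P.Lam / P.eps)) P.eps P.Lam c0 B CT ^ 2) *
    (I.card * (2 + B + sz I) ^ 2)

theorem A3c_nonneg (P : Par) (c0 : ℝ) (I : Finset P2) (B CT : ℝ) {θ : ℝ} (hθ : 0 < θ) :
    0 ≤ A3c P c0 I B CT θ := by
  unfold A3c
  have : 0 < θ⁻¹ := inv_pos.mpr hθ
  positivity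

/-- the trace inequality at good points -/
theorem trace_good (H : Loc F E Rg) (hP : Pos I m Rg Q) (T : Tpl m I Tl B C) (hc0 : 0 < c0)
    (hCT : 0 ≤ CT) (hTm : Tm F E ξ Rg (dC m I Q) (wC m I Q) (Tp F ξ Q m I Tl) CT B)
    {CL : ℝ} (hLow : Low F E ξ Rg (fun q : Q => tr (q : P2) I) (dC m I Q) (wC m I Q)
      (gC P c0 m I F E ξ Rg Q) (ZC P F E ξ Rg) (Tp F ξ Q m I Tl) (VC P F E ξ Rg) Psi CL)
    {M : ℕ} (hM : 2 ≤ M) (hsep : Sep Rg Psi B M) {p0 p1 p2 : ℝ} (hPsi : PsiH Psi p0 p1 p2)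
    {θ : ℝ} (hθ : 0 < θ) {x : F → ℝ} (hx : ¬ Bad P c0 Rg M (ext F ξ x))
    (hG : GD P c0 m I Tl F E ξ Rg Q x) :
    (jac (YC P c0 m I Tl F E ξ Rg Q Psi) x * jac (YC P c0 m I Tl F E ξ Rg Q Psi) x).trace ≤
      (1 + θ) ^ 2 * MT P m I Tl Q Psi (ext F ξ x) +
      p1 ^ 2 * (A1c P * NT P c0 m I Rg Q (ext F ξ x)) +
      p1 ^ 2 * (A2c P c0 m I B θ * LT P c0 m Rg (ext F ξ x)) +
      p2 ^ 2 * (A3c P c0 I B CT θ * ST P c0 Rg (ext F ξ x)) := by
  have hB := T.B_nonneg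
  have hgat : GAt Rg (fun q : Q => tr (q : P2) I) (dC m I Q) (wC m I Q)
      (gC P c0 m I F E ξ Rg Q) (ZC P F E ξ Rg) (Tp F ξ Q m I Tl) (VC P F E ξ Rg) Psi x :=
    gat_inst' (gmC H hP) P.Lam_nonneg hc0 hG.1
      (fun w hw hs => cut_L H hP hc0 hTm hM hsep hx hw hs)
  have hzat := zat_inst (gmC H hP) P.eps_pos P.Lam_nonneg hc0 hG.1 zero_le_one
    (fun j a ha b _ hab => by
      have := abs_ps_sub_le j a b
      rw [(H.nb a (subset_win _ _ ha) b).mp hab] at this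
      simpa using this)
  have k1 : (0 : ℝ) ≤ 3 * (2 * P.Lam / P.eps) ^ 2 := by positivity
  have hΛ := P.Lam_nonneg
  have hε := P.eps_pos
  have k2 : (0 : ℝ) ≤ 2 * (2 * P.Lam / P.eps) := by positivity
  have hmain := main' (gmC H hP) P.eps_pos P.Lam_nonneg hc0 hCT hB hTm hLow hPsi.diff hPsi.n1
    hPsi.n2 hPsi.g1 hPsi.g2 hG.1.dat hgat k1 k2 (by norm_num : (0 : ℝ) ≤ 2 * 1) hzat hθ
    (fun q : Q => ix q) (sz_nonneg I) (fun q w hw i => by
      rw [ph_eq]
      exact ix_sub_le hw i)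
  refine hmain.trans ?_
  have eF : (Fintype.card (Fin 2) : ℝ) = 2 := by simp
  rw [eF, MT_eq H hP T hG]
  have hcE : 0 ≤ cE' 2 (3 * (2 * P.Lam / P.eps) ^ 2) P.eps P.Lam c0 B θ :=
    cE'_nonneg (by norm_num) k1 hθ
  have hθ' : 0 < θ⁻¹ := inv_pos.mpr hθ
  have e1 := mul_le_mul_of_nonneg_left (sum_N_le (I := I) (m := m) (Q := Q) H P c0 (ext F ξ x))
    (A1c_nonneg P)
  have e2 := mul_le_mul_of_nonneg_left (tl_le_LT (m := m) H P c0 (ext F ξ x))
    (mul_nonneg zero_le_two (A1c_nonneg P))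
  have e3 := mul_le_mul_of_nonneg_left (sum_W_le H hP P c0 (ext F ξ x)) hcE
  have k4 : 0 ≤ (1 + θ⁻¹) * (2 * KL' (2 * (2 * P.Lam / P.eps)) P.eps P.Lam c0 B CT ^ 2) := by
    positivity
  have e4 := mul_le_mul_of_nonneg_left (sum_S_le H hP P c0 (ext F ξ x) hB (sz_nonneg I)) k4
  have e1' := mul_le_mul_of_nonneg_left e1 (sq_nonneg p1)
  have e2' := mul_le_mul_of_nonneg_left e2 (sq_nonneg p1)
  have e3' := mul_le_mul_of_nonneg_left e3 (sq_nonneg p1)
  have e4' := mul_le_mul_of_nonneg_left e4 (sq_nonneg p2)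
  have a1 : 2 * (3 * (2 * P.Lam / P.eps) ^ 2) = A1c P := by unfold A1c; ring
  rw [a1]
  refine (add_le_add (add_le_add (add_le_add (add_le_add le_rfl e1') e2') e3') e4').trans ?_
  refine le_of_eq ?_
  unfold A2c A3c
  ring

end Crest.Agent.R144.LoC95
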