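import Crest.Agent.R144.LoC7_95

/-!
# R144 (S0197), helper95, lower bound, instances, file 8: the final statement

`exists_field` : for a template family `Tl` on the block `I`, a region `Rg` where the graph is the
lattice, positions `Q` of the block and a test function `Psi` in index coordinates, a field `Y`
tangent to the hammock polytope, with explicit pointwise bounds of `tr (jac Y * jac Y)` and of
`Y - Psi`.  Right-hand sides (Borel functions of the configuration `h = ext F ξ x`):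
`MT` main term, `NT` collars, `LT` long cheap paths, `ST` second moments, `Bad` macroscopic paths.
-/

set_option autoImplicit false
set_option linter.unusedSectionVars false

open MeasureTheory Set Filter Topology
open scoped ENNReal NNReal

noncomputable section

namespace Crest.Agent.R144.LoC95

open Crest.Agent.R144.Ham560
open Crest.Agent.R144.Tri560
open Crest.Agent.R144.MW121 (jac jac_apply Tan)
open Crest.Agent.R144.LoB95
open Crest.Agent.R144.Lc279 (lat mem_lat mem_nbr_lat P2)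
open Crest.Agent.R144.Lw425 (hd hball)
open Crest.Agent.R144.Bl565 (Par ps L2 win cor mcw)

open Classical in
/-- **The trial field.** -/
theorem exists_field (P : Par) {c0 : ℝ} (hc0 : 0 < c0) {m : ℕ} {I : Finset P2}
    {Tl : Fin 2 → (P2 → ℝ) → P2 → ℝ} {B C : ℝ} (T : Tpl m I Tl B C) {θ : ℝ} (hθ : 0 < θ) :
    ∃ A3 A4 : ℝ, 0 ≤ A3 ∧ 0 ≤ A4 ∧ ∀ (F : Finset P2) (E : Finset (P2 × P2)) (ξ : P2 → ℝ)
      (Rg Q : Finset P2), Loc F E Rg → Pos I m Rg Q →
      ∀ (Psi : (Fin 2 → ℝ) → ℝ) (p0 p1 p2 : ℝ), PsiH Psi p0 p1 p2 →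
      ∀ M : ℕ, 2 ≤ M → Sep Rg Psi B M →
      ∃ (Y : (F → ℝ) → (F → ℝ)) (c : ℝ≥0) (t0 : ℝ), Tan (ham F E ξ) Y c t0 ∧
        (∀ᵐ x : F → ℝ, (jac Y x * jac Y x).trace ≤
          (1 + θ) ^ 2 * MT P m I Tl Q Psi (ext F ξ x) +
          p1 ^ 2 * (A1c P * NT P c0 m I Rg Q (ext F ξ x)) +
          p1 ^ 2 * (A2c P c0 m I B θ * LT P c0 m Rg (ext F ξ x)) +
          p2 ^ 2 * (A3 * ST P c0 Rg (ext F ξ x)) +
          (if Bad P c0 Rg M (ext F ξ x) then
            A4 * (1 + F.card : ℝ) ^ 8 * (1 + p0 + p1) ^ 6 else 0)) ∧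
        (∀ x, ∀ w : F, (w : P2) ∉ Rg → Y x w = 0) ∧
        (∀ x, ∀ w : F, |Y x w| ≤ p0) ∧
        (∀ x, ¬ Bad P c0 Rg M (ext F ξ x) → ∀ w : F, (w : P2) ∈ Rg →
          |Y x w - Psi (ix w)| ≤ 2 * p1 * (2 * mcw P c0 (win 1 Rg) (ext F ξ x) w + B)) := by
  obtain ⟨CT, hCT, hTm⟩ := exists_tm T
  have hB := T.B_nonneg
  have hε := P.eps_pos
  have hΛ := P.Lam_nonneg
  refine ⟨A3c P c0 I B CT θ, 16 * (1 + 2 * (2 * P.Lam / P.eps + P.Lam / P.eps) +
    ((((hball 1).card : ℝ) + 1) * (2 * P.Lam / P.eps) + P.Lam / P.eps) +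
    2 * P.Lam / P.eps / c0 + CT + B + 2) ^ 6, A3c_nonneg P c0 I B CT hθ, by positivity, ?_⟩
  intro F E ξ Rg Q H hP Psi p0 p1 p2 hPsi M hM hsep
  have hp0 := hPsi.n0
  have hp1 := hPsi.n1
  have hTmI : Tm F E ξ Rg (dC m I Q) (wC m I Q) (Tp F ξ Q m I Tl) CT B := hTm F E ξ Rg Q H hP
  have hPl : ∀ l l' : Fin 2 → ℝ, |Psi l - Psi l'| ≤ (2 * p1 + p0) * ‖l - l'‖ := fun l l' =>
    (hPsi.lip l l').trans (mul_le_mul_of_nonneg_right (by linarith) (norm_nonneg _))
  have hPB : ∀ l, |Psi l| ≤ 2 * p1 + p0 := fun l => (hPsi.b l).trans (by linarith)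
  have hLow : Low F E ξ Rg (fun q : Q => tr (q : P2) I) (dC m I Q) (wC m I Q)
      (gC P c0 m I F E ξ Rg Q) (ZC P F E ξ Rg) (Tp F ξ Q m I Tl) (VC P F E ξ Rg) Psi _ :=
    exists_low' (ξ := ξ) (gmC H hP) P.rho_pos.le hε hΛ hc0 ps (fi0_nonneg Rg)
      (fun a h => fi0_off h) hTmI hPl hPB
  have htan := hLow.tan_Y
  refine ⟨YC P c0 m I Tl F E ξ Rg Q Psi, _, _, htan, ?_, ?_, ?_, ?_⟩
  · filter_upwards [gd_ae H hP hc0 hCT hTmI] with x hG
    by_cases hbad : Bad P c0 Rg M (ext F ξ x)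
    · rw [if_pos hbad]
      have hcr := trace_crude htan.lip x
      rw [Real.coe_toNNReal _ (KY_nonneg hLow.C0)] at hcr
      have hF0 : (0 : ℝ) ≤ F.card := Nat.cast_nonneg _
      have hRF : (Rg.card : ℝ) ≤ F.card := by exact_mod_cast Finset.card_le_card H.sub
      have hb1 : (0 : ℝ) ≤ (hball 1).card := Nat.cast_nonneg _
      have hVF : ((win 1 Rg).card : ℝ) ≤ F.card * (hball 1).card := by
        calc ((win 1 Rg).card : ℝ) ≤ Rg.card * (hball 1).card := by
              exact_mod_cast card_win_one Rg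
          _ ≤ F.card * (hball 1).card := mul_le_mul_of_nonneg_right hRF hb1
      have hcl := CL_le (κ0 := 2 * P.Lam / P.eps) (LE := P.Lam / P.eps)
        (b1 := ((hball 1).card : ℝ)) (c0 := c0) (CT := CT) (B := B) (p0 := p0) (p1 := p1)
        (N := 1 + F.card) (R := Rg.card) (V := (win 1 Rg).card)
        (x1 := max (Zb560.lcz Rg P.eps P.Lam : ℝ) (P.Lam / P.eps))
        (x2 := max (Zb560.lcz (win 1 Rg) P.eps P.Lam : ℝ) (P.Lam / P.eps))
        (by positivity) (by positivity) hb1 hc0 hCT hB hp0 hp1 (by linarith) (by linarith)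
        (by nlinarith) (by rw [Zb560.coe_lcz Rg hε hΛ])
        (by rw [Zb560.coe_lcz (win 1 Rg) hε hΛ])
      have hC1 := hLow.C1
      rw [abs_of_nonneg hCT, abs_of_nonneg hB,
        abs_of_nonneg (by linarith : 0 ≤ 2 * p1 + p0)] at hC1 hcr
      have hnum := crude_num hC1 hcl hF0 (by linarith : (F.card : ℝ) ≤ 1 + F.card)
      have hM0 := MT_nonneg (Psi := Psi) H hP T hG
      have hN0 := NT_nonneg P c0 m I Rg Q (ext F ξ x)
      have hL0 := LT_nonneg P c0 m Rg (ext F ξ x)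
      have hS0 := ST_nonneg P c0 Rg (ext F ξ x)
      have hA1 := A1c_nonneg P
      have hA2 := A2c_nonneg P (c0 := c0) m I B hθ
      have hA3 := A3c_nonneg P c0 I B CT hθ
      have h0 : 0 ≤ (1 + θ) ^ 2 * MT P m I Tl Q Psi (ext F ξ x) +
          p1 ^ 2 * (A1c P * NT P c0 m I Rg Q (ext F ξ x)) +
          p1 ^ 2 * (A2c P c0 m I B θ * LT P c0 m Rg (ext F ξ x)) +
          p2 ^ 2 * (A3c P c0 I B CT θ * ST P c0 Rg (ext F ξ x)) := by positivity
      exact (hcr.trans hnum).trans (le_add_of_nonneg_left h0)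
    · rw [if_neg hbad, add_zero]
      exact trace_good H hP T hc0 hCT hTmI hLow hM hsep hPsi hθ hbad hG
  · intro x w hw
    unfold YC Yw
    rw [if_neg hw]
  · intro x w
    unfold YC Yw
    split_ifs
    · rw [abs_mul]
      calc _ ≤ 1 * p0 := mul_le_mul (abs_chi_le _) (hPsi.b _) (abs_nonneg _) zero_le_one
        _ = p0 := one_mul _
    · rw [abs_zero]; exact hp0
  · intro x hx w hw
    exact disp_Y H hP hc0 hTmI hM hsep hPsi hx hw

end Crest.Agent.R144.LoC95
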