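import Mathlib
import Crest.Agent.R144.Bl3_565
import Crest.Agent.R144.Lc12_279

/-!
# R144 (S0197), LOW-LIM (helper549), part 2: positions of the blocks

* `Qs r o R c` : the positions `q ≡ c` (mod `r / 2`) such that the window of the block `q + bk r o` is
  inside the region `R`; the blocks are disjoint;
* `nd r o R c` : the sites of `R` which are in no core; `sum_nd_le` : average over `c`;
* `sum_Qs_le` : sum over `c` of the sums over `Qs`.
-/

set_option autoImplicit false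

namespace Crest.Agent.R144.LowL549

open Crest.Agent.R144.Bl565
open Crest.Agent.R144.Lc279 (P2 bx mem_bx card_bx cls cls_mem BX mem_BX nr mem_nr)
open Crest.Agent.R144.Lw425 (hd hd_comm hd_le_iff mem_hball hball hd_self)

noncomputable section

theorem eq_of_emod {s x y : ℤ} (h : x % s = y % s) (h1 : -s < x - y) (h2 : x - y < s) :
    x = y := by
  have h3 : s ∣ x - y := Int.ModEq.dvd (show y ≡ x [ZMOD s] from h.symm)
  obtain ⟨k, hk⟩ := h3
  have hs : 0 < s := by linarith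
  have hk0 : k = 0 := by
    rcases lt_trichotomy k 0 with hk' | hk' | hk'
    · exfalso
      have : s * k ≤ s * (-1) := mul_le_mul_of_nonneg_left (by omega) hs.le
      linarith
    · exact hk'
    · exfalso
      have : s * 1 ≤ s * k := mul_le_mul_of_nonneg_left (by omega) hs.le
      linarith
  rw [hk0, mul_zero] at hk
  linarith

/-- classes of translated sites -/
theorem cls_sub {s : ℕ} {q q' v v' : P2} (h : q + v = q' + v') (hq : cls s q = cls s q') :
    cls s v = cls s v' := by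
  have e1 : q.1 + v.1 = q'.1 + v'.1 := congrArg Prod.fst h
  have e2 : q.2 + v.2 = q'.2 + v'.2 := congrArg Prod.snd h
  have f1 : q.1 % s = q'.1 % s := congrArg Prod.fst hq
  have f2 : q.2 % s = q'.2 % s := congrArg Prod.snd hq
  have g1 : v.1 % s = v'.1 % s := by
    have : v.1 ≡ v'.1 [ZMOD s] :=
      Int.ModEq.add_left_cancel (show q.1 ≡ q'.1 [ZMOD s] from f1) (by rw [e1])
    exact this
  have g2 : v.2 % s = v'.2 % s := by
    have : v.2 ≡ v'.2 [ZMOD s] :=
      Int.ModEq.add_left_cancel (show q.2 ≡ q'.2 [ZMOD s] from f2) (by rw [e2])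
    exact this
  exact Prod.ext g1 g2

/-- a block is a system of representatives -/
theorem bk_cls_inj {r : ℕ} {o : Fin 3} {v v' : P2} (hv : v ∈ bk r o) (hv' : v' ∈ bk r o)
    (h : cls (r / 2) v = cls (r / 2) v') : v = v' := by
  obtain ⟨a, ha, rfl⟩ := mem_bk.mp hv
  obtain ⟨b, hb, rfl⟩ := mem_bk.mp hv'
  rw [mem_rh] at ha hb
  obtain ⟨⟨a1, a2⟩, a3, a4⟩ := ha
  obtain ⟨⟨b1, b2⟩, b3, b4⟩ := hb
  set s : ℤ := ((r / 2 : ℕ) : ℤ) with hs
  have h1 : (sg (r / 2) o a).1 % s = (sg (r / 2) o b).1 % s := congrArg Prod.fst h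
  have h2 : (sg (r / 2) o a).2 % s = (sg (r / 2) o b).2 % s := congrArg Prod.snd h
  have hdvd : ∀ x y : ℤ, x % s = y % s → s ∣ x - y := fun x y hxy =>
    Int.ModEq.dvd (show y ≡ x [ZMOD s] from hxy.symm)
  have d1 := hdvd _ _ h1
  have d2 := hdvd _ _ h2
  have small : ∀ x : ℤ, s ∣ x → -s < x → x < s → x = 0 := by
    intro x hx h3 h4
    have := eq_of_emod (s := s) (x := x) (y := 0) (by rw [Int.emod_eq_zero_of_dvd hx]; simp)
      (by linarith) (by linarith)
    exact this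
  have hab : a = b := by
    fin_cases o
    · change s ∣ (sg (r / 2) 0 a).1 - (sg (r / 2) 0 b).1 at d1
      change s ∣ (sg (r / 2) 0 a).2 - (sg (r / 2) 0 b).2 at d2
      rw [sg_zero, sg_zero] at d1 d2
      have e1 := small _ d1 (by linarith) (by linarith)
      have e2 := small _ d2 (by linarith) (by linarith)
      exact Prod.ext (by linarith) (by linarith)
    · change s ∣ (sg (r / 2) 1 a).1 - (sg (r / 2) 1 b).1 at d1
      change s ∣ (sg (r / 2) 1 a).2 - (sg (r / 2) 1 b).2 at d2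
      rw [sg_one, sg_one] at d1 d2
      simp only at d1 d2
      have e2 := small _ d2 (by linarith) (by linarith)
      have e3 : (2 * s - 2 - a.1 - a.2) - (2 * s - 2 - b.1 - b.2) = b.2 - a.2 := by linarith
      rw [e3] at d1
      have e1 := small _ d1 (by linarith) (by linarith)
      exact Prod.ext (by linarith) (by linarith)
    · change s ∣ (sg (r / 2) 2 a).1 - (sg (r / 2) 2 b).1 at d1
      change s ∣ (sg (r / 2) 2 a).2 - (sg (r / 2) 2 b).2 at d2
      rw [sg_two, sg_two] at d1 d2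
      simp only at d1 d2
      have e2 := small _ d1 (by linarith) (by linarith)
      have e3 : (2 * s - 2 - a.1 - a.2) - (2 * s - 2 - b.1 - b.2) = b.1 - a.1 := by linarith
      rw [e3] at d2
      have e1 := small _ d2 (by linarith) (by linarith)
      exact Prod.ext (by linarith) (by linarith)
  rw [hab]

/-- all positions with the window inside `R` -/
def Qa (r : ℕ) (o : Fin 3) (R : Finset P2) : Finset P2 :=
  (R.biUnion fun w => (win (cw r) (bk r o)).image fun v => w - v).filter fun q =>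
    ∀ v ∈ win (cw r) (bk r o), q + v ∈ R

/-- positions of class `c` with the window inside `R` -/
def Qs (r : ℕ) (o : Fin 3) (R : Finset P2) (c : P2) : Finset P2 :=
  (Qa r o R).filter fun q => cls (r / 2) q = c

theorem bk_nonempty {r : ℕ} (hr : 2 ≤ r) (o : Fin 3) : (bk r o).Nonempty := by
  rw [← Finset.card_pos, card_bk]
  have : 0 < r / 2 := by omega
  positivity

theorem mem_Qa {r : ℕ} (hr : 2 ≤ r) {o : Fin 3} {R : Finset P2} {q : P2} :
    q ∈ Qa r o R ↔ ∀ v ∈ win (cw r) (bk r o), q + v ∈ R := by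
  rw [Qa, Finset.mem_filter]
  refine ⟨fun h => h.2, fun h => ⟨?_, h⟩⟩
  obtain ⟨v, hv⟩ := bk_nonempty hr o
  have hv' := subset_win (cw r) _ hv
  rw [Finset.mem_biUnion]
  refine ⟨q + v, h v hv', Finset.mem_image.mpr ⟨v, hv', ?_⟩⟩
  ext <;> simp

theorem mem_Qs {r : ℕ} (hr : 2 ≤ r) {o : Fin 3} {R : Finset P2} {c q : P2} :
    q ∈ Qs r o R c ↔ (∀ v ∈ win (cw r) (bk r o), q + v ∈ R) ∧ cls (r / 2) q = c := by
  rw [Qs, Finset.mem_filter, mem_Qa hr]

/-- the blocks of one class are disjoint -/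
theorem Qs_disj {r : ℕ} {o : Fin 3} {R : Finset P2} {c q q' v v' : P2}
    (hq : q ∈ Qs r o R c) (hq' : q' ∈ Qs r o R c) (hv : v ∈ bk r o) (hv' : v' ∈ bk r o)
    (h : q + v = q' + v') : q = q' := by
  rw [Qs, Finset.mem_filter] at hq hq'
  have h1 : v = v' := bk_cls_inj hv hv' (cls_sub h (hq.2.trans hq'.2.symm))
  rw [h1] at h
  exact add_right_cancel h

/-- sum over the classes -/
theorem sum_Qs {r : ℕ} (hr : 2 ≤ r) (o : Fin 3) (R : Finset P2) (F : P2 → ℝ) :
    ∑ c ∈ bx (r / 2), ∑ q ∈ Qs r o R c, F q = ∑ q ∈ Qa r o R, F q := by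
  unfold Qs
  exact Finset.sum_fiberwise_of_maps_to (fun q _ => cls_mem (by omega) q) F

theorem sum_Qs_le {r : ℕ} (hr : 2 ≤ r) (o : Fin 3) (R S : Finset P2) {F : P2 → ℝ}
    (hF : ∀ q, 0 ≤ F q) (hS : ∀ q, q ∉ S → F q = 0) :
    ∑ c ∈ bx (r / 2), ∑ q ∈ Qs r o R c, F q ≤ ∑ q ∈ S, F q := by
  rw [sum_Qs hr]
  have h1 : ∑ q ∈ Qa r o R, F q = ∑ q ∈ (Qa r o R).filter (fun q => q ∈ S), F q := by
    rw [Finset.sum_filter]
    refine Finset.sum_congr rfl fun q _ => ?_
    split_ifs with h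
    · rfl
    · exact hS q h
  rw [h1]
  exact Finset.sum_le_sum_of_subset_of_nonneg
    (fun q hq => (Finset.mem_filter.mp hq).2) fun q _ _ => hF q

/-- the sites of `R` in no core -/
def nd (r : ℕ) (o : Fin 3) (R : Finset P2) (c : P2) : Finset P2 :=
  R.filter fun w => ∀ q ∈ Qs r o R c, w - q ∉ cor (cw r) (bk r o)

theorem mem_nd {r : ℕ} {o : Fin 3} {R : Finset P2} {c w : P2} :
    w ∈ nd r o R c ↔ w ∈ R ∧ ∀ q ∈ Qs r o R c, w - q ∉ cor (cw r) (bk r o) := by
  rw [nd, Finset.mem_filter]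

theorem cw_le (r : ℕ) : cw r ≤ r := Nat.sqrt_le_self r

/-- the classes for which a site well inside `R` is not in a core -/
theorem card_nd_le {r : ℕ} (hr : 2 ≤ r) {o : Fin 3} {R : Finset P2} {w : P2}
    (hw : w ∈ R \ nr (4 * r) R) :
    ((bx (r / 2)).filter fun c => w ∈ nd r o R c).card + (cor (cw r) (bk r o)).card ≤
      (r / 2) ^ 2 := by
  have hs : 0 < r / 2 := by omega
  have hwR : w ∈ R := (Finset.mem_sdiff.mp hw).1
  have hdeep : ∀ u ∈ BX (4 * r), w + u ∈ R := fun u hu => Lc279.deep hw hu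
  -- the map from the core to the classes
  set g : P2 → P2 := fun v => cls (r / 2) (w - v) with hg
  have hmaps : ∀ v ∈ cor (cw r) (bk r o), g v ∈ (bx (r / 2)).filter fun c => ¬ w ∈ nd r o R c := by
    intro v hv
    have hvb : v ∈ bk r o := cor_subset _ _ hv
    rw [Finset.mem_filter]
    refine ⟨cls_mem hs _, fun h => ?_⟩
    have hq : w - v ∈ Qs r o R (g v) := by
      rw [mem_Qs hr]
      refine ⟨fun u hu => ?_, rfl⟩
      have h1 : w - v + u = w + (u - v) := by abel
      rw [h1]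
      refine hdeep _ ?_
      obtain ⟨a, ha, hda⟩ := mem_win.mp hu
      obtain ⟨⟨a1, a2⟩, a3, a4⟩ := bk_bound ha
      obtain ⟨⟨v1, v2⟩, v3, v4⟩ := bk_bound hvb
      rw [hd_le_iff] at hda
      obtain ⟨⟨d1, d2⟩, ⟨d3, d4⟩, _⟩ := hda
      have hc : (cw r : ℤ) ≤ r := by exact_mod_cast cw_le r
      rw [mem_BX]
      push_cast
      simp only [Prod.fst_sub, Prod.snd_sub]
      refine ⟨⟨?_, ?_⟩, ?_, ?_⟩ <;> linarith
    have h2 := (mem_nd.mp h).2 _ hq
    apply h2
    have : w - (w - v) = v := by abel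
    rwa [this]
  have hinj : Set.InjOn g (cor (cw r) (bk r o)) := by
    intro v hv v' hv' h
    have h3 : (w - v) + v = (w - v') + v' := by abel
    exact bk_cls_inj (cor_subset _ _ hv) (cor_subset _ _ hv') (cls_sub h3 h)
  have h4 : (cor (cw r) (bk r o)).card ≤
      ((bx (r / 2)).filter fun c => ¬ w ∈ nd r o R c).card :=
    Finset.card_le_card_of_injOn g hmaps hinj
  have h5 := Finset.card_filter_add_card_filter_not (s := bx (r / 2)) (fun c => w ∈ nd r o R c)
  rw [card_bx] at h5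
  omega

/-- average of the sums over the sites in no core -/
theorem sum_nd_le {r : ℕ} (hr : 2 ≤ r) (o : Fin 3) (R : Finset P2) {f : P2 → ℝ}
    (hf : ∀ w, 0 ≤ f w) :
    ∑ c ∈ bx (r / 2), ∑ w ∈ nd r o R c, f w ≤
      (((r / 2 : ℕ) : ℝ) ^ 2 - (cor (cw r) (bk r o)).card) * ∑ w ∈ R, f w +
        ((r / 2 : ℕ) : ℝ) ^ 2 * ∑ w ∈ nr (4 * r) R, f w := by
  have hcor : ((cor (cw r) (bk r o)).card : ℝ) ≤ ((r / 2 : ℕ) : ℝ) ^ 2 := by
    have h1 := Finset.card_le_card (cor_subset (cw r) (bk r o))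
    rw [card_bk] at h1
    exact_mod_cast h1
  have h1 : ∑ c ∈ bx (r / 2), ∑ w ∈ nd r o R c, f w =
      ∑ w ∈ R, (((bx (r / 2)).filter fun c => w ∈ nd r o R c).card : ℝ) * f w := by
    have h2 : ∀ c, ∑ w ∈ nd r o R c, f w = ∑ w ∈ R, if w ∈ nd r o R c then f w else 0 := by
      intro c
      rw [← Finset.sum_filter]
      refine Finset.sum_congr ?_ fun _ _ => rfl
      ext w
      rw [Finset.mem_filter]
      exact ⟨fun h => ⟨(mem_nd.mp h).1, h⟩, fun h => h.2⟩
    simp only [h2]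
    rw [Finset.sum_comm]
    refine Finset.sum_congr rfl fun w _ => ?_
    rw [← Finset.sum_filter, Finset.sum_const, nsmul_eq_mul]
  rw [h1]
  have h3 : ∀ w ∈ R, (((bx (r / 2)).filter fun c => w ∈ nd r o R c).card : ℝ) * f w ≤
      (((r / 2 : ℕ) : ℝ) ^ 2 - (cor (cw r) (bk r o)).card) * f w +
        if w ∈ nr (4 * r) R then ((r / 2 : ℕ) : ℝ) ^ 2 * f w else 0 := by
    intro w hw
    have hfw := hf w
    split_ifs with h
    · have h4 : (((bx (r / 2)).filter fun c => w ∈ nd r o R c).card : ℝ) ≤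
          ((r / 2 : ℕ) : ℝ) ^ 2 := by
        have h5 := Finset.card_le_card (Finset.filter_subset (fun c => w ∈ nd r o R c)
          (bx (r / 2)))
        rw [card_bx] at h5
        exact_mod_cast h5
      have h6 := mul_le_mul_of_nonneg_right h4 hfw
      have h7 := mul_nonneg (sub_nonneg.mpr hcor) hfw
      linarith
    · rw [add_zero]
      refine mul_le_mul_of_nonneg_right ?_ hfw
      have h8 := card_nd_le hr (o := o) (R := R) (w := w) (Finset.mem_sdiff.mpr ⟨hw, h⟩)
      have h9 : (((bx (r / 2)).filter fun c => w ∈ nd r o R c).card : ℝ) +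
          (cor (cw r) (bk r o)).card ≤ ((r / 2 : ℕ) : ℝ) ^ 2 := by exact_mod_cast h8
      linarith
  refine (Finset.sum_le_sum h3).trans (le_of_eq ?_)
  rw [Finset.sum_add_distrib, ← Finset.mul_sum, ← Finset.sum_filter, Finset.mul_sum (s := nr _ _)]
  congr 1
  refine Finset.sum_congr ?_ fun _ _ => rfl
  ext w
  rw [Finset.mem_filter]
  exact ⟨fun h => h.2, fun h => ⟨Lc279.nr_subset _ _ h, h⟩⟩

/-- the core of a block is most of the block -/
theorem card_cor (r : ℕ) (o : Fin 3) :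
    ((r / 2 : ℕ) : ℝ) ^ 2 - (cor (cw r) (bk r o)).card ≤ 8 * cw r * ((r / 2 : ℕ) : ℝ) := by
  obtain ⟨c, hc⟩ := exists_sym (r / 2) o
  set s := r / 2 with hs
  set m := cw r with hm
  have h1 : (cor m (rh s)).card ≤ (cor m (bk r o)).card := by
    rw [← Finset.card_image_of_injective (cor m (rh s)) hc.inj]
    refine Finset.card_le_card fun v hv => ?_
    obtain ⟨u, hu, rfl⟩ := Finset.mem_image.mp hv
    exact (hc.mem_cor (fun v => mem_bk) u).mpr hu
  by_cases h4 : 4 * m ≤ s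
  · have h2 : (Finset.Ico (2 * m : ℤ) (s - 2 * m) ×ˢ Finset.Ico (2 * m : ℤ) (s - 2 * m)) ⊆
        cor m (rh s) := by
      intro w hw
      rw [Finset.mem_product, Finset.mem_Ico, Finset.mem_Ico] at hw
      obtain ⟨⟨w1, w2⟩, w3, w4⟩ := hw
      rw [mem_cor]
      have key : ∀ v : P2, hd v w ≤ 2 * m → v ∈ rh s := by
        intro v hv
        rw [hd_le_iff] at hv
        obtain ⟨⟨d1, d2⟩, ⟨d3, d4⟩, _⟩ := hv
        rw [mem_rh]
        refine ⟨⟨?_, ?_⟩, ?_, ?_⟩ <;> linarith
      exact ⟨key w (by rw [hd_self]; positivity), key⟩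
    have h3 := Finset.card_le_card h2
    rw [Finset.card_product, Int.card_Ico] at h3
    have h5 : ((s : ℤ) - 2 * m - 2 * m).toNat = s - 4 * m := by omega
    rw [h5] at h3
    have h6 : ((s : ℝ) - 4 * m) * ((s : ℝ) - 4 * m) ≤ (cor m (bk r o)).card := by
      have h7 : ((s - 4 * m : ℕ) : ℝ) = (s : ℝ) - 4 * m := by
        rw [Nat.cast_sub h4]; push_cast; ring
      rw [← h7]
      exact_mod_cast h3.trans h1
    nlinarith [sq_nonneg ((m : ℝ))]
  · have h2 : (s : ℝ) ≤ 4 * m := by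
      have : s ≤ 4 * m := by omega
      exact_mod_cast this
    have h3 : (0 : ℝ) ≤ (cor m (bk r o)).card := Nat.cast_nonneg _
    have h5 : (0 : ℝ) ≤ s := Nat.cast_nonneg _
    have h6 : (0 : ℝ) ≤ m := Nat.cast_nonneg _
    nlinarith [mul_le_mul_of_nonneg_right h2 h5, mul_nonneg h6 h5]

/-- the best of all orientations and classes -/
theorem exists_best {r : ℕ} (hr : 2 ≤ r) (A : Fin 3 → P2 → ℝ) {M : ℝ}
    (hA : ∑ o, ∑ c ∈ bx (r / 2), A o c ≤ 3 * ((r / 2 : ℕ) : ℝ) ^ 2 * M) :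
    ∃ o, ∃ c ∈ bx (r / 2), A o c ≤ M := by
  by_contra hcon
  push Not at hcon
  have hs : 0 < r / 2 := by omega
  have hne : (bx (r / 2)).Nonempty := by
    rw [← Finset.card_pos, card_bx]; positivity
  have h1 : ∀ o, ((r / 2 : ℕ) : ℝ) ^ 2 * M < ∑ c ∈ bx (r / 2), A o c := by
    intro o
    have := Finset.sum_lt_sum_of_nonempty hne (hcon o)
    rw [Finset.sum_const, nsmul_eq_mul, card_bx] at this
    exact_mod_cast this
  have h2 := Finset.sum_lt_sum_of_nonempty (s := (Finset.univ : Finset (Fin 3)))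
    Finset.univ_nonempty fun o _ => h1 o
  rw [Finset.sum_const, nsmul_eq_mul, Finset.card_univ, Fintype.card_fin] at h2
  push_cast at h2
  linarith

end

end Crest.Agent.R144.LowL549
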