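import Mathlib
import Crest.Agent.R144.LoC0_95
import Crest.Agent.R144.LowL2_549

/-!
# R144 (S0197), LOW-LIM (helper549), part 3: rotated templates

`RT s o Tl` : the template of the orientation `o` obtained from the template `Tl` of the orientation
`0`; `tpl_RT`; `Gt_RT`; `qd_Ph_RT` : the quadratic form of the rotated matrix.
-/

set_option autoImplicit false

namespace Crest.Agent.R144.LowL549

open Crest.Agent.R144.Bl565 Crest.Agent.R144.LoC95
open Crest.Agent.R144.Lc279 (P2 lat mem_lat)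
open Crest.Agent.R144.Lw425 (hd hd_comm hd_le_iff)

noncomputable section

theorem sg_neg (s : ℕ) (o : Fin 3) (v : P2) : sg s o (sg s (-o) v) = v := by
  fin_cases o
  · change sg s 0 (sg s 0 v) = v
    rw [sg_zero, sg_zero]
  · change sg s 1 (sg s 2 v) = v
    rw [sg_one, sg_two]
    ext <;> simp only <;> ring
  · change sg s 2 (sg s 1 v) = v
    rw [sg_two, sg_one]
    ext <;> simp only <;> ring

theorem neg_sg (s : ℕ) (o : Fin 3) (v : P2) : sg s (-o) (sg s o v) = v := by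
  have := sg_neg s (-o) v
  rwa [neg_neg] at this

/-- the rotated template -/
def RT (s : ℕ) (o : Fin 3) (Tl : Fin 2 → (P2 → ℝ) → P2 → ℝ) (i : Fin 2) (h : P2 → ℝ)
    (w : P2) : ℝ :=
  ∑ j, ek (prm o i.castSucc) j * Tl j (fun v => h (sg s o v)) (sg s (-o) w)

theorem abs_ek_le (k : Fin 3) (j : Fin 2) : |ek k j| ≤ 1 := by
  fin_cases k <;> fin_cases j <;> simp [ek]

theorem mem_bk' {r : ℕ} (o : Fin 3) (v : P2) : v ∈ bk r o ↔ ∃ u ∈ bk r 0, sg (r / 2) o u = v := by
  rw [mem_bk, bk_zero]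

theorem sum_ek_le {a : Fin 2 → ℝ} {B : ℝ} (h : ∀ j, |a j| ≤ B) (k : Fin 3) :
    |∑ j, ek k j * a j| ≤ 2 * B := by
  refine (Finset.abs_sum_le_sum_abs _ _).trans ?_
  rw [Fin.sum_univ_two, abs_mul, abs_mul]
  have h1 := mul_le_mul (abs_ek_le k 0) (h 0) (abs_nonneg _) zero_le_one
  have h2 := mul_le_mul (abs_ek_le k 1) (h 1) (abs_nonneg _) zero_le_one
  linarith

/-- the rotated template is a template -/
theorem tpl_RT {r : ℕ} {o : Fin 3} {Tl : Fin 2 → (P2 → ℝ) → P2 → ℝ} {B C : ℝ}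
    (hT : Tpl (cw r) (bk r 0) Tl B C) :
    Tpl (cw r) (bk r o) (RT (r / 2) o Tl) (2 * B) (2 * C) := by
  obtain ⟨c, hc⟩ := exists_sym (r / 2) o
  have hI := mem_bk' (r := r) o
  have hwin : ∀ u ∈ win (cw r) (bk r 0), sg (r / 2) o u ∈ win (cw r) (bk r o) := fun u hu =>
    (hc.mem_win hI _).mpr ⟨u, hu, rfl⟩
  exact
    { loc := by
        intro i h h' hh w
        unfold RT
        refine Finset.sum_congr rfl fun j _ => ?_
        rw [hT.loc j _ _ (fun v hv => hh _ (hwin v hv)) _]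
      lip := by
        intro i h h' M hh w
        have e : RT (r / 2) o Tl i h w - RT (r / 2) o Tl i h' w =
            ∑ j, ek (prm o i.castSucc) j * (Tl j (fun v => h (sg (r / 2) o v)) (sg (r / 2) (-o) w) -
              Tl j (fun v => h' (sg (r / 2) o v)) (sg (r / 2) (-o) w)) := by
          unfold RT
          rw [← Finset.sum_sub_distrib]
          exact Finset.sum_congr rfl fun j _ => by ring
        rw [e]
        refine (sum_ek_le (B := C * M) (fun j => ?_) _).trans (le_of_eq (by ring))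
        exact hT.lip j _ _ M (fun v hv => hh _ (hwin v hv)) _
      off := by
        intro i h w hw
        unfold RT
        have h1 : sg (r / 2) (-o) w ∉ cor (cw r) (bk r 0) := by
          intro h2
          have h3 := (hc.mem_cor (m := cw r) hI (sg (r / 2) (-o) w)).mpr h2
          rw [sg_neg] at h3
          exact hw h3
        refine Finset.sum_eq_zero fun j _ => ?_
        rw [hT.off j _ _ h1, mul_zero]
      bdd := fun i h w => sum_ek_le (fun j => hT.bdd j _ _) _
      rig := by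
        obtain ⟨ρ, hρ, hr⟩ := hT.rig
        refine ⟨ρ, hρ, fun i h hlip a ha b hb hab hgr => ?_⟩
        obtain ⟨a', ha', rfl⟩ := (hI a).mp ha
        obtain ⟨b', hb', rfl⟩ := (hI b).mp hb
        unfold RT
        refine Finset.sum_congr rfl fun j _ => ?_
        rw [neg_sg, neg_sg]
        congr 1
        refine hr j (fun v => h (sg (r / 2) o v)) (fun x hx y hy hxy => ?_) a' ha' b' hb' ?_ hgr
        · refine hlip _ ((hI _).mpr ⟨x, hx, rfl⟩) _ ((hI _).mpr ⟨y, hy, rfl⟩) ?_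
          rw [hc.hd_eq]; exact hxy
        · rw [hc.hd_eq] at hab; exact hab
      sh := by
        intro i h c' w
        unfold RT
        refine Finset.sum_congr rfl fun j _ => ?_
        rw [hT.sh j (fun v => h (sg (r / 2) o v)) c'] }

/-- the rotated field -/
theorem Gt_RT (P : Par) (r : ℕ) (o : Fin 3) (Tl : Fin 2 → (P2 → ℝ) → P2 → ℝ) :
    ∃ c : Fin 2 → ℝ, ∀ i h w,
      Gt P (cw r) (bk r o) (RT (r / 2) o Tl) i h (sg (r / 2) o w) =
        ∑ j, ek (prm o i.castSucc) j *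
          Gt P (cw r) (bk r 0) Tl j (fun v => h (sg (r / 2) o v)) w + c i := by
  obtain ⟨c, hc⟩ := exists_sym (r / 2) o
  have hI := mem_bk' (r := r) o
  refine ⟨fun i => c i.castSucc - (c 0 + c 1 + c 2) / 3, fun i h w => ?_⟩
  have h1 := hc.Lf_eq P (hc.mem_win (m := cw r) hI) (hc.nbr_win (m := cw r) hI) i.castSucc h w
  have h2 := Lf_eq_ek P (win (cw r) (bk r 0)) (lat (win (cw r) (bk r 0))) (prm o i.castSucc)
    (h ∘ sg (r / 2) o) w
  unfold Gt
  change Lf P (win (cw r) (bk r o)) (lat (win (cw r) (bk r o))) i.castSucc h (sg (r / 2) o w) +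
    RT (r / 2) o Tl i h (sg (r / 2) o w) = _
  rw [h1, h2]
  unfold RT
  rw [neg_sg]
  simp only [mul_add, Finset.sum_add_distrib]
  change _ = (∑ j, ek (prm o i.castSucc) j *
    L2 P (win (cw r) (bk r 0)) (lat (win (cw r) (bk r 0))) j (h ∘ sg (r / 2) o) w) + _ + _
  ring

/-- points where the field is differentiable in the direction of the sites -/
def DP (P : Par) (m : ℕ) (I : Finset P2) (Tl : Fin 2 → (P2 → ℝ) → P2 → ℝ) (h : P2 → ℝ) : Prop :=
  ∀ v ∈ I, ∀ w ∈ I, ∀ j, LineDifferentiableAt ℝ (fun h => Gt P m I Tl j h w) h (Pi.single v 1)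

theorem comp_single {s : ℕ} {o : Fin 3} (h : P2 → ℝ) (t : ℝ) (v : P2) :
    (fun u => (h + t • (Pi.single (sg s o v) 1 : P2 → ℝ)) (sg s o u)) =
      (fun u => h (sg s o u)) + t • (Pi.single v 1 : P2 → ℝ) := by
  obtain ⟨c, hc⟩ := exists_sym s o
  funext u
  simp only [Pi.add_apply, Pi.smul_apply, smul_eq_mul]
  congr 2
  by_cases huv : u = v
  · rw [huv, Pi.single_eq_same, Pi.single_eq_same]
  · rw [Pi.single_eq_of_ne huv, Pi.single_eq_of_ne fun he => huv (hc.inj he)]

theorem dv_RT {P : Par} {r : ℕ} {o : Fin 3} {Tl : Fin 2 → (P2 → ℝ) → P2 → ℝ} {h : P2 → ℝ}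
    (hD : DP P (cw r) (bk r 0) Tl (fun v => h (sg (r / 2) o v))) {v w : P2} (hv : v ∈ bk r 0)
    (hw : w ∈ bk r 0) (i : Fin 2) :
    dv (sg (r / 2) o v) (fun h => Gt P (cw r) (bk r o) (RT (r / 2) o Tl) i h (sg (r / 2) o w)) h =
      ∑ j, ek (prm o i.castSucc) j *
        dv v (fun h => Gt P (cw r) (bk r 0) Tl j h w) (fun v => h (sg (r / 2) o v)) := by
  obtain ⟨c, hc⟩ := Gt_RT P r o Tl
  unfold dv
  have hder : ∀ j, HasDerivAt (fun t : ℝ => Gt P (cw r) (bk r 0) Tl j
      ((fun v => h (sg (r / 2) o v)) + t • (Pi.single v 1 : P2 → ℝ)) w)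
      (lineDeriv ℝ (fun h => Gt P (cw r) (bk r 0) Tl j h w) (fun v => h (sg (r / 2) o v))
        (Pi.single v 1)) 0 := fun j => (hD v hv w hw j).hasLineDerivAt
  have h1 : HasDerivAt (fun t : ℝ => Gt P (cw r) (bk r o) (RT (r / 2) o Tl) i
      (h + t • (Pi.single (sg (r / 2) o v) 1 : P2 → ℝ)) (sg (r / 2) o w))
      (∑ j, ek (prm o i.castSucc) j *
        lineDeriv ℝ (fun h => Gt P (cw r) (bk r 0) Tl j h w) (fun v => h (sg (r / 2) o v))
        (Pi.single v 1)) 0 := by
    have e : (fun t : ℝ => Gt P (cw r) (bk r o) (RT (r / 2) o Tl) i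
        (h + t • (Pi.single (sg (r / 2) o v) 1 : P2 → ℝ)) (sg (r / 2) o w)) =
        fun t : ℝ => (∑ j, ek (prm o i.castSucc) j * Gt P (cw r) (bk r 0) Tl j
          ((fun v => h (sg (r / 2) o v)) + t • (Pi.single v 1 : P2 → ℝ)) w) + c i := by
      funext t
      rw [hc, comp_single]
    rw [e]
    refine HasDerivAt.add_const _ ?_
    exact HasDerivAt.fun_sum fun j _ => (hder j).const_mul _
  exact h1.deriv

/-- the rotated matrix -/
theorem Ph_RT {P : Par} {r : ℕ} {o : Fin 3} {Tl : Fin 2 → (P2 → ℝ) → P2 → ℝ} {h : P2 → ℝ}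
    (hD : DP P (cw r) (bk r 0) Tl (fun v => h (sg (r / 2) o v))) (y : Fin 2 → ℝ) :
    qd (Ph (bk r o) (Gt P (cw r) (bk r o) (RT (r / 2) o Tl)) h) y =
      qd (Ph (bk r 0) (Gt P (cw r) (bk r 0) Tl) (fun v => h (sg (r / 2) o v))) (tw (prm o) y) := by
  obtain ⟨c, hc⟩ := exists_sym (r / 2) o
  have key : ∀ (I : Finset P2) (G : Fin 2 → (P2 → ℝ) → P2 → ℝ) (h : P2 → ℝ) (y : Fin 2 → ℝ),
      qd (Ph I G h) y = ∑ v ∈ I, ∑ w ∈ I, (∑ i, y i * dv v (fun h => G i h w) h) ^ 2 := by
    intro I G h y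
    rw [qd_eq]
    simp only [Ph_apply, Finset.sum_mul, ← Finset.sum_add_distrib]
    refine Finset.sum_congr rfl fun v _ => Finset.sum_congr rfl fun w _ => ?_
    rw [Fin.sum_univ_two]
    ring
  have hbk : bk r o = (bk r 0).image (sg (r / 2) o) := by
    ext v
    rw [mem_bk' o, Finset.mem_image]
  rw [key, key, hbk, Finset.sum_image fun a _ b _ hab => hc.inj hab]
  refine Finset.sum_congr rfl fun v hv => ?_
  rw [Finset.sum_image fun a _ b _ hab => hc.inj hab]
  refine Finset.sum_congr rfl fun w hw => ?_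
  congr 1
  rw [← hbk]
  simp only [dv_RT hD hv hw, tw, Finset.sum_mul, Finset.mul_sum]
  rw [Finset.sum_comm]
  refine Finset.sum_congr rfl fun j _ => Finset.sum_congr rfl fun i _ => ?_
  ring

end

end Crest.Agent.R144.LowL549
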