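import Mathlib
import Crest.Agent.R144.LoC2_95
import Crest.Agent.R144.LowL3_549

/-!
# R144 (S0197), LOW-LIM (helper549), part 4: almost everywhere differentiability

`ae_DP` : the fields seen from `q` are differentiable in the heights, for almost every configuration;
`ae_Ph_RT` : the rotated matrices, almost everywhere.
-/

set_option autoImplicit false

namespace Crest.Agent.R144.LowL549

open MeasureTheory Set Filter Topology
open Crest.Agent.R144.Bl565 Crest.Agent.R144.LoC95 Crest.Agent.R144.Ham560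
open Crest.Agent.R144.Lc279 (P2 lat mem_lat)
open Crest.Agent.R144.Lw425 (hd hd_comm hd_le_iff)

noncomputable section

/-- the reference field is Lipschitz in the heights of the window -/
theorem L2_lip (P : Par) (V : Finset P2) (E : Finset (P2 × P2)) (i : Fin 2) {h h' : P2 → ℝ} {M : ℝ}
    (hM0 : 0 ≤ M) (hM : ∀ a ∈ V, |h a - h' a| ≤ M) (u : P2) :
    |L2 P V E i h u - L2 P V E i h' u| ≤ 2 * ((V.card + 1) * (2 * P.Lam / P.eps)) * M := by
  have hz : ∀ k, |Zk P V E k h u - Zk P V E k h' u| ≤ (V.card + 1) * (2 * P.Lam / P.eps) * M := by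
    intro k
    refine (Zb560.Z_lip P.eps_pos P.Lam_nonneg hM0 hM u).trans (le_of_eq (by ring))
  have h0 := abs_le.mp (hz 0)
  have h1 := abs_le.mp (hz 1)
  have h2 := abs_le.mp (hz 2)
  have h3 := abs_le.mp (hz i.castSucc)
  unfold L2 Lf
  set K : ℝ := (V.card + 1) * (2 * P.Lam / P.eps) * M with hK
  have hK0 : 0 ≤ K := (abs_nonneg _).trans (hz 0)
  have e : 2 * ((V.card + 1) * (2 * P.Lam / P.eps)) * M = 2 * K := by rw [hK]; ring
  rw [e, abs_le]
  constructor <;> linarith [h0.1, h0.2, h1.1, h1.2, h2.1, h2.2, h3.1, h3.2]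

theorem Gt_lip (P : Par) {m : ℕ} {I : Finset P2} {Tl : Fin 2 → (P2 → ℝ) → P2 → ℝ} {B C : ℝ}
    (hT : Tpl m I Tl B C) (i : Fin 2) {h h' : P2 → ℝ} {M : ℝ}
    (hM0 : 0 ≤ M) (hM : ∀ a ∈ win m I, |h a - h' a| ≤ M) (u : P2) :
    |Gt P m I Tl i h u - Gt P m I Tl i h' u| ≤
      (2 * (((win m I).card + 1) * (2 * P.Lam / P.eps)) + C) * M := by
  have h1 := L2_lip P (win m I) (lat (win m I)) i hM0 hM u
  have h2 := hT.lip i h h' M hM u
  have e : Gt P m I Tl i h u - Gt P m I Tl i h' u =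
      (L2 P (win m I) (lat (win m I)) i h u - L2 P (win m I) (lat (win m I)) i h' u) +
        (Tl i h u - Tl i h' u) := by unfold Gt; ring
  rw [e]
  refine (abs_add_le _ _).trans ?_
  rw [add_mul]
  exact add_le_add h1 h2

variable {F : Finset P2} {ξ : P2 → ℝ}

/-- moving one height -/
theorem hq_sg_line {r : ℕ} {o : Fin 3} (x : F → ℝ) {v q : P2} (hF : q + sg (r / 2) o v ∈ F)
    (t : ℝ) :
    (fun u => hq F ξ (x + t • (Pi.single ⟨q + sg (r / 2) o v, hF⟩ 1 : F → ℝ)) q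
      (sg (r / 2) o u)) =
      (fun u => hq F ξ x q (sg (r / 2) o u)) + t • (Pi.single v 1 : P2 → ℝ) := by
  have h1 := hq_line (ξ := ξ) x ⟨q + sg (r / 2) o v, hF⟩ t q
  simp only [add_sub_cancel_left] at h1
  rw [h1]
  exact comp_single (s := r / 2) (o := o) (hq F ξ x q) t v

theorem ae_DP (P : Par) {r : ℕ} {Tl : Fin 2 → (P2 → ℝ) → P2 → ℝ} {B C : ℝ}
    (hT : Tpl (cw r) (bk r 0) Tl B C) (o : Fin 3) (q : P2)
    (hq' : ∀ v ∈ win (cw r) (bk r o), q + v ∈ F) :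
    ∀ᵐ x : F → ℝ, DP P (cw r) (bk r 0) Tl (fun u => hq F ξ x q (sg (r / 2) o u)) := by
  obtain ⟨c, hc⟩ := exists_sym (r / 2) o
  have hI := mem_bk' (r := r) o
  have hwin : ∀ u ∈ win (cw r) (bk r 0), q + sg (r / 2) o u ∈ F := fun u hu =>
    hq' _ ((hc.mem_win hI _).mpr ⟨u, hu, rfl⟩)
  have hC0 : 0 ≤ 2 * (((win (cw r) (bk r 0)).card + 1) * (2 * P.Lam / P.eps)) + C := by
    have h1 := hT.C_nonneg
    have h2 := P.eps_pos
    have h3 := P.Lam_nonneg
    positivity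
  have hlip : ∀ (j : Fin 2) (w : P2), LipschitzWith
      (2 * (((win (cw r) (bk r 0)).card + 1) * (2 * P.Lam / P.eps)) + C).toNNReal
      fun x : F → ℝ => Gt P (cw r) (bk r 0) Tl j (fun u => hq F ξ x q (sg (r / 2) o u)) w := by
    intro j w
    refine LipschitzWith.of_dist_le_mul fun x y => ?_
    rw [Real.dist_eq, dist_eq_norm, Real.coe_toNNReal _ hC0]
    refine Gt_lip P hT j (norm_nonneg _) (fun a ha => ?_) w
    exact Tri560.ext_lip x y _
  have hae : ∀ᵐ x : F → ℝ, ∀ j : Fin 2, ∀ w : P2, DifferentiableAt ℝ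
      (fun x : F → ℝ => Gt P (cw r) (bk r 0) Tl j (fun u => hq F ξ x q (sg (r / 2) o u)) w) x :=
    ae_all_iff.mpr fun j => ae_all_iff.mpr fun w => (hlip j w).ae_differentiableAt
  filter_upwards [hae] with x hx v hv w _ j
  have hF := hwin v (subset_win _ _ hv)
  have h1 := (hx j w).lineDifferentiableAt (v := (Pi.single ⟨q + sg (r / 2) o v, hF⟩ 1 : F → ℝ))
  unfold LineDifferentiableAt at h1 ⊢
  simp only [hq_sg_line x hF] at h1
  exact h1

/-- **the rotated matrices, almost everywhere** -/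
theorem ae_Ph_RT (P : Par) {r : ℕ} {Tl : Fin 2 → (P2 → ℝ) → P2 → ℝ} {B C : ℝ}
    (hT : Tpl (cw r) (bk r 0) Tl B C) (o : Fin 3) (Q : Finset P2)
    (hQ : ∀ q ∈ Q, ∀ v ∈ win (cw r) (bk r o), q + v ∈ F) :
    ∀ᵐ x : F → ℝ, ∀ q ∈ Q, ∀ y : Fin 2 → ℝ,
      qd (Ph (bk r o) (Gt P (cw r) (bk r o) (RT (r / 2) o Tl)) (hq F ξ x q)) y =
        qd (Ph (bk r 0) (Gt P (cw r) (bk r 0) Tl) (fun u => hq F ξ x q (sg (r / 2) o u)))
          (tw (prm o) y) := by
  have h : ∀ᵐ x : F → ℝ, ∀ q : Q,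
      DP P (cw r) (bk r 0) Tl (fun u => hq F ξ x q (sg (r / 2) o u)) :=
    ae_all_iff.mpr fun q => ae_DP P hT o q (hQ q q.2)
  filter_upwards [h] with x hx q hqQ y
  exact Ph_RT (hx ⟨q, hqQ⟩) y

end

end Crest.Agent.R144.LowL549
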