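import Mathlib

/-!
R144 (S0197), helper425.  Lw1: the one-dimensional equality case of Prekopa–Leindler, in terms of
distribution functions.

`F0, F1, G` distribution functions, differentiable with positive derivative wherever they take a
value in `(0,1)`.  If `√(F0 x F1 y) ≤ G ((x+y)/2)` and `√((1-F0 x)(1-F1 y)) ≤ 1 - G ((x+y)/2)` for
all `x y`, then `F1 (x + c) = F0 x` for some constant `c` and all `x`.
-/

set_option autoImplicit false

open Set Filter Topology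

noncomputable section

namespace Crest.Agent.R144.Lw425

/-- A regular distribution function. -/
structure Cdf (F : ℝ → ℝ) : Prop where
  mono : Monotone F
  cont : Continuous F
  nonneg : ∀ x, 0 ≤ F x
  le_one : ∀ x, F x ≤ 1
  lo : ∃ a, F a = 0
  hi : ∃ b, F b = 1
  der : ∀ y, 0 < F y → F y < 1 → ∃ D, 0 < D ∧ HasDerivAt F D y

namespace Cdf

variable {F : ℝ → ℝ}

/-- A value in `(0,1)` is taken at most once. -/
theorem inj (h : Cdf F) {x y : ℝ} (hx0 : 0 < F x) (hx1 : F x < 1) (hxy : F x = F y) : x = y := by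
  wlog hlt : x < y generalizing x y
  · rcases lt_trichotomy x y with h1 | h1 | h1
    · exact absurd h1 hlt
    · exact h1
    · exact (this (by rw [← hxy]; exact hx0) (by rw [← hxy]; exact hx1) hxy.symm h1).symm
  exfalso
  have hc : ∀ z ∈ Icc x y, F z = F x := fun z hz =>
    le_antisymm (by rw [hxy]; exact h.mono hz.2) (h.mono hz.1)
  set m := (x + y) / 2 with hm
  have hmI : m ∈ Ioo x y := by constructor <;> (rw [hm]; linarith)
  have hFm : F m = F x := hc m ⟨hmI.1.le, hmI.2.le⟩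
  obtain ⟨D, hD, hD'⟩ := h.der m (by rw [hFm]; exact hx0) (by rw [hFm]; exact hx1)
  have h1 : F =ᶠ[𝓝 m] fun _ => F x := by
    filter_upwards [Ioo_mem_nhds hmI.1 hmI.2] with z hz
    exact hc z ⟨hz.1.le, hz.2.le⟩
  have h2 : HasDerivAt F 0 m := (hasDerivAt_const m (F x)).congr_of_eventuallyEq h1
  exact hD.ne' (hD'.unique h2)

theorem lt_of_lt (h : Cdf F) {x y : ℝ} (hx0 : 0 < F x) (hx1 : F x < 1) (hxy : x < y) :
    F x < F y :=
  lt_of_le_of_ne (h.mono hxy.le) fun e => hxy.ne (h.inj hx0 hx1 e)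

theorem lt_of_lt' (h : Cdf F) {x y : ℝ} (hy0 : 0 < F y) (hy1 : F y < 1) (hxy : x < y) :
    F x < F y :=
  lt_of_le_of_ne (h.mono hxy.le) fun e => hxy.ne (h.inj hy0 hy1 e.symm).symm

theorem exists_eq (h : Cdf F) {t : ℝ} (ht : t ∈ Ioo (0:ℝ) 1) : ∃ x, F x = t := by
  obtain ⟨a, ha⟩ := h.lo
  obtain ⟨b, hb⟩ := h.hi
  have : t ∈ range F := by
    refine mem_range_of_exists_le_of_exists_ge h.cont ⟨a, by rw [ha]; exact ht.1.le⟩
      ⟨b, by rw [hb]; exact ht.2.le⟩
  exact this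

/-- The quantile function. -/
def Q (F : ℝ → ℝ) (t : ℝ) : ℝ := Function.invFun F t

theorem Q_spec (h : Cdf F) {t : ℝ} (ht : t ∈ Ioo (0:ℝ) 1) : F (Q F t) = t :=
  Function.invFun_eq (h.exists_eq ht)

theorem Q_eq (h : Cdf F) {x : ℝ} (hx0 : 0 < F x) (hx1 : F x < 1) : Q F (F x) = x := by
  have h1 := h.Q_spec (t := F x) ⟨hx0, hx1⟩
  exact (h.inj hx0 hx1 h1.symm).symm

theorem Q_cont (h : Cdf F) {t : ℝ} (ht : t ∈ Ioo (0:ℝ) 1) : ContinuousAt (Q F) t := by
  rw [Metric.continuousAt_iff]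
  intro ε hε
  set q := Q F t with hq
  have hFq : F q = t := h.Q_spec ht
  have h0 : 0 < F q := by rw [hFq]; exact ht.1
  have h1 : F q < 1 := by rw [hFq]; exact ht.2
  have hl : F (q - ε / 2) < t := by
    rw [← hFq]; exact h.lt_of_lt' h0 h1 (by linarith)
  have hr : t < F (q + ε / 2) := by
    rw [← hFq]; exact h.lt_of_lt h0 h1 (by linarith)
  set l := max 0 (F (q - ε / 2)) with hl'
  set r := min 1 (F (q + ε / 2)) with hr'
  have hlt : l < t := max_lt ht.1 hl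
  have htr : t < r := lt_min ht.2 hr
  have hev : ∀ᶠ s in 𝓝 t, s ∈ Ioo l r := Ioo_mem_nhds hlt htr
  obtain ⟨δ, hδ, hball⟩ := Metric.eventually_nhds_iff.mp hev
  refine ⟨δ, hδ, fun {s} hs => ?_⟩
  have hs' := hball hs
  have hs01 : s ∈ Ioo (0:ℝ) 1 :=
    ⟨lt_of_le_of_lt (le_max_left _ _) hs'.1, lt_of_lt_of_le hs'.2 (min_le_left _ _)⟩
  have hFs : F (Q F s) = s := h.Q_spec hs01
  have h3 : q - ε / 2 < Q F s := by
    by_contra hcon
    push Not at hcon
    have := h.mono hcon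
    rw [hFs] at this
    exact absurd (lt_of_le_of_lt (le_max_right _ _) hs'.1) (not_lt.mpr this)
  have h4 : Q F s < q + ε / 2 := by
    by_contra hcon
    push Not at hcon
    have := h.mono hcon
    rw [hFs] at this
    exact absurd (lt_of_lt_of_le hs'.2 (min_le_right _ _)) (not_lt.mpr this)
  rw [Real.dist_eq, abs_lt]
  constructor <;> linarith

theorem Q_der (h : Cdf F) {t : ℝ} (ht : t ∈ Ioo (0:ℝ) 1) :
    ∃ D, 0 < D ∧ HasDerivAt F D (Q F t) ∧ HasDerivAt (Q F) D⁻¹ t := by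
  have hFq : F (Q F t) = t := h.Q_spec ht
  obtain ⟨D, hD, hD'⟩ := h.der (Q F t) (by rw [hFq]; exact ht.1) (by rw [hFq]; exact ht.2)
  refine ⟨D, hD, hD', HasDerivAt.of_local_left_inverse (h.Q_cont ht) hD' hD.ne' ?_⟩
  filter_upwards [Ioo_mem_nhds ht.1 ht.2] with s hs
  exact h.Q_spec hs

end Cdf

/-- Key step: derivative identity `G' (z) Q' (t) = 1`. -/
theorem der_aux {F G : ℝ → ℝ} (hF : Cdf F) (hG : Cdf G) {t y : ℝ} (ht : t ∈ Ioo (0:ℝ) 1)
    (hz : G ((Cdf.Q F t + y) / 2) = t)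
    (hlow : ∀ x, Real.sqrt (F x * t) ≤ G ((x + y) / 2)) :
    ∃ D D', 0 < D ∧ 0 < D' ∧ HasDerivAt G D ((Cdf.Q F t + y) / 2) ∧
      HasDerivAt (Cdf.Q F) D' t ∧ D * D' = 1 := by
  obtain ⟨D0, hD0, hD0F, hD0Q⟩ := hF.Q_der ht
  obtain ⟨D, hD, hDG⟩ := hG.der _ (by rw [hz]; exact ht.1) (by rw [hz]; exact ht.2)
  refine ⟨D, D0⁻¹, hD, inv_pos.mpr hD0, hDG, hD0Q, ?_⟩
  -- the function `s ↦ G ((Q s + y)/2) - √(s t)` has a local minimum at `t`
  set g : ℝ → ℝ := fun s => G ((Cdf.Q F s + y) / 2) - Real.sqrt (s * t) with hg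
  have hloc : IsLocalMin g t := by
    filter_upwards [Ioo_mem_nhds ht.1 ht.2] with s hs
    have h1 : g t = 0 := by
      simp only [hg]
      rw [hz, Real.sqrt_mul_self ht.1.le, sub_self]
    have h2 := hlow (Cdf.Q F s)
    rw [hF.Q_spec hs] at h2
    rw [h1]
    simp only [hg]
    linarith
  have hd1 : HasDerivAt (fun s => (Cdf.Q F s + y) / 2) (D0⁻¹ / 2) t :=
    (hD0Q.add_const y).div_const 2
  have hd2 : HasDerivAt (fun s => G ((Cdf.Q F s + y) / 2)) (D * (D0⁻¹ / 2)) t :=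
    HasDerivAt.comp t hDG hd1
  have hd3 : HasDerivAt (fun s : ℝ => Real.sqrt (s * t)) (t / (2 * Real.sqrt (t * t))) t := by
    have h5 : HasDerivAt (fun s : ℝ => s * t) t t := by
      simpa using (hasDerivAt_id t).mul_const t
    exact h5.sqrt (mul_pos ht.1 ht.1).ne'
  rw [Real.sqrt_mul_self ht.1.le] at hd3
  have hd4 : HasDerivAt g (D * (D0⁻¹ / 2) - t / (2 * t)) t := hd2.sub hd3
  have h0 := hloc.hasDerivAt_eq_zero hd4
  have : t / (2 * t) = 1 / 2 := by
    have := ht.1.ne'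
    field_simp
  rw [this] at h0
  linarith

/-- **Equality case of Prekopa–Leindler in dimension one**, distribution function form. -/
theorem shift_of_cut {F0 F1 G : ℝ → ℝ} (h0 : Cdf F0) (h1 : Cdf F1) (hG : Cdf G)
    (H1 : ∀ x y, Real.sqrt (F0 x * F1 y) ≤ G ((x + y) / 2))
    (H2 : ∀ x y, Real.sqrt ((1 - F0 x) * (1 - F1 y)) ≤ 1 - G ((x + y) / 2)) :
    ∃ c, ∀ x, F1 (x + c) = F0 x := by
  -- quantiles
  have hz : ∀ t ∈ Ioo (0:ℝ) 1, G ((Cdf.Q F0 t + Cdf.Q F1 t) / 2) = t := by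
    intro t ht
    have e1 := H1 (Cdf.Q F0 t) (Cdf.Q F1 t)
    have e2 := H2 (Cdf.Q F0 t) (Cdf.Q F1 t)
    rw [h0.Q_spec ht, h1.Q_spec ht, Real.sqrt_mul_self ht.1.le] at e1
    rw [h0.Q_spec ht, h1.Q_spec ht, Real.sqrt_mul_self (by linarith [ht.2])] at e2
    linarith
  have hder : ∀ t ∈ Ioo (0:ℝ) 1,
      HasDerivAt (fun s => Cdf.Q F1 s - Cdf.Q F0 s) 0 t := by
    intro t ht
    obtain ⟨D, D', hD, hD', hDG, hDQ, hDD⟩ := der_aux h0 hG (y := Cdf.Q F1 t) ht (hz t ht)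
      (fun x => by
        have := H1 x (Cdf.Q F1 t)
        rwa [h1.Q_spec ht] at this)
    obtain ⟨E, E', hE, hE', hEG, hEQ, hEE⟩ := der_aux h1 hG (y := Cdf.Q F0 t) ht
      (by rw [add_comm]; exact hz t ht)
      (fun x => by
        have := H1 (Cdf.Q F0 t) x
        rw [h0.Q_spec ht] at this
        rw [mul_comm, add_comm]
        exact this)
    rw [add_comm] at hEG
    have hDE : D = E := hDG.unique hEG
    have : D' = E' := by
      have h3 : D * D' = D * E' := by rw [hDD, hDE, hEE]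
      exact mul_left_cancel₀ hD.ne' h3
    have h4 := hEQ.sub hDQ
    rw [this, sub_self] at h4
    exact h4
  have hconst : ∀ s ∈ Ioo (0:ℝ) 1, ∀ t ∈ Ioo (0:ℝ) 1,
      Cdf.Q F1 s - Cdf.Q F0 s = Cdf.Q F1 t - Cdf.Q F0 t := by
    intro s hs t ht
    refine isOpen_Ioo.is_const_of_deriv_eq_zero isPreconnected_Ioo
      (f := fun s => Cdf.Q F1 s - Cdf.Q F0 s) ?_ ?_ hs ht
    · intro u hu
      exact (hder u hu).differentiableAt.differentiableWithinAt
    · intro u hu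
      exact (hder u hu).deriv
  have hhalf : (1 / 2 : ℝ) ∈ Ioo (0:ℝ) 1 := by constructor <;> norm_num
  set c := Cdf.Q F1 (1 / 2) - Cdf.Q F0 (1 / 2) with hc
  have hQ : ∀ t ∈ Ioo (0:ℝ) 1, Cdf.Q F1 t = Cdf.Q F0 t + c := by
    intro t ht
    have := hconst t ht _ hhalf
    rw [hc]; linarith
  refine ⟨c, fun x => ?_⟩
  by_cases hx : F0 x ∈ Ioo (0:ℝ) 1
  · have e1 : Cdf.Q F1 (F0 x) = x + c := by
      rw [hQ _ hx, h0.Q_eq hx.1 hx.2]
    rw [← e1, h1.Q_spec hx]
  · by_cases hy : F1 (x + c) ∈ Ioo (0:ℝ) 1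
    · have e1 : Cdf.Q F0 (F1 (x + c)) = x := by
        have := hQ _ hy
        rw [h1.Q_eq hy.1 hy.2] at this
        linarith
      rw [← h0.Q_spec hy, e1]
    · -- both are `0` or `1`
      have hx' : F0 x = 0 ∨ F0 x = 1 := by
        by_contra hcon
        push Not at hcon
        exact hx ⟨lt_of_le_of_ne (h0.nonneg x) hcon.1.symm, lt_of_le_of_ne (h0.le_one x) hcon.2⟩
      have hy' : F1 (x + c) = 0 ∨ F1 (x + c) = 1 := by
        by_contra hcon
        push Not at hcon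
        exact hy ⟨lt_of_le_of_ne (h1.nonneg _) hcon.1.symm, lt_of_le_of_ne (h1.le_one _) hcon.2⟩
      have hq0 : F0 (Cdf.Q F0 (1 / 2)) = 1 / 2 := h0.Q_spec hhalf
      have hq1 : F1 (Cdf.Q F1 (1 / 2)) = 1 / 2 := h1.Q_spec hhalf
      have hq : Cdf.Q F1 (1 / 2) = Cdf.Q F0 (1 / 2) + c := hQ _ hhalf
      rcases hx' with h | h <;> rcases hy' with h' | h'
      · rw [h, h']
      · exfalso
        rcases le_total x (Cdf.Q F0 (1 / 2)) with hle | hle
        · have := h1.mono (show x + c ≤ Cdf.Q F1 (1 / 2) by rw [hq]; linarith)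
          rw [h', hq1] at this; linarith
        · have := h0.mono hle
          rw [h, hq0] at this; linarith
      · exfalso
        rcases le_total x (Cdf.Q F0 (1 / 2)) with hle | hle
        · have := h0.mono hle
          rw [h, hq0] at this; linarith
        · have := h1.mono (show Cdf.Q F1 (1 / 2) ≤ x + c by rw [hq]; linarith)
          rw [h', hq1] at this; linarith
      · rw [h, h']

end Crest.Agent.R144.Lw425
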