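import Crest.Agent.R144.Ham1_560
import Crest.Agent.R144.Lw1_425

/-!
R144 (S0197), helper425.  Lw2: equality case of the Brunn–Minkowski inequality (multiplicative form)
for compact convex sets of `ι → ℝ`.

* `der_of_logconcave` : a distribution function `F` with `F`, `1 - F` log-concave is differentiable
  with positive derivative where `0 < F < 1`;
* `cdfOf`, `cdfOf_cdf` : the distribution function of a linear functional under the uniform law of a
  convex body;
* `bm_shift` : if `K₀/2 + K₁/2 ⊆ K` and `vol K ^ 2 ≤ vol K₀ * vol K₁` then each linear functional has the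
  same law under both up to a shift.
-/

set_option autoImplicit false

open MeasureTheory Set Filter Topology
open scoped ENNReal

noncomputable section

namespace Crest.Agent.R144.Lw425

open Crest.Agent.R144.Ham560

theorem concaveOn_log {F : ℝ → ℝ} {S : Set ℝ} (hS : ∀ x, x ∈ S ↔ 0 < F x)
    (hlc : ∀ x y t, 0 < t → t < 1 → F x ^ (1 - t) * F y ^ t ≤ F ((1 - t) * x + t * y)) :
    ConcaveOn ℝ S (fun x => Real.log (F x)) := by
  have hpos : ∀ x ∈ S, ∀ y ∈ S, ∀ t : ℝ, 0 < t → t < 1 → 0 < F x ^ (1 - t) * F y ^ t := by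
    intro x hx y hy t _ _
    exact mul_pos (Real.rpow_pos_of_pos ((hS x).mp hx) _) (Real.rpow_pos_of_pos ((hS y).mp hy) _)
  refine ⟨?_, ?_⟩
  · intro x hx y hy a b ha hb hab
    rcases eq_or_lt_of_le ha with rfl | ha'
    · have : b = 1 := by linarith
      subst this; simpa using hy
    rcases eq_or_lt_of_le hb with rfl | hb'
    · have : a = 1 := by linarith
      subst this; simpa using hx
    have h1 := hlc x y b hb' (by linarith)
    have h2 := hpos x hx y hy b hb' (by linarith)
    have e : (1 - b) * x + b * y = a • x + b • y := by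
      rw [smul_eq_mul, smul_eq_mul, ← hab]; ring
    rw [e] at h1
    exact (hS _).mpr (lt_of_lt_of_le h2 h1)
  · intro x hx y hy a b ha hb hab
    rcases eq_or_lt_of_le ha with rfl | ha'
    · have : b = 1 := by linarith
      subst this; simp
    rcases eq_or_lt_of_le hb with rfl | hb'
    · have : a = 1 := by linarith
      subst this; simp
    have h1 := hlc x y b hb' (by linarith)
    have h2 := hpos x hx y hy b hb' (by linarith)
    have e : (1 - b) * x + b * y = a • x + b • y := by
      rw [smul_eq_mul, smul_eq_mul, ← hab]; ring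
    rw [e] at h1
    have h3 := Real.log_le_log h2 h1
    rw [Real.log_mul (Real.rpow_pos_of_pos ((hS x).mp hx) _).ne'
      (Real.rpow_pos_of_pos ((hS y).mp hy) _).ne', Real.log_rpow ((hS x).mp hx),
      Real.log_rpow ((hS y).mp hy)] at h3
    have ea : 1 - b = a := by linarith
    rw [ea] at h3
    exact h3

/-- One-sided derivatives of a concave function at an interior point. -/
theorem concave_sides {S : Set ℝ} {f : ℝ → ℝ} (hf : ConcaveOn ℝ S f) {x : ℝ}
    (hx : x ∈ interior S) :
    ∃ l r, r ≤ l ∧ HasDerivWithinAt f l (Iio x) x ∧ HasDerivWithinAt f r (Ioi x) x := by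
  have hg : ConvexOn ℝ S (-f) := hf.neg
  have h1 := hg.hasDerivWithinAt_leftDeriv_of_mem_interior hx
  have h2 := hg.hasDerivWithinAt_rightDeriv_of_mem_interior hx
  have h3 := hg.leftDeriv_le_rightDeriv_of_mem_interior hx
  refine ⟨_, _, neg_le_neg h3, ?_, ?_⟩
  · have := h1.neg
    rw [neg_neg] at this
    exact this
  · have := h2.neg
    rw [neg_neg] at this
    exact this

theorem der_of_logconcave {F : ℝ → ℝ} (hc : Continuous F)
    (hlc : ∀ x y t, 0 < t → t < 1 → F x ^ (1 - t) * F y ^ t ≤ F ((1 - t) * x + t * y))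
    (hlc' : ∀ x y t, 0 < t → t < 1 →
      (1 - F x) ^ (1 - t) * (1 - F y) ^ t ≤ 1 - F ((1 - t) * x + t * y))
    (hmono : Monotone F) (hhi : ∃ b, F b = 1) {y : ℝ} (hy0 : 0 < F y) (hy1 : F y < 1) :
    ∃ D, 0 < D ∧ HasDerivAt F D y := by
  have hc1 := concaveOn_log (F := F) (S := {x | 0 < F x}) (fun x => Iff.rfl) hlc
  have hc2 := concaveOn_log (F := fun x => 1 - F x) (S := {x | F x < 1})
    (fun x => by simp) hlc'
  have hi1 : y ∈ interior {x | 0 < F x} := by
    rw [(isOpen_lt continuous_const hc).interior_eq]; exact hy0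
  have hi2 : y ∈ interior {x | F x < 1} := by
    rw [(isOpen_lt hc continuous_const).interior_eq]; exact hy1
  obtain ⟨l, r, hlr, hl, hr⟩ := concave_sides hc1 hi1
  obtain ⟨l', r', hlr', hl', hr'⟩ := concave_sides hc2 hi2
  -- back to `F`
  have hev : ∀ᶠ x in 𝓝 y, F x = Real.exp (Real.log (F x)) := by
    filter_upwards [(isOpen_lt continuous_const hc).mem_nhds hy0] with x hx
    rw [Real.exp_log hx]
  have hev' : ∀ᶠ x in 𝓝 y, F x = 1 - Real.exp (Real.log (1 - F x)) := by
    filter_upwards [(isOpen_lt hc continuous_const).mem_nhds hy1] with x hx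
    have hx' : F x < 1 := hx
    rw [Real.exp_log (by linarith)]; ring
  have A1 : HasDerivWithinAt F (F y * l) (Iio y) y := by
    have := hl.exp
    rw [Real.exp_log hy0] at this
    exact this.congr_of_eventuallyEq (nhdsWithin_le_nhds hev) hev.self_of_nhds
  have A2 : HasDerivWithinAt F (F y * r) (Ioi y) y := by
    have := hr.exp
    rw [Real.exp_log hy0] at this
    exact this.congr_of_eventuallyEq (nhdsWithin_le_nhds hev) hev.self_of_nhds
  have B1 : HasDerivWithinAt F (-((1 - F y) * l')) (Iio y) y := by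
    have := (hl'.exp).const_sub 1
    rw [Real.exp_log (by linarith)] at this
    exact this.congr_of_eventuallyEq (nhdsWithin_le_nhds hev') hev'.self_of_nhds
  have B2 : HasDerivWithinAt F (-((1 - F y) * r')) (Ioi y) y := by
    have := (hr'.exp).const_sub 1
    rw [Real.exp_log (by linarith)] at this
    exact this.congr_of_eventuallyEq (nhdsWithin_le_nhds hev') hev'.self_of_nhds
  have e1 : F y * l = -((1 - F y) * l') := (uniqueDiffWithinAt_Iio y).eq_deriv _ A1 B1
  have e2 : F y * r = -((1 - F y) * r') := (uniqueDiffWithinAt_Ioi y).eq_deriv _ A2 B2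
  have e3 : F y * l = F y * r := by
    have h1 : F y * r ≤ F y * l := mul_le_mul_of_nonneg_left hlr hy0.le
    have h2 : (1 - F y) * r' ≤ (1 - F y) * l' := mul_le_mul_of_nonneg_left hlr' (by linarith)
    linarith
  have hD : HasDerivAt F (F y * l) y := by
    have h1 := hasDerivWithinAt_Iio_iff_Iic.mp A1
    rw [← e3] at A2
    have h2 := hasDerivWithinAt_Ioi_iff_Ici.mp A2
    have h3 := h1.union h2
    rw [Iic_union_Ici, hasDerivWithinAt_univ] at h3
    exact h3
  refine ⟨F y * l, ?_, hD⟩
  -- positivity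
  obtain ⟨b, hb⟩ := hhi
  have hyb : y < b := by
    by_contra hcon
    push Not at hcon
    have := hmono hcon
    rw [hb] at this; linarith
  have hlog : HasDerivAt (fun x => Real.log (F x)) (F y * l / F y) y := hD.log hy0.ne'
  have h4 := hc1.slope_le_of_hasDerivAt (x := y) (y := b) hy0 (by rw [mem_ofPred_eq, hb]; norm_num)
    hyb hlog
  rw [slope_def_field, hb, Real.log_one, div_le_iff₀ (by linarith)] at h4
  have h5 : Real.log (F y) < 0 := Real.log_neg hy0 hy1
  by_contra hcon
  push Not at hcon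
  have h6 : F y * l / F y * (b - y) ≤ 0 :=
    mul_nonpos_of_nonpos_of_nonneg (div_nonpos_of_nonpos_of_nonneg hcon hy0.le) (by linarith)
  linarith

section body

variable {ι : Type*} [Fintype ι]

/-- Real form of `vol_mul_le`. -/
theorem real_mul_le {t : ℝ} (ht0 : 0 < t) (ht1 : t < 1) {A₁ A₂ B : Set (ι → ℝ)}
    (h1 : MeasurableSet A₁) (h2 : MeasurableSet A₂) (hB : MeasurableSet B)
    (hBf : volume B ≠ ∞)
    (H : ∀ x ∈ A₁, ∀ y ∈ A₂, (1 - t) • x + t • y ∈ B) :
    volume.real A₁ ^ (1 - t) * volume.real A₂ ^ t ≤ volume.real B := by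
  have key := vol_mul_le ht0 ht1 h1 h2 hB H
  have := ENNReal.toReal_mono hBf key
  rw [ENNReal.toReal_mul, ← ENNReal.toReal_rpow, ← ENNReal.toReal_rpow] at this
  exact this

/-- Half-space cut. -/
theorem measurableSet_cut {K : Set (ι → ℝ)} (hK : MeasurableSet K) (L : (ι → ℝ) →L[ℝ] ℝ) (s : ℝ) :
    MeasurableSet (K ∩ {x | L x ≤ s}) :=
  hK.inter (measurableSet_le L.continuous.measurable measurable_const)

theorem measurableSet_cut' {K : Set (ι → ℝ)} (hK : MeasurableSet K) (L : (ι → ℝ) →L[ℝ] ℝ) (s : ℝ) :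
    MeasurableSet (K ∩ {x | s < L x}) :=
  hK.inter (measurableSet_lt measurable_const L.continuous.measurable)

/-- Hyperplanes are null. -/
theorem volume_hyper {L : (ι → ℝ) →L[ℝ] ℝ} (hL : L ≠ 0) (s : ℝ) :
    volume {x : ι → ℝ | L x = s} = 0 := by
  obtain ⟨v, hv⟩ : ∃ v, L v ≠ 0 := by
    by_contra hcon
    push Not at hcon
    exact hL (ContinuousLinearMap.ext fun x => by simpa using hcon x)
  have hker : (volume : Measure (ι → ℝ)) (LinearMap.ker (L : (ι → ℝ) →ₗ[ℝ] ℝ) : Set (ι → ℝ)) = 0 := by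
    refine Measure.addHaar_submodule volume _ ?_
    intro h
    have : v ∈ LinearMap.ker (L : (ι → ℝ) →ₗ[ℝ] ℝ) := by rw [h]; trivial
    exact hv (by simpa using this)
  have e : {x : ι → ℝ | L x = s} =
      (fun x => x + (-(s / L v)) • v) ⁻¹' (LinearMap.ker (L : (ι → ℝ) →ₗ[ℝ] ℝ) : Set (ι → ℝ)) := by
    ext x
    simp only [mem_ofPred_eq, mem_preimage, SetLike.mem_coe, LinearMap.mem_ker,
      ContinuousLinearMap.coe_coe, map_add, map_smul, smul_eq_mul]
    have : -(s / L v) * L v = -s := by field_simp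
    rw [this]
    constructor
    · intro h; rw [h]; ring
    · intro h; linarith
  rw [e, measure_preimage_add_right, hker]

/-- Distribution function of `L` under the uniform law on `K`. -/
def cdfOf (K : Set (ι → ℝ)) (L : (ι → ℝ) →L[ℝ] ℝ) (s : ℝ) : ℝ :=
  volume.real (K ∩ {x | L x ≤ s}) / volume.real K

variable {K : Set (ι → ℝ)} {L : (ι → ℝ) →L[ℝ] ℝ}

theorem cdfOf_compl (hKm : MeasurableSet K) (hf : volume K ≠ ∞) (h0 : 0 < volume.real K) (s : ℝ) :
    1 - cdfOf K L s = volume.real (K ∩ {x | s < L x}) / volume.real K := by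
  have h1 : volume.real (K ∩ {x | L x ≤ s}) + volume.real (K ∩ {x | s < L x}) = volume.real K := by
    have hd : Disjoint (K ∩ {x | L x ≤ s}) (K ∩ {x | s < L x}) := by
      rw [Set.disjoint_left]
      rintro x ⟨_, h⟩ ⟨_, h'⟩
      have h1 : L x ≤ s := h
      have h2 : s < L x := h'
      linarith
    rw [← measureReal_union hd (measurableSet_cut' hKm L s)
      ((measure_mono inter_subset_left).trans_lt (lt_top_iff_ne_top.mpr hf)).ne
      ((measure_mono inter_subset_left).trans_lt (lt_top_iff_ne_top.mpr hf)).ne]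
    congr 1
    ext x
    simp only [mem_union, mem_inter_iff, mem_ofPred_eq]
    constructor
    · rintro (h | h)
      · exact h.1
      · exact h.1
    · intro h
      rcases le_or_gt (L x) s with h' | h'
      · exact Or.inl ⟨h, h'⟩
      · exact Or.inr ⟨h, h'⟩
  unfold cdfOf
  rw [← h1, eq_div_iff (by rw [h1]; exact h0.ne'), sub_mul, one_mul,
    div_mul_cancel₀ _ (by rw [h1]; exact h0.ne')]
  ring

theorem cdfOf_mono (hf : volume K ≠ ∞) (h0 : 0 < volume.real K) :
    Monotone (cdfOf K L) := by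
  intro s t hst
  unfold cdfOf
  refine div_le_div_of_nonneg_right ?_ h0.le
  refine measureReal_mono ?_ ((measure_mono inter_subset_left).trans_lt (lt_top_iff_ne_top.mpr hf)).ne
  rintro x ⟨hx, hx'⟩
  exact ⟨hx, le_trans hx' hst⟩

theorem cdfOf_nonneg (s : ℝ) : 0 ≤ cdfOf K L s :=
  div_nonneg measureReal_nonneg measureReal_nonneg

theorem cdfOf_le_one (hf : volume K ≠ ∞) (h0 : 0 < volume.real K) (s : ℝ) : cdfOf K L s ≤ 1 := by
  unfold cdfOf
  rw [div_le_one h0]
  exact measureReal_mono inter_subset_left hf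

theorem cdfOf_continuous (hKm : MeasurableSet K) (hf : volume K ≠ ∞) (hL : L ≠ 0) :
    Continuous (cdfOf K L) := by
  have hfin : IsFiniteMeasure ((volume : Measure (ι → ℝ)).restrict K) :=
    ⟨by rw [Measure.restrict_apply_univ]; exact lt_top_iff_ne_top.mpr hf⟩
  have e : cdfOf K L = fun s =>
      (∫ x, ({x : ι → ℝ | L x ≤ s}.indicator (1 : (ι → ℝ) → ℝ) x)
        ∂((volume : Measure (ι → ℝ)).restrict K)) / volume.real K := by
    funext s
    unfold cdfOf
    congr 1
    rw [integral_indicator_one (measurableSet_le L.continuous.measurable measurable_const),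
      Measure.real, Measure.real,
      Measure.restrict_apply (measurableSet_le L.continuous.measurable measurable_const), inter_comm]
  rw [e]
  refine Continuous.div_const ?_ _
  rw [continuous_iff_continuousAt]
  intro s0
  refine continuousAt_of_dominated (bound := fun _ => (1 : ℝ)) ?_ ?_ ?_ ?_
  · refine Eventually.of_forall fun s => ?_
    exact (measurable_one.indicator
      (measurableSet_le L.continuous.measurable measurable_const)).aestronglyMeasurable
  · refine Eventually.of_forall fun s => Eventually.of_forall fun x => ?_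
    rw [Real.norm_eq_abs]
    by_cases h : L x ≤ s
    · rw [indicator_of_mem (show x ∈ {x : ι → ℝ | L x ≤ s} from h)]; simp
    · rw [indicator_of_notMem (show x ∉ {x : ι → ℝ | L x ≤ s} from h)]; simp
  · exact integrable_const _
  · have h1 : ∀ᵐ x ∂((volume : Measure (ι → ℝ)).restrict K), L x ≠ s0 := by
      refine ae_restrict_of_ae ?_
      rw [ae_iff]
      simpa using volume_hyper hL s0
    filter_upwards [h1] with x hx
    rcases lt_or_gt_of_ne hx with h | h
    · refine (continuousAt_const (y := (1 : ℝ))).congr ?_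
      filter_upwards [lt_mem_nhds h] with s hs
      rw [indicator_of_mem (show x ∈ {x : ι → ℝ | L x ≤ s} from hs.le)]; rfl
    · refine (continuousAt_const (y := (0 : ℝ))).congr ?_
      filter_upwards [gt_mem_nhds h] with s hs
      rw [indicator_of_notMem]
      exact not_le.mpr hs

/-- General form of the cut inequality. -/
theorem cut_ineq {K0 K1 : Set (ι → ℝ)} {t : ℝ} (ht0 : 0 < t) (ht1 : t < 1)
    (h0 : MeasurableSet K0) (h1 : MeasurableSet K1) (hK : MeasurableSet K)
    (hf : volume K ≠ ∞)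
    (H : ∀ x ∈ K0, ∀ y ∈ K1, (1 - t) • x + t • y ∈ K) (a b : ℝ) :
    volume.real (K0 ∩ {x | L x ≤ a}) ^ (1 - t) * volume.real (K1 ∩ {x | L x ≤ b}) ^ t ≤
      volume.real (K ∩ {x | L x ≤ (1 - t) * a + t * b}) := by
  refine real_mul_le ht0 ht1 (measurableSet_cut h0 L a) (measurableSet_cut h1 L b)
    (measurableSet_cut hK L _) ((measure_mono inter_subset_left).trans_lt (lt_top_iff_ne_top.mpr hf)).ne
    ?_
  rintro x ⟨hx, hx'⟩ y ⟨hy, hy'⟩
  refine ⟨H x hx y hy, ?_⟩
  change L x ≤ a at hx'
  change L y ≤ b at hy'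
  change L ((1 - t) • x + t • y) ≤ _
  rw [map_add, map_smul, map_smul, smul_eq_mul, smul_eq_mul]
  have : 0 < 1 - t := by linarith
  nlinarith

theorem cut_ineq' {K0 K1 : Set (ι → ℝ)} {t : ℝ} (ht0 : 0 < t) (ht1 : t < 1)
    (h0 : MeasurableSet K0) (h1 : MeasurableSet K1) (hK : MeasurableSet K)
    (hf : volume K ≠ ∞)
    (H : ∀ x ∈ K0, ∀ y ∈ K1, (1 - t) • x + t • y ∈ K) (a b : ℝ) :
    volume.real (K0 ∩ {x | a < L x}) ^ (1 - t) * volume.real (K1 ∩ {x | b < L x}) ^ t ≤
      volume.real (K ∩ {x | (1 - t) * a + t * b < L x}) := by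
  refine real_mul_le ht0 ht1 (measurableSet_cut' h0 L a) (measurableSet_cut' h1 L b)
    (measurableSet_cut' hK L _) ((measure_mono inter_subset_left).trans_lt (lt_top_iff_ne_top.mpr hf)).ne
    ?_
  rintro x ⟨hx, hx'⟩ y ⟨hy, hy'⟩
  refine ⟨H x hx y hy, ?_⟩
  change a < L x at hx'
  change b < L y at hy'
  change _ < L ((1 - t) • x + t • y)
  rw [map_add, map_smul, map_smul, smul_eq_mul, smul_eq_mul]
  have : 0 < 1 - t := by linarith
  nlinarith

theorem cdfOf_cdf (hc : Convex ℝ K) (hk : IsCompact K) (h0 : 0 < volume.real K) (hL : L ≠ 0) :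
    Cdf (cdfOf K L) := by
  have hKm : MeasurableSet K := hk.isClosed.measurableSet
  have hf : volume K ≠ ∞ := hk.measure_lt_top.ne
  have hne : K.Nonempty := by
    rw [nonempty_iff_ne_empty]
    rintro rfl
    simp at h0
  have hbd : ∃ M, ∀ x ∈ K, |L x| ≤ M := by
    obtain ⟨M, hM⟩ := hk.exists_bound_of_continuousOn L.continuous.continuousOn
    exact ⟨M, fun x hx => hM x hx⟩
  obtain ⟨M, hM⟩ := hbd
  have hhi : ∃ b, cdfOf K L b = 1 := by
    refine ⟨M, ?_⟩
    unfold cdfOf
    have : K ∩ {x | L x ≤ M} = K := by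
      ext x; simp only [mem_inter_iff, mem_ofPred_eq, and_iff_left_iff_imp]
      exact fun hx => (abs_le.mp (hM x hx)).2
    rw [this, div_self h0.ne']
  have hcont := cdfOf_continuous (L := L) hKm hf hL
  have hmono := cdfOf_mono (L := L) hf h0
  have hlc : ∀ x y t, 0 < t → t < 1 →
      cdfOf K L x ^ (1 - t) * cdfOf K L y ^ t ≤ cdfOf K L ((1 - t) * x + t * y) := by
    intro x y t ht0 ht1
    unfold cdfOf
    rw [Real.div_rpow measureReal_nonneg h0.le, Real.div_rpow measureReal_nonneg h0.le,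
      div_mul_div_comm, ← Real.rpow_add h0, sub_add_cancel, Real.rpow_one]
    refine div_le_div_of_nonneg_right ?_ h0.le
    refine cut_ineq ht0 ht1 hKm hKm hKm hf ?_ x y
    intro u hu v hv
    exact hc hu hv (by linarith) ht0.le (by ring)
  have hlc' : ∀ x y t, 0 < t → t < 1 →
      (1 - cdfOf K L x) ^ (1 - t) * (1 - cdfOf K L y) ^ t ≤ 1 - cdfOf K L ((1 - t) * x + t * y) := by
    intro x y t ht0 ht1
    rw [cdfOf_compl hKm hf h0, cdfOf_compl hKm hf h0, cdfOf_compl hKm hf h0]
    rw [Real.div_rpow measureReal_nonneg h0.le, Real.div_rpow measureReal_nonneg h0.le,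
      div_mul_div_comm, ← Real.rpow_add h0, sub_add_cancel, Real.rpow_one]
    refine div_le_div_of_nonneg_right ?_ h0.le
    refine cut_ineq' ht0 ht1 hKm hKm hKm hf ?_ x y
    intro u hu v hv
    exact hc hu hv (by linarith) ht0.le (by ring)
  refine ⟨hmono, hcont, cdfOf_nonneg, cdfOf_le_one hf h0, ?_, hhi, ?_⟩
  · refine ⟨-M - 1, ?_⟩
    unfold cdfOf
    have : K ∩ {x | L x ≤ -M - 1} = ∅ := by
      ext x
      simp only [mem_inter_iff, mem_ofPred_eq, mem_empty_iff_false, iff_false, not_and, not_le]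
      intro hx
      have := (abs_le.mp (hM x hx)).1
      linarith
    rw [this]; simp
  · intro y hy0 hy1
    exact der_of_logconcave hcont hlc hlc' hmono hhi hy0 hy1

/-- Equality in Brunn–Minkowski: every functional has the same law up to a shift. -/
theorem bm_shift {K0 K1 : Set (ι → ℝ)} (hc0 : Convex ℝ K0) (hc1 : Convex ℝ K1) (hc : Convex ℝ K)
    (hk0 : IsCompact K0) (hk1 : IsCompact K1) (hk : IsCompact K)
    (p0 : 0 < volume.real K0) (p1 : 0 < volume.real K1)
    (H : ∀ x ∈ K0, ∀ y ∈ K1, (1 / 2 : ℝ) • x + (1 / 2 : ℝ) • y ∈ K)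
    (heq : volume.real K ^ 2 ≤ volume.real K0 * volume.real K1) (hL : L ≠ 0) :
    ∃ c, ∀ x, cdfOf K1 L (x + c) = cdfOf K0 L x := by
  have H' : ∀ x ∈ K0, ∀ y ∈ K1, (1 - (1 / 2 : ℝ)) • x + (1 / 2 : ℝ) • y ∈ K := by
    intro x hx y hy
    have := H x hx y hy
    norm_num at this ⊢
    exact this
  have hf : volume K ≠ ∞ := hk.measure_lt_top.ne
  have hKm := hk.isClosed.measurableSet
  have hKm0 := hk0.isClosed.measurableSet
  have hKm1 := hk1.isClosed.measurableSet
  have hhalf : (1 - (1 / 2 : ℝ)) = 1 / 2 := by norm_num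
  have p : 0 < volume.real K := by
    have := real_mul_le (t := 1 / 2) (by norm_num) (by norm_num) hKm0 hKm1 hKm hf H'
    refine lt_of_lt_of_le ?_ this
    exact mul_pos (Real.rpow_pos_of_pos p0 _) (Real.rpow_pos_of_pos p1 _)
  have hle : volume.real K ≤ Real.sqrt (volume.real K0 * volume.real K1) :=
    Real.le_sqrt_of_sq_le heq
  have hsq : 0 < Real.sqrt (volume.real K0 * volume.real K1) := Real.sqrt_pos.mpr (mul_pos p0 p1)
  refine shift_of_cut (cdfOf_cdf hc0 hk0 p0 hL) (cdfOf_cdf hc1 hk1 p1 hL) (cdfOf_cdf hc hk p hL)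
    ?_ ?_
  · intro x y
    have h1 := cut_ineq (L := L) (t := 1 / 2) (by norm_num) (by norm_num) hKm0 hKm1 hKm hf H' x y
    rw [hhalf, ← Real.sqrt_eq_rpow, ← Real.sqrt_eq_rpow, ← Real.sqrt_mul measureReal_nonneg] at h1
    have e : (1 / 2 : ℝ) * x + 1 / 2 * y = (x + y) / 2 := by ring
    rw [e] at h1
    unfold cdfOf
    rw [div_mul_div_comm, Real.sqrt_div (mul_nonneg measureReal_nonneg measureReal_nonneg)]
    calc _ ≤ volume.real (K ∩ {x_1 | L x_1 ≤ (x + y) / 2}) /
          Real.sqrt (volume.real K0 * volume.real K1) := by gcongr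
      _ ≤ _ := div_le_div_of_nonneg_left measureReal_nonneg p hle
  · intro x y
    have h1 := cut_ineq' (L := L) (t := 1 / 2) (by norm_num) (by norm_num) hKm0 hKm1 hKm hf H' x y
    rw [hhalf, ← Real.sqrt_eq_rpow, ← Real.sqrt_eq_rpow, ← Real.sqrt_mul measureReal_nonneg] at h1
    have e : (1 / 2 : ℝ) * x + 1 / 2 * y = (x + y) / 2 := by ring
    rw [e] at h1
    rw [cdfOf_compl hKm0 hk0.measure_lt_top.ne p0, cdfOf_compl hKm1 hk1.measure_lt_top.ne p1,
      cdfOf_compl hKm hf p]
    rw [div_mul_div_comm, Real.sqrt_div (mul_nonneg measureReal_nonneg measureReal_nonneg)]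
    calc _ ≤ volume.real (K ∩ {x_1 | (x + y) / 2 < L x_1}) /
          Real.sqrt (volume.real K0 * volume.real K1) := by gcongr
      _ ≤ _ := div_le_div_of_nonneg_left measureReal_nonneg p hle

end body

end Crest.Agent.R144.Lw425
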