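import Crest.Agent.R144.Ham6_560
import Crest.Agent.R144.Lw5_425

/-!
R144 (S0197), helper425.  Lw6: placement of the standard window in a system `(U, F, E, ξ)` of
`Ham2_560` by a map `φ : ℤ × ℤ → U`; transport of the window inequality; covering of the bad event by
fresh tight lists.
-/

set_option autoImplicit false

open MeasureTheory Set Filter Topology
open scoped ENNReal

noncomputable section

namespace Crest.Agent.R144.Lw425

open Crest.Agent.R144.Ham560

variable {U : Type*} [DecidableEq U] {F : Finset U} {E : Finset (U × U)} {ξ : U → ℝ}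

/-- The closed window of radius `R` is placed in the system by `φ`. -/
structure Win (F : Finset U) (E : Finset (U × U)) (R : ℕ) (φ : ℤ × ℤ → U) : Prop where
  inj : ∀ a ∈ hball R, ∀ b ∈ hball R, φ a = φ b → a = b
  free : ∀ a ∈ hball R, φ a ∈ F
  edge : ∀ a ∈ hball R, ∀ b ∈ hball R, hd a b = 1 → φ b ∈ nbr E (φ a)
  only : ∀ p ∈ E, ∀ a ∈ inn R, (p.1 = φ a → ∃ b ∈ hball R, hd a b = 1 ∧ p.2 = φ b) ∧
    (p.2 = φ a → ∃ b ∈ hball R, hd a b = 1 ∧ p.1 = φ b)

/-- Sites of the placed window. -/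
def pin (R : ℕ) (φ : ℤ × ℤ → U) : Finset U := (inn R).image φ

/-- Edges touching a set of sites. -/
def tE (E : Finset (U × U)) (Q : Finset U) : Finset (U × U) := E.filter fun p => p.1 ∈ Q ∨ p.2 ∈ Q

theorem mem_pin {R : ℕ} {φ : ℤ × ℤ → U} {u : U} : u ∈ pin R φ ↔ ∃ a ∈ inn R, φ a = u :=
  Finset.mem_image

/-- The bijection between the interior and its image. -/
def eqv {R : ℕ} {φ : ℤ × ℤ → U} (h : ∀ a ∈ hball R, ∀ b ∈ hball R, φ a = φ b → a = b) :
    inn R ≃ pin R φ :=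
  Equiv.ofBijective (fun a => ⟨φ a, mem_pin.mpr ⟨a, a.2, rfl⟩⟩) (by
    constructor
    · intro a b hab
      have : φ a = φ b := congrArg Subtype.val hab
      exact Subtype.ext (h a (inn_subset a.2) b (inn_subset b.2) this)
    · rintro ⟨u, hu⟩
      obtain ⟨a, ha, rfl⟩ := mem_pin.mp hu
      exact ⟨⟨a, ha⟩, rfl⟩)

theorem eqv_apply {R : ℕ} {φ : ℤ × ℤ → U} (h : ∀ a ∈ hball R, ∀ b ∈ hball R, φ a = φ b → a = b)
    (a : inn R) : (eqv h a : U) = φ a := rfl

/-- Transport of configurations. -/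
def tr {R : ℕ} {φ : ℤ × ℤ → U} (h : ∀ a ∈ hball R, ∀ b ∈ hball R, φ a = φ b → a = b) :
    (inn R → ℝ) ≃ᵐ (pin R φ → ℝ) :=
  MeasurableEquiv.piCongrLeft (fun _ : pin R φ => ℝ) (eqv h)

theorem tr_apply {R : ℕ} {φ : ℤ × ℤ → U} (h : ∀ a ∈ hball R, ∀ b ∈ hball R, φ a = φ b → a = b)
    (y : inn R → ℝ) (a : inn R) : tr h y (eqv h a) = y a := by
  simp [tr, MeasurableEquiv.coe_piCongrLeft, Equiv.piCongrLeft_apply_apply]

theorem tr_mp {R : ℕ} {φ : ℤ × ℤ → U} (h : ∀ a ∈ hball R, ∀ b ∈ hball R, φ a = φ b → a = b) :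
    MeasurePreserving (tr h) volume volume :=
  volume_measurePreserving_piCongrLeft (fun _ : pin R φ => ℝ) (eqv h)

namespace Win

variable {R : ℕ} {φ : ℤ × ℤ → U}

theorem ext_pin (hW : Win F E R φ) (ζ : U → ℝ) (y : inn R → ℝ) {a : ℤ × ℤ} (ha : a ∈ hball R) :
    Ham560.ext (pin R φ) ζ (tr hW.inj y) (φ a) =
      Ham560.ext (inn R) (fun b => ζ (φ b)) y a := by
  by_cases h : a ∈ inn R
  · have h1 : φ a ∈ pin R φ := mem_pin.mpr ⟨a, h, rfl⟩
    rw [ext_mem h1, ext_mem h]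
    exact tr_apply hW.inj y ⟨a, h⟩
  · have h1 : φ a ∉ pin R φ := by
      intro h1
      obtain ⟨b, hb, hab⟩ := mem_pin.mp h1
      exact h (hW.inj b (inn_subset hb) a ha hab ▸ hb)
    rw [ext_notMem h1, ext_notMem h]

theorem tr_mem_ham (hW : Win F E R φ) (ζ : U → ℝ) (y : inn R → ℝ) :
    tr hW.inj y ∈ ham (pin R φ) (tE E (pin R φ)) ζ ↔
      y ∈ ham (inn R) (wE R) (fun b => ζ (φ b)) := by
  constructor
  · intro h p hp
    rw [mem_wE] at hp
    have ha := mem_hball.mpr hp.1.1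
    have hb := mem_hball.mpr hp.1.2
    rw [← hW.ext_pin ζ y ha, ← hW.ext_pin ζ y hb]
    have hnb := hW.edge p.1 ha p.2 hb hp.2.1
    have hin : φ p.1 ∈ pin R φ ∨ φ p.2 ∈ pin R φ := by
      rcases hp.2.2 with h' | h'
      · exact Or.inl (mem_pin.mpr ⟨_, mem_inn.mpr h', rfl⟩)
      · exact Or.inr (mem_pin.mpr ⟨_, mem_inn.mpr h', rfl⟩)
    rcases (mem_nbr.mp hnb).2 with h' | h'
    · exact h _ (Finset.mem_filter.mpr ⟨h', hin⟩)
    · rw [abs_sub_comm]
      exact h _ (Finset.mem_filter.mpr ⟨h', hin.symm⟩)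
  · intro h p hp
    obtain ⟨hpE, hpin⟩ := Finset.mem_filter.mp hp
    rcases hpin with h' | h'
    · obtain ⟨a, ha, hap⟩ := mem_pin.mp h'
      obtain ⟨b, hb, hab, hbp⟩ := (hW.only p hpE a ha).1 hap.symm
      rw [← hap, hbp, hW.ext_pin ζ y (inn_subset ha), hW.ext_pin ζ y hb]
      exact h (a, b) (mem_wE.mpr ⟨⟨(mem_inn.mp ha).le, mem_hball.mp hb⟩, hab,
        Or.inl (mem_inn.mp ha)⟩)
    · obtain ⟨a, ha, hap⟩ := mem_pin.mp h'
      obtain ⟨b, hb, hab, hbp⟩ := (hW.only p hpE a ha).2 hap.symm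
      rw [← hap, hbp, hW.ext_pin ζ y (inn_subset ha), hW.ext_pin ζ y hb]
      exact h (b, a) (mem_wE.mpr ⟨⟨mem_hball.mp hb, (mem_inn.mp ha).le⟩, by rw [hd_comm]; exact hab,
        Or.inr (mem_inn.mp ha)⟩)

theorem preimage_ham (hW : Win F E R φ) (ζ : U → ℝ) :
    tr hW.inj ⁻¹' ham (pin R φ) (tE E (pin R φ)) ζ =
      ham (inn R) (wE R) (fun b => ζ (φ b)) := by
  ext y; exact hW.tr_mem_ham ζ y

/-- Boundary data seen by the window. -/
def wd (R : ℕ) (φ : ℤ × ℤ → U) (ζ : U → ℝ) : sph R → ℝ := fun y => ζ (φ y)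

omit [DecidableEq U] in
theorem ham_wd (ζ : U → ℝ) (φ : ℤ × ℤ → U) :
    ham (inn R) (wE R) (fun b => ζ (φ b)) = ham (inn R) (wE R) (dat (sph R) (wd R φ ζ)) :=
  (ham_dat (bd_window R) fun b => ζ (φ b)).symm

theorem lintegral_pin (hW : Win F E R φ) (ζ : U → ℝ) (G : (pin R φ → ℝ) → ℝ≥0∞) :
    ∫⁻ x in ham (pin R φ) (tE E (pin R φ)) ζ, G x =
      ∫⁻ y in ham (inn R) (wE R) (dat (sph R) (wd R φ ζ)), G (tr hW.inj y) := by
  rw [← ham_wd, ← hW.preimage_ham ζ]
  exact ((tr_mp hW.inj).setLIntegral_comp_preimage_emb (tr hW.inj).measurableEmbedding _ _).symm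

theorem integral_pin (hW : Win F E R φ) (ζ : U → ℝ) (G : (pin R φ → ℝ) → ℝ) :
    ∫ x in ham (pin R φ) (tE E (pin R φ)) ζ, G x =
      ∫ y in ham (inn R) (wE R) (dat (sph R) (wd R φ ζ)), G (tr hW.inj y) := by
  rw [← ham_wd, ← hW.preimage_ham ζ]
  exact ((tr_mp hW.inj).setIntegral_preimage_emb (tr hW.inj).measurableEmbedding _ _).symm

theorem volume_pin (hW : Win F E R φ) (ζ : U → ℝ) :
    volume (ham (pin R φ) (tE E (pin R φ)) ζ) =
      volume (ham (inn R) (wE R) (dat (sph R) (wd R φ ζ))) := by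
  have := hW.lintegral_pin ζ (fun _ => 1)
  simpa using this

theorem Vr_pin (hW : Win F E R φ) (ζ : U → ℝ) :
    Vr (pin R φ) (tE E (pin R φ)) ζ = Vr (inn R) (wE R) (dat (sph R) (wd R φ ζ)) := by
  rw [Vr, Vr, Measure.real, Measure.real, hW.volume_pin]

theorem Del_pin (hW : Win F E R φ) (ζ ζ' : U → ℝ) :
    Del (pin R φ) (tE E (pin R φ)) ζ ζ' =
      Del (inn R) (wE R) (dat (sph R) (wd R φ ζ)) (dat (sph R) (wd R φ ζ')) := by
  unfold Del
  rw [hW.Vr_pin, hW.Vr_pin, hW.Vr_pin, dat_mid]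
  rfl

/-- The observable placed in the window, as a function of the coordinates of the window. -/
def pobs (R : ℕ) (φ : ℤ × ℤ → U) (f : (ℤ × ℤ → ℝ) → ℝ) (x : pin R φ → ℝ) : ℝ :=
  f (fun a => Ham560.ext (pin R φ) 0 x (φ a))

theorem measurable_pobs {r : ℕ} {f : (ℤ × ℤ → ℝ) → ℝ} (hf : LObs r f) :
    Measurable (pobs R φ f) := by
  refine hf.meas.comp (measurable_pi_lambda _ fun a => ?_)
  exact (continuous_ext (F := pin R φ) (ξ := 0) (φ a)).measurable

theorem pobs_tr (hW : Win F E R φ) {r : ℕ} (hr : r < R) {f : (ℤ × ℤ → ℝ) → ℝ} (hf : LObs r f)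
    (y : inn R → ℝ) : pobs R φ f (tr hW.inj y) = wobs R f y := by
  unfold pobs wobs
  refine hf.loc _ _ fun a ha => ?_
  have h1 : a ∈ hball R := by rw [mem_hball] at ha ⊢; omega
  have h2 : a ∈ inn R := by rw [mem_inn]; rw [mem_hball] at ha; omega
  rw [hW.ext_pin 0 y h1, ext_mem h2, ext_mem h2]

theorem mean_pin (hW : Win F E R φ) {r : ℕ} (hr : r < R) {f : (ℤ × ℤ → ℝ) → ℝ} (hf : LObs r f)
    (ζ : U → ℝ) : mean (pin R φ) (tE E (pin R φ)) (pobs R φ f) ζ =
      mean (inn R) (wE R) (wobs R f) (dat (sph R) (wd R φ ζ)) := by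
  rw [mean_eq, mean_eq, hW.Vr_pin, hW.integral_pin]
  congr 1
  exact integral_congr_ae (Eventually.of_forall fun y => hW.pobs_tr hr hf y)

/-- Lipschitz property in the window. -/
theorem lip (hW : Win F E R φ) {x : F → ℝ} (hx : x ∈ ham F E ξ) :
    ∀ a ∈ hball R, ∀ b ∈ hball R,
      |Ham560.ext F ξ x (φ a) - Ham560.ext F ξ x (φ b)| ≤ hd a b := by
  have key : ∀ (n : ℕ) (a b : ℤ × ℤ), a ∈ hball R → b ∈ hball R → hd a b ≤ n →
      |Ham560.ext F ξ x (φ a) - Ham560.ext F ξ x (φ b)| ≤ hd a b := by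
    intro n
    induction n with
    | zero =>
      intro a b _ _ h
      have h0 : hd a b = 0 := le_antisymm (by simpa using h) (hd_nonneg _ _)
      rw [hd_eq_zero h0, hd_self]; simp
    | succ n ih =>
      intro a b ha hb h
      by_cases hab : a = b
      · subst hab; rw [hd_self]; simp
      obtain ⟨c, hc1, hc2, hc3⟩ := exists_step hab
      have hc : c ∈ hball R := mem_hball.mpr (hc3 0 R (mem_hball.mp ha) (mem_hball.mp hb))
      have h1 := ih c b hc hb (by push_cast at h; omega)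
      have h2 := ham_nbr hx (hW.edge a ha c hc hc1)
      have h3 := abs_sub_le (Ham560.ext F ξ x (φ a)) (Ham560.ext F ξ x (φ c))
        (Ham560.ext F ξ x (φ b))
      have h4 : ((hd c b : ℤ) : ℝ) = hd a b - 1 := by rw [hc2]; push_cast; ring
      rw [h4] at h1
      linarith
  intro a ha b hb
  exact key (hd a b).toNat a b ha hb (Int.self_le_toNat _)

end Win

/-! ### Geodesics to the origin -/

/-- One step towards the origin. -/
def stp (a : ℤ × ℤ) : ℤ × ℤ := if h : a ≠ 0 then (exists_step h).choose else a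

theorem stp_spec {a : ℤ × ℤ} (h : a ≠ 0) : hd a (stp a) = 1 ∧ hd (stp a) 0 = hd a 0 - 1 := by
  have := (exists_step h).choose_spec
  rw [stp, dif_pos h]
  exact ⟨this.1, this.2.1⟩

/-- Edges of the geodesic to the origin. -/
def geo : ℕ → ℤ × ℤ → List ((ℤ × ℤ) × (ℤ × ℤ))
  | 0, _ => []
  | n + 1, a => (a, stp a) :: geo n (stp a)

theorem geo_length (n : ℕ) (a : ℤ × ℤ) : (geo n a).length = n := by
  induction n generalizing a with
  | zero => rfl
  | succ n ih => rw [geo, List.length_cons, ih]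

theorem ne_zero_of_hd {a : ℤ × ℤ} {n : ℕ} (h : hd a 0 = n + 1) : a ≠ 0 := by
  rintro rfl
  rw [hd_self] at h
  omega

theorem geo_mem {n : ℕ} {a : ℤ × ℤ} (h : hd a 0 = n) : ∀ p ∈ geo n a,
    hd p.1 p.2 = 1 ∧ hd p.2 0 = hd p.1 0 - 1 ∧ hd p.1 0 ≤ n := by
  induction n generalizing a with
  | zero => intro p hp; simp [geo] at hp
  | succ n ih =>
    intro p hp
    have hne := ne_zero_of_hd (n := n) (by rw [h]; push_cast; rfl)
    obtain ⟨h1, h2⟩ := stp_spec hne
    rw [geo, List.mem_cons] at hp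
    rcases hp with rfl | hp
    · exact ⟨h1, h2, h.le⟩
    · have := ih (a := stp a) (by rw [h2, h]; push_cast; ring) p hp
      exact ⟨this.1, this.2.1, by push_cast; omega⟩

theorem geo_sum {n : ℕ} {a : ℤ × ℤ} (h : hd a 0 = n) (g : ℤ × ℤ → ℝ) :
    ((geo n a).map fun p => g p.1 - g p.2).sum = g a - g 0 := by
  induction n generalizing a with
  | zero =>
    have : a = 0 := hd_eq_zero (by rw [h]; simp)
    simp [geo, this]
  | succ n ih =>
    have hne := ne_zero_of_hd (n := n) (by rw [h]; push_cast; rfl)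
    obtain ⟨h1, h2⟩ := stp_spec hne
    rw [geo, List.map_cons, List.sum_cons, ih (a := stp a) (by rw [h2, h]; push_cast; ring)]
    ring

/-- Counting the tight edges of a path. -/
theorem count_tight (L : List ((ℤ × ℤ) × (ℤ × ℤ))) (s : (ℤ × ℤ) × (ℤ × ℤ) → ℝ)
    (hs : ∀ p ∈ L, s p ≤ 1) {w : ℝ} :
    w * ((L.length : ℝ) - (L.filter fun p => decide (1 - w ≤ s p)).length) ≤
      L.length - (L.map s).sum := by
  induction L with
  | nil => simp
  | cons p L ih =>
    have h1 := ih fun q hq => hs q (List.mem_cons_of_mem _ hq)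
    have h2 := hs p List.mem_cons_self
    rw [List.filter_cons, List.map_cons, List.sum_cons, List.length_cons]
    by_cases h : 1 - w ≤ s p
    · simp only [h, decide_true, if_true, List.length_cons]
      push_cast
      linarith
    · simp only [h, decide_false, Bool.false_eq_true, if_false]
      push_cast
      push Not at h
      linarith

/-! ### Covering of the bad event -/

open Classical in
/-- Lists with radii, one tight edge. -/
def fam1 (R : ℕ) (φ : ℤ × ℤ → U) (δ : ℝ) : Finset (List ((U × U) × ℝ)) :=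
  ((hball R ×ˢ hball R).filter fun p => hd p.1 p.2 = 1).image fun p => [((φ p.1, φ p.2), δ)]

open Classical in
/-- Lists with radii: half of the edges of a geodesic to the origin. -/
def fam2 (R : ℕ) (φ : ℤ × ℤ → U) (w : ℝ) : Finset (List ((U × U) × ℝ)) :=
  (sph R).biUnion fun y =>
    (((geo R y).sublists.filter fun L => decide (R ≤ 2 * L.length)).map fun L =>
      L.map fun p => ((φ p.1, φ p.2), w)).toFinset

open Classical in
def fam (R : ℕ) (φ : ℤ × ℤ → U) (δ w : ℝ) : Finset (List ((U × U) × ℝ)) :=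
  fam1 R φ δ ∪ fam2 R φ w

namespace Win

variable {R : ℕ} {φ : ℤ × ℤ → U}

theorem mem_fam2 {w : ℝ} {S : List ((U × U) × ℝ)} : S ∈ fam2 R φ w ↔
    ∃ y ∈ sph R, ∃ L : List ((ℤ × ℤ) × (ℤ × ℤ)), L.Sublist (geo R y) ∧ R ≤ 2 * L.length ∧
      (L.map fun p => ((φ p.1, φ p.2), w)) = S := by
  classical
  simp only [fam2, Finset.mem_biUnion, List.mem_toFinset, List.mem_map, List.mem_filter,
    List.mem_sublists, decide_eq_true_eq]
  constructor
  · rintro ⟨y, hy, L, ⟨h1, h2⟩, h3⟩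
    exact ⟨y, hy, L, h1, h2, h3⟩
  · rintro ⟨y, hy, L, h1, h2, h3⟩
    exact ⟨y, hy, L, ⟨h1, h2⟩, h3⟩

theorem mem_fam1 {δ : ℝ} {S : List ((U × U) × ℝ)} : S ∈ fam1 R φ δ ↔
    ∃ a ∈ hball R, ∃ b ∈ hball R, hd a b = 1 ∧ [((φ a, φ b), δ)] = S := by
  classical
  simp only [fam1, Finset.mem_image, Finset.mem_filter, Finset.mem_product]
  constructor
  · rintro ⟨p, ⟨⟨ha, hb⟩, hab⟩, h⟩
    exact ⟨p.1, ha, p.2, hb, hab, h⟩
  · rintro ⟨a, ha, b, hb, hab, h⟩
    exact ⟨(a, b), ⟨⟨ha, hb⟩, hab⟩, h⟩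

/-- All vertices of the lists lie in the placed window. -/
theorem fam_sites {δ w : ℝ} {S : List ((U × U) × ℝ)} (hS : S ∈ fam R φ δ w) :
    ∀ q ∈ S, (∃ a ∈ hball R, φ a = q.1.1) ∧ ∃ a ∈ hball R, φ a = q.1.2 := by
  classical
  rw [fam, Finset.mem_union] at hS
  rcases hS with h | h
  · obtain ⟨a, ha, b, hb, _, rfl⟩ := mem_fam1.mp h
    intro q hq
    rw [List.mem_singleton] at hq
    subst hq
    exact ⟨⟨a, ha, rfl⟩, ⟨b, hb, rfl⟩⟩
  · obtain ⟨y, hy, L, hL, _, rfl⟩ := mem_fam2.mp h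
    intro q hq
    obtain ⟨p, hp, rfl⟩ := List.mem_map.mp hq
    have h1 := geo_mem (mem_sph.mp hy) p (hL.subset hp)
    exact ⟨⟨p.1, mem_hball.mpr h1.2.2, rfl⟩, ⟨p.2, mem_hball.mpr (by omega), rfl⟩⟩

/-- Sublists of a geodesic are fresh. -/
theorem fresh_sub (hW : Win F E R φ) {w : ℝ} (hw : 0 < w) : ∀ (n : ℕ) (a : ℤ × ℤ),
    hd a 0 = n → n ≤ R → ∀ L : List ((ℤ × ℤ) × (ℤ × ℤ)), L.Sublist (geo n a) →
      FreshR F E (L.map fun p => ((φ p.1, φ p.2), w)) := by
  intro n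
  induction n with
  | zero =>
    intro a _ _ L hL
    rw [geo, List.sublist_nil] at hL
    subst hL
    exact FreshR.nil
  | succ n ih =>
    intro a ha hn L hL
    have hne := ne_zero_of_hd (n := n) (by rw [ha]; push_cast; rfl)
    obtain ⟨h1, h2⟩ := stp_spec hne
    have ha' : hd (stp a) 0 = n := by rw [h2, ha]; push_cast; ring
    rw [geo] at hL
    rcases List.sublist_cons_iff.mp hL with h | ⟨L', rfl, h⟩
    · exact ih (stp a) ha' (by omega) L h
    · rw [List.map_cons]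
      have hab : a ∈ hball R := mem_hball.mpr (by rw [ha]; exact_mod_cast hn)
      have hsb : stp a ∈ hball R := mem_hball.mpr (by rw [ha']; exact_mod_cast (by omega))
      refine FreshR.cons (ih (stp a) ha' (by omega) L' h) (hW.free a hab)
        (hW.edge a hab _ hsb h1) hw ?_
      intro q hq
      obtain ⟨p, hp, rfl⟩ := List.mem_map.mp hq
      obtain ⟨g1, g2, g3⟩ := geo_mem ha' p (h.subset hp)
      have hp1 : p.1 ∈ hball R := mem_hball.mpr (by omega)
      have hp2 : p.2 ∈ hball R := mem_hball.mpr (by omega)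
      constructor
      · intro he
        have := hW.inj _ hp1 _ hab he
        rw [this, ha] at g3
        push_cast at g3; omega
      · intro he
        have := hW.inj _ hp2 _ hab he
        rw [this, ha] at g2
        push_cast at g2; omega

theorem fam_fresh (hW : Win F E R φ) {δ w : ℝ} (hδ : 0 < δ) (hw : 0 < w) :
    ∀ S ∈ fam R φ δ w, FreshR F E S := by
  classical
  intro S hS
  rw [fam, Finset.mem_union] at hS
  rcases hS with h | h
  · obtain ⟨a, ha, b, hb, hab, rfl⟩ := mem_fam1.mp h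
    exact FreshR.cons FreshR.nil (hW.free a ha) (hW.edge a ha b hb hab) hδ (by simp)
  · obtain ⟨y, hy, L, hL, _, rfl⟩ := mem_fam2.mp h
    exact hW.fresh_sub hw R y (mem_sph.mp hy) le_rfl L hL

/-- **Covering of the bad event.** -/
theorem bad_cover (hW : Win F E R φ) {r : ℕ} (hrR : r + 2 ≤ R) {δ w : ℝ} (hw : 0 < w)
    (hwR : (4 * (r : ℝ) + 8) ≤ w * R) {x : F → ℝ} (hx : x ∈ ham F E ξ)
    (hbad : wd R φ (Ham560.ext F ξ x) ∉ good R r δ) :
    ∃ S ∈ fam R φ δ w, x ∈ tightR F E ξ S := by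
  classical
  set h : ℤ × ℤ → ℝ := fun a => Ham560.ext F ξ x (φ a) with hh
  have hlip := hW.lip hx
  have hRr : (r : ℝ) + 2 ≤ R := by exact_mod_cast hrR
  have hbad' : ∃ y y' : sph R, y ≠ y' ∧ (|h y - h y'| ≤ hd y y' - δ →
      ¬ |h y - h y'| ≤ 2 * (R : ℝ) - 2 * (r : ℝ) - 4) := by
    by_contra hcon
    push Not at hcon
    exact hbad fun y y' hyy => by
      have := hcon y y' hyy
      exact this
  obtain ⟨y, y', hne, hb⟩ := hbad'
  have hne' : (y : ℤ × ℤ) ≠ y' := fun h => hne (Subtype.ext h)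
  have hyb : (y : ℤ × ℤ) ∈ hball R := sph_subset y.2
  have hyb' : (y' : ℤ × ℤ) ∈ hball R := sph_subset y'.2
  by_cases hA : |h y - h y'| ≤ hd y y' - δ
  · -- far tight pair
    have hB := hb hA
    push Not at hB
    have h0 : (0 : ℤ × ℤ) ∈ hball R := mem_hball.mpr (by rw [hd_self]; positivity)
    have h1 := hlip 0 h0 y' hyb'
    have h2 : ((hd 0 y' : ℤ) : ℝ) = R := by
      rw [hd_comm, mem_sph.mp y'.2]; simp
    rw [h2] at h1
    have h3 := abs_sub_le (h y) (h 0) (h y')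
    have h4 : (R : ℝ) - (2 * r + 4) < |h y - h 0| := by
      have : |h 0 - h y'| ≤ R := h1
      linarith
    -- sign
    obtain ⟨σ, hσ, hσ'⟩ : ∃ σ : ℝ, |σ| = 1 ∧ σ * (h y - h 0) = |h y - h 0| := by
      rcases le_total 0 (h y - h 0) with hs | hs
      · exact ⟨1, by simp, by rw [abs_of_nonneg hs]; ring⟩
      · exact ⟨-1, by simp, by rw [abs_of_nonpos hs]; ring⟩
    have hgeo := geo_mem (mem_sph.mp y.2)
    have hsl : ∀ p ∈ geo R (y : ℤ × ℤ), σ * (h p.1 - h p.2) ≤ 1 := by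
      intro p hp
      obtain ⟨g1, g2, g3⟩ := hgeo p hp
      have hp1 : p.1 ∈ hball R := mem_hball.mpr g3
      have hp2 : p.2 ∈ hball R := mem_hball.mpr (by omega)
      have := hlip p.1 hp1 p.2 hp2
      rw [g1] at this
      calc σ * (h p.1 - h p.2) ≤ |σ * (h p.1 - h p.2)| := le_abs_self _
        _ = |h p.1 - h p.2| := by rw [abs_mul, hσ, one_mul]
        _ ≤ 1 := by simpa using this
    have hcount := count_tight (geo R (y : ℤ × ℤ)) (fun p => σ * (h p.1 - h p.2)) hsl (w := w)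
    set L := (geo R (y : ℤ × ℤ)).filter fun p => decide (1 - w ≤ σ * (h p.1 - h p.2)) with hL
    have hsum : ((geo R (y : ℤ × ℤ)).map fun p => σ * (h p.1 - h p.2)).sum = |h y - h 0| := by
      have := geo_sum (mem_sph.mp y.2) (fun a => σ * h a)
      rw [← hσ', mul_sub, ← this]
      congr 1
      exact List.map_congr_left fun p _ => by ring
    rw [hsum, geo_length] at hcount
    have hlen : R ≤ 2 * L.length := by
      by_contra hcon
      push Not at hcon
      have h5 : (2 * (L.length : ℝ)) ≤ R := by exact_mod_cast hcon.le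
      have h6 : w * ((R : ℝ) / 2) ≤ w * ((R : ℝ) - L.length) := by
        apply mul_le_mul_of_nonneg_left _ hw.le; linarith
      have h7 : w * ((R : ℝ) / 2) = w * R / 2 := by ring
      linarith
    refine ⟨L.map fun p => ((φ p.1, φ p.2), w), ?_, hx, ?_⟩
    · rw [fam, Finset.mem_union]
      exact Or.inr (mem_fam2.mpr ⟨y, y.2, L, List.filter_sublist, hlen, rfl⟩)
    · intro q hq
      obtain ⟨p, hp, rfl⟩ := List.mem_map.mp hq
      have hp' := (List.mem_filter.mp hp).2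
      rw [decide_eq_true_eq] at hp'
      refine hp'.trans ?_
      calc σ * (h p.1 - h p.2) ≤ |σ * (h p.1 - h p.2)| := le_abs_self _
        _ = |h p.1 - h p.2| := by rw [abs_mul, hσ, one_mul]
  · -- tight pair
    push Not at hA
    obtain ⟨c, hc1, hc2, hc3⟩ := exists_step hne'
    have hcb : c ∈ hball R := mem_hball.mpr (hc3 0 R (mem_hball.mp hyb) (mem_hball.mp hyb'))
    have h1 := hlip c hcb y' hyb'
    rw [hc2] at h1
    push_cast at h1
    have h3 := abs_sub_le (h y) (h c) (h y')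
    have h4 : |h c - h y'| ≤ hd y y' - 1 := h1
    refine ⟨[((φ y, φ c), δ)], ?_, hx, ?_⟩
    · rw [fam, Finset.mem_union]
      exact Or.inl (mem_fam1.mpr ⟨y, hyb, c, hcb, hc1, rfl⟩)
    · intro q hq
      rw [List.mem_singleton] at hq
      subst hq
      show 1 - δ ≤ |h y - h c|
      linarith

end Win

end Crest.Agent.R144.Lw425
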