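import Mathlib
import Crest.Agent.R144.MW1_121

/-!
# R144, shift block, part 2 (helper121): two-sided shift inequality (Cauchy-Schwarz form)

* `det_lower`: `sqrt |det (1 + tA) det (1 - tA)| ≥ 1 - (1+δ)/2 t² |A|²_HS`.
* `two_sided_lintegral`, `two_sided`: the two-sided shift inequality for arbitrary densities.
* `block_two_sided`, `block_cramer_rao`: block triangular version.
-/

set_option autoImplicit false

open MeasureTheory Filter Set
open scoped ENNReal NNReal Topology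

namespace Crest.Agent.R144.MW121

noncomputable section

section Det2

variable {V : Type*} [Fintype V] [DecidableEq V]

/-- squared Hilbert-Schmidt norm -/
def hs (A : Matrix V V ℝ) : ℝ := ∑ u, ∑ v, A u v ^ 2

omit [DecidableEq V] in
lemma hs_nonneg (A : Matrix V V ℝ) : 0 ≤ hs A := by unfold hs; positivity

omit [DecidableEq V] in
lemma sq_le_hs (A : Matrix V V ℝ) (u v : V) : A u v ^ 2 ≤ hs A := by
  unfold hs
  refine (Finset.single_le_sum (f := fun v => A u v ^ 2) (fun _ _ => sq_nonneg _)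
    (Finset.mem_univ v)).trans ?_
  exact Finset.single_le_sum (f := fun u => ∑ v, A u v ^ 2)
    (fun _ _ => Finset.sum_nonneg fun _ _ => sq_nonneg _) (Finset.mem_univ u)

omit [DecidableEq V] in
lemma abs_mul_self_le_hs (A : Matrix V V ℝ) (u v : V) : |(A * A) u v| ≤ hs A := by
  rw [Matrix.mul_apply]
  refine (Finset.abs_sum_le_sum_abs _ _).trans ?_
  have h1 : ∀ w, |A u w * A w v| ≤ (A u w ^ 2 + A w v ^ 2) / 2 := by
    intro w
    rw [abs_mul]
    nlinarith [sq_nonneg (|A u w| - |A w v|), sq_abs (A u w), sq_abs (A w v)]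
  refine (Finset.sum_le_sum fun w _ => h1 w).trans ?_
  rw [← Finset.sum_div, Finset.sum_add_distrib]
  have h2 : ∑ w, A u w ^ 2 ≤ hs A := by
    unfold hs
    exact Finset.single_le_sum (f := fun u => ∑ v, A u v ^ 2)
      (fun _ _ => Finset.sum_nonneg fun _ _ => sq_nonneg _) (Finset.mem_univ u)
  have h3 : ∑ w, A w v ^ 2 ≤ hs A := by
    unfold hs
    exact Finset.sum_le_sum fun w _ => Finset.single_le_sum (f := fun v => A w v ^ 2)
      (fun _ _ => sq_nonneg _) (Finset.mem_univ v)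
  linarith

omit [DecidableEq V] in
lemma trace_mul_self_le_hs (A : Matrix V V ℝ) : (A * A).trace ≤ hs A := by
  simp only [Matrix.trace, Matrix.diag, Matrix.mul_apply, hs]
  have h1 : ∑ u, ∑ v, A u v * A v u ≤ ∑ u, ∑ v, (A u v ^ 2 + A v u ^ 2) / 2 :=
    Finset.sum_le_sum fun u _ => Finset.sum_le_sum fun v _ => by
      nlinarith [sq_nonneg (A u v - A v u)]
  refine h1.trans (le_of_eq ?_)
  have h2 : ∑ u, ∑ v, A v u ^ 2 = ∑ u, ∑ v, A u v ^ 2 := Finset.sum_comm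
  simp only [← Finset.sum_div, Finset.sum_add_distrib]
  rw [h2]
  ring

lemma contDiff_detf_two : ContDiff ℝ 2 (detf (V := V)) := by
  unfold detf
  simp only [Matrix.det_apply]
  refine ContDiff.sum fun σ _ => ?_
  refine ContDiff.const_smul _ ?_
  refine contDiff_prod fun i _ => ?_
  simp only [Matrix.add_apply, Matrix.of_apply]
  fun_prop

/-- The derivative of `detf` at `0` is the trace. -/
lemma fderiv_detf_zero (M : V → V → ℝ) :
    fderiv ℝ (detf (V := V)) 0 M = (Matrix.of M : Matrix V V ℝ).trace := by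
  have hd : DifferentiableAt ℝ (detf (V := V)) 0 :=
    (contDiff_detf.differentiable (by norm_num)) 0
  have h1 : Tendsto (fun t : ℝ => t⁻¹ • (detf (0 + t • M) - detf 0)) (𝓝[≠] 0)
      (𝓝 (fderiv ℝ (detf (V := V)) 0 M)) :=
    (hd.hasFDerivAt.hasLineDerivAt M).tendsto_slope_zero
  have h2 := tendsto_det_sub_div (Matrix.of M : Matrix V V ℝ)
  refine tendsto_nhds_unique h1 (h2.congr fun t => ?_)
  rw [zero_add, detf_zero, smul_eq_mul, div_eq_inv_mul]
  rfl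

/-- Second order bound for `det (1 + M)` near `0`. -/
lemma exists_detf_second :
    ∃ C : ℝ, 0 ≤ C ∧ ∃ r : ℝ, 0 < r ∧ ∀ M : V → V → ℝ, ‖M‖ ≤ r →
    |detf M - 1 - (Matrix.of M : Matrix V V ℝ).trace| ≤ C * ‖M‖ ^ 2 := by
  have hcd : ContDiff ℝ 1 (fderiv ℝ (detf (V := V))) :=
    contDiff_detf_two.fderiv_right (by norm_num)
  obtain ⟨C, s, hs, hC⟩ := (hcd.contDiffAt (x := 0)).exists_lipschitzOnWith
  obtain ⟨r, hr, hrs⟩ := Metric.nhds_basis_closedBall.mem_iff.1 hs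
  refine ⟨C, C.2, r, hr, fun M hM => ?_⟩
  set L := fderiv ℝ (detf (V := V)) 0 with hL
  set f : (V → V → ℝ) → ℝ := fun N => detf N - L N with hf
  have hfd : ∀ N, DifferentiableAt ℝ f N := fun N =>
    ((contDiff_detf.differentiable (by norm_num)) N).sub L.differentiableAt
  have hball : ∀ N ∈ Metric.closedBall (0 : V → V → ℝ) ‖M‖, ‖fderiv ℝ f N‖ ≤ C * ‖M‖ := by
    intro N hN
    have hN' : ‖N‖ ≤ ‖M‖ := by simpa using hN
    have e : fderiv ℝ f N = fderiv ℝ (detf (V := V)) N - L := by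
      rw [hf, fderiv_fun_sub ((contDiff_detf.differentiable (by norm_num)) N)
        L.differentiableAt]
      simp
    rw [e]
    have h1 := hC.dist_le_mul N (hrs (by simpa using hN'.trans hM)) 0
      (hrs (by simp [hr.le]))
    rw [dist_eq_norm, dist_zero_right] at h1
    exact h1.trans (mul_le_mul_of_nonneg_left hN' C.2)
  have h1 := (convex_closedBall (0 : V → V → ℝ) ‖M‖).norm_image_sub_le_of_norm_fderiv_le
    (f := f) (𝕜 := ℝ) (C := C * ‖M‖) (fun x _ => hfd x) hball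
    (by simp : (0 : V → V → ℝ) ∈ Metric.closedBall (0 : V → V → ℝ) ‖M‖)
    (by simp : M ∈ Metric.closedBall (0 : V → V → ℝ) ‖M‖)
  have e2 : f M - f 0 = detf M - 1 - (Matrix.of M : Matrix V V ℝ).trace := by
    simp only [hf, map_zero, sub_zero, detf_zero]
    rw [hL, fderiv_detf_zero]
    ring
  rw [e2, Real.norm_eq_abs, sub_zero] at h1
  calc _ ≤ C * ‖M‖ * ‖M‖ := h1
    _ = C * ‖M‖ ^ 2 := by ring

/-- `det (1 + M) det (1 - M) ≥ (1 - (1+δ)/2 |M|²)²` for small `M`. -/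
lemma det_lower (δ : ℝ) (hδ : 0 < δ) : ∃ r : ℝ, 0 < r ∧ ∀ M : Matrix V V ℝ,
    (∀ u v, |M u v| ≤ r) → 0 ≤ 1 - (1 + δ) / 2 * hs M ∧
      (1 - (1 + δ) / 2 * hs M) ^ 2 ≤ (1 + M).det * (1 + (-1 : ℝ) • M).det := by
  obtain ⟨C, hC0, r0, hr0, hC⟩ := exists_detf_second (V := V)
  set n : ℝ := (Fintype.card V : ℝ) + 1 with hn
  have hnpos : 0 < n := by positivity
  -- target: hs M ≤ η with η small
  set η : ℝ := min (1 / (1 + δ)) (min (min (1 / 2) r0) (δ / (C + (1 + δ) ^ 2 + 1))) with hη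
  have hη0 : 0 < η := by positivity
  refine ⟨Real.sqrt η / n, by positivity, fun M hM => ?_⟩
  have hhs : hs M ≤ η := by
    unfold hs
    have h1 : ∀ u v, M u v ^ 2 ≤ η / n ^ 2 := by
      intro u v
      rw [← sq_abs]
      calc |M u v| ^ 2 ≤ (Real.sqrt η / n) ^ 2 := pow_le_pow_left₀ (abs_nonneg _) (hM u v) 2
        _ = η / n ^ 2 := by rw [div_pow, Real.sq_sqrt hη0.le]
    calc ∑ u, ∑ v, M u v ^ 2 ≤ ∑ _u : V, ∑ _v : V, η / n ^ 2 :=
          Finset.sum_le_sum fun u _ => Finset.sum_le_sum fun v _ => h1 u v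
      _ = (Fintype.card V : ℝ) ^ 2 * (η / n ^ 2) := by simp; ring
      _ ≤ n ^ 2 * (η / n ^ 2) := by
          refine mul_le_mul_of_nonneg_right ?_ (by positivity)
          exact pow_le_pow_left₀ (by positivity) (by linarith) 2
      _ = η := by field_simp
  have hs0 := hs_nonneg M
  set x := hs M with hx
  have hx1 : x ≤ 1 / (1 + δ) := hhs.trans (min_le_left _ _)
  have hx2 : x ≤ r0 :=
    hhs.trans ((min_le_right _ _).trans ((min_le_left _ _).trans (min_le_right _ _)))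
  have hx3 : x ≤ δ / (C + (1 + δ) ^ 2 + 1) :=
    hhs.trans ((min_le_right _ _).trans (min_le_right _ _))
  have hx1' : (1 + δ) * x ≤ 1 := by
    rw [le_div_iff₀ (by positivity)] at hx1
    linarith
  have hx3' : (C + (1 + δ) ^ 2 + 1) * x ≤ δ := by
    rw [le_div_iff₀ (by positivity)] at hx3
    linarith
  refine ⟨by linarith, ?_⟩
  have e1 : (1 + M).det * (1 + (-1 : ℝ) • M).det = (1 + (-1 : ℝ) • (M * M)).det := by
    have := det_mul_det M 1
    simpa using this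
  set N : V → V → ℝ := fun u v => ((-1 : ℝ) • (M * M)) u v with hN
  have e2 : (1 + (-1 : ℝ) • (M * M)).det = detf N := rfl
  have hNn : ‖N‖ ≤ x := by
    refine (pi_norm_le_iff_of_nonneg hs0).2 fun u => ?_
    refine (pi_norm_le_iff_of_nonneg hs0).2 fun v => ?_
    rw [Real.norm_eq_abs]
    simp only [hN, Matrix.smul_apply, smul_eq_mul, neg_mul, one_mul, abs_neg]
    exact abs_mul_self_le_hs M u v
  have hN1 : ‖N‖ ≤ r0 := hNn.trans hx2
  have h1 := hC N hN1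
  have h2 : (Matrix.of N : Matrix V V ℝ).trace = -(M * M).trace := by
    have : (Matrix.of N : Matrix V V ℝ) = (-1 : ℝ) • (M * M) := rfl
    rw [this, Matrix.trace_smul]; simp
  rw [h2] at h1
  have h3 := (abs_le.1 h1).1
  have h4 : ‖N‖ ^ 2 ≤ x ^ 2 := pow_le_pow_left₀ (norm_nonneg _) hNn 2
  have h5 := trace_mul_self_le_hs M
  rw [e1, e2]
  have h6 : C * ‖N‖ ^ 2 ≤ C * x ^ 2 := mul_le_mul_of_nonneg_left h4 hC0
  have h7 : detf N ≥ 1 - x - C * x ^ 2 := by linarith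
  refine le_trans ?_ h7
  have h8 : (C + (1 + δ) ^ 2 + 1) * x * x ≤ δ * x := mul_le_mul_of_nonneg_right hx3' hs0
  nlinarith [sq_nonneg x, mul_nonneg hs0 hs0]

end Det2

section TwoSided

variable {V : Type*} [Fintype V] [DecidableEq V]

lemma en_eq_hs (Y : (V → ℝ) → (V → ℝ)) (h : V → ℝ) : en Y h = hs (jac Y h) := rfl

omit [DecidableEq V] in
lemma hs_smul (t : ℝ) (A : Matrix V V ℝ) : hs (t • A) = t ^ 2 * hs A := by
  unfold hs
  simp only [Matrix.smul_apply, smul_eq_mul, mul_pow, Finset.mul_sum]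

/-- Two-sided shift inequality, `ℝ≥0∞` valued densities. -/
theorem two_sided_lintegral {Y : (V → ℝ) → (V → ℝ)} {c : ℝ≥0} (hY : LipschitzWith c Y) {t : ℝ}
    (ht : |t| * c < 1) {Fp Fm : (V → ℝ) → ℝ≥0∞} (hFp : Measurable Fp) (hFm : Measurable Fm) :
    ∫⁻ h, (ENNReal.ofReal |(1 + t • jac Y h).det| * Fp (h + t • Y h)) ^ (1 / 2 : ℝ) *
        (ENNReal.ofReal |(1 + (-t) • jac Y h).det| * Fm (h + (-t) • Y h)) ^ (1 / 2 : ℝ) ≤
      (∫⁻ h, Fp h) ^ (1 / 2 : ℝ) * (∫⁻ h, Fm h) ^ (1 / 2 : ℝ) := by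
  have hYm : Measurable Y := hY.continuous.measurable
  have hm : ∀ (s : ℝ) (F : (V → ℝ) → ℝ≥0∞), Measurable F → Measurable fun h =>
      (ENNReal.ofReal |(1 + s • jac Y h).det| * F (h + s • Y h)) ^ (1 / 2 : ℝ) := by
    intro s F hF
    refine Measurable.pow_const ?_ _
    exact ((measurable_det s).abs.ennreal_ofReal).mul
      (hF.comp (measurable_id.add (hYm.const_smul s)))
  have hpq : (2 : ℝ).HolderConjugate 2 := Real.HolderConjugate.two_two
  have h1 := ENNReal.lintegral_mul_le_Lp_mul_Lq volume hpq (hm t Fp hFp).aemeasurable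
    (hm (-t) Fm hFm).aemeasurable
  have e : ∀ x : ℝ≥0∞, (x ^ (1 / 2 : ℝ)) ^ (2 : ℝ) = x := fun x => by
    rw [← ENNReal.rpow_mul]; norm_num
  simp only [Pi.mul_apply, e] at h1
  refine h1.trans (mul_le_mul' ?_ ?_)
  · exact ENNReal.rpow_le_rpow (lintegral_shift_smul_le hY ht Fp) (by norm_num)
  · exact ENNReal.rpow_le_rpow
      (lintegral_shift_smul_le hY (by rwa [abs_neg]) Fm) (by norm_num)

/-- Quantitative form. `δ`, `r` as in `det_lower`. -/
theorem two_sided_quant {δ r : ℝ}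
    (hr : ∀ M : Matrix V V ℝ,
    (∀ u v, |M u v| ≤ r) → 0 ≤ 1 - (1 + δ) / 2 * hs M ∧
      (1 - (1 + δ) / 2 * hs M) ^ 2 ≤ (1 + M).det * (1 + (-1 : ℝ) • M).det)
    {Y : (V → ℝ) → (V → ℝ)} {c : ℝ≥0} (hY : LipschitzWith c Y) {t : ℝ}
    (ht : |t| * c < 1) (htr : |t| * c ≤ r) {Fp Fm F0 : (V → ℝ) → ℝ≥0∞} (hFp : Measurable Fp)
    (hFm : Measurable Fm) (h0 : ∀ h, F0 h ^ 2 ≤ Fp (h + t • Y h) * Fm (h + (-t) • Y h)) :
    ∫⁻ h, ENNReal.ofReal (1 - (1 + δ) / 2 * (t ^ 2 * en Y h)) * F0 h ≤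
      (∫⁻ h, Fp h) ^ (1 / 2 : ℝ) * (∫⁻ h, Fm h) ^ (1 / 2 : ℝ) := by
  refine le_trans (lintegral_mono fun h => ?_) (two_sided_lintegral hY ht hFp hFm)
  have h1 : ∀ u v, |(t • jac Y h) u v| ≤ r := by
    intro u v
    rw [Matrix.smul_apply, smul_eq_mul, abs_mul]
    exact (mul_le_mul_of_nonneg_left (abs_jac_le hY h u v) (abs_nonneg _)).trans htr
  obtain ⟨h2, h3⟩ := hr _ h1
  rw [hs_smul, ← en_eq_hs] at h2 h3
  set a := 1 - (1 + δ) / 2 * (t ^ 2 * en Y h)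
  set p := (1 + t • jac Y h).det
  have eq : (1 + (-1 : ℝ) • (t • jac Y h)).det = (1 + (-t) • jac Y h).det := by
    rw [smul_smul]; ring_nf
  rw [eq] at h3
  set q := (1 + (-t) • jac Y h).det
  have h4 : a ^ 2 ≤ |p| * |q| := by rw [← abs_mul]; exact h3.trans (le_abs_self _)
  rw [← ENNReal.mul_rpow_of_nonneg _ _ (by norm_num : (0 : ℝ) ≤ 1 / 2)]
  have h5 : (ENNReal.ofReal a * F0 h) ^ 2 ≤
      ENNReal.ofReal |p| * Fp (h + t • Y h) * (ENNReal.ofReal |q| * Fm (h + (-t) • Y h)) := by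
    calc (ENNReal.ofReal a * F0 h) ^ 2 = ENNReal.ofReal (a ^ 2) * F0 h ^ 2 := by
          rw [mul_pow, ENNReal.ofReal_pow h2]
      _ ≤ ENNReal.ofReal (|p| * |q|) * (Fp (h + t • Y h) * Fm (h + (-t) • Y h)) :=
          mul_le_mul' (ENNReal.ofReal_le_ofReal h4) (h0 h)
      _ = _ := by rw [ENNReal.ofReal_mul (abs_nonneg _)]; ring
  calc ENNReal.ofReal a * F0 h = ((ENNReal.ofReal a * F0 h) ^ 2) ^ (1 / 2 : ℝ) := by
        rw [← ENNReal.rpow_natCast, ← ENNReal.rpow_mul]; norm_num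
    _ ≤ _ := ENNReal.rpow_le_rpow h5 (by norm_num)

end TwoSided

section Block

variable {S I : Type*} [Fintype S] [DecidableEq S] [Fintype I] [DecidableEq I]

/-- Block triangular two-sided shift inequality. `W` depends on the skeleton variable `ζ` only,
`X ζ` is Lipschitz for every frozen `ζ`; nothing is asked of `ζ ↦ X ζ`. -/
theorem block_two_sided {δ r : ℝ}
    (hrS : ∀ M : Matrix S S ℝ,
    (∀ u v, |M u v| ≤ r) → 0 ≤ 1 - (1 + δ) / 2 * hs M ∧
      (1 - (1 + δ) / 2 * hs M) ^ 2 ≤ (1 + M).det * (1 + (-1 : ℝ) • M).det)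
    (hrI : ∀ M : Matrix I I ℝ,
    (∀ u v, |M u v| ≤ r) → 0 ≤ 1 - (1 + δ) / 2 * hs M ∧
      (1 - (1 + δ) / 2 * hs M) ^ 2 ≤ (1 + M).det * (1 + (-1 : ℝ) • M).det)
    {W : (S → ℝ) → (S → ℝ)} {X : (S → ℝ) → (I → ℝ) → (I → ℝ)} {c : ℝ≥0}
    (hW : LipschitzWith c W) (hX : ∀ ζ, LipschitzWith c (X ζ)) {t : ℝ}
    (ht : |t| * c < 1) (htr : |t| * c ≤ r) {Fp Fm F0 : (S → ℝ) → (I → ℝ) → ℝ≥0∞}
    (hFp : Measurable (Function.uncurry Fp)) (hFm : Measurable (Function.uncurry Fm))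
    (h0 : ∀ ζ x, F0 ζ x ^ 2 ≤ Fp (ζ + t • W ζ) (x + t • X ζ x) *
      Fm (ζ + (-t) • W ζ) (x + (-t) • X ζ x)) :
    ∫⁻ ζ, ENNReal.ofReal (1 - (1 + δ) / 2 * (t ^ 2 * en W ζ)) *
      ∫⁻ x, ENNReal.ofReal (1 - (1 + δ) / 2 * (t ^ 2 * en (X ζ) x)) * F0 ζ x ≤
      (∫⁻ ζ, ∫⁻ x, Fp ζ x) ^ (1 / 2 : ℝ) * (∫⁻ ζ, ∫⁻ x, Fm ζ x) ^ (1 / 2 : ℝ) := by
  refine two_sided_quant hrS hW ht htr (Fp := fun ζ => ∫⁻ x, Fp ζ x)
    (Fm := fun ζ => ∫⁻ x, Fm ζ x) (hFp.lintegral_prod_right') (hFm.lintegral_prod_right') ?_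
  intro ζ
  have h1 := two_sided_quant hrI (hX ζ) ht htr (Fp := Fp (ζ + t • W ζ))
    (Fm := Fm (ζ + (-t) • W ζ)) (F0 := F0 ζ) (hFp.comp measurable_prodMk_left)
    (hFm.comp measurable_prodMk_left) (h0 ζ)
  calc _ ≤ ((∫⁻ x, Fp (ζ + t • W ζ) x) ^ (1 / 2 : ℝ) *
        (∫⁻ x, Fm (ζ + (-t) • W ζ) x) ^ (1 / 2 : ℝ)) ^ 2 := by
        gcongr
    _ = _ := by
        rw [mul_pow, ← ENNReal.rpow_natCast, ← ENNReal.rpow_natCast, ← ENNReal.rpow_mul,
          ← ENNReal.rpow_mul]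
        norm_num

end Block

end

end Crest.Agent.R144.MW121
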