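import Mathlib
import Crest.Agent.R144.MWB_121

/-!
# R144, shift block, part 3 (helper121): Cramer-Rao lower bound for general weights

* `cramer_rao_weight`: weight `w ≥ 0` with a two-sided comparison along the shift.
* `block_cramer_rao`: block triangular version (skeleton variable + frozen interior fields).
-/

set_option autoImplicit false

open MeasureTheory Filter Set
open scoped ENNReal NNReal Topology

namespace Crest.Agent.R144.MW121

noncomputable section

section Aux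

lemma cosh_le_quad (x : ℝ) : Real.cosh x ≤ 1 + x ^ 2 / 2 * Real.cosh x := by
  -- cosh x - 1 = 2 sinh² (x/2) ≤ x²/2 cosh² (x/2)... use the series-free bound
  have h1 : Real.cosh x = 1 + 2 * Real.sinh (x / 2) ^ 2 := by
    have := Real.cosh_two_mul (x / 2)
    rw [show 2 * (x / 2) = x by ring] at this
    rw [this, Real.cosh_sq]; ring
  have h2 : Real.sinh (x / 2) ^ 2 ≤ (x / 2) ^ 2 * Real.cosh (x / 2) ^ 2 := by
    have h3 : |Real.sinh (x / 2)| ≤ |x / 2| * Real.cosh (x / 2) := by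
      -- mean value: sinh y = ∫ cosh ≤ y cosh y
      rcases le_total 0 (x / 2) with h | h
      · rw [abs_of_nonneg (Real.sinh_nonneg_iff.2 h), abs_of_nonneg h]
        have : Real.sinh (x / 2) - Real.sinh 0 ≤ Real.cosh (x / 2) * (x / 2 - 0) := by
          refine Convex.image_sub_le_mul_sub_of_deriv_le (convex_Icc 0 (x / 2))
            Real.continuous_sinh.continuousOn Real.differentiable_sinh.differentiableOn ?_ 0
            (left_mem_Icc.2 h) (x / 2) (right_mem_Icc.2 h) h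
          intro y hy
          rw [interior_Icc] at hy
          rw [Real.deriv_sinh, Real.cosh_le_cosh, abs_of_pos hy.1, abs_of_nonneg h]
          exact hy.2.le
        rw [Real.sinh_zero] at this
        linarith
      · rw [abs_of_nonpos (Real.sinh_nonpos_iff.2 h), abs_of_nonpos h]
        have h' : 0 ≤ -(x / 2) := by linarith
        have : Real.sinh (-(x / 2)) - Real.sinh 0 ≤
            Real.cosh (-(x / 2)) * (-(x / 2) - 0) := by
          refine Convex.image_sub_le_mul_sub_of_deriv_le (convex_Icc 0 (-(x / 2)))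
            Real.continuous_sinh.continuousOn Real.differentiable_sinh.differentiableOn ?_ 0
            (left_mem_Icc.2 h') (-(x / 2)) (right_mem_Icc.2 h') h'
          intro y hy
          rw [interior_Icc] at hy
          rw [Real.deriv_sinh, Real.cosh_le_cosh, abs_of_pos hy.1, abs_of_nonneg h']
          exact hy.2.le
        rw [Real.sinh_zero, Real.sinh_neg, Real.cosh_neg] at this
        linarith
    calc Real.sinh (x / 2) ^ 2 = |Real.sinh (x / 2)| ^ 2 := (sq_abs _).symm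
      _ ≤ (|x / 2| * Real.cosh (x / 2)) ^ 2 := pow_le_pow_left₀ (abs_nonneg _) h3 2
      _ = (x / 2) ^ 2 * Real.cosh (x / 2) ^ 2 := by rw [mul_pow, sq_abs]
  have h4 : Real.cosh (x / 2) ^ 2 = (Real.cosh x + 1) / 2 := by
    have := Real.cosh_two_mul (x / 2)
    rw [show 2 * (x / 2) = x by ring] at this
    have h5 := Real.cosh_sq (x / 2)
    linarith
  have h6 := Real.one_le_cosh x
  rw [h4] at h2
  nlinarith [sq_nonneg x]

lemma two_cosh (x : ℝ) : Real.exp x + Real.exp (-x) = 2 * Real.cosh x := by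
  rw [Real.cosh_eq]; ring

variable {α : Type*} [MeasurableSpace α] {μ : Measure α}

/-- `ofReal (∫ f) ≤ ∫⁻ ofReal f`. -/
lemma ofReal_integral_le {f : α → ℝ} (hf : Integrable f μ) :
    ENNReal.ofReal (∫ a, f a ∂μ) ≤ ∫⁻ a, ENNReal.ofReal (f a) ∂μ := by
  have h1 : ∫ a, f a ∂μ ≤ ∫ a, max (f a) 0 ∂μ :=
    integral_mono hf hf.pos_part fun a => le_max_left _ _
  have h2 : ENNReal.ofReal (∫ a, max (f a) 0 ∂μ) = ∫⁻ a, ENNReal.ofReal (max (f a) 0) ∂μ :=
    ofReal_integral_eq_lintegral_ofReal hf.pos_part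
      (Eventually.of_forall fun a => le_max_right _ _)
  refine (ENNReal.ofReal_le_ofReal h1).trans (le_of_eq ?_)
  rw [h2]
  refine lintegral_congr fun a => ?_
  rcases le_total (f a) 0 with h | h
  · rw [max_eq_right h, ENNReal.ofReal_of_nonpos h]; simp
  · rw [max_eq_left h]

lemma sqrt_mul_le_half {a b : ℝ} (ha : 0 ≤ a) (hb : 0 ≤ b) :
    (ENNReal.ofReal a) ^ (1 / 2 : ℝ) * (ENNReal.ofReal b) ^ (1 / 2 : ℝ) ≤
      ENNReal.ofReal ((a + b) / 2) := by
  rw [← ENNReal.mul_rpow_of_nonneg _ _ (by norm_num : (0 : ℝ) ≤ 1 / 2),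
    ← ENNReal.ofReal_mul ha]
  have h1 : a * b ≤ ((a + b) / 2) ^ 2 := by nlinarith [sq_nonneg (a - b)]
  calc (ENNReal.ofReal (a * b)) ^ (1 / 2 : ℝ) ≤
      (ENNReal.ofReal (((a + b) / 2) ^ 2)) ^ (1 / 2 : ℝ) :=
        ENNReal.rpow_le_rpow (ENNReal.ofReal_le_ofReal h1) (by norm_num)
    _ = ENNReal.ofReal ((a + b) / 2) := by
        rw [ENNReal.ofReal_pow (by positivity), ← ENNReal.rpow_natCast, ← ENNReal.rpow_mul]
        norm_num

/-- Upper bound of the right hand side of the two-sided inequality. -/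
lemma rhs_bound {w G : α → ℝ} (hw : Integrable w μ) (hw0 : ∀ a, 0 ≤ w a)
    (hG : AEStronglyMeasurable G μ) {M : ℝ} (hGM : ∀ a, w a ≠ 0 → |G a| ≤ M) (t : ℝ) :
    (∫⁻ a, ENNReal.ofReal (w a * Real.exp (t * G a)) ∂μ) ^ (1 / 2 : ℝ) *
      (∫⁻ a, ENNReal.ofReal (w a * Real.exp (-t * G a)) ∂μ) ^ (1 / 2 : ℝ) ≤
      ENNReal.ofReal (∫ a, w a ∂μ + t ^ 2 * (Real.cosh (t * M) / 2 * ∫ a, w a * G a ^ 2 ∂μ)) := by
  have hb : ∀ s : ℝ, ∀ a, |w a * Real.exp (s * G a)| ≤ Real.exp (|s| * |M|) * |w a| := by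
    intro s a
    rw [abs_mul, abs_of_pos (Real.exp_pos _), mul_comm]
    by_cases h : w a = 0
    · rw [h]; simp
    · refine mul_le_mul_of_nonneg_right (Real.exp_le_exp.2 ?_) (abs_nonneg _)
      calc s * G a ≤ |s * G a| := le_abs_self _
        _ = |s| * |G a| := abs_mul _ _
        _ ≤ |s| * |M| := mul_le_mul_of_nonneg_left ((hGM a h).trans (le_abs_self _))
            (abs_nonneg _)
  have hi : ∀ s : ℝ, Integrable (fun a => w a * Real.exp (s * G a)) μ := by
    intro s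
    refine (hw.abs.const_mul (Real.exp (|s| * |M|))).mono' ?_ (Eventually.of_forall fun a => by
      rw [Real.norm_eq_abs]; exact hb s a)
    exact hw.aestronglyMeasurable.mul (Real.continuous_exp.comp_aestronglyMeasurable
      (hG.const_mul s))
  have hn : ∀ s : ℝ, 0 ≤ᵐ[μ] fun a => w a * Real.exp (s * G a) := fun s =>
    Eventually.of_forall fun a => mul_nonneg (hw0 a) (Real.exp_pos _).le
  have hi2 : Integrable (fun a => w a * G a ^ 2) μ := by
    refine (hw.abs.const_mul (M ^ 2)).mono' (hw.aestronglyMeasurable.mul (hG.pow 2))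
      (Eventually.of_forall fun a => ?_)
    rw [Real.norm_eq_abs, abs_mul, mul_comm]
    by_cases h : w a = 0
    · rw [h]; simp
    · refine mul_le_mul_of_nonneg_right ?_ (abs_nonneg _)
      rw [abs_pow]
      exact pow_le_pow_left₀ (abs_nonneg _) (hGM a h) 2
  rw [← ofReal_integral_eq_lintegral_ofReal (hi t) (hn t),
    ← ofReal_integral_eq_lintegral_ofReal (hi (-t)) (hn (-t))]
  refine (sqrt_mul_le_half (integral_nonneg_of_ae (hn t)) (integral_nonneg_of_ae (hn (-t)))).trans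
    (ENNReal.ofReal_le_ofReal ?_)
  rw [← integral_add (hi t) (hi (-t))]
  have h1 : ∫ a, (w a * Real.exp (t * G a) + w a * Real.exp (-t * G a)) ∂μ ≤
      ∫ a, (2 * w a + t ^ 2 * Real.cosh (t * M) * (w a * G a ^ 2)) ∂μ := by
    refine integral_mono ((hi t).add (hi (-t)))
      ((hw.const_mul 2).add (hi2.const_mul _)) fun a => ?_
    by_cases h : w a = 0
    · simp [h]
    · have h2 := cosh_le_quad (t * G a)
      have h3 : Real.cosh (t * G a) ≤ Real.cosh (t * M) := by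
        rw [Real.cosh_le_cosh, abs_mul, abs_mul]
        exact mul_le_mul_of_nonneg_left ((hGM a h).trans (le_abs_self _)) (abs_nonneg _)
      have h4 : Real.exp (t * G a) + Real.exp (-t * G a) = 2 * Real.cosh (t * G a) := by
        rw [← two_cosh]; congr 2; ring
      have h5 : (t * G a) ^ 2 / 2 * Real.cosh (t * G a) ≤
          (t * G a) ^ 2 / 2 * Real.cosh (t * M) := mul_le_mul_of_nonneg_left h3 (by positivity)
      have h6 : 2 * Real.cosh (t * G a) ≤ 2 + t ^ 2 * Real.cosh (t * M) * G a ^ 2 := by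
        have : (t * G a) ^ 2 / 2 * Real.cosh (t * M) * 2 =
          t ^ 2 * Real.cosh (t * M) * G a ^ 2 := by ring
        linarith
      calc w a * Real.exp (t * G a) + w a * Real.exp (-t * G a) =
          w a * (2 * Real.cosh (t * G a)) := by rw [← h4]; ring
        _ ≤ w a * (2 + t ^ 2 * Real.cosh (t * M) * G a ^ 2) :=
            mul_le_mul_of_nonneg_left h6 (hw0 a)
        _ = _ := by ring
  rw [integral_add (hw.const_mul 2) (hi2.const_mul _), integral_const_mul,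
    integral_const_mul] at h1
  linarith

/-- The limiting argument. -/
lemma limit_arg {γ E Vr Mg M : ℝ}
    (h : ∀ δ : ℝ, 0 < δ → ∀ᶠ t : ℝ in 𝓝[>] 0,
      γ - (1 + δ) / 2 * (1 + t ^ 2 * Mg) * E ≤ Real.cosh (t * M) / 2 * Vr) :
    2 * γ - E ≤ Vr := by
  have h1 : ∀ δ : ℝ, 0 < δ → γ - (1 + δ) / 2 * E ≤ 1 / 2 * Vr := by
    intro δ hδ
    have hl : Tendsto (fun t : ℝ => γ - (1 + δ) / 2 * (1 + t ^ 2 * Mg) * E) (𝓝[>] 0)
        (𝓝 (γ - (1 + δ) / 2 * E)) := by
      have hc : Continuous (fun t : ℝ => γ - (1 + δ) / 2 * (1 + t ^ 2 * Mg) * E) := by fun_prop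
      have := hc.tendsto 0
      simp only [ne_eq, OfNat.ofNat_ne_zero, not_false_eq_true, zero_pow, zero_mul, add_zero,
        mul_one] at this
      exact this.mono_left nhdsWithin_le_nhds
    have hr : Tendsto (fun t : ℝ => Real.cosh (t * M) / 2 * Vr) (𝓝[>] 0)
        (𝓝 (1 / 2 * Vr)) := by
      have hc : Continuous (fun t : ℝ => Real.cosh (t * M) / 2 * Vr) := by
        have := Real.continuous_cosh
        fun_prop
      have := hc.tendsto 0
      simp only [zero_mul, Real.cosh_zero] at this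
      exact this.mono_left nhdsWithin_le_nhds
    exact le_of_tendsto_of_tendsto hl hr (h δ hδ)
  have h2 : Tendsto (fun δ : ℝ => γ - (1 + δ) / 2 * E) (𝓝[>] 0) (𝓝 (γ - 1 / 2 * E)) := by
    have hc : Continuous (fun δ : ℝ => γ - (1 + δ) / 2 * E) := by fun_prop
    have := hc.tendsto 0
    simp only [add_zero] at this
    exact this.mono_left nhdsWithin_le_nhds
  have h3 : γ - 1 / 2 * E ≤ 1 / 2 * Vr := by
    refine le_of_tendsto h2 ?_
    filter_upwards [self_mem_nhdsWithin] with δ hδ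
    exact h1 δ hδ
  linarith

end Aux

section Weight

lemma sq_ofReal_le {x a b ga gb t : ℝ} (ha : 0 ≤ a) (hb : 0 ≤ b)
    (h : x ≤ Real.sqrt (a * b) * Real.exp (t / 2 * (ga - gb))) :
    ENNReal.ofReal x ^ 2 ≤ ENNReal.ofReal (a * Real.exp (t * ga)) *
      ENNReal.ofReal (b * Real.exp (-t * gb)) := by
  have h1 : (0 : ℝ) ≤ a * Real.exp (t * ga) := mul_nonneg ha (Real.exp_pos _).le
  rw [← ENNReal.ofReal_mul h1]
  set y := Real.sqrt (a * b) * Real.exp (t / 2 * (ga - gb)) with hy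
  have hy0 : 0 ≤ y := mul_nonneg (Real.sqrt_nonneg _) (Real.exp_pos _).le
  calc ENNReal.ofReal x ^ 2 ≤ ENNReal.ofReal y ^ 2 := by
        gcongr
    _ = ENNReal.ofReal (y ^ 2) := by rw [ENNReal.ofReal_pow hy0]
    _ = _ := by
        congr 1
        rw [hy, mul_pow, Real.sq_sqrt (mul_nonneg ha hb), ← Real.exp_nat_mul]
        have : (((2 : ℕ) : ℝ) * (t / 2 * (ga - gb))) = t * ga + -t * gb := by push_cast; ring
        rw [this, Real.exp_add]
        ring

variable {V : Type*} [Fintype V] [DecidableEq V]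

/-- Cramer-Rao lower bound for a general weight. -/
theorem cramer_rao_weight {Y : (V → ℝ) → (V → ℝ)} {c : ℝ≥0} (hY : LipschitzWith c Y)
    {w G : (V → ℝ) → ℝ} (hwm : Measurable w) (hw0 : ∀ h, 0 ≤ w h) (hw : Integrable w)
    (hG : Measurable G) {M : ℝ} (hGM : ∀ h, w h ≠ 0 → |G h| ≤ M)
    {g : ℝ → (V → ℝ) → ℝ} {Mg : ℝ} (hgM : ∀ t h, g t h ≤ Mg)
    (hgi : ∀ t, Integrable (fun h => w h * g t h)) {γ : ℝ}
    (hγ : ∀ᶠ t : ℝ in 𝓝[>] 0, γ ≤ ∫ h, w h * g t h)
    (hcmp : ∀ᶠ t : ℝ in 𝓝[>] 0, ∀ h, w h * (1 + t ^ 2 * g t h) ≤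
      Real.sqrt (w (h + t • Y h) * w (h + (-t) • Y h)) *
        Real.exp (t / 2 * (G (h + t • Y h) - G (h + (-t) • Y h)))) :
    2 * γ - ∫ h, w h * en Y h ≤ ∫ h, w h * G h ^ 2 := by
  refine limit_arg (Mg := Mg) (M := M) fun δ hδ => ?_
  obtain ⟨r, hr0, hr⟩ := det_lower (V := V) δ hδ
  have hsmall : ∀ᶠ t : ℝ in 𝓝[>] 0, |t| * c < 1 ∧ |t| * c ≤ r := by
    have hc : Continuous fun t : ℝ => |t| * (c : ℝ) := by fun_prop
    have h0 : Tendsto (fun t : ℝ => |t| * (c : ℝ)) (𝓝[>] 0) (𝓝 0) := by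
      have := hc.tendsto 0
      simp only [abs_zero, zero_mul] at this
      exact this.mono_left nhdsWithin_le_nhds
    filter_upwards [h0.eventually (gt_mem_nhds (lt_min one_pos hr0))] with t ht
    exact ⟨lt_of_lt_of_le ht (min_le_left _ _), (lt_of_lt_of_le ht (min_le_right _ _)).le⟩
  filter_upwards [hγ, hcmp, hsmall, self_mem_nhdsWithin] with t h1 h2 h3 ht0
  have ht0' : 0 < t := ht0
  have hYm : Measurable Y := hY.continuous.measurable
  have key := two_sided_quant hr hY h3.1 h3.2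
    (Fp := fun h => ENNReal.ofReal (w h * Real.exp (t * G h)))
    (Fm := fun h => ENNReal.ofReal (w h * Real.exp (-t * G h)))
    (F0 := fun h => ENNReal.ofReal (w h * (1 + t ^ 2 * g t h)))
    (by fun_prop) (by fun_prop) (fun h => sq_ofReal_le (hw0 _) (hw0 _) (h2 h))
  have key2 := key.trans (rhs_bound hw hw0 hG.aestronglyMeasurable hGM t)
  -- lower bound of the left hand side
  have hen : Integrable (fun h => w h * en Y h) := by
    refine (hw.const_mul (Fintype.card V * (Fintype.card V * (c : ℝ) ^ 2))).mono'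
      (hwm.mul (measurable_en Y)).aestronglyMeasurable (Eventually.of_forall fun h => ?_)
    rw [Real.norm_eq_abs, abs_mul, abs_of_nonneg (hw0 h), abs_of_nonneg (en_nonneg Y h), mul_comm]
    exact mul_le_mul_of_nonneg_right (en_le hY h) (hw0 h)
  set κ := (1 + δ) / 2 * (1 + t ^ 2 * Mg) with hκ
  have hint0 : Integrable (fun h => t ^ 2 * (w h * g t h) - t ^ 2 * κ * (w h * en Y h)) :=
    ((hgi t).const_mul _).sub (hen.const_mul _)
  have hint : Integrable (fun h => w h + (t ^ 2 * (w h * g t h) - t ^ 2 * κ * (w h * en Y h))) :=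
    hw.add hint0
  have hlow : ENNReal.ofReal (∫ h, (w h + (t ^ 2 * (w h * g t h) -
      t ^ 2 * κ * (w h * en Y h)))) ≤
      ∫⁻ h, ENNReal.ofReal (1 - (1 + δ) / 2 * (t ^ 2 * en Y h)) *
        ENNReal.ofReal (w h * (1 + t ^ 2 * g t h)) := by
    refine (ofReal_integral_le hint).trans (lintegral_mono fun h => ?_)
    have h1 : ∀ u v, |(t • jac Y h) u v| ≤ r := by
      intro u v
      rw [Matrix.smul_apply, smul_eq_mul, abs_mul]
      exact (mul_le_mul_of_nonneg_left (abs_jac_le hY h u v) (abs_nonneg _)).trans h3.2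
    obtain ⟨h4, -⟩ := hr _ h1
    rw [hs_smul, ← en_eq_hs] at h4
    rw [← ENNReal.ofReal_mul h4]
    refine ENNReal.ofReal_le_ofReal ?_
    have h5 : (1 + δ) / 2 * (t ^ 2 * en Y h) * (w h * (1 + t ^ 2 * g t h)) ≤
        (1 + δ) / 2 * (t ^ 2 * en Y h) * (w h * (1 + t ^ 2 * Mg)) := by
      have h6 := en_nonneg Y h
      have h7 : w h * (1 + t ^ 2 * g t h) ≤ w h * (1 + t ^ 2 * Mg) :=
        mul_le_mul_of_nonneg_left (by nlinarith [hgM t h, sq_nonneg t]) (hw0 h)
      exact mul_le_mul_of_nonneg_left h7 (by positivity)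
    rw [hκ]
    nlinarith
  have key3 := hlow.trans key2
  have hrhs0 : 0 ≤ (∫ a, w a) + t ^ 2 * (Real.cosh (t * M) / 2 * ∫ a, w a * G a ^ 2) := by
    have h4 : 0 ≤ ∫ a, w a := integral_nonneg hw0
    have h5 : 0 ≤ ∫ a, w a * G a ^ 2 :=
      integral_nonneg fun a => mul_nonneg (hw0 a) (sq_nonneg _)
    have h6 := Real.cosh_pos (t * M)
    positivity
  rw [ENNReal.ofReal_le_ofReal_iff hrhs0] at key3
  rw [integral_add hw hint0, integral_sub ((hgi t).const_mul _) (hen.const_mul _),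
    integral_const_mul, integral_const_mul] at key3
  have h8 : t ^ 2 * (γ - κ * ∫ h, w h * en Y h) ≤
      t ^ 2 * (Real.cosh (t * M) / 2 * ∫ a, w a * G a ^ 2) := by
    have : t ^ 2 * γ ≤ t ^ 2 * ∫ h, w h * g t h := mul_le_mul_of_nonneg_left h1 (sq_nonneg t)
    linarith
  exact le_of_mul_le_mul_left h8 (by positivity)

/-- Cramer-Rao for the uniform law on `K` with an exponential tilt `l` and a linear observable. -/
theorem cramer_rao_tilt {Y : (V → ℝ) → (V → ℝ)} {c : ℝ≥0} {K : Set (V → ℝ)} {t0 : ℝ}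
    (hT : Tan K Y c t0) (hK : MeasurableSet K) (hKb : Bornology.IsBounded K)
    (l L : (V → ℝ) →L[ℝ] ℝ) (m : ℝ) :
    2 * (∫ h in K, Real.exp (l h) * L (Y h)) - (∫ h in K, Real.exp (l h) * en Y h) ≤
      ∫ h in K, Real.exp (l h) * (L h - m) ^ 2 := by
  obtain ⟨B, hB0, hB⟩ := exists_lip_bound hKb hT.lip
  obtain ⟨R, hR0, hR⟩ := exists_lip_bound hKb (LipschitzWith.id (α := V → ℝ))
  have hYm : Measurable Y := hT.lip.continuous.measurable
  have hexp : ∀ h ∈ K, |Real.exp (l h)| ≤ Real.exp (‖l‖ * R) := by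
    intro h hh
    rw [abs_of_pos (Real.exp_pos _)]
    refine Real.exp_le_exp.2 ?_
    calc l h ≤ ‖l h‖ := le_abs_self _
      _ ≤ ‖l‖ * ‖h‖ := l.le_opNorm h
      _ ≤ ‖l‖ * R := mul_le_mul_of_nonneg_left (hR h hh) (norm_nonneg _)
  set w : (V → ℝ) → ℝ := K.indicator fun h => Real.exp (l h) with hwdef
  have hlm : Measurable fun h => Real.exp (l h) := Real.measurable_exp.comp l.continuous.measurable
  have hwm : Measurable w := hlm.indicator hK
  have hw0 : ∀ h, 0 ≤ w h := fun h => indicator_nonneg (fun _ _ => (Real.exp_pos _).le) h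
  have hwK : ∀ h ∈ K, w h = Real.exp (l h) := fun h hh => indicator_of_mem hh _
  have hwK' : ∀ h, h ∉ K → w h = 0 := fun h hh => indicator_of_notMem hh _
  have hw : Integrable w := by
    rw [hwdef, integrable_indicator_iff hK]
    exact integrableOn_of_bound hK hKb hlm.aestronglyMeasurable hexp
  have hconv : ∀ f : (V → ℝ) → ℝ, ∫ h, w h * f h = ∫ h in K, Real.exp (l h) * f h := by
    intro f
    rw [← integral_indicator hK]
    refine integral_congr_ae (Eventually.of_forall fun h => ?_)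
    by_cases hh : h ∈ K
    · simp only [hwK h hh, indicator_of_mem hh]
    · simp only [hwK' h hh, indicator_of_notMem hh, zero_mul]
  set gg : (V → ℝ) → ℝ := K.indicator fun h => L (Y h) with hgg
  have hgm : Measurable gg := (L.continuous.measurable.comp hYm).indicator hK
  have hgb : ∀ h, |gg h| ≤ ‖L‖ * B := by
    intro h
    by_cases hh : h ∈ K
    · rw [hgg, indicator_of_mem hh]
      calc |L (Y h)| = ‖L (Y h)‖ := rfl
        _ ≤ ‖L‖ * ‖Y h‖ := L.le_opNorm _
        _ ≤ ‖L‖ * B := mul_le_mul_of_nonneg_left (hB h hh) (norm_nonneg _)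
    · rw [hgg, indicator_of_notMem hh, abs_zero]; positivity
  have h1 := cramer_rao_weight hT.lip hwm hw0 hw (G := fun h => L h - m)
    (by fun_prop) (M := ‖L‖ * R + |m|) (fun h hh => ?_) (g := fun _ => gg) (Mg := ‖L‖ * B)
    (fun _ h => (le_abs_self _).trans (hgb h)) (fun _ => ?_)
    (γ := ∫ h, w h * gg h) (Eventually.of_forall fun t => le_rfl) ?_
  · have e1 : ∫ h, w h * gg h = ∫ h in K, Real.exp (l h) * L (Y h) := by
      rw [hconv]
      refine setIntegral_congr_fun hK fun h hh => ?_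
      simp only [hgg, indicator_of_mem hh]
    rw [e1, hconv, hconv] at h1
    exact h1
  · have hh' : h ∈ K := by
      by_contra hc
      exact hh (hwK' h hc)
    calc |L h - m| ≤ |L h| + |m| := abs_sub _ _
      _ ≤ ‖L‖ * R + |m| := by
        have : |L h| ≤ ‖L‖ * R := by
          calc |L h| = ‖L h‖ := rfl
            _ ≤ ‖L‖ * ‖h‖ := L.le_opNorm _
            _ ≤ ‖L‖ * R := mul_le_mul_of_nonneg_left (hR h hh') (norm_nonneg _)
        linarith
  · refine (hw.const_mul (‖L‖ * B)).mono' (hwm.mul hgm).aestronglyMeasurable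
      (Eventually.of_forall fun h => ?_)
    rw [Real.norm_eq_abs, abs_mul, abs_of_nonneg (hw0 h), mul_comm]
    exact mul_le_mul_of_nonneg_right (hgb h) (hw0 h)
  · have hev : ∀ᶠ t : ℝ in 𝓝[>] 0, |t| ≤ t0 := by
      refine nhdsWithin_le_nhds ?_
      filter_upwards [Metric.closedBall_mem_nhds (0 : ℝ) hT.pos] with t ht
      simpa [Real.dist_eq] using ht
    filter_upwards [hev, self_mem_nhdsWithin] with t ht ht0 h
    have ht0' : 0 < t := ht0
    by_cases hh : h ∈ K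
    · rw [hwK h hh, hwK _ (hT.inv h hh t ht), hwK _ (hT.inv h hh (-t) (by rwa [abs_neg]))]
      have e1 : Real.sqrt (Real.exp (l (h + t • Y h)) * Real.exp (l (h + (-t) • Y h))) =
          Real.exp (l h) := by
        rw [← Real.exp_add]
        have : l (h + t • Y h) + l (h + (-t) • Y h) = l h + l h := by
          simp only [map_add, map_smul, smul_eq_mul]; ring
        rw [this, Real.exp_add, Real.sqrt_mul_self (Real.exp_pos _).le]
      rw [e1]
      refine mul_le_mul_of_nonneg_left ?_ (Real.exp_pos _).le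
      have e2 : t / 2 * (L (h + t • Y h) - m - (L (h + (-t) • Y h) - m)) = t ^ 2 * gg h := by
        simp only [hgg, indicator_of_mem hh, map_add, map_smul, smul_eq_mul]; ring
      rw [e2]
      have := Real.add_one_le_exp (t ^ 2 * gg h)
      linarith
    · rw [hwK' h hh, zero_mul]
      positivity

end Weight

section BlockCR

variable {S I : Type*} [Fintype S] [DecidableEq S] [Fintype I] [DecidableEq I]

/-- Block triangular Cramer-Rao lower bound: the skeleton shift `W` depends on the skeleton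
variable only, the interior fields `X ζ` enter only through their frozen energy `e ζ`. -/
theorem block_cramer_rao {W : (S → ℝ) → (S → ℝ)} {X : (S → ℝ) → (I → ℝ) → (I → ℝ)} {c : ℝ≥0}
    (hW : LipschitzWith c W) (hX : ∀ ζ, LipschitzWith c (X ζ))
    {w G : (S → ℝ) → (I → ℝ) → ℝ} (hwm : Measurable (Function.uncurry w))
    (hw0 : ∀ ζ x, 0 ≤ w ζ x) (hw : Integrable (Function.uncurry w))
    (hG : Measurable (Function.uncurry G)) {M : ℝ} (hGM : ∀ ζ x, w ζ x ≠ 0 → |G ζ x| ≤ M)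
    {g : ℝ → (S → ℝ) → (I → ℝ) → ℝ} {Mg : ℝ} (hMg : 0 ≤ Mg) (hgM : ∀ t ζ x, g t ζ x ≤ Mg)
    (hgi : ∀ t, Integrable (Function.uncurry fun ζ x => w ζ x * g t ζ x)) {γ : ℝ}
    (hγ : ∀ᶠ t : ℝ in 𝓝[>] 0, γ ≤ ∫ ζ, ∫ x, w ζ x * g t ζ x)
    {e : (S → ℝ) → ℝ} (he : Integrable e) (he0 : ∀ ζ, 0 ≤ e ζ)
    (hE : ∀ᵐ ζ : S → ℝ, ∫⁻ x, ENNReal.ofReal (w ζ x * en (X ζ) x) ≤ ENNReal.ofReal (e ζ))
    (hcmp : ∀ᶠ t : ℝ in 𝓝[>] 0, ∀ ζ x, w ζ x * (1 + t ^ 2 * g t ζ x) ≤
      Real.sqrt (w (ζ + t • W ζ) (x + t • X ζ x) * w (ζ + (-t) • W ζ) (x + (-t) • X ζ x)) *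
        Real.exp (t / 2 * (G (ζ + t • W ζ) (x + t • X ζ x) -
          G (ζ + (-t) • W ζ) (x + (-t) • X ζ x)))) :
    2 * γ - ((∫ ζ, (∫ x, w ζ x) * en W ζ) + ∫ ζ, e ζ) ≤ ∫ ζ, ∫ x, w ζ x * G ζ x ^ 2 := by
  refine limit_arg (Mg := Mg) (M := M) fun δ hδ => ?_
  obtain ⟨r1, hr10, hr1⟩ := det_lower (V := S) δ hδ
  obtain ⟨r2, hr20, hr2⟩ := det_lower (V := I) δ hδ
  set r := min r1 r2 with hrdef
  have hr0 : 0 < r := lt_min hr10 hr20
  have hrS : ∀ M : Matrix S S ℝ,
    (∀ u v, |M u v| ≤ r) → 0 ≤ 1 - (1 + δ) / 2 * hs M ∧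
      (1 - (1 + δ) / 2 * hs M) ^ 2 ≤ (1 + M).det * (1 + (-1 : ℝ) • M).det := fun M hM =>
    hr1 M fun u v => (hM u v).trans (min_le_left _ _)
  have hrI : ∀ M : Matrix I I ℝ,
    (∀ u v, |M u v| ≤ r) → 0 ≤ 1 - (1 + δ) / 2 * hs M ∧
      (1 - (1 + δ) / 2 * hs M) ^ 2 ≤ (1 + M).det * (1 + (-1 : ℝ) • M).det := fun M hM =>
    hr2 M fun u v => (hM u v).trans (min_le_right _ _)
  have hsmall : ∀ᶠ t : ℝ in 𝓝[>] 0, |t| * c < 1 ∧ |t| * c ≤ r := by
    have hc : Continuous fun t : ℝ => |t| * (c : ℝ) := by fun_prop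
    have h0 : Tendsto (fun t : ℝ => |t| * (c : ℝ)) (𝓝[>] 0) (𝓝 0) := by
      have := hc.tendsto 0
      simp only [abs_zero, zero_mul] at this
      exact this.mono_left nhdsWithin_le_nhds
    filter_upwards [h0.eventually (gt_mem_nhds (lt_min one_pos hr0))] with t ht
    exact ⟨lt_of_lt_of_le ht (min_le_left _ _), (lt_of_lt_of_le ht (min_le_right _ _)).le⟩
  filter_upwards [hγ, hcmp, hsmall, self_mem_nhdsWithin] with t h1 h2 h3 ht0
  have ht0' : 0 < t := ht0
  have hFp : Measurable (Function.uncurry fun ζ x =>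
      ENNReal.ofReal (w ζ x * Real.exp (t * G ζ x))) :=
    (hwm.mul (Real.measurable_exp.comp (hG.const_mul t))).ennreal_ofReal
  have hFm : Measurable (Function.uncurry fun ζ x =>
      ENNReal.ofReal (w ζ x * Real.exp (-t * G ζ x))) :=
    (hwm.mul (Real.measurable_exp.comp (hG.const_mul (-t)))).ennreal_ofReal
  have key := block_two_sided hrS hrI hW hX h3.1 h3.2
    (Fp := fun ζ x => ENNReal.ofReal (w ζ x * Real.exp (t * G ζ x)))
    (Fm := fun ζ x => ENNReal.ofReal (w ζ x * Real.exp (-t * G ζ x)))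
    (F0 := fun ζ x => ENNReal.ofReal (w ζ x * (1 + t ^ 2 * g t ζ x)))
    hFp hFm (fun ζ x => sq_ofReal_le (hw0 _ _) (hw0 _ _) (h2 ζ x))
  have e1 : ∀ F : (S → ℝ) → (I → ℝ) → ℝ≥0∞, Measurable (Function.uncurry F) →
      ∫⁻ ζ, ∫⁻ x, F ζ x = ∫⁻ z : (S → ℝ) × (I → ℝ), F z.1 z.2 := by
    intro F hF
    have := lintegral_prod (μ := (volume : Measure (S → ℝ))) (ν := (volume : Measure (I → ℝ)))
      (Function.uncurry F) hF.aemeasurable
    exact this.symm
  rw [e1 _ hFp, e1 _ hFm] at key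
  have hwi : Integrable (fun z : (S → ℝ) × (I → ℝ) => w z.1 z.2) := hw
  have hrhs := rhs_bound (μ := (volume : Measure ((S → ℝ) × (I → ℝ))))
    (w := fun z => w z.1 z.2) (G := fun z => G z.1 z.2) hwi (fun z => hw0 _ _)
    hG.aestronglyMeasurable (M := M) (fun z => hGM _ _) t
  have key2 := key.trans hrhs
  -- Fubini
  have hw' : Integrable (fun z : (S → ℝ) × (I → ℝ) => w z.1 z.2) (volume.prod volume) := hw
  have hwae : ∀ᵐ ζ : S → ℝ, Integrable fun x => w ζ x := hw'.prod_right_ae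
  have hg' : Integrable (fun z : (S → ℝ) × (I → ℝ) => w z.1 z.2 * g t z.1 z.2)
      (volume.prod volume) := hgi t
  have hgae : ∀ᵐ ζ : S → ℝ, Integrable fun x => w ζ x * g t ζ x := hg'.prod_right_ae
  have hG2 : Integrable (fun z : (S → ℝ) × (I → ℝ) => w z.1 z.2 * G z.1 z.2 ^ 2)
      (volume.prod volume) := by
    refine (hw'.abs.const_mul (M ^ 2)).mono'
      (hw'.aestronglyMeasurable.mul (hG.aestronglyMeasurable.pow 2))
      (Eventually.of_forall fun a => ?_)
    rw [Real.norm_eq_abs, abs_mul, mul_comm]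
    by_cases h : w a.1 a.2 = 0
    · rw [h]; simp
    · refine mul_le_mul_of_nonneg_right ?_ (abs_nonneg _)
      rw [abs_pow]
      exact pow_le_pow_left₀ (abs_nonneg _) (hGM _ _ h) 2
  have fub : ∀ f : (S → ℝ) × (I → ℝ) → ℝ, Integrable f (volume.prod volume) →
      ∫ z : (S → ℝ) × (I → ℝ), f z = ∫ ζ, ∫ x, f (ζ, x) := by
    intro f hf
    rw [Measure.volume_eq_prod, integral_prod _ hf]
  have eW : ∫ z : (S → ℝ) × (I → ℝ), w z.1 z.2 = ∫ ζ, ∫ x, w ζ x := fub _ hw'
  have eG : ∫ z : (S → ℝ) × (I → ℝ), w z.1 z.2 * G z.1 z.2 ^ 2 =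
      ∫ ζ, ∫ x, w ζ x * G ζ x ^ 2 := fub _ hG2
  have hΦ : Integrable fun ζ => ∫ x, w ζ x := hw'.integral_prod_left
  have hΓ : Integrable fun ζ => ∫ x, w ζ x * g t ζ x := hg'.integral_prod_left
  have hΦ0 : ∀ ζ, 0 ≤ ∫ x, w ζ x := fun ζ => integral_nonneg fun x => hw0 ζ x
  set κ := (1 + δ) / 2 * (1 + t ^ 2 * Mg) with hκ
  have hκ0 : 0 ≤ κ := by rw [hκ]; positivity
  have hMgκ : ∀ ζ x, (1 + δ) / 2 * (t ^ 2 * en (X ζ) x) * (w ζ x * (1 + t ^ 2 * g t ζ x)) ≤
      t ^ 2 * κ * (w ζ x * en (X ζ) x) := by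
    intro ζ x
    have h7 : w ζ x * (1 + t ^ 2 * g t ζ x) ≤ w ζ x * (1 + t ^ 2 * Mg) :=
      mul_le_mul_of_nonneg_left (by nlinarith [hgM t ζ x, sq_nonneg t]) (hw0 ζ x)
    have h6 := en_nonneg (X ζ) x
    have h8 := mul_le_mul_of_nonneg_left h7
      (show 0 ≤ (1 + δ) / 2 * (t ^ 2 * en (X ζ) x) by positivity)
    rw [hκ]
    linarith
  -- inner lower bound
  have hinner : ∀ᵐ ζ : S → ℝ, ENNReal.ofReal ((∫ x, w ζ x) + (t ^ 2 * (∫ x, w ζ x * g t ζ x) -
      t ^ 2 * κ * e ζ)) ≤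
      ∫⁻ x, ENNReal.ofReal (1 - (1 + δ) / 2 * (t ^ 2 * en (X ζ) x)) *
        ENNReal.ofReal (w ζ x * (1 + t ^ 2 * g t ζ x)) := by
    filter_upwards [hwae, hgae, hE] with ζ hz1 hz2 hz3
    have hen : Integrable (fun x => w ζ x * en (X ζ) x) := by
      refine (hz1.const_mul (Fintype.card I * (Fintype.card I * (c : ℝ) ^ 2))).mono'
        (hz1.aestronglyMeasurable.mul (measurable_en (X ζ)).aestronglyMeasurable)
        (Eventually.of_forall fun x => ?_)
      rw [Real.norm_eq_abs, abs_mul, abs_of_nonneg (hw0 ζ x),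
        abs_of_nonneg (en_nonneg (X ζ) x), mul_comm]
      exact mul_le_mul_of_nonneg_right (en_le (hX ζ) x) (hw0 ζ x)
    have hle : ∫ x, w ζ x * en (X ζ) x ≤ e ζ := by
      rw [← ofReal_integral_eq_lintegral_ofReal hen (Eventually.of_forall fun x =>
        mul_nonneg (hw0 ζ x) (en_nonneg _ x)), ENNReal.ofReal_le_ofReal_iff (he0 ζ)] at hz3
      exact hz3
    have hi0 : Integrable (fun x => t ^ 2 * (w ζ x * g t ζ x) -
        t ^ 2 * κ * (w ζ x * en (X ζ) x)) := (hz2.const_mul _).sub (hen.const_mul _)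
    have hi1 : Integrable (fun x => w ζ x + (t ^ 2 * (w ζ x * g t ζ x) -
        t ^ 2 * κ * (w ζ x * en (X ζ) x))) := hz1.add hi0
    calc _ ≤ ENNReal.ofReal (∫ x, (w ζ x + (t ^ 2 * (w ζ x * g t ζ x) -
        t ^ 2 * κ * (w ζ x * en (X ζ) x)))) := by
          refine ENNReal.ofReal_le_ofReal ?_
          rw [integral_add hz1 hi0, integral_sub (hz2.const_mul _) (hen.const_mul _),
            integral_const_mul, integral_const_mul]
          have : t ^ 2 * κ * ∫ x, w ζ x * en (X ζ) x ≤ t ^ 2 * κ * e ζ :=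
            mul_le_mul_of_nonneg_left hle (by positivity)
          linarith
      _ ≤ _ := by
        refine (ofReal_integral_le hi1).trans (lintegral_mono fun x => ?_)
        have h1 : ∀ u v, |(t • jac (X ζ) x) u v| ≤ r := by
          intro u v
          rw [Matrix.smul_apply, smul_eq_mul, abs_mul]
          exact (mul_le_mul_of_nonneg_left (abs_jac_le (hX ζ) x u v) (abs_nonneg _)).trans h3.2
        obtain ⟨h4, -⟩ := hrI _ h1
        rw [hs_smul, ← en_eq_hs] at h4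
        rw [← ENNReal.ofReal_mul h4]
        refine ENNReal.ofReal_le_ofReal ?_
        have := hMgκ ζ x
        linarith
  -- outer lower bound
  have henW : Integrable (fun ζ => (∫ x, w ζ x) * en W ζ) := by
    refine (hΦ.const_mul (Fintype.card S * (Fintype.card S * (c : ℝ) ^ 2))).mono'
      (hΦ.aestronglyMeasurable.mul (measurable_en W).aestronglyMeasurable)
      (Eventually.of_forall fun ζ => ?_)
    rw [Real.norm_eq_abs, abs_mul, abs_of_nonneg (hΦ0 ζ),
      abs_of_nonneg (en_nonneg W ζ), mul_comm]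
    exact mul_le_mul_of_nonneg_right (en_le hW ζ) (hΦ0 ζ)
  have hj1 : Integrable (fun ζ => t ^ 2 * κ * ((∫ x, w ζ x) * en W ζ) + t ^ 2 * κ * e ζ) :=
    (henW.const_mul _).add (he.const_mul _)
  have hj0 : Integrable (fun ζ => t ^ 2 * (∫ x, w ζ x * g t ζ x) -
      (t ^ 2 * κ * ((∫ x, w ζ x) * en W ζ) + t ^ 2 * κ * e ζ)) := (hΓ.const_mul _).sub hj1
  have hj : Integrable (fun ζ => (∫ x, w ζ x) + (t ^ 2 * (∫ x, w ζ x * g t ζ x) -
      (t ^ 2 * κ * ((∫ x, w ζ x) * en W ζ) + t ^ 2 * κ * e ζ))) := hΦ.add hj0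
  have hlow : ENNReal.ofReal (∫ ζ, ((∫ x, w ζ x) + (t ^ 2 * (∫ x, w ζ x * g t ζ x) -
      (t ^ 2 * κ * ((∫ x, w ζ x) * en W ζ) + t ^ 2 * κ * e ζ)))) ≤
      ∫⁻ ζ, ENNReal.ofReal (1 - (1 + δ) / 2 * (t ^ 2 * en W ζ)) *
      ∫⁻ x, ENNReal.ofReal (1 - (1 + δ) / 2 * (t ^ 2 * en (X ζ) x)) *
        ENNReal.ofReal (w ζ x * (1 + t ^ 2 * g t ζ x)) := by
    refine (ofReal_integral_le hj).trans (lintegral_mono_ae ?_)
    filter_upwards [hinner, hwae, hgae] with ζ hz0 hz1 hz2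
    refine le_trans ?_ (mul_le_mul_right hz0 _)
    have h1 : ∀ u v, |(t • jac W ζ) u v| ≤ r := by
      intro u v
      rw [Matrix.smul_apply, smul_eq_mul, abs_mul]
      exact (mul_le_mul_of_nonneg_left (abs_jac_le hW ζ u v) (abs_nonneg _)).trans h3.2
    obtain ⟨h4, -⟩ := hrS _ h1
    rw [hs_smul, ← en_eq_hs] at h4
    rw [← ENNReal.ofReal_mul h4]
    refine ENNReal.ofReal_le_ofReal ?_
    have h5 : ∫ x, w ζ x * g t ζ x ≤ Mg * ∫ x, w ζ x := by
      rw [← integral_const_mul]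
      refine integral_mono hz2 (hz1.const_mul _) fun x => ?_
      show w ζ x * g t ζ x ≤ Mg * w ζ x
      rw [mul_comm Mg]
      exact mul_le_mul_of_nonneg_left (hgM t ζ x) (hw0 ζ x)
    have h6 := en_nonneg W ζ
    have h7 : (∫ x, w ζ x) + (t ^ 2 * (∫ x, w ζ x * g t ζ x) - t ^ 2 * κ * e ζ) ≤
        (∫ x, w ζ x) * (1 + t ^ 2 * Mg) := by
      have h8 : t ^ 2 * (∫ x, w ζ x * g t ζ x) ≤ t ^ 2 * (Mg * ∫ x, w ζ x) :=
        mul_le_mul_of_nonneg_left h5 (sq_nonneg t)
      have h9 : 0 ≤ t ^ 2 * κ * e ζ := mul_nonneg (by positivity) (he0 ζ)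
      nlinarith
    have h10 := mul_le_mul_of_nonneg_left h7
      (show 0 ≤ (1 + δ) / 2 * (t ^ 2 * en W ζ) by positivity)
    have h11 : (1 + δ) / 2 * (t ^ 2 * en W ζ) * ((∫ x, w ζ x) * (1 + t ^ 2 * Mg)) =
        t ^ 2 * κ * ((∫ x, w ζ x) * en W ζ) := by rw [hκ]; ring
    rw [h11] at h10
    linarith
  have key3 := hlow.trans key2
  have hrhs0 : 0 ≤ (∫ z : (S → ℝ) × (I → ℝ), w z.1 z.2) + t ^ 2 * (Real.cosh (t * M) / 2 *
      ∫ z : (S → ℝ) × (I → ℝ), w z.1 z.2 * G z.1 z.2 ^ 2) := by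
    have h4 : 0 ≤ ∫ z : (S → ℝ) × (I → ℝ), w z.1 z.2 := integral_nonneg fun z => hw0 _ _
    have h5 : 0 ≤ ∫ z : (S → ℝ) × (I → ℝ), w z.1 z.2 * G z.1 z.2 ^ 2 :=
      integral_nonneg fun a => mul_nonneg (hw0 _ _) (sq_nonneg _)
    have h6 := Real.cosh_pos (t * M)
    positivity
  rw [ENNReal.ofReal_le_ofReal_iff hrhs0, eW, eG, integral_add hΦ hj0,
    integral_sub (hΓ.const_mul _) hj1, integral_add (henW.const_mul _) (he.const_mul _),
    integral_const_mul, integral_const_mul, integral_const_mul] at key3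
  have h8 : t ^ 2 * (γ - κ * ((∫ ζ, (∫ x, w ζ x) * en W ζ) + ∫ ζ, e ζ)) ≤
      t ^ 2 * (Real.cosh (t * M) / 2 * ∫ ζ, ∫ x, w ζ x * G ζ x ^ 2) := by
    have : t ^ 2 * γ ≤ t ^ 2 * ∫ ζ, ∫ x, w ζ x * g t ζ x :=
      mul_le_mul_of_nonneg_left h1 (sq_nonneg t)
    linarith
  exact le_of_mul_le_mul_left h8 (by positivity)

end BlockCR

end

end Crest.Agent.R144.MW121
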