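import Mathlib
import Crest.Agent.R144.MWC_121

/-!
# R144, shift block, part 4 (helper121): block Cramer-Rao for a tilted uniform law on a set
-/

set_option autoImplicit false

open MeasureTheory Filter Set
open scoped ENNReal NNReal Topology

namespace Crest.Agent.R144.MW121

noncomputable section

variable {S I : Type*} [Fintype S] [DecidableEq S] [Fintype I] [DecidableEq I]

/-- Block triangular Cramer-Rao inequality for the tilted uniform law on a bounded measurable set
`K` of pairs (skeleton heights, interior heights) invariant under the block triangular shifts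
`(ζ, x) ↦ (ζ + t W ζ, x + t X ζ x)`, `|t| ≤ t0`. Only the frozen energy of `X ζ` enters. -/
theorem block_cramer_rao_tilt {W : (S → ℝ) → (S → ℝ)} {X : (S → ℝ) → (I → ℝ) → (I → ℝ)}
    {c : ℝ≥0} (hW : LipschitzWith c W) (hX : ∀ ζ, LipschitzWith c (X ζ))
    (hXm : Measurable (Function.uncurry X))
    {K : Set ((S → ℝ) × (I → ℝ))} (hK : MeasurableSet K) (hKb : Bornology.IsBounded K)
    {B : ℝ} (hB : ∀ z ∈ K, ‖X z.1 z.2‖ ≤ B) {t0 : ℝ} (ht0 : 0 < t0)
    (hinv : ∀ z ∈ K, ∀ t : ℝ, |t| ≤ t0 → (z.1 + t • W z.1, z.2 + t • X z.1 z.2) ∈ K)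
    (l L : ((S → ℝ) × (I → ℝ)) →L[ℝ] ℝ) (m : ℝ)
    {e : (S → ℝ) → ℝ} (he : Integrable e) (he0 : ∀ ζ, 0 ≤ e ζ)
    (hE : ∀ᵐ ζ : S → ℝ, ∫⁻ x, ENNReal.ofReal
      (K.indicator (fun z => Real.exp (l z)) (ζ, x) * en (X ζ) x) ≤ ENNReal.ofReal (e ζ)) :
    2 * (∫ z in K, Real.exp (l z) * L (W z.1, X z.1 z.2)) -
      ((∫ z in K, Real.exp (l z) * en W z.1) + ∫ ζ, e ζ) ≤
      ∫ z in K, Real.exp (l z) * (L z - m) ^ 2 := by
  -- bounds
  obtain ⟨R, hR⟩ := hKb.subset_closedBall 0
  have hKR : ∀ z ∈ K, ‖z‖ ≤ |R| := fun z hz =>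
    (by simpa using hR hz : ‖z‖ ≤ R).trans (le_abs_self _)
  have hWB : ∀ z ∈ K, ‖W z.1‖ ≤ ‖W 0‖ + c * |R| := by
    intro z hz
    have h1 := hW.dist_le_mul z.1 0
    rw [dist_eq_norm, dist_eq_norm, sub_zero] at h1
    have h2 : ‖W z.1‖ ≤ ‖W 0‖ + ‖W z.1 - W 0‖ := by
      calc ‖W z.1‖ = ‖W 0 + (W z.1 - W 0)‖ := by congr 1; abel
        _ ≤ _ := norm_add_le _ _
    have h3 : (c : ℝ) * ‖z.1‖ ≤ c * |R| :=
      mul_le_mul_of_nonneg_left ((norm_fst_le z).trans (hKR z hz)) c.2
    linarith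
  have hvol : volume K < ∞ := hKb.measure_lt_top
  set w : ((S → ℝ) × (I → ℝ)) → ℝ := K.indicator fun z => Real.exp (l z) with hwdef
  have hlm : Measurable fun z => Real.exp (l z) := Real.measurable_exp.comp l.continuous.measurable
  have hwm : Measurable w := hlm.indicator hK
  have hw0 : ∀ z, 0 ≤ w z := fun z => indicator_nonneg (fun _ _ => (Real.exp_pos _).le) z
  have hwK : ∀ z ∈ K, w z = Real.exp (l z) := fun z hz => indicator_of_mem hz _
  have hwK' : ∀ z, z ∉ K → w z = 0 := fun z hz => indicator_of_notMem hz _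
  have hexp : ∀ z ∈ K, |Real.exp (l z)| ≤ Real.exp (‖l‖ * |R|) := by
    intro z hz
    rw [abs_of_pos (Real.exp_pos _)]
    refine Real.exp_le_exp.2 ?_
    calc l z ≤ ‖l z‖ := le_abs_self _
      _ ≤ ‖l‖ * ‖z‖ := l.le_opNorm z
      _ ≤ ‖l‖ * |R| := mul_le_mul_of_nonneg_left (hKR z hz) (norm_nonneg _)
  have hfin : IsFiniteMeasure (volume.restrict K) := ⟨by simpa using hvol⟩
  have hbd : ∀ f : ((S → ℝ) × (I → ℝ)) → ℝ, Measurable f → ∀ C : ℝ, (∀ z ∈ K, |f z| ≤ C) →
      IntegrableOn f K := by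
    intro f hf C hC
    exact Integrable.of_bound (C := C) hf.aestronglyMeasurable
      ((ae_restrict_iff' hK).2 (Eventually.of_forall fun z hz => by
        rw [Real.norm_eq_abs]; exact hC z hz))
  have hw : Integrable w := by
    rw [hwdef, integrable_indicator_iff hK]
    exact hbd _ hlm _ hexp
  have hconv : ∀ f : ((S → ℝ) × (I → ℝ)) → ℝ, ∫ z, w z * f z =
      ∫ z in K, Real.exp (l z) * f z := by
    intro f
    rw [← integral_indicator hK]
    refine integral_congr_ae (Eventually.of_forall fun h => ?_)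
    by_cases hh : h ∈ K
    · simp only [hwK h hh, indicator_of_mem hh]
    · simp only [hwK' h hh, indicator_of_notMem hh, zero_mul]
  -- the fields
  have hYm : Measurable fun z : (S → ℝ) × (I → ℝ) => (W z.1, X z.1 z.2) :=
    (hW.continuous.measurable.comp measurable_fst).prodMk hXm
  set gg : ((S → ℝ) × (I → ℝ)) → ℝ := K.indicator fun z => L (W z.1, X z.1 z.2) with hgg
  have hgm : Measurable gg := (L.continuous.measurable.comp hYm).indicator hK
  set C1 : ℝ := ‖L‖ * max (‖W 0‖ + c * |R|) |B| with hC1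
  have hC10 : 0 ≤ C1 := by positivity
  have hgb : ∀ z, |gg z| ≤ C1 := by
    intro z
    by_cases hh : z ∈ K
    · rw [hgg, indicator_of_mem hh]
      calc |L (W z.1, X z.1 z.2)| = ‖L (W z.1, X z.1 z.2)‖ := rfl
        _ ≤ ‖L‖ * ‖(W z.1, X z.1 z.2)‖ := L.le_opNorm _
        _ ≤ C1 := by
          refine mul_le_mul_of_nonneg_left ?_ (norm_nonneg _)
          rw [Prod.norm_def]
          exact max_le_max (hWB z hh) ((hB z hh).trans (le_abs_self _))
    · rw [hgg, indicator_of_notMem hh, abs_zero]; exact hC10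
  have hgi : Integrable fun z => w z * gg z := by
    refine (hw.const_mul C1).mono' (hwm.mul hgm).aestronglyMeasurable
      (Eventually.of_forall fun h => ?_)
    rw [Real.norm_eq_abs, abs_mul, abs_of_nonneg (hw0 h), mul_comm]
    exact mul_le_mul_of_nonneg_right (hgb h) (hw0 h)
  have hiG : Integrable fun z => w z * (L z - m) ^ 2 := by
    refine (hw.const_mul ((‖L‖ * |R| + |m|) ^ 2)).mono'
      (hwm.mul ((L.continuous.measurable.sub_const m).pow_const 2)).aestronglyMeasurable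
      (Eventually.of_forall fun z => ?_)
    rw [Real.norm_eq_abs, abs_mul, abs_of_nonneg (hw0 z), mul_comm]
    by_cases hh : z ∈ K
    · refine mul_le_mul_of_nonneg_right ?_ (hw0 z)
      rw [abs_pow]
      refine pow_le_pow_left₀ (abs_nonneg _) ?_ 2
      refine (abs_sub _ _).trans (add_le_add ?_ le_rfl)
      calc |L z| = ‖L z‖ := rfl
        _ ≤ ‖L‖ * ‖z‖ := L.le_opNorm _
        _ ≤ ‖L‖ * |R| := mul_le_mul_of_nonneg_left (hKR z hh) (norm_nonneg _)
    · rw [hwK' z hh]; simp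
  have hien : Integrable fun z : (S → ℝ) × (I → ℝ) => w z * en W z.1 := by
    refine (hw.const_mul (Fintype.card S * (Fintype.card S * (c : ℝ) ^ 2))).mono'
      (hwm.mul ((measurable_en W).comp measurable_fst)).aestronglyMeasurable
      (Eventually.of_forall fun z => ?_)
    rw [Real.norm_eq_abs, abs_mul, abs_of_nonneg (hw0 z), abs_of_nonneg (en_nonneg W z.1),
      mul_comm]
    exact mul_le_mul_of_nonneg_right (en_le hW z.1) (hw0 z)
  have fub : ∀ f : (S → ℝ) × (I → ℝ) → ℝ, Integrable f →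
      ∫ ζ, ∫ x, f (ζ, x) = ∫ z : (S → ℝ) × (I → ℝ), f z := by
    intro f hf
    rw [Measure.volume_eq_prod, integral_prod _ hf]
  have key := block_cramer_rao hW hX (w := fun ζ x => w (ζ, x)) (G := fun ζ x => L (ζ, x) - m)
    hwm (fun ζ x => hw0 _) hw
    (by
      have : Measurable fun z : (S → ℝ) × (I → ℝ) => L z - m :=
        L.continuous.measurable.sub_const m
      exact this) (M := ‖L‖ * |R| + |m|) (fun ζ x h => ?_)
    (g := fun _ ζ x => gg (ζ, x)) hC10 (fun _ ζ x => (le_abs_self _).trans (hgb _))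
    (fun _ => hgi) (γ := ∫ z, w z * gg z)
    (Eventually.of_forall fun t => (fub _ hgi).ge) he he0 hE ?_
  · have e1 : ∫ ζ, (∫ x, w (ζ, x)) * en W ζ = ∫ z in K, Real.exp (l z) * en W z.1 := by
      rw [← hconv, ← fub _ hien]
      refine integral_congr_ae (Eventually.of_forall fun ζ => ?_)
      simp only
      rw [integral_mul_const]
    have e2 : ∫ ζ, ∫ x, w (ζ, x) * (L (ζ, x) - m) ^ 2 =
        ∫ z in K, Real.exp (l z) * (L z - m) ^ 2 := by
      rw [← hconv, ← fub _ hiG]
    have e3 : ∫ z, w z * gg z = ∫ z in K, Real.exp (l z) * L (W z.1, X z.1 z.2) := by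
      rw [hconv]
      refine setIntegral_congr_fun hK fun z hz => ?_
      simp only [hgg, indicator_of_mem hz]
    rw [e1, e2, e3] at key
    exact key
  · have hz : (ζ, x) ∈ K := by
      by_contra hc
      exact h (hwK' _ hc)
    refine (abs_sub _ _).trans (add_le_add ?_ le_rfl)
    calc |L (ζ, x)| = ‖L (ζ, x)‖ := rfl
      _ ≤ ‖L‖ * ‖(ζ, x)‖ := L.le_opNorm _
      _ ≤ ‖L‖ * |R| := mul_le_mul_of_nonneg_left (hKR _ hz) (norm_nonneg _)
  · have hev : ∀ᶠ t : ℝ in 𝓝[>] 0, |t| ≤ t0 := by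
      refine nhdsWithin_le_nhds ?_
      filter_upwards [Metric.closedBall_mem_nhds (0 : ℝ) ht0] with t ht
      simpa [Real.dist_eq] using ht
    filter_upwards [hev, self_mem_nhdsWithin] with t ht htp ζ x
    have htp' : 0 < t := htp
    by_cases hh : (ζ, x) ∈ K
    · have hp := hinv _ hh t ht
      have hm := hinv _ hh (-t) (by rwa [abs_neg])
      simp only at hp hm
      rw [hwK _ hh, hwK _ hp, hwK _ hm]
      have ep : (ζ + t • W ζ, x + t • X ζ x) = (ζ, x) + t • (W ζ, X ζ x) := rfl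
      have em : (ζ + (-t) • W ζ, x + (-t) • X ζ x) = (ζ, x) + (-t) • (W ζ, X ζ x) := rfl
      rw [ep, em]
      have e1 : Real.sqrt (Real.exp (l ((ζ, x) + t • (W ζ, X ζ x))) *
          Real.exp (l ((ζ, x) + (-t) • (W ζ, X ζ x)))) = Real.exp (l (ζ, x)) := by
        rw [← Real.exp_add]
        have : l ((ζ, x) + t • (W ζ, X ζ x)) + l ((ζ, x) + (-t) • (W ζ, X ζ x)) =
            l (ζ, x) + l (ζ, x) := by
          rw [map_add, map_add, map_smul, map_smul, smul_eq_mul, smul_eq_mul]; ring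
        rw [this, Real.exp_add, Real.sqrt_mul_self (Real.exp_pos _).le]
      rw [e1]
      refine mul_le_mul_of_nonneg_left ?_ (Real.exp_pos _).le
      have e2 : t / 2 * (L ((ζ, x) + t • (W ζ, X ζ x)) - m -
          (L ((ζ, x) + (-t) • (W ζ, X ζ x)) - m)) = t ^ 2 * gg (ζ, x) := by
        simp only [hgg, indicator_of_mem hh]
        rw [map_add, map_add, map_smul, map_smul, smul_eq_mul, smul_eq_mul]; ring
      rw [e2]
      have := Real.add_one_le_exp (t ^ 2 * gg (ζ, x))
      linarith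
    · rw [hwK' _ hh, zero_mul]
      positivity

end

end Crest.Agent.R144.MW121
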