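import Mathlib
import Crest.Prelude.Def_HexHeights
import Crest.Prelude.Def_TriHeights

/-!
# R144 / Mom_353 : moment lift

Law convergence (characteristic functions) to a centred Gaussian together with bounded even moments
gives convergence of all moments; measure version and the finite weighted-sum version used for
`heightExpect` and `twoArcExpect`.
-/

set_option autoImplicit false

noncomputable section

namespace Crest.Agent.R144.Mom353

open Filter Topology MeasureTheory ProbabilityTheory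
open scoped NNReal ENNReal Nat

/-- Gaussian moment value used in the statements. -/
def gm (v : ℝ) (k : ℕ) : ℝ := if Even k then v ^ (k / 2) * ((k - 1).doubleFactorial : ℝ) else 0

theorem integral_even_moment {v : ℝ} (hv : 0 < v) (m : ℕ) :
    ∫ x : ℝ, x ^ (2 * m) * Real.exp (-(1 / (2 * v)) * x ^ 2) =
      Real.sqrt (2 * Real.pi * v) * (v ^ m * ((2 * m - 1 : ℕ)‼ : ℝ)) := by
  have hb : 0 < 1 / (2 * v) := by positivity
  have h1 : ∀ x : ℝ, x ^ (2 * m) * Real.exp (-(1 / (2 * v)) * x ^ 2) =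
      (fun y : ℝ => y ^ (2 * m) * Real.exp (-(1 / (2 * v)) * y ^ 2)) |x| := by
    intro x
    simp only [sq_abs]
    rw [pow_mul, pow_mul, sq_abs]
  rw [integral_congr_ae (ae_of_all _ h1),
    integral_comp_abs (f := fun y : ℝ => y ^ (2 * m) * Real.exp (-(1 / (2 * v)) * y ^ 2))]
  have h2 : ∫ x in Set.Ioi (0 : ℝ), x ^ (2 * m) * Real.exp (-(1 / (2 * v)) * x ^ 2) =
      ∫ x in Set.Ioi (0 : ℝ), x ^ ((2 * m : ℕ) : ℝ) * Real.exp (-(1 / (2 * v)) * x ^ (2 : ℝ)) := by
    refine setIntegral_congr_fun measurableSet_Ioi fun x _ => ?_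
    simp only [Real.rpow_natCast, Real.rpow_two]
  have hq : (-1 : ℝ) < ((2 * m : ℕ) : ℝ) := by
    have : (0 : ℝ) ≤ ((2 * m : ℕ) : ℝ) := Nat.cast_nonneg _
    linarith
  rw [h2, integral_rpow_mul_exp_neg_mul_rpow (by norm_num) hq hb]
  have h3 : (((2 * m : ℕ) : ℝ) + 1) / 2 = (m : ℝ) + 1 / 2 := by
    push_cast; ring
  have h4 : -(((2 * m : ℕ) : ℝ) + 1) / 2 = -((m : ℝ) + 1 / 2) := by
    push_cast; ring
  rw [h3, h4, Real.Gamma_nat_add_half]
  have h5 : (1 / (2 * v)) ^ (-((m : ℝ) + 1 / 2)) = (2 * v) ^ m * Real.sqrt (2 * v) := by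
    rw [one_div, Real.inv_rpow (by positivity), ← Real.rpow_neg (by positivity), neg_neg,
      Real.rpow_add (by positivity), Real.rpow_natCast, ← Real.sqrt_eq_rpow]
  rw [h5, show 2 * Real.pi * v = (2 * v) * Real.pi by ring,
    Real.sqrt_mul (show (0 : ℝ) ≤ 2 * v by positivity) Real.pi]
  have h6 : (2 : ℝ) ^ m ≠ 0 := by positivity
  rw [mul_pow]
  generalize Real.sqrt (2 * v) = a
  field_simp

theorem gaussian_even_moment {v : ℝ} (hv : 0 ≤ v) (m : ℕ) :
    ∫ x : ℝ, x ^ (2 * m) ∂(gaussianReal 0 v.toNNReal) = v ^ m * ((2 * m - 1 : ℕ)‼ : ℝ) := by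
  rcases hv.eq_or_lt with rfl | hv
  · simp only [Real.toNNReal_zero, gaussianReal_zero_var, integral_dirac]
    rcases Nat.eq_zero_or_pos m with rfl | hm
    · simp
    · rw [zero_pow (by omega), zero_pow (by omega), zero_mul]
  · have hv' : v.toNNReal ≠ 0 := by
      simpa using hv
    rw [integral_gaussianReal_eq_integral_smul hv']
    have h1 : ∀ x : ℝ, gaussianPDFReal 0 v.toNNReal x • x ^ (2 * m) =
        (Real.sqrt (2 * Real.pi * v))⁻¹ * (x ^ (2 * m) * Real.exp (-(1 / (2 * v)) * x ^ 2)) := by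
      intro x
      rw [gaussianPDFReal, smul_eq_mul, Real.coe_toNNReal _ hv.le, sub_zero]
      have : -x ^ 2 / (2 * v) = -(1 / (2 * v)) * x ^ 2 := by ring
      rw [this]
      ring
    simp_rw [h1]
    rw [integral_const_mul, integral_even_moment hv]
    have : Real.sqrt (2 * Real.pi * v) ≠ 0 := by positivity
    field_simp

theorem gaussian_odd_moment (v : ℝ) {k : ℕ} (hk : ¬ Even k) :
    ∫ x : ℝ, x ^ k ∂(gaussianReal 0 v.toNNReal) = 0 := by
  have hmap : (gaussianReal 0 v.toNNReal).map (fun x => -x) = gaussianReal 0 v.toNNReal := by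
    have := gaussianReal_map_neg (μ := 0) (v := v.toNNReal)
    simpa using this
  have h1 : ∫ x : ℝ, x ^ k ∂(gaussianReal 0 v.toNNReal) =
      ∫ x : ℝ, (-x) ^ k ∂(gaussianReal 0 v.toNNReal) := by
    conv_lhs => rw [← hmap]
    rw [integral_map (by fun_prop) (by fun_prop)]
  have h2 : ∀ x : ℝ, (-x) ^ k = -x ^ k := fun x => (Nat.not_even_iff_odd.1 hk).neg_pow x
  simp_rw [h2, integral_neg] at h1
  linarith

theorem gaussian_moment {v : ℝ} (hv : 0 ≤ v) (k : ℕ) :
    ∫ x : ℝ, x ^ k ∂(gaussianReal 0 v.toNNReal) = gm v k := by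
  unfold gm
  split_ifs with h
  · obtain ⟨m, rfl⟩ := h
    rw [← two_mul, gaussian_even_moment hv]
    simp
  · exact gaussian_odd_moment v h

theorem integrable_pow_gaussian (v : ℝ) (k : ℕ) :
    Integrable (fun x : ℝ => x ^ k) (gaussianReal 0 v.toNNReal) := by
  have h := memLp_id_gaussianReal (μ := 0) (v := v.toNNReal) (k : ℝ≥0)
  have h2 := h.integrable_norm_pow'
  refine (h2.mono' (by fun_prop) (ae_of_all _ fun x => ?_))
  simp

/-- truncation at level `R` -/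
def tr (R x : ℝ) : ℝ := max (-R) (min R x)

theorem abs_tr_le {R : ℝ} (hR : 0 ≤ R) (x : ℝ) : |tr R x| ≤ R := by
  unfold tr
  rw [abs_le]
  constructor
  · exact le_max_left _ _
  · exact max_le (by linarith) (min_le_left _ _)

theorem tr_eq {R : ℝ} {x : ℝ} (h : |x| ≤ R) : tr R x = x := by
  unfold tr
  rw [abs_le] at h
  rw [min_eq_right h.2, max_eq_right h.1]

theorem pow_sub_tr_le {R : ℝ} (hR : 0 < R) (k : ℕ) (x : ℝ) :
    |x ^ k - tr R x ^ k| ≤ 2 / R ^ 2 * x ^ (2 * (k + 1)) / R ^ k := by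
  by_cases h : |x| ≤ R
  · rw [tr_eq h, sub_self, abs_zero]
    have : 0 ≤ x ^ (2 * (k + 1)) := by
      rw [pow_mul]; positivity
    positivity
  · push Not at h
    have h1 : |x ^ k - tr R x ^ k| ≤ 2 * |x| ^ k := by
      calc |x ^ k - tr R x ^ k| ≤ |x ^ k| + |tr R x ^ k| := abs_sub _ _
        _ ≤ |x| ^ k + R ^ k := by
            rw [abs_pow, abs_pow]
            have := pow_le_pow_left₀ (abs_nonneg _) (abs_tr_le hR.le x) k
            linarith
        _ ≤ 2 * |x| ^ k := by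
            have := pow_le_pow_left₀ hR.le h.le k
            linarith
    refine h1.trans ?_
    have h2 : x ^ (2 * (k + 1)) = |x| ^ k * |x| ^ (k + 2) := by
      rw [pow_mul, ← sq_abs, ← pow_mul, ← pow_add]
      congr 1
      ring
    rw [h2]
    have h3 : R ^ (k + 2) ≤ |x| ^ (k + 2) := pow_le_pow_left₀ hR.le h.le _
    have h4 : 2 / R ^ 2 * (|x| ^ k * |x| ^ (k + 2)) / R ^ k =
        2 * |x| ^ k * (|x| ^ (k + 2) / R ^ (k + 2)) := by
      rw [pow_add R k 2]
      field_simp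
    rw [h4]
    have h5 : 1 ≤ |x| ^ (k + 2) / R ^ (k + 2) := by
      rw [one_le_div (by positivity)]
      exact h3
    have h6 : 0 ≤ 2 * |x| ^ k := by positivity
    nlinarith

/-- **Moment lift, measure version.** -/
theorem moments_of_charFun {μ : ℕ → ProbabilityMeasure ℝ} {v : ℝ} (hv : 0 ≤ v)
    (hc : ∀ t : ℝ, Tendsto (fun n => charFun (μ n : Measure ℝ) t) atTop
      (𝓝 (Complex.exp (-(v * t ^ 2 / 2 : ℝ)))))
    (hi : ∀ n k, Integrable (fun x : ℝ => x ^ k) (μ n : Measure ℝ))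
    (hb : ∀ k : ℕ, ∃ C : ℝ, ∀ᶠ n in atTop, ∫ x : ℝ, x ^ (2 * k) ∂(μ n : Measure ℝ) ≤ C) (k : ℕ) :
    Tendsto (fun n => ∫ x : ℝ, x ^ k ∂(μ n : Measure ℝ)) atTop (𝓝 (gm v k)) := by
  let μ₀ : ProbabilityMeasure ℝ := ⟨gaussianReal 0 v.toNNReal, inferInstance⟩
  have hw : Tendsto μ atTop (𝓝 μ₀) := by
    refine ProbabilityMeasure.tendsto_of_tendsto_charFun fun t => ?_
    have : charFun (μ₀ : Measure ℝ) t = Complex.exp (-(v * t ^ 2 / 2 : ℝ)) := by
      change charFun (gaussianReal 0 v.toNNReal) t = _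
      rw [charFun_gaussianReal, Real.coe_toNNReal _ hv]
      congr 1
      push_cast
      ring
    rw [this]
    exact hc t
  rw [← gaussian_moment hv k]
  obtain ⟨C, hC⟩ := hb (k + 1)
  set C' : ℝ := max C (∫ x : ℝ, x ^ (2 * (k + 1)) ∂(gaussianReal 0 v.toNNReal)) with hC'
  have hC0 : 0 ≤ C' := le_max_of_le_right (integral_nonneg fun x => by rw [pow_mul]; positivity)
  -- truncation error
  have herr : ∀ (ν : Measure ℝ) [IsProbabilityMeasure ν],
      (∀ j : ℕ, Integrable (fun x : ℝ => x ^ j) ν) →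
      ∫ x : ℝ, x ^ (2 * (k + 1)) ∂ν ≤ C' → ∀ R : ℝ, 1 ≤ R →
      |∫ x : ℝ, x ^ k ∂ν - ∫ x : ℝ, tr R x ^ k ∂ν| ≤ 2 * C' / R ^ 2 := by
    intro ν _ hν hle R hR
    have hR0 : 0 < R := by linarith
    have hit : Integrable (fun x : ℝ => tr R x ^ k) ν := by
      refine (integrable_const (R ^ k)).mono' ?_ (ae_of_all _ fun x => ?_)
      · unfold tr
        fun_prop
      · rw [Real.norm_eq_abs, abs_pow]
        exact pow_le_pow_left₀ (abs_nonneg _) (abs_tr_le hR0.le x) k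
    rw [← integral_sub (hν k) hit]
    calc |∫ x : ℝ, (x ^ k - tr R x ^ k) ∂ν| ≤ ∫ x : ℝ, |x ^ k - tr R x ^ k| ∂ν :=
          abs_integral_le_integral_abs
      _ ≤ ∫ x : ℝ, 2 / R ^ 2 * x ^ (2 * (k + 1)) ∂ν := by
          refine integral_mono ((hν k).sub hit).abs ((hν _).const_mul _) fun x => ?_
          refine (pow_sub_tr_le hR0 k x).trans ?_
          have h1 : 1 ≤ R ^ k := one_le_pow₀ hR
          refine div_le_self ?_ h1
          have : 0 ≤ x ^ (2 * (k + 1)) := by rw [pow_mul]; positivity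
          positivity
      _ = 2 / R ^ 2 * ∫ x : ℝ, x ^ (2 * (k + 1)) ∂ν := integral_const_mul _ _
      _ ≤ 2 / R ^ 2 * C' := by gcongr
      _ = 2 * C' / R ^ 2 := by ring
  rw [Metric.tendsto_atTop]
  intro ε hε
  -- choose R
  obtain ⟨R, hR1, hR⟩ : ∃ R : ℝ, 1 ≤ R ∧ 2 * C' / R ^ 2 < ε / 4 := by
    refine ⟨max 1 (8 * C' / ε + 1), le_max_left _ _, ?_⟩
    set R := max 1 (8 * C' / ε + 1)
    have h1 : 1 ≤ R := le_max_left _ _
    have h2 : 8 * C' / ε + 1 ≤ R := le_max_right _ _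
    have h3 : R ≤ R ^ 2 := by nlinarith
    have h4 : 8 * C' / ε < R ^ 2 := by linarith
    rw [div_lt_iff₀ hε] at h4
    rw [div_lt_iff₀ (by positivity)]
    nlinarith
  have hR0 : 0 < R := by linarith
  let g : BoundedContinuousFunction ℝ ℝ := BoundedContinuousFunction.ofNormedAddCommGroup
    (fun x => tr R x ^ k) (by unfold tr; fun_prop) (R ^ k) (fun x => by
      rw [Real.norm_eq_abs, abs_pow]
      exact pow_le_pow_left₀ (abs_nonneg _) (abs_tr_le hR0.le x) k)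
  have hg := (ProbabilityMeasure.tendsto_iff_forall_integral_tendsto.1 hw) g
  rw [Metric.tendsto_atTop] at hg
  obtain ⟨N1, hN1⟩ := hg (ε / 4) (by positivity)
  rw [eventually_atTop] at hC
  obtain ⟨N2, hN2⟩ := hC
  refine ⟨max N1 N2, fun n hn => ?_⟩
  have e1 := hN1 n (le_trans (le_max_left _ _) hn)
  have e2 := herr (μ n : Measure ℝ) (hi n) ((hN2 n (le_trans (le_max_right _ _) hn)).trans
    (le_max_left _ _)) R hR1
  have e3 := herr (gaussianReal 0 v.toNNReal) (integrable_pow_gaussian v) (le_max_right _ _) R hR1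
  rw [Real.dist_eq] at e1 ⊢
  have e1' : |∫ x : ℝ, tr R x ^ k ∂(μ n : Measure ℝ) -
      ∫ x : ℝ, tr R x ^ k ∂(gaussianReal 0 v.toNNReal)| < ε / 4 := e1
  rw [abs_lt] at e1' ⊢
  rw [abs_le] at e2 e3
  constructor <;> linarith

/-! ### finite weighted sums -/

section finite

variable {ι : ℕ → Type*}

/-- normalised finite weighted law of `X` -/
def law {α : Type*} (s : Finset α) (w : α → ℝ) (X : α → ℝ) : Measure ℝ :=
  ∑ a ∈ s, ENNReal.ofReal (w a / ∑ b ∈ s, w b) • Measure.dirac (X a)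

theorem isProb_law {α : Type*} {s : Finset α} {w : α → ℝ} (hw : ∀ a ∈ s, 0 ≤ w a)
    (hs : 0 < ∑ b ∈ s, w b) (X : α → ℝ) : IsProbabilityMeasure (law s w X) := by
  constructor
  unfold law
  rw [Measure.finsetSum_apply]
  simp only [Measure.smul_apply, smul_eq_mul, measure_univ, mul_one]
  rw [← ENNReal.ofReal_sum_of_nonneg (fun a ha => div_nonneg (hw a ha) hs.le), ← Finset.sum_div,
    div_self hs.ne', ENNReal.ofReal_one]

theorem integral_law {α : Type*} {s : Finset α} {w : α → ℝ} (hw : ∀ a ∈ s, 0 ≤ w a)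
    (hs : 0 < ∑ b ∈ s, w b) (X : α → ℝ) {E : Type*} [NormedAddCommGroup E] [NormedSpace ℝ E]
    [CompleteSpace E] (g : ℝ → E) :
    ∫ x, g x ∂(law s w X) = ∑ a ∈ s, (w a / ∑ b ∈ s, w b) • g (X a) := by
  unfold law
  rw [integral_finsetSum_measure]
  · refine Finset.sum_congr rfl fun a ha => ?_
    rw [integral_smul_measure, integral_dirac, ENNReal.toReal_ofReal (div_nonneg (hw a ha) hs.le)]
  · intro a _
    exact (integrable_dirac (by simp)).smul_measure ENNReal.ofReal_ne_top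

theorem integrable_law {α : Type*} {s : Finset α} {w : α → ℝ} (X : α → ℝ)
    {E : Type*} [NormedAddCommGroup E] (g : ℝ → E) :
    Integrable g (law s w X) := by
  unfold law
  rw [integrable_finsetSum_measure]
  intro a _
  exact (integrable_dirac (by simp)).smul_measure ENNReal.ofReal_ne_top

/-- **Moment lift, finite weighted sums (complex form used in the statements).** -/
theorem moments_of_sum {s : ∀ n, Finset (ι n)} {w : ∀ n, ι n → ℝ} {X : ∀ n, ι n → ℝ}
    (hw : ∀ n, ∀ a ∈ s n, 0 ≤ w n a) (hs : ∀ n, 0 < ∑ b ∈ s n, w n b) {v : ℝ} (hv : 0 ≤ v)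
    (hc : ∀ t : ℝ, Tendsto (fun n => (∑ a ∈ s n, (w n a : ℂ) *
        Complex.exp (Complex.I * (t * X n a : ℝ))) / ∑ a ∈ s n, (w n a : ℂ)) atTop
      (𝓝 (Complex.exp (-(v * t ^ 2 / 2 : ℝ)))))
    (hb : ∀ k : ℕ, ∃ C : ℝ, ∀ᶠ n in atTop,
      (∑ a ∈ s n, w n a * X n a ^ (2 * k)) / (∑ a ∈ s n, w n a) ≤ C) (k : ℕ) :
    Tendsto (fun n => (∑ a ∈ s n, (w n a : ℂ) * ((X n a ^ k : ℝ) : ℂ)) / ∑ a ∈ s n, (w n a : ℂ))
      atTop (𝓝 ((gm v k : ℝ) : ℂ)) := by
  let μ : ℕ → ProbabilityMeasure ℝ := fun n =>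
    ⟨law (s n) (w n) (X n), isProb_law (hw n) (hs n) (X n)⟩
  have hcast : ∀ n, (∑ a ∈ s n, (w n a : ℂ)) = ((∑ a ∈ s n, w n a : ℝ) : ℂ) := by
    intro n; push_cast; rfl
  have hI : ∀ n (g : ℝ → ℂ), ∫ x, g x ∂(μ n : Measure ℝ) =
      (∑ a ∈ s n, (w n a : ℂ) * g (X n a)) / ∑ a ∈ s n, (w n a : ℂ) := by
    intro n g
    change ∫ x, g x ∂(law (s n) (w n) (X n)) = _
    rw [integral_law (hw n) (hs n), Finset.sum_div, hcast]
    refine Finset.sum_congr rfl fun a _ => ?_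
    rw [Complex.real_smul]
    push_cast
    ring
  have hR : ∀ n (g : ℝ → ℝ), ∫ x, g x ∂(μ n : Measure ℝ) =
      (∑ a ∈ s n, w n a * g (X n a)) / ∑ a ∈ s n, w n a := by
    intro n g
    change ∫ x, g x ∂(law (s n) (w n) (X n)) = _
    rw [integral_law (hw n) (hs n), Finset.sum_div]
    refine Finset.sum_congr rfl fun a _ => ?_
    rw [smul_eq_mul]
    ring
  have h := moments_of_charFun (μ := μ) hv (fun t => ?_) (fun n j => integrable_law _ _)
    (fun j => ?_) k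
  · have h2 := (Complex.continuous_ofReal.tendsto _).comp h
    refine h2.congr fun n => ?_
    simp only [Function.comp]
    rw [hR n (fun x => x ^ k), hcast]
    push_cast
    rfl
  · refine (hc t).congr fun n => ?_
    rw [charFun_apply_real, hI n (fun x => Complex.exp (t * x * Complex.I))]
    congr 1
    refine Finset.sum_congr rfl fun a _ => ?_
    congr 2
    push_cast
    ring
  · obtain ⟨C, hC⟩ := hb j
    refine ⟨C, hC.mono fun n hn => ?_⟩
    rw [hR n (fun x => x ^ (2 * j))]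
    exact hn

/-- The variance is nonnegative as soon as the characteristic functions converge. -/
theorem nonneg_of_sum {s : ∀ n, Finset (ι n)} {w : ∀ n, ι n → ℝ} {X : ∀ n, ι n → ℝ}
    (hw : ∀ n, ∀ a ∈ s n, 0 ≤ w n a) (hs : ∀ n, 0 < ∑ b ∈ s n, w n b) {v : ℝ}
    (hc : Tendsto (fun n => (∑ a ∈ s n, (w n a : ℂ) *
        Complex.exp (Complex.I * ((1 : ℝ) * X n a : ℝ))) / ∑ a ∈ s n, (w n a : ℂ)) atTop
      (𝓝 (Complex.exp (-(v * (1 : ℝ) ^ 2 / 2 : ℝ))))) : 0 ≤ v := by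
  have h1 := hc.norm
  rw [Complex.norm_exp] at h1
  have h2 : Real.exp ((-(v * (1 : ℝ) ^ 2 / 2 : ℝ) : ℂ).re) ≤ 1 := by
    refine le_of_tendsto' h1 fun n => ?_
    rw [norm_div]
    have h3 : ‖∑ a ∈ s n, (w n a : ℂ)‖ = ∑ a ∈ s n, w n a := by
      have : (∑ a ∈ s n, (w n a : ℂ)) = ((∑ a ∈ s n, w n a : ℝ) : ℂ) := by push_cast; rfl
      rw [this, Complex.norm_real, Real.norm_of_nonneg (hs n).le]
    rw [h3, div_le_one (hs n)]
    refine (norm_sum_le _ _).trans (Finset.sum_le_sum fun a ha => ?_)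
    rw [norm_mul, Complex.norm_real, Real.norm_of_nonneg (hw n a ha), mul_comm Complex.I,
      Complex.norm_exp_ofReal_mul_I, mul_one]
  have h4 : (-(v * (1 : ℝ) ^ 2 / 2 : ℝ) : ℂ).re = -(v / 2) := by
    rw [Complex.neg_re, Complex.ofReal_re]
    ring
  rw [h4, Real.exp_le_one_iff] at h2
  linarith

end finite

/-! ### literal forms -/

open Crest.ProbabilityR.HexHeights Crest.ProbabilityR.TriHeights

/-- **Moment lift for `heightExpect` (S0195).** -/
theorem height_moments {x : ℝ} (hx : 0 < x) {F : ℕ → Finset (ℤ × ℤ)}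
    (X : ∀ n, Height (F n) → ℝ) {v : ℝ}
    (hc : ∀ t : ℝ, Tendsto (fun n => heightExpect (F n) x
        (fun h => Complex.exp (Complex.I * (t * X n h : ℝ)))) atTop
      (𝓝 (Complex.exp (-(v * t ^ 2 / 2 : ℝ)))))
    (hb : ∀ k : ℕ, ∃ C : ℝ, ∀ᶠ n in atTop,
      (heightExpect (F n) x (fun h => ((X n h ^ (2 * k) : ℝ) : ℂ))).re ≤ C) (k : ℕ) :
    Tendsto (fun n => heightExpect (F n) x (fun h => ((X n h ^ k : ℝ) : ℂ))) atTop
      (𝓝 ((gm v k : ℝ) : ℂ)) := by
  classical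
  let s : ∀ n, Finset (Height (F n)) := fun n =>
    haveI := Classical.decPred fun h : Height (F n) => IsAdmissible h
    Finset.univ.filter fun h : Height (F n) => IsAdmissible h
  let w : ∀ n, Height (F n) → ℝ := fun n h => x ^ changes h
  have hw : ∀ n, ∀ a ∈ s n, 0 ≤ w n a := fun n a _ => by positivity
  have hs : ∀ n, 0 < ∑ b ∈ s n, w n b := by
    intro n
    refine Finset.sum_pos (fun a _ => by positivity) ?_
    refine ⟨fun _ => ⟨0, by simp⟩, ?_⟩
    simp only [s, Finset.mem_filter, Finset.mem_univ, true_and]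
    refine ⟨fun u _ => rfl, fun u v _ => ?_⟩
    simp
  have hE : ∀ n (g : Height (F n) → ℂ), heightExpect (F n) x g =
      (∑ a ∈ s n, (w n a : ℂ) * g a) / ∑ a ∈ s n, (w n a : ℂ) := by
    intro n g
    unfold heightExpect
    simp only [s, w]
    push_cast
    rfl
  have hc' : ∀ t : ℝ, Tendsto (fun n => (∑ a ∈ s n, (w n a : ℂ) *
        Complex.exp (Complex.I * (t * X n a : ℝ))) / ∑ a ∈ s n, (w n a : ℂ)) atTop
      (𝓝 (Complex.exp (-(v * t ^ 2 / 2 : ℝ)))) := by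
    intro t
    refine (hc t).congr fun n => ?_
    rw [hE]
  have hv : 0 ≤ v := nonneg_of_sum hw hs (hc' 1)
  refine (moments_of_sum hw hs hv hc' (fun j => ?_) k).congr fun n => ?_
  · obtain ⟨C, hC⟩ := hb j
    refine ⟨C, hC.mono fun n hn => ?_⟩
    rw [hE] at hn
    have h1 : ((∑ a ∈ s n, (w n a : ℂ) * ((X n a ^ (2 * j) : ℝ) : ℂ)) / ∑ a ∈ s n, (w n a : ℂ)) =
        (((∑ a ∈ s n, w n a * X n a ^ (2 * j)) / (∑ a ∈ s n, w n a) : ℝ) : ℂ) := by
      push_cast; rfl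
    rw [h1, Complex.ofReal_re] at hn
    exact hn
  · rw [hE]

/-- **Moment lift for `twoArcExpect` (S0196).** -/
theorem twoArc_moments {T : ℕ → Finset Tri} {Ap Am : ℕ → Set (ℤ × ℤ)}
    (hne : ∀ n, ∃ H : IntHeight (T n), IsTwoArcHeight (Ap n) (Am n) H)
    (X : ∀ n, IntHeight (T n) → ℝ) {v : ℝ}
    (hc : ∀ t : ℝ, Tendsto (fun n => twoArcExpect (T n) (Ap n) (Am n)
        (fun h => Complex.exp (Complex.I * (t * X n h : ℝ)))) atTop
      (𝓝 (Complex.exp (-(v * t ^ 2 / 2 : ℝ)))))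
    (hb : ∀ k : ℕ, ∃ C : ℝ, ∀ᶠ n in atTop,
      (twoArcExpect (T n) (Ap n) (Am n) (fun h => ((X n h ^ (2 * k) : ℝ) : ℂ))).re ≤ C) (k : ℕ) :
    Tendsto (fun n => twoArcExpect (T n) (Ap n) (Am n) (fun h => ((X n h ^ k : ℝ) : ℂ))) atTop
      (𝓝 ((gm v k : ℝ) : ℂ)) := by
  classical
  let s : ∀ n, Finset (IntHeight (T n)) := fun n =>
    haveI := Classical.decPred fun h : IntHeight (T n) => IsTwoArcHeight (Ap n) (Am n) h
    Finset.univ.filter fun h : IntHeight (T n) => IsTwoArcHeight (Ap n) (Am n) h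
  let w : ∀ n, IntHeight (T n) → ℝ := fun n h => 1
  have hw : ∀ n, ∀ a ∈ s n, 0 ≤ w n a := fun n a _ => by positivity
  have hs : ∀ n, 0 < ∑ b ∈ s n, w n b := by
    intro n
    refine Finset.sum_pos (fun a _ => by positivity) ?_
    obtain ⟨H, hH⟩ := hne n
    exact ⟨H, by simpa only [s, Finset.mem_filter, Finset.mem_univ, true_and] using hH⟩
  have hE : ∀ n (g : IntHeight (T n) → ℂ), twoArcExpect (T n) (Ap n) (Am n) g =
      (∑ a ∈ s n, (w n a : ℂ) * g a) / ∑ a ∈ s n, (w n a : ℂ) := by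
    intro n g
    unfold twoArcExpect
    simp only [s, w]
    simp
  have hc' : ∀ t : ℝ, Tendsto (fun n => (∑ a ∈ s n, (w n a : ℂ) *
        Complex.exp (Complex.I * (t * X n a : ℝ))) / ∑ a ∈ s n, (w n a : ℂ)) atTop
      (𝓝 (Complex.exp (-(v * t ^ 2 / 2 : ℝ)))) := by
    intro t
    refine (hc t).congr fun n => ?_
    rw [hE]
  have hv : 0 ≤ v := nonneg_of_sum hw hs (hc' 1)
  refine (moments_of_sum hw hs hv hc' (fun j => ?_) k).congr fun n => ?_
  · obtain ⟨C, hC⟩ := hb j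
    refine ⟨C, hC.mono fun n hn => ?_⟩
    rw [hE] at hn
    have h1 : ((∑ a ∈ s n, (w n a : ℂ) * ((X n a ^ (2 * j) : ℝ) : ℂ)) / ∑ a ∈ s n, (w n a : ℂ)) =
        (((∑ a ∈ s n, w n a * X n a ^ (2 * j)) / (∑ a ∈ s n, w n a) : ℝ) : ℂ) := by
      push_cast; rfl
    rw [h1, Complex.ofReal_re] at hn
    exact hn
  · rw [hE]

end Crest.Agent.R144.Mom353
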