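import Crest.Agent.R144.Tp1_952
import Crest.Prelude.Def_HexHeights

/-!
# R144 (helper643): interface of the plane state, common to the integer and the real models

`PlaneState P`: a probability measure `P` on real heights `h : ℤ × ℤ → ℝ` of the triangular lattice with
`h 0 = 0` and `|h u - h v| ≤ 1` along edges, such that the law of the gradient (= all bounded local
functionals invariant under `h ↦ h + c`) is invariant under translations, `sw`, `th`, `h ↦ -h`, and is site
reflection positive across the row `{y = 0}` for charged functionals (`F (h + c) = e^{iαc} F h`).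
Reflection positivity across all lines of the three directions follows.

`two_of_plane`: the variogram of a plane state satisfies `Two` (helper952).
-/

set_option autoImplicit false

noncomputable section

namespace Crest.Agent.R144.Ps643

open MeasureTheory Filter Topology Finset
open Crest.ProbabilityR.HexHeights (Adj)
open Crest.Agent.R144.Tp952
open scoped ComplexConjugate

abbrev P2 : Type := ℤ × ℤ

/-- heights -/
abbrev Ht : Type := P2 → ℝ

/-- the functional depends only on the heights in `S` -/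
def Loc {β : Type*} (S : Set P2) (F : Ht → β) : Prop :=
  ∀ h g : Ht, (∀ v ∈ S, h v = g v) → F h = F g

/-- the functional depends on finitely many heights -/
def FinLoc {β : Type*} (F : Ht → β) : Prop := ∃ S : Finset P2, Loc (S : Set P2) F

/-- gradient functional -/
def Neut {β : Type*} (F : Ht → β) : Prop := ∀ (h : Ht) (c : ℝ), F (fun v => h v + c) = F h

/-- functional of charge `α` -/
def Chg (α : ℝ) (F : Ht → ℂ) : Prop :=
  ∀ (h : Ht) (c : ℝ), F (fun v => h v + c) = Complex.exp (Complex.I * (α * c : ℝ)) * F h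

/-- heights transported by a map of the lattice -/
def act (σ : P2 → P2) (h : Ht) : Ht := fun v => h (σ v)

/-- translation by `a` -/
def tr (a : P2) (v : P2) : P2 := v + a

/-- bounded measurable local gradient functional -/
structure Obs (F : Ht → ℝ) : Prop where
  meas : Measurable F
  bdd : ∃ C, ∀ h, |F h| ≤ C
  loc : FinLoc F
  neut : Neut F

/-- plane state (see the module docstring) -/
structure PlaneState (P : Measure Ht) : Prop where
  prob : IsProbabilityMeasure P
  zero : ∀ᵐ h ∂P, h 0 = 0
  lip : ∀ᵐ h ∂P, ∀ u v, Adj u v → |h u - h v| ≤ 1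
  tr : ∀ (a : P2) (F : Ht → ℝ), Obs F → ∫ h, F (act (tr a) h) ∂P = ∫ h, F h ∂P
  swap : ∀ F : Ht → ℝ, Obs F → ∫ h, F (act sw h) ∂P = ∫ h, F h ∂P
  theta : ∀ F : Ht → ℝ, Obs F → ∫ h, F (act th h) ∂P = ∫ h, F h ∂P
  neg : ∀ F : Ht → ℝ, Obs F → ∫ h, F (fun v => - h v) ∂P = ∫ h, F h ∂P
  rp : ∀ (α : ℝ) (F : Ht → ℂ), Measurable F → (∃ C, ∀ h, ‖F h‖ ≤ C) → Chg α F →
    (∃ S : Finset P2, (∀ v ∈ S, 0 ≤ v.2) ∧ Loc (S : Set P2) F) →
    0 ≤ (∫ h, conj (F (act th h)) * F h ∂P).re

/-! ### linear functionals -/

/-- linear functional with weights `f` on `s` -/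
def lin (s : Finset P2) (f : P2 → ℝ) (h : Ht) : ℝ := ∑ v ∈ s, f v * h v

theorem measurable_lin (s : Finset P2) (f : P2 → ℝ) : Measurable (lin s f) := by
  unfold lin
  exact Finset.measurable_sum _ fun v _ => (measurable_pi_apply v).const_mul _

theorem lin_neut {s : Finset P2} {f : P2 → ℝ} (hf : ∑ v ∈ s, f v = 0) : Neut (lin s f) := by
  intro h c
  unfold lin
  have : ∀ v ∈ s, f v * (h v + c) = f v * h v + f v * c := fun v _ => by ring
  rw [Finset.sum_congr rfl this, Finset.sum_add_distrib, ← Finset.sum_mul, hf, zero_mul, add_zero]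

theorem lin_loc (s : Finset P2) (f : P2 → ℝ) : Loc (s : Set P2) (lin s f) := by
  intro h g hg
  unfold lin
  exact Finset.sum_congr rfl fun v hv => by rw [hg v hv]

/-- graph distance bound -/
def nrm (v : P2) : ℕ := v.1.natAbs + v.2.natAbs

theorem abs_le_nrm {h : Ht} (h0 : h 0 = 0) (hl : ∀ u v, Adj u v → |h u - h v| ≤ 1) (v : P2) :
    |h v| ≤ nrm v := by
  have row : ∀ (x y : ℤ) (n : ℕ), |h (x + n, y) - h (x, y)| ≤ n := by
    intro x y n
    induction n with
    | zero => simp
    | succ n ih =>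
      have h1 := hl (x + (n + 1 : ℕ), y) (x + n, y) (by unfold Adj; simp only; push_cast; omega)
      have h2 : h (x + (n + 1 : ℕ), y) - h (x, y) =
          (h (x + (n + 1 : ℕ), y) - h (x + n, y)) + (h (x + n, y) - h (x, y)) := by ring
      rw [h2]
      refine (abs_add_le _ _).trans ?_
      push_cast at *
      linarith
  have col : ∀ (x y : ℤ) (n : ℕ), |h (x, y + n) - h (x, y)| ≤ n := by
    intro x y n
    induction n with
    | zero => simp
    | succ n ih =>
      have h1 := hl (x, y + (n + 1 : ℕ)) (x, y + n) (by unfold Adj; simp only; push_cast; omega)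
      have h2 : h (x, y + (n + 1 : ℕ)) - h (x, y) =
          (h (x, y + (n + 1 : ℕ)) - h (x, y + n)) + (h (x, y + n) - h (x, y)) := by ring
      rw [h2]
      refine (abs_add_le _ _).trans ?_
      push_cast at *
      linarith
  have row' : ∀ (x y : ℤ), |h (x, y) - h (0, y)| ≤ x.natAbs := by
    intro x y
    rcases le_total 0 x with hx | hx
    · have := row 0 y x.natAbs
      rwa [zero_add, show ((x.natAbs : ℕ) : ℤ) = x by omega] at this
    · have := row x y x.natAbs
      rw [show x + ((x.natAbs : ℕ) : ℤ) = 0 by omega] at this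
      rwa [abs_sub_comm]
  have col' : ∀ (y : ℤ), |h (0, y) - h (0, 0)| ≤ y.natAbs := by
    intro y
    rcases le_total 0 y with hy | hy
    · have := col 0 0 y.natAbs
      rwa [zero_add, show ((y.natAbs : ℕ) : ℤ) = y by omega] at this
    · have := col 0 y y.natAbs
      rw [show y + ((y.natAbs : ℕ) : ℤ) = 0 by omega] at this
      rwa [abs_sub_comm]
  have e0 : h (0, 0) = 0 := h0
  have h1 := row' v.1 v.2
  have h2 := col' v.2
  rw [e0, sub_zero] at h2
  have h3 : h v = (h (v.1, v.2) - h (0, v.2)) + h (0, v.2) := by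
    rw [show ((v.1, v.2) : P2) = v from rfl]; ring
  rw [h3]
  refine (abs_add_le _ _).trans ?_
  unfold nrm
  push_cast
  have e1 : ((v.1.natAbs : ℕ) : ℝ) = |(v.1 : ℝ)| := by
    rw [Nat.cast_natAbs]; push_cast; rfl
  have e2 : ((v.2.natAbs : ℕ) : ℝ) = |(v.2 : ℝ)| := by
    rw [Nat.cast_natAbs]; push_cast; rfl
  rw [e1] at h1
  rw [e2] at h2
  linarith

namespace PlaneState

variable {P : Measure Ht}

/-- a clamped linear functional -/
def cl (C : ℝ) (x : ℝ) : ℝ := max (-C) (min C x)

theorem cl_eq {C x : ℝ} (h : |x| ≤ C) : cl C x = x := by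
  unfold cl
  rw [min_eq_right (abs_le.1 h).2, max_eq_right (abs_le.1 h).1]

theorem abs_cl_le {C : ℝ} (hC : 0 ≤ C) (x : ℝ) : |cl C x| ≤ C := by
  unfold cl
  rw [abs_le]
  exact ⟨le_max_left _ _, max_le (by linarith) (min_le_left _ _)⟩

theorem measurable_cl (C : ℝ) : Measurable (cl C) := by
  unfold cl
  exact measurable_const.max (measurable_const.min measurable_id)

/-- a.s. bound of linear functionals -/
def bd (s : Finset P2) (f : P2 → ℝ) : ℝ := ∑ v ∈ s, |f v| * nrm v

theorem bd_nonneg (s : Finset P2) (f : P2 → ℝ) : 0 ≤ bd s f :=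
  Finset.sum_nonneg fun _ _ => by positivity

theorem abs_lin_le (hP : PlaneState P) (s : Finset P2) (f : P2 → ℝ) :
    ∀ᵐ h ∂P, |lin s f h| ≤ bd s f := by
  filter_upwards [hP.zero, hP.lip] with h h0 hl
  unfold lin bd
  refine (Finset.abs_sum_le_sum_abs _ _).trans (Finset.sum_le_sum fun v _ => ?_)
  rw [abs_mul]
  exact mul_le_mul_of_nonneg_left (abs_le_nrm h0 hl v) (abs_nonneg _)

theorem integrable_lin_mul (hP : PlaneState P) (s s' : Finset P2) (f f' : P2 → ℝ) :
    Integrable (fun h => lin s f h * lin s' f' h) P := by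
  have := hP.prob
  refine Integrable.of_bound
    (((measurable_lin s f).mul (measurable_lin s' f')).aestronglyMeasurable) (bd s f * bd s' f') ?_
  filter_upwards [hP.abs_lin_le s f, hP.abs_lin_le s' f'] with h h1 h2
  rw [Real.norm_eq_abs, abs_mul]
  exact mul_le_mul h1 h2 (abs_nonneg _) (bd_nonneg _ _)

/-- variogram -/
def vg (P : Measure Ht) (p : P2) : ℝ := ∫ h, (h p) ^ 2 ∂P

/-- invariance of second moments of neutral linear functionals under a symmetry -/
theorem sq_inv (hP : PlaneState P) {T : Ht → Ht}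
    (hT : ∀ F : Ht → ℝ, Obs F → ∫ h, F (T h) ∂P = ∫ h, F h ∂P)
    {s s' : Finset P2} {f f' : P2 → ℝ} (hf : ∑ v ∈ s, f v = 0)
    (hlin : ∀ h, lin s f (T h) = lin s' f' h) :
    ∫ h, lin s f h ^ 2 ∂P = ∫ h, lin s' f' h ^ 2 ∂P := by
  classical
  set C := max (bd s f) (bd s' f') with hC
  have hC0 : 0 ≤ C := (bd_nonneg s f).trans (le_max_left _ _)
  have hO : Obs (fun h => cl C (lin s f h) ^ 2) :=
    { meas := ((measurable_cl C).comp (measurable_lin s f)).pow_const 2
      bdd := ⟨C ^ 2, fun h => by
        rw [abs_of_nonneg (sq_nonneg _), ← sq_abs]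
        exact pow_le_pow_left₀ (abs_nonneg _) (abs_cl_le hC0 _) 2⟩
      loc := ⟨s, fun h g hg => by
        have e := lin_loc s f h g hg
        simp only [e]⟩
      neut := fun h c => by
        have e := lin_neut hf h c
        simp only [e] }
  have h1 : ∫ h, lin s f h ^ 2 ∂P = ∫ h, cl C (lin s f h) ^ 2 ∂P := by
    refine integral_congr_ae ?_
    filter_upwards [hP.abs_lin_le s f] with h hh
    rw [cl_eq (hh.trans (le_max_left _ _))]
  have h2 : ∫ h, lin s' f' h ^ 2 ∂P = ∫ h, cl C (lin s f (T h)) ^ 2 ∂P := by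
    refine integral_congr_ae ?_
    filter_upwards [hP.abs_lin_le s' f'] with h hh
    rw [hlin, cl_eq (hh.trans (le_max_right _ _))]
  rw [h1, h2]
  exact (hT _ hO).symm

end PlaneState

end Crest.Agent.R144.Ps643
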