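import Crest.Agent.R144.Ps0_643

/-!
# R144 (helper643): the variogram of a plane state satisfies `Two`
-/

set_option autoImplicit false

noncomputable section

namespace Crest.Agent.R144.Ps643

open MeasureTheory Filter Topology Finset
open Crest.ProbabilityR.HexHeights (Adj)
open Crest.Agent.R144.Tp952
open scoped ComplexConjugate

namespace PlaneState

variable {P : Measure Ht}

/-- invariance of the second moment of a neutral local functional -/
theorem sq_inv' {T : Ht → Ht}
    (hT : ∀ F : Ht → ℝ, Obs F → ∫ h, F (T h) ∂P = ∫ h, F h ∂P)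
    {X : Ht → ℝ} (hm : Measurable X) (hl : FinLoc X) (hn : Neut X) {C : ℝ} (hC0 : 0 ≤ C)
    (h1 : ∀ᵐ h ∂P, |X h| ≤ C) (h2 : ∀ᵐ h ∂P, |X (T h)| ≤ C) :
    ∫ h, X (T h) ^ 2 ∂P = ∫ h, X h ^ 2 ∂P := by
  have hO : Obs (fun h => cl C (X h) ^ 2) :=
    { meas := ((measurable_cl C).comp hm).pow_const 2
      bdd := ⟨C ^ 2, fun h => by
        rw [abs_of_nonneg (sq_nonneg _), ← sq_abs]
        exact pow_le_pow_left₀ (abs_nonneg _) (abs_cl_le hC0 _) 2⟩
      loc := by
        obtain ⟨s, hs⟩ := hl
        exact ⟨s, fun h g hg => by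
          have e := hs h g hg
          simp only [e]⟩
      neut := fun h c => by
        have e := hn h c
        simp only [e] }
  have e1 : ∫ h, X h ^ 2 ∂P = ∫ h, cl C (X h) ^ 2 ∂P := by
    refine integral_congr_ae ?_
    filter_upwards [h1] with h hh
    rw [cl_eq hh]
  have e2 : ∫ h, X (T h) ^ 2 ∂P = ∫ h, cl C (X (T h)) ^ 2 ∂P := by
    refine integral_congr_ae ?_
    filter_upwards [h2] with h hh
    rw [cl_eq hh]
  rw [e1, e2]
  exact hT _ hO

theorem abs_sub_le' (hP : PlaneState P) (p q : P2) :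
    ∀ᵐ h ∂P, |h p - h q| ≤ (nrm p + nrm q : ℝ) := by
  filter_upwards [hP.zero, hP.lip] with h h0 hl
  have h1 := abs_le_nrm h0 hl p
  have h2 := abs_le_nrm h0 hl q
  exact (abs_sub _ _).trans (by linarith)

/-- invariance of variogram increments -/
theorem inc_inv (hP : PlaneState P) {σ : P2 → P2}
    (hT : ∀ F : Ht → ℝ, Obs F → ∫ h, F (act σ h) ∂P = ∫ h, F h ∂P) (p q : P2) :
    ∫ h, (h (σ p) - h (σ q)) ^ 2 ∂P = ∫ h, (h p - h q) ^ 2 ∂P := by
  set C : ℝ := max ((nrm p + nrm q : ℝ)) (nrm (σ p) + nrm (σ q) : ℝ) with hC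
  have hC0 : 0 ≤ C := le_trans (by positivity) (le_max_left _ _)
  refine sq_inv' (X := fun h => h p - h q) hT ?_ ?_ ?_ hC0 ?_ ?_
  · exact (measurable_pi_apply p).sub (measurable_pi_apply q)
  · refine ⟨{p, q}, fun h g hg => ?_⟩
    have h1 := hg p (by simp)
    have h2 := hg q (by simp)
    simp only [h1, h2]
  · intro h c
    simp only
    ring
  · filter_upwards [hP.abs_sub_le' p q] with h hh
    exact hh.trans (le_max_left _ _)
  · filter_upwards [hP.abs_sub_le' (σ p) (σ q)] with h hh
    exact hh.trans (le_max_right _ _)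

theorem vg_sub (hP : PlaneState P) (p q : P2) : vg P (p - q) = ∫ h, (h p - h q) ^ 2 ∂P := by
  have h1 := hP.inc_inv (hP.tr q) (p - q) 0
  have e1 : Ps643.tr q (p - q) = p := by unfold Ps643.tr; abel
  have e2 : Ps643.tr q 0 = q := by unfold Ps643.tr; simp
  rw [e1, e2] at h1
  rw [h1]
  unfold vg
  refine integral_congr_ae ?_
  filter_upwards [hP.zero] with h h0
  rw [h0, sub_zero]

theorem integrable_inc (hP : PlaneState P) (p q : P2) :
    Integrable (fun h : Ht => (h p - h q) ^ 2) P := by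
  have := hP.prob
  refine Integrable.of_bound
    ((((measurable_pi_apply p).sub (measurable_pi_apply q)).pow_const 2).aestronglyMeasurable)
    ((nrm p + nrm q : ℝ) ^ 2) ?_
  filter_upwards [hP.abs_sub_le' p q] with h hh
  rw [Real.norm_eq_abs, abs_of_nonneg (sq_nonneg _), ← sq_abs]
  exact pow_le_pow_left₀ (abs_nonneg _) hh 2

/-- polarised identity -/
theorem sum_inc {s : Finset P2} {f : P2 → ℝ} {t : Finset P2} {g : P2 → ℝ}
    (hf : ∑ v ∈ s, f v = 0) (hg : ∑ v ∈ t, g v = 0) (a b : P2 → ℝ) :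
    ∑ p ∈ s, ∑ q ∈ t, f p * g q * (a p - b q) ^ 2 =
      -2 * ((∑ p ∈ s, f p * a p) * (∑ q ∈ t, g q * b q)) := by
  have h1 : ∀ p ∈ s, ∑ q ∈ t, f p * g q * (a p - b q) ^ 2 =
      f p * (∑ q ∈ t, g q * b q ^ 2) - 2 * (f p * a p) * (∑ q ∈ t, g q * b q) := by
    intro p _
    have h2 : ∀ q ∈ t, f p * g q * (a p - b q) ^ 2 =
        (f p * a p ^ 2) * g q + f p * (g q * b q ^ 2) - 2 * (f p * a p) * (g q * b q) :=
      fun q _ => by ring
    rw [Finset.sum_congr rfl h2, Finset.sum_sub_distrib, Finset.sum_add_distrib,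
      ← Finset.mul_sum, ← Finset.mul_sum, ← Finset.mul_sum, hg, mul_zero, zero_add]
  rw [Finset.sum_congr rfl h1, Finset.sum_sub_distrib, ← Finset.sum_mul, ← Finset.sum_mul, hf,
    zero_mul, zero_sub, ← Finset.mul_sum]
  ring

/-- covariance of neutral linear functionals -/
theorem cov_eq (hP : PlaneState P) {s : Finset P2} {f : P2 → ℝ} {t : Finset P2} {g : P2 → ℝ}
    (hf : ∑ v ∈ s, f v = 0) (hg : ∑ v ∈ t, g v = 0) (σ : P2 → P2) :
    ∫ h, lin s f h * lin t g (act σ h) ∂P =
      -(1 / 2) * ∑ p ∈ s, ∑ q ∈ t, f p * g q * vg P (p - σ q) := by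
  have h1 : ∀ h : Ht, lin s f h * lin t g (act σ h) =
      ∑ p ∈ s, ∑ q ∈ t, -(1 / 2) * (f p * g q) * (h p - h (σ q)) ^ 2 := by
    intro h
    have h2 := sum_inc hf hg h (fun v => h (σ v))
    have h3 : ∑ p ∈ s, ∑ q ∈ t, -(1 / 2) * (f p * g q) * (h p - h (σ q)) ^ 2 =
        -(1 / 2) * ∑ p ∈ s, ∑ q ∈ t, f p * g q * (h p - h (σ q)) ^ 2 := by
      rw [Finset.mul_sum]
      refine Finset.sum_congr rfl fun p _ => ?_
      rw [Finset.mul_sum]
      exact Finset.sum_congr rfl fun q _ => by ring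
    rw [h3, h2]
    unfold lin act
    ring
  simp_rw [h1]
  rw [integral_finsetSum _ fun p _ => integrable_finsetSum _ fun q _ =>
    (hP.integrable_inc p (σ q)).const_mul _, Finset.mul_sum]
  refine Finset.sum_congr rfl fun p _ => ?_
  rw [integral_finsetSum _ fun q _ => (hP.integrable_inc p (σ q)).const_mul _, Finset.mul_sum]
  refine Finset.sum_congr rfl fun q _ => ?_
  rw [integral_const_mul, hP.vg_sub]
  ring

/-- **the variogram of a plane state** -/
theorem two_of_plane (hP : PlaneState P) : Two (vg P) where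
  zero := by
    unfold vg
    rw [integral_eq_zero_of_ae]
    filter_upwards [hP.zero] with h h0
    simp [h0]
  neg := fun p => by
    have h1 := hP.vg_sub 0 p
    have h2 := hP.vg_sub p 0
    rw [zero_sub] at h1
    rw [sub_zero] at h2
    rw [h1, h2]
    refine integral_congr_ae (Eventually.of_forall fun h => ?_)
    simp only
    ring
  swap := fun p => by
    have h1 := hP.inc_inv hP.swap p 0
    have e : sw 0 = 0 := rfl
    have h2 := hP.vg_sub (sw p) 0
    have h3 := hP.vg_sub p 0
    rw [sub_zero] at h2 h3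
    rw [h2, h3, ← h1, e]
  theta := fun p => by
    have h1 := hP.inc_inv hP.theta p 0
    have e : th 0 = 0 := rfl
    have h2 := hP.vg_sub (th p) 0
    have h3 := hP.vg_sub p 0
    rw [sub_zero] at h2 h3
    rw [h2, h3, ← h1, e]
  pd := fun s f hf => by
    have h1 := hP.cov_eq hf hf id
    have h2 : 0 ≤ ∫ h, lin s f h * lin s f (act id h) ∂P := by
      refine integral_nonneg fun h => ?_
      show 0 ≤ lin s f h * lin s f h
      exact mul_self_nonneg _
    rw [h1] at h2
    simp only [id] at h2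
    linarith
  rp := fun s f hs hf => by
    have h1 := hP.cov_eq hf hf th
    set C : ℝ := bd s f with hC
    have hC0 : 0 ≤ C := bd_nonneg s f
    have hb : ∀ᵐ h ∂P, |lin s f (act th h)| ≤ C := by
      filter_upwards [hP.zero, hP.lip] with h h0 hl
      have h0' : (act th h) 0 = 0 := h0
      have hl' : ∀ u v, Adj u v → |act th h u - act th h v| ≤ 1 := by
        intro u v huv
        refine hl _ _ ?_
        unfold Adj th at *
        simp only
        omega
      unfold lin bd at *
      refine (Finset.abs_sum_le_sum_abs _ _).trans (Finset.sum_le_sum fun v _ => ?_)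
      rw [abs_mul]
      exact mul_le_mul_of_nonneg_left (abs_le_nrm h0' hl' v) (abs_nonneg _)
    have h2 := hP.rp 0 (fun h => ((cl C (lin s f h) : ℝ) : ℂ))
      (Complex.measurable_ofReal.comp ((measurable_cl C).comp (measurable_lin s f)))
      ⟨C, fun h => by
        rw [Complex.norm_real, Real.norm_eq_abs]
        exact abs_cl_le hC0 _⟩
      (fun h c => by
        have e := lin_neut hf h c
        simp [e])
      ⟨s, hs, fun h g hg => by
        have e := lin_loc s f h g hg
        simp only [e]⟩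
    have h3 : ∫ h, conj ((cl C (lin s f (act th h)) : ℝ) : ℂ) * ((cl C (lin s f h) : ℝ) : ℂ) ∂P =
        ((∫ h, lin s f h * lin s f (act th h) ∂P : ℝ) : ℂ) := by
      refine Eq.trans ?_ integral_complex_ofReal
      refine integral_congr_ae ?_
      filter_upwards [hP.abs_lin_le s f, hb] with h e1 e2
      rw [cl_eq e1, cl_eq e2, Complex.conj_ofReal]
      push_cast
      ring
    rw [h3, Complex.ofReal_re, h1] at h2
    linarith

end PlaneState

end Crest.Agent.R144.Ps643
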