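import Mathlib

set_option autoImplicit false

open Set Filter Topology Metric
open scoped ContDiff Manifold

namespace Crest.Agent.R144.Push938

noncomputable section

/-- the planar cross product. -/
def cr (a b : ℂ) : ℝ := a.re * b.im - a.im * b.re

lemma cr_self (a : ℂ) : cr a a = 0 := by unfold cr; ring
lemma cr_I (a : ℂ) : cr a (Complex.I * a) = ‖a‖ ^ 2 := by
  rw [← Complex.normSq_eq_norm_sq, Complex.normSq_apply]
  unfold cr; simp
lemma cr_add (a b c : ℂ) : cr a (b + c) = cr a b + cr a c := by unfold cr; simp; ring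
lemma cr_smul (a b : ℂ) (t : ℝ) : cr a (t • b) = t * cr a b := by unfold cr; simp; ring
lemma cr_neg (a b : ℂ) : cr a (-b) = - cr a b := by unfold cr; simp; ring

lemma continuous_cr : Continuous (fun p : ℂ × ℂ => cr p.1 p.2) := by
  unfold cr; fun_prop

lemma abs_cr_le (a b : ℂ) : |cr a b| ≤ 2 * (‖a‖ * ‖b‖) := by
  unfold cr
  have h1 := Complex.abs_re_le_norm a
  have h2 := Complex.abs_im_le_norm a
  have h3 := Complex.abs_re_le_norm b
  have h4 := Complex.abs_im_le_norm b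
  calc |a.re * b.im - a.im * b.re| ≤ |a.re * b.im| + |a.im * b.re| := abs_sub _ _
    _ = |a.re| * |b.im| + |a.im| * |b.re| := by rw [abs_mul, abs_mul]
    _ ≤ ‖a‖ * ‖b‖ + ‖a‖ * ‖b‖ := by gcongr
    _ = _ := by ring

/-- `D` bounded, open, connected, with boundary a simple closed regular `C¹` curve. -/
structure Jor (D : Set ℂ) (γ : ℝ → ℂ) : Prop where
  op : IsOpen D
  bd : Bornology.IsBounded D
  conn : IsConnected D
  c1 : ContDiff ℝ 1 γ
  per : Function.Periodic γ (2 * Real.pi)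
  reg : ∀ s : ℝ, deriv γ s ≠ 0
  inj : InjOn γ (Ico 0 (2 * Real.pi))
  rng : range γ = frontier D

variable {D : Set ℂ} {γ : ℝ → ℂ}

namespace Jor

lemma pos2pi : (0 : ℝ) < 2 * Real.pi := by positivity

lemma per' (h : Jor D γ) : Function.Periodic (deriv γ) (2 * Real.pi) := by
  intro s
  have : (fun t => γ (t + 2 * Real.pi)) = γ := funext h.per
  rw [← deriv_comp_add_const, this]

lemma exists_red (h : Jor D γ) (s : ℝ) :
    ∃ s' ∈ Ico 0 (2 * Real.pi), γ s = γ s' ∧ deriv γ s = deriv γ s' := by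
  refine ⟨toIcoMod pos2pi 0 s, ?_, ?_, ?_⟩
  · simpa using toIcoMod_mem_Ico pos2pi 0 s
  · rw [toIcoMod]; exact (h.per.sub_zsmul_eq _).symm
  · rw [toIcoMod]; exact (h.per'.sub_zsmul_eq _).symm

lemma deriv_eq (h : Jor D γ) {s t : ℝ} (e : γ s = γ t) : deriv γ s = deriv γ t := by
  obtain ⟨s', hs', e1, e2⟩ := h.exists_red s
  obtain ⟨t', ht', e3, e4⟩ := h.exists_red t
  have : s' = t' := h.inj hs' ht' (by rw [← e1, ← e3, e])
  rw [e2, e4, this]

lemma cont (h : Jor D γ) : Continuous γ := h.c1.continuous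
lemma cont' (h : Jor D γ) : Continuous (deriv γ) := h.c1.continuous_deriv le_rfl

lemma rng_compact (h : Jor D γ) : IsCompact (range γ) := by
  have : range γ = γ '' Icc 0 (2 * Real.pi) := by
    apply Subset.antisymm
    · rintro _ ⟨s, rfl⟩
      obtain ⟨s', hs', e1, -⟩ := h.exists_red s
      exact ⟨s', Ico_subset_Icc_self hs', e1.symm⟩
    · exact image_subset_range _ _
  rw [this]
  exact isCompact_Icc.image h.cont

/-- tangents at nearby points of the curve are close. -/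
lemma near (h : Jor D γ) (s₀ : ℝ) {U : Set ℂ} (hU : IsOpen U) (h0 : deriv γ s₀ ∈ U) :
    ∀ᶠ z in 𝓝 (γ s₀), ∀ s, γ s = z → deriv γ s ∈ U := by
  let K : Set ℝ := Icc 0 (2 * Real.pi) ∩ (deriv γ) ⁻¹' Uᶜ
  have hK : IsCompact K := isCompact_Icc.inter_right (hU.isClosed_compl.preimage h.cont')
  have hc : IsClosed (γ '' K) := (hK.image h.cont).isClosed
  have hn : γ s₀ ∉ γ '' K := by
    rintro ⟨s, ⟨-, hs⟩, e⟩
    exact hs (by rw [h.deriv_eq e]; exact h0)
  filter_upwards [hc.isOpen_compl.mem_nhds hn] with z hz s hs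
  by_contra hcon
  obtain ⟨s', hs', e1, e2⟩ := h.exists_red s
  exact hz ⟨s', ⟨Ico_subset_Icc_self hs', by simpa [← e2] using hcon⟩, by rw [← e1, hs]⟩

/-- a smooth, compactly supported field transversal to the curve. -/
lemma exists_field (h : Jor D γ) : ∃ X : ℂ → ℂ, ContDiff ℝ ∞ X ∧ HasCompactSupport X ∧
    ∀ s, 0 < cr (deriv γ s) (X (γ s)) := by
  obtain ⟨R, hR⟩ : ∃ R : ℝ, range γ ⊆ ball 0 R := h.rng_compact.isBounded.subset_ball 0
  let t : ℂ → Set ℂ := fun z => {v | (∀ s, γ s = z → 0 < cr (deriv γ s) v) ∧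
    (z ∉ closedBall 0 (R + 1) → v = 0)}
  have ht : ∀ z, Convex ℝ (t z) := by
    intro z v hv w hw a b ha hb hab
    refine ⟨fun s hs => ?_, fun hz => ?_⟩
    · rw [cr_add, cr_smul, cr_smul]
      have h1 := hv.1 s hs
      have h2 := hw.1 s hs
      rcases ha.eq_or_lt with rfl | ha'
      · have : b = 1 := by linarith
        subst this; simpa using h2
      · have := mul_pos ha' h1
        have := mul_nonneg hb h2.le
        linarith
    · rw [hv.2 hz, hw.2 hz]; simp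
  have hl : ∀ z : ℂ, ∃ c : ℂ, ∀ᶠ y in 𝓝 z, c ∈ t y := by
    intro z
    by_cases hz : z ∈ range γ
    · obtain ⟨s₀, rfl⟩ := hz
      refine ⟨Complex.I * deriv γ s₀, ?_⟩
      have hU : IsOpen {w : ℂ | 0 < cr w (Complex.I * deriv γ s₀)} :=
        isOpen_lt continuous_const (continuous_cr.comp (by fun_prop : Continuous fun w : ℂ =>
          (w, Complex.I * deriv γ s₀)))
      have h0 : deriv γ s₀ ∈ {w : ℂ | 0 < cr w (Complex.I * deriv γ s₀)} := by
        show 0 < cr (deriv γ s₀) (Complex.I * deriv γ s₀)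
        rw [cr_I]; exact pow_pos (norm_pos_iff.2 (h.reg s₀)) 2
      have hb : ball (0 : ℂ) R ∈ 𝓝 (γ s₀) := isOpen_ball.mem_nhds (hR ⟨s₀, rfl⟩)
      filter_upwards [h.near s₀ hU h0, hb] with y hy hyb
      refine ⟨fun s hs => hy s hs, fun hn => (hn ?_).elim⟩
      rw [mem_ball] at hyb; rw [mem_closedBall]; linarith
    · refine ⟨0, ?_⟩
      filter_upwards [h.rng_compact.isClosed.isOpen_compl.mem_nhds hz] with y hy
      exact ⟨fun s hs => (hy ⟨s, hs⟩).elim, fun _ => rfl⟩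
  obtain ⟨g, hg⟩ := exists_contMDiffMap_forall_mem_convex_of_local_const (n := (⊤ : ℕ∞))
    (𝓘(ℝ, ℂ)) (t := t) ht hl
  refine ⟨g, g.contMDiff.contDiff, ?_, fun s => (hg (γ s)).1 s rfl⟩
  refine HasCompactSupport.intro (isCompact_closedBall (0 : ℂ) (R + 1)) fun z hz => (hg z).2 hz

/-- local form of transversality. -/
lemma displaced_loc (h : Jor D γ) {X : ℂ → ℂ} (hX : Continuous X)
    (hp : ∀ s, 0 < cr (deriv γ s) (X (γ s))) (a : ℝ) :
    ∀ᶠ p : ℝ × ℝ in 𝓝 (a, a), ∀ t : ℝ, t ≠ 0 → γ p.1 + t • X (γ p.1) ≠ γ p.2 := by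
  set v := deriv γ a with hv
  have hvp : 0 < ‖v‖ := norm_pos_iff.2 (h.reg a)
  set m := cr v (X (γ a)) / 2 with hm
  have hmp : 0 < m := by have := hp a; rw [hm]; positivity
  set M := ‖X (γ a)‖ + 1 with hM
  have hMp : 0 < M := by positivity
  obtain ⟨c, hc, hc2⟩ : ∃ c : ℝ, 0 < c ∧ c * (2 * ‖v‖ * M / m + 1) < ‖v‖ := by
    refine ⟨‖v‖ / (2 * (2 * ‖v‖ * M / m + 1)), by positivity, ?_⟩
    rw [div_mul_eq_mul_div, div_lt_iff₀ (by positivity)]
    have : 0 < 2 * ‖v‖ * M / m + 1 := by positivity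
    nlinarith [mul_pos hvp this]
  have hs : HasStrictDerivAt γ v a := h.c1.contDiffAt.hasStrictDerivAt one_ne_zero
  have e1 : ∀ᶠ p : ℝ × ℝ in 𝓝 (a, a), ‖γ p.1 - γ p.2 - (p.1 - p.2) • v‖ ≤ c * ‖p.1 - p.2‖ := by
    have := (hasStrictFDerivAt_iff_isLittleO.1 hs.hasStrictFDerivAt).def hc
    filter_upwards [this] with p hp
    simpa using hp
  have e2 : ∀ᶠ p : ℝ × ℝ in 𝓝 (a, a), m < cr v (X (γ p.1)) := by
    have hcn : Continuous fun p : ℝ × ℝ => cr v (X (γ p.1)) :=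
      continuous_cr.comp (continuous_const.prodMk (hX.comp (h.cont.comp continuous_fst)))
    refine (hcn.tendsto (a, a)).eventually_const_lt ?_
    have := hp a
    rw [hm]; simp only; linarith
  have e3 : ∀ᶠ p : ℝ × ℝ in 𝓝 (a, a), ‖X (γ p.1)‖ < M := by
    have hcn : Continuous fun p : ℝ × ℝ => ‖X (γ p.1)‖ :=
      (hX.comp (h.cont.comp continuous_fst)).norm
    refine (hcn.tendsto (a, a)).eventually_lt_const ?_
    rw [hM]; simp
  filter_upwards [e1, e2, e3] with p h1 h2 h3 t ht he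
  have hd : γ p.1 - γ p.2 = -(t • X (γ p.1)) := by rw [← he]; simp
  have h4 : |t| * m ≤ 2 * ‖v‖ * (c * ‖p.1 - p.2‖) := by
    have h5 : cr v (γ p.1 - γ p.2 - (p.1 - p.2) • v) = -(t * cr v (X (γ p.1))) := by
      rw [sub_eq_add_neg, cr_add, hd, cr_neg, cr_smul, cr_neg, cr_smul, cr_self]; ring
    have h6 := abs_cr_le v (γ p.1 - γ p.2 - (p.1 - p.2) • v)
    rw [h5, abs_neg, abs_mul] at h6
    have h7 : |t| * m ≤ |t| * |cr v (X (γ p.1))| :=
      mul_le_mul_of_nonneg_left (h2.le.trans (le_abs_self _)) (abs_nonneg _)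
    calc |t| * m ≤ _ := h7
      _ ≤ _ := h6
      _ ≤ _ := by
        have := mul_le_mul_of_nonneg_left h1 (norm_nonneg v)
        linarith
  have h8 : ‖p.1 - p.2‖ * ‖v‖ ≤ |t| * M + c * ‖p.1 - p.2‖ := by
    have : (p.1 - p.2) • v = (γ p.1 - γ p.2) - (γ p.1 - γ p.2 - (p.1 - p.2) • v) := by
      simp
    have h9 : ‖(p.1 - p.2) • v‖ ≤ ‖γ p.1 - γ p.2‖ + ‖γ p.1 - γ p.2 - (p.1 - p.2) • v‖ := by
      calc ‖(p.1 - p.2) • v‖ = ‖(γ p.1 - γ p.2) - (γ p.1 - γ p.2 - (p.1 - p.2) • v)‖ := by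
            rw [← this]
        _ ≤ _ := norm_sub_le _ _
    rw [norm_smul, hd, norm_neg, norm_smul, Real.norm_eq_abs t] at h9
    rw [hd] at h1
    have := mul_le_mul_of_nonneg_left h3.le (abs_nonneg t)
    linarith
  have hxy : 0 < ‖p.1 - p.2‖ := by
    rw [norm_pos_iff]
    intro h0
    have : p.1 = p.2 := sub_eq_zero.1 h0
    rw [this, sub_self] at hd
    have h10 : t • X (γ p.2) = 0 := by
      have := hd.symm; simpa using this
    rcases smul_eq_zero.1 h10 with h11 | h11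
    · exact ht h11
    · have := hp p.2
      rw [h11] at this; unfold cr at this; simp at this
  have h12 : |t| ≤ 2 * ‖v‖ * (c * ‖p.1 - p.2‖) / m := by
    rw [le_div_iff₀ hmp]; exact h4
  have h13 : ‖p.1 - p.2‖ * ‖v‖ ≤ ‖p.1 - p.2‖ * (c * (2 * ‖v‖ * M / m + 1)) := by
    calc ‖p.1 - p.2‖ * ‖v‖ ≤ |t| * M + c * ‖p.1 - p.2‖ := h8
      _ ≤ 2 * ‖v‖ * (c * ‖p.1 - p.2‖) / m * M + c * ‖p.1 - p.2‖ := by gcongr
      _ = _ := by ring
  have h14 := le_of_mul_le_mul_left h13 hxy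
  linarith

/-- transversality: the displaced curve does not meet the curve. -/
lemma displaced (h : Jor D γ) {X : ℂ → ℂ} (hX : Continuous X)
    (hp : ∀ s, 0 < cr (deriv γ s) (X (γ s))) :
    ∃ t₀ > 0, ∀ s t : ℝ, t ≠ 0 → |t| < t₀ → γ s + t • X (γ s) ∉ range γ := by
  by_contra hcon
  push Not at hcon
  have hk : ∀ k : ℕ, ∃ p ∈ Icc (0 : ℝ) (2 * Real.pi) ×ˢ Icc (0 : ℝ) (2 * Real.pi), ∃ t : ℝ,
      t ≠ 0 ∧ |t| < 1 / ((k : ℝ) + 1) ∧ γ p.1 + t • X (γ p.1) = γ p.2 := by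
    intro k
    obtain ⟨s, t, ht0, ht, r, hr⟩ := hcon (1 / ((k : ℝ) + 1)) (by positivity)
    obtain ⟨s', hs', e1, -⟩ := h.exists_red s
    obtain ⟨r', hr', e2, -⟩ := h.exists_red r
    refine ⟨(s', r'), ⟨Ico_subset_Icc_self hs', Ico_subset_Icc_self hr'⟩, t, ht0, ht, ?_⟩
    simp only
    rw [← e1, ← e2, hr]
  choose p hp' t ht0 htk hpt using hk
  obtain ⟨⟨a, b⟩, -, φ, hφ, hlim⟩ := (isCompact_Icc.prod isCompact_Icc).tendsto_subseq hp'
  have ha : Tendsto (fun k => (p (φ k)).1) atTop (𝓝 a) := (continuous_fst.tendsto _).comp hlim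
  have hb : Tendsto (fun k => (p (φ k)).2) atTop (𝓝 b) := (continuous_snd.tendsto _).comp hlim
  have htz : Tendsto (fun k => t (φ k)) atTop (𝓝 0) := by
    have h0 : Tendsto t atTop (𝓝 0) := by
      refine squeeze_zero_norm (fun k => ?_) tendsto_one_div_add_atTop_nhds_zero_nat
      exact (htk k).le
    exact h0.comp hφ.tendsto_atTop
  have hab : γ a = γ b := by
    have h1 : Tendsto (fun k => γ (p (φ k)).1 + t (φ k) • X (γ (p (φ k)).1)) atTop
        (𝓝 (γ a + (0 : ℝ) • X (γ a))) :=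
      ((h.cont.tendsto _).comp ha).add (htz.smul (((hX.comp h.cont).tendsto _).comp ha))
    have h2 : Tendsto (fun k => γ (p (φ k)).2) atTop (𝓝 (γ b)) := (h.cont.tendsto _).comp hb
    have h3 : (fun k => γ (p (φ k)).1 + t (φ k) • X (γ (p (φ k)).1)) =
        fun k => γ (p (φ k)).2 := funext fun k => hpt _
    rw [h3] at h1
    have := tendsto_nhds_unique h1 h2
    simpa using this
  obtain ⟨n, hn⟩ : ∃ n : ℤ, b = a + n • (2 * Real.pi) := by
    have e1 : toIcoMod pos2pi 0 a = toIcoMod pos2pi 0 b := by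
      refine h.inj (by simpa using toIcoMod_mem_Ico pos2pi 0 a)
        (by simpa using toIcoMod_mem_Ico pos2pi 0 b) ?_
      rw [toIcoMod, toIcoMod, h.per.sub_zsmul_eq, h.per.sub_zsmul_eq, hab]
    refine ⟨toIcoDiv pos2pi 0 b - toIcoDiv pos2pi 0 a, ?_⟩
    rw [toIcoMod, toIcoMod] at e1
    rw [sub_smul]
    linarith
  have hb' : Tendsto (fun k => (p (φ k)).2 - n • (2 * Real.pi)) atTop (𝓝 a) := by
    have := hb.sub_const (n • (2 * Real.pi))
    rwa [hn, add_sub_cancel_right] at this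
  have hpair : Tendsto (fun k => ((p (φ k)).1, (p (φ k)).2 - n • (2 * Real.pi))) atTop
      (𝓝 (a, a)) := ha.prodMk_nhds hb'
  obtain ⟨k, hk⟩ := (hpair.eventually (h.displaced_loc hX hp a)).exists
  refine hk (t (φ k)) (ht0 _) ?_
  simp only
  rw [hpt, h.per.sub_zsmul_eq]

/-- the tube map is a local homeomorphism at the curve. -/
lemma tube_nhds (h : Jor D γ) {X : ℂ → ℂ} (hX : ContDiff ℝ ∞ X)
    (hp : ∀ s, 0 < cr (deriv γ s) (X (γ s))) (s : ℝ) :
    map (fun p : ℝ × ℝ => γ p.1 + p.2 • X (γ p.1)) (𝓝 (s, 0)) = 𝓝 (γ s) := by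
  set Φ : ℝ × ℝ → ℂ := fun p => γ p.1 + p.2 • X (γ p.1) with hΦ
  have hc : ContDiff ℝ 1 Φ := by
    have h1 : ContDiff ℝ 1 fun p : ℝ × ℝ => γ p.1 := h.c1.comp contDiff_fst
    have hX1 : ContDiff ℝ 1 X := hX.of_le (by exact_mod_cast le_top)
    exact h1.add (contDiff_snd.smul (hX1.comp h1))
  have hs : HasStrictFDerivAt Φ (fderiv ℝ Φ (s, 0)) (s, 0) :=
    hc.contDiffAt.hasStrictFDerivAt one_ne_zero
  have d1 : fderiv ℝ Φ (s, 0) (1, 0) = deriv γ s := by
    have hl : HasDerivAt (fun τ : ℝ => ((τ, 0) : ℝ × ℝ)) (1, 0) s :=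
      (hasDerivAt_id s).prodMk (hasDerivAt_const s 0)
    have := hs.hasFDerivAt.comp_hasDerivAt s hl
    have h2 : HasDerivAt γ (deriv γ s) s :=
      (h.c1.differentiable one_ne_zero s).hasDerivAt
    have e : Φ ∘ (fun τ : ℝ => ((τ, 0) : ℝ × ℝ)) = γ := by
      funext τ; simp [hΦ]
    rw [e] at this
    exact this.unique h2
  have d2 : fderiv ℝ Φ (s, 0) (0, 1) = X (γ s) := by
    have hl : HasDerivAt (fun τ : ℝ => ((s, τ) : ℝ × ℝ)) (0, 1) 0 :=
      (hasDerivAt_const (0 : ℝ) s).prodMk (hasDerivAt_id 0)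
    have := hs.hasFDerivAt.comp_hasDerivAt 0 hl
    have h2 : HasDerivAt (Φ ∘ (fun τ : ℝ => ((s, τ) : ℝ × ℝ))) (X (γ s)) 0 := by
      have e : Φ ∘ (fun τ : ℝ => ((s, τ) : ℝ × ℝ)) = fun τ : ℝ => γ s + τ • X (γ s) := by
        funext τ; simp [hΦ]
      rw [e]
      have h3 := ((hasDerivAt_id (0 : ℝ)).smul_const (X (γ s))).const_add (γ s)
      simpa using h3
    exact this.unique h2
  have hr : (fderiv ℝ Φ (s, 0)).range = ⊤ := by
    rw [LinearMap.range_eq_top]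
    intro w
    set c := cr (deriv γ s) (X (γ s)) with hcd
    have hc0 : c ≠ 0 := (hp s).ne'
    refine ⟨(cr w (X (γ s)) / c, cr (deriv γ s) w / c), ?_⟩
    have e : ((cr w (X (γ s)) / c, cr (deriv γ s) w / c) : ℝ × ℝ) =
        (cr w (X (γ s)) / c) • ((1, 0) : ℝ × ℝ) + (cr (deriv γ s) w / c) • ((0, 1) : ℝ × ℝ) := by
      simp
    show fderiv ℝ Φ (s, 0) _ = w
    rw [e, map_add, map_smul, map_smul, d1, d2]
    apply Complex.ext
    · simp only [Complex.add_re, Complex.real_smul, Complex.re_ofReal_mul]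
      rw [div_mul_eq_mul_div, div_mul_eq_mul_div, ← add_div, div_eq_iff hc0, hcd]
      unfold cr; ring
    · simp only [Complex.add_im, Complex.real_smul, Complex.im_ofReal_mul]
      rw [div_mul_eq_mul_div, div_mul_eq_mul_div, ← add_div, div_eq_iff hc0, hcd]
      unfold cr; ring
  have := hs.map_nhds_eq_of_surj hr
  rw [this]
  simp [hΦ]

/-- the field pushes the curve outside on one side and inside on the other side. -/
lemma exists_outward (h : Jor D γ) : ∃ X : ℂ → ℂ, ContDiff ℝ ∞ X ∧ HasCompactSupport X ∧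
    (∀ s, cr (deriv γ s) (X (γ s)) ≠ 0) ∧
    ∃ t₀ > 0, (∀ s t : ℝ, 0 < t → t < t₀ → γ s + t • X (γ s) ∉ closure D) ∧
      (∀ s t : ℝ, 0 < t → t < t₀ → γ s - t • X (γ s) ∈ D) := by
  obtain ⟨X, hX, hXc, hp⟩ := h.exists_field
  obtain ⟨t₀, ht₀, hd⟩ := h.displaced hX.continuous hp
  set Φ : ℝ × ℝ → ℂ := fun p => γ p.1 + p.2 • X (γ p.1) with hΦ
  have hΦc : Continuous Φ :=
    (h.cont.comp continuous_fst).add (continuous_snd.smul
      (hX.continuous.comp (h.cont.comp continuous_fst)))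
  have hopen : ∀ s, Φ '' (univ ×ˢ Ioo (-t₀) t₀) ∈ 𝓝 (γ s) := by
    intro s
    rw [← h.tube_nhds hX hp s]
    refine image_mem_map (prod_mem_nhds univ_mem (Ioo_mem_nhds (by linarith) ht₀))
  have hfr : frontier D = closure D \ D := by rw [frontier, h.op.interior_eq]
  have key : ∀ A : Set ℝ, IsPreconnected A → (∀ t ∈ A, t ≠ 0 ∧ |t| < t₀) →
      Φ '' (univ ×ˢ A) ⊆ D ∨ Φ '' (univ ×ˢ A) ⊆ (closure D)ᶜ := by
    intro A hA hAt
    have hpc : IsPreconnected (Φ '' (univ ×ˢ A)) :=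
      (isPreconnected_univ.prod hA).image _ hΦc.continuousOn
    refine hpc.subset_or_subset h.op isClosed_closure.isOpen_compl
      (disjoint_compl_right.mono_left subset_closure) ?_
    rintro _ ⟨⟨s, t⟩, ⟨-, ht⟩, rfl⟩
    have h1 := hd s t (hAt t ht).1 (hAt t ht).2
    rw [h.rng, hfr] at h1
    by_cases h2 : Φ (s, t) ∈ closure D
    · left
      by_contra h3
      exact h1 ⟨h2, h3⟩
    · exact Or.inr h2
  have kp := key (Ioo 0 t₀) isPreconnected_Ioo fun t ht =>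
    ⟨ht.1.ne', by rw [abs_of_pos ht.1]; exact ht.2⟩
  have km := key (Ioo (-t₀) 0) isPreconnected_Ioo fun t ht =>
    ⟨ht.2.ne, by rw [abs_of_neg ht.2]; linarith [ht.1]⟩
  have hsplit : ∀ s : ℝ, ∀ᶠ z in 𝓝 (γ s), z ∈ Φ '' (univ ×ˢ Ioo 0 t₀) ∨
      z ∈ Φ '' (univ ×ˢ Ioo (-t₀) 0) ∨ z ∈ range γ := by
    intro s
    filter_upwards [hopen s] with z hz
    obtain ⟨⟨a, t⟩, ⟨-, ht⟩, rfl⟩ := hz
    rcases lt_trichotomy t 0 with h1 | h1 | h1
    · exact Or.inr (Or.inl ⟨(a, t), ⟨mem_univ _, ht.1, h1⟩, rfl⟩)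
    · subst h1
      exact Or.inr (Or.inr ⟨a, by simp [hΦ]⟩)
    · exact Or.inl ⟨(a, t), ⟨mem_univ _, h1, ht.2⟩, rfl⟩
  have hγcl : ∀ s, γ s ∈ closure D := fun s => by
    have : γ s ∈ frontier D := h.rng ▸ ⟨s, rfl⟩
    exact frontier_subset_closure this
  have hγn : ∀ s, γ s ∉ D := fun s hs => by
    have : γ s ∈ frontier D := h.rng ▸ ⟨s, rfl⟩
    rw [hfr] at this
    exact this.2 hs
  rcases kp with kp | kp <;> rcases km with km | km
  · -- both sides in D: D ∪ range γ is clopen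
    exfalso
    have hcl : IsOpen (closure D) := by
      rw [isOpen_iff_mem_nhds]
      intro z hz
      by_cases hzD : z ∈ D
      · exact mem_of_superset (h.op.mem_nhds hzD) subset_closure
      · have : z ∈ range γ := by rw [h.rng, hfr]; exact ⟨hz, hzD⟩
        obtain ⟨s, rfl⟩ := this
        filter_upwards [hsplit s] with w hw
        rcases hw with hw | hw | ⟨a, rfl⟩
        · exact subset_closure (kp hw)
        · exact subset_closure (km hw)
        · exact hγcl a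
    have huniv : closure D = univ :=
      IsClopen.eq_univ ⟨isClosed_closure, hcl⟩ h.conn.nonempty.closure
    have hb := h.bd.closure
    rw [huniv] at hb
    exact NormedSpace.unbounded_univ ℝ ℂ hb
  · -- plus side in D: replace X by -X
    refine ⟨-X, hX.neg, hXc.neg, fun s => ?_, t₀, ht₀, fun s t h1 h2 => ?_, fun s t h1 h2 => ?_⟩
    · simp only [Pi.neg_apply]; rw [cr_neg]; exact (neg_neg_of_pos (hp s)).ne
    · have := km ⟨(s, -t), ⟨mem_univ _, by linarith, by linarith⟩, rfl⟩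
      simpa [hΦ] using this
    · have := kp ⟨(s, t), ⟨mem_univ _, h1, h2⟩, rfl⟩
      simpa [hΦ] using this
  · refine ⟨X, hX, hXc, fun s => (hp s).ne', t₀, ht₀, fun s t h1 h2 => ?_, fun s t h1 h2 => ?_⟩
    · have := kp ⟨(s, t), ⟨mem_univ _, h1, h2⟩, rfl⟩
      simpa [hΦ] using this
    · have := km ⟨(s, -t), ⟨mem_univ _, by linarith, by linarith⟩, rfl⟩
      simpa [hΦ, sub_eq_add_neg] using this
  · -- both sides outside
    exfalso
    have hs0 := hγcl 0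
    obtain ⟨z, hz, hzD⟩ := mem_closure_iff_nhds.1 hs0 _ (hsplit 0)
    rcases hz with hz | hz | ⟨a, rfl⟩
    · exact kp hz (subset_closure hzD)
    · exact km hz (subset_closure hzD)
    · exact hγn a hzD

/-- PUSH: a diffeomorphism of the plane, as close to the identity as one likes, which maps `D` onto
a neighbourhood of its closure. -/
theorem exists_push (h : Jor D γ) {ε : ℝ} (hε : 0 < ε) : ∃ Ψ : ℂ ≃ₜ ℂ,
    ContDiff ℝ ∞ (Ψ : ℂ → ℂ) ∧ ContDiff ℝ ∞ (Ψ.symm : ℂ → ℂ) ∧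
    HasCompactSupport (fun z => Ψ z - z) ∧ (∀ z, ‖Ψ z - z‖ ≤ ε) ∧
    (∀ z, ‖fderiv ℝ (Ψ : ℂ → ℂ) z - ContinuousLinearMap.id ℝ ℂ‖ ≤ ε) ∧
    closure D ⊆ Ψ '' D := by
  obtain ⟨X, hX, hXc, -, t₀, ht₀, hout, -⟩ := h.exists_outward
  obtain ⟨B, hB⟩ : ∃ B, ∀ z, ‖X z‖ ≤ B := hXc.exists_bound_of_continuous hX.continuous
  have hXd : Differentiable ℝ X := hX.differentiable (by simp)
  obtain ⟨L, hL⟩ : ∃ L, ∀ z, ‖fderiv ℝ X z‖ ≤ L :=
    (hXc.fderiv (𝕜 := ℝ)).exists_bound_of_continuous (hX.continuous_fderiv (by simp))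
  have hB0 : 0 ≤ B := (norm_nonneg _).trans (hB 0)
  have hL0 : 0 ≤ L := (norm_nonneg _).trans (hL 0)
  obtain ⟨z₀, hz₀⟩ := h.conn.nonempty
  obtain ⟨r, hr, hball⟩ := Metric.isOpen_iff.1 h.op z₀ hz₀
  -- choice of the time
  obtain ⟨t, ht, htt, h1, h2, h3, h4⟩ : ∃ t : ℝ, 0 < t ∧ t < t₀ ∧ t * B ≤ ε ∧ t * L ≤ ε ∧
      t * L ≤ 1 / 2 ∧ t * B < r := by
    refine ⟨min (t₀ / 2) (min (ε / (B + 1)) (min (ε / (L + 1)) (min (1 / (2 * (L + 1)))
      (r / (2 * (B + 1)))))), by positivity, ?_, ?_, ?_, ?_, ?_⟩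
    · exact (min_le_left _ _).trans_lt (by linarith)
    · have : min (t₀ / 2) (min (ε / (B + 1)) (min (ε / (L + 1)) (min (1 / (2 * (L + 1)))
        (r / (2 * (B + 1)))))) ≤ ε / (B + 1) := (min_le_right _ _).trans (min_le_left _ _)
      calc _ ≤ ε / (B + 1) * B := by gcongr
        _ ≤ ε := by rw [div_mul_eq_mul_div, div_le_iff₀ (by positivity)]; nlinarith
    · have : min (t₀ / 2) (min (ε / (B + 1)) (min (ε / (L + 1)) (min (1 / (2 * (L + 1)))
        (r / (2 * (B + 1)))))) ≤ ε / (L + 1) :=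
        (min_le_right _ _).trans ((min_le_right _ _).trans (min_le_left _ _))
      calc _ ≤ ε / (L + 1) * L := by gcongr
        _ ≤ ε := by rw [div_mul_eq_mul_div, div_le_iff₀ (by positivity)]; nlinarith
    · have : min (t₀ / 2) (min (ε / (B + 1)) (min (ε / (L + 1)) (min (1 / (2 * (L + 1)))
        (r / (2 * (B + 1)))))) ≤ 1 / (2 * (L + 1)) :=
        (min_le_right _ _).trans ((min_le_right _ _).trans ((min_le_right _ _).trans
          (min_le_left _ _)))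
      calc _ ≤ 1 / (2 * (L + 1)) * L := by gcongr
        _ ≤ 1 / 2 := by rw [div_mul_eq_mul_div, div_le_iff₀ (by positivity)]; nlinarith
    · have : min (t₀ / 2) (min (ε / (B + 1)) (min (ε / (L + 1)) (min (1 / (2 * (L + 1)))
        (r / (2 * (B + 1)))))) ≤ r / (2 * (B + 1)) :=
        (min_le_right _ _).trans ((min_le_right _ _).trans ((min_le_right _ _).trans
          (min_le_right _ _)))
      calc _ ≤ r / (2 * (B + 1)) * B := by gcongr
        _ < r := by rw [div_mul_eq_mul_div, div_lt_iff₀ (by positivity)]; nlinarith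
  set F : ℂ → ℂ := fun z => z + t • X z with hF
  have hFs : ContDiff ℝ ∞ F := contDiff_id.add (hX.const_smul t)
  have hFd : ∀ z, HasFDerivAt F (ContinuousLinearMap.id ℝ ℂ + t • fderiv ℝ X z) z := fun z =>
    (hasFDerivAt_id z).add ((hXd z).hasFDerivAt.const_smul t)
  have hlip : LipschitzWith (Real.toNNReal L) X := by
    refine lipschitzWith_of_nnnorm_fderiv_le hXd fun z => ?_
    rw [← NNReal.coe_le_coe, coe_nnnorm, Real.coe_toNNReal _ hL0]
    exact hL z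
  have hcpos : 0 ≤ t * L := mul_nonneg ht.le hL0
  have hap : ApproximatesLinearOn F ((ContinuousLinearEquiv.refl ℝ ℂ : ℂ ≃L[ℝ] ℂ) : ℂ →L[ℝ] ℂ) univ
      (Real.toNNReal (t * L)) := by
    intro x _ y _
    have e : F x - F y - ((ContinuousLinearEquiv.refl ℝ ℂ : ℂ ≃L[ℝ] ℂ) : ℂ →L[ℝ] ℂ) (x - y) =
        t • (X x - X y) := by
      simp [hF, smul_sub]; ring
    rw [e, norm_smul, Real.norm_of_nonneg ht.le, Real.coe_toNNReal _ hcpos, mul_assoc]
    have := hlip.dist_le_mul x y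
    rw [dist_eq_norm, dist_eq_norm, Real.coe_toNNReal _ hL0] at this
    gcongr
  have hc : Subsingleton ℂ ∨ Real.toNNReal (t * L) <
      ‖(((ContinuousLinearEquiv.refl ℝ ℂ : ℂ ≃L[ℝ] ℂ).symm : ℂ ≃L[ℝ] ℂ) : ℂ →L[ℝ] ℂ)‖₊⁻¹ := by
    right
    have e : ‖(((ContinuousLinearEquiv.refl ℝ ℂ : ℂ ≃L[ℝ] ℂ).symm : ℂ ≃L[ℝ] ℂ) : ℂ →L[ℝ] ℂ)‖₊ = 1 := by
      have : (((ContinuousLinearEquiv.refl ℝ ℂ : ℂ ≃L[ℝ] ℂ).symm : ℂ ≃L[ℝ] ℂ) : ℂ →L[ℝ] ℂ) =
          ContinuousLinearMap.id ℝ ℂ := rfl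
      rw [this]
      ext
      simp
    rw [e, inv_one, ← NNReal.coe_lt_coe, Real.coe_toNNReal _ hcpos]
    simp only [NNReal.coe_one]
    linarith
  set Ψ : ℂ ≃ₜ ℂ := hap.toHomeomorph F hc with hΨ
  have hΨF : (Ψ : ℂ → ℂ) = F := rfl
  have hder : ∀ z, ‖t • fderiv ℝ X z‖ ≤ t * L := fun z => by
    rw [norm_smul, Real.norm_of_nonneg ht.le]; gcongr; exact hL z
  have hinv : ContDiff ℝ ∞ (Ψ.symm : ℂ → ℂ) := by
    have hlt : ∀ z, ‖-(t • fderiv ℝ X z)‖ < 1 := fun z => by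
      rw [norm_neg]; exact (hder z).trans_lt (by linarith)
    refine Ψ.contDiff_symm (f₀' := fun z => ContinuousLinearEquiv.unitsEquiv ℝ ℂ
      (Units.oneSub (-(t • fderiv ℝ X z)) (hlt z))) (fun z => ?_) hFs
    have : ((ContinuousLinearEquiv.unitsEquiv ℝ ℂ (Units.oneSub (-(t • fderiv ℝ X z)) (hlt z)) :
        ℂ ≃L[ℝ] ℂ) : ℂ →L[ℝ] ℂ) = ContinuousLinearMap.id ℝ ℂ + t • fderiv ℝ X z := by
      ext w <;> simp
    rw [this]
    exact hFd z
  refine ⟨Ψ, hFs, hinv, ?_, fun z => ?_, fun z => ?_, ?_⟩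
  · have : (fun z => Ψ z - z) = fun z => t • X z := by
      funext z; rw [hΨF]; simp [hF]
    rw [this]
    exact hXc.smul_left (f := fun _ => t)
  · rw [hΨF]
    have : F z - z = t • X z := by simp [hF]
    rw [this, norm_smul, Real.norm_of_nonneg ht.le]
    exact (mul_le_mul_of_nonneg_left (hB z) ht.le).trans h1
  · rw [hΨF, (hFd z).fderiv, add_sub_cancel_left]
    exact (hder z).trans h2
  · have hV : IsOpen (Ψ '' D) := Ψ.isOpenMap _ h.op
    have hfrV : frontier (Ψ '' D) = Ψ '' frontier D := (Ψ.image_frontier D).symm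
    have hcov : closure D ⊆ Ψ '' D ∪ (closure (Ψ '' D))ᶜ := by
      intro x hx
      by_cases h5 : x ∈ closure (Ψ '' D)
      · left
        by_contra h6
        have h7 : x ∈ frontier (Ψ '' D) := by
          rw [frontier, hV.interior_eq]; exact ⟨h5, h6⟩
        rw [hfrV, ← h.rng] at h7
        obtain ⟨_, ⟨s, rfl⟩, rfl⟩ := h7
        exact hout s t ht htt hx
      · exact Or.inr h5
    rcases h.conn.isPreconnected.closure.subset_or_subset hV isClosed_closure.isOpen_compl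
      (disjoint_compl_right.mono_left subset_closure) hcov with h5 | h5
    · exact h5
    · exfalso
      refine h5 (subset_closure hz₀) (subset_closure ⟨Ψ.symm z₀, ?_, Ψ.apply_symm_apply z₀⟩)
      apply hball
      rw [mem_ball, dist_comm, dist_eq_norm]
      have : z₀ - Ψ.symm z₀ = t • X (Ψ.symm z₀) := by
        have e : F (Ψ.symm z₀) = z₀ := Ψ.apply_symm_apply z₀
        rw [sub_eq_iff_eq_add, add_comm]
        exact e.symm
      rw [this, norm_smul, Real.norm_of_nonneg ht.le]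
      exact (mul_le_mul_of_nonneg_left (hB _) ht.le).trans_lt h4

end Jor

end

end Crest.Agent.R144.Push938
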