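import Crest.Agent.R144.RegR_136
import Mathlib.Analysis.SpecialFunctions.Integrals.Basic
import Mathlib.Analysis.SpecialFunctions.Trigonometric.Bounds

/-!
# R144, REG block (helper136), part G: the massive Green function of the triangular lattice

`Gr β` (`0 ≤ β < 1`) is `∑ β ^ n P ^ n`, `P` = simple random walk kernel.  `RC` holds for it
(`rc_Gr`): reflection positivity comes from the explicit formula `Gr = Kt` (one integral over the
tangential momentum of rank one kernels).  `tendsto_Kn`: `Gr β p / Gr β 0 → 1` as `β → 1`.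
-/

set_option autoImplicit false

noncomputable section

namespace Crest.Agent.R144.Reg136

open Finset Filter Topology MeasureTheory

/-- average over the six neighbours -/
def avg (h : ℤ × ℤ → ℝ) (p : ℤ × ℤ) : ℝ :=
  (h (p.1 + 1, p.2) + h (p.1 - 1, p.2) + h (p.1, p.2 + 1) + h (p.1, p.2 - 1)
    + h (p.1 + 1, p.2 - 1) + h (p.1 - 1, p.2 + 1)) / 6

/-- `n`-step transition probabilities from the origin -/
def pn : ℕ → ℤ × ℤ → ℝ
  | 0 => fun p => if p = (0, 0) then 1 else 0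
  | n + 1 => avg (pn n)

theorem pn_succ (n : ℕ) (p : ℤ × ℤ) : pn (n + 1) p = avg (pn n) p := rfl

theorem pn_nonneg (n : ℕ) (p : ℤ × ℤ) : 0 ≤ pn n p := by
  induction n generalizing p with
  | zero => unfold pn; split_ifs <;> norm_num
  | succ n ih =>
    rw [pn_succ]
    unfold avg
    have := ih (p.1 + 1, p.2)
    have := ih (p.1 - 1, p.2)
    have := ih (p.1, p.2 + 1)
    have := ih (p.1, p.2 - 1)
    have := ih (p.1 + 1, p.2 - 1)
    have := ih (p.1 - 1, p.2 + 1)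
    positivity

theorem pn_le_one (n : ℕ) (p : ℤ × ℤ) : pn n p ≤ 1 := by
  induction n generalizing p with
  | zero => unfold pn; split_ifs <;> norm_num
  | succ n ih =>
    rw [pn_succ]
    unfold avg
    have := ih (p.1 + 1, p.2)
    have := ih (p.1 - 1, p.2)
    have := ih (p.1, p.2 + 1)
    have := ih (p.1, p.2 - 1)
    have := ih (p.1 + 1, p.2 - 1)
    have := ih (p.1 - 1, p.2 + 1)
    linarith

theorem pn_zero_of (n : ℕ) (p : ℤ × ℤ) (hp : 2 * n < p.1.natAbs + p.2.natAbs) : pn n p = 0 := by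
  induction n generalizing p with
  | zero =>
    unfold pn
    rw [if_neg]
    rintro rfl
    simp at hp
  | succ n ih =>
    rw [pn_succ]
    unfold avg
    rw [ih (p.1 + 1, p.2) (by simp only; omega), ih (p.1 - 1, p.2) (by simp only; omega),
      ih (p.1, p.2 + 1) (by simp only; omega), ih (p.1, p.2 - 1) (by simp only; omega),
      ih (p.1 + 1, p.2 - 1) (by simp only; omega), ih (p.1 - 1, p.2 + 1) (by simp only; omega)]
    norm_num

theorem pn_even (n : ℕ) (x y : ℤ) : pn n (-x, -y) = pn n (x, y) := by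
  induction n generalizing x y with
  | zero => simp [pn]
  | succ n ih =>
    rw [pn_succ, pn_succ]
    unfold avg
    simp only
    rw [← ih (x + 1) y, ← ih (x - 1) y, ← ih x (y + 1), ← ih x (y - 1), ← ih (x + 1) (y - 1),
      ← ih (x - 1) (y + 1)]
    have e1 : -(x + 1) = -x - 1 := by ring
    have e2 : -(x - 1) = -x + 1 := by ring
    have e3 : -(y + 1) = -y - 1 := by ring
    have e4 : -(y - 1) = -y + 1 := by ring
    rw [e1, e2, e3, e4]
    ring

theorem pn_swap (n : ℕ) (x y : ℤ) : pn n (y, x) = pn n (x, y) := by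
  induction n generalizing x y with
  | zero => simp [pn, and_comm]
  | succ n ih =>
    rw [pn_succ, pn_succ]
    unfold avg
    simp only
    rw [ih (x + 1) y, ih (x - 1) y, ih x (y + 1), ih x (y - 1), ih (x + 1) (y - 1),
      ih (x - 1) (y + 1)]
    ring

theorem pn_theta (n : ℕ) (x y : ℤ) : pn n (x + y, -y) = pn n (x, y) := by
  induction n generalizing x y with
  | zero =>
    simp only [pn, Prod.mk.injEq]
    congr 1
    simp only [eq_iff_iff]
    constructor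
    · rintro ⟨h1, h2⟩; constructor <;> omega
    · rintro ⟨h1, h2⟩; constructor <;> omega
  | succ n ih =>
    rw [pn_succ, pn_succ]
    unfold avg
    simp only
    rw [← ih (x + 1) y, ← ih (x - 1) y, ← ih x (y + 1), ← ih x (y - 1), ← ih (x + 1) (y - 1),
      ← ih (x - 1) (y + 1)]
    have e1 : x + 1 + y = x + y + 1 := by ring
    have e2 : x - 1 + y = x + y - 1 := by ring
    have e3 : x + (y + 1) = x + y + 1 := by ring
    have e4 : x + (y - 1) = x + y - 1 := by ring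
    have e5 : x + 1 + (y - 1) = x + y := by ring
    have e6 : x - 1 + (y + 1) = x + y := by ring
    have e7 : -(y + 1) = -y - 1 := by ring
    have e8 : -(y - 1) = -y + 1 := by ring
    rw [e1, e2, e3, e4, e5, e6, e7, e8]
    ring

/-- the massive Green function -/
def Gr (β : ℝ) (p : ℤ × ℤ) : ℝ := ∑' n, β ^ n * pn n p

section

variable {β : ℝ}

theorem summable_Gr (h0 : 0 ≤ β) (h1 : β < 1) (p : ℤ × ℤ) : Summable fun n => β ^ n * pn n p :=
  Summable.of_nonneg_of_le (fun n => mul_nonneg (pow_nonneg h0 n) (pn_nonneg n p))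
    (fun n => mul_le_of_le_one_right (pow_nonneg h0 n) (pn_le_one n p))
    (summable_geometric_of_lt_one h0 h1)

theorem Gr_nonneg (h0 : 0 ≤ β) (p : ℤ × ℤ) : 0 ≤ Gr β p :=
  tsum_nonneg fun n => mul_nonneg (pow_nonneg h0 n) (pn_nonneg n p)

theorem Gr_zero_pos (h0 : 0 ≤ β) (h1 : β < 1) : 1 ≤ Gr β (0, 0) := by
  have h2 := (summable_Gr h0 h1 (0, 0)).sum_le_tsum {0}
    (fun n _ => mul_nonneg (pow_nonneg h0 n) (pn_nonneg n (0, 0)))
  simpa [pn, Gr] using h2

/-- exponential decay with rate `√β` -/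
theorem Gr_le (h0 : 0 ≤ β) (h1 : β < 1) (p : ℤ × ℤ) :
    Gr β p ≤ (1 - β)⁻¹ * Real.sqrt β ^ (p.1.natAbs + p.2.natAbs) := by
  set N := p.1.natAbs + p.2.natAbs with hN
  set m := (N + 1) / 2 with hm
  have hsplit := (summable_Gr h0 h1 p).sum_add_tsum_nat_add m
  have hz : ∑ n ∈ range m, β ^ n * pn n p = 0 := by
    refine sum_eq_zero fun n hn => ?_
    rw [pn_zero_of n p (by have := mem_range.1 hn; omega), mul_zero]
  unfold Gr
  rw [← hsplit, hz, zero_add]
  have hs := summable_geometric_of_lt_one h0 h1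
  have h2 : ∑' n, β ^ (n + m) * pn (n + m) p ≤ ∑' n, β ^ m * β ^ n := by
    refine ((summable_nat_add_iff m).2 (summable_Gr h0 h1 p)).tsum_le_tsum (fun n => ?_)
      (hs.mul_left _)
    rw [pow_add, mul_comm (β ^ n)]
    exact mul_le_of_le_one_right (by positivity) (pn_le_one _ p)
  refine h2.trans ?_
  rw [tsum_mul_left, tsum_geometric_of_lt_one h0 h1, mul_comm]
  refine mul_le_mul_of_nonneg_left ?_ (inv_nonneg.2 (by linarith))
  have h3 : β ^ m = Real.sqrt β ^ (2 * m) := by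
    rw [pow_mul, Real.sq_sqrt h0]
  rw [h3]
  exact pow_le_pow_of_le_one (Real.sqrt_nonneg _) (Real.sqrt_le_one.2 h1.le) (by omega)

theorem Gr_eq (h0 : 0 ≤ β) (h1 : β < 1) (p : ℤ × ℤ) :
    Gr β p = pn 0 p + β * avg (Gr β) p := by
  have hs := summable_Gr h0 h1
  have e : avg (Gr β) p = ∑' n, β ^ n * pn (n + 1) p := by
    unfold avg Gr
    rw [← (hs (p.1 + 1, p.2)).tsum_add (hs (p.1 - 1, p.2)),
      ← ((hs (p.1 + 1, p.2)).add (hs (p.1 - 1, p.2))).tsum_add (hs (p.1, p.2 + 1)),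
      ← (((hs (p.1 + 1, p.2)).add (hs (p.1 - 1, p.2))).add (hs (p.1, p.2 + 1))).tsum_add
        (hs (p.1, p.2 - 1)),
      ← ((((hs (p.1 + 1, p.2)).add (hs (p.1 - 1, p.2))).add (hs (p.1, p.2 + 1))).add
        (hs (p.1, p.2 - 1))).tsum_add (hs (p.1 + 1, p.2 - 1)),
      ← (((((hs (p.1 + 1, p.2)).add (hs (p.1 - 1, p.2))).add (hs (p.1, p.2 + 1))).add
        (hs (p.1, p.2 - 1))).add (hs (p.1 + 1, p.2 - 1))).tsum_add (hs (p.1 - 1, p.2 + 1)),
      ← tsum_div_const]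
    refine tsum_congr fun n => ?_
    rw [pn_succ]
    unfold avg
    ring
  rw [e, ← tsum_mul_left]
  unfold Gr
  rw [(hs p).tsum_eq_zero_add]
  congr 1
  · simp
  · refine tsum_congr fun n => ?_
    rw [pow_succ]
    ring

/-! ### the explicit formula -/

def aa (β κ : ℝ) : ℝ := 1 - β / 3 * Real.cos κ
def bb (β κ : ℝ) : ℝ := β / 3 * Real.cos (κ / 2)
def dd (β κ : ℝ) : ℝ := Real.sqrt (aa β κ ^ 2 - 4 * bb β κ ^ 2)
def lam (β κ : ℝ) : ℝ := 2 * bb β κ / (aa β κ + dd β κ)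

theorem aa_ge (h0 : 0 ≤ β) (h1 : β < 1) (κ : ℝ) : 2 / 3 ≤ aa β κ := by
  unfold aa
  have := Real.cos_le_one κ
  nlinarith

theorem aa_le (h0 : 0 ≤ β) (h1 : β < 1) (κ : ℝ) : aa β κ ≤ 4 / 3 := by
  unfold aa
  have := Real.neg_one_le_cos κ
  nlinarith

theorem aa_sub (h0 : 0 ≤ β) (κ : ℝ) : 1 - β ≤ aa β κ - 2 * bb β κ := by
  unfold aa bb
  have := Real.cos_le_one κ
  have := Real.cos_le_one (κ / 2)
  nlinarith

theorem aa_add (h0 : 0 ≤ β) (κ : ℝ) : 1 - β ≤ aa β κ + 2 * bb β κ := by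
  unfold aa bb
  have := Real.cos_le_one κ
  have := Real.neg_one_le_cos (κ / 2)
  nlinarith

theorem disc_pos (h0 : 0 ≤ β) (h1 : β < 1) (κ : ℝ) : 0 < aa β κ ^ 2 - 4 * bb β κ ^ 2 := by
  have h2 := aa_sub h0 κ
  have h3 := aa_add h0 κ
  have : aa β κ ^ 2 - 4 * bb β κ ^ 2 = (aa β κ - 2 * bb β κ) * (aa β κ + 2 * bb β κ) := by ring
  rw [this]
  exact mul_pos (by linarith) (by linarith)

theorem dd_pos (h0 : 0 ≤ β) (h1 : β < 1) (κ : ℝ) : 0 < dd β κ := Real.sqrt_pos.2 (disc_pos h0 h1 κ)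

theorem dd_sq (h0 : 0 ≤ β) (h1 : β < 1) (κ : ℝ) :
    dd β κ ^ 2 = aa β κ ^ 2 - 4 * bb β κ ^ 2 := Real.sq_sqrt (disc_pos h0 h1 κ).le

theorem dd_le (h0 : 0 ≤ β) (h1 : β < 1) (κ : ℝ) : dd β κ ≤ aa β κ := by
  have := aa_ge h0 h1 κ
  refine Real.sqrt_le_iff.2 ⟨by linarith, ?_⟩
  nlinarith [sq_nonneg (bb β κ)]

theorem continuous_dd (β : ℝ) : Continuous (dd β) := by unfold dd aa bb; fun_prop

theorem den_pos (h0 : 0 ≤ β) (h1 : β < 1) (κ : ℝ) : 0 < aa β κ + dd β κ := by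
  have := aa_ge h0 h1 κ
  have := dd_pos h0 h1 κ
  linarith

theorem continuous_lam (h0 : 0 ≤ β) (h1 : β < 1) : Continuous (lam β) := by
  unfold lam
  refine Continuous.div ?_ ?_ fun κ => (den_pos h0 h1 κ).ne'
  · unfold bb; fun_prop
  · exact (by unfold aa; fun_prop : Continuous (aa β)).add (continuous_dd β)

theorem lam_eq (h0 : 0 ≤ β) (h1 : β < 1) (κ : ℝ) :
    aa β κ * lam β κ = bb β κ * (lam β κ ^ 2 + 1) := by
  have h2 := (den_pos h0 h1 κ).ne'
  have h3 := dd_sq h0 h1 κ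
  unfold lam
  field_simp
  linear_combination (-bb β κ) * h3

theorem lam_eq0 (h0 : 0 ≤ β) (h1 : β < 1) (κ : ℝ) :
    aa β κ - 2 * bb β κ * lam β κ = dd β κ := by
  have h2 := (den_pos h0 h1 κ).ne'
  have h3 := dd_sq h0 h1 κ
  unfold lam
  field_simp
  linear_combination (-1) * h3

theorem abs_lam_le (h0 : 0 ≤ β) (h1 : β < 1) (κ : ℝ) : |lam β κ| ≤ 1 := by
  have h2 := den_pos h0 h1 κ
  have h3 := aa_sub h0 κ
  have h4 := aa_add h0 κ
  have h5 := dd_pos h0 h1 κ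
  unfold lam
  rw [abs_div, abs_of_pos h2, div_le_one h2, abs_le]
  constructor <;> linarith

theorem bb_nonneg (h0 : 0 ≤ β) {κ : ℝ} (hκ : |κ| ≤ Real.pi) : 0 ≤ bb β κ := by
  unfold bb
  have := abs_le.1 hκ
  refine mul_nonneg (by positivity) (Real.cos_nonneg_of_neg_pi_div_two_le_of_le ?_ ?_) <;> linarith

theorem lam_nonneg (h0 : 0 ≤ β) (h1 : β < 1) {κ : ℝ} (hκ : |κ| ≤ Real.pi) : 0 ≤ lam β κ :=
  div_nonneg (mul_nonneg two_pos.le (bb_nonneg h0 hκ)) (den_pos h0 h1 κ).le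

/-- integrand of the explicit formula -/
def ki (β : ℝ) (p : ℤ × ℤ) (κ : ℝ) : ℝ :=
  (dd β κ)⁻¹ * lam β κ ^ p.2.natAbs * Real.cos (κ * ((p.1 : ℝ) + p.2 / 2))

/-- explicit formula -/
def Kt (β : ℝ) (p : ℤ × ℤ) : ℝ := (2 * Real.pi)⁻¹ * ∫ κ in (-Real.pi)..Real.pi, ki β p κ

theorem continuous_ki (h0 : 0 ≤ β) (h1 : β < 1) (p : ℤ × ℤ) : Continuous (ki β p) := by
  unfold ki
  have h2 := continuous_lam h0 h1
  have h3 := (continuous_dd β).inv₀ fun κ => (dd_pos h0 h1 κ).ne'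
  exact (h3.mul (h2.pow _)).mul (by fun_prop)

theorem ki_int (h0 : 0 ≤ β) (h1 : β < 1) (p : ℤ × ℤ) (a b : ℝ) :
    IntervalIntegrable (ki β p) volume a b := (continuous_ki h0 h1 p).intervalIntegrable a b

theorem ki_eq (h0 : 0 ≤ β) (h1 : β < 1) (x n : ℤ) (κ : ℝ) :
    ki β (x, n) κ - β / 6 * (ki β (x + 1, n) κ + ki β (x - 1, n) κ + ki β (x, n + 1) κ
      + ki β (x, n - 1) κ + ki β (x + 1, n - 1) κ + ki β (x - 1, n + 1) κ)
      = if n = 0 then Real.cos (κ * x) else 0 := by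
  set c := Real.cos (κ * ((x : ℝ) + n / 2)) with hc
  set sn := Real.sin (κ * ((x : ℝ) + n / 2)) with hsn
  set L := lam β κ with hL
  set D := (dd β κ)⁻¹ with hD
  have hDd : D * dd β κ = 1 := inv_mul_cancel₀ (dd_pos h0 h1 κ).ne'
  have c1 : Real.cos (κ * (((x + 1 : ℤ) : ℝ) + n / 2)) + Real.cos (κ * (((x - 1 : ℤ) : ℝ) + n / 2))
      = 2 * Real.cos κ * c := by
    have e1 : κ * (((x + 1 : ℤ) : ℝ) + n / 2) = κ * ((x : ℝ) + n / 2) + κ := by push_cast; ring
    have e2 : κ * (((x - 1 : ℤ) : ℝ) + n / 2) = κ * ((x : ℝ) + n / 2) - κ := by push_cast; ring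
    rw [e1, e2, Real.cos_add, Real.cos_sub]
    ring
  have c2 : Real.cos (κ * ((x : ℝ) + ((n + 1 : ℤ) : ℝ) / 2))
      + Real.cos (κ * (((x - 1 : ℤ) : ℝ) + ((n + 1 : ℤ) : ℝ) / 2)) = 2 * Real.cos (κ / 2) * c := by
    have e1 : κ * ((x : ℝ) + ((n + 1 : ℤ) : ℝ) / 2) = κ * ((x : ℝ) + n / 2) + κ / 2 := by
      push_cast; ring
    have e2 : κ * (((x - 1 : ℤ) : ℝ) + ((n + 1 : ℤ) : ℝ) / 2) = κ * ((x : ℝ) + n / 2) - κ / 2 := by
      push_cast; ring
    rw [e1, e2, Real.cos_add, Real.cos_sub]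
    ring
  have c3 : Real.cos (κ * ((x : ℝ) + ((n - 1 : ℤ) : ℝ) / 2))
      + Real.cos (κ * (((x + 1 : ℤ) : ℝ) + ((n - 1 : ℤ) : ℝ) / 2)) = 2 * Real.cos (κ / 2) * c := by
    have e1 : κ * ((x : ℝ) + ((n - 1 : ℤ) : ℝ) / 2) = κ * ((x : ℝ) + n / 2) - κ / 2 := by
      push_cast; ring
    have e2 : κ * (((x + 1 : ℤ) : ℝ) + ((n - 1 : ℤ) : ℝ) / 2) = κ * ((x : ℝ) + n / 2) + κ / 2 := by
      push_cast; ring
    rw [e1, e2, Real.cos_add, Real.cos_sub]
    ring
  have key : ki β (x, n) κ - β / 6 * (ki β (x + 1, n) κ + ki β (x - 1, n) κ + ki β (x, n + 1) κ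
      + ki β (x, n - 1) κ + ki β (x + 1, n - 1) κ + ki β (x - 1, n + 1) κ)
      = D * c * (aa β κ * L ^ n.natAbs
          - bb β κ * (L ^ (n + 1).natAbs + L ^ (n - 1).natAbs)) := by
    simp only [ki, aa, bb]
    rw [← hc, ← hL, ← hD]
    linear_combination (-(β / 6) * D * L ^ n.natAbs) * c1 - (β / 6) * D * L ^ (n + 1).natAbs * c2
      - (β / 6) * D * L ^ (n - 1).natAbs * c3
  rw [key]
  split_ifs with hn
  · subst hn
    have e := lam_eq0 h0 h1 κ
    rw [← hL] at e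
    simp only [zero_add, zero_sub, Int.natAbs_zero, pow_zero, Int.natAbs_one, pow_one,
      Int.natAbs_neg]
    have e2 : c = Real.cos (κ * x) := by rw [hc]; simp
    rw [← e2]
    linear_combination D * c * e + c * hDd
  · have e := lam_eq h0 h1 κ
    rw [← hL] at e
    rcases lt_or_gt_of_ne hn with h | h
    · obtain ⟨m, hm⟩ : ∃ m : ℕ, n = -(m + 1 : ℤ) := ⟨(-n - 1).toNat, by omega⟩
      have i1 : n.natAbs = m + 1 := by omega
      have i2 : (n + 1).natAbs = m := by omega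
      have i3 : (n - 1).natAbs = m + 2 := by omega
      rw [i1, i2, i3]
      have : aa β κ * L ^ (m + 1) - bb β κ * (L ^ m + L ^ (m + 2))
          = L ^ m * (aa β κ * L - bb β κ * (L ^ 2 + 1)) := by ring
      rw [this, e]
      ring
    · obtain ⟨m, hm⟩ : ∃ m : ℕ, n = (m + 1 : ℤ) := ⟨(n - 1).toNat, by omega⟩
      have i1 : n.natAbs = m + 1 := by omega
      have i2 : (n + 1).natAbs = m + 2 := by omega
      have i3 : (n - 1).natAbs = m := by omega
      rw [i1, i2, i3]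
      have : aa β κ * L ^ (m + 1) - bb β κ * (L ^ (m + 2) + L ^ m)
          = L ^ m * (aa β κ * L - bb β κ * (L ^ 2 + 1)) := by ring
      rw [this, e]
      ring

theorem integral_cos_int (x : ℤ) :
    ∫ κ in (-Real.pi)..Real.pi, Real.cos (κ * x) = if x = 0 then 2 * Real.pi else 0 := by
  split_ifs with h
  · subst h
    simp
    ring
  · have hx : (x : ℝ) ≠ 0 := by exact_mod_cast h
    rw [intervalIntegral.integral_comp_mul_right (fun t => Real.cos t) hx, integral_cos]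
    have e1 : Real.sin (Real.pi * x) = 0 := by rw [mul_comm]; exact Real.sin_int_mul_pi x
    have e2 : Real.sin (-Real.pi * x) = 0 := by
      rw [neg_mul, Real.sin_neg, e1, neg_zero]
    rw [e1, e2]
    simp

theorem Kt_eq (h0 : 0 ≤ β) (h1 : β < 1) (p : ℤ × ℤ) : Kt β p = pn 0 p + β * avg (Kt β) p := by
  obtain ⟨x, n⟩ := p
  have hi := ki_int h0 h1
  have e1 : Kt β (x, n) - β * avg (Kt β) (x, n)
      = (2 * Real.pi)⁻¹ * ∫ κ in (-Real.pi)..Real.pi, (ki β (x, n) κ - β / 6 *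
        (ki β (x + 1, n) κ + ki β (x - 1, n) κ + ki β (x, n + 1) κ
          + ki β (x, n - 1) κ + ki β (x + 1, n - 1) κ + ki β (x - 1, n + 1) κ)) := by
    rw [intervalIntegral.integral_sub (hi _ _ _) ((((((hi _ _ _).add (hi _ _ _)).add
      (hi _ _ _)).add (hi _ _ _)).add (hi _ _ _)).add (hi _ _ _) |>.const_mul _),
      intervalIntegral.integral_const_mul,
      intervalIntegral.integral_add (((((hi _ _ _).add (hi _ _ _)).add (hi _ _ _)).add
        (hi _ _ _)).add (hi _ _ _)) (hi _ _ _),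
      intervalIntegral.integral_add ((((hi _ _ _).add (hi _ _ _)).add (hi _ _ _)).add
        (hi _ _ _)) (hi _ _ _),
      intervalIntegral.integral_add (((hi _ _ _).add (hi _ _ _)).add (hi _ _ _)) (hi _ _ _),
      intervalIntegral.integral_add ((hi _ _ _).add (hi _ _ _)) (hi _ _ _),
      intervalIntegral.integral_add (hi _ _ _) (hi _ _ _)]
    unfold Kt avg
    ring
  simp_rw [ki_eq h0 h1 x n] at e1
  have e2 : (2 * Real.pi)⁻¹ * ∫ κ in (-Real.pi)..Real.pi, (if n = 0 then Real.cos (κ * x) else 0)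
      = pn 0 (x, n) := by
    by_cases hn : n = 0
    · simp only [hn, if_true]
      rw [integral_cos_int]
      have hpi : (2 * Real.pi) ≠ 0 := by positivity
      by_cases hx : x = 0
      · simp only [hx, if_true, pn]
        field_simp
      · simp [hx, pn]
    · simp [hn, pn]
  rw [e2] at e1
  linarith

/-- bounded solutions of `h = β avg h` vanish -/
theorem eq_zero_of_bounded (h0 : 0 ≤ β) (h1 : β < 1) (h : ℤ × ℤ → ℝ) (B : ℝ)
    (hB : ∀ p, |h p| ≤ B) (he : ∀ p, h p = β * avg h p) : ∀ p, h p = 0 := by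
  have hstep : ∀ n : ℕ, ∀ p, |h p| ≤ β ^ n * B := by
    intro n
    induction n with
    | zero => simpa using hB
    | succ n ih =>
      intro p
      rw [he p, abs_mul, abs_of_nonneg h0, pow_succ, mul_comm (β ^ n) β, mul_assoc]
      refine mul_le_mul_of_nonneg_left ?_ h0
      unfold avg
      rw [abs_div, abs_of_pos (by norm_num : (0:ℝ) < 6), div_le_iff₀ (by norm_num)]
      have i1 := ih (p.1 + 1, p.2)
      have i2 := ih (p.1 - 1, p.2)
      have i3 := ih (p.1, p.2 + 1)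
      have i4 := ih (p.1, p.2 - 1)
      have i5 := ih (p.1 + 1, p.2 - 1)
      have i6 := ih (p.1 - 1, p.2 + 1)
      rw [abs_le] at *
      constructor <;> linarith [i1.1, i1.2, i2.1, i2.2, i3.1, i3.2, i4.1, i4.2, i5.1, i5.2,
        i6.1, i6.2]
  intro p
  have hlim : Tendsto (fun n : ℕ => β ^ n * B) atTop (𝓝 (0 * B)) :=
    (tendsto_pow_atTop_nhds_zero_of_lt_one h0 h1).mul_const B
  rw [zero_mul] at hlim
  have := ge_of_tendsto' hlim fun n => hstep n p
  exact abs_nonpos_iff.1 this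

theorem abs_ki_le (h0 : 0 ≤ β) (h1 : β < 1) (p : ℤ × ℤ) (κ : ℝ) : |ki β p κ| ≤ (dd β κ)⁻¹ := by
  unfold ki
  rw [abs_mul, abs_mul, abs_pow, abs_of_pos (inv_pos.2 (dd_pos h0 h1 κ))]
  have h2 : |lam β κ| ^ p.2.natAbs ≤ 1 := pow_le_one₀ (abs_nonneg _) (abs_lam_le h0 h1 κ)
  have h3 := Real.abs_cos_le_one (κ * ((p.1 : ℝ) + p.2 / 2))
  have h4 := (inv_pos.2 (dd_pos h0 h1 κ)).le
  calc (dd β κ)⁻¹ * |lam β κ| ^ p.2.natAbs * |Real.cos (κ * ((p.1 : ℝ) + p.2 / 2))|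
      ≤ (dd β κ)⁻¹ * 1 * 1 := by
        refine mul_le_mul (mul_le_mul_of_nonneg_left h2 h4) h3 (abs_nonneg _) (by positivity)
    _ = _ := by ring

theorem Kt_bounded (h0 : 0 ≤ β) (h1 : β < 1) : ∃ B, ∀ p, |Kt β p| ≤ B := by
  refine ⟨(2 * Real.pi)⁻¹ * ∫ κ in (-Real.pi)..Real.pi, (dd β κ)⁻¹, fun p => ?_⟩
  unfold Kt
  rw [abs_mul, abs_of_pos (by positivity : (0:ℝ) < (2 * Real.pi)⁻¹)]
  refine mul_le_mul_of_nonneg_left ?_ (by positivity)
  have hle : (-Real.pi) ≤ Real.pi := by linarith [Real.pi_pos]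
  refine (intervalIntegral.abs_integral_le_integral_abs hle).trans ?_
  refine intervalIntegral.integral_mono_on hle ((continuous_ki h0 h1 p).abs.intervalIntegrable _ _)
    ?_ fun κ _ => abs_ki_le h0 h1 p κ
  exact ((continuous_dd β).inv₀ fun κ => (dd_pos h0 h1 κ).ne').intervalIntegrable _ _

theorem Gr_eq_Kt (h0 : 0 ≤ β) (h1 : β < 1) (p : ℤ × ℤ) : Gr β p = Kt β p := by
  obtain ⟨B, hB⟩ := Kt_bounded h0 h1
  have h := eq_zero_of_bounded h0 h1 (fun p => Gr β p - Kt β p) ((1 - β)⁻¹ + B) (fun p => ?_)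
    (fun p => ?_) p
  · linarith
  · have h2 : |Gr β p| ≤ (1 - β)⁻¹ := by
      rw [abs_of_nonneg (Gr_nonneg h0 p)]
      refine (Gr_le h0 h1 p).trans ?_
      refine mul_le_of_le_one_right (inv_nonneg.2 (by linarith)) ?_
      exact pow_le_one₀ (Real.sqrt_nonneg _) (Real.sqrt_le_one.2 h1.le)
    exact (abs_sub _ _).trans (add_le_add h2 (hB p))
  · rw [Gr_eq h0 h1 p, Kt_eq h0 h1 p]
    unfold avg
    ring

theorem Gr_rp (h0 : 0 ≤ β) (h1 : β < 1) (s : Finset (ℤ × ℤ)) (f : ℤ × ℤ → ℝ)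
    (hs : ∀ p ∈ s, 0 ≤ p.2) :
    0 ≤ ∑ p ∈ s, ∑ q ∈ s, f p * f q * Gr β (p.1 - q.1 - q.2, p.2 + q.2) := by
  simp_rw [Gr_eq_Kt h0 h1]
  have e : ∑ p ∈ s, ∑ q ∈ s, f p * f q * Kt β (p.1 - q.1 - q.2, p.2 + q.2)
      = (2 * Real.pi)⁻¹ * ∫ κ in (-Real.pi)..Real.pi,
        ∑ p ∈ s, ∑ q ∈ s, f p * f q * ki β (p.1 - q.1 - q.2, p.2 + q.2) κ := by
    rw [intervalIntegral.integral_finsetSum fun p _ => ?_, mul_sum]
    · refine sum_congr rfl fun p _ => ?_
      rw [intervalIntegral.integral_finsetSum fun q _ => (ki_int h0 h1 _ _ _).const_mul _, mul_sum]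
      refine sum_congr rfl fun q _ => ?_
      rw [intervalIntegral.integral_const_mul]
      unfold Kt
      ring
    · exact (continuous_finsetSum _ fun q _ =>
        (continuous_ki h0 h1 _).const_mul _).intervalIntegrable _ _
  rw [e]
  have hle : (-Real.pi) ≤ Real.pi := by linarith [Real.pi_pos]
  refine mul_nonneg (by positivity) (intervalIntegral.integral_nonneg hle fun κ _ => ?_)
  have e2 : ∑ p ∈ s, ∑ q ∈ s, f p * f q * ki β (p.1 - q.1 - q.2, p.2 + q.2) κ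
      = (dd β κ)⁻¹ * ((∑ p ∈ s, f p * lam β κ ^ p.2.natAbs * Real.cos (κ * ((p.1 : ℝ) + p.2 / 2))) ^ 2
        + (∑ p ∈ s, f p * lam β κ ^ p.2.natAbs * Real.sin (κ * ((p.1 : ℝ) + p.2 / 2))) ^ 2) := by
    rw [sq, sq, sum_mul_sum, sum_mul_sum, ← sum_add_distrib, mul_sum]
    refine sum_congr rfl fun p hp => ?_
    rw [← sum_add_distrib, mul_sum]
    refine sum_congr rfl fun q hq => ?_
    unfold ki
    have i1 : (p.2 + q.2).natAbs = p.2.natAbs + q.2.natAbs := by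
      have := hs p hp
      have := hs q hq
      omega
    have i2 : κ * (((p.1 - q.1 - q.2 : ℤ) : ℝ) + ((p.2 + q.2 : ℤ) : ℝ) / 2)
        = κ * ((p.1 : ℝ) + p.2 / 2) - κ * ((q.1 : ℝ) + q.2 / 2) := by push_cast; ring
    simp only
    rw [i1, i2, pow_add, Real.cos_sub]
    ring
  rw [e2]
  exact mul_nonneg (inv_pos.2 (dd_pos h0 h1 κ)).le (by positivity)

theorem Gr_symm (β : ℝ) (x y : ℤ) : Gr β (-x, -y) = Gr β (x, y) ∧ Gr β (x + y, -y) = Gr β (x, y) ∧
    Gr β (y, x) = Gr β (x, y) :=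
  ⟨tsum_congr fun n => by rw [pn_even], tsum_congr fun n => by rw [pn_theta],
    tsum_congr fun n => by rw [pn_swap]⟩

theorem rc_Gr (h0 : 0 ≤ β) (h1 : β < 1) : RC (1 - β)⁻¹ (Real.sqrt β) (Gr β) where
  ρ0 := Real.sqrt_nonneg _
  ρ1 := by rw [Real.sqrt_lt' one_pos]; simpa using h1
  dec p := by rw [abs_of_nonneg (Gr_nonneg h0 p)]; exact Gr_le h0 h1 p
  even x y := (Gr_symm β x y).1
  theta x y := (Gr_symm β x y).2.1
  swap x y := (Gr_symm β x y).2.2
  rp s f hs := Gr_rp h0 h1 s f hs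

end

end Crest.Agent.R144.Reg136
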