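import Mathlib.Analysis.SpecificLimits.Normed
import Mathlib.Analysis.SpecialFunctions.Trigonometric.Basic
import Mathlib.Algebra.Order.Antidiag.Prod
import Mathlib.Topology.Algebra.InfiniteSum.NatInt
import Mathlib.Analysis.PSeries

/-!
# R144, REG block (helper136), part H: Hankel positive sequences

`HP K`   : `(K (n + m))` is positive semidefinite;
`Dec M ρ K` : `|K n| ≤ M ρ ^ n`;
`G φ K n = ∑' m, U_m(cos φ) K (n + m)` : multiplication of the (virtual) moment measure by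
`1 / (1 - 2 λ cos φ + λ ^ 2)`;
`three_point` : the three point inequality (concavity of `1/u` in `s = 2 - 2 cos φ`),
`mono_s`, `mono_4s` : `s u` increases, `(4 - s) u` decreases in `s`.
-/

set_option autoImplicit false

noncomputable section

namespace Crest.Agent.R144.Reg136

open Finset Filter Topology

/-- Hankel positivity. -/
def HP (K : ℕ → ℝ) : Prop :=
  ∀ (s : Finset ℕ) (w : ℕ → ℝ), 0 ≤ ∑ n ∈ s, ∑ m ∈ s, w n * w m * K (n + m)

/-- exponential decay. -/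
def Dec (M ρ : ℝ) (K : ℕ → ℝ) : Prop := ∀ n, |K n| ≤ M * ρ ^ n

theorem HP.family {K : ℕ → ℝ} (h : HP K) {ι : Type*} (t : Finset ι) (n : ι → ℕ) (w : ι → ℝ) :
    0 ≤ ∑ i ∈ t, ∑ j ∈ t, w i * w j * K (n i + n j) := by
  classical
  set s := t.image n with hs
  have hm : ∀ i ∈ t, n i ∈ s := fun i hi => mem_image_of_mem n hi
  have key : ∑ i ∈ t, ∑ j ∈ t, w i * w j * K (n i + n j)
      = ∑ k ∈ s, ∑ l ∈ s, (∑ i ∈ t with n i = k, w i) * (∑ j ∈ t with n j = l, w j) * K (k + l) := by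
    have h1 : ∀ i ∈ t, ∑ j ∈ t, w i * w j * K (n i + n j)
        = ∑ l ∈ s, w i * (∑ j ∈ t with n j = l, w j) * K (n i + l) := by
      intro i _
      rw [← sum_fiberwise_of_maps_to hm]
      refine sum_congr rfl fun l _ => ?_
      rw [mul_sum, sum_mul]
      refine sum_congr rfl fun j hj => ?_
      rw [(mem_filter.1 hj).2]
    rw [sum_congr rfl h1, sum_comm]
    rw [sum_comm (s := s) (t := s)]
    refine sum_congr rfl fun l _ => ?_
    rw [← sum_fiberwise_of_maps_to hm]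
    refine sum_congr rfl fun k _ => ?_
    rw [sum_mul, sum_mul]
    refine sum_congr rfl fun i hi => ?_
    rw [(mem_filter.1 hi).2]
  rw [key]
  exact h s fun k => ∑ i ∈ t with n i = k, w i

theorem HP.shift2 {K : ℕ → ℝ} (h : HP K) (j : ℕ) : HP fun n => K (n + 2 * j) := by
  intro s w
  have := h.family s (fun n => n + j) w
  refine this.trans_eq ?_
  refine sum_congr rfl fun n _ => sum_congr rfl fun m _ => ?_
  congr 2
  ring

theorem HP.zero_nonneg {K : ℕ → ℝ} (h : HP K) : 0 ≤ K 0 := by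
  have := h {0} (fun _ => 1)
  simpa using this

theorem HP.add {K K' : ℕ → ℝ} (h : HP K) (h' : HP K') : HP fun n => K n + K' n := by
  intro s w
  have := add_nonneg (h s w) (h' s w)
  rw [← sum_add_distrib] at this
  refine this.trans_eq (sum_congr rfl fun n _ => ?_)
  rw [← sum_add_distrib]
  exact sum_congr rfl fun m _ => by ring

theorem quad_cs {α β γ : ℝ} (h : ∀ x y : ℝ, 0 ≤ x ^ 2 * α + 2 * x * y * β + y ^ 2 * γ) :
    β ^ 2 ≤ α * γ := by
  have hα : 0 ≤ α := by simpa using h 1 0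
  have hγ : 0 ≤ γ := by simpa using h 0 1
  rcases hγ.eq_or_lt with h0 | h0
  · subst h0
    have h1 := h 1 (-(α + 1) / β)
    by_cases hb : β = 0
    · simp [hb]
    · exfalso
      have e : (1:ℝ) ^ 2 * α + 2 * 1 * (-(α + 1) / β) * β + (-(α + 1) / β) ^ 2 * 0 = -α - 2 := by
        field_simp
        ring
      rw [e] at h1
      linarith
  · have h1 := h γ (-β)
    nlinarith [h1, h0]

/-- `2 × 2` Cauchy-Schwarz for a shifted pair -/
theorem HP.log_convex {K : ℕ → ℝ} (h : HP K) (s : Finset ℕ) (w : ℕ → ℝ) (j : ℕ) :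
    (∑ n ∈ s, ∑ m ∈ s, w n * w m * K (n + m + 2 * (j + 1))) ^ 2
      ≤ (∑ n ∈ s, ∑ m ∈ s, w n * w m * K (n + m + 2 * j)) *
        (∑ n ∈ s, ∑ m ∈ s, w n * w m * K (n + m + 2 * (j + 2))) := by
  classical
  refine quad_cs fun x y => ?_
  have h1 := h.family (s ×ˢ ({0, 1} : Finset ℕ)) (fun p => p.1 + j + 2 * p.2)
    (fun p => w p.1 * (if p.2 = 0 then x else y))
  refine h1.trans_eq ?_
  rw [sum_product]
  have e2 : ∀ n ∈ s, ∑ e ∈ ({0, 1} : Finset ℕ), ∑ q ∈ s ×ˢ ({0, 1} : Finset ℕ),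
      (w n * (if e = 0 then x else y)) * (w q.1 * (if q.2 = 0 then x else y)) *
        K (n + j + 2 * e + (q.1 + j + 2 * q.2))
      = ∑ m ∈ s, (w n * w m) * (x ^ 2 * K (n + m + 2 * j) + 2 * x * y * K (n + m + 2 * (j + 1))
          + y ^ 2 * K (n + m + 2 * (j + 2))) := by
    intro n _
    rw [sum_pair (by norm_num), sum_product, sum_product, ← sum_add_distrib]
    refine sum_congr rfl fun m _ => ?_
    rw [sum_pair (by norm_num), sum_pair (by norm_num)]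
    simp only [if_true, one_ne_zero, if_false]
    have a1 : n + j + 2 * 0 + (m + j + 2 * 0) = n + m + 2 * j := by ring
    have a2 : n + j + 2 * 0 + (m + j + 2 * 1) = n + m + 2 * (j + 1) := by ring
    have a3 : n + j + 2 * 1 + (m + j + 2 * 0) = n + m + 2 * (j + 1) := by ring
    have a4 : n + j + 2 * 1 + (m + j + 2 * 1) = n + m + 2 * (j + 2) := by ring
    rw [a1, a2, a3, a4]
    ring
  rw [sum_congr rfl e2]
  simp only [mul_add, sum_add_distrib]
  rw [mul_sum, mul_sum, mul_sum]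
  congr 1
  · congr 1
    · refine sum_congr rfl fun n _ => ?_
      rw [mul_sum]
      exact sum_congr rfl fun m _ => by ring
    · refine sum_congr rfl fun n _ => ?_
      rw [mul_sum]
      exact sum_congr rfl fun m _ => by ring
  · refine sum_congr rfl fun n _ => ?_
    rw [mul_sum]
    exact sum_congr rfl fun m _ => by ring

theorem Dec.tendsto {K : ℕ → ℝ} {M ρ : ℝ} (hρ0 : 0 ≤ ρ) (hρ1 : ρ < 1) (h : Dec M ρ K) :
    Tendsto K atTop (𝓝 0) := by
  have h1 : Tendsto (fun n : ℕ => M * ρ ^ n) atTop (𝓝 (M * 0)) :=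
    (tendsto_pow_atTop_nhds_zero_of_lt_one hρ0 hρ1).const_mul M
  rw [mul_zero] at h1
  exact squeeze_zero_norm (fun n => by simpa using h n) h1

/-- `K (n) - K (n + 2)` is Hankel positive: the virtual measure lives on `[-1, 1]`. -/
theorem HP.sub_shift {K : ℕ → ℝ} (h : HP K) (hK : Tendsto K atTop (𝓝 0)) :
    HP fun n => K n - K (n + 2) := by
  intro s w
  set g : ℕ → ℝ := fun j => ∑ n ∈ s, ∑ m ∈ s, w n * w m * K (n + m + 2 * j) with hg
  have hg0 : ∀ j, 0 ≤ g j := fun j => (h.shift2 j) s w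
  have hlc : ∀ j, g (j + 1) ^ 2 ≤ g j * g (j + 2) := fun j => h.log_convex s w j
  have hlim : Tendsto g atTop (𝓝 0) := by
    have : Tendsto g atTop (𝓝 (∑ n ∈ s, ∑ m ∈ s, w n * w m * 0)) := by
      refine tendsto_finsetSum _ fun n _ => tendsto_finsetSum _ fun m _ => ?_
      refine Tendsto.const_mul _ (hK.comp ?_)
      refine tendsto_atTop_mono (fun j => ?_) tendsto_id
      simp only [id]
      omega
    simpa using this
  have hmono : g 1 ≤ g 0 := by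
    by_contra hcon
    push Not at hcon
    have hstep : ∀ j, g j < g (j + 1) := by
      intro j
      induction j with
      | zero => simpa using hcon
      | succ j ih =>
        have h1 := hlc j
        have h2 : 0 < g (j + 1) := (hg0 j).trans_lt ih
        rcases (hg0 j).eq_or_lt with h0 | h0
        · rw [← h0, zero_mul] at h1
          nlinarith
        · by_contra h3
          push Not at h3
          have : g j * g (j + 2) ≤ g j * g (j + 1) := mul_le_mul_of_nonneg_left h3 h0.le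
          nlinarith
    have hmon : StrictMono g := strictMono_nat_of_lt_succ hstep
    have h4 : g 1 ≤ 0 := ge_of_tendsto hlim (eventually_atTop.2 ⟨1, fun j hj => hmon.monotone hj⟩)
    linarith [hg0 0]
  have e : ∑ n ∈ s, ∑ m ∈ s, w n * w m * (K (n + m) - K (n + m + 2)) = g 0 - g 1 := by
    simp only [hg, mul_sub, sum_sub_distrib, mul_zero, add_zero, mul_one]
  show 0 ≤ ∑ n ∈ s, ∑ m ∈ s, w n * w m * (K (n + m) - K (n + m + 2))
  rw [e]
  linarith

/-! ### Chebyshev polynomials of the second kind and the operator `G` -/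

/-- `U_m (cos φ)` -/
def Um (φ : ℝ) (m : ℕ) : ℝ := ∑ p ∈ antidiagonal m, Real.cos (((p.1 : ℝ) - p.2) * φ)

theorem abs_Um_le (φ : ℝ) (m : ℕ) : |Um φ m| ≤ m + 1 := by
  unfold Um
  refine (abs_sum_le_sum_abs _ _).trans ?_
  refine (sum_le_sum (g := fun _ => (1:ℝ)) fun p _ => Real.abs_cos_le_one _).trans_eq ?_
  simp

theorem Um_zero (φ : ℝ) : Um φ 0 = 1 := by simp [Um]

theorem Um_one (φ : ℝ) : Um φ 1 = 2 * Real.cos φ := by
  simp only [Um, Nat.antidiagonal_succ, Nat.antidiagonal_zero]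
  simp
  ring

theorem Um_rec (φ : ℝ) (m : ℕ) : Um φ (m + 2) = 2 * Real.cos φ * Um φ (m + 1) - Um φ m := by
  set a : ℕ → ℕ → ℝ := fun k l => Real.cos (((k : ℝ) - l) * φ) with ha
  have hU : ∀ m, Um φ m = ∑ p ∈ antidiagonal m, a p.1 p.2 := fun m => rfl
  have hdiag : ∀ k l, a (k + 1) (l + 1) = a k l := by
    intro k l
    simp only [ha]
    push_cast
    congr 1
    ring
  have h2 : ∀ k l, 2 * Real.cos φ * a k l = a (k + 1) l + a k (l + 1) := by
    intro k l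
    simp only [ha]
    push_cast
    have e1 : ((k:ℝ) + 1 - l) * φ = ((k:ℝ) - l) * φ + φ := by ring
    have e2 : ((k:ℝ) - (l + 1)) * φ = ((k:ℝ) - l) * φ - φ := by ring
    rw [e1, e2, Real.cos_add, Real.cos_sub]
    ring
  have s1 : Um φ (m + 2) = a 0 (m + 2) + ∑ p ∈ antidiagonal (m + 1), a (p.1 + 1) p.2 := by
    rw [hU, Nat.sum_antidiagonal_succ]
  have s2 : Um φ (m + 2) = a (m + 2) 0 + ∑ p ∈ antidiagonal (m + 1), a p.1 (p.2 + 1) := by
    rw [hU, Nat.sum_antidiagonal_succ']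
  have s3 : ∑ p ∈ antidiagonal (m + 1), a (p.1 + 1) p.2
      = a (m + 2) 0 + ∑ p ∈ antidiagonal m, a (p.1 + 1) (p.2 + 1) := by
    rw [Nat.sum_antidiagonal_succ']
  have s4 : ∑ p ∈ antidiagonal m, a (p.1 + 1) (p.2 + 1) = Um φ m := by
    rw [hU]
    exact sum_congr rfl fun p _ => hdiag _ _
  have s5 : 2 * Real.cos φ * Um φ (m + 1)
      = ∑ p ∈ antidiagonal (m + 1), a (p.1 + 1) p.2 + ∑ p ∈ antidiagonal (m + 1), a p.1 (p.2 + 1) := by
    rw [hU, mul_sum, ← sum_add_distrib]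
    exact sum_congr rfl fun p _ => h2 _ _
  linarith

/-- multiplication by `1 / (1 - 2 λ cos φ + λ ^ 2)` -/
def G (φ : ℝ) (K : ℕ → ℝ) (n : ℕ) : ℝ := ∑' m, Um φ m * K (n + m)

/-- multiplication by `1 - 2 λ cos φ + λ ^ 2` -/
def A (φ : ℝ) (K : ℕ → ℝ) (n : ℕ) : ℝ := K n - 2 * Real.cos φ * K (n + 1) + K (n + 2)

theorem summable_aux {ρ : ℝ} (hρ0 : 0 ≤ ρ) (hρ1 : ρ < 1) :
    Summable fun m : ℕ => ((m : ℝ) + 1) * ρ ^ m := by
  have h1 : Summable fun m : ℕ => (m : ℝ) * ρ ^ m := by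
    have := summable_pow_mul_geometric_of_norm_lt_one 1 (r := ρ)
      (by rw [Real.norm_eq_abs, abs_of_nonneg hρ0]; exact hρ1)
    simpa using this
  have h2 : Summable fun m : ℕ => ρ ^ m := summable_geometric_of_lt_one hρ0 hρ1
  refine (h1.add h2).congr fun m => ?_
  ring

theorem Dec.term_le {K : ℕ → ℝ} {M ρ : ℝ} (h : Dec M ρ K) (φ : ℝ) (n m : ℕ) :
    |Um φ m * K (n + m)| ≤ M * ρ ^ n * (((m : ℝ) + 1) * ρ ^ m) := by
  rw [abs_mul]
  have h1 := abs_Um_le φ m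
  have h2 := h (n + m)
  calc |Um φ m| * |K (n + m)| ≤ ((m:ℝ) + 1) * (M * ρ ^ (n + m)) :=
        mul_le_mul h1 h2 (abs_nonneg _) (by positivity)
    _ = _ := by rw [pow_add]; ring

theorem Dec.summable {K : ℕ → ℝ} {M ρ : ℝ} (hρ0 : 0 ≤ ρ) (hρ1 : ρ < 1) (h : Dec M ρ K)
    (φ : ℝ) (n : ℕ) : Summable fun m => Um φ m * K (n + m) :=
  Summable.of_norm_bounded ((summable_aux hρ0 hρ1).mul_left (M * ρ ^ n))
    fun m => by simpa using h.term_le φ n m

theorem Dec.summable_self {K : ℕ → ℝ} {M ρ : ℝ} (hρ0 : 0 ≤ ρ) (hρ1 : ρ < 1) (h : Dec M ρ K) :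
    Summable K :=
  Summable.of_norm_bounded ((summable_geometric_of_lt_one hρ0 hρ1).mul_left M)
    fun m => by simpa using h m

theorem Dec.G {K : ℕ → ℝ} {M ρ : ℝ} (hρ0 : 0 ≤ ρ) (hρ1 : ρ < 1) (h : Dec M ρ K) (φ : ℝ) :
    Dec (M * ∑' m : ℕ, ((m : ℝ) + 1) * ρ ^ m) ρ (G φ K) := by
  intro n
  unfold Reg136.G
  have hs := h.summable hρ0 hρ1 φ n
  have h2 : Summable fun m => |Um φ m * K (n + m)| := hs.abs
  calc |∑' m, Um φ m * K (n + m)| ≤ ∑' m, |Um φ m * K (n + m)| := by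
        simpa using norm_tsum_le_tsum_norm (f := fun m => Um φ m * K (n + m)) (by simpa using h2)
    _ ≤ ∑' m : ℕ, M * ρ ^ n * (((m : ℝ) + 1) * ρ ^ m) :=
        h2.tsum_le_tsum (fun m => h.term_le φ n m) ((summable_aux hρ0 hρ1).mul_left _)
    _ = M * (∑' m : ℕ, ((m : ℝ) + 1) * ρ ^ m) * ρ ^ n := by
        rw [tsum_mul_left]; ring

theorem Dec.nonneg {K : ℕ → ℝ} {M ρ : ℝ} (h : Dec M ρ K) : 0 ≤ M := by
  have := h 0
  simp at this
  exact (abs_nonneg _).trans this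

theorem Dec.shift {K : ℕ → ℝ} {M ρ : ℝ} (hρ0 : 0 ≤ ρ) (hρ1 : ρ < 1) (h : Dec M ρ K) (j : ℕ) :
    Dec M ρ fun n => K (n + j) := by
  intro n
  refine (h (n + j)).trans ?_
  have := h.nonneg
  rw [pow_add]
  have h1 : ρ ^ j ≤ 1 := pow_le_one₀ hρ0 hρ1.le
  have h2 : 0 ≤ ρ ^ n := pow_nonneg hρ0 n
  have : M * (ρ ^ n * ρ ^ j) ≤ M * (ρ ^ n * 1) := by
    refine mul_le_mul_of_nonneg_left (mul_le_mul_of_nonneg_left h1 h2) this
  simpa using this

theorem A_G {K : ℕ → ℝ} {M ρ : ℝ} (hρ0 : 0 ≤ ρ) (hρ1 : ρ < 1) (h : Dec M ρ K) (φ : ℝ) (n : ℕ) :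
    A φ (G φ K) n = K n := by
  unfold A G
  have hs0 := h.summable hρ0 hρ1 φ n
  have hs1 := h.summable hρ0 hρ1 φ (n + 1)
  have hs2 := h.summable hρ0 hρ1 φ (n + 2)
  have s0 : Summable fun m => Um φ (m + 2) * K (n + (m + 2)) := (summable_nat_add_iff 2).2 hs0
  have s1 : Summable fun m => Um φ (m + 1) * K (n + 1 + (m + 1)) := (summable_nat_add_iff 1).2 hs1
  have e0 : ∑' m, Um φ m * K (n + m)
      = Um φ 0 * K n + Um φ 1 * K (n + 1) + ∑' m, Um φ (m + 2) * K (n + (m + 2)) := by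
    rw [← hs0.sum_add_tsum_nat_add 2]
    simp [sum_range_succ]
  have e1 : ∑' m, Um φ m * K (n + 1 + m)
      = Um φ 0 * K (n + 1) + ∑' m, Um φ (m + 1) * K (n + 1 + (m + 1)) := by
    rw [← hs1.sum_add_tsum_nat_add 1]
    simp
  have e3 : ∑' m, Um φ (m + 2) * K (n + (m + 2))
      - 2 * Real.cos φ * ∑' m, Um φ (m + 1) * K (n + 1 + (m + 1))
      + ∑' m, Um φ m * K (n + 2 + m) = 0 := by
    rw [← tsum_mul_left, ← s0.tsum_sub (s1.mul_left _), ← (s0.sub (s1.mul_left _)).tsum_add hs2]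
    rw [← tsum_zero (α := ℝ) (β := ℕ)]
    refine tsum_congr fun m => ?_
    have i1 : n + 1 + (m + 1) = n + (m + 2) := by ring
    have i2 : n + 2 + m = n + (m + 2) := by ring
    rw [i1, i2, Um_rec]
    ring
  rw [e0, e1, Um_zero, Um_one]
  linear_combination e3

theorem G_shift (φ : ℝ) (K : ℕ → ℝ) (n j : ℕ) : G φ (fun n => K (n + j)) n = G φ K (n + j) := by
  unfold G
  refine tsum_congr fun m => ?_
  have : n + m + j = n + j + m := by omega
  simp only [this]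

theorem G_A {K : ℕ → ℝ} {M ρ : ℝ} (hρ0 : 0 ≤ ρ) (hρ1 : ρ < 1) (h : Dec M ρ K) (φ ψ : ℝ) (n : ℕ) :
    G φ (A ψ K) n = A ψ (G φ K) n := by
  have s0 := h.summable hρ0 hρ1 φ n
  have s1 := (h.summable hρ0 hρ1 φ (n + 1)).mul_left (2 * Real.cos ψ)
  have s2 := h.summable hρ0 hρ1 φ (n + 2)
  unfold A G
  rw [← tsum_mul_left, ← s0.tsum_sub s1, ← (s0.sub s1).tsum_add s2]
  refine tsum_congr fun m => ?_
  have i1 : n + 1 + m = n + m + 1 := by ring
  have i2 : n + 2 + m = n + m + 2 := by ring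
  rw [i1, i2]
  ring

theorem tsum_antidiag (f : ℕ × ℕ → ℝ) (hf : Summable f) :
    ∑' p, f p = ∑' m, ∑ p ∈ antidiagonal m, f p := by
  have h3 : Summable fun c : (Σ n : ℕ, ↥(antidiagonal n)) =>
      f (HasAntidiagonal.sigmaAntidiagonalEquivProd c) := (Equiv.summable_iff _).2 hf
  have h4 := h3.tsum_sigma' (fun m => (hasSum_fintype _).summable)
  have h5 := (HasAntidiagonal.sigmaAntidiagonalEquivProd (A := ℕ)).tsum_eq f
  rw [← h5, h4]
  congr 1
  funext m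
  rw [tsum_fintype]
  exact Finset.sum_coe_sort (antidiagonal m) f

theorem sum4 (s t : Finset ℕ) (g : ℕ → ℕ → ℕ → ℕ → ℝ) :
    ∑ p ∈ s ×ˢ t, ∑ q ∈ s ×ˢ t, g p.1 q.1 p.2 q.2
      = ∑ r ∈ t ×ˢ t, ∑ i ∈ s, ∑ j ∈ s, g i j r.1 r.2 := by
  rw [sum_product, sum_product, sum_comm]
  refine sum_congr rfl fun k _ => ?_
  simp_rw [sum_product]
  calc ∑ i ∈ s, ∑ j ∈ s, ∑ l ∈ t, g i j k l = ∑ i ∈ s, ∑ l ∈ t, ∑ j ∈ s, g i j k l :=
        sum_congr rfl fun i _ => sum_comm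
    _ = _ := sum_comm

/-- `G φ` preserves Hankel positivity: `1/(1-2λcos φ+λ²) = |1/(1-λe^{iφ})|² ≥ 0`. -/
theorem HP.G {K : ℕ → ℝ} {M ρ : ℝ} (hρ0 : 0 ≤ ρ) (hρ1 : ρ < 1) (h : Dec M ρ K) (hp : HP K)
    (φ : ℝ) : HP (G φ K) := by
  classical
  intro s w
  set B : ℕ → ℝ := fun m => ∑ i ∈ s, ∑ j ∈ s, w i * w j * K (i + j + m) with hB
  -- bound of `B`
  set W : ℝ := ∑ i ∈ s, ∑ j ∈ s, |w i| * |w j| * M with hW
  have hBle : ∀ m, |B m| ≤ W * ρ ^ m := by
    intro m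
    simp only [hB, hW, sum_mul]
    refine (abs_sum_le_sum_abs _ _).trans (sum_le_sum fun i _ => ?_)
    refine (abs_sum_le_sum_abs _ _).trans (sum_le_sum fun j _ => ?_)
    rw [abs_mul, abs_mul]
    have h1 := h (i + j + m)
    have h2 : M * ρ ^ (i + j + m) ≤ M * ρ ^ m := by
      refine mul_le_mul_of_nonneg_left ?_ h.nonneg
      exact pow_le_pow_of_le_one hρ0 hρ1.le (by omega)
    calc |w i| * |w j| * |K (i + j + m)| ≤ |w i| * |w j| * (M * ρ ^ m) :=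
          mul_le_mul_of_nonneg_left (h1.trans h2) (by positivity)
      _ = _ := by ring
  have hsB : ∑ i ∈ s, ∑ j ∈ s, w i * w j * Reg136.G φ K (i + j) = ∑' m, Um φ m * B m := by
    unfold Reg136.G
    have : ∀ m, Um φ m * B m = ∑ i ∈ s, ∑ j ∈ s, w i * w j * (Um φ m * K (i + j + m)) := by
      intro m
      simp only [hB, mul_sum]
      exact sum_congr rfl fun i _ => sum_congr rfl fun j _ => by ring
    simp_rw [this]
    rw [Summable.tsum_finsetSum fun i _ => ?_]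
    · refine sum_congr rfl fun i _ => ?_
      rw [Summable.tsum_finsetSum fun j _ => ?_]
      · exact sum_congr rfl fun j _ => by rw [tsum_mul_left]
      · exact (h.summable hρ0 hρ1 φ (i + j)).mul_left _
    · exact summable_sum fun j _ => (h.summable hρ0 hρ1 φ (i + j)).mul_left _
  rw [hsB]
  set f : ℕ × ℕ → ℝ := fun p => Real.cos (((p.1 : ℝ) - p.2) * φ) * B (p.1 + p.2) with hf
  have hfs : Summable f := by
    have hg := summable_geometric_of_lt_one hρ0 hρ1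
    have h2 : Summable fun p : ℕ × ℕ => ρ ^ p.1 * ρ ^ p.2 :=
      hg.mul_of_nonneg hg (fun n => pow_nonneg hρ0 n) (fun n => pow_nonneg hρ0 n)
    refine Summable.of_norm_bounded (h2.mul_left W) fun p => ?_
    simp only [hf, Real.norm_eq_abs, abs_mul]
    calc |Real.cos (((p.1 : ℝ) - p.2) * φ)| * |B (p.1 + p.2)| ≤ 1 * |B (p.1 + p.2)| :=
          mul_le_mul_of_nonneg_right (Real.abs_cos_le_one _) (abs_nonneg _)
      _ ≤ W * ρ ^ (p.1 + p.2) := by rw [one_mul]; exact hBle _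
      _ = _ := by rw [pow_add]
  have hsum : ∑' m, Um φ m * B m = ∑' p, f p := by
    rw [tsum_antidiag f hfs]
    refine tsum_congr fun m => ?_
    simp only [Um, hf]
    rw [sum_mul]
    refine sum_congr rfl fun p hp => ?_
    rw [mem_antidiagonal.1 hp]
  rw [hsum]
  -- square partial sums are nonnegative
  have hlim : Tendsto (fun T : ℕ => ∑ p ∈ range T ×ˢ range T, f p) atTop (𝓝 (∑' p, f p)) := by
    refine hfs.hasSum.comp ?_
    refine tendsto_atTop_finset_of_monotone (fun a b hab => ?_) fun p => ?_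
    · exact product_subset_product (range_mono hab) (range_mono hab)
    · refine ⟨p.1 + p.2 + 1, ?_⟩
      simp only [mem_product, mem_range]
      omega
  refine ge_of_tendsto' hlim fun T => ?_
  -- expand as a family form with weights `w i cos (kφ)` and `w i sin (kφ)`
  have hc := hp.family (s ×ˢ range T) (fun p => p.1 + p.2) (fun p => w p.1 * Real.cos (p.2 * φ))
  have hsn := hp.family (s ×ˢ range T) (fun p => p.1 + p.2) (fun p => w p.1 * Real.sin (p.2 * φ))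
  refine (add_nonneg hc hsn).trans_eq ?_
  rw [← sum_add_distrib]
  simp_rw [← sum_add_distrib]
  have e1 : ∀ p q : ℕ × ℕ, w p.1 * Real.cos (p.2 * φ) * (w q.1 * Real.cos (q.2 * φ)) *
        K (p.1 + p.2 + (q.1 + q.2)) + w p.1 * Real.sin (p.2 * φ) * (w q.1 * Real.sin (q.2 * φ)) *
        K (p.1 + p.2 + (q.1 + q.2))
      = w p.1 * w q.1 * (Real.cos (((p.2 : ℝ) - q.2) * φ) * K (p.1 + q.1 + (p.2 + q.2))) := by
    intro p q
    have i1 : p.1 + p.2 + (q.1 + q.2) = p.1 + q.1 + (p.2 + q.2) := by ring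
    have i2 : ((p.2 : ℝ) - q.2) * φ = p.2 * φ - q.2 * φ := by ring
    rw [i1, i2, Real.cos_sub]
    ring
  simp_rw [e1]
  rw [sum4 s (range T) (fun i j k l =>
    w i * w j * (Real.cos (((k : ℝ) - l) * φ) * K (i + j + (k + l))))]
  refine sum_congr rfl fun r _ => ?_
  simp only [hf, hB, mul_sum]
  exact sum_congr rfl fun i _ => sum_congr rfl fun j _ => by ring

/-! ### the three point inequality -/

/-- the value of `u` at angle `φ` for the sequence `K` -/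
def uv (K : ℕ → ℝ) (φ : ℝ) : ℝ := G φ K 0

theorem uv_nonneg {K : ℕ → ℝ} {M ρ : ℝ} (hρ0 : 0 ≤ ρ) (hρ1 : ρ < 1) (h : Dec M ρ K) (hp : HP K)
    (φ : ℝ) : 0 ≤ uv K φ := (hp.G hρ0 hρ1 h φ).zero_nonneg

theorem Um_sub (φ : ℝ) (m : ℕ) : Um φ (m + 2) - Um φ m = 2 * Real.cos ((m + 2 : ℕ) * φ) := by
  set a : ℕ → ℕ → ℝ := fun k l => Real.cos (((k : ℝ) - l) * φ) with ha
  have hU : ∀ m, Um φ m = ∑ p ∈ antidiagonal m, a p.1 p.2 := fun m => rfl
  have s1 : Um φ (m + 2) = a 0 (m + 2) + ∑ p ∈ antidiagonal (m + 1), a (p.1 + 1) p.2 := by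
    rw [hU, Nat.sum_antidiagonal_succ]
  have s3 : ∑ p ∈ antidiagonal (m + 1), a (p.1 + 1) p.2
      = a (m + 2) 0 + ∑ p ∈ antidiagonal m, a (p.1 + 1) (p.2 + 1) := by
    rw [Nat.sum_antidiagonal_succ']
  have s4 : ∑ p ∈ antidiagonal m, a (p.1 + 1) (p.2 + 1) = Um φ m := by
    rw [hU]
    refine sum_congr rfl fun p _ => ?_
    simp only [ha]
    push_cast
    congr 1
    ring
  have e1 : a 0 (m + 2) = Real.cos ((m + 2 : ℕ) * φ) := by
    simp only [ha]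
    rw [← Real.cos_neg]
    push_cast
    congr 1
    ring
  have e2 : a (m + 2) 0 = Real.cos ((m + 2 : ℕ) * φ) := by
    simp only [ha]
    push_cast
    congr 1
    ring
  rw [s1, s3, s4, e1, e2]
  ring

/-- `uv` of `F n - F (n + 2)` is the cosine series of `F`. -/
theorem uv_cos {F : ℕ → ℝ} {M ρ : ℝ} (hρ0 : 0 ≤ ρ) (hρ1 : ρ < 1) (h : Dec M ρ F) (φ : ℝ) :
    uv (fun n => F n - F (n + 2)) φ = F 0 + 2 * ∑' n : ℕ, F (n + 1) * Real.cos ((n + 1 : ℕ) * φ) := by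
  unfold uv G
  have hs0 : Summable fun m => Um φ m * F m := by simpa using h.summable hρ0 hρ1 φ 0
  have hs2 : Summable fun m => Um φ m * F (m + 2) := by
    refine (h.summable hρ0 hρ1 φ 2).congr fun m => ?_
    rw [add_comm 2 m]
  have hs0' : Summable fun m => Um φ (m + 2) * F (m + 2) := (summable_nat_add_iff 2).2 hs0
  have hc : Summable fun n : ℕ => F (n + 1) * Real.cos ((n + 1 : ℕ) * φ) := by
    refine Summable.of_norm_bounded ((h.shift hρ0 hρ1 1).summable_self hρ0 hρ1).abs fun n => ?_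
    rw [Real.norm_eq_abs, abs_mul]
    calc |F (n + 1)| * |Real.cos ((n + 1 : ℕ) * φ)| ≤ |F (n + 1)| * 1 :=
          mul_le_mul_of_nonneg_left (Real.abs_cos_le_one _) (abs_nonneg _)
      _ = _ := mul_one _
  have e1 : ∀ m, Um φ m * (F (0 + m) - F (0 + m + 2)) = Um φ m * F m - Um φ m * F (m + 2) := by
    intro m
    rw [zero_add]; ring
  simp_rw [e1]
  rw [hs0.tsum_sub hs2, ← hs0.sum_add_tsum_nat_add 2]
  have e2 : ∑' m, Um φ (m + 2) * F (m + 2) - ∑' m, Um φ m * F (m + 2)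
      = 2 * ∑' n : ℕ, F (n + 2) * Real.cos ((n + 2 : ℕ) * φ) := by
    rw [← hs0'.tsum_sub hs2, ← tsum_mul_left]
    refine tsum_congr fun m => ?_
    have := Um_sub φ m
    linear_combination F (m + 2) * this
  have e3 : ∑' n : ℕ, F (n + 1) * Real.cos ((n + 1 : ℕ) * φ)
      = F 1 * Real.cos φ + ∑' n : ℕ, F (n + 2) * Real.cos ((n + 2 : ℕ) * φ) := by
    rw [hc.tsum_eq_zero_add]
    congr 1
    simp
  rw [e3]
  simp only [sum_range_succ, range_zero, sum_empty, zero_add, Um_zero, Um_one]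
  linear_combination e2

/-- the form of two trinomials -/
theorem HP.tri {K : ℕ → ℝ} (hp : HP K) (c d x y : ℝ) :
    0 ≤ x ^ 2 * (K 0 - 4 * c * K 1 + (2 + 4 * c ^ 2) * K 2 - 4 * c * K 3 + K 4)
      + 2 * x * y * (K 0 - 2 * (c + d) * K 1 + (2 + 4 * c * d) * K 2 - 2 * (c + d) * K 3 + K 4)
      + y ^ 2 * (K 0 - 4 * d * K 1 + (2 + 4 * d ^ 2) * K 2 - 4 * d * K 3 + K 4) := by
  have h := hp (range 3) (fun n => if n = 0 then x + y else if n = 1 then -2 * c * x - 2 * d * y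
    else x + y)
  simp only [sum_range_succ, range_zero, sum_empty, zero_add] at h
  norm_num at h
  nlinarith [h]

theorem A_A (φ ψ : ℝ) (K : ℕ → ℝ) : A φ (A ψ K) 0
    = K 0 - 2 * (Real.cos φ + Real.cos ψ) * K 1 + (2 + 4 * Real.cos φ * Real.cos ψ) * K 2
      - 2 * (Real.cos φ + Real.cos ψ) * K 3 + K 4 := by
  simp only [A]
  ring

theorem three_point {K : ℕ → ℝ} {M ρ : ℝ} (hρ0 : 0 ≤ ρ) (hρ1 : ρ < 1) (h : Dec M ρ K) (hp : HP K)
    {φ0 φ1 φ2 : ℝ} (h01 : Real.cos φ1 ≤ Real.cos φ0) (h12 : Real.cos φ2 ≤ Real.cos φ1) :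
    (Real.cos φ1 - Real.cos φ2) * (uv K φ1 * uv K φ2)
      + (Real.cos φ0 - Real.cos φ1) * (uv K φ0 * uv K φ1)
      ≤ (Real.cos φ0 - Real.cos φ2) * (uv K φ0 * uv K φ2) := by
  set c0 := Real.cos φ0 with hc0
  set c1 := Real.cos φ1 with hc1
  set c2 := Real.cos φ2 with hc2
  rcases (h12.trans h01).eq_or_lt with e | e
  · have e1 : c1 = c0 := le_antisymm h01 (e ▸ h12)
    rw [e1, e]
    simp
  have d0 := h.G hρ0 hρ1 φ0
  have d1 := d0.G hρ0 hρ1 φ1
  have d2 := d1.G hρ0 hρ1 φ2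
  have p0 := hp.G hρ0 hρ1 h φ0
  have p1 := p0.G hρ0 hρ1 d0 φ1
  have p2 := p1.G hρ0 hρ1 d1 φ2
  set κ := G φ2 (G φ1 (G φ0 K)) with hκ
  -- `A φ2 κ = G φ1 (G φ0 K)` etc.
  have a2 : A φ2 κ = G φ1 (G φ0 K) := funext fun n => A_G hρ0 hρ1 d1 φ2 n
  have a1 : A φ1 κ = G φ2 (G φ0 K) := by
    funext n
    rw [hκ, ← G_A hρ0 hρ1 d1 φ2 φ1 n]
    congr 1
    exact funext fun n => A_G hρ0 hρ1 d0 φ1 n
  have a0' : A φ0 (G φ1 (G φ0 K)) = G φ1 K := by
    funext n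
    rw [← G_A hρ0 hρ1 d0 φ1 φ0 n]
    congr 1
    exact funext fun n => A_G hρ0 hρ1 h φ0 n
  have a0'' : A φ0 (G φ2 (G φ0 K)) = G φ2 K := by
    funext n
    rw [← G_A hρ0 hρ1 d0 φ2 φ0 n]
    congr 1
    exact funext fun n => A_G hρ0 hρ1 h φ0 n
  have u0 : uv K φ0 = A φ1 (A φ2 κ) 0 := by
    rw [a2, A_G hρ0 hρ1 d0 φ1 0]; rfl
  have u1 : uv K φ1 = A φ0 (A φ2 κ) 0 := by rw [a2, a0']; rfl
  have u2 : uv K φ2 = A φ0 (A φ1 κ) 0 := by rw [a1, a0'']; rfl
  rw [A_A] at u0 u1 u2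
  rw [← hc0, ← hc1, ← hc2] at *
  have cs := quad_cs fun x y => p2.tri c0 c2 x y
  rw [u0, u1, u2]
  set α := κ 0 - 4 * c0 * κ 1 + (2 + 4 * c0 ^ 2) * κ 2 - 4 * c0 * κ 3 + κ 4 with hα
  set β := κ 0 - 2 * (c0 + c2) * κ 1 + (2 + 4 * c0 * c2) * κ 2 - 2 * (c0 + c2) * κ 3 + κ 4 with hβ
  set γ := κ 0 - 4 * c2 * κ 1 + (2 + 4 * c2 ^ 2) * κ 2 - 4 * c2 * κ 3 + κ 4 with hγ
  set x0 := κ 0 - 2 * (c1 + c2) * κ 1 + (2 + 4 * c1 * c2) * κ 2 - 2 * (c1 + c2) * κ 3 + κ 4 with hx0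
  set x2 := κ 0 - 2 * (c0 + c1) * κ 1 + (2 + 4 * c0 * c1) * κ 2 - 2 * (c0 + c1) * κ 3 + κ 4 with hx2
  -- `(c0 - c2) x0 = (c1 - c2) β + (c0 - c1) γ`, `(c0 - c2) x2 = (c1 - c2) α + (c0 - c1) β`
  have e0 : (c0 - c2) * x0 = (c1 - c2) * β + (c0 - c1) * γ := by
    rw [hx0, hβ, hγ]; ring
  have e2 : (c0 - c2) * x2 = (c1 - c2) * α + (c0 - c1) * β := by
    rw [hx2, hα, hβ]; ring
  have hpos : 0 < c0 - c2 := by linarith
  have key : (c0 - c2) * ((c0 - c2) * (x0 * x2) - (c1 - c2) * (β * x2) - (c0 - c1) * (x0 * β))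
      = (c1 - c2) * (c0 - c1) * (α * γ - β ^ 2) := by
    have : (c0 - c2) * ((c0 - c2) * (x0 * x2) - (c1 - c2) * (β * x2) - (c0 - c1) * (x0 * β))
        = ((c0 - c2) * x0) * ((c0 - c2) * x2) - (c1 - c2) * β * ((c0 - c2) * x2)
          - (c0 - c1) * β * ((c0 - c2) * x0) := by ring
    rw [this, e0, e2]
    ring
  have hk : 0 ≤ (c0 - c2) * ((c0 - c2) * (x0 * x2) - (c1 - c2) * (β * x2) - (c0 - c1) * (x0 * β)) := by
    rw [key]
    exact mul_nonneg (mul_nonneg (by linarith) (by linarith)) (by linarith)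
  have := nonneg_of_mul_nonneg_right hk hpos
  linarith

/-- `(1 - cos φ) u` is nondecreasing in `1 - cos φ`. -/
theorem mono_s {K : ℕ → ℝ} {M ρ : ℝ} (hρ0 : 0 ≤ ρ) (hρ1 : ρ < 1) (h : Dec M ρ K) (hp : HP K)
    {φ ψ : ℝ} (hc : Real.cos ψ ≤ Real.cos φ) :
    (1 - Real.cos φ) * uv K φ ≤ (1 - Real.cos ψ) * uv K ψ := by
  have d0 := h.G hρ0 hρ1 φ
  have d1 := d0.G hρ0 hρ1 ψ
  have p0 := hp.G hρ0 hρ1 h φ
  have p1 := p0.G hρ0 hρ1 d0 ψ
  set κ := G ψ (G φ K) with hκ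
  have u0 : uv K φ = A ψ κ 0 := (A_G hρ0 hρ1 d0 ψ 0).symm
  have u1 : uv K ψ = A φ κ 0 := by
    rw [hκ, ← G_A hρ0 hρ1 d0 ψ φ 0]
    have : A φ (G φ K) = K := funext fun n => A_G hρ0 hρ1 h φ n
    rw [this]; rfl
  have hq := p1 (range 2) (fun n => if n = 0 then 1 else -1)
  simp only [sum_range_succ, range_zero, sum_empty, zero_add] at hq
  norm_num at hq
  rw [u0, u1]
  simp only [A]
  nlinarith [hq, hc]

/-- `(1 + cos φ) u` is nonincreasing in `1 - cos φ`. -/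
theorem mono_4s {K : ℕ → ℝ} {M ρ : ℝ} (hρ0 : 0 ≤ ρ) (hρ1 : ρ < 1) (h : Dec M ρ K) (hp : HP K)
    {φ ψ : ℝ} (hc : Real.cos ψ ≤ Real.cos φ) :
    (1 + Real.cos ψ) * uv K ψ ≤ (1 + Real.cos φ) * uv K φ := by
  have d0 := h.G hρ0 hρ1 φ
  have d1 := d0.G hρ0 hρ1 ψ
  have p0 := hp.G hρ0 hρ1 h φ
  have p1 := p0.G hρ0 hρ1 d0 ψ
  set κ := G ψ (G φ K) with hκ
  have u0 : uv K φ = A ψ κ 0 := (A_G hρ0 hρ1 d0 ψ 0).symm
  have u1 : uv K ψ = A φ κ 0 := by
    rw [hκ, ← G_A hρ0 hρ1 d0 ψ φ 0]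
    have : A φ (G φ K) = K := funext fun n => A_G hρ0 hρ1 h φ n
    rw [this]; rfl
  have hq := p1 (range 2) (fun _ => 1)
  simp only [sum_range_succ, range_zero, sum_empty, zero_add] at hq
  norm_num at hq
  rw [u0, u1]
  simp only [A]
  nlinarith [hq, hc]

end Crest.Agent.R144.Reg136
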