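import Crest.Agent.R144.RegG_136
import Mathlib.Analysis.Real.Pi.Bounds

/-!
# R144, REG block (helper136), part K: `Gr β p / Gr β 0 → 1` as `β → 1`
-/

set_option autoImplicit false

noncomputable section

namespace Crest.Agent.R144.Reg136

open Finset Filter Topology MeasureTheory

/-- bound of `Gr β 0 - Gr β p`, uniform in `1/2 ≤ β < 1` -/
def Cb (p : ℤ × ℤ) : ℝ := 9 / 2 * p.2.natAbs + 7 * Real.pi / 2 * ((p.1 : ℝ) + p.2 / 2) ^ 2

theorem one_sub_pow_le (x : ℝ) (hx0 : 0 ≤ x) (hx1 : x ≤ 1) (n : ℕ) : 1 - x ^ n ≤ n * (1 - x) := by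
  induction n with
  | zero => simp
  | succ n ih =>
    have h1 : x ^ n ≤ 1 := pow_le_one₀ hx0 hx1
    have h2 : 0 ≤ x ^ n := pow_nonneg hx0 n
    rw [pow_succ]
    push_cast
    nlinarith

theorem one_sub_lam_le {β : ℝ} (h0 : 0 ≤ β) (h1 : β < 1) {κ : ℝ} (hκ : |κ| ≤ Real.pi) :
    1 - lam β κ ≤ 9 / 2 * dd β κ := by
  have ha := aa_ge h0 h1 κ
  have ha' := aa_le h0 h1 κ
  have hb := bb_nonneg h0 hκ
  have hd := dd_pos h0 h1 κ
  have hd' := dd_le h0 h1 κ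
  have hsq := dd_sq h0 h1 κ
  have hden := den_pos h0 h1 κ
  have e : 1 - lam β κ = (aa β κ + dd β κ - 2 * bb β κ) / (aa β κ + dd β κ) := by
    unfold lam
    field_simp
  rw [e, div_le_iff₀ hden]
  -- `a - 2b ≤ (3/2) d²`
  have h2 : aa β κ - 2 * bb β κ ≤ 3 / 2 * dd β κ ^ 2 := by
    have h3 : dd β κ ^ 2 = (aa β κ - 2 * bb β κ) * (aa β κ + 2 * bb β κ) := by rw [hsq]; ring
    have h4 := aa_sub h0 κ
    nlinarith
  nlinarith

theorem dd_ge {β : ℝ} (h0 : 1 / 2 ≤ β) (h1 : β < 1) {κ : ℝ} (hκ : |κ| ≤ Real.pi) :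
    |κ| ≤ 7 * dd β κ := by
  have h00 : 0 ≤ β := by linarith
  have ha := aa_ge h00 h1 κ
  have hb := bb_nonneg h00 hκ
  have hd := dd_pos h00 h1 κ
  have hsq := dd_sq h00 h1 κ
  have hpi := Real.pi_pos
  have hpi2 := Real.pi_lt_d2
  have hq := Real.cos_le_one_sub_mul_cos_sq hκ
  have h2 : 1 / 6 * (2 / Real.pi ^ 2 * κ ^ 2) ≤ aa β κ - 2 * bb β κ := by
    unfold aa bb
    have h3 := Real.cos_le_one κ
    have h4 := Real.cos_le_one (κ / 2)
    nlinarith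
  have h3 : 2 / 3 * (1 / 6 * (2 / Real.pi ^ 2 * κ ^ 2)) ≤ dd β κ ^ 2 := by
    have e : dd β κ ^ 2 = (aa β κ - 2 * bb β κ) * (aa β κ + 2 * bb β κ) := by rw [hsq]; ring
    rw [e]
    have h5 : 0 ≤ 1 / 6 * (2 / Real.pi ^ 2 * κ ^ 2) := by positivity
    nlinarith
  have h4 : κ ^ 2 ≤ 49 * dd β κ ^ 2 := by
    have h5 : κ ^ 2 = (9 / 2 * Real.pi ^ 2) * (2 / 3 * (1 / 6 * (2 / Real.pi ^ 2 * κ ^ 2))) := by
      field_simp
      ring
    have h6 : 9 / 2 * Real.pi ^ 2 ≤ 49 := by nlinarith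
    rw [h5]
    calc 9 / 2 * Real.pi ^ 2 * (2 / 3 * (1 / 6 * (2 / Real.pi ^ 2 * κ ^ 2)))
        ≤ 9 / 2 * Real.pi ^ 2 * dd β κ ^ 2 := mul_le_mul_of_nonneg_left h3 (by positivity)
      _ ≤ _ := mul_le_mul_of_nonneg_right h6 (by positivity)
  have h5 : |κ| ^ 2 ≤ (7 * dd β κ) ^ 2 := by rw [sq_abs]; linarith [h4, mul_pow (7:ℝ) (dd β κ) 2]
  exact (abs_le_of_sq_le_sq h5 (by positivity)).trans' (le_abs_self _)

theorem Gr_sub_mem {β : ℝ} (h0 : 1 / 2 ≤ β) (h1 : β < 1) (p : ℤ × ℤ) :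
    0 ≤ Gr β (0, 0) - Gr β p ∧ Gr β (0, 0) - Gr β p ≤ Cb p := by
  have h00 : 0 ≤ β := by linarith
  have hle : (-Real.pi) ≤ Real.pi := by linarith [Real.pi_pos]
  have e : Gr β (0, 0) - Gr β p
      = (2 * Real.pi)⁻¹ * ∫ κ in (-Real.pi)..Real.pi, (ki β (0, 0) κ - ki β p κ) := by
    rw [Gr_eq_Kt h00 h1, Gr_eq_Kt h00 h1, intervalIntegral.integral_sub (ki_int h00 h1 _ _ _)
      (ki_int h00 h1 _ _ _)]
    unfold Kt
    ring
  have hk0 : ∀ κ, ki β (0, 0) κ = (dd β κ)⁻¹ := by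
    intro κ
    simp [ki]
  have hmem : ∀ κ ∈ Set.Icc (-Real.pi) Real.pi, |κ| ≤ Real.pi := fun κ h => abs_le.2 h
  have hpt : ∀ κ ∈ Set.Icc (-Real.pi) Real.pi,
      0 ≤ ki β (0, 0) κ - ki β p κ ∧ ki β (0, 0) κ - ki β p κ ≤ Cb p := by
    intro κ hκ
    have hκ' := hmem κ hκ
    rw [hk0]
    constructor
    · have := abs_ki_le h00 h1 p κ
      linarith [(abs_le.1 this).2]
    · have hd := dd_pos h00 h1 κ
      have hl0 := lam_nonneg h00 h1 hκ'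
      have hl1 := (abs_le.1 (abs_lam_le h00 h1 κ)).2
      have hp0 := pow_nonneg hl0 p.2.natAbs
      have hp1 := pow_le_one₀ (n := p.2.natAbs) hl0 hl1
      have hP := one_sub_pow_le (lam β κ) hl0 hl1 p.2.natAbs
      set t := (p.1 : ℝ) + p.2 / 2 with ht
      have hc := Real.one_sub_sq_div_two_le_cos (x := κ * t)
      have hc1 := Real.cos_le_one (κ * t)
      have h2 : 1 - lam β κ ^ p.2.natAbs * Real.cos (κ * t)
          ≤ p.2.natAbs * (9 / 2 * dd β κ) + (κ * t) ^ 2 / 2 := by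
        have h3 := one_sub_lam_le h00 h1 hκ'
        have h4 : (p.2.natAbs : ℝ) * (1 - lam β κ) ≤ p.2.natAbs * (9 / 2 * dd β κ) :=
          mul_le_mul_of_nonneg_left h3 (Nat.cast_nonneg _)
        nlinarith
      have h3 : (κ * t) ^ 2 / 2 ≤ 7 * Real.pi / 2 * t ^ 2 * dd β κ := by
        have h4 := dd_ge h0 h1 hκ'
        have h5 : κ ^ 2 ≤ Real.pi * (7 * dd β κ) := by
          rw [← sq_abs, sq]
          exact mul_le_mul hκ' h4 (abs_nonneg _) Real.pi_pos.le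
        have h6 : 0 ≤ t ^ 2 := sq_nonneg t
        rw [mul_pow]
        nlinarith
      have h4 : ki β p κ = (dd β κ)⁻¹ * (lam β κ ^ p.2.natAbs * Real.cos (κ * t)) := by
        unfold ki
        rw [mul_assoc]
      rw [h4]
      have h5 : (dd β κ)⁻¹ - (dd β κ)⁻¹ * (lam β κ ^ p.2.natAbs * Real.cos (κ * t))
          = (1 - lam β κ ^ p.2.natAbs * Real.cos (κ * t)) / dd β κ := by
        field_simp
      rw [h5, div_le_iff₀ hd]
      calc 1 - lam β κ ^ p.2.natAbs * Real.cos (κ * t)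
          ≤ p.2.natAbs * (9 / 2 * dd β κ) + (κ * t) ^ 2 / 2 := h2
        _ ≤ p.2.natAbs * (9 / 2 * dd β κ) + 7 * Real.pi / 2 * t ^ 2 * dd β κ := by linarith
        _ = _ := by unfold Cb; rw [ht]; ring
  rw [e]
  have hci : IntervalIntegrable (fun κ => ki β (0, 0) κ - ki β p κ) volume (-Real.pi) Real.pi :=
    (ki_int h00 h1 _ _ _).sub (ki_int h00 h1 _ _ _)
  constructor
  · exact mul_nonneg (by positivity) (intervalIntegral.integral_nonneg hle fun κ hκ => (hpt κ hκ).1)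
  · have h2 : ∫ κ in (-Real.pi)..Real.pi, (ki β (0, 0) κ - ki β p κ)
        ≤ ∫ κ in (-Real.pi)..Real.pi, Cb p :=
      intervalIntegral.integral_mono_on hle hci intervalIntegrable_const fun κ hκ => (hpt κ hκ).2
    rw [intervalIntegral.integral_const, smul_eq_mul] at h2
    have h3 : (0:ℝ) < 2 * Real.pi := by positivity
    rw [inv_mul_le_iff₀ h3]
    linarith

theorem dd_le_add {β : ℝ} (h0 : 0 ≤ β) (h1 : β < 1) {κ : ℝ} (hκ : 0 ≤ κ) :
    dd β κ ≤ Real.sqrt (2 * (1 - β)) + κ := by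
  have h2 : aa β κ - 2 * bb β κ ≤ (1 - β) + κ ^ 2 / 4 := by
    unfold aa bb
    have h3 := Real.one_sub_sq_div_two_le_cos (x := κ)
    have h4 := Real.one_sub_sq_div_two_le_cos (x := κ / 2)
    nlinarith [sq_nonneg κ]
  have h3 : aa β κ + 2 * bb β κ ≤ 2 := by
    unfold aa bb
    have h3 := Real.neg_one_le_cos κ
    have h4 := Real.cos_le_one (κ / 2)
    nlinarith
  have h4 := aa_sub h0 κ
  have h5 : 0 ≤ Real.sqrt (2 * (1 - β)) := Real.sqrt_nonneg _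
  unfold dd
  refine Real.sqrt_le_iff.2 ⟨by positivity, ?_⟩
  have h6 : Real.sqrt (2 * (1 - β)) ^ 2 = 2 * (1 - β) := Real.sq_sqrt (by linarith)
  have h7 : aa β κ ^ 2 - 4 * bb β κ ^ 2 = (aa β κ - 2 * bb β κ) * (aa β κ + 2 * bb β κ) := by ring
  rw [h7]
  nlinarith [mul_nonneg h5 hκ, sq_nonneg κ]

theorem Gr_zero_ge {β : ℝ} (h0 : 0 ≤ β) (h1 : β < 1) :
    (2 * Real.pi)⁻¹ * Real.log ((Real.sqrt (2 * (1 - β)) + Real.pi) / Real.sqrt (2 * (1 - β)))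
      ≤ Gr β (0, 0) := by
  have hpi := Real.pi_pos
  set c := Real.sqrt (2 * (1 - β)) with hc
  have hc0 : 0 < c := Real.sqrt_pos.2 (by linarith)
  rw [Gr_eq_Kt h0 h1]
  unfold Kt
  refine mul_le_mul_of_nonneg_left ?_ (by positivity)
  have hci : ∀ a b, IntervalIntegrable (ki β (0, 0)) volume a b := ki_int h0 h1 _
  have hk0 : ∀ κ, ki β (0, 0) κ = (dd β κ)⁻¹ := fun κ => by simp [ki]
  rw [← intervalIntegral.integral_add_adjacent_intervals (hci (-Real.pi) 0) (hci 0 Real.pi)]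
  have e1 : 0 ≤ ∫ κ in (-Real.pi)..0, ki β (0, 0) κ :=
    intervalIntegral.integral_nonneg (by linarith) fun κ _ => by
      rw [hk0]; exact (inv_pos.2 (dd_pos h0 h1 κ)).le
  have e2 : Real.log ((c + Real.pi) / c) = ∫ κ in (0:ℝ)..Real.pi, (c + κ)⁻¹ := by
    rw [intervalIntegral.integral_comp_add_left (fun t => t⁻¹) c, add_zero,
      integral_inv_of_pos hc0 (by positivity)]
  have e3 : ∫ κ in (0:ℝ)..Real.pi, (c + κ)⁻¹ ≤ ∫ κ in (0:ℝ)..Real.pi, ki β (0, 0) κ := by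
    refine intervalIntegral.integral_mono_on hpi.le ?_ (hci _ _) fun κ hκ => ?_
    · refine ContinuousOn.intervalIntegrable ?_
      rw [Set.uIcc_of_le hpi.le]
      refine ContinuousOn.inv₀ (by fun_prop) fun κ hκ => ?_
      have := hκ.1
      positivity
    · rw [hk0]
      exact inv_anti₀ (dd_pos h0 h1 κ) (dd_le_add h0 h1 hκ.1)
  rw [e2]
  linarith

theorem exists_beta (B : ℝ) : ∃ β : ℝ, 1 / 2 ≤ β ∧ β < 1 ∧ B ≤ Gr β (0, 0) := by
  have hpi := Real.pi_pos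
  set c := min 1 (Real.pi / Real.exp (2 * Real.pi * B)) with hc
  have hc0 : 0 < c := lt_min one_pos (by positivity)
  have hc1 : c ≤ 1 := min_le_left _ _
  have hsq : c ^ 2 ≤ 1 := pow_le_one₀ hc0.le hc1
  refine ⟨1 - c ^ 2 / 2, by linarith, by have := pow_pos hc0 2; linarith, ?_⟩
  have h0 : (0:ℝ) ≤ 1 - c ^ 2 / 2 := by linarith
  have h1 : 1 - c ^ 2 / 2 < 1 := by have := pow_pos hc0 2; linarith
  refine (le_trans ?_ (Gr_zero_ge h0 h1))
  have e : Real.sqrt (2 * (1 - (1 - c ^ 2 / 2))) = c := by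
    have : 2 * (1 - (1 - c ^ 2 / 2)) = c ^ 2 := by ring
    rw [this, Real.sqrt_sq hc0.le]
  rw [e, le_inv_mul_iff₀ (by positivity)]
  rw [Real.le_log_iff_exp_le (by positivity), le_div_iff₀ hc0]
  have h2 : c ≤ Real.pi / Real.exp (2 * Real.pi * B) := min_le_right _ _
  rw [le_div_iff₀ (Real.exp_pos _)] at h2
  linarith [mul_comm c (Real.exp (2 * Real.pi * B))]

/-- normalised kernels close to `1` on a finite set -/
theorem exists_Kn (s : Finset (ℤ × ℤ)) {ε : ℝ} (hε : 0 < ε) : ∃ β : ℝ, 0 ≤ β ∧ β < 1 ∧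
    ∀ p ∈ s, |Gr β p / Gr β (0, 0) - 1| ≤ ε := by
  obtain ⟨β, h0, h1, h2⟩ := exists_beta ((∑ p ∈ s, Cb p) / ε)
  have h00 : (0:ℝ) ≤ β := by linarith
  refine ⟨β, h00, h1, fun p hp => ?_⟩
  have hG : 0 < Gr β (0, 0) := one_pos.trans_le (Gr_zero_pos h00 h1)
  obtain ⟨h3, h4⟩ := Gr_sub_mem h0 h1 p
  have hCb : ∀ q : ℤ × ℤ, 0 ≤ Cb q := fun q => by
    unfold Cb
    have := Real.pi_pos
    positivity
  have h5 : Cb p ≤ ∑ q ∈ s, Cb q := single_le_sum (fun q _ => hCb q) hp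
  have e : Gr β p / Gr β (0, 0) - 1 = -((Gr β (0, 0) - Gr β p) / Gr β (0, 0)) := by
    field_simp
    ring
  rw [e, abs_neg, abs_of_nonneg (div_nonneg h3 hG.le), div_le_iff₀ hG]
  rw [div_le_iff₀ hε] at h2
  linarith [mul_comm ε (Gr β (0, 0))]

end Crest.Agent.R144.Reg136
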