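import Crest.Agent.R144.RegG_136

/-!
# R144, REG block (helper136), part P: Fourier inversion and Plancherel for `uC`
-/

set_option autoImplicit false

noncomputable section

namespace Crest.Agent.R144.Reg136

open Finset Filter Topology MeasureTheory

/-- inner integral of a plane wave -/
theorem integral_cos_inner (m n : ℤ) (k1 : ℝ) :
    ∫ k2 in (-Real.pi)..Real.pi, Real.cos (k1 * m + k2 * n)
      = if n = 0 then 2 * Real.pi * Real.cos (k1 * m) else 0 := by
  have h1 : ∀ k2 : ℝ, Real.cos (k1 * m + k2 * n)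
      = Real.cos (k1 * m) * Real.cos (k2 * n) - Real.sin (k1 * m) * Real.sin (k2 * n) := fun k2 =>
    Real.cos_add _ _
  have h2 : ∫ k2 in (-Real.pi)..Real.pi, Real.sin (k2 * n) = 0 := by
    by_cases hn : n = 0
    · simp [hn]
    · have hx : (n : ℝ) ≠ 0 := by exact_mod_cast hn
      rw [intervalIntegral.integral_comp_mul_right (fun t => Real.sin t) hx, integral_sin]
      simp
  simp_rw [h1]
  rw [intervalIntegral.integral_sub, intervalIntegral.integral_const_mul,
    intervalIntegral.integral_const_mul, integral_cos_int, h2]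
  · split_ifs with h
    · ring
    · simp
  · exact (by fun_prop : Continuous fun k2 : ℝ =>
      Real.cos (k1 * m) * Real.cos (k2 * n)).intervalIntegrable _ _
  · exact (by fun_prop : Continuous fun k2 : ℝ =>
      Real.sin (k1 * m) * Real.sin (k2 * n)).intervalIntegrable _ _

/-- double integral of a plane wave -/
theorem integral_cos_double (m n : ℤ) :
    ∫ k1 in (-Real.pi)..Real.pi, ∫ k2 in (-Real.pi)..Real.pi, Real.cos (k1 * m + k2 * n)
      = if m = 0 ∧ n = 0 then (2 * Real.pi) ^ 2 else 0 := by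
  simp_rw [integral_cos_inner]
  by_cases hn : n = 0
  · simp only [hn, if_true, and_true]
    rw [intervalIntegral.integral_const_mul, integral_cos_int]
    split_ifs <;> ring
  · simp [hn]

variable {M ρ : ℝ} {C : ℤ × ℤ → ℝ}

/-- exchange of sum and integral for bounded continuous families with summable bounds -/
theorem tsum_interval {F : ℤ × ℤ → ℝ → ℝ} {B : ℤ × ℤ → ℝ} (hF : ∀ p, Continuous (F p))
    (hB : ∀ p t, |F p t| ≤ B p) (hs : Summable B) (a b : ℝ) :
    ∫ t in a..b, ∑' p, F p t = ∑' p, ∫ t in a..b, F p t := by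
  refine (HasSum.tsum_eq ?_).symm
  refine intervalIntegral.hasSum_integral_of_dominated_convergence (fun p _ => B p) (fun p =>
    (hF p).aestronglyMeasurable) (fun p => ae_of_all _ fun t _ => hB p t)
    (ae_of_all _ fun t _ => hs) ?_ (ae_of_all _ fun t _ => ?_)
  · exact intervalIntegrable_const
  · exact (Summable.of_norm_bounded hs fun p => hB p t).hasSum

theorem RC.inversion (h : RC M ρ C) (a b : ℤ) :
    ∫ k1 in (-Real.pi)..Real.pi, ∫ k2 in (-Real.pi)..Real.pi,
      Real.cos (k1 * a + k2 * b) * uC C k1 k2 = (2 * Real.pi) ^ 2 * C (a, b) := by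
  set g : ℤ × ℤ → ℝ → ℝ → ℝ := fun p k1 k2 =>
    C p * (Real.cos (k1 * p.1 + k2 * p.2) * Real.cos (k1 * a + k2 * b)) with hg
  have hgb : ∀ p k1 k2, |g p k1 k2| ≤ |C p| := by
    intro p k1 k2
    simp only [hg]
    rw [abs_mul, abs_mul]
    have h1 := Real.abs_cos_le_one (k1 * p.1 + k2 * p.2)
    have h2 := Real.abs_cos_le_one (k1 * a + k2 * b)
    have h3 : |Real.cos (k1 * p.1 + k2 * p.2)| * |Real.cos (k1 * a + k2 * b)| ≤ 1 :=
      mul_le_one₀ h1 (abs_nonneg _) h2
    calc |C p| * (|Real.cos (k1 * p.1 + k2 * p.2)| * |Real.cos (k1 * a + k2 * b)|) ≤ |C p| * 1 :=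
          mul_le_mul_of_nonneg_left h3 (abs_nonneg _)
      _ = _ := mul_one _
  have e0 : ∀ k1 k2, Real.cos (k1 * a + k2 * b) * uC C k1 k2 = ∑' p, g p k1 k2 := by
    intro k1 k2
    simp only [uC, hg]
    rw [← tsum_mul_left]
    exact tsum_congr fun p => by ring
  simp_rw [e0]
  have e1 : ∀ k1, ∫ k2 in (-Real.pi)..Real.pi, ∑' p, g p k1 k2
      = ∑' p, ∫ k2 in (-Real.pi)..Real.pi, g p k1 k2 := by
    intro k1
    refine tsum_interval (B := fun p => |C p|) (fun p => ?_) (fun p t => hgb p k1 t)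
      h.summable_abs _ _
    simp only [hg]
    fun_prop
  simp_rw [e1]
  -- explicit inner integral
  have e2 : ∀ p k1, ∫ k2 in (-Real.pi)..Real.pi, g p k1 k2
      = C p * (1 / 2) * ((if p.2 - b = 0 then 2 * Real.pi * Real.cos (k1 * ((p.1 - a : ℤ) : ℝ)) else 0)
        + (if p.2 + b = 0 then 2 * Real.pi * Real.cos (k1 * ((p.1 + a : ℤ) : ℝ)) else 0)) := by
    intro p k1
    rw [← integral_cos_inner, ← integral_cos_inner, ← intervalIntegral.integral_add,
      ← intervalIntegral.integral_const_mul]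
    · refine intervalIntegral.integral_congr fun k2 _ => ?_
      simp only [hg]
      have i1 : k1 * ((p.1 - a : ℤ) : ℝ) + k2 * ((p.2 - b : ℤ) : ℝ)
          = (k1 * p.1 + k2 * p.2) - (k1 * a + k2 * b) := by push_cast; ring
      have i2 : k1 * ((p.1 + a : ℤ) : ℝ) + k2 * ((p.2 + b : ℤ) : ℝ)
          = (k1 * p.1 + k2 * p.2) + (k1 * a + k2 * b) := by push_cast; ring
      rw [i1, i2, Real.cos_sub (k1 * p.1 + k2 * p.2) (k1 * a + k2 * b),
        Real.cos_add (k1 * p.1 + k2 * p.2) (k1 * a + k2 * b)]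
      ring
    · exact (by fun_prop : Continuous fun k2 : ℝ =>
        Real.cos (k1 * ((p.1 - a : ℤ) : ℝ) + k2 * ((p.2 - b : ℤ) : ℝ))).intervalIntegrable _ _
    · exact (by fun_prop : Continuous fun k2 : ℝ =>
        Real.cos (k1 * ((p.1 + a : ℤ) : ℝ) + k2 * ((p.2 + b : ℤ) : ℝ))).intervalIntegrable _ _
  have hcont : ∀ p, Continuous fun k1 => ∫ k2 in (-Real.pi)..Real.pi, g p k1 k2 := by
    intro p
    simp_rw [e2]
    split_ifs <;> fun_prop
  have hle : (-Real.pi) ≤ Real.pi := by linarith [Real.pi_pos]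
  have hbd : ∀ p k1, |∫ k2 in (-Real.pi)..Real.pi, g p k1 k2| ≤ (2 * Real.pi) * |C p| := by
    intro p k1
    have := intervalIntegral.norm_integral_le_of_norm_le_const (a := -Real.pi) (b := Real.pi)
      (f := fun k2 => g p k1 k2) (C := |C p|) (fun k2 _ => hgb p k1 k2)
    rw [Real.norm_eq_abs] at this
    have h9 : |Real.pi - -Real.pi| = 2 * Real.pi := by
      rw [abs_of_pos (by linarith [Real.pi_pos])]; ring
    rw [h9] at this
    linarith [mul_comm |C p| (2 * Real.pi)]
  rw [tsum_interval (B := fun p => (2 * Real.pi) * |C p|) hcont hbd (h.summable_abs.mul_left _)]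
  -- double integral of each term
  have e3 : ∀ p : ℤ × ℤ, ∫ k1 in (-Real.pi)..Real.pi, ∫ k2 in (-Real.pi)..Real.pi, g p k1 k2
      = C p * (1 / 2) * ((if p = (a, b) then (2 * Real.pi) ^ 2 else 0)
        + (if p = (-a, -b) then (2 * Real.pi) ^ 2 else 0)) := by
    intro p
    simp_rw [e2]
    rw [intervalIntegral.integral_const_mul, intervalIntegral.integral_add]
    · simp_rw [← integral_cos_inner]
      rw [integral_cos_double, integral_cos_double]
      obtain ⟨x, y⟩ := p
      simp only [Prod.mk.injEq, sub_eq_zero, add_eq_zero_iff_eq_neg]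
    · refine Continuous.intervalIntegrable ?_ _ _
      split_ifs <;> fun_prop
    · refine Continuous.intervalIntegrable ?_ _ _
      split_ifs <;> fun_prop
  simp_rw [e3, mul_add]
  have hs1 : Summable fun p : ℤ × ℤ => C p * (1 / 2) * (if p = (a, b) then (2 * Real.pi) ^ 2 else 0) :=
    summable_of_hasFiniteSupport ((Set.finite_singleton (a, b)).subset fun p hp => by
      by_contra hne
      simp only [Set.mem_singleton_iff] at hne
      simp [hne] at hp)
  have hs2 : Summable fun p : ℤ × ℤ =>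
      C p * (1 / 2) * (if p = (-a, -b) then (2 * Real.pi) ^ 2 else 0) :=
    summable_of_hasFiniteSupport ((Set.finite_singleton (-a, -b)).subset fun p hp => by
      by_contra hne
      simp only [Set.mem_singleton_iff] at hne
      simp [hne] at hp)
  rw [hs1.tsum_add hs2]
  simp_rw [mul_ite, mul_zero]
  rw [tsum_ite_eq, tsum_ite_eq, h.even]
  ring

theorem cont_slice {F : ℝ → ℝ → ℝ} (h : Continuous fun k : ℝ × ℝ => F k.1 k.2) (a : ℝ) :
    Continuous fun b => F a b := h.comp (by fun_prop : Continuous fun b : ℝ => (a, b))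

theorem cont_param {F : ℝ → ℝ → ℝ} (h : Continuous fun k : ℝ × ℝ => F k.1 k.2) (a b : ℝ) :
    Continuous fun x => ∫ y in a..b, F x y :=
  intervalIntegral.continuous_parametric_intervalIntegral_of_continuous' h _ _

/-- Plancherel -/
theorem RC.plancherel (h : RC M ρ C) (s : Finset (ℤ × ℤ)) (f : ℤ × ℤ → ℝ) :
    ∫ k1 in (-Real.pi)..Real.pi, ∫ k2 in (-Real.pi)..Real.pi,
      (∑ p ∈ s, ∑ q ∈ s, f p * f q * Real.cos (k1 * ((p.1 - q.1 : ℤ) : ℝ) + k2 * ((p.2 - q.2 : ℤ) : ℝ)))
        * uC C k1 k2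
      = (2 * Real.pi) ^ 2 * ∑ p ∈ s, ∑ q ∈ s, f p * f q * C (p - q) := by
  have hcu : Continuous fun k : ℝ × ℝ => uC C k.1 k.2 := h.continuous_uC
  set w : (ℤ × ℤ) → (ℤ × ℤ) → ℝ → ℝ → ℝ := fun p q k1 k2 =>
    Real.cos (k1 * ((p.1 - q.1 : ℤ) : ℝ) + k2 * ((p.2 - q.2 : ℤ) : ℝ)) * uC C k1 k2 with hw
  have hwc : ∀ p q, Continuous (fun k : ℝ × ℝ => w p q k.1 k.2) := by
    intro p q
    simp only [hw]
    exact (by fun_prop : Continuous fun k : ℝ × ℝ =>
      Real.cos (k.1 * ((p.1 - q.1 : ℤ) : ℝ) + k.2 * ((p.2 - q.2 : ℤ) : ℝ))).mul hcu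
  have hwk : ∀ p q k1, Continuous fun k2 => w p q k1 k2 := fun p q k1 =>
    cont_slice (hwc p q) k1
  have hwi : ∀ p q k1, IntervalIntegrable (fun k2 => w p q k1 k2) volume (-Real.pi) Real.pi :=
    fun p q k1 => (hwk p q k1).intervalIntegrable _ _
  have hwo : ∀ p q, Continuous fun k1 => ∫ k2 in (-Real.pi)..Real.pi, w p q k1 k2 := fun p q =>
    cont_param (hwc p q) _ _
  have e1 : ∀ k1 k2 : ℝ, (∑ p ∈ s, ∑ q ∈ s, f p * f q *
      Real.cos (k1 * ((p.1 - q.1 : ℤ) : ℝ) + k2 * ((p.2 - q.2 : ℤ) : ℝ))) * uC C k1 k2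
      = ∑ p ∈ s, ∑ q ∈ s, (f p * f q) * w p q k1 k2 := by
    intro k1 k2
    rw [sum_mul]
    refine sum_congr rfl fun p _ => ?_
    rw [sum_mul]
    refine sum_congr rfl fun q _ => ?_
    simp only [hw]
    ring
  simp_rw [e1]
  have e2 : ∀ k1 : ℝ, ∫ k2 in (-Real.pi)..Real.pi, ∑ p ∈ s, ∑ q ∈ s, (f p * f q) * w p q k1 k2
      = ∑ p ∈ s, ∑ q ∈ s, (f p * f q) * ∫ k2 in (-Real.pi)..Real.pi, w p q k1 k2 := by
    intro k1
    rw [intervalIntegral.integral_finsetSum]
    · refine sum_congr rfl fun p _ => ?_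
      rw [intervalIntegral.integral_finsetSum]
      · exact sum_congr rfl fun q _ => intervalIntegral.integral_const_mul _ _
      · exact fun q _ => (hwi p q k1).const_mul _
    · intro p _
      refine Continuous.intervalIntegrable ?_ _ _
      exact continuous_finsetSum _ fun q _ => (hwk p q k1).const_mul _
  simp_rw [e2]
  rw [intervalIntegral.integral_finsetSum]
  · rw [mul_sum]
    refine sum_congr rfl fun p _ => ?_
    rw [intervalIntegral.integral_finsetSum]
    · rw [mul_sum]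
      refine sum_congr rfl fun q _ => ?_
      rw [intervalIntegral.integral_const_mul]
      have := h.inversion (p.1 - q.1) (p.2 - q.2)
      simp only [hw]
      rw [this]
      have e3 : p - q = (p.1 - q.1, p.2 - q.2) := rfl
      rw [e3]
      ring
    · exact fun q _ => ((hwo p q).const_mul _).intervalIntegrable _ _
  · intro p _
    exact (continuous_finsetSum _ fun q _ => (hwo p q).const_mul _).intervalIntegrable _ _

end Crest.Agent.R144.Reg136
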