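import Crest.Agent.R144.RegH_136
import Mathlib.Analysis.Asymptotics.SpecificAsymptotics
import Mathlib.Analysis.Normed.Group.FunctionSeries

/-!
# R144, REG block (helper136), part R: rows of a summable reflection positive covariance

`RC M ρ C` : `C : ℤ × ℤ → ℝ` has exponential decay, the symmetries of the triangular lattice
(`C (-p) = C p`, `C (x + y, -y) = C (x, y)`, `C (y, x) = C (x, y)`) and is reflection positive in
the line `y = 0`.

`uC C k1 k2 = ∑' p, C p cos (k1 x + k2 y)`.  Main results: symmetries, continuity, positivity,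
`uC_three` (three point inequality in the frame 1), `uC_mono`, `uC_mono4`.
-/

set_option autoImplicit false

noncomputable section

namespace Crest.Agent.R144.Reg136

open Finset Filter Topology

/-! ### generic family version of a positive kernel -/

theorem psd_family {α : Type*} [DecidableEq α] (D : α → α → ℝ) (P : α → Prop)
    (h : ∀ (s : Finset α) (w : α → ℝ), (∀ a ∈ s, P a) → 0 ≤ ∑ a ∈ s, ∑ b ∈ s, w a * w b * D a b)
    {ι : Type*} (t : Finset ι) (n : ι → α) (hn : ∀ i ∈ t, P (n i)) (w : ι → ℝ) :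
    0 ≤ ∑ i ∈ t, ∑ j ∈ t, w i * w j * D (n i) (n j) := by
  classical
  set s := t.image n with hs
  have hm : ∀ i ∈ t, n i ∈ s := fun i hi => mem_image_of_mem n hi
  have hP : ∀ a ∈ s, P a := by
    intro a ha
    obtain ⟨i, hi, rfl⟩ := mem_image.1 ha
    exact hn i hi
  have key : ∑ i ∈ t, ∑ j ∈ t, w i * w j * D (n i) (n j)
      = ∑ k ∈ s, ∑ l ∈ s, (∑ i ∈ t with n i = k, w i) * (∑ j ∈ t with n j = l, w j) * D k l := by
    have h1 : ∀ i ∈ t, ∑ j ∈ t, w i * w j * D (n i) (n j)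
        = ∑ l ∈ s, w i * (∑ j ∈ t with n j = l, w j) * D (n i) l := by
      intro i _
      rw [← sum_fiberwise_of_maps_to hm]
      refine sum_congr rfl fun l _ => ?_
      rw [mul_sum, sum_mul]
      refine sum_congr rfl fun j hj => ?_
      rw [(mem_filter.1 hj).2]
    rw [sum_congr rfl h1, sum_comm]
    rw [sum_comm (s := s) (t := s)]
    refine sum_congr rfl fun l _ => ?_
    rw [← sum_fiberwise_of_maps_to hm]
    refine sum_congr rfl fun k _ => ?_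
    rw [sum_mul, sum_mul]
    refine sum_congr rfl fun i hi => ?_
    rw [(mem_filter.1 hi).2]
  rw [key]
  exact h s (fun k => ∑ i ∈ t with n i = k, w i) hP

/-! ### summability on `ℤ × ℤ` -/

theorem summable_geom_int {ρ : ℝ} (hρ0 : 0 ≤ ρ) (hρ1 : ρ < 1) :
    Summable fun x : ℤ => ρ ^ x.natAbs := by
  refine Summable.of_nat_of_neg ?_ ?_
  · simpa using summable_geometric_of_lt_one hρ0 hρ1
  · simpa using summable_geometric_of_lt_one hρ0 hρ1

theorem summable_geom_int2 {ρ : ℝ} (hρ0 : 0 ≤ ρ) (hρ1 : ρ < 1) :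
    Summable fun p : ℤ × ℤ => ρ ^ (p.1.natAbs + p.2.natAbs) := by
  have h := (summable_geom_int hρ0 hρ1).mul_of_nonneg (summable_geom_int hρ0 hρ1)
    (fun _ => pow_nonneg hρ0 _) (fun _ => pow_nonneg hρ0 _)
  refine h.congr fun p => ?_
  rw [pow_add]

/-- A symmetric, exponentially decaying, reflection positive covariance on the triangular lattice. -/
structure RC (M ρ : ℝ) (C : ℤ × ℤ → ℝ) : Prop where
  ρ0 : 0 ≤ ρ
  ρ1 : ρ < 1
  dec : ∀ p : ℤ × ℤ, |C p| ≤ M * ρ ^ (p.1.natAbs + p.2.natAbs)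
  even : ∀ x y : ℤ, C (-x, -y) = C (x, y)
  theta : ∀ x y : ℤ, C (x + y, -y) = C (x, y)
  swap : ∀ x y : ℤ, C (y, x) = C (x, y)
  rp : ∀ (s : Finset (ℤ × ℤ)) (f : ℤ × ℤ → ℝ), (∀ p ∈ s, 0 ≤ p.2) →
    0 ≤ ∑ p ∈ s, ∑ q ∈ s, f p * f q * C (p.1 - q.1 - q.2, p.2 + q.2)

/-- the structure function -/
def uC (C : ℤ × ℤ → ℝ) (k1 k2 : ℝ) : ℝ := ∑' p : ℤ × ℤ, C p * Real.cos (k1 * p.1 + k2 * p.2)

/-- row Fourier coefficient at tangential momentum `κ` -/
def Fz (C : ℤ × ℤ → ℝ) (κ : ℝ) (n : ℤ) : ℝ :=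
  ∑' x : ℤ, C (x, n) * Real.cos (κ * ((x : ℝ) + n / 2))

namespace RC

variable {M ρ : ℝ} {C : ℤ × ℤ → ℝ}

theorem M_nonneg (h : RC M ρ C) : 0 ≤ M := by
  have := h.dec (0, 0)
  simp at this
  exact (abs_nonneg _).trans this

theorem summable (h : RC M ρ C) : Summable C :=
  Summable.of_norm_bounded ((summable_geom_int2 h.ρ0 h.ρ1).mul_left M) fun p => h.dec p

theorem summable_abs (h : RC M ρ C) : Summable fun p => |C p| := h.summable.abs

theorem summable_mul (h : RC M ρ C) (g : ℤ × ℤ → ℝ) (hg : ∀ p, |g p| ≤ 1) :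
    Summable fun p => C p * g p :=
  Summable.of_norm_bounded h.summable_abs fun p => by
    rw [Real.norm_eq_abs, abs_mul]
    calc |C p| * |g p| ≤ |C p| * 1 := mul_le_mul_of_nonneg_left (hg p) (abs_nonneg _)
      _ = _ := mul_one _

theorem row_le (h : RC M ρ C) (x n : ℤ) : |C (x, n)| ≤ M * ρ ^ n.natAbs * ρ ^ x.natAbs := by
  refine (h.dec (x, n)).trans_eq ?_
  rw [pow_add]
  ring

theorem summable_row (h : RC M ρ C) (n : ℤ) (g : ℤ → ℝ) (hg : ∀ p, |g p| ≤ 1) :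
    Summable fun x : ℤ => C (x, n) * g x :=
  Summable.of_norm_bounded ((summable_geom_int h.ρ0 h.ρ1).mul_left (M * ρ ^ n.natAbs)) fun x => by
    rw [Real.norm_eq_abs, abs_mul]
    calc |C (x, n)| * |g x| ≤ |C (x, n)| * 1 := mul_le_mul_of_nonneg_left (hg x) (abs_nonneg _)
      _ = |C (x, n)| := mul_one _
      _ ≤ _ := h.row_le x n

theorem abs_Fz_le (h : RC M ρ C) (κ : ℝ) (n : ℤ) :
    |Fz C κ n| ≤ (M * ∑' x : ℤ, ρ ^ x.natAbs) * ρ ^ n.natAbs := by
  unfold Fz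
  have hs := h.summable_row n (fun x => Real.cos (κ * ((x : ℝ) + n / 2)))
    (fun x => Real.abs_cos_le_one _)
  calc |∑' x : ℤ, C (x, n) * Real.cos (κ * ((x : ℝ) + n / 2))|
      ≤ ∑' x : ℤ, |C (x, n) * Real.cos (κ * ((x : ℝ) + n / 2))| := by
        simpa using norm_tsum_le_tsum_norm
          (f := fun x : ℤ => C (x, n) * Real.cos (κ * ((x : ℝ) + n / 2))) (by simpa using hs.abs)
    _ ≤ ∑' x : ℤ, M * ρ ^ n.natAbs * ρ ^ x.natAbs := by
        refine hs.abs.tsum_le_tsum (fun x => ?_) ((summable_geom_int h.ρ0 h.ρ1).mul_left _)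
        rw [abs_mul]
        calc |C (x, n)| * |Real.cos (κ * ((x : ℝ) + n / 2))| ≤ |C (x, n)| * 1 :=
              mul_le_mul_of_nonneg_left (Real.abs_cos_le_one _) (abs_nonneg _)
          _ = |C (x, n)| := mul_one _
          _ ≤ _ := h.row_le x n
    _ = _ := by rw [tsum_mul_left]; ring

theorem dec_F (h : RC M ρ C) (κ : ℝ) :
    Dec (M * ∑' x : ℤ, ρ ^ x.natAbs) ρ fun n : ℕ => Fz C κ n := by
  intro n
  simpa using h.abs_Fz_le κ n

/-- `C (-x - n, n) = C (x, n)` -/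
theorem refl_row (h : RC M ρ C) (x n : ℤ) : C (-x - n, n) = C (x, n) := by
  have h1 := h.theta (-x) (-n)
  have h2 := h.even x n
  rw [← h2, ← h1]
  congr 2
  ring

theorem row_sin (h : RC M ρ C) (κ : ℝ) (n : ℤ) :
    ∑' x : ℤ, C (x, n) * Real.sin (κ * ((x : ℝ) + n / 2)) = 0 := by
  have hinv : Function.Involutive fun x : ℤ => -x - n := fun x => by simp
  have h1 := (hinv.toPerm (fun x : ℤ => -x - n)).tsum_eq
    (fun x : ℤ => C (x, n) * Real.sin (κ * ((x : ℝ) + n / 2)))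
  have h2 : ∀ x : ℤ, C ((-x - n : ℤ), n) * Real.sin (κ * (((-x - n : ℤ) : ℝ) + n / 2))
      = -(C (x, n) * Real.sin (κ * ((x : ℝ) + n / 2))) := by
    intro x
    rw [h.refl_row]
    have : κ * (((-x - n : ℤ) : ℝ) + n / 2) = -(κ * ((x : ℝ) + n / 2)) := by
      push_cast; ring
    rw [this, Real.sin_neg]
    ring
  simp only [Function.Involutive.coe_toPerm] at h1
  simp_rw [h2] at h1
  rw [tsum_neg] at h1
  linarith

theorem Fz_neg (h : RC M ρ C) (κ : ℝ) (n : ℤ) : Fz C κ (-n) = Fz C κ n := by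
  unfold Fz
  have h1 := (Equiv.neg ℤ).tsum_eq
    (fun x : ℤ => C (x, -n) * Real.cos (κ * ((x : ℝ) + ((-n : ℤ) : ℝ) / 2)))
  rw [← h1]
  refine tsum_congr fun x => ?_
  simp only [Equiv.neg_apply]
  rw [h.even]
  congr 1
  rw [← Real.cos_neg]
  congr 1
  push_cast
  ring

/-- the structure function as a cosine series in the frame 1 -/
theorem uC_eq_tsum (h : RC M ρ C) (κ φ : ℝ) :
    uC C κ (φ + κ / 2) = ∑' n : ℤ, Fz C κ n * Real.cos (n * φ) := by
  unfold uC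
  have hs := h.summable_mul (fun p => Real.cos (κ * p.1 + (φ + κ / 2) * p.2))
    (fun p => Real.abs_cos_le_one _)
  have hs' : Summable fun q : ℤ × ℤ => C (q.2, q.1) * Real.cos (κ * q.2 + (φ + κ / 2) * q.1) :=
    ((Equiv.prodComm ℤ ℤ).summable_iff (f := fun p : ℤ × ℤ =>
      C p * Real.cos (κ * p.1 + (φ + κ / 2) * p.2))).2 hs
  have h1 : ∑' p : ℤ × ℤ, C p * Real.cos (κ * p.1 + (φ + κ / 2) * p.2)
      = ∑' q : ℤ × ℤ, C (q.2, q.1) * Real.cos (κ * q.2 + (φ + κ / 2) * q.1) :=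
    ((Equiv.prodComm ℤ ℤ).tsum_eq (fun p : ℤ × ℤ =>
      C p * Real.cos (κ * p.1 + (φ + κ / 2) * p.2))).symm
  rw [h1, hs'.tsum_prod]
  refine tsum_congr fun n => ?_
  have hc := h.summable_row n (fun x => Real.cos (κ * ((x : ℝ) + n / 2)))
    (fun x => Real.abs_cos_le_one _)
  have hsn := h.summable_row n (fun x => Real.sin (κ * ((x : ℝ) + n / 2)))
    (fun x => Real.abs_sin_le_one _)
  have h2 : ∀ x : ℤ, C (x, n) * Real.cos (κ * x + (φ + κ / 2) * n)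
      = C (x, n) * Real.cos (κ * ((x : ℝ) + n / 2)) * Real.cos (n * φ)
        - C (x, n) * Real.sin (κ * ((x : ℝ) + n / 2)) * Real.sin (n * φ) := by
    intro x
    have : κ * x + (φ + κ / 2) * n = κ * ((x : ℝ) + n / 2) + n * φ := by ring
    rw [this, Real.cos_add]
    ring
  simp_rw [h2]
  rw [(hc.mul_right _).tsum_sub (hsn.mul_right _), tsum_mul_right, tsum_mul_right, h.row_sin]
  unfold Fz
  ring

theorem uC_eq_uv (h : RC M ρ C) (κ φ : ℝ) :
    uC C κ (φ + κ / 2) = uv (fun n : ℕ => Fz C κ n - Fz C κ (n + 2 : ℕ)) φ := by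
  rw [h.uC_eq_tsum, uv_cos h.ρ0 h.ρ1 (h.dec_F κ) φ]
  have hd := h.dec_F κ
  set f : ℤ → ℝ := fun n => Fz C κ n * Real.cos (n * φ) with hf
  have hneg : ∀ n, f (-n) = f n := by
    intro n
    simp only [hf]
    rw [h.Fz_neg]
    congr 1
    rw [← Real.cos_neg]
    congr 1
    push_cast
    ring
  have hsn : Summable fun n : ℕ => f n := by
    refine Summable.of_norm_bounded (hd.summable_self h.ρ0 h.ρ1).abs fun n => ?_
    simp only [hf, Real.norm_eq_abs, abs_mul]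
    calc |Fz C κ n| * |Real.cos (((n : ℤ) : ℝ) * φ)| ≤ |Fz C κ n| * 1 :=
          mul_le_mul_of_nonneg_left (Real.abs_cos_le_one _) (abs_nonneg _)
      _ = _ := mul_one _
  have hsn' : Summable fun n : ℕ => f (n + 1 : ℕ) := (summable_nat_add_iff 1).2 hsn
  have hsm : Summable fun n : ℕ => f (-(n + 1 : ℤ)) := by
    refine hsn'.congr fun n => ?_
    rw [hneg]
    push_cast
    rfl
  have e1 : ∑' n : ℤ, f n = ∑' n : ℕ, f n + ∑' n : ℕ, f (-(n + 1 : ℤ)) :=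
    tsum_of_nat_of_neg_add_one hsn hsm
  have e2 : ∑' n : ℕ, f n = f 0 + ∑' n : ℕ, f (n + 1 : ℕ) := hsn.tsum_eq_zero_add
  have e3 : ∑' n : ℕ, f (-(n + 1 : ℤ)) = ∑' n : ℕ, f (n + 1 : ℕ) := by
    refine tsum_congr fun n => ?_
    rw [hneg]
    push_cast
    rfl
  show ∑' n : ℤ, f n = _
  rw [e1, e2, e3]
  have e4 : f 0 = Fz C κ ((0 : ℕ) : ℤ) := by simp [hf]
  have e5 : ∑' n : ℕ, f (n + 1 : ℕ) = ∑' n : ℕ, Fz C κ ((n + 1 : ℕ) : ℤ) *
      Real.cos (((n + 1 : ℕ) : ℝ) * φ) := tsum_congr fun n => by simp only [hf, Int.cast_natCast]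
  rw [e4, two_mul, add_assoc, e5]

end RC

/-! ### Hankel positivity of the rows -/

/-- Cesàro mean of a summable sequence over a square. -/
theorem cesaro_int (g : ℤ → ℝ) (hg : Summable g) :
    Tendsto (fun R : ℕ => (R : ℝ)⁻¹ * ∑ x ∈ range R, ∑ y ∈ range R, g ((x : ℤ) - y)) atTop
      (𝓝 (∑' d, g d)) := by
  set T : ℕ → ℝ := fun R => g 0 + ∑ i ∈ range R, (g (i + 1 : ℕ) + g (-(i + 1 : ℤ))) with hT
  have hS : ∀ R : ℕ, ∑ x ∈ range R, ∑ y ∈ range R, g ((x : ℤ) - y) = ∑ j ∈ range R, T j := by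
    intro R
    induction R with
    | zero => simp
    | succ R ih =>
      rw [sum_range_succ (fun j => T j), ← ih, sum_range_succ]
      simp_rw [sum_range_succ (fun y => g (_ - (y : ℤ)))]
      rw [sum_add_distrib]
      have e1 : ∑ x ∈ range R, g ((x : ℤ) - R) = ∑ i ∈ range R, g (-(i + 1 : ℤ)) := by
        rw [← sum_range_reflect]
        refine sum_congr rfl fun j hj => ?_
        have hj' := mem_range.1 hj
        congr 1
        have : ((R - 1 - j : ℕ) : ℤ) = R - 1 - j := by omega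
        rw [this]
        ring
      have e2 : ∑ y ∈ range R, g ((R : ℤ) - y) = ∑ i ∈ range R, g (i + 1 : ℕ) := by
        rw [← sum_range_reflect]
        refine sum_congr rfl fun j hj => ?_
        have hj' := mem_range.1 hj
        congr 1
        have : ((R - 1 - j : ℕ) : ℤ) = R - 1 - j := by omega
        rw [this]
        push_cast
        ring
      rw [e1, e2]
      simp only [hT, sub_self, sum_add_distrib]
      ring
  have h1 : Summable fun n : ℕ => g n := hg.comp_injective Nat.cast_injective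
  have h1' : Summable fun n : ℕ => g (n + 1 : ℕ) := (summable_nat_add_iff 1).2 h1
  have h2 : Summable fun n : ℕ => g (-(n + 1 : ℤ)) :=
    hg.comp_injective (fun a b h => by simpa using h)
  have hlim : Tendsto T atTop (𝓝 (∑' d, g d)) := by
    have e : ∑' d, g d = g 0 + ∑' i : ℕ, (g (i + 1 : ℕ) + g (-(i + 1 : ℤ))) := by
      rw [tsum_of_nat_of_neg_add_one h1 h2, h1.tsum_eq_zero_add, h1'.tsum_add h2]
      simp only [Nat.cast_zero]
      ring
    rw [e]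
    exact ((h1'.add h2).hasSum.tendsto_sum_nat).const_add (g 0)
  refine (hlim.cesaro).congr fun R => ?_
  rw [hS]

namespace RC

variable {M ρ : ℝ} {C : ℤ × ℤ → ℝ}

theorem hp_F (h : RC M ρ C) (κ : ℝ) : HP fun n : ℕ => Fz C κ n := by
  classical
  intro s w
  -- for each `n m`, the Cesàro mean of `g n m`
  set g : ℕ → ℕ → ℤ → ℝ := fun n m d =>
    C (d - m, (n : ℤ) + m) * Real.cos (κ * ((d : ℝ) + (n - m) / 2)) with hg
  have hgs : ∀ n m, Summable (g n m) ∧ ∑' d, g n m d = Fz C κ ((n + m : ℕ) : ℤ) := by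
    intro n m
    have h1 := h.summable_row ((n : ℤ) + m)
      (fun x => Real.cos (κ * ((x : ℝ) + (((n : ℤ) + m : ℤ) : ℝ) / 2))) (fun x => Real.abs_cos_le_one _)
    have h2 : g n m = (fun x : ℤ => C (x, (n : ℤ) + m) *
        Real.cos (κ * ((x : ℝ) + (((n : ℤ) + m : ℤ) : ℝ) / 2))) ∘ (Equiv.subRight (m : ℤ)) := by
      funext d
      simp only [hg, Function.comp, Equiv.subRight_apply]
      congr 2
      push_cast
      ring
    constructor
    · rw [h2]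
      exact ((Equiv.subRight (m : ℤ)).summable_iff).2 h1
    · have h3 := (Equiv.subRight (m : ℤ)).tsum_eq (fun x : ℤ => C (x, (n : ℤ) + m) *
        Real.cos (κ * ((x : ℝ) + (((n : ℤ) + m : ℤ) : ℝ) / 2)))
      rw [h2]
      simp only [Fz, Function.comp]
      rw [h3]
      push_cast
      rfl
  have hlim : Tendsto (fun R : ℕ => (R : ℝ)⁻¹ * ∑ n ∈ s, ∑ m ∈ s, w n * w m *
      ∑ x ∈ range R, ∑ y ∈ range R, g n m ((x : ℤ) - y)) atTop
      (𝓝 (∑ n ∈ s, ∑ m ∈ s, w n * w m * Fz C κ ((n + m : ℕ) : ℤ))) := by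
    have : ∀ R : ℕ, (R : ℝ)⁻¹ * ∑ n ∈ s, ∑ m ∈ s, w n * w m *
        ∑ x ∈ range R, ∑ y ∈ range R, g n m ((x : ℤ) - y)
        = ∑ n ∈ s, ∑ m ∈ s, w n * w m *
          ((R : ℝ)⁻¹ * ∑ x ∈ range R, ∑ y ∈ range R, g n m ((x : ℤ) - y)) := by
      intro R
      rw [mul_sum]
      refine sum_congr rfl fun n _ => ?_
      rw [mul_sum]
      exact sum_congr rfl fun m _ => by ring
    simp_rw [this]
    refine tendsto_finsetSum _ fun n _ => tendsto_finsetSum _ fun m _ => Tendsto.const_mul _ ?_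
    rw [← (hgs n m).2]
    exact cesaro_int _ (hgs n m).1
  refine ge_of_tendsto' hlim fun R => mul_nonneg (by positivity) ?_
  have fam := fun (v : ℕ × ℕ → ℝ) => psd_family
    (fun p q : ℤ × ℤ => C (p.1 - q.1 - q.2, p.2 + q.2)) (fun p => 0 ≤ p.2)
    (fun s f hs => h.rp s f hs) (s ×ˢ range R) (fun i : ℕ × ℕ => ((i.2 : ℤ), (i.1 : ℤ)))
    (fun i _ => by simp) v
  have hc := fam (fun i => w i.1 * Real.cos (κ * ((i.2 : ℝ) + i.1 / 2)))
  have hs' := fam (fun i => w i.1 * Real.sin (κ * ((i.2 : ℝ) + i.1 / 2)))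
  refine (add_nonneg hc hs').trans_eq ?_
  rw [← sum_add_distrib]
  simp_rw [← sum_add_distrib]
  have e1 : ∀ i j : ℕ × ℕ,
      w i.1 * Real.cos (κ * ((i.2 : ℝ) + i.1 / 2)) * (w j.1 * Real.cos (κ * ((j.2 : ℝ) + j.1 / 2))) *
        C ((i.2 : ℤ) - j.2 - j.1, (i.1 : ℤ) + j.1)
      + w i.1 * Real.sin (κ * ((i.2 : ℝ) + i.1 / 2)) * (w j.1 * Real.sin (κ * ((j.2 : ℝ) + j.1 / 2))) *
        C ((i.2 : ℤ) - j.2 - j.1, (i.1 : ℤ) + j.1)
      = w i.1 * w j.1 * g i.1 j.1 ((i.2 : ℤ) - j.2) := by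
    intro i j
    simp only [hg]
    have : κ * ((((i.2 : ℤ) - j.2 : ℤ) : ℝ) + ((i.1 : ℝ) - j.1) / 2)
        = κ * ((i.2 : ℝ) + i.1 / 2) - κ * ((j.2 : ℝ) + j.1 / 2) := by
      push_cast
      ring
    rw [this, Real.cos_sub]
    ring
  simp_rw [e1]
  have e2 := sum4 s (range R) (fun n m x y => w n * w m * g n m ((x : ℤ) - y))
  rw [e2]
  rw [sum_comm]
  refine sum_congr rfl fun n _ => ?_
  rw [sum_comm]
  refine sum_congr rfl fun m _ => ?_
  rw [sum_product, mul_sum]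
  refine sum_congr rfl fun x _ => ?_
  rw [mul_sum]

/-- the reduced row sequence -/
theorem hp_K (h : RC M ρ C) (κ : ℝ) : HP fun n : ℕ => Fz C κ n - Fz C κ (n + 2 : ℕ) :=
  (h.hp_F κ).sub_shift ((h.dec_F κ).tendsto h.ρ0 h.ρ1)

theorem dec_K (h : RC M ρ C) (κ : ℝ) :
    Dec (2 * (M * ∑' x : ℤ, ρ ^ x.natAbs)) ρ fun n : ℕ => Fz C κ n - Fz C κ (n + 2 : ℕ) := by
  intro n
  have h1 := h.dec_F κ n
  have h2 := (h.dec_F κ).shift h.ρ0 h.ρ1 2 n
  simp only at h1 h2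
  calc |Fz C κ (n : ℤ) - Fz C κ ((n + 2 : ℕ) : ℤ)| ≤ |Fz C κ (n : ℤ)| + |Fz C κ ((n + 2 : ℕ) : ℤ)| :=
        abs_sub _ _
    _ ≤ _ := by linarith

/-- nonnegativity of the structure function -/
theorem uC_nonneg (h : RC M ρ C) (k1 k2 : ℝ) : 0 ≤ uC C k1 k2 := by
  have e : uC C k1 k2 = uC C k1 ((k2 - k1 / 2) + k1 / 2) := by congr 1; ring
  rw [e, h.uC_eq_uv]
  exact uv_nonneg h.ρ0 h.ρ1 (h.dec_K k1) (h.hp_K k1) _

/-- three point inequality in the frame 1 -/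
theorem uC_three (h : RC M ρ C) (κ : ℝ) {φ0 φ1 φ2 : ℝ} (h01 : Real.cos φ1 ≤ Real.cos φ0)
    (h12 : Real.cos φ2 ≤ Real.cos φ1) :
    (Real.cos φ1 - Real.cos φ2) * (uC C κ (φ1 + κ / 2) * uC C κ (φ2 + κ / 2))
      + (Real.cos φ0 - Real.cos φ1) * (uC C κ (φ0 + κ / 2) * uC C κ (φ1 + κ / 2))
      ≤ (Real.cos φ0 - Real.cos φ2) * (uC C κ (φ0 + κ / 2) * uC C κ (φ2 + κ / 2)) := by
  rw [h.uC_eq_uv, h.uC_eq_uv, h.uC_eq_uv]
  exact three_point h.ρ0 h.ρ1 (h.dec_K κ) (h.hp_K κ) h01 h12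

theorem uC_mono (h : RC M ρ C) (κ : ℝ) {φ ψ : ℝ} (hc : Real.cos ψ ≤ Real.cos φ) :
    (1 - Real.cos φ) * uC C κ (φ + κ / 2) ≤ (1 - Real.cos ψ) * uC C κ (ψ + κ / 2) := by
  rw [h.uC_eq_uv, h.uC_eq_uv]
  exact mono_s h.ρ0 h.ρ1 (h.dec_K κ) (h.hp_K κ) hc

theorem uC_mono4 (h : RC M ρ C) (κ : ℝ) {φ ψ : ℝ} (hc : Real.cos ψ ≤ Real.cos φ) :
    (1 + Real.cos ψ) * uC C κ (ψ + κ / 2) ≤ (1 + Real.cos φ) * uC C κ (φ + κ / 2) := by
  rw [h.uC_eq_uv, h.uC_eq_uv]
  exact mono_4s h.ρ0 h.ρ1 (h.dec_K κ) (h.hp_K κ) hc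

/-! ### symmetries, periodicity, continuity -/

theorem uC_swap (h : RC M ρ C) (k1 k2 : ℝ) : uC C k2 k1 = uC C k1 k2 := by
  unfold uC
  rw [← (Equiv.prodComm ℤ ℤ).tsum_eq]
  refine tsum_congr fun p => ?_
  obtain ⟨x, y⟩ := p
  simp only [Equiv.prodComm_apply, Prod.swap_prod_mk]
  rw [h.swap, add_comm]

theorem uC_neg (C : ℤ × ℤ → ℝ) (k1 k2 : ℝ) : uC C (-k1) (-k2) = uC C k1 k2 := by
  unfold uC
  refine tsum_congr fun p => ?_
  rw [← Real.cos_neg]
  congr 2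
  ring

theorem uC_theta (h : RC M ρ C) (k1 k2 : ℝ) : uC C k1 (k1 - k2) = uC C k1 k2 := by
  unfold uC
  have hinv : Function.Involutive fun p : ℤ × ℤ => (p.1 + p.2, -p.2) := fun p => by simp
  rw [← (hinv.toPerm _).tsum_eq]
  refine tsum_congr fun p => ?_
  obtain ⟨x, y⟩ := p
  simp only [Function.Involutive.coe_toPerm]
  rw [h.theta]
  congr 2
  push_cast
  ring

theorem uC_periodic1 (C : ℤ × ℤ → ℝ) (k1 k2 : ℝ) : uC C (k1 + 2 * Real.pi) k2 = uC C k1 k2 := by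
  unfold uC
  refine tsum_congr fun p => ?_
  congr 1
  have : (k1 + 2 * Real.pi) * p.1 + k2 * p.2 = k1 * p.1 + k2 * p.2 + p.1 * (2 * Real.pi) := by ring
  rw [this, Real.cos_add_int_mul_two_pi]

theorem uC_periodic2 (C : ℤ × ℤ → ℝ) (k1 k2 : ℝ) : uC C k1 (k2 + 2 * Real.pi) = uC C k1 k2 := by
  unfold uC
  refine tsum_congr fun p => ?_
  congr 1
  have : k1 * p.1 + (k2 + 2 * Real.pi) * p.2 = k1 * p.1 + k2 * p.2 + p.2 * (2 * Real.pi) := by ring
  rw [this, Real.cos_add_int_mul_two_pi]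

theorem continuous_uC (h : RC M ρ C) : Continuous (Function.uncurry (uC C)) := by
  unfold uC Function.uncurry
  refine continuous_tsum (u := fun p => |C p|) (fun p => by fun_prop) h.summable_abs fun p k => ?_
  rw [Real.norm_eq_abs, abs_mul]
  calc |C p| * |Real.cos _| ≤ |C p| * 1 :=
        mul_le_mul_of_nonneg_left (Real.abs_cos_le_one _) (abs_nonneg _)
    _ = _ := mul_one _

end RC

end Crest.Agent.R144.Reg136
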