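import Mathlib.Analysis.Matrix.Order
import Mathlib.Analysis.SpecialFunctions.Exponential
import Mathlib.Topology.Algebra.InfiniteSum.Order

/-!
# R144, REG block (helper136), part S: Schur products and Schoenberg exponentials of kernels
-/

set_option autoImplicit false

noncomputable section

namespace Crest.Agent.R144.Reg136

open Finset Filter Topology

variable {α : Type*}

/-- a symmetric kernel which is positive semidefinite on the finite set `s` -/
structure PK (s : Finset α) (k : α → α → ℝ) : Prop where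
  symm : ∀ p q, k p q = k q p
  nn : ∀ f : α → ℝ, 0 ≤ ∑ p ∈ s, ∑ q ∈ s, f p * f q * k p q

theorem PK.matrix {s : Finset α} {k : α → α → ℝ} (h : PK s k) :
    (Matrix.of fun i j : s => k i j).PosSemidef := by
  classical
  refine Matrix.PosSemidef.of_dotProduct_mulVec_nonneg ?_ fun x => ?_
  · ext i j
    simp [h.symm j i]
  · have h2 := h.nn fun p => if hp : p ∈ s then x ⟨p, hp⟩ else 0
    refine h2.trans_eq ?_
    rw [← Finset.sum_coe_sort s]
    simp only [dotProduct, Matrix.mulVec, star_trivial]
    refine sum_congr rfl fun i _ => ?_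
    rw [← Finset.sum_coe_sort s, mul_sum]
    refine sum_congr rfl fun j _ => ?_
    simp only [Matrix.of_apply, Finset.coe_mem, dif_pos, Subtype.coe_eta]
    ring

theorem PK.of_matrix {s : Finset α} {k : α → α → ℝ} (hs : ∀ p q, k p q = k q p)
    (h : (Matrix.of fun i j : s => k i j).PosSemidef) : PK s k := by
  refine ⟨hs, fun f => ?_⟩
  have h2 := h.dotProduct_mulVec_nonneg fun i : s => f i
  refine h2.trans_eq ?_
  simp only [dotProduct, Matrix.mulVec, star_trivial, Matrix.of_apply]
  rw [← Finset.sum_coe_sort s]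
  refine sum_congr rfl fun i _ => ?_
  rw [mul_sum, ← Finset.sum_coe_sort s (fun q => f i * f q * k i q)]
  refine sum_congr rfl fun j _ => ?_
  ring

theorem PK.mul {s : Finset α} {k l : α → α → ℝ} (hk : PK s k) (hl : PK s l) :
    PK s fun p q => k p q * l p q := by
  refine PK.of_matrix (fun p q => by rw [hk.symm p q, hl.symm p q]) ?_
  exact hk.matrix.hadamard hl.matrix

theorem PK.one (s : Finset α) : PK s fun _ _ => (1 : ℝ) := by
  refine ⟨fun _ _ => rfl, fun f => ?_⟩
  have : ∑ p ∈ s, ∑ q ∈ s, f p * f q * (1:ℝ) = (∑ p ∈ s, f p) ^ 2 := by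
    rw [sq, sum_mul_sum]
    simp
  rw [this]
  positivity

theorem PK.pow {s : Finset α} {k : α → α → ℝ} (hk : PK s k) (n : ℕ) :
    PK s fun p q => k p q ^ n := by
  induction n with
  | zero => simpa using PK.one s
  | succ n ih =>
    have := ih.mul hk
    simpa [pow_succ] using this

theorem PK.smul {s : Finset α} {k : α → α → ℝ} (hk : PK s k) {c : ℝ} (hc : 0 ≤ c) :
    PK s fun p q => c * k p q := by
  refine ⟨fun p q => by rw [hk.symm p q], fun f => ?_⟩
  have : ∑ p ∈ s, ∑ q ∈ s, f p * f q * (c * k p q) = c * ∑ p ∈ s, ∑ q ∈ s, f p * f q * k p q := by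
    rw [mul_sum]
    refine sum_congr rfl fun p _ => ?_
    rw [mul_sum]
    exact sum_congr rfl fun q _ => by ring
  rw [this]
  exact mul_nonneg hc (hk.nn f)

theorem PK.add {s : Finset α} {k l : α → α → ℝ} (hk : PK s k) (hl : PK s l) :
    PK s fun p q => k p q + l p q := by
  refine ⟨fun p q => by rw [hk.symm p q, hl.symm p q], fun f => ?_⟩
  have : ∑ p ∈ s, ∑ q ∈ s, f p * f q * (k p q + l p q)
      = ∑ p ∈ s, ∑ q ∈ s, f p * f q * k p q + ∑ p ∈ s, ∑ q ∈ s, f p * f q * l p q := by
    rw [← sum_add_distrib]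
    refine sum_congr rfl fun p _ => ?_
    rw [← sum_add_distrib]
    exact sum_congr rfl fun q _ => by ring
  rw [this]
  exact add_nonneg (hk.nn f) (hl.nn f)

theorem PK.rankone {s : Finset α} {k : α → α → ℝ} (hk : PK s k) (g : α → ℝ) :
    PK s fun p q => g p * g q * k p q := by
  refine ⟨fun p q => by rw [hk.symm p q]; ring, fun f => ?_⟩
  have := hk.nn fun p => f p * g p
  refine this.trans_eq (sum_congr rfl fun p _ => sum_congr rfl fun q _ => by ring)

theorem PK.of_tendsto {s : Finset α} {k : ℕ → α → α → ℝ} {l : α → α → ℝ}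
    (h : ∀ n, PK s (k n)) (hl : ∀ p q, Tendsto (fun n => k n p q) atTop (𝓝 (l p q))) : PK s l := by
  refine ⟨fun p q => ?_, fun f => ?_⟩
  · refine tendsto_nhds_unique (hl p q) ?_
    refine (hl q p).congr fun n => (h n).symm q p
  · have hlim : Tendsto (fun n => ∑ p ∈ s, ∑ q ∈ s, f p * f q * k n p q) atTop
        (𝓝 (∑ p ∈ s, ∑ q ∈ s, f p * f q * l p q)) :=
      tendsto_finsetSum _ fun p _ => tendsto_finsetSum _ fun q _ => (hl p q).const_mul _
    exact ge_of_tendsto' hlim fun n => (h n).nn f

theorem PK.exp {s : Finset α} {k : α → α → ℝ} (hk : PK s k) :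
    PK s fun p q => Real.exp (k p q) := by
  have h1 : ∀ N : ℕ, PK s fun p q => ∑ n ∈ range N, k p q ^ n / n.factorial := by
    intro N
    induction N with
    | zero =>
      refine ⟨fun _ _ => rfl, fun f => ?_⟩
      simp
    | succ N ih =>
      have h2 := (hk.pow N).smul (c := ((N.factorial : ℝ))⁻¹) (by positivity)
      have h3 := ih.add h2
      refine ⟨fun p q => ?_, fun f => ?_⟩
      · rw [hk.symm p q]
      · refine (h3.nn f).trans_eq (sum_congr rfl fun p _ => sum_congr rfl fun q _ => ?_)
        rw [sum_range_succ, div_eq_inv_mul]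
  refine PK.of_tendsto h1 fun p q => ?_
  have h4 := NormedSpace.expSeries_div_hasSum_exp (k p q)
  rw [← Real.exp_eq_exp_ℝ] at h4
  exact h4.tendsto_sum_nat

/-- Schoenberg: `k` symmetric, conditionally positive with respect to a base point `o`. -/
theorem PK.schoenberg {s : Finset α} {k : α → α → ℝ} (g : α → ℝ)
    (h : PK s fun p q => g p + g q - k p q) {t : ℝ} (ht : 0 ≤ t) :
    PK s fun p q => Real.exp (-(t * k p q)) := by
  have h1 := ((h.smul ht).exp).rankone fun p => Real.exp (-(t * g p))
  refine ⟨fun p q => ?_, fun f => ?_⟩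
  · have := h.symm p q
    have h2 : k p q = k q p := by linarith
    rw [h2]
  · refine (h1.nn f).trans_eq (sum_congr rfl fun p _ => sum_congr rfl fun q _ => ?_)
    rw [← Real.exp_add, ← Real.exp_add]
    congr 2
    ring

/-- base point form of conditional positivity -/
theorem cond_base [DecidableEq α] (D : α → α → ℝ) (P : α → Prop) (o : α) (ho : P o)
    (hsym : ∀ p q, D p q = D q p) (hoo : D o o = 0)
    (h : ∀ (s : Finset α) (w : α → ℝ), (∀ a ∈ s, P a) → ∑ a ∈ s, w a = 0 →
      0 ≤ -∑ a ∈ s, ∑ b ∈ s, w a * w b * D a b)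
    (s : Finset α) (hs : ∀ a ∈ s, P a) : PK s fun p q => D p o + D q o - D p q := by
  refine ⟨fun p q => by rw [hsym p q]; ring, fun f => ?_⟩
  set S := ∑ a ∈ s, f a with hS
  -- weights on `insert o s`
  set w : α → ℝ := fun a => (if a ∈ s then f a else 0) - (if a = o then S else 0) with hw
  have hP : ∀ a ∈ insert o s, P a := by
    intro a ha
    rcases mem_insert.1 ha with rfl | ha
    · exact ho
    · exact hs a ha
  have hsub : s ⊆ insert o s := subset_insert _ _
  have sum1 : ∀ g : α → ℝ, ∑ a ∈ insert o s, w a * g a = ∑ a ∈ s, f a * g a - S * g o := by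
    intro g
    simp only [hw, sub_mul, sum_sub_distrib]
    congr 1
    · rw [← sum_subset hsub]
      · refine sum_congr rfl fun a ha => ?_
        rw [if_pos ha]
      · intro a _ ha
        rw [if_neg ha, zero_mul]
    · simp only [ite_mul, zero_mul]
      rw [sum_ite_eq' (insert o s) o (fun a => S * g a), if_pos (mem_insert_self _ _)]
  have h0 : ∑ a ∈ insert o s, w a = 0 := by
    have := sum1 fun _ => 1
    simp only [mul_one] at this
    rw [this, hS, sub_self]
  have h1 := h (insert o s) w hP h0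
  have e : ∑ a ∈ insert o s, ∑ b ∈ insert o s, w a * w b * D a b
      = ∑ a ∈ s, ∑ b ∈ s, f a * f b * D a b - 2 * S * ∑ a ∈ s, f a * D a o := by
    have e1 : ∀ a, ∑ b ∈ insert o s, w a * w b * D a b
        = w a * (∑ b ∈ s, f b * D a b - S * D a o) := by
      intro a
      rw [← sum1 (fun b => D a b), mul_sum]
      exact sum_congr rfl fun b _ => by ring
    simp_rw [e1]
    rw [sum1 (fun a => ∑ b ∈ s, f b * D a b - S * D a o), hoo]
    have e2 : ∑ a ∈ s, f a * (∑ b ∈ s, f b * D a b - S * D a o)
        = ∑ a ∈ s, ∑ b ∈ s, f a * f b * D a b - S * ∑ a ∈ s, f a * D a o := by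
      simp only [mul_sub, sum_sub_distrib]
      congr 1
      · refine sum_congr rfl fun a _ => ?_
        rw [mul_sum]
        exact sum_congr rfl fun b _ => by ring
      · rw [mul_sum]
        exact sum_congr rfl fun a _ => by ring
    have e3 : ∑ b ∈ s, f b * D o b = ∑ a ∈ s, f a * D a o :=
      sum_congr rfl fun a _ => by rw [hsym o a]
    rw [e2, e3]
    ring
  rw [e] at h1
  refine h1.trans_eq ?_
  have e4 : ∑ p ∈ s, ∑ q ∈ s, f p * f q * (D p o + D q o - D p q)
      = 2 * S * ∑ a ∈ s, f a * D a o - ∑ a ∈ s, ∑ b ∈ s, f a * f b * D a b := by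
    have e5 : ∑ p ∈ s, ∑ q ∈ s, f p * f q * D p o = S * ∑ a ∈ s, f a * D a o := by
      rw [hS, sum_mul_sum, sum_comm]
      refine sum_congr rfl fun p _ => sum_congr rfl fun q _ => by ring
    have e6 : ∑ p ∈ s, ∑ q ∈ s, f p * f q * D q o = S * ∑ a ∈ s, f a * D a o := by
      rw [hS, sum_mul_sum]
      refine sum_congr rfl fun p _ => sum_congr rfl fun q _ => by ring
    simp only [mul_sub, mul_add, sum_sub_distrib, sum_add_distrib]
    rw [e5, e6]
    ring
  rw [e4]
  ring

end Crest.Agent.R144.Reg136
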