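import Mathlib

/-!
# R144, block TP (two-point function of the plane state), helper952: interfaces

* `Two V` : what a variogram `V p = E (h_{x+p} - h_x)^2` of a plane gradient state has to satisfy
  (conditionally negative definite, site reflection positivity across the rows, symmetries);
* `Reg V U` : output of the regularisation block REG (helper136): continuous periodic spectral densities
  `U n` with the three-frame inequality, approximating `V`;
* elementary consequences of the frame inequality on one line (`Harnack`).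
-/

set_option autoImplicit false

open Filter Topology MeasureTheory
open scoped BigOperators Real

noncomputable section

namespace Crest.Agent.R144.Tp952

/-- reflection of the triangular lattice (neighbours `±(1,0), ±(0,1), ±(1,-1)`) across the row `{y = 0}` -/
def th (p : ℤ × ℤ) : ℤ × ℤ := (p.1 + p.2, -p.2)

/-- the reflection exchanging `(1,0)` and `(0,1)` -/
def sw (p : ℤ × ℤ) : ℤ × ℤ := (p.2, p.1)

/-- variogram of a plane gradient state: symmetric, conditionally negative definite, site reflection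
positive across the rows (the other two directions follow by symmetry). -/
structure Two (V : ℤ × ℤ → ℝ) : Prop where
  zero : V 0 = 0
  neg : ∀ p, V (-p) = V p
  swap : ∀ p, V (sw p) = V p
  theta : ∀ p, V (th p) = V p
  pd : ∀ (s : Finset (ℤ × ℤ)) (f : ℤ × ℤ → ℝ), ∑ p ∈ s, f p = 0 →
    0 ≤ -∑ p ∈ s, ∑ q ∈ s, f p * f q * V (p - q)
  rp : ∀ (s : Finset (ℤ × ℤ)) (f : ℤ × ℤ → ℝ), (∀ p ∈ s, 0 ≤ p.2) → ∑ p ∈ s, f p = 0 →
    0 ≤ -∑ p ∈ s, ∑ q ∈ s, f p * f q * V (p - th q)

/-- `s(φ) = 2 - 2 cos φ` -/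
def sg (φ : ℝ) : ℝ := 2 - 2 * Real.cos φ

/-- lattice Fourier transform of a finitely supported function -/
def fh (s : Finset (ℤ × ℤ)) (f : ℤ × ℤ → ℝ) (k1 k2 : ℝ) : ℂ :=
  ∑ p ∈ s, (f p : ℂ) * Complex.exp (Complex.I * ((p.1 : ℝ) * k1 + (p.2 : ℝ) * k2 : ℝ))

/-- the frame inequality (concavity of `1/w` in `s = 2 - 2 cos φ`, in polynomial form) -/
def Frame (w : ℝ → ℝ) : Prop :=
  ∀ φ0 φ1 φ2 : ℝ, 0 ≤ φ0 → φ0 ≤ φ1 → φ1 ≤ φ2 → φ2 ≤ π →
    (sg φ2 - sg φ1) * (w φ1 * w φ2) + (sg φ1 - sg φ0) * (w φ0 * w φ1)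
      ≤ (sg φ2 - sg φ0) * (w φ0 * w φ2)

/-- output of the regularisation block -/
structure Reg (V : ℤ × ℤ → ℝ) (U : ℕ → ℝ → ℝ → ℝ) : Prop where
  cont : ∀ n, Continuous (fun k : ℝ × ℝ => U n k.1 k.2)
  nonneg : ∀ n k1 k2, 0 ≤ U n k1 k2
  per1 : ∀ n k1 k2, U n (k1 + 2 * π) k2 = U n k1 k2
  per2 : ∀ n k1 k2, U n k1 (k2 + 2 * π) = U n k1 k2
  neg : ∀ n k1 k2, U n (-k1) (-k2) = U n k1 k2
  swap : ∀ n k1 k2, U n k2 k1 = U n k1 k2
  theta : ∀ n k1 k2, U n k1 (k1 - k2) = U n k1 k2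
  frame : ∀ n p, Frame (fun φ => U n p (φ + p / 2))
  lim : ∀ (s : Finset (ℤ × ℤ)) (f : ℤ × ℤ → ℝ), ∑ p ∈ s, f p = 0 →
    Tendsto (fun n => (∫ k1 in (-π)..π, ∫ k2 in (-π)..π, Complex.normSq (fh s f k1 k2) * U n k1 k2)
        / (2 * π) ^ 2) atTop
      (𝓝 (-(1 / 2) * ∑ p ∈ s, ∑ q ∈ s, f p * f q * V (p - q)))

/-! ### elementary facts on `sg` -/

theorem sg_nonneg (φ : ℝ) : 0 ≤ sg φ := by
  unfold sg; linarith [Real.cos_le_one φ]

theorem sg_le_four (φ : ℝ) : sg φ ≤ 4 := by
  unfold sg; linarith [Real.neg_one_le_cos φ]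

theorem sg_zero : sg 0 = 0 := by simp [sg]

theorem sg_pi : sg π = 4 := by simp [sg]; norm_num

theorem continuous_sg : Continuous sg := by unfold sg; fun_prop

theorem sg_strictMono {x y : ℝ} (hx : 0 ≤ x) (hxy : x < y) (hy : y ≤ π) : sg x < sg y := by
  unfold sg
  linarith [Real.cos_lt_cos_of_nonneg_of_le_pi hx hy hxy]

theorem sg_mono {x y : ℝ} (hx : 0 ≤ x) (hxy : x ≤ y) (hy : y ≤ π) : sg x ≤ sg y := by
  rcases hxy.eq_or_lt with h | h
  · rw [h]
  · exact (sg_strictMono hx h hy).le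

theorem sg_pos {x : ℝ} (hx : 0 < x) (hx' : x ≤ π) : 0 < sg x := by
  have := sg_strictMono le_rfl hx hx'
  rwa [sg_zero] at this

theorem sg_le_sq (x : ℝ) : sg x ≤ x ^ 2 := by
  unfold sg
  linarith [Real.one_sub_sq_div_two_le_cos (x := x)]

/-- `(1 - x^2) x^2 ≤ s(x)` -/
theorem sg_ge_sq {x : ℝ} (hx : |x| ≤ 1) : (1 - x ^ 2) * x ^ 2 ≤ sg x := by
  have h := Real.cos_bound hx
  have h1 := (abs_le.1 h).2
  unfold sg
  have h2 : |x| ^ 4 = x ^ 4 := by
    rw [show |x| ^ 4 = (|x| ^ 2) ^ 2 by ring, sq_abs]; ring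
  rw [h2] at h1
  nlinarith [sq_nonneg (x ^ 2), sq_nonneg x]

/-! ### Harnack inequalities from the frame inequality -/

/-- `s w` is non-decreasing -/
theorem frame_mono {w : ℝ → ℝ} (hw : Frame w) (hc : Continuous w) (h0 : ∀ x, 0 ≤ w x)
    {x y : ℝ} (hx : 0 < x) (hxy : x ≤ y) (hy : y ≤ π) : sg x * w x ≤ sg y * w y := by
  rcases hxy.eq_or_lt with h | hlt
  · rw [h]
  rcases (h0 x).eq_or_lt with hz | hpos
  · rw [← hz, mul_zero]; exact mul_nonneg (sg_nonneg _) (h0 _)
  -- a point slightly to the left of `x` where `w > 0`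
  have hev : ∀ᶠ t in 𝓝 x, 0 < w t := hc.continuousAt.eventually (lt_mem_nhds hpos)
  obtain ⟨δ, hδ, hball⟩ := Metric.eventually_nhds_iff.1 hev
  set m : ℝ := max (x / 2) (x - δ / 2) with hm
  have hmx : m < x := by
    rw [hm]; exact max_lt (by linarith) (by linarith)
  have hm0 : 0 < m := lt_of_lt_of_le (by linarith) (le_max_left _ _)
  have hwm : 0 < w m := by
    apply hball
    rw [Real.dist_eq, abs_lt]
    constructor
    · have := le_max_right (x / 2) (x - δ / 2); rw [← hm] at this; linarith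
    · linarith
  have hxπ : x ≤ π := hxy.trans hy
  -- positivity of `w` on `(0, m)`
  have hη : ∀ η, 0 < η → η < m → 0 < w η := by
    intro η h1 h2
    have hf := hw η m x h1.le h2.le hmx.le hxπ
    by_contra hcon
    have hz : w η = 0 := le_antisymm (not_lt.1 hcon) (h0 η)
    rw [hz, zero_mul, zero_mul, mul_zero, mul_zero, add_zero] at hf
    have : 0 < (sg x - sg m) * (w m * w x) :=
      mul_pos (sub_pos.2 (sg_strictMono hm0.le hmx hxπ)) (mul_pos hwm hpos)
    linarith
  -- inequality with `η`, then `η → 0`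
  have key : ∀ η, 0 < η → η < m → (sg x - sg η) * w x ≤ (sg y - sg η) * w y := by
    intro η h1 h2
    have hf := hw η x y h1.le (h2.le.trans hmx.le) hxy hy
    have hp := hη η h1 h2
    have h3 : 0 ≤ (sg y - sg x) * (w x * w y) :=
      mul_nonneg (sub_nonneg.2 (sg_mono hx.le hxy hy)) (mul_nonneg (h0 _) (h0 _))
    have h4 : w η * ((sg x - sg η) * w x) ≤ w η * ((sg y - sg η) * w y) := by
      calc w η * ((sg x - sg η) * w x) = (sg x - sg η) * (w η * w x) := by ring
        _ ≤ (sg y - sg η) * (w η * w y) := by linarith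
        _ = _ := by ring
    exact le_of_mul_le_mul_left h4 hp
  have hT : ∀ c z : ℝ, Tendsto (fun η => (c - sg η) * z) (𝓝[>] 0) (𝓝 (c * z)) := by
    intro c z
    have h1 : Tendsto sg (𝓝[>] 0) (𝓝 0) := by
      have := continuous_sg.tendsto 0
      rw [sg_zero] at this
      exact this.mono_left nhdsWithin_le_nhds
    have := (tendsto_const_nhds (x := c)).sub h1
    simpa using this.mul_const z
  refine le_of_tendsto_of_tendsto (hT (sg x) (w x)) (hT (sg y) (w y)) ?_
  have hIoo : Set.Ioo (0 : ℝ) m ∈ 𝓝[>] (0 : ℝ) := Ioo_mem_nhdsGT hm0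
  filter_upwards [hIoo] with η hη'
  exact key η hη'.1 hη'.2

/-- `(4 - s) w` is non-increasing -/
theorem frame_anti {w : ℝ → ℝ} (hw : Frame w) (hc : Continuous w) (h0 : ∀ x, 0 ≤ w x)
    {x y : ℝ} (hx : 0 ≤ x) (hxy : x ≤ y) (hy : y < π) :
    (4 - sg y) * w y ≤ (4 - sg x) * w x := by
  rcases hxy.eq_or_lt with h | hlt
  · rw [h]
  rcases (h0 y).eq_or_lt with hz | hpos
  · rw [← hz, mul_zero]; exact mul_nonneg (by linarith [sg_le_four x]) (h0 _)
  have hev : ∀ᶠ t in 𝓝 y, 0 < w t := hc.continuousAt.eventually (lt_mem_nhds hpos)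
  obtain ⟨δ, hδ, hball⟩ := Metric.eventually_nhds_iff.1 hev
  set m : ℝ := min ((y + π) / 2) (y + δ / 2) with hm
  have hmy : y < m := by
    rw [hm]; exact lt_min (by linarith) (by linarith)
  have hmπ : m < π := lt_of_le_of_lt (min_le_left _ _) (by linarith)
  have hwm : 0 < w m := by
    apply hball
    rw [Real.dist_eq, abs_lt]
    constructor
    · linarith
    · have := min_le_right ((y + π) / 2) (y + δ / 2); rw [← hm] at this; linarith
  have hy0 : 0 ≤ y := hx.trans hxy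
  have hη : ∀ η, m < η → η < π → 0 < w η := by
    intro η h1 h2
    have hf := hw y m η hy0 hmy.le h1.le h2.le
    by_contra hcon
    have hz : w η = 0 := le_antisymm (not_lt.1 hcon) (h0 η)
    rw [hz, mul_zero, mul_zero, mul_zero, mul_zero, zero_add] at hf
    have : 0 < (sg m - sg y) * (w y * w m) :=
      mul_pos (sub_pos.2 (sg_strictMono hy0 hmy hmπ.le)) (mul_pos hpos hwm)
    linarith
  have key : ∀ η, m < η → η < π → (sg η - sg y) * w y ≤ (sg η - sg x) * w x := by
    intro η h1 h2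
    have hf := hw x y η hx hxy (hmy.le.trans h1.le) h2.le
    have hp := hη η h1 h2
    have h3 : 0 ≤ (sg y - sg x) * (w x * w y) :=
      mul_nonneg (sub_nonneg.2 (sg_mono hx hxy hy.le)) (mul_nonneg (h0 _) (h0 _))
    have h4 : w η * ((sg η - sg y) * w y) ≤ w η * ((sg η - sg x) * w x) := by
      calc w η * ((sg η - sg y) * w y) = (sg η - sg y) * (w y * w η) := by ring
        _ ≤ (sg η - sg x) * (w x * w η) := by linarith
        _ = _ := by ring
    exact le_of_mul_le_mul_left h4 hp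
  have hT : ∀ c z : ℝ, Tendsto (fun η => (sg η - c) * z) (𝓝[<] π) (𝓝 ((4 - c) * z)) := by
    intro c z
    have h1 : Tendsto sg (𝓝[<] π) (𝓝 4) := by
      have := continuous_sg.tendsto π
      rw [sg_pi] at this
      exact this.mono_left nhdsWithin_le_nhds
    have := h1.sub (tendsto_const_nhds (x := c))
    simpa using this.mul_const z
  refine le_of_tendsto_of_tendsto (hT (sg y) (w y)) (hT (sg x) (w x)) ?_
  have hIoo : Set.Ioo m π ∈ 𝓝[<] π := Ioo_mem_nhdsLT hmπ
  filter_upwards [hIoo] with η hη'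
  exact key η hη'.1 hη'.2

end Crest.Agent.R144.Tp952
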