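import Crest.Agent.R144.RegK_136
import Crest.Agent.R144.RegS_136
import Crest.Agent.R144.RegP_136
import Crest.Agent.R144.Tp1_952

/-!
# R144, block REG (helper136): regularised structure functions of a plane variogram

`exists_reg : Two V → ∃ U, Reg V U`, with `U n` the structure function of
`(n + 1) / 2 * exp (- V p / (n + 1)) * (Gr β_n p / Gr β_n 0)`.
-/

set_option autoImplicit false

noncomputable section

namespace Crest.Agent.R144.Reg136

open Finset Filter Topology MeasureTheory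
open Crest.Agent.R144.Tp952 (Two Reg fh sg Frame th sw)

variable {V : ℤ × ℤ → ℝ}

theorem two_nonneg (hV : Two V) (p : ℤ × ℤ) : 0 ≤ V p := by
  by_cases hp : p = 0
  · rw [hp, hV.zero]
  have h := hV.pd {p, 0} (fun q => if q = 0 then -1 else 1) (by
    rw [sum_pair hp]
    simp [hp])
  rw [sum_pair hp, sum_pair hp, sum_pair hp] at h
  simp only [hp, if_false, if_true, sub_self, sub_zero, zero_sub, hV.zero, hV.neg] at h
  linarith

theorem kernel_symm (hV : Two V) (p q : ℤ × ℤ) :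
    V (p.1 - q.1 - q.2, p.2 + q.2) = V (q.1 - p.1 - p.2, q.2 + p.2) := by
  have h1 := hV.theta (p.1 - q.1 - q.2, p.2 + q.2)
  have h2 := hV.neg (th (p.1 - q.1 - q.2, p.2 + q.2))
  rw [← h1, ← h2]
  congr 1
  simp only [th, Prod.neg_mk, Prod.mk.injEq]
  constructor <;> ring

/-- Schoenberg exponential of the reflected kernel -/
theorem pk_exp (hV : Two V) {τ : ℝ} (hτ : 0 ≤ τ) (s : Finset (ℤ × ℤ)) (hs : ∀ p ∈ s, 0 ≤ p.2) :
    PK s fun p q => Real.exp (-(τ * V (p.1 - q.1 - q.2, p.2 + q.2))) := by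
  have h1 := cond_base (fun p q : ℤ × ℤ => V (p.1 - q.1 - q.2, p.2 + q.2)) (fun p => 0 ≤ p.2) (0, 0)
    le_rfl (fun p q => kernel_symm hV p q) (by
      have h := hV.zero
      rw [Prod.zero_eq_mk] at h
      simpa using h) (fun s w hw h0 => by
      have := hV.rp s w hw h0
      refine this.trans_eq ?_
      congr 1
      refine sum_congr rfl fun p _ => sum_congr rfl fun q _ => ?_
      congr 2
      simp only [th]
      ext <;> simp <;> ring) s hs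
  exact PK.schoenberg (fun p => V (p.1 - (0, 0).1 - (0, 0).2, p.2 + (0, 0).2)) h1 hτ

theorem pk_Gr {β : ℝ} (h0 : 0 ≤ β) (h1 : β < 1) (s : Finset (ℤ × ℤ)) (hs : ∀ p ∈ s, 0 ≤ p.2) :
    PK s fun p q => Gr β (p.1 - q.1 - q.2, p.2 + q.2) := by
  refine ⟨fun p q => ?_, fun f => Gr_rp h0 h1 s f hs⟩
  have h2 := (Gr_symm β (p.1 - q.1 - q.2) (p.2 + q.2)).2.1
  have h3 := (Gr_symm β (p.1 - q.1 - q.2 + (p.2 + q.2)) (-(p.2 + q.2))).1
  rw [← h2, ← h3]
  congr 1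
  simp only [Prod.mk.injEq]
  constructor <;> ring

/-- the regularised covariance -/
def Creg (V : ℤ × ℤ → ℝ) (c τ β : ℝ) (p : ℤ × ℤ) : ℝ := c * (Real.exp (-(τ * V p)) * Gr β p)

theorem rc_Creg (hV : Two V) {c τ β : ℝ} (hc : 0 ≤ c) (hτ : 0 ≤ τ) (h0 : 0 ≤ β) (h1 : β < 1) :
    RC (c * (1 - β)⁻¹) (Real.sqrt β) (Creg V c τ β) where
  ρ0 := (rc_Gr h0 h1).ρ0
  ρ1 := (rc_Gr h0 h1).ρ1
  dec p := by
    unfold Creg
    rw [abs_mul, abs_mul, abs_of_nonneg hc, Real.abs_exp, mul_assoc]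
    refine mul_le_mul_of_nonneg_left ?_ hc
    have h2 := (rc_Gr h0 h1).dec p
    have h3 : Real.exp (-(τ * V p)) ≤ 1 :=
      Real.exp_le_one_iff.2 (neg_nonpos.2 (mul_nonneg hτ (two_nonneg hV p)))
    calc Real.exp (-(τ * V p)) * |Gr β p| ≤ 1 * |Gr β p| :=
          mul_le_mul_of_nonneg_right h3 (abs_nonneg _)
      _ = |Gr β p| := one_mul _
      _ ≤ _ := h2
  even x y := by
    have h2 := hV.neg (x, y)
    rw [Prod.neg_mk] at h2
    unfold Creg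
    rw [h2, (Gr_symm β x y).1]
  theta x y := by
    have h2 := hV.theta (x, y)
    simp only [th] at h2
    unfold Creg
    rw [h2, (Gr_symm β x y).2.1]
  swap x y := by
    have h2 := hV.swap (x, y)
    simp only [sw] at h2
    unfold Creg
    rw [h2, (Gr_symm β x y).2.2]
  rp s f hs := by
    have h2 := ((pk_exp hV hτ s hs).mul (pk_Gr h0 h1 s hs)).smul hc
    exact h2.nn f

theorem normSq_fh (s : Finset (ℤ × ℤ)) (f : ℤ × ℤ → ℝ) (k1 k2 : ℝ) :
    Complex.normSq (fh s f k1 k2) = ∑ p ∈ s, ∑ q ∈ s, f p * f q *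
      Real.cos (k1 * ((p.1 - q.1 : ℤ) : ℝ) + k2 * ((p.2 - q.2 : ℤ) : ℝ)) := by
  have hterm : ∀ p : ℤ × ℤ, (f p : ℂ) * Complex.exp (Complex.I * ((p.1 : ℝ) * k1 + (p.2 : ℝ) * k2 : ℝ))
      = ((f p * Real.cos ((p.1 : ℝ) * k1 + (p.2 : ℝ) * k2) : ℝ) : ℂ)
        + ((f p * Real.sin ((p.1 : ℝ) * k1 + (p.2 : ℝ) * k2) : ℝ) : ℂ) * Complex.I := by
    intro p
    rw [mul_comm Complex.I, Complex.exp_mul_I]
    push_cast
    ring
  have hre : (fh s f k1 k2).re = ∑ p ∈ s, f p * Real.cos ((p.1 : ℝ) * k1 + (p.2 : ℝ) * k2) := by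
    unfold fh
    rw [Complex.re_sum]
    refine sum_congr rfl fun p _ => ?_
    rw [hterm]
    simp [-Complex.ofReal_mul, -Complex.ofReal_cos, -Complex.ofReal_sin]
  have him : (fh s f k1 k2).im = ∑ p ∈ s, f p * Real.sin ((p.1 : ℝ) * k1 + (p.2 : ℝ) * k2) := by
    unfold fh
    rw [Complex.im_sum]
    refine sum_congr rfl fun p _ => ?_
    rw [hterm]
    simp [-Complex.ofReal_mul, -Complex.ofReal_cos, -Complex.ofReal_sin]
  rw [Complex.normSq_apply, hre, him, sum_mul_sum, sum_mul_sum, ← sum_add_distrib]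
  refine sum_congr rfl fun p _ => ?_
  rw [← sum_add_distrib]
  refine sum_congr rfl fun q _ => ?_
  have e : k1 * ((p.1 - q.1 : ℤ) : ℝ) + k2 * ((p.2 - q.2 : ℤ) : ℝ)
      = ((p.1 : ℝ) * k1 + (p.2 : ℝ) * k2) - ((q.1 : ℝ) * k1 + (q.2 : ℝ) * k2) := by
    push_cast; ring
  rw [e, Real.cos_sub]
  ring

/-- the box used for the choice of `β_n` -/
def bx (n : ℕ) : Finset (ℤ × ℤ) := Finset.Icc (-(n : ℤ)) n ×ˢ Finset.Icc (-(n : ℤ)) n

theorem exists_bt (n : ℕ) : ∃ β : ℝ, 0 ≤ β ∧ β < 1 ∧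
    ∀ p ∈ bx n, |Gr β p / Gr β (0, 0) - 1| ≤ (1 / ((n : ℝ) + 1)) ^ 2 :=
  exists_Kn (bx n) (by positivity)

/-- mass parameter -/
def bt (n : ℕ) : ℝ := (exists_bt n).choose

theorem bt_spec (n : ℕ) : 0 ≤ bt n ∧ bt n < 1 ∧
    ∀ p ∈ bx n, |Gr (bt n) p / Gr (bt n) (0, 0) - 1| ≤ (1 / ((n : ℝ) + 1)) ^ 2 :=
  (exists_bt n).choose_spec

/-- regularised covariances -/
def Cn (V : ℤ × ℤ → ℝ) (n : ℕ) : ℤ × ℤ → ℝ :=
  Creg V (((n : ℝ) + 1) / 2 / Gr (bt n) (0, 0)) (1 / ((n : ℝ) + 1)) (bt n)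

/-- regularised structure functions -/
def Un (V : ℤ × ℤ → ℝ) (n : ℕ) (k1 k2 : ℝ) : ℝ := uC (Cn V n) k1 k2

theorem rc_Cn (hV : Two V) (n : ℕ) : RC ((((n : ℝ) + 1) / 2 / Gr (bt n) (0, 0)) * (1 - bt n)⁻¹)
    (Real.sqrt (bt n)) (Cn V n) := by
  obtain ⟨h0, h1, -⟩ := bt_spec n
  have hG := Gr_zero_pos h0 h1
  exact rc_Creg hV (by positivity) (by positivity) h0 h1

theorem tendsto_exp_quot (v : ℝ) :
    Tendsto (fun n : ℕ => ((n : ℝ) + 1) / 2 * (Real.exp (-(1 / ((n : ℝ) + 1) * v)) - 1)) atTop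
      (𝓝 (-(1 / 2) * v)) := by
  have hx : Tendsto (fun n : ℕ => 1 / ((n : ℝ) + 1)) atTop (𝓝 0) :=
    tendsto_one_div_add_atTop_nhds_zero_nat
  have hd : HasDerivAt (fun x : ℝ => Real.exp (-(x * v))) (-v) 0 := by
    have h1 : HasDerivAt (fun x : ℝ => -(x * v)) (-(1 * v)) 0 := ((hasDerivAt_id 0).mul_const v).neg
    have h2 := h1.exp
    simpa using h2
  have hs := hd.tendsto_slope_zero
  have hx' : Tendsto (fun n : ℕ => 1 / ((n : ℝ) + 1)) atTop (𝓝[≠] 0) := by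
    refine tendsto_nhdsWithin_iff.2 ⟨hx, Eventually.of_forall fun n => ?_⟩
    simp only [Set.mem_compl_iff, Set.mem_singleton_iff]
    positivity
  have h3 := (hs.comp hx').const_mul (1 / 2 : ℝ)
  have e : -(1 / 2) * v = 1 / 2 * -v := by ring
  rw [e]
  refine h3.congr fun n => ?_
  simp only [Function.comp, zero_add, zero_mul, neg_zero, Real.exp_zero, smul_eq_mul, one_div,
    inv_inv]
  ring

theorem tendsto_Cn (hV : Two V) (p : ℤ × ℤ) :
    Tendsto (fun n : ℕ => Cn V n p - ((n : ℝ) + 1) / 2) atTop (𝓝 (-(1 / 2) * V p)) := by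
  have h1 := tendsto_exp_quot (V p)
  have h2 : Tendsto (fun n : ℕ => ((n : ℝ) + 1) / 2 * Real.exp (-(1 / ((n : ℝ) + 1) * V p)) *
      (Gr (bt n) p / Gr (bt n) (0, 0) - 1)) atTop (𝓝 0) := by
    have hx : Tendsto (fun n : ℕ => 1 / ((n : ℝ) + 1)) atTop (𝓝 0) :=
      tendsto_one_div_add_atTop_nhds_zero_nat
    refine squeeze_zero_norm' ?_ hx
    filter_upwards [eventually_ge_atTop (p.1.natAbs + p.2.natAbs)] with n hn
    have hp : p ∈ bx n := by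
      simp only [bx, mem_product, mem_Icc]
      omega
    have h3 := (bt_spec n).2.2 p hp
    have h4 : Real.exp (-(1 / ((n : ℝ) + 1) * V p)) ≤ 1 :=
      Real.exp_le_one_iff.2 (neg_nonpos.2 (mul_nonneg (by positivity) (two_nonneg hV p)))
    rw [Real.norm_eq_abs, abs_mul, abs_mul, Real.abs_exp, abs_of_nonneg (by positivity)]
    calc ((n : ℝ) + 1) / 2 * Real.exp (-(1 / ((n : ℝ) + 1) * V p)) *
          |Gr (bt n) p / Gr (bt n) (0, 0) - 1|
        ≤ ((n : ℝ) + 1) / 2 * 1 * (1 / ((n : ℝ) + 1)) ^ 2 := by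
          refine mul_le_mul (mul_le_mul_of_nonneg_left h4 (by positivity)) h3 (abs_nonneg _)
            (by positivity)
      _ = 1 / 2 * (1 / ((n : ℝ) + 1)) := by field_simp
      _ ≤ 1 / ((n : ℝ) + 1) := by
          have : (0:ℝ) ≤ 1 / ((n : ℝ) + 1) := by positivity
          linarith
  have h3 := h1.add h2
  rw [add_zero] at h3
  refine h3.congr fun n => ?_
  unfold Cn Creg
  have hG : Gr (bt n) (0, 0) ≠ 0 :=
    (one_pos.trans_le (Gr_zero_pos (bt_spec n).1 (bt_spec n).2.1)).ne'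
  field_simp
  ring

theorem Un_lim (hV : Two V) (s : Finset (ℤ × ℤ)) (f : ℤ × ℤ → ℝ) (hf : ∑ p ∈ s, f p = 0) :
    Tendsto (fun n => (∫ k1 in (-Real.pi)..Real.pi, ∫ k2 in (-Real.pi)..Real.pi,
        Complex.normSq (fh s f k1 k2) * Un V n k1 k2) / (2 * Real.pi) ^ 2) atTop
      (𝓝 (-(1 / 2) * ∑ p ∈ s, ∑ q ∈ s, f p * f q * V (p - q))) := by
  have e1 : ∀ n, (∫ k1 in (-Real.pi)..Real.pi, ∫ k2 in (-Real.pi)..Real.pi,
        Complex.normSq (fh s f k1 k2) * Un V n k1 k2) / (2 * Real.pi) ^ 2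
      = ∑ p ∈ s, ∑ q ∈ s, f p * f q * (Cn V n (p - q) - ((n : ℝ) + 1) / 2) := by
    intro n
    simp_rw [normSq_fh]
    unfold Un
    rw [(rc_Cn hV n).plancherel s f]
    have hpi : (2 * Real.pi) ^ 2 ≠ 0 := by positivity
    rw [mul_div_cancel_left₀ _ hpi]
    have e2 : ∑ p ∈ s, ∑ q ∈ s, f p * f q * (((n : ℝ) + 1) / 2) = 0 := by
      have : ∑ p ∈ s, ∑ q ∈ s, f p * f q * (((n : ℝ) + 1) / 2)
          = (∑ p ∈ s, f p) * (∑ q ∈ s, f q) * (((n : ℝ) + 1) / 2) := by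
        rw [sum_mul_sum, sum_mul]
        refine sum_congr rfl fun p _ => ?_
        rw [sum_mul]
      rw [this, hf]
      ring
    have e3 : ∑ p ∈ s, ∑ q ∈ s, f p * f q * (Cn V n (p - q) - ((n : ℝ) + 1) / 2)
        = ∑ p ∈ s, ∑ q ∈ s, f p * f q * Cn V n (p - q)
          - ∑ p ∈ s, ∑ q ∈ s, f p * f q * (((n : ℝ) + 1) / 2) := by
      rw [← sum_sub_distrib]
      refine sum_congr rfl fun p _ => ?_
      rw [← sum_sub_distrib]
      exact sum_congr rfl fun q _ => by ring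
    rw [e3, e2, sub_zero]
  simp_rw [e1]
  have e4 : -(1 / 2) * ∑ p ∈ s, ∑ q ∈ s, f p * f q * V (p - q)
      = ∑ p ∈ s, ∑ q ∈ s, f p * f q * (-(1 / 2) * V (p - q)) := by
    rw [mul_sum]
    refine sum_congr rfl fun p _ => ?_
    rw [mul_sum]
    exact sum_congr rfl fun q _ => by ring
  rw [e4]
  exact tendsto_finsetSum _ fun p _ => tendsto_finsetSum _ fun q _ =>
    (tendsto_Cn hV (p - q)).const_mul _

/-- **REG**: every plane variogram has a regularisation. -/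
theorem reg (hV : Two V) : Reg V (Un V) where
  cont n := (rc_Cn hV n).continuous_uC
  nonneg n k1 k2 := (rc_Cn hV n).uC_nonneg k1 k2
  per1 n k1 k2 := RC.uC_periodic1 _ k1 k2
  per2 n k1 k2 := RC.uC_periodic2 _ k1 k2
  neg n k1 k2 := RC.uC_neg _ k1 k2
  swap n k1 k2 := (rc_Cn hV n).uC_swap k1 k2
  theta n k1 k2 := (rc_Cn hV n).uC_theta k1 k2
  frame n p := by
    intro φ0 φ1 φ2 h0 h01 h12 h2
    have c1 : Real.cos φ1 ≤ Real.cos φ0 :=
      Real.cos_le_cos_of_nonneg_of_le_pi h0 (h12.trans h2) h01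
    have c2 : Real.cos φ2 ≤ Real.cos φ1 :=
      Real.cos_le_cos_of_nonneg_of_le_pi (h0.trans h01) h2 h12
    have h := (rc_Cn hV n).uC_three p c1 c2
    simp only [sg, Un]
    nlinarith [h]
  lim s f hf := Un_lim hV s f hf

theorem exists_reg (hV : Two V) : ∃ U : ℕ → ℝ → ℝ → ℝ, Reg V U := ⟨_, reg hV⟩

/-- `s u` is nondecreasing in the frame 1 -/
theorem Un_mono (hV : Two V) (n : ℕ) (p : ℝ) {φ ψ : ℝ} (h0 : 0 ≤ φ) (h : φ ≤ ψ) (h1 : ψ ≤ Real.pi) :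
    sg φ * Un V n p (φ + p / 2) ≤ sg ψ * Un V n p (ψ + p / 2) := by
  have h2 := (rc_Cn hV n).uC_mono p (Real.cos_le_cos_of_nonneg_of_le_pi h0 h1 h)
  simp only [sg, Un]
  linarith

/-- `(4 - s) u` is nonincreasing in the frame 1 -/
theorem Un_mono4 (hV : Two V) (n : ℕ) (p : ℝ) {φ ψ : ℝ} (h0 : 0 ≤ φ) (h : φ ≤ ψ)
    (h1 : ψ ≤ Real.pi) :
    (4 - sg ψ) * Un V n p (ψ + p / 2) ≤ (4 - sg φ) * Un V n p (φ + p / 2) := by
  have h2 := (rc_Cn hV n).uC_mono4 p (Real.cos_le_cos_of_nonneg_of_le_pi h0 h1 h)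
  simp only [sg, Un]
  linarith

end Crest.Agent.R144.Reg136
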