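import Mathlib

/-!
R144 (S0197), helper565.  STEP B of doc 1613 (helper296): the block competitor.

Part 1: pointwise algebra.  `gs D e f h` is the squared gradient of the scalar function `f` at `h` in
the directions `e v`, `v ∈ D`.

* `gs_sub_mean`: subtracting the label average lowers the energy (identity).
* `gs_comp_le`: 1-Lipschitz truncation lowers the energy.
* `gs_comb_le`: the product rule for `(1 - η) ℓ + η U`.
* `gs_competitor_le`: the full competitor of STEP B.
-/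

set_option autoImplicit false

open MeasureTheory Set
open scoped ENNReal NNReal

noncomputable section

namespace Crest.Agent.R144.StB565

section Gs

variable {E : Type*} [NormedAddCommGroup E] [NormedSpace ℝ E] {κ : Type*} {ι : Type*}

/-- Squared gradient in the directions `e v`, `v ∈ D`. -/
def gs (D : Finset κ) (e : κ → E) (f : E → ℝ) (h : E) : ℝ := ∑ v ∈ D, (fderiv ℝ f h (e v)) ^ 2

variable {D : Finset κ} {e : κ → E}

theorem gs_nonneg (f : E → ℝ) (h : E) : 0 ≤ gs D e f h :=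
  Finset.sum_nonneg fun _ _ => sq_nonneg _

/-- The label average. -/
def avg (q : Finset ι) (u : ι → E → ℝ) (h : E) : ℝ := (∑ w ∈ q, u w h) / q.card

theorem fderiv_avg {q : Finset ι} {u : ι → E → ℝ} {h : E}
    (hu : ∀ w ∈ q, DifferentiableAt ℝ (u w) h) (x : E) :
    fderiv ℝ (avg q u) h x = (∑ w ∈ q, fderiv ℝ (u w) h x) / q.card := by
  have h1 : HasFDerivAt (fun h => ∑ w ∈ q, u w h) (∑ w ∈ q, fderiv ℝ (u w) h) h :=
    HasFDerivAt.fun_sum fun w hw => (hu w hw).hasFDerivAt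
  have h2 : HasFDerivAt (avg q u) ((q.card : ℝ)⁻¹ • ∑ w ∈ q, fderiv ℝ (u w) h) h := by
    have := h1.const_mul ((q.card : ℝ)⁻¹)
    refine this.congr_of_eventuallyEq (Filter.Eventually.of_forall fun x => ?_)
    simp only [avg]; ring
  rw [h2.fderiv]
  simp only [smul_apply, sum_apply, smul_eq_mul]
  ring

theorem differentiableAt_avg {q : Finset ι} {u : ι → E → ℝ} {h : E}
    (hu : ∀ w ∈ q, DifferentiableAt ℝ (u w) h) : DifferentiableAt ℝ (avg q u) h := by
  have h1 : HasFDerivAt (fun h => ∑ w ∈ q, u w h) (∑ w ∈ q, fderiv ℝ (u w) h) h :=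
    HasFDerivAt.fun_sum fun w hw => (hu w hw).hasFDerivAt
  have h2 : HasFDerivAt (avg q u) ((q.card : ℝ)⁻¹ • ∑ w ∈ q, fderiv ℝ (u w) h) h := by
    have := h1.const_mul ((q.card : ℝ)⁻¹)
    refine this.congr_of_eventuallyEq (Filter.Eventually.of_forall fun x => ?_)
    simp only [avg]; ring
  exact h2.differentiableAt

/-- **(B1)** Subtracting the label average lowers the energy: exact identity. -/
theorem gs_sub_mean {q : Finset ι} (hq : q.Nonempty) {u : ι → E → ℝ} {h : E}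
    (hu : ∀ w ∈ q, DifferentiableAt ℝ (u w) h) :
    ∑ w ∈ q, gs D e (fun h => u w h - avg q u h) h =
      ∑ w ∈ q, gs D e (u w) h - q.card * gs D e (avg q u) h := by
  have hc : (q.card : ℝ) ≠ 0 := by exact_mod_cast hq.card_pos.ne'
  have hd := differentiableAt_avg hu
  have e1 : ∀ w ∈ q, gs D e (fun h => u w h - avg q u h) h =
      ∑ v ∈ D, (fderiv ℝ (u w) h (e v) - fderiv ℝ (avg q u) h (e v)) ^ 2 := by
    intro w hw
    unfold gs
    refine Finset.sum_congr rfl fun v _ => ?_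
    rw [fderiv_fun_sub (hu w hw) hd]; rfl
  rw [Finset.sum_congr rfl e1]
  unfold gs
  rw [Finset.sum_comm, Finset.sum_comm (s := q), Finset.mul_sum, ← Finset.sum_sub_distrib]
  refine Finset.sum_congr rfl fun v _ => ?_
  rw [fderiv_avg hu]
  set S := ∑ w ∈ q, fderiv ℝ (u w) h (e v)
  have : ∀ w, (fderiv ℝ (u w) h (e v) - S / q.card) ^ 2 =
      fderiv ℝ (u w) h (e v) ^ 2 - 2 * (S / q.card) * fderiv ℝ (u w) h (e v) +
        (S / q.card) ^ 2 := fun w => by ring
  simp only [this]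
  rw [Finset.sum_add_distrib, Finset.sum_sub_distrib, ← Finset.mul_sum, Finset.sum_const,
    nsmul_eq_mul]
  change _ - 2 * (S / q.card) * S + _ = _
  field_simp
  ring

theorem gs_sub_mean_le {q : Finset ι} {u : ι → E → ℝ} {h : E}
    (hu : ∀ w ∈ q, DifferentiableAt ℝ (u w) h) :
    ∑ w ∈ q, gs D e (fun h => u w h - avg q u h) h ≤ ∑ w ∈ q, gs D e (u w) h := by
  rcases q.eq_empty_or_nonempty with rfl | hq
  · simp
  · rw [gs_sub_mean hq hu]
    have := mul_nonneg (Nat.cast_nonneg (α := ℝ) q.card) (gs_nonneg (D := D) (e := e) (avg q u) h)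
    linarith

theorem gs_comp_le {T : ℝ → ℝ} {f : E → ℝ} {h : E} (hf : DifferentiableAt ℝ f h)
    (hT : DifferentiableAt ℝ T (f h)) (hT1 : |deriv T (f h)| ≤ 1) :
    gs D e (fun h => T (f h)) h ≤ gs D e f h := by
  unfold gs
  refine Finset.sum_le_sum fun v _ => ?_
  have h1 : HasFDerivAt (fun h => T (f h)) (deriv T (f h) • fderiv ℝ f h) h :=
    hT.hasDerivAt.comp_hasFDerivAt h hf.hasFDerivAt
  rw [h1.fderiv, smul_apply, smul_eq_mul, mul_pow]
  have := sq_le_one' hT1
  nlinarith [sq_nonneg (fderiv ℝ f h (e v))]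
where
  sq_le_one' {x : ℝ} (hx : |x| ≤ 1) : x ^ 2 ≤ 1 := by
    rw [← sq_abs]; exact pow_le_one₀ (abs_nonneg _) hx

theorem sq_add_le (a b : ℝ) {th : ℝ} (hth : 0 < th) :
    (a + b) ^ 2 ≤ (1 + th) * a ^ 2 + (1 + th⁻¹) * b ^ 2 := by
  have h : th * th⁻¹ = 1 := mul_inv_cancel₀ hth.ne'
  have h' := inv_pos.mpr hth
  have : 0 ≤ th⁻¹ * (th * a - b) ^ 2 := mul_nonneg h'.le (sq_nonneg _)
  have e : th⁻¹ * (th * a - b) ^ 2 = (th * th⁻¹) * th * a ^ 2 - 2 * (th * th⁻¹) * a * b +
      th⁻¹ * b ^ 2 := by ring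
  rw [e, h] at this
  nlinarith

/-- Product rule. -/
theorem hasFDerivAt_comb {eta l U : E → ℝ} {h : E} (h1 : DifferentiableAt ℝ eta h)
    (h2 : DifferentiableAt ℝ l h) (h3 : DifferentiableAt ℝ U h) :
    HasFDerivAt (fun h => (1 - eta h) * l h + eta h * U h)
      ((1 - eta h) • fderiv ℝ l h + eta h • fderiv ℝ U h + (U h - l h) • fderiv ℝ eta h) h := by
  have a1 : HasFDerivAt (fun h => (1 - eta h) * l h)
      ((1 - eta h) • fderiv ℝ l h + l h • (-fderiv ℝ eta h)) h :=
    (h1.hasFDerivAt.const_sub 1).mul h2.hasFDerivAt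
  have a2 : HasFDerivAt (fun h => eta h * U h)
      (eta h • fderiv ℝ U h + U h • fderiv ℝ eta h) h :=
    h1.hasFDerivAt.mul h3.hasFDerivAt
  refine (a1.add a2).congr_fderiv ?_
  ext x
  simp only [add_apply, smul_apply, neg_apply, smul_eq_mul]
  ring

/-- **(B2)** The product rule for energies. -/
theorem gs_comb_le {eta l U : E → ℝ} {h : E} (h1 : DifferentiableAt ℝ eta h)
    (h2 : DifferentiableAt ℝ l h) (h3 : DifferentiableAt ℝ U h) {th : ℝ} (hth : 0 < th) :
    gs D e (fun h => (1 - eta h) * l h + eta h * U h) h ≤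
      (1 + th) * (eta h ^ 2 * gs D e U h) +
      (1 + th⁻¹) * 2 * ((1 - eta h) ^ 2 * gs D e l h + (U h - l h) ^ 2 * gs D e eta h) := by
  unfold gs
  simp only [Finset.mul_sum, ← Finset.sum_add_distrib]
  refine Finset.sum_le_sum fun v _ => ?_
  rw [(hasFDerivAt_comb h1 h2 h3).fderiv]
  simp only [add_apply, smul_apply, smul_eq_mul]
  set a := fderiv ℝ l h (e v)
  set b := fderiv ℝ U h (e v)
  set c := fderiv ℝ eta h (e v)
  have e1 := sq_add_le (eta h * b) ((1 - eta h) * a + (U h - l h) * c) hth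
  have e2 : ((1 - eta h) * a + (U h - l h) * c) ^ 2 ≤
      2 * (((1 - eta h) * a) ^ 2 + ((U h - l h) * c) ^ 2) := by
    nlinarith [sq_nonneg ((1 - eta h) * a - (U h - l h) * c)]
  have hth' : 0 ≤ 1 + th⁻¹ := by have := inv_pos.mpr hth; linarith
  have e3 := mul_le_mul_of_nonneg_left e2 hth'
  calc _ = (eta h * b + ((1 - eta h) * a + (U h - l h) * c)) ^ 2 := by ring
    _ ≤ _ := e1
    _ ≤ (1 + th) * (eta h * b) ^ 2 +
        (1 + th⁻¹) * (2 * (((1 - eta h) * a) ^ 2 + ((U h - l h) * c) ^ 2)) := by linarith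
    _ = _ := by ring

end Gs

end Crest.Agent.R144.StB565
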