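import Crest.Agent.R144.BQ3_565
import Crest.Agent.R144.StB1_565

/-!
R144 (S0197), helper348.  STEP B of doc 1613 / doc 1728 (STB): the block competitor, on one fibre.

* `gR R w x`: squared gradient of the reference position of `w`;
* `cut`, `zz`, `cmp`: the cut function, the error of the linear approximation, the competitor;
* `adm_cmp`: the competitor has boundary labels `lab W xi` and is rigid near the walls;
* `ae_en_cmp_le`: the pointwise energy inequality;
* `bqm_le_stb`: the integrated form.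
-/

set_option autoImplicit false
set_option linter.unusedSectionVars false

open MeasureTheory Set Filter Topology
open scoped ENNReal NNReal

noncomputable section

namespace Crest.Agent.R144.StB348

open Crest.Agent.R144.Ham560
open Crest.Agent.R144.BQ565
open Crest.Agent.R144.StB565
open Crest.Agent.R144.MW121 (jac jac_apply en en_nonneg measurable_jac measurable_en)

section LipComp

/-- Derivatives of a Lipschitz function of a differentiable function. -/
theorem norm_fderiv_comp_le {E F G : Type*} [NormedAddCommGroup E] [NormedSpace ℝ E]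
    [NormedAddCommGroup F] [NormedSpace ℝ F] [NormedAddCommGroup G] [NormedSpace ℝ G]
    {g : F → G} {L : ℝ≥0} (hg : LipschitzWith L g) {f : E → F} {x : E}
    (hf : DifferentiableAt ℝ f x) (hgf : DifferentiableAt ℝ (fun y => g (f y)) x) (v : E) :
    ‖fderiv ℝ (fun y => g (f y)) x v‖ ≤ L * ‖fderiv ℝ f x v‖ := by
  have h1 := (hf.hasFDerivAt.hasLineDerivAt v).tendsto_slope_zero
  have h2 := (hgf.hasFDerivAt.hasLineDerivAt v).tendsto_slope_zero
  refine le_of_tendsto_of_tendsto h2.norm (h1.norm.const_mul (L : ℝ))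
    (Eventually.of_forall fun t => ?_)
  simp only [norm_smul]
  have h3 : ‖g (f (x + t • v)) - g (f x)‖ ≤ L * ‖f (x + t • v) - f x‖ := by
    have := hg.dist_le_mul (f (x + t • v)) (f x)
    rwa [dist_eq_norm, dist_eq_norm] at this
  calc ‖t⁻¹‖ * ‖g (f (x + t • v)) - g (f x)‖ ≤ ‖t⁻¹‖ * (L * ‖f (x + t • v) - f x‖) :=
        mul_le_mul_of_nonneg_left h3 (norm_nonneg _)
    _ = _ := by ring

end LipComp

section Gs

variable {V : Type*} [NormedAddCommGroup V] [NormedSpace ℝ V] {κ : Type*} {D : Finset κ}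
  {e : κ → V}

theorem gs_lip_le {T : ℝ → ℝ} (hT : LipschitzWith 1 T) {f : V → ℝ} {x : V}
    (hf : DifferentiableAt ℝ f x) (hTf : DifferentiableAt ℝ (fun y => T (f y)) x) :
    gs D e (fun y => T (f y)) x ≤ gs D e f x := by
  unfold gs
  refine Finset.sum_le_sum fun v _ => ?_
  have h := norm_fderiv_comp_le hT hf hTf (e v)
  rw [NNReal.coe_one, one_mul, Real.norm_eq_abs, Real.norm_eq_abs] at h
  exact sq_le_sq.mpr h

theorem gs_add_const (f : V → ℝ) (c : ℝ) (x : V) :
    gs D e (fun y => f y + c) x = gs D e f x := by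
  unfold gs
  rw [fderiv_add_const]

/-- The cut function `χ (R₁, R₂)`. -/
theorem gs_cut_le {ι : Type*} [Fintype ι] {χ : (ι → ℝ) → ℝ} {L : ℝ≥0} (hχ : LipschitzWith L χ)
    {R : ι → V → ℝ} {x : V} (hR : ∀ i, DifferentiableAt ℝ (R i) x)
    (hc : DifferentiableAt ℝ (fun y => χ (fun i => R i y)) x) :
    gs D e (fun y => χ (fun i => R i y)) x ≤ (L : ℝ) ^ 2 * ∑ i, gs D e (R i) x := by
  have hf : DifferentiableAt ℝ (fun y i => R i y) x := differentiableAt_pi.mpr hR
  unfold gs
  rw [Finset.sum_comm, Finset.mul_sum]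
  refine Finset.sum_le_sum fun v _ => ?_
  have h := norm_fderiv_comp_le hχ hf hc (e v)
  have h0 : fderiv ℝ (fun y i => R i y) x (e v) = fun i => fderiv ℝ (R i) x (e v) := by
    rw [fderiv_pi hR]; rfl
  rw [h0, Real.norm_eq_abs] at h
  have h1 : ‖(fun i => fderiv ℝ (R i) x (e v))‖ ^ 2 ≤ ∑ i, (fderiv ℝ (R i) x (e v)) ^ 2 := by
    have hs : 0 ≤ ∑ i, (fderiv ℝ (R i) x (e v)) ^ 2 := Finset.sum_nonneg fun _ _ => sq_nonneg _
    have h2 : ‖(fun i => fderiv ℝ (R i) x (e v))‖ ≤ √(∑ i, (fderiv ℝ (R i) x (e v)) ^ 2) := by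
      refine (pi_norm_le_iff_of_nonneg (Real.sqrt_nonneg _)).mpr fun i => ?_
      rw [Real.norm_eq_abs]
      refine Real.abs_le_sqrt ?_
      exact Finset.single_le_sum (f := fun i => (fderiv ℝ (R i) x (e v)) ^ 2)
        (fun _ _ => sq_nonneg _) (Finset.mem_univ i)
    calc _ ≤ √(∑ i, (fderiv ℝ (R i) x (e v)) ^ 2) ^ 2 :=
          pow_le_pow_left₀ (norm_nonneg _) h2 2
      _ = _ := Real.sq_sqrt hs
  calc _ = |fderiv ℝ (fun y => χ (fun i => R i y)) x (e v)| ^ 2 := (sq_abs _).symm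
    _ ≤ (L * ‖(fun i => fderiv ℝ (R i) x (e v))‖) ^ 2 := pow_le_pow_left₀ (abs_nonneg _) h 2
    _ = (L : ℝ) ^ 2 * ‖(fun i => fderiv ℝ (R i) x (e v))‖ ^ 2 := by ring
    _ ≤ _ := mul_le_mul_of_nonneg_left h1 (sq_nonneg _)

/-- Linear combinations. -/
theorem gs_lin_le {ι : Type*} [Fintype ι] (xi : ι → ℝ)
    {R : ι → V → ℝ} {x : V} (hR : ∀ i, DifferentiableAt ℝ (R i) x) :
    gs D e (fun y => ∑ i, xi i * R i y) x ≤ (∑ i, xi i ^ 2) * ∑ i, gs D e (R i) x := by
  unfold gs
  rw [Finset.sum_comm, Finset.mul_sum]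
  refine Finset.sum_le_sum fun v _ => ?_
  have h1 : HasFDerivAt (fun y => ∑ i, xi i * R i y) (∑ i, xi i • fderiv ℝ (R i) x) x :=
    HasFDerivAt.fun_sum fun i _ => (hR i).hasFDerivAt.const_mul (xi i)
  rw [h1.fderiv]
  have h2 : (∑ i, xi i • fderiv ℝ (R i) x) (e v) = ∑ i, xi i * fderiv ℝ (R i) x (e v) := by
    simp [sum_apply]
  rw [h2]
  exact Finset.sum_mul_sq_le_sq_mul_sq _ _ _

end Gs

section Comp

variable {U : Type*} [DecidableEq U] {I : Finset U} {E : Finset (U × U)} {ζ : U → ℝ}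
  {κ : Type*} [Fintype κ] {W : κ → U → ℝ}

/-- Directions of the fibre. -/
abbrev dir (I : Finset U) : I → (I → ℝ) := fun v => Pi.single v 1

theorem jac_eq {Y : (I → ℝ) → (I → ℝ)} {x : I → ℝ} (hY : DifferentiableAt ℝ Y x) (w v : I) :
    jac Y x w v = fderiv ℝ (fun y => Y y w) x (dir I v) := by
  rw [jac_apply]
  have h := (hasFDerivAt_pi'.mp hY.hasFDerivAt w).fderiv
  rw [h]; rfl

theorem en_eq_gs {Y : (I → ℝ) → (I → ℝ)} {x : I → ℝ} (hY : DifferentiableAt ℝ Y x) :
    en Y x = ∑ w : I, gs Finset.univ (dir I) (fun y => Y y w) x := by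
  unfold en gs
  refine Finset.sum_congr rfl fun w _ => Finset.sum_congr rfl fun v _ => ?_
  rw [jac_eq hY]

/-- The squared gradient of the reference position of `w`. -/
def gR (R : κ → (I → ℝ) → (I → ℝ)) (w : I) (x : I → ℝ) : ℝ := ∑ i, ∑ v, jac (R i) x w v ^ 2

theorem gR_nonneg (R : κ → (I → ℝ) → (I → ℝ)) (w : I) (x : I → ℝ) : 0 ≤ gR R w x :=
  Finset.sum_nonneg fun _ _ => Finset.sum_nonneg fun _ _ => sq_nonneg _

theorem measurable_gR (R : κ → (I → ℝ) → (I → ℝ)) (w : I) : Measurable (gR R w) := by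
  unfold gR
  refine Finset.measurable_fun_sum _ fun i _ => Finset.measurable_fun_sum _ fun v _ => ?_
  exact (measurable_jac (R i) w v).pow_const 2

theorem gR_eq {R : κ → (I → ℝ) → (I → ℝ)} {x : I → ℝ} (hR : ∀ i, DifferentiableAt ℝ (R i) x)
    (w : I) : gR R w x = ∑ i, gs Finset.univ (dir I) (fun y => R i y w) x := by
  unfold gR gs
  refine Finset.sum_congr rfl fun i _ => Finset.sum_congr rfl fun v _ => ?_
  rw [jac_eq (hR i)]

/-- The fibre mean. -/
def mn (u : (I → ℝ) → (I → ℝ)) (x : I → ℝ) : ℝ := (∑ w : I, u x w) / Fintype.card I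

/-- The cut function. -/
def cut (χ : (κ → ℝ) → ℝ) (R : κ → (I → ℝ) → (I → ℝ)) (w : I) (x : I → ℝ) : ℝ :=
  χ (fun i => R i x w)

/-- The error of the (truncated) linear approximation. -/
def zz (T : ℝ → ℝ) (xi ctr : κ → ℝ) (R : κ → (I → ℝ) → (I → ℝ)) (u : (I → ℝ) → (I → ℝ)) (w : I)
    (x : I → ℝ) : ℝ := T (u x w - mn u x) - ∑ i, xi i * (R i x w - ctr i)

/-- The competitor. -/
def cmp (χ : (κ → ℝ) → ℝ) (T : ℝ → ℝ) (xi ctr : κ → ℝ) (R : κ → (I → ℝ) → (I → ℝ))
    (u : (I → ℝ) → (I → ℝ)) : (I → ℝ) → (I → ℝ) := fun x w =>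
  (1 - cut χ R w x) * (∑ i, xi i * R i x w) +
    cut χ R w x * (T (u x w - mn u x) + ∑ i, xi i * ctr i)

variable {χ : (κ → ℝ) → ℝ} {T : ℝ → ℝ} {xi ctr : κ → ℝ} {R : κ → (I → ℝ) → (I → ℝ)}
  {u : (I → ℝ) → (I → ℝ)} {L LT : ℝ≥0}

theorem ll_cut (hχ : LipschitzWith L χ) (hR : ∀ i, LocallyLipschitz (R i)) (w : I) :
    LocallyLipschitz (cut χ R w) :=
  hχ.locallyLipschitz.comp (LL.pi fun i => LL.comp_apply (hR i) w)

theorem ll_mn (hu : LocallyLipschitz u) : LocallyLipschitz (mn u) := by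
  have h1 : LocallyLipschitz fun x => ∑ w : I, u x w :=
    LL.sum fun w _ => LL.comp_apply hu w
  have h2 := LL.mul h1 (LocallyLipschitz.const ((Fintype.card I : ℝ)⁻¹) : LocallyLipschitz
    fun _ : I → ℝ => ((Fintype.card I : ℝ)⁻¹))
  exact h2

theorem ll_trunc (hT : LipschitzWith LT T) (hu : LocallyLipschitz u) (w : I) :
    LocallyLipschitz fun x => T (u x w - mn u x) :=
  hT.locallyLipschitz.comp ((LL.comp_apply hu w).sub (ll_mn hu))

theorem ll_lin (xi : κ → ℝ) (hR : ∀ i, LocallyLipschitz (R i)) (w : I) :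
    LocallyLipschitz fun x => ∑ i, xi i * R i x w :=
  LL.sum fun i _ => LL.mul (LocallyLipschitz.const (xi i)) (LL.comp_apply (hR i) w)

theorem ll_cmp (hχ : LipschitzWith L χ) (hT : LipschitzWith LT T)
    (hR : ∀ i, LocallyLipschitz (R i)) (hu : LocallyLipschitz u) :
    LocallyLipschitz (cmp χ T xi ctr R u) := by
  refine LL.pi fun w => ?_
  refine (LL.mul ((LocallyLipschitz.const 1).sub (ll_cut hχ hR w)) (ll_lin xi hR w)).add
    (LL.mul (ll_cut hχ hR w) ((ll_trunc hT hu w).add (LocallyLipschitz.const _)))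

theorem lab_apply (W : κ → U → ℝ) (xi : κ → ℝ) (b : U) : lab W xi b = ∑ i, xi i * W i b := by
  simp [lab, Finset.sum_apply]

/-- **The competitor is admissible.** -/
theorem adm_cmp (hR : ∀ i, Adm I E ζ (W i) (R i)) (hu : LocallyLipschitz u)
    (hur : ∃ ρ > 0, ∀ x ∈ ham I E ζ, ∀ a b : I, (a.1, b.1) ∈ E → 1 - ρ ≤ |x a - x b| →
      u x a = u x b)
    (hχ : LipschitzWith L χ) (hT : LipschitzWith LT T)
    (hχ1 : ∀ p ∈ E, p.1 ∈ I → p.2 ∉ I → χ (fun i => W i p.2) = 0)
    (hχ2 : ∀ p ∈ E, p.1 ∉ I → p.2 ∈ I → χ (fun i => W i p.1) = 0) :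
    Adm I E ζ (lab W xi) (cmp χ T xi ctr R u) where
  lip := ll_cmp hχ hT (fun i => (hR i).lip) hu
  rig := by
    obtain ⟨r1, hr1, h1⟩ := hur
    choose r2 hr2 h2 using fun i => (hR i).rig
    obtain ⟨r3, hr3, h3⟩ : ∃ r3 > 0, ∀ i, r3 ≤ r2 i := by
      rcases isEmpty_or_nonempty κ with hκ | hκ
      · exact ⟨1, one_pos, fun i => (IsEmpty.false i).elim⟩
      · exact ⟨Finset.univ.inf' Finset.univ_nonempty r2,
          (Finset.lt_inf'_iff _).mpr fun i _ => hr2 i, fun i => Finset.inf'_le _ (Finset.mem_univ i)⟩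
    refine ⟨min r1 r3, lt_min hr1 hr3, fun x hx p hp hq => ?_⟩
    have k1 : 1 - r1 ≤ |ext I ζ x p.1 - ext I ζ x p.2| := by
      have := min_le_left r1 r3; linarith
    have k2 : ∀ i, ext I (W i) (R i x) p.1 = ext I (W i) (R i x) p.2 := fun i =>
      h2 i x hx p hp (by have := min_le_right r1 r3; have := h3 i; linarith)
    by_cases hp1 : p.1 ∈ I
    · by_cases hp2 : p.2 ∈ I
      · have e1 : ∀ i, R i x ⟨p.1, hp1⟩ = R i x ⟨p.2, hp2⟩ := fun i => by
          have := k2 i
          rwa [ext_mem hp1, ext_mem hp2] at this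
        have e2 : u x ⟨p.1, hp1⟩ = u x ⟨p.2, hp2⟩ := by
          refine h1 x hx ⟨p.1, hp1⟩ ⟨p.2, hp2⟩ hp ?_
          rwa [ext_mem hp1, ext_mem hp2] at k1
        rw [ext_mem hp1, ext_mem hp2]
        simp only [cmp, cut, e1, e2]
      · have e1 : ∀ i, R i x ⟨p.1, hp1⟩ = W i p.2 := fun i => by
          have := k2 i
          rwa [ext_mem hp1, ext_notMem hp2] at this
        rw [ext_mem hp1, ext_notMem hp2]
        simp only [cmp, cut, e1, hχ1 p hp hp1 hp2, lab_apply]
        ring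
    · by_cases hp2 : p.2 ∈ I
      · have e1 : ∀ i, R i x ⟨p.2, hp2⟩ = W i p.1 := fun i => by
          have := k2 i
          rw [ext_mem hp2, ext_notMem hp1] at this
          exact this.symm
        rw [ext_mem hp2, ext_notMem hp1]
        simp only [cmp, cut, e1, hχ2 p hp hp1 hp2, lab_apply]
        ring
      · have e1 : ∀ i, W i p.1 = W i p.2 := fun i => by
          have := k2 i
          rwa [ext_notMem hp1, ext_notMem hp2] at this
        rw [ext_notMem hp1, ext_notMem hp2, lab_apply, lab_apply]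
        simp only [e1]

theorem cmp_sub_lin (w : I) (x : I → ℝ) :
    (T (u x w - mn u x) + ∑ i, xi i * ctr i) - ∑ i, xi i * R i x w = zz T xi ctr R u w x := by
  simp only [zz, mul_sub, Finset.sum_sub_distrib]
  ring

/-- **The pointwise energy inequality**, at every point of differentiability. -/
theorem en_cmp_le {x : I → ℝ} (hχ : LipschitzWith L χ) (h01 : ∀ p, χ p ∈ Icc (0 : ℝ) 1)
    (hT : LipschitzWith 1 T)
    (dR : ∀ i, DifferentiableAt ℝ (R i) x) (du : DifferentiableAt ℝ u x)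
    (dc : ∀ w, DifferentiableAt ℝ (cut χ R w) x)
    (dT : ∀ w : I, DifferentiableAt ℝ (fun x => T (u x w - mn u x)) x)
    (dX : DifferentiableAt ℝ (cmp χ T xi ctr R u) x) {th : ℝ} (hth : 0 < th) :
    en (cmp χ T xi ctr R u) x ≤ (1 + th) * en u x + (1 + th⁻¹) * 2 *
      ((∑ i, xi i ^ 2) * ∑ w with cut χ R w x ≠ 1, gR R w x +
        (L : ℝ) ^ 2 * ∑ w, gR R w x * zz T xi ctr R u w x ^ 2) := by
  have duw : ∀ w : I, DifferentiableAt ℝ (fun y => u y w) x := fun w =>
    differentiableAt_pi.mp du w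
  have dRw : ∀ (w : I) i, DifferentiableAt ℝ (fun y => R i y w) x := fun w i =>
    differentiableAt_pi.mp (dR i) w
  have hmn : (fun y => mn u y) = avg (Finset.univ : Finset I) (fun w y => u y w) := by
    funext y; simp [mn, avg, Fintype.card]
  have dmn : DifferentiableAt ℝ (fun y => mn u y) x := by
    rw [hmn]; exact differentiableAt_avg fun w _ => duw w
  have dlin : ∀ w : I, DifferentiableAt ℝ (fun y => ∑ i, xi i * R i y w) x := fun w =>
    DifferentiableAt.fun_sum fun i _ => (dRw w i).const_mul (xi i)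
  have hc : 0 ≤ (1 + th⁻¹) * 2 := by have := inv_pos.mpr hth; positivity
  rw [en_eq_gs dX, en_eq_gs du]
  -- the energy of the interior part
  have hU : ∑ w : I, cut χ R w x ^ 2 * gs Finset.univ (dir I)
      (fun y => T (u y w - mn u y) + ∑ i, xi i * ctr i) x ≤
      ∑ w : I, gs Finset.univ (dir I) (fun y => u y w) x := by
    have h1 : ∀ w : I, cut χ R w x ^ 2 * gs Finset.univ (dir I)
        (fun y => T (u y w - mn u y) + ∑ i, xi i * ctr i) x ≤
        gs Finset.univ (dir I) (fun y => u y w - mn u y) x := by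
      intro w
      rw [gs_add_const]
      have h2 := gs_lip_le (D := Finset.univ) (e := dir I) hT ((duw w).sub dmn) (dT w)
      have h3 : cut χ R w x ^ 2 ≤ 1 := by
        have := h01 (fun i => R i x w)
        exact pow_le_one₀ this.1 this.2
      calc _ ≤ 1 * gs Finset.univ (dir I) (fun y => T (u y w - mn u y)) x :=
            mul_le_mul_of_nonneg_right h3 (gs_nonneg _ _)
        _ ≤ _ := by rw [one_mul]; exact h2
    refine (Finset.sum_le_sum fun w _ => h1 w).trans ?_
    have h4 := gs_sub_mean_le (D := Finset.univ) (e := dir I) (q := (Finset.univ : Finset I))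
      (u := fun w y => u y w) (h := x) fun w _ => duw w
    have h5 : ∀ y, avg (Finset.univ : Finset I) (fun w y => u y w) y = mn u y := fun y => by
      rw [← hmn]
    simpa only [h5] using h4
  have hsum : ∀ w : I, gs Finset.univ (dir I) (fun y => cmp χ T xi ctr R u y w) x ≤
      (1 + th) * (cut χ R w x ^ 2 * gs Finset.univ (dir I)
        (fun y => T (u y w - mn u y) + ∑ i, xi i * ctr i) x) +
      (1 + th⁻¹) * 2 * ((∑ i, xi i ^ 2) * (if cut χ R w x ≠ 1 then gR R w x else 0) +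
        (L : ℝ) ^ 2 * (gR R w x * zz T xi ctr R u w x ^ 2)) := by
    intro w
    have h1 := gs_comb_le (D := Finset.univ) (e := dir I) (dc w) (dlin w)
      ((dT w).add_const (∑ i, xi i * ctr i)) hth
    rw [cmp_sub_lin] at h1
    refine h1.trans ?_
    refine add_le_add le_rfl (mul_le_mul_of_nonneg_left (add_le_add ?_ ?_) hc)
    · split_ifs with h
      · have h2 : (1 - cut χ R w x) ^ 2 ≤ 1 := by
          have := h01 (fun i => R i x w)
          have h3 : (0 : ℝ) ≤ 1 - cut χ R w x := sub_nonneg.mpr this.2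
          have h4 : 1 - cut χ R w x ≤ 1 := by
            have : 0 ≤ cut χ R w x := this.1
            linarith
          exact pow_le_one₀ h3 h4
        calc _ ≤ 1 * gs Finset.univ (dir I) (fun y => ∑ i, xi i * R i y w) x :=
              mul_le_mul_of_nonneg_right h2 (gs_nonneg _ _)
          _ ≤ _ := by
              rw [one_mul, gR_eq dR]
              exact gs_lin_le xi (dRw w)
      · rw [not_not] at h
        rw [h]; simp
    · rw [gR_eq dR]
      have h2 := gs_cut_le (D := Finset.univ) (e := dir I) hχ (dRw w) (dc w)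
      calc _ ≤ zz T xi ctr R u w x ^ 2 * ((L : ℝ) ^ 2 *
            ∑ i, gs Finset.univ (dir I) (fun y => R i y w) x) :=
            mul_le_mul_of_nonneg_left h2 (sq_nonneg _)
        _ = _ := by ring
  refine (Finset.sum_le_sum fun w _ => hsum w).trans ?_
  rw [Finset.sum_add_distrib, ← Finset.mul_sum, ← Finset.mul_sum, Finset.sum_add_distrib,
    ← Finset.mul_sum, ← Finset.mul_sum, ← Finset.sum_filter]
  have h1 : 0 ≤ 1 + th := by linarith
  have := mul_le_mul_of_nonneg_left hU h1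
  linarith

/-- **STB, pointwise a.e. form.** -/
theorem ae_en_cmp_le (hR : ∀ i, LocallyLipschitz (R i)) (hu : LocallyLipschitz u)
    (hχ : LipschitzWith L χ) (h01 : ∀ p, χ p ∈ Icc (0 : ℝ) 1) (hT : LipschitzWith 1 T) :
    ∀ᵐ x : I → ℝ, ∀ th : ℝ, 0 < th →
      en (cmp χ T xi ctr R u) x ≤ (1 + th) * en u x + (1 + th⁻¹) * 2 *
        ((∑ i, xi i ^ 2) * ∑ w with cut χ R w x ≠ 1, gR R w x +
          (L : ℝ) ^ 2 * ∑ w, gR R w x * zz T xi ctr R u w x ^ 2) := by
  have real_ae : ∀ f : (I → ℝ) → ℝ, LocallyLipschitz f → ∀ᵐ x, DifferentiableAt ℝ f x := by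
    intro f hf
    have h := ae_differentiableAt (ι := I) (Y := fun x _ => f x) (LL.pi fun _ => hf)
    rcases isEmpty_or_nonempty I with hI | ⟨⟨w⟩⟩
    · filter_upwards with x
      have : f = fun _ => f x := by funext y; rw [Subsingleton.elim y x]
      rw [this]; exact differentiableAt_const _
    · filter_upwards [h] with x hx
      exact differentiableAt_pi.mp hx w
  filter_upwards [ae_all_iff.mpr fun i => ae_differentiableAt (hR i), ae_differentiableAt hu,
    ae_all_iff.mpr fun w => real_ae _ (ll_cut hχ hR w),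
    ae_all_iff.mpr fun w => real_ae _ (ll_trunc hT hu w),
    ae_differentiableAt (ll_cmp (xi := xi) (ctr := ctr) hχ hT hR hu)] with x h1 h2 h3 h4 h5 th hth
  exact en_cmp_le hχ h01 hT h1 h2 h3 h4 h5 hth

end Comp

end Crest.Agent.R144.StB348
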