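import Crest.Agent.R144.StB2_348

/-!
R144 (S0197), helper348.  STEP B of doc 1613 / doc 1728 (STB), part 2: the truncation, the cut
function, the bound of `zz`, and the integrated form.

* `tr K`: truncation at `K`;
* `zz_le`: `|zz_w| ≤ |u_w - c - G·y_w| + 5 r Σ |g_i - ξ_i| + 4 Λ C₀`, `g = tr (4Λ) G`;
* `bqm_le_stb`: `bqm μ E ζ (lab W ξ) ≤ (1+θ) ∫ en u + ...`;
* `bqm_le_stb_split`: the same with `gR ≤ D` and the splitting `D ≤ M`, `D > M`.
-/

set_option autoImplicit false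
set_option linter.unusedSectionVars false

open MeasureTheory Set Filter Topology
open scoped ENNReal NNReal

noncomputable section

namespace Crest.Agent.R144.StB348

open Crest.Agent.R144.Ham560
open Crest.Agent.R144.BQ565
open Crest.Agent.R144.StB565
open Crest.Agent.R144.MW121 (jac jac_apply en en_nonneg measurable_jac measurable_en)

section Trunc

/-- Truncation. -/
def tr (K s : ℝ) : ℝ := max (-K) (min K s)

theorem lip_tr (K : ℝ) : LipschitzWith 1 (tr K) := by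
  have h1 : LipschitzWith 1 (fun s : ℝ => min K s) := by
    simpa using (LipschitzWith.id (α := ℝ)).const_min K
  exact h1.const_max (-K)

theorem abs_tr_le {K : ℝ} (hK : 0 ≤ K) (s : ℝ) : |tr K s| ≤ K := by
  rw [abs_le, tr]
  exact ⟨le_max_left _ _, max_le (by linarith) (min_le_left _ _)⟩

theorem tr_eq {K s : ℝ} (h : |s| ≤ K) : tr K s = s := by
  rw [abs_le] at h
  rw [tr, min_eq_right h.2, max_eq_right h.1]

theorem abs_tr_of_lt {K s : ℝ} (hK : 0 ≤ K) (h : K < |s|) : |tr K s| = K := by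
  rcases lt_abs.mp h with h | h
  · rw [tr, min_eq_left h.le, max_eq_right (by linarith), abs_of_nonneg hK]
  · rw [tr, min_eq_right (by linarith), max_eq_left (by linarith), abs_neg, abs_of_nonneg hK]

theorem abs_tr_sub_le (K s t : ℝ) : |tr K s - tr K t| ≤ |s - t| := by
  have := (lip_tr K).dist_le_mul s t
  rwa [NNReal.coe_one, one_mul, Real.dist_eq, Real.dist_eq] at this

end Trunc

section ZZ

variable {U : Type*} [DecidableEq U] {I : Finset U}

/-- The error of the truncated linear approximation, bounded. -/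
theorem abs_zz_le {κ : Type*} [Fintype κ] {K : ℝ} (hK : 0 ≤ K) {xi ctr : κ → ℝ}
    {R : κ → (I → ℝ) → (I → ℝ)} {u : (I → ℝ) → (I → ℝ)} (w : I) (x : I → ℝ) :
    |zz (tr K) xi ctr R u w x| ≤ K + ∑ i, |xi i| * |R i x w - ctr i| := by
  unfold zz
  refine (abs_sub _ _).trans (add_le_add (abs_tr_le hK _) ?_)
  refine (Finset.abs_sum_le_sum_abs _ _).trans (le_of_eq ?_)
  exact Finset.sum_congr rfl fun i _ => abs_mul _ _

/-- **Comparison with a linear function** `s ≈ G · y`, `|y_i| ≤ r / 2`, positions `P` with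
`|P_i - y_i| ≤ C₀`, slope `ξ` with `|ξ_i| ≤ 2 Λ`. -/
theorem tr_sub_le {Lam r C0 s : ℝ} (hL : 0 ≤ Lam) (hr : 0 ≤ r) {G xi y P : Fin 2 → ℝ}
    (hxi : ∀ i, |xi i| ≤ 2 * Lam) (hy : ∀ i, |y i| ≤ r / 2) (hP : ∀ i, |P i - y i| ≤ C0) :
    |tr (8 * Lam * r) s - ∑ i, xi i * P i| ≤
      |s - ∑ i, G i * y i| + 5 * r * ∑ i, |tr (4 * Lam) (G i) - xi i| + 4 * Lam * C0 := by
  have hC0 : 0 ≤ C0 := (abs_nonneg _).trans (hP 0)
  have hLr : 0 ≤ Lam * r := mul_nonneg hL hr
  have h1 : |∑ i, xi i * y i| ≤ 2 * Lam * r := by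
    rw [Fin.sum_univ_two]
    have a0 : |xi 0 * y 0| ≤ 2 * Lam * (r / 2) := by
      rw [abs_mul]; exact mul_le_mul (hxi 0) (hy 0) (abs_nonneg _) (by linarith)
    have a1 : |xi 1 * y 1| ≤ 2 * Lam * (r / 2) := by
      rw [abs_mul]; exact mul_le_mul (hxi 1) (hy 1) (abs_nonneg _) (by linarith)
    have := abs_add_le (xi 0 * y 0) (xi 1 * y 1)
    linarith
  have h2 : |∑ i, xi i * y i - ∑ i, xi i * P i| ≤ 4 * Lam * C0 := by
    rw [Fin.sum_univ_two, Fin.sum_univ_two]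
    have a0 : |xi 0 * (y 0 - P 0)| ≤ 2 * Lam * C0 := by
      rw [abs_mul, abs_sub_comm]; exact mul_le_mul (hxi 0) (hP 0) (abs_nonneg _) (by linarith)
    have a1 : |xi 1 * (y 1 - P 1)| ≤ 2 * Lam * C0 := by
      rw [abs_mul, abs_sub_comm (y 1)]
      exact mul_le_mul (hxi 1) (hP 1) (abs_nonneg _) (by linarith)
    have h3 := abs_add_le (xi 0 * (y 0 - P 0)) (xi 1 * (y 1 - P 1))
    have e : xi 0 * y 0 + xi 1 * y 1 - (xi 0 * P 0 + xi 1 * P 1) =
      xi 0 * (y 0 - P 0) + xi 1 * (y 1 - P 1) := by ring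
    rw [e]; linarith
  have hsum0 : 0 ≤ ∑ i, |tr (4 * Lam) (G i) - xi i| := Finset.sum_nonneg fun _ _ => abs_nonneg _
  have main : |tr (8 * Lam * r) s - ∑ i, xi i * y i| ≤
      |s - ∑ i, G i * y i| + 5 * r * ∑ i, |tr (4 * Lam) (G i) - xi i| := by
    by_cases hG : ∀ i, |G i| ≤ 4 * Lam
    · have e1 : ∑ i, xi i * y i = tr (8 * Lam * r) (∑ i, xi i * y i) := by
        rw [tr_eq (h1.trans (by nlinarith))]
      have b1 : |tr (8 * Lam * r) s - ∑ i, xi i * y i| ≤ |s - ∑ i, xi i * y i| := by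
        rw [e1, ← e1]
        calc |tr (8 * Lam * r) s - ∑ i, xi i * y i| =
            |tr (8 * Lam * r) s - tr (8 * Lam * r) (∑ i, xi i * y i)| := by rw [← e1]
          _ ≤ _ := abs_tr_sub_le _ _ _
      have b2 : |s - ∑ i, xi i * y i| ≤ |s - ∑ i, G i * y i| + |∑ i, (G i - xi i) * y i| := by
        have := abs_add_le (s - ∑ i, G i * y i) (∑ i, (G i - xi i) * y i)
        have e : s - ∑ i, G i * y i + ∑ i, (G i - xi i) * y i = s - ∑ i, xi i * y i := by
          simp only [sub_mul, Finset.sum_sub_distrib]; ring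
        rwa [e] at this
      have b3 : |∑ i, (G i - xi i) * y i| ≤ r * ∑ i, |tr (4 * Lam) (G i) - xi i| := by
        rw [Finset.mul_sum]
        refine (Finset.abs_sum_le_sum_abs _ _).trans (Finset.sum_le_sum fun i _ => ?_)
        rw [abs_mul, tr_eq (hG i), mul_comm]
        exact mul_le_mul_of_nonneg_right ((hy i).trans (by linarith)) (abs_nonneg _)
      have b4 : r * ∑ i, |tr (4 * Lam) (G i) - xi i| ≤
          5 * r * ∑ i, |tr (4 * Lam) (G i) - xi i| :=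
        mul_le_mul_of_nonneg_right (by linarith) hsum0
      linarith
    · push Not at hG
      obtain ⟨i, hi⟩ := hG
      have c1 : 2 * Lam ≤ |tr (4 * Lam) (G i) - xi i| := by
        have e1 := abs_tr_of_lt (by linarith : 0 ≤ 4 * Lam) hi
        have e2 := abs_sub_abs_le_abs_sub (tr (4 * Lam) (G i)) (xi i)
        have e3 := hxi i
        linarith
      have c2 : |tr (4 * Lam) (G i) - xi i| ≤ ∑ i, |tr (4 * Lam) (G i) - xi i| :=
        Finset.single_le_sum (f := fun i => |tr (4 * Lam) (G i) - xi i|)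
          (fun _ _ => abs_nonneg _) (Finset.mem_univ i)
      have c3 : |tr (8 * Lam * r) s| ≤ 8 * Lam * r := abs_tr_le (by positivity) s
      have c4 := abs_sub (tr (8 * Lam * r) s) (∑ i, xi i * y i)
      have c5 : 10 * Lam * r ≤ 5 * r * ∑ i, |tr (4 * Lam) (G i) - xi i| := by
        have := mul_le_mul_of_nonneg_left (c1.trans c2) (by positivity : 0 ≤ 5 * r)
        nlinarith
      have c6 := abs_nonneg (s - ∑ i, G i * y i)
      nlinarith
  have e : tr (8 * Lam * r) s - ∑ i, xi i * P i =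
      (tr (8 * Lam * r) s - ∑ i, xi i * y i) + (∑ i, xi i * y i - ∑ i, xi i * P i) := by ring
  rw [e]
  refine (abs_add_le _ _).trans ?_
  linarith

/-- The bound of `zz`: positions `R`, coordinates `crd`, centre `ctr`. -/
theorem zz_le {Lam r C0 : ℝ} (hL : 0 ≤ Lam) (hr : 0 ≤ r) {G xi ctr : Fin 2 → ℝ}
    {crd : Fin 2 → U → ℝ} {R : Fin 2 → (I → ℝ) → (I → ℝ)} {u : (I → ℝ) → (I → ℝ)} {w : I}
    {x : I → ℝ} (hxi : ∀ i, |xi i| ≤ 2 * Lam) (hy : ∀ i, |crd i w - ctr i| ≤ r / 2)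
    (hP : ∀ i, |R i x w - crd i w| ≤ C0) :
    |zz (tr (8 * Lam * r)) xi ctr R u w x| ≤
      |u x w - mn u x - ∑ i, G i * (crd i w - ctr i)| +
        5 * r * ∑ i, |tr (4 * Lam) (G i) - xi i| + 4 * Lam * C0 := by
  unfold zz
  refine tr_sub_le hL hr (P := fun i => R i x w - ctr i) (y := fun i => crd i w - ctr i) hxi hy
    fun i => ?_
  have e : R i x w - ctr i - (crd i w - ctr i) = R i x w - crd i w := by ring
  rw [e]; exact hP i

/-- The uniform bound of `zz`. -/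
theorem zz_le_unif {Lam r C0 : ℝ} (hL : 0 ≤ Lam) (hr : 0 ≤ r) {xi ctr : Fin 2 → ℝ}
    {crd : Fin 2 → U → ℝ} {R : Fin 2 → (I → ℝ) → (I → ℝ)} {u : (I → ℝ) → (I → ℝ)} {w : I}
    {x : I → ℝ} (hxi : ∀ i, |xi i| ≤ 2 * Lam) (hy : ∀ i, |crd i w - ctr i| ≤ r / 2)
    (hP : ∀ i, |R i x w - crd i w| ≤ C0) :
    |zz (tr (8 * Lam * r)) xi ctr R u w x| ≤ 10 * Lam * r + 4 * Lam * C0 := by
  refine (abs_zz_le (by positivity) w x).trans ?_
  have h : ∀ i, |xi i| * |R i x w - ctr i| ≤ 2 * Lam * (r / 2 + C0) := by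
    intro i
    refine mul_le_mul (hxi i) ?_ (abs_nonneg _) (by linarith)
    have := abs_add_le (R i x w - crd i w) (crd i w - ctr i)
    rw [sub_add_sub_cancel] at this
    linarith [hy i, hP i]
  rw [Fin.sum_univ_two]
  linarith [h 0, h 1]

end ZZ

section Int

variable {U : Type*} [DecidableEq U] {I : Finset U} {E : Finset (U × U)} {ζ : U → ℝ}
  {κ : Type*} [Fintype κ] {W : κ → U → ℝ}
  {χ : (κ → ℝ) → ℝ} {T : ℝ → ℝ} {xi ctr : κ → ℝ} {R : κ → (I → ℝ) → (I → ℝ)}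
  {u : (I → ℝ) → (I → ℝ)} {L LT : ℝ≥0} {μ : Measure (I → ℝ)}

theorem continuous_zz (hT : LipschitzWith LT T) (hR : ∀ i, LocallyLipschitz (R i))
    (hu : LocallyLipschitz u) (w : I) : Continuous (zz T xi ctr R u w) := by
  unfold zz
  refine ((ll_trunc hT hu w).continuous).sub (continuous_finsetSum _ fun i _ => ?_)
  exact continuous_const.mul (((LL.comp_apply (hR i) w).continuous).sub continuous_const)

theorem measurable_cut (hχ : LipschitzWith L χ) (hR : ∀ i, LocallyLipschitz (R i)) (w : I) :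
    Measurable (cut χ R w) := (ll_cut hχ hR w).continuous.measurable

theorem integrable_gR (hμ : GoodLaw μ) (hR : ∀ i, LocallyLipschitz (R i)) (w : I) :
    Integrable (gR R w) μ := by
  unfold gR
  refine integrable_finsetSum _ fun i _ => integrable_finsetSum _ fun v _ => ?_
  have := hμ.integrable_jac_mul (hR i) (hR i) w v
  simpa [sq] using this

theorem GoodLaw.ae_bounded (hμ : GoodLaw μ) {f : (I → ℝ) → ℝ} (hf : Continuous f) :
    ∃ C, ∀ᵐ x ∂μ, |f x| ≤ C := by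
  obtain ⟨K, hK, hae⟩ := hμ.conc
  obtain ⟨r, hr⟩ := hK.subset_closedBall 0
  obtain ⟨C, hC⟩ := (isCompact_closedBall (0 : I → ℝ) r).exists_bound_of_continuousOn
    hf.continuousOn
  refine ⟨C, ?_⟩
  filter_upwards [hae] with x hx
  exact hC x (hr hx)

theorem integrable_gR_mul_sq (hμ : GoodLaw μ) (hT : LipschitzWith LT T)
    (hR : ∀ i, LocallyLipschitz (R i)) (hu : LocallyLipschitz u) (w : I) :
    Integrable (fun x => gR R w x * zz T xi ctr R u w x ^ 2) μ := by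
  have hc := (continuous_zz (xi := xi) (ctr := ctr) hT hR hu w).pow 2
  obtain ⟨C, hC⟩ := GoodLaw.ae_bounded hμ hc
  refine (integrable_gR hμ hR w).mul_bdd (c := C) hc.aestronglyMeasurable ?_
  filter_upwards [hC] with x hx
  simpa [Real.norm_eq_abs] using hx

/-- **STB, integrated form.** -/
theorem bqm_le_stb (hμ : GoodLaw μ) (hR : ∀ i, Adm I E ζ (W i) (R i)) (hu : LocallyLipschitz u)
    (hur : ∃ ρ > 0, ∀ x ∈ ham I E ζ, ∀ a b : I, (a.1, b.1) ∈ E → 1 - ρ ≤ |x a - x b| →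
      u x a = u x b)
    (hχ : LipschitzWith L χ) (h01 : ∀ p, χ p ∈ Icc (0 : ℝ) 1) (hT : LipschitzWith 1 T)
    (hχ1 : ∀ p ∈ E, p.1 ∈ I → p.2 ∉ I → χ (fun i => W i p.2) = 0)
    (hχ2 : ∀ p ∈ E, p.1 ∉ I → p.2 ∈ I → χ (fun i => W i p.1) = 0)
    (Col : Finset I) (hCol : ∀ᵐ x ∂μ, ∀ w ∉ Col, cut χ R w x = 1) {th : ℝ} (hth : 0 < th) :
    bqm μ E ζ (lab W xi) ≤ (1 + th) * ∫ x, en u x ∂μ + (1 + th⁻¹) * 2 *
      ((∑ i, xi i ^ 2) * ∑ w ∈ Col, ∫ x, gR R w x ∂μ +
        (L : ℝ) ^ 2 * ∑ w, ∫ x, gR R w x * zz T xi ctr R u w x ^ 2 ∂μ) := by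
  have hRl : ∀ i, LocallyLipschitz (R i) := fun i => (hR i).lip
  have hA := adm_cmp (xi := xi) (ctr := ctr) hR hu hur hχ hT hχ1 hχ2
  refine (bqm_le hA).trans ?_
  have hc : 0 ≤ (1 + th⁻¹) * 2 := by have := inv_pos.mpr hth; positivity
  have hxi : 0 ≤ ∑ i, xi i ^ 2 := Finset.sum_nonneg fun _ _ => sq_nonneg _
  have key : ∀ᵐ x ∂μ, en (cmp χ T xi ctr R u) x ≤ (1 + th) * en u x + (1 + th⁻¹) * 2 *
      ((∑ i, xi i ^ 2) * ∑ w ∈ Col, gR R w x +
        (L : ℝ) ^ 2 * ∑ w, gR R w x * zz T xi ctr R u w x ^ 2) := by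
    filter_upwards [hμ.ac.ae_le (ae_en_cmp_le (xi := xi) (ctr := ctr) hRl hu hχ h01 hT), hCol]
      with x hx hx2
    refine (hx th hth).trans (add_le_add le_rfl (mul_le_mul_of_nonneg_left
      (add_le_add (mul_le_mul_of_nonneg_left ?_ hxi) le_rfl) hc))
    refine Finset.sum_le_sum_of_subset_of_nonneg ?_ fun w _ _ => gR_nonneg R w x
    intro w hw
    by_contra hn
    exact (Finset.mem_filter.mp hw).2 (hx2 w hn)
  have i1 := hμ.integrable_en hu
  have i2 : Integrable (fun x => ∑ w ∈ Col, gR R w x) μ :=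
    integrable_finsetSum _ fun w _ => integrable_gR hμ hRl w
  have i3 : Integrable (fun x => ∑ w, gR R w x * zz T xi ctr R u w x ^ 2) μ :=
    integrable_finsetSum _ fun w _ => integrable_gR_mul_sq hμ hT hRl hu w
  have i4 : Integrable (fun x => (∑ i, xi i ^ 2) * ∑ w ∈ Col, gR R w x) μ := i2.const_mul _
  have i5 : Integrable (fun x => (L : ℝ) ^ 2 * ∑ w, gR R w x * zz T xi ctr R u w x ^ 2) μ :=
    i3.const_mul _
  refine (integral_mono_ae (hμ.integrable_en hA.lip)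
    ((i1.const_mul (1 + th)).add ((i4.add i5).const_mul ((1 + th⁻¹) * 2))) key).trans
    (le_of_eq ?_)
  have e0 : ∫ x, ((1 + th) * en u x + (1 + th⁻¹) * 2 *
      ((∑ i, xi i ^ 2) * ∑ w ∈ Col, gR R w x +
        (L : ℝ) ^ 2 * ∑ w, gR R w x * zz T xi ctr R u w x ^ 2)) ∂μ =
      (∫ x, (1 + th) * en u x ∂μ) + ∫ x, (1 + th⁻¹) * 2 *
      ((∑ i, xi i ^ 2) * ∑ w ∈ Col, gR R w x +
        (L : ℝ) ^ 2 * ∑ w, gR R w x * zz T xi ctr R u w x ^ 2) ∂μ :=
    integral_add (i1.const_mul (1 + th)) ((i4.add i5).const_mul ((1 + th⁻¹) * 2))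
  have e1 : ∫ x, ((∑ i, xi i ^ 2) * ∑ w ∈ Col, gR R w x +
      (L : ℝ) ^ 2 * ∑ w, gR R w x * zz T xi ctr R u w x ^ 2) ∂μ =
      (∫ x, (∑ i, xi i ^ 2) * ∑ w ∈ Col, gR R w x ∂μ) +
      ∫ x, (L : ℝ) ^ 2 * ∑ w, gR R w x * zz T xi ctr R u w x ^ 2 ∂μ := integral_add i4 i5
  simp only [Pi.add_apply]
  refine e0.trans ?_
  rw [integral_const_mul, integral_const_mul, e1, integral_const_mul, integral_const_mul,
    integral_finsetSum _ fun w _ => integrable_gR hμ hRl w,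
    integral_finsetSum _ fun w _ => integrable_gR_mul_sq hμ hT hRl hu w]

/-- The splitting at level `M`. -/
theorem mul_sq_le_split {g D z B M : ℝ} (hg0 : 0 ≤ g) (hg : g ≤ D) (hM : 0 ≤ M) (hz : |z| ≤ B) :
    g * z ^ 2 ≤ M * B * |z| + B ^ 2 * (if M < D then D else 0) := by
  have hB : 0 ≤ B := (abs_nonneg _).trans hz
  have hz2 : z ^ 2 ≤ B * |z| := by
    rw [← sq_abs, sq]; exact mul_le_mul_of_nonneg_right hz (abs_nonneg _)
  have hz3 : z ^ 2 ≤ B ^ 2 := by
    rw [← sq_abs]; exact pow_le_pow_left₀ (abs_nonneg _) hz 2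
  split_ifs with h
  · have h1 : g * z ^ 2 ≤ D * B ^ 2 := mul_le_mul hg hz3 (sq_nonneg _) (hg0.trans hg)
    have h2 : 0 ≤ M * B * |z| := by positivity
    linarith
  · push Not at h
    have h1 : g * z ^ 2 ≤ M * (B * |z|) := mul_le_mul (hg.trans h) hz2 (sq_nonneg _) hM
    linarith

/-- **STB, integrated form with splitting**: `gR ≤ D` a.e., `|zz| ≤ B` a.e., level `M`. -/
theorem bqm_le_stb_split (hμ : GoodLaw μ) (hR : ∀ i, Adm I E ζ (W i) (R i))
    (hu : LocallyLipschitz u)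
    (hur : ∃ ρ > 0, ∀ x ∈ ham I E ζ, ∀ a b : I, (a.1, b.1) ∈ E → 1 - ρ ≤ |x a - x b| →
      u x a = u x b)
    (hχ : LipschitzWith L χ) (h01 : ∀ p, χ p ∈ Icc (0 : ℝ) 1) (hT : LipschitzWith 1 T)
    (hχ1 : ∀ p ∈ E, p.1 ∈ I → p.2 ∉ I → χ (fun i => W i p.2) = 0)
    (hχ2 : ∀ p ∈ E, p.1 ∉ I → p.2 ∈ I → χ (fun i => W i p.1) = 0)
    (Col : Finset I) (hCol : ∀ᵐ x ∂μ, ∀ w ∉ Col, cut χ R w x = 1) {th : ℝ} (hth : 0 < th)
    {D : I → (I → ℝ) → ℝ} (hDm : ∀ w, Integrable (D w) μ)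
    (hD : ∀ᵐ x ∂μ, ∀ w, gR R w x ≤ D w x) {B M : ℝ} (hM : 0 ≤ M)
    (hB : ∀ᵐ x ∂μ, ∀ w, |zz T xi ctr R u w x| ≤ B) :
    bqm μ E ζ (lab W xi) ≤ (1 + th) * ∫ x, en u x ∂μ + (1 + th⁻¹) * 2 *
      ((∑ i, xi i ^ 2) * ∑ w ∈ Col, ∫ x, D w x ∂μ +
        (L : ℝ) ^ 2 * ∑ w, ∫ x, (M * B * |zz T xi ctr R u w x| +
          B ^ 2 * (if M < D w x then D w x else 0)) ∂μ) := by
  have hRl : ∀ i, LocallyLipschitz (R i) := fun i => (hR i).lip
  have hc : 0 ≤ (1 + th⁻¹) * 2 := by have := inv_pos.mpr hth; positivity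
  have hxi : 0 ≤ ∑ i, xi i ^ 2 := Finset.sum_nonneg fun _ _ => sq_nonneg _
  refine (bqm_le_stb (ctr := ctr) hμ hR hu hur hχ h01 hT hχ1 hχ2 Col hCol hth).trans
    (add_le_add le_rfl (mul_le_mul_of_nonneg_left (add_le_add
      (mul_le_mul_of_nonneg_left (Finset.sum_le_sum fun w _ => ?_) hxi)
      (mul_le_mul_of_nonneg_left (Finset.sum_le_sum fun w _ => ?_) (sq_nonneg _))) hc))
  · refine integral_mono_ae (integrable_gR hμ hRl w) (hDm w) ?_
    filter_upwards [hD] with x hx using hx w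
  · have hfin := hμ.fin
    have hzc := (continuous_zz (xi := xi) (ctr := ctr) hT hRl hu w)
    have i1 : Integrable (fun x => M * B * |zz T xi ctr R u w x|) μ := by
      refine Integrable.const_mul ?_ _
      refine Integrable.of_bound (C := B) hzc.abs.aestronglyMeasurable ?_
      filter_upwards [hB] with x hx
      simpa [Real.norm_eq_abs] using hx w
    have i2 : Integrable (fun x => B ^ 2 * (if M < D w x then D w x else 0)) μ := by
      refine Integrable.const_mul ?_ _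
      have hae := (hDm w).aestronglyMeasurable.aemeasurable
      have hs : NullMeasurableSet {x | M < D w x} μ := nullMeasurableSet_lt aemeasurable_const hae
      have := (hDm w).indicator₀ hs
      refine this.congr (Eventually.of_forall fun x => ?_)
      simp [indicator_apply]
    refine integral_mono_ae (integrable_gR_mul_sq hμ hT hRl hu w) (i1.add i2) ?_
    filter_upwards [hD, hB] with x hx hx2
    exact mul_sq_le_split (gR_nonneg R w x) (hx w) hM (hx2 w)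

end Int

end Crest.Agent.R144.StB348
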