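import Crest.Agent.R144.StB4_348

/-!
R144 (S0197), helper348.  STEP B for the class `V₀` of doc 1760 (T2), (T3): the competitor
`L + Υ`, `L = ∑ ξ_i Z_i`, `Υ_w = et_w (T (u_w - c) + ξ·ctr - ξ·Z_w)`, for a general family of cut
functions `et_w`; then `et_w = g χ(Z_w)`, `g` = cut-off of `max_w |Z_w - w|`.

* `CutF`: cut functions; `adm_cmpU`: `Υ` is locally Lipschitz, rigid near the walls of the fibre and
  vanishes off the core;
* `ae_en_cmpU_le`: energy inequality for a general cut family;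
* `gl`, `cutg`: the cut-off and the cut family `g χ(Z_w)`; `cutF_cutg`;
* `ae_en_cmpG_le`: the final pointwise inequality.
-/

set_option autoImplicit false
set_option linter.unusedSectionVars false

open MeasureTheory Set Filter Topology
open scoped ENNReal NNReal

noncomputable section

namespace Crest.Agent.R144.StB348

open Crest.Agent.R144.Ham560
open Crest.Agent.R144.BQ565
open Crest.Agent.R144.StB565
open Crest.Agent.R144.MW121 (jac jac_apply en en_nonneg measurable_jac measurable_en)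

section Gen

variable {U : Type*} [DecidableEq U] {I : Finset U} {E : Finset (U × U)} {ζ : U → ℝ}
  {κ : Type*} [Fintype κ]

/-- Rigidity near the walls of one fibre, inside `I`. -/
def Rig (I : Finset U) (E : Finset (U × U)) (ζ : U → ℝ) (Y : (I → ℝ) → (I → ℝ)) : Prop :=
  ∃ ρ > 0, ∀ x ∈ ham I E ζ, ∀ a b : I, (a.1, b.1) ∈ E → 1 - ρ ≤ |x a - x b| → Y x a = Y x b

/-- A family of cut functions. -/
structure CutF (I : Finset U) (E : Finset (U × U)) (ζ : U → ℝ) (C : Finset U)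
    (et : I → (I → ℝ) → ℝ) : Prop where
  lip : ∀ w, LocallyLipschitz (et w)
  mem : ∀ w x, et w x ∈ Icc (0 : ℝ) 1
  rig : Rig I E ζ (fun x w => et w x)
  core : ∀ x ∈ ham I E ζ, ∀ w : I, w.1 ∉ C → et w x = 0

/-- The perturbation. -/
def cmpU (et : I → (I → ℝ) → ℝ) (T : ℝ → ℝ) (xi ctr : κ → ℝ) (Z : κ → (I → ℝ) → (I → ℝ))
    (u : (I → ℝ) → (I → ℝ)) : (I → ℝ) → (I → ℝ) := fun x w =>
  et w x * (T (u x w - mn u x) + ∑ i, xi i * ctr i - ∑ i, xi i * Z i x w)

variable {C : Finset U} {et : I → (I → ℝ) → ℝ} {T : ℝ → ℝ} {xi ctr : κ → ℝ}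
  {Z : κ → (I → ℝ) → (I → ℝ)} {u : (I → ℝ) → (I → ℝ)} {LT : ℝ≥0}

theorem ll_cmpU (he : ∀ w, LocallyLipschitz (et w)) (hT : LipschitzWith LT T)
    (hZ : ∀ i, LocallyLipschitz (Z i)) (hu : LocallyLipschitz u) :
    LocallyLipschitz (cmpU et T xi ctr Z u) := by
  refine LL.pi fun w => ?_
  exact LL.mul (he w) (((ll_trunc hT hu w).add (LocallyLipschitz.const _)).sub (ll_lin xi hZ w))

theorem cmpU_core (he : CutF I E ζ C et) {x : I → ℝ} (hx : x ∈ ham I E ζ) {w : I}
    (hw : w.1 ∉ C) : cmpU et T xi ctr Z u x w = 0 := by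
  simp [cmpU, he.core x hx w hw]

theorem rig_cmpU (he : CutF I E ζ C et) (hZ : ∀ i, Rig I E ζ (Z i)) (hu : Rig I E ζ u) :
    Rig I E ζ (cmpU et T xi ctr Z u) := by
  obtain ⟨r1, hr1, h1⟩ := he.rig
  obtain ⟨r2, hr2, h2⟩ := hu
  choose r hr h using hZ
  obtain ⟨r3, hr3, h3⟩ : ∃ r3 > 0, ∀ i, r3 ≤ r i := by
    rcases isEmpty_or_nonempty κ with hκ | hκ
    · exact ⟨1, one_pos, fun i => (IsEmpty.false i).elim⟩
    · exact ⟨Finset.univ.inf' Finset.univ_nonempty r,
        (Finset.lt_inf'_iff _).mpr fun i _ => hr i, fun i => Finset.inf'_le _ (Finset.mem_univ i)⟩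
  refine ⟨min r1 (min r2 r3), lt_min hr1 (lt_min hr2 hr3), fun x hx a b hab hq => ?_⟩
  have e1 : et a x = et b x := h1 x hx a b hab (by have := min_le_left r1 (min r2 r3); linarith)
  have e2 : u x a = u x b := h2 x hx a b hab (by
    have := min_le_right r1 (min r2 r3); have := min_le_left r2 r3; linarith)
  have e3 : ∀ i, Z i x a = Z i x b := fun i => h i x hx a b hab (by
    have := min_le_right r1 (min r2 r3); have := min_le_right r2 r3; have := h3 i; linarith)
  simp only [cmpU, e1, e2, e3]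

theorem lin_add_cmpU (x : I → ℝ) (w : I) :
    ((∑ i, xi i • Z i) + cmpU et T xi ctr Z u) x w =
      (1 - et w x) * (∑ i, xi i * Z i x w) + et w x * (T (u x w - mn u x) + ∑ i, xi i * ctr i) := by
  simp only [Pi.add_apply, Finset.sum_apply, Pi.smul_apply, smul_eq_mul, cmpU]
  ring

theorem ll_lab (hZ : ∀ i, LocallyLipschitz (Z i)) : LocallyLipschitz (∑ i, xi i • Z i) := by
  refine LL.pi fun w => ?_
  have := ll_lin xi hZ w
  simpa [Finset.sum_apply, Pi.smul_apply, smul_eq_mul] using this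

/-- **The pointwise energy inequality**, at every point of differentiability. -/
theorem en_cmpU_le {x : I → ℝ} (h01 : ∀ w, et w x ∈ Icc (0 : ℝ) 1) (hT : LipschitzWith 1 T)
    (dZ : ∀ i, DifferentiableAt ℝ (Z i) x) (du : DifferentiableAt ℝ u x)
    (dc : ∀ w, DifferentiableAt ℝ (et w) x)
    (dT : ∀ w : I, DifferentiableAt ℝ (fun x => T (u x w - mn u x)) x)
    (dX : DifferentiableAt ℝ ((∑ i, xi i • Z i) + cmpU et T xi ctr Z u) x) {th : ℝ} (hth : 0 < th) :
    en ((∑ i, xi i • Z i) + cmpU et T xi ctr Z u) x ≤ (1 + th) * en u x + (1 + th⁻¹) * 2 *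
      ((∑ i, xi i ^ 2) * ∑ w with et w x ≠ 1, gR Z w x +
        ∑ w, gs Finset.univ (dir I) (et w) x * zz T xi ctr Z u w x ^ 2) := by
  have duw : ∀ w : I, DifferentiableAt ℝ (fun y => u y w) x := fun w =>
    differentiableAt_pi.mp du w
  have dZw : ∀ (w : I) i, DifferentiableAt ℝ (fun y => Z i y w) x := fun w i =>
    differentiableAt_pi.mp (dZ i) w
  have hmn : (fun y => mn u y) = avg (Finset.univ : Finset I) (fun w y => u y w) := by
    funext y; simp [mn, avg, Fintype.card]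
  have dmn : DifferentiableAt ℝ (fun y => mn u y) x := by
    rw [hmn]; exact differentiableAt_avg fun w _ => duw w
  have dlin : ∀ w : I, DifferentiableAt ℝ (fun y => ∑ i, xi i * Z i y w) x := fun w =>
    DifferentiableAt.fun_sum fun i _ => (dZw w i).const_mul (xi i)
  have hc : 0 ≤ (1 + th⁻¹) * 2 := by have := inv_pos.mpr hth; positivity
  rw [en_eq_gs dX, en_eq_gs du]
  have hU : ∑ w : I, et w x ^ 2 * gs Finset.univ (dir I)
      (fun y => T (u y w - mn u y) + ∑ i, xi i * ctr i) x ≤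
      ∑ w : I, gs Finset.univ (dir I) (fun y => u y w) x := by
    have h1 : ∀ w : I, et w x ^ 2 * gs Finset.univ (dir I)
        (fun y => T (u y w - mn u y) + ∑ i, xi i * ctr i) x ≤
        gs Finset.univ (dir I) (fun y => u y w - mn u y) x := by
      intro w
      rw [gs_add_const]
      have h2 := gs_lip_le (D := Finset.univ) (e := dir I) hT ((duw w).sub dmn) (dT w)
      have h3 : et w x ^ 2 ≤ 1 := pow_le_one₀ (h01 w).1 (h01 w).2
      calc _ ≤ 1 * gs Finset.univ (dir I) (fun y => T (u y w - mn u y)) x :=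
            mul_le_mul_of_nonneg_right h3 (gs_nonneg _ _)
        _ ≤ _ := by rw [one_mul]; exact h2
    refine (Finset.sum_le_sum fun w _ => h1 w).trans ?_
    have h4 := gs_sub_mean_le (D := Finset.univ) (e := dir I) (q := (Finset.univ : Finset I))
      (u := fun w y => u y w) (h := x) fun w _ => duw w
    have h5 : ∀ y, avg (Finset.univ : Finset I) (fun w y => u y w) y = mn u y := fun y => by
      rw [← hmn]
    simpa only [h5] using h4
  have hsum : ∀ w : I,
      gs Finset.univ (dir I) (fun y => ((∑ i, xi i • Z i) + cmpU et T xi ctr Z u) y w) x ≤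
      (1 + th) * (et w x ^ 2 * gs Finset.univ (dir I)
        (fun y => T (u y w - mn u y) + ∑ i, xi i * ctr i) x) +
      (1 + th⁻¹) * 2 * ((∑ i, xi i ^ 2) * (if et w x ≠ 1 then gR Z w x else 0) +
        gs Finset.univ (dir I) (et w) x * zz T xi ctr Z u w x ^ 2) := by
    intro w
    have h0 : (fun y => ((∑ i, xi i • Z i) + cmpU et T xi ctr Z u) y w) =
        fun y => (1 - et w y) * (∑ i, xi i * Z i y w) +
          et w y * (T (u y w - mn u y) + ∑ i, xi i * ctr i) := by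
      funext y; exact lin_add_cmpU y w
    rw [h0]
    have h1 := gs_comb_le (D := Finset.univ) (e := dir I) (dc w) (dlin w)
      ((dT w).add_const (∑ i, xi i * ctr i)) hth
    rw [cmp_sub_lin] at h1
    refine h1.trans ?_
    refine add_le_add le_rfl (mul_le_mul_of_nonneg_left (add_le_add ?_ ?_) hc)
    · split_ifs with h
      · have h2 : (1 - et w x) ^ 2 ≤ 1 := by
          have h3 : (0 : ℝ) ≤ 1 - et w x := sub_nonneg.mpr (h01 w).2
          have h4 : 1 - et w x ≤ 1 := by linarith [(h01 w).1]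
          exact pow_le_one₀ h3 h4
        calc _ ≤ 1 * gs Finset.univ (dir I) (fun y => ∑ i, xi i * Z i y w) x :=
              mul_le_mul_of_nonneg_right h2 (gs_nonneg _ _)
          _ ≤ _ := by
              rw [one_mul, gR_eq dZ]
              exact gs_lin_le xi (dZw w)
      · rw [not_not] at h
        rw [h]; simp
    · rw [mul_comm]
  refine (Finset.sum_le_sum fun w _ => hsum w).trans ?_
  rw [Finset.sum_add_distrib, ← Finset.mul_sum, ← Finset.mul_sum, Finset.sum_add_distrib,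
    ← Finset.mul_sum, ← Finset.sum_filter]
  have h1 : 0 ≤ 1 + th := by linarith
  have := mul_le_mul_of_nonneg_left hU h1
  linarith

theorem ae_real {f : (I → ℝ) → ℝ} (hf : LocallyLipschitz f) : ∀ᵐ x, DifferentiableAt ℝ f x := by
  have h := ae_differentiableAt (ι := I) (Y := fun x _ => f x) (LL.pi fun _ => hf)
  rcases isEmpty_or_nonempty I with hI | ⟨⟨w⟩⟩
  · filter_upwards with x
    have : f = fun _ => f x := by funext y; rw [Subsingleton.elim y x]
    rw [this]; exact differentiableAt_const _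
  · filter_upwards [h] with x hx
    exact differentiableAt_pi.mp hx w

/-- **STB for a general cut family, pointwise a.e. form.** -/
theorem ae_en_cmpU_le (he : CutF I E ζ C et) (hZ : ∀ i, LocallyLipschitz (Z i))
    (hu : LocallyLipschitz u) (hT : LipschitzWith 1 T) :
    ∀ᵐ x : I → ℝ, ∀ th : ℝ, 0 < th →
      en ((∑ i, xi i • Z i) + cmpU et T xi ctr Z u) x ≤ (1 + th) * en u x + (1 + th⁻¹) * 2 *
        ((∑ i, xi i ^ 2) * ∑ w with et w x ≠ 1, gR Z w x +
          ∑ w, gs Finset.univ (dir I) (et w) x * zz T xi ctr Z u w x ^ 2) := by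
  filter_upwards [ae_all_iff.mpr fun i => ae_differentiableAt (hZ i), ae_differentiableAt hu,
    ae_all_iff.mpr fun w => ae_real (he.lip w),
    ae_all_iff.mpr fun w => ae_real (ll_trunc hT hu w),
    ae_differentiableAt ((ll_lab (xi := xi) hZ).add
      (ll_cmpU (xi := xi) (ctr := ctr) he.lip hT hZ hu))] with x h1 h2 h3 h4 h5 th hth
  exact en_cmpU_le (fun w => he.mem w x) hT h1 h2 h3 h4 h5 hth

end Gen

section Cutoff

variable {U : Type*} [DecidableEq U] {I : Finset U} {E : Finset (U × U)} {ζ : U → ℝ}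
  {κ : Type*} [Fintype κ]

/-- The scalar cut-off profile `φ(t) = max 0 (min 1 (2 - t / m))`. -/
def ramp (m t : ℝ) : ℝ := max 0 (min 1 (2 - t / m))

theorem ramp_mem (m t : ℝ) : ramp m t ∈ Icc (0 : ℝ) 1 :=
  ⟨le_max_left _ _, max_le zero_le_one (min_le_left _ _)⟩

theorem lip_ramp {m : ℝ} (hm : 0 < m) :
    LipschitzWith ⟨m⁻¹, inv_nonneg.mpr hm.le⟩ (ramp m) := by
  have h1 : LipschitzWith ⟨m⁻¹, inv_nonneg.mpr hm.le⟩ (fun t : ℝ => 2 - t / m) := by
    refine LipschitzWith.of_dist_le_mul fun s t => ?_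
    change dist (2 - s / m) (2 - t / m) ≤ m⁻¹ * dist s t
    rw [Real.dist_eq, Real.dist_eq]
    have e : 2 - s / m - (2 - t / m) = m⁻¹ * (t - s) := by field_simp; ring
    rw [e, abs_mul, abs_of_pos (inv_pos.mpr hm), abs_sub_comm]
  exact (h1.const_min 1).const_max 0

theorem ramp_eq_one {m t : ℝ} (hm : 0 < m) (h : t ≤ m) : ramp m t = 1 := by
  have : t / m ≤ 1 := (div_le_one hm).mpr h
  rw [ramp, min_eq_left (by linarith)]; exact max_eq_right zero_le_one

theorem lt_of_ramp_pos {m t : ℝ} (hm : 0 < m) (h : 0 < ramp m t) : t < 2 * m := by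
  by_contra hn
  push Not at hn
  have h1 : 2 ≤ t / m := (le_div_iff₀ hm).mpr hn
  have h2 : ramp m t = 0 := max_eq_left ((min_le_right _ _).trans (by linarith))
  linarith

theorem lt_of_ramp_lt_one {m t : ℝ} (hm : 0 < m) (h : ramp m t < 1) : m < t := by
  by_contra hn
  push Not at hn
  rw [ramp_eq_one hm hn] at h
  exact lt_irrefl _ h

/-- The deviations of the positions. -/
def dev (crd : κ → U → ℝ) (Z : κ → (I → ℝ) → (I → ℝ)) (x : I → ℝ) : κ × I → ℝ :=
  fun p => Z p.1 x p.2 - crd p.1 p.2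

/-- The cut-off: `1` if all deviations are `≤ m`, `0` if one is `≥ 2 m`. -/
def gl (crd : κ → U → ℝ) (m : ℝ) (Z : κ → (I → ℝ) → (I → ℝ)) (x : I → ℝ) : ℝ :=
  ramp m ‖dev crd Z x‖

variable {crd : κ → U → ℝ} {m : ℝ} {Z : κ → (I → ℝ) → (I → ℝ)}

theorem gl_mem (x : I → ℝ) : gl crd m Z x ∈ Icc (0 : ℝ) 1 := ramp_mem _ _

theorem ll_dev (hZ : ∀ i, LocallyLipschitz (Z i)) : LocallyLipschitz (dev crd Z) :=
  LL.pi fun p => (LL.comp_apply (hZ p.1) p.2).sub (LocallyLipschitz.const _)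

theorem lip_rampNorm {ι : Type*} [Fintype ι] (hm : 0 < m) :
    LipschitzWith ⟨m⁻¹, inv_nonneg.mpr hm.le⟩ (fun v : ι → ℝ => ramp m ‖v‖) := by
  refine LipschitzWith.of_dist_le_mul fun v w => ?_
  have h1 := (lip_ramp hm).dist_le_mul ‖v‖ ‖w‖
  refine h1.trans (mul_le_mul_of_nonneg_left ?_ (inv_nonneg.mpr hm.le))
  rw [Real.dist_eq, dist_eq_norm]
  exact abs_norm_sub_norm_le v w

theorem ll_gl (hm : 0 < m) (hZ : ∀ i, LocallyLipschitz (Z i)) : LocallyLipschitz (gl crd m Z) :=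
  (lip_rampNorm hm).locallyLipschitz.comp (ll_dev hZ)

theorem dev_lt_of_gl_pos (hm : 0 < m) {x : I → ℝ} (h : 0 < gl crd m Z x) (i : κ) (w : I) :
    |Z i x w - crd i w| < 2 * m := by
  have h1 := lt_of_ramp_pos hm h
  have h2 := norm_le_pi_norm (dev crd Z x) (i, w)
  rw [Real.norm_eq_abs] at h2
  exact lt_of_le_of_lt h2 h1

theorem dev_le_of_gl_one (hm : 0 < m) {x : I → ℝ} (h : ∀ i w, |Z i x w - crd i w| ≤ m) :
    gl crd m Z x = 1 :=
  ramp_eq_one hm ((pi_norm_le_iff_of_nonneg hm.le).mpr fun p => h p.1 p.2)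

theorem exists_dev_of_gl_lt (hm : 0 < m) {x : I → ℝ} (h : gl crd m Z x < 1) :
    ∃ i w, m < |Z i x w - crd i w| := by
  by_contra hn
  push Not at hn
  rw [dev_le_of_gl_one hm hn] at h
  exact lt_irrefl _ h

/-- The gradient of the cut-off. -/
theorem gs_gl_le (hm : 0 < m) {x : I → ℝ} (dZ : ∀ i, DifferentiableAt ℝ (Z i) x)
    (dg : DifferentiableAt ℝ (gl crd m Z) x) :
    gs Finset.univ (dir I) (gl crd m Z) x ≤ (m ^ 2)⁻¹ * ∑ w, gR Z w x := by
  have dZw : ∀ p : κ × I, DifferentiableAt ℝ (fun y => Z p.1 y p.2 - crd p.1 p.2) x := fun p =>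
    (differentiableAt_pi.mp (dZ p.1) p.2).sub_const _
  have h := gs_cut_le (D := Finset.univ) (e := dir I) (lip_rampNorm (ι := κ × I) hm) dZw dg
  refine h.trans (le_of_eq ?_)
  have e1 : ∀ p : κ × I, gs Finset.univ (dir I) (fun y => Z p.1 y p.2 - crd p.1 p.2) x =
      gs Finset.univ (dir I) (fun y => Z p.1 y p.2) x := by
    intro p; unfold gs; rw [fderiv_sub_const]
  simp only [e1]
  rw [Fintype.sum_prod_type_right]
  simp only [gR_eq dZ]
  change (m⁻¹) ^ 2 * _ = _
  rw [inv_pow]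

/-- At a maximum or a minimum the gradient vanishes. -/
theorem gs_eq_zero_of_extr {V : Type*} [NormedAddCommGroup V] [NormedSpace ℝ V] {ι : Type*}
    {D : Finset ι} {e : ι → V} {f : V → ℝ} (h01 : ∀ x, f x ∈ Icc (0 : ℝ) 1) {x : V}
    (h : f x = 0 ∨ f x = 1) : gs D e f x = 0 := by
  have h1 : fderiv ℝ f x = 0 := by
    rcases h with h | h
    · exact IsLocalMin.fderiv_eq_zero (Eventually.of_forall fun y => by rw [h]; exact (h01 y).1)
    · exact IsLocalMax.fderiv_eq_zero (Eventually.of_forall fun y => by rw [h]; exact (h01 y).2)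
  simp [gs, h1]

theorem gs_mul_le {V : Type*} [NormedAddCommGroup V] [NormedSpace ℝ V] {ι : Type*}
    {D : Finset ι} {e : ι → V} {f g : V → ℝ} {x : V} (hf : DifferentiableAt ℝ f x)
    (hg : DifferentiableAt ℝ g x) (h1 : |f x| ≤ 1) (h2 : |g x| ≤ 1) :
    gs D e (fun y => f y * g y) x ≤ 2 * (gs D e f x + gs D e g x) := by
  unfold gs
  rw [← Finset.sum_add_distrib, Finset.mul_sum]
  refine Finset.sum_le_sum fun v _ => ?_
  have hm : HasFDerivAt (fun y => f y * g y) (f x • fderiv ℝ g x + g x • fderiv ℝ f x) x :=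
    hf.hasFDerivAt.mul hg.hasFDerivAt
  rw [hm.fderiv]
  simp only [add_apply, smul_apply, smul_eq_mul]
  set a := fderiv ℝ g x (e v)
  set b := fderiv ℝ f x (e v)
  have e1 : (f x * a + g x * b) ^ 2 ≤ 2 * ((f x * a) ^ 2 + (g x * b) ^ 2) := by
    nlinarith [sq_nonneg (f x * a - g x * b)]
  have e2 : (f x * a) ^ 2 ≤ a ^ 2 := by
    rw [mul_pow]
    have : f x ^ 2 ≤ 1 := by rw [← sq_abs]; exact pow_le_one₀ (abs_nonneg _) h1
    nlinarith [sq_nonneg a]
  have e3 : (g x * b) ^ 2 ≤ b ^ 2 := by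
    rw [mul_pow]
    have : g x ^ 2 ≤ 1 := by rw [← sq_abs]; exact pow_le_one₀ (abs_nonneg _) h2
    nlinarith [sq_nonneg b]
  linarith

/-- The cut family `g χ(Z_w)`. -/
def cutg (χ : (κ → ℝ) → ℝ) (crd : κ → U → ℝ) (m : ℝ) (Z : κ → (I → ℝ) → (I → ℝ)) (w : I)
    (x : I → ℝ) : ℝ := gl crd m Z x * cut χ Z w x

variable {χ : (κ → ℝ) → ℝ} {L : ℝ≥0} {C : Finset U}

/-- **`g χ(Z_w)` is a cut family**: `χ` vanishes on the positions at distance `< 2 m` from the sites
off the core. -/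
theorem cutF_cutg (hm : 0 < m) (hχ : LipschitzWith L χ) (h01 : ∀ p, χ p ∈ Icc (0 : ℝ) 1)
    (hZ : ∀ i, LocallyLipschitz (Z i)) (hZr : ∀ i, Rig I E ζ (Z i))
    (hχ0 : ∀ w : I, w.1 ∉ C → ∀ p : κ → ℝ, (∀ i, |p i - crd i w| < 2 * m) → χ p = 0) :
    CutF I E ζ C (cutg χ crd m Z) where
  lip := fun w => LL.mul (ll_gl hm hZ) (ll_cut hχ hZ w)
  mem := fun w x => ⟨mul_nonneg (gl_mem x).1 (h01 _).1,
    mul_le_one₀ (gl_mem x).2 (h01 _).1 (h01 _).2⟩
  rig := by
    choose r hr h using hZr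
    obtain ⟨r3, hr3, h3⟩ : ∃ r3 > 0, ∀ i, r3 ≤ r i := by
      rcases isEmpty_or_nonempty κ with hκ | hκ
      · exact ⟨1, one_pos, fun i => (IsEmpty.false i).elim⟩
      · exact ⟨Finset.univ.inf' Finset.univ_nonempty r,
          (Finset.lt_inf'_iff _).mpr fun i _ => hr i,
          fun i => Finset.inf'_le _ (Finset.mem_univ i)⟩
    refine ⟨r3, hr3, fun x hx a b hab hq => ?_⟩
    have e3 : ∀ i, Z i x a = Z i x b := fun i => h i x hx a b hab (by have := h3 i; linarith)
    simp only [cutg, cut, e3]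
  core := by
    intro x _ w hw
    rcases (gl_mem (crd := crd) (m := m) (Z := Z) x).1.eq_or_lt with h | h
    · simp [cutg, ← h]
    · rw [cutg, cut, hχ0 w hw _ fun i => dev_lt_of_gl_pos hm h i w, mul_zero]

/-- The gradient of the cut family. -/
theorem gs_cutg_le (hm : 0 < m) (hχ : LipschitzWith L χ) (h01 : ∀ p, χ p ∈ Icc (0 : ℝ) 1)
    {x : I → ℝ} (dZ : ∀ i, DifferentiableAt ℝ (Z i) x) (dg : DifferentiableAt ℝ (gl crd m Z) x)
    (w : I) (dc : DifferentiableAt ℝ (cut χ Z w) x) :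
    gs Finset.univ (dir I) (cutg χ crd m Z w) x ≤
      if 0 < gl crd m Z x then 2 * ((L : ℝ) ^ 2 * gR Z w x +
        (if gl crd m Z x < 1 then (m ^ 2)⁻¹ * ∑ v, gR Z v x else 0)) else 0 := by
  have hg := gl_mem (crd := crd) (m := m) (Z := Z) x
  have hce : ∀ y, cutg χ crd m Z w y ∈ Icc (0 : ℝ) 1 := fun y =>
    ⟨mul_nonneg (gl_mem y).1 (h01 _).1, mul_le_one₀ (gl_mem y).2 (h01 _).1 (h01 _).2⟩
  split_ifs with h0 h1
  · have a1 := gs_mul_le (D := Finset.univ) (e := dir I) dg dc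
      (by rw [abs_of_nonneg hg.1]; exact hg.2)
      (by rw [abs_of_nonneg (a := cut χ Z w x) (h01 _).1]; exact (h01 _).2)
    have a2 := gs_gl_le hm dZ dg
    have a3 := gs_cut_le (D := Finset.univ) (e := dir I) hχ
      (fun i => differentiableAt_pi.mp (dZ i) w) dc
    rw [← gR_eq dZ] at a3
    change gs Finset.univ (dir I) (fun y => gl crd m Z y * cut χ Z w y) x ≤ _
    change gs Finset.univ (dir I) (cut χ Z w) x ≤ _ at a3
    linarith
  · have h2 : gl crd m Z x = 1 := le_antisymm hg.2 (not_lt.mp h1)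
    have a1 := gs_mul_le (D := Finset.univ) (e := dir I) dg dc
      (by rw [abs_of_nonneg hg.1]; exact hg.2)
      (by rw [abs_of_nonneg (a := cut χ Z w x) (h01 _).1]; exact (h01 _).2)
    have a2 := gs_eq_zero_of_extr (D := Finset.univ) (e := dir I) (f := gl crd m Z)
      (fun y => gl_mem y) (Or.inr h2)
    have a3 := gs_cut_le (D := Finset.univ) (e := dir I) hχ
      (fun i => differentiableAt_pi.mp (dZ i) w) dc
    rw [← gR_eq dZ] at a3
    change gs Finset.univ (dir I) (fun y => gl crd m Z y * cut χ Z w y) x ≤ _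
    change gs Finset.univ (dir I) (cut χ Z w) x ≤ _ at a3
    linarith
  · have h2 : gl crd m Z x = 0 := le_antisymm (not_lt.mp h0) hg.1
    have h3 : cutg χ crd m Z w x = 0 := by rw [cutg, h2, zero_mul]
    exact (gs_eq_zero_of_extr hce (Or.inl h3)).le

end Cutoff

end Crest.Agent.R144.StB348
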