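import Crest.Agent.R144.StB5_348

/-!
R144 (S0197), helper348.  STEP B for the class `V₀`, final inequalities.

`X = L + Υ`, `L = ∑ ξ_i Z_i`, `Υ = cmpU (cutg χ crd m Z) T ξ ctr Z u`.

* `ae_en_cmpG_le`: pointwise a.e.;
* `int_en_cmpG_le`: integrated form for a good law;
* `int_en_cmpG_split`: the same with `gR ≤ D` and the splitting at level `M`.
-/

set_option autoImplicit false
set_option linter.unusedSectionVars false

open MeasureTheory Set Filter Topology
open scoped ENNReal NNReal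

noncomputable section

namespace Crest.Agent.R144.StB348

open Crest.Agent.R144.Ham560
open Crest.Agent.R144.BQ565
open Crest.Agent.R144.StB565
open Crest.Agent.R144.MW121 (jac jac_apply en en_nonneg measurable_jac measurable_en)

section Fin

variable {U : Type*} [DecidableEq U] {I : Finset U} {E : Finset (U × U)} {ζ : U → ℝ}
  {κ : Type*} [Fintype κ] {crd : κ → U → ℝ} {m : ℝ} {Z : κ → (I → ℝ) → (I → ℝ)}
  {χ : (κ → ℝ) → ℝ} {L : ℝ≥0} {C : Finset U} {T : ℝ → ℝ} {xi ctr : κ → ℝ}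
  {u : (I → ℝ) → (I → ℝ)} {μ : Measure (I → ℝ)}

theorem dev_le_of_gl_eq_one (hm : 0 < m) {x : I → ℝ} (h : ¬ gl crd m Z x < 1) (i : κ) (w : I) :
    |Z i x w - crd i w| ≤ m := by
  have h0 : gl crd m Z x = 1 := le_antisymm (gl_mem x).2 (not_lt.mp h)
  have h1 : ‖dev crd Z x‖ ≤ m := by
    by_contra hn
    push Not at hn
    have h2 : 1 < ‖dev crd Z x‖ / m := (one_lt_div hm).mpr hn
    have h3 : gl crd m Z x < 1 :=
      max_lt zero_lt_one (lt_of_le_of_lt (min_le_right _ _) (by linarith))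
    exact h h3
  have h2 := norm_le_pi_norm (dev crd Z x) (i, w)
  rw [Real.norm_eq_abs] at h2
  exact h2.trans h1

/-- The competitor of the class `V₀`. -/
def ups (χ : (κ → ℝ) → ℝ) (crd : κ → U → ℝ) (m : ℝ) (T : ℝ → ℝ) (xi ctr : κ → ℝ)
    (Z : κ → (I → ℝ) → (I → ℝ)) (u : (I → ℝ) → (I → ℝ)) : (I → ℝ) → (I → ℝ) :=
  cmpU (cutg χ crd m Z) T xi ctr Z u

/-- **STB for `V₀`, pointwise a.e.** -/
theorem ae_en_cmpG_le (hm : 0 < m) (hχ : LipschitzWith L χ) (h01 : ∀ p, χ p ∈ Icc (0 : ℝ) 1)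
    (hZ : ∀ i, LocallyLipschitz (Z i)) (hu : LocallyLipschitz u) (hT : LipschitzWith 1 T)
    {Col : Finset I}
    (hCol : ∀ w : I, w ∉ Col → ∀ p : κ → ℝ, (∀ i, |p i - crd i w| ≤ m) → χ p = 1)
    {B : ℝ} (hB : ∀ x, 0 < gl crd m Z x → ∀ w, |zz T xi ctr Z u w x| ≤ B) :
    ∀ᵐ x : I → ℝ, ∀ th : ℝ, 0 < th →
      en ((∑ i, xi i • Z i) + ups χ crd m T xi ctr Z u) x ≤ (1 + th) * en u x +
        (1 + th⁻¹) * 2 * ((∑ i, xi i ^ 2) * ∑ w ∈ Col, gR Z w x +
          2 * (L : ℝ) ^ 2 * ∑ w, (if 0 < gl crd m Z x then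
            gR Z w x * zz T xi ctr Z u w x ^ 2 else 0) +
          ((∑ i, xi i ^ 2) + 2 * (m ^ 2)⁻¹ * (Fintype.card I * B ^ 2)) *
            ∑ w, (if gl crd m Z x < 1 then gR Z w x else 0)) := by
  have hlip : ∀ w, LocallyLipschitz (cutg χ crd m Z w) := fun w =>
    LL.mul (ll_gl hm hZ) (ll_cut hχ hZ w)
  have hmem : ∀ (w : I) (y : I → ℝ), cutg χ crd m Z w y ∈ Icc (0 : ℝ) 1 := fun w y =>
    ⟨mul_nonneg (gl_mem y).1 (h01 _).1, mul_le_one₀ (gl_mem y).2 (h01 _).1 (h01 _).2⟩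
  filter_upwards [ae_all_iff.mpr fun i => ae_differentiableAt (hZ i), ae_differentiableAt hu,
    ae_all_iff.mpr fun w => ae_real (hlip w),
    ae_all_iff.mpr fun w => ae_real (ll_trunc hT hu w),
    ae_differentiableAt ((ll_lab (xi := xi) hZ).add
      (ll_cmpU (xi := xi) (ctr := ctr) hlip hT hZ hu)),
    ae_real (ll_gl (crd := crd) hm hZ), ae_all_iff.mpr fun w => ae_real (ll_cut hχ hZ w)]
    with x h1 h2 h3 h4 h5 h6 h7 th hth
  have hc : 0 ≤ (1 + th⁻¹) * 2 := by have := inv_pos.mpr hth; positivity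
  have hxi : 0 ≤ ∑ i, xi i ^ 2 := Finset.sum_nonneg fun _ _ => sq_nonneg _
  have key := en_cmpU_le (et := cutg χ crd m Z) (xi := xi) (ctr := ctr) (fun w => hmem w x) hT
    h1 h2 h3 h4 h5 hth
  refine key.trans (add_le_add le_rfl (mul_le_mul_of_nonneg_left ?_ hc))
  -- the collar
  have k1 : ∑ w with cutg χ crd m Z w x ≠ 1, gR Z w x ≤
      ∑ w ∈ Col, gR Z w x + ∑ w, (if gl crd m Z x < 1 then gR Z w x else 0) := by
    by_cases hg : gl crd m Z x < 1
    · simp only [hg, if_true]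
      have a1 : ∑ w with cutg χ crd m Z w x ≠ 1, gR Z w x ≤ ∑ w, gR Z w x :=
        Finset.sum_le_sum_of_subset_of_nonneg (Finset.filter_subset _ _)
          fun w _ _ => gR_nonneg Z w x
      have a2 : 0 ≤ ∑ w ∈ Col, gR Z w x := Finset.sum_nonneg fun w _ => gR_nonneg Z w x
      linarith
    · simp only [hg, if_false, Finset.sum_const_zero, add_zero]
      refine Finset.sum_le_sum_of_subset_of_nonneg ?_ fun w _ _ => gR_nonneg Z w x
      intro w hw
      by_contra hn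
      refine (Finset.mem_filter.mp hw).2 ?_
      have g1 : gl crd m Z x = 1 := le_antisymm (gl_mem x).2 (not_lt.mp hg)
      rw [cutg, g1, one_mul, cut]
      exact hCol w hn _ fun i => dev_le_of_gl_eq_one hm hg i w
  -- the gradient terms
  have k2 : ∀ w : I, gs Finset.univ (dir I) (cutg χ crd m Z w) x * zz T xi ctr Z u w x ^ 2 ≤
      2 * (L : ℝ) ^ 2 * (if 0 < gl crd m Z x then gR Z w x * zz T xi ctr Z u w x ^ 2 else 0) +
      2 * (m ^ 2)⁻¹ * B ^ 2 * ∑ v, (if gl crd m Z x < 1 then gR Z v x else 0) := by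
    intro w
    have a1 := gs_cutg_le (L := L) hm hχ h01 h1 h6 w (h7 w)
    have hsum0 : 0 ≤ ∑ v, (if gl crd m Z x < 1 then gR Z v x else 0) := by
      refine Finset.sum_nonneg fun v _ => ?_
      split_ifs
      · exact gR_nonneg Z v x
      · exact le_rfl
    by_cases hg0 : 0 < gl crd m Z x
    · rw [if_pos hg0] at a1 ⊢
      have hz := hB x hg0 w
      have hz2 : zz T xi ctr Z u w x ^ 2 ≤ B ^ 2 := by
        rw [← sq_abs]; exact pow_le_pow_left₀ (abs_nonneg _) hz 2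
      have a2 : (if gl crd m Z x < 1 then (m ^ 2)⁻¹ * ∑ v, gR Z v x else 0) =
          (m ^ 2)⁻¹ * ∑ v, (if gl crd m Z x < 1 then gR Z v x else 0) := by
        split_ifs <;> simp
      rw [a2] at a1
      have a3 := mul_le_mul_of_nonneg_right a1 (sq_nonneg (zz T xi ctr Z u w x))
      have hm2 : 0 ≤ (m ^ 2)⁻¹ := by positivity
      have a4 : (m ^ 2)⁻¹ * (∑ v, (if gl crd m Z x < 1 then gR Z v x else 0)) *
          zz T xi ctr Z u w x ^ 2 ≤
          (m ^ 2)⁻¹ * (∑ v, (if gl crd m Z x < 1 then gR Z v x else 0)) * B ^ 2 :=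
        mul_le_mul_of_nonneg_left hz2 (mul_nonneg hm2 hsum0)
      nlinarith
    · rw [if_neg hg0] at a1 ⊢
      have a2 : gs Finset.univ (dir I) (cutg χ crd m Z w) x = 0 :=
        le_antisymm a1 (gs_nonneg _ _)
      rw [a2, zero_mul, mul_zero, zero_add]
      positivity
  have k3 := Finset.sum_le_sum fun w (_ : w ∈ (Finset.univ : Finset I)) => k2 w
  rw [Finset.sum_add_distrib, ← Finset.mul_sum, Finset.sum_const, Finset.card_univ,
    nsmul_eq_mul] at k3
  have k4 := mul_le_mul_of_nonneg_left k1 hxi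
  set S1 := ∑ w, (if gl crd m Z x < 1 then gR Z w x else 0)
  set S2 := ∑ w, (if 0 < gl crd m Z x then gR Z w x * zz T xi ctr Z u w x ^ 2 else 0)
  calc _ ≤ (∑ i, xi i ^ 2) * (∑ w ∈ Col, gR Z w x + S1) +
        (2 * (L : ℝ) ^ 2 * S2 + Fintype.card I * (2 * (m ^ 2)⁻¹ * B ^ 2 * S1)) :=
        add_le_add k4 k3
    _ = _ := by ring

theorem measurableSet_gl_lt (hm : 0 < m) (hZ : ∀ i, LocallyLipschitz (Z i)) :
    MeasurableSet {x | gl crd m Z x < 1} :=
  measurableSet_lt (ll_gl hm hZ).continuous.measurable measurable_const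

theorem measurableSet_gl_pos (hm : 0 < m) (hZ : ∀ i, LocallyLipschitz (Z i)) :
    MeasurableSet {x | 0 < gl crd m Z x} :=
  measurableSet_lt measurable_const (ll_gl hm hZ).continuous.measurable

theorem integrable_ite {f : (I → ℝ) → ℝ} (hf : Integrable f μ) {s : Set (I → ℝ)}
    [DecidablePred (· ∈ s)] (hs : MeasurableSet s) :
    Integrable (fun x => if x ∈ s then f x else 0) μ := by
  have := hf.indicator hs
  refine this.congr (Eventually.of_forall fun x => ?_)
  simp only [indicator_apply]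

/-- **STB for `V₀`, integrated form with splitting.** `D w ≥ gR Z w` a.e., level `M`. -/
theorem int_en_cmpG_split (hμ : GoodLaw μ) (hm : 0 < m) (hχ : LipschitzWith L χ)
    (h01 : ∀ p, χ p ∈ Icc (0 : ℝ) 1)
    (hZ : ∀ i, LocallyLipschitz (Z i)) (hu : LocallyLipschitz u) (hT : LipschitzWith 1 T)
    {Col : Finset I}
    (hCol : ∀ w : I, w ∉ Col → ∀ p : κ → ℝ, (∀ i, |p i - crd i w| ≤ m) → χ p = 1)
    {B : ℝ} (hB : ∀ x, 0 < gl crd m Z x → ∀ w, |zz T xi ctr Z u w x| ≤ B)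
    {D : I → (I → ℝ) → ℝ} (hDi : ∀ w, Integrable (D w) μ)
    (hD : ∀ᵐ x ∂μ, ∀ w, gR Z w x ≤ D w x) {M : ℝ} (hM : 0 ≤ M) {th : ℝ} (hth : 0 < th) :
    ∫ x, en ((∑ i, xi i • Z i) + ups χ crd m T xi ctr Z u) x ∂μ ≤
      (1 + th) * ∫ x, en u x ∂μ +
        (1 + th⁻¹) * 2 * ((∑ i, xi i ^ 2) * ∑ w ∈ Col, ∫ x, D w x ∂μ +
          2 * (L : ℝ) ^ 2 * ∑ w, ∫ x, (M * B * (if 0 < gl crd m Z x then
              |zz T xi ctr Z u w x| else 0) + B ^ 2 * (if M < D w x then D w x else 0)) ∂μ +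
          ((∑ i, xi i ^ 2) + 2 * (m ^ 2)⁻¹ * (Fintype.card I * B ^ 2)) *
            ∑ w, ∫ x, (if gl crd m Z x < 1 then D w x else 0) ∂μ) := by
  have hfin := hμ.fin
  have hc : 0 ≤ (1 + th⁻¹) * 2 := by have := inv_pos.mpr hth; positivity
  have hxi : 0 ≤ ∑ i, xi i ^ 2 := Finset.sum_nonneg fun _ _ => sq_nonneg _
  have hlip : ∀ w, LocallyLipschitz (cutg χ crd m Z w) := fun w =>
    LL.mul (ll_gl hm hZ) (ll_cut hχ hZ w)
  have hX : LocallyLipschitz ((∑ i, xi i • Z i) + ups χ crd m T xi ctr Z u) :=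
    (ll_lab (xi := xi) hZ).add (ll_cmpU (xi := xi) (ctr := ctr) hlip hT hZ hu)
  have hk : 0 ≤ (∑ i, xi i ^ 2) + 2 * (m ^ 2)⁻¹ * (Fintype.card I * B ^ 2) := by positivity
  have key : ∀ᵐ x ∂μ, en ((∑ i, xi i • Z i) + ups χ crd m T xi ctr Z u) x ≤
      (1 + th) * en u x +
        (1 + th⁻¹) * 2 * ((∑ i, xi i ^ 2) * ∑ w ∈ Col, D w x +
          2 * (L : ℝ) ^ 2 * ∑ w, (M * B * (if 0 < gl crd m Z x then
              |zz T xi ctr Z u w x| else 0) + B ^ 2 * (if M < D w x then D w x else 0)) +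
          ((∑ i, xi i ^ 2) + 2 * (m ^ 2)⁻¹ * (Fintype.card I * B ^ 2)) *
            ∑ w, (if gl crd m Z x < 1 then D w x else 0)) := by
    filter_upwards [hμ.ac.ae_le (ae_en_cmpG_le (xi := xi) (ctr := ctr) hm hχ h01 hZ hu hT hCol hB),
      hD] with x hx hx2
    refine (hx th hth).trans (add_le_add le_rfl (mul_le_mul_of_nonneg_left
      (add_le_add (add_le_add (mul_le_mul_of_nonneg_left
        (Finset.sum_le_sum fun w _ => hx2 w) hxi) (mul_le_mul_of_nonneg_left
        (Finset.sum_le_sum fun w _ => ?_) (by positivity))) (mul_le_mul_of_nonneg_left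
        (Finset.sum_le_sum fun w _ => ?_) hk)) hc))
    · by_cases hg : 0 < gl crd m Z x
      · simp only [hg, if_true]
        exact mul_sq_le_split (gR_nonneg Z w x) (hx2 w) hM (hB x hg w)
      · simp only [hg, if_false, mul_zero, zero_add]
        have : 0 ≤ D w x := (gR_nonneg Z w x).trans (hx2 w)
        split_ifs
        · positivity
        · simp
    · split_ifs
      · exact hx2 w
      · exact le_rfl
  have i1 := hμ.integrable_en hu
  have i2 : Integrable (fun x => ∑ w ∈ Col, D w x) μ := integrable_finsetSum _ fun w _ => hDi w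
  have i3 : ∀ w : I, Integrable (fun x => M * B * (if 0 < gl crd m Z x then
      |zz T xi ctr Z u w x| else 0) + B ^ 2 * (if M < D w x then D w x else 0)) μ := by
    intro w
    have hzc := (continuous_zz (xi := xi) (ctr := ctr) hT hZ hu w)
    refine Integrable.add (Integrable.const_mul ?_ _) (Integrable.const_mul ?_ _)
    · have hs := measurableSet_gl_pos (crd := crd) hm hZ
      refine Integrable.of_bound (C := |B|)
        (Measurable.ite hs hzc.abs.measurable measurable_const).aestronglyMeasurable ?_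
      refine Eventually.of_forall fun x => ?_
      split_ifs with h
      · rw [Real.norm_eq_abs, abs_abs]
        exact (hB x h w).trans (le_abs_self B)
      · simp
    · have hae := (hDi w).aestronglyMeasurable.aemeasurable
      have hs : NullMeasurableSet {x | M < D w x} μ := nullMeasurableSet_lt aemeasurable_const hae
      refine ((hDi w).indicator₀ hs).congr (Eventually.of_forall fun x => ?_)
      simp [indicator_apply]
  have i4 : ∀ w : I, Integrable (fun x => if gl crd m Z x < 1 then D w x else 0) μ := by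
    intro w
    have hs := measurableSet_gl_lt (crd := crd) hm hZ
    refine ((hDi w).indicator hs).congr (Eventually.of_forall fun x => ?_)
    simp [indicator_apply]
  set K1 := (∑ i, xi i ^ 2)
  set K3 := (K1 + 2 * (m ^ 2)⁻¹ * (Fintype.card I * B ^ 2))
  have j2 : Integrable (fun x => K1 * ∑ w ∈ Col, D w x) μ := i2.const_mul _
  have j3 : Integrable (fun x => 2 * (L : ℝ) ^ 2 * ∑ w, (M * B * (if 0 < gl crd m Z x then
      |zz T xi ctr Z u w x| else 0) + B ^ 2 * (if M < D w x then D w x else 0))) μ :=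
    (integrable_finsetSum _ fun w _ => i3 w).const_mul _
  have j4 : Integrable (fun x => K3 * ∑ w, (if gl crd m Z x < 1 then D w x else 0)) μ :=
    (integrable_finsetSum _ fun w _ => i4 w).const_mul _
  have j5 : Integrable (fun x => K1 * ∑ w ∈ Col, D w x +
      2 * (L : ℝ) ^ 2 * ∑ w, (M * B * (if 0 < gl crd m Z x then
        |zz T xi ctr Z u w x| else 0) + B ^ 2 * (if M < D w x then D w x else 0))) μ := j2.add j3
  have j6 : Integrable (fun x => K1 * ∑ w ∈ Col, D w x +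
      2 * (L : ℝ) ^ 2 * ∑ w, (M * B * (if 0 < gl crd m Z x then
        |zz T xi ctr Z u w x| else 0) + B ^ 2 * (if M < D w x then D w x else 0)) +
      K3 * ∑ w, (if gl crd m Z x < 1 then D w x else 0)) μ := j5.add j4
  refine (integral_mono_ae (hμ.integrable_en hX) ((i1.const_mul (1 + th)).add
    (j6.const_mul ((1 + th⁻¹) * 2))) key).trans (le_of_eq ?_)
  have e0 : ∫ x, ((1 + th) * en u x + (1 + th⁻¹) * 2 * (K1 * ∑ w ∈ Col, D w x +
      2 * (L : ℝ) ^ 2 * ∑ w, (M * B * (if 0 < gl crd m Z x then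
        |zz T xi ctr Z u w x| else 0) + B ^ 2 * (if M < D w x then D w x else 0)) +
      K3 * ∑ w, (if gl crd m Z x < 1 then D w x else 0))) ∂μ =
      (∫ x, (1 + th) * en u x ∂μ) + ∫ x, (1 + th⁻¹) * 2 * (K1 * ∑ w ∈ Col, D w x +
      2 * (L : ℝ) ^ 2 * ∑ w, (M * B * (if 0 < gl crd m Z x then
        |zz T xi ctr Z u w x| else 0) + B ^ 2 * (if M < D w x then D w x else 0)) +
      K3 * ∑ w, (if gl crd m Z x < 1 then D w x else 0)) ∂μ :=
    integral_add (i1.const_mul (1 + th)) (j6.const_mul ((1 + th⁻¹) * 2))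
  have e1 : ∫ x, (K1 * ∑ w ∈ Col, D w x +
      2 * (L : ℝ) ^ 2 * ∑ w, (M * B * (if 0 < gl crd m Z x then
        |zz T xi ctr Z u w x| else 0) + B ^ 2 * (if M < D w x then D w x else 0)) +
      K3 * ∑ w, (if gl crd m Z x < 1 then D w x else 0)) ∂μ =
      (∫ x, (K1 * ∑ w ∈ Col, D w x +
      2 * (L : ℝ) ^ 2 * ∑ w, (M * B * (if 0 < gl crd m Z x then
        |zz T xi ctr Z u w x| else 0) + B ^ 2 * (if M < D w x then D w x else 0))) ∂μ) +
      ∫ x, K3 * ∑ w, (if gl crd m Z x < 1 then D w x else 0) ∂μ := integral_add j5 j4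
  have e2 : ∫ x, (K1 * ∑ w ∈ Col, D w x +
      2 * (L : ℝ) ^ 2 * ∑ w, (M * B * (if 0 < gl crd m Z x then
        |zz T xi ctr Z u w x| else 0) + B ^ 2 * (if M < D w x then D w x else 0))) ∂μ =
      (∫ x, K1 * ∑ w ∈ Col, D w x ∂μ) +
      ∫ x, 2 * (L : ℝ) ^ 2 * ∑ w, (M * B * (if 0 < gl crd m Z x then
        |zz T xi ctr Z u w x| else 0) + B ^ 2 * (if M < D w x then D w x else 0)) ∂μ :=
    integral_add j2 j3
  refine e0.trans ?_
  rw [integral_const_mul, integral_const_mul, e1, e2, integral_const_mul, integral_const_mul,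
    integral_const_mul, integral_finsetSum _ fun w _ => hDi w,
    integral_finsetSum _ fun w _ => i3 w, integral_finsetSum _ fun w _ => i4 w]

end Fin

section Inst

variable {U : Type*} [DecidableEq U] {I : Finset U} {crd : Fin 2 → U → ℝ} {m : ℝ}
  {Z : Fin 2 → (I → ℝ) → (I → ℝ)} {xi ctr : Fin 2 → ℝ} {u : (I → ℝ) → (I → ℝ)}

/-- The uniform bound of `zz` on `{g > 0}`. -/
theorem zz_le_gl (hm : 0 < m) {Lam r : ℝ} (hL : 0 ≤ Lam) (hr : 0 ≤ r)
    (hxi : ∀ i, |xi i| ≤ 2 * Lam) (hy : ∀ i (w : I), |crd i w - ctr i| ≤ r / 2) (x : I → ℝ)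
    (hg : 0 < gl crd m Z x) (w : I) :
    |zz (tr (8 * Lam * r)) xi ctr Z u w x| ≤ 10 * Lam * r + 8 * Lam * m := by
  refine (zz_le_unif (crd := crd) (C0 := 2 * m) hL hr hxi (fun i => hy i w)
    fun i => (dev_lt_of_gl_pos hm hg i w).le).trans (le_of_eq (by ring))

/-- The FA1 line. -/
theorem zz_le_dev {Lam r : ℝ} (hL : 0 ≤ Lam) (hr : 0 ≤ r) (G : Fin 2 → ℝ)
    (hxi : ∀ i, |xi i| ≤ 2 * Lam) (hy : ∀ i (w : I), |crd i w - ctr i| ≤ r / 2) (x : I → ℝ)
    (w : I) :
    |zz (tr (8 * Lam * r)) xi ctr Z u w x| ≤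
      |u x w - mn u x - ∑ i, G i * (crd i w - ctr i)| +
        5 * r * ∑ i, |tr (4 * Lam) (G i) - xi i| + 4 * Lam * ∑ i, |Z i x w - crd i w| := by
  refine zz_le hL hr hxi (fun i => hy i w) fun i => ?_
  exact Finset.single_le_sum (f := fun i => |Z i x w - crd i w|) (fun _ _ => abs_nonneg _)
    (Finset.mem_univ i)

/-- Off the core the polygon cut-off vanishes. -/
theorem chi_eq_zero_near {κ J : Type*} [Fintype κ] [Fintype J] [Nonempty J] {a : J → κ → ℝ}
    {lo : J → ℝ} {C s d : ℝ} (hs : 0 < s) (ha : ∀ j, ∑ i, |a j i| ≤ C) (hd : 0 ≤ d)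
    {y p : κ → ℝ} (hp : ∀ i, |p i - y i| < d) (h : inn a lo y + C * d ≤ 0) :
    chi a lo s p = 0 := by
  refine chi_eq_zero hs ?_
  have := inn_sub_le (lo := lo) (p := y) (q := p) ha hd fun i => by
    rw [abs_sub_comm]; exact (hp i).le
  linarith

end Inst

end Crest.Agent.R144.StB348
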