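import Mathlib
import Crest.Agent.R144.MW1_121

/-!
# R144 (S0197), block STEIN (helper540), part 1: one polytope

`K ⊆ V → ℝ` bounded measurable with positive volume, `μ = unif K` its uniform probability law,
`X h = l h + b` an affine observable, `Y` a tangent field (`MW121.Tan`) with
`∫ tr (jac Y * jac Y) dμ ≤ q + ε`, `∫ |l (Y h) - q| dμ ≤ ε` and `∫ (X - m)^2 dμ ≤ q + ε`
(`m` any number). Then for all real `t`
`|∫ cos (t (X - m)) dμ - exp (-q t^2/2)| ≤ |t| (2 √ε + |t| ε)` and
`|∫ sin (t (X - m)) dμ| ≤ |t| (2 √ε + |t| ε)`.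

The proof is Stein's method: by Reilly's inequality and integration by parts
`∫ (tr jac Y + X - m)^2 dμ ≤ 4 ε`.
-/

set_option autoImplicit false

namespace Crest.Agent.R144.Stein540

open MeasureTheory Crest.Agent.R144.MW121 Filter
open scoped NNReal ENNReal Topology

section general

variable {Ω : Type*} [MeasurableSpace Ω] {μ : Measure Ω} [IsProbabilityMeasure μ]

lemma integral_abs_le_sqrt {Z : Ω → ℝ} {v : ℝ} (hZ : Integrable (fun x => Z x ^ 2) μ)
    (hZ1 : Integrable Z μ) (hv : ∫ x, Z x ^ 2 ∂μ ≤ v) : ∫ x, |Z x| ∂μ ≤ Real.sqrt v := by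
  set M := ∫ x, |Z x| ∂μ with hM
  have hM0 : 0 ≤ M := integral_nonneg fun x => abs_nonneg _
  have h0 : 0 ≤ ∫ x, (|Z x| - M) ^ 2 ∂μ := integral_nonneg fun x => sq_nonneg _
  have e : ∀ x, (|Z x| - M) ^ 2 = Z x ^ 2 - (2 * M) * |Z x| + M ^ 2 := fun x => by
    have : |Z x| ^ 2 = Z x ^ 2 := sq_abs _
    nlinarith
  simp only [e] at h0
  have hi1 : Integrable (fun x => 2 * M * |Z x|) μ := hZ1.abs.const_mul _
  have hi2 : Integrable (fun x => Z x ^ 2 - 2 * M * |Z x|) μ := hZ.sub hi1
  have hc : ∫ _x : Ω, M ^ 2 ∂μ = M ^ 2 := by simp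
  rw [integral_add hi2 (integrable_const _), integral_sub hZ hi1, integral_const_mul, ← hM,
    hc] at h0
  apply Real.le_sqrt_of_sq_le
  nlinarith

lemma hasDerivAt_cos {W : Ω → ℝ} {M : ℝ} (hW : AEStronglyMeasurable W μ)
    (hM : ∀ᵐ x ∂μ, |W x| ≤ M) (t : ℝ) :
    HasDerivAt (fun t : ℝ => ∫ x, Real.cos (t * W x) ∂μ)
      (∫ x, -(Real.sin (t * W x) * W x) ∂μ) t := by
  have hm : ∀ s : ℝ, AEStronglyMeasurable (fun x => Real.cos (s * W x)) μ := fun s =>
    Real.continuous_cos.comp_aestronglyMeasurable (hW.const_mul s)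
  have hm' : ∀ s : ℝ, AEStronglyMeasurable (fun x => Real.sin (s * W x)) μ := fun s =>
    Real.continuous_sin.comp_aestronglyMeasurable (hW.const_mul s)
  refine (hasDerivAt_integral_of_dominated_loc_of_deriv_le (μ := μ) (bound := fun _ => M)
    (s := Metric.ball t 1) (F := fun t x => Real.cos (t * W x))
    (F' := fun t x => -(Real.sin (t * W x) * W x)) (Metric.ball_mem_nhds t one_pos)
    (Eventually.of_forall hm) ?_ ?_ ?_ (integrable_const _) ?_).2
  · exact Integrable.of_bound (hm t) 1 (Eventually.of_forall fun x => by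
      rw [Real.norm_eq_abs]; exact Real.abs_cos_le_one _)
  · exact ((hm' t).mul hW).neg
  · filter_upwards [hM] with x hx s _
    rw [norm_neg, norm_mul, Real.norm_eq_abs, Real.norm_eq_abs]
    calc _ ≤ 1 * M := mul_le_mul (Real.abs_sin_le_one _) hx (abs_nonneg _) zero_le_one
      _ = M := one_mul _
  · filter_upwards with x s _
    have h1 : HasDerivAt (fun s : ℝ => s * W x) (W x) s := by
      simpa using (hasDerivAt_id s).mul_const (W x)
    have := h1.cos
    simpa using this

lemma hasDerivAt_sin {W : Ω → ℝ} {M : ℝ} (hW : AEStronglyMeasurable W μ)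
    (hM : ∀ᵐ x ∂μ, |W x| ≤ M) (t : ℝ) :
    HasDerivAt (fun t : ℝ => ∫ x, Real.sin (t * W x) ∂μ)
      (∫ x, Real.cos (t * W x) * W x ∂μ) t := by
  have hm : ∀ s : ℝ, AEStronglyMeasurable (fun x => Real.cos (s * W x)) μ := fun s =>
    Real.continuous_cos.comp_aestronglyMeasurable (hW.const_mul s)
  have hm' : ∀ s : ℝ, AEStronglyMeasurable (fun x => Real.sin (s * W x)) μ := fun s =>
    Real.continuous_sin.comp_aestronglyMeasurable (hW.const_mul s)
  refine (hasDerivAt_integral_of_dominated_loc_of_deriv_le (μ := μ) (bound := fun _ => M)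
    (s := Metric.ball t 1) (F := fun t x => Real.sin (t * W x))
    (F' := fun t x => Real.cos (t * W x) * W x) (Metric.ball_mem_nhds t one_pos)
    (Eventually.of_forall hm') ?_ ?_ ?_ (integrable_const _) ?_).2
  · exact Integrable.of_bound (hm' t) 1 (Eventually.of_forall fun x => by
      rw [Real.norm_eq_abs]; exact Real.abs_sin_le_one _)
  · exact (hm t).mul hW
  · filter_upwards [hM] with x hx s _
    rw [norm_mul, Real.norm_eq_abs, Real.norm_eq_abs]
    calc _ ≤ 1 * M := mul_le_mul (Real.abs_cos_le_one _) hx (abs_nonneg _) zero_le_one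
      _ = M := one_mul _
  · filter_upwards with x s _
    have h1 : HasDerivAt (fun s : ℝ => s * W x) (W x) s := by
      simpa using (hasDerivAt_id s).mul_const (W x)
    have := h1.sin
    simpa using this

/-- The Gaussian ODE with a bounded error. -/
lemma gauss_ode {F r : ℝ → ℝ} {q ρ t : ℝ} (hq : 0 ≤ q)
    (hF : ∀ s, HasDerivAt F (-(s * q) * F s + r s) s) (hr : ∀ s, |s| ≤ |t| → |r s| ≤ ρ) :
    |F t - F 0 * Real.exp (-(q * t ^ 2 / 2))| ≤ |t| * ρ := by
  set G : ℝ → ℝ := fun s => F s * Real.exp (q * s ^ 2 / 2) with hG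
  have hG' : ∀ s, HasDerivAt G (r s * Real.exp (q * s ^ 2 / 2)) s := by
    intro s
    have h1 : HasDerivAt (fun s : ℝ => q * s ^ 2 / 2) (q * s) s := by
      have h2 := ((hasDerivAt_pow 2 s).const_mul q).div_const 2
      refine h2.congr_deriv ?_
      simp; ring
    have h3 := (hF s).mul h1.exp
    refine h3.congr_deriv ?_
    ring
  have hmono : ∀ s, |s| ≤ |t| → Real.exp (q * s ^ 2 / 2) ≤ Real.exp (q * t ^ 2 / 2) := by
    intro s hs
    have : s ^ 2 ≤ t ^ 2 := sq_le_sq.mpr hs
    apply Real.exp_le_exp.mpr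
    nlinarith
  have hseg : ∀ s ∈ segment ℝ (0 : ℝ) t, |s| ≤ |t| := by
    intro s hs
    rw [segment_eq_uIcc, Set.mem_uIcc] at hs
    rcases hs with ⟨h1, h2⟩ | ⟨h1, h2⟩
    · rw [abs_of_nonneg h1, abs_of_nonneg (h1.trans h2)]; exact h2
    · rw [abs_of_nonpos h2, abs_of_nonpos (h1.trans h2)]; linarith
  have hkey := (convex_segment (0 : ℝ) t).norm_image_sub_le_of_norm_hasDerivWithin_le
    (f := G) (f' := fun s => r s * Real.exp (q * s ^ 2 / 2))
    (C := ρ * Real.exp (q * t ^ 2 / 2))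
    (fun s _ => (hG' s).hasDerivWithinAt) (fun s hs => by
      rw [norm_mul, Real.norm_eq_abs, Real.norm_eq_abs, abs_of_pos (Real.exp_pos _)]
      exact mul_le_mul (hr s (hseg s hs)) (hmono s (hseg s hs)) (Real.exp_pos _).le
        ((abs_nonneg _).trans (hr s (hseg s hs))))
    (left_mem_segment ℝ _ _) (right_mem_segment ℝ _ _)
  rw [Real.norm_eq_abs, Real.norm_eq_abs, sub_zero] at hkey
  have hexp : Real.exp (q * t ^ 2 / 2) * Real.exp (-(q * t ^ 2 / 2)) = 1 := by
    rw [← Real.exp_add]; simp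
  have e : F t - F 0 * Real.exp (-(q * t ^ 2 / 2)) =
      (G t - G 0) * Real.exp (-(q * t ^ 2 / 2)) := by
    simp only [hG]
    rw [sub_mul, mul_assoc, hexp]
    simp
  rw [e, abs_mul, abs_of_pos (Real.exp_pos _)]
  calc |G t - G 0| * Real.exp (-(q * t ^ 2 / 2))
      ≤ (ρ * Real.exp (q * t ^ 2 / 2) * |t|) * Real.exp (-(q * t ^ 2 / 2)) :=
        mul_le_mul_of_nonneg_right hkey (Real.exp_pos _).le
    _ = |t| * ρ * (Real.exp (q * t ^ 2 / 2) * Real.exp (-(q * t ^ 2 / 2))) := by ring
    _ = |t| * ρ := by rw [hexp, mul_one]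

end general

variable {V : Type*} [Fintype V] [DecidableEq V]

/-- the uniform probability law on `K` -/
noncomputable def unif (K : Set (V → ℝ)) : Measure (V → ℝ) :=
  (volume K)⁻¹ • volume.restrict K

section basic

variable {K : Set (V → ℝ)}

omit [DecidableEq V] in
lemma isProb_unif (h0 : volume K ≠ 0) (h1 : volume K ≠ ∞) : IsProbabilityMeasure (unif K) := by
  refine ⟨?_⟩
  rw [unif, Measure.smul_apply, Measure.restrict_apply_univ, smul_eq_mul]
  exact ENNReal.inv_mul_cancel h0 h1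

omit [DecidableEq V] in
lemma integral_unif (G : (V → ℝ) → ℝ) :
    ∫ x, G x ∂(unif K) = ((volume K).toReal)⁻¹ * ∫ x in K, G x := by
  rw [unif, integral_smul_measure, ENNReal.toReal_inv, smul_eq_mul]

omit [DecidableEq V] in
lemma ae_mem_unif (hK : MeasurableSet K) : ∀ᵐ x ∂(unif K), x ∈ K :=
  Measure.ae_smul_measure (ae_restrict_mem hK) _

omit [DecidableEq V] in
lemma integrable_unif {G : (V → ℝ) → ℝ} (h0 : volume K ≠ 0) (hG : IntegrableOn G K) :
    Integrable G (unif K) := by
  unfold unif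
  exact Integrable.smul_measure hG (ENNReal.inv_ne_top.mpr h0)

end basic

section step

variable {K : Set (V → ℝ)} {Y : (V → ℝ) → (V → ℝ)} {c : ℝ≥0} {t0 : ℝ}

/-- integration by parts for the uniform probability law -/
lemma ibp_unif (hT : Tan K Y c t0) (hK : MeasurableSet K) (hKb : Bornology.IsBounded K)
    {G : (V → ℝ) → ℝ} {L : ℝ≥0} (hG : LipschitzWith L G) :
    ∫ h, fderiv ℝ G h (Y h) ∂(unif K) = - ∫ h, G h * (jac Y h).trace ∂(unif K) := by
  rw [integral_unif, integral_unif, ibp hT hK hKb hG]; ring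

lemma reilly_unif (hT : Tan K Y c t0) (hK : MeasurableSet K) (hKb : Bornology.IsBounded K) :
    ∫ h, (jac Y h).trace ^ 2 ∂(unif K) ≤ ∫ h, (jac Y h * jac Y h).trace ∂(unif K) := by
  rw [integral_unif, integral_unif]
  exact mul_le_mul_of_nonneg_left (reilly hT hK hKb) (inv_nonneg.mpr ENNReal.toReal_nonneg)

/-- **Stein's method on one polytope.** -/
theorem stein (hT : Tan K Y c t0) (hK : MeasurableSet K) (hKb : Bornology.IsBounded K)
    (h0 : volume K ≠ 0) (l : (V → ℝ) →L[ℝ] ℝ) (b m q ε : ℝ) (hq : 0 ≤ q)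
    (hE : ∫ h, (jac Y h * jac Y h).trace ∂(unif K) ≤ q + ε)
    (hl : ∫ h, |l (Y h) - q| ∂(unif K) ≤ ε)
    (hv : ∫ h, (l h + b - m) ^ 2 ∂(unif K) ≤ q + ε) (t : ℝ) :
    |∫ h, Real.cos (t * (l h + b - m)) ∂(unif K) - Real.exp (-(q * t ^ 2 / 2))|
        ≤ |t| * (2 * Real.sqrt ε + |t| * ε) ∧
    |∫ h, Real.sin (t * (l h + b - m)) ∂(unif K)| ≤ |t| * (2 * Real.sqrt ε + |t| * ε) := by
  have hp : IsProbabilityMeasure (unif K) := isProb_unif h0 (volume_lt_top hKb).ne
  set μ := unif K with hμ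
  set W : (V → ℝ) → ℝ := fun h => l h + b - m with hW
  have hε : 0 ≤ ε := (integral_nonneg fun h => abs_nonneg _).trans hl
  -- regularity of `W`
  have hWL : LipschitzWith ‖l‖₊ W := by
    refine LipschitzWith.of_dist_le_mul fun x y => ?_
    have := l.lipschitz.dist_le_mul x y
    simpa [hW, Real.dist_eq] using this
  obtain ⟨M, hM0, hM⟩ := exists_lip_bound hKb hWL
  have hWm : Measurable W := hWL.continuous.measurable
  have hWb : ∀ᵐ h ∂μ, |W h| ≤ M := by
    filter_upwards [ae_mem_unif hK] with h hh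
    simpa using hM h hh
  obtain ⟨B, hB0, hB⟩ := exists_lip_bound hKb hT.lip
  have hlm : Measurable fun h => l (Y h) := l.continuous.measurable.comp hT.lip.continuous.measurable
  have hlb : ∀ᵐ h ∂μ, |l (Y h)| ≤ ‖l‖ * B := by
    filter_upwards [ae_mem_unif hK] with h hh
    calc |l (Y h)| = ‖l (Y h)‖ := (Real.norm_eq_abs _).symm
      _ ≤ ‖l‖ * ‖Y h‖ := l.le_opNorm _
      _ ≤ ‖l‖ * B := mul_le_mul_of_nonneg_left (hB h hh) (norm_nonneg _)
  have hil : Integrable (fun h => l (Y h)) μ :=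
    Integrable.of_bound hlm.aestronglyMeasurable (‖l‖ * B) (by
      filter_upwards [hlb] with h hh; rwa [Real.norm_eq_abs])
  have htb : ∀ h, |(jac Y h).trace| ≤ Fintype.card V * c := fun h => abs_trace_le hT.lip h
  have hit : Integrable (fun h => (jac Y h).trace) μ :=
    Integrable.of_bound (measurable_trace Y).aestronglyMeasurable (Fintype.card V * c)
      (Eventually.of_forall fun h => by rw [Real.norm_eq_abs]; exact htb h)
  have hiW : Integrable W μ :=
    Integrable.of_bound hWm.aestronglyMeasurable M (by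
      filter_upwards [hWb] with h hh; rwa [Real.norm_eq_abs])
  -- products with bounded measurable functions
  have hprod : ∀ {f g : (V → ℝ) → ℝ}, Integrable f μ → Measurable g → (∃ C, ∀ᵐ h ∂μ, |g h| ≤ C) →
      Integrable (fun h => f h * g h) μ := by
    intro f g hf hg ⟨C, hC⟩
    exact hf.mul_bdd (c := C) hg.aestronglyMeasurable (by
      filter_upwards [hC] with h hh; rwa [Real.norm_eq_abs])
  set Z : (V → ℝ) → ℝ := fun h => (jac Y h).trace + W h with hZ
  have hiZ : Integrable Z μ := hit.add hiW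
  have hiZ2 : Integrable (fun h => Z h ^ 2) μ := by
    have h1 : Integrable (fun h => Z h * Z h) μ :=
      hprod hiZ ((measurable_trace Y).add hWm) ⟨Fintype.card V * c + M, by
        filter_upwards [hWb] with h hh
        exact (abs_add_le _ _).trans (add_le_add (htb h) hh)⟩
    simpa [sq] using h1
  have hiWt : Integrable (fun h => W h * (jac Y h).trace) μ :=
    hprod hiW (measurable_trace Y) ⟨Fintype.card V * c, Eventually.of_forall htb⟩
  have hiW2 : Integrable (fun h => W h ^ 2) μ := by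
    have h1 : Integrable (fun h => W h * W h) μ := hprod hiW hWm ⟨M, hWb⟩
    simpa [sq] using h1
  have hit2 : Integrable (fun h => (jac Y h).trace ^ 2) μ := by
    have h1 : Integrable (fun h => (jac Y h).trace * (jac Y h).trace) μ :=
      hprod hit (measurable_trace Y) ⟨Fintype.card V * c, Eventually.of_forall htb⟩
    simpa [sq] using h1
  -- first moment of `l Y`
  have hlq : q - ε ≤ ∫ h, l (Y h) ∂μ := by
    have h1 : |∫ h, (l (Y h) - q) ∂μ| ≤ ε := (abs_integral_le_integral_abs).trans hl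
    have hc : ∫ _h : V → ℝ, q ∂μ = q := by simp
    rw [integral_sub hil (integrable_const _), hc] at h1
    linarith [(abs_le.1 h1).1]
  have hfd : ∀ h, fderiv ℝ W h = l := fun h => by
    have : HasFDerivAt W l h := by
      have h1 : HasFDerivAt (fun h => l h + (b - m)) l h := l.hasFDerivAt.add_const _
      simpa [hW, add_sub_assoc] using h1
    exact this.fderiv
  have hibpW : ∫ h, l (Y h) ∂μ = - ∫ h, W h * (jac Y h).trace ∂μ := by
    have := ibp_unif hT hK hKb hWL
    simpa only [hfd] using this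
  have hZ4 : ∫ h, Z h ^ 2 ∂μ ≤ 4 * ε := by
    have e : ∀ h, Z h ^ 2 = (jac Y h).trace ^ 2 + 2 * (W h * (jac Y h).trace) + W h ^ 2 :=
      fun h => by simp only [hZ]; ring
    simp only [e]
    have hj1 : Integrable (fun h => 2 * (W h * (jac Y h).trace)) μ := hiWt.const_mul 2
    have hj2 : Integrable (fun h => (jac Y h).trace ^ 2 + 2 * (W h * (jac Y h).trace)) μ :=
      hit2.add hj1
    rw [integral_add hj2 hiW2, integral_add hit2 hj1, integral_const_mul]
    have h1 := reilly_unif hT hK hKb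
    rw [← hμ] at h1
    have h2 : ∫ h, W h ^ 2 ∂μ ≤ q + ε := hv
    linarith
  have hZ1 : ∫ h, |Z h| ∂μ ≤ 2 * Real.sqrt ε := by
    have h1 := integral_abs_le_sqrt hiZ2 hiZ hZ4
    have h2 : Real.sqrt (4 * ε) = 2 * Real.sqrt ε := by
      rw [Real.sqrt_mul (by norm_num), show (4 : ℝ) = 2 ^ 2 by norm_num,
        Real.sqrt_sq (by norm_num)]
    rwa [h2] at h1
  -- the two trigonometric observables
  have hcosL : ∀ s : ℝ, LipschitzWith (‖s‖₊ * ‖l‖₊) (fun h => Real.cos (s * W h)) := by
    intro s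
    refine LipschitzWith.of_dist_le_mul fun x y => ?_
    have h1 : dist (Real.cos (s * W x)) (Real.cos (s * W y)) ≤ dist (s * W x) (s * W y) := by
      have := Real.lipschitzWith_cos.dist_le_mul (s * W x) (s * W y)
      simpa using this
    have h2 : dist (s * W x) (s * W y) = |s| * dist (W x) (W y) := by
      rw [Real.dist_eq, Real.dist_eq, ← mul_sub, abs_mul]
    rw [h2] at h1
    have h3 := mul_le_mul_of_nonneg_left (hWL.dist_le_mul x y) (abs_nonneg s)
    have h4 : ((‖s‖₊ * ‖l‖₊ : ℝ≥0) : ℝ) = |s| * ‖l‖ := by simp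
    rw [h4]
    simp only [coe_nnnorm] at h3
    linarith
  have hsinL : ∀ s : ℝ, LipschitzWith (‖s‖₊ * ‖l‖₊) (fun h => Real.sin (s * W h)) := by
    intro s
    refine LipschitzWith.of_dist_le_mul fun x y => ?_
    have h1 : dist (Real.sin (s * W x)) (Real.sin (s * W y)) ≤ dist (s * W x) (s * W y) := by
      have := Real.lipschitzWith_sin.dist_le_mul (s * W x) (s * W y)
      simpa using this
    have h2 : dist (s * W x) (s * W y) = |s| * dist (W x) (W y) := by
      rw [Real.dist_eq, Real.dist_eq, ← mul_sub, abs_mul]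
    rw [h2] at h1
    have h3 := mul_le_mul_of_nonneg_left (hWL.dist_le_mul x y) (abs_nonneg s)
    have h4 : ((‖s‖₊ * ‖l‖₊ : ℝ≥0) : ℝ) = |s| * ‖l‖ := by simp
    rw [h4]
    simp only [coe_nnnorm] at h3
    linarith
  have hWd : ∀ h, HasFDerivAt W l h := fun h => by
    have h1 : HasFDerivAt (fun h => l h + (b - m)) l h := l.hasFDerivAt.add_const _
    simpa [hW, add_sub_assoc] using h1
  have hfc : ∀ s h, fderiv ℝ (fun h => Real.cos (s * W h)) h (Y h) =
      -(s * (l (Y h) * Real.sin (s * W h))) := by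
    intro s h
    have h1 : HasFDerivAt (fun h => s * W h) (s • l) h := (hWd h).const_mul s
    rw [h1.cos.fderiv]
    simp; ring
  have hfs : ∀ s h, fderiv ℝ (fun h => Real.sin (s * W h)) h (Y h) =
      s * (l (Y h) * Real.cos (s * W h)) := by
    intro s h
    have h1 : HasFDerivAt (fun h => s * W h) (s • l) h := (hWd h).const_mul s
    rw [h1.sin.fderiv]
    simp; ring
  have hcm : ∀ s : ℝ, Measurable fun h => Real.cos (s * W h) := fun s =>
    Real.measurable_cos.comp (hWm.const_mul s)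
  have hsm : ∀ s : ℝ, Measurable fun h => Real.sin (s * W h) := fun s =>
    Real.measurable_sin.comp (hWm.const_mul s)
  have hcb : ∀ s : ℝ, ∃ C, ∀ᵐ h ∂μ, |Real.cos (s * W h)| ≤ C := fun s =>
    ⟨1, Eventually.of_forall fun h => Real.abs_cos_le_one _⟩
  have hsb : ∀ s : ℝ, ∃ C, ∀ᵐ h ∂μ, |Real.sin (s * W h)| ≤ C := fun s =>
    ⟨1, Eventually.of_forall fun h => Real.abs_sin_le_one _⟩
  have hibc : ∀ s : ℝ, ∫ h, (jac Y h).trace * Real.cos (s * W h) ∂μ =
      s * ∫ h, l (Y h) * Real.sin (s * W h) ∂μ := by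
    intro s
    have h1 := ibp_unif hT hK hKb (hcosL s)
    simp only [hfc] at h1
    rw [integral_neg, integral_const_mul] at h1
    have h2 : ∫ h, Real.cos (s * W h) * (jac Y h).trace ∂(unif K) =
        ∫ h, (jac Y h).trace * Real.cos (s * W h) ∂μ :=
      integral_congr_ae (Eventually.of_forall fun h => mul_comm _ _)
    rw [h2] at h1
    linarith
  have hibs : ∀ s : ℝ, ∫ h, (jac Y h).trace * Real.sin (s * W h) ∂μ =
      -(s * ∫ h, l (Y h) * Real.cos (s * W h) ∂μ) := by
    intro s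
    have h1 := ibp_unif hT hK hKb (hsinL s)
    simp only [hfs] at h1
    rw [integral_const_mul] at h1
    have h2 : ∫ h, Real.sin (s * W h) * (jac Y h).trace ∂(unif K) =
        ∫ h, (jac Y h).trace * Real.sin (s * W h) ∂μ :=
      integral_congr_ae (Eventually.of_forall fun h => mul_comm _ _)
    rw [h2] at h1
    linarith
  -- bounds of the error terms
  have hb1 : ∀ {g : (V → ℝ) → ℝ}, Measurable g → (∀ h, |g h| ≤ 1) →
      |∫ h, Z h * g h ∂μ| ≤ 2 * Real.sqrt ε := by
    intro g hg hg1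
    refine (abs_integral_le_integral_abs).trans (le_trans ?_ hZ1)
    refine integral_mono (hprod hiZ hg ⟨1, Eventually.of_forall hg1⟩).abs hiZ.abs fun h => ?_
    show |Z h * g h| ≤ |Z h|
    rw [abs_mul]
    exact mul_le_of_le_one_right (abs_nonneg _) (hg1 h)
  have hb2 : ∀ {g : (V → ℝ) → ℝ}, Measurable g → (∀ h, |g h| ≤ 1) →
      |∫ h, l (Y h) * g h ∂μ - q * ∫ h, g h ∂μ| ≤ ε := by
    intro g hg hg1
    have hig : Integrable g μ := Integrable.of_bound hg.aestronglyMeasurable 1
      (Eventually.of_forall fun h => by rw [Real.norm_eq_abs]; exact hg1 h)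
    have hi1 : Integrable (fun h => l (Y h) * g h) μ :=
      hprod hil hg ⟨1, Eventually.of_forall hg1⟩
    have e : ∫ h, l (Y h) * g h ∂μ - q * ∫ h, g h ∂μ = ∫ h, (l (Y h) - q) * g h ∂μ := by
      rw [← integral_const_mul, ← integral_sub hi1 (hig.const_mul q)]
      refine integral_congr_ae (Eventually.of_forall fun h => ?_)
      show l (Y h) * g h - q * g h = (l (Y h) - q) * g h
      ring
    rw [e]
    refine (abs_integral_le_integral_abs).trans (le_trans ?_ hl)
    have hiq : Integrable (fun h => l (Y h) - q) μ := hil.sub (integrable_const _)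
    refine integral_mono (hprod hiq hg ⟨1, Eventually.of_forall hg1⟩).abs hiq.abs fun h => ?_
    show |(l (Y h) - q) * g h| ≤ |l (Y h) - q|
    rw [abs_mul]
    exact mul_le_of_le_one_right (abs_nonneg _) (hg1 h)
  -- the ODEs
  have hC : ∀ s : ℝ, HasDerivAt (fun s : ℝ => ∫ h, Real.cos (s * W h) ∂μ)
      (-(s * q) * (∫ h, Real.cos (s * W h) ∂μ) +
        (-(s * (∫ h, l (Y h) * Real.cos (s * W h) ∂μ - q * ∫ h, Real.cos (s * W h) ∂μ)) -
          ∫ h, Z h * Real.sin (s * W h) ∂μ)) s := by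
    intro s
    refine (hasDerivAt_cos hWm.aestronglyMeasurable hWb s).congr_deriv ?_
    rw [integral_neg]
    have e : ∫ h, Real.sin (s * W h) * W h ∂μ =
        ∫ h, Z h * Real.sin (s * W h) ∂μ - ∫ h, (jac Y h).trace * Real.sin (s * W h) ∂μ := by
      rw [← integral_sub (hprod hiZ (hsm s) (hsb s)) (hprod hit (hsm s) (hsb s))]
      refine integral_congr_ae (Eventually.of_forall fun h => ?_)
      simp only [hZ]; ring
    rw [e, hibs]
    ring
  have hS : ∀ s : ℝ, HasDerivAt (fun s : ℝ => ∫ h, Real.sin (s * W h) ∂μ)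
      (-(s * q) * (∫ h, Real.sin (s * W h) ∂μ) +
        (-(s * (∫ h, l (Y h) * Real.sin (s * W h) ∂μ - q * ∫ h, Real.sin (s * W h) ∂μ)) +
          ∫ h, Z h * Real.cos (s * W h) ∂μ)) s := by
    intro s
    refine (hasDerivAt_sin hWm.aestronglyMeasurable hWb s).congr_deriv ?_
    have e : ∫ h, Real.cos (s * W h) * W h ∂μ =
        ∫ h, Z h * Real.cos (s * W h) ∂μ - ∫ h, (jac Y h).trace * Real.cos (s * W h) ∂μ := by
      rw [← integral_sub (hprod hiZ (hcm s) (hcb s)) (hprod hit (hcm s) (hcb s))]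
      refine integral_congr_ae (Eventually.of_forall fun h => ?_)
      simp only [hZ]; ring
    rw [e, hibc]
    ring
  constructor
  · have h1 := gauss_ode (t := t) (ρ := 2 * Real.sqrt ε + |t| * ε) hq hC (fun s hs => by
      have h2 := hb1 (hsm s) (fun h => Real.abs_sin_le_one _)
      have h3 := hb2 (hcm s) (fun h => Real.abs_cos_le_one _)
      refine (abs_sub _ _).trans ?_
      rw [abs_neg, abs_mul]
      have h4 : |s| * |∫ h, l (Y h) * Real.cos (s * W h) ∂μ - q * ∫ h, Real.cos (s * W h) ∂μ| ≤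
          |t| * ε := mul_le_mul hs h3 (abs_nonneg _) (abs_nonneg _)
      linarith)
    have h5 : ∫ h, Real.cos (0 * W h) ∂μ = 1 := by simp
    rw [h5, one_mul] at h1
    exact h1
  · have h1 := gauss_ode (t := t) (ρ := 2 * Real.sqrt ε + |t| * ε) hq hS (fun s hs => by
      have h2 := hb1 (hcm s) (fun h => Real.abs_cos_le_one _)
      have h3 := hb2 (hsm s) (fun h => Real.abs_sin_le_one _)
      refine (abs_add_le _ _).trans ?_
      rw [abs_neg, abs_mul]
      have h4 : |s| * |∫ h, l (Y h) * Real.sin (s * W h) ∂μ - q * ∫ h, Real.sin (s * W h) ∂μ| ≤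
          |t| * ε := mul_le_mul hs h3 (abs_nonneg _) (abs_nonneg _)
      linarith)
    have h5 : ∫ h, Real.sin (0 * W h) ∂μ = 0 := by simp
    rw [h5, zero_mul, sub_zero] at h1
    exact h1

end step

end Crest.Agent.R144.Stein540
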