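import Mathlib

/-!
# R144 (S0197), block TILT (helper714), part 1: Vitali by hand

`vitali`: uniformly bounded holomorphic functions on a disc which tend to `0` on a short segment
issued from the centre tend to `0` on the whole disc.
`strip`: the same on a vertical strip, from the real segment to the whole imaginary axis.
-/

set_option autoImplicit false

namespace Crest.Agent.R144.Tilt714

open Filter Topology Metric MeasureTheory
open scoped NNReal ENNReal Real

/-- Cauchy bound for the coefficients of the power series of a function bounded by `M`. -/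
lemma coeff_bound {f : ℂ → ℂ} {c : ℂ} {R : ℝ≥0} (hR : 0 < R) {M : ℝ}
    (hM : ∀ z ∈ closedBall c R, ‖f z‖ ≤ M) (hd : DifferentiableOn ℂ f (closedBall c R)) (k : ℕ) :
    ‖cauchyPowerSeries f c R k‖ ≤ M * ((R : ℝ)⁻¹) ^ k := by
  have h1 := norm_cauchyPowerSeries_le f c R k
  have hR' : (0 : ℝ) < R := hR
  have h2 : (2 * π)⁻¹ * ∫ θ : ℝ in 0..2 * π, ‖f (circleMap c R θ)‖ ≤ M := by
    have h3 : ∫ θ : ℝ in 0..2 * π, ‖f (circleMap c R θ)‖ ≤ ∫ _ : ℝ in 0..2 * π, M := by
      apply intervalIntegral.integral_mono_on (by positivity)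
      · apply Continuous.intervalIntegrable
        have hc : Continuous fun θ : ℝ => f (circleMap c R θ) := by
          have := hd.continuousOn.comp_continuous (continuous_circleMap c R)
            (fun θ => circleMap_mem_closedBall c hR'.le θ)
          exact this
        exact hc.norm
      · exact intervalIntegrable_const
      · intro θ _
        exact hM _ (circleMap_mem_closedBall c hR'.le θ)
    rw [intervalIntegral.integral_const, smul_eq_mul, sub_zero] at h3
    calc (2 * π)⁻¹ * ∫ θ : ℝ in 0..2 * π, ‖f (circleMap c R θ)‖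
        ≤ (2 * π)⁻¹ * (2 * π * M) := by gcongr
      _ = M := by
          have : (2 * π) ≠ 0 := by positivity
          field_simp
  rw [abs_of_pos hR'] at h1
  exact h1.trans (by gcongr)

/-- uniformly bounded holomorphic functions which tend to `0` on a segment issued from the centre
tend to `0` on the disc. -/
theorem vitali {f : ℕ → ℂ → ℂ} {c u : ℂ} {r M : ℝ} (hr : 0 < r)
    (hd : ∀ n, DifferentiableOn ℂ (f n) (ball c r)) (hM : ∀ n, ∀ z ∈ ball c r, ‖f n z‖ ≤ M)
    (hu : ‖u‖ = 1) {ε : ℝ} (hε : 0 < ε)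
    (h0 : ∀ s : ℝ, 0 < s → s < ε → Tendsto (fun n => f n (c + s * u)) atTop (𝓝 0)) :
    ∀ z ∈ ball c r, Tendsto (fun n => f n z) atTop (𝓝 0) := by
  intro z hz
  rw [mem_ball, dist_eq_norm] at hz
  obtain ⟨R', hR1, hR2⟩ := exists_between hz
  have hR0 : 0 < R' := (norm_nonneg _).trans_lt hR1
  set R : ℝ≥0 := ⟨R', hR0.le⟩ with hRdef
  have hRpos : 0 < R := hR0
  have hRr : (R : ℝ) = R' := rfl
  have hsub : closedBall c (R : ℝ) ⊆ ball c r := by
    intro w hw
    rw [mem_closedBall] at hw; rw [mem_ball]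
    exact hw.trans_lt (by rw [hRr]; exact hR2)
  have hd' : ∀ n, DifferentiableOn ℂ (f n) (closedBall c R) := fun n => (hd n).mono hsub
  have hM' : ∀ n, ∀ w ∈ closedBall c (R : ℝ), ‖f n w‖ ≤ M := fun n w hw => hM n w (hsub hw)
  have hM0 : 0 ≤ M := (norm_nonneg _).trans (hM' 0 c (mem_closedBall_self R.coe_nonneg))
  set a : ℕ → ℕ → ℂ := fun n k => (cauchyPowerSeries (f n) c R).coeff k with ha
  have hab : ∀ n k, ‖a n k‖ ≤ M * ((R : ℝ)⁻¹) ^ k := by
    intro n k
    have := coeff_bound hRpos (hM' n) (hd' n) k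
    rwa [FormalMultilinearSeries.norm_apply_eq_norm_coef] at this
  have hsum : ∀ n, ∀ w : ℂ, ‖w‖ < R → HasSum (fun k => w ^ k * a n k) (f n (c + w)) := by
    intro n w hw
    have hps := (hd' n).hasFPowerSeriesOnBall hRpos
    have := hps.hasSum (y := w) (by
      rw [Metric.mem_eball, edist_zero_right]
      rw [← ofReal_norm, ENNReal.ofReal_lt_coe_iff (norm_nonneg _)] 
      exact hw)
    simpa [ha, FormalMultilinearSeries.apply_eq_pow_smul_coeff, smul_eq_mul] using this
  -- all coefficients tend to zero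
  have hcoef : ∀ k, Tendsto (fun n => a n k) atTop (𝓝 0) := by
    intro k
    induction k using Nat.strong_induction_on with
    | _ k ih =>
      rw [tendsto_zero_iff_norm_tendsto_zero]
      rw [Metric.tendsto_atTop]
      intro η hη
      -- choose s
      obtain ⟨s, hs0, hsε, hsR, hsη⟩ : ∃ s : ℝ, 0 < s ∧ s < ε ∧ s < R / 2 ∧
          2 * M * ((R : ℝ)⁻¹) ^ (k + 1) * s < η / 2 := by
        have hRR : (0 : ℝ) < R := hRpos
        set B := 2 * M * ((R : ℝ)⁻¹) ^ (k + 1) with hB
        have hB0 : 0 ≤ B := by positivity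
        refine ⟨min (ε / 2) (min (R / 4) (η / (4 * (B + 1)))), ?_, ?_, ?_, ?_⟩
        · positivity
        · exact (min_le_left _ _).trans_lt (by linarith)
        · exact ((min_le_right _ _).trans (min_le_left _ _)).trans_lt (by linarith)
        · have h1 : min (ε / 2) (min (R / 4) (η / (4 * (B + 1)))) ≤ η / (4 * (B + 1)) :=
            (min_le_right _ _).trans (min_le_right _ _)
          calc B * min (ε / 2) (min (R / 4) (η / (4 * (B + 1))))
              ≤ B * (η / (4 * (B + 1))) := by gcongr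
            _ < η / 2 := by
                rw [mul_div_assoc', div_lt_iff₀ (by positivity)]
                nlinarith
      have hs1 : ‖(s * u : ℂ)‖ < R := by
        rw [norm_mul, hu, mul_one, Complex.norm_real, Real.norm_eq_abs, abs_of_pos hs0]
        have hRR : (0 : ℝ) < R := hRpos
        linarith
      have key : ∀ n, ‖a n k‖ * s ^ k ≤ ‖f n (c + s * u)‖ +
          ∑ j ∈ Finset.range k, ‖a n j‖ * s ^ j + 2 * M * ((R : ℝ)⁻¹) ^ (k + 1) * s ^ (k + 1) := by
        intro n
        have h1 := hsum n (s * u) hs1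
        have hRR : (0 : ℝ) < R := hRpos
        have h2 := h1.summable.hasSum
        have h3 : ∑ j ∈ Finset.range (k + 1), (s * u : ℂ) ^ j * a n j +
            ∑' j, (s * u : ℂ) ^ (j + (k + 1)) * a n (j + (k + 1)) = f n (c + s * u) := by
          rw [h1.summable.sum_add_tsum_nat_add (k + 1)]
          exact h1.tsum_eq
        rw [Finset.sum_range_succ] at h3
        have hnorm : ∀ j, ‖(s * u : ℂ) ^ j * a n j‖ = s ^ j * ‖a n j‖ := by
          intro j
          rw [norm_mul, norm_pow, norm_mul, hu, mul_one, Complex.norm_real, Real.norm_eq_abs,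
            abs_of_pos hs0]
        have hq : s * (R : ℝ)⁻¹ ≤ 1 / 2 := by
          rw [← div_eq_mul_inv, div_le_iff₀ hRR]; linarith
        have hq0 : 0 ≤ s * (R : ℝ)⁻¹ := by positivity
        have htail : ‖∑' j, (s * u : ℂ) ^ (j + (k + 1)) * a n (j + (k + 1))‖ ≤
            2 * M * ((R : ℝ)⁻¹) ^ (k + 1) * s ^ (k + 1) := by
          have hb : ∀ j, ‖(s * u : ℂ) ^ (j + (k + 1)) * a n (j + (k + 1))‖ ≤
              (M * ((R : ℝ)⁻¹) ^ (k + 1) * s ^ (k + 1)) * (1 / 2 : ℝ) ^ j := by
            intro j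
            rw [hnorm]
            calc s ^ (j + (k + 1)) * ‖a n (j + (k + 1))‖
                ≤ s ^ (j + (k + 1)) * (M * ((R : ℝ)⁻¹) ^ (j + (k + 1))) := by
                  gcongr; exact hab n _
              _ = (M * ((R : ℝ)⁻¹) ^ (k + 1) * s ^ (k + 1)) * (s * (R : ℝ)⁻¹) ^ j := by
                  rw [mul_pow]; ring
              _ ≤ _ := by gcongr
          have hg : HasSum (fun j => (M * ((R : ℝ)⁻¹) ^ (k + 1) * s ^ (k + 1)) * (1 / 2 : ℝ) ^ j)
              ((M * ((R : ℝ)⁻¹) ^ (k + 1) * s ^ (k + 1)) * 2) := by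
            have := (hasSum_geometric_two).mul_left (M * ((R : ℝ)⁻¹) ^ (k + 1) * s ^ (k + 1))
            exact this
          have := tsum_of_norm_bounded hg hb
          linarith
        have h4 : (s * u : ℂ) ^ k * a n k = f n (c + s * u) -
            ∑ j ∈ Finset.range k, (s * u : ℂ) ^ j * a n j -
            ∑' j, (s * u : ℂ) ^ (j + (k + 1)) * a n (j + (k + 1)) := by
          rw [← h3]; ring
        calc ‖a n k‖ * s ^ k = ‖(s * u : ℂ) ^ k * a n k‖ := by rw [hnorm]; ring
          _ ≤ ‖f n (c + s * u)‖ + ‖∑ j ∈ Finset.range k, (s * u : ℂ) ^ j * a n j‖ +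
              ‖∑' j, (s * u : ℂ) ^ (j + (k + 1)) * a n (j + (k + 1))‖ := by
                rw [h4]
                exact (norm_sub_le _ _).trans (add_le_add_left (norm_sub_le _ _) _)
          _ ≤ _ := by
                have h5 : ‖∑ j ∈ Finset.range k, (s * u : ℂ) ^ j * a n j‖ ≤
                    ∑ j ∈ Finset.range k, ‖a n j‖ * s ^ j := by
                  refine (norm_sum_le _ _).trans (Finset.sum_le_sum fun j _ => ?_)
                  rw [hnorm]; exact (mul_comm _ _).le
                linarith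
      have hlim : Tendsto (fun n => ‖f n (c + s * u)‖ +
          ∑ j ∈ Finset.range k, ‖a n j‖ * s ^ j) atTop (𝓝 0) := by
        have h1 : Tendsto (fun n => ‖f n (c + s * u)‖) atTop (𝓝 0) := by
          simpa using (h0 s hs0 hsε).norm
        have h2 : Tendsto (fun n => ∑ j ∈ Finset.range k, ‖a n j‖ * s ^ j) atTop
            (𝓝 (∑ j ∈ Finset.range k, 0 * s ^ j)) := by
          apply tendsto_finset_sum
          intro j hj
          have := (ih j (Finset.mem_range.mp hj)).norm
          rw [norm_zero] at this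
          exact this.mul_const _
        simpa using h1.add h2
      have hsk : 0 < s ^ k := by positivity
      have hlim' := (hlim.eventually (gt_mem_nhds (show (0 : ℝ) < s ^ k * (η / 2) by positivity)))
      obtain ⟨N, hN⟩ := eventually_atTop.mp hlim'
      refine ⟨N, fun n hn => ?_⟩
      have h1 := key n
      have h2 := hN n hn
      rw [Real.dist_eq, sub_zero, abs_of_nonneg (norm_nonneg _)]
      have h3 : ‖a n k‖ * s ^ k < s ^ k * (η / 2) + 2 * M * ((R : ℝ)⁻¹) ^ (k + 1) * s ^ (k + 1) := by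
        linarith
      have h4 : 2 * M * ((R : ℝ)⁻¹) ^ (k + 1) * s ^ (k + 1) ≤ s ^ k * (η / 2) := by
        rw [pow_succ s k]
        calc 2 * M * ((R : ℝ)⁻¹) ^ (k + 1) * (s ^ k * s) =
              s ^ k * (2 * M * ((R : ℝ)⁻¹) ^ (k + 1) * s) := by ring
          _ ≤ s ^ k * (η / 2) := by gcongr
      have h5 : ‖a n k‖ * s ^ k < η * s ^ k := by linarith
      exact lt_of_mul_lt_mul_right h5 hsk.le
  -- conclusion
  have hw : ‖z - c‖ < R := by rw [hRr]; exact hR1
  have hRR : (0 : ℝ) < R := hRpos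
  have hfz : ∀ n, f n z = ∑' k, (z - c) ^ k * a n k := by
    intro n
    have := (hsum n (z - c) hw).tsum_eq
    rw [this]; congr 1; ring
  have hq0 : 0 ≤ ‖z - c‖ * (R : ℝ)⁻¹ := by positivity
  have hq1 : ‖z - c‖ * (R : ℝ)⁻¹ < 1 := by
    rw [← div_eq_mul_inv, div_lt_one hRR]; exact hw
  have hdom : Tendsto (fun n => ∑' k, (z - c) ^ k * a n k) atTop (𝓝 (∑' _ : ℕ, (0 : ℂ))) := by
    refine tendsto_tsum_of_dominated_convergence
      (bound := fun k => M * (‖z - c‖ * (R : ℝ)⁻¹) ^ k) ?_ ?_ ?_
    · exact (summable_geometric_of_lt_one hq0 hq1).mul_left M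
    · intro k
      have := (hcoef k).const_mul ((z - c) ^ k)
      simpa using this
    · refine Eventually.of_forall fun n k => ?_
      rw [norm_mul, norm_pow]
      calc ‖z - c‖ ^ k * ‖a n k‖ ≤ ‖z - c‖ ^ k * (M * ((R : ℝ)⁻¹) ^ k) := by
            gcongr; exact hab n k
        _ = M * (‖z - c‖ * (R : ℝ)⁻¹) ^ k := by rw [mul_pow]; ring
  rw [tsum_zero] at hdom
  simpa [hfz] using hdom

/-- from the real segment to the whole imaginary axis of a strip. -/
theorem strip {f : ℕ → ℂ → ℂ} {r M : ℝ} (hr : 0 < r)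
    (hd : ∀ n, DifferentiableOn ℂ (f n) {z | |z.re| < r})
    (hM : ∀ n, ∀ z : ℂ, |z.re| < r → ‖f n z‖ ≤ M)
    (h0 : ∀ s : ℝ, 0 < s → s < r → Tendsto (fun n => f n s) atTop (𝓝 0)) :
    ∀ t : ℝ, Tendsto (fun n => f n (t * Complex.I)) atTop (𝓝 0) := by
  have hsub : ∀ t : ℝ, ball (t * Complex.I : ℂ) r ⊆ {z : ℂ | |z.re| < r} := by
    intro t z hz
    rw [mem_ball, dist_eq_norm] at hz
    have h1 := Complex.abs_re_le_norm (z - t * Complex.I)
    have h2 : (z - t * Complex.I).re = z.re := by simp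
    rw [h2] at h1
    exact h1.trans_lt hz
  -- the set of good centres
  have step0 : ∀ z ∈ ball ((0 : ℝ) * Complex.I : ℂ) r, Tendsto (fun n => f n z) atTop (𝓝 0) := by
    refine vitali hr (fun n => (hd n).mono (hsub 0)) (fun n z hz => hM n z (hsub 0 hz))
      (u := 1) (by simp) hr ?_
    intro s hs0 hsr
    simpa using h0 s hs0 hsr
  have step : ∀ t t' : ℝ, |t' - t| < r →
      (∀ z ∈ ball (t * Complex.I : ℂ) r, Tendsto (fun n => f n z) atTop (𝓝 0)) →
      ∀ z ∈ ball (t' * Complex.I : ℂ) r, Tendsto (fun n => f n z) atTop (𝓝 0) := by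
    intro t t' htt h
    refine vitali hr (fun n => (hd n).mono (hsub t')) (fun n z hz => hM n z (hsub t' hz))
      (u := 1) (by simp) (ε := r - |t' - t|) (by linarith) ?_
    intro s hs0 hsr
    apply h
    rw [mem_ball, dist_eq_norm]
    calc ‖(t' * Complex.I + s * 1 - t * Complex.I : ℂ)‖
        = ‖((t' - t : ℝ) : ℂ) * Complex.I + (s : ℂ)‖ := by congr 1; push_cast; ring
      _ ≤ ‖((t' - t : ℝ) : ℂ) * Complex.I‖ + ‖(s : ℂ)‖ := norm_add_le _ _
      _ = |t' - t| + s := by
          rw [norm_mul, Complex.norm_I, mul_one, Complex.norm_real, Complex.norm_real,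
            Real.norm_eq_abs, Real.norm_eq_abs, abs_of_pos hs0]
      _ < r := by linarith
  have hall : ∀ k : ℕ, ∀ t : ℝ, |t| ≤ k * (r / 2) →
      ∀ z ∈ ball (t * Complex.I : ℂ) r, Tendsto (fun n => f n z) atTop (𝓝 0) := by
    intro k
    induction k with
    | zero =>
      intro t ht
      have : t = 0 := by simpa using ht
      subst this
      exact step0
    | succ k ih =>
      intro t ht
      have hk : (0 : ℝ) < (k : ℝ) + 1 := by positivity
      have hk' : ((k : ℝ) + 1) ≠ 0 := hk.ne'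
      push_cast at ht
      refine step (t * (k / (k + 1))) t ?_ (ih _ ?_)
      · have : t - t * (k / (k + 1)) = t / (k + 1) := by field_simp; ring
        rw [this, abs_div, abs_of_pos hk, div_lt_iff₀ hk]
        nlinarith
      · rw [abs_mul, abs_of_nonneg (show (0 : ℝ) ≤ k / (k + 1) by positivity)]
        calc |t| * (k / (k + 1)) ≤ ((k + 1) * (r / 2)) * (k / (k + 1)) := by gcongr
          _ = k * (r / 2) := by field_simp
  intro t
  obtain ⟨k, hk⟩ := exists_nat_ge (|t| / (r / 2))
  refine hall k t ?_ _ (mem_ball_self hr)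
  rwa [div_le_iff₀ (by positivity)] at hk

end Crest.Agent.R144.Tilt714
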