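import Mathlib
import Crest.Agent.R144.Tilt1_714

/-!
# R144 (S0197), block TILT (helper714), part 2: variance asymptotics under tilts => Gaussian limit

`charFun_of_mgf`: convergence of the moment generating functions on `(-s₀, s₀)` to `exp (q s²/2)`
implies convergence of the characteristic functions on the whole line.
`mgf_of_var`: convergence + boundedness of the tilted variances on `(-s₀, s₀)` implies convergence
of the centred moment generating functions there.
`gaussian_of_tilted_var`: both together.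
-/

set_option autoImplicit false

namespace Crest.Agent.R144.Tilt714

open Filter Topology Metric MeasureTheory ProbabilityTheory
open scoped NNReal ENNReal Real

/-- a bounded random variable has all exponential moments -/
lemma integrableExpSet_bdd {Ω : Type*} [MeasurableSpace Ω] {μ : Measure Ω} [IsFiniteMeasure μ]
    {X : Ω → ℝ} (hX : AEMeasurable X μ) {C : ℝ} (hC : ∀ ω, |X ω| ≤ C) :
    integrableExpSet X μ = Set.univ := by
  rw [Set.eq_univ_iff_forall]
  intro t
  rw [integrableExpSet, Set.mem_ofPred_eq]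
  refine Integrable.of_bound (C := Real.exp (|t| * C)) ?_ (Eventually.of_forall fun ω => ?_)
  · exact (Real.measurable_exp.comp_aemeasurable (hX.const_mul t)).aestronglyMeasurable
  · rw [Real.norm_eq_abs, Real.abs_exp, Real.exp_le_exp]
    calc t * X ω ≤ |t * X ω| := le_abs_self _
      _ = |t| * |X ω| := abs_mul _ _
      _ ≤ |t| * C := by gcongr; exact hC ω

/-- **Curtiss' theorem, Gaussian case.** -/
theorem charFun_of_mgf {Ω : ℕ → Type*} [∀ n, MeasurableSpace (Ω n)] {μ : ∀ n, Measure (Ω n)}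
    [∀ n, IsProbabilityMeasure (μ n)] {Y : ∀ n, Ω n → ℝ} {s₀ q : ℝ} (hs₀ : 0 < s₀) (hq : 0 ≤ q)
    (hint : ∀ n, integrableExpSet (Y n) (μ n) = Set.univ)
    (hmgf : ∀ s : ℝ, |s| < s₀ →
      Tendsto (fun n => mgf (Y n) (μ n) s) atTop (𝓝 (Real.exp (q * s ^ 2 / 2)))) (t : ℝ) :
    Tendsto (fun n => complexMGF (Y n) (μ n) (t * Complex.I)) atTop
      (𝓝 (Complex.exp (-(q * t ^ 2 / 2) : ℝ))) := by
  set r : ℝ := s₀ / 2 with hr
  have hr0 : 0 < r := by positivity
  have hrs : r < s₀ := by rw [hr]; linarith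
  -- uniform bound of the mgf's
  obtain ⟨B, hB⟩ : ∃ B, ∀ n, mgf (Y n) (μ n) r + mgf (Y n) (μ n) (-r) ≤ B := by
    have h1 := (hmgf r (by rw [abs_of_pos hr0]; exact hrs)).add
      (hmgf (-r) (by rw [abs_neg, abs_of_pos hr0]; exact hrs))
    obtain ⟨B, hB⟩ := h1.bddAbove_range
    exact ⟨B, fun n => hB ⟨n, rfl⟩⟩
  have hI : ∀ n (t : ℝ), Integrable (fun ω => Real.exp (t * Y n ω)) (μ n) := by
    intro n t
    have : t ∈ integrableExpSet (Y n) (μ n) := by rw [hint n]; trivial
    exact this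
  have hmb : ∀ n, ∀ x : ℝ, |x| < r → mgf (Y n) (μ n) x ≤ B := by
    intro n x hx
    refine le_trans ?_ (hB n)
    rw [mgf, mgf, mgf, ← integral_add (hI n r) (hI n (-r))]
    refine integral_mono (hI n x) ((hI n r).add (hI n (-r))) fun ω => ?_
    have hx' := abs_lt.mp hx
    rcases le_total 0 (Y n ω) with h | h
    · have : Real.exp (x * Y n ω) ≤ Real.exp (r * Y n ω) :=
        Real.exp_le_exp.mpr (mul_le_mul_of_nonneg_right hx'.2.le h)
      have h2 := Real.exp_pos (-r * Y n ω)
      linarith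
    · have : Real.exp (x * Y n ω) ≤ Real.exp (-r * Y n ω) :=
        Real.exp_le_exp.mpr (mul_le_mul_of_nonpos_right hx'.1.le h)
      have h2 := Real.exp_pos (r * Y n ω)
      linarith
  set g : ℂ → ℂ := fun z => Complex.exp (q * z ^ 2 / 2) with hg
  set f : ℕ → ℂ → ℂ := fun n z => complexMGF (Y n) (μ n) z - g z with hf
  have hd : ∀ n, DifferentiableOn ℂ (f n) {z | |z.re| < r} := by
    intro n
    refine DifferentiableOn.sub ?_ ?_
    · refine (differentiableOn_complexMGF (X := Y n) (μ := μ n)).mono ?_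
      intro z _
      simp [hint n]
    · exact (by fun_prop : Differentiable ℂ g).differentiableOn
  have hgb : ∀ z : ℂ, |z.re| < r → ‖g z‖ ≤ Real.exp (q * r ^ 2 / 2) := by
    intro z hz
    rw [hg]; simp only
    rw [Complex.norm_exp, Real.exp_le_exp]
    have h1 : (q * z ^ 2 / 2 : ℂ).re = q * (z.re ^ 2 - z.im ^ 2) / 2 := by
      have : (q * z ^ 2 / 2 : ℂ) = ((q / 2 : ℝ) : ℂ) * (z ^ 2) := by push_cast; ring
      rw [this, Complex.re_ofReal_mul, pow_two, Complex.mul_re]; ring
    rw [h1]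
    have h2 : z.re ^ 2 ≤ r ^ 2 := sq_le_sq' (abs_lt.mp hz).1.le (abs_lt.mp hz).2.le
    have h3 : 0 ≤ z.im ^ 2 := sq_nonneg _
    have : q * (z.re ^ 2 - z.im ^ 2) ≤ q * r ^ 2 := by
      apply mul_le_mul_of_nonneg_left _ hq; linarith
    linarith
  have hM : ∀ n, ∀ z : ℂ, |z.re| < r → ‖f n z‖ ≤ B + Real.exp (q * r ^ 2 / 2) := by
    intro n z hz
    refine (norm_sub_le _ _).trans (add_le_add ?_ (hgb z hz))
    exact norm_complexMGF_le_mgf.trans (hmb n _ hz)
  have h0 : ∀ s : ℝ, 0 < s → s < r → Tendsto (fun n => f n s) atTop (𝓝 0) := by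
    intro s hs0 hsr
    have h1 := hmgf s (by rw [abs_of_pos hs0]; linarith)
    have h2 : Tendsto (fun n => ((mgf (Y n) (μ n) s : ℝ) : ℂ)) atTop
        (𝓝 ((Real.exp (q * s ^ 2 / 2) : ℝ) : ℂ)) :=
      (Complex.continuous_ofReal.tendsto _).comp h1
    have h3 : (fun n => f n s) = fun n => ((mgf (Y n) (μ n) s : ℝ) : ℂ) - g s := by
      funext n; simp only [hf]; rw [complexMGF_ofReal]
    rw [h3]
    have h4 : g s = ((Real.exp (q * s ^ 2 / 2) : ℝ) : ℂ) := by
      rw [hg]; push_cast; rfl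
    rw [← h4] at h2
    simpa using h2.sub_const (g s)
  have := strip hr0 hd hM h0 t
  have h5 : g (t * Complex.I) = Complex.exp (-(q * t ^ 2 / 2) : ℝ) := by
    rw [hg]; simp only
    congr 1
    rw [mul_pow, Complex.I_sq]; push_cast; ring
  have h6 := this.add_const (g (t * Complex.I))
  simp only [hf, sub_add_cancel, zero_add] at h6
  rw [h5] at h6
  exact h6

section var
variable {Ω : ℕ → Type*} [∀ n, MeasurableSpace (Ω n)] {μ : ∀ n, Measure (Ω n)}
  [∀ n, IsProbabilityMeasure (μ n)] {X : ∀ n, Ω n → ℝ}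

/-- second antiderivative of a bounded convergent sequence -/
lemma tendsto_of_second_deriv {L : ℕ → ℝ → ℝ} {s₀ q B : ℝ}
    (hL : ∀ n, ContDiff ℝ 2 (L n)) (hL0 : ∀ n, L n 0 = 0) (hL1 : ∀ n, deriv (L n) 0 = 0)
    (hB : ∀ᶠ n in atTop, ∀ s : ℝ, |s| < s₀ → |iteratedDeriv 2 (L n) s| ≤ B)
    (hq : ∀ s : ℝ, |s| < s₀ → Tendsto (fun n => iteratedDeriv 2 (L n) s) atTop (𝓝 q))
    {s : ℝ} (hs : |s| < s₀) : Tendsto (fun n => L n s) atTop (𝓝 (q * s ^ 2 / 2)) := by
  have hmem : ∀ {a x : ℝ}, |a| < s₀ → x ∈ Set.uIoc 0 a → |x| < s₀ := by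
    intro a x ha hx
    have hx' := Set.uIoc_subset_uIcc hx
    have : |x| ≤ |a| := by
      have := Set.abs_sub_left_of_mem_uIcc hx'
      simpa using this
    linarith
  have hcd : ∀ n, Continuous (iteratedDeriv 2 (L n)) := fun n =>
    (hL n).continuous_iteratedDeriv 2 le_rfl
  have hd1 : ∀ n, Differentiable ℝ (L n) := fun n => (hL n).differentiable (by norm_num)
  have hcd1 : ∀ n, ContDiff ℝ 1 (deriv (L n)) := fun n => by
    have h : ContDiff ℝ (1 + 1) (L n) := by
      have : (1 + 1 : WithTop ℕ∞) = 2 := by norm_num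
      rw [this]; exact hL n
    exact (contDiff_succ_iff_deriv.mp h).2.2
  have hdd : ∀ n, deriv (deriv (L n)) = iteratedDeriv 2 (L n) := fun n => by
    rw [iteratedDeriv_succ, iteratedDeriv_one]
  have h1 : ∀ n a, deriv (L n) a = ∫ x in (0 : ℝ)..a, iteratedDeriv 2 (L n) x := by
    intro n a
    rw [← hdd n]
    have h : ∫ x in (0 : ℝ)..a, deriv (deriv (L n)) x = deriv (L n) a - deriv (L n) 0 := by
      apply intervalIntegral.integral_deriv_eq_sub
      · intro x _; exact ((hcd1 n).differentiable (by norm_num)) x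
      · rw [hdd n]; exact (hcd n).intervalIntegrable _ _
    rw [h, hL1 n, sub_zero]
  have h2 : ∀ n a, L n a = ∫ x in (0 : ℝ)..a, deriv (L n) x := by
    intro n a
    have h : ∫ x in (0 : ℝ)..a, deriv (L n) x = L n a - L n 0 := by
      apply intervalIntegral.integral_deriv_eq_sub
      · intro x _; exact hd1 n x
      · exact ((hcd1 n).continuous).intervalIntegrable _ _
    rw [h, hL0 n, sub_zero]
  have hB0 : ∀ᶠ n in atTop, ∀ a : ℝ, |a| < s₀ → |deriv (L n) a| ≤ B * s₀ := by
    filter_upwards [hB] with n hn a ha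
    rw [h1 n a]
    have := intervalIntegral.norm_integral_le_of_norm_le_const (a := (0 : ℝ)) (b := a) (C := B)
      (f := iteratedDeriv 2 (L n)) (fun x hx => hn x (hmem ha hx))
    rw [Real.norm_eq_abs, sub_zero] at this
    have hB' : 0 ≤ B := (abs_nonneg _).trans (hn a ha)
    exact this.trans (mul_le_mul_of_nonneg_left ha.le hB')
  have h3 : ∀ a : ℝ, |a| < s₀ → Tendsto (fun n => deriv (L n) a) atTop (𝓝 (q * a)) := by
    intro a ha
    have : Tendsto (fun n => ∫ x in (0 : ℝ)..a, iteratedDeriv 2 (L n) x) atTop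
        (𝓝 (∫ _ in (0 : ℝ)..a, q)) := by
      refine intervalIntegral.tendsto_integral_filter_of_dominated_convergence (fun _ => B) ?_ ?_
        intervalIntegrable_const ?_
      · exact Eventually.of_forall fun n => (hcd n).aestronglyMeasurable
      · filter_upwards [hB] with n hn
        exact Eventually.of_forall fun x hx => hn x (hmem ha hx)
      · exact Eventually.of_forall fun x hx => hq x (hmem ha hx)
    rw [intervalIntegral.integral_const, smul_eq_mul, sub_zero, mul_comm] at this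
    simpa [h1] using this
  have h4 : Tendsto (fun n => ∫ x in (0 : ℝ)..s, deriv (L n) x) atTop
      (𝓝 (∫ x in (0 : ℝ)..s, q * x)) := by
    refine intervalIntegral.tendsto_integral_filter_of_dominated_convergence (fun _ => B * s₀) ?_ ?_
      intervalIntegrable_const ?_
    · exact Eventually.of_forall fun n => (hcd1 n).continuous.aestronglyMeasurable
    · filter_upwards [hB0] with n hn
      exact Eventually.of_forall fun x hx => hn x (hmem hs hx)
    · exact Eventually.of_forall fun x hx => h3 x (hmem hs hx)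
  have h5 : ∫ x in (0 : ℝ)..s, q * x = q * s ^ 2 / 2 := by
    rw [intervalIntegral.integral_const_mul, integral_id]; ring
  rw [h5] at h4
  simpa [h2] using h4

/-- the tilted variances determine the Gaussian limit of the centred mgf. -/
theorem mgf_of_var {s₀ q B : ℝ} (hint : ∀ n, integrableExpSet (X n) (μ n) = Set.univ)
    (hB : ∀ᶠ n in atTop, ∀ s : ℝ, |s| < s₀ → Var[X n; (μ n).tilted (s * X n ·)] ≤ B)
    (hq : ∀ s : ℝ, |s| < s₀ → Tendsto (fun n => Var[X n; (μ n).tilted (s * X n ·)]) atTop (𝓝 q))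
    {s : ℝ} (hs : |s| < s₀) :
    Tendsto (fun n => mgf (fun ω => X n ω - ∫ ω, X n ω ∂(μ n)) (μ n) s) atTop
      (𝓝 (Real.exp (q * s ^ 2 / 2))) := by
  have hint' : ∀ n t, t ∈ interior (integrableExpSet (X n) (μ n)) := by
    intro n t; rw [hint n, interior_univ]; trivial
  set m : ℕ → ℝ := fun n => ∫ ω, X n ω ∂(μ n) with hm
  set L : ℕ → ℝ → ℝ := fun n s => cgf (X n) (μ n) s - s * m n with hL
  have han : ∀ n, ContDiff ℝ 2 (cgf (X n) (μ n)) := by
    intro n
    have : AnalyticOnNhd ℝ (cgf (X n) (μ n)) Set.univ := by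
      have := analyticOnNhd_cgf (X := X n) (μ := μ n)
      rwa [hint n, interior_univ] at this
    exact contDiffOn_univ.mp (this.contDiffOn (n := 2) uniqueDiffOn_univ)
  have hLc : ∀ n, ContDiff ℝ 2 (L n) := fun n => (han n).sub (by fun_prop)
  have hLd : ∀ n, deriv (L n) = fun s => deriv (cgf (X n) (μ n)) s - m n := by
    intro n; funext s
    simp only [hL]
    rw [deriv_fun_sub ((han n).differentiable (by norm_num) s) (by fun_prop)]
    simp
  have hL2 : ∀ n, iteratedDeriv 2 (L n) = iteratedDeriv 2 (cgf (X n) (μ n)) := by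
    intro n
    rw [iteratedDeriv_succ, iteratedDeriv_one, iteratedDeriv_succ, iteratedDeriv_one, hLd n]
    funext s
    rw [deriv_sub_const]
  have hvar : ∀ n s, iteratedDeriv 2 (L n) s = Var[X n; (μ n).tilted (s * X n ·)] := by
    intro n s
    rw [hL2 n, variance_tilted_mul (hint' n s)]
  have hmain : Tendsto (fun n => L n s) atTop (𝓝 (q * s ^ 2 / 2)) := by
    refine tendsto_of_second_deriv (s₀ := s₀) (B := B) hLc ?_ ?_ ?_ ?_ hs
    · intro n; simp [hL, cgf_zero]
    · intro n
      rw [hLd n]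
      simp only
      rw [deriv_cgf_zero (hint' n 0)]
      simp [hm]
    · filter_upwards [hB] with n hn s hs
      rw [hvar n s, abs_of_nonneg (variance_nonneg _ _)]
      exact hn s hs
    · intro s hs
      simp only [hvar]
      exact hq s hs
  have hfin : ∀ n, mgf (fun ω => X n ω - m n) (μ n) s = Real.exp (L n s) := by
    intro n
    have h1 : mgf (fun ω => X n ω - m n) (μ n) s = mgf (X n) (μ n) s * Real.exp (-(s * m n)) := by
      rw [mgf, mgf, ← integral_mul_const]
      congr 1; funext ω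
      rw [← Real.exp_add]; ring_nf
    have h2 : mgf (X n) (μ n) s = Real.exp (cgf (X n) (μ n) s) := by
      rw [exp_cgf]
      have : s ∈ integrableExpSet (X n) (μ n) := by rw [hint n]; trivial
      exact this
    rw [h1, h2, ← Real.exp_add]
    congr 1
  have := (Real.continuous_exp.tendsto _).comp hmain
  refine this.congr fun n => ?_
  rw [Function.comp_apply, ← hfin n]

/-- **Variance asymptotics under linear tilts imply the central limit theorem.** -/
theorem gaussian_of_tilted_var {s₀ q B : ℝ} (hs₀ : 0 < s₀)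
    (hX : ∀ n, AEMeasurable (X n) (μ n)) (hbd : ∀ n, ∃ C, ∀ ω, |X n ω| ≤ C)
    (hB : ∀ᶠ n in atTop, ∀ s : ℝ, |s| < s₀ → Var[X n; (μ n).tilted (s * X n ·)] ≤ B)
    (hq : ∀ s : ℝ, |s| < s₀ → Tendsto (fun n => Var[X n; (μ n).tilted (s * X n ·)]) atTop (𝓝 q))
    (t : ℝ) :
    Tendsto (fun n => ∫ ω, Complex.exp (Complex.I * (t * (X n ω - ∫ ω, X n ω ∂(μ n)) : ℝ)) ∂(μ n))
      atTop (𝓝 (Complex.exp (-(q * t ^ 2 / 2) : ℝ))) := by
  have hint : ∀ n, integrableExpSet (X n) (μ n) = Set.univ := fun n => by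
    obtain ⟨C, hC⟩ := hbd n
    exact integrableExpSet_bdd (hX n) hC
  have hq0 : 0 ≤ q := ge_of_tendsto (hq 0 (by simpa using hs₀))
    (Eventually.of_forall fun n => variance_nonneg _ _)
  have hint' : ∀ n, integrableExpSet (fun ω => X n ω - ∫ ω, X n ω ∂(μ n)) (μ n) = Set.univ := by
    intro n
    obtain ⟨C, hC⟩ := hbd n
    refine integrableExpSet_bdd ((hX n).sub_const _) (C := C + |∫ ω, X n ω ∂(μ n)|) fun ω => ?_
    exact (abs_sub _ _).trans (by gcongr; exact hC ω)
  have := charFun_of_mgf (Y := fun n ω => X n ω - ∫ ω, X n ω ∂(μ n)) hs₀ hq0 hint'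
    (fun s hs => mgf_of_var hint hB hq hs) t
  refine this.congr fun n => ?_
  rw [complexMGF]
  congr 1; funext ω
  congr 1; push_cast; ring

end var

end Crest.Agent.R144.Tilt714
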