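import Mathlib
import Crest.Agent.R144.Tilt2_714

/-!
# R144 (S0197), block TILT (helper714), part 3: log-concave laws

`LCT μ X`: the upper tails of `X` are log-concave (true for linear functionals of uniform laws on
convex bodies, by Prekopa-Leindler).  If `X` and `-X` have this property and `E (X - m)² ≤ v`, then
the exponential moments of `X - m` at rate `1 / (6 √v)` are bounded by an absolute constant, and the
tilted variances are bounded by an absolute constant times `v`.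
-/

set_option autoImplicit false

namespace Crest.Agent.R144.Tilt714

open Filter Topology Metric MeasureTheory ProbabilityTheory
open scoped NNReal ENNReal Real

variable {Ω : Type*} [MeasurableSpace Ω]

/-- log-concavity of the upper tails -/
def LCT (μ : Measure Ω) (X : Ω → ℝ) : Prop :=
  ∀ x y t : ℝ, 0 < t → t < 1 →
    μ.real {ω | x ≤ X ω} ^ (1 - t) * μ.real {ω | y ≤ X ω} ^ t ≤
      μ.real {ω | (1 - t) * x + t * y ≤ X ω}

lemma LCT.sub_const {μ : Measure Ω} {X : Ω → ℝ} (h : LCT μ X) (m : ℝ) :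
    LCT μ (fun ω => X ω - m) := by
  intro x y t ht0 ht1
  have := h (x + m) (y + m) t ht0 ht1
  have e1 : ∀ z : ℝ, {ω | z ≤ X ω - m} = {ω | z + m ≤ X ω} := by
    intro z; ext ω; simp only [Set.mem_ofPred_eq]; constructor <;> intro h <;> linarith
  rw [e1, e1, e1]
  have e2 : (1 - t) * x + t * y + m = (1 - t) * (x + m) + t * (y + m) := by ring
  rw [e2]
  exact this

/-- exponential tail of a centred variable with log-concave upper tails -/
lemma tail_le {μ : Measure Ω} [IsProbabilityMeasure μ] {Y : Ω → ℝ} (hLC : LCT μ Y)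
    (hY : AEMeasurable Y μ) (hY2 : Integrable (fun ω => Y ω ^ 2) μ)
    {a : ℝ} (ha : 0 < a) (hv : 9 * ∫ ω, Y ω ^ 2 ∂μ ≤ a ^ 2) (y : ℝ) :
    μ.real {ω | y ≤ Y ω} ≤ Real.exp (1 - y / a) := by
  rcases le_or_gt y a with hya | hya
  · have h1 : μ.real {ω | y ≤ Y ω} ≤ 1 := measureReal_le_one
    refine h1.trans (Real.one_le_exp ?_)
    rw [sub_nonneg, div_le_one ha]; exact hya
  -- Chebyshev
  have hch : ∀ A : Set Ω, (∀ ω ∈ A, a ≤ |Y ω|) → μ.real A ≤ 1 / 9 := by
    intro A hA
    have h1 : a ^ 2 * μ.real {ω | a ^ 2 ≤ Y ω ^ 2} ≤ ∫ ω, Y ω ^ 2 ∂μ :=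
      mul_meas_ge_le_integral_of_nonneg (Eventually.of_forall fun ω => sq_nonneg (Y ω)) hY2 (a ^ 2)
    have h2 : μ.real A ≤ μ.real {ω | a ^ 2 ≤ Y ω ^ 2} := by
      apply measureReal_mono (h₂ := measure_ne_top _ _)
      intro ω hω
      have := hA ω hω
      simp only [Set.mem_ofPred_eq]
      rw [← sq_abs (Y ω)]
      exact pow_le_pow_left₀ ha.le this 2
    have h3 : a ^ 2 * μ.real A ≤ a ^ 2 * (1 / 9) := by
      calc a ^ 2 * μ.real A ≤ a ^ 2 * μ.real {ω | a ^ 2 ≤ Y ω ^ 2} := by gcongr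
        _ ≤ ∫ ω, Y ω ^ 2 ∂μ := h1
        _ ≤ a ^ 2 * (1 / 9) := by linarith
    exact le_of_mul_le_mul_left h3 (by positivity)
  have hSa : μ.real {ω | a ≤ Y ω} ≤ 1 / 9 := hch _ fun ω hω => (show a ≤ Y ω from hω).trans (le_abs_self _)
  have hSm : 8 / 9 ≤ μ.real {ω | -a ≤ Y ω} := by
    have h1 : μ.real {ω | -a ≤ Y ω}ᶜ ≤ 1 / 9 := hch _ fun ω hω => by
      have : ¬ (-a ≤ Y ω) := hω
      push Not at this
      rw [abs_of_neg (by linarith)]; linarith
    have hms : NullMeasurableSet {ω | -a ≤ Y ω} μ := nullMeasurableSet_le aemeasurable_const hY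
    have h2 : μ.real {ω | -a ≤ Y ω} + μ.real {ω | -a ≤ Y ω}ᶜ = 1 := by
      have := measure_add_measure_compl₀ hms
      rw [measureReal_def, measureReal_def, ← ENNReal.toReal_add (measure_ne_top _ _)
        (measure_ne_top _ _), this, measure_univ, ENNReal.toReal_one]
    linarith
  set l : ℝ := 2 * a / (y + a) with hl
  have hya0 : 0 < y + a := by linarith
  have hl0 : 0 < l := by positivity
  have hl1 : l < 1 := by rw [hl, div_lt_one hya0]; linarith
  have hcomb : (1 - l) * (-a) + l * y = a := by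
    rw [hl]; field_simp; ring
  have h1 := hLC (-a) y l hl0 hl1
  rw [hcomb] at h1
  set S := μ.real {ω | y ≤ Y ω} with hS
  have hS0 : 0 ≤ S := measureReal_nonneg
  have h2 : (8 / 9 : ℝ) ≤ μ.real {ω | -a ≤ Y ω} ^ (1 - l) := by
    calc (8 / 9 : ℝ) = (8 / 9 : ℝ) ^ (1 : ℝ) := (Real.rpow_one _).symm
      _ ≤ (8 / 9 : ℝ) ^ (1 - l) := by
          apply Real.rpow_le_rpow_of_exponent_ge (by norm_num) (by norm_num); linarith
      _ ≤ _ := Real.rpow_le_rpow (by norm_num) hSm (by linarith)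
  have hSl : 0 ≤ S ^ l := Real.rpow_nonneg hS0 _
  have h3 : S ^ l ≤ 1 / 8 := by
    have : 8 / 9 * S ^ l ≤ 1 / 9 := by
      calc 8 / 9 * S ^ l ≤ μ.real {ω | -a ≤ Y ω} ^ (1 - l) * S ^ l := by gcongr
        _ ≤ 1 / 9 := h1.trans hSa
    linarith
  have h4 : S ≤ (1 / 8 : ℝ) ^ (1 / l) := by
    have := Real.rpow_le_rpow hSl h3 (show 0 ≤ 1 / l by positivity)
    rwa [← Real.rpow_mul hS0, mul_one_div_cancel hl0.ne', Real.rpow_one] at this
  refine h4.trans ?_
  have h5 : (1 / 8 : ℝ) ≤ Real.exp (-2) := by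
    rw [Real.exp_neg, ← one_div]
    apply one_div_le_one_div_of_le (Real.exp_pos _)
    have : Real.exp 2 = Real.exp 1 ^ 2 := by rw [← Real.exp_nat_mul]; norm_num
    rw [this]
    have h6 := Real.exp_one_lt_d9
    have h7 := Real.exp_pos 1
    nlinarith
  calc (1 / 8 : ℝ) ^ (1 / l) ≤ Real.exp (-2) ^ (1 / l) :=
        Real.rpow_le_rpow (by norm_num) h5 (by positivity)
    _ = Real.exp (-2 * (1 / l)) := by rw [← Real.exp_mul]
    _ ≤ Real.exp (1 - y / a) := by
        rw [Real.exp_le_exp]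
        have : 1 / l = (y + a) / (2 * a) := by rw [hl]; field_simp
        rw [this]
        have h8 : -2 * ((y + a) / (2 * a)) = - (y / a) - 1 := by field_simp; ring
        rw [h8]; linarith

/-- exponential moments of a log-concave variable: `E exp(|Y| / (2a)) ≤ 23` when `9 E Y² ≤ a²`. -/
lemma exp_moment {μ : Measure Ω} [IsProbabilityMeasure μ] {Y : Ω → ℝ} (hLC : LCT μ Y)
    (hLC' : LCT μ (fun ω => - Y ω))
    (hY : AEMeasurable Y μ) (hY2 : Integrable (fun ω => Y ω ^ 2) μ)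
    {a : ℝ} (ha : 0 < a) (hv : 9 * ∫ ω, Y ω ^ 2 ∂μ ≤ a ^ 2) :
    ∫⁻ ω, ENNReal.ofReal (Real.exp (|Y ω| / (2 * a))) ∂μ ≤ 23 := by
  have htail : ∀ k : ℕ, μ {ω | (k * a : ℝ) ≤ |Y ω|} ≤ ENNReal.ofReal (2 * Real.exp (1 - k)) := by
    intro k
    have h1 : {ω | (k * a : ℝ) ≤ |Y ω|} ⊆ {ω | (k * a : ℝ) ≤ Y ω} ∪ {ω | (k * a : ℝ) ≤ - Y ω} := by
      intro ω hω
      simp only [Set.mem_ofPred_eq, Set.mem_union] at hω ⊢
      exact le_abs.mp hω
    have h2 := tail_le hLC hY hY2 ha hv (k * a)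
    have h3 := tail_le hLC' hY.neg (by simpa using hY2) ha (by simpa using hv) (k * a)
    have h4 : (k * a : ℝ) / a = k := by field_simp
    rw [h4] at h2 h3
    refine (measure_mono h1).trans ((measure_union_le _ _).trans ?_)
    have e : ∀ A : Set Ω, μ A = ENNReal.ofReal (μ.real A) := fun A =>
      (ofReal_measureReal (measure_ne_top _ _)).symm
    rw [e, e {ω | (k * a : ℝ) ≤ - Y ω}, ← ENNReal.ofReal_add measureReal_nonneg measureReal_nonneg]
    apply ENNReal.ofReal_le_ofReal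
    linarith
  have hpt : ∀ ω, ENNReal.ofReal (Real.exp (|Y ω| / (2 * a))) ≤
      ∑' k : ℕ, Set.indicator {ω | (k * a : ℝ) ≤ |Y ω|}
        (fun _ => ENNReal.ofReal (Real.exp ((k + 1) / 2))) ω := by
    intro ω
    set k := ⌊|Y ω| / a⌋₊ with hk
    have h1 : (k : ℝ) ≤ |Y ω| / a := Nat.floor_le (by positivity)
    have h2 : |Y ω| / a < k + 1 := Nat.lt_floor_add_one _
    have h3 : ω ∈ {ω | (k * a : ℝ) ≤ |Y ω|} := by
      simp only [Set.mem_ofPred_eq]
      rwa [le_div_iff₀ ha] at h1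
    refine le_trans ?_ (ENNReal.le_tsum k)
    rw [Set.indicator_of_mem h3]
    apply ENNReal.ofReal_le_ofReal
    rw [Real.exp_le_exp]
    have : |Y ω| / (2 * a) = (|Y ω| / a) / 2 := by field_simp
    rw [this]; linarith
  have hms : ∀ k : ℕ, NullMeasurableSet {ω | (k * a : ℝ) ≤ |Y ω|} μ := fun k =>
    nullMeasurableSet_le aemeasurable_const (by simpa using hY.norm)
  calc ∫⁻ ω, ENNReal.ofReal (Real.exp (|Y ω| / (2 * a))) ∂μ
      ≤ ∫⁻ ω, ∑' k : ℕ, Set.indicator {ω | (k * a : ℝ) ≤ |Y ω|}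
        (fun _ => ENNReal.ofReal (Real.exp ((k + 1) / 2))) ω ∂μ := lintegral_mono hpt
    _ = ∑' k : ℕ, ∫⁻ ω, Set.indicator {ω | (k * a : ℝ) ≤ |Y ω|}
        (fun _ => ENNReal.ofReal (Real.exp ((k + 1) / 2))) ω ∂μ := by
          apply lintegral_tsum
          intro k
          exact (aemeasurable_const).indicator₀ (hms k)
    _ = ∑' k : ℕ, ENNReal.ofReal (Real.exp ((k + 1) / 2)) * μ {ω | (k * a : ℝ) ≤ |Y ω|} := by
          congr 1; funext k
          rw [lintegral_indicator_const₀ (hms k)]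
    _ ≤ ∑' k : ℕ, ENNReal.ofReal (Real.exp ((k + 1) / 2)) * ENNReal.ofReal (2 * Real.exp (1 - k)) := by
          apply ENNReal.tsum_le_tsum
          intro k
          gcongr
          exact htail k
    _ = ∑' k : ℕ, ENNReal.ofReal (2 * Real.exp (3 / 2) * Real.exp (-(1 / 2)) ^ k) := by
          congr 1; funext k
          rw [← ENNReal.ofReal_mul (Real.exp_pos _).le]
          congr 1
          rw [← Real.exp_nat_mul]
          calc Real.exp ((k + 1) / 2) * (2 * Real.exp (1 - k))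
              = 2 * (Real.exp ((k + 1) / 2) * Real.exp (1 - k)) := by ring
            _ = 2 * (Real.exp (3 / 2) * Real.exp (k * -(1 / 2))) := by
                rw [← Real.exp_add, ← Real.exp_add]; congr 2; ring
            _ = _ := by ring
    _ = ENNReal.ofReal (2 * Real.exp (3 / 2) * (1 - Real.exp (-(1 / 2)))⁻¹) := by
          have h1 : Real.exp (-(1 / 2)) < 1 := by rw [Real.exp_lt_one_iff]; norm_num
          rw [← ENNReal.ofReal_tsum_of_nonneg (fun k => by positivity)]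
          · rw [tsum_mul_left, tsum_geometric_of_lt_one (Real.exp_pos _).le h1]
          · exact (summable_geometric_of_lt_one (Real.exp_pos _).le h1).mul_left _
    _ ≤ 23 := by
          have h23 : (23 : ℝ≥0∞) = ENNReal.ofReal 23 := by norm_num
          rw [h23]
          apply ENNReal.ofReal_le_ofReal
          have hx0 : 0 < Real.exp (1 / 2) := Real.exp_pos _
          set x := Real.exp (1 / 2) with hx
          have hx2 : x ^ 2 = Real.exp 1 := by
            rw [hx, ← Real.exp_nat_mul]; norm_num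
          have hx3 : Real.exp (3 / 2) = x ^ 3 := by
            rw [hx, ← Real.exp_nat_mul]; norm_num
          have hxm : Real.exp (-(1 / 2)) = x⁻¹ := Real.exp_neg _
          rw [hx3, hxm]
          have he1 := Real.exp_one_lt_d9
          have he2 := Real.exp_one_gt_d9
          have hxl : 1.6487 < x := by nlinarith
          have hxu : x < 1.6488 := by nlinarith
          have hx1 : 0 < x - 1 := by linarith
          have h1 : (1 - x⁻¹)⁻¹ = x / (x - 1) := by field_simp
          rw [h1]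
          have : 2 * x ^ 3 * (x / (x - 1)) = 2 * (x ^ 2) ^ 2 / (x - 1) := by ring
          rw [this, hx2, div_le_iff₀ hx1]
          nlinarith

/-- real form of `exp_moment`, for any rate `≤ 1 / (2a)` -/
lemma exp_moment_real {μ : Measure Ω} [IsProbabilityMeasure μ] {Y : Ω → ℝ} (hLC : LCT μ Y)
    (hLC' : LCT μ (fun ω => - Y ω))
    (hY : AEMeasurable Y μ) (hY2 : Integrable (fun ω => Y ω ^ 2) μ)
    {a : ℝ} (ha : 0 < a) (hv : 9 * ∫ ω, Y ω ^ 2 ∂μ ≤ a ^ 2) :
    Integrable (fun ω => Real.exp (|Y ω| / (2 * a))) μ ∧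
      ∫ ω, Real.exp (|Y ω| / (2 * a)) ∂μ ≤ 23 := by
  have h := exp_moment hLC hLC' hY hY2 ha hv
  have hm : AEStronglyMeasurable (fun ω => Real.exp (|Y ω| / (2 * a))) μ := by
    have : AEMeasurable (fun ω => Real.exp (|Y ω| / (2 * a))) μ := by
      have h1 : AEMeasurable (fun ω => |Y ω|) μ := by simpa using hY.norm
      exact Real.measurable_exp.comp_aemeasurable (h1.div_const _)
    exact this.aestronglyMeasurable
  have hi : Integrable (fun ω => Real.exp (|Y ω| / (2 * a))) μ := by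
    refine ⟨hm, ?_⟩
    rw [hasFiniteIntegral_iff_ofReal (Eventually.of_forall fun ω => (Real.exp_pos _).le)]
    exact h.trans_lt (by norm_num)
  refine ⟨hi, ?_⟩
  rw [integral_eq_lintegral_of_nonneg_ae (Eventually.of_forall fun ω => (Real.exp_pos _).le) hm]
  calc (∫⁻ ω, ENNReal.ofReal (Real.exp (|Y ω| / (2 * a))) ∂μ).toReal
      ≤ (23 : ℝ≥0∞).toReal := ENNReal.toReal_mono (by norm_num) h
    _ = 23 := by norm_num

section tilt

variable {μ : Measure Ω} [IsProbabilityMeasure μ] {X : Ω → ℝ} {a s : ℝ}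

/-- `E e^{s (X - EX)} ≥ 1`. -/
lemma one_le_mgf_sub {m : ℝ} (hX : Integrable X μ) (hm : ∫ ω, X ω ∂μ = m)
    (hi : Integrable (fun ω => Real.exp (s * (X ω - m))) μ) :
    1 ≤ ∫ ω, Real.exp (s * (X ω - m)) ∂μ := by
  have h1 : ∫ ω, (1 + s * (X ω - m)) ∂μ ≤ ∫ ω, Real.exp (s * (X ω - m)) ∂μ := by
    refine integral_mono ?_ hi fun ω => ?_
    · exact (integrable_const _).add ((hX.sub (integrable_const _)).const_mul s)
    · have := Real.add_one_le_exp (s * (X ω - m)); simp only; linarith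
  have h2 : ∫ ω, (1 + s * (X ω - m)) ∂μ = 1 := by
    have i1 : Integrable (fun ω => X ω - m) μ := hX.sub (integrable_const _)
    rw [integral_add (integrable_const _) (i1.const_mul s),
      integral_const_mul, integral_sub hX (integrable_const _), hm]
    simp
  linarith

omit [IsProbabilityMeasure μ] in
/-- integral against the tilted law, centred form -/
lemma integral_tilted_centred (m : ℝ) (G : Ω → ℝ) :
    ∫ ω, G ω ∂(μ.tilted (s * X ·)) =
      (∫ ω, Real.exp (s * (X ω - m)) * G ω ∂μ) / ∫ ω, Real.exp (s * (X ω - m)) ∂μ := by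
  rw [integral_tilted]
  have h1 : ∀ ω, Real.exp (s * (X ω - m)) = Real.exp (s * X ω) * Real.exp (-(s * m)) := by
    intro ω; rw [← Real.exp_add]; congr 1; ring
  have h2 : ∫ ω, Real.exp (s * (X ω - m)) * G ω ∂μ =
      (∫ ω, Real.exp (s * X ω) * G ω ∂μ) * Real.exp (-(s * m)) := by
    rw [← integral_mul_const]
    congr 1; funext ω; rw [h1]; ring
  have h3 : ∫ ω, Real.exp (s * (X ω - m)) ∂μ =
      (∫ ω, Real.exp (s * X ω) ∂μ) * Real.exp (-(s * m)) := by
    rw [← integral_mul_const]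
    congr 1; funext ω; rw [h1]
  rw [h2, h3, mul_div_mul_right _ _ (Real.exp_pos _).ne', ← integral_div]
  congr 1; funext ω; rw [smul_eq_mul]; ring

/-- **the tilted variance of a variable with log-concave tails is controlled by the variance** -/
theorem tilted_var_le (hLC : LCT μ X) (hLC' : LCT μ (fun ω => - X ω))
    (hX : AEMeasurable X μ) (hX2 : Integrable (fun ω => X ω ^ 2) μ) (ha : 0 < a)
    (hv : 9 * Var[X; μ] ≤ a ^ 2) (hs : |s| ≤ 1 / (4 * a)) :
    Var[X; μ.tilted (s * X ·)] ≤ 736 * a ^ 2 := by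
  set m := ∫ ω, X ω ∂μ with hm
  have hXL2 : MemLp X 2 μ := (memLp_two_iff_integrable_sq hX.aestronglyMeasurable).mpr hX2
  have hX1 : Integrable X μ := hXL2.integrable (by norm_num)
  have hY2 : Integrable (fun ω => (X ω - m) ^ 2) μ :=
    (hXL2.sub (memLp_const m)).integrable_sq
  have hLCm : LCT μ (fun ω => X ω - m) := hLC.sub_const m
  have hLCm' : LCT μ (fun ω => -(X ω - m)) := by
    have := hLC'.sub_const (-m)
    have e : (fun ω => - X ω - -m) = fun ω => -(X ω - m) := by funext ω; ring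
    rwa [e] at this
  have hvar : Var[X; μ] = ∫ ω, (X ω - m) ^ 2 ∂μ := variance_eq_integral hX
  obtain ⟨hi, hb⟩ := exp_moment_real hLCm hLCm' (hX.sub_const m) hY2 ha (by rw [← hvar]; exact hv)
  -- pointwise bounds
  have hexp : ∀ ω, Real.exp (s * (X ω - m)) ≤ Real.exp (|X ω - m| / (2 * a)) := by
    intro ω
    rw [Real.exp_le_exp]
    calc s * (X ω - m) ≤ |s * (X ω - m)| := le_abs_self _
      _ = |s| * |X ω - m| := abs_mul _ _
      _ ≤ 1 / (4 * a) * |X ω - m| := by gcongr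
      _ ≤ |X ω - m| / (2 * a) := by
          rw [one_div_mul_eq_div]
          apply div_le_div_of_nonneg_left (abs_nonneg _) (by positivity); linarith
  have hexpm : AEStronglyMeasurable (fun ω => Real.exp (s * (X ω - m))) μ :=
    (Real.measurable_exp.comp_aemeasurable ((hX.sub_const m).const_mul s)).aestronglyMeasurable
  have hie : Integrable (fun ω => Real.exp (s * (X ω - m))) μ :=
    hi.mono' hexpm (Eventually.of_forall fun ω => by
      rw [Real.norm_eq_abs, Real.abs_exp]; exact hexp ω)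
  have hone := one_le_mgf_sub hX1 hm.symm hie
  have hpt : ∀ ω, Real.exp (s * (X ω - m)) * (X ω - m) ^ 2 ≤
      32 * a ^ 2 * Real.exp (|X ω - m| / (2 * a)) := by
    intro ω
    set u := |X ω - m| / (4 * a) with hu
    have hu0 : 0 ≤ u := by positivity
    have h1 : u ^ 2 / 2 ≤ Real.exp u := by
      have := Real.quadratic_le_exp_of_nonneg hu0
      nlinarith
    have h2 : (X ω - m) ^ 2 = 16 * a ^ 2 * u ^ 2 := by
      rw [hu, div_pow, sq_abs]; field_simp; ring
    have h3 : Real.exp (s * (X ω - m)) ≤ Real.exp u := by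
      rw [Real.exp_le_exp]
      calc s * (X ω - m) ≤ |s * (X ω - m)| := le_abs_self _
        _ = |s| * |X ω - m| := abs_mul _ _
        _ ≤ 1 / (4 * a) * |X ω - m| := by gcongr
        _ = u := by rw [hu]; ring
    have h4 : Real.exp (|X ω - m| / (2 * a)) = Real.exp u * Real.exp u := by
      rw [← Real.exp_add]; congr 1; rw [hu]; field_simp; ring
    rw [h2, h4]
    calc Real.exp (s * (X ω - m)) * (16 * a ^ 2 * u ^ 2)
        ≤ Real.exp u * (16 * a ^ 2 * (2 * Real.exp u)) := by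
          gcongr; linarith
      _ = 32 * a ^ 2 * (Real.exp u * Real.exp u) := by ring
  have hnum : ∫ ω, Real.exp (s * (X ω - m)) * (X ω - m) ^ 2 ∂μ ≤ 736 * a ^ 2 := by
    have hg : Integrable (fun ω => 32 * a ^ 2 * Real.exp (|X ω - m| / (2 * a))) μ := hi.const_mul _
    have hmm : AEStronglyMeasurable (fun ω => Real.exp (s * (X ω - m)) * (X ω - m) ^ 2) μ :=
      hexpm.mul ((hX.sub_const m).pow_const 2).aestronglyMeasurable
    have hint : Integrable (fun ω => Real.exp (s * (X ω - m)) * (X ω - m) ^ 2) μ :=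
      hg.mono' hmm (Eventually.of_forall fun ω => by
        rw [Real.norm_eq_abs, abs_of_nonneg (by positivity)]; exact hpt ω)
    calc ∫ ω, Real.exp (s * (X ω - m)) * (X ω - m) ^ 2 ∂μ
        ≤ ∫ ω, 32 * a ^ 2 * Real.exp (|X ω - m| / (2 * a)) ∂μ := integral_mono hint hg hpt
      _ = 32 * a ^ 2 * ∫ ω, Real.exp (|X ω - m| / (2 * a)) ∂μ := integral_const_mul _ _
      _ ≤ 32 * a ^ 2 * 23 := by gcongr
      _ = 736 * a ^ 2 := by ring
  -- conclusion
  have hac : AEMeasurable X (μ.tilted (s * X ·)) := hX.mono_ac (tilted_absolutelyContinuous _ _)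
  have : IsProbabilityMeasure (μ.tilted (s * X ·)) := by
    apply isProbabilityMeasure_tilted
    have h1 : ∀ ω, Real.exp (s * X ω) = Real.exp (s * (X ω - m)) * Real.exp (s * m) := by
      intro ω; rw [← Real.exp_add]; congr 1; ring
    simp only [h1]
    exact hie.mul_const _
  have hle : Var[X; μ.tilted (s * X ·)] ≤ ∫ ω, (X ω - m) ^ 2 ∂(μ.tilted (s * X ·)) := by
    have h1 : Var[fun ω => X ω - m; μ.tilted (s * X ·)] = Var[X; μ.tilted (s * X ·)] :=
      variance_sub_const hac.aestronglyMeasurable m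
    rw [← h1]
    exact variance_le_expectation_sq (hac.sub_const m).aestronglyMeasurable
  refine hle.trans ?_
  rw [integral_tilted_centred m]
  rw [div_le_iff₀ (by linarith)]
  calc _ ≤ 736 * a ^ 2 := hnum
    _ ≤ 736 * a ^ 2 * ∫ ω, Real.exp (s * (X ω - m)) ∂μ := by
        nlinarith [sq_nonneg a]

/-- the tilted law has a density bounded in `L²` by an absolute constant -/
theorem integral_tilted_le (hLC : LCT μ X) (hLC' : LCT μ (fun ω => - X ω))
    (hX : AEMeasurable X μ) (hX2 : Integrable (fun ω => X ω ^ 2) μ) (ha : 0 < a)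
    (hv : 9 * Var[X; μ] ≤ a ^ 2) (hs : |s| ≤ 1 / (4 * a)) {G : Ω → ℝ} (hG : MemLp G 2 μ)
    (hG0 : 0 ≤ᵐ[μ] G) :
    ∫ ω, G ω ∂(μ.tilted (s * X ·)) ≤ Real.sqrt (23 * ∫ ω, G ω ^ 2 ∂μ) := by
  set m := ∫ ω, X ω ∂μ with hm
  have hXL2 : MemLp X 2 μ := (memLp_two_iff_integrable_sq hX.aestronglyMeasurable).mpr hX2
  have hX1 : Integrable X μ := hXL2.integrable (by norm_num)
  have hY2 : Integrable (fun ω => (X ω - m) ^ 2) μ :=
    (hXL2.sub (memLp_const m)).integrable_sq
  have hLCm : LCT μ (fun ω => X ω - m) := hLC.sub_const m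
  have hLCm' : LCT μ (fun ω => -(X ω - m)) := by
    have := hLC'.sub_const (-m)
    have e : (fun ω => - X ω - -m) = fun ω => -(X ω - m) := by funext ω; ring
    rwa [e] at this
  have hvar : Var[X; μ] = ∫ ω, (X ω - m) ^ 2 ∂μ := variance_eq_integral hX
  obtain ⟨hi, hb⟩ := exp_moment_real hLCm hLCm' (hX.sub_const m) hY2 ha (by rw [← hvar]; exact hv)
  have hexp2 : ∀ ω, Real.exp (s * (X ω - m)) ^ 2 ≤ Real.exp (|X ω - m| / (2 * a)) := by
    intro ω
    rw [← Real.exp_nat_mul, Real.exp_le_exp]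
    calc ((2 : ℕ) : ℝ) * (s * (X ω - m)) = 2 * (s * (X ω - m)) := by norm_num
      _ ≤ 2 * |s * (X ω - m)| := by gcongr; exact le_abs_self _
      _ = 2 * (|s| * |X ω - m|) := by rw [abs_mul]
      _ ≤ 2 * (1 / (4 * a) * |X ω - m|) := by gcongr
      _ = |X ω - m| / (2 * a) := by field_simp; ring
  have hexpm : AEStronglyMeasurable (fun ω => Real.exp (s * (X ω - m))) μ :=
    (Real.measurable_exp.comp_aemeasurable ((hX.sub_const m).const_mul s)).aestronglyMeasurable
  have hE2 : Integrable (fun ω => Real.exp (s * (X ω - m)) ^ 2) μ :=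
    hi.mono' (hexpm.pow 2) (Eventually.of_forall fun ω => by
      rw [Real.norm_eq_abs, abs_of_nonneg (by positivity)]; exact hexp2 ω)
  have hEL2 : MemLp (fun ω => Real.exp (s * (X ω - m))) 2 μ :=
    (memLp_two_iff_integrable_sq hexpm).mpr hE2
  have hie : Integrable (fun ω => Real.exp (s * (X ω - m))) μ := hEL2.integrable (by norm_num)
  have hone := one_le_mgf_sub hX1 hm.symm hie
  rw [integral_tilted_centred m, div_le_iff₀ (by linarith)]
  have hcs : ∫ ω, Real.exp (s * (X ω - m)) * G ω ∂μ ≤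
      Real.sqrt (∫ ω, Real.exp (s * (X ω - m)) ^ 2 ∂μ) * Real.sqrt (∫ ω, G ω ^ 2 ∂μ) := by
    have h1 := integral_mul_le_Lp_mul_Lq_of_nonneg (μ := μ) (p := 2) (q := 2)
      Real.HolderConjugate.two_two
      (f := fun ω => Real.exp (s * (X ω - m))) (g := G)
      (Eventually.of_forall fun ω => (Real.exp_pos _).le) hG0 (by simpa using hEL2) (by simpa using hG)
    simp only [Real.rpow_two] at h1
    rw [Real.sqrt_eq_rpow, Real.sqrt_eq_rpow]
    exact h1
  have h2 : ∫ ω, Real.exp (s * (X ω - m)) ^ 2 ∂μ ≤ 23 :=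
    (integral_mono hE2 hi hexp2).trans hb
  calc ∫ ω, Real.exp (s * (X ω - m)) * G ω ∂μ
      ≤ Real.sqrt (∫ ω, Real.exp (s * (X ω - m)) ^ 2 ∂μ) * Real.sqrt (∫ ω, G ω ^ 2 ∂μ) := hcs
    _ ≤ Real.sqrt 23 * Real.sqrt (∫ ω, G ω ^ 2 ∂μ) := by gcongr
    _ = Real.sqrt (23 * ∫ ω, G ω ^ 2 ∂μ) := by rw [Real.sqrt_mul (by norm_num)]
    _ ≤ Real.sqrt (23 * ∫ ω, G ω ^ 2 ∂μ) * ∫ ω, Real.exp (s * (X ω - m)) ∂μ := by
        nlinarith [Real.sqrt_nonneg (23 * ∫ ω, G ω ^ 2 ∂μ)]

/-- events -/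
theorem tilted_real_le (hLC : LCT μ X) (hLC' : LCT μ (fun ω => - X ω))
    (hX : AEMeasurable X μ) (hX2 : Integrable (fun ω => X ω ^ 2) μ) (ha : 0 < a)
    (hv : 9 * Var[X; μ] ≤ a ^ 2) (hs : |s| ≤ 1 / (4 * a)) {A : Set Ω} (hA : MeasurableSet A) :
    (μ.tilted (s * X ·)).real A ≤ Real.sqrt (23 * μ.real A) := by
  have h := integral_tilted_le hLC hLC' hX hX2 ha hv hs (G := A.indicator 1)
    ((memLp_indicator_const 2 hA (1 : ℝ) (Or.inr (measure_ne_top _ _))))
    (Eventually.of_forall fun ω => Set.indicator_nonneg (fun _ _ => zero_le_one) ω)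
  rw [integral_indicator_one hA] at h
  have h2 : ∫ ω, (A.indicator (1 : Ω → ℝ) ω) ^ 2 ∂μ = μ.real A := by
    rw [← integral_indicator_one hA]
    congr 1; funext ω
    by_cases hω : ω ∈ A <;> simp [hω]
  rwa [h2] at h

end tilt

section lim
variable {Ω : ℕ → Type*} [∀ n, MeasurableSpace (Ω n)] {μ : ∀ n, Measure (Ω n)}
  [∀ n, IsProbabilityMeasure (μ n)] {X : ∀ n, Ω n → ℝ}

/-- **CLT from the tilted variances, log-concave laws.** -/
theorem gaussian_of_tilted_var_lc {s₀ q : ℝ} (hs₀ : 0 < s₀)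
    (hX : ∀ n, AEMeasurable (X n) (μ n)) (hbd : ∀ n, ∃ C, ∀ ω, |X n ω| ≤ C)
    (hLC : ∀ n, LCT (μ n) (X n)) (hLC' : ∀ n, LCT (μ n) (fun ω => - X n ω))
    (hq : ∀ s : ℝ, |s| < s₀ → Tendsto (fun n => Var[X n; (μ n).tilted (s * X n ·)]) atTop (𝓝 q))
    (t : ℝ) :
    Tendsto (fun n => ∫ ω, Complex.exp (Complex.I * (t * (X n ω - ∫ ω, X n ω ∂(μ n)) : ℝ)) ∂(μ n))
      atTop (𝓝 (Complex.exp (-(q * t ^ 2 / 2) : ℝ))) := by
  have hq0 : 0 ≤ q := ge_of_tendsto (hq 0 (by simpa using hs₀))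
    (Eventually.of_forall fun n => variance_nonneg _ _)
  set a : ℝ := 3 * Real.sqrt (q + 1) with ha
  have ha0 : 0 < a := by
    have : 0 < Real.sqrt (q + 1) := Real.sqrt_pos.mpr (by linarith)
    positivity
  have ha2 : a ^ 2 = 9 * (q + 1) := by
    rw [ha, mul_pow, Real.sq_sqrt (by linarith)]; norm_num
  have hv0 : ∀ᶠ n in atTop, Var[X n; μ n] ≤ q + 1 := by
    have h1 := hq 0 (by simpa using hs₀)
    have h2 := h1.eventually (gt_mem_nhds (show q < q + 1 by linarith))
    filter_upwards [h2] with n hn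
    have : (μ n).tilted (fun ω => (0 : ℝ) * X n ω) = μ n := by
      simp only [zero_mul]
      exact tilted_const (μ n) 0
    rw [this] at hn
    exact hn.le
  have hs1 : 0 < min s₀ (1 / (4 * a)) := by positivity
  refine gaussian_of_tilted_var (s₀ := min s₀ (1 / (4 * a))) (B := 736 * a ^ 2) hs1 hX hbd ?_ ?_ t
  · filter_upwards [hv0] with n hn s hs
    obtain ⟨C, hC⟩ := hbd n
    refine tilted_var_le (hLC n) (hLC' n) (hX n) ?_ ha0 (by rw [ha2]; linarith)
      (hs.le.trans (min_le_right _ _))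
    refine Integrable.of_bound (C := C ^ 2) ((hX n).pow_const 2).aestronglyMeasurable
      (Eventually.of_forall fun ω => ?_)
    rw [Real.norm_eq_abs, abs_of_nonneg (sq_nonneg _), ← sq_abs]
    exact pow_le_pow_left₀ (abs_nonneg _) (hC ω) 2
  · intro s hs
    exact hq s (hs.trans_le (min_le_left _ _))

end lim

end Crest.Agent.R144.Tilt714
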