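import Mathlib
import Crest.Prelude.Def_TriHeights
import Crest.Agent.R144.Tilt3_714
import Crest.Agent.R144.Ham5_560

/-!
# R144 (S0197), block TILT (helper714), part 4: the end of S0197 on the hammock polytope

`LCT_unif`: linear (affine) functionals of the uniform law on a convex body have log-concave tails.
`law_of_tilted_var`: the literal conclusion of S0197 from the convergence of the variances of the
affine pairing under the laws tilted by `exp (s * pairing)`, `|s| < s₀`.
-/

set_option autoImplicit false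

namespace Crest.Agent.R144.Tilt714

open Filter Topology Metric MeasureTheory ProbabilityTheory
open Crest.ProbabilityR.TriHeights Crest.Agent.R144.Ham560
open scoped NNReal ENNReal Real

section unif

variable {ι : Type*} [Fintype ι]

/-- the uniform law on a convex body has log-concave tails for every concave functional -/
theorem LCT_unif {K : Set (ι → ℝ)} (hK : Convex ℝ K) (hKm : MeasurableSet K)
    (hK0 : volume K ≠ 0) (hK1 : volume K ≠ ∞) {X : (ι → ℝ) → ℝ} (hX : Measurable X)
    (haff : ∀ (x y : ι → ℝ) (t : ℝ), 0 < t → t < 1 →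
      (1 - t) * X x + t * X y ≤ X ((1 - t) • x + t • y)) :
    LCT ((volume K)⁻¹ • volume.restrict K) X := by
  intro x y t ht0 ht1
  have hms : ∀ z : ℝ, MeasurableSet {p : ι → ℝ | z ≤ X p} := fun z =>
    measurableSet_le measurable_const hX
  have hreal : ∀ z : ℝ, ((volume K)⁻¹ • volume.restrict K).real {p : ι → ℝ | z ≤ X p} =
      (volume K).toReal⁻¹ * (volume ({p : ι → ℝ | z ≤ X p} ∩ K)).toReal := by
    intro z
    rw [measureReal_def, Measure.smul_apply, Measure.restrict_apply (hms z), smul_eq_mul,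
      ENNReal.toReal_mul, ENNReal.toReal_inv]
  have hfin : ∀ z : ℝ, volume ({p : ι → ℝ | z ≤ X p} ∩ K) ≠ ∞ := fun z =>
    ((measure_mono Set.inter_subset_right).trans_lt hK1.lt_top).ne
  have key := vol_mul_le ht0 ht1 ((hms x).inter hKm) ((hms y).inter hKm)
    ((hms ((1 - t) * x + t * y)).inter hKm) (by
      rintro p ⟨hp1, hp2⟩ q ⟨hq1, hq2⟩
      simp only [Set.mem_ofPred_eq] at hp1 hq1
      refine ⟨?_, hK hp2 hq2 (by linarith) ht0.le (by ring)⟩
      simp only [Set.mem_ofPred_eq]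
      refine le_trans ?_ (haff p q t ht0 ht1)
      have h1 := mul_le_mul_of_nonneg_left hp1 (show (0 : ℝ) ≤ 1 - t by linarith)
      have h2 := mul_le_mul_of_nonneg_left hq1 ht0.le
      linarith)
  have key2 := ENNReal.toReal_mono (hfin _) key
  rw [ENNReal.toReal_mul, ← ENNReal.toReal_rpow, ← ENNReal.toReal_rpow] at key2
  rw [hreal, hreal, hreal]
  have hc : 0 < (volume K).toReal⁻¹ := inv_pos.mpr (ENNReal.toReal_pos hK0 hK1)
  rw [Real.mul_rpow hc.le ENNReal.toReal_nonneg, Real.mul_rpow hc.le ENNReal.toReal_nonneg]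
  have hcc : (volume K).toReal⁻¹ ^ (1 - t) * (volume K).toReal⁻¹ ^ t = (volume K).toReal⁻¹ := by
    rw [← Real.rpow_add hc]; simp
  calc _ = ((volume K).toReal⁻¹ ^ (1 - t) * (volume K).toReal⁻¹ ^ t) *
        ((volume ({p : ι → ℝ | x ≤ X p} ∩ K)).toReal ^ (1 - t) *
          (volume ({p : ι → ℝ | y ≤ X p} ∩ K)).toReal ^ t) := by ring
    _ ≤ _ := by
        rw [hcc]
        exact mul_le_mul_of_nonneg_left key2 hc.le

end unif

section ham

variable {U : Type*} [DecidableEq U] {F : Finset U} {E : Finset (U × U)} {ξ : U → ℝ}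

theorem LCT_hamP (hA : Anch F E) (hξ : ∀ u, |ξ u| ≤ 1 / 2) {X : (F → ℝ) → ℝ} (hX : Measurable X)
    (haff : ∀ (x y : F → ℝ) (t : ℝ), 0 < t → t < 1 →
      (1 - t) * X x + t * X y ≤ X ((1 - t) • x + t • y)) :
    LCT (hamP F E ξ) X :=
  LCT_unif convex_ham isClosed_ham.measurableSet (volume_ham_ne_zero hξ)
    (volume_ham_lt_top hA).ne hX haff

end ham

/-- the affine pairing as a function of the free coordinates -/
noncomputable def pairX (δ : ℝ) (T : Finset Tri) (Ap Am : Set (ℤ × ℤ)) (a : ℝ) (f : ℂ → ℝ)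
    (x : freeVerts T Ap Am → ℝ) : ℝ :=
  affinePairing δ T f (ext (freeVerts T Ap Am) (triXi Ap Am a) x)

lemma pairX_affine (δ : ℝ) (T : Finset Tri) (Ap Am : Set (ℤ × ℤ)) (a : ℝ) (f : ℂ → ℝ)
    (x y : freeVerts T Ap Am → ℝ) (t : ℝ) :
    pairX δ T Ap Am a f ((1 - t) • x + t • y) =
      (1 - t) * pairX δ T Ap Am a f x + t * pairX δ T Ap Am a f y := by
  have hext : ∀ u, ext (freeVerts T Ap Am) (triXi Ap Am a) ((1 - t) • x + t • y) u =
      (1 - t) * ext (freeVerts T Ap Am) (triXi Ap Am a) x u +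
        t * ext (freeVerts T Ap Am) (triXi Ap Am a) y u := by
    intro u
    by_cases hu : u ∈ freeVerts T Ap Am
    · simp [ext, hu]
    · simp only [ext, hu, dite_false]; ring
  simp only [pairX, affinePairing, hext, Finset.mul_sum, ← Finset.sum_add_distrib]
  refine Finset.sum_congr rfl fun τ _ => Finset.sum_congr rfl fun k _ => ?_
  ring

lemma pairX_continuous (δ : ℝ) (T : Finset Tri) (Ap Am : Set (ℤ × ℤ)) (a : ℝ) (f : ℂ → ℝ) :
    Continuous (pairX δ T Ap Am a f) := by
  unfold pairX affinePairing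
  refine continuous_finsetSum _ fun τ _ => continuous_finsetSum _ fun k _ => ?_
  refine Continuous.mul ?_ continuous_const
  by_cases hu : corner τ k ∈ freeVerts T Ap Am
  · simp only [ext, hu, dite_true]
    exact continuous_apply _
  · simp only [ext, hu, dite_false]
    exact continuous_const

/-- **The end of S0197**: convergence of the variances of the affine pairing under the laws
tilted by the pairing itself implies the central limit theorem in the literal form. -/
theorem law_of_tilted_var {σ a q : ℝ} (hσ : 0 < σ) (ha0 : 0 < a) (ha1 : a ≤ 1 / 2)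
    {δ : ℕ → ℝ} {T : ℕ → Finset Tri} {Ap Am : ℕ → Set (ℤ × ℤ)} {f : ℂ → ℝ}
    (hd : ∀ᶠ n in atTop, ∀ v, v ∈ Ap n → v ∉ Am n)
    (hA : ∀ᶠ n in atTop, Anch (freeVerts (T n) (Ap n) (Am n)) (triE (T n)))
    {s₀ : ℝ} (hs₀ : 0 < s₀)
    (hq : ∀ s : ℝ, |s| < s₀ → Tendsto (fun n =>
      Var[pairX (δ n) (T n) (Ap n) (Am n) a f;
        (hamP (freeVerts (T n) (Ap n) (Am n)) (triE (T n)) (triXi (Ap n) (Am n) a)).tilted
          (s * pairX (δ n) (T n) (Ap n) (Am n) a f ·)]) atTop (𝓝 (σ ^ 2 * q)))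
    (t : ℝ) :
    Tendsto (fun n : ℕ => realExpect (T n) (Ap n) (Am n) a
            (fun h => Complex.exp (Complex.I *
              (t * (affinePairing (δ n) (T n) f h -
              (realExpect (T n) (Ap n) (Am n) a
                (fun h' => (affinePairing (δ n) (T n) f h' : ℂ))).re) / σ : ℝ))))
          atTop (𝓝 (Complex.exp (-(q * t ^ 2 / 2 : ℝ)))) := by
  obtain ⟨N, hN⟩ := eventually_atTop.mp (hd.and hA)
  rw [← tendsto_add_atTop_iff_nat N]
  have hξ : ∀ n u, |triXi (Ap n) (Am n) a u| ≤ 1 / 2 := fun n u =>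
    (abs_triXi_le ha0.le u).trans ha1
  set μ : ∀ n, Measure (freeVerts (T (n + N)) (Ap (n + N)) (Am (n + N)) → ℝ) := fun n =>
    hamP (freeVerts (T (n + N)) (Ap (n + N)) (Am (n + N))) (triE (T (n + N)))
      (triXi (Ap (n + N)) (Am (n + N)) a) with hμ
  set X : ∀ n, (freeVerts (T (n + N)) (Ap (n + N)) (Am (n + N)) → ℝ) → ℝ := fun n =>
    pairX (δ (n + N)) (T (n + N)) (Ap (n + N)) (Am (n + N)) a f with hX
  have hP : ∀ n, IsProbabilityMeasure (μ n) := fun n =>
    isProbabilityMeasure_hamP (hN (n + N) (Nat.le_add_left _ _)).2 (hξ _)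
  have hXc : ∀ n, Continuous (X n) := fun n => pairX_continuous _ _ _ _ _ _
  -- replace `X n` by a bounded variable: truncate outside the compact polytope
  have hcpt : ∀ n, IsCompact (ham (freeVerts (T (n + N)) (Ap (n + N)) (Am (n + N)))
      (triE (T (n + N))) (triXi (Ap (n + N)) (Am (n + N)) a)) := fun n =>
    isCompact_ham (hN (n + N) (Nat.le_add_left _ _)).2
  have hbd : ∀ n, ∃ C : ℝ, ∀ x ∈ ham (freeVerts (T (n + N)) (Ap (n + N)) (Am (n + N)))
      (triE (T (n + N))) (triXi (Ap (n + N)) (Am (n + N)) a), |X n x| ≤ C := fun n => by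
    obtain ⟨C, hC⟩ := (hcpt n).exists_bound_of_continuousOn (hXc n).continuousOn
    exact ⟨C, fun x hx => by simpa using hC x hx⟩
  have hae : ∀ n, ∀ᵐ x ∂(μ n), x ∈ ham (freeVerts (T (n + N)) (Ap (n + N)) (Am (n + N)))
      (triE (T (n + N))) (triXi (Ap (n + N)) (Am (n + N)) a) := fun n => by
    have h1 : ∀ᵐ x ∂(volume.restrict (ham (freeVerts (T (n + N)) (Ap (n + N)) (Am (n + N)))
      (triE (T (n + N))) (triXi (Ap (n + N)) (Am (n + N)) a))),
        x ∈ ham (freeVerts (T (n + N)) (Ap (n + N)) (Am (n + N)))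
      (triE (T (n + N))) (triXi (Ap (n + N)) (Am (n + N)) a) :=
      ae_restrict_mem isClosed_ham.measurableSet
    exact Measure.ae_smul_measure h1 _
  set K : ∀ n, Set (freeVerts (T (n + N)) (Ap (n + N)) (Am (n + N)) → ℝ) := fun n =>
    ham (freeVerts (T (n + N)) (Ap (n + N)) (Am (n + N))) (triE (T (n + N)))
      (triXi (Ap (n + N)) (Am (n + N)) a) with hK
  have hKm : ∀ n, MeasurableSet (K n) := fun n => isClosed_ham.measurableSet
  set X' : ∀ n, (freeVerts (T (n + N)) (Ap (n + N)) (Am (n + N)) → ℝ) → ℝ := fun n =>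
    (K n).indicator (X n) with hX'
  have hXX : ∀ n, X' n =ᵐ[μ n] X n := fun n => by
    filter_upwards [hae n] with x hx
    exact Set.indicator_of_mem hx _
  have hLC : ∀ n, LCT (μ n) (X n) := fun n =>
    LCT_hamP (hN (n + N) (Nat.le_add_left _ _)).2 (hξ _) (hXc n).measurable
      (fun x y t _ _ => (pairX_affine _ _ _ _ _ _ x y t).ge)
  have hLC' : ∀ n, LCT (μ n) (fun x => - X n x) := fun n =>
    LCT_hamP (hN (n + N) (Nat.le_add_left _ _)).2 (hξ _) (hXc n).measurable.neg
      (fun x y t _ _ => by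
        have := pairX_affine (δ (n + N)) (T (n + N)) (Ap (n + N)) (Am (n + N)) a f x y t
        simp only [hX]; rw [this]; linarith)
  have hcongr : ∀ n, ∀ Y Y' : (freeVerts (T (n + N)) (Ap (n + N)) (Am (n + N)) → ℝ) → ℝ,
      Y =ᵐ[μ n] Y' → LCT (μ n) Y → LCT (μ n) Y' := by
    intro n Y Y' h hY x y t ht0 ht1
    have e : ∀ z : ℝ, (μ n).real {ω | z ≤ Y' ω} = (μ n).real {ω | z ≤ Y ω} := by
      intro z
      apply measureReal_congr
      filter_upwards [h] with ω hω
      show ({ω | z ≤ Y' ω} ω : Prop) = ({ω | z ≤ Y ω} ω : Prop)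
      have : (ω ∈ {ω | z ≤ Y' ω}) = (ω ∈ {ω | z ≤ Y ω}) := by
        simp only [Set.mem_ofPred_eq, hω]
      exact this
    rw [e, e, e]
    exact hY x y t ht0 ht1
  have hmain := gaussian_of_tilted_var_lc (μ := μ) (X := X') (q := σ ^ 2 * q) hs₀
    (fun n => ((hXc n).measurable.indicator (hKm n)).aemeasurable)
    (fun n => by
      obtain ⟨C, hC⟩ := hbd n
      refine ⟨max C 0, fun x => ?_⟩
      by_cases hx : x ∈ K n
      · simp only [hX', Set.indicator_of_mem hx]
        exact (hC x hx).trans (le_max_left _ _)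
      · simp only [hX', Set.indicator_of_notMem hx, abs_zero]
        exact le_max_right _ _)
    (fun n => hcongr n _ _ (hXX n).symm (hLC n))
    (fun n => hcongr n _ _ ((hXX n).symm.fun_comp (fun z => -z)) (hLC' n))
    (fun s hs => by
      have h1 := (tendsto_add_atTop_iff_nat N).mpr (hq s hs)
      refine h1.congr fun n => ?_
      have h2 : (μ n).tilted (s * X' n ·) = (μ n).tilted (s * X n ·) := by
        apply tilted_congr
        filter_upwards [hXX n] with x hx
        rw [hx]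
      have h3 : Var[X' n; (μ n).tilted (s * X n ·)] = Var[X n; (μ n).tilted (s * X n ·)] :=
        variance_congr ((tilted_absolutelyContinuous _ _).ae_eq (hXX n))
      rw [h2, h3])
    (t / σ)
  have hfin : Complex.exp (-(σ ^ 2 * q * (t / σ) ^ 2 / 2) : ℝ) =
      Complex.exp (-(q * t ^ 2 / 2 : ℝ)) := by
    have : σ ^ 2 * q * (t / σ) ^ 2 / 2 = q * t ^ 2 / 2 := by field_simp
    rw [this, Complex.ofReal_neg]
  rw [hfin] at hmain
  refine hmain.congr fun n => ?_
  have hdn := (hN (n + N) (Nat.le_add_left _ _)).1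
  rw [realExpect_eq' _ _ _ _ hdn]
  have hre : (realExpect (T (n + N)) (Ap (n + N)) (Am (n + N)) a
      (fun h' => (affinePairing (δ (n + N)) (T (n + N)) f h' : ℂ))).re = ∫ x, X n x ∂(μ n) := by
    rw [realExpect_eq' _ _ _ _ hdn]
    have : ∫ x, ((X n x : ℝ) : ℂ) ∂(μ n) = ((∫ x, X n x ∂(μ n) : ℝ) : ℂ) := integral_ofReal
    have h2 := congrArg Complex.re this
    rw [Complex.ofReal_re] at h2
    exact h2
  rw [hre]
  have hint : ∫ x, X' n x ∂(μ n) = ∫ x, X n x ∂(μ n) := integral_congr_ae (hXX n)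
  rw [hint]
  apply integral_congr_ae
  filter_upwards [hXX n] with x hx
  rw [hx]
  congr 2
  have : t / σ * (X n x - ∫ x, X n x ∂(μ n)) = t * (X n x - ∫ x, X n x ∂(μ n)) / σ := by ring
  rw [this]
  rfl

end Crest.Agent.R144.Tilt714
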