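import Mathlib
import Crest.Prelude.Def_TriHeights
import Crest.Agent.R144.Tilt4_714
import Crest.Agent.R144.Stein1_540

/-!
# R144 (S0197), block STEIN (helper540), part 2: literal S0197 from untilted inputs

`SteinAsymp κ`: for every admissible instance the arcs are disjoint, every free vertex is joined to
a non-free one (eventually), the variance of the affine pairing under the UNTILTED uniform law is
eventually `≤ κ * domainGreenForm φ f + ε`, and eventually there is a tangent field `Y`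
(`MW121.Tan`) with `∫ tr (jac Y * jac Y) ≤ κ * domainGreenForm φ f + ε` and
`∫ |D pairX (Y) - κ * domainGreenForm φ f| ≤ ε`.

`s0197_of_stein`: `SteinAsymp κ` with `0 < κ ≤ 2/π` implies the literal statement S0197.
-/

set_option autoImplicit false

namespace Crest.Agent.R144.Stein540

open Filter Topology Metric MeasureTheory ProbabilityTheory
open Crest.ProbabilityR.TriHeights Crest.Agent.R144.Ham560 Crest.Agent.R144.MW121
  Crest.Agent.R144.Tilt714
open scoped NNReal ENNReal Real ContDiff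

section affine

variable {V : Type*} [Fintype V]

/-- an affine function is a continuous linear form plus a constant -/
lemma exists_linear {X : (V → ℝ) → ℝ}
    (hX : ∀ (x y : V → ℝ) (t : ℝ), X ((1 - t) • x + t • y) = (1 - t) * X x + t * X y) :
    ∃ (l : (V → ℝ) →L[ℝ] ℝ) (b : ℝ), ∀ x, X x = l x + b := by
  have hs : ∀ (r : ℝ) (x : V → ℝ), X (r • x) - X 0 = r * (X x - X 0) := by
    intro r x
    have := hX 0 x r
    rw [smul_zero, zero_add] at this
    rw [this]; ring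
  have ha : ∀ x y : V → ℝ, X (x + y) - X 0 = (X x - X 0) + (X y - X 0) := by
    intro x y
    have h1 := hX x y (1 / 2)
    have h2 := hs 2 ((1 - (1 / 2 : ℝ)) • x + (1 / 2 : ℝ) • y)
    have e : (2 : ℝ) • ((1 - (1 / 2 : ℝ)) • x + (1 / 2 : ℝ) • y) = x + y := by
      rw [smul_add, smul_smul, smul_smul]; norm_num
    rw [e, h1] at h2
    rw [h2]; ring
  let l0 : (V → ℝ) →ₗ[ℝ] ℝ :=
    { toFun := fun x => X x - X 0
      map_add' := ha
      map_smul' := fun r x => by simpa using hs r x }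
  refine ⟨LinearMap.toContinuousLinearMap l0, X 0, fun x => ?_⟩
  show X x = (X x - X 0) + X 0
  ring

lemma fderiv_affine {X : (V → ℝ) → ℝ} {l : (V → ℝ) →L[ℝ] ℝ} {b : ℝ}
    (hX : ∀ x, X x = l x + b) (h : V → ℝ) : fderiv ℝ X h = l := by
  have e : X = fun x => l x + b := funext hX
  rw [e]
  exact (l.hasFDerivAt.add_const b).fderiv

end affine

/-- **The untilted end**: variance upper bound and Stein fields imply the central limit theorem in
the literal form. -/
theorem law_of_stein {σ a q : ℝ} (hσ : 0 < σ) (ha0 : 0 < a) (ha1 : a ≤ 1 / 2)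
    {δ : ℕ → ℝ} {T : ℕ → Finset Tri} {Ap Am : ℕ → Set (ℤ × ℤ)} {f : ℂ → ℝ}
    (hd : ∀ᶠ n in atTop, ∀ v, v ∈ Ap n → v ∉ Am n)
    (hA : ∀ᶠ n in atTop, Anch (freeVerts (T n) (Ap n) (Am n)) (triE (T n)))
    (hup : ∀ ε : ℝ, 0 < ε → ∀ᶠ n in atTop,
      Var[pairX (δ n) (T n) (Ap n) (Am n) a f;
        hamP (freeVerts (T n) (Ap n) (Am n)) (triE (T n)) (triXi (Ap n) (Am n) a)] ≤
          σ ^ 2 * q + ε)
    (hY : ∀ ε : ℝ, 0 < ε → ∀ᶠ n in atTop,
      ∃ (Y : (freeVerts (T n) (Ap n) (Am n) → ℝ) → (freeVerts (T n) (Ap n) (Am n) → ℝ))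
        (c : ℝ≥0) (t0 : ℝ),
        Tan (ham (freeVerts (T n) (Ap n) (Am n)) (triE (T n)) (triXi (Ap n) (Am n) a)) Y c t0 ∧
        ∫ h, (jac Y h * jac Y h).trace
          ∂(hamP (freeVerts (T n) (Ap n) (Am n)) (triE (T n)) (triXi (Ap n) (Am n) a)) ≤
            σ ^ 2 * q + ε ∧
        ∫ h, |fderiv ℝ (pairX (δ n) (T n) (Ap n) (Am n) a f) h (Y h) - σ ^ 2 * q|
          ∂(hamP (freeVerts (T n) (Ap n) (Am n)) (triE (T n)) (triXi (Ap n) (Am n) a)) ≤ ε)
    (t : ℝ) :
    Tendsto (fun n : ℕ => realExpect (T n) (Ap n) (Am n) a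
            (fun h => Complex.exp (Complex.I *
              (t * (affinePairing (δ n) (T n) f h -
              (realExpect (T n) (Ap n) (Am n) a
                (fun h' => (affinePairing (δ n) (T n) f h' : ℂ))).re) / σ : ℝ))))
          atTop (𝓝 (Complex.exp (-(q * t ^ 2 / 2 : ℝ)))) := by
  set Q : ℝ := σ ^ 2 * q with hQ
  have hQ0 : 0 ≤ Q := by
    refine le_of_forall_pos_le_add fun ε hε => ?_
    obtain ⟨n, hn⟩ := (hup ε hε).exists
    exact (variance_nonneg _ _).trans hn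
  set u : ℝ := t / σ with hu
  have hfin : Real.exp (-(Q * u ^ 2 / 2)) = Real.exp (-(q * t ^ 2 / 2)) := by
    congr 2
    rw [hQ, hu]; field_simp
  rw [Metric.tendsto_atTop]
  intro η hη
  -- choose `ε`
  obtain ⟨ε, hε0, hε⟩ : ∃ ε : ℝ, 0 < ε ∧ 2 * (|u| * (2 * Real.sqrt ε + |u| * ε)) < η := by
    have hc : Continuous fun ε : ℝ => 2 * (|u| * (2 * Real.sqrt ε + |u| * ε)) := by fun_prop
    have h1 : Tendsto (fun ε : ℝ => 2 * (|u| * (2 * Real.sqrt ε + |u| * ε))) (𝓝[>] 0)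
        (𝓝 (2 * (|u| * (2 * Real.sqrt 0 + |u| * 0)))) :=
      (hc.tendsto 0).mono_left nhdsWithin_le_nhds
    have h2 : (2 * (|u| * (2 * Real.sqrt 0 + |u| * 0))) < η := by simpa using hη
    have h3 := (h1.eventually (gt_mem_nhds h2)).and self_mem_nhdsWithin
    obtain ⟨ε, h4, h5⟩ := h3.exists
    exact ⟨ε, h5, h4⟩
  obtain ⟨N, hN⟩ := eventually_atTop.mp (((hd.and hA).and (hup ε hε0)).and (hY ε hε0))
  refine ⟨N, fun n hn => ?_⟩
  obtain ⟨⟨⟨hdn, hAn⟩, hupn⟩, hYn⟩ := hN n hn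
  have hξ : ∀ v, |triXi (Ap n) (Am n) a v| ≤ 1 / 2 := fun v => (abs_triXi_le ha0.le v).trans ha1
  set K := ham (freeVerts (T n) (Ap n) (Am n)) (triE (T n)) (triXi (Ap n) (Am n) a) with hK
  set X : (freeVerts (T n) (Ap n) (Am n) → ℝ) → ℝ := pairX (δ n) (T n) (Ap n) (Am n) a f with hX
  have hμ : hamP (freeVerts (T n) (Ap n) (Am n)) (triE (T n)) (triXi (Ap n) (Am n) a) = unif K :=
    rfl
  rw [hμ] at hupn hYn
  obtain ⟨Y, c, t0, hT, hE, hl⟩ := hYn
  have hP : IsProbabilityMeasure (unif K) :=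
    isProbabilityMeasure_hamP (F := freeVerts (T n) (Ap n) (Am n)) (E := triE (T n)) hAn hξ
  have hKm : MeasurableSet K := isClosed_ham.measurableSet
  have hKc : IsCompact K := isCompact_ham hAn
  obtain ⟨l, b, hlb⟩ := exists_linear (X := X) (fun x y t => pairX_affine _ _ _ _ _ _ x y t)
  have hXc : Continuous X := pairX_continuous _ _ _ _ _ _
  set m : ℝ := ∫ x, X x ∂(unif K) with hm
  have hv : ∫ h, (l h + b - m) ^ 2 ∂(unif K) ≤ Q + ε := by
    rw [variance_eq_integral hXc.measurable.aemeasurable] at hupn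
    refine le_trans (le_of_eq ?_) hupn
    refine integral_congr_ae (Eventually.of_forall fun h => ?_)
    show (l h + b - m) ^ 2 = (X h - ∫ x, X x ∂(unif K)) ^ 2
    rw [hlb h]
  have hl' : ∫ h, |l (Y h) - Q| ∂(unif K) ≤ ε := by
    refine le_trans (le_of_eq ?_) hl
    refine integral_congr_ae (Eventually.of_forall fun h => ?_)
    show |l (Y h) - Q| = |fderiv ℝ X h (Y h) - Q|
    rw [fderiv_affine hlb]
  obtain ⟨hcos, hsin⟩ := stein hT hKm hKc.isBounded (volume_ham_ne_zero hξ) l b m Q ε hQ0 hE hl'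
    hv u
  -- rewrite the expectation
  have hre : (realExpect (T n) (Ap n) (Am n) a
      (fun h' => (affinePairing (δ n) (T n) f h' : ℂ))).re = m := by
    rw [realExpect_eq' _ _ _ _ hdn]
    have : ∫ x, ((X x : ℝ) : ℂ) ∂(unif K) = ((∫ x, X x ∂(unif K) : ℝ) : ℂ) := integral_ofReal
    have h2 := congrArg Complex.re this
    rw [Complex.ofReal_re] at h2
    exact h2
  have hic : Integrable (fun h => Real.cos (u * (l h + b - m))) (unif K) :=
    Integrable.of_bound (by fun_prop) 1 (Eventually.of_forall fun x => by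
      rw [Real.norm_eq_abs]; exact Real.abs_cos_le_one _)
  have his : Integrable (fun h => Real.sin (u * (l h + b - m))) (unif K) :=
    Integrable.of_bound (by fun_prop) 1 (Eventually.of_forall fun x => by
      rw [Real.norm_eq_abs]; exact Real.abs_sin_le_one _)
  have hval : realExpect (T n) (Ap n) (Am n) a
            (fun h => Complex.exp (Complex.I *
              (t * (affinePairing (δ n) (T n) f h -
              (realExpect (T n) (Ap n) (Am n) a
                (fun h' => (affinePairing (δ n) (T n) f h' : ℂ))).re) / σ : ℝ))) =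
      ((∫ h, Real.cos (u * (l h + b - m)) ∂(unif K) : ℝ) : ℂ) +
        ((∫ h, Real.sin (u * (l h + b - m)) ∂(unif K) : ℝ) : ℂ) * Complex.I := by
    have hC : ((∫ h, Real.cos (u * (l h + b - m)) ∂(unif K) : ℝ) : ℂ) =
        ∫ h, ((Real.cos (u * (l h + b - m)) : ℝ) : ℂ) ∂(unif K) := integral_ofReal.symm
    have hS : ((∫ h, Real.sin (u * (l h + b - m)) ∂(unif K) : ℝ) : ℂ) =
        ∫ h, ((Real.sin (u * (l h + b - m)) : ℝ) : ℂ) ∂(unif K) := integral_ofReal.symm
    rw [hre, realExpect_eq' _ _ _ _ hdn, hC, hS,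
      ← integral_mul_const, ← integral_add hic.ofReal (his.ofReal.mul_const _)]
    refine integral_congr_ae (Eventually.of_forall fun h => ?_)
    show Complex.exp (Complex.I * ((t * (X h - m) / σ : ℝ) : ℂ)) = _
    have e1 : t * (X h - m) / σ = u * (l h + b - m) := by
      rw [hlb h, hu]; ring
    rw [e1, mul_comm Complex.I, Complex.exp_mul_I]
    push_cast
    ring
  rw [hval, dist_eq_norm]
  have hexp : Complex.exp (-(q * t ^ 2 / 2 : ℝ)) = ((Real.exp (-(Q * u ^ 2 / 2)) : ℝ) : ℂ) := by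
    rw [hfin, Complex.ofReal_exp, Complex.ofReal_neg]
  rw [hexp]
  have hsplit : ((∫ h, Real.cos (u * (l h + b - m)) ∂(unif K) : ℝ) : ℂ) +
        ((∫ h, Real.sin (u * (l h + b - m)) ∂(unif K) : ℝ) : ℂ) * Complex.I -
        ((Real.exp (-(Q * u ^ 2 / 2)) : ℝ) : ℂ) =
      ((∫ h, Real.cos (u * (l h + b - m)) ∂(unif K) - Real.exp (-(Q * u ^ 2 / 2)) : ℝ) : ℂ) +
        ((∫ h, Real.sin (u * (l h + b - m)) ∂(unif K) : ℝ) : ℂ) * Complex.I := by
    push_cast; ring
  rw [hsplit]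
  refine lt_of_le_of_lt (norm_add_le _ _) ?_
  rw [norm_mul, Complex.norm_I, mul_one, Complex.norm_real, Complex.norm_real,
    Real.norm_eq_abs, Real.norm_eq_abs]
  linarith

/-- what the analysis of the real hammock model has to deliver, untilted form -/
def SteinAsymp (κ : ℝ) : Prop :=
  ∀ a : ℝ, 0 < a → a ≤ 1 / 2 → ∀ (D : Set ℂ) (γ : ℝ → ℂ) (θ : ℝ) (φ : ℂ → ℂ),
      Crest.ProbabilityR.TriHeights.IsSmoothMarkedDomain D γ θ → DifferentiableOn ℂ φ D →
      Set.BijOn φ D (Metric.ball (0 : ℂ) 1) →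
      ∀ (δ : ℕ → ℝ) (T : ℕ → Finset Crest.ProbabilityR.TriHeights.Tri)
        (ea eb : ℕ → (ℤ × ℤ) × (ℤ × ℤ)) (c : ℕ → ℝ → ℂ),
        Crest.ProbabilityR.TriHeights.IsMarkedApprox γ θ δ T ea eb c →
      ∀ f : ℂ → ℝ, ContDiff ℝ ∞ f → HasCompactSupport f → tsupport f ⊆ D →
        (∀ᶠ n in atTop, ∀ v, v ∈ arcPlus (δ n) (T n) (c n) θ → v ∉ arcMinus (δ n) (T n) (c n) θ) ∧
        (∀ᶠ n in atTop, Anch (freeVerts (T n) (arcPlus (δ n) (T n) (c n) θ)
          (arcMinus (δ n) (T n) (c n) θ)) (triE (T n))) ∧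
        (∀ ε : ℝ, 0 < ε → ∀ᶠ n in atTop,
          Var[pairX (δ n) (T n) (arcPlus (δ n) (T n) (c n) θ) (arcMinus (δ n) (T n) (c n) θ) a f;
            hamP (freeVerts (T n) (arcPlus (δ n) (T n) (c n) θ) (arcMinus (δ n) (T n) (c n) θ))
              (triE (T n)) (triXi (arcPlus (δ n) (T n) (c n) θ)
                (arcMinus (δ n) (T n) (c n) θ) a)] ≤
            κ * Crest.ProbabilityR.HexHeights.domainGreenForm φ f + ε) ∧
        (∀ ε : ℝ, 0 < ε → ∀ᶠ n in atTop,
          ∃ (Y : (freeVerts (T n) (arcPlus (δ n) (T n) (c n) θ)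
                (arcMinus (δ n) (T n) (c n) θ) → ℝ) →
              (freeVerts (T n) (arcPlus (δ n) (T n) (c n) θ)
                (arcMinus (δ n) (T n) (c n) θ) → ℝ)) (L : ℝ≥0) (t0 : ℝ),
            Tan (ham (freeVerts (T n) (arcPlus (δ n) (T n) (c n) θ)
                (arcMinus (δ n) (T n) (c n) θ)) (triE (T n))
                (triXi (arcPlus (δ n) (T n) (c n) θ) (arcMinus (δ n) (T n) (c n) θ) a)) Y L t0 ∧
            ∫ h, (jac Y h * jac Y h).trace
              ∂(hamP (freeVerts (T n) (arcPlus (δ n) (T n) (c n) θ)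
                (arcMinus (δ n) (T n) (c n) θ)) (triE (T n))
                (triXi (arcPlus (δ n) (T n) (c n) θ) (arcMinus (δ n) (T n) (c n) θ) a)) ≤
                κ * Crest.ProbabilityR.HexHeights.domainGreenForm φ f + ε ∧
            ∫ h, |fderiv ℝ (pairX (δ n) (T n) (arcPlus (δ n) (T n) (c n) θ)
                (arcMinus (δ n) (T n) (c n) θ) a f) h (Y h) -
                κ * Crest.ProbabilityR.HexHeights.domainGreenForm φ f|
              ∂(hamP (freeVerts (T n) (arcPlus (δ n) (T n) (c n) θ)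
                (arcMinus (δ n) (T n) (c n) θ)) (triE (T n))
                (triXi (arcPlus (δ n) (T n) (c n) θ) (arcMinus (δ n) (T n) (c n) θ) a)) ≤ ε)

/-- **S0197 from untilted inputs.** -/
theorem s0197_of_stein {κ : ℝ} (hκ0 : 0 < κ) (hκ1 : κ ≤ 2 / π) (H : SteinAsymp κ) :
    ∃ A σ lam : ℝ, 0 < A ∧ 0 < σ ∧ σ ^ 2 = 1 / ((2 / Real.sqrt 3) * A) ∧ 0 < lam ∧
      lam ^ 2 = Real.pi / (8 * (2 / Real.sqrt 3) * A) ∧ lam ≤ 1 / 2 ∧
      ∀ a : ℝ, 0 < a → a ≤ 1 / 2 → ∀ (D : Set ℂ) (γ : ℝ → ℂ) (θ : ℝ) (φ : ℂ → ℂ),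
      Crest.ProbabilityR.TriHeights.IsSmoothMarkedDomain D γ θ → DifferentiableOn ℂ φ D →
      Set.BijOn φ D (Metric.ball (0 : ℂ) 1) →
      ∀ (δ : ℕ → ℝ) (T : ℕ → Finset Crest.ProbabilityR.TriHeights.Tri) (ea eb : ℕ → (ℤ × ℤ) × (ℤ × ℤ)) (c : ℕ → ℝ → ℂ),
        Crest.ProbabilityR.TriHeights.IsMarkedApprox γ θ δ T ea eb c →
      ∀ f : ℂ → ℝ, ContDiff ℝ ∞ f → HasCompactSupport f → tsupport f ⊆ D →
        ∀ t : ℝ, Filter.Tendsto (fun n : ℕ => Crest.ProbabilityR.TriHeights.realExpect (T n) (Crest.ProbabilityR.TriHeights.arcPlus (δ n) (T n) (c n) θ) (Crest.ProbabilityR.TriHeights.arcMinus (δ n) (T n) (c n) θ) a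
            (fun h => Complex.exp (Complex.I *
              (t * (Crest.ProbabilityR.TriHeights.affinePairing (δ n) (T n) f h -
              (Crest.ProbabilityR.TriHeights.realExpect (T n) (Crest.ProbabilityR.TriHeights.arcPlus (δ n) (T n) (c n) θ) (Crest.ProbabilityR.TriHeights.arcMinus (δ n) (T n) (c n) θ) a (fun h' => (Crest.ProbabilityR.TriHeights.affinePairing (δ n) (T n) f h' : ℂ))).re) / σ : ℝ))))
          Filter.atTop
          (nhds (Complex.exp (-(Crest.ProbabilityR.HexHeights.domainGreenForm φ f * t ^ 2 / 2 : ℝ)))) := by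
  have h3 : 0 < Real.sqrt 3 := Real.sqrt_pos.mpr (by norm_num)
  have hπ : 0 < π := Real.pi_pos
  refine ⟨Real.sqrt 3 / (2 * κ), Real.sqrt κ, Real.sqrt (π * κ / 8), by positivity,
    Real.sqrt_pos.mpr hκ0, ?_, Real.sqrt_pos.mpr (by positivity), ?_, ?_, ?_⟩
  · rw [Real.sq_sqrt hκ0.le]; field_simp
  · rw [Real.sq_sqrt (by positivity)]; field_simp
  · rw [Real.sqrt_le_left (by norm_num)]
    have : π * κ ≤ π * (2 / π) := by gcongr
    rw [mul_div_cancel₀ _ hπ.ne'] at this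
    linarith
  · intro a ha0 ha1 D γ θ φ hD hφ hφ' δ T ea eb c hM f hf hf' hf'' t
    obtain ⟨hd, hA, hup, hY⟩ := H a ha0 ha1 D γ θ φ hD hφ hφ' δ T ea eb c hM f hf hf' hf''
    have hs : Real.sqrt κ ^ 2 = κ := Real.sq_sqrt hκ0.le
    exact law_of_stein (Real.sqrt_pos.mpr hκ0) ha0 ha1 hd hA (by rw [hs]; exact hup)
      (by rw [hs]; exact hY) t

end Crest.Agent.R144.Stein540
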