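import Crest.Agent.R144.Swp_356

/-!
# Section chain form of the two-replica swap (R144)

Sections `x_n, ..., x_1, x_0` (level `n` = far end, level `0` = target), `x_k` ranging over a finite
set `D k` of an arbitrary type `X`.  Weight `w k (x_k)` per section, interaction `J k (x_{k+1}) (x_k)`
of consecutive sections.  `bar k x` = "the section `x` of level `k` has a barrier"; in that case the
section `x` is seen by the section `k+1` only through `rho k x` and by the section `k-1` only
through `lam k x`.  `Zf k r l` = total weight of the barrier sections with right part `r` and left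
part `l`; its cross ratios are assumed to be at most `C`.

Conclusion: the covariance of a function of `x_0` and a function of `x_n` is bounded by the
two-replica sum of `kappa ^ (number of levels where both replicas have a barrier)`.
-/

set_option autoImplicit false

namespace Crest.Agent.R144.Swp356

open Finset
open scoped Classical

section Fibre
variable {X : Type*}

/-- Fibre sum: weight of barrier sections with right part `r` and left part `l`. -/
noncomputable def Zf (D : Finset X) (bar : X → Prop) (rho lam : X → X) (w : X → ℝ) (r l : X) : ℝ :=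
  ∑ x ∈ D, if bar x ∧ rho x = r ∧ lam x = l then w x else 0

theorem Zf_nonneg {D : Finset X} {bar : X → Prop} {rho lam : X → X} {w : X → ℝ}
    (hw : ∀ x ∈ D, 0 ≤ w x) (r l : X) : 0 ≤ Zf D bar rho lam w r l := by
  refine Finset.sum_nonneg fun x hx => ?_
  split_ifs
  · exact hw x hx
  · exact le_rfl

/-- Summation over fibres (one replica). -/
theorem sum_fibre (D : Finset X) (bar : X → Prop) (rho lam : X → X) (w : X → ℝ)
    (Phi : X → X → ℝ) :
    ∑ x ∈ D, (if bar x then w x * Phi (rho x) (lam x) else 0) =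
      ∑ r ∈ D.image rho, ∑ l ∈ D.image lam, Zf D bar rho lam w r l * Phi r l := by
  unfold Zf
  simp_rw [Finset.sum_mul]
  have : ∀ r ∈ D.image rho, ∑ l ∈ D.image lam, ∑ x ∈ D,
      (if bar x ∧ rho x = r ∧ lam x = l then w x else 0) * Phi r l =
      ∑ x ∈ D, ∑ l ∈ D.image lam,
        (if bar x ∧ rho x = r ∧ lam x = l then w x else 0) * Phi r l := fun r _ =>
    Finset.sum_comm
  rw [Finset.sum_congr rfl this, Finset.sum_comm]
  refine Finset.sum_congr rfl fun x hx => ?_
  have hr : rho x ∈ D.image rho := Finset.mem_image_of_mem _ hx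
  have hl : lam x ∈ D.image lam := Finset.mem_image_of_mem _ hx
  rw [Finset.sum_eq_single_of_mem (rho x) hr, Finset.sum_eq_single_of_mem (lam x) hl]
  · by_cases hb : bar x
    · rw [if_pos hb, if_pos ⟨hb, rfl, rfl⟩]
    · rw [if_neg hb, if_neg (fun h => hb h.1), zero_mul]
  · intro l _ hne
    rw [if_neg (fun h => hne h.2.2.symm), zero_mul]
  · intro r _ hne
    refine Finset.sum_eq_zero fun l _ => ?_
    rw [if_neg (fun h => hne h.2.1.symm), zero_mul]

/-- Summation over fibres (two replicas). -/
theorem sum_fibre2 (D : Finset X) (bar : X → Prop) (rho lam : X → X) (w : X → ℝ)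
    (Phi : X → X → X → X → ℝ) :
    ∑ x ∈ D, ∑ x' ∈ D, (if bar x ∧ bar x' then
        w x * w x' * Phi (rho x) (rho x') (lam x) (lam x') else 0) =
      ∑ r ∈ D.image rho, ∑ r' ∈ D.image rho, ∑ l ∈ D.image lam, ∑ l' ∈ D.image lam,
        Zf D bar rho lam w r l * Zf D bar rho lam w r' l' * Phi r r' l l' := by
  have h1 : ∀ x ∈ D, ∑ x' ∈ D, (if bar x ∧ bar x' then
        w x * w x' * Phi (rho x) (rho x') (lam x) (lam x') else 0) =
      if bar x then w x * (∑ r' ∈ D.image rho, ∑ l' ∈ D.image lam,
        Zf D bar rho lam w r' l' * Phi (rho x) r' (lam x) l') else 0 := by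
    intro x _
    by_cases hb : bar x
    · rw [if_pos hb, ← sum_fibre D bar rho lam w (fun r' l' => Phi (rho x) r' (lam x) l'),
        Finset.mul_sum]
      refine Finset.sum_congr rfl fun x' _ => ?_
      by_cases hb' : bar x'
      · rw [if_pos ⟨hb, hb'⟩, if_pos hb']; ring
      · rw [if_neg (fun h => hb' h.2), if_neg hb', mul_zero]
    · rw [if_neg hb]
      exact Finset.sum_eq_zero fun x' _ => if_neg (fun h => hb h.1)
  rw [Finset.sum_congr rfl h1, sum_fibre D bar rho lam w (fun r l =>
    ∑ r' ∈ D.image rho, ∑ l' ∈ D.image lam, Zf D bar rho lam w r' l' * Phi r r' l l')]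
  refine Finset.sum_congr rfl fun r _ => ?_
  simp_rw [Finset.mul_sum]
  rw [Finset.sum_comm]
  refine Finset.sum_congr rfl fun r' _ => Finset.sum_congr rfl fun l _ =>
    Finset.sum_congr rfl fun l' _ => ?_
  ring

/-- One replica pair, one block, for sums over a finite set of left parts. -/
theorem step_finset (L : Finset X) (Z : X → X → ℝ) (hZ : ∀ r l, 0 ≤ Z r l) {C : ℝ} (hC : 1 ≤ C)
    (hcr : ∀ r r' l l', Z r l * Z r' l' ≤ C * (Z r l' * Z r' l))
    (F G : X → X → ℝ) (hF : ∀ t t', F t' t = - F t t') (hG : ∀ t t', G t' t = G t t')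
    (hFG : ∀ t t', |F t t'| ≤ G t t') (r r' : X) :
    |∑ l ∈ L, ∑ l' ∈ L, Z r l * Z r' l' * F l l'| ≤
      (C - 1) / (C + 1) * ∑ l ∈ L, ∑ l' ∈ L, Z r l * Z r' l' * G l l' := by
  have := step (S := X) (T := L) (fun s t => Z s t.1) (fun _ => 1) (fun _ _ _ _ => True)
    (fun s t => hZ s t.1) (fun _ => zero_le_one) hC (fun _ _ _ _ h => h)
    (fun s s' t t' _ => hcr s s' t.1 t'.1) (fun t t' => F t.1 t'.1) (fun t t' => G t.1 t'.1)
    (fun t t' => hF _ _) (fun t t' => hG _ _) (fun t t' => hFG _ _) r r'
  simp only [kap, mul_one, if_true] at this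
  have e1 : ∑ t : L, ∑ t' : L, Z r t.1 * Z r' t'.1 * F t.1 t'.1 =
      ∑ l ∈ L, ∑ l' ∈ L, Z r l * Z r' l' * F l l' := by
    rw [← Finset.sum_coe_sort L (fun l => ∑ l' ∈ L, Z r l * Z r' l' * F l l')]
    refine Finset.sum_congr rfl fun t _ => ?_
    rw [← Finset.sum_coe_sort L (fun l' => Z r t.1 * Z r' l' * F t.1 l')]
  have e2 : ∑ t : L, ∑ t' : L, Z r t.1 * Z r' t'.1 * ((C - 1) / (C + 1) * G t.1 t'.1) =
      (C - 1) / (C + 1) * ∑ l ∈ L, ∑ l' ∈ L, Z r l * Z r' l' * G l l' := by
    rw [← Finset.sum_coe_sort L (fun l => ∑ l' ∈ L, Z r l * Z r' l' * G l l'), Finset.mul_sum]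
    refine Finset.sum_congr rfl fun t _ => ?_
    rw [← Finset.sum_coe_sort L (fun l' => Z r t.1 * Z r' l' * G t.1 l'), Finset.mul_sum]
    exact Finset.sum_congr rfl fun t' _ => by ring
  rw [e1, e2] at this
  exact this

end Fibre

section Sections
variable {X : Type*} (D : ℕ → Finset X) (w : ℕ → X → ℝ) (J : ℕ → X → X → ℝ)
  (bar : ℕ → X → Prop) (rho lam : ℕ → X → X)

/-- One-replica transfer of the section chain. -/
noncomputable def str (f : X → ℝ) : ℕ → X → ℝ
  | 0 => f
  | k + 1 => fun y => ∑ x ∈ D k, J k y x * w k x * str f k x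

/-- Two-replica transfer of the section chain with the factor `kap C (bar x and bar x')`. -/
noncomputable def str2 (C : ℝ) (H : X → X → ℝ) : ℕ → X → X → ℝ
  | 0 => H
  | k + 1 => fun y y' => ∑ x ∈ D k, ∑ x' ∈ D k, J k y x * J k y' x' * (w k x * w k x') *
      (kap C (bar k x ∧ bar k x') * str2 C H k x x')

variable {D w J bar rho lam}

theorem str2_symm {C : ℝ} {H : X → X → ℝ} (hH : ∀ t t', H t' t = H t t') (k : ℕ) (y y' : X) :
    str2 D w J bar C H k y' y = str2 D w J bar C H k y y' := by
  induction k generalizing y y' with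
  | zero => exact hH y y'
  | succ k ih =>
    simp only [str2]
    rw [Finset.sum_comm]
    refine Finset.sum_congr rfl fun x _ => Finset.sum_congr rfl fun x' _ => ?_
    have hk : kap C (bar k x' ∧ bar k x) = kap C (bar k x ∧ bar k x') := by
      unfold kap
      by_cases h : bar k x ∧ bar k x'
      · rw [if_pos h, if_pos h.symm]
      · rw [if_neg h, if_neg (fun h' => h h'.symm)]
    rw [hk, ih x x']; ring

theorem str2_nonneg {C : ℝ} (hC : 1 ≤ C) (hw : ∀ k, ∀ x ∈ D k, 0 ≤ w k x)
    (hJ : ∀ k y x, 0 ≤ J k y x) {H : X → X → ℝ} (hH : ∀ t t', 0 ≤ H t t') (k : ℕ) (y y' : X) :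
    0 ≤ str2 D w J bar C H k y y' := by
  induction k generalizing y y' with
  | zero => exact hH y y'
  | succ k ih =>
    refine Finset.sum_nonneg fun x hx => Finset.sum_nonneg fun x' hx' => ?_
    exact mul_nonneg (mul_nonneg (mul_nonneg (hJ _ _ _) (hJ _ _ _))
      (mul_nonneg (hw _ _ hx) (hw _ _ hx'))) (mul_nonneg (kap_nonneg hC _) (ih x x'))

/-- the left part is all that the lower levels see -/
theorem str_lam (hlam : ∀ k x, bar (k + 1) x → ∀ z, J k x z = J k (lam (k + 1) x) z)
    (f : X → ℝ) (hf : ∀ x, bar 0 x → f (lam 0 x) = f x) (k : ℕ) (x : X) (hx : bar k x) :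
    str D w J f k (lam k x) = str D w J f k x := by
  cases k with
  | zero => exact hf x hx
  | succ k =>
    simp only [str]
    exact Finset.sum_congr rfl fun z _ => by rw [hlam k x hx z]

theorem str2_lam {C : ℝ} (hlam : ∀ k x, bar (k + 1) x → ∀ z, J k x z = J k (lam (k + 1) x) z)
    (H : X → X → ℝ) (hH : ∀ x x', bar 0 x → bar 0 x' → H (lam 0 x) (lam 0 x') = H x x')
    (k : ℕ) (x x' : X) (hx : bar k x) (hx' : bar k x') :
    str2 D w J bar C H k (lam k x) (lam k x') = str2 D w J bar C H k x x' := by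
  cases k with
  | zero => exact hH x x' hx hx'
  | succ k =>
    simp only [str2]
    refine Finset.sum_congr rfl fun z _ => Finset.sum_congr rfl fun z' _ => ?_
    rw [hlam k x hx z, hlam k x' hx' z']

/-- **Section chain, two-replica form.** -/
theorem abs_str_sub_le {C : ℝ} (hC : 1 ≤ C) (hw : ∀ k, ∀ x ∈ D k, 0 ≤ w k x)
    (hJ : ∀ k y x, 0 ≤ J k y x)
    (hrho : ∀ k x, bar k x → ∀ y, J k y x = J k y (rho k x))
    (hlam : ∀ k x, bar (k + 1) x → ∀ z, J k x z = J k (lam (k + 1) x) z)
    (hcr : ∀ k r r' l l', Zf (D k) (bar k) (rho k) (lam k) (w k) r l *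
        Zf (D k) (bar k) (rho k) (lam k) (w k) r' l' ≤
      C * (Zf (D k) (bar k) (rho k) (lam k) (w k) r l' *
        Zf (D k) (bar k) (rho k) (lam k) (w k) r' l))
    (f : X → ℝ) (hf : ∀ x, bar 0 x → f (lam 0 x) = f x) (k : ℕ) (y y' : X) :
    |str D w J f k y * str D w J (fun _ => 1) k y' -
      str D w J (fun _ => 1) k y * str D w J f k y'| ≤
      str2 D w J bar C (fun t t' => |f t - f t'|) k y y' := by
  induction k generalizing y y' with
  | zero => simp [str, str2]
  | succ k ih =>
    set F : X → X → ℝ := fun x x' => str D w J f k x * str D w J (fun _ => 1) k x' -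
      str D w J (fun _ => 1) k x * str D w J f k x' with hFdef
    set G : X → X → ℝ := str2 D w J bar C (fun t t' => |f t - f t'|) k with hGdef
    have hFanti : ∀ t t', F t' t = - F t t' := fun t t' => by simp only [hFdef]; ring
    have hGsym : ∀ t t', G t' t = G t t' := fun t t' =>
      str2_symm (fun a b => abs_sub_comm _ _) k t t'
    have hG0 : ∀ t t', 0 ≤ G t t' := fun t t' => (abs_nonneg _).trans (ih t t')
    have hFl : ∀ x x', bar k x → bar k x' → F (lam k x) (lam k x') = F x x' := by
      intro x x' hx hx'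
      simp only [hFdef]
      rw [str_lam hlam f hf k x hx, str_lam hlam f hf k x' hx',
        str_lam hlam (fun _ => 1) (fun _ _ => rfl) k x hx,
        str_lam hlam (fun _ => 1) (fun _ _ => rfl) k x' hx']
    have hGl : ∀ x x', bar k x → bar k x' → G (lam k x) (lam k x') = G x x' := by
      intro x x' hx hx'
      refine str2_lam hlam _ (fun a b ha hb => ?_) k x x' hx hx'
      simp only [hf a ha, hf b hb]
    have hL : str D w J f (k + 1) y * str D w J (fun _ => 1) (k + 1) y' -
        str D w J (fun _ => 1) (k + 1) y * str D w J f (k + 1) y' =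
        ∑ x ∈ D k, ∑ x' ∈ D k, J k y x * J k y' x' * (w k x * w k x') * F x x' := by
      simp only [str, hFdef]
      rw [Finset.sum_mul_sum, Finset.sum_mul_sum, ← Finset.sum_sub_distrib]
      refine Finset.sum_congr rfl fun x _ => ?_
      rw [← Finset.sum_sub_distrib]
      exact Finset.sum_congr rfl fun x' _ => by ring
    -- split into both-barrier pairs and the others
    have hsplit : ∀ (Q : X → X → ℝ),
        ∑ x ∈ D k, ∑ x' ∈ D k, J k y x * J k y' x' * (w k x * w k x') * Q x x' =
        (∑ x ∈ D k, ∑ x' ∈ D k, if bar k x ∧ bar k x' then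
          J k y x * J k y' x' * (w k x * w k x') * Q x x' else 0) +
        (∑ x ∈ D k, ∑ x' ∈ D k, if bar k x ∧ bar k x' then 0 else
          J k y x * J k y' x' * (w k x * w k x') * Q x x') := by
      intro Q
      rw [← Finset.sum_add_distrib]
      refine Finset.sum_congr rfl fun x _ => ?_
      rw [← Finset.sum_add_distrib]
      refine Finset.sum_congr rfl fun x' _ => ?_
      split_ifs <;> simp
    -- the both-barrier part through the fibres
    have hbar : ∀ (Q : X → X → ℝ), (∀ x x', bar k x → bar k x' → Q (lam k x) (lam k x') = Q x x') →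
        (∑ x ∈ D k, ∑ x' ∈ D k, if bar k x ∧ bar k x' then
          J k y x * J k y' x' * (w k x * w k x') * Q x x' else 0) =
        ∑ r ∈ (D k).image (rho k), ∑ r' ∈ (D k).image (rho k), J k y r * J k y' r' *
          ∑ l ∈ (D k).image (lam k), ∑ l' ∈ (D k).image (lam k),
            Zf (D k) (bar k) (rho k) (lam k) (w k) r l *
            Zf (D k) (bar k) (rho k) (lam k) (w k) r' l' * Q l l' := by
      intro Q hQ
      have := sum_fibre2 (D k) (bar k) (rho k) (lam k) (w k)
        (fun r r' l l' => J k y r * J k y' r' * Q l l')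
      calc (∑ x ∈ D k, ∑ x' ∈ D k, if bar k x ∧ bar k x' then
            J k y x * J k y' x' * (w k x * w k x') * Q x x' else 0)
          = ∑ x ∈ D k, ∑ x' ∈ D k, (if bar k x ∧ bar k x' then
              w k x * w k x' * (J k y (rho k x) * J k y' (rho k x') *
                Q (lam k x) (lam k x')) else 0) := by
            refine Finset.sum_congr rfl fun x _ => Finset.sum_congr rfl fun x' _ => ?_
            by_cases h : bar k x ∧ bar k x'
            · rw [if_pos h, if_pos h, hrho k x h.1 y, hrho k x' h.2 y', hQ x x' h.1 h.2]; ring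
            · rw [if_neg h, if_neg h]
        _ = _ := by
            rw [this]
            refine Finset.sum_congr rfl fun r _ => Finset.sum_congr rfl fun r' _ => ?_
            rw [Finset.mul_sum]
            refine Finset.sum_congr rfl fun l _ => ?_
            rw [Finset.mul_sum]
            exact Finset.sum_congr rfl fun l' _ => by ring
    rw [hL, hsplit F]
    have hR : str2 D w J bar C (fun t t' => |f t - f t'|) (k + 1) y y' =
        ((C - 1) / (C + 1)) * (∑ x ∈ D k, ∑ x' ∈ D k, if bar k x ∧ bar k x' then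
          J k y x * J k y' x' * (w k x * w k x') * G x x' else 0) +
        (∑ x ∈ D k, ∑ x' ∈ D k, if bar k x ∧ bar k x' then 0 else
          J k y x * J k y' x' * (w k x * w k x') * G x x') := by
      simp only [str2]
      rw [Finset.mul_sum, ← Finset.sum_add_distrib]
      refine Finset.sum_congr rfl fun x _ => ?_
      rw [Finset.mul_sum, ← Finset.sum_add_distrib]
      refine Finset.sum_congr rfl fun x' _ => ?_
      unfold kap
      by_cases h : bar k x ∧ bar k x'
      · simp only [if_pos h]; ring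
      · simp only [if_neg h]; ring
    rw [hR]
    refine (abs_add_le _ _).trans (add_le_add ?_ ?_)
    · rw [hbar F hFl, hbar G hGl, Finset.mul_sum]
      refine (Finset.abs_sum_le_sum_abs _ _).trans (Finset.sum_le_sum fun r _ => ?_)
      rw [Finset.mul_sum]
      refine (Finset.abs_sum_le_sum_abs _ _).trans (Finset.sum_le_sum fun r' _ => ?_)
      rw [abs_mul, abs_of_nonneg (mul_nonneg (hJ k y r) (hJ k y' r'))]
      have := step_finset ((D k).image (lam k))
        (Zf (D k) (bar k) (rho k) (lam k) (w k)) (fun r l => Zf_nonneg (hw k) r l) hC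
        (fun r r' l l' => hcr k r r' l l') F G hFanti hGsym ih r r'
      calc J k y r * J k y' r' * |∑ l ∈ (D k).image (lam k), ∑ l' ∈ (D k).image (lam k),
              Zf (D k) (bar k) (rho k) (lam k) (w k) r l *
              Zf (D k) (bar k) (rho k) (lam k) (w k) r' l' * F l l'|
          ≤ J k y r * J k y' r' * ((C - 1) / (C + 1) *
              ∑ l ∈ (D k).image (lam k), ∑ l' ∈ (D k).image (lam k),
              Zf (D k) (bar k) (rho k) (lam k) (w k) r l *
              Zf (D k) (bar k) (rho k) (lam k) (w k) r' l' * G l l') :=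
            mul_le_mul_of_nonneg_left this (mul_nonneg (hJ k y r) (hJ k y' r'))
        _ = _ := by ring
    · refine (Finset.abs_sum_le_sum_abs _ _).trans (Finset.sum_le_sum fun x hx => ?_)
      refine (Finset.abs_sum_le_sum_abs _ _).trans (Finset.sum_le_sum fun x' hx' => ?_)
      split_ifs
      · simp
      · rw [abs_mul, abs_of_nonneg (mul_nonneg (mul_nonneg (hJ _ _ _) (hJ _ _ _))
          (mul_nonneg (hw k x hx) (hw k x' hx')))]
        exact mul_le_mul_of_nonneg_left (ih x x') (mul_nonneg
          (mul_nonneg (hJ _ _ _) (hJ _ _ _)) (mul_nonneg (hw k x hx) (hw k x' hx')))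

/-- **Section chain, covariance form** (unnormalised): `T` finite set of top sections with weight
`b0`. -/
theorem abs_scov_le {C : ℝ} (hC : 1 ≤ C) (hw : ∀ k, ∀ x ∈ D k, 0 ≤ w k x)
    (hJ : ∀ k y x, 0 ≤ J k y x)
    (hrho : ∀ k x, bar k x → ∀ y, J k y x = J k y (rho k x))
    (hlam : ∀ k x, bar (k + 1) x → ∀ z, J k x z = J k (lam (k + 1) x) z)
    (hcr : ∀ k r r' l l', Zf (D k) (bar k) (rho k) (lam k) (w k) r l *
        Zf (D k) (bar k) (rho k) (lam k) (w k) r' l' ≤
      C * (Zf (D k) (bar k) (rho k) (lam k) (w k) r l' *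
        Zf (D k) (bar k) (rho k) (lam k) (w k) r' l))
    (T : Finset X) (b0 g f : X → ℝ) (hb : ∀ s ∈ T, 0 ≤ b0 s)
    (hf : ∀ x, bar 0 x → f (lam 0 x) = f x) (k : ℕ) :
    |(∑ s ∈ T, b0 s * g s * str D w J f k s) * (∑ s ∈ T, b0 s * str D w J (fun _ => 1) k s) -
      (∑ s ∈ T, b0 s * g s * str D w J (fun _ => 1) k s) *
        (∑ s ∈ T, b0 s * str D w J f k s)| ≤
      (1 / 2) * ∑ s ∈ T, ∑ s' ∈ T, b0 s * b0 s' * |g s - g s'| *
        str2 D w J bar C (fun t t' => |f t - f t'|) k s s' := by
  have h1 : (∑ s ∈ T, b0 s * g s * str D w J f k s) *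
        (∑ s ∈ T, b0 s * str D w J (fun _ => 1) k s) -
      (∑ s ∈ T, b0 s * g s * str D w J (fun _ => 1) k s) *
        (∑ s ∈ T, b0 s * str D w J f k s) =
      (1 / 2) * ∑ s ∈ T, ∑ s' ∈ T, b0 s * b0 s' * (g s - g s') *
        (str D w J f k s * str D w J (fun _ => 1) k s' -
          str D w J (fun _ => 1) k s * str D w J f k s') := by
    have e1 : ∑ s ∈ T, ∑ s' ∈ T, b0 s * b0 s' * (g s - g s') *
        (str D w J f k s * str D w J (fun _ => 1) k s' -
          str D w J (fun _ => 1) k s * str D w J f k s') =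
        (∑ s ∈ T, ∑ s' ∈ T,
          (b0 s * g s * str D w J f k s) * (b0 s' * str D w J (fun _ => 1) k s')) -
        (∑ s ∈ T, ∑ s' ∈ T,
          (b0 s * g s * str D w J (fun _ => 1) k s) * (b0 s' * str D w J f k s')) -
        (∑ s ∈ T, ∑ s' ∈ T,
          (b0 s * str D w J f k s) * (b0 s' * g s' * str D w J (fun _ => 1) k s')) +
        (∑ s ∈ T, ∑ s' ∈ T,
          (b0 s * str D w J (fun _ => 1) k s) * (b0 s' * g s' * str D w J f k s')) := by
      rw [← Finset.sum_sub_distrib, ← Finset.sum_sub_distrib, ← Finset.sum_add_distrib]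
      refine Finset.sum_congr rfl fun s _ => ?_
      rw [← Finset.sum_sub_distrib, ← Finset.sum_sub_distrib, ← Finset.sum_add_distrib]
      exact Finset.sum_congr rfl fun s' _ => by ring
    rw [e1, ← Finset.sum_mul_sum, ← Finset.sum_mul_sum, ← Finset.sum_mul_sum,
      ← Finset.sum_mul_sum]
    ring
  rw [h1, abs_mul, abs_of_nonneg (by norm_num : (0 : ℝ) ≤ 1 / 2)]
  refine mul_le_mul_of_nonneg_left ?_ (by norm_num)
  refine (Finset.abs_sum_le_sum_abs _ _).trans (Finset.sum_le_sum fun s hs => ?_)
  refine (Finset.abs_sum_le_sum_abs _ _).trans (Finset.sum_le_sum fun s' hs' => ?_)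
  rw [abs_mul, abs_mul, abs_of_nonneg (mul_nonneg (hb s hs) (hb s' hs'))]
  exact mul_le_mul_of_nonneg_left
    (abs_str_sub_le hC hw hJ hrho hlam hcr f hf k s s')
    (mul_nonneg (mul_nonneg (hb s hs) (hb s' hs')) (abs_nonneg _))

end Sections

end Crest.Agent.R144.Swp356
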