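import Mathlib.Algebra.BigOperators.Fin
import Mathlib.Algebra.BigOperators.Ring.Finset
import Mathlib.Algebra.Order.BigOperators.Group.Finset
import Mathlib.Data.Real.Basic
import Mathlib.Tactic

/-!
# Two-replica swap chain (R144, doc of helper356 on closed contours)

A finite chain of segments `s_m, ..., s_1, s_0` with weights `Z k s t` (interaction of the segment
`s` at level `k+1` with the segment `t` at level `k`) and `B k t` (weight of the segment `t` at
level `k`).  If for pairs of replicas related by `R k` the cross ratio of `Z k` is at most `C`, then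
the covariance of an observable of the segment at level `0` and an observable of the segment at
level `m` is bounded by the two-replica sum of `kappa ^ (number of levels with R)`,
`kappa = (C - 1) / (C + 1)`.
-/

set_option autoImplicit false

namespace Crest.Agent.R144.Swp356

open Finset

/-- `|a - a'| <= (C-1)/(C+1) (a + a')` when each of the two is at most `C` times the other. -/
theorem abs_sub_le_kappa {C a a' : ℝ} (hC : 1 ≤ C) (h : a ≤ C * a') (h' : a' ≤ C * a) :
    |a - a'| ≤ (C - 1) / (C + 1) * (a + a') := by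
  have hpos : 0 < C + 1 := by linarith
  rw [div_mul_eq_mul_div, le_div_iff₀ hpos]
  rcases abs_cases (a - a') with ⟨h1, _⟩ | ⟨h1, _⟩ <;> rw [h1] <;> nlinarith

/-- `kappa C R = (C-1)/(C+1)` if `R` holds and `1` otherwise. -/
noncomputable def kap (C : ℝ) (R : Prop) [Decidable R] : ℝ := if R then (C - 1) / (C + 1) else 1

theorem kap_nonneg {C : ℝ} (hC : 1 ≤ C) (R : Prop) [Decidable R] : 0 ≤ kap C R := by
  unfold kap; split_ifs
  · exact div_nonneg (by linarith) (by linarith)
  · norm_num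

theorem kap_le_one {C : ℝ} (hC : 1 ≤ C) (R : Prop) [Decidable R] : kap C R ≤ 1 := by
  unfold kap; split_ifs
  · rw [div_le_one (by linarith)]; linarith
  · exact le_rfl

section Step
variable {S T : Type*} [Fintype T]

/-- **One block of the swap chain.** `Z s t` weight between a right part `s` and a left part `t`,
`F` antisymmetric, dominated by the symmetric `G`; `R s s' t t'` = "both replicas have a barrier in
this block", symmetric in `t <-> t'`, implies that the cross ratio is at most `C`. -/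
theorem step (Z : S → T → ℝ) (B : T → ℝ) (R : S → S → T → T → Prop)
    [∀ s s' t t', Decidable (R s s' t t')]
    (hZ : ∀ s t, 0 ≤ Z s t) (hB : ∀ t, 0 ≤ B t) {C : ℝ} (hC : 1 ≤ C)
    (hR : ∀ s s' t t', R s s' t t' → R s s' t' t)
    (hcr : ∀ s s' t t', R s s' t t' → Z s t * Z s' t' ≤ C * (Z s t' * Z s' t))
    (F G : T → T → ℝ) (hF : ∀ t t', F t' t = - F t t') (hG : ∀ t t', G t' t = G t t')
    (hFG : ∀ t t', |F t t'| ≤ G t t') (s s' : S) :
    |∑ t, ∑ t', Z s t * Z s' t' * (B t * B t') * F t t'| ≤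
      ∑ t, ∑ t', Z s t * Z s' t' * (B t * B t') * (kap C (R s s' t t') * G t t') := by
  classical
  have hG0 : ∀ t t', 0 ≤ G t t' := fun t t' => (abs_nonneg _).trans (hFG t t')
  have hkap : ∀ t t', kap C (R s s' t' t) = kap C (R s s' t t') := by
    intro t t'
    unfold kap
    by_cases h : R s s' t t'
    · rw [if_pos h, if_pos (hR _ _ _ _ h)]
    · rw [if_neg h, if_neg (fun h' => h (hR _ _ _ _ h'))]
  -- antisymmetrise
  have h1 : ∑ t, ∑ t', Z s t * Z s' t' * (B t * B t') * F t t' =
      (1 / 2) * ∑ t, ∑ t', (Z s t * Z s' t' - Z s t' * Z s' t) * (B t * B t') * F t t' := by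
    have hsw : ∑ t, ∑ t', Z s t' * Z s' t * (B t * B t') * F t t' =
        - ∑ t, ∑ t', Z s t * Z s' t' * (B t * B t') * F t t' := by
      rw [Finset.sum_comm, ← Finset.sum_neg_distrib]
      refine Finset.sum_congr rfl fun t _ => ?_
      rw [← Finset.sum_neg_distrib]
      refine Finset.sum_congr rfl fun t' _ => ?_
      rw [hF t t']; ring
    have : ∑ t, ∑ t', (Z s t * Z s' t' - Z s t' * Z s' t) * (B t * B t') * F t t' =
        ∑ t, ∑ t', Z s t * Z s' t' * (B t * B t') * F t t' -
        ∑ t, ∑ t', Z s t' * Z s' t * (B t * B t') * F t t' := by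
      rw [← Finset.sum_sub_distrib]
      refine Finset.sum_congr rfl fun t _ => ?_
      rw [← Finset.sum_sub_distrib]
      refine Finset.sum_congr rfl fun t' _ => ?_
      ring
    rw [this, hsw]; ring
  have h2 : ∑ t, ∑ t', Z s t * Z s' t' * (B t * B t') * (kap C (R s s' t t') * G t t') =
      (1 / 2) * ∑ t, ∑ t', (Z s t * Z s' t' + Z s t' * Z s' t) * (B t * B t') *
        (kap C (R s s' t t') * G t t') := by
    have hsw : ∑ t, ∑ t', Z s t' * Z s' t * (B t * B t') * (kap C (R s s' t t') * G t t') =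
        ∑ t, ∑ t', Z s t * Z s' t' * (B t * B t') * (kap C (R s s' t t') * G t t') := by
      rw [Finset.sum_comm]
      refine Finset.sum_congr rfl fun t _ => ?_
      refine Finset.sum_congr rfl fun t' _ => ?_
      rw [hkap t t', hG t t']; ring
    have : ∑ t, ∑ t', (Z s t * Z s' t' + Z s t' * Z s' t) * (B t * B t') *
        (kap C (R s s' t t') * G t t') =
        ∑ t, ∑ t', Z s t * Z s' t' * (B t * B t') * (kap C (R s s' t t') * G t t') +
        ∑ t, ∑ t', Z s t' * Z s' t * (B t * B t') * (kap C (R s s' t t') * G t t') := by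
      rw [← Finset.sum_add_distrib]
      refine Finset.sum_congr rfl fun t _ => ?_
      rw [← Finset.sum_add_distrib]
      refine Finset.sum_congr rfl fun t' _ => ?_
      ring
    rw [this, hsw]; ring
  rw [h1, h2, abs_mul, abs_of_nonneg (by norm_num : (0 : ℝ) ≤ 1 / 2)]
  refine mul_le_mul_of_nonneg_left ?_ (by norm_num)
  refine (Finset.abs_sum_le_sum_abs _ _).trans (Finset.sum_le_sum fun t _ => ?_)
  refine (Finset.abs_sum_le_sum_abs _ _).trans (Finset.sum_le_sum fun t' _ => ?_)
  have hBB : 0 ≤ B t * B t' := mul_nonneg (hB _) (hB _)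
  have hA : 0 ≤ Z s t * Z s' t' := mul_nonneg (hZ _ _) (hZ _ _)
  have hA' : 0 ≤ Z s t' * Z s' t := mul_nonneg (hZ _ _) (hZ _ _)
  have key : |Z s t * Z s' t' - Z s t' * Z s' t| ≤
      kap C (R s s' t t') * (Z s t * Z s' t' + Z s t' * Z s' t) := by
    unfold kap
    split_ifs with h
    · exact abs_sub_le_kappa hC (hcr _ _ _ _ h)
        (by have := hcr _ _ _ _ (hR _ _ _ _ h); linarith)
    · rw [one_mul]
      exact (abs_sub _ _).trans (by rw [abs_of_nonneg hA, abs_of_nonneg hA'])
  rw [abs_mul, abs_mul, abs_of_nonneg hBB]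
  calc |Z s t * Z s' t' - Z s t' * Z s' t| * (B t * B t') * |F t t'|
      ≤ (kap C (R s s' t t') * (Z s t * Z s' t' + Z s t' * Z s' t)) * (B t * B t') * G t t' := by
        refine mul_le_mul (mul_le_mul_of_nonneg_right key hBB) (hFG t t') (abs_nonneg _) ?_
        exact mul_nonneg (mul_nonneg (kap_nonneg hC _) (by linarith)) hBB
    _ = (Z s t * Z s' t' + Z s t' * Z s' t) * (B t * B t') * (kap C (R s s' t t') * G t t') := by
        ring

end Step

section Chain
variable {S : Type*} [Fintype S]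

/-- One-replica transfer: `tr Z B f k s = sum over t_{k-1}, ..., t_0` of the weights times
`f t_0`. -/
noncomputable def tr (Z : ℕ → S → S → ℝ) (B : ℕ → S → ℝ) (f : S → ℝ) : ℕ → S → ℝ
  | 0 => f
  | k + 1 => fun s => ∑ t, Z k s t * B k t * tr Z B f k t

/-- Two-replica transfer with the factor `kap C (R k s s' t t')` per level. -/
noncomputable def tr2 (Z : ℕ → S → S → ℝ) (B : ℕ → S → ℝ) (C : ℝ)
    (R : ℕ → S → S → S → S → Prop) [∀ k s s' t t', Decidable (R k s s' t t')]
    (H : S → S → ℝ) : ℕ → S → S → ℝ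
  | 0 => H
  | k + 1 => fun s s' => ∑ t, ∑ t', Z k s t * Z k s' t' * (B k t * B k t') *
      (kap C (R k s s' t t') * tr2 Z B C R H k t t')

theorem tr_add (Z : ℕ → S → S → ℝ) (B : ℕ → S → ℝ) (f g : S → ℝ) (k : ℕ) (s : S) :
    tr Z B (fun t => f t + g t) k s = tr Z B f k s + tr Z B g k s := by
  induction k generalizing s with
  | zero => rfl
  | succ k ih =>
    simp only [tr]
    rw [← Finset.sum_add_distrib]
    exact Finset.sum_congr rfl fun t _ => by rw [ih]; ring

theorem tr_nonneg (Z : ℕ → S → S → ℝ) (B : ℕ → S → ℝ) (hZ : ∀ k s t, 0 ≤ Z k s t)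
    (hB : ∀ k t, 0 ≤ B k t) {f : S → ℝ} (hf : ∀ t, 0 ≤ f t) (k : ℕ) (s : S) :
    0 ≤ tr Z B f k s := by
  induction k generalizing s with
  | zero => exact hf s
  | succ k ih =>
    exact Finset.sum_nonneg fun t _ => mul_nonneg (mul_nonneg (hZ _ _ _) (hB _ _)) (ih t)

variable (Z : ℕ → S → S → ℝ) (B : ℕ → S → ℝ) {C : ℝ}
    (R : ℕ → S → S → S → S → Prop) [∀ k s s' t t', Decidable (R k s s' t t')]

theorem tr2_symm (hR : ∀ k s s' t t', R k s s' t t' → R k s' s t' t) {H : S → S → ℝ}
    (hH : ∀ t t', H t' t = H t t') (k : ℕ) (s s' : S) :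
    tr2 Z B C R H k s' s = tr2 Z B C R H k s s' := by
  induction k generalizing s s' with
  | zero => exact hH s s'
  | succ k ih =>
    simp only [tr2]
    rw [Finset.sum_comm]
    refine Finset.sum_congr rfl fun t _ => Finset.sum_congr rfl fun t' _ => ?_
    have hk : kap C (R k s' s t' t) = kap C (R k s s' t t') := by
      unfold kap
      by_cases h : R k s s' t t'
      · rw [if_pos h, if_pos (hR _ _ _ _ _ h)]
      · rw [if_neg h, if_neg (fun h' => h (hR _ _ _ _ _ h'))]
    rw [hk, ih t t']; ring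

theorem tr2_nonneg (hZ : ∀ k s t, 0 ≤ Z k s t) (hB : ∀ k t, 0 ≤ B k t) (hC : 1 ≤ C)
    {H : S → S → ℝ} (hH : ∀ t t', 0 ≤ H t t') (k : ℕ) (s s' : S) :
    0 ≤ tr2 Z B C R H k s s' := by
  induction k generalizing s s' with
  | zero => exact hH s s'
  | succ k ih =>
    refine Finset.sum_nonneg fun t _ => Finset.sum_nonneg fun t' _ => ?_
    exact mul_nonneg (mul_nonneg (mul_nonneg (hZ _ _ _) (hZ _ _ _))
      (mul_nonneg (hB _ _) (hB _ _))) (mul_nonneg (kap_nonneg hC _) (ih t t'))

/-- **Swap chain, two-replica form.** -/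
theorem abs_tr_sub_le (hZ : ∀ k s t, 0 ≤ Z k s t) (hB : ∀ k t, 0 ≤ B k t) (hC : 1 ≤ C)
    (hR : ∀ k s s' t t', R k s s' t t' → R k s s' t' t)
    (hR' : ∀ k s s' t t', R k s s' t t' → R k s' s t' t)
    (hcr : ∀ k s s' t t', R k s s' t t' → Z k s t * Z k s' t' ≤ C * (Z k s t' * Z k s' t))
    (f : S → ℝ) (k : ℕ) (s s' : S) :
    |tr Z B f k s * tr Z B (fun _ => 1) k s' - tr Z B (fun _ => 1) k s * tr Z B f k s'| ≤
      tr2 Z B C R (fun t t' => |f t - f t'|) k s s' := by
  induction k generalizing s s' with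
  | zero => simp [tr, tr2]
  | succ k ih =>
    have hst := step (Z k) (B k) (R k) (hZ k) (hB k) hC (hR k) (hcr k)
      (fun t t' => tr Z B f k t * tr Z B (fun _ => 1) k t' -
        tr Z B (fun _ => 1) k t * tr Z B f k t')
      (tr2 Z B C R (fun t t' => |f t - f t'|) k)
      (fun t t' => by ring)
      (fun t t' => tr2_symm Z B R hR' (fun a b => abs_sub_comm _ _) k t t')
      ih s s'
    refine le_trans (le_of_eq ?_) hst
    congr 1
    simp only [tr]
    rw [Finset.sum_mul_sum, Finset.sum_mul_sum, ← Finset.sum_sub_distrib]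
    refine Finset.sum_congr rfl fun t _ => ?_
    rw [← Finset.sum_sub_distrib]
    exact Finset.sum_congr rfl fun t' _ => by ring

/-- **Swap chain, covariance form** (unnormalised): `b0` is the weight of the top segment. -/
theorem abs_cov_le (hZ : ∀ k s t, 0 ≤ Z k s t) (hB : ∀ k t, 0 ≤ B k t) (hC : 1 ≤ C)
    (hR : ∀ k s s' t t', R k s s' t t' → R k s s' t' t)
    (hR' : ∀ k s s' t t', R k s s' t t' → R k s' s t' t)
    (hcr : ∀ k s s' t t', R k s s' t t' → Z k s t * Z k s' t' ≤ C * (Z k s t' * Z k s' t))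
    (b0 g f : S → ℝ) (hb : ∀ s, 0 ≤ b0 s) (k : ℕ) :
    |(∑ s, b0 s * g s * tr Z B f k s) * (∑ s, b0 s * tr Z B (fun _ => 1) k s) -
      (∑ s, b0 s * g s * tr Z B (fun _ => 1) k s) * (∑ s, b0 s * tr Z B f k s)| ≤
      (1 / 2) * ∑ s, ∑ s', b0 s * b0 s' * |g s - g s'| *
        tr2 Z B C R (fun t t' => |f t - f t'|) k s s' := by
  have h1 : (∑ s, b0 s * g s * tr Z B f k s) * (∑ s, b0 s * tr Z B (fun _ => 1) k s) -
      (∑ s, b0 s * g s * tr Z B (fun _ => 1) k s) * (∑ s, b0 s * tr Z B f k s) =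
      (1 / 2) * ∑ s, ∑ s', b0 s * b0 s' * (g s - g s') *
        (tr Z B f k s * tr Z B (fun _ => 1) k s' - tr Z B (fun _ => 1) k s * tr Z B f k s') := by
    have e1 : ∑ s, ∑ s', b0 s * b0 s' * (g s - g s') *
        (tr Z B f k s * tr Z B (fun _ => 1) k s' - tr Z B (fun _ => 1) k s * tr Z B f k s') =
        (∑ s, ∑ s', (b0 s * g s * tr Z B f k s) * (b0 s' * tr Z B (fun _ => 1) k s')) -
        (∑ s, ∑ s', (b0 s * g s * tr Z B (fun _ => 1) k s) * (b0 s' * tr Z B f k s')) -
        (∑ s, ∑ s', (b0 s * tr Z B f k s) * (b0 s' * g s' * tr Z B (fun _ => 1) k s')) +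
        (∑ s, ∑ s', (b0 s * tr Z B (fun _ => 1) k s) * (b0 s' * g s' * tr Z B f k s')) := by
      rw [← Finset.sum_sub_distrib, ← Finset.sum_sub_distrib, ← Finset.sum_add_distrib]
      refine Finset.sum_congr rfl fun s _ => ?_
      rw [← Finset.sum_sub_distrib, ← Finset.sum_sub_distrib, ← Finset.sum_add_distrib]
      exact Finset.sum_congr rfl fun s' _ => by ring
    rw [e1, ← Finset.sum_mul_sum, ← Finset.sum_mul_sum, ← Finset.sum_mul_sum,
      ← Finset.sum_mul_sum]
    ring
  rw [h1, abs_mul, abs_of_nonneg (by norm_num : (0 : ℝ) ≤ 1 / 2)]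
  refine mul_le_mul_of_nonneg_left ?_ (by norm_num)
  refine (Finset.abs_sum_le_sum_abs _ _).trans (Finset.sum_le_sum fun s _ => ?_)
  refine (Finset.abs_sum_le_sum_abs _ _).trans (Finset.sum_le_sum fun s' _ => ?_)
  rw [abs_mul, abs_mul, abs_of_nonneg (mul_nonneg (hb s) (hb s'))]
  exact mul_le_mul_of_nonneg_left
    (abs_tr_sub_le Z B R hZ hB hC hR hR' hcr f k s s')
    (mul_nonneg (mul_nonneg (hb s) (hb s')) (abs_nonneg _))

end Chain

end Crest.Agent.R144.Swp356
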