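import Mathlib

/-!
# R144 / Til_353 : convex tilings of the plane and connectedness

Generic lemma: a finite union of tiles whose boundary `frontier (interior ...)` is connected has
connected interior and connected complement, as soon as touching tiles of the same kind are
chained by edge-adjacent tiles of the same kind.
-/

set_option autoImplicit false

noncomputable section

namespace Crest.Agent.R144.Til353

open Set Topology

/-- A locally finite tiling of the plane by closed convex tiles. -/
structure Tiling {ι : Type*} (C : ι → Set ℂ) : Prop where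
  convex : ∀ i, Convex ℝ (C i)
  closed : ∀ i, IsClosed (C i)
  int_ne : ∀ i, (interior (C i)).Nonempty
  disj : ∀ i j, i ≠ j → Disjoint (interior (C i)) (C j)
  locfin : LocallyFinite C
  cover : ⋃ i, C i = univ

/-- `i` and `j` are glued: some point of the interior of `C i ∪ C j` lies on both tiles. -/
def Glued {ι : Type*} (C : ι → Set ℂ) (i j : ι) : Prop :=
  ∃ m, m ∈ C i ∧ m ∈ C j ∧ m ∈ interior (C i ∪ C j)

/-- union of a set of tiles -/
def U {ι : Type*} (C : ι → Set ℂ) (S : Set ι) : Set ℂ := ⋃ i ∈ S, C i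

variable {ι : Type*} {C : ι → Set ℂ}

theorem mem_U {S : Set ι} {z : ℂ} : z ∈ U C S ↔ ∃ i ∈ S, z ∈ C i := by
  unfold U
  simp only [mem_iUnion, exists_prop]

namespace Tiling

theorem closure_int (h : Tiling C) (i : ι) : closure (interior (C i)) = C i := by
  rw [(h.convex i).closure_interior_eq_closure_of_nonempty_interior (h.int_ne i),
    (h.closed i).closure_eq]

theorem isClosed_U (h : Tiling C) (S : Set ι) : IsClosed (U C S) := by
  have : U C S = ⋃ i : S, C i := by
    unfold U
    rw [biUnion_eq_iUnion]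
  rw [this]
  exact (h.locfin.comp_injective Subtype.val_injective).isClosed_iUnion fun i => h.closed i

theorem U_union (S S' : Set ι) : U C (S ∪ S') = U C S ∪ U C S' := by
  unfold U
  exact biUnion_union _ _ _

theorem U_compl (h : Tiling C) (S : Set ι) : (U C S)ᶜ ⊆ U C Sᶜ := by
  intro z hz
  have : z ∈ ⋃ i, C i := by rw [h.cover]; trivial
  obtain ⟨i, hi⟩ := mem_iUnion.1 this
  refine mem_U.2 ⟨i, fun his => hz (mem_U.2 ⟨i, his, hi⟩), hi⟩

/-- interiors of tiles outside `S` do not meet `U S` -/
theorem int_disj_U (h : Tiling C) {S : Set ι} {i : ι} (hi : i ∉ S) :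
    Disjoint (interior (C i)) (U C S) := by
  rw [Set.disjoint_left]
  intro z hz hz'
  obtain ⟨j, hj, hzj⟩ := mem_U.1 hz'
  have hne : i ≠ j := fun e => hi (e ▸ hj)
  exact Set.disjoint_left.1 (h.disj i j hne) hz hzj

/-- `U S` is regular closed. -/
theorem closure_interior_U (h : Tiling C) (S : Set ι) : closure (interior (U C S)) = U C S := by
  apply Subset.antisymm
  · exact closure_minimal interior_subset (h.isClosed_U S)
  · intro z hz
    obtain ⟨i, hi, hzi⟩ := mem_U.1 hz
    rw [← h.closure_int i] at hzi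
    refine closure_mono (interior_mono fun y hy => mem_U.2 ⟨i, hi, hy⟩) hzi

/-- points of `U S ∩ U Sᶜ` are exactly the frontier of the interior of `U S` -/
theorem frontier_eq (h : Tiling C) (S : Set ι) :
    frontier (interior (U C S)) = U C S ∩ U C Sᶜ := by
  rw [frontier, interior_interior, h.closure_interior_U]
  ext z
  constructor
  · rintro ⟨h1, h2⟩
    refine ⟨h1, ?_⟩
    have h3 : z ∈ closure (U C S)ᶜ := by
      rw [closure_compl]; exact h2
    exact closure_minimal (h.U_compl S) (h.isClosed_U _) h3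
  · rintro ⟨h1, h2⟩
    refine ⟨h1, fun h3 => ?_⟩
    obtain ⟨i, hi, hzi⟩ := mem_U.1 h2
    rw [← h.closure_int i] at hzi
    obtain ⟨y, hy1, hy2⟩ := mem_closure_iff.1 hzi _ isOpen_interior h3
    exact Set.disjoint_left.1 (h.int_disj_U (S := S) hi) hy2 (interior_subset hy1)

theorem frontier_eq' (h : Tiling C) (S : Set ι) :
    frontier (interior (U C S)) = frontier (interior (U C Sᶜ)) := by
  rw [h.frontier_eq, h.frontier_eq, compl_compl, inter_comm]

/-- complement of the closed union = interior of the union of the other tiles -/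
theorem compl_U (h : Tiling C) (S : Set ι) : (U C S)ᶜ = interior (U C Sᶜ) := by
  apply Subset.antisymm
  · exact interior_maximal (h.U_compl S) (h.isClosed_U S).isOpen_compl
  · intro z hz hz'
    have : z ∈ frontier (interior (U C S)) := by
      rw [h.frontier_eq]
      exact ⟨hz', interior_subset hz⟩
    rw [h.frontier_eq', frontier, interior_interior] at this
    exact this.2 hz

/-- A class of tiles that touches no other tile of `S` and whose union misses the connected frontier
is everything: key step. -/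
theorem all_of_class (h : Tiling C) {S A B : Set ι} (hAB : S = A ∪ B) (hd : Disjoint A B)
    (htouch : Disjoint (U C A) (U C B)) (hS : Sᶜ.Nonempty)
    (hJ : IsPreconnected (frontier (interior (U C S)))) : A = ∅ ∨ B = ∅ := by
  by_contra hcon
  push Not at hcon
  obtain ⟨hA, hB⟩ := hcon
  have hJsub : frontier (interior (U C S)) ⊆ U C A ∪ U C B := by
    rw [← U_union, ← hAB, h.frontier_eq]
    exact inter_subset_left
  -- each class meets the frontier
  have key : ∀ A B : Set ι, S = A ∪ B → Disjoint A B → Disjoint (U C A) (U C B) → A.Nonempty →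
      (frontier (interior (U C S)) ∩ U C A).Nonempty := by
    intro A B hAB hd htouch hA
    obtain ⟨a, ha⟩ := hA
    have hne : (U C A).Nonempty := by
      obtain ⟨z, hz⟩ := h.int_ne a
      exact ⟨z, mem_U.2 ⟨a, ha, interior_subset hz⟩⟩
    have hnu : U C A ≠ univ := by
      obtain ⟨s, hs⟩ := hS
      obtain ⟨z, hz⟩ := h.int_ne s
      intro he
      have : z ∈ U C A := by rw [he]; trivial
      refine Set.disjoint_left.1 (h.int_disj_U (S := A) (i := s) fun hsA => hs ?_) hz this
      rw [hAB]; exact Or.inl hsA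
    have hfr : (frontier (U C A)).Nonempty := by
      rw [nonempty_iff_ne_empty]
      intro he
      have hcl : IsClopen (U C A) := isClopen_iff_frontier_eq_empty.2 he
      rcases isClopen_iff.1 hcl with h1 | h1
      · exact hne.ne_empty h1
      · exact hnu h1
    obtain ⟨y, hy⟩ := hfr
    have hyA : y ∈ U C A := (h.isClosed_U A).frontier_subset hy
    refine ⟨y, ?_, hyA⟩
    rw [h.frontier_eq]
    refine ⟨by rw [hAB, U_union]; exact Or.inl hyA, ?_⟩
    -- y is not interior to U S
    by_contra hyn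
    have hyi : y ∈ interior (U C S) := by
      have := h.compl_U Sᶜ
      rw [compl_compl] at this
      rw [← this]
      exact hyn
    have hyB : y ∉ U C B := fun hb => Set.disjoint_left.1 htouch hyA hb
    have h1 : interior (U C S) ∩ (U C B)ᶜ ⊆ U C A := by
      rintro z ⟨hz1, hz2⟩
      have := interior_subset hz1
      rw [hAB, U_union] at this
      exact this.resolve_right hz2
    have h2 : y ∈ interior (U C A) :=
      interior_maximal h1 (isOpen_interior.inter (h.isClosed_U B).isOpen_compl) ⟨hyi, hyB⟩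
    rw [frontier] at hy
    exact hy.2 h2
  obtain ⟨p, hp1, hp2⟩ := key A B hAB hd htouch hA
  obtain ⟨q, hq1, hq2⟩ := key B A (by rw [hAB, union_comm]) hd.symm htouch.symm hB
  have hpre := isPreconnected_closed_iff.1 hJ (U C A) (U C B) (h.isClosed_U A) (h.isClosed_U B)
    hJsub ⟨p, hp1, hp2⟩ ⟨q, hq1, hq2⟩
  obtain ⟨z, _, hz1, hz2⟩ := hpre
  exact Set.disjoint_left.1 htouch hz1 hz2

/-- chained inside `S` by glued tiles -/
def Chain (C : ι → Set ℂ) (S : Set ι) : ι → ι → Prop :=
  Relation.ReflTransGen fun i j => i ∈ S ∧ j ∈ S ∧ Glued C i j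

theorem glued_symm {i j : ι} (h : Glued C i j) : Glued C j i := by
  obtain ⟨m, h1, h2, h3⟩ := h
  exact ⟨m, h2, h1, by rwa [union_comm]⟩

theorem chain_symm {S : Set ι} {i j : ι} (h : Chain C S i j) : Chain C S j i := by
  unfold Chain at h ⊢
  induction h with
  | refl => exact Relation.ReflTransGen.refl
  | tail _ hstep ih =>
    exact Relation.ReflTransGen.head ⟨hstep.2.1, hstep.1, glued_symm hstep.2.2⟩ ih

/-- **Combinatorial connectedness, for an arbitrary preorder relation containing touching.** -/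
theorem rel_of (h : Tiling C) {S : Set ι} (hS : Sᶜ.Nonempty)
    (hJ : IsPreconnected (frontier (interior (U C S)))) {E : ι → ι → Prop} (hrefl : ∀ i, E i i)
    (htrans : ∀ i j k, E i j → E j k → E i k)
    (hloc : ∀ i ∈ S, ∀ j ∈ S, (C i ∩ C j).Nonempty → E i j) :
    ∀ i ∈ S, ∀ j ∈ S, E i j := by
  intro i hi j hj
  by_contra hcon
  have := h.all_of_class (S := S) (A := {k | k ∈ S ∧ E i k})
    (B := {k | k ∈ S ∧ ¬ E i k}) (by ext k; simp only [mem_union, mem_ofPred_eq]; tauto)
    (by rw [Set.disjoint_left]; rintro k ⟨_, h1⟩ ⟨_, h2⟩; exact h2 h1)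
    (by
      rw [Set.disjoint_left]
      intro z hz1 hz2
      obtain ⟨a, ⟨haS, ha⟩, hza⟩ := mem_U.1 hz1
      obtain ⟨b, ⟨hbS, hb⟩, hzb⟩ := mem_U.1 hz2
      exact hb (htrans _ _ _ ha (hloc a haS b hbS ⟨z, hza, hzb⟩))) hS hJ
  rcases this with h1 | h1
  · have : i ∈ ({k | k ∈ S ∧ E i k} : Set ι) := ⟨hi, hrefl i⟩
    rw [h1] at this
    exact this
  · have : j ∈ ({k | k ∈ S ∧ ¬ E i k} : Set ι) := ⟨hj, hcon⟩
    rw [h1] at this
    exact this

/-- **Combinatorial connectedness.** -/
theorem chain_of (h : Tiling C) {S : Set ι} (hS : Sᶜ.Nonempty)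
    (hJ : IsPreconnected (frontier (interior (U C S))))
    (hloc : ∀ i ∈ S, ∀ j ∈ S, (C i ∩ C j).Nonempty → Chain C S i j) :
    ∀ i ∈ S, ∀ j ∈ S, Chain C S i j := by
  intro i hi j hj
  by_contra hcon
  have := h.all_of_class (S := S) (A := {k | k ∈ S ∧ Chain C S i k})
    (B := {k | k ∈ S ∧ ¬ Chain C S i k}) (by ext k; simp only [mem_union, mem_ofPred_eq]; tauto)
    (by rw [Set.disjoint_left]; rintro k ⟨_, h1⟩ ⟨_, h2⟩; exact h2 h1)
    (by
      rw [Set.disjoint_left]
      intro z hz1 hz2
      obtain ⟨a, ⟨haS, ha⟩, hza⟩ := mem_U.1 hz1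
      obtain ⟨b, ⟨hbS, hb⟩, hzb⟩ := mem_U.1 hz2
      exact hb (ha.trans (hloc a haS b hbS ⟨z, hza, hzb⟩))) hS hJ
  rcases this with h1 | h1
  · have : i ∈ ({k | k ∈ S ∧ Chain C S i k} : Set ι) := ⟨hi, Relation.ReflTransGen.refl⟩
    rw [h1] at this
    exact this
  · have : j ∈ ({k | k ∈ S ∧ ¬ Chain C S i k} : Set ι) := ⟨hj, hcon⟩
    rw [h1] at this
    exact this

/-- **Topological connectedness.** -/
theorem preconnected_interior (h : Tiling C) {S : Set ι}
    (hc : ∀ i ∈ S, ∀ j ∈ S, Chain C S i j) : IsPreconnected (interior (U C S)) := by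
  rw [isPreconnected_iff_subset_of_disjoint]
  intro V W hV hW hsub hdisj
  -- each tile interior lies in `V` or in `W`
  have hint : ∀ i ∈ S, interior (C i) ⊆ interior (U C S) := fun i hi =>
    interior_mono fun y hy => mem_U.2 ⟨i, hi, hy⟩
  have hcls : ∀ i ∈ S, interior (C i) ⊆ V ∨ interior (C i) ⊆ W := by
    intro i hi
    have hpre : IsPreconnected (interior (C i)) := (h.convex i).interior.isPreconnected
    refine isPreconnected_iff_subset_of_disjoint.1 hpre V W hV hW ((hint i hi).trans hsub) ?_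
    rw [← subset_empty_iff, ← hdisj]
    exact inter_subset_inter_left _ (hint i hi)
  have hexcl : ∀ i ∈ S, ¬ (interior (C i) ⊆ V ∧ interior (C i) ⊆ W) := by
    rintro i hi ⟨h1, h2⟩
    obtain ⟨z, hz⟩ := h.int_ne i
    have : z ∈ interior (U C S) ∩ (V ∩ W) := ⟨hint i hi hz, h1 hz, h2 hz⟩
    rw [hdisj] at this
    exact this
  have hstp : ∀ V W : Set ℂ, IsOpen V → IsOpen W → interior (U C S) ⊆ V ∪ W →
      interior (U C S) ∩ (V ∩ W) = ∅ →
      (∀ i ∈ S, interior (C i) ⊆ V ∨ interior (C i) ⊆ W) →
      ∀ i j, i ∈ S → j ∈ S → Glued C i j → interior (C i) ⊆ V → interior (C j) ⊆ V := by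
    intro V W hV hW hsub hdisj hcls i j hi hj hg hiV
    rcases hcls j hj with h1 | h1
    · exact h1
    exfalso
    obtain ⟨m, hmi, hmj, hm⟩ := hg
    have hmU : m ∈ interior (U C S) := by
      refine interior_mono ?_ hm
      rintro y (hy | hy)
      · exact mem_U.2 ⟨i, hi, hy⟩
      · exact mem_U.2 ⟨j, hj, hy⟩
    rcases hsub hmU with hmV | hmW
    · rw [← h.closure_int j] at hmj
      obtain ⟨y, hy1, hy2⟩ := mem_closure_iff.1 hmj _ hV hmV
      have : y ∈ interior (U C S) ∩ (V ∩ W) := ⟨hint j hj hy2, hy1, h1 hy2⟩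
      rw [hdisj] at this
      exact this
    · rw [← h.closure_int i] at hmi
      obtain ⟨y, hy1, hy2⟩ := mem_closure_iff.1 hmi _ hW hmW
      have : y ∈ interior (U C S) ∩ (V ∩ W) := ⟨hint i hi hy2, hiV hy2, hy1⟩
      rw [hdisj] at this
      exact this
  have hchain : ∀ V W : Set ℂ, IsOpen V → IsOpen W → interior (U C S) ⊆ V ∪ W →
      interior (U C S) ∩ (V ∩ W) = ∅ →
      (∀ i ∈ S, interior (C i) ⊆ V ∨ interior (C i) ⊆ W) →
      ∀ i ∈ S, interior (C i) ⊆ V → interior (U C S) ⊆ V := by
    intro V W hV hW hsub hdisj hcls i hi hiV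
    have hall : ∀ j ∈ S, interior (C j) ⊆ V := by
      intro j hj
      have := hc i hi j hj
      induction this with
      | refl => exact hiV
      | tail _ hs ih =>
        exact hstp V W hV hW hsub hdisj hcls _ _ hs.1 hs.2.1 hs.2.2 (ih hs.1)
    intro z hz
    rcases hsub hz with h1 | h1
    · exact h1
    exfalso
    obtain ⟨j, hj, hzj⟩ := mem_U.1 (interior_subset hz)
    rw [← h.closure_int j] at hzj
    obtain ⟨y, hy1, hy2⟩ := mem_closure_iff.1 hzj _ (isOpen_interior.inter hW) ⟨hz, h1⟩
    have : y ∈ interior (U C S) ∩ (V ∩ W) := ⟨hy1.1, hall j hj hy2, hy1.2⟩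
    rw [hdisj] at this
    exact this
  rcases S.eq_empty_or_nonempty with rfl | ⟨i, hi⟩
  · left
    intro z hz
    obtain ⟨i, hi, _⟩ := mem_U.1 (interior_subset hz)
    exact absurd hi (notMem_empty i)
  rcases hcls i hi with h1 | h1
  · left
    exact hchain V W hV hW hsub hdisj hcls i hi h1
  · right
    exact hchain W V hW hV (by rwa [union_comm]) (by rwa [inter_comm W V])
      (fun i hi => (hcls i hi).symm) i hi h1

end Tiling

end Crest.Agent.R144.Til353
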