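import Mathlib
import Crest.Prelude.Def_TriHeights
import Crest.Agent.R144.Tilt4_714

/-!
# R144 (S0197), block TILT (helper714), part 5: S0197 literally, from the variance asymptotics

`VarAsymp κ`: for every admissible amplitude, smooth marked domain, chart, approximation and test
function, the arcs are disjoint and every free vertex is joined to a non-free one (eventually), and
for some `s₀ > 0` and all `|s| < s₀` the variance of the affine pairing under the law tilted by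
`exp (s * pairing)` tends to `κ * domainGreenForm φ f`.

`s0197_of_varAsymp`: `VarAsymp κ` with `0 < κ ≤ 2/π` implies the literal statement S0197.
-/

set_option autoImplicit false

namespace Crest.Agent.R144.Tilt714

open Filter Topology Metric MeasureTheory ProbabilityTheory
open Crest.ProbabilityR.TriHeights Crest.Agent.R144.Ham560
open scoped NNReal ENNReal Real ContDiff

/-- what the analysis of the real hammock model has to deliver -/
def VarAsymp (κ : ℝ) : Prop :=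
  ∀ a : ℝ, 0 < a → a ≤ 1 / 2 → ∀ (D : Set ℂ) (γ : ℝ → ℂ) (θ : ℝ) (φ : ℂ → ℂ),
      Crest.ProbabilityR.TriHeights.IsSmoothMarkedDomain D γ θ → DifferentiableOn ℂ φ D →
      Set.BijOn φ D (Metric.ball (0 : ℂ) 1) →
      ∀ (δ : ℕ → ℝ) (T : ℕ → Finset Crest.ProbabilityR.TriHeights.Tri)
        (ea eb : ℕ → (ℤ × ℤ) × (ℤ × ℤ)) (c : ℕ → ℝ → ℂ),
        Crest.ProbabilityR.TriHeights.IsMarkedApprox γ θ δ T ea eb c →
      ∀ f : ℂ → ℝ, ContDiff ℝ ∞ f → HasCompactSupport f → tsupport f ⊆ D →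
        (∀ᶠ n in atTop, ∀ v, v ∈ arcPlus (δ n) (T n) (c n) θ → v ∉ arcMinus (δ n) (T n) (c n) θ) ∧
        (∀ᶠ n in atTop, Anch (freeVerts (T n) (arcPlus (δ n) (T n) (c n) θ)
          (arcMinus (δ n) (T n) (c n) θ)) (triE (T n))) ∧
        ∃ s₀ : ℝ, 0 < s₀ ∧ ∀ s : ℝ, |s| < s₀ → Tendsto (fun n =>
          Var[pairX (δ n) (T n) (arcPlus (δ n) (T n) (c n) θ) (arcMinus (δ n) (T n) (c n) θ) a f;
            (hamP (freeVerts (T n) (arcPlus (δ n) (T n) (c n) θ) (arcMinus (δ n) (T n) (c n) θ))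
              (triE (T n)) (triXi (arcPlus (δ n) (T n) (c n) θ)
                (arcMinus (δ n) (T n) (c n) θ) a)).tilted
              (s * pairX (δ n) (T n) (arcPlus (δ n) (T n) (c n) θ)
                (arcMinus (δ n) (T n) (c n) θ) a f ·)]) atTop
          (𝓝 (κ * Crest.ProbabilityR.HexHeights.domainGreenForm φ f))

/-- **S0197 from the variance asymptotics.** -/
theorem s0197_of_varAsymp {κ : ℝ} (hκ0 : 0 < κ) (hκ1 : κ ≤ 2 / π) (H : VarAsymp κ) :
    ∃ A σ lam : ℝ, 0 < A ∧ 0 < σ ∧ σ ^ 2 = 1 / ((2 / Real.sqrt 3) * A) ∧ 0 < lam ∧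
      lam ^ 2 = Real.pi / (8 * (2 / Real.sqrt 3) * A) ∧ lam ≤ 1 / 2 ∧
      ∀ a : ℝ, 0 < a → a ≤ 1 / 2 → ∀ (D : Set ℂ) (γ : ℝ → ℂ) (θ : ℝ) (φ : ℂ → ℂ),
      Crest.ProbabilityR.TriHeights.IsSmoothMarkedDomain D γ θ → DifferentiableOn ℂ φ D →
      Set.BijOn φ D (Metric.ball (0 : ℂ) 1) →
      ∀ (δ : ℕ → ℝ) (T : ℕ → Finset Crest.ProbabilityR.TriHeights.Tri) (ea eb : ℕ → (ℤ × ℤ) × (ℤ × ℤ)) (c : ℕ → ℝ → ℂ),
        Crest.ProbabilityR.TriHeights.IsMarkedApprox γ θ δ T ea eb c →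
      ∀ f : ℂ → ℝ, ContDiff ℝ ∞ f → HasCompactSupport f → tsupport f ⊆ D →
        ∀ t : ℝ, Filter.Tendsto (fun n : ℕ => Crest.ProbabilityR.TriHeights.realExpect (T n) (Crest.ProbabilityR.TriHeights.arcPlus (δ n) (T n) (c n) θ) (Crest.ProbabilityR.TriHeights.arcMinus (δ n) (T n) (c n) θ) a
            (fun h => Complex.exp (Complex.I *
              (t * (Crest.ProbabilityR.TriHeights.affinePairing (δ n) (T n) f h -
              (Crest.ProbabilityR.TriHeights.realExpect (T n) (Crest.ProbabilityR.TriHeights.arcPlus (δ n) (T n) (c n) θ) (Crest.ProbabilityR.TriHeights.arcMinus (δ n) (T n) (c n) θ) a (fun h' => (Crest.ProbabilityR.TriHeights.affinePairing (δ n) (T n) f h' : ℂ))).re) / σ : ℝ))))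
          Filter.atTop
          (nhds (Complex.exp (-(Crest.ProbabilityR.HexHeights.domainGreenForm φ f * t ^ 2 / 2 : ℝ)))) := by
  have h3 : 0 < Real.sqrt 3 := Real.sqrt_pos.mpr (by norm_num)
  have hπ : 0 < π := Real.pi_pos
  refine ⟨Real.sqrt 3 / (2 * κ), Real.sqrt κ, Real.sqrt (π * κ / 8), by positivity,
    Real.sqrt_pos.mpr hκ0, ?_, Real.sqrt_pos.mpr (by positivity), ?_, ?_, ?_⟩
  · rw [Real.sq_sqrt hκ0.le]; field_simp
  · rw [Real.sq_sqrt (by positivity)]; field_simp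
  · rw [Real.sqrt_le_left (by norm_num)]
    have : π * κ ≤ π * (2 / π) := by gcongr
    rw [mul_div_cancel₀ _ hπ.ne'] at this
    linarith
  · intro a ha0 ha1 D γ θ φ hD hφ hφ' δ T ea eb c hM f hf hf' hf'' t
    obtain ⟨hd, hA, s₀, hs₀, hq⟩ := H a ha0 ha1 D γ θ φ hD hφ hφ' δ T ea eb c hM f hf hf' hf''
    exact law_of_tilted_var (Real.sqrt_pos.mpr hκ0) ha0 ha1 hd hA hs₀
      (by rw [Real.sq_sqrt hκ0.le]; exact hq) t

end Crest.Agent.R144.Tilt714
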