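import Mathlib

/-!
R144 (S0197), helper95: abstract site reflection positivity for densities on `Q → ℝ`,
`Q` finite with an involution `θ`.

* `rp_abs`: if `w` depends on the fixed sites only and `G` on the sites of the half `S`
  (`S ∪ θ S = univ`, `S ∩ θ S = Fix θ`), then `0 ≤ ∫ w h * (G h * G (h ∘ θ))`.
-/

set_option autoImplicit false

open MeasureTheory Set Function

namespace Crest.Agent.R144.Tor95

section rp

variable {Q : Type*}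

open Classical in
/-- Forward map of the decomposition. -/
noncomputable def splitFun (θ : Q → Q) (hθ : ∀ q, θ (θ q) = q) (S : Set Q)
    (h1 : ∀ q, q ∈ S ∨ θ q ∈ S) (q : Q) :
    {q // θ q = q} ⊕ ({q // q ∈ S ∧ θ q ≠ q} ⊕ {q // q ∈ S ∧ θ q ≠ q}) :=
  if hf : θ q = q then Sum.inl ⟨q, hf⟩
  else if hs : q ∈ S then Sum.inr (Sum.inl ⟨q, hs, hf⟩)
  else Sum.inr (Sum.inr ⟨θ q, (h1 q).resolve_left hs, fun h => hf (by
    rw [hθ] at h; exact h.symm)⟩)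

theorem splitFun_fix (θ : Q → Q) (hθ : ∀ q, θ (θ q) = q) (S : Set Q)
    (h1 : ∀ q, q ∈ S ∨ θ q ∈ S) (q : Q) (hf : θ q = q) :
    splitFun θ hθ S h1 q = Sum.inl ⟨q, hf⟩ := by
  simp [splitFun, hf]

theorem splitFun_up (θ : Q → Q) (hθ : ∀ q, θ (θ q) = q) (S : Set Q)
    (h1 : ∀ q, q ∈ S ∨ θ q ∈ S) (q : Q) (hs : q ∈ S) (hf : θ q ≠ q) :
    splitFun θ hθ S h1 q = Sum.inr (Sum.inl ⟨q, hs, hf⟩) := by
  simp [splitFun, hf, hs]

theorem splitFun_down (θ : Q → Q) (hθ : ∀ q, θ (θ q) = q) (S : Set Q)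
    (h1 : ∀ q, q ∈ S ∨ θ q ∈ S) (h2 : ∀ q, q ∈ S → θ q ∈ S → θ q = q) (q : Q) (hs : q ∈ S)
    (hf : θ q ≠ q) :
    splitFun θ hθ S h1 (θ q) = Sum.inr (Sum.inr ⟨q, hs, hf⟩) := by
  have e2 : θ q ∉ S := fun h => hf (h2 q hs h)
  simp [splitFun, hf.symm, e2, hθ]

/-- The decomposition `Q ≃ Fix θ ⊕ (U ⊕ U)`, `U = S \ Fix θ`. -/
noncomputable def splitEquiv (θ : Q → Q) (hθ : ∀ q, θ (θ q) = q) (S : Set Q)
    (h1 : ∀ q, q ∈ S ∨ θ q ∈ S) (h2 : ∀ q, q ∈ S → θ q ∈ S → θ q = q) :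
    Q ≃ {q // θ q = q} ⊕ ({q // q ∈ S ∧ θ q ≠ q} ⊕ {q // q ∈ S ∧ θ q ≠ q}) where
  toFun := splitFun θ hθ S h1
  invFun := Sum.elim (fun q => q.1) (Sum.elim (fun q => q.1) (fun q => θ q.1))
  left_inv := by
    intro q
    by_cases hf : θ q = q
    · rw [splitFun_fix θ hθ S h1 q hf]; rfl
    · by_cases hs : q ∈ S
      · rw [splitFun_up θ hθ S h1 q hs hf]; rfl
      · simp [splitFun, hf, hs, hθ]
  right_inv := by
    rintro (⟨q, hq⟩ | ⟨q, hq, hq'⟩ | ⟨q, hq, hq'⟩)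
    · exact splitFun_fix θ hθ S h1 q hq
    · exact splitFun_up θ hθ S h1 q hq hq'
    · exact splitFun_down θ hθ S h1 h2 q hq hq'

theorem splitEquiv_fix (θ : Q → Q) (hθ : ∀ q, θ (θ q) = q) (S : Set Q)
    (h1 : ∀ q, q ∈ S ∨ θ q ∈ S) (h2 : ∀ q, q ∈ S → θ q ∈ S → θ q = q) (q : Q) (hf : θ q = q) :
    splitEquiv θ hθ S h1 h2 q = Sum.inl ⟨q, hf⟩ :=
  splitFun_fix θ hθ S h1 q hf

theorem splitEquiv_up (θ : Q → Q) (hθ : ∀ q, θ (θ q) = q) (S : Set Q)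
    (h1 : ∀ q, q ∈ S ∨ θ q ∈ S) (h2 : ∀ q, q ∈ S → θ q ∈ S → θ q = q) (q : Q) (hs : q ∈ S)
    (hf : θ q ≠ q) :
    splitEquiv θ hθ S h1 h2 q = Sum.inr (Sum.inl ⟨q, hs, hf⟩) :=
  splitFun_up θ hθ S h1 q hs hf

theorem splitEquiv_down (θ : Q → Q) (hθ : ∀ q, θ (θ q) = q) (S : Set Q)
    (h1 : ∀ q, q ∈ S ∨ θ q ∈ S) (h2 : ∀ q, q ∈ S → θ q ∈ S → θ q = q) (q : Q) (hs : q ∈ S)
    (hf : θ q ≠ q) :
    splitEquiv θ hθ S h1 h2 (θ q) = Sum.inr (Sum.inr ⟨q, hs, hf⟩) :=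
  splitFun_down θ hθ S h1 h2 q hs hf

/-- Gluing of the values on the fixed sites and on the two halves. -/
noncomputable def glue (θ : Q → Q) (hθ : ∀ q, θ (θ q) = q) (S : Set Q)
    (h1 : ∀ q, q ∈ S ∨ θ q ∈ S) (h2 : ∀ q, q ∈ S → θ q ∈ S → θ q = q)
    (z : ({q // θ q = q} → ℝ) × (({q // q ∈ S ∧ θ q ≠ q} → ℝ) × ({q // q ∈ S ∧ θ q ≠ q} → ℝ))) :
    Q → ℝ :=
  fun q => Sum.elim z.1 (Sum.elim z.2.1 z.2.2) (splitEquiv θ hθ S h1 h2 q)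

variable [Fintype Q]

/-- `glue` as a measurable equivalence. -/
noncomputable def glueE (θ : Q → Q) (hθ : ∀ q, θ (θ q) = q) (S : Set Q)
    (h1 : ∀ q, q ∈ S ∨ θ q ∈ S) (h2 : ∀ q, q ∈ S → θ q ∈ S → θ q = q) :
    (({q // θ q = q} → ℝ) × (({q // q ∈ S ∧ θ q ≠ q} → ℝ) × ({q // q ∈ S ∧ θ q ≠ q} → ℝ))) ≃ᵐ
      (Q → ℝ) :=
  ((MeasurableEquiv.prodCongr (MeasurableEquiv.refl _)
      (MeasurableEquiv.sumPiEquivProdPi
        (fun _ : {q // q ∈ S ∧ θ q ≠ q} ⊕ {q // q ∈ S ∧ θ q ≠ q} => ℝ)).symm).trans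
    (MeasurableEquiv.sumPiEquivProdPi
      (fun _ : {q // θ q = q} ⊕ ({q // q ∈ S ∧ θ q ≠ q} ⊕ {q // q ∈ S ∧ θ q ≠ q}) => ℝ)).symm).trans
    (MeasurableEquiv.piCongrLeft (fun _ : Q => ℝ) (splitEquiv θ hθ S h1 h2).symm)

omit [Fintype Q] in
theorem glueE_apply (θ : Q → Q) (hθ : ∀ q, θ (θ q) = q) (S : Set Q)
    (h1 : ∀ q, q ∈ S ∨ θ q ∈ S) (h2 : ∀ q, q ∈ S → θ q ∈ S → θ q = q)
    (z : ({q // θ q = q} → ℝ) × (({q // q ∈ S ∧ θ q ≠ q} → ℝ) × ({q // q ∈ S ∧ θ q ≠ q} → ℝ))) :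
    glueE θ hθ S h1 h2 z = glue θ hθ S h1 h2 z := by
  funext q
  obtain ⟨s, rfl⟩ := (splitEquiv θ hθ S h1 h2).symm.surjective q
  simp only [glueE, MeasurableEquiv.coe_trans, Function.comp_apply, glue, Equiv.apply_symm_apply]
  rw [MeasurableEquiv.piCongrLeft, ]
  simp only [MeasurableEquiv.coe_mk, Equiv.piCongrLeft_apply_apply]
  rcases s with s | s | s <;> rfl

open Classical in
theorem glueE_measurePreserving (θ : Q → Q) (hθ : ∀ q, θ (θ q) = q) (S : Set Q)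
    (h1 : ∀ q, q ∈ S ∨ θ q ∈ S) (h2 : ∀ q, q ∈ S → θ q ∈ S → θ q = q) :
    MeasurePreserving (glueE θ hθ S h1 h2) (volume : Measure (({q // θ q = q} → ℝ) ×
      (({q // q ∈ S ∧ θ q ≠ q} → ℝ) × ({q // q ∈ S ∧ θ q ≠ q} → ℝ))))
      (volume : Measure (Q → ℝ)) := by
  classical
  have a1 := volume_measurePreserving_piCongrLeft (fun _ : Q => ℝ) (splitEquiv θ hθ S h1 h2).symm
  have a2 := volume_measurePreserving_sumPiEquivProdPi_symm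
    (fun _ : {q // θ q = q} ⊕ ({q // q ∈ S ∧ θ q ≠ q} ⊕ {q // q ∈ S ∧ θ q ≠ q}) => ℝ)
  have a3 := volume_measurePreserving_sumPiEquivProdPi_symm
    (fun _ : {q // q ∈ S ∧ θ q ≠ q} ⊕ {q // q ∈ S ∧ θ q ≠ q} => ℝ)
  have a4 := (MeasurePreserving.id (volume : Measure ({q // θ q = q} → ℝ))).prod a3
  exact (a1.comp a2).comp a4

/-- **Abstract site reflection positivity.** -/
theorem rp_abs (θ : Q → Q) (hθ : ∀ q, θ (θ q) = q) (S : Set Q)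
    (h1 : ∀ q, q ∈ S ∨ θ q ∈ S) (h2 : ∀ q, q ∈ S → θ q ∈ S → θ q = q)
    (w G : (Q → ℝ) → ℝ) (hw0 : ∀ h, 0 ≤ w h) (hw : DependsOn w {q | θ q = q})
    (hG : DependsOn G S) (hint : Integrable (fun h : Q → ℝ => w h * (G h * G (h ∘ θ)))) :
    0 ≤ ∫ h : Q → ℝ, w h * (G h * G (h ∘ θ)) := by
  classical
  have hmp := glueE_measurePreserving θ hθ S h1 h2
  rw [← hmp.integral_comp (glueE θ hθ S h1 h2).measurableEmbedding]
  have hint' : Integrable (fun z => w (glueE θ hθ S h1 h2 z) * (G (glueE θ hθ S h1 h2 z) *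
      G (glueE θ hθ S h1 h2 z ∘ θ))) :=
    (hmp.integrable_comp_emb (glueE θ hθ S h1 h2).measurableEmbedding).2 hint
  have e1 : ∀ z, w (glueE θ hθ S h1 h2 z) = w (glue θ hθ S h1 h2 (z.1, 0, 0)) := by
    intro z
    rw [glueE_apply]
    refine hw fun q hq => ?_
    simp only [glue]
    rw [splitEquiv_fix θ hθ S h1 h2 q hq]
    rfl
  have e2 : ∀ z, G (glueE θ hθ S h1 h2 z) = G (glue θ hθ S h1 h2 (z.1, z.2.1, 0)) := by
    intro z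
    rw [glueE_apply]
    refine hG fun q hq => ?_
    simp only [glue]
    by_cases hf : θ q = q
    · rw [splitEquiv_fix θ hθ S h1 h2 q hf]; rfl
    · rw [splitEquiv_up θ hθ S h1 h2 q hq hf]; rfl
  have e3 : ∀ z, G (glueE θ hθ S h1 h2 z ∘ θ) = G (glue θ hθ S h1 h2 (z.1, z.2.2, 0)) := by
    intro z
    rw [glueE_apply]
    refine hG fun q hq => ?_
    simp only [glue, Function.comp_apply]
    by_cases hf : θ q = q
    · rw [hf, splitEquiv_fix θ hθ S h1 h2 q hf]; rfl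
    · rw [splitEquiv_up θ hθ S h1 h2 q hq hf, splitEquiv_down θ hθ S h1 h2 q hq hf]; rfl
  simp only [e1, e2, e3] at hint' ⊢
  rw [show (volume : Measure (({q // θ q = q} → ℝ) × (({q // q ∈ S ∧ θ q ≠ q} → ℝ) ×
    ({q // q ∈ S ∧ θ q ≠ q} → ℝ)))) = (volume : Measure ({q // θ q = q} → ℝ)).prod volume from rfl]
    at hint' ⊢
  rw [integral_prod _ hint']
  refine integral_nonneg fun b => ?_
  simp only [Pi.zero_apply]
  rw [integral_const_mul]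
  refine mul_nonneg (hw0 _) ?_
  rw [show (volume : Measure (({q // q ∈ S ∧ θ q ≠ q} → ℝ) ×
    ({q // q ∈ S ∧ θ q ≠ q} → ℝ))) = (volume : Measure ({q // q ∈ S ∧ θ q ≠ q} → ℝ)).prod volume
    from rfl]
  rw [integral_prod_mul (fun u : {q // q ∈ S ∧ θ q ≠ q} → ℝ => G (glue θ hθ S h1 h2 (b, u, 0)))
    (fun u : {q // q ∈ S ∧ θ q ≠ q} → ℝ => G (glue θ hθ S h1 h2 (b, u, 0)))]
  exact mul_self_nonneg _

end rp

end Crest.Agent.R144.Tor95
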