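import Mathlib
import Crest.Agent.R144.TorA_95

/-!
R144 (S0197), helper95: the hammock gradient law on a finite connected graph, free gauge.

`Q` finite type, `R` relation (adjacency), `lip R` = heights with steps `≤ 1`, `gauge o` =
`|h o| ≤ 1/2`, `nu R o` = volume restricted to `lip R ∩ gauge o`.  For shift invariant `F` the
integral `∫ F ∂(nu R o)` does not depend on `o` (`gauge_change`), and it is invariant under graph
isomorphisms (`relabel`).  `var2 R o p q` = normalised `E (h p - h q)^2`.
-/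

set_option autoImplicit false

open MeasureTheory Set Function
open scoped ENNReal

namespace Crest.Agent.R144.Tor95

section basic

variable {Q : Type*}

/-- Heights with steps at most `1` along the relation `R`. -/
def lip (R : Q → Q → Prop) : Set (Q → ℝ) := {h | ∀ p q, R p q → |h p - h q| ≤ 1}

/-- The gauge window at `o`. -/
def gauge (o : Q) : Set (Q → ℝ) := {h | |h o| ≤ 1 / 2}

theorem isClosed_lip (R : Q → Q → Prop) : IsClosed (lip R) := by
  have e : lip R = ⋂ p : Q, ⋂ q : Q, ⋂ _ : R p q, {h : Q → ℝ | |h p - h q| ≤ 1} := by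
    ext h; simp [lip]
  rw [e]
  refine isClosed_iInter fun p => isClosed_iInter fun q => isClosed_iInter fun _ => ?_
  exact isClosed_le (by fun_prop) continuous_const

theorem isClosed_gauge (o : Q) : IsClosed (gauge o) :=
  isClosed_le (by fun_prop) continuous_const

theorem convex_lip (R : Q → Q → Prop) : Convex ℝ (lip R) := by
  intro x hx y hy a b ha hb hab p q hpq
  have h1 := hx p q hpq
  have h2 := hy p q hpq
  simp only [Pi.add_apply, Pi.smul_apply, smul_eq_mul]
  rw [abs_le] at h1 h2 ⊢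
  constructor <;> nlinarith

theorem convex_gauge (o : Q) : Convex ℝ (gauge o) := by
  intro x hx y hy a b ha hb hab
  have h1 : |x o| ≤ 1 / 2 := hx
  have h2 : |y o| ≤ 1 / 2 := hy
  change |(a • x + b • y) o| ≤ 1 / 2
  simp only [Pi.add_apply, Pi.smul_apply, smul_eq_mul]
  rw [abs_le] at h1 h2 ⊢
  constructor <;> nlinarith

theorem neg_mem_lip {R : Q → Q → Prop} {h : Q → ℝ} (hh : h ∈ lip R) : -h ∈ lip R := by
  intro p q hpq
  have := hh p q hpq
  simp only [Pi.neg_apply]
  rwa [show -h p - -h q = -(h p - h q) by ring, abs_neg]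

theorem neg_mem_gauge {o : Q} {h : Q → ℝ} (hh : h ∈ gauge o) : -h ∈ gauge o := by
  change |(-h) o| ≤ 1 / 2
  rw [Pi.neg_apply, abs_neg]
  exact hh

/-- `Q` is connected from `o` along `R`. -/
def Conn (R : Q → Q → Prop) (o : Q) : Prop := ∀ q, Relation.ReflTransGen R o q

theorem lip_bound_aux {R : Q → Q → Prop} {o q : Q} (hc : Relation.ReflTransGen R o q) :
    ∃ C : ℝ, 0 ≤ C ∧ ∀ h ∈ lip R, |h q - h o| ≤ C := by
  induction hc with
  | refl => exact ⟨0, le_rfl, fun h _ => by simp⟩
  | tail _ hbc ih =>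
    obtain ⟨C, hC, hb⟩ := ih
    refine ⟨C + 1, by linarith, fun h hh => ?_⟩
    have h1 := hb h hh
    have h2 := hh _ _ hbc
    rw [abs_le] at h1 h2 ⊢
    constructor <;> linarith

variable [Fintype Q]

theorem lip_bound {R : Q → Q → Prop} {o : Q} (hc : Conn R o) :
    ∃ C : ℝ, 0 ≤ C ∧ ∀ h ∈ lip R, ∀ q, |h q - h o| ≤ C := by
  choose C hC hb using fun q => lip_bound_aux (R := R) (hc q)
  refine ⟨∑ q, C q, Finset.sum_nonneg fun q _ => hC q, fun h hh q => (hb q h hh).trans ?_⟩
  exact Finset.single_le_sum (fun q _ => hC q) (Finset.mem_univ q)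

theorem isCompact_lip_gauge {R : Q → Q → Prop} {o : Q} (hc : Conn R o) :
    IsCompact (lip R ∩ gauge o) := by
  obtain ⟨C, hC, hb⟩ := lip_bound hc
  refine Metric.isCompact_of_isClosed_isBounded ((isClosed_lip R).inter (isClosed_gauge o)) ?_
  refine (Metric.isBounded_closedBall (x := (0 : Q → ℝ)) (r := C + 1 / 2)).subset ?_
  rintro h ⟨h1, h2⟩
  rw [mem_closedBall_zero_iff, pi_norm_le_iff_of_nonneg (by positivity)]
  intro q
  have h3 := hb h h1 q
  have h4 : |h o| ≤ 1 / 2 := h2
  rw [Real.norm_eq_abs]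
  rw [abs_le] at h3 h4 ⊢
  constructor <;> linarith

/-- The unnormalised gradient law. -/
noncomputable def nu (R : Q → Q → Prop) (o : Q) : Measure (Q → ℝ) :=
  volume.restrict (lip R ∩ gauge o)

theorem nu_univ (R : Q → Q → Prop) (o : Q) : nu R o univ = volume (lip R ∩ gauge o) := by
  simp [nu]

theorem nu_lt_top {R : Q → Q → Prop} {o : Q} (hc : Conn R o) : nu R o univ < ∞ := by
  rw [nu_univ]; exact (isCompact_lip_gauge hc).measure_lt_top

theorem nu_finite {R : Q → Q → Prop} {o : Q} (hc : Conn R o) : IsFiniteMeasure (nu R o) :=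
  ⟨nu_lt_top hc⟩

theorem one_le_nu (R : Q → Q → Prop) (o : Q) : 1 ≤ nu R o univ := by
  rw [nu_univ]
  have h1 : (Set.univ.pi fun _ : Q => Set.Icc (-(1 / 2) : ℝ) (1 / 2)) ⊆ lip R ∩ gauge o := by
    intro h hh
    have hb : ∀ q, |h q| ≤ 1 / 2 := fun q => abs_le.2 (hh q (mem_univ q))
    refine ⟨fun p q _ => ?_, hb o⟩
    have h1 := hb p
    have h2 := hb q
    rw [abs_le] at h1 h2 ⊢
    constructor <;> linarith
  refine le_trans ?_ (measure_mono h1)
  rw [volume_pi_pi]
  simp only [Real.volume_Icc]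
  norm_num

theorem nu_pos (R : Q → Q → Prop) (o : Q) : 0 < nu R o univ :=
  lt_of_lt_of_le one_pos (one_le_nu R o)

theorem nu_real_pos {R : Q → Q → Prop} {o : Q} (hc : Conn R o) : 0 < (nu R o).real univ :=
  ENNReal.toReal_pos (nu_pos R o).ne' (nu_lt_top hc).ne

theorem integrable_of_cont {R : Q → Q → Prop} {o : Q} (hc : Conn R o) {F : (Q → ℝ) → ℝ}
    (hF : Continuous F) : Integrable F (nu R o) :=
  hF.continuousOn.integrableOn_compact (isCompact_lip_gauge hc)

/-- Shift invariance of an observable. -/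
def ShiftInv (F : (Q → ℝ) → ℝ) : Prop := ∀ (h : Q → ℝ) (c : ℝ), F (fun q => h q + c) = F h

omit [Fintype Q] in
theorem lip_shift (R : Q → Q → Prop) (h : Q → ℝ) (c : ℝ) :
    (fun q => h q + c) ∈ lip R ↔ h ∈ lip R := by
  simp [lip]

theorem volume_shift (c : ℝ) :
    MeasurePreserving (fun h : Q → ℝ => fun q => h q + c) volume volume := by
  have := measurePreserving_add_right (volume : Measure (Q → ℝ)) (fun _ => c)
  exact this

/-- Change of gauge: the integral of a shift invariant observable does not depend on the base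
point. -/
theorem gauge_change {R : Q → Q → Prop} {o o' : Q} (hc : Conn R o)
    {F : (Q → ℝ) → ℝ} (hF : Continuous F) (hs : ShiftInv F) :
    ∫ h, F h ∂(nu R o) = ∫ h, F h ∂(nu R o') := by
  classical
  set K := lip R with hK
  have hKm : MeasurableSet K := (isClosed_lip R).measurableSet
  -- both sides as integrals against the product with the gauge variable
  have hone : ∀ a : ℝ, ∫ c : ℝ, (Set.Icc (-(1/2) : ℝ) (1/2)).indicator (fun _ => (1:ℝ)) (a + c) = 1 := by
    intro a
    rw [integral_add_left_eq_self (fun c => (Set.Icc (-(1/2) : ℝ) (1/2)).indicator (fun _ => (1:ℝ)) c) a]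
    rw [integral_indicator measurableSet_Icc]
    simp
    norm_num
  set ρ : ℝ → ℝ := (Set.Icc (-(1/2) : ℝ) (1/2)).indicator (fun _ => (1:ℝ)) with hρ
  have hρm : Measurable ρ := measurable_const.indicator measurableSet_Icc
  have hmem : ∀ (p : Q) (h : Q → ℝ), ρ (h p) = (gauge p).indicator (fun _ => (1:ℝ)) h := by
    intro p h
    simp only [hρ, Set.indicator_apply, gauge, Set.mem_Icc, Set.mem_ofPred_eq, abs_le]
  have hform : ∀ p : Q, ∫ h, F h ∂(nu R p) = ∫ h, K.indicator F h * ρ (h p) := by
    intro p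
    rw [nu, ← integral_indicator (hKm.inter (isClosed_gauge p).measurableSet)]
    refine integral_congr_ae (Filter.Eventually.of_forall fun h => ?_)
    simp only [hmem, Set.indicator_apply]
    by_cases h1 : h ∈ K <;> by_cases h2 : h ∈ gauge p <;> simp [h1, h2]
  rw [hform, hform]
  set Φ : (Q → ℝ) × ℝ → ℝ := fun z => K.indicator F z.1 * ρ (z.1 o) * ρ (z.1 o' + z.2) with hΦ
  have hint : Integrable Φ ((volume : Measure (Q → ℝ)).prod volume) := by
    obtain ⟨C, hC, hb⟩ := lip_bound hc
    have hcomp : IsCompact ((K ∩ gauge o) ×ˢ Set.Icc (-(C + 1)) (C + 1)) :=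
      (isCompact_lip_gauge hc).prod isCompact_Icc
    obtain ⟨B, hB⟩ := hcomp.exists_bound_of_continuousOn (f := fun z : (Q → ℝ) × ℝ => F z.1)
      (hF.comp continuous_fst).continuousOn
    have hΦm : Measurable Φ := by
      refine Measurable.mul (Measurable.mul ?_ ?_) ?_
      · exact (hF.measurable.indicator hKm).comp measurable_fst
      · exact hρm.comp ((measurable_pi_apply o).comp measurable_fst)
      · exact hρm.comp (((measurable_pi_apply o').comp measurable_fst).add measurable_snd)
    have hsupp : ∀ z, z ∉ (K ∩ gauge o) ×ˢ Set.Icc (-(C + 1)) (C + 1) → Φ z = 0 := by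
      intro z hz
      simp only [hΦ]
      by_cases h1 : z.1 ∈ K
      · by_cases h2 : z.1 ∈ gauge o
        · have h3 : z.2 ∉ Set.Icc (-(C + 1)) (C + 1) := fun h3 => hz ⟨⟨h1, h2⟩, h3⟩
          have h4 : ρ (z.1 o' + z.2) = 0 := by
            simp only [hρ]
            refine Set.indicator_of_notMem (fun h5 => h3 ?_) _
            have h6 := hb z.1 h1 o'
            have h7 : |z.1 o| ≤ 1 / 2 := h2
            rw [Set.mem_Icc] at h5 ⊢
            rw [abs_le] at h6 h7
            constructor <;> linarith [h5.1, h5.2, h6.1, h6.2, h7.1, h7.2]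
          rw [h4, mul_zero]
        · rw [hmem o, Set.indicator_of_notMem h2]; ring
      · rw [Set.indicator_of_notMem h1]; ring
    have hbound : ∀ z, ‖Φ z‖ ≤ ((K ∩ gauge o) ×ˢ Set.Icc (-(C + 1)) (C + 1)).indicator
        (fun _ => B) z := by
      intro z
      by_cases hz : z ∈ (K ∩ gauge o) ×ˢ Set.Icc (-(C + 1)) (C + 1)
      · rw [Set.indicator_of_mem hz]
        have hFb := hB z hz
        have hr1 : ∀ t, ‖ρ t‖ ≤ 1 := by
          intro t; simp only [hρ, Set.indicator_apply]; split_ifs <;> simp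
        have hB0 : 0 ≤ B := le_trans (norm_nonneg _) hFb
        have hK1 : ‖K.indicator F z.1‖ ≤ B := by
          rw [Set.indicator_of_mem hz.1.1]; exact hFb
        calc ‖Φ z‖ = ‖K.indicator F z.1‖ * ‖ρ (z.1 o)‖ * ‖ρ (z.1 o' + z.2)‖ := by
              simp only [hΦ, norm_mul]
          _ ≤ B * 1 * 1 := by
              gcongr
              · exact hr1 _
              · exact hr1 _
          _ = B := by ring
      · rw [hsupp z hz, Set.indicator_of_notMem hz, norm_zero]
    refine Integrable.mono' ?_ hΦm.aestronglyMeasurable (Filter.Eventually.of_forall hbound)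
    refine (integrable_indicator_iff hcomp.measurableSet).2 ?_
    exact integrableOn_const (hcomp.measure_lt_top).ne
  have e1 : ∫ h, K.indicator F h * ρ (h o) = ∫ z, Φ z ∂((volume : Measure (Q → ℝ)).prod volume) := by
    rw [integral_prod _ hint]
    refine integral_congr_ae (Filter.Eventually.of_forall fun h => ?_)
    simp only [hΦ]
    rw [integral_const_mul, hone, mul_one]
  have e2 : ∫ z, Φ z ∂((volume : Measure (Q → ℝ)).prod volume) =
      ∫ c : ℝ, ∫ h : Q → ℝ, Φ (h, c) := by
    rw [integral_prod_symm _ hint]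
  have e3 : ∀ c : ℝ, ∫ h : Q → ℝ, Φ (h, c) = ∫ h : Q → ℝ, K.indicator F h * ρ (h o - c) * ρ (h o') := by
    intro c
    rw [← (volume_shift (Q := Q) (-c)).integral_comp
      (MeasurableEquiv.addRight (fun _ : Q => -c)).measurableEmbedding]
    refine integral_congr_ae (Filter.Eventually.of_forall fun h => ?_)
    simp only [hΦ]
    have e4 : K.indicator F (fun q => h q + -c) = K.indicator F h := by
      simp only [Set.indicator_apply]
      rw [hK, lip_shift R h (-c), hs h (-c)]
    rw [e4]
    congr 2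
    ring
  have hint2 : Integrable (fun z : (Q → ℝ) × ℝ => K.indicator F z.1 * ρ (z.1 o - z.2) * ρ (z.1 o'))
      ((volume : Measure (Q → ℝ)).prod volume) := by
    -- shear of `Φ`
    have hsh : MeasurePreserving (fun z : (Q → ℝ) × ℝ => ((fun q => z.1 q + -z.2 : Q → ℝ), z.2))
        ((volume : Measure (Q → ℝ)).prod volume) ((volume : Measure (Q → ℝ)).prod volume) := by
      have a1 : MeasurePreserving (fun z : ℝ × (Q → ℝ) => (z.1, (fun q => z.2 q + -z.1 : Q → ℝ)))
          ((volume : Measure ℝ).prod (volume : Measure (Q → ℝ)))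
          ((volume : Measure ℝ).prod (volume : Measure (Q → ℝ))) := by
        refine MeasurePreserving.skew_product (g := fun c (h : Q → ℝ) => (fun q => h q + -c))
          (MeasurePreserving.id _) ?_ (Filter.Eventually.of_forall fun c => ?_)
        · refine measurable_pi_iff.2 fun q => ?_
          exact ((measurable_pi_apply q).comp measurable_snd).add measurable_fst.neg
        · exact (volume_shift (Q := Q) (-c)).map_eq
      exact (Measure.measurePreserving_swap.comp a1).comp Measure.measurePreserving_swap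
    have hemb : MeasurableEmbedding
        (fun z : (Q → ℝ) × ℝ => ((fun q => z.1 q + -z.2 : Q → ℝ), z.2)) := by
      let ee : ((Q → ℝ) × ℝ) ≃ᵐ ((Q → ℝ) × ℝ) :=
        { toFun := fun z => ((fun q => z.1 q + -z.2 : Q → ℝ), z.2)
          invFun := fun z => ((fun q => z.1 q + z.2 : Q → ℝ), z.2)
          left_inv := fun z => by ext <;> simp
          right_inv := fun z => by ext <;> simp
          measurable_toFun := by
            refine Measurable.prodMk (measurable_pi_iff.2 fun q => ?_) measurable_snd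
            exact ((measurable_pi_apply q).comp measurable_fst).add measurable_snd.neg
          measurable_invFun := by
            refine Measurable.prodMk (measurable_pi_iff.2 fun q => ?_) measurable_snd
            exact ((measurable_pi_apply q).comp measurable_fst).add measurable_snd }
      exact ee.measurableEmbedding
    have := (hsh.integrable_comp_emb hemb (g := Φ)).2 hint
    refine this.congr (Filter.Eventually.of_forall fun z => ?_)
    simp only [hΦ, Function.comp_apply]
    have e4 : K.indicator F (fun q => z.1 q + -z.2) = K.indicator F z.1 := by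
      simp only [Set.indicator_apply]
      rw [hK, lip_shift R z.1 (-z.2), hs z.1 (-z.2)]
    rw [e4]
    congr 2
    ring
  have e5 : ∫ c : ℝ, ∫ h : Q → ℝ, K.indicator F h * ρ (h o - c) * ρ (h o') =
      ∫ h : Q → ℝ, K.indicator F h * ρ (h o') := by
    rw [← integral_prod_symm _ hint2, integral_prod _ hint2]
    refine integral_congr_ae (Filter.Eventually.of_forall fun h => ?_)
    simp only
    rw [show (fun c : ℝ => K.indicator F h * ρ (h o - c) * ρ (h o')) =
      fun c : ℝ => (K.indicator F h * ρ (h o')) * ρ (h o - c) by funext c; ring]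
    rw [integral_const_mul, integral_sub_left_eq_self (fun c => ρ c) volume (h o)]
    have := hone 0
    simp only [zero_add] at this
    rw [this, mul_one]
  rw [e1, e2]
  simp_rw [e3]
  exact e5

/-- Relabelling by a graph isomorphism. -/
theorem relabel {Q' : Type*} [Fintype Q'] {R : Q → Q → Prop} {R' : Q' → Q' → Prop} (σ : Q ≃ Q')
    (hR : ∀ p q, R p q ↔ R' (σ p) (σ q)) (o : Q) (F : (Q → ℝ) → ℝ) :
    ∫ h, F (h ∘ σ) ∂(nu R' (σ o)) = ∫ h, F h ∂(nu R o) := by
  have hmp := volume_measurePreserving_piCongrLeft (fun _ : Q' => ℝ) σ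
  set E := MeasurableEquiv.piCongrLeft (fun _ : Q' => ℝ) σ with hE
  have hEa : ∀ (g : Q → ℝ) (q : Q), E g (σ q) = g q := by
    intro g q
    exact Equiv.piCongrLeft_apply_apply (fun _ : Q' => ℝ) σ g q
  have hcomp : ∀ g : Q → ℝ, E g ∘ σ = g := fun g => funext fun q => hEa g q
  have hpre : E ⁻¹' (lip R' ∩ gauge (σ o)) = lip R ∩ gauge o := by
    ext g
    simp only [Set.mem_preimage, Set.mem_inter_iff]
    refine and_congr ⟨fun h p q hpq => ?_, fun h p q hpq => ?_⟩ ?_
    · have := h (σ p) (σ q) ((hR p q).1 hpq)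
      rwa [hEa, hEa] at this
    · obtain ⟨p, rfl⟩ := σ.surjective p
      obtain ⟨q, rfl⟩ := σ.surjective q
      rw [hEa, hEa]
      exact h p q ((hR p q).2 hpq)
    · change |E g (σ o)| ≤ 1 / 2 ↔ |g o| ≤ 1 / 2
      rw [hEa]
  rw [nu, nu, ← hpre]
  have hm := (hmp.restrict_preimage_emb E.measurableEmbedding (lip R' ∩ gauge (σ o)))
  rw [← hm.integral_comp E.measurableEmbedding]
  refine integral_congr_ae (Filter.Eventually.of_forall fun g => ?_)
  simp only [hcomp]

/-- Normalised second moment of a height difference. -/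
noncomputable def var2 (R : Q → Q → Prop) (o p q : Q) : ℝ :=
  (∫ h, (h p - h q) ^ 2 ∂(nu R o)) / (nu R o).real univ

/-- Normalised expectation. -/
noncomputable def ex (R : Q → Q → Prop) (o : Q) (F : (Q → ℝ) → ℝ) : ℝ :=
  (∫ h, F h ∂(nu R o)) / (nu R o).real univ

theorem ex_one {R : Q → Q → Prop} {o : Q} (hc : Conn R o) : ex R o (fun _ => 1) = 1 := by
  rw [ex, integral_const, smul_eq_mul, mul_one, div_self (nu_real_pos hc).ne']

theorem mass_gauge {R : Q → Q → Prop} {o o' : Q} (hc : Conn R o) :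
    (nu R o).real univ = (nu R o').real univ := by
  have := gauge_change (o' := o') hc (F := fun _ => (1 : ℝ)) continuous_const (fun _ _ => rfl)
  simpa using this

theorem ex_gauge {R : Q → Q → Prop} {o o' : Q} (hc : Conn R o) {F : (Q → ℝ) → ℝ}
    (hF : Continuous F) (hs : ShiftInv F) : ex R o F = ex R o' F := by
  rw [ex, ex, gauge_change (o' := o') hc hF hs, mass_gauge (o' := o') hc]

theorem ex_relabel {Q' : Type*} [Fintype Q'] {R : Q → Q → Prop} {R' : Q' → Q' → Prop} (σ : Q ≃ Q')
    (hR : ∀ p q, R p q ↔ R' (σ p) (σ q)) (o : Q) (F : (Q → ℝ) → ℝ) :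
    ex R' (σ o) (fun h => F (h ∘ σ)) = ex R o F := by
  have h1 : (nu R' (σ o)).real univ = (nu R o).real univ := by
    have := relabel σ hR o (fun _ => (1 : ℝ))
    simpa using this
  rw [ex, ex, relabel σ hR o F, h1]

theorem var2_eq_ex (R : Q → Q → Prop) (o p q : Q) :
    var2 R o p q = ex R o (fun h => (h p - h q) ^ 2) := rfl

theorem var2_gauge {R : Q → Q → Prop} {o : Q} (o' : Q) (hc : Conn R o) (p q : Q) :
    var2 R o p q = var2 R o' p q := by
  rw [var2_eq_ex, var2_eq_ex]
  refine ex_gauge hc (by fun_prop) fun h c => ?_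
  ring

theorem var2_relabel {Q' : Type*} [Fintype Q'] {R : Q → Q → Prop} {R' : Q' → Q' → Prop}
    (σ : Q ≃ Q') (hR : ∀ p q, R p q ↔ R' (σ p) (σ q)) (o p q : Q) :
    var2 R' (σ o) (σ p) (σ q) = var2 R o p q := by
  rw [var2_eq_ex, var2_eq_ex]
  exact ex_relabel σ hR o (fun h => (h p - h q) ^ 2)

theorem var2_symm (R : Q → Q → Prop) (o p q : Q) : var2 R o p q = var2 R o q p := by
  rw [var2, var2]
  congr 1
  refine integral_congr_ae (Filter.Eventually.of_forall fun h => ?_)
  simp only
  ring

theorem var2_self (R : Q → Q → Prop) (o p : Q) : var2 R o p p = 0 := by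
  simp [var2]

theorem var2_nonneg (R : Q → Q → Prop) (o p q : Q) : 0 ≤ var2 R o p q :=
  div_nonneg (integral_nonneg fun _ => sq_nonneg _) ENNReal.toReal_nonneg

/-- Polarisation: for mean zero coefficients. -/
theorem pair_identity (f g : Q → ℝ) (hf : ∑ p, f p = 0) (hg : ∑ p, g p = 0) (h : Q → ℝ) :
    (∑ p, f p * h p) * (∑ q, g q * h q) = -(1 / 2) * ∑ p, ∑ q, f p * g q * (h p - h q) ^ 2 := by
  have e1 : ∑ p, ∑ q, f p * g q * (h p - h q) ^ 2 =
      (∑ p, f p * h p ^ 2) * (∑ q, g q) + (∑ p, f p) * (∑ q, g q * h q ^ 2) -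
        2 * ((∑ p, f p * h p) * (∑ q, g q * h q)) := by
    rw [Finset.sum_mul_sum, Finset.sum_mul_sum, Finset.sum_mul_sum, Finset.mul_sum,
      ← Finset.sum_add_distrib, ← Finset.sum_sub_distrib]
    refine Finset.sum_congr rfl fun p _ => ?_
    rw [Finset.mul_sum, ← Finset.sum_add_distrib, ← Finset.sum_sub_distrib]
    refine Finset.sum_congr rfl fun q _ => ?_
    ring
  rw [e1, hf, hg]
  ring

theorem ex_pair {R : Q → Q → Prop} {o : Q} (hc : Conn R o) (f g : Q → ℝ) (hf : ∑ p, f p = 0)
    (hg : ∑ p, g p = 0) :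
    ex R o (fun h => (∑ p, f p * h p) * (∑ q, g q * h q)) =
      -(1 / 2) * ∑ p, ∑ q, f p * g q * var2 R o p q := by
  rw [ex]
  simp_rw [pair_identity f g hf hg]
  rw [integral_const_mul, integral_finsetSum]
  · rw [mul_div_assoc, Finset.sum_div]
    congr 1
    refine Finset.sum_congr rfl fun p _ => ?_
    rw [integral_finsetSum]
    · rw [Finset.sum_div]
      refine Finset.sum_congr rfl fun q _ => ?_
      rw [integral_const_mul, var2, mul_div_assoc]
    · intro q _
      exact integrable_of_cont hc (by fun_prop)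
  · intro p _
    exact integrable_of_cont hc (by fun_prop)

/-- Positive definiteness. -/
theorem pd {R : Q → Q → Prop} {o : Q} (hc : Conn R o) (f : Q → ℝ) (hf : ∑ p, f p = 0) :
    0 ≤ -(1 / 2) * ∑ p, ∑ q, f p * f q * var2 R o p q := by
  rw [← ex_pair hc f f hf hf, ex]
  exact div_nonneg (integral_nonneg fun h => mul_self_nonneg _) ENNReal.toReal_nonneg

/-- **Site reflection positivity** of the hammock law. -/
theorem rp {R : Q → Q → Prop} {o : Q} (hc : Conn R o) (θ : Q → Q) (hθ : ∀ q, θ (θ q) = q)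
    (S : Set Q) (h1 : ∀ q, q ∈ S ∨ θ q ∈ S) (h2 : ∀ q, q ∈ S → θ q ∈ S → θ q = q)
    (hR : ∀ p q, R p q → R (θ p) (θ q))
    (hS : ∀ p q, R p q → (p ∈ S ∧ q ∈ S) ∨ (θ p ∈ S ∧ θ q ∈ S)) (ho : θ o = o)
    (F : (Q → ℝ) → ℝ) (hF : Continuous F) (hFS : DependsOn F S) :
    0 ≤ ∫ h, F h * F (h ∘ θ) ∂(nu R o) := by
  classical
  set P : Set (Q → ℝ) := {h | ∀ p q, p ∈ S → q ∈ S → R p q → |h p - h q| ≤ 1} with hP
  have hdec : ∀ h : Q → ℝ, h ∈ lip R ↔ h ∈ P ∧ h ∘ θ ∈ P := by
    intro h
    constructor
    · intro hh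
      exact ⟨fun p q _ _ hpq => hh p q hpq, fun p q _ _ hpq => hh _ _ (hR p q hpq)⟩
    · rintro ⟨ha, hb⟩ p q hpq
      rcases hS p q hpq with ⟨hp, hq⟩ | ⟨hp, hq⟩
      · exact ha p q hp hq hpq
      · have := hb (θ p) (θ q) hp hq (hR p q hpq)
        simpa [hθ] using this
  have hoS : o ∈ S := by
    rcases h1 o with h | h
    · exact h
    · rwa [ho] at h
  set G : (Q → ℝ) → ℝ := fun h => P.indicator F h with hG
  set w : (Q → ℝ) → ℝ := fun h => (gauge o).indicator (fun _ => (1 : ℝ)) h with hw
  have key := rp_abs θ hθ S h1 h2 w G (fun h => by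
      simp only [hw, Set.indicator_apply]; split_ifs <;> norm_num)
    (by
      intro x y hxy
      have : x o = y o := hxy o ho
      simp only [hw, Set.indicator_apply, gauge, Set.mem_ofPred_eq, this])
    (by
      intro x y hxy
      have hFe : F x = F y := hFS hxy
      have hPe : x ∈ P ↔ y ∈ P := by
        simp only [hP, Set.mem_ofPred_eq]
        refine forall_congr' fun p => forall_congr' fun q => ?_
        refine imp_congr_right fun hp => imp_congr_right fun hq => imp_congr_right fun _ => ?_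
        rw [hxy p hp, hxy q hq]
      simp only [hG, Set.indicator_apply, hFe]
      by_cases hx : x ∈ P
      · rw [if_pos hx, if_pos (hPe.1 hx)]
      · rw [if_neg hx, if_neg (fun h => hx (hPe.2 h))])
  have hcontθ : Continuous fun h : Q → ℝ => h ∘ θ := by
    refine continuous_pi fun q => ?_
    exact continuous_apply (θ q)
  have hprod : ∀ h : Q → ℝ, w h * (G h * G (h ∘ θ)) =
      (lip R ∩ gauge o).indicator (fun h => F h * F (h ∘ θ)) h := by
    intro h
    simp only [hw, hG, Set.indicator_apply, Set.mem_inter_iff, hdec h]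
    by_cases a : h ∈ P <;> by_cases b : h ∘ θ ∈ P <;> by_cases c : h ∈ gauge o <;>
      simp [a, b, c]
  have hmeas : MeasurableSet (lip R ∩ gauge o) :=
    ((isClosed_lip R).inter (isClosed_gauge o)).measurableSet
  have hcontF : Continuous fun h : Q → ℝ => F h * F (h ∘ θ) := hF.mul (hF.comp hcontθ)
  have hint : Integrable (fun h : Q → ℝ => w h * (G h * G (h ∘ θ))) := by
    simp_rw [hprod]
    exact (integrable_indicator_iff hmeas).2
      (hcontF.continuousOn.integrableOn_compact (isCompact_lip_gauge hc))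
  have := key hint
  simp_rw [hprod] at this
  rwa [integral_indicator hmeas] at this

/-- Reflection positivity for the variogram. -/
theorem rp_var {R : Q → Q → Prop} {o : Q} (hc : Conn R o) (θ : Q → Q) (hθ : ∀ q, θ (θ q) = q)
    (S : Set Q) (h1 : ∀ q, q ∈ S ∨ θ q ∈ S) (h2 : ∀ q, q ∈ S → θ q ∈ S → θ q = q)
    (hR : ∀ p q, R p q → R (θ p) (θ q))
    (hS : ∀ p q, R p q → (p ∈ S ∧ q ∈ S) ∨ (θ p ∈ S ∧ θ q ∈ S)) (ho : θ o = o)
    (f : Q → ℝ) (hf : ∑ p, f p = 0) (hfS : ∀ q, q ∉ S → f q = 0) :
    0 ≤ -(1 / 2) * ∑ p, ∑ q, f p * f q * var2 R o p (θ q) := by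
  classical
  have hbij : Function.Bijective θ := (Function.Involutive.bijective hθ)
  have e0 : ∀ φ : Q → ℝ, ∑ q, φ (θ q) = ∑ q, φ q := fun φ => hbij.sum_comp φ
  have hg : ∑ p, f (θ p) = 0 := by rw [e0 f, hf]
  have e1 := ex_pair hc f (fun q => f (θ q)) hf hg
  have e2 : ∑ p, ∑ q, f p * f (θ q) * var2 R o p q = ∑ p, ∑ q, f p * f q * var2 R o p (θ q) := by
    refine Finset.sum_congr rfl fun p _ => ?_
    rw [← e0 (fun q => f p * f (θ q) * var2 R o p q)]
    simp only [hθ]
  rw [← e2, ← e1, ex]
  refine div_nonneg ?_ ENNReal.toReal_nonneg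
  have key := rp hc θ hθ S h1 h2 hR hS ho (fun h => ∑ p, f p * h p) (by fun_prop) (by
    intro x y hxy
    refine Finset.sum_congr rfl fun p _ => ?_
    by_cases hp : p ∈ S
    · rw [hxy p hp]
    · rw [hfS p hp, zero_mul, zero_mul])
  have e3 : ∀ h : Q → ℝ, (∑ p, f p * (h ∘ θ) p) = ∑ q, f (θ q) * h q := by
    intro h
    rw [← e0 (fun p => f p * (h ∘ θ) p)]
    simp only [Function.comp_apply, hθ]
  simp_rw [e3] at key
  exact key

end basic

end Crest.Agent.R144.Tor95
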