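import Mathlib
import Crest.Prelude.Def_HexHeights
import Crest.Agent.R144.TorB_95
import Crest.Agent.R144.Tp1_952

/-!
R144 (S0197), helper95: hammock states on the tori `(ℤ × ℤ) ⧸ Γ`.

* `Rt Γ` : adjacency on the quotient, `conn_Rt`;
* `ex_translate` : translation invariance of shift invariant observables;
* `ex_map` : covariance under lattice automorphisms `g` (`Γ ↦ g Γ`);
* `Vt Γ x = E (h_x - h_0)^2`, `Vt_neg`, `Vt_map`, `Vt_pd`;
* rectangular tori `rect N m = ⟨(N,0), (-m, 2m)⟩` : `Vt_theta`, `Vt_rp`;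
* `two_of_lim` : `Two V` for every `V` which is the limit of `Vt` along rectangular tori and along
  their images under `sw`.
-/

set_option autoImplicit false

open MeasureTheory Set Function Filter Topology
open scoped ENNReal
open Crest.ProbabilityR.HexHeights (Adj)
open Crest.Agent.R144.Tp952 (th sw Two)

namespace Crest.Agent.R144.Tor95

/-! ### the lattice -/

theorem Adj_iff (a b : ℤ × ℤ) : Adj a b ↔ b - a = (1, 0) ∨ b - a = (-1, 0) ∨ b - a = (0, 1) ∨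
    b - a = (0, -1) ∨ b - a = (1, -1) ∨ b - a = (-1, 1) := by
  obtain ⟨a1, a2⟩ := a
  obtain ⟨b1, b2⟩ := b
  simp only [Adj, Prod.mk_sub_mk, Prod.mk.injEq]

theorem Adj_add (a b t : ℤ × ℤ) : Adj (a + t) (b + t) ↔ Adj a b := by
  rw [Adj_iff, Adj_iff, add_sub_add_right_eq_sub]

theorem Adj_symm {a b : ℤ × ℤ} (h : Adj a b) : Adj b a := by
  rw [Adj_iff] at h ⊢
  have e : a - b = -(b - a) := by abel
  rw [e]
  rcases h with h | h | h | h | h | h <;> rw [h] <;> simp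

theorem Adj_e1 (a : ℤ × ℤ) : Adj a (a + (1, 0)) := by rw [Adj_iff]; simp
theorem Adj_e1' (a : ℤ × ℤ) : Adj a (a + (-1, 0)) := by rw [Adj_iff]; simp
theorem Adj_e2 (a : ℤ × ℤ) : Adj a (a + (0, 1)) := by rw [Adj_iff]; simp
theorem Adj_e2' (a : ℤ × ℤ) : Adj a (a + (0, -1)) := by rw [Adj_iff]; simp

theorem conn_Adj (a : ℤ × ℤ) : Relation.ReflTransGen Adj 0 a := by
  have hx : ∀ x : ℤ, Relation.ReflTransGen Adj 0 (x, 0) := by
    intro x
    induction x using Int.induction_on with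
    | zero => exact Relation.ReflTransGen.refl
    | succ n ih => exact ih.tail (by simpa using Adj_e1 ((n : ℤ), 0))
    | pred n ih => exact ih.tail (by simpa [sub_eq_add_neg] using Adj_e1' (-(n : ℤ), 0))
  have hy : ∀ x y : ℤ, Relation.ReflTransGen Adj 0 (x, y) := by
    intro x y
    induction y using Int.induction_on with
    | zero => exact hx x
    | succ n ih => exact ih.tail (by simpa using Adj_e2 (x, (n : ℤ)))
    | pred n ih => exact ih.tail (by simpa [sub_eq_add_neg] using Adj_e2' (x, -(n : ℤ)))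
  exact hy a.1 a.2

/-! ### quotient tori -/

/-- Adjacency on the torus `(ℤ × ℤ) ⧸ Γ`. -/
def Rt (Γ : AddSubgroup (ℤ × ℤ)) : ((ℤ × ℤ) ⧸ Γ) → ((ℤ × ℤ) ⧸ Γ) → Prop :=
  fun p q => ∃ a b : ℤ × ℤ, Adj a b ∧ (a : (ℤ × ℤ) ⧸ Γ) = p ∧ (b : (ℤ × ℤ) ⧸ Γ) = q

theorem Rt_mk {Γ : AddSubgroup (ℤ × ℤ)} {a b : ℤ × ℤ} (h : Adj a b) :
    Rt Γ (a : (ℤ × ℤ) ⧸ Γ) (b : (ℤ × ℤ) ⧸ Γ) := ⟨a, b, h, rfl, rfl⟩

theorem conn_Rt (Γ : AddSubgroup (ℤ × ℤ)) (o : (ℤ × ℤ) ⧸ Γ) : Conn (Rt Γ) o := by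
  intro q
  obtain ⟨a, rfl⟩ := QuotientAddGroup.mk_surjective o
  obtain ⟨b, rfl⟩ := QuotientAddGroup.mk_surjective q
  have h := conn_Adj (b - a)
  have h2 : Relation.ReflTransGen (Rt Γ) ((0 + a : ℤ × ℤ) : (ℤ × ℤ) ⧸ Γ)
      ((b - a + a : ℤ × ℤ) : (ℤ × ℤ) ⧸ Γ) :=
    Relation.ReflTransGen.lift (r := Adj) (p := Rt Γ)
      (fun z : ℤ × ℤ => ((z + a : ℤ × ℤ) : (ℤ × ℤ) ⧸ Γ)) (fun x y hxy =>
        Rt_mk ((Adj_add x y a).2 hxy)) _ _ h
  rwa [zero_add, sub_add_cancel] at h2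

theorem Rt_translate (Γ : AddSubgroup (ℤ × ℤ)) (t p q : (ℤ × ℤ) ⧸ Γ) :
    Rt Γ p q ↔ Rt Γ (p + t) (q + t) := by
  obtain ⟨c, rfl⟩ := QuotientAddGroup.mk_surjective t
  constructor
  · rintro ⟨a, b, h, rfl, rfl⟩
    exact ⟨a + c, b + c, (Adj_add a b c).2 h, rfl, rfl⟩
  · rintro ⟨a, b, h, ha, hb⟩
    refine ⟨a + -c, b + -c, (Adj_add a b (-c)).2 h, ?_, ?_⟩
    · rw [QuotientAddGroup.mk_add, QuotientAddGroup.mk_neg, ha]; abel
    · rw [QuotientAddGroup.mk_add, QuotientAddGroup.mk_neg, hb]; abel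

section torus

variable (Γ : AddSubgroup (ℤ × ℤ)) [Fintype ((ℤ × ℤ) ⧸ Γ)]

/-- Expectation of a (shift invariant) observable in the hammock state on the torus `(ℤ × ℤ) ⧸ Γ`;
the torus height is pulled back to a periodic function on `ℤ × ℤ`. -/
noncomputable def exT (f : ((ℤ × ℤ) → ℝ) → ℝ) : ℝ :=
  ex (Rt Γ) 0 (fun h => f (fun z => h (z : (ℤ × ℤ) ⧸ Γ)))

/-- Translation invariance on the torus. -/
theorem ex_translate (t : (ℤ × ℤ) ⧸ Γ) {F : (((ℤ × ℤ) ⧸ Γ) → ℝ) → ℝ} (hF : Continuous F)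
    (hs : ShiftInv F) : ex (Rt Γ) 0 (fun h => F (fun q => h (q + t))) = ex (Rt Γ) 0 F := by
  have h1 := ex_relabel (R := Rt Γ) (R' := Rt Γ) (Equiv.addRight t)
    (fun p q => by simpa using Rt_translate Γ t p q) 0 F
  simp only [Equiv.coe_addRight, zero_add] at h1
  rw [← h1]
  refine ex_gauge (conn_Rt Γ 0) ?_ ?_
  · exact hF.comp (by fun_prop)
  · intro h c
    exact hs _ c

/-- The variogram of the torus state. -/
noncomputable def Vt (x : ℤ × ℤ) : ℝ := var2 (Rt Γ) 0 (x : (ℤ × ℤ) ⧸ Γ) 0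

theorem var2_translate (t p q : (ℤ × ℤ) ⧸ Γ) :
    var2 (Rt Γ) 0 (p + t) (q + t) = var2 (Rt Γ) 0 p q := by
  rw [var2_eq_ex, var2_eq_ex]
  exact ex_translate Γ t (F := fun h => (h p - h q) ^ 2) (by fun_prop) (fun h c => by
    simp only; ring)

theorem var2_eq_Vt (a b : ℤ × ℤ) :
    var2 (Rt Γ) 0 (a : (ℤ × ℤ) ⧸ Γ) (b : (ℤ × ℤ) ⧸ Γ) = Vt Γ (a - b) := by
  have h := var2_translate Γ (b : (ℤ × ℤ) ⧸ Γ) ((a - b : ℤ × ℤ) : (ℤ × ℤ) ⧸ Γ) 0
  rw [Vt, ← h, zero_add, ← QuotientAddGroup.mk_add, sub_add_cancel]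

theorem Vt_zero : Vt Γ 0 = 0 := by
  rw [Vt]; exact var2_self _ _ _

theorem Vt_neg (x : ℤ × ℤ) : Vt Γ (-x) = Vt Γ x := by
  have h := var2_eq_Vt Γ 0 x
  rw [zero_sub] at h
  rw [← h, var2_symm]
  exact (by rw [var2_eq_Vt, sub_zero])

theorem Vt_nonneg (x : ℤ × ℤ) : 0 ≤ Vt Γ x := var2_nonneg _ _ _ _

/-- Push forward of a finitely supported function. -/
theorem sum_push {Q : Type*} [Fintype Q] [DecidableEq Q] (π : ℤ × ℤ → Q) (s : Finset (ℤ × ℤ))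
    (f : ℤ × ℤ → ℝ) (φ : Q → Q → ℝ) :
    ∑ p, ∑ q, (∑ x ∈ s with π x = p, f x) * (∑ y ∈ s with π y = q, f y) * φ p q =
      ∑ x ∈ s, ∑ y ∈ s, f x * f y * φ (π x) (π y) := by
  have e1 : ∀ p q, (∑ x ∈ s with π x = p, f x) * (∑ y ∈ s with π y = q, f y) * φ p q =
      ∑ x ∈ s with π x = p, ∑ y ∈ s with π y = q, f x * f y * φ (π x) (π y) := by
    intro p q
    rw [Finset.sum_mul_sum, Finset.sum_mul]
    refine Finset.sum_congr rfl fun x hx => ?_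
    rw [Finset.sum_mul]
    refine Finset.sum_congr rfl fun y hy => ?_
    rw [(Finset.mem_filter.1 hx).2, (Finset.mem_filter.1 hy).2]
  simp_rw [e1]
  rw [← Finset.sum_fiberwise s π]
  refine Finset.sum_congr rfl fun p _ => ?_
  rw [Finset.sum_comm]
  refine Finset.sum_congr rfl fun x _ => ?_
  rw [← Finset.sum_fiberwise s π]

theorem sum_push_one {Q : Type*} [Fintype Q] [DecidableEq Q] (π : ℤ × ℤ → Q)
    (s : Finset (ℤ × ℤ)) (f : ℤ × ℤ → ℝ) :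
    ∑ p, (∑ x ∈ s with π x = p, f x) = ∑ x ∈ s, f x :=
  Finset.sum_fiberwise s π f

/-- Positive definiteness of the torus variogram. -/
theorem Vt_pd (s : Finset (ℤ × ℤ)) (f : ℤ × ℤ → ℝ) (hf : ∑ x ∈ s, f x = 0) :
    0 ≤ -∑ x ∈ s, ∑ y ∈ s, f x * f y * Vt Γ (x - y) := by
  classical
  set π : ℤ × ℤ → (ℤ × ℤ) ⧸ Γ := fun x => (x : (ℤ × ℤ) ⧸ Γ) with hπ
  have h := pd (conn_Rt Γ 0) (fun p => ∑ x ∈ s with π x = p, f x) (by
    rw [sum_push_one π s f, hf])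
  rw [sum_push π s f (fun p q => var2 (Rt Γ) 0 p q)] at h
  simp only [hπ, var2_eq_Vt] at h
  linarith

end torus

/-! ### lattice automorphisms -/

/-- `θ` as an additive automorphism. -/
def thE : (ℤ × ℤ) ≃+ (ℤ × ℤ) where
  toFun := th
  invFun := th
  left_inv p := by ext <;> simp [th]
  right_inv p := by ext <;> simp [th]
  map_add' p q := by ext <;> simp [th] <;> ring

/-- `sw` as an additive automorphism. -/
def swE : (ℤ × ℤ) ≃+ (ℤ × ℤ) where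
  toFun := sw
  invFun := sw
  left_inv p := by ext <;> simp [sw]
  right_inv p := by ext <;> simp [sw]
  map_add' p q := by ext <;> simp [sw]

@[simp] theorem thE_apply (p : ℤ × ℤ) : thE p = th p := rfl
@[simp] theorem swE_apply (p : ℤ × ℤ) : swE p = sw p := rfl

theorem Adj_th (a b : ℤ × ℤ) : Adj (th a) (th b) ↔ Adj a b := by
  obtain ⟨a1, a2⟩ := a
  obtain ⟨b1, b2⟩ := b
  simp only [Adj, th]
  omega

theorem Adj_sw (a b : ℤ × ℤ) : Adj (sw a) (sw b) ↔ Adj a b := by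
  obtain ⟨a1, a2⟩ := a
  obtain ⟨b1, b2⟩ := b
  simp only [Adj, sw]
  omega

section aut

variable (Γ Γ' : AddSubgroup (ℤ × ℤ)) [Fintype ((ℤ × ℤ) ⧸ Γ)] [Fintype ((ℤ × ℤ) ⧸ Γ')]

omit [Fintype ((ℤ × ℤ) ⧸ Γ)] [Fintype ((ℤ × ℤ) ⧸ Γ')] in
theorem Rt_congr (g : (ℤ × ℤ) ≃+ (ℤ × ℤ)) (hg : ∀ a b, Adj (g a) (g b) ↔ Adj a b)
    (hΓ : Γ.map g.toAddMonoidHom = Γ') (p q : (ℤ × ℤ) ⧸ Γ) :
    Rt Γ p q ↔ Rt Γ' (QuotientAddGroup.congr Γ Γ' g hΓ p) (QuotientAddGroup.congr Γ Γ' g hΓ q) := by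
  constructor
  · rintro ⟨a, b, h, rfl, rfl⟩
    exact ⟨g a, g b, (hg a b).2 h, rfl, rfl⟩
  · rintro ⟨a, b, h, ha, hb⟩
    refine ⟨g.symm a, g.symm b, (hg _ _).1 (by simpa using h), ?_, ?_⟩
    · apply (QuotientAddGroup.congr Γ Γ' g hΓ).injective
      rw [← ha]
      change ((g (g.symm a) : ℤ × ℤ) : (ℤ × ℤ) ⧸ Γ') = _
      simp
    · apply (QuotientAddGroup.congr Γ Γ' g hΓ).injective
      rw [← hb]
      change ((g (g.symm b) : ℤ × ℤ) : (ℤ × ℤ) ⧸ Γ') = _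
      simp

/-- Covariance of the torus states under lattice automorphisms. -/
theorem exT_map (g : (ℤ × ℤ) ≃+ (ℤ × ℤ)) (hg : ∀ a b, Adj (g a) (g b) ↔ Adj a b)
    (hΓ : Γ.map g.toAddMonoidHom = Γ') (f : ((ℤ × ℤ) → ℝ) → ℝ) :
    exT Γ' (fun h => f (fun z => h (g z))) = exT Γ f := by
  have h1 := ex_relabel (R := Rt Γ) (R' := Rt Γ') (QuotientAddGroup.congr Γ Γ' g hΓ).toEquiv
    (Rt_congr Γ Γ' g hg hΓ) 0 (fun h => f (fun z => h (z : (ℤ × ℤ) ⧸ Γ)))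
  have h0 : (QuotientAddGroup.congr Γ Γ' g hΓ).toEquiv 0 = 0 := by
    change QuotientAddGroup.congr Γ Γ' g hΓ 0 = 0
    rw [map_zero]
  rw [h0] at h1
  rw [exT, exT, ← h1]
  rfl

theorem Vt_eq_exT (x : ℤ × ℤ) : Vt Γ x = exT Γ (fun h => (h x - h 0) ^ 2) := rfl

theorem Vt_map (g : (ℤ × ℤ) ≃+ (ℤ × ℤ)) (hg : ∀ a b, Adj (g a) (g b) ↔ Adj a b)
    (hΓ : Γ.map g.toAddMonoidHom = Γ') (x : ℤ × ℤ) : Vt Γ' (g x) = Vt Γ x := by
  rw [Vt_eq_exT, Vt_eq_exT, ← exT_map Γ Γ' g hg hΓ]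
  simp

end aut

/-! ### rectangular tori -/

/-- The period lattice `⟨(N,0), (-m, 2m)⟩`, rectangular with respect to the rows. -/
def rect (N m : ℤ) : AddSubgroup (ℤ × ℤ) where
  carrier := {p | ∃ a b : ℤ, p = (a * N - b * m, 2 * b * m)}
  zero_mem' := ⟨0, 0, by simp; rfl⟩
  add_mem' := by
    rintro p q ⟨a, b, rfl⟩ ⟨c, d, rfl⟩
    exact ⟨a + c, b + d, by ext <;> simp <;> ring⟩
  neg_mem' := by
    rintro p ⟨a, b, rfl⟩
    exact ⟨-a, -b, by ext <;> simp; ring⟩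

theorem mem_rect {N m : ℤ} {p : ℤ × ℤ} :
    p ∈ rect N m ↔ ∃ a b : ℤ, p = (a * N - b * m, 2 * b * m) := Iff.rfl

theorem mk_eq_mk_rect {N m : ℤ} {p q : ℤ × ℤ} :
    (p : (ℤ × ℤ) ⧸ rect N m) = (q : (ℤ × ℤ) ⧸ rect N m) ↔
      ∃ a b : ℤ, q = (p.1 + (a * N - b * m), p.2 + 2 * b * m) := by
  rw [QuotientAddGroup.eq, mem_rect]
  constructor
  · rintro ⟨a, b, h⟩
    refine ⟨a, b, ?_⟩
    have : q = p + (-p + q) := by abel
    rw [this, h]
    rfl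
  · rintro ⟨a, b, h⟩
    exact ⟨a, b, by rw [h]; ext <;> simp⟩

theorem rect_map_th (N m : ℤ) : (rect N m).map thE.toAddMonoidHom = rect N m := by
  ext p
  constructor
  · rintro ⟨q, ⟨a, b, rfl⟩, rfl⟩
    exact ⟨a, -b, by
      change th _ = _
      ext <;> simp [th]; ring⟩
  · rintro ⟨a, b, rfl⟩
    refine ⟨_, ⟨a, -b, rfl⟩, ?_⟩
    change th _ = _
    ext <;> simp [th]; ring

/-- `θ` on the rectangular torus. -/
def thQ (N m : ℤ) : ((ℤ × ℤ) ⧸ rect N m) ≃+ ((ℤ × ℤ) ⧸ rect N m) :=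
  QuotientAddGroup.congr (rect N m) (rect N m) thE (rect_map_th N m)

theorem thQ_mk (N m : ℤ) (p : ℤ × ℤ) :
    thQ N m (p : (ℤ × ℤ) ⧸ rect N m) = ((th p : ℤ × ℤ) : (ℤ × ℤ) ⧸ rect N m) := rfl

theorem th_th (p : ℤ × ℤ) : th (th p) = p := by ext <;> simp [th]

theorem thQ_thQ (N m : ℤ) (q : (ℤ × ℤ) ⧸ rect N m) : thQ N m (thQ N m q) = q := by
  obtain ⟨p, rfl⟩ := QuotientAddGroup.mk_surjective q
  rw [thQ_mk, thQ_mk, th_th]

/-- The closed upper half `0 ≤ y ≤ m` of the rectangular torus. -/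
def upper (N m : ℤ) : Set ((ℤ × ℤ) ⧸ rect N m) :=
  {q | ∃ p : ℤ × ℤ, 0 ≤ p.2 ∧ p.2 ≤ m ∧ (p : (ℤ × ℤ) ⧸ rect N m) = q}

/-- Representative with `-m < y ≤ m`. -/
theorem exists_rep {N m : ℤ} (hm : 0 < m) (q : (ℤ × ℤ) ⧸ rect N m) :
    ∃ p : ℤ × ℤ, -m < p.2 ∧ p.2 ≤ m ∧ (p : (ℤ × ℤ) ⧸ rect N m) = q := by
  obtain ⟨⟨x, y⟩, rfl⟩ := QuotientAddGroup.mk_surjective q
  -- `y - 2 m k ∈ (-m, m]` for `k = ⌊(y + m - 1) / (2m)⌋`
  set k := (y + m - 1) / (2 * m) with hk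
  have h2m : (0:ℤ) < 2 * m := by linarith
  have e := Int.emod_add_mul_ediv (y + m - 1) (2 * m)
  have h1 := Int.emod_nonneg (y + m - 1) h2m.ne'
  have h2 := Int.emod_lt_of_pos (y + m - 1) h2m
  rw [← hk] at e
  refine ⟨(x + (0 * N - (-k) * m), y + 2 * (-k) * m), ?_, ?_, ?_⟩
  · simp only
    nlinarith
  · simp only
    nlinarith
  · exact (mk_eq_mk_rect (p := (x, y)).2 ⟨0, -k, rfl⟩).symm

theorem upper_cover {N m : ℤ} (hm : 0 < m) (q : (ℤ × ℤ) ⧸ rect N m) :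
    q ∈ upper N m ∨ thQ N m q ∈ upper N m := by
  obtain ⟨p, h1, h2, rfl⟩ := exists_rep hm q
  rcases le_or_gt 0 p.2 with h | h
  · exact Or.inl ⟨p, h, h2, rfl⟩
  · right
    refine ⟨th p, ?_, ?_, (thQ_mk N m p).symm⟩
    · simp only [th]; linarith
    · simp only [th]; linarith

theorem upper_inter {N m : ℤ} (hm : 0 < m) (q : (ℤ × ℤ) ⧸ rect N m) (h1 : q ∈ upper N m)
    (h2 : thQ N m q ∈ upper N m) : thQ N m q = q := by
  obtain ⟨p, hp0, hpm, rfl⟩ := h1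
  obtain ⟨r, hr0, hrm, hr⟩ := h2
  rw [thQ_mk] at hr ⊢
  obtain ⟨a, b, hab⟩ := mk_eq_mk_rect.1 hr
  have e2 : (th p).2 = r.2 + 2 * b * m := by rw [hab]
  simp only [th] at e2
  -- `-p.2 = r.2 + 2 b m`, so `b = 0` or `b = -1`
  have hb1 : b ≤ 0 := by
    by_contra hb
    push Not at hb
    nlinarith
  have hb2 : -1 ≤ b := by
    by_contra hb
    push Not at hb
    have : b ≤ -2 := by omega
    nlinarith
  have hb : b = 0 ∨ b = -1 := by omega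
  rcases hb with rfl | rfl
  · have hp : p.2 = 0 := by nlinarith
    have : th p = p := by ext <;> simp [th, hp]
    rw [this]
  · have hp : p.2 = m := by nlinarith
    refine (mk_eq_mk_rect.2 ⟨0, -1, ?_⟩).symm
    ext
    · simp [th, hp]
    · simp [th, hp]; ring

theorem Rt_thQ {N m : ℤ} (p q : (ℤ × ℤ) ⧸ rect N m) (h : Rt (rect N m) p q) :
    Rt (rect N m) (thQ N m p) (thQ N m q) :=
  (Rt_congr (rect N m) (rect N m) thE Adj_th (rect_map_th N m) p q).1 h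

theorem Rt_halves {N m : ℤ} (hm : 0 < m) (p q : (ℤ × ℤ) ⧸ rect N m) (h : Rt (rect N m) p q) :
    (p ∈ upper N m ∧ q ∈ upper N m) ∨ (thQ N m p ∈ upper N m ∧ thQ N m q ∈ upper N m) := by
  obtain ⟨a, b, hab, rfl, rfl⟩ := h
  -- shift `a` into the strip
  obtain ⟨a', h1, h2, h3⟩ := exists_rep hm (a : (ℤ × ℤ) ⧸ rect N m)
  obtain ⟨i, j, hij⟩ := mk_eq_mk_rect.1 h3.symm
  set t : ℤ × ℤ := (i * N - j * m, 2 * j * m) with ht
  have ha' : a' = a + t := by rw [hij]; rfl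
  set b' : ℤ × ℤ := b + t with hb'
  have hb'' : (b' : (ℤ × ℤ) ⧸ rect N m) = (b : (ℤ × ℤ) ⧸ rect N m) :=
    (mk_eq_mk_rect.2 ⟨i, j, rfl⟩).symm
  rw [← h3, ← hb'']
  have hadj : Adj a' b' := by rw [ha', hb', Adj_add]; exact hab
  have hy : b'.2 - a'.2 = 0 ∨ b'.2 - a'.2 = 1 ∨ b'.2 - a'.2 = -1 := by
    unfold Adj at hadj; omega
  -- membership criteria
  have up : ∀ c : ℤ × ℤ, 0 ≤ c.2 → c.2 ≤ m → (c : (ℤ × ℤ) ⧸ rect N m) ∈ upper N m :=
    fun c h h' => ⟨c, h, h', rfl⟩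
  have dn : ∀ c : ℤ × ℤ, -m ≤ c.2 → c.2 ≤ 0 →
      thQ N m (c : (ℤ × ℤ) ⧸ rect N m) ∈ upper N m := by
    intro c h h'
    rw [thQ_mk]
    exact up _ (by simp only [th]; linarith) (by simp only [th]; linarith)
  -- the class with `y` in `[m, 2m]` also lies in the lower half
  have dn2 : ∀ c : ℤ × ℤ, m ≤ c.2 → c.2 ≤ 2 * m →
      thQ N m (c : (ℤ × ℤ) ⧸ rect N m) ∈ upper N m := by
    intro c h h'
    have : ((c.1 + (0 * N - (-1) * m), c.2 + 2 * (-1) * m) : ℤ × ℤ) = (c.1 + m, c.2 - 2 * m) := by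
      ext <;> simp; ring
    have e : (c : (ℤ × ℤ) ⧸ rect N m) = (((c.1 + m, c.2 - 2 * m) : ℤ × ℤ) : (ℤ × ℤ) ⧸ rect N m) :=
      mk_eq_mk_rect.2 ⟨0, -1, this.symm⟩
    rw [e]
    exact dn _ (by simp only; linarith) (by simp only; linarith)
  rcases lt_trichotomy a'.2 0 with ha | ha | ha
  · right
    exact ⟨dn a' h1.le ha.le, dn b' (by omega) (by omega)⟩
  · rcases hy with hy | hy | hy
    · left; exact ⟨up a' (by omega) (by omega), up b' (by omega) (by omega)⟩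
    · left; exact ⟨up a' (by omega) (by omega), up b' (by omega) (by omega)⟩
    · right; exact ⟨dn a' (by omega) (by omega), dn b' (by omega) (by omega)⟩
  · rcases hy with hy | hy | hy
    · left; exact ⟨up a' (by omega) (by omega), up b' (by omega) (by omega)⟩
    · rcases eq_or_lt_of_le h2 with h4 | h4
      · right
        exact ⟨dn2 a' (by omega) (by omega), dn2 b' (by omega) (by omega)⟩
      · left; exact ⟨up a' (by omega) (by omega), up b' (by omega) (by omega)⟩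
    · left; exact ⟨up a' (by omega) (by omega), up b' (by omega) (by omega)⟩

section rectTorus

variable (N m : ℤ) [Fintype ((ℤ × ℤ) ⧸ rect N m)]

theorem Vt_theta (x : ℤ × ℤ) : Vt (rect N m) (th x) = Vt (rect N m) x :=
  Vt_map (rect N m) (rect N m) thE Adj_th (rect_map_th N m) x

/-- **Site reflection positivity of rectangular tori**, observable form. -/
theorem rect_rp (hm : 0 < m) (F : (((ℤ × ℤ) ⧸ rect N m) → ℝ) → ℝ) (hF : Continuous F)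
    (hFS : DependsOn F (upper N m)) :
    0 ≤ ∫ h, F h * F (h ∘ thQ N m) ∂(nu (Rt (rect N m)) 0) :=
  rp (conn_Rt _ 0) (thQ N m) (thQ_thQ N m) (upper N m) (upper_cover hm) (upper_inter hm)
    Rt_thQ (Rt_halves hm) (map_zero _) F hF hFS

/-- **Site reflection positivity of rectangular tori**, variogram form. -/
theorem Vt_rp (hm : 0 < m) (s : Finset (ℤ × ℤ)) (f : ℤ × ℤ → ℝ)
    (hs : ∀ p ∈ s, 0 ≤ p.2 ∧ p.2 ≤ m) (hf : ∑ x ∈ s, f x = 0) :
    0 ≤ -∑ x ∈ s, ∑ y ∈ s, f x * f y * Vt (rect N m) (x - th y) := by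
  classical
  set π : ℤ × ℤ → (ℤ × ℤ) ⧸ rect N m := fun x => (x : (ℤ × ℤ) ⧸ rect N m) with hπ
  have h := rp_var (conn_Rt (rect N m) 0) (thQ N m) (thQ_thQ N m) (upper N m) (upper_cover hm)
    (upper_inter hm) Rt_thQ (Rt_halves hm) (map_zero _) (fun p => ∑ x ∈ s with π x = p, f x) (by
    rw [sum_push_one π s f, hf]) (by
    intro q hq
    refine Finset.sum_eq_zero fun x hx => ?_
    exfalso
    obtain ⟨hx1, hx2⟩ := Finset.mem_filter.1 hx
    exact hq ⟨x, (hs x hx1).1, (hs x hx1).2, hx2⟩)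
  rw [sum_push π s f (fun p q => var2 (Rt (rect N m)) 0 p (thQ N m q))] at h
  simp only [hπ, thQ_mk, var2_eq_Vt] at h
  linarith

end rectTorus

/-! ### limits -/

/-- **`Two V` for limits of torus variograms.**  `V` is the limit of `Vt` along rectangular tori
(height `2 m_n → ∞`) and along their images under `sw`. -/
theorem two_of_lim (V : ℤ × ℤ → ℝ) (N m : ℕ → ℤ) (hm : Tendsto m atTop atTop)
    [∀ n, Fintype ((ℤ × ℤ) ⧸ rect (N n) (m n))]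
    [∀ n, Fintype ((ℤ × ℤ) ⧸ (rect (N n) (m n)).map swE.toAddMonoidHom)]
    (h1 : ∀ x, Tendsto (fun n => Vt (rect (N n) (m n)) x) atTop (𝓝 (V x)))
    (h2 : ∀ x, Tendsto (fun n => Vt ((rect (N n) (m n)).map swE.toAddMonoidHom) x) atTop
      (𝓝 (V x))) : Two V := by
  refine ⟨?_, ?_, ?_, ?_, ?_, ?_⟩
  · refine tendsto_nhds_unique (h1 0) ?_
    simp_rw [Vt_zero]
    exact tendsto_const_nhds
  · intro p
    refine tendsto_nhds_unique (h1 (-p)) ?_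
    simp_rw [Vt_neg]
    exact h1 p
  · intro p
    refine tendsto_nhds_unique (h2 (sw p)) ?_
    have e : ∀ n, Vt ((rect (N n) (m n)).map swE.toAddMonoidHom) (sw p) =
        Vt (rect (N n) (m n)) p := fun n =>
      Vt_map (rect (N n) (m n)) _ swE Adj_sw rfl p
    simp_rw [e]
    exact h1 p
  · intro p
    refine tendsto_nhds_unique (h1 (th p)) ?_
    simp_rw [Vt_theta]
    exact h1 p
  · intro s f hf
    refine ge_of_tendsto' (x := atTop) (f := fun n =>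
      -∑ p ∈ s, ∑ q ∈ s, f p * f q * Vt (rect (N n) (m n)) (p - q)) ?_
      (fun n => Vt_pd (rect (N n) (m n)) s f hf)
    refine (tendsto_finsetSum _ fun p _ => tendsto_finsetSum _ fun q _ => ?_).neg
    exact (h1 (p - q)).const_mul _
  · intro s f hs hf
    have hlim : Tendsto (fun n => -∑ p ∈ s, ∑ q ∈ s, f p * f q *
        Vt (rect (N n) (m n)) (p - th q)) atTop
        (𝓝 (-∑ p ∈ s, ∑ q ∈ s, f p * f q * V (p - th q))) := by
      refine (tendsto_finsetSum _ fun p _ => tendsto_finsetSum _ fun q _ => ?_).neg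
      exact (h1 (p - th q)).const_mul _
    refine ge_of_tendsto hlim ?_
    filter_upwards [hm.eventually_ge_atTop (1 + ∑ p ∈ s, p.2)] with n hn
    have hb : ∀ p ∈ s, p.2 ≤ ∑ p ∈ s, p.2 := fun p hp =>
      Finset.single_le_sum (f := fun p : ℤ × ℤ => p.2) (fun q hq => hs q hq) hp
    have h0 : 0 ≤ ∑ p ∈ s, p.2 := Finset.sum_nonneg fun q hq => hs q hq
    exact Vt_rp (N n) (m n) (by linarith) s f
      (fun p hp => ⟨hs p hp, by linarith [hb p hp]⟩) hf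

end Crest.Agent.R144.Tor95
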