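import Crest.Agent.R144.TorD_95
import Crest.Agent.R144.Ham1_560

/-!
R144 (S0197), helper95.

* `third_of_sym` : `∫_K Y² ≤ (1/3) vol K` for a linear functional `|Y| ≤ 1` on a bounded symmetric
  convex set `K` (even unimodal law on `[-1,1]`);
* `var2_le_third`, `Vt_le_third` : one-edge variance of the hammock law `≤ 1/3`.
-/

set_option autoImplicit false

open MeasureTheory Set Function Filter Topology
open scoped ENNReal
open Crest.ProbabilityR.HexHeights (Adj)

namespace Crest.Agent.R144.Tor95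

section third

variable {ι : Type*} [Fintype ι]

/-- Half-open slabs of a symmetric convex set: moving away from the centre decreases the volume. -/
theorem slab_half {K : Set (ι → ℝ)} (hK : Convex ℝ K) (hsym : ∀ x ∈ K, -x ∈ K)
    (hKm : MeasurableSet K) (Y : (ι → ℝ) →ₗ[ℝ] ℝ) (hY : Measurable Y) {a b w : ℝ}
    (ha : 0 ≤ a) (hab : a ≤ b) (hw : 0 < w) :
    volume (K ∩ {x | b ≤ Y x ∧ Y x < b + w}) ≤ volume (K ∩ {x | a ≤ Y x ∧ Y x < a + w}) := by
  rcases eq_or_lt_of_le hab with rfl | hlt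
  · exact le_rfl
  have hb : 0 < b := lt_of_le_of_lt ha hlt
  have hden : 0 < 2 * b + w := by linarith
  set s : ℝ := (b - a) / (2 * b + w) with hs
  have hs0 : 0 < s := by rw [hs]; apply div_pos <;> linarith
  have hs1 : s < 1 := by rw [hs, div_lt_one hden]; linarith
  have hsa : s * (2 * b + w) = b - a := by rw [hs]; field_simp
  have hm : ∀ c : ℝ, MeasurableSet {x : ι → ℝ | c ≤ Y x ∧ Y x < c + w} := fun c =>
    (measurableSet_le measurable_const hY).inter (measurableSet_lt hY measurable_const)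
  refine Crest.Agent.R144.Ham560.vol_le_of_mix hs0 hs1 (hKm.inter (hm b)) (hKm.inter (hm a)) ?_
  rintro x ⟨hx, hx1, hx2⟩ y ⟨hy, hy1, hy2⟩
  refine ⟨?_, ?_⟩
  · have := hK hx (hsym y hy) (by linarith : (0:ℝ) ≤ 1 - s) hs0.le (by ring)
    simpa [sub_eq_add_neg, smul_neg] using this
  · change a ≤ Y ((1 - s) • x - s • y) ∧ Y ((1 - s) • x - s • y) < a + w
    rw [map_sub, map_smul, map_smul, smul_eq_mul, smul_eq_mul]
    have h1 : 0 < 1 - s := by linarith
    constructor
    · nlinarith [mul_le_mul_of_nonneg_left hx1 h1.le, mul_lt_mul_of_pos_left hy2 hs0]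
    · nlinarith [mul_lt_mul_of_pos_left hx2 h1, mul_le_mul_of_nonneg_left hy1 hs0.le]

theorem third_aux {K : Set (ι → ℝ)} (hK : Convex ℝ K) (hsym : ∀ x ∈ K, -x ∈ K)
    (hKm : MeasurableSet K) (hfin : volume K ≠ ∞) (Y : (ι → ℝ) →ₗ[ℝ] ℝ) (hY : Measurable Y)
    (hb : ∀ x ∈ K, |Y x| ≤ 1) (n : ℕ) (hn : 0 < n) :
    ∫ x in K ∩ {x | 0 ≤ Y x}, Y x ^ 2 ≤
      (1 / ((n : ℝ) + 1) * ∑ j ∈ Finset.range (n + 1), (((j : ℝ) + 1) / n) ^ 2) *
        volume.real (K ∩ {x | 0 ≤ Y x}) := by
  have hn' : (0 : ℝ) < n := by exact_mod_cast hn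
  set S : ℕ → Set (ι → ℝ) := fun j => K ∩ {x | (j : ℝ) / n ≤ Y x ∧ Y x < (j : ℝ) / n + 1 / n}
    with hS
  have hSm : ∀ j, MeasurableSet (S j) := fun j =>
    hKm.inter ((measurableSet_le measurable_const hY).inter (measurableSet_lt hY measurable_const))
  set p : ℕ → ℝ := fun j => volume.real (S j) with hp
  have hfinS : ∀ j, volume (S j) ≠ ∞ := fun j =>
    ((measure_mono inter_subset_left).trans_lt (lt_top_iff_ne_top.2 hfin)).ne
  have hpanti : ∀ i j : ℕ, i ≤ j → p j ≤ p i := by
    intro i j hij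
    refine ENNReal.toReal_mono (hfinS i) ?_
    refine slab_half hK hsym hKm Y hY (by positivity) ?_ (by positivity)
    have : (i : ℝ) ≤ j := by exact_mod_cast hij
    gcongr
  have hdisj : ∀ i j : ℕ, i < j → Disjoint (S i) (S j) := by
    intro i j hij
    rw [Set.disjoint_left]
    rintro x ⟨_, _, h2⟩ ⟨_, h3, _⟩
    have h4 : (i : ℝ) + 1 ≤ j := by exact_mod_cast hij
    have h5 : (i : ℝ) / n + 1 / n ≤ (j : ℝ) / n := by
      rw [← add_div]; gcongr
    linarith
  have hpair : Set.PairwiseDisjoint (↑(Finset.range (n + 1)) : Set ℕ) S := by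
    intro i _ j _ hij
    rcases lt_or_gt_of_ne hij with h | h
    · exact hdisj i j h
    · exact (hdisj j i h).symm
  have hunion : K ∩ {x | 0 ≤ Y x} = ⋃ j ∈ Finset.range (n + 1), S j := by
    ext x
    simp only [Set.mem_inter_iff, Set.mem_ofPred_eq, Set.mem_iUnion, Finset.mem_range, exists_prop]
    constructor
    · rintro ⟨hx, hx0⟩
      refine ⟨⌊Y x * n⌋₊, ?_, hx, ?_, ?_⟩
      · have h1 : Y x ≤ 1 := (abs_le.1 (hb x hx)).2
        have h2 : Y x * n ≤ n := by nlinarith
        have h3 : ⌊Y x * n⌋₊ ≤ n := by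
          have := Nat.floor_le_floor h2
          simpa using this
        omega
      · rw [div_le_iff₀ hn']
        exact Nat.floor_le (by positivity)
      · rw [← add_div, lt_div_iff₀ hn']
        exact Nat.lt_floor_add_one _
    · rintro ⟨j, _, hx, h1, _⟩
      exact ⟨hx, le_trans (by positivity) h1⟩
  have hint : IntegrableOn (fun x => Y x ^ 2) (K ∩ {x | 0 ≤ Y x}) := by
    refine Measure.integrableOn_of_bounded (M := 1) ?_ (hY.pow_const 2).aestronglyMeasurable ?_
    · exact ((measure_mono inter_subset_left).trans_lt (lt_top_iff_ne_top.2 hfin)).ne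
    · refine (ae_restrict_iff' (hKm.inter (measurableSet_le measurable_const hY))).2
        (Filter.Eventually.of_forall fun x hx => ?_)
      have h1 := hb x hx.1
      rw [Real.norm_eq_abs, abs_pow]
      exact pow_le_one₀ (abs_nonneg _) h1
  rw [hunion] at hint ⊢
  rw [integral_biUnion_finset _ (fun j _ => hSm j) hpair (fun j hj =>
    hint.mono_set (Set.subset_biUnion_of_mem hj)), measureReal_biUnion_finset hpair
      (fun j _ => hSm j) (fun j _ => hfinS j)]
  have h1 : ∀ j ∈ Finset.range (n + 1), ∫ x in S j, Y x ^ 2 ≤ (((j : ℝ) + 1) / n) ^ 2 * p j := by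
    intro j hj
    have hc : ∫ x in S j, (((j : ℝ) + 1) / n) ^ 2 = (((j : ℝ) + 1) / n) ^ 2 * p j := by
      rw [setIntegral_const, smul_eq_mul, mul_comm]
    rw [← hc]
    refine setIntegral_mono_on (hint.mono_set (Set.subset_biUnion_of_mem hj))
      (integrableOn_const (hfinS j)) (hSm j) fun x hx => ?_
    have h2 : 0 ≤ Y x := le_trans (by positivity) hx.2.1
    have h3 : Y x ≤ ((j : ℝ) + 1) / n := by rw [add_div]; exact hx.2.2.le
    gcongr
  refine (Finset.sum_le_sum h1).trans ?_
  have hche : ((Finset.range (n + 1)).card : ℝ) *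
      ∑ j ∈ Finset.range (n + 1), (((j : ℝ) + 1) / n) ^ 2 * p j ≤
      (∑ j ∈ Finset.range (n + 1), (((j : ℝ) + 1) / n) ^ 2) *
        ∑ j ∈ Finset.range (n + 1), p j := by
    refine AntivaryOn.card_mul_sum_le_sum_mul_sum ?_
    intro i _ j _ hij
    -- `p i < p j` forces `j < i`
    have hji : j ≤ i := by
      by_contra h
      push Not at h
      exact absurd (hpanti i j h.le) (not_le.2 hij)
    have hji' : (j : ℝ) ≤ i := by exact_mod_cast hji
    change (((j : ℝ) + 1) / n) ^ 2 ≤ (((i : ℝ) + 1) / n) ^ 2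
    gcongr
  rw [Finset.card_range] at hche
  push_cast at hche
  have hn1 : (0 : ℝ) < (n : ℝ) + 1 := by positivity
  rw [mul_assoc, one_div, ← div_eq_inv_mul, le_div_iff₀ hn1, mul_comm]
  exact hche

theorem sum_sq_range (n : ℕ) : ∑ j ∈ Finset.range (n + 1), ((j : ℝ) + 1) ^ 2 =
    ((n : ℝ) + 1) * (n + 2) * (2 * n + 3) / 6 := by
  induction n with
  | zero => norm_num
  | succ k ih =>
    rw [Finset.sum_range_succ, ih]
    push_cast
    ring

/-- An even unimodal law on `[-1,1]` has second moment at most `1/3`: convex body form. -/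
theorem third_of_sym {K : Set (ι → ℝ)} (hK : Convex ℝ K) (hsym : ∀ x ∈ K, -x ∈ K)
    (hKm : MeasurableSet K) (hfin : volume K ≠ ∞) (Y : (ι → ℝ) →ₗ[ℝ] ℝ)
    (hb : ∀ x ∈ K, |Y x| ≤ 1) :
    ∫ x in K, Y x ^ 2 ≤ 1 / 3 * volume.real K := by
  have hYc : Continuous Y := Y.continuous_of_finiteDimensional
  have hY : Measurable Y := hYc.measurable
  by_cases hY0 : Y = 0
  · simp only [hY0, LinearMap.zero_apply]
    simp
  -- positive side
  set P := K ∩ {x | 0 ≤ Y x} with hP
  set M := K ∩ {x | Y x ≤ 0} with hM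
  have hPm : MeasurableSet P := hKm.inter (measurableSet_le measurable_const hY)
  have hMm : MeasurableSet M := hKm.inter (measurableSet_le hY measurable_const)
  have hnull : volume {x : ι → ℝ | Y x = 0} = 0 := by
    have h1 : (LinearMap.ker Y) ≠ ⊤ := fun h => hY0 (LinearMap.ker_eq_top.1 h)
    have h2 := Measure.addHaar_submodule (volume : Measure (ι → ℝ)) (LinearMap.ker Y) h1
    have h3 : ((LinearMap.ker Y : Submodule ℝ (ι → ℝ)) : Set (ι → ℝ)) = {x | Y x = 0} := by
      ext x; simp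
    rwa [h3] at h2
  have hneg : ∀ f : (ι → ℝ) → ℝ, (∀ x, f (-x) = f x) → ∫ x in M, f x = ∫ x in P, f x := by
    intro f hf
    have hmp := Measure.measurePreserving_neg (volume : Measure (ι → ℝ))
    have hpre : (fun x : ι → ℝ => -x) ⁻¹' P = M := by
      ext x
      simp only [hP, hM, Set.mem_preimage, Set.mem_inter_iff, Set.mem_ofPred_eq, map_neg,
        Left.nonneg_neg_iff]
      refine and_congr_left fun _ => ⟨fun h => ?_, hsym x⟩
      have := hsym _ h
      simpa using this
    rw [← hpre, hmp.setIntegral_preimage_emb (MeasurableEquiv.neg (ι → ℝ)).measurableEmbedding f P |>.symm]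
    · congr 1
      funext x
      rw [hf]
  have hfinP : volume P ≠ ∞ :=
    ((measure_mono inter_subset_left).trans_lt (lt_top_iff_ne_top.2 hfin)).ne
  have hfinM : volume M ≠ ∞ :=
    ((measure_mono inter_subset_left).trans_lt (lt_top_iff_ne_top.2 hfin)).ne
  have hPM : K =ᵐ[volume] (P ∪ M : Set (ι → ℝ)) := by
    have : K = P ∪ M := by
      ext x
      simp only [hP, hM, Set.mem_union, Set.mem_inter_iff, Set.mem_ofPred_eq]
      constructor
      · intro h
        rcases le_total 0 (Y x) with h' | h'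
        · exact Or.inl ⟨h, h'⟩
        · exact Or.inr ⟨h, h'⟩
      · rintro (h | h)
        · exact h.1
        · exact h.1
    exact Filter.EventuallyEq.of_eq this
  have hdis : AEDisjoint volume P M := by
    refine measure_mono_null ?_ hnull
    rintro x ⟨⟨_, h1⟩, ⟨_, h2⟩⟩
    exact le_antisymm h2 h1
  have hintK : IntegrableOn (fun x => Y x ^ 2) K := by
    refine Measure.integrableOn_of_bounded (M := 1) hfin (hY.pow_const 2).aestronglyMeasurable ?_
    refine (ae_restrict_iff' hKm).2 (Filter.Eventually.of_forall fun x hx => ?_)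
    have h1 := hb x hx
    rw [Real.norm_eq_abs, abs_pow]
    exact pow_le_one₀ (abs_nonneg _) h1
  have e1 : ∫ x in K, Y x ^ 2 = 2 * ∫ x in P, Y x ^ 2 := by
    rw [setIntegral_congr_set hPM, setIntegral_union₀ hdis hMm.nullMeasurableSet
      (hintK.mono_set inter_subset_left) (hintK.mono_set inter_subset_left),
      hneg (fun x => Y x ^ 2) (fun x => by simp only [map_neg]; ring)]
    ring
  have e2 : volume.real K = 2 * volume.real P := by
    have h1 := hneg (fun _ => (1 : ℝ)) (fun _ => rfl)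
    simp only [setIntegral_const, smul_eq_mul, mul_one] at h1
    have h2 : volume K = volume P + volume M := by
      rw [measure_congr hPM, measure_union₀ hMm.nullMeasurableSet hdis]
    rw [Measure.real, h2, ENNReal.toReal_add hfinP hfinM]
    simp only [Measure.real] at h1 ⊢
    linarith
  -- the limit `n → ∞`
  have hlim : Tendsto (fun n : ℕ => (1 / (((n + 1 : ℕ) : ℝ) + 1) *
      ∑ j ∈ Finset.range ((n + 1) + 1), (((j : ℝ) + 1) / ((n + 1 : ℕ) : ℝ)) ^ 2) * volume.real P)
      atTop (𝓝 (1 / 3 * volume.real P)) := by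
    refine Tendsto.mul_const _ ?_
    have e3 : ∀ n : ℕ, (1 / (((n + 1 : ℕ) : ℝ) + 1) *
        ∑ j ∈ Finset.range ((n + 1) + 1), (((j : ℝ) + 1) / ((n + 1 : ℕ) : ℝ)) ^ 2) =
        (1 + 2 * (1 / ((n : ℝ) + 1))) * (1 / 3 + (1 / 2) * (1 / ((n : ℝ) + 1))) := by
      intro n
      have h0 : (0 : ℝ) < (n : ℝ) + 1 := by positivity
      simp_rw [div_pow]
      rw [← Finset.sum_div, sum_sq_range]
      push_cast
      field_simp
      ring
    simp_rw [e3]
    have h4 : Tendsto (fun n : ℕ => 1 / ((n : ℝ) + 1)) atTop (𝓝 0) :=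
      tendsto_one_div_add_atTop_nhds_zero_nat
    have h5 := ((h4.const_mul 2).const_add 1).mul ((h4.const_mul (1/2)).const_add (1/3))
    simpa using h5
  have hle := ge_of_tendsto' hlim (fun n => third_aux hK hsym hKm hfin Y hY hb (n + 1) (by omega))
  rw [e1, e2]
  linarith

end third

/-- The difference functional. -/
def diffL {Q : Type*} (p q : Q) : (Q → ℝ) →ₗ[ℝ] ℝ where
  toFun h := h p - h q
  map_add' x y := by simp only [Pi.add_apply]; ring
  map_smul' c x := by simp only [Pi.smul_apply, smul_eq_mul, RingHom.id_apply]; ring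

theorem var2_le_third {Q : Type*} [Fintype Q] {R : Q → Q → Prop} {o : Q} (hc : Conn R o) {p q : Q}
    (hpq : R p q) : var2 R o p q ≤ 1 / 3 := by
  have hpos := nu_real_pos hc
  rw [var2, div_le_iff₀ hpos]
  have hfin : volume (lip R ∩ gauge o) ≠ ∞ := (isCompact_lip_gauge hc).measure_lt_top.ne
  have h := third_of_sym ((convex_lip R).inter (convex_gauge o))
    (fun x hx => ⟨neg_mem_lip hx.1, neg_mem_gauge hx.2⟩)
    ((isClosed_lip R).inter (isClosed_gauge o)).measurableSet hfin (diffL p q)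
    (fun x hx => hx.1 p q hpq)
  have e : (nu R o).real univ = volume.real (lip R ∩ gauge o) := by
    rw [Measure.real, nu_univ]; rfl
  rw [e]
  exact h

theorem Vt_le_third (Γ : AddSubgroup (ℤ × ℤ)) [Fintype ((ℤ × ℤ) ⧸ Γ)] {x : ℤ × ℤ}
    (hx : Adj x 0) : Vt Γ x ≤ 1 / 3 :=
  var2_le_third (conn_Rt Γ 0) (Rt_mk hx)

theorem Vt_e1_le (Γ : AddSubgroup (ℤ × ℤ)) [Fintype ((ℤ × ℤ) ⧸ Γ)] : Vt Γ (1, 0) ≤ 1 / 3 :=
  Vt_le_third Γ (by unfold Adj; simp)

end Crest.Agent.R144.Tor95
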