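import Crest.Agent.R144.Tp1_952

/-!
# R144, block TP, helper952: the sector argument

`W a b` is the spectral density in the coordinates `a = k2 - k1/2`, `b = k2/2 - k1` (normal momenta of two of
the three frames); `M a b = (4/3)(a^2 - a b + b^2) = k1^2 - k1 k2 + k2^2`.
From the frame inequality in two frames and the symmetries: `M W -> L` as `(a,b) -> 0` between two axes.
-/

set_option autoImplicit false

open Filter Topology
open scoped Real

noncomputable section

namespace Crest.Agent.R144.Tp952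

theorem posR {x y : ℝ} (h : 0 < x * y) (hx : 0 ≤ x) : 0 < y := by
  by_contra hc
  exact absurd h (not_lt.2 (mul_nonpos_of_nonneg_of_nonpos hx (not_lt.1 hc)))

/-- hypotheses on the density in the sector `a, b > 0` -/
structure Sec (W : ℝ → ℝ → ℝ) (c0 : ℝ) : Prop where
  pos : 0 < c0
  le1 : c0 ≤ 1
  nonneg : ∀ a b, 0 < a → 0 < b → a < c0 → b < c0 → 0 ≤ W a b
  symm : ∀ a b, 0 < a → 0 < b → a < c0 → b < c0 → W b a = W a b
  refl : ∀ a b, 0 < a → a < b → b < c0 → W (b - a) b = W a b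
  frame : ∀ t x y z, 0 < x → x ≤ y → y ≤ z → z < c0 → 0 < x + t → (z + t) / 2 < c0 →
    (sg z - sg y) * (W y ((y + t) / 2) * W z ((z + t) / 2))
      + (sg y - sg x) * (W x ((x + t) / 2) * W y ((y + t) / 2))
      ≤ (sg z - sg x) * (W x ((x + t) / 2) * W z ((z + t) / 2))
  mono : ∀ t x y, 0 < x → x ≤ y → y < c0 → 0 < x + t → (y + t) / 2 < c0 →
    sg x * W x ((x + t) / 2) ≤ sg y * W y ((y + t) / 2)
  anti : ∀ t x y, 0 < x → x ≤ y → y < c0 → 0 < x + t → (y + t) / 2 < c0 →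
    (4 - sg y) * W y ((y + t) / 2) ≤ (4 - sg x) * W x ((x + t) / 2)

/-- `N(k)` in the coordinates `a, b` -/
def MM (a b : ℝ) : ℝ := 4 / 3 * (a ^ 2 - a * b + b ^ 2)

namespace Sec

variable {W : ℝ → ℝ → ℝ} {c0 : ℝ}

/-- values on the axis -/
def F (W : ℝ → ℝ → ℝ) (x : ℝ) : ℝ := sg (2 * x) * W (2 * x) x

theorem sgpos (h : Sec W c0) {x : ℝ} (hx : 0 < x) (hx' : x < c0) : 0 < sg x :=
  sg_pos hx (by linarith [h.le1, Real.pi_gt_three])

theorem sglt (h : Sec W c0) {x y : ℝ} (hx : 0 < x) (hxy : x < y) (hy : y < c0) : sg x < sg y :=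
  sg_strictMono hx.le hxy (by linarith [h.le1, Real.pi_gt_three])

theorem F_mono (h : Sec W c0) {x y : ℝ} (hx : 0 < x) (hxy : x ≤ y) (hy : 2 * y < c0) :
    F W x ≤ F W y := by
  have := h.mono 0 (2 * x) (2 * y) (by linarith) (by linarith) hy (by linarith) (by linarith)
  simpa [F] using this

theorem F_nonneg (h : Sec W c0) {x : ℝ} (hx : 0 < x) (hy : 2 * x < c0) : 0 ≤ F W x :=
  mul_nonneg (sg_nonneg _) (h.nonneg _ _ (by linarith) hx hy (by linarith))

theorem exists_L (h : Sec W c0) : ∃ L : ℝ, 0 ≤ L ∧ (∀ x, 0 < x → 2 * x < c0 → L ≤ F W x) ∧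
    ∀ ε > 0, ∃ x0, 0 < x0 ∧ 2 * x0 < c0 ∧ ∀ x, 0 < x → x ≤ x0 → F W x ≤ L + ε := by
  set S : Set ℝ := F W '' {x | 0 < x ∧ 2 * x < c0} with hS
  have hc := h.pos
  have hne : S.Nonempty := ⟨_, c0 / 4, ⟨by linarith, by linarith⟩, rfl⟩
  have hbd : BddBelow S := ⟨0, by
    rintro _ ⟨x, ⟨h1, h2⟩, rfl⟩; exact h.F_nonneg h1 h2⟩
  refine ⟨sInf S, le_csInf hne (by rintro _ ⟨x, ⟨h1, h2⟩, rfl⟩; exact h.F_nonneg h1 h2),
    fun x h1 h2 => csInf_le hbd ⟨x, ⟨h1, h2⟩, rfl⟩, fun ε hε => ?_⟩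
  obtain ⟨_, ⟨x0, ⟨h1, h2⟩, rfl⟩, h3⟩ := exists_lt_of_csInf_lt hne (lt_add_of_pos_right (sInf S) hε)
  exact ⟨x0, h1, h2, fun x hx hx' => (h.F_mono hx hx' h2).trans h3.le⟩

/-- The far point `(T, (T + 3 t)/2)` compared with the axis point `(T - t, (T - t)/2)`. -/
theorem far_le (h : Sec W c0) {T t : ℝ} (ht : 0 < t) (htT : t < T) (hT : (T + 3 * t) < c0) :
    (4 - sg ((T + 3 * t) / 2)) * (sg (T - t) * W T ((T + 3 * t) / 2)) ≤ 4 * F W ((T - t) / 2) := by
  have hc := h.le1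
  have h1 := h.anti (3 / 2 * (T - t)) ((T - t) / 2) ((T + 3 * t) / 2) (by linarith) (by linarith)
    (by linarith) (by linarith) (by linarith)
  have e1 : ((T + 3 * t) / 2 + 3 / 2 * (T - t)) / 2 = T := by ring
  have e2 : ((T - t) / 2 + 3 / 2 * (T - t)) / 2 = T - t := by ring
  rw [e1, e2] at h1
  rw [h.symm T ((T + 3 * t) / 2) (by linarith) (by linarith) (by linarith) (by linarith)] at h1
  rw [h.symm (T - t) ((T - t) / 2) (by linarith) (by linarith) (by linarith) (by linarith)] at h1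
  have h2 : F W ((T - t) / 2) = sg (T - t) * W (T - t) ((T - t) / 2) := by
    unfold F; rw [show 2 * ((T - t) / 2) = T - t by ring]
  rw [h2]
  have h3 := sg_nonneg (T - t)
  have h4 := sg_nonneg ((T - t) / 2)
  have h5 : 0 ≤ W (T - t) ((T - t) / 2) :=
    h.nonneg _ _ (by linarith) (by linarith) (by linarith) (by linarith)
  calc (4 - sg ((T + 3 * t) / 2)) * (sg (T - t) * W T ((T + 3 * t) / 2))
      = sg (T - t) * ((4 - sg ((T + 3 * t) / 2)) * W T ((T + 3 * t) / 2)) := by ring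
    _ ≤ sg (T - t) * ((4 - sg ((T - t) / 2)) * W (T - t) ((T - t) / 2)) :=
        mul_le_mul_of_nonneg_left h1 h3
    _ ≤ sg (T - t) * (4 * W (T - t) ((T - t) / 2)) := by
        apply mul_le_mul_of_nonneg_left _ h3
        apply mul_le_mul_of_nonneg_right _ h5
        linarith
    _ = _ := by ring

theorem far_pos (h : Sec W c0) {T t : ℝ} (ht : 0 < t) (htT : t < T) (hT : (T + 3 * t) < c0)
    (hF : 0 < F W ((T - t) / 2)) : 0 < W T ((T + 3 * t) / 2) := by
  have h1 := h.mono (3 / 2 * (T - t)) ((T - t) / 2) ((T + 3 * t) / 2) (by linarith) (by linarith)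
    (by linarith) (by linarith) (by linarith)
  have e1 : ((T + 3 * t) / 2 + 3 / 2 * (T - t)) / 2 = T := by ring
  have e2 : ((T - t) / 2 + 3 / 2 * (T - t)) / 2 = T - t := by ring
  rw [e1, e2] at h1
  rw [h.symm T ((T + 3 * t) / 2) (by linarith) (by linarith) (by linarith) (by linarith)] at h1
  rw [h.symm (T - t) ((T - t) / 2) (by linarith) (by linarith) (by linarith) (by linarith)] at h1
  have h2 : F W ((T - t) / 2) = sg (T - t) * W (T - t) ((T - t) / 2) := by
    unfold F; rw [show 2 * ((T - t) / 2) = T - t by ring]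
  rw [h2] at hF
  have h5 : 0 < W (T - t) ((T - t) / 2) := by
    rcases (h.nonneg (T - t) ((T - t) / 2) (by linarith) (by linarith) (by linarith)
      (by linarith)).eq_or_lt with h6 | h6
    · rw [← h6, mul_zero] at hF; exact absurd hF (lt_irrefl _)
    · exact h6
  have h6 : 0 < sg ((T - t) / 2) := h.sgpos (by linarith) (by linarith)
  have h7 : 0 < sg ((T + 3 * t) / 2) * W T ((T + 3 * t) / 2) := lt_of_lt_of_le (mul_pos h6 h5) h1
  exact posR h7 (sg_nonneg _)

/-- bound of the far value -/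
theorem far_bound (h : Sec W c0) {η L' a t : ℝ} (hη : 0 < η) (hη1 : η < 1 / 2) (hL' : 0 ≤ L')
    (ha : 0 < a) (ht : 0 < t) (hta : t ≤ a) (hsm : 5 * a / η < c0) (hsm2 : (5 * a / η) ^ 2 ≤ η)
    (hF : F W ((a / η - t) / 2) ≤ L') :
    sg (a / η) * W (a / η) ((a / η + 3 * t) / 2) * (1 - η) ^ 4 ≤ L' := by
  set T := a / η with hT
  have haT : a = η * T := by rw [hT]; field_simp
  have hT0 : 0 < T := by rw [hT]; positivity
  have htT : t < T := by
    have : η * T < 1 * T := mul_lt_mul_of_pos_right (by linarith) hT0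
    linarith
  have h5 : 5 * a / η = 5 * T := by rw [hT]; ring
  rw [h5] at hsm hsm2
  have hc := h.le1
  have hfar := h.far_le ht htT (by linarith)
  have hW0 : 0 ≤ W T ((T + 3 * t) / 2) :=
    h.nonneg _ _ hT0 (by linarith) (by linarith) (by linarith)
  -- lower bounds
  have hb2 : sg ((T + 3 * t) / 2) ≤ 4 * η := by
    refine (sg_le_sq _).trans ?_
    have : ((T + 3 * t) / 2) ^ 2 ≤ (5 * T) ^ 2 := by
      apply pow_le_pow_left₀ (by linarith); linarith
    linarith
  have hTt : (1 - η) ^ 3 * T ^ 2 ≤ sg (T - t) := by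
    have h1 : |T - t| ≤ 1 := by rw [abs_of_pos (by linarith)]; linarith
    refine le_trans ?_ (sg_ge_sq h1)
    have h2 : (T - t) ^ 2 ≤ η := by
      have : (T - t) ^ 2 ≤ (5 * T) ^ 2 := by
        apply pow_le_pow_left₀ (by linarith); linarith
      linarith
    have h3 : ((1 - η) * T) ^ 2 ≤ (T - t) ^ 2 := by
      apply pow_le_pow_left₀ (mul_nonneg (by linarith) hT0.le)
      nlinarith
    calc (1 - η) ^ 3 * T ^ 2 = (1 - η) * ((1 - η) * T) ^ 2 := by ring
      _ ≤ (1 - (T - t) ^ 2) * (T - t) ^ 2 := by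
        apply mul_le_mul (by linarith) h3 (by positivity) (by linarith)
  have hsT : sg T ≤ T ^ 2 := sg_le_sq T
  have hA : 4 * (1 - η) * (sg (T - t) * W T ((T + 3 * t) / 2)) ≤ 4 * L' := by
    refine le_trans ?_ (hfar.trans (by linarith))
    apply mul_le_mul_of_nonneg_right _ (mul_nonneg (sg_nonneg _) hW0)
    linarith
  have hB : (1 - η) * ((1 - η) ^ 3 * T ^ 2 * W T ((T + 3 * t) / 2)) ≤ L' := by
    have h1 : (1 - η) ^ 3 * T ^ 2 * W T ((T + 3 * t) / 2) ≤ sg (T - t) * W T ((T + 3 * t) / 2) :=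
      mul_le_mul_of_nonneg_right hTt hW0
    have h2 := mul_le_mul_of_nonneg_left h1 (show (0 : ℝ) ≤ 1 - η by linarith)
    linarith
  calc sg T * W T ((T + 3 * t) / 2) * (1 - η) ^ 4
      ≤ T ^ 2 * W T ((T + 3 * t) / 2) * (1 - η) ^ 4 := by
        apply mul_le_mul_of_nonneg_right _ (by positivity)
        exact mul_le_mul_of_nonneg_right hsT hW0
    _ = (1 - η) * ((1 - η) ^ 3 * T ^ 2 * W T ((T + 3 * t) / 2)) := by ring
    _ ≤ L' := hB

/-- value on the axis `(t, 2t)` -/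
theorem axis_val (h : Sec W c0) {t : ℝ} (ht : 0 < t) (ht' : 2 * t < c0) :
    sg (2 * t) * W t (2 * t) = F W t := by
  unfold F
  rw [h.symm (2 * t) t (by linarith) ht ht' (by linarith)]

set_option maxHeartbeats 1000000 in
/-- **upper bound** -/
theorem upper (h : Sec W c0) {η L' a t : ℝ} (hη : 0 < η) (hη1 : η < 1 / 4) (hL' : 0 ≤ L')
    (ha : 0 < a) (ht : 0 < t) (hta : t ≤ a) (hsm : 5 * a / η < c0) (hsm2 : (5 * a / η) ^ 2 ≤ η)
    (hF : F W ((a / η - t) / 2) ≤ L') (hF0 : F W t ≤ L') :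
    (a ^ 2 + 3 * t ^ 2) * W a ((a + 3 * t) / 2) * ((1 - η) ^ 4 * (1 - 4 / 3 * (η + 2 * η ^ 2))) ≤ L' := by
  have hfb := h.far_bound hη (by linarith) hL' ha ht hta hsm hsm2 hF
  set T := a / η with hT
  have haT : a = η * T := by rw [hT]; field_simp
  have hT0 : 0 < T := by rw [hT]; positivity
  have h5 : 5 * a / η = 5 * T := by rw [hT]; ring
  rw [h5] at hsm hsm2
  have hc := h.le1
  have haT' : a < T := by nlinarith
  set w0 := W t (2 * t) with hw0
  set w1 := W a ((a + 3 * t) / 2) with hw1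
  set w2 := W T ((T + 3 * t) / 2) with hw2
  have hw1n : 0 ≤ w1 := h.nonneg _ _ ha (by linarith) (by linarith) (by linarith)
  have hw0n : 0 ≤ w0 := h.nonneg _ _ ht (by linarith) (by linarith) (by linarith)
  have hw2n : 0 ≤ w2 := h.nonneg _ _ hT0 (by linarith) (by linarith) (by linarith)
  have hfr := h.frame (3 * t) t a T ht hta haT'.le (by linarith) (by linarith) (by linarith)
  rw [show (t + 3 * t) / 2 = 2 * t by ring] at hfr
  rw [← hw0, ← hw1, ← hw2] at hfr
  have hax := h.axis_val ht (by linarith)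
  rw [← hw0] at hax
  have hs21 : 0 < sg T - sg a := sub_pos.2 (h.sglt ha haT' (by linarith))
  have hs10 : 0 ≤ sg a - sg t := sub_nonneg.2 (sg_mono ht.le hta (by linarith [Real.pi_gt_three]))
  have hs2 : 0 < sg T := h.sgpos hT0 (by linarith)
  have hs0 : 0 < sg t := h.sgpos ht (by linarith)
  -- bounds of the sg's
  have hτ : ∀ x, 0 < x → x ≤ 5 * T → (1 - η) * x ^ 2 ≤ sg x := by
    intro x hx hx'
    have h1 : |x| ≤ 1 := by rw [abs_of_pos hx]; linarith
    refine le_trans ?_ (sg_ge_sq h1)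
    have h2 : x ^ 2 ≤ η := by
      have : x ^ 2 ≤ (5 * T) ^ 2 := pow_le_pow_left₀ hx.le hx' 2
      linarith
    exact mul_le_mul_of_nonneg_right (by linarith) (sq_nonneg _)
  have hb1 : sg a ≤ 2 * η ^ 2 * sg T := by
    have h1 : sg a ≤ η ^ 2 * T ^ 2 := by
      refine (sg_le_sq a).trans ?_
      rw [haT]; nlinarith
    have h2 := hτ T hT0 (by linarith)
    have h3 : T ^ 2 ≤ 2 * sg T := by nlinarith [sq_nonneg T]
    nlinarith [sq_nonneg η]
  have hb2 : (1 - η) * (4 * t ^ 2) ≤ sg (2 * t) := by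
    have := hτ (2 * t) (by linarith) (by linarith)
    linarith [this, show (1 - η) * (2 * t) ^ 2 = (1 - η) * (4 * t ^ 2) by ring]
  have hb3 : (1 - η) * a ^ 2 ≤ sg a := hτ a ha (by linarith)
  have hb4 : sg t ≤ t ^ 2 := sg_le_sq t
  have hP : (0 : ℝ) ≤ (1 - η) ^ 4 := by positivity
  -- multiply the frame inequality
  have key : w1 * ((sg T - sg a) * sg (2 * t) + (sg a - sg t) * sg T) * (1 - η) ^ 4 ≤ L' * sg T := by
    rcases hw1n.eq_or_lt with hz | hw1p
    · rw [← hz]; simp only [zero_mul]; exact mul_nonneg hL' hs2.le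
    have hm := h.mono (3 * t) a T ha haT'.le (by linarith) (by linarith) (by linarith)
    rw [← hw1, ← hw2] at hm
    have hw2p : 0 < w2 := by
      have h1 : 0 < sg T * w2 := lt_of_lt_of_le (mul_pos (h.sgpos ha (by linarith)) hw1p) hm
      exact posR h1 hs2.le
    have hw0p : 0 < w0 := by
      rcases hw0n.eq_or_lt with hz | hp
      · exfalso
        rw [← hz] at hfr
        simp only [zero_mul, mul_zero, add_zero] at hfr
        have := mul_pos hs21 (mul_pos hw1p hw2p)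
        linarith
      · exact hp
    -- `w1 ((s2-s1)/w0 + (s1-s0)/w2) ≤ s2 - s0`
    have h1 : w1 * ((sg T - sg a) / w0 + (sg a - sg t) / w2) ≤ sg T := by
      have h2 : w1 * ((sg T - sg a) / w0 + (sg a - sg t) / w2)
          = ((sg T - sg a) * (w1 * w2) + (sg a - sg t) * (w0 * w1)) / (w0 * w2) := by
        field_simp
      rw [h2, div_le_iff₀ (mul_pos hw0p hw2p)]
      refine hfr.trans ?_
      apply mul_le_mul_of_nonneg_right _ (mul_pos hw0p hw2p).le
      linarith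
    have h3 : sg (2 * t) * (1 - η) ^ 4 ≤ L' / w0 := by
      rw [le_div_iff₀ hw0p]
      have h4 : (1 - η) ^ 4 ≤ 1 := pow_le_one₀ (by linarith) (by linarith)
      calc sg (2 * t) * (1 - η) ^ 4 * w0 = F W t * (1 - η) ^ 4 := by rw [← hax]; ring
        _ ≤ F W t * 1 := mul_le_mul_of_nonneg_left h4 (h.F_nonneg ht (by linarith))
        _ ≤ L' := by linarith
    have h5' : sg T * (1 - η) ^ 4 ≤ L' / w2 := by
      rw [le_div_iff₀ hw2p]
      linarith [hfb]
    calc w1 * ((sg T - sg a) * sg (2 * t) + (sg a - sg t) * sg T) * (1 - η) ^ 4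
        = w1 * ((sg T - sg a) * (sg (2 * t) * (1 - η) ^ 4)
            + (sg a - sg t) * (sg T * (1 - η) ^ 4)) := by ring
      _ ≤ w1 * ((sg T - sg a) * (L' / w0) + (sg a - sg t) * (L' / w2)) := by
          apply mul_le_mul_of_nonneg_left _ hw1n
          exact add_le_add (mul_le_mul_of_nonneg_left h3 hs21.le)
            (mul_le_mul_of_nonneg_left h5' hs10)
      _ = L' * (w1 * ((sg T - sg a) / w0 + (sg a - sg t) / w2)) := by ring
      _ ≤ L' * sg T := mul_le_mul_of_nonneg_left h1 hL'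
  -- lower bound of the bracket
  have hbr : sg T * ((1 - 4 / 3 * (η + 2 * η ^ 2)) * (a ^ 2 + 3 * t ^ 2))
      ≤ (sg T - sg a) * sg (2 * t) + (sg a - sg t) * sg T := by
    have h1 : sg T * (1 - 2 * η ^ 2) ≤ sg T - sg a := by linarith
    have h2 : sg T * (1 - 2 * η ^ 2) * sg (2 * t) ≤ (sg T - sg a) * sg (2 * t) :=
      mul_le_mul_of_nonneg_right h1 (sg_nonneg _)
    have h3 : sg T * ((1 - 2 * η ^ 2) * ((1 - η) * (4 * t ^ 2))) ≤ sg T * (1 - 2 * η ^ 2) * sg (2 * t) := by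
      rw [mul_assoc]
      apply mul_le_mul_of_nonneg_left _ hs2.le
      apply mul_le_mul_of_nonneg_left hb2
      nlinarith
    have h4 : sg T * ((1 - η) * a ^ 2 - t ^ 2) ≤ (sg a - sg t) * sg T := by
      rw [mul_comm (sg a - sg t)]
      exact mul_le_mul_of_nonneg_left (by linarith) hs2.le
    have h6 : (1 - 4 / 3 * (η + 2 * η ^ 2)) * (a ^ 2 + 3 * t ^ 2)
        ≤ (1 - 2 * η ^ 2) * ((1 - η) * (4 * t ^ 2)) + ((1 - η) * a ^ 2 - t ^ 2) := by
      have e : (1 - 2 * η ^ 2) * ((1 - η) * (4 * t ^ 2)) + ((1 - η) * a ^ 2 - t ^ 2)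
          - (1 - 4 / 3 * (η + 2 * η ^ 2)) * (a ^ 2 + 3 * t ^ 2)
          = (1 / 3 * η + 8 / 3 * η ^ 2) * a ^ 2 + 8 * η ^ 3 * t ^ 2 := by ring
      have : 0 ≤ (1 / 3 * η + 8 / 3 * η ^ 2) * a ^ 2 + 8 * η ^ 3 * t ^ 2 := by positivity
      linarith
    have h7 := mul_le_mul_of_nonneg_left h6 hs2.le
    linarith
  have hfin : sg T * ((a ^ 2 + 3 * t ^ 2) * w1 * ((1 - η) ^ 4 * (1 - 4 / 3 * (η + 2 * η ^ 2))))
      ≤ sg T * L' := by
    have h1 := mul_le_mul_of_nonneg_right (mul_le_mul_of_nonneg_left hbr hw1n) hP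
    calc sg T * ((a ^ 2 + 3 * t ^ 2) * w1 * ((1 - η) ^ 4 * (1 - 4 / 3 * (η + 2 * η ^ 2))))
        = w1 * (sg T * ((1 - 4 / 3 * (η + 2 * η ^ 2)) * (a ^ 2 + 3 * t ^ 2))) * (1 - η) ^ 4 := by ring
      _ ≤ _ := h1
      _ ≤ L' * sg T := key
      _ = _ := by ring
  exact le_of_mul_le_mul_left hfin hs2

set_option maxHeartbeats 1000000 in
/-- **lower bound**, at a point `(x, (x + 3 t)/2)` with `x ≤ t` -/
theorem lower (h : Sec W c0) {η L L' x t : ℝ} (hη : 0 < η) (hη1 : η < 1 / 4) (hL : 0 < L)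
    (hLL : L ≤ L') (hx : 0 < x) (hxt : x ≤ t) (hsm : 5 * t / η < c0)
    (hsm2 : (5 * t / η) ^ 2 ≤ η)
    (hF : F W ((t / η - t) / 2) ≤ L') (hFL : L ≤ F W ((t / η - t) / 2)) (hF0 : L ≤ F W t) :
    L * (1 - 2 * η ^ 2) ≤ (x ^ 2 + 3 * t ^ 2) * W x ((x + 3 * t) / 2)
      * (1 + (1 - L / L' * (1 - η) ^ 5) / 3) := by
  have ht : 0 < t := hx.trans_le hxt
  have hL'0 : 0 < L' := hL.trans_le hLL
  have hfb := h.far_bound hη (by linarith) hL'0.le ht ht le_rfl hsm hsm2 hF
  set T := t / η with hT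
  have htT : t = η * T := by rw [hT]; field_simp
  have hT0 : 0 < T := by rw [hT]; positivity
  have h5 : 5 * t / η = 5 * T := by rw [hT]; ring
  rw [h5] at hsm hsm2
  have hc := h.le1
  have htT' : t < T := by nlinarith
  have hw2p := h.far_pos ht htT' (by linarith) (hL.trans_le hFL)
  set w0 := W t (2 * t) with hw0
  set w1 := W x ((x + 3 * t) / 2) with hw1
  set w2 := W T ((T + 3 * t) / 2) with hw2
  have hw1n : 0 ≤ w1 := h.nonneg _ _ hx (by linarith) (by linarith) (by linarith)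
  have hfr := h.frame (3 * t) x t T hx hxt htT'.le (by linarith) (by linarith) (by linarith)
  rw [show (t + 3 * t) / 2 = 2 * t by ring] at hfr
  rw [← hw0, ← hw1, ← hw2] at hfr
  have hax := h.axis_val ht (by linarith)
  rw [← hw0] at hax
  have hs2 : 0 < sg T := h.sgpos hT0 (by linarith)
  have hs2t : 0 < sg (2 * t) := h.sgpos (by linarith) (by linarith)
  have hw0p : 0 < w0 := by
    have h1 : 0 < sg (2 * t) * w0 := by rw [hax]; linarith
    exact posR h1 hs2t.le
  have hτ : ∀ y, 0 < y → y ≤ 5 * T → (1 - η) * y ^ 2 ≤ sg y := by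
    intro y hy hy'
    have h1 : |y| ≤ 1 := by rw [abs_of_pos hy]; linarith
    refine le_trans ?_ (sg_ge_sq h1)
    have h2 : y ^ 2 ≤ η := by
      have : y ^ 2 ≤ (5 * T) ^ 2 := pow_le_pow_left₀ hy.le hy' 2
      linarith
    exact mul_le_mul_of_nonneg_right (by linarith) (sq_nonneg _)
  have hb1 : sg t ≤ 2 * η ^ 2 * sg T := by
    have h1 : sg t ≤ η ^ 2 * T ^ 2 := by
      refine (sg_le_sq t).trans ?_
      rw [htT]; nlinarith
    have h2 := hτ T hT0 (by linarith)
    have h3 : T ^ 2 ≤ 2 * sg T := by nlinarith [sq_nonneg T]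
    nlinarith [sq_nonneg η]
  have hb3 : (1 - η) * t ^ 2 ≤ sg t := hτ t ht (by linarith)
  have hb4 : sg x ≤ x ^ 2 := sg_le_sq x
  have hb5 : sg (2 * t) ≤ 4 * t ^ 2 := by
    have := sg_le_sq (2 * t); linarith [this, show (2 * t) ^ 2 = 4 * t ^ 2 by ring]
  have hxt' : 0 ≤ sg t - sg x := sub_nonneg.2 (sg_mono hx.le hxt (by linarith [Real.pi_gt_three]))
  -- `s2 - s_t ≤ w1 ((s2 - s_x)/w0 - (s_t - s_x)/w2)`
  have h1 : sg T - sg t ≤ w1 * ((sg T - sg x) / w0 - (sg t - sg x) / w2) := by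
    have h2 : w1 * ((sg T - sg x) / w0 - (sg t - sg x) / w2)
        = ((sg T - sg x) * (w1 * w2) - (sg t - sg x) * (w1 * w0)) / (w0 * w2) := by
      field_simp
    rw [h2, le_div_iff₀ (mul_pos hw0p hw2p)]
    linarith
  have h3 : (sg T - sg x) / w0 ≤ sg T * (4 * t ^ 2) / L := by
    rw [div_le_div_iff₀ hw0p hL]
    have h4 : L ≤ sg (2 * t) * w0 := by rw [hax]; exact hF0
    have h6 : sg (2 * t) * w0 ≤ 4 * t ^ 2 * w0 := mul_le_mul_of_nonneg_right hb5 hw0p.le
    have h7 : (sg T - sg x) ≤ sg T := by linarith [sg_nonneg x]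
    calc (sg T - sg x) * L ≤ sg T * L := mul_le_mul_of_nonneg_right h7 hL.le
      _ ≤ sg T * (4 * t ^ 2 * w0) := mul_le_mul_of_nonneg_left (by linarith) hs2.le
      _ = _ := by ring
  set q := L / L' * (1 - η) ^ 4 with hq
  have hq0 : 0 ≤ q := by rw [hq]; positivity
  have hq1 : q ≤ 1 := by
    rw [hq]
    have h6 : L / L' ≤ 1 := (div_le_one hL'0).2 hLL
    have h7 : (1 - η) ^ 4 ≤ 1 := pow_le_one₀ (by linarith) (by linarith)
    have h8 : 0 ≤ (1 - η) ^ 4 := by positivity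
    calc L / L' * (1 - η) ^ 4 ≤ 1 * 1 := mul_le_mul h6 h7 h8 (by norm_num)
      _ = 1 := one_mul 1
  have h4 : sg T * (q * (sg t - sg x)) / L ≤ (sg t - sg x) / w2 := by
    rw [div_le_div_iff₀ hL hw2p, hq]
    have h6 : sg T * w2 * (1 - η) ^ 4 ≤ L' := hfb
    have h7 : L / L' * (sg T * w2 * (1 - η) ^ 4) ≤ L := by
      calc L / L' * (sg T * w2 * (1 - η) ^ 4) ≤ L / L' * L' :=
            mul_le_mul_of_nonneg_left h6 (by positivity)
        _ = L := by field_simp
    have h8 := mul_le_mul_of_nonneg_right h7 hxt'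
    calc sg T * (L / L' * (1 - η) ^ 4 * (sg t - sg x)) * w2
        = L / L' * (sg T * w2 * (1 - η) ^ 4) * (sg t - sg x) := by ring
      _ ≤ L * (sg t - sg x) := h8
      _ = _ := by ring
  have h6 : sg T - sg t ≤ w1 * (sg T * (4 * t ^ 2) / L - sg T * (q * (sg t - sg x)) / L) := by
    refine h1.trans (mul_le_mul_of_nonneg_left ?_ hw1n)
    linarith
  have h7 : L * (sg T - sg t) ≤ w1 * sg T * (4 * t ^ 2 - q * (sg t - sg x)) := by
    have := mul_le_mul_of_nonneg_left h6 hL.le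
    calc L * (sg T - sg t) ≤ L * (w1 * (sg T * (4 * t ^ 2) / L - sg T * (q * (sg t - sg x)) / L)) := this
      _ = _ := by field_simp
  have h8 : 4 * t ^ 2 - q * (sg t - sg x)
      ≤ (x ^ 2 + 3 * t ^ 2) * (1 + (1 - L / L' * (1 - η) ^ 5) / 3) := by
    have h9 : q * ((1 - η) * t ^ 2 - x ^ 2) ≤ q * (sg t - sg x) :=
      mul_le_mul_of_nonneg_left (by linarith) hq0
    have h10 : q * x ^ 2 ≤ x ^ 2 := by nlinarith [sq_nonneg x]
    have e : L / L' * (1 - η) ^ 5 = q * (1 - η) := by rw [hq]; ring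
    rw [e]
    have h11 : q * (1 - η) ≤ 1 := by nlinarith
    have h12 : 0 ≤ (1 - q * (1 - η)) * x ^ 2 := mul_nonneg (by linarith) (sq_nonneg _)
    nlinarith
  have h9 : sg T * (L * (1 - 2 * η ^ 2)) ≤ sg T * ((x ^ 2 + 3 * t ^ 2) * w1
      * (1 + (1 - L / L' * (1 - η) ^ 5) / 3)) := by
    have hq1 := mul_le_mul_of_nonneg_left hb1 hL.le
    calc sg T * (L * (1 - 2 * η ^ 2)) ≤ L * (sg T - sg t) := by linarith
      _ ≤ w1 * sg T * (4 * t ^ 2 - q * (sg t - sg x)) := h7
      _ ≤ w1 * sg T * ((x ^ 2 + 3 * t ^ 2) * (1 + (1 - L / L' * (1 - η) ^ 5) / 3)) :=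
          mul_le_mul_of_nonneg_left h8 (mul_nonneg hw1n hs2.le)
      _ = _ := by ring
  exact le_of_mul_le_mul_left h9 hs2

set_option maxHeartbeats 1000000 in
/-- **The sector theorem**: `M W → L` on the wedge `a < b < 2 a`. -/
theorem limit (h : Sec W c0) : ∃ L : ℝ, 0 ≤ L ∧ ∀ ε > 0, ∃ δ > 0, ∀ a b, 0 < a → a < b → b < 2 * a →
    a < δ → |MM a b * W a b - L| ≤ ε := by
  obtain ⟨L, hL0, hLle, hLε⟩ := h.exists_L
  refine ⟨L, hL0, fun ε hε => ?_⟩
  -- choice of `η`
  have hup : Tendsto (fun η : ℝ => (L + η) / ((1 - η) ^ 4 * (1 - 4 / 3 * (η + 2 * η ^ 2)))) (𝓝[>] 0) (𝓝 L) := by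
    have h1 : ContinuousAt (fun η : ℝ => (L + η) / ((1 - η) ^ 4 * (1 - 4 / 3 * (η + 2 * η ^ 2)))) 0 := by
      apply ContinuousAt.div (by fun_prop) (by fun_prop)
      norm_num
    have h2 := h1.tendsto
    simp only [add_zero, sub_zero, one_pow, ne_eq, OfNat.ofNat_ne_zero, not_false_eq_true, zero_pow,
      mul_zero, mul_one, div_one] at h2
    exact h2.mono_left nhdsWithin_le_nhds
  have hE1 : ∀ᶠ η in 𝓝[>] (0 : ℝ), (L + η) / ((1 - η) ^ 4 * (1 - 4 / 3 * (η + 2 * η ^ 2))) < L + ε :=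
    hup.eventually (gt_mem_nhds (by linarith))
  have hE2 : ∀ᶠ η in 𝓝[>] (0 : ℝ), η < 1 / 4 :=
    (tendsto_id.mono_left nhdsWithin_le_nhds).eventually (gt_mem_nhds (by norm_num))
  have hE3 : ∀ᶠ η in 𝓝[>] (0 : ℝ), 0 < L →
      L - ε < L * (1 - 2 * η ^ 2) / (1 + (1 - L / (L + η) * (1 - η) ^ 5) / 3) := by
    rcases hL0.eq_or_lt with hz | hLp
    · filter_upwards with η h1
      rw [← hz] at h1; exact absurd h1 (lt_irrefl _)
    · have h1 : ContinuousAt (fun η : ℝ => L * (1 - 2 * η ^ 2) / (1 + (1 - L / (L + η) * (1 - η) ^ 5) / 3)) 0 := by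
        apply ContinuousAt.div (by fun_prop)
        · have : ContinuousAt (fun η : ℝ => L / (L + η)) 0 :=
            ContinuousAt.div (by fun_prop) (by fun_prop) (by simpa using hLp.ne')
          fun_prop
        · simp only [add_zero, sub_zero, one_pow, mul_one]
          rw [div_self hLp.ne']; norm_num
      have h2 := h1.tendsto
      simp only [add_zero, sub_zero, one_pow, mul_one, ne_eq, OfNat.ofNat_ne_zero,
        not_false_eq_true, zero_pow, mul_zero] at h2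
      rw [div_self hLp.ne', sub_self, zero_div, add_zero, div_one] at h2
      have h2' : Tendsto (fun η : ℝ => L * (1 - 2 * η ^ 2) / (1 + (1 - L / (L + η) * (1 - η) ^ 5) / 3))
          (𝓝[>] 0) (𝓝 L) := h2.mono_left nhdsWithin_le_nhds
      have h3 := h2'.eventually (lt_mem_nhds (show L - ε < L by linarith))
      filter_upwards [h3] with η h4 _
      exact h4
  have hE4 : ∀ᶠ η in 𝓝[>] (0 : ℝ), 0 < η := eventually_mem_nhdsWithin
  obtain ⟨η, ⟨⟨h1, h2⟩, h3⟩, h4⟩ := ((hE1.and hE2).and hE3).and hE4 |>.exists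
  obtain ⟨x0, hx0, hx0', hFx⟩ := hLε η h4
  -- smallness
  obtain ⟨δ, hδ, hδ'⟩ : ∃ δ > 0, ∀ a, 0 < a → a < δ → 5 * a / η < c0 ∧ (5 * a / η) ^ 2 ≤ η ∧
      a / η < x0 := by
    have hη' : 0 < Real.sqrt η := Real.sqrt_pos.2 h4
    refine ⟨min (η * c0 / 5) (min (η * Real.sqrt η / 5) (η * x0)), ?_, ?_⟩
    · have := h.pos
      apply lt_min (by positivity) (lt_min (by positivity) (by positivity))
    · intro a ha ha'
      have ha1 := lt_of_lt_of_le ha' (min_le_left _ _)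
      have ha2 := lt_of_lt_of_le ha' ((min_le_right _ _).trans (min_le_left _ _))
      have ha3 := lt_of_lt_of_le ha' ((min_le_right _ _).trans (min_le_right _ _))
      refine ⟨?_, ?_, ?_⟩
      · rw [div_lt_iff₀ h4]; nlinarith
      · have : 5 * a / η ≤ Real.sqrt η := by
          rw [div_le_iff₀ h4]; nlinarith
        calc (5 * a / η) ^ 2 ≤ (Real.sqrt η) ^ 2 := pow_le_pow_left₀ (by positivity) this 2
          _ = η := Real.sq_sqrt h4.le
      · rw [div_lt_iff₀ h4]; nlinarith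
  refine ⟨δ, hδ, fun a b ha hab hba haδ => ?_⟩
  obtain ⟨hs1, hs2, hs3⟩ := hδ' a ha haδ
  have hden : 0 < (1 - η) ^ 4 * (1 - 4 / 3 * (η + 2 * η ^ 2)) := by
    have e1 : 0 < 1 - η := by linarith
    have e2 : 0 < 1 - 4 / 3 * (η + 2 * η ^ 2) := by nlinarith
    positivity
  have haη : 4 * a < a / η := by
    rw [lt_div_iff₀ h4]; nlinarith
  have hac : 20 * a < c0 := by
    have : 5 * (4 * a) < 5 * (a / η) := by linarith
    have e : 5 * a / η = 5 * (a / η) := by ring
    linarith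
  -- upper
  have hU : MM a b * W a b ≤ L + ε := by
    have ht : 0 < (2 * b - a) / 3 := by linarith
    have htx : (2 * b - a) / 3 ≤ x0 := by linarith
    have hu := h.upper (L' := L + η) (t := (2 * b - a) / 3) h4 h2 (by linarith) ha ht (by linarith)
      hs1 hs2 (hFx _ (by linarith) (by linarith)) (hFx _ ht htx)
    rw [show (a + 3 * ((2 * b - a) / 3)) / 2 = b by ring] at hu
    rw [show a ^ 2 + 3 * ((2 * b - a) / 3) ^ 2 = MM a b by unfold MM; ring] at hu
    have := (le_div_iff₀ hden).2 hu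
    linarith
  -- lower
  have hLo : L - ε ≤ MM a b * W a b := by
    rcases hL0.eq_or_lt with hz | hLp
    · rw [← hz]
      have hM : 0 ≤ MM a b := by
        unfold MM; nlinarith [sq_nonneg (a - b), sq_nonneg a, sq_nonneg b]
      have := mul_nonneg hM (h.nonneg a b ha (by linarith) (by linarith) (by linarith))
      linarith
    · have hx : 0 < b - a := by linarith
      set t := (a + b) / 3 with ht
      have ht0 : 0 < t := by rw [ht]; linarith
      have hxt : b - a ≤ t := by rw [ht]; linarith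
      have hta : t ≤ a := by rw [ht]; linarith
      have hdiv : t / η ≤ a / η := by gcongr
      have h4t : 4 * t < t / η := by
        rw [lt_div_iff₀ h4]; nlinarith
      have e5 : 5 * t / η = 5 * (t / η) := by ring
      have e5a : 5 * a / η = 5 * (a / η) := by ring
      have hlo := h.lower (L' := L + η) (x := b - a) (t := t) h4 h2 hLp (by linarith) hx hxt
        (by rw [e5]; rw [e5a] at hs1; linarith)
        (by
          refine le_trans (pow_le_pow_left₀ (by positivity) ?_ 2) hs2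
          rw [e5, e5a]; linarith)
        (hFx _ (by linarith) (by linarith))
        (hLle _ (by linarith) (by linarith)) (hLle _ ht0 (by linarith))
      rw [show (b - a + 3 * t) / 2 = b by rw [ht]; ring] at hlo
      rw [show (b - a) ^ 2 + 3 * t ^ 2 = MM a b by unfold MM; rw [ht]; ring] at hlo
      rw [h.refl a b ha hab (by linarith)] at hlo
      have hD : 0 < 1 + (1 - L / (L + η) * (1 - η) ^ 5) / 3 := by
        have e1 : L / (L + η) ≤ 1 := (div_le_one (by linarith)).2 (by linarith)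
        have e2 : (1 - η) ^ 5 ≤ 1 := pow_le_one₀ (by linarith) (by linarith)
        have e3 : 0 ≤ (1 - η) ^ 5 := pow_nonneg (by linarith) _
        have e4 : L / (L + η) * (1 - η) ^ 5 ≤ 1 * 1 := mul_le_mul e1 e2 e3 (by norm_num)
        linarith
      have h5 := h3 hLp
      rw [lt_div_iff₀ hD] at h5
      have h6 : (L - ε) * (1 + (1 - L / (L + η) * (1 - η) ^ 5) / 3)
          ≤ MM a b * W a b * (1 + (1 - L / (L + η) * (1 - η) ^ 5) / 3) := by linarith
      exact le_of_mul_le_mul_right h6 hD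
  rw [abs_le]
  constructor <;> linarith

end Sec

end Crest.Agent.R144.Tp952
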