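import Crest.Agent.R144.Tp2_952

/-!
# R144, block TP, helper952: uniform bounds for the regularised densities

* `Wn U n a b` : density in the sector coordinates; symmetries, `Sec` for every `n`;
* `Reg.infra` : `s(a) W n a b ≤ C` uniformly in `n`;
* `Reg.equi` : equicontinuity in the open sector.
-/

set_option autoImplicit false

open Filter Topology MeasureTheory
open scoped Real BigOperators

noncomputable section

namespace Crest.Agent.R144.Tp952

/-- densities in the sector coordinates `a = k2 - k1/2`, `b = k2/2 - k1` -/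
def Wn (U : ℕ → ℝ → ℝ → ℝ) (n : ℕ) (a b : ℝ) : ℝ := U n ((2 * a - 4 * b) / 3) ((4 * a - 2 * b) / 3)

/-- the quadratic form -/
def NN (k1 k2 : ℝ) : ℝ := k1 ^ 2 - k1 * k2 + k2 ^ 2

theorem NN_coord (a b : ℝ) : NN ((2 * a - 4 * b) / 3) ((4 * a - 2 * b) / 3) = MM a b := by
  unfold NN MM; ring

theorem MM_ge_left (a b : ℝ) : a ^ 2 ≤ MM a b := by
  unfold MM; nlinarith [sq_nonneg (a - 2 * b)]

theorem MM_ge_right (a b : ℝ) : b ^ 2 ≤ MM a b := by
  unfold MM; nlinarith [sq_nonneg (2 * a - b)]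

variable {V : ℤ × ℤ → ℝ} {U : ℕ → ℝ → ℝ → ℝ}

namespace Reg

theorem W_nonneg (h : Reg V U) (n : ℕ) (a b : ℝ) : 0 ≤ Wn U n a b := h.nonneg _ _ _

theorem W_symm (h : Reg V U) (n : ℕ) (a b : ℝ) : Wn U n b a = Wn U n a b := by
  unfold Wn
  rw [← h.neg, h.swap]
  congr 1 <;> ring

theorem W_neg (h : Reg V U) (n : ℕ) (a b : ℝ) : Wn U n (-a) (-b) = Wn U n a b := by
  unfold Wn
  rw [← h.neg]
  congr 1 <;> ring

theorem W_refl (h : Reg V U) (n : ℕ) (a b : ℝ) : Wn U n (b - a) b = Wn U n a b := by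
  unfold Wn
  rw [← h.swap, ← h.theta, ← h.neg, h.swap]
  congr 1 <;> ring

theorem W_line (U : ℕ → ℝ → ℝ → ℝ) (n : ℕ) (t x : ℝ) :
    Wn U n x ((x + t) / 2) = U n (-(2 * t) / 3) (x + (-(2 * t) / 3) / 2) := by
  unfold Wn
  congr 1 <;> ring

theorem cont_line (h : Reg V U) (n : ℕ) (p : ℝ) : Continuous (fun φ => U n p (φ + p / 2)) :=
  (h.cont n).comp (f := fun φ : ℝ => ((p, φ + p / 2) : ℝ × ℝ)) (by fun_prop)

theorem W_frame (h : Reg V U) (n : ℕ) (t x y z : ℝ) (hx : 0 ≤ x) (hxy : x ≤ y) (hyz : y ≤ z)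
    (hz : z ≤ π) :
    (sg z - sg y) * (Wn U n y ((y + t) / 2) * Wn U n z ((z + t) / 2))
      + (sg y - sg x) * (Wn U n x ((x + t) / 2) * Wn U n y ((y + t) / 2))
      ≤ (sg z - sg x) * (Wn U n x ((x + t) / 2) * Wn U n z ((z + t) / 2)) := by
  simp only [W_line]
  exact h.frame n (-(2 * t) / 3) x y z hx hxy hyz hz

theorem W_mono (h : Reg V U) (n : ℕ) (t x y : ℝ) (hx : 0 < x) (hxy : x ≤ y) (hy : y ≤ π) :
    sg x * Wn U n x ((x + t) / 2) ≤ sg y * Wn U n y ((y + t) / 2) := by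
  simp only [W_line]
  exact frame_mono (h.frame n (-(2 * t) / 3)) (h.cont_line n _) (fun _ => h.nonneg _ _ _) hx hxy hy

theorem W_anti (h : Reg V U) (n : ℕ) (t x y : ℝ) (hx : 0 ≤ x) (hxy : x ≤ y) (hy : y < π) :
    (4 - sg y) * Wn U n y ((y + t) / 2) ≤ (4 - sg x) * Wn U n x ((x + t) / 2) := by
  simp only [W_line]
  exact frame_anti (h.frame n (-(2 * t) / 3)) (h.cont_line n _) (fun _ => h.nonneg _ _ _) hx hxy hy

/-- frame 2 -/
theorem W_mono2 (h : Reg V U) (n : ℕ) (t x y : ℝ) (hx : 0 < x) (hxy : x ≤ y) (hy : y ≤ π) :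
    sg x * Wn U n ((x + t) / 2) x ≤ sg y * Wn U n ((y + t) / 2) y := by
  rw [h.W_symm, h.W_symm n y]
  exact h.W_mono n t x y hx hxy hy

theorem W_anti2 (h : Reg V U) (n : ℕ) (t x y : ℝ) (hx : 0 ≤ x) (hxy : x ≤ y) (hy : y < π) :
    (4 - sg y) * Wn U n ((y + t) / 2) y ≤ (4 - sg x) * Wn U n ((x + t) / 2) x := by
  rw [h.W_symm, h.W_symm n x]
  exact h.W_anti n t x y hx hxy hy

/-! ### infrared bound -/

/-- sum-rule integrals -/
def S1 (U : ℕ → ℝ → ℝ → ℝ) (n : ℕ) : ℝ := ∫ k1 in (-π)..π, ∫ k2 in (-π)..π, sg k1 * U n k1 k2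

theorem normSq_one_sub_exp (x : ℝ) :
    Complex.normSq (Complex.exp (Complex.I * (x : ℂ)) - 1) = sg x := by
  rw [mul_comm, Complex.exp_mul_I, ← Complex.ofReal_cos, ← Complex.ofReal_sin, Complex.normSq_apply]
  simp only [Complex.sub_re, Complex.add_re, Complex.ofReal_re, Complex.mul_re, Complex.ofReal_im,
    Complex.I_re, Complex.I_im, Complex.one_re, Complex.sub_im, Complex.add_im, Complex.mul_im,
    Complex.one_im]
  unfold sg
  nlinarith [Real.sin_sq_add_cos_sq x]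

/-- the two-point test function `δ_{p} - δ_0` -/
def dd (p : ℤ × ℤ) : ℤ × ℤ → ℝ := fun q => if q = p then 1 else -1

theorem sum_dd {p : ℤ × ℤ} (hp : p ≠ 0) : ∑ q ∈ ({p, 0} : Finset (ℤ × ℤ)), dd p q = 0 := by
  rw [Finset.sum_pair hp]
  simp [dd, hp.symm]

theorem fh_dd {p : ℤ × ℤ} (hp : p ≠ 0) (k1 k2 : ℝ) :
    fh {p, 0} (dd p) k1 k2
      = Complex.exp (Complex.I * (((p.1 : ℝ) * k1 + (p.2 : ℝ) * k2 : ℝ) : ℂ)) - 1 := by
  unfold fh
  rw [Finset.sum_pair hp]
  simp [dd, hp.symm]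
  ring

theorem exists_S_bound (h : Reg V U) : ∃ C : ℝ, 0 ≤ C ∧
    (∀ n, ∫ k1 in (-π)..π, ∫ k2 in (-π)..π, sg k1 * U n k1 k2 ≤ C) ∧
    (∀ n, ∫ k1 in (-π)..π, ∫ k2 in (-π)..π, sg k2 * U n k1 k2 ≤ C) := by
  have h1 := h.lim {((1, 0) : ℤ × ℤ), 0} (dd (1, 0)) (sum_dd (by decide))
  have h2 := h.lim {((0, 1) : ℤ × ℤ), 0} (dd (0, 1)) (sum_dd (by decide))
  obtain ⟨C1, hC1⟩ := h1.bddAbove_range
  obtain ⟨C2, hC2⟩ := h2.bddAbove_range
  have hπ : (0 : ℝ) < (2 * π) ^ 2 := by positivity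
  refine ⟨max 0 (max (C1 * (2 * π) ^ 2) (C2 * (2 * π) ^ 2)), le_max_left _ _, fun n => ?_, fun n => ?_⟩
  · have h3 : _ ≤ C1 := hC1 ⟨n, rfl⟩
    rw [div_le_iff₀ hπ] at h3
    refine le_trans (le_of_eq ?_) (h3.trans ((le_max_left _ _).trans (le_max_right _ _)))
    congr 1; funext k1; congr 1; funext k2
    rw [fh_dd (by decide)]
    have e : (((1, 0) : ℤ × ℤ).1 : ℝ) * k1 + (((1, 0) : ℤ × ℤ).2 : ℝ) * k2 = k1 := by simp
    rw [e, normSq_one_sub_exp]
  · have h3 : _ ≤ C2 := hC2 ⟨n, rfl⟩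
    rw [div_le_iff₀ hπ] at h3
    refine le_trans (le_of_eq ?_) (h3.trans ((le_max_right _ _).trans (le_max_right _ _)))
    congr 1; funext k1; congr 1; funext k2
    rw [fh_dd (by decide)]
    have e : (((0, 1) : ℤ × ℤ).1 : ℝ) * k1 + (((0, 1) : ℤ × ℤ).2 : ℝ) * k2 = k2 := by simp
    rw [e, normSq_one_sub_exp]

/-- pointwise comparison of a point near `0` with all points of a fixed box -/
theorem box_bound (h : Reg V U) (n : ℕ) {a b k1 k2 : ℝ} (ha : 0 < a) (ha' : a < 1 / 10) (hb : 0 < b)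
    (hb' : b < 1 / 10) (h1 : -1 ≤ k1) (h1' : k1 ≤ -(9 / 10)) (h2 : 4 / 5 ≤ k2) (h2' : k2 ≤ 9 / 10) :
    sg a * Wn U n a b ≤ 256 * U n k1 k2 := by
  have hπ := Real.pi_gt_three
  set a' := k2 + (2 * b - a) / 3 with ha1
  set b' := k2 / 2 + (4 * b - 2 * a) / 3 with hb1
  set b'' := k2 / 2 - k1 with hb2
  set a'' := k2 - k1 / 2 with ha2
  have e1 : sg a * Wn U n a b ≤ sg a' * Wn U n a' b' := by
    have := h.W_mono n (2 * b - a) a a' ha (by rw [ha1]; linarith) (by rw [ha1]; linarith)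
    rw [show (a + (2 * b - a)) / 2 = b by ring,
      show (a' + (2 * b - a)) / 2 = b' by rw [ha1, hb1]; ring] at this
    exact this
  have e2 : sg b' * Wn U n a' b' ≤ sg b'' * Wn U n a'' b'' := by
    have := h.W_mono2 n (2 * a' - b') b' b'' (by rw [hb1]; linarith) (by rw [hb1, hb2]; linarith)
      (by rw [hb2]; linarith)
    rw [show (b' + (2 * a' - b')) / 2 = a' by ring,
      show (b'' + (2 * a' - b')) / 2 = a'' by rw [hb2, ha1, hb1, ha2]; ring] at this
    exact this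
  have e3 : Wn U n a'' b'' = U n k1 k2 := by
    unfold Wn
    congr 1
    · rw [ha2, hb2]; ring
    · rw [ha2, hb2]; ring
  have e4 : (1 : ℝ) / 16 ≤ sg b' := by
    have h3 : (3 : ℝ) / 10 ≤ b' := by rw [hb1]; linarith
    have h4 : b' ≤ 1 := by rw [hb1]; linarith
    have h5 : sg (3 / 10) ≤ sg b' := sg_mono (by norm_num) h3 (by linarith)
    have h6 : (1 - (3 / 10 : ℝ) ^ 2) * (3 / 10) ^ 2 ≤ sg (3 / 10) :=
      sg_ge_sq (by rw [abs_of_pos] <;> norm_num)
    refine le_trans ?_ h5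
    refine le_trans ?_ h6
    norm_num
  have hW1 := h.W_nonneg n a' b'
  have hU : 0 ≤ U n k1 k2 := h.nonneg _ _ _
  rw [e3] at e2
  have e5 : 1 / 16 * Wn U n a' b' ≤ 4 * U n k1 k2 := by
    calc 1 / 16 * Wn U n a' b' ≤ sg b' * Wn U n a' b' := mul_le_mul_of_nonneg_right e4 hW1
      _ ≤ sg b'' * U n k1 k2 := e2
      _ ≤ 4 * U n k1 k2 := mul_le_mul_of_nonneg_right (sg_le_four _) hU
  have e6 : sg a' * Wn U n a' b' ≤ 4 * Wn U n a' b' := mul_le_mul_of_nonneg_right (sg_le_four _) hW1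
  linarith

/-- **infrared bound**, uniform in `n` -/
theorem infra (h : Reg V U) : ∃ C : ℝ, 0 < C ∧ ∀ n a b, 0 < a → a < 1 / 10 → 0 < b → b < 1 / 10 →
    sg a * Wn U n a b ≤ C ∧ sg b * Wn U n a b ≤ C := by
  obtain ⟨C0, hC0, hS, -⟩ := h.exists_S_bound
  have hπ := Real.pi_gt_three
  have main : ∀ n a b, 0 < a → a < 1 / 10 → 0 < b → b < 1 / 10 →
      sg a * Wn U n a b ≤ 256 * 1000 * C0 := by
    intro n a b ha ha' hb hb'
    set X := sg a * Wn U n a b with hX
    have hcU : Continuous (fun k : ℝ × ℝ => sg k.1 * U n k.1 k.2) :=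
      (continuous_sg.comp continuous_fst).mul (h.cont n)
    -- inner integral
    have hin : ∀ k1, Continuous (fun k2 => sg k1 * U n k1 k2) := fun k1 =>
      hcU.comp (f := fun k2 : ℝ => ((k1, k2) : ℝ × ℝ)) (by fun_prop)
    have hout : Continuous (fun k1 => ∫ k2 in (-π)..π, sg k1 * U n k1 k2) := by
      apply intervalIntegral.continuous_parametric_intervalIntegral_of_continuous'
      exact hcU
    have hnn : ∀ k1 k2, 0 ≤ sg k1 * U n k1 k2 := fun k1 k2 => mul_nonneg (sg_nonneg _) (h.nonneg _ _ _)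
    -- lower bound of the inner integral
    have hlow : ∀ k1 ∈ Set.Icc (-1 : ℝ) (-(9 / 10)), 1 / 10 * (1 / 8 * (X / 256))
        ≤ ∫ k2 in (-π)..π, sg k1 * U n k1 k2 := by
      intro k1 hk1
      have hsg : (1 : ℝ) / 8 ≤ sg k1 := by
        have e : sg k1 = sg (-k1) := by unfold sg; rw [Real.cos_neg]
        rw [e]
        have h5 : sg (9 / 10) ≤ sg (-k1) := sg_mono (by norm_num) (by linarith [hk1.2]) (by linarith [hk1.1])
        have h6 : (1 - (9 / 10 : ℝ) ^ 2) * (9 / 10) ^ 2 ≤ sg (9 / 10) :=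
          sg_ge_sq (by rw [abs_of_pos] <;> norm_num)
        refine le_trans ?_ (h6.trans h5)
        norm_num
      have h3 : ∫ k2 in (4 / 5 : ℝ)..(9 / 10), (1 / 8 * (X / 256)) ≤ ∫ k2 in (4 / 5 : ℝ)..(9 / 10), sg k1 * U n k1 k2 := by
        apply intervalIntegral.integral_mono_on (by norm_num) (by simp) ((hin k1).intervalIntegrable _ _)
        intro k2 hk2
        have h4 := h.box_bound n ha ha' hb hb' hk1.1 hk1.2 hk2.1 hk2.2
        have h5 : X / 256 ≤ U n k1 k2 := by rw [div_le_iff₀ (by norm_num)]; linarith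
        have h6 : 0 ≤ U n k1 k2 := h.nonneg _ _ _
        calc 1 / 8 * (X / 256) ≤ 1 / 8 * U n k1 k2 := by linarith
          _ ≤ sg k1 * U n k1 k2 := mul_le_mul_of_nonneg_right hsg h6
      have h4 : ∫ k2 in (4 / 5 : ℝ)..(9 / 10), sg k1 * U n k1 k2 ≤ ∫ k2 in (-π)..π, sg k1 * U n k1 k2 := by
        apply intervalIntegral.integral_mono_interval (by linarith) (by norm_num) (by linarith)
        · filter_upwards with k2; exact hnn _ _
        · exact (hin k1).intervalIntegrable _ _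
      rw [intervalIntegral.integral_const, smul_eq_mul] at h3
      have e : (9 / 10 - 4 / 5 : ℝ) = 1 / 10 := by norm_num
      rw [e] at h3
      exact h3.trans h4
    have h3 : ∫ k1 in (-1 : ℝ)..(-(9 / 10)), (1 / 10 * (1 / 8 * (X / 256)))
        ≤ ∫ k1 in (-1 : ℝ)..(-(9 / 10)), ∫ k2 in (-π)..π, sg k1 * U n k1 k2 := by
      apply intervalIntegral.integral_mono_on (by norm_num) (by simp) (hout.intervalIntegrable _ _)
      exact hlow
    have h4 : ∫ k1 in (-1 : ℝ)..(-(9 / 10)), ∫ k2 in (-π)..π, sg k1 * U n k1 k2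
        ≤ ∫ k1 in (-π)..π, ∫ k2 in (-π)..π, sg k1 * U n k1 k2 := by
      apply intervalIntegral.integral_mono_interval (by linarith) (by norm_num) (by linarith)
      · filter_upwards with k1
        apply intervalIntegral.integral_nonneg (by linarith)
        intro k2 _; exact hnn _ _
      · exact hout.intervalIntegrable _ _
    rw [intervalIntegral.integral_const, smul_eq_mul] at h3
    have h5 := (h3.trans h4).trans (hS n)
    norm_num at h5
    linarith
  refine ⟨256 * 1000 * C0 + 1, by positivity, fun n a b ha ha' hb hb' => ⟨?_, ?_⟩⟩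
  · linarith [main n a b ha ha' hb hb']
  · have := main n b a hb hb' ha ha'
    rw [h.W_symm] at this
    linarith

/-! ### equicontinuity -/

theorem sg_sub_le {x y : ℝ} (hxy : x ≤ y) : sg y - sg x ≤ 2 * (y - x) := by
  unfold sg
  have h1 : |Real.cos x - Real.cos y| ≤ |x - y| := by
    have := Real.abs_cos_sub_cos_le x y
    exact this
  have h2 := (abs_le.1 h1).2
  rw [abs_of_nonpos (show x - y ≤ 0 by linarith)] at h2
  linarith

/-- one-dimensional estimate from the two Harnack inequalities -/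
theorem harnack_sub {x y s wx wy B : ℝ} (hs : 0 < s) (hsx : s ≤ sg x) (hxy : x ≤ y) (hsgy : sg y ≤ 3)
    (hmono : sg x * wx ≤ sg y * wy) (hanti : (4 - sg y) * wy ≤ (4 - sg x) * wx)
    (hwx : 0 ≤ wx) (hwy : 0 ≤ wy) (hBx : wx ≤ B) (hBy : wy ≤ B) (hm : sg x ≤ sg y) :
    |wy - wx| ≤ 2 * (y - x) * (B + B / s) := by
  have h1 := sg_sub_le hxy
  have hB : 0 ≤ B := hwx.trans hBx
  have hyx : 0 ≤ y - x := by linarith
  have h2 : wy - wx ≤ 2 * (y - x) * B := by
    -- (4 - sg y)(wy - wx) ≤ (sg y - sg x) wx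
    have h3 : (4 - sg y) * (wy - wx) ≤ (sg y - sg x) * wx := by linarith [hanti]
    have h4 : (sg y - sg x) * wx ≤ 2 * (y - x) * B :=
      mul_le_mul h1 hBx hwx (by linarith)
    rcases le_or_gt (wy - wx) 0 with h5 | h5
    · have : 0 ≤ 2 * (y - x) * B := by positivity
      linarith
    · nlinarith
  have h3 : wx - wy ≤ 2 * (y - x) * (B / s) := by
    have h4 : s * (wx - wy) ≤ 2 * (y - x) * B := by
      rcases le_or_gt (wx - wy) 0 with h5 | h5
      · have h6 : 0 ≤ 2 * (y - x) * B := by positivity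
        nlinarith
      · have h6 : sg x * (wx - wy) ≤ (sg y - sg x) * wy := by linarith [hmono]
        have h7 : (sg y - sg x) * wy ≤ 2 * (y - x) * B := mul_le_mul h1 hBy hwy (by linarith)
        nlinarith
    rw [← mul_div_assoc, le_div_iff₀ hs]
    linarith
  have h4 : 0 ≤ 2 * (y - x) * (B / s) := by positivity
  have h5 : 0 ≤ 2 * (y - x) * B := by positivity
  rw [abs_le]
  constructor
  · linarith [mul_add (2 * (y - x)) B (B / s)]
  · linarith [mul_add (2 * (y - x)) B (B / s)]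

/-- equicontinuity in the open sector -/
theorem equi (h : Reg V U) {a b : ℝ} (ha : 0 < a) (ha' : a < 1 / 10) (hb : 0 < b) (hb' : b < 1 / 10) :
    ∃ K δ : ℝ, 0 < δ ∧ 0 ≤ K ∧ ∀ a' b', |a' - a| < δ → |b' - b| < δ → ∀ n,
      |Wn U n a' b' - Wn U n a b| ≤ K * (|a' - a| + |b' - b|) := by
  obtain ⟨C, hC, hI⟩ := h.infra
  have hπ := Real.pi_gt_three
  set m := min a b / 2 with hm
  have hm0 : 0 < m := by rw [hm]; positivity
  have hma : 2 * m ≤ a := by rw [hm]; linarith [min_le_left a b]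
  have hmb : 2 * m ≤ b := by rw [hm]; linarith [min_le_right a b]
  set s := sg m with hs
  have hs0 : 0 < s := sg_pos hm0 (by linarith)
  set B := C / s with hB
  have hB0 : 0 ≤ B := by positivity
  set δ := min (m / 4) (min ((1 / 10 - a) / 4) ((1 / 10 - b) / 4)) with hδ
  have hδ0 : 0 < δ := by
    rw [hδ]; apply lt_min (by positivity) (lt_min (by linarith) (by linarith))
  have hδ1 : δ ≤ m / 4 := min_le_left _ _
  have hδ2 : δ ≤ (1 / 10 - a) / 4 := (min_le_right _ _).trans (min_le_left _ _)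
  have hδ3 : δ ≤ (1 / 10 - b) / 4 := (min_le_right _ _).trans (min_le_right _ _)
  -- bound in the box
  have hbd : ∀ n x y, m ≤ x → x < 1 / 10 → m ≤ y → y < 1 / 10 → Wn U n x y ≤ B := by
    intro n x y hx hx' hy hy'
    have h1 := (hI n x y (by linarith) hx' (by linarith) hy').1
    have h2 : s ≤ sg x := sg_mono hm0.le hx (by linarith)
    have h3 := h.W_nonneg n x y
    rw [hB, le_div_iff₀ hs0]
    calc Wn U n x y * s ≤ Wn U n x y * sg x := mul_le_mul_of_nonneg_left h2 h3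
      _ = sg x * Wn U n x y := mul_comm _ _
      _ ≤ C := h1
  have hsg3 : ∀ x, 0 ≤ x → x < 1 / 10 → sg x ≤ 3 := by
    intro x hx hx'
    refine (sg_le_sq x).trans ?_
    nlinarith
  -- frame 1 step
  have step1 : ∀ n t x y, m ≤ x → x ≤ y → y < 1 / 10 → m ≤ (x + t) / 2 → (y + t) / 2 < 1 / 10 →
      |Wn U n y ((y + t) / 2) - Wn U n x ((x + t) / 2)| ≤ 2 * (y - x) * (B + B / s) := by
    intro n t x y hx hxy hy hxt hyt
    apply harnack_sub hs0 (sg_mono hm0.le hx (by linarith)) hxy (hsg3 y (by linarith) hy)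
      (h.W_mono n t x y (by linarith) hxy (by linarith))
      (h.W_anti n t x y (by linarith) hxy (by linarith)) (h.W_nonneg _ _ _) (h.W_nonneg _ _ _)
      (hbd n _ _ hx (by linarith) hxt (by linarith)) (hbd n _ _ (by linarith) hy (by linarith) hyt)
      (sg_mono (by linarith) hxy (by linarith))
  have step2 : ∀ n t x y, m ≤ x → x ≤ y → y < 1 / 10 → m ≤ (x + t) / 2 → (y + t) / 2 < 1 / 10 →
      |Wn U n ((y + t) / 2) y - Wn U n ((x + t) / 2) x| ≤ 2 * (y - x) * (B + B / s) := by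
    intro n t x y hx hxy hy hxt hyt
    rw [h.W_symm n y, h.W_symm n x]
    exact step1 n t x y hx hxy hy hxt hyt
  have step1' : ∀ n t x y, m ≤ x → x < 1 / 10 → m ≤ y → y < 1 / 10 → m ≤ (x + t) / 2 →
      (x + t) / 2 < 1 / 10 → m ≤ (y + t) / 2 → (y + t) / 2 < 1 / 10 →
      |Wn U n y ((y + t) / 2) - Wn U n x ((x + t) / 2)| ≤ 2 * |y - x| * (B + B / s) := by
    intro n t x y h1 h2 h3 h4 h5 h6 h7 h8
    rcases le_total x y with h9 | h9
    · rw [abs_of_nonneg (show 0 ≤ y - x by linarith)]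
      exact step1 n t x y h1 h9 h4 h5 h8
    · rw [abs_sub_comm, abs_sub_comm y x, abs_of_nonneg (show 0 ≤ x - y by linarith)]
      exact step1 n t y x h3 h9 h2 h7 h6
  have step2' : ∀ n t x y, m ≤ x → x < 1 / 10 → m ≤ y → y < 1 / 10 → m ≤ (x + t) / 2 →
      (x + t) / 2 < 1 / 10 → m ≤ (y + t) / 2 → (y + t) / 2 < 1 / 10 →
      |Wn U n ((y + t) / 2) y - Wn U n ((x + t) / 2) x| ≤ 2 * |y - x| * (B + B / s) := by
    intro n t x y h1 h2 h3 h4 h5 h6 h7 h8
    rw [h.W_symm n y, h.W_symm n x]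
    exact step1' n t x y h1 h2 h3 h4 h5 h6 h7 h8
  refine ⟨8 * (B + B / s), δ, hδ0, by positivity, fun a' b' h1 h2 n => ?_⟩
  obtain ⟨h1a, h1b⟩ := abs_lt.1 h1
  obtain ⟨h2a, h2b⟩ := abs_lt.1 h2
  -- intermediate point
  set α := 4 / 3 * ((a' - a) - (b' - b) / 2) with hα
  set β := 4 / 3 * ((b' - b) - (a' - a) / 2) with hβ
  have e1 : a + α + β / 2 = a' := by rw [hα, hβ]; ring
  have e2 : b + α / 2 + β = b' := by rw [hα, hβ]; ring
  have s1 := step1' n (2 * b - a) a (a + α) (by linarith) ha' (by rw [hα]; linarith)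
    (by rw [hα]; linarith) (by linarith) (by linarith) (by rw [hα]; linarith) (by rw [hα]; linarith)
  rw [show (a + (2 * b - a)) / 2 = b by ring,
    show (a + α + (2 * b - a)) / 2 = b + α / 2 by ring] at s1
  have s2 := step2' n (2 * (a + α) - (b + α / 2)) (b + α / 2) (b + α / 2 + β) (by rw [hα]; linarith)
    (by rw [hα]; linarith) (by rw [e2]; linarith) (by rw [e2]; linarith)
    (by rw [hα]; linarith) (by rw [hα]; linarith)
    (by rw [hα, hβ]; linarith) (by rw [hα, hβ]; linarith)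
  rw [show (b + α / 2 + β + (2 * (a + α) - (b + α / 2))) / 2 = a + α + β / 2 by ring,
    show (b + α / 2 + (2 * (a + α) - (b + α / 2))) / 2 = a + α by ring, e1, e2] at s2
  rw [show a + α - a = α by ring] at s1
  have e3 : |b' - (b + α / 2)| = |β| := by
    rw [← e2]; congr 1; ring
  rw [e3] at s2
  have hα1 : |α| ≤ 4 / 3 * (|a' - a| + |b' - b| / 2) := by
    rw [hα, abs_mul, abs_of_pos (show (0 : ℝ) < 4 / 3 by norm_num)]
    apply mul_le_mul_of_nonneg_left _ (by norm_num)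
    calc |a' - a - (b' - b) / 2| ≤ |a' - a| + |(b' - b) / 2| := abs_sub _ _
      _ = _ := by rw [abs_div, abs_two]
  have hβ1 : |β| ≤ 4 / 3 * (|b' - b| + |a' - a| / 2) := by
    rw [hβ, abs_mul, abs_of_pos (show (0 : ℝ) < 4 / 3 by norm_num)]
    apply mul_le_mul_of_nonneg_left _ (by norm_num)
    calc |b' - b - (a' - a) / 2| ≤ |b' - b| + |(a' - a) / 2| := abs_sub _ _
      _ = _ := by rw [abs_div, abs_two]
  have hBB : 0 ≤ B + B / s := by positivity
  have h9 : |Wn U n a' b' - Wn U n a b| ≤ 2 * |β| * (B + B / s) + 2 * |α| * (B + B / s) := by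
    calc |Wn U n a' b' - Wn U n a b|
        = |(Wn U n a' b' - Wn U n (a + α) (b + α / 2))
            + (Wn U n (a + α) (b + α / 2) - Wn U n a b)| := by congr 1; ring
      _ ≤ _ := (abs_add_le _ _).trans (add_le_add s2 s1)
  have h10 : |α| + |β| ≤ 2 * (|a' - a| + |b' - b|) := by
    linarith [abs_nonneg (a' - a), abs_nonneg (b' - b)]
  have h11 : 0 ≤ (|a' - a| + |b' - b|) := by positivity
  calc |Wn U n a' b' - Wn U n a b| ≤ 2 * (|α| + |β|) * (B + B / s) := by linarith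
    _ ≤ 2 * (2 * (|a' - a| + |b' - b|)) * (B + B / s) := by gcongr
    _ ≤ 8 * (B + B / s) * (|a' - a| + |b' - b|) := by nlinarith [mul_nonneg hBB h11]

end Reg

end Crest.Agent.R144.Tp952
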