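import Crest.Agent.R144.Tp3_952

/-!
# R144, block TP, helper952: the limiting density

* `Reg.exists_subseq` : a subsequence of the regularised densities converges at every small `k ≠ 0`;
* `Reg.exists_density` : limit `u`, continuity, infrared bound, `N(k) u(k) → L` as `k → 0`.
-/

set_option autoImplicit false

open Filter Topology MeasureTheory
open scoped Real BigOperators

noncomputable section

namespace Crest.Agent.R144.Tp952

variable {V : ℤ × ℤ → ℝ} {U : ℕ → ℝ → ℝ → ℝ}

theorem sector_induction (Q : ℝ → ℝ → Prop) (hs : ∀ a b, Q b a → Q a b)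
    (hn : ∀ a b, Q (-a) (-b) → Q a b) (hr : ∀ a b, Q (b - a) b → Q a b) (c : ℝ)
    (h0 : ∀ a b, 0 < a → 0 < b → MM a b < c → Q a b) :
    ∀ a b, (a ≠ 0 ∨ b ≠ 0) → MM a b < c → Q a b := by
  have hMs : ∀ a b, MM b a = MM a b := fun a b => by unfold MM; ring
  have hMn : ∀ a b, MM (-a) (-b) = MM a b := fun a b => by unfold MM; ring
  have hMr : ∀ a b, MM (b - a) b = MM a b := fun a b => by unfold MM; ring
  have hpos : ∀ a b, 0 < b → MM a b < c → Q a b := by
    intro a b hb hM
    rcases lt_or_ge 0 a with ha | ha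
    · exact h0 a b ha hb hM
    · exact hr a b (h0 _ _ (by linarith) hb (by rw [hMr]; exact hM))
  have hb0 : ∀ a b, b ≠ 0 → MM a b < c → Q a b := by
    intro a b hb hM
    rcases lt_or_gt_of_ne hb with h1 | h1
    · exact hn a b (hpos _ _ (by linarith) (by rw [hMn]; exact hM))
    · exact hpos a b h1 hM
  intro a b hab hM
  rcases eq_or_ne b 0 with h1 | h1
  · have ha : a ≠ 0 := by
      rcases hab with h2 | h2
      · exact h2
      · exact absurd h1 h2
    exact hs a b (hb0 b a ha (by rw [hMs]; exact hM))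
  · exact hb0 a b h1 hM

namespace Reg

theorem exists_subseq (h : Reg V U) : ∃ φ : ℕ → ℕ, StrictMono φ ∧ ∀ a b, 0 < a → a < 1 / 10 →
    0 < b → b < 1 / 10 → ∃ l, Tendsto (fun n => Wn U (φ n) a b) atTop (𝓝 l) := by
  classical
  obtain ⟨C, hC, hI⟩ := h.infra
  have hπ := Real.pi_gt_three
  let P : ℚ × ℚ → Prop := fun q => 0 < (q.1 : ℝ) ∧ (q.1 : ℝ) < 1 / 10 ∧ 0 < (q.2 : ℝ) ∧ (q.2 : ℝ) < 1 / 10
  let x : ℕ → (ℚ × ℚ → ℝ) := fun n q => if P q then Wn U n q.1 q.2 else 0
  let K : Set (ℚ × ℚ → ℝ) := Set.pi Set.univ fun q => Set.Icc 0 (max 0 (C / sg (q.1 : ℝ)))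
  have hK : IsCompact K := isCompact_univ_pi fun q => isCompact_Icc
  have hx : ∀ n, x n ∈ K := by
    intro n q _
    show x n q ∈ Set.Icc 0 (max 0 (C / sg (q.1 : ℝ)))
    simp only [x]
    split_ifs with hq
    · refine ⟨h.W_nonneg _ _ _, le_max_of_le_right ?_⟩
      rw [le_div_iff₀ (sg_pos hq.1 (by linarith [hq.2.1])), mul_comm]
      exact (hI n _ _ hq.1 hq.2.1 hq.2.2.1 hq.2.2.2).1
    · exact ⟨le_rfl, le_max_left _ _⟩
  obtain ⟨y, -, φ, hφ, hlim⟩ := hK.tendsto_subseq hx
  refine ⟨φ, hφ, fun a b ha ha' hb hb' => ?_⟩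
  apply cauchySeq_tendsto_of_complete
  rw [Metric.cauchySeq_iff']
  intro ε hε
  obtain ⟨K0, δ, hδ, hK0, hE⟩ := h.equi ha ha' hb hb'
  -- rational approximation
  set η := min δ (min (ε / (8 * (K0 + 1))) (min (min a (1 / 10 - a)) (min b (1 / 10 - b)))) with hη
  have hη0 : 0 < η := by
    rw [hη]
    refine lt_min hδ (lt_min (by positivity) (lt_min (lt_min ha (by linarith)) (lt_min hb (by linarith))))
  have hη1 : η ≤ δ := min_le_left _ _
  have hη2 : η ≤ ε / (8 * (K0 + 1)) := (min_le_right _ _).trans (min_le_left _ _)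
  have hη3 : η ≤ a := (min_le_right _ _).trans ((min_le_right _ _).trans
    ((min_le_left _ _).trans (min_le_left _ _)))
  have hη4 : η ≤ 1 / 10 - a := (min_le_right _ _).trans ((min_le_right _ _).trans
    ((min_le_left _ _).trans (min_le_right _ _)))
  have hη5 : η ≤ b := (min_le_right _ _).trans ((min_le_right _ _).trans
    ((min_le_right _ _).trans (min_le_left _ _)))
  have hη6 : η ≤ 1 / 10 - b := (min_le_right _ _).trans ((min_le_right _ _).trans
    ((min_le_right _ _).trans (min_le_right _ _)))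
  obtain ⟨q1, hq1, hq1'⟩ := exists_rat_btwn (show a - η < a by linarith)
  obtain ⟨q2, hq2, hq2'⟩ := exists_rat_btwn (show b - η < b by linarith)
  have hPq : P (q1, q2) := ⟨by show (0 : ℝ) < q1; linarith, by show (q1 : ℝ) < 1 / 10; linarith,
    by show (0 : ℝ) < q2; linarith, by show (q2 : ℝ) < 1 / 10; linarith⟩
  have hd1 : |(q1 : ℝ) - a| < η := by rw [abs_lt]; constructor <;> linarith
  have hd2 : |(q2 : ℝ) - b| < η := by rw [abs_lt]; constructor <;> linarith
  have hclose : ∀ n, |Wn U n q1 q2 - Wn U n a b| ≤ ε / 4 := by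
    intro n
    refine (hE _ _ (hd1.trans_le hη1) (hd2.trans_le hη1) n).trans ?_
    have h1 : |(q1 : ℝ) - a| + |(q2 : ℝ) - b| ≤ 2 * (ε / (8 * (K0 + 1))) := by linarith
    calc K0 * (|(q1 : ℝ) - a| + |(q2 : ℝ) - b|) ≤ (K0 + 1) * (2 * (ε / (8 * (K0 + 1)))) := by
          apply mul_le_mul (by linarith) h1 (by positivity) (by positivity)
      _ = ε / 4 := by field_simp; ring
  -- Cauchy at the rational point
  have hq : Tendsto (fun n => x (φ n) (q1, q2)) atTop (𝓝 (y (q1, q2))) :=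
    (tendsto_pi_nhds.1 hlim) (q1, q2)
  have hq' : CauchySeq (fun n => x (φ n) (q1, q2)) := hq.cauchySeq
  rw [Metric.cauchySeq_iff'] at hq'
  obtain ⟨N, hN⟩ := hq' (ε / 4) (by positivity)
  refine ⟨N, fun n hn => ?_⟩
  have h1 := hN n hn
  simp only [x, if_pos hPq] at h1
  rw [Real.dist_eq] at h1 ⊢
  have h2 := hclose (φ n)
  have h3 := hclose (φ N)
  have h4 : Wn U (φ n) a b - Wn U (φ N) a b
      = -(Wn U (φ n) q1 q2 - Wn U (φ n) a b) + (Wn U (φ n) q1 q2 - Wn U (φ N) q1 q2)
        + (Wn U (φ N) q1 q2 - Wn U (φ N) a b) := by ring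
  rw [h4]
  refine (abs_add_le _ _).trans_lt ?_
  have h5 := abs_add_le (-(Wn U (φ n) q1 q2 - Wn U (φ n) a b)) (Wn U (φ n) q1 q2 - Wn U (φ N) q1 q2)
  rw [abs_neg] at h5
  linarith

/-- uniform infrared bound, all small `k` -/
theorem infra_all (h : Reg V U) : ∃ C : ℝ, 0 < C ∧ ∀ a b, (a ≠ 0 ∨ b ≠ 0) → MM a b < 1 / 100 →
    ∀ n, MM a b * Wn U n a b ≤ C := by
  obtain ⟨C, hC, hI⟩ := h.infra
  refine ⟨3 * C, by positivity, ?_⟩
  apply sector_induction (fun a b => ∀ n, MM a b * Wn U n a b ≤ 3 * C)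
  · intro a b hQ n
    have := hQ n
    rwa [h.W_symm, show MM b a = MM a b by unfold MM; ring] at this
  · intro a b hQ n
    have := hQ n
    rwa [h.W_neg, show MM (-a) (-b) = MM a b by unfold MM; ring] at this
  · intro a b hQ n
    have := hQ n
    rwa [h.W_refl, show MM (b - a) b = MM a b by unfold MM; ring] at this
  · intro a b ha hb hM n
    have h1 := MM_ge_left a b
    have h2 := MM_ge_right a b
    have ha' : a < 1 / 10 := by nlinarith
    have hb' : b < 1 / 10 := by nlinarith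
    obtain ⟨h3, h4⟩ := hI n a b ha ha' hb hb'
    have h5 : (1 - a ^ 2) * a ^ 2 ≤ sg a := sg_ge_sq (by rw [abs_of_pos ha]; linarith)
    have h6 : (1 - b ^ 2) * b ^ 2 ≤ sg b := sg_ge_sq (by rw [abs_of_pos hb]; linarith)
    have h7 : a ^ 2 ≤ 100 / 99 * sg a := by nlinarith [sq_nonneg a]
    have h8 : b ^ 2 ≤ 100 / 99 * sg b := by nlinarith [sq_nonneg b]
    have hW := h.W_nonneg n a b
    have h9 : MM a b ≤ 4 / 3 * (a ^ 2 + b ^ 2) := by unfold MM; nlinarith [mul_pos ha hb]
    have h10 : MM a b ≤ 3 / 2 * (sg a + sg b) := by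
      have := sg_nonneg a; have := sg_nonneg b
      linarith
    calc MM a b * Wn U n a b ≤ 3 / 2 * (sg a + sg b) * Wn U n a b :=
          mul_le_mul_of_nonneg_right h10 hW
      _ = 3 / 2 * (sg a * Wn U n a b + sg b * Wn U n a b) := by ring
      _ ≤ 3 * C := by linarith

end Reg

/-- sector coordinates to momenta -/
def kk (p : ℝ × ℝ) : ℝ × ℝ := ((2 * p.1 - 4 * p.2) / 3, (4 * p.1 - 2 * p.2) / 3)

/-- momenta to sector coordinates -/
def ik (k : ℝ × ℝ) : ℝ × ℝ := (k.2 - k.1 / 2, k.2 / 2 - k.1)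

theorem kk_ik (k : ℝ × ℝ) : kk (ik k) = k := by
  ext <;> simp only [kk, ik] <;> ring

theorem ik_kk (p : ℝ × ℝ) : ik (kk p) = p := by
  ext <;> simp only [kk, ik] <;> ring

theorem MM_ik (k : ℝ × ℝ) : MM (ik k).1 (ik k).2 = NN k.1 k.2 := by
  unfold MM NN ik; ring

theorem ik_ne {k : ℝ × ℝ} (hk : k ≠ 0) : (ik k).1 ≠ 0 ∨ (ik k).2 ≠ 0 := by
  by_contra hcon
  push Not at hcon
  apply hk
  rw [← kk_ik k, show ik k = (0, 0) from Prod.ext hcon.1 hcon.2]
  simp [kk]

theorem continuous_kk : Continuous kk := by unfold kk; fun_prop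
theorem continuous_ik : Continuous ik := by unfold ik; fun_prop

theorem NN_pos {k : ℝ × ℝ} (hk : k ≠ 0) : 0 < NN k.1 k.2 := by
  have h1 : 0 ≤ NN k.1 k.2 := by unfold NN; nlinarith [sq_nonneg (k.1 - k.2), sq_nonneg k.1, sq_nonneg k.2]
  rcases h1.eq_or_lt with h2 | h2
  · exfalso; apply hk
    unfold NN at h2
    have h3 : k.1 = 0 := by nlinarith [sq_nonneg (k.1 - 2 * k.2), sq_nonneg k.1]
    have h4 : k.2 = 0 := by nlinarith [sq_nonneg (k.2 - 2 * k.1), sq_nonneg k.2]
    exact Prod.ext h3 h4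
  · exact h2

namespace Reg

/-- **the limiting density** -/
theorem exists_density (h : Reg V U) : ∃ (φ : ℕ → ℕ) (u : ℝ × ℝ → ℝ) (L C : ℝ), StrictMono φ ∧
    0 ≤ L ∧ 0 < C ∧ (∀ k, 0 ≤ u k) ∧
    (∀ k : ℝ × ℝ, k ≠ 0 → NN k.1 k.2 < 1 / 100 →
      Tendsto (fun n => U (φ n) k.1 k.2) atTop (𝓝 (u k))) ∧
    (∀ k : ℝ × ℝ, k ≠ 0 → NN k.1 k.2 < 1 / 100 → ContinuousAt u k) ∧
    (∀ k : ℝ × ℝ, NN k.1 k.2 < 1 / 100 → NN k.1 k.2 * u k ≤ C) ∧
    (∀ k : ℝ × ℝ, NN k.1 k.2 < 1 / 100 → ∀ n, NN k.1 k.2 * U n k.1 k.2 ≤ C) ∧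
    Tendsto (fun k : ℝ × ℝ => NN k.1 k.2 * u k) (𝓝[≠] 0) (𝓝 L) := by
  classical
  obtain ⟨φ, hφ, hsub⟩ := h.exists_subseq
  obtain ⟨C, hC, hIR⟩ := h.infra_all
  -- the function in sector coordinates
  let w : ℝ → ℝ → ℝ := fun a b => |limUnder atTop (fun n => Wn U (φ n) a b)|
  have hw_s : ∀ a b, w b a = w a b := by
    intro a b; simp only [w]
    congr 2; funext n; exact h.W_symm _ _ _
  have hw_n : ∀ a b, w (-a) (-b) = w a b := by
    intro a b; simp only [w]
    congr 2; funext n; exact h.W_neg _ _ _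
  have hw_r : ∀ a b, w (b - a) b = w a b := by
    intro a b; simp only [w]
    congr 2; funext n; exact h.W_refl _ _ _
  have hlt : ∀ {a b : ℝ}, 0 < a → 0 < b → MM a b < 1 / 100 → a < 1 / 10 ∧ b < 1 / 10 := by
    intro a b ha hb hM
    have h1 := MM_ge_left a b
    have h2 := MM_ge_right a b
    constructor <;> nlinarith
  -- convergence
  have hsec : ∀ a b, 0 < a → a < 1 / 10 → 0 < b → b < 1 / 10 →
      Tendsto (fun n => Wn U (φ n) a b) atTop (𝓝 (w a b)) := by
    intro a b ha ha' hb hb'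
    obtain ⟨l, hl⟩ := hsub a b ha ha' hb hb'
    have h1 : 0 ≤ l := ge_of_tendsto' hl fun n => h.W_nonneg _ _ _
    have h2 : w a b = l := by
      simp only [w]
      rw [hl.limUnder_eq, abs_of_nonneg h1]
    rw [h2]; exact hl
  have hconv : ∀ a b, (a ≠ 0 ∨ b ≠ 0) → MM a b < 1 / 100 →
      Tendsto (fun n => Wn U (φ n) a b) atTop (𝓝 (w a b)) := by
    apply sector_induction (fun a b => Tendsto (fun n => Wn U (φ n) a b) atTop (𝓝 (w a b)))
    · intro a b hQ
      rw [hw_s] at hQ
      exact hQ.congr fun n => h.W_symm _ _ _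
    · intro a b hQ
      rw [hw_n] at hQ
      exact hQ.congr fun n => h.W_neg _ _ _
    · intro a b hQ
      rw [hw_r] at hQ
      exact hQ.congr fun n => h.W_refl _ _ _
    · intro a b ha hb hM
      obtain ⟨h1, h2⟩ := hlt ha hb hM
      exact hsec a b ha h1 hb h2
  -- continuity
  have hcont : ∀ a b, (a ≠ 0 ∨ b ≠ 0) → MM a b < 1 / 100 →
      ContinuousAt (fun p : ℝ × ℝ => w p.1 p.2) (a, b) := by
    apply sector_induction (fun a b => ContinuousAt (fun p : ℝ × ℝ => w p.1 p.2) (a, b))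
    · intro a b hQ
      have h1 : ContinuousAt (fun p : ℝ × ℝ => ((p.2, p.1) : ℝ × ℝ)) (a, b) := by fun_prop
      have h2 : ContinuousAt (fun p : ℝ × ℝ => w p.2 p.1) (a, b) :=
        ContinuousAt.comp (f := fun p : ℝ × ℝ => ((p.2, p.1) : ℝ × ℝ))
          (g := fun p : ℝ × ℝ => w p.1 p.2) (x := (a, b)) hQ h1
      have h3 : (fun p : ℝ × ℝ => w p.2 p.1) = fun p : ℝ × ℝ => w p.1 p.2 := by
        funext p; exact hw_s _ _
      rwa [h3] at h2
    · intro a b hQ
      have h1 : ContinuousAt (fun p : ℝ × ℝ => ((-p.1, -p.2) : ℝ × ℝ)) (a, b) := by fun_prop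
      have h2 : ContinuousAt (fun p : ℝ × ℝ => w (-p.1) (-p.2)) (a, b) :=
        ContinuousAt.comp (f := fun p : ℝ × ℝ => ((-p.1, -p.2) : ℝ × ℝ))
          (g := fun p : ℝ × ℝ => w p.1 p.2) (x := (a, b)) hQ h1
      have h3 : (fun p : ℝ × ℝ => w (-p.1) (-p.2)) = fun p : ℝ × ℝ => w p.1 p.2 := by
        funext p; exact hw_n _ _
      rwa [h3] at h2
    · intro a b hQ
      have h1 : ContinuousAt (fun p : ℝ × ℝ => ((p.2 - p.1, p.2) : ℝ × ℝ)) (a, b) := by fun_prop
      have h2 : ContinuousAt (fun p : ℝ × ℝ => w (p.2 - p.1) p.2) (a, b) :=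
        ContinuousAt.comp (f := fun p : ℝ × ℝ => ((p.2 - p.1, p.2) : ℝ × ℝ))
          (g := fun p : ℝ × ℝ => w p.1 p.2) (x := (a, b)) hQ h1
      have h3 : (fun p : ℝ × ℝ => w (p.2 - p.1) p.2) = fun p : ℝ × ℝ => w p.1 p.2 := by
        funext p; exact hw_r _ _
      rwa [h3] at h2
    · intro a b ha hb hM
      obtain ⟨h1, h2⟩ := hlt ha hb hM
      obtain ⟨K0, δ, hδ, hK0, hE⟩ := h.equi ha h1 hb h2
      rw [Metric.continuousAt_iff]
      intro ε hε
      refine ⟨min (min δ (ε / (4 * (K0 + 1)))) (min (min a (1 / 10 - a)) (min b (1 / 10 - b))), ?_, ?_⟩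
      · refine lt_min (lt_min hδ (by positivity)) (lt_min (lt_min ha (by linarith)) (lt_min hb (by linarith)))
      · intro p hp
        have hp1 : |p.1 - a| ≤ dist p (a, b) := by
          rw [← Real.dist_eq]; exact le_max_left _ _
        have hp2 : |p.2 - b| ≤ dist p (a, b) := by
          rw [← Real.dist_eq]; exact le_max_right _ _
        have hd1 : dist p (a, b) < δ := hp.trans_le ((min_le_left _ _).trans (min_le_left _ _))
        have hd2 : dist p (a, b) < ε / (4 * (K0 + 1)) :=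
          hp.trans_le ((min_le_left _ _).trans (min_le_right _ _))
        have hd3 : dist p (a, b) < a :=
          hp.trans_le ((min_le_right _ _).trans ((min_le_left _ _).trans (min_le_left _ _)))
        have hd4 : dist p (a, b) < 1 / 10 - a :=
          hp.trans_le ((min_le_right _ _).trans ((min_le_left _ _).trans (min_le_right _ _)))
        have hd5 : dist p (a, b) < b :=
          hp.trans_le ((min_le_right _ _).trans ((min_le_right _ _).trans (min_le_left _ _)))
        have hd6 : dist p (a, b) < 1 / 10 - b :=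
          hp.trans_le ((min_le_right _ _).trans ((min_le_right _ _).trans (min_le_right _ _)))
        obtain ⟨h3, h4⟩ := abs_lt.1 (hp1.trans_lt hd3)
        obtain ⟨h3', h4'⟩ := abs_lt.1 (hp1.trans_lt hd4)
        obtain ⟨h5, h6⟩ := abs_lt.1 (hp2.trans_lt hd5)
        obtain ⟨h5', h6'⟩ := abs_lt.1 (hp2.trans_lt hd6)
        have hT1 := hsec p.1 p.2 (by linarith) (by linarith) (by linarith) (by linarith)
        have hT2 := hsec a b ha h1 hb h2
        have hT3 : Tendsto (fun n => |Wn U (φ n) p.1 p.2 - Wn U (φ n) a b|) atTop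
            (𝓝 |w p.1 p.2 - w a b|) := (hT1.sub hT2).abs
        have h7 : |w p.1 p.2 - w a b| ≤ K0 * (|p.1 - a| + |p.2 - b|) :=
          le_of_tendsto' hT3 fun n => hE _ _ (hp1.trans_lt hd1) (hp2.trans_lt hd1) (φ n)
        rw [Real.dist_eq]
        refine h7.trans_lt ?_
        have h8 : |p.1 - a| + |p.2 - b| ≤ 2 * (ε / (4 * (K0 + 1))) := by linarith
        calc K0 * (|p.1 - a| + |p.2 - b|) ≤ (K0 + 1) * (2 * (ε / (4 * (K0 + 1)))) := by
              apply mul_le_mul (by linarith) h8 (by positivity) (by positivity)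
          _ = ε / 2 := by field_simp; ring
          _ < ε := by linarith
  -- the sector structure
  have hπ := Real.pi_gt_three
  have hsq : ∀ {a b : ℝ}, 0 < a → 0 < b → a < 1 / 20 → b < 1 / 20 → a < 1 / 10 ∧ b < 1 / 10 := by
    intro a b _ _ h1 h2; constructor <;> linarith
  have hS : Sec w (1 / 20) := by
    refine ⟨by norm_num, by norm_num, ?_, ?_, ?_, ?_, ?_, ?_⟩
    · intro a b _ _ _ _; exact abs_nonneg _
    · intro a b _ _ _ _; exact hw_s a b
    · intro a b _ _ _; exact hw_r a b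
    · intro t x y z hx hxy hyz hz hxt hzt
      have hT : ∀ v, x ≤ v → v ≤ z → Tendsto (fun n => Wn U (φ n) v ((v + t) / 2)) atTop
          (𝓝 (w v ((v + t) / 2))) := fun v h1 h2 =>
        hsec v _ (by linarith) (by linarith) (by linarith) (by linarith)
      have h1 := hT x le_rfl (by linarith)
      have h2 := hT y hxy hyz
      have h3 := hT z (by linarith) le_rfl
      exact le_of_tendsto_of_tendsto' (((h2.mul h3).const_mul _).add ((h1.mul h2).const_mul _))
        ((h1.mul h3).const_mul _) fun n => h.W_frame _ t x y z hx.le hxy hyz (by linarith)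
    · intro t x y hx hxy hy hxt hyt
      have h1 := hsec x ((x + t) / 2) hx (by linarith) (by linarith) (by linarith)
      have h2 := hsec y ((y + t) / 2) (by linarith) (by linarith) (by linarith) (by linarith)
      exact le_of_tendsto_of_tendsto' (h1.const_mul _) (h2.const_mul _) fun n =>
        h.W_mono _ t x y hx hxy (by linarith)
    · intro t x y hx hxy hy hxt hyt
      have h1 := hsec x ((x + t) / 2) hx (by linarith) (by linarith) (by linarith)
      have h2 := hsec y ((y + t) / 2) (by linarith) (by linarith) (by linarith) (by linarith)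
      exact le_of_tendsto_of_tendsto' (h2.const_mul _) (h1.const_mul _) fun n =>
        h.W_anti _ t x y hx.le hxy (by linarith)
  obtain ⟨L, hL0, hL⟩ := hS.limit
  -- limit in all directions
  have hlimAll : ∀ ε > 0, ∃ c > 0, ∀ a b, (a ≠ 0 ∨ b ≠ 0) → MM a b < c →
      |MM a b * w a b - L| ≤ ε := by
    intro ε hε
    obtain ⟨δ, hδ, hδ'⟩ := hL ε hε
    refine ⟨min (δ ^ 2) (1 / 100), lt_min (by positivity) (by norm_num), ?_⟩
    have hMs : ∀ a b, MM b a = MM a b := fun a b => by unfold MM; ring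
    have hMn : ∀ a b, MM (-a) (-b) = MM a b := fun a b => by unfold MM; ring
    have hMr : ∀ a b, MM (b - a) b = MM a b := fun a b => by unfold MM; ring
    apply sector_induction (fun a b => |MM a b * w a b - L| ≤ ε)
    · intro a b hQ; rwa [hMs, hw_s] at hQ
    · intro a b hQ; rwa [hMn, hw_n] at hQ
    · intro a b hQ; rwa [hMr, hw_r] at hQ
    · -- sector
      have hwedge : ∀ a b, 0 < a → a < b → b < 2 * a → MM a b < min (δ ^ 2) (1 / 100) →
          |MM a b * w a b - L| ≤ ε := by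
        intro a b ha hab hba hM
        apply hδ' a b ha hab hba
        have h1 := (MM_ge_left a b).trans_lt (hM.trans_le (min_le_left _ _))
        exact lt_of_pow_lt_pow_left₀ 2 hδ.le h1
      have hne : ∀ a b, 0 < a → 0 < b → a ≠ b → b ≠ 2 * a → a ≠ 2 * b →
          MM a b < min (δ ^ 2) (1 / 100) → |MM a b * w a b - L| ≤ ε := by
        have haux : ∀ a b, 0 < a → a < b → b ≠ 2 * a → MM a b < min (δ ^ 2) (1 / 100) →
            |MM a b * w a b - L| ≤ ε := by
          intro a b ha hab hba hM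
          rcases lt_or_gt_of_ne hba with h1 | h1
          · exact hwedge a b ha hab h1 hM
          · have h2 := hwedge (b - a) b (by linarith) (by linarith) (by linarith) (by rw [hMr]; exact hM)
            rwa [hMr, hw_r] at h2
        intro a b ha hb hab h1 h2 hM
        rcases lt_or_gt_of_ne hab with h3 | h3
        · exact haux a b ha h3 h1 hM
        · have h4 := haux b a hb h3 h2 (by rw [hMs]; exact hM)
          rwa [hMs, hw_s] at h4
      intro a b ha hb hM
      -- approximate by points of the form `(a, b + s)`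
      have hM' : MM a b < 1 / 100 := hM.trans_le (min_le_right _ _)
      have hc1 : ContinuousAt (fun s : ℝ => MM a (b + s)) 0 := by unfold MM; fun_prop
      have hc2 : ContinuousAt (fun s : ℝ => w a (b + s)) 0 := by
        have h1 : ContinuousAt (fun s : ℝ => ((a, b + s) : ℝ × ℝ)) 0 := by fun_prop
        have h2 := hcont a b (Or.inl ha.ne') hM'
        rw [show ((a, b) : ℝ × ℝ) = (fun s : ℝ => ((a, b + s) : ℝ × ℝ)) 0 by simp] at h2
        exact ContinuousAt.comp (f := fun s : ℝ => ((a, b + s) : ℝ × ℝ))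
          (g := fun p : ℝ × ℝ => w p.1 p.2) (x := (0 : ℝ)) h2 h1
      have hc3 : ContinuousAt (fun s : ℝ => |MM a (b + s) * w a (b + s) - L|) 0 :=
        ((hc1.mul hc2).sub continuousAt_const).abs
      have hc4 : Tendsto (fun s : ℝ => |MM a (b + s) * w a (b + s) - L|) (𝓝[>] 0)
          (𝓝 |MM a b * w a b - L|) := by
        have := hc3.tendsto
        simp only [add_zero] at this
        exact this.mono_left nhdsWithin_le_nhds
      refine le_of_tendsto hc4 ?_
      -- eventually admissible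
      have hE1 : ∀ᶠ s in 𝓝[>] (0 : ℝ), MM a (b + s) < min (δ ^ 2) (1 / 100) := by
        have h1 := hc1.tendsto
        simp only [add_zero] at h1
        exact (h1.mono_left nhdsWithin_le_nhds).eventually (gt_mem_nhds hM)
      have hE2 : ∀ᶠ s in 𝓝[>] (0 : ℝ), 0 < s := eventually_mem_nhdsWithin
      have hE3 : ∀ c : ℝ, ∀ᶠ s in 𝓝[>] (0 : ℝ), b + s ≠ c := by
        intro c
        rcases eq_or_ne b c with h1 | h1
        · filter_upwards [hE2] with s hs
          rw [h1]; intro h2; linarith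
        · have h2 : Tendsto (fun s : ℝ => b + s) (𝓝[>] 0) (𝓝 (b + 0)) :=
            (Continuous.tendsto (by fun_prop) 0).mono_left nhdsWithin_le_nhds
          rw [add_zero] at h2
          exact h2.eventually (isOpen_ne.mem_nhds h1)
      filter_upwards [hE1, hE2, hE3 a, hE3 (2 * a), hE3 (a / 2)] with s h1 h2 h3 h4 h5
      exact hne a (b + s) ha (by linarith) h3.symm h4 (fun h6 => h5 (by linarith)) h1
  -- assemble
  let u : ℝ × ℝ → ℝ := fun k => w (ik k).1 (ik k).2
  have hWU : ∀ n (k : ℝ × ℝ), Wn U n (ik k).1 (ik k).2 = U n k.1 k.2 := by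
    intro n k
    have := kk_ik k
    unfold Wn
    have h1 : (2 * (ik k).1 - 4 * (ik k).2) / 3 = k.1 := congrArg Prod.fst this
    have h2 : (4 * (ik k).1 - 2 * (ik k).2) / 3 = k.2 := congrArg Prod.snd this
    rw [h1, h2]
  refine ⟨φ, u, L, C, hφ, hL0, hC, fun k => abs_nonneg _, ?_, ?_, ?_, ?_, ?_⟩
  · intro k hk hN
    have h1 := hconv (ik k).1 (ik k).2 (ik_ne hk) (by rw [MM_ik]; exact hN)
    exact h1.congr fun n => hWU _ k
  · intro k hk hN
    have h1 := hcont (ik k).1 (ik k).2 (ik_ne hk) (by rw [MM_ik]; exact hN)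
    exact ContinuousAt.comp (f := ik) (g := fun p : ℝ × ℝ => w p.1 p.2) (x := k) h1
      continuous_ik.continuousAt
  · intro k hN
    rcases eq_or_ne k 0 with h0 | hk
    · rw [h0]; simp only [NN]; norm_num; exact hC.le
    have h1 := hconv (ik k).1 (ik k).2 (ik_ne hk) (by rw [MM_ik]; exact hN)
    have h2 := h1.const_mul (NN k.1 k.2)
    refine le_of_tendsto' h2 fun n => ?_
    have h3 := hIR (ik k).1 (ik k).2 (ik_ne hk) (by rw [MM_ik]; exact hN) (φ n)
    rwa [MM_ik] at h3
  · intro k hN n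
    rcases eq_or_ne k 0 with h0 | hk
    · rw [h0]; simp only [NN]; norm_num; exact hC.le
    have h3 := hIR (ik k).1 (ik k).2 (ik_ne hk) (by rw [MM_ik]; exact hN) n
    rwa [MM_ik, hWU] at h3
  · rw [Metric.tendsto_nhdsWithin_nhds]
    intro ε hε
    obtain ⟨c, hc, hc'⟩ := hlimAll (ε / 2) (by positivity)
    have hNc : ContinuousAt (fun k : ℝ × ℝ => NN k.1 k.2) 0 := by unfold NN; fun_prop
    rw [Metric.continuousAt_iff] at hNc
    obtain ⟨δ, hδ, hδ'⟩ := hNc c hc
    refine ⟨δ, hδ, fun k hk hkd => ?_⟩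
    have h1 := hδ' hkd
    have h2 : NN (0 : ℝ × ℝ).1 (0 : ℝ × ℝ).2 = 0 := by simp [NN]
    rw [h2, Real.dist_eq, sub_zero] at h1
    have h3 := hc' (ik k).1 (ik k).2 (ik_ne hk) (by rw [MM_ik]; exact (le_abs_self _).trans_lt h1)
    rw [MM_ik] at h3
    rw [Real.dist_eq]
    show |NN k.1 k.2 * w (ik k).1 (ik k).2 - L| < ε
    linarith

end Reg

end Crest.Agent.R144.Tp952
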