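import Crest.Agent.R144.Tp5_952

/-!
# R144, block TP, helper952 (6): the structure `Spec`, logarithmic growth and the stiffness constant

* `Spec V u L C` : the spectral representation near `0` as a structure, `Reg.spec`;
* `Spec.V_le` : `V p ≤ 2 D log (1 + |p|^2) + C / r^2` as soon as `N u ≤ D` on the disc of radius `r`;
* `Spec.le_L_of_log` : a logarithmic lower bound for `V` along infinitely many sites gives `L > 0`.
-/

set_option autoImplicit false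

open Filter Topology MeasureTheory
open scoped Real BigOperators

noncomputable section

namespace Crest.Agent.R144.Tp952

open Reg (dd sum_dd fh_dd normSq_one_sub_exp)

variable {V : ℤ × ℤ → ℝ} {U : ℕ → ℝ → ℝ → ℝ} {u : ℝ × ℝ → ℝ} {L C : ℝ}

/-- spectral representation near `0` -/
structure Spec (V : ℤ × ℤ → ℝ) (u : ℝ × ℝ → ℝ) (L C : ℝ) : Prop where
  L_nonneg : 0 ≤ L
  C_pos : 0 < C
  nonneg : ∀ k, 0 ≤ u k
  cont : ContinuousOn u {k | k ≠ 0 ∧ NN k.1 k.2 < 1 / 100}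
  bound : ∀ k : ℝ × ℝ, NN k.1 k.2 < 1 / 100 → NN k.1 k.2 * u k ≤ C
  lim : Tendsto (fun k : ℝ × ℝ => NN k.1 k.2 * u k) (𝓝[≠] 0) (𝓝 L)
  rep : ∀ (r : ℝ) (s : Finset (ℤ × ℤ)) (f : ℤ × ℤ → ℝ) (M : ℝ), 0 < r → r ≤ 1 / 10 →
    ∑ p ∈ s, f p = 0 →
    (∀ k1 k2 : ℝ, |k1| ≤ π → |k2| ≤ π → r ^ 2 ≤ NN k1 k2 → Complex.normSq (fh s f k1 k2) ≤ M) →
    IntegrableOn (fun k : ℝ × ℝ => Complex.normSq (fh s f k.1 k.2) * u k) (BB r) ∧
    |(-(1 / 2) * ∑ p ∈ s, ∑ q ∈ s, f p * f q * V (p - q))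
      - (∫ k in BB r, Complex.normSq (fh s f k.1 k.2) * u k) / (2 * π) ^ 2| ≤ C / r ^ 2 * M

theorem Reg.spec (h : Reg V U) : ∃ (u : ℝ × ℝ → ℝ) (L C : ℝ), Spec V u L C := by
  obtain ⟨u, L, C, h1, h2, h3, h4, h5, h6, h7⟩ := h.exists_spec
  exact ⟨u, L, C, h1, h2, h3, h4, h5, h6, h7⟩

/-- the quadratic form of the two-point function is the variogram -/
theorem quad_dd (hV : Two V) {p : ℤ × ℤ} (hp : p ≠ 0) :
    -(1 / 2) * ∑ q ∈ ({p, 0} : Finset (ℤ × ℤ)), ∑ q' ∈ ({p, 0} : Finset (ℤ × ℤ)),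
      dd p q * dd p q' * V (q - q') = V p := by
  rw [Finset.sum_pair hp, Finset.sum_pair hp, Finset.sum_pair hp]
  simp only [dd, if_true, if_neg hp.symm, sub_self, sub_zero, zero_sub, hV.zero, hV.neg]
  ring

theorem normSq_fh_dd {p : ℤ × ℤ} (hp : p ≠ 0) (k1 k2 : ℝ) :
    Complex.normSq (fh {p, 0} (dd p) k1 k2) = sg ((p.1 : ℝ) * k1 + (p.2 : ℝ) * k2) := by
  rw [fh_dd hp]
  exact normSq_one_sub_exp _

/-! ### a logarithmic integral -/

/-- `ℓ¹` size of a site -/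
def l1 (p : ℤ × ℤ) : ℝ := |(p.1 : ℝ)| + |(p.2 : ℝ)|

theorem l1_nonneg (p : ℤ × ℤ) : 0 ≤ l1 p := by unfold l1; positivity

theorem sg_lin_le (p : ℤ × ℤ) (k : ℝ × ℝ) :
    sg ((p.1 : ℝ) * k.1 + (p.2 : ℝ) * k.2) ≤ 8 * l1 p ^ 2 * NN k.1 k.2 * (2 / (1 + l1 p ^ 2 * ‖k‖ ^ 2)) := by
  have h0 := l1_nonneg p
  set m := l1 p with hm
  have hk : ‖k‖ ^ 2 / 2 ≤ NN k.1 k.2 := by
    have h1 := NN_ge k.1 k.2
    have h2 : ‖k‖ ^ 2 ≤ k.1 ^ 2 + k.2 ^ 2 := by
      rw [Prod.norm_def, Real.norm_eq_abs, Real.norm_eq_abs]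
      rcases max_cases |k.1| |k.2| with ⟨h, -⟩ | ⟨h, -⟩
      · rw [h, sq_abs]; nlinarith [sq_nonneg k.2]
      · rw [h, sq_abs]; nlinarith [sq_nonneg k.1]
    linarith
  have h3 : sg ((p.1 : ℝ) * k.1 + (p.2 : ℝ) * k.2) ≤ m ^ 2 * ‖k‖ ^ 2 := by
    refine (sg_le_sq _).trans ?_
    rw [← mul_pow, ← sq_abs]
    refine pow_le_pow_left₀ (abs_nonneg _) ?_ 2
    have e1 : |k.1| ≤ ‖k‖ := by rw [← Real.norm_eq_abs]; exact norm_fst_le k
    have e2 : |k.2| ≤ ‖k‖ := by rw [← Real.norm_eq_abs]; exact norm_snd_le k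
    calc |(p.1 : ℝ) * k.1 + (p.2 : ℝ) * k.2| ≤ |(p.1 : ℝ) * k.1| + |(p.2 : ℝ) * k.2| := abs_add_le _ _
      _ = |(p.1 : ℝ)| * |k.1| + |(p.2 : ℝ)| * |k.2| := by rw [abs_mul, abs_mul]
      _ ≤ |(p.1 : ℝ)| * ‖k‖ + |(p.2 : ℝ)| * ‖k‖ := by gcongr
      _ = m * ‖k‖ := by rw [hm]; unfold l1; ring
  have h4 := sg_le_four ((p.1 : ℝ) * k.1 + (p.2 : ℝ) * k.2)
  have h5 := sg_nonneg ((p.1 : ℝ) * k.1 + (p.2 : ℝ) * k.2)
  set S := sg ((p.1 : ℝ) * k.1 + (p.2 : ℝ) * k.2)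
  set t := m ^ 2 * ‖k‖ ^ 2 with ht
  have ht0 : 0 ≤ t := by positivity
  have h6 : t / 2 ≤ m ^ 2 * NN k.1 k.2 := by
    rw [ht]
    have := mul_le_mul_of_nonneg_left hk (sq_nonneg m)
    linarith
  rw [show 8 * m ^ 2 * NN k.1 k.2 * (2 / (1 + t)) = (16 * (m ^ 2 * NN k.1 k.2)) / (1 + t) by ring,
    le_div_iff₀ (by linarith)]
  have h7 : S * (1 + t) ≤ 8 * t := by
    rcases le_total t 1 with h | h
    · nlinarith
    · nlinarith
  linarith

theorem integral_log (m : ℝ) : ∫ y in (0 : ℝ)..1, m ^ 2 * y / (1 + m ^ 2 * y ^ 2)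
    = Real.log (1 + m ^ 2) / 2 := by
  have h1 : ∀ y : ℝ, HasDerivAt (fun y => Real.log (1 + m ^ 2 * y ^ 2) / 2)
      (m ^ 2 * y / (1 + m ^ 2 * y ^ 2)) y := by
    intro y
    have hpos : (0 : ℝ) < 1 + m ^ 2 * y ^ 2 := by positivity
    have h2 : HasDerivAt (fun y : ℝ => 1 + m ^ 2 * y ^ 2) (m ^ 2 * (2 * y)) y := by
      have := ((hasDerivAt_pow 2 y).const_mul (m ^ 2)).const_add 1
      simpa using this
    have h3 := (h2.log hpos.ne').div_const 2
    have h4 : m ^ 2 * (2 * y) / (1 + m ^ 2 * y ^ 2) / 2 = m ^ 2 * y / (1 + m ^ 2 * y ^ 2) := by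
      ring
    rw [h4] at h3
    exact h3
  rw [intervalIntegral.integral_eq_sub_of_hasDerivAt (fun y _ => h1 y)]
  · simp
  · apply Continuous.intervalIntegrable
    have : ∀ y : ℝ, 1 + m ^ 2 * y ^ 2 ≠ 0 := fun y => by positivity
    fun_prop (disch := exact this _)

/-- the logarithmic integral in the plane (sup norm) -/
theorem integral_ball (m : ℝ) :
    IntegrableOn (fun k : ℝ × ℝ => m ^ 2 / (1 + m ^ 2 * ‖k‖ ^ 2)) {k | ‖k‖ < 1} ∧
    ∫ k in {k : ℝ × ℝ | ‖k‖ < 1}, m ^ 2 / (1 + m ^ 2 * ‖k‖ ^ 2) = 4 * Real.log (1 + m ^ 2) := by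
  have hpos : ∀ y : ℝ, (0 : ℝ) < 1 + m ^ 2 * y ^ 2 := fun y => by positivity
  have hc : Continuous (fun k : ℝ × ℝ => m ^ 2 / (1 + m ^ 2 * ‖k‖ ^ 2)) := by
    have : ∀ y : ℝ × ℝ, 1 + m ^ 2 * ‖y‖ ^ 2 ≠ 0 := fun y => (hpos _).ne'
    fun_prop (disch := exact this _)
  have hms : MeasurableSet {k : ℝ × ℝ | ‖k‖ < 1} := (isOpen_lt continuous_norm continuous_const).measurableSet
  constructor
  · have h1 : IsCompact (Metric.closedBall (0 : ℝ × ℝ) 1) := isCompact_closedBall _ _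
    refine (hc.continuousOn.integrableOn_compact h1).mono_set ?_
    intro k hk
    simp only [Set.mem_ofPred_eq] at hk
    rw [Metric.mem_closedBall, dist_zero_right]; exact hk.le
  · set f : ℝ → ℝ := fun y => if y < 1 then m ^ 2 / (1 + m ^ 2 * y ^ 2) else 0 with hf
    have h1 : ∫ k in {k : ℝ × ℝ | ‖k‖ < 1}, m ^ 2 / (1 + m ^ 2 * ‖k‖ ^ 2) = ∫ k : ℝ × ℝ, f ‖k‖ := by
      rw [← integral_indicator hms]
      congr 1
    rw [h1, integral_fun_norm_addHaar]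
    have hdim : Module.finrank ℝ (ℝ × ℝ) = 2 := by simp
    have hvol : (volume : Measure (ℝ × ℝ)).real (Metric.ball (0 : ℝ × ℝ) 1) = 4 := by
      have e1 : Metric.ball (0 : ℝ × ℝ) 1 = Metric.ball (0 : ℝ) 1 ×ˢ Metric.ball (0 : ℝ) 1 := by
        rw [← ball_prod_same]; rfl
      rw [e1, Measure.volume_eq_prod, measureReal_prod_prod]
      have e2 : (volume : Measure ℝ).real (Metric.ball (0 : ℝ) 1) = 2 := by
        rw [measureReal_def, Real.volume_ball]; norm_num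
      rw [e2]; norm_num
    rw [hdim, hvol]
    have h2 : ∫ y in Set.Ioi (0 : ℝ), y ^ (2 - 1) • f y = ∫ y in (0 : ℝ)..1, m ^ 2 * y / (1 + m ^ 2 * y ^ 2) := by
      rw [intervalIntegral.integral_of_le (by norm_num), integral_Ioc_eq_integral_Ioo]
      rw [← integral_indicator measurableSet_Ioi, ← integral_indicator measurableSet_Ioo]
      congr 1
      funext y
      by_cases h0 : 0 < y
      · by_cases h1 : y < 1
        · rw [Set.indicator_of_mem (Set.mem_Ioi.2 h0), Set.indicator_of_mem (Set.mem_Ioo.2 ⟨h0, h1⟩)]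
          simp only [hf, if_pos h1, smul_eq_mul]
          ring
        · rw [Set.indicator_of_mem (Set.mem_Ioi.2 h0), Set.indicator_of_notMem (fun h => h1 h.2)]
          simp only [hf, if_neg h1, smul_zero]
      · rw [Set.indicator_of_notMem (show y ∉ Set.Ioi (0 : ℝ) from h0),
          Set.indicator_of_notMem (fun h => h0 h.1)]
    rw [h2, integral_log]
    simp only [nsmul_eq_mul, smul_eq_mul]
    push_cast
    ring

theorem norm_lt_one_of_mem_BB {r : ℝ} (hr : 0 ≤ r) (hr' : r ≤ 1 / 10) {k : ℝ × ℝ} (hk : k ∈ BB r) :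
    ‖k‖ < 1 := by
  obtain ⟨h1, h2⟩ := abs_le_of_mem_BB hr hk
  rw [Prod.norm_def, Real.norm_eq_abs, Real.norm_eq_abs]
  exact max_lt (by linarith) (by linarith)

namespace Spec

/-- logarithmic upper bound with a local constant -/
theorem V_le (h : Spec V u L C) (hV : Two V) {r D : ℝ} (hr : 0 < r) (hr' : r ≤ 1 / 10) (hD : 0 ≤ D)
    (hu : ∀ k : ℝ × ℝ, k ≠ 0 → NN k.1 k.2 < r ^ 2 → NN k.1 k.2 * u k ≤ D) {p : ℤ × ℤ} (hp : p ≠ 0) :
    V p ≤ 2 * D * Real.log (1 + l1 p ^ 2) + 4 * C / r ^ 2 := by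
  obtain ⟨hint, hrep⟩ := h.rep r {p, 0} (dd p) 4 hr hr' (sum_dd hp) (by
    intro k1 k2 _ _ _
    rw [normSq_fh_dd hp]
    exact sg_le_four _)
  rw [quad_dd hV hp] at hrep
  have h1 := (abs_le.1 hrep).2
  obtain ⟨hb1, hb2⟩ := integral_ball (l1 p)
  have hsub : BB r ⊆ {k : ℝ × ℝ | ‖k‖ < 1} := fun k hk => norm_lt_one_of_mem_BB hr.le hr' hk
  have hms : MeasurableSet {k : ℝ × ℝ | ‖k‖ < 1} :=
    (isOpen_lt continuous_norm continuous_const).measurableSet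
  have hpos : ∀ k : ℝ × ℝ, (0 : ℝ) < 1 + l1 p ^ 2 * ‖k‖ ^ 2 := fun y => by positivity
  have h2 : ∫ k in BB r, Complex.normSq (fh {p, 0} (dd p) k.1 k.2) * u k
      ≤ 64 * D * Real.log (1 + l1 p ^ 2) := by
    calc ∫ k in BB r, Complex.normSq (fh {p, 0} (dd p) k.1 k.2) * u k
        ≤ ∫ k in BB r, 16 * D * (l1 p ^ 2 / (1 + l1 p ^ 2 * ‖k‖ ^ 2)) := by
          refine setIntegral_mono_on hint ((hb1.mono_set hsub).const_mul _) (measurableSet_BB r) ?_
          intro k hk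
          rw [normSq_fh_dd hp]
          by_cases hk0 : k = 0
          · subst hk0
            have : sg ((p.1 : ℝ) * (0 : ℝ × ℝ).1 + (p.2 : ℝ) * (0 : ℝ × ℝ).2) = 0 := by simp [sg_zero]
            rw [this, zero_mul]
            have := hpos 0
            positivity
          have e1 := sg_lin_le p k
          have e2 := hu k hk0 hk
          have e3 := h.nonneg k
          have e4 := (hpos k).le
          calc sg ((p.1 : ℝ) * k.1 + (p.2 : ℝ) * k.2) * u k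
              ≤ (8 * l1 p ^ 2 * NN k.1 k.2 * (2 / (1 + l1 p ^ 2 * ‖k‖ ^ 2))) * u k :=
                mul_le_mul_of_nonneg_right e1 e3
            _ = 16 * (NN k.1 k.2 * u k) * (l1 p ^ 2 / (1 + l1 p ^ 2 * ‖k‖ ^ 2)) := by ring
            _ ≤ 16 * D * (l1 p ^ 2 / (1 + l1 p ^ 2 * ‖k‖ ^ 2)) := by
                refine mul_le_mul_of_nonneg_right ?_ (by positivity)
                linarith
      _ ≤ ∫ k in {k : ℝ × ℝ | ‖k‖ < 1}, 16 * D * (l1 p ^ 2 / (1 + l1 p ^ 2 * ‖k‖ ^ 2)) := by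
          refine setIntegral_mono_set (hb1.const_mul _) ?_ (Filter.Eventually.of_forall hsub)
          refine Filter.Eventually.of_forall fun k => ?_
          have := hpos k
          simp only [Pi.zero_apply]
          positivity
      _ = 64 * D * Real.log (1 + l1 p ^ 2) := by
          rw [integral_const_mul, hb2]; ring
  have hπ : (32 : ℝ) ≤ (2 * π) ^ 2 := by nlinarith [Real.pi_gt_three]
  have hlog : 0 ≤ Real.log (1 + l1 p ^ 2) := Real.log_nonneg (by nlinarith [sq_nonneg (l1 p)])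
  have h3 : (∫ k in BB r, Complex.normSq (fh {p, 0} (dd p) k.1 k.2) * u k) / (2 * π) ^ 2
      ≤ 2 * D * Real.log (1 + l1 p ^ 2) := by
    rw [div_le_iff₀ (by positivity)]
    refine h2.trans ?_
    have : 0 ≤ 2 * D * Real.log (1 + l1 p ^ 2) := by positivity
    nlinarith
  have h4 : C / r ^ 2 * 4 = 4 * C / r ^ 2 := by ring
  linarith

/-- the local constant tends to `L` -/
theorem exists_local (h : Spec V u L C) {D : ℝ} (hD : L < D) : ∃ r : ℝ, 0 < r ∧ r ≤ 1 / 10 ∧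
    ∀ k : ℝ × ℝ, k ≠ 0 → NN k.1 k.2 < r ^ 2 → NN k.1 k.2 * u k ≤ D := by
  have h1 := h.lim.eventually (gt_mem_nhds hD)
  rw [eventually_nhdsWithin_iff, Metric.eventually_nhds_iff] at h1
  obtain ⟨ε, hε, h2⟩ := h1
  refine ⟨min (1 / 10) (ε / 4), lt_min (by norm_num) (by linarith), min_le_left _ _, ?_⟩
  intro k hk hN
  have h0 : (0 : ℝ) ≤ min (1 / 10) (ε / 4) := le_min (by norm_num) (by linarith)
  obtain ⟨h3, h4⟩ := abs_le_of_mem_BB (r := min (1 / 10) (ε / 4)) h0 hN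
  refine (h2 ?_ hk).le
  rw [dist_zero_right, Prod.norm_def, Real.norm_eq_abs, Real.norm_eq_abs]
  have h5 := min_le_right (1 / 10 : ℝ) (ε / 4)
  exact max_lt (by linarith) (by linarith)

/-- crude logarithmic growth -/
theorem growth (h : Spec V u L C) (hV : Two V) : ∃ C' : ℝ, 0 < C' ∧ ∀ p,
    V p ≤ C' * (1 + Real.log (1 + l1 p ^ 2)) := by
  have hC := h.C_pos
  refine ⟨400 * C + 2 * C, by linarith, fun p => ?_⟩
  have hlog : 0 ≤ Real.log (1 + l1 p ^ 2) := Real.log_nonneg (by nlinarith [sq_nonneg (l1 p)])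
  by_cases hp : p = 0
  · subst hp; rw [hV.zero]; positivity
  have h1 := h.V_le hV (r := 1 / 10) (D := C) (by norm_num) le_rfl hC.le
    (fun k _ hk => h.bound k (by norm_num at hk ⊢; linarith)) hp
  have h2 : 4 * C / (1 / 10) ^ 2 = 400 * C := by ring
  rw [h2] at h1
  nlinarith

theorem tendsto_l1 : Tendsto (fun p : ℤ × ℤ => l1 p) cofinite atTop := by
  rw [tendsto_atTop]
  intro b
  have hfin : Set.Finite {p : ℤ × ℤ | ¬ b ≤ l1 p} := by
    obtain ⟨N, hN⟩ := exists_nat_ge b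
    refine Set.Finite.subset ((Set.finite_Icc (-(N : ℤ)) N).prod (Set.finite_Icc (-(N : ℤ)) N)) ?_
    intro p hp
    simp only [Set.mem_ofPred_eq, not_le] at hp
    unfold l1 at hp
    have h1 : |(p.1 : ℝ)| < N := by linarith [abs_nonneg (p.2 : ℝ)]
    have h2 : |(p.2 : ℝ)| < N := by linarith [abs_nonneg (p.1 : ℝ)]
    rw [abs_lt] at h1 h2
    refine ⟨⟨?_, ?_⟩, ⟨?_, ?_⟩⟩
    · exact_mod_cast h1.1.le
    · exact_mod_cast h1.2.le
    · exact_mod_cast h2.1.le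
    · exact_mod_cast h2.2.le
  exact hfin

/-- **positive stiffness from logarithmic growth** along infinitely many sites -/
theorem le_L_of_log (h : Spec V u L C) (hV : Two V) {c : ℝ}
    (hc : ∃ᶠ p in cofinite, c * Real.log (1 + l1 p ^ 2) ≤ V p) : c / 2 ≤ L := by
  by_contra hcon
  push Not at hcon
  obtain ⟨D, hD1, hD2⟩ := exists_between hcon
  have hD0 : 0 ≤ D := h.L_nonneg.trans hD1.le
  obtain ⟨r, hr, hr', hloc⟩ := h.exists_local hD1
  have hcD : 0 < c - 2 * D := by linarith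
  have hT : Tendsto (fun p : ℤ × ℤ => (c - 2 * D) * Real.log (1 + l1 p ^ 2)) cofinite atTop := by
    refine Tendsto.const_mul_atTop hcD ?_
    refine Real.tendsto_log_atTop.comp ?_
    refine tendsto_atTop_add_const_left _ _ ?_
    exact (tendsto_pow_atTop (by norm_num)).comp tendsto_l1
  have h1 := hT.eventually_gt_atTop (4 * C / r ^ 2)
  have h2 : ∀ᶠ p : ℤ × ℤ in cofinite, p ≠ 0 := by
    rw [Filter.eventually_cofinite]; simp
  obtain ⟨p, hp1, hp2, hp3⟩ := (hc.and_eventually (h1.and h2)).exists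
  have h3 := h.V_le hV hr hr' hD0 hloc hp3
  nlinarith

end Spec

end Crest.Agent.R144.Tp952
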