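import Crest.Agent.R144.Ham2_560
import Crest.Agent.R144.MW1_121

/-!
R144 (S0197), helper560, MW2: the explicit tangent field
`Y_u(x) = min_l (φ (last l) + Λ ∑ sl ε (∇))` over the simple paths `l` starting at `u`.

File 1: definition, comparison with `φ`, slope bound, Lipschitz bound, tangency.
-/

set_option autoImplicit false

open MeasureTheory Set
open scoped ENNReal NNReal
open Crest.Agent.R144.Ham560

noncomputable section

namespace Crest.Agent.R144.Tri560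

/-- Truncated slack of a slope. -/
def sl (ε s : ℝ) : ℝ := min 1 (max 0 ((1 - |s|) / ε))

theorem sl_nonneg (ε s : ℝ) : 0 ≤ sl ε s := le_min zero_le_one (le_max_left _ _)

theorem sl_le_one (ε s : ℝ) : sl ε s ≤ 1 := min_le_left _ _

theorem sl_neg (ε s : ℝ) : sl ε (-s) = sl ε s := by rw [sl, abs_neg, sl]

theorem sl_le {ε s : ℝ} (hε : 0 < ε) (hs : |s| ≤ 1) : ε * sl ε s ≤ 1 - |s| := by
  have h1 : sl ε s ≤ (1 - |s|) / ε := by
    rw [sl, max_eq_right (div_nonneg (by linarith) hε.le)]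
    exact min_le_right _ _
  calc ε * sl ε s ≤ ε * ((1 - |s|) / ε) := by gcongr
    _ = 1 - |s| := by field_simp

theorem sl_pos {ε s : ℝ} (hε : 0 < ε) (hs : |s| < 1) : 0 < sl ε s := by
  rw [sl]
  exact lt_min one_pos (lt_max_of_lt_right (div_pos (by linarith) hε))

theorem sl_eq_one {ε s : ℝ} (hε : 0 < ε) (hs : |s| ≤ 1 - ε) : sl ε s = 1 := by
  rw [sl, min_eq_left]
  refine le_max_of_le_right ?_
  rw [le_div_iff₀ hε]; linarith

theorem sl_lip {ε : ℝ} (hε : 0 < ε) (s t : ℝ) : |sl ε s - sl ε t| ≤ |s - t| / ε := by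
  have h1 : |(1 - |s|) / ε - (1 - |t|) / ε| ≤ |s - t| / ε := by
    rw [← sub_div, abs_div, abs_of_pos hε]
    refine div_le_div_of_nonneg_right ?_ hε.le
    rw [show (1 - |s|) - (1 - |t|) = |t| - |s| by ring]
    exact (abs_abs_sub_abs_le_abs_sub t s).trans (by rw [abs_sub_comm])
  have h2 : |max 0 ((1 - |s|) / ε) - max 0 ((1 - |t|) / ε)| ≤ |s - t| / ε :=
    (abs_max_sub_max_le_max _ _ _ _).trans (max_le (by simp; positivity) h1)
  exact (abs_min_sub_min_le_max _ _ _ _).trans (max_le (by simp; positivity) h2)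

variable {U : Type*} [DecidableEq U] {F : Finset U} {E : Finset (U × U)} {ξ : U → ℝ}

/-! ### Simple paths -/

/-- Duplicate-free lists with entries in `V`. -/
def nodupLists (V : Finset U) : Finset (List U) := V.powerset.biUnion fun s => s.val.lists.toFinset

theorem mem_nodupLists {V : Finset U} {l : List U} :
    l ∈ nodupLists V ↔ l.Nodup ∧ ∀ a ∈ l, a ∈ V := by
  rw [nodupLists, Finset.mem_biUnion]
  constructor
  · rintro ⟨s, hs, hl⟩
    rw [Multiset.mem_toFinset, Multiset.mem_lists_iff] at hl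
    rw [Finset.mem_powerset] at hs
    have h1 : (l : Multiset U) = s.val := hl.symm
    refine ⟨?_, fun a ha => hs ?_⟩
    · rw [← Multiset.coe_nodup, h1]; exact s.nodup
    · rw [← Finset.mem_val, ← h1]; exact ha
  · rintro ⟨h1, h2⟩
    refine ⟨l.toFinset, ?_, ?_⟩
    · rw [Finset.mem_powerset]
      intro a ha
      exact h2 a (List.mem_toFinset.mp ha)
    · rw [Multiset.mem_toFinset, Multiset.mem_lists_iff, List.toFinset_val, List.Nodup.dedup h1]
      rfl

theorem nbr_sy {a b : U} (h : b ∈ nbr E a) : a ∈ nbr E b := by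
  rw [mem_nbr] at h ⊢
  exact ⟨h.1.symm, h.2.symm⟩

/-- All vertices in play. -/
def vset (F : Finset U) (E : Finset (U × U)) : Finset U :=
  F ∪ (E.image Prod.fst ∪ E.image Prod.snd)

theorem nbr_mem_vset {a b : U} (h : b ∈ nbr E a) : a ∈ vset F E ∧ b ∈ vset F E := by
  simp only [vset, Finset.mem_union, Finset.mem_image]
  rcases (mem_nbr.mp h).2 with h | h
  · exact ⟨Or.inr (Or.inl ⟨_, h, rfl⟩), Or.inr (Or.inr ⟨_, h, rfl⟩)⟩
  · exact ⟨Or.inr (Or.inr ⟨_, h, rfl⟩), Or.inr (Or.inl ⟨_, h, rfl⟩)⟩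

/-- Simple paths starting at `u`. -/
def paths (F : Finset U) (E : Finset (U × U)) (u : U) : Finset (List U) :=
  insert [u] ((nodupLists (vset F E)).filter fun l => l.head? = some u ∧
    l.IsChain (fun a b => b ∈ nbr E a))

theorem mem_paths {u : U} {l : List U} : l ∈ paths F E u ↔ l = [u] ∨
    ((l.Nodup ∧ ∀ a ∈ l, a ∈ vset F E) ∧ l.head? = some u ∧
      l.IsChain (fun a b => b ∈ nbr E a)) := by
  rw [paths, Finset.mem_insert, Finset.mem_filter, mem_nodupLists]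

theorem single_mem_paths (u : U) : [u] ∈ paths F E u := mem_paths.mpr (Or.inl rfl)

theorem paths_spec {u : U} {l : List U} (h : l ∈ paths F E u) :
    l.Nodup ∧ l.head? = some u ∧ l.IsChain (fun a b => b ∈ nbr E a) := by
  rcases mem_paths.mp h with rfl | ⟨⟨h1, _⟩, h2, h3⟩
  · simp
  · exact ⟨h1, h2, h3⟩

theorem paths_cons {a b : U} {l : List U} (hab : b ∈ nbr E a) (hl : l ∈ paths F E b)
    (ha : a ∉ l) : a :: l ∈ paths F E a := by
  obtain ⟨h1, h2, h3⟩ := paths_spec hl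
  have hV := nbr_mem_vset (F := F) hab
  refine mem_paths.mpr (Or.inr ⟨⟨?_, ?_⟩, rfl, ?_⟩)
  · rw [List.nodup_cons]; exact ⟨ha, h1⟩
  · intro c hc
    rcases List.mem_cons.mp hc with rfl | hc
    · exact hV.1
    · rcases mem_paths.mp hl with rfl | ⟨⟨_, h4⟩, _⟩
      · rw [List.mem_singleton.mp hc]; exact hV.2
      · exact h4 c hc
  · rw [List.isChain_cons]
    refine ⟨fun y hy => ?_, h3⟩
    rw [h2] at hy
    obtain rfl := Option.mem_some_iff.mp hy
    exact hab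

theorem paths_suffix {b z : U} {l1 l2 : List U} (h : l1 ++ z :: l2 ∈ paths F E b) :
    z :: l2 ∈ paths F E z := by
  rcases mem_paths.mp h with h | ⟨⟨h1, h2⟩, _, h4⟩
  · rcases l1 with _ | ⟨c, l1⟩
    · simp only [List.nil_append, List.cons.injEq] at h
      obtain ⟨rfl, rfl⟩ := h
      exact single_mem_paths _
    · simp at h
  · refine mem_paths.mpr (Or.inr ⟨⟨?_, ?_⟩, rfl, ?_⟩)
    · exact h1.sublist (List.sublist_append_right _ _)
    · exact fun a ha => h2 a (List.mem_append_right _ ha)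
    · exact h4.right_of_append

/-! ### Costs -/

/-- Sum of the step costs plus the value of `φ` at the end. -/
def cost (φ : U → ℝ) (c : U → U → ℝ) : List U → ℝ
  | [] => 0
  | [a] => φ a
  | a :: b :: t => c a b + cost φ c (b :: t)

/-- Sum of the step costs. -/
def stp (c : U → U → ℝ) : List U → ℝ
  | [] => 0
  | [_] => 0
  | a :: b :: t => c a b + stp c (b :: t)

omit [DecidableEq U] in
theorem cost_cons (φ : U → ℝ) (c : U → U → ℝ) (a b : U) (t : List U) :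
    cost φ c (a :: b :: t) = c a b + cost φ c (b :: t) := rfl

omit [DecidableEq U] in
theorem stp_cons (c : U → U → ℝ) (a b : U) (t : List U) :
    stp c (a :: b :: t) = c a b + stp c (b :: t) := rfl

omit [DecidableEq U] in
theorem stp_nonneg {c : U → U → ℝ} (hc : ∀ a b, 0 ≤ c a b) : ∀ l, 0 ≤ stp c l
  | [] => le_rfl
  | [_] => le_rfl
  | a :: b :: t => by rw [stp_cons]; exact add_nonneg (hc a b) (stp_nonneg hc _)

omit [DecidableEq U] in
theorem cost_nonneg {φ : U → ℝ} {c : U → U → ℝ} (hφ : ∀ a, 0 ≤ φ a) (hc : ∀ a b, 0 ≤ c a b) :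
    ∀ l, 0 ≤ cost φ c l
  | [] => le_rfl
  | [a] => hφ a
  | a :: b :: t => by rw [cost_cons]; exact add_nonneg (hc a b) (cost_nonneg hφ hc _)

omit [DecidableEq U] in
theorem cost_append (φ : U → ℝ) (c : U → U → ℝ) (z : U) (l2 : List U) : ∀ l1 : List U,
    cost φ c (l1 ++ z :: l2) = stp c (l1 ++ [z]) + cost φ c (z :: l2)
  | [] => by simp [stp]
  | [a] => by
    simp only [List.cons_append, List.nil_append, cost_cons, stp_cons]
    simp [stp]
  | a :: b :: t => by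
    have ih := cost_append φ c z l2 (b :: t)
    simp only [List.cons_append] at ih ⊢
    rw [cost_cons, stp_cons, ih]; ring

variable (F E) in
/-- Step cost at the configuration `x`. -/
def cc (ξ : U → ℝ) (ε Λ : ℝ) (x : F → ℝ) (a b : U) : ℝ :=
  Λ * sl ε (ext F ξ x a - ext F ξ x b)

theorem cc_nonneg {ε Λ : ℝ} (hΛ : 0 ≤ Λ) (x : F → ℝ) (a b : U) : 0 ≤ cc F ξ ε Λ x a b :=
  mul_nonneg hΛ (sl_nonneg _ _)

theorem cc_symm (ε Λ : ℝ) (x : F → ℝ) (a b : U) : cc F ξ ε Λ x a b = cc F ξ ε Λ x b a := by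
  rw [cc, cc, ← sl_neg, neg_sub]

/-- The explicit field. -/
def Yf (F : Finset U) (E : Finset (U × U)) (ξ : U → ℝ) (ε Λ : ℝ) (φ : U → ℝ) (x : F → ℝ)
    (u : U) : ℝ :=
  (paths F E u).inf' ⟨[u], single_mem_paths u⟩ (cost φ (cc F ξ ε Λ x))

section

variable {ε Λ : ℝ} {φ : U → ℝ} {x : F → ℝ}

theorem Yf_le_cost {u : U} {l : List U} (hl : l ∈ paths F E u) :
    Yf F E ξ ε Λ φ x u ≤ cost φ (cc F ξ ε Λ x) l := Finset.inf'_le _ hl

theorem exists_opt (u : U) : ∃ l ∈ paths F E u, Yf F E ξ ε Λ φ x u = cost φ (cc F ξ ε Λ x) l :=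
  Finset.exists_mem_eq_inf' _ _

theorem Yf_le (u : U) : Yf F E ξ ε Λ φ x u ≤ φ u := Yf_le_cost (single_mem_paths u)

theorem Yf_nonneg (hΛ : 0 ≤ Λ) (hφ : ∀ a, 0 ≤ φ a) (u : U) : 0 ≤ Yf F E ξ ε Λ φ x u := by
  obtain ⟨l, _, h⟩ := exists_opt (F := F) (E := E) (ξ := ξ) (ε := ε) (Λ := Λ) (φ := φ) (x := x) u
  rw [h]
  exact cost_nonneg hφ (cc_nonneg hΛ x) l

theorem Yf_eq_zero (hΛ : 0 ≤ Λ) (hφ : ∀ a, 0 ≤ φ a) {u : U} (hu : φ u = 0) :
    Yf F E ξ ε Λ φ x u = 0 :=
  le_antisymm (hu ▸ Yf_le u) (Yf_nonneg hΛ hφ u)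

theorem Yf_step (hΛ : 0 ≤ Λ) {a b : U} (hab : b ∈ nbr E a) :
    Yf F E ξ ε Λ φ x a ≤ cc F ξ ε Λ x a b + Yf F E ξ ε Λ φ x b := by
  obtain ⟨l, hl, h⟩ := exists_opt (F := F) (E := E) (ξ := ξ) (ε := ε) (Λ := Λ) (φ := φ) (x := x) b
  rw [h]
  by_cases ha : a ∈ l
  · obtain ⟨l1, l2, rfl⟩ := List.append_of_mem ha
    refine (Yf_le_cost (paths_suffix hl)).trans ?_
    rw [cost_append]
    have h1 := stp_nonneg (cc_nonneg (ξ := ξ) (ε := ε) hΛ x) (l1 ++ [a])
    have h2 := cc_nonneg (ξ := ξ) (ε := ε) hΛ x a b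
    linarith
  · refine (Yf_le_cost (paths_cons hab hl ha)).trans ?_
    obtain ⟨_, h2, _⟩ := paths_spec hl
    match l with
    | [] => simp at h2
    | c :: t =>
      simp only [List.head?_cons, Option.some.injEq] at h2
      rw [h2, cost_cons]

theorem Yf_sub_le (hΛ : 0 ≤ Λ) {a b : U} (hab : b ∈ nbr E a) :
    |Yf F E ξ ε Λ φ x a - Yf F E ξ ε Λ φ x b| ≤ cc F ξ ε Λ x a b := by
  have h1 := Yf_step (ξ := ξ) (ε := ε) (φ := φ) (x := x) hΛ hab
  have h2 := Yf_step (ξ := ξ) (ε := ε) (φ := φ) (x := x) hΛ (nbr_sy hab)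
  rw [cc_symm] at h2
  rw [abs_le]; constructor <;> linarith

end

end Crest.Agent.R144.Tri560
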