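import Crest.Agent.R144.Tri1_560

/-!
R144 (S0197), helper560, MW2: the explicit tangent field, file 2.

* `Yv` : the field on the free sites, `lip_Yv`, `tan_Yv : MW121.Tan (ham F E ξ) Yv c (ε / Λ)`;
* triangular Jacobian: `jac_eq_zero_of_notMem`, `abs_jac_diag_le`, `abs_jac_le`, `jac_row_zero`,
  `ae_lt`, `det_tri`, `det_jac`, `trace_jac_sq`, `en_le_sum`.
-/

set_option autoImplicit false

open MeasureTheory Set Filter Topology
open scoped ENNReal NNReal
open Crest.Agent.R144.Ham560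
open Crest.Agent.R144.MW121 (jac jac_apply Tan en)

noncomputable section

namespace Crest.Agent.R144.Tri560

variable {U : Type*} [DecidableEq U] {F : Finset U} {E : Finset (U × U)} {ξ : U → ℝ}
variable {ε Λ : ℝ} {φ : U → ℝ}

/-! ### Lipschitz bounds -/

theorem ext_lip (x y : F → ℝ) (u : U) : |ext F ξ x u - ext F ξ y u| ≤ ‖x - y‖ := by
  by_cases hu : u ∈ F
  · rw [ext_mem hu, ext_mem hu]
    exact norm_le_pi_norm (x - y) ⟨u, hu⟩
  · rw [ext_notMem hu, ext_notMem hu]; simp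

theorem cc_lip (hε : 0 < ε) (hΛ : 0 ≤ Λ) (x y : F → ℝ) (a b : U) :
    |cc F ξ ε Λ x a b - cc F ξ ε Λ y a b| ≤ 2 * Λ / ε * ‖x - y‖ := by
  rw [cc, cc, ← mul_sub, abs_mul, abs_of_nonneg hΛ]
  have h1 := sl_lip hε (ext F ξ x a - ext F ξ x b) (ext F ξ y a - ext F ξ y b)
  have h2 := ext_lip (ξ := ξ) x y a
  have h3 := ext_lip (ξ := ξ) x y b
  have h4 : |ext F ξ x a - ext F ξ x b - (ext F ξ y a - ext F ξ y b)| ≤ 2 * ‖x - y‖ := by
    rw [abs_le] at h2 h3 ⊢
    constructor <;> linarith [h2.1, h2.2, h3.1, h3.2]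
  calc Λ * |sl ε (ext F ξ x a - ext F ξ x b) - sl ε (ext F ξ y a - ext F ξ y b)|
      ≤ Λ * (2 * ‖x - y‖ / ε) := by
        gcongr
        exact h1.trans (div_le_div_of_nonneg_right h4 hε.le)
    _ = 2 * Λ / ε * ‖x - y‖ := by ring

theorem cost_lip (hε : 0 < ε) (hΛ : 0 ≤ Λ) (x y : F → ℝ) : ∀ l : List U,
    |cost φ (cc F ξ ε Λ x) l - cost φ (cc F ξ ε Λ y) l| ≤ l.length * (2 * Λ / ε * ‖x - y‖)
  | [] => by simp [cost]
  | [a] => by
    simp only [cost, sub_self, abs_zero]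
    positivity
  | a :: b :: t => by
    have ih := cost_lip hε hΛ x y (b :: t)
    have h1 := cc_lip (ξ := ξ) hε hΛ x y a b
    rw [cost_cons, cost_cons, List.length_cons]
    push_cast
    rw [abs_le] at ih h1 ⊢
    constructor <;> nlinarith [ih.1, ih.2, h1.1, h1.2]

theorem length_paths {u : U} {l : List U} (hl : l ∈ paths F E u) :
    l.length ≤ (vset F E).card + 1 := by
  rcases mem_paths.mp hl with rfl | ⟨⟨h1, h2⟩, _⟩
  · simp
  · rw [← List.toFinset_card_of_nodup h1]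
    exact (Finset.card_le_card fun a ha => h2 a (List.mem_toFinset.mp ha)).trans (Nat.le_succ _)

/-- Lipschitz constant of the field. -/
def lc (F : Finset U) (E : Finset (U × U)) (ε Λ : ℝ) : ℝ≥0 :=
  Real.toNNReal (((vset F E).card + 1) * (2 * Λ / ε))

theorem coe_lc (hε : 0 < ε) (hΛ : 0 ≤ Λ) :
    ((lc F E ε Λ : ℝ≥0) : ℝ) = ((vset F E).card + 1) * (2 * Λ / ε) := by
  rw [lc, Real.coe_toNNReal _ (by positivity)]

theorem Yf_lip (hε : 0 < ε) (hΛ : 0 ≤ Λ) (x y : F → ℝ) (u : U) :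
    |Yf F E ξ ε Λ φ x u - Yf F E ξ ε Λ φ y u| ≤ lc F E ε Λ * ‖x - y‖ := by
  rw [coe_lc hε hΛ]
  have key : ∀ x y : F → ℝ, Yf F E ξ ε Λ φ x u ≤ Yf F E ξ ε Λ φ y u +
      ((vset F E).card + 1) * (2 * Λ / ε) * ‖x - y‖ := by
    intro x y
    obtain ⟨l, hl, h⟩ := exists_opt (F := F) (E := E) (ξ := ξ) (ε := ε) (Λ := Λ) (φ := φ)
      (x := y) u
    rw [h]
    have h1 := Yf_le_cost (ξ := ξ) (ε := ε) (Λ := Λ) (φ := φ) (x := x) hl
    have h2 := (abs_le.mp (cost_lip (ξ := ξ) (φ := φ) hε hΛ x y l)).2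
    have h3 : (l.length : ℝ) ≤ (vset F E).card + 1 := by exact_mod_cast length_paths hl
    have h4 : (l.length : ℝ) * (2 * Λ / ε * ‖x - y‖) ≤
        ((vset F E).card + 1) * (2 * Λ / ε * ‖x - y‖) := by gcongr
    linarith
  have h1 := key x y
  have h2 := key y x
  rw [norm_sub_rev] at h2
  rw [abs_le]; constructor <;> linarith

/-- The field on the free sites. -/
def Yv (F : Finset U) (E : Finset (U × U)) (ξ : U → ℝ) (ε Λ : ℝ) (φ : U → ℝ) (x : F → ℝ) :
    F → ℝ := fun v => Yf F E ξ ε Λ φ x v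

theorem lip_Yv (hε : 0 < ε) (hΛ : 0 ≤ Λ) :
    LipschitzWith (lc F E ε Λ) (Yv F E ξ ε Λ φ) := by
  refine LipschitzWith.of_dist_le_mul fun x y => ?_
  rw [dist_pi_le_iff (by positivity)]
  intro v
  rw [Real.dist_eq, dist_eq_norm]
  exact Yf_lip hε hΛ x y v

theorem ext_add_smul (hΛ : 0 ≤ Λ) (hφ : ∀ a, 0 ≤ φ a) (hφF : ∀ a, a ∉ F → φ a = 0) (x : F → ℝ)
    (t : ℝ) (u : U) :
    ext F ξ (x + t • Yv F E ξ ε Λ φ x) u = ext F ξ x u + t * Yf F E ξ ε Λ φ x u := by
  by_cases hu : u ∈ F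
  · rw [ext_mem hu, ext_mem hu]; rfl
  · rw [ext_notMem hu, ext_notMem hu, Yf_eq_zero hΛ hφ (hφF u hu)]; ring

/-- The explicit field is tangent to every hammock polytope. -/
theorem tan_Yv (hε : 0 < ε) (hΛ : 0 < Λ) (hφ : ∀ a, 0 ≤ φ a) (hφF : ∀ a, a ∉ F → φ a = 0) :
    Tan (ham F E ξ) (Yv F E ξ ε Λ φ) (lc F E ε Λ) (ε / Λ) where
  lip := lip_Yv hε hΛ.le
  pos := by positivity
  inv := by
    intro x hx t ht p hp
    rw [ext_add_smul hΛ.le hφ hφF, ext_add_smul hΛ.le hφ hφF]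
    by_cases hne : p.2 = p.1
    · rw [hne]; simp
    have hnb : p.2 ∈ nbr E p.1 := mem_nbr.mpr ⟨hne, Or.inl hp⟩
    have h1 := Yf_sub_le (ξ := ξ) (ε := ε) (φ := φ) (x := x) hΛ.le hnb
    have h2 := hx p hp
    have h3 := sl_le hε h2
    have h4 : |t| * Λ ≤ ε := by
      calc |t| * Λ ≤ ε / Λ * Λ := by gcongr
        _ = ε := by field_simp
    have h5 : |t * (Yf F E ξ ε Λ φ x p.1 - Yf F E ξ ε Λ φ x p.2)| ≤
        1 - |ext F ξ x p.1 - ext F ξ x p.2| := by
      rw [abs_mul]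
      calc |t| * |Yf F E ξ ε Λ φ x p.1 - Yf F E ξ ε Λ φ x p.2|
          ≤ |t| * (Λ * sl ε (ext F ξ x p.1 - ext F ξ x p.2)) := by gcongr; exact h1
        _ = (|t| * Λ) * sl ε (ext F ξ x p.1 - ext F ξ x p.2) := by ring
        _ ≤ ε * sl ε (ext F ξ x p.1 - ext F ξ x p.2) := by
            gcongr; exact sl_nonneg _ _
        _ ≤ _ := h3
    calc |ext F ξ x p.1 + t * Yf F E ξ ε Λ φ x p.1 - (ext F ξ x p.2 + t * Yf F E ξ ε Λ φ x p.2)|
        = |(ext F ξ x p.1 - ext F ξ x p.2) +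
            t * (Yf F E ξ ε Λ φ x p.1 - Yf F E ξ ε Λ φ x p.2)| := by congr 1; ring
      _ ≤ |ext F ξ x p.1 - ext F ξ x p.2| +
            |t * (Yf F E ξ ε Λ φ x p.1 - Yf F E ξ ε Λ φ x p.2)| := abs_add_le _ _
      _ ≤ 1 := by linarith

/-! ### Dependence on one coordinate -/

theorem ext_add_single (x : F → ℝ) (z : F) (t : ℝ) (u : U) :
    ext F ξ (x + t • Pi.single z 1) u = ext F ξ x u + if u = z then t else 0 := by
  by_cases hu : u ∈ F
  · rw [ext_mem hu, ext_mem hu]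
    by_cases h : u = z
    · subst h
      simp
    · have : (⟨u, hu⟩ : F) ≠ z := fun h' => h (congrArg Subtype.val h')
      simp [h, this]
  · have : u ≠ z := fun h => hu (h ▸ z.2)
    rw [ext_notMem hu, ext_notMem hu, if_neg this, add_zero]

theorem cc_single_of_ne {x : F → ℝ} {z : F} {t : ℝ} {a b : U} (ha : a ≠ z) (hb : b ≠ z) :
    cc F ξ ε Λ (x + t • Pi.single z 1) a b = cc F ξ ε Λ x a b := by
  rw [cc, cc, ext_add_single, ext_add_single, if_neg ha, if_neg hb, add_zero, add_zero]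

theorem cc_single_le (hε : 0 < ε) (hΛ : 0 ≤ Λ) {x : F → ℝ} {z : F} {t : ℝ} {a b : U}
    (hab : a ≠ b) :
    cc F ξ ε Λ (x + t • Pi.single z 1) a b ≤ cc F ξ ε Λ x a b + Λ / ε * |t| := by
  have h1 := sl_lip hε (ext F ξ (x + t • Pi.single z 1) a - ext F ξ (x + t • Pi.single z 1) b)
    (ext F ξ x a - ext F ξ x b)
  have h2 : |ext F ξ (x + t • Pi.single z 1) a - ext F ξ (x + t • Pi.single z 1) b -
      (ext F ξ x a - ext F ξ x b)| ≤ |t| := by
    rw [ext_add_single, ext_add_single]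
    by_cases ha : a = z
    · have hb : b ≠ z := fun h => hab (ha.trans h.symm)
      rw [if_pos ha, if_neg hb]
      apply le_of_eq; congr 1; ring
    · by_cases hb : b = z
      · rw [if_neg ha, if_pos hb, ← abs_neg]
        apply le_of_eq; congr 1; ring
      · rw [if_neg ha, if_neg hb]
        simp
  have h3 := h1.trans (div_le_div_of_nonneg_right h2 hε.le)
  rw [cc, cc]
  have h4 := mul_le_mul_of_nonneg_left (abs_le.mp h3).2 hΛ
  have h5 : Λ * (|t| / ε) = Λ / ε * |t| := by ring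
  rw [h5, mul_sub] at h4
  linarith

theorem cost_single_of_notMem {x : F → ℝ} {z : F} {t : ℝ} : ∀ l : List U, (z : U) ∉ l →
    cost φ (cc F ξ ε Λ (x + t • Pi.single z 1)) l = cost φ (cc F ξ ε Λ x) l
  | [], _ => rfl
  | [a], _ => rfl
  | a :: b :: s, h => by
    have h1 : a ≠ z := fun e => h (e ▸ List.mem_cons_self)
    have h2 : (z : U) ∉ b :: s := fun e => h (List.mem_cons_of_mem _ e)
    have h3 : b ≠ z := fun e => h2 (e ▸ List.mem_cons_self)
    rw [cost_cons, cost_cons, cc_single_of_ne h1 h3, cost_single_of_notMem (b :: s) h2]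

theorem cost_single_head (hε : 0 < ε) (hΛ : 0 ≤ Λ) {x : F → ℝ} {z : F} {t : ℝ} {s : List U}
    (hs : ((z : U) :: s).Nodup) :
    cost φ (cc F ξ ε Λ (x + t • Pi.single z 1)) (z :: s) ≤
      cost φ (cc F ξ ε Λ x) (z :: s) + Λ / ε * |t| := by
  match s with
  | [] => simp only [cost]; have : 0 ≤ Λ / ε * |t| := by positivity
          linarith
  | b :: s =>
    rw [List.nodup_cons] at hs
    have h1 : (z : U) ≠ b := fun e => hs.1 (e ▸ List.mem_cons_self)
    rw [cost_cons, cost_cons, cost_single_of_notMem (b :: s) hs.1]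
    have := cc_single_le (ξ := ξ) (x := x) (z := z) (t := t) hε hΛ h1
    linarith

theorem cost_single_le (hε : 0 < ε) (hΛ : 0 ≤ Λ) {x : F → ℝ} {z : F} {t : ℝ} :
    ∀ l : List U, l.Nodup → cost φ (cc F ξ ε Λ (x + t • Pi.single z 1)) l ≤
      cost φ (cc F ξ ε Λ x) l + 2 * Λ / ε * |t|
  | [], _ => by simp only [cost]; positivity
  | [a], _ => by simp only [cost]; have : 0 ≤ 2 * Λ / ε * |t| := by positivity
                 linarith
  | a :: b :: s, hs => by
    have h0 : 0 ≤ Λ / ε * |t| := by positivity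
    have h2 : 2 * Λ / ε * |t| = Λ / ε * |t| + Λ / ε * |t| := by ring
    rw [List.nodup_cons] at hs
    by_cases ha : a = z
    · subst ha
      have := cost_single_head (ξ := ξ) (φ := φ) (x := x) (z := z) (t := t) hε hΛ
        (List.nodup_cons.mpr hs)
      linarith
    · by_cases hb : b = z
      · subst hb
        have h3 := cost_single_head (ξ := ξ) (φ := φ) (x := x) (z := z) (t := t) hε hΛ hs.2
        have h4 := cc_single_le (ξ := ξ) (x := x) (z := z) (t := t) hε hΛ ha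
        rw [cost_cons, cost_cons]
        linarith
      · have ih := cost_single_le hε hΛ (x := x) (z := z) (t := t) (b :: s) hs.2
        rw [cost_cons, cost_cons, cc_single_of_ne ha hb]
        linarith

/-! ### Touching from above -/

theorem abs_deriv_le_of_le {f : ℝ → ℝ} {d L : ℝ} (hf : HasDerivAt f d 0)
    (hle : ∀ t, f t ≤ f 0 + L * |t|) : |d| ≤ L := by
  have h1 := hf.tendsto_slope_zero_right
  have h2 := hf.tendsto_slope_zero_left
  simp only [zero_add, smul_eq_mul] at h1 h2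
  rw [abs_le]
  constructor
  · refine ge_of_tendsto h2 ?_
    filter_upwards [self_mem_nhdsWithin] with t ht
    have ht' : t < 0 := ht
    have h3 := hle t
    rw [abs_of_neg ht'] at h3
    have h4 : t⁻¹ < 0 := inv_lt_zero.mpr ht'
    have h5 : t⁻¹ * t = 1 := inv_mul_cancel₀ ht'.ne
    have h6 := mul_le_mul_of_nonpos_left (show f t - f 0 ≤ -(L * t) by linarith) h4.le
    have h7 : t⁻¹ * (-(L * t)) = -L := by linear_combination (-L) * h5
    linarith
  · refine le_of_tendsto h1 ?_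
    filter_upwards [self_mem_nhdsWithin] with t ht
    have ht' : 0 < t := ht
    have h3 := hle t
    rw [abs_of_pos ht'] at h3
    have h4 : 0 < t⁻¹ := inv_pos.mpr ht'
    have h5 : t⁻¹ * t = 1 := inv_mul_cancel₀ ht'.ne'
    have h6 := mul_le_mul_of_nonneg_left (show f t - f 0 ≤ L * t by linarith) h4.le
    have h7 : t⁻¹ * (L * t) = L := by linear_combination L * h5
    linarith

theorem hasDerivAt_line {x : F → ℝ} (hd : DifferentiableAt ℝ (Yv F E ξ ε Λ φ) x) (u z : F) :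
    HasDerivAt (fun t : ℝ => Yf F E ξ ε Λ φ (x + t • Pi.single z 1) u)
      (jac (Yv F E ξ ε Λ φ) x u z) 0 := by
  have h1 : HasFDerivAt (Yv F E ξ ε Λ φ) (fderiv ℝ (Yv F E ξ ε Λ φ) x)
      (x + (0 : ℝ) • Pi.single z 1) := by simpa using hd.hasFDerivAt
  have h2 : HasDerivAt (fun t : ℝ => x + t • (Pi.single z 1 : F → ℝ)) (Pi.single z 1) 0 := by
    have := ((hasDerivAt_id (0 : ℝ)).smul_const (Pi.single z 1 : F → ℝ)).const_add x
    simpa using this
  have h3 := h1.comp_hasDerivAt (0 : ℝ) h2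
  have h4 := (hasDerivAt_pi.mp h3) u
  rw [jac_apply]
  exact h4

section jac

variable {x : F → ℝ} (hd : DifferentiableAt ℝ (Yv F E ξ ε Λ φ) x)
include hd

theorem jac_eq_zero_of_notMem {u : F} {l : List U} (hl : l ∈ paths F E u)
    (ho : Yf F E ξ ε Λ φ x u = cost φ (cc F ξ ε Λ x) l) {z : F} (hz : (z : U) ∉ l) :
    jac (Yv F E ξ ε Λ φ) x u z = 0 := by
  have h := abs_deriv_le_of_le (L := 0) (hasDerivAt_line hd u z) (by
    intro t
    have h1 := Yf_le_cost (ξ := ξ) (ε := ε) (Λ := Λ) (φ := φ)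
      (x := x + t • Pi.single z 1) hl
    rw [cost_single_of_notMem l hz, ← ho] at h1
    simpa using h1)
  exact abs_nonpos_iff.mp h

theorem jac_row_zero {u : F} (ho : Yf F E ξ ε Λ φ x u = φ u) (z : F) :
    jac (Yv F E ξ ε Λ φ) x u z = 0 := by
  have h := abs_deriv_le_of_le (L := 0) (hasDerivAt_line hd u z) (by
    intro t
    have h1 := Yf_le (F := F) (E := E) (ξ := ξ) (ε := ε) (Λ := Λ) (φ := φ)
      (x := x + t • Pi.single z 1) u
    rw [← ho] at h1
    simpa using h1)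
  exact abs_nonpos_iff.mp h

theorem abs_jac_diag_le (hε : 0 < ε) (hΛ : 0 ≤ Λ) (u : F) :
    |jac (Yv F E ξ ε Λ φ) x u u| ≤ Λ / ε := by
  obtain ⟨l, hl, ho⟩ := exists_opt (F := F) (E := E) (ξ := ξ) (ε := ε) (Λ := Λ) (φ := φ)
    (x := x) u
  obtain ⟨h1, h2, _⟩ := paths_spec hl
  match l with
  | [] => simp at h2
  | a :: s =>
    simp only [List.head?_cons, Option.some.injEq] at h2
    subst h2
    refine abs_deriv_le_of_le (hasDerivAt_line hd u u) fun t => ?_
    have h3 := Yf_le_cost (ξ := ξ) (ε := ε) (Λ := Λ) (φ := φ)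
      (x := x + t • Pi.single u 1) hl
    have h4 := cost_single_head (ξ := ξ) (φ := φ) (x := x) (z := u) (t := t) hε hΛ h1
    have h5 : Yf F E ξ ε Λ φ (x + (0 : ℝ) • Pi.single u 1) u = Yf F E ξ ε Λ φ x u := by simp
    rw [h5, ho]
    linarith

theorem abs_jac_le (hε : 0 < ε) (hΛ : 0 ≤ Λ) (u z : F) :
    |jac (Yv F E ξ ε Λ φ) x u z| ≤ 2 * Λ / ε := by
  obtain ⟨l, hl, ho⟩ := exists_opt (F := F) (E := E) (ξ := ξ) (ε := ε) (Λ := Λ) (φ := φ)
    (x := x) u
  obtain ⟨h1, h2, _⟩ := paths_spec hl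
  refine abs_deriv_le_of_le (hasDerivAt_line hd u z) fun t => ?_
  have h3 := Yf_le_cost (ξ := ξ) (ε := ε) (Λ := Λ) (φ := φ)
    (x := x + t • Pi.single z 1) hl
  have h4 := cost_single_le (ξ := ξ) (φ := φ) (x := x) (z := z) (t := t) hε hΛ l h1
  have h5 : Yf F E ξ ε Λ φ (x + (0 : ℝ) • Pi.single z 1) u = Yf F E ξ ε Λ φ x u := by simp
  rw [h5, ho]
  linarith

end jac

/-- The value is strictly smaller at later vertices of an optimal path. -/
theorem Yf_lt_of_mem (hε : 0 < ε) (hΛ : 0 < Λ) {x : F → ℝ} {u : U}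
    (hx : ∀ b ∈ nbr E u, |ext F ξ x u - ext F ξ x b| < 1) {l : List U} (hl : l ∈ paths F E u)
    (ho : Yf F E ξ ε Λ φ x u = cost φ (cc F ξ ε Λ x) l) {z : U} (hz : z ∈ l) (hzu : z ≠ u) :
    Yf F E ξ ε Λ φ x z < Yf F E ξ ε Λ φ x u := by
  obtain ⟨h1, h2, h3⟩ := paths_spec hl
  match l with
  | [] => simp at h2
  | [a] =>
    simp only [List.head?_cons, Option.some.injEq] at h2
    rw [List.mem_singleton.mp hz, h2] at hzu
    exact absurd rfl hzu
  | a :: b :: s =>
    simp only [List.head?_cons, Option.some.injEq] at h2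
    subst h2
    rw [List.isChain_cons_cons] at h3
    have hpos : 0 < cc F ξ ε Λ x a b := mul_pos hΛ (sl_pos hε (hx b h3.1))
    have hz' : z ∈ b :: s := by
      rcases List.mem_cons.mp hz with h | h
      · exact absurd h hzu
      · exact h
    obtain ⟨l1, l2, hl12⟩ := List.append_of_mem hz'
    have hsuf : z :: l2 ∈ paths F E z := by
      have : (a :: l1) ++ z :: l2 ∈ paths F E a := by
        rw [List.cons_append, ← hl12]; exact hl
      exact paths_suffix this
    have h5 := Yf_le_cost (ξ := ξ) (ε := ε) (Λ := Λ) (φ := φ) (x := x) hsuf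
    have h6 := stp_nonneg (cc_nonneg (ξ := ξ) (ε := ε) hΛ.le x) (l1 ++ [z])
    rw [ho, cost_cons, hl12, cost_append]
    linarith

/-- Determinant of a matrix which is triangular for the order of the values of `b`. -/
theorem det_tri {n : Type*} [Fintype n] [DecidableEq n] (M : Matrix n n ℝ) (b : n → ℝ)
    (h : ∀ i j, M i j ≠ 0 → i = j ∨ b j < b i) : M.det = ∏ i, M i i := by
  rw [Matrix.det_apply]
  rw [Finset.sum_eq_single (1 : Equiv.Perm n)]
  · simp
  · intro σ _ hσ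
    have : ∏ i, M (σ i) i = 0 := by
      by_contra hne
      have h1 : ∀ i, M (σ i) i ≠ 0 := fun i hi =>
        hne (Finset.prod_eq_zero (Finset.mem_univ i) hi)
      have h2 : ∀ i, b i ≤ b (σ i) := fun i => by
        rcases h _ _ (h1 i) with h3 | h3
        · rw [h3]
        · exact h3.le
      have h3 : ∑ i, b (σ i) = ∑ i, b i := Equiv.sum_comp σ b
      apply hσ
      ext i
      rcases h _ _ (h1 i) with h4 | h4
      · simpa using h4
      · exfalso
        have : ∑ i, b i < ∑ i, b (σ i) :=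
          Finset.sum_lt_sum (fun i _ => h2 i) ⟨i, Finset.mem_univ i, h4⟩
        linarith
    rw [this, smul_zero]
  · intro h1
    exact absurd (Finset.mem_univ _) h1

/-- Level sets of a slope are null sets. -/
theorem volume_level {u : U} (hu : u ∈ F) {b : U} (hb : b ≠ u) (c : ℝ) :
    volume {x : F → ℝ | ext F ξ x u - ext F ξ x b = c} = 0 := by
  classical
  set S := {x : F → ℝ | ext F ξ x u - ext F ξ x b = c} with hS
  have hSm : MeasurableSet S :=
    (isClosed_eq ((continuous_ext u).sub (continuous_ext b)) continuous_const).measurableSet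
  have key : ∫⁻ x, S.indicator 1 x ∂(Measure.pi fun _ : F => (volume : Measure ℝ)) ≤
      ∫⁻ _x : F → ℝ, 0 ∂(Measure.pi fun _ : F => (volume : Measure ℝ)) := by
    refine lintegral_le_of_lmarginal_le {(⟨u, hu⟩ : F)} (measurable_one.indicator hSm)
      measurable_const ?_
    rw [lmarginal_singleton, lmarginal_singleton]
    intro x
    simp only [lintegral_zero, nonpos_iff_eq_zero]
    have h1 : ∀ t, S.indicator (1 : (F → ℝ) → ℝ≥0∞) (Function.update x ⟨u, hu⟩ t) =
        ({c + ext F ξ x b} : Set ℝ).indicator 1 t := by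
      intro t
      by_cases ht : t = c + ext F ξ x b
      · rw [indicator_of_mem, indicator_of_mem]
        · rfl
        · exact ht
        · change ext F ξ _ u - ext F ξ _ b = c
          rw [ext_update hu, ext_update hu, if_pos rfl, if_neg hb, ht]; ring
      · rw [indicator_of_notMem, indicator_of_notMem]
        · exact ht
        · intro h
          change ext F ξ _ u - ext F ξ _ b = c at h
          rw [ext_update hu, ext_update hu, if_pos rfl, if_neg hb] at h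
          exact ht (by linarith)
    calc ∫⁻ t, S.indicator (1 : (F → ℝ) → ℝ≥0∞) (Function.update x ⟨u, hu⟩ t)
        = ∫⁻ t, ({c + ext F ξ x b} : Set ℝ).indicator 1 t := lintegral_congr h1
      _ = 0 := by
        rw [lintegral_indicator_one (measurableSet_singleton _)]; simp
  rw [lintegral_indicator_one hSm, lintegral_zero] at key
  exact le_antisymm key bot_le

/-- Almost surely no edge at a free vertex is exactly tight. -/
theorem ae_lt : ∀ᵐ x ∂(volume.restrict (ham F E ξ)), ∀ u : F, ∀ b ∈ nbr E u,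
    |ext F ξ x u - ext F ξ x b| < 1 := by
  rw [ae_restrict_iff' measurableSet_ham]
  have h1 : ∀ u : F, ∀ b ∈ nbr E u, ∀ᵐ x : F → ℝ, ext F ξ x u - ext F ξ x b ≠ 1 ∧
      ext F ξ x u - ext F ξ x b ≠ -1 := by
    intro u b hb
    have hne := (mem_nbr.mp hb).1
    have e1 : ∀ᵐ x : F → ℝ, ext F ξ x u - ext F ξ x b ≠ 1 := by
      rw [ae_iff]; simpa using volume_level (ξ := ξ) u.2 hne 1
    have e2 : ∀ᵐ x : F → ℝ, ext F ξ x u - ext F ξ x b ≠ -1 := by
      rw [ae_iff]; simpa using volume_level (ξ := ξ) u.2 hne (-1)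
    filter_upwards [e1, e2] with x h1 h2 using ⟨h1, h2⟩
  have h2 : ∀ᵐ x : F → ℝ, ∀ u : F, ∀ b ∈ nbr E u, ext F ξ x u - ext F ξ x b ≠ 1 ∧
      ext F ξ x u - ext F ξ x b ≠ -1 := by
    rw [ae_all_iff]
    intro u
    exact (Finset.eventually_all (nbr E (u : U))).mpr fun b hb => h1 u b hb
  filter_upwards [h2] with x hx hxm u b hb
  have h3 : |ext F ξ x u - ext F ξ x b| ≤ 1 := by
    rcases (mem_nbr.mp hb).2 with h | h
    · exact hxm _ h
    · rw [abs_sub_comm]; exact hxm _ h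
  refine lt_of_le_of_ne h3 fun h => ?_
  rcases (abs_eq (by norm_num : (0:ℝ) ≤ 1)).mp h with h | h
  · exact (hx u b hb).1 h
  · exact (hx u b hb).2 h

/-- Triangularity of the Jacobian. -/
theorem jac_tri (hε : 0 < ε) (hΛ : 0 < Λ) {x : F → ℝ}
    (hd : DifferentiableAt ℝ (Yv F E ξ ε Λ φ) x)
    (hx : ∀ u : F, ∀ b ∈ nbr E u, |ext F ξ x u - ext F ξ x b| < 1) (u z : F)
    (h : jac (Yv F E ξ ε Λ φ) x u z ≠ 0) :
    u = z ∨ Yf F E ξ ε Λ φ x z < Yf F E ξ ε Λ φ x u := by
  by_cases huz : u = z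
  · exact Or.inl huz
  · refine Or.inr ?_
    obtain ⟨l, hl, ho⟩ := exists_opt (F := F) (E := E) (ξ := ξ) (ε := ε) (Λ := Λ) (φ := φ)
      (x := x) u
    by_cases hz : (z : U) ∈ l
    · exact Yf_lt_of_mem hε hΛ (hx u) hl ho hz fun e => huz (Subtype.ext e.symm)
    · exact absurd (jac_eq_zero_of_notMem hd hl ho hz) h

theorem det_jac (hε : 0 < ε) (hΛ : 0 < Λ) {x : F → ℝ}
    (hd : DifferentiableAt ℝ (Yv F E ξ ε Λ φ) x)
    (hx : ∀ u : F, ∀ b ∈ nbr E u, |ext F ξ x u - ext F ξ x b| < 1) (t : ℝ) :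
    (1 + t • jac (Yv F E ξ ε Λ φ) x).det = ∏ u, (1 + t * jac (Yv F E ξ ε Λ φ) x u u) := by
  rw [det_tri _ (fun u : F => Yf F E ξ ε Λ φ x u)]
  · simp
  · intro u z h
    by_cases huz : u = z
    · exact Or.inl huz
    · rw [Matrix.add_apply, Matrix.one_apply_ne huz, zero_add, Matrix.smul_apply,
        smul_eq_mul] at h
      exact jac_tri hε hΛ hd hx u z (right_ne_zero_of_mul h)

theorem trace_jac_sq (hε : 0 < ε) (hΛ : 0 < Λ) {x : F → ℝ}
    (hd : DifferentiableAt ℝ (Yv F E ξ ε Λ φ) x)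
    (hx : ∀ u : F, ∀ b ∈ nbr E u, |ext F ξ x u - ext F ξ x b| < 1) :
    (jac (Yv F E ξ ε Λ φ) x * jac (Yv F E ξ ε Λ φ) x).trace =
      ∑ u, jac (Yv F E ξ ε Λ φ) x u u ^ 2 := by
  simp only [Matrix.trace, Matrix.diag, Matrix.mul_apply]
  refine Finset.sum_congr rfl fun u _ => ?_
  rw [Finset.sum_eq_single u]
  · ring
  · intro z _ hzu
    by_contra hne
    rcases jac_tri hε hΛ hd hx u z (left_ne_zero_of_mul hne) with h1 | h1
    · exact hzu h1.symm
    · rcases jac_tri hε hΛ hd hx z u (right_ne_zero_of_mul hne) with h2 | h2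
      · exact hzu h2
      · linarith
  · intro h; exact absurd (Finset.mem_univ _) h

end Crest.Agent.R144.Tri560
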