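import Crest.Agent.R144.Tri2_560
import Crest.Agent.R144.Ham4_560

/-!
R144 (S0197), helper560, MW2: the explicit tangent field, file 3.

* `opt x u` : an optimal path of minimal length; all its vertices but the last are free
  (`opt_free`), it is trivial iff `Y = φ`;
* `red_le` : `φ u - Y u ≤ Λ/2 * m`, `m = |opt| - 1`, and at least `m/2` steps are `ε`-tight;
* `en_le` : `en Y x ≤ (2Λ/ε)² ∑_{u : Y_u < φ_u} |opt x u|`;
* `opt_tail` : `μ (m + 1 ≤ |opt x u|) ≤ 2 (2 n d)^m B` if `μ (S tight) ≤ (d²)^|S| B`, `2nd ≤ 1/2`.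
-/

set_option autoImplicit false

open MeasureTheory Set Filter Topology
open scoped ENNReal NNReal
open Crest.Agent.R144.Ham560
open Crest.Agent.R144.MW121 (jac jac_apply Tan en)

noncomputable section

namespace Crest.Agent.R144.Tri560

variable {U : Type*} [DecidableEq U] {F : Finset U} {E : Finset (U × U)} {ξ : U → ℝ}
variable {ε Λ : ℝ} {φ : U → ℝ}

theorem paths_prefix {b z : U} {l1 l2 : List U} (h : l1 ++ z :: l2 ∈ paths F E b) :
    l1 ++ [z] ∈ paths F E b := by
  have e : l1 ++ z :: l2 = (l1 ++ [z]) ++ l2 := by simp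
  rcases mem_paths.mp h with h' | ⟨⟨h1, h2⟩, h3, h4⟩
  · rcases l1 with _ | ⟨c, l1⟩
    · simp only [List.nil_append, List.cons.injEq] at h'
      rw [h'.1]; exact single_mem_paths _
    · simp at h'
  · refine mem_paths.mpr (Or.inr ⟨⟨?_, ?_⟩, ?_, ?_⟩)
    · rw [e] at h1; exact h1.sublist (List.sublist_append_left _ _)
    · intro a ha
      rw [e] at h2
      exact h2 a (List.mem_append_left _ ha)
    · rcases l1 with _ | ⟨c, l1⟩
      · simpa using h3
      · simpa using h3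
    · rw [e] at h4; exact h4.left_of_append

/-- An optimal path of minimal length. -/
theorem exists_min_opt (F : Finset U) (E : Finset (U × U)) (ξ : U → ℝ) (ε Λ : ℝ) (φ : U → ℝ)
    (x : F → ℝ) (u : U) : ∃ l, (l ∈ paths F E u ∧ Yf F E ξ ε Λ φ x u = cost φ (cc F ξ ε Λ x) l) ∧
      ∀ l' ∈ paths F E u, Yf F E ξ ε Λ φ x u = cost φ (cc F ξ ε Λ x) l' →
        l.length ≤ l'.length := by
  classical
  have hne : ((paths F E u).filter
      fun l => Yf F E ξ ε Λ φ x u = cost φ (cc F ξ ε Λ x) l).Nonempty := by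
    obtain ⟨l, hl, ho⟩ := exists_opt (F := F) (E := E) (ξ := ξ) (ε := ε) (Λ := Λ) (φ := φ)
      (x := x) u
    exact ⟨l, Finset.mem_filter.mpr ⟨hl, ho⟩⟩
  obtain ⟨l, hl, hm⟩ := Finset.exists_min_image _ List.length hne
  rw [Finset.mem_filter] at hl
  exact ⟨l, hl, fun l' h1 h2 => hm l' (Finset.mem_filter.mpr ⟨h1, h2⟩)⟩

/-- An optimal path of minimal length. -/
def opt (F : Finset U) (E : Finset (U × U)) (ξ : U → ℝ) (ε Λ : ℝ) (φ : U → ℝ) (x : F → ℝ)
    (u : U) : List U := (exists_min_opt F E ξ ε Λ φ x u).choose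

section

variable {x : F → ℝ} {u : U}

theorem opt_mem : opt F E ξ ε Λ φ x u ∈ paths F E u :=
  (exists_min_opt F E ξ ε Λ φ x u).choose_spec.1.1

theorem opt_cost : Yf F E ξ ε Λ φ x u = cost φ (cc F ξ ε Λ x) (opt F E ξ ε Λ φ x u) :=
  (exists_min_opt F E ξ ε Λ φ x u).choose_spec.1.2

theorem opt_min {l : List U} (h1 : l ∈ paths F E u)
    (h2 : Yf F E ξ ε Λ φ x u = cost φ (cc F ξ ε Λ x) l) :
    (opt F E ξ ε Λ φ x u).length ≤ l.length :=
  (exists_min_opt F E ξ ε Λ φ x u).choose_spec.2 l h1 h2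

theorem opt_ne_nil : opt F E ξ ε Λ φ x u ≠ [] := by
  intro h
  have := (paths_spec (opt_mem (F := F) (E := E) (ξ := ξ) (ε := ε) (Λ := Λ) (φ := φ)
    (x := x) (u := u))).2.1
  rw [h] at this
  simp at this

theorem opt_length_pos : 0 < (opt F E ξ ε Λ φ x u).length :=
  List.length_pos_iff.mpr opt_ne_nil

/-- All vertices of the optimal path but the last one are free. -/
theorem opt_free (hΛ : 0 ≤ Λ) (hφ : ∀ a, 0 ≤ φ a) (hφF : ∀ a, a ∉ F → φ a = 0)
    {l1 l2 : List U} {b c : U} (h : opt F E ξ ε Λ φ x u = l1 ++ b :: c :: l2) : b ∈ F := by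
  by_contra hb
  have hm := opt_mem (F := F) (E := E) (ξ := ξ) (ε := ε) (Λ := Λ) (φ := φ) (x := x) (u := u)
  have ho := opt_cost (F := F) (E := E) (ξ := ξ) (ε := ε) (Λ := Λ) (φ := φ) (x := x) (u := u)
  rw [h] at hm ho
  have h1 := paths_prefix hm
  have h2 := Yf_le_cost (ξ := ξ) (ε := ε) (Λ := Λ) (φ := φ) (x := x) h1
  rw [cost_append] at h2 ho
  have h3 : cost φ (cc F ξ ε Λ x) [b] = 0 := hφF b hb
  have h4 := cost_nonneg hφ (cc_nonneg (ξ := ξ) (ε := ε) hΛ x) (b :: c :: l2)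
  have h5 : Yf F E ξ ε Λ φ x u = cost φ (cc F ξ ε Λ x) (l1 ++ [b]) := by
    rw [cost_append]; linarith
  have h6 := opt_min h1 h5
  rw [h] at h6
  simp at h6

theorem opt_eq_single (h : Yf F E ξ ε Λ φ x u = φ u) : opt F E ξ ε Λ φ x u = [u] := by
  have h1 := opt_min (x := x) (single_mem_paths u) (by rw [h]; rfl)
  have h2 := opt_length_pos (F := F) (E := E) (ξ := ξ) (ε := ε) (Λ := Λ) (φ := φ)
    (x := x) (u := u)
  simp only [List.length_singleton] at h1
  have h3 : (opt F E ξ ε Λ φ x u).length = 1 := by omega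
  obtain ⟨a, ha⟩ := List.length_eq_one_iff.mp h3
  have h4 := (paths_spec (opt_mem (F := F) (E := E) (ξ := ξ) (ε := ε) (Λ := Λ) (φ := φ)
    (x := x) (u := u))).2.1
  rw [ha] at h4 ⊢
  simp only [List.head?_cons, Option.some.injEq] at h4
  rw [h4]

end

/-- Consecutive pairs. -/
def pe : List U → List (U × U)
  | [] => []
  | [_] => []
  | a :: b :: t => (a, b) :: pe (b :: t)

omit [DecidableEq U] in
theorem pe_cons (a b : U) (t : List U) : pe (a :: b :: t) = (a, b) :: pe (b :: t) := rfl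

omit [DecidableEq U] in
theorem pe_length : ∀ l : List U, l ≠ [] → (pe l).length + 1 = l.length
  | [], h => absurd rfl h
  | [_], _ => rfl
  | a :: b :: t, _ => by
    rw [pe_cons, List.length_cons, List.length_cons, pe_length (b :: t) (by simp)]

omit [DecidableEq U] in
theorem pe_mem : ∀ (l : List U), ∀ q ∈ pe l, q.1 ∈ l ∧ q.2 ∈ l
  | [], q, hq => by simp [pe] at hq
  | [_], q, hq => by simp [pe] at hq
  | a :: b :: t, q, hq => by
    rw [pe_cons] at hq
    rcases List.mem_cons.mp hq with rfl | hq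
    · simp
    · have := pe_mem (b :: t) q hq
      exact ⟨List.mem_cons_of_mem _ this.1, List.mem_cons_of_mem _ this.2⟩

theorem fresh_pe : ∀ (l : List U), l.Nodup → l.IsChain (fun a b => b ∈ nbr E a) →
    (∀ l1 l2 b c, l = l1 ++ b :: c :: l2 → b ∈ F) → Fresh F E (pe l)
  | [], _, _, _ => Fresh.nil
  | [_], _, _, _ => Fresh.nil
  | a :: b :: t, hn, hc, hF => by
    rw [List.nodup_cons] at hn
    rw [List.isChain_cons_cons] at hc
    rw [pe_cons]
    refine Fresh.cons (fresh_pe (b :: t) hn.2 hc.2 fun l1 l2 c d h => hF (a :: l1) l2 c d ?_)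
      (hF [] t a b rfl) hc.1 fun q hq => ?_
    · rw [h, List.cons_append]
    · have := pe_mem (b :: t) q hq
      exact ⟨fun e => hn.1 (e ▸ this.1), fun e => hn.1 (e ▸ this.2)⟩

theorem Fresh_sublist {S S' : List (U × U)} (h : Fresh F E S) (hs : S'.Sublist S) :
    Fresh F E S' := by
  induction h generalizing S' with
  | nil => rw [List.sublist_nil.mp hs]; exact Fresh.nil
  | @cons v u S hS hv hu hf ih =>
    rcases List.sublist_cons_iff.mp hs with h | ⟨r, rfl, h⟩
    · exact ih h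
    · exact Fresh.cons (ih h) hv hu fun q hq => hf q (h.subset hq)

/-- Cost in terms of the truncated slacks of the steps. -/
theorem cost_ge (hε : 0 < ε) (hΛ : 0 ≤ Λ) (x : F → ℝ)
    (hφL : ∀ a b, b ∈ nbr E a → |φ a - φ b| ≤ Λ / 2) :
    ∀ l : List U, l.IsChain (fun a b => b ∈ nbr E a) → ∀ u, l.head? = some u →
      φ u + Λ / 2 * (pe l).length - Λ * ((pe l).filter fun q =>
        decide (1 - ε ≤ |ext F ξ x q.1 - ext F ξ x q.2|)).length ≤ cost φ (cc F ξ ε Λ x) l
  | [], _, u, h => by simp at h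
  | [a], _, u, h => by
    simp only [List.head?_cons, Option.some.injEq] at h
    simp [pe, cost, h]
  | a :: b :: t, hc, u, h => by
    simp only [List.head?_cons, Option.some.injEq] at h
    subst h
    rw [List.isChain_cons_cons] at hc
    have ih := cost_ge hε hΛ x hφL (b :: t) hc.2 b rfl
    have h1 := abs_le.mp (hφL a b hc.1)
    rw [pe_cons, cost_cons, List.filter_cons, List.length_cons]
    push_cast
    by_cases ht : 1 - ε ≤ |ext F ξ x a - ext F ξ x b|
    · rw [if_pos (by simpa using ht), List.length_cons]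
      push_cast
      have h2 := cc_nonneg (ξ := ξ) (ε := ε) hΛ x a b
      nlinarith
    · rw [if_neg (by simpa using ht)]
      have h2 : cc F ξ ε Λ x a b = Λ := by
        rw [cc, sl_eq_one hε (by push Not at ht; exact ht.le), mul_one]
      rw [h2]
      nlinarith

section

variable {x : F → ℝ} {u : U}

/-- Half of the steps of the optimal path are tight. -/
theorem opt_half (hε : 0 < ε) (hΛ : 0 < Λ) (hφL : ∀ a b, b ∈ nbr E a → |φ a - φ b| ≤ Λ / 2) :
    (pe (opt F E ξ ε Λ φ x u)).length ≤ 2 * ((pe (opt F E ξ ε Λ φ x u)).filter fun q =>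
        decide (1 - ε ≤ |ext F ξ x q.1 - ext F ξ x q.2|)).length := by
  obtain ⟨_, h2, h3⟩ := paths_spec (opt_mem (F := F) (E := E) (ξ := ξ) (ε := ε) (Λ := Λ)
    (φ := φ) (x := x) (u := u))
  have h4 := cost_ge (ξ := ξ) hε hΛ.le x hφL _ h3 u h2
  rw [← opt_cost] at h4
  have h5 := Yf_le (F := F) (E := E) (ξ := ξ) (ε := ε) (Λ := Λ) (φ := φ) (x := x) u
  have h6 : Λ / 2 * ((pe (opt F E ξ ε Λ φ x u)).length : ℝ) ≤
      Λ * (((pe (opt F E ξ ε Λ φ x u)).filter fun q =>
        decide (1 - ε ≤ |ext F ξ x q.1 - ext F ξ x q.2|)).length : ℝ) := by linarith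
  have h7 : ((pe (opt F E ξ ε Λ φ x u)).length : ℝ) ≤
      2 * (((pe (opt F E ξ ε Λ φ x u)).filter fun q =>
        decide (1 - ε ≤ |ext F ξ x q.1 - ext F ξ x q.2|)).length : ℝ) := by
    by_contra hlt
    push Not at hlt
    nlinarith
  exact_mod_cast h7

/-- The reduction `φ - Y` is controlled by the length of the optimal path. -/
theorem red_le (hε : 0 < ε) (hΛ : 0 < Λ) (hφL : ∀ a b, b ∈ nbr E a → |φ a - φ b| ≤ Λ / 2) :
    φ u - Yf F E ξ ε Λ φ x u ≤ Λ / 2 * (pe (opt F E ξ ε Λ φ x u)).length := by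
  obtain ⟨_, h2, h3⟩ := paths_spec (opt_mem (F := F) (E := E) (ξ := ξ) (ε := ε) (Λ := Λ)
    (φ := φ) (x := x) (u := u))
  have h4 := cost_ge (ξ := ξ) hε hΛ.le x hφL _ h3 u h2
  rw [← opt_cost] at h4
  have h5 : (((pe (opt F E ξ ε Λ φ x u)).filter fun q =>
        decide (1 - ε ≤ |ext F ξ x q.1 - ext F ξ x q.2|)).length : ℝ) ≤
      (pe (opt F E ξ ε Λ φ x u)).length := by
    exact_mod_cast List.length_filter_le _ _
  nlinarith

end

/-- Energy in terms of the lengths of the optimal paths. -/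
theorem en_le_sum (hε : 0 < ε) (hΛ : 0 ≤ Λ) {x : F → ℝ}
    (hd : DifferentiableAt ℝ (Yv F E ξ ε Λ φ) x) :
    en (Yv F E ξ ε Λ φ) x ≤ (2 * Λ / ε) ^ 2 * ∑ u : F,
      if Yf F E ξ ε Λ φ x u < φ u then ((opt F E ξ ε Λ φ x u).length : ℝ) else 0 := by
  classical
  rw [en, Finset.mul_sum]
  refine Finset.sum_le_sum fun u _ => ?_
  split_ifs with h
  · have h1 : ∀ z : F, jac (Yv F E ξ ε Λ φ) x u z ^ 2 ≤
        if (z : U) ∈ opt F E ξ ε Λ φ x u then (2 * Λ / ε) ^ 2 else 0 := by
      intro z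
      split_ifs with hz
      · rw [← sq_abs]
        exact pow_le_pow_left₀ (abs_nonneg _) (abs_jac_le hd hε hΛ u z) 2
      · rw [jac_eq_zero_of_notMem hd opt_mem opt_cost hz]; simp
    refine (Finset.sum_le_sum fun z _ => h1 z).trans ?_
    rw [← Finset.sum_filter, Finset.sum_const, nsmul_eq_mul, mul_comm]
    gcongr
    have h2 : ((Finset.univ : Finset ↥F).filter fun z : ↥F =>
        (z : U) ∈ opt F E ξ ε Λ φ x u).card ≤ (opt F E ξ ε Λ φ x u).toFinset.card := by
      refine Finset.card_le_card_of_injOn (fun z : ↥F => (z : U)) ?_ ?_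
      · intro z hz
        have hz' := (Finset.mem_filter.mp (Finset.mem_coe.mp hz)).2
        exact Finset.mem_coe.mpr (List.mem_toFinset.mpr hz')
      · exact fun z _ z' _ h => Subtype.ext h
    exact Nat.cast_le.mpr (h2.trans (List.toFinset_card_le _))
  · have h1 : Yf F E ξ ε Λ φ x u = φ u := le_antisymm (Yf_le _) (not_lt.mp h)
    rw [mul_zero]
    exact le_of_eq (Finset.sum_eq_zero fun z _ => by rw [jac_row_zero hd h1 z]; simp)

/-- The diagonal entries, all at once. -/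
theorem sum_diag_le (hε : 0 < ε) (hΛ : 0 ≤ Λ) {x : F → ℝ}
    (hd : DifferentiableAt ℝ (Yv F E ξ ε Λ φ) x) :
    ∑ u : F, jac (Yv F E ξ ε Λ φ) x u u ^ 2 ≤ (Λ / ε) ^ 2 *
      ∑ u : F, if Yf F E ξ ε Λ φ x u < φ u then 1 else 0 := by
  rw [Finset.mul_sum]
  refine Finset.sum_le_sum fun u _ => ?_
  split_ifs with h
  · rw [mul_one, ← sq_abs]
    exact pow_le_pow_left₀ (abs_nonneg _) (abs_jac_diag_le hd hε hΛ u) 2
  · have h1 : Yf F E ξ ε Λ φ x u = φ u := le_antisymm (Yf_le _) (not_lt.mp h)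
    rw [mul_zero, jac_row_zero hd h1 u]; simp

/-! ### Tails of the length of the optimal path -/

/-- Forward walks of length `m` from `u` whose vertices but the last one are free. -/
def wf (F : Finset U) (E : Finset (U × U)) : ℕ → U → Finset (List U)
  | 0, u => {[u]}
  | m + 1, u => if u ∈ F then (nbr E u).biUnion fun b => (wf F E m b).image (u :: ·) else ∅

theorem card_wf {n : ℕ} (hn : ∀ v ∈ F, (nbr E v).card ≤ n) :
    ∀ (m : ℕ) (u : U), (wf F E m u).card ≤ n ^ m
  | 0, u => by simp [wf]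
  | m + 1, u => by
    rw [wf]
    split_ifs with hu
    · calc _ ≤ (nbr E u).card * n ^ m :=
            Finset.card_biUnion_le_card_mul _ _ _ fun b _ =>
              Finset.card_image_le.trans (card_wf hn m b)
        _ ≤ n * n ^ m := by gcongr; exact hn u hu
        _ = n ^ (m + 1) := (pow_succ' _ _).symm
    · simp

theorem mem_wf : ∀ (m : ℕ) (u : U) (l : List U), l.length = m + 1 → l.head? = some u →
    l.IsChain (fun a b => b ∈ nbr E a) → (∀ l1 l2 b c, l = l1 ++ b :: c :: l2 → b ∈ F) →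
    l ∈ wf F E m u
  | 0, u, l, hl, hh, _, _ => by
    obtain ⟨a, rfl⟩ := List.length_eq_one_iff.mp hl
    simp only [List.head?_cons, Option.some.injEq] at hh
    simp [wf, hh]
  | m + 1, u, l, hl, hh, hc, hF => by
    match l with
    | [] => simp at hl
    | [a] => simp at hl
    | a :: b :: t =>
      simp only [List.head?_cons, Option.some.injEq] at hh
      subst hh
      rw [List.isChain_cons_cons] at hc
      rw [wf, if_pos (hF [] t a b rfl), Finset.mem_biUnion]
      refine ⟨b, hc.1, Finset.mem_image.mpr ⟨b :: t, ?_, rfl⟩⟩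
      refine mem_wf m b (b :: t) (by simpa using hl) rfl hc.2 fun l1 l2 c d h =>
        hF (a :: l1) l2 c d (by rw [h, List.cons_append])

/-- One length. -/
theorem opt_tail_eq {μ : Measure (F → ℝ)} {d B : ℝ≥0∞} (hd : d ≤ 1)
    (H : ∀ S : List (U × U), Fresh F E S →
      μ {x | ∀ q ∈ S, 1 - ε ≤ |ext F ξ x q.1 - ext F ξ x q.2|} ≤ (d ^ 2) ^ S.length * B)
    {n : ℕ} (hn : ∀ v ∈ F, (nbr E v).card ≤ n) (hε : 0 < ε) (hΛ : 0 < Λ)
    (hφ : ∀ a, 0 ≤ φ a) (hφF : ∀ a, a ∉ F → φ a = 0)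
    (hφL : ∀ a b, b ∈ nbr E a → |φ a - φ b| ≤ Λ / 2) (u : U) (m : ℕ) :
    μ {x | (opt F E ξ ε Λ φ x u).length = m + 1} ≤ (2 * n * d) ^ m * B := by
  classical
  let T : List U → List (List (U × U)) := fun l => (pe l).sublists
  have hsub : {x : F → ℝ | (opt F E ξ ε Λ φ x u).length = m + 1} ⊆
      ⋃ l ∈ (wf F E m u).filter (fun l => Fresh F E (pe l) ∧ (pe l).length = m),
        ⋃ S ∈ ((pe l).sublists.toFinset.filter fun S => m ≤ 2 * S.length),
          {x | ∀ q ∈ S, 1 - ε ≤ |ext F ξ x q.1 - ext F ξ x q.2|} := by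
    intro x hx
    change (opt F E ξ ε Λ φ x u).length = m + 1 at hx
    obtain ⟨h1, h2, h3⟩ := paths_spec (opt_mem (F := F) (E := E) (ξ := ξ) (ε := ε) (Λ := Λ)
      (φ := φ) (x := x) (u := u))
    have hfree : ∀ l1 l2 b c, opt F E ξ ε Λ φ x u = l1 ++ b :: c :: l2 → b ∈ F :=
      fun l1 l2 b c h => opt_free hΛ.le hφ hφF h
    have hlen : (pe (opt F E ξ ε Λ φ x u)).length = m := by
      have := pe_length _ (opt_ne_nil (F := F) (E := E) (ξ := ξ) (ε := ε) (Λ := Λ)
        (φ := φ) (x := x) (u := u))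
      omega
    simp only [mem_iUnion]
    refine ⟨opt F E ξ ε Λ φ x u, ?_, (pe (opt F E ξ ε Λ φ x u)).filter fun q =>
        decide (1 - ε ≤ |ext F ξ x q.1 - ext F ξ x q.2|), ?_, ?_⟩
    · rw [Finset.mem_filter]
      exact ⟨mem_wf m u _ hx h2 h3 hfree, fresh_pe _ h1 h3 hfree, hlen⟩
    · rw [Finset.mem_filter, List.mem_toFinset, List.mem_sublists]
      refine ⟨List.filter_sublist, ?_⟩
      have := opt_half (ξ := ξ) (x := x) (u := u) hε hΛ hφL
      rw [hlen] at this
      exact this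
    · intro q hq
      have := (List.mem_filter.mp hq).2
      simpa using this
  have h1 : ∀ l ∈ (wf F E m u).filter (fun l => Fresh F E (pe l) ∧ (pe l).length = m),
      μ (⋃ S ∈ ((pe l).sublists.toFinset.filter fun S => m ≤ 2 * S.length),
        {x | ∀ q ∈ S, 1 - ε ≤ |ext F ξ x q.1 - ext F ξ x q.2|}) ≤ 2 ^ m * (d ^ m * B) := by
    intro l hl
    rw [Finset.mem_filter] at hl
    obtain ⟨_, hfr, hlen⟩ := hl
    refine (measure_biUnion_finset_le _ _).trans ?_
    calc ∑ S ∈ ((pe l).sublists.toFinset.filter fun S => m ≤ 2 * S.length),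
          μ {x | ∀ q ∈ S, 1 - ε ≤ |ext F ξ x q.1 - ext F ξ x q.2|}
        ≤ ∑ S ∈ ((pe l).sublists.toFinset.filter fun S => m ≤ 2 * S.length), d ^ m * B := by
          refine Finset.sum_le_sum fun S hS => ?_
          rw [Finset.mem_filter, List.mem_toFinset, List.mem_sublists] at hS
          refine (H S (Fresh_sublist hfr hS.1)).trans ?_
          refine mul_le_mul' ?_ le_rfl
          rw [← pow_mul]
          exact pow_le_pow_right_of_le_one' hd hS.2
      _ = (((pe l).sublists.toFinset.filter fun S => m ≤ 2 * S.length).card : ℝ≥0∞) *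
            (d ^ m * B) := by rw [Finset.sum_const, nsmul_eq_mul]
      _ ≤ 2 ^ m * (d ^ m * B) := by
          gcongr
          have h2 : ((pe l).sublists.toFinset.filter fun S => m ≤ 2 * S.length).card ≤ 2 ^ m := by
            refine (Finset.card_filter_le _ _).trans ((List.toFinset_card_le _).trans ?_)
            rw [List.length_sublists, hlen]
          exact_mod_cast h2
  calc μ {x | (opt F E ξ ε Λ φ x u).length = m + 1}
      ≤ ∑ l ∈ (wf F E m u).filter (fun l => Fresh F E (pe l) ∧ (pe l).length = m),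
          μ (⋃ S ∈ ((pe l).sublists.toFinset.filter fun S => m ≤ 2 * S.length),
            {x | ∀ q ∈ S, 1 - ε ≤ |ext F ξ x q.1 - ext F ξ x q.2|}) :=
        (measure_mono hsub).trans (measure_biUnion_finset_le _ _)
    _ ≤ ∑ l ∈ (wf F E m u).filter (fun l => Fresh F E (pe l) ∧ (pe l).length = m),
          2 ^ m * (d ^ m * B) := Finset.sum_le_sum h1
    _ = (((wf F E m u).filter (fun l => Fresh F E (pe l) ∧ (pe l).length = m)).card : ℝ≥0∞) *
          (2 ^ m * (d ^ m * B)) := by rw [Finset.sum_const, nsmul_eq_mul]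
    _ ≤ (n : ℝ≥0∞) ^ m * (2 ^ m * (d ^ m * B)) := by
        gcongr
        have h2 := (Finset.card_filter_le (wf F E m u)
          (fun l => Fresh F E (pe l) ∧ (pe l).length = m)).trans (card_wf hn m u)
        exact_mod_cast h2
    _ = (2 * n * d) ^ m * B := by rw [mul_pow, mul_pow]; ring

/-- Integrals of functions of the length of the optimal path. -/
theorem lintegral_opt_le {μ : Measure (F → ℝ)} {d B : ℝ≥0∞} (hd : d ≤ 1)
    (H : ∀ S : List (U × U), Fresh F E S →
      μ {x | ∀ q ∈ S, 1 - ε ≤ |ext F ξ x q.1 - ext F ξ x q.2|} ≤ (d ^ 2) ^ S.length * B)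
    {n : ℕ} (hn : ∀ v ∈ F, (nbr E v).card ≤ n) (hε : 0 < ε) (hΛ : 0 < Λ)
    (hφ : ∀ a, 0 ≤ φ a) (hφF : ∀ a, a ∉ F → φ a = 0)
    (hφL : ∀ a b, b ∈ nbr E a → |φ a - φ b| ≤ Λ / 2) (u : U) (g : ℕ → ℝ≥0∞) :
    ∫⁻ x, g (opt F E ξ ε Λ φ x u).length ∂μ ≤ (∑' m, g (m + 1) * (2 * n * d) ^ m) * B := by
  classical
  -- dominate by a countable sum of indicators of measurable hulls
  have h1 : ∀ x : F → ℝ, g (opt F E ξ ε Λ φ x u).length ≤
      ∑' m, g (m + 1) * (toMeasurable μ
        {x | (opt F E ξ ε Λ φ x u).length = m + 1}).indicator 1 x := by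
    intro x
    have hp := opt_length_pos (F := F) (E := E) (ξ := ξ) (ε := ε) (Λ := Λ) (φ := φ)
      (x := x) (u := u)
    obtain ⟨m, hm⟩ : ∃ m, (opt F E ξ ε Λ φ x u).length = m + 1 :=
      ⟨(opt F E ξ ε Λ φ x u).length - 1, by omega⟩
    refine le_trans ?_ (ENNReal.le_tsum m)
    rw [indicator_of_mem (subset_toMeasurable μ _ hm), hm]
    simp
  calc ∫⁻ x, g (opt F E ξ ε Λ φ x u).length ∂μ
      ≤ ∫⁻ x, ∑' m, g (m + 1) * (toMeasurable μ
          {x | (opt F E ξ ε Λ φ x u).length = m + 1}).indicator 1 x ∂μ := lintegral_mono h1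
    _ = ∑' m, ∫⁻ x, g (m + 1) * (toMeasurable μ
          {x | (opt F E ξ ε Λ φ x u).length = m + 1}).indicator 1 x ∂μ := by
        refine lintegral_tsum fun m => ?_
        exact ((measurable_one.indicator (measurableSet_toMeasurable _ _)).const_mul _).aemeasurable
    _ = ∑' m, g (m + 1) * μ {x | (opt F E ξ ε Λ φ x u).length = m + 1} := by
        refine tsum_congr fun m => ?_
        rw [lintegral_const_mul _ (measurable_one.indicator (measurableSet_toMeasurable _ _)),
          lintegral_indicator_one (measurableSet_toMeasurable _ _), measure_toMeasurable]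
    _ ≤ ∑' m, g (m + 1) * ((2 * n * d) ^ m * B) := by
        refine ENNReal.tsum_le_tsum fun m => ?_
        gcongr
        exact opt_tail_eq hd H hn hε hΛ hφ hφF hφL u m
    _ = (∑' m, g (m + 1) * (2 * n * d) ^ m) * B := by
        rw [← ENNReal.tsum_mul_right]
        refine tsum_congr fun m => ?_
        ring

/-- Tail of the length of the optimal path. -/
theorem opt_tail {μ : Measure (F → ℝ)} {d B : ℝ≥0∞} (hd : d ≤ 1)
    (H : ∀ S : List (U × U), Fresh F E S →
      μ {x | ∀ q ∈ S, 1 - ε ≤ |ext F ξ x q.1 - ext F ξ x q.2|} ≤ (d ^ 2) ^ S.length * B)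
    {n : ℕ} (hn : ∀ v ∈ F, (nbr E v).card ≤ n) (hε : 0 < ε) (hΛ : 0 < Λ)
    (hφ : ∀ a, 0 ≤ φ a) (hφF : ∀ a, a ∉ F → φ a = 0)
    (hφL : ∀ a b, b ∈ nbr E a → |φ a - φ b| ≤ Λ / 2) (u : U)
    (hnd : 2 * (n : ℝ≥0∞) * d ≤ 1 / 2) (m : ℕ) :
    μ {x | m + 1 ≤ (opt F E ξ ε Λ φ x u).length} ≤ 2 * (2 * n * d) ^ m * B := by
  have h1 : {x : F → ℝ | m + 1 ≤ (opt F E ξ ε Λ φ x u).length} ⊆
      ⋃ k : ℕ, {x | (opt F E ξ ε Λ φ x u).length = (m + k) + 1} := by
    intro x hx
    change m + 1 ≤ (opt F E ξ ε Λ φ x u).length at hx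
    rw [mem_iUnion]
    exact ⟨(opt F E ξ ε Λ φ x u).length - 1 - m, by
      change (opt F E ξ ε Λ φ x u).length = _; omega⟩
  refine (measure_mono h1).trans ((measure_iUnion_le _).trans ?_)
  calc ∑' k, μ {x | (opt F E ξ ε Λ φ x u).length = (m + k) + 1}
      ≤ ∑' k : ℕ, (2 * n * d) ^ m * B * (1 / 2) ^ k := by
        refine ENNReal.tsum_le_tsum fun k => ?_
        refine (opt_tail_eq hd H hn hε hΛ hφ hφF hφL u (m + k)).trans ?_
        rw [pow_add]
        calc (2 * (n : ℝ≥0∞) * d) ^ m * (2 * n * d) ^ k * B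
            ≤ (2 * n * d) ^ m * (1 / 2) ^ k * B := by gcongr
          _ = (2 * n * d) ^ m * B * (1 / 2) ^ k := by ring
    _ = 2 * (2 * n * d) ^ m * B := by
        rw [ENNReal.tsum_mul_left]
        have : ∑' k : ℕ, (1 / 2 : ℝ≥0∞) ^ k = 2 := by
          rw [ENNReal.tsum_geometric, one_div]
          rw [ENNReal.one_sub_inv_two, inv_inv]
        rw [this]; ring

end Crest.Agent.R144.Tri560
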