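import Mathlib

/-!
# R144 / Triod_353 : a simple closed curve contains no triod
-/

set_option autoImplicit false

noncomputable section

namespace Crest.Agent.R144.Triod353

open Set Topology

/-- three preconnected subsets of `(a, b)`, pairwise disjoint, cannot all accumulate at the ends -/
theorem no_three {a b : ℝ} {K : Fin 3 → Set ℝ} (hK : ∀ i, IsPreconnected (K i))
    (hsub : ∀ i, K i ⊆ Ioo a b) (hend : ∀ i, ∀ η > 0, ∃ s ∈ K i, s < a + η ∨ b - η < s)
    (hdis : ∀ i j, i ≠ j → Disjoint (K i) (K j)) : False := by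
  -- each `K i` accumulates at `a` or at `b`
  have h1 : ∀ i, (∀ η > 0, ∃ s ∈ K i, s < a + η) ∨ (∀ η > 0, ∃ s ∈ K i, b - η < s) := by
    intro i
    by_contra hcon
    push Not at hcon
    obtain ⟨⟨η1, h1, h1'⟩, ⟨η2, h2, h2'⟩⟩ := hcon
    obtain ⟨s, hs, hs'⟩ := hend i (min η1 η2) (lt_min h1 h2)
    have g1 := h1' s hs
    have g2 := h2' s hs
    have g3 := min_le_left η1 η2
    have g4 := min_le_right η1 η2
    rcases hs' with h | h <;> linarith
  have hA : ∀ i j, i ≠ j → ¬ ((∀ η > 0, ∃ s ∈ K i, s < a + η) ∧ (∀ η > 0, ∃ s ∈ K j, s < a + η)) := by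
    have key : ∀ i j, i ≠ j → (∀ η > 0, ∃ s ∈ K i, s < a + η) → (∀ η > 0, ∃ s ∈ K j, s < a + η) →
        ∀ x ∈ K i, ∀ y ∈ K j, x < y → False := by
      intro i j hij hi hj x hx y hy hxy
      obtain ⟨s, hs, hs'⟩ := hj (x - a) (by linarith [(hsub i hx).1])
      have : x ∈ K j := (hK j).ordConnected.out hs hy ⟨by linarith, hxy.le⟩
      exact Set.disjoint_left.1 (hdis i j hij) hx this
    rintro i j hij ⟨hi, hj⟩
    obtain ⟨x, hx, _⟩ := hi 1 one_pos
    obtain ⟨y, hy, _⟩ := hj 1 one_pos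
    rcases lt_trichotomy x y with h | h | h
    · exact key i j hij hi hj x hx y hy h
    · subst h; exact Set.disjoint_left.1 (hdis i j hij) hx hy
    · exact key j i hij.symm hj hi y hy x hx h
  have hB : ∀ i j, i ≠ j → ¬ ((∀ η > 0, ∃ s ∈ K i, b - η < s) ∧ (∀ η > 0, ∃ s ∈ K j, b - η < s)) := by
    have key : ∀ i j, i ≠ j → (∀ η > 0, ∃ s ∈ K i, b - η < s) → (∀ η > 0, ∃ s ∈ K j, b - η < s) →
        ∀ x ∈ K i, ∀ y ∈ K j, x < y → False := by
      intro i j hij hi hj x hx y hy hxy
      obtain ⟨s, hs, hs'⟩ := hi (b - y) (by linarith [(hsub j hy).2])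
      have : y ∈ K i := (hK i).ordConnected.out hx hs ⟨hxy.le, by linarith⟩
      exact Set.disjoint_left.1 (hdis i j hij) this hy
    rintro i j hij ⟨hi, hj⟩
    obtain ⟨x, hx, _⟩ := hi 1 one_pos
    obtain ⟨y, hy, _⟩ := hj 1 one_pos
    rcases lt_trichotomy x y with h | h | h
    · exact key i j hij hi hj x hx y hy h
    · subst h; exact Set.disjoint_left.1 (hdis i j hij) hx hy
    · exact key j i hij.symm hj hi y hy x hx h
  have a01 := hA 0 1 (by decide)
  have a02 := hA 0 2 (by decide)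
  have a12 := hA 1 2 (by decide)
  have b01 := hB 0 1 (by decide)
  have b02 := hB 0 2 (by decide)
  have b12 := hB 1 2 (by decide)
  have c0 := h1 0
  have c1 := h1 1
  have c2 := h1 2
  tauto

/-- **No triod in a simple closed curve.** -/
theorem no_triod {c : ℝ → ℂ} (hc : Continuous c) (hp : Function.Periodic c (2 * Real.pi))
    (hi : InjOn c (Ico 0 (2 * Real.pi))) {p : ℂ} {A : Fin 3 → Set ℂ}
    (hA : ∀ i, IsPreconnected (A i)) (hsub : ∀ i, A i ⊆ range c) (hpn : ∀ i, p ∉ A i)
    (hcl : ∀ i, p ∈ closure (A i)) (hdis : ∀ i j, i ≠ j → Disjoint (A i) (A j)) : False := by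
  have h2pi : (0 : ℝ) < 2 * Real.pi := by positivity
  have : Fact ((0 : ℝ) < 2 * Real.pi) := ⟨h2pi⟩
  -- the circle map
  let f : AddCircle (2 * Real.pi) → ℂ := hp.lift
  have hf : Continuous f := hc.quotient_liftOn' _
  have hfc : ∀ s : ℝ, f (s : AddCircle (2 * Real.pi)) = c s := fun s => hp.lift_coe s
  have hinj : Function.Injective f := by
    intro x y hxy
    obtain ⟨s, hs, rfl⟩ : ∃ s ∈ Ico (0 : ℝ) (2 * Real.pi), (s : AddCircle (2 * Real.pi)) = x := by
      have := (AddCircle.coe_image_Ico_eq (2 * Real.pi) 0).symm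
      have hx : x ∈ ((↑) : ℝ → AddCircle (2 * Real.pi)) '' Ico 0 (0 + 2 * Real.pi) := by
        rw [← this]; trivial
      obtain ⟨s, hs, e⟩ := hx
      exact ⟨s, by simpa using hs, e⟩
    obtain ⟨t, ht, rfl⟩ : ∃ s ∈ Ico (0 : ℝ) (2 * Real.pi), (s : AddCircle (2 * Real.pi)) = y := by
      have := (AddCircle.coe_image_Ico_eq (2 * Real.pi) 0).symm
      have hx : y ∈ ((↑) : ℝ → AddCircle (2 * Real.pi)) '' Ico 0 (0 + 2 * Real.pi) := by
        rw [← this]; trivial
      obtain ⟨s, hs, e⟩ := hx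
      exact ⟨s, by simpa using hs, e⟩
    rw [hfc, hfc] at hxy
    rw [hi hs ht hxy]
  have hemb : IsClosedEmbedding f := hf.isClosedEmbedding hinj
  have hrange : range f = range c := by
    ext z
    constructor
    · rintro ⟨x, rfl⟩
      induction x using QuotientAddGroup.induction_on with
      | H s => exact ⟨s, (hfc s).symm⟩
    · rintro ⟨s, rfl⟩
      exact ⟨s, hfc s⟩
  -- p is on the curve
  have hpr : p ∈ range f := by
    have h1 : closure (A 0) ⊆ range f :=
      closure_minimal ((hsub 0).trans hrange.symm.subset) hemb.isClosed_range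
    exact h1 (hcl 0)
  obtain ⟨x0, hx0⟩ := hpr
  obtain ⟨s0, rfl⟩ : ∃ s0 : ℝ, (s0 : AddCircle (2 * Real.pi)) = x0 :=
    QuotientAddGroup.mk_surjective x0
  -- pull back
  let B : Fin 3 → Set (AddCircle (2 * Real.pi)) := fun i => f ⁻¹' (A i)
  have hB : ∀ i, IsPreconnected (B i) := by
    intro i
    rw [← hemb.isInducing.isPreconnected_image, image_preimage_eq_inter_range,
      inter_eq_left.2 ((hsub i).trans hrange.symm.subset)]
    exact hA i
  have hBn : ∀ i, (s0 : AddCircle (2 * Real.pi)) ∉ B i := fun i h => hpn i (by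
    have : f (s0 : AddCircle (2 * Real.pi)) ∈ A i := h
    rwa [hx0] at this)
  have hBcl : ∀ i, (s0 : AddCircle (2 * Real.pi)) ∈ closure (B i) := by
    intro i
    rw [hemb.isInducing.closure_eq_preimage_closure_image, mem_preimage,
      image_preimage_eq_inter_range, inter_eq_left.2 ((hsub i).trans hrange.symm.subset), hx0]
    exact hcl i
  have hBd : ∀ i j, i ≠ j → Disjoint (B i) (B j) := fun i j hij => (hdis i j hij).preimage f
  -- to the interval
  let e := AddCircle.openPartialHomeomorphCoe (2 * Real.pi) s0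
  have hsrc : e.source = Ioo s0 (s0 + 2 * Real.pi) := rfl
  have htgt : e.target = {(s0 : AddCircle (2 * Real.pi))}ᶜ := rfl
  have hecoe : ∀ s : ℝ, e s = (s : AddCircle (2 * Real.pi)) := fun s => rfl
  have hBt : ∀ i, B i ⊆ e.target := by
    intro i x hx
    rw [htgt]
    intro h
    exact hBn i (by rw [← (mem_singleton_iff.1 h)]; exact hx)
  refine no_three (a := s0) (b := s0 + 2 * Real.pi) (K := fun i => e.symm '' (B i))
    (fun i => (hB i).image _ (e.continuousOn_symm.mono (hBt i))) ?_ ?_ ?_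
  · intro i
    rintro _ ⟨x, hx, rfl⟩
    rw [← hsrc]
    exact e.map_target (hBt i hx)
  · intro i η hη
    by_contra hcon
    push Not at hcon
    -- B i is contained in the compact image of [s0+η, s0+2π-η]
    have h1 : B i ⊆ ((↑) : ℝ → AddCircle (2 * Real.pi)) '' Icc (s0 + η) (s0 + 2 * Real.pi - η) := by
      intro x hx
      have h2 := hcon (e.symm x) ⟨x, hx, rfl⟩
      refine ⟨e.symm x, ⟨h2.1, h2.2⟩, ?_⟩
      rw [← hecoe]
      exact e.right_inv (hBt i hx)
    have h2 : IsClosed (((↑) : ℝ → AddCircle (2 * Real.pi)) '' Icc (s0 + η) (s0 + 2 * Real.pi - η)) :=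
      (isCompact_Icc.image (AddCircle.continuous_mk' _)).isClosed
    have h3 := closure_minimal h1 h2 (hBcl i)
    obtain ⟨s, hs, hs'⟩ := h3
    -- s ≡ s0 mod 2π with s in (s0, s0+2π)
    have h4 : s ∈ e.source := by
      rw [hsrc]; exact ⟨by linarith [hs.1], by linarith [hs.2]⟩
    have h5 := e.map_source h4
    rw [htgt, hecoe] at h5
    exact h5 hs'
  · intro i j hij
    rw [Set.disjoint_left]
    rintro _ ⟨x, hx, rfl⟩ ⟨y, hy, hxy⟩
    have h1 : e (e.symm y) = e (e.symm x) := by rw [hxy]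
    rw [e.right_inv (hBt i hx), e.right_inv (hBt j hy)] at h1
    subst h1
    exact Set.disjoint_left.1 (hBd i j hij) hx hy

end Crest.Agent.R144.Triod353
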