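import Crest.Agent.R144.TriTil_353
import Crest.Agent.R144.Triod_353

/-!
# R144 / TriDom_353 : triangular-lattice polygons bounded by one simple closed curve (S0196, S0197)
-/

set_option autoImplicit false

noncomputable section

namespace Crest.Agent.R144.TriDom353

open Set Topology Crest.ProbabilityR.HexHeights Crest.ProbabilityR.TriHeights
open Crest.Agent.R144.Til353 Crest.Agent.R144.HexTil353 Crest.Agent.R144.HexDom353
open Crest.Agent.R144.TriTil353

/-- the down triangles `(w, false)` sharing an edge with the up triangle `(u, true)` -/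
def UD (u w : ℤ × ℤ) : Prop := w = u ∨ w = (u.1 - 1, u.2) ∨ w = (u.1, u.2 - 1)

/-- edge adjacency of triangles -/
def TAdj (t t' : Tri) : Prop :=
  (t.2 = true ∧ t'.2 = false ∧ UD t.1 t'.1) ∨ (t.2 = false ∧ t'.2 = true ∧ UD t'.1 t.1)

theorem TAdj.symm {t t' : Tri} (h : TAdj t t') : TAdj t' t := by
  unfold TAdj at h ⊢; tauto

theorem glued_up {δ : ℝ} (hδ : 0 < δ) {u w : ℤ × ℤ} (h : UD u w) :
    Glued (triRegion δ) (u, true) (w, false) := by
  have hopen : ∀ x y : ℝ, IsOpen {z : ℂ | |ca δ z - x| < 1 / 4 ∧ |cb δ z - y| < 1 / 4} := by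
    intro x y
    have h1 := continuous_ca δ
    have h2 := continuous_cb δ
    exact (isOpen_lt (h1.sub continuous_const).abs continuous_const).inter
      (isOpen_lt (h2.sub continuous_const).abs continuous_const)
  obtain ⟨x, y, g1, g2, g3⟩ : ∃ x y : ℝ, InT (u, true) x y ∧ InT (w, false) x y ∧
      ∀ a b : ℝ, |a - x| < 1 / 4 → |b - y| < 1 / 4 → InT (u, true) a b ∨ InT (w, false) a b := by
    rcases h with rfl | rfl | rfl
    · refine ⟨w.1 + 1 / 2, w.2 + 1 / 2, ?_, ?_, ?_⟩
      · rw [InT_up]; refine ⟨?_, ?_, ?_⟩ <;> linarith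
      · rw [InT_dn]; refine ⟨?_, ?_, ?_⟩ <;> linarith
      · intro a b ha hb
        rw [abs_lt] at ha hb
        rw [InT_up, InT_dn]
        rcases le_total (a + b) (w.1 + w.2 + 1) with h | h
        · left; exact ⟨by linarith, by linarith, h⟩
        · right; exact ⟨by linarith, by linarith, h⟩
    · refine ⟨u.1, u.2 + 1 / 2, ?_, ?_, ?_⟩
      · rw [InT_up]; refine ⟨?_, ?_, ?_⟩ <;> linarith
      · rw [InT_dn]; refine ⟨?_, ?_, ?_⟩ <;> push_cast <;> linarith
      · intro a b ha hb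
        rw [abs_lt] at ha hb
        rw [InT_up, InT_dn]
        push_cast
        rcases le_total a u.1 with h | h
        · right; exact ⟨by linarith, by linarith, by linarith⟩
        · left; exact ⟨by linarith, by linarith, by linarith⟩
    · refine ⟨u.1 + 1 / 2, u.2, ?_, ?_, ?_⟩
      · rw [InT_up]; refine ⟨?_, ?_, ?_⟩ <;> linarith
      · rw [InT_dn]; refine ⟨?_, ?_, ?_⟩ <;> push_cast <;> linarith
      · intro a b ha hb
        rw [abs_lt] at ha hb
        rw [InT_up, InT_dn]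
        push_cast
        rcases le_total b u.2 with h | h
        · right; exact ⟨by linarith, by linarith, by linarith⟩
        · left; exact ⟨by linarith, by linarith, by linarith⟩
  refine ⟨cen δ x y, ?_, ?_, ?_⟩
  · rw [mem_triRegion hδ, ca_cen hδ, cb_cen hδ]; exact g1
  · rw [mem_triRegion hδ, ca_cen hδ, cb_cen hδ]; exact g2
  · refine interior_maximal ?_ (hopen x y) ?_
    · rintro z ⟨hz1, hz2⟩
      rcases g3 _ _ hz1 hz2 with h | h
      · left; exact (mem_triRegion hδ _ _).2 h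
      · right; exact (mem_triRegion hδ _ _).2 h
    · change |ca δ (cen δ x y) - x| < 1 / 4 ∧ |cb δ (cen δ x y) - y| < 1 / 4
      rw [ca_cen hδ, cb_cen hδ, sub_self, sub_self, abs_zero]
      norm_num

theorem glued_of_tadj {δ : ℝ} (hδ : 0 < δ) {t t' : Tri} (h : TAdj t t') :
    Glued (triRegion δ) t t' := by
  obtain ⟨u, b⟩ := t
  obtain ⟨w, b'⟩ := t'
  rcases h with ⟨h1, h2, h3⟩ | ⟨h1, h2, h3⟩
  · simp only at h1 h2 h3
    subst h1; subst h2
    exact glued_up hδ h3
  · simp only at h1 h2 h3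
    subst h1; subst h2
    exact Tiling.glued_symm (glued_up hδ h3)

/-- the six triangles around a site, in cyclic order -/
def star (s : ℤ × ℤ) : Fin 6 → Tri :=
  ![((s.1, s.2), true), ((s.1 - 1, s.2), false), ((s.1 - 1, s.2), true),
    ((s.1 - 1, s.2 - 1), false), ((s.1, s.2 - 1), true), ((s.1, s.2 - 1), false)]

/-- `nb s k` = the neighbour of `s` on the edge between `star s k` and `star s (k+1)` -/
def nb (s : ℤ × ℤ) : Fin 6 → ℤ × ℤ :=
  ![(s.1, s.2 + 1), (s.1 - 1, s.2 + 1), (s.1 - 1, s.2), (s.1, s.2 - 1), (s.1 + 1, s.2 - 1),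
    (s.1 + 1, s.2)]

theorem mem_star {s : ℤ × ℤ} {t : Tri} : s ∈ corners t ↔ ∃ k, t = star s k := by
  obtain ⟨⟨i, j⟩, b⟩ := t
  obtain ⟨p, q⟩ := s
  constructor
  · intro h
    cases b
    · rcases mem_corners_dn.1 h with h | h | h
      · rw [Prod.mk.injEq] at h
        obtain ⟨rfl, rfl⟩ := h
        exact ⟨1, by simp [star]⟩
      · rw [Prod.mk.injEq] at h
        obtain ⟨rfl, rfl⟩ := h
        exact ⟨5, by simp [star]⟩
      · rw [Prod.mk.injEq] at h
        obtain ⟨rfl, rfl⟩ := h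
        exact ⟨3, by simp [star]⟩
    · rcases mem_corners_up.1 h with h | h | h
      · rw [Prod.mk.injEq] at h
        obtain ⟨rfl, rfl⟩ := h
        exact ⟨0, by simp [star]⟩
      · rw [Prod.mk.injEq] at h
        obtain ⟨rfl, rfl⟩ := h
        exact ⟨2, by simp [star]⟩
      · rw [Prod.mk.injEq] at h
        obtain ⟨rfl, rfl⟩ := h
        exact ⟨4, by simp [star]⟩
  · rintro ⟨k, hk⟩
    rw [hk]
    fin_cases k <;> simp [star, mem_corners_up, mem_corners_dn]

theorem star_adj (s : ℤ × ℤ) (k : Fin 6) : TAdj (star s k) (star s (k + 1)) := by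
  fin_cases k <;> simp [star, TAdj, UD]

theorem self_mem_star (s : ℤ × ℤ) (k : Fin 6) : s ∈ corners (star s k) := mem_star.2 ⟨k, rfl⟩

theorem nb_mem_star (s : ℤ × ℤ) (k : Fin 6) : nb s k ∈ corners (star s k) := by
  fin_cases k <;> simp [star, nb, mem_corners_up, mem_corners_dn]

theorem nb_mem_star' (s : ℤ × ℤ) (k : Fin 6) : nb s k ∈ corners (star s (k + 1)) := by
  fin_cases k <;> simp [star, nb, mem_corners_up, mem_corners_dn]

/-- touching triangles share a corner -/
theorem touch {δ : ℝ} (hδ : 0 < δ) {t t' : Tri} (h : (triRegion δ t ∩ triRegion δ t').Nonempty) :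
    ∃ s, s ∈ corners t ∧ s ∈ corners t' := by
  obtain ⟨z, hz, hz'⟩ := h
  rw [mem_triRegion hδ] at hz hz'
  set a := ca δ z
  set b := cb δ z
  obtain ⟨⟨i, j⟩, c⟩ := t
  obtain ⟨⟨p, q⟩, c'⟩ := t'
  cases c <;> cases c'
  · rw [InT_dn] at hz hz'
    obtain ⟨h1, h2, h3⟩ := hz
    obtain ⟨g1, g2, g3⟩ := hz'
    simp only at h1 h2 h3 g1 g2 g3
    have e1 : (i : ℝ) ≤ p + 1 := by linarith
    have e2 : (p : ℝ) ≤ i + 1 := by linarith
    have e3 : (j : ℝ) ≤ q + 1 := by linarith
    have e4 : (q : ℝ) ≤ j + 1 := by linarith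
    have e5 : (i : ℝ) + j ≤ p + q + 1 := by linarith
    have e6 : (p : ℝ) + q ≤ i + j + 1 := by linarith
    have f1 : i ≤ p + 1 := by exact_mod_cast e1
    have f2 : p ≤ i + 1 := by exact_mod_cast e2
    have f3 : j ≤ q + 1 := by exact_mod_cast e3
    have f4 : q ≤ j + 1 := by exact_mod_cast e4
    have f5 : i + j ≤ p + q + 1 := by exact_mod_cast e5
    have f6 : p + q ≤ i + j + 1 := by exact_mod_cast e6
    simp only [mem_corners_dn]
    by_cases hp1 : p = i + 1 ∧ q = j
    · exact ⟨(i + 1, j + 1), by simp, by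
        simp only [Prod.mk.injEq]; omega⟩
    by_cases hp3 : p = i + 1
    · exact ⟨(i + 1, j), by simp, by
        simp only [Prod.mk.injEq]; omega⟩
    by_cases hp2 : p = i - 1
    · exact ⟨(i, j + 1), by simp, by
        simp only [Prod.mk.injEq]; omega⟩
    by_cases hq1 : q = j + 1
    · exact ⟨(i + 1, j + 1), by simp, by
        simp only [Prod.mk.injEq]; omega⟩
    · exact ⟨(i + 1, j), by simp, by
        simp only [Prod.mk.injEq]; omega⟩
  · rw [InT_dn] at hz
    rw [InT_up] at hz'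
    obtain ⟨h1, h2, h3⟩ := hz
    obtain ⟨g1, g2, g3⟩ := hz'
    simp only at h1 h2 h3 g1 g2 g3
    have e1 : (p : ℝ) ≤ i + 1 := by linarith
    have e2 : (q : ℝ) ≤ j + 1 := by linarith
    have e3 : (i : ℝ) + j ≤ p + q := by linarith
    have e4 : (i : ℝ) ≤ p + 1 := by linarith
    have e5 : (j : ℝ) ≤ q + 1 := by linarith
    have e6 : (p : ℝ) + q ≤ i + j + 2 := by linarith
    have f1 : p ≤ i + 1 := by exact_mod_cast e1
    have f2 : q ≤ j + 1 := by exact_mod_cast e2
    have f3 : i + j ≤ p + q := by exact_mod_cast e3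
    have f4 : i ≤ p + 1 := by exact_mod_cast e4
    have f5 : j ≤ q + 1 := by exact_mod_cast e5
    have f6 : p + q ≤ i + j + 2 := by exact_mod_cast e6
    simp only [mem_corners_dn, mem_corners_up]
    by_cases k1 : p = i + 1 ∧ q = j + 1
    · exact ⟨(i + 1, j + 1), by simp, by simp only [Prod.mk.injEq]; omega⟩
    by_cases k2 : p ≤ i ∧ q ≤ j
    · have : (p = i ∧ q = j) := by omega
      exact ⟨(i + 1, j), by simp, by simp only [Prod.mk.injEq]; omega⟩
    by_cases k3 : p = i + 1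
    · exact ⟨(i + 1, j), by simp, by simp only [Prod.mk.injEq]; omega⟩
    · exact ⟨(i, j + 1), by simp, by simp only [Prod.mk.injEq]; omega⟩
  · rw [InT_up] at hz
    rw [InT_dn] at hz'
    obtain ⟨h1, h2, h3⟩ := hz
    obtain ⟨g1, g2, g3⟩ := hz'
    simp only at h1 h2 h3 g1 g2 g3
    have e1 : (i : ℝ) ≤ p + 1 := by linarith
    have e2 : (j : ℝ) ≤ q + 1 := by linarith
    have e3 : (p : ℝ) + q ≤ i + j := by linarith
    have e4 : (p : ℝ) ≤ i + 1 := by linarith
    have e5 : (q : ℝ) ≤ j + 1 := by linarith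
    have e6 : (i : ℝ) + j ≤ p + q + 2 := by linarith
    have f1 : i ≤ p + 1 := by exact_mod_cast e1
    have f2 : j ≤ q + 1 := by exact_mod_cast e2
    have f3 : p + q ≤ i + j := by exact_mod_cast e3
    have f4 : p ≤ i + 1 := by exact_mod_cast e4
    have f5 : q ≤ j + 1 := by exact_mod_cast e5
    have f6 : i + j ≤ p + q + 2 := by exact_mod_cast e6
    simp only [mem_corners_dn, mem_corners_up]
    by_cases k1 : i = p + 1 ∧ j = q + 1
    · exact ⟨(p + 1, q + 1), by simp only [Prod.mk.injEq]; omega, by simp⟩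
    by_cases k2 : i ≤ p ∧ j ≤ q
    · have : (i = p ∧ j = q) := by omega
      exact ⟨(p + 1, q), by simp only [Prod.mk.injEq]; omega, by simp⟩
    by_cases k3 : i = p + 1
    · exact ⟨(p + 1, q), by simp only [Prod.mk.injEq]; omega, by simp⟩
    · exact ⟨(p, q + 1), by simp only [Prod.mk.injEq]; omega, by simp⟩
  · rw [InT_up] at hz hz'
    obtain ⟨h1, h2, h3⟩ := hz
    obtain ⟨g1, g2, g3⟩ := hz'
    simp only at h1 h2 h3 g1 g2 g3
    have e1 : (i : ℝ) ≤ p + 1 := by linarith
    have e2 : (p : ℝ) ≤ i + 1 := by linarith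
    have e3 : (j : ℝ) ≤ q + 1 := by linarith
    have e4 : (q : ℝ) ≤ j + 1 := by linarith
    have e5 : (i : ℝ) + j ≤ p + q + 1 := by linarith
    have e6 : (p : ℝ) + q ≤ i + j + 1 := by linarith
    have f1 : i ≤ p + 1 := by exact_mod_cast e1
    have f2 : p ≤ i + 1 := by exact_mod_cast e2
    have f3 : j ≤ q + 1 := by exact_mod_cast e3
    have f4 : q ≤ j + 1 := by exact_mod_cast e4
    have f5 : i + j ≤ p + q + 1 := by exact_mod_cast e5
    have f6 : p + q ≤ i + j + 1 := by exact_mod_cast e6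
    simp only [mem_corners_up]
    by_cases hp1 : p = i + 1
    · exact ⟨(i + 1, j), by simp, by
        simp only [Prod.mk.injEq]; omega⟩
    by_cases hq1 : q = j + 1
    · exact ⟨(i, j + 1), by simp, by
        simp only [Prod.mk.injEq]; omega⟩
    · exact ⟨(i, j), by simp, by
        simp only [Prod.mk.injEq]; omega⟩

/-! ### the vertex condition -/

/-- half-open lattice edge -/
def A (δ : ℝ) (s : ℤ × ℤ) (k : Fin 6) : Set ℂ :=
  (fun t : ℝ => centre δ s + t • (centre δ (nb s k) - centre δ s)) '' Ioc 0 1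

theorem A_pre (δ : ℝ) (s : ℤ × ℤ) (k : Fin 6) : IsPreconnected (A δ s k) :=
  isPreconnected_Ioc.image _ (by fun_prop)

theorem A_closure (δ : ℝ) (s : ℤ × ℤ) (k : Fin 6) : centre δ s ∈ closure (A δ s k) := by
  have h1 : (0 : ℝ) ∈ closure (Ioc (0 : ℝ) 1) := by
    rw [closure_Ioc (by norm_num)]; simp
  have h2 : Continuous (fun t : ℝ => centre δ s + t • (centre δ (nb s k) - centre δ s)) := by
    fun_prop
  have h3 := image_closure_subset_closure_image h2 ⟨0, h1, rfl⟩
  simpa [A] using h3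

theorem A_sub (δ : ℝ) (s : ℤ × ℤ) (k : Fin 6) {K : Set ℂ} (hK : Convex ℝ K)
    (h1 : centre δ s ∈ K) (h2 : centre δ (nb s k) ∈ K) : A δ s k ⊆ K := by
  rintro _ ⟨t, ht, rfl⟩
  exact hK.add_smul_sub_mem h1 h2 ⟨ht.1.le, ht.2⟩

theorem A_coord {δ : ℝ} (hδ : 0 < δ) {s : ℤ × ℤ} {k : Fin 6} {z : ℂ} (hz : z ∈ A δ s k) :
    ∃ t : ℝ, 0 < t ∧ ca δ z = s.1 + t * ((nb s k).1 - s.1) ∧ cb δ z = s.2 + t * ((nb s k).2 - s.2) := by
  obtain ⟨t, ht, rfl⟩ := hz
  refine ⟨t, ht.1, ?_, ?_⟩
  · simp only [ca_add, ca_smul, ca_sub, ca_centre hδ]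
  · simp only [cb_add, cb_smul, cb_sub, cb_centre hδ]

theorem A_ne {δ : ℝ} (hδ : 0 < δ) (s : ℤ × ℤ) (k : Fin 6) : centre δ s ∉ A δ s k := by
  intro h
  obtain ⟨t, ht, h1, h2⟩ := A_coord hδ h
  rw [ca_centre hδ] at h1
  rw [cb_centre hδ] at h2
  fin_cases k <;> simp [nb] at h1 h2 <;> linarith

theorem A_disj {δ : ℝ} (hδ : 0 < δ) (s : ℤ × ℤ) (k l : Fin 6) (hkl : k ≠ l) :
    Disjoint (A δ s k) (A δ s l) := by
  rw [Set.disjoint_left]
  intro z hz hz'
  obtain ⟨t, ht, h1, h2⟩ := A_coord hδ hz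
  obtain ⟨t', ht', h1', h2'⟩ := A_coord hδ hz'
  rw [h1] at h1'
  rw [h2] at h2'
  clear h1 h2
  fin_cases k <;> fin_cases l <;> first | exact absurd rfl hkl | skip
  all_goals
    simp [nb] at h1' h2'
    linarith

/-- the pattern around `s` changes between `star s k` and `star s (k+1)` -/
def Chg (S : Set Tri) (s : ℤ × ℤ) (k : Fin 6) : Prop := ¬ (star s k ∈ S ↔ star s (k + 1) ∈ S)

theorem A_frontier {δ : ℝ} (hδ : 0 < δ) {S : Set Tri} {s : ℤ × ℤ} {k : Fin 6} (h : Chg S s k) :
    A δ s k ⊆ frontier (interior (U (triRegion δ) S)) := by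
  have h1 : A δ s k ⊆ triRegion δ (star s k) :=
    A_sub δ s k (convex_convexHull ℝ _) (corner_mem_hull δ _ (self_mem_star s k))
      (corner_mem_hull δ _ (nb_mem_star s k))
  have h2 : A δ s k ⊆ triRegion δ (star s (k + 1)) :=
    A_sub δ s k (convex_convexHull ℝ _) (corner_mem_hull δ _ (self_mem_star s _))
      (corner_mem_hull δ _ (nb_mem_star' s k))
  rw [(TriTil353.tiling hδ).frontier_eq]
  intro z hz
  by_cases h3 : star s k ∈ S
  · have h4 : star s (k + 1) ∉ S := fun h5 => h ⟨fun _ => h5, fun _ => h3⟩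
    exact ⟨mem_U.2 ⟨_, h3, h1 hz⟩, mem_U.2 ⟨_, h4, h2 hz⟩⟩
  · have h4 : star s (k + 1) ∈ S := by
      by_contra h5
      exact h ⟨fun h6 => absurd h6 h3, fun h6 => absurd h6 h5⟩
    exact ⟨mem_U.2 ⟨_, h4, h2 hz⟩, mem_U.2 ⟨_, h3, h1 hz⟩⟩

/-- at most two changes around each site -/
def VC (S : Set Tri) : Prop := ∀ (s : ℤ × ℤ) (k : Fin 3 → Fin 6), Function.Injective k →
  ¬ ∀ i, Chg S s (k i)

theorem vc_of_curve {δ : ℝ} (hδ : 0 < δ) {S : Set Tri} {c : ℝ → ℂ} (hc : Continuous c)
    (hp : Function.Periodic c (2 * Real.pi)) (hi : InjOn c (Ico 0 (2 * Real.pi)))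
    (hr : range c = frontier (interior (U (triRegion δ) S))) : VC S := by
  intro s k hk hcon
  refine Triod353.no_triod hc hp hi (p := centre δ s) (A := fun i => A δ s (k i))
    (fun i => A_pre δ s _) (fun i => ?_) (fun i => A_ne hδ s _) (fun i => A_closure δ s _)
    (fun i j hij => A_disj hδ s _ _ fun h => hij (hk h))
  rw [hr]
  exact A_frontier hδ (hcon i)

theorem VC.compl {S : Set Tri} (h : VC S) : VC Sᶜ := by
  intro s k hk hcon
  refine h s k hk fun i => ?_
  have := hcon i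
  unfold Chg at this ⊢
  simp only [mem_compl_iff] at this
  tauto

/-- cyclic index -/
def idx (i : Fin 6) (n : ℕ) : Fin 6 := ⟨(i.1 + n) % 6, Nat.mod_lt _ (by norm_num)⟩

theorem idx_zero (i : Fin 6) : idx i 0 = i := by
  apply Fin.ext; simp only [idx]; omega

theorem idx_six (i : Fin 6) : idx i 6 = i := by
  apply Fin.ext; simp only [idx]; omega

theorem idx_succ (i : Fin 6) (n : ℕ) : idx i (n + 1) = idx i n + 1 := by
  apply Fin.ext
  rw [Fin.val_add]
  simp only [idx]
  change (i.1 + (n + 1)) % 6 = ((i.1 + n) % 6 + 1) % 6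
  omega

theorem idx_inj (i : Fin 6) {m n : ℕ} (hm : m < 6) (hn : n < 6) (h : idx i m = idx i n) : m = n := by
  have := congrArg Fin.val h
  simp only [idx] at this
  omega

theorem exists_idx (i j : Fin 6) : ∃ n < 6, idx i n = j := by
  refine ⟨(j.1 + 6 - i.1) % 6, Nat.mod_lt _ (by norm_num), ?_⟩
  apply Fin.ext; simp only [idx]; omega

theorem exists_change (g : ℕ → Prop) {x y : ℕ} (h : x ≤ y) (hne : ¬ (g x ↔ g y)) :
    ∃ p, x ≤ p ∧ p < y ∧ ¬ (g p ↔ g (p + 1)) := by
  induction y, h using Nat.le_induction with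
  | base => exact absurd Iff.rfl hne
  | succ y hxy ih =>
    by_cases h1 : (g x ↔ g y)
    · exact ⟨y, hxy, Nat.lt_succ_self y, fun h2 => hne (h1.trans h2)⟩
    · obtain ⟨p, hp1, hp2, hp3⟩ := ih h1
      exact ⟨p, hp1, hp2.trans (Nat.lt_succ_self y), hp3⟩

/-- chained by edge adjacency inside `S` -/
def TCh (S : Set Tri) : Tri → Tri → Prop :=
  Relation.ReflTransGen fun a b => a ∈ S ∧ b ∈ S ∧ TAdj a b

theorem TCh.symm {S : Set Tri} {t t' : Tri} (h : TCh S t t') : TCh S t' t := by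
  unfold TCh at h ⊢
  induction h with
  | refl => exact Relation.ReflTransGen.refl
  | tail _ hs ih => exact Relation.ReflTransGen.head ⟨hs.2.1, hs.1, hs.2.2.symm⟩ ih

theorem chain_arc {S : Set Tri} {s : ℤ × ℤ} {i : Fin 6} {m n : ℕ} (hmn : m ≤ n)
    (h : ∀ l, m ≤ l → l ≤ n → star s (idx i l) ∈ S) :
    TCh S (star s (idx i m)) (star s (idx i n)) := by
  induction n, hmn using Nat.le_induction with
  | base => exact Relation.ReflTransGen.refl
  | succ n hmn ih =>
    refine Relation.ReflTransGen.tail (ih fun l h1 h2 => h l h1 (by omega)) ?_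
    refine ⟨h n hmn (by omega), h (n + 1) (by omega) le_rfl, ?_⟩
    rw [idx_succ]
    exact star_adj s _

theorem chain_star {S : Set Tri} (hV : VC S) (s : ℤ × ℤ) {i j : Fin 6}
    (hi : star s i ∈ S) (hj : star s j ∈ S) : TCh S (star s i) (star s j) := by
  obtain ⟨n, hn, rfl⟩ := exists_idx i j
  by_cases h1 : ∀ l, 0 ≤ l → l ≤ n → star s (idx i l) ∈ S
  · have := chain_arc (m := 0) (Nat.zero_le n) h1
    rwa [idx_zero] at this
  by_cases h2 : ∀ l, n ≤ l → l ≤ 6 → star s (idx i l) ∈ S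
  · have := chain_arc (m := n) (n := 6) (by omega) h2
    rw [idx_six] at this
    exact TCh.symm this
  exfalso
  push Not at h1 h2
  obtain ⟨a, ha0, ha1, ha2⟩ := h1
  obtain ⟨b, hb0, hb1, hb2⟩ := h2
  let g : ℕ → Prop := fun l => star s (idx i l) ∈ S
  have g0 : g 0 := by change star s (idx i 0) ∈ S; rw [idx_zero]; exact hi
  have g6 : g 6 := by change star s (idx i 6) ∈ S; rw [idx_six]; exact hi
  have hb6 : b < 6 := by
    rcases Nat.lt_or_ge b 6 with h | h
    · exact h
    · have : b = 6 := by omega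
      subst this
      exact absurd g6 hb2
  obtain ⟨p1, hp1, hp1', hc1⟩ := exists_change g (x := 0) (y := a) ha0 (fun h => ha2 (h.1 g0))
  obtain ⟨p2, hp2, hp2', hc2⟩ := exists_change g (x := a) (y := n) ha1 (fun h => ha2 (h.2 hj))
  obtain ⟨p3, hp3, hp3', hc3⟩ := exists_change g (x := n) (y := b) hb0 (fun h => hb2 (h.1 hj))
  refine hV s ![idx i p1, idx i p2, idx i p3] ?_ ?_
  · intro x y hxy
    have e1 : idx i p1 ≠ idx i p2 := fun h => by have := idx_inj i (by omega) (by omega) h; omega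
    have e2 : idx i p1 ≠ idx i p3 := fun h => by have := idx_inj i (by omega) (by omega) h; omega
    have e3 : idx i p2 ≠ idx i p3 := fun h => by have := idx_inj i (by omega) (by omega) h; omega
    fin_cases x <;> fin_cases y <;> simp at hxy ⊢ <;>
      first | exact e1 hxy | exact e2 hxy | exact e3 hxy | exact e1 hxy.symm | exact e2 hxy.symm |
        exact e3 hxy.symm
  · intro x
    have k1 : Chg S s (idx i p1) := by unfold Chg; rw [← idx_succ]; exact hc1
    have k2 : Chg S s (idx i p2) := by unfold Chg; rw [← idx_succ]; exact hc2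
    have k3 : Chg S s (idx i p3) := by unfold Chg; rw [← idx_succ]; exact hc3
    fin_cases x
    · exact k1
    · exact k2
    · exact k3

theorem chain_loc {δ : ℝ} (hδ : 0 < δ) {S : Set Tri} (hV : VC S) :
    ∀ t ∈ S, ∀ t' ∈ S, (triRegion δ t ∩ triRegion δ t').Nonempty → TCh S t t' := by
  intro t ht t' ht' hne
  obtain ⟨s, hs, hs'⟩ := touch hδ hne
  obtain ⟨i, rfl⟩ := mem_star.1 hs
  obtain ⟨j, rfl⟩ := mem_star.1 hs'
  exact chain_star hV s ht ht'

/-- boundary edges in terms of the star -/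
theorem corners_pair {s : ℤ × ℤ} {k : Fin 6} {t : Tri} :
    (s ∈ corners t ∧ nb s k ∈ corners t) ↔ (t = star s k ∨ t = star s (k + 1)) := by
  constructor
  · rintro ⟨h1, h2⟩
    obtain ⟨l, rfl⟩ := mem_star.1 h1
    clear h1
    obtain ⟨i, j⟩ := s
    fin_cases k <;> fin_cases l <;> simp [star, nb, mem_corners_up, mem_corners_dn] at h2 ⊢ <;>
      omega
  · rintro (rfl | rfl)
    · exact ⟨self_mem_star _ _, nb_mem_star _ _⟩
    · exact ⟨self_mem_star _ _, nb_mem_star' _ _⟩

theorem star_ne (s : ℤ × ℤ) (k : Fin 6) : star s k ≠ star s (k + 1) := by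
  fin_cases k <;> simp [star]

theorem nb_ne (s : ℤ × ℤ) (k : Fin 6) : nb s k ≠ s := by
  obtain ⟨i, j⟩ := s
  fin_cases k <;> simp [nb]

theorem exists_nb {s w : ℤ × ℤ} {t : Tri} (h1 : s ∈ corners t) (h2 : w ∈ corners t) (hne : s ≠ w) :
    ∃ k, w = nb s k := by
  obtain ⟨l, rfl⟩ := mem_star.1 h1
  obtain ⟨i, j⟩ := s
  obtain ⟨p, q⟩ := w
  fin_cases l <;> simp [star, mem_corners_up, mem_corners_dn] at h2 hne
  · rcases h2 with h | h | h
    · exact absurd h.2.symm (hne h.1.symm)
    · exact ⟨5, by simp [nb, h]⟩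
    · exact ⟨0, by simp [nb, h]⟩
  · rcases h2 with h | h | h
    · exact absurd h.2.symm (hne h.1.symm)
    · exact ⟨1, by simp [nb, h]⟩
    · exact ⟨0, by simp [nb, h]⟩
  · rcases h2 with h | h | h
    · exact ⟨2, by simp [nb, h]⟩
    · exact absurd h.2.symm (hne h.1.symm)
    · exact ⟨1, by simp [nb, h]⟩
  · rcases h2 with h | h | h
    · exact ⟨3, by simp [nb, h]⟩
    · exact ⟨2, by simp [nb, h]⟩
    · exact absurd h.2.symm (hne h.1.symm)
  · rcases h2 with h | h | h
    · exact ⟨3, by simp [nb, h]⟩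
    · exact ⟨4, by simp [nb, h]⟩
    · exact absurd h.2.symm (hne h.1.symm)
  · rcases h2 with h | h | h
    · exact ⟨4, by simp [nb, h]⟩
    · exact absurd h.2.symm (hne h.1.symm)
    · exact ⟨5, by simp [nb, h]⟩

theorem adj_iff_nb (s w : ℤ × ℤ) : Adj s w ↔ ∃ k, w = nb s k := by
  obtain ⟨i, j⟩ := s
  obtain ⟨p, q⟩ := w
  constructor
  · intro h
    unfold Adj at h
    simp only at h
    rcases h with h | h | h | h | h | h
    · exact ⟨5, by simp [nb]; omega⟩
    · exact ⟨2, by simp [nb]; omega⟩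
    · exact ⟨0, by simp [nb]; omega⟩
    · exact ⟨3, by simp [nb]; omega⟩
    · exact ⟨4, by simp [nb]; omega⟩
    · exact ⟨1, by simp [nb]; omega⟩
  · rintro ⟨k, hk⟩
    rw [hk]
    unfold Adj
    fin_cases k <;> simp [nb]

/-- interior vertices of `T`: all six triangles around belong to `T` -/
def Lam (T : Finset Tri) : Finset (ℤ × ℤ) :=
  haveI := Classical.decPred fun v : ℤ × ℤ => ∀ k, star v k ∈ T
  (verts T).filter fun v => ∀ k, star v k ∈ T

theorem mem_verts {T : Finset Tri} {v : ℤ × ℤ} : v ∈ verts T ↔ ∃ k, star v k ∈ T := by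
  unfold verts
  rw [Finset.mem_biUnion]
  constructor
  · rintro ⟨t, ht, hv⟩
    obtain ⟨k, rfl⟩ := mem_star.1 hv
    exact ⟨k, ht⟩
  · rintro ⟨k, hk⟩
    exact ⟨_, hk, self_mem_star v k⟩

theorem mem_Lam {T : Finset Tri} {v : ℤ × ℤ} : v ∈ Lam T ↔ ∀ k, star v k ∈ T := by
  unfold Lam
  simp only [Finset.mem_filter]
  constructor
  · exact fun h => h.2
  · exact fun h => ⟨mem_verts.2 ⟨0, h 0⟩, h⟩

theorem boundaryEdge_nb {T : Finset Tri} {s : ℤ × ℤ} {k : Fin 6} :
    IsBoundaryEdge T (s, nb s k) ↔ Chg (T : Set Tri) s k := by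
  classical
  unfold IsBoundaryEdge Chg
  simp only [Finset.mem_coe]
  have hf : (T.filter fun t => s ∈ corners t ∧ nb s k ∈ corners t) =
      T.filter fun t => t = star s k ∨ t = star s (k + 1) := by
    refine Finset.filter_congr fun t _ => corners_pair
  have hf' : (T.filter fun t => t = star s k ∨ t = star s (k + 1)) =
      ({star s k, star s (k + 1)} : Finset Tri).filter fun t => t ∈ T := by
    ext t
    simp only [Finset.mem_filter, Finset.mem_insert, Finset.mem_singleton]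
    tauto
  have hne := star_ne s k
  constructor
  · rintro ⟨_, h2⟩
    intro hiff
    rw [show (T.filter fun t => s ∈ corners t ∧ nb s k ∈ corners t) =
      ({star s k, star s (k + 1)} : Finset Tri).filter fun t => t ∈ T from hf.trans hf'] at h2
    by_cases h : star s k ∈ T
    · rw [Finset.filter_true_of_mem (by
        intro t ht
        rcases Finset.mem_insert.1 ht with rfl | ht
        · exact h
        · rw [Finset.mem_singleton.1 ht]; exact hiff.1 h), Finset.card_pair hne] at h2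
      omega
    · rw [Finset.filter_false_of_mem (by
        intro t ht
        rcases Finset.mem_insert.1 ht with rfl | ht
        · exact h
        · rw [Finset.mem_singleton.1 ht]; exact fun h' => h (hiff.2 h')), Finset.card_empty] at h2
      omega
  · intro h
    refine ⟨(nb_ne s k).symm, ?_⟩
    rw [show (T.filter fun t => s ∈ corners t ∧ nb s k ∈ corners t) =
      ({star s k, star s (k + 1)} : Finset Tri).filter fun t => t ∈ T from hf.trans hf']
    by_cases h1 : star s k ∈ T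
    · have h2 : star s (k + 1) ∉ T := fun h2 => h ⟨fun _ => h2, fun _ => h1⟩
      rw [Finset.filter_insert, if_pos h1, Finset.filter_singleton, if_neg h2]
      simp
    · have h2 : star s (k + 1) ∈ T := by
        by_contra h2
        exact h ⟨fun h3 => absurd h3 h1, fun h3 => absurd h3 h2⟩
      rw [Finset.filter_insert, if_neg h1, Finset.filter_singleton, if_pos h2]
      simp

/-- a vertex of `T` is interior or a boundary vertex, not both -/
theorem boundaryVertex_iff {T : Finset Tri} {v : ℤ × ℤ} :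
    IsBoundaryVertex T v ↔ v ∈ verts T ∧ v ∉ Lam T := by
  constructor
  · rintro ⟨y, hy⟩
    have h1 : ∃ t ∈ T, v ∈ corners t ∧ y ∈ corners t := by
      have h2 := hy.2
      have : 0 < (T.filter fun t => v ∈ corners t ∧ y ∈ corners t).card := by
        rw [show (T.filter fun t => v ∈ corners t ∧ y ∈ corners t).card = 1 from h2]
        norm_num
      obtain ⟨t, ht⟩ := Finset.card_pos.1 this
      rw [Finset.mem_filter] at ht
      exact ⟨t, ht.1, ht.2⟩
    obtain ⟨t, ht, hvt, hyt⟩ := h1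
    obtain ⟨k, rfl⟩ := exists_nb hvt hyt hy.1
    have hc := boundaryEdge_nb.1 hy
    obtain ⟨l, rfl⟩ := mem_star.1 hvt
    refine ⟨mem_verts.2 ⟨l, ht⟩, fun h => hc ?_⟩
    have := mem_Lam.1 h
    exact ⟨fun _ => this _, fun _ => this _⟩
  · rintro ⟨h1, h2⟩
    obtain ⟨l, hl⟩ := mem_verts.1 h1
    rw [mem_Lam] at h2
    push Not at h2
    obtain ⟨m, hm⟩ := h2
    obtain ⟨n, hn, rfl⟩ := exists_idx l m
    obtain ⟨p, _, _, hp⟩ := exists_change (fun r => star v (idx l r) ∈ T) (x := 0) (y := n)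
      (Nat.zero_le n) (by
        intro h
        rw [idx_zero] at h
        exact hm (h.1 hl))
    refine ⟨nb v (idx l p), boundaryEdge_nb.2 ?_⟩
    unfold Chg
    rw [idx_succ] at hp
    exact hp

theorem edge_of_Lam {T : Finset Tri} {v w : ℤ × ℤ} (hv : v ∈ Lam T) (h : Adj v w) :
    IsEdge T v w := by
  obtain ⟨k, rfl⟩ := (adj_iff_nb v w).1 h
  exact ⟨(nb_ne v k).symm, star v k, mem_Lam.1 hv k, self_mem_star v k, nb_mem_star v k⟩

/-! ### the polygon -/

theorem polygon_eq (δ : ℝ) (T : Finset Tri) :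
    polygon δ T = interior (U (triRegion δ) (T : Set Tri)) := by
  unfold polygon U
  simp only [Finset.mem_coe]

/-- closed region of `T` -/
def Pt (δ : ℝ) (T : Finset Tri) : Set ℂ := ⋃ t ∈ T, triRegion δ t

theorem Pt_eq (δ : ℝ) (T : Finset Tri) : Pt δ T = U (triRegion δ) (T : Set Tri) := by
  unfold Pt U
  simp only [Finset.mem_coe]

theorem closure_polygon {δ : ℝ} (hδ : 0 < δ) (T : Finset Tri) :
    closure (polygon δ T) = Pt δ T := by
  rw [polygon_eq, Pt_eq, (TriTil353.tiling hδ).closure_interior_U]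

theorem isCompact_tri (δ : ℝ) (t : Tri) : IsCompact (triRegion δ t) := by
  unfold triRegion
  exact ((Finset.finite_toSet _).image _).isCompact_convexHull ℝ

theorem isCompact_Pt (δ : ℝ) (T : Finset Tri) : IsCompact (Pt δ T) :=
  T.isCompact_biUnion fun t _ => isCompact_tri δ t

theorem compl_Pt {δ : ℝ} (hδ : 0 < δ) (T : Finset Tri) :
    (Pt δ T)ᶜ = interior (U (triRegion δ) ((T : Set Tri)ᶜ)) := by
  rw [Pt_eq, (TriTil353.tiling hδ).compl_U]

/-- centres of boundary vertices lie on the frontier -/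
theorem centre_mem_frontier {δ : ℝ} (hδ : 0 < δ) {T : Finset Tri} {v : ℤ × ℤ}
    (h : IsBoundaryVertex T v) : centre δ v ∈ frontier (polygon δ T) := by
  obtain ⟨h1, h2⟩ := boundaryVertex_iff.1 h
  obtain ⟨l, hl⟩ := mem_verts.1 h1
  rw [mem_Lam] at h2
  push Not at h2
  obtain ⟨m, hm⟩ := h2
  rw [polygon_eq, (TriTil353.tiling hδ).frontier_eq]
  exact ⟨mem_U.2 ⟨_, hl, corner_mem_hull δ _ (self_mem_star v l)⟩,
    mem_U.2 ⟨_, hm, corner_mem_hull δ _ (self_mem_star v m)⟩⟩

/-- centres of interior vertices lie in the polygon -/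
theorem centre_mem_polygon {δ : ℝ} (hδ : 0 < δ) {T : Finset Tri} {v : ℤ × ℤ}
    (h : v ∈ Lam T) : centre δ v ∈ polygon δ T := by
  have h1 : centre δ v ∈ Pt δ T := by
    rw [Pt_eq]
    exact mem_U.2 ⟨_, mem_Lam.1 h 0, corner_mem_hull δ _ (self_mem_star v 0)⟩
  rw [polygon_eq]
  by_contra hcon
  have h2 : centre δ v ∈ frontier (interior (U (triRegion δ) (T : Set Tri))) := by
    rw [frontier, interior_interior, (TriTil353.tiling hδ).closure_interior_U, ← Pt_eq]
    exact ⟨h1, hcon⟩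
  rw [(TriTil353.tiling hδ).frontier_eq] at h2
  obtain ⟨t, ht, hvt⟩ := mem_U.1 h2.2
  -- the triangle t contains the centre of v, so v is a corner of t
  have h3 : v ∈ corners t := by
    have := (mem_triRegion hδ t _).1 hvt
    rw [ca_centre hδ, cb_centre hδ] at this
    obtain ⟨⟨i, j⟩, b⟩ := t
    obtain ⟨p, q⟩ := v
    cases b
    · rw [InT_dn] at this
      obtain ⟨g1, g2, g3⟩ := this
      simp only at g1 g2 g3
      have f1 : p ≤ i + 1 := by exact_mod_cast g1
      have f2 : q ≤ j + 1 := by exact_mod_cast g2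
      have f3 : i + j + 1 ≤ p + q := by exact_mod_cast g3
      rw [mem_corners_dn]
      simp only [Prod.mk.injEq]
      omega
    · rw [InT_up] at this
      obtain ⟨g1, g2, g3⟩ := this
      simp only at g1 g2 g3
      have f1 : i ≤ p := by exact_mod_cast g1
      have f2 : j ≤ q := by exact_mod_cast g2
      have f3 : p + q ≤ i + j + 1 := by exact_mod_cast g3
      rw [mem_corners_up]
      simp only [Prod.mk.injEq]
      omega
  obtain ⟨k, rfl⟩ := mem_star.1 h3
  exact ht (mem_Lam.1 h k)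

theorem conn_of_vc {δ : ℝ} (hδ : 0 < δ) {S : Set Tri} (hV : VC S) (hS : Sᶜ.Nonempty)
    (hJ : IsPreconnected (frontier (interior (U (triRegion δ) S)))) : Conn TAdj S :=
  (TriTil353.tiling hδ).rel_of hS hJ (E := TCh S) (fun _ => Relation.ReflTransGen.refl)
    (fun _ _ _ h1 h2 => Relation.ReflTransGen.trans h1 h2) (chain_loc hδ hV)

theorem chain_of_conn {δ : ℝ} (hδ : 0 < δ) {S : Set Tri} (h : Conn TAdj S) :
    ∀ i ∈ S, ∀ j ∈ S, Tiling.Chain (triRegion δ) S i j := by
  intro i hi j hj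
  have := h i hi j hj
  unfold Tiling.Chain
  induction this with
  | refl => exact Relation.ReflTransGen.refl
  | tail _ hs ih => exact (ih hs.1).tail ⟨hs.1, hs.2.1, glued_of_tadj hδ hs.2.2⟩

/-- **The lattice block for S0196 / S0197.** -/
theorem tri_domain {δ : ℝ} (hδ : 0 < δ) {T : Finset Tri} {c : ℝ → ℂ} (hc : Continuous c)
    (hp : Function.Periodic c (2 * Real.pi)) (hi : InjOn c (Ico 0 (2 * Real.pi)))
    (hr : range c = frontier (polygon δ T)) :
    VC (T : Set Tri) ∧ T.Nonempty ∧ Conn TAdj (T : Set Tri) ∧ Conn TAdj ((T : Set Tri)ᶜ) ∧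
    IsPreconnected (polygon δ T) ∧ IsPreconnected (Pt δ T)ᶜ ∧ ¬ Bornology.IsBounded (Pt δ T)ᶜ := by
  have hT := TriTil353.tiling hδ
  rw [polygon_eq] at hr ⊢
  have hV : VC (T : Set Tri) := vc_of_curve hδ hc hp hi hr
  have hJ : IsPreconnected (frontier (interior (U (triRegion δ) (T : Set Tri)))) := by
    rw [← hr]
    exact isPreconnected_range hc
  have hne : T.Nonempty := by
    by_contra h
    rw [Finset.not_nonempty_iff_eq_empty] at h
    subst h
    have h1 : c 0 ∈ frontier (interior (U (triRegion δ) ((∅ : Finset Tri) : Set Tri))) := by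
      rw [← hr]; exact mem_range_self 0
    rw [hT.frontier_eq] at h1
    obtain ⟨t, ht, _⟩ := mem_U.1 h1.1
    simp at ht
  have hcompl : ((T : Set Tri)ᶜ).Nonempty := by
    obtain ⟨u, hu⟩ := Infinite.exists_notMem_finset T
    exact ⟨u, by simpa using hu⟩
  have h1 := conn_of_vc hδ hV hcompl hJ
  have h2 : Conn TAdj ((T : Set Tri)ᶜ) := by
    refine conn_of_vc hδ hV.compl (by rw [compl_compl]; exact_mod_cast hne) ?_
    rw [← hT.frontier_eq']
    exact hJ
  refine ⟨hV, hne, h1, h2, hT.preconnected_interior (chain_of_conn hδ h1), ?_,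
    not_isBounded_compl (isCompact_Pt δ T).isBounded⟩
  rw [compl_Pt hδ]
  exact hT.preconnected_interior (chain_of_conn hδ h2)

end Crest.Agent.R144.TriDom353
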