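import Crest.Agent.R144.HexDom_353
import Crest.Prelude.Def_TriHeights

/-!
# R144 / TriTil_353 : the lattice triangles form a convex tiling
-/

set_option autoImplicit false

noncomputable section

namespace Crest.Agent.R144.TriTil353

open Set Topology Crest.ProbabilityR.HexHeights Crest.ProbabilityR.TriHeights
open Crest.Agent.R144.Til353 Crest.Agent.R144.HexTil353

theorem ca_add (δ : ℝ) (z w : ℂ) : ca δ (z + w) = ca δ z + ca δ w := by
  unfold ca; simp only [Complex.add_re, Complex.add_im]; ring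

theorem cb_add (δ : ℝ) (z w : ℂ) : cb δ (z + w) = cb δ z + cb δ w := by
  unfold cb; simp only [Complex.add_im]; ring

theorem ca_smul (δ t : ℝ) (z : ℂ) : ca δ (t • z) = t * ca δ z := by
  unfold ca; simp only [Complex.smul_re, Complex.smul_im, smul_eq_mul]; ring

theorem cb_smul (δ t : ℝ) (z : ℂ) : cb δ (t • z) = t * cb δ z := by
  unfold cb; simp only [Complex.smul_im, smul_eq_mul]; ring

theorem continuous_ca (δ : ℝ) : Continuous (ca δ) := by
  unfold ca
  exact (Complex.continuous_re.sub (Complex.continuous_im.div_const _)).div_const _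

theorem continuous_cb (δ : ℝ) : Continuous (cb δ) := by
  unfold cb
  exact ((continuous_const.mul Complex.continuous_im).div_const _).div_const _

theorem ca_centre {δ : ℝ} (hδ : 0 < δ) (u : ℤ × ℤ) : ca δ (centre δ u) = u.1 := by
  rw [centre_eq, ca_cen hδ]

theorem cb_centre {δ : ℝ} (hδ : 0 < δ) (u : ℤ × ℤ) : cb δ (centre δ u) = u.2 := by
  rw [centre_eq, cb_cen hδ]

theorem ext_cab {δ : ℝ} (hδ : 0 < δ) {z w : ℂ} (h1 : ca δ z = ca δ w) (h2 : cb δ z = cb δ w) :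
    z = w := by
  rw [← cen_ca_cb hδ z, ← cen_ca_cb hδ w, h1, h2]

/-- half-plane form of a triangle in coordinates -/
def InT (t : Tri) (a b : ℝ) : Prop :=
  if t.2 then (t.1.1 : ℝ) ≤ a ∧ (t.1.2 : ℝ) ≤ b ∧ a + b ≤ t.1.1 + t.1.2 + 1
  else a ≤ t.1.1 + 1 ∧ b ≤ t.1.2 + 1 ∧ (t.1.1 : ℝ) + t.1.2 + 1 ≤ a + b

/-- strict form -/
def InTs (t : Tri) (a b : ℝ) : Prop :=
  if t.2 then (t.1.1 : ℝ) < a ∧ (t.1.2 : ℝ) < b ∧ a + b < t.1.1 + t.1.2 + 1
  else a < t.1.1 + 1 ∧ b < t.1.2 + 1 ∧ (t.1.1 : ℝ) + t.1.2 + 1 < a + b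

theorem InT_up (u : ℤ × ℤ) (a b : ℝ) :
    InT (u, true) a b ↔ (u.1 : ℝ) ≤ a ∧ (u.2 : ℝ) ≤ b ∧ a + b ≤ u.1 + u.2 + 1 := by
  unfold InT; simp

theorem InT_dn (u : ℤ × ℤ) (a b : ℝ) :
    InT (u, false) a b ↔ a ≤ u.1 + 1 ∧ b ≤ u.2 + 1 ∧ (u.1 : ℝ) + u.2 + 1 ≤ a + b := by
  unfold InT; simp

theorem InTs_up (u : ℤ × ℤ) (a b : ℝ) :
    InTs (u, true) a b ↔ (u.1 : ℝ) < a ∧ (u.2 : ℝ) < b ∧ a + b < u.1 + u.2 + 1 := by
  unfold InTs; simp

theorem InTs_dn (u : ℤ × ℤ) (a b : ℝ) :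
    InTs (u, false) a b ↔ a < u.1 + 1 ∧ b < u.2 + 1 ∧ (u.1 : ℝ) + u.2 + 1 < a + b := by
  unfold InTs; simp

theorem corner_up (u : ℤ × ℤ) : corner (u, true) = ![u, (u.1 + 1, u.2), (u.1, u.2 + 1)] := by
  unfold corner; simp

theorem corner_dn (u : ℤ × ℤ) :
    corner (u, false) = ![(u.1 + 1, u.2), (u.1, u.2 + 1), (u.1 + 1, u.2 + 1)] := by
  unfold corner; simp

theorem mem_corners_up {u s : ℤ × ℤ} :
    s ∈ corners (u, true) ↔ s = u ∨ s = (u.1 + 1, u.2) ∨ s = (u.1, u.2 + 1) := by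
  unfold corners
  rw [corner_up]
  simp only [Finset.mem_image, Finset.mem_univ, true_and]
  constructor
  · rintro ⟨k, hk⟩
    fin_cases k <;> simp at hk <;> simp [← hk]
  · rintro (h | h | h)
    · exact ⟨0, by simp [h]⟩
    · exact ⟨1, by simp [h]⟩
    · exact ⟨2, by simp [h]⟩

theorem mem_corners_dn {u s : ℤ × ℤ} :
    s ∈ corners (u, false) ↔ s = (u.1 + 1, u.2) ∨ s = (u.1, u.2 + 1) ∨ s = (u.1 + 1, u.2 + 1) := by
  unfold corners
  rw [corner_dn]
  simp only [Finset.mem_image, Finset.mem_univ, true_and]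
  constructor
  · rintro ⟨k, hk⟩
    fin_cases k <;> simp at hk <;> simp [← hk]
  · rintro (h | h | h)
    · exact ⟨0, by simp [h]⟩
    · exact ⟨1, by simp [h]⟩
    · exact ⟨2, by simp [h]⟩

theorem convex_InT (δ : ℝ) (t : Tri) : Convex ℝ {z : ℂ | InT t (ca δ z) (cb δ z)} := by
  intro x hx y hy p q hp hq hpq
  change InT t (ca δ (p • x + q • y)) (cb δ (p • x + q • y))
  rw [ca_add, cb_add, ca_smul, ca_smul, cb_smul, cb_smul]
  change InT t (ca δ x) (cb δ x) at hx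
  change InT t (ca δ y) (cb δ y) at hy
  have hq' : q = 1 - p := by linarith
  subst hq'
  obtain ⟨u, b⟩ := t
  cases b
  · rw [InT_dn] at hx hy ⊢
    obtain ⟨h1, h2, h3⟩ := hx
    obtain ⟨g1, g2, g3⟩ := hy
    refine ⟨?_, ?_, ?_⟩
    · nlinarith [mul_le_mul_of_nonneg_left h1 hp, mul_le_mul_of_nonneg_left g1 hq]
    · nlinarith [mul_le_mul_of_nonneg_left h2 hp, mul_le_mul_of_nonneg_left g2 hq]
    · nlinarith [mul_le_mul_of_nonneg_left h3 hp, mul_le_mul_of_nonneg_left g3 hq]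
  · rw [InT_up] at hx hy ⊢
    obtain ⟨h1, h2, h3⟩ := hx
    obtain ⟨g1, g2, g3⟩ := hy
    refine ⟨?_, ?_, ?_⟩
    · nlinarith [mul_le_mul_of_nonneg_left h1 hp, mul_le_mul_of_nonneg_left g1 hq]
    · nlinarith [mul_le_mul_of_nonneg_left h2 hp, mul_le_mul_of_nonneg_left g2 hq]
    · nlinarith [mul_le_mul_of_nonneg_left h3 hp, mul_le_mul_of_nonneg_left g3 hq]

theorem comb3 {K : Set ℂ} (hK : Convex ℝ K) {p q r : ℂ} (hp : p ∈ K) (hq : q ∈ K) (hr : r ∈ K)
    {x y z : ℝ} (hx : 0 ≤ x) (hy : 0 ≤ y) (hz : 0 ≤ z) (h : x + y + z = 1) :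
    x • p + y • q + z • r ∈ K := by
  have := hK.sum_mem (t := (Finset.univ : Finset (Fin 3))) (w := ![x, y, z]) (z := ![p, q, r])
    (fun i _ => by fin_cases i <;> simpa) (by simp [Fin.sum_univ_three, h])
    (fun i _ => by fin_cases i <;> simpa)
  simpa [Fin.sum_univ_three] using this

theorem corner_mem_hull (δ : ℝ) (t : Tri) {s : ℤ × ℤ} (hs : s ∈ corners t) :
    centre δ s ∈ triRegion δ t :=
  subset_convexHull ℝ _ ⟨s, by exact_mod_cast hs, rfl⟩

/-- **Half-plane description of the triangles.** -/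
theorem mem_triRegion {δ : ℝ} (hδ : 0 < δ) (t : Tri) (z : ℂ) :
    z ∈ triRegion δ t ↔ InT t (ca δ z) (cb δ z) := by
  constructor
  · intro hz
    refine convexHull_min ?_ (convex_InT δ t) hz
    rintro _ ⟨s, hs, rfl⟩
    change InT t (ca δ (centre δ s)) (cb δ (centre δ s))
    rw [ca_centre hδ, cb_centre hδ]
    obtain ⟨u, b⟩ := t
    cases b
    · rw [InT_dn]
      rcases mem_corners_dn.1 (by exact_mod_cast hs) with rfl | rfl | rfl <;>
        refine ⟨?_, ?_, ?_⟩ <;> push_cast <;> linarith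
    · rw [InT_up]
      rcases mem_corners_up.1 (by exact_mod_cast hs) with rfl | rfl | rfl <;>
        refine ⟨?_, ?_, ?_⟩ <;> push_cast <;> linarith
  · intro hz
    have hK : Convex ℝ (triRegion δ t) := convex_convexHull ℝ _
    obtain ⟨u, b⟩ := t
    cases b
    · rw [InT_dn] at hz
      obtain ⟨h1, h2, h3⟩ := hz
      have := comb3 hK (corner_mem_hull δ (u, false) (s := (u.1 + 1, u.2)) (mem_corners_dn.2 (by tauto)))
        (corner_mem_hull δ (u, false) (s := (u.1, u.2 + 1)) (mem_corners_dn.2 (by tauto)))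
        (corner_mem_hull δ (u, false) (s := (u.1 + 1, u.2 + 1)) (mem_corners_dn.2 (by tauto)))
        (x := 1 - (cb δ z - u.2)) (y := 1 - (ca δ z - u.1)) (z := ca δ z + cb δ z - u.1 - u.2 - 1)
        (by linarith) (by linarith) (by linarith) (by ring)
      convert this using 1
      apply ext_cab hδ
      · simp only [ca_add, ca_smul, ca_centre hδ]; push_cast; ring
      · simp only [cb_add, cb_smul, cb_centre hδ]; push_cast; ring
    · rw [InT_up] at hz
      obtain ⟨h1, h2, h3⟩ := hz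
      have := comb3 hK (corner_mem_hull δ (u, true) (s := u) (mem_corners_up.2 (by tauto)))
        (corner_mem_hull δ (u, true) (s := (u.1 + 1, u.2)) (mem_corners_up.2 (by tauto)))
        (corner_mem_hull δ (u, true) (s := (u.1, u.2 + 1)) (mem_corners_up.2 (by tauto)))
        (x := 1 - (ca δ z - u.1) - (cb δ z - u.2)) (y := ca δ z - u.1) (z := cb δ z - u.2)
        (by linarith) (by linarith) (by linarith) (by ring)
      convert this using 1
      apply ext_cab hδ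
      · simp only [ca_add, ca_smul, ca_centre hδ]; push_cast; ring
      · simp only [cb_add, cb_smul, cb_centre hδ]; push_cast; ring

theorem isClosed_triRegion {δ : ℝ} (hδ : 0 < δ) (t : Tri) : IsClosed (triRegion δ t) := by
  have : triRegion δ t = {z : ℂ | InT t (ca δ z) (cb δ z)} := by
    ext z; exact mem_triRegion hδ t z
  rw [this]
  have h1 := continuous_ca δ
  have h2 := continuous_cb δ
  obtain ⟨u, b⟩ := t
  cases b
  · simp_rw [InT_dn]
    exact (isClosed_le h1 continuous_const).inter ((isClosed_le h2 continuous_const).inter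
      (isClosed_le continuous_const (h1.add h2)))
  · simp_rw [InT_up]
    exact (isClosed_le continuous_const h1).inter ((isClosed_le continuous_const h2).inter
      (isClosed_le (h1.add h2) continuous_const))

theorem isOpen_InTs (δ : ℝ) (t : Tri) : IsOpen {z : ℂ | InTs t (ca δ z) (cb δ z)} := by
  have h1 := continuous_ca δ
  have h2 := continuous_cb δ
  obtain ⟨u, b⟩ := t
  cases b
  · simp_rw [InTs_dn]
    exact (isOpen_lt h1 continuous_const).inter ((isOpen_lt h2 continuous_const).inter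
      (isOpen_lt continuous_const (h1.add h2)))
  · simp_rw [InTs_up]
    exact (isOpen_lt continuous_const h1).inter ((isOpen_lt continuous_const h2).inter
      (isOpen_lt (h1.add h2) continuous_const))

theorem InTs.le {t : Tri} {a b : ℝ} (h : InTs t a b) : InT t a b := by
  obtain ⟨u, c⟩ := t
  cases c
  · rw [InTs_dn] at h; rw [InT_dn]; exact ⟨h.1.le, h.2.1.le, h.2.2.le⟩
  · rw [InTs_up] at h; rw [InT_up]; exact ⟨h.1.le, h.2.1.le, h.2.2.le⟩

theorem norm_cen_le {δ : ℝ} (hδ : 0 < δ) (s t : ℝ) : ‖cen δ s t‖ ≤ δ * (|s| + |t|) := by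
  refine (abs_le_of_sq_le_sq' ?_ (by positivity)).2
  rw [norm_cen_sq, mul_pow]
  refine mul_le_mul_of_nonneg_left ?_ (sq_nonneg δ)
  unfold N
  have h1 : s * t ≤ |s| * |t| := by rw [← abs_mul]; exact le_abs_self _
  have h2 : 0 ≤ |s| * |t| := by positivity
  nlinarith [sq_abs s, sq_abs t]

theorem move {δ : ℝ} (hδ : 0 < δ) {S : Set ℂ} {z : ℂ} (hz : z ∈ interior S) :
    ∃ η : ℝ, 0 < η ∧ ∀ s t : ℝ, |s| ≤ η → |t| ≤ η → z + cen δ s t ∈ S := by
  obtain ⟨ε, hε, hball⟩ := Metric.isOpen_iff.1 isOpen_interior z hz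
  refine ⟨ε / (4 * δ), by positivity, fun s t hs ht => ?_⟩
  apply interior_subset
  apply hball
  rw [Metric.mem_ball, dist_eq_norm, add_sub_cancel_left]
  refine (norm_cen_le hδ s t).trans_lt ?_
  have h1 : |s| + |t| ≤ 2 * (ε / (4 * δ)) := by linarith
  have h2 : δ * (|s| + |t|) ≤ δ * (2 * (ε / (4 * δ))) := mul_le_mul_of_nonneg_left h1 hδ.le
  have h3 : δ * (2 * (ε / (4 * δ))) = ε / 2 := by field_simp; ring
  linarith

theorem interior_triRegion {δ : ℝ} (hδ : 0 < δ) (t : Tri) (z : ℂ) :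
    z ∈ interior (triRegion δ t) ↔ InTs t (ca δ z) (cb δ z) := by
  constructor
  · intro hz
    obtain ⟨η, hη, hm⟩ := move hδ hz
    have hm' : ∀ s t' : ℝ, |s| ≤ η → |t'| ≤ η → InT t (ca δ z + s) (cb δ z + t') := by
      intro s t' hs ht'
      have := (mem_triRegion hδ t _).1 (hm s t' hs ht')
      rwa [ca_add, cb_add, ca_cen hδ, cb_cen hδ] at this
    have a1 := hm' η 0 (by rw [abs_of_pos hη]) (by rw [abs_zero]; exact hη.le)
    have a2 := hm' (-η) 0 (by rw [abs_neg, abs_of_pos hη]) (by rw [abs_zero]; exact hη.le)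
    have a3 := hm' 0 η (by rw [abs_zero]; exact hη.le) (by rw [abs_of_pos hη])
    have a4 := hm' 0 (-η) (by rw [abs_zero]; exact hη.le) (by rw [abs_neg, abs_of_pos hη])
    obtain ⟨u, b⟩ := t
    cases b
    · rw [InT_dn] at a1 a2 a3 a4
      rw [InTs_dn]
      obtain ⟨b1, b2, b3⟩ := a1
      obtain ⟨c1, c2, c3⟩ := a2
      obtain ⟨d1, d2, d3⟩ := a3
      exact ⟨by linarith, by linarith, by linarith⟩
    · rw [InT_up] at a1 a2 a3 a4
      rw [InTs_up]
      obtain ⟨b1, b2, b3⟩ := a1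
      obtain ⟨c1, c2, c3⟩ := a2
      obtain ⟨d1, d2, d3⟩ := a4
      exact ⟨by linarith, by linarith, by linarith⟩
  · intro hz
    refine mem_interior.2 ⟨{z : ℂ | InTs t (ca δ z) (cb δ z)}, ?_, isOpen_InTs δ t, hz⟩
    intro w hw
    exact (mem_triRegion hδ t w).2 (InTs.le hw)

theorem int_ne {δ : ℝ} (hδ : 0 < δ) (t : Tri) : (interior (triRegion δ t)).Nonempty := by
  obtain ⟨u, b⟩ := t
  cases b
  · refine ⟨cen δ (u.1 + 2 / 3) (u.2 + 2 / 3), ?_⟩
    rw [interior_triRegion hδ, ca_cen hδ, cb_cen hδ, InTs_dn]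
    exact ⟨by linarith, by linarith, by linarith⟩
  · refine ⟨cen δ (u.1 + 1 / 3) (u.2 + 1 / 3), ?_⟩
    rw [interior_triRegion hδ, ca_cen hδ, cb_cen hδ, InTs_up]
    exact ⟨by linarith, by linarith, by linarith⟩

theorem strict_unique {t t' : Tri} {a b : ℝ} (h : InTs t a b) (h' : InT t' a b) : t = t' := by
  obtain ⟨u, c⟩ := t
  obtain ⟨v, c'⟩ := t'
  cases c <;> cases c'
  · rw [InTs_dn] at h
    rw [InT_dn] at h'
    obtain ⟨h1, h2, h3⟩ := h
    obtain ⟨g1, g2, g3⟩ := h'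
    have e1 : (u.1 : ℝ) < v.1 + 1 := by linarith
    have e2 : (u.2 : ℝ) < v.2 + 1 := by linarith
    have e3 : (v.1 : ℝ) + v.2 < u.1 + u.2 + 1 := by linarith
    have f1 : u.1 < v.1 + 1 := by exact_mod_cast e1
    have f2 : u.2 < v.2 + 1 := by exact_mod_cast e2
    have f3 : v.1 + v.2 < u.1 + u.2 + 1 := by exact_mod_cast e3
    have : u = v := Prod.ext (by omega) (by omega)
    rw [this]
  · exfalso
    rw [InTs_dn] at h
    rw [InT_up] at h'
    obtain ⟨h1, h2, h3⟩ := h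
    obtain ⟨g1, g2, g3⟩ := h'
    have e1 : (v.1 : ℝ) < u.1 + 1 := by linarith
    have e2 : (v.2 : ℝ) < u.2 + 1 := by linarith
    have e3 : (u.1 : ℝ) + u.2 < v.1 + v.2 := by linarith
    have f1 : v.1 < u.1 + 1 := by exact_mod_cast e1
    have f2 : v.2 < u.2 + 1 := by exact_mod_cast e2
    have f3 : u.1 + u.2 < v.1 + v.2 := by exact_mod_cast e3
    omega
  · exfalso
    rw [InTs_up] at h
    rw [InT_dn] at h'
    obtain ⟨h1, h2, h3⟩ := h
    obtain ⟨g1, g2, g3⟩ := h'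
    have e1 : (u.1 : ℝ) < v.1 + 1 := by linarith
    have e2 : (u.2 : ℝ) < v.2 + 1 := by linarith
    have e3 : (v.1 : ℝ) + v.2 < u.1 + u.2 := by linarith
    have f1 : u.1 < v.1 + 1 := by exact_mod_cast e1
    have f2 : u.2 < v.2 + 1 := by exact_mod_cast e2
    have f3 : v.1 + v.2 < u.1 + u.2 := by exact_mod_cast e3
    omega
  · rw [InTs_up] at h
    rw [InT_up] at h'
    obtain ⟨h1, h2, h3⟩ := h
    obtain ⟨g1, g2, g3⟩ := h'
    have e1 : (v.1 : ℝ) < u.1 + 1 := by linarith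
    have e2 : (v.2 : ℝ) < u.2 + 1 := by linarith
    have e3 : (u.1 : ℝ) + u.2 < v.1 + v.2 + 1 := by linarith
    have f1 : v.1 < u.1 + 1 := by exact_mod_cast e1
    have f2 : v.2 < u.2 + 1 := by exact_mod_cast e2
    have f3 : u.1 + u.2 < v.1 + v.2 + 1 := by exact_mod_cast e3
    have : u = v := Prod.ext (by omega) (by omega)
    rw [this]

theorem exists_tri (a b : ℝ) : ∃ t : Tri, InT t a b ∧ t.1 = (⌊a⌋, ⌊b⌋) := by
  have h1 := Int.floor_le a
  have h2 := Int.lt_floor_add_one a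
  have h3 := Int.floor_le b
  have h4 := Int.lt_floor_add_one b
  rcases le_total (a + b) (⌊a⌋ + ⌊b⌋ + 1) with h | h
  · refine ⟨((⌊a⌋, ⌊b⌋), true), ?_, rfl⟩
    rw [InT_up]
    exact ⟨h1, h3, h⟩
  · refine ⟨((⌊a⌋, ⌊b⌋), false), ?_, rfl⟩
    rw [InT_dn]
    exact ⟨h2.le, h4.le, h⟩

theorem abs_ca_le {δ : ℝ} (hδ : 0 < δ) (z : ℂ) : |ca δ z| ≤ 2 * ‖z‖ / δ := by
  have h3 : (1 : ℝ) ≤ Real.sqrt 3 := by
    rw [show (1 : ℝ) = Real.sqrt 1 by simp]; exact Real.sqrt_le_sqrt (by norm_num)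
  unfold ca
  rw [abs_div, abs_of_pos hδ]
  refine div_le_div_of_nonneg_right ?_ hδ.le
  have h1 := Complex.abs_re_le_norm z
  have h2 := Complex.abs_im_le_norm z
  have h4 : |z.im / Real.sqrt 3| ≤ ‖z‖ := by
    rw [abs_div, abs_of_pos (by positivity : 0 < Real.sqrt 3)]
    exact (div_le_self (abs_nonneg _) h3).trans h2
  exact (abs_sub _ _).trans (by linarith)

theorem abs_cb_le {δ : ℝ} (hδ : 0 < δ) (z : ℂ) : |cb δ z| ≤ 2 * ‖z‖ / δ := by
  have h3 : (1 : ℝ) ≤ Real.sqrt 3 := by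
    rw [show (1 : ℝ) = Real.sqrt 1 by simp]; exact Real.sqrt_le_sqrt (by norm_num)
  unfold cb
  rw [abs_div, abs_of_pos hδ]
  refine div_le_div_of_nonneg_right ?_ hδ.le
  have h2 := Complex.abs_im_le_norm z
  rw [abs_div, abs_of_pos (by positivity : 0 < Real.sqrt 3), abs_mul, abs_two]
  refine (div_le_self (by positivity) h3).trans ?_
  linarith

theorem ca_sub (δ : ℝ) (z w : ℂ) : ca δ (z - w) = ca δ z - ca δ w := by
  unfold ca; simp only [Complex.sub_re, Complex.sub_im]; ring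

theorem cb_sub (δ : ℝ) (z w : ℂ) : cb δ (z - w) = cb δ z - cb δ w := by
  unfold cb; simp only [Complex.sub_im]; ring

/-- coordinates of a point of the triangle are within 1 of the index -/
theorem InT.near {t : Tri} {a b : ℝ} (h : InT t a b) :
    (t.1.1 : ℝ) ≤ a ∧ a ≤ t.1.1 + 1 ∧ (t.1.2 : ℝ) ≤ b ∧ b ≤ t.1.2 + 1 := by
  obtain ⟨u, c⟩ := t
  cases c
  · rw [InT_dn] at h
    obtain ⟨h1, h2, h3⟩ := h
    exact ⟨by simp only; linarith, h1, by simp only; linarith, h2⟩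
  · rw [InT_up] at h
    obtain ⟨h1, h2, h3⟩ := h
    exact ⟨h1, by simp only; linarith, h2, by simp only; linarith⟩

theorem locallyFinite_tri {δ : ℝ} (hδ : 0 < δ) : LocallyFinite (triRegion δ) := by
  intro z
  refine ⟨Metric.ball z 1, Metric.ball_mem_nhds z one_pos, ?_⟩
  obtain ⟨M, hM⟩ := exists_nat_gt (|ca δ z| + |cb δ z| + 2 / δ + 1)
  refine Set.Finite.subset (Set.Finite.prod (Set.Finite.prod (Set.finite_Icc (-(M : ℤ)) M)
    (Set.finite_Icc (-(M : ℤ)) M)) (Set.finite_univ (α := Bool))) ?_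
  rintro t ⟨y, hy, hyz⟩
  have h1 := ((mem_triRegion hδ t y).1 hy).near
  rw [Metric.mem_ball, dist_eq_norm] at hyz
  have h2 := abs_ca_le hδ (y - z)
  have h3 := abs_cb_le hδ (y - z)
  have h4 : 2 * ‖y - z‖ / δ ≤ 2 / δ := by
    refine div_le_div_of_nonneg_right ?_ hδ.le
    linarith
  rw [ca_sub] at h2
  rw [cb_sub] at h3
  have h2' := abs_le.1 (h2.trans h4)
  have h3' := abs_le.1 (h3.trans h4)
  have g1 := neg_abs_le (ca δ z)
  have g2 := le_abs_self (ca δ z)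
  have g3 := neg_abs_le (cb δ z)
  have g4 := le_abs_self (cb δ z)
  have g5 := abs_nonneg (ca δ z)
  have g6 := abs_nonneg (cb δ z)
  obtain ⟨k1, k2, k3, k4⟩ := h1
  have p1 : (t.1.1 : ℝ) ≤ (M : ℤ) := by push_cast; linarith [h2'.1, h2'.2]
  have p2 : (-(M : ℤ) : ℝ) ≤ (t.1.1 : ℝ) := by push_cast; linarith [h2'.1, h2'.2]
  have p3 : (t.1.2 : ℝ) ≤ (M : ℤ) := by push_cast; linarith [h3'.1, h3'.2]
  have p4 : (-(M : ℤ) : ℝ) ≤ (t.1.2 : ℝ) := by push_cast; linarith [h3'.1, h3'.2]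
  refine ⟨⟨⟨?_, ?_⟩, ⟨?_, ?_⟩⟩, trivial⟩
  · exact_mod_cast p2
  · exact_mod_cast p1
  · exact_mod_cast p4
  · exact_mod_cast p3

/-- **The triangular tiling.** -/
theorem tiling {δ : ℝ} (hδ : 0 < δ) : Tiling (triRegion δ) where
  convex := fun t => convex_convexHull ℝ _
  closed := isClosed_triRegion hδ
  int_ne := int_ne hδ
  disj := by
    intro t t' h
    rw [Set.disjoint_left]
    intro z hz hz'
    exact h (strict_unique ((interior_triRegion hδ t z).1 hz) ((mem_triRegion hδ t' z).1 hz'))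
  locfin := locallyFinite_tri hδ
  cover := by
    rw [eq_univ_iff_forall]
    intro z
    obtain ⟨t, ht, _⟩ := exists_tri (ca δ z) (cb δ z)
    exact mem_iUnion.2 ⟨t, (mem_triRegion hδ t z).2 ht⟩

end Crest.Agent.R144.TriTil353
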