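import Mathlib

/-!
# R144 (S0197), block UIA (helper714), part 1: abstract counting

Uniform integrability in average of `B ^ N e` for a finite family of random natural numbers `N e`
(cluster sizes), from (H1) a single-edge tail bound for large sizes and (H2) a joint bound for
separated families inside boxes.
-/

set_option autoImplicit false

namespace Crest.Agent.R144.Uia714

open MeasureTheory Finset
open scoped ENNReal BigOperators

variable {Ω : Type*} [MeasurableSpace Ω] {μ : Measure Ω}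
variable {ε : Type*} [DecidableEq ε]

/-- layer cake for `B ^ N 1(k₁ ≤ N)` -/
lemma pow_le_tsum {B : ℝ≥0∞} (N k₁ : ℕ) :
    (if k₁ ≤ N then B ^ N else 0) ≤ ∑' k : ℕ, if k₁ ≤ k ∧ k ≤ N then B ^ k else 0 := by
  split_ifs with h
  · refine le_trans ?_ (ENNReal.le_tsum N)
    rw [if_pos ⟨h, le_rfl⟩]
  · exact zero_le

lemma lintegral_pow_le {B : ℝ≥0∞} {N : Ω → ℕ} (hN : ∀ k, MeasurableSet {ω | k ≤ N ω}) (k₁ : ℕ) :
    ∫⁻ ω, (if k₁ ≤ N ω then B ^ (N ω) else 0) ∂μ ≤
      ∑' k : ℕ, if k₁ ≤ k then B ^ k * μ {ω | k ≤ N ω} else 0 := by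
  calc ∫⁻ ω, (if k₁ ≤ N ω then B ^ (N ω) else 0) ∂μ
      ≤ ∫⁻ ω, ∑' k : ℕ, (if k₁ ≤ k ∧ k ≤ N ω then B ^ k else 0) ∂μ :=
        lintegral_mono fun ω => pow_le_tsum _ _
    _ = ∑' k : ℕ, ∫⁻ ω, (if k₁ ≤ k ∧ k ≤ N ω then B ^ k else 0) ∂μ := by
        apply lintegral_tsum
        intro k
        by_cases hk : k₁ ≤ k
        · simp only [hk, true_and]
          exact (Measurable.ite (hN k) measurable_const measurable_const).aemeasurable
        · simp only [hk, false_and, if_false]
          exact aemeasurable_const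
    _ = _ := by
        congr 1; funext k
        by_cases hk : k₁ ≤ k
        · simp only [hk, true_and, if_true]
          have : (fun ω => if k ≤ N ω then B ^ k else (0 : ℝ≥0∞)) =
              Set.indicator {ω | k ≤ N ω} (fun _ => B ^ k) := by
            funext ω
            simp only [Set.indicator, Set.mem_ofPred_eq]
          rw [this, lintegral_indicator_const (hN k)]
        · simp [hk]

/-- a maximal separated subset: if every vertex conflicts with at most `c` vertices (itself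
included), every set of at least `c * j` vertices contains a separated subset of size `j`. -/
lemma exists_separated (R : ε → ε → Prop) [DecidableRel R] (hrefl : ∀ a, R a a)
    (hsymm : ∀ a b, R a b → R b a) {c : ℕ} (hc : 0 < c) :
    ∀ (j : ℕ) (A : Finset ε), (∀ a ∈ A, (A.filter (R a)).card ≤ c) → c * j ≤ A.card →
      ∃ S ⊆ A, S.card = j ∧ ∀ a ∈ S, ∀ b ∈ S, a ≠ b → ¬ R a b := by
  intro j
  induction j with
  | zero => exact fun A _ _ => ⟨∅, empty_subset _, rfl, by simp⟩
  | succ j ih =>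
    intro A hA hcard
    have hpos : 0 < A.card := by
      have : 0 < c * (j + 1) := by positivity
      omega
    obtain ⟨a, ha⟩ := card_pos.mp hpos
    set A' := A.filter (fun b => ¬ R a b) with hA'
    have hsub : A' ⊆ A := filter_subset _ _
    have hc1 : A'.card + (A.filter (R a)).card = A.card := by
      rw [hA', add_comm]; exact card_filter_add_card_filter_not (s := A) (R a)
    have hc2 : c * j ≤ A'.card := by
      have := hA a ha
      have h3 : c * (j + 1) = c * j + c := by ring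
      omega
    obtain ⟨S, hSA, hSc, hSs⟩ := ih A' (fun b hb => by
      refine le_trans (card_le_card ?_) (hA b (hsub hb))
      exact filter_subset_filter _ hsub) hc2
    have haS : a ∉ S := fun h => by
      have := (mem_filter.mp (hSA h)).2
      exact this (hrefl a)
    refine ⟨insert a S, ?_, ?_, ?_⟩
    · intro b hb
      rcases mem_insert.mp hb with rfl | hb
      · exact ha
      · exact hsub (hSA hb)
    · rw [card_insert_of_notMem haS, hSc]
    · intro x hx y hy hxy
      rcases mem_insert.mp hx with hx' | hx' <;> rcases mem_insert.mp hy with hy' | hy'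
      · exact absurd (hx'.trans hy'.symm) hxy
      · rw [hx']; exact (mem_filter.mp (hSA hy')).2
      · rw [hy']; exact fun h => (mem_filter.mp (hSA hx')).2 (hsymm _ _ h)
      · exact hSs x hx' y hy' hxy

/-- separated finite sets -/
def Sep (R : ε → ε → Prop) (S : Finset ε) : Prop := ∀ a ∈ S, ∀ b ∈ S, a ≠ b → ¬ R a b

lemma sum_biUnion_le' {ι : Type*} (I : Finset ι) (box : ι → Finset ε) (f : ε → ℝ≥0∞) :
    ∑ e ∈ I.biUnion box, f e ≤ ∑ i ∈ I, ∑ e ∈ box i, f e := by
  classical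
  induction I using Finset.induction_on with
  | empty => simp
  | insert i I hi ih =>
    rw [biUnion_insert, sum_insert hi]
    calc ∑ e ∈ box i ∪ I.biUnion box, f e
        ≤ ∑ e ∈ box i ∪ I.biUnion box, f e + ∑ e ∈ box i ∩ I.biUnion box, f e := le_self_add
      _ = ∑ e ∈ box i, f e + ∑ e ∈ I.biUnion box, f e := sum_union_inter
      _ ≤ _ := by gcongr

/-- number of bad indices -/
noncomputable def cnt (A : Finset ε) (D : ε → Set Ω) (ω : Ω) : ℕ :=
  haveI := Classical.decPred fun e => ω ∈ D e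
  (A.filter fun e => ω ∈ D e).card

omit [MeasurableSpace Ω] [DecidableEq ε] in
lemma cnt_le_card (A : Finset ε) (D : ε → Set Ω) (ω : Ω) : cnt A D ω ≤ A.card := by
  classical
  unfold cnt
  exact card_filter_le _ _

/-- **joint bound for the number of bad indices** -/
theorem cnt_tail (R : ε → ε → Prop) (hrefl : ∀ a, R a a)
    (hsymm : ∀ a b, R a b → R b a) {c : ℕ} (hc : 0 < c) (A : Finset ε) (D : ε → Set Ω)
    (hR : ∀ a ∈ A, haveI := Classical.decPred (R a); (A.filter (R a)).card ≤ c)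
    {b q : ℝ≥0∞} (j : ℕ)
    (hj : ∀ S ⊆ A, S.card = j → Sep R S → μ (⋂ e ∈ S, D e) ≤ b * q ^ j) :
    μ {ω | c * j ≤ cnt A D ω} ≤ (A.card.choose j) * (b * q ^ j) := by
  classical
  set T := (A.powersetCard j).filter (Sep R) with hT
  have hsub : {ω | c * j ≤ cnt A D ω} ⊆ ⋃ S ∈ T, ⋂ e ∈ S, D e := by
    intro ω hω
    simp only [Set.mem_ofPred_eq, cnt] at hω
    obtain ⟨S, hS, hSc, hSs⟩ := exists_separated R hrefl hsymm hc j
      (A.filter fun e => ω ∈ D e) (fun a ha => by
        refine le_trans (card_le_card ?_) (by simpa using hR a (mem_filter.mp ha).1)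
        intro x hx
        rw [mem_filter] at hx ⊢
        exact ⟨(mem_filter.mp hx.1).1, hx.2⟩) (by convert hω)
    simp only [Set.mem_iUnion]
    refine ⟨S, ?_, ?_⟩
    · rw [hT, mem_filter, mem_powersetCard]
      exact ⟨⟨hS.trans (filter_subset _ _), hSc⟩, hSs⟩
    · simp only [Set.mem_iInter]
      exact fun e he => (mem_filter.mp (hS he)).2
  calc μ {ω | c * j ≤ cnt A D ω} ≤ μ (⋃ S ∈ T, ⋂ e ∈ S, D e) := measure_mono hsub
    _ ≤ ∑ S ∈ T, μ (⋂ e ∈ S, D e) := measure_biUnion_finset_le _ _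
    _ ≤ ∑ _S ∈ T, b * q ^ j := by
        apply sum_le_sum
        intro S hS
        rw [hT, mem_filter, mem_powersetCard] at hS
        exact hj S hS.1.1 hS.1.2 hS.2
    _ = T.card * (b * q ^ j) := by rw [sum_const, nsmul_eq_mul]
    _ ≤ (A.card.choose j) * (b * q ^ j) := by
        gcongr
        rw [← card_powersetCard]
        exact card_le_card (filter_subset _ _)

/-- `C(K, j) q^j ≤ (3 K q / j)^j` in real form. -/
lemma choose_mul_pow_le (K j : ℕ) (hj : 0 < j) {q : ℝ} (hq : 0 ≤ q) :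
    (K.choose j : ℝ) * q ^ j ≤ (3 * K * q / j) ^ j := by
  have h1 : (K.choose j : ℝ) ≤ (K : ℝ) ^ j / j.factorial := Nat.choose_le_pow_div j K
  have hj' : (0 : ℝ) < j := by exact_mod_cast hj
  have h2 : (j : ℝ) ^ j / 3 ^ j ≤ j.factorial := by
    have h3 := Real.exp_one_lt_d9
    have h4 : (j : ℝ) ^ j / Real.exp j ≤ j.factorial := by
      have h5 : (j : ℝ) ^ j / j.factorial ≤ Real.exp j := Real.pow_div_factorial_le_exp (j : ℝ) hj'.le j
      have h6 : (0 : ℝ) < j.factorial := by exact_mod_cast Nat.factorial_pos j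
      rw [div_le_iff₀ h6] at h5
      rw [div_le_iff₀ (Real.exp_pos _)]
      linarith
    have h7 : Real.exp j ≤ 3 ^ j := by
      have : Real.exp (j : ℝ) = Real.exp 1 ^ j := by rw [← Real.exp_nat_mul]; simp
      rw [this]
      exact pow_le_pow_left₀ (Real.exp_pos _).le (by linarith) j
    refine le_trans ?_ h4
    gcongr
  have h6 : (0 : ℝ) < j.factorial := by exact_mod_cast Nat.factorial_pos j
  calc (K.choose j : ℝ) * q ^ j ≤ ((K : ℝ) ^ j / j.factorial) * q ^ j := by gcongr
    _ ≤ ((K : ℝ) ^ j / ((j : ℝ) ^ j / 3 ^ j)) * q ^ j := by gcongr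
    _ = (3 * K * q / j) ^ j := by
        rw [div_pow, mul_pow, mul_pow]; field_simp

/-- **uniform integrability in average**, abstract form. -/
theorem uia_abs {ι : Type*} (𝓔 : Finset ε) (I : Finset ι) (box : ι → Finset ε)
    (hcov : 𝓔 ⊆ I.biUnion box) {K : ℕ} (hK : ∀ i ∈ I, (box i).card ≤ K)
    {N : ε → Ω → ℕ} (hN : ∀ e k, MeasurableSet {ω | k ≤ N e ω}) [IsProbabilityMeasure μ]
    {B : ℝ≥0∞} {k₁ k₂ : ℕ} {l r p : ℕ → ℝ≥0∞}
    (H2 : ∀ k, k₁ ≤ k → k < k₂ → ∀ i ∈ I,
      μ {ω | l k * K ≤ (cnt (box i) (fun e => {ω | k ≤ N e ω}) ω : ℝ≥0∞)} ≤ r k)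
    (H1 : ∀ k, k₂ ≤ k → ∀ e ∈ 𝓔, μ {ω | k ≤ N e ω} ≤ p k) :
    ∑ e ∈ 𝓔, ∫⁻ ω, (if k₁ ≤ N e ω then B ^ (N e ω) else 0) ∂μ ≤
      I.card * (K * ∑ k ∈ Finset.Ico k₁ k₂, B ^ k * (l k + r k)) +
        𝓔.card * ∑' k : ℕ, (if k₂ ≤ k then B ^ k * p k else 0) := by
  classical
  have hmeasc : ∀ i k, Measurable fun ω => (cnt (box i) (fun e => {ω | k ≤ N e ω}) ω : ℝ≥0∞) := by
    intro i k
    have : (fun ω => (cnt (box i) (fun e => {ω | k ≤ N e ω}) ω : ℝ≥0∞)) =
        fun ω => ∑ e ∈ box i, Set.indicator {ω | k ≤ N e ω} (fun _ => (1 : ℝ≥0∞)) ω := by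
      funext ω
      rw [cnt, card_filter, Nat.cast_sum]
      refine sum_congr rfl fun e _ => ?_
      by_cases h : k ≤ N e ω <;> simp [Set.indicator, h]
    rw [this]
    exact Finset.measurable_sum _ fun e _ => measurable_const.indicator (hN e k)
  have hsumc : ∀ i k, ∑ e ∈ box i, μ {ω | k ≤ N e ω} =
      ∫⁻ ω, (cnt (box i) (fun e => {ω | k ≤ N e ω}) ω : ℝ≥0∞) ∂μ := by
    intro i k
    have : (fun ω => (cnt (box i) (fun e => {ω | k ≤ N e ω}) ω : ℝ≥0∞)) =
        fun ω => ∑ e ∈ box i, Set.indicator {ω | k ≤ N e ω} (fun _ => (1 : ℝ≥0∞)) ω := by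
      funext ω
      rw [cnt, card_filter, Nat.cast_sum]
      refine sum_congr rfl fun e _ => ?_
      by_cases h : k ≤ N e ω <;> simp [Set.indicator, h]
    rw [this, lintegral_finsetSum _ fun e _ => measurable_const.indicator (hN e k)]
    refine sum_congr rfl fun e _ => ?_
    rw [lintegral_indicator_const (hN e k), one_mul]
  have hbox : ∀ k, k₁ ≤ k → k < k₂ → ∀ i ∈ I,
      ∑ e ∈ box i, μ {ω | k ≤ N e ω} ≤ K * (l k + r k) := by
    intro k hk1 hk2 i hi
    rw [hsumc]
    set G : Set Ω := {ω | l k * K ≤ (cnt (box i) (fun e => {ω | k ≤ N e ω}) ω : ℝ≥0∞)} with hG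
    have hGm : MeasurableSet G := measurableSet_le measurable_const (hmeasc i k)
    have hpt : ∀ ω, (cnt (box i) (fun e => {ω | k ≤ N e ω}) ω : ℝ≥0∞) ≤
        l k * K + G.indicator (fun _ => (K : ℝ≥0∞)) ω := by
      intro ω
      by_cases h : ω ∈ G
      · rw [Set.indicator_of_mem h]
        refine le_trans ?_ le_add_self
        exact_mod_cast (cnt_le_card (box i) (fun e => {ω | k ≤ N e ω}) ω).trans (hK i hi)
      · rw [Set.indicator_of_notMem h, add_zero]
        rw [hG] at h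
        simp only [Set.mem_ofPred_eq, not_le] at h
        exact h.le
    calc ∫⁻ ω, (cnt (box i) (fun e => {ω | k ≤ N e ω}) ω : ℝ≥0∞) ∂μ
        ≤ ∫⁻ ω, (l k * K + G.indicator (fun _ => (K : ℝ≥0∞)) ω) ∂μ := lintegral_mono hpt
      _ = l k * K + K * μ G := by
          rw [lintegral_add_left measurable_const, lintegral_const, measure_univ, mul_one,
            lintegral_indicator_const hGm]
      _ ≤ l k * K + K * r k := by gcongr; exact H2 k hk1 hk2 i hi
      _ = K * (l k + r k) := by ring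
  have hE : ∀ k, k₁ ≤ k → k < k₂ → ∑ e ∈ 𝓔, μ {ω | k ≤ N e ω} ≤ I.card * (K * (l k + r k)) := by
    intro k hk1 hk2
    calc ∑ e ∈ 𝓔, μ {ω | k ≤ N e ω} ≤ ∑ e ∈ I.biUnion box, μ {ω | k ≤ N e ω} :=
          sum_le_sum_of_subset hcov
      _ ≤ ∑ i ∈ I, ∑ e ∈ box i, μ {ω | k ≤ N e ω} :=
          sum_biUnion_le' _ _ _
      _ ≤ ∑ _i ∈ I, K * (l k + r k) := sum_le_sum fun i hi => hbox k hk1 hk2 i hi
      _ = _ := by rw [sum_const, nsmul_eq_mul]
  calc ∑ e ∈ 𝓔, ∫⁻ ω, (if k₁ ≤ N e ω then B ^ (N e ω) else 0) ∂μ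
      ≤ ∑ e ∈ 𝓔, ∑' k : ℕ, (if k₁ ≤ k then B ^ k * μ {ω | k ≤ N e ω} else 0) :=
        sum_le_sum fun e _ => lintegral_pow_le (hN e) k₁
    _ = ∑' k : ℕ, ∑ e ∈ 𝓔, (if k₁ ≤ k then B ^ k * μ {ω | k ≤ N e ω} else 0) := by
        exact (Summable.tsum_finsetSum fun e _ => ENNReal.summable).symm
    _ ≤ ∑' k : ℕ, ((if k₁ ≤ k ∧ k < k₂ then I.card * (K * (B ^ k * (l k + r k))) else 0) +
        𝓔.card * (if k₂ ≤ k then B ^ k * p k else 0)) := by
        apply ENNReal.tsum_le_tsum
        intro k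
        by_cases hk1 : k₁ ≤ k
        · simp only [hk1, if_true, true_and]
          rw [← mul_sum]
          by_cases hk2 : k < k₂
          · rw [if_pos hk2, if_neg (not_le.mpr hk2), mul_zero, add_zero]
            calc B ^ k * ∑ e ∈ 𝓔, μ {ω | k ≤ N e ω} ≤ B ^ k * (I.card * (K * (l k + r k))) := by
                  gcongr; exact hE k hk1 hk2
              _ = _ := by ring
          · rw [if_neg hk2, if_pos (not_lt.mp hk2), zero_add]
            calc B ^ k * ∑ e ∈ 𝓔, μ {ω | k ≤ N e ω} ≤ B ^ k * ∑ _e ∈ 𝓔, p k := by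
                  gcongr with e he; exact H1 k (not_lt.mp hk2) e he
              _ = _ := by rw [sum_const, nsmul_eq_mul]; ring
        · simp [hk1]
    _ = _ := by
        rw [ENNReal.tsum_add, ENNReal.tsum_mul_left]
        congr 1
        rw [tsum_eq_sum (s := Finset.Ico k₁ k₂)]
        · rw [mul_sum, mul_sum]
          refine sum_congr rfl fun k hk => ?_
          rw [Finset.mem_Ico] at hk
          rw [if_pos hk]
        · intro k hk
          rw [Finset.mem_Ico] at hk
          rw [if_neg hk]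

end Crest.Agent.R144.Uia714
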