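import Mathlib

/-!
# R144 (S0197), block UIG (helper714), part 1: abstract uniform integrability of gradients

From a weighted `L²` bound `∑ ∫ B^{-N e} g e² ≤ C₁` (Korn), an averaged moment bound of `B ^ N e` on
`k₁ < N e ≤ k₂`, and a crude bound on `k₂ < N e`, the scaled sums `δ ∑ ∫ g e 1(g e > Λ δ)` are small.
-/

set_option autoImplicit false

namespace Crest.Agent.R144.Uig714

open MeasureTheory Finset
open scoped BigOperators

variable {Ω : Type*} [MeasurableSpace Ω] {P : Measure Ω} [IsProbabilityMeasure P]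
variable {ε : Type*}

omit [IsProbabilityMeasure P] in
/-- Cauchy-Schwarz for bounded functions -/
lemma cs {f g : Ω → ℝ} (hf : MemLp f 2 P) (hg : MemLp g 2 P) (hf0 : 0 ≤ᵐ[P] f) (hg0 : 0 ≤ᵐ[P] g) :
    ∫ ω, f ω * g ω ∂P ≤ Real.sqrt (∫ ω, f ω ^ 2 ∂P) * Real.sqrt (∫ ω, g ω ^ 2 ∂P) := by
  have h1 := integral_mul_le_Lp_mul_Lq_of_nonneg (μ := P) (p := 2) (q := 2)
    Real.HolderConjugate.two_two hf0 hg0 (by simpa using hf) (by simpa using hg)
  simp only [Real.rpow_two] at h1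
  rw [Real.sqrt_eq_rpow, Real.sqrt_eq_rpow]
  exact h1

lemma memLp_of_bdd {f : Ω → ℝ} (hf : Measurable f) {C : ℝ} (hC : ∀ ω, |f ω| ≤ C) :
    MemLp f 2 P :=
  MemLp.of_bound hf.aestronglyMeasurable C (Filter.Eventually.of_forall fun ω => by
    rw [Real.norm_eq_abs]; exact hC ω)

lemma int_of_bdd {f : Ω → ℝ} (hf : Measurable f) {C : ℝ} (hC : ∀ ω, |f ω| ≤ C) :
    Integrable f P :=
  Integrable.of_bound hf.aestronglyMeasurable C (Filter.Eventually.of_forall fun ω => by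
    rw [Real.norm_eq_abs]; exact hC ω)

/-- sum over a finite set of Cauchy-Schwarz -/
lemma sum_sqrt_mul_le {s : Finset ε} {a b : ε → ℝ} (ha : ∀ e ∈ s, 0 ≤ a e)
    (hb : ∀ e ∈ s, 0 ≤ b e) :
    ∑ e ∈ s, Real.sqrt (a e) * Real.sqrt (b e) ≤
      Real.sqrt (∑ e ∈ s, a e) * Real.sqrt (∑ e ∈ s, b e) := by
  have h := Finset.sum_mul_sq_le_sq_mul_sq s (fun e => Real.sqrt (a e)) (fun e => Real.sqrt (b e))
  have h1 : ∑ e ∈ s, Real.sqrt (a e) ^ 2 = ∑ e ∈ s, a e :=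
    sum_congr rfl fun e he => Real.sq_sqrt (ha e he)
  have h2 : ∑ e ∈ s, Real.sqrt (b e) ^ 2 = ∑ e ∈ s, b e :=
    sum_congr rfl fun e he => Real.sq_sqrt (hb e he)
  rw [h1, h2] at h
  rw [← Real.sqrt_mul (sum_nonneg ha)]
  exact Real.le_sqrt_of_sq_le h

/-- **Abstract uniform integrability.** -/
theorem ui_abs (𝓔 : Finset ε) {g : ε → Ω → ℝ} {N : ε → Ω → ℕ}
    (hg : ∀ e, Measurable (g e)) (hg0 : ∀ e ω, 0 ≤ g e ω) (hgb : ∀ e, ∃ C, ∀ ω, g e ω ≤ C)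
    (hN : ∀ e, Measurable (N e)) {Nmax : ℕ} (hNb : ∀ e ω, N e ω ≤ Nmax)
    {δ B C₀ C₁ η₁ η₂ Λ : ℝ} (hδ : 0 < δ) (hB : 1 ≤ B) (hΛ : 0 < Λ) (hη₂ : 0 ≤ η₂) {k₁ k₂ : ℕ}
    (ha : ∑ e ∈ 𝓔, ∫ ω, (B ^ N e ω)⁻¹ * g e ω ^ 2 ∂P ≤ C₁)
    (hb : δ ^ 2 * ∑ e ∈ 𝓔, ∫ ω, (if k₁ < N e ω ∧ N e ω ≤ k₂ then B ^ N e ω else 0) ∂P ≤ η₁)
    (hc : ∀ e ∈ 𝓔, (∫ ω, g e ω ^ 2 ∂P) * P.real {ω | k₂ < N e ω} ≤ (η₂ * δ) ^ 2)
    (hd : δ ^ 2 * 𝓔.card ≤ C₀) :
    δ * ∑ e ∈ 𝓔, ∫ ω, (if Λ * δ < g e ω then g e ω else 0) ∂P ≤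
      B ^ k₁ * C₁ / Λ + Real.sqrt (C₁ * η₁) + C₀ * η₂ := by
  have hB0 : 0 < B := by linarith
  -- integrability facts
  have hgi : ∀ e, Integrable (g e) P := fun e => by
    obtain ⟨C, hC⟩ := hgb e
    exact int_of_bdd (hg e) (C := C) fun ω => by rw [abs_of_nonneg (hg0 e ω)]; exact hC ω
  have hw : ∀ e ω, 0 < B ^ N e ω := fun e ω => by positivity
  have hBN : ∀ e, Measurable fun ω => B ^ N e ω := fun e =>
    (measurable_from_top (f := fun k : ℕ => B ^ k)).comp (hN e)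
  have hBb : ∀ e ω, B ^ N e ω ≤ B ^ Nmax := fun e ω => pow_le_pow_right₀ hB (hNb e ω)
  have hBi : ∀ e ω, (B ^ N e ω)⁻¹ ≤ 1 := fun e ω => inv_le_one_of_one_le₀ (one_le_pow₀ hB)
  have hwg : ∀ e, Integrable (fun ω => (B ^ N e ω)⁻¹ * g e ω ^ 2) P := fun e => by
    obtain ⟨C, hC⟩ := hgb e
    refine int_of_bdd (((hBN e).inv).mul ((hg e).pow_const 2)) (C := C ^ 2) fun ω => ?_
    rw [abs_of_nonneg (mul_nonneg (inv_nonneg.mpr (hw e ω).le) (sq_nonneg _))]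
    calc (B ^ N e ω)⁻¹ * g e ω ^ 2 ≤ 1 * g e ω ^ 2 := by gcongr; exact hBi e ω
      _ ≤ C ^ 2 := by rw [one_mul]; exact pow_le_pow_left₀ (hg0 e ω) (hC ω) 2
  -- three pieces
  set A₁ : ε → Set Ω := fun e => {ω | N e ω ≤ k₁} with hA₁
  set A₂ : ε → Set Ω := fun e => {ω | k₁ < N e ω ∧ N e ω ≤ k₂} with hA₂
  set A₃ : ε → Set Ω := fun e => {ω | k₂ < N e ω} with hA₃
  have mA₁ : ∀ e, MeasurableSet (A₁ e) := fun e => measurableSet_le (hN e) measurable_const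
  have mA₃ : ∀ e, MeasurableSet (A₃ e) := fun e => measurableSet_lt measurable_const (hN e)
  have mA₂ : ∀ e, MeasurableSet (A₂ e) := fun e =>
    (measurableSet_lt measurable_const (hN e)).inter (measurableSet_le (hN e) measurable_const)
  have hpt : ∀ e ω, (if Λ * δ < g e ω then g e ω else 0) ≤
      B ^ k₁ / (Λ * δ) * ((B ^ N e ω)⁻¹ * g e ω ^ 2) + (A₂ e).indicator (g e) ω +
        (A₃ e).indicator (g e) ω := by
    intro e ω
    have h2 : 0 ≤ (A₂ e).indicator (g e) ω := Set.indicator_nonneg (fun _ _ => hg0 e _) ω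
    have h3 : 0 ≤ (A₃ e).indicator (g e) ω := Set.indicator_nonneg (fun _ _ => hg0 e _) ω
    have h1 : 0 ≤ B ^ k₁ / (Λ * δ) * ((B ^ N e ω)⁻¹ * g e ω ^ 2) :=
      mul_nonneg (by positivity) (mul_nonneg (inv_nonneg.mpr (hw e ω).le) (sq_nonneg _))
    split_ifs with hgt
    · rcases le_or_gt (N e ω) k₁ with hk | hk
      · have h4 : g e ω ≤ B ^ k₁ / (Λ * δ) * ((B ^ N e ω)⁻¹ * g e ω ^ 2) := by
          have h5 : 1 ≤ B ^ k₁ * (B ^ N e ω)⁻¹ := by
            rw [← div_eq_mul_inv, one_le_div (hw e ω)]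
            exact pow_le_pow_right₀ hB hk
          have h6 : 1 ≤ g e ω / (Λ * δ) := by
            rw [one_le_div (by positivity)]; exact hgt.le
          calc g e ω = 1 * 1 * g e ω := by ring
            _ ≤ (B ^ k₁ * (B ^ N e ω)⁻¹) * (g e ω / (Λ * δ)) * g e ω := by
                have := hg0 e ω
                gcongr
            _ = _ := by ring
        linarith
      · rcases le_or_gt (N e ω) k₂ with hk2 | hk2
        · have : ω ∈ A₂ e := ⟨hk, hk2⟩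
          rw [Set.indicator_of_mem this]; linarith
        · have : ω ∈ A₃ e := hk2
          rw [Set.indicator_of_mem this]; linarith
    · positivity
  have i1 : ∀ e, Integrable (fun ω => B ^ k₁ / (Λ * δ) * ((B ^ N e ω)⁻¹ * g e ω ^ 2)) P :=
    fun e => (hwg e).const_mul _
  have i2 : ∀ e, Integrable ((A₂ e).indicator (g e)) P := fun e => (hgi e).indicator (mA₂ e)
  have i3 : ∀ e, Integrable ((A₃ e).indicator (g e)) P := fun e => (hgi e).indicator (mA₃ e)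
  have i0 : ∀ e, Integrable (fun ω => if Λ * δ < g e ω then g e ω else 0) P := fun e => by
    have : (fun ω => if Λ * δ < g e ω then g e ω else 0) =
        Set.indicator {ω | Λ * δ < g e ω} (g e) := by
      funext ω; simp only [Set.indicator, Set.mem_ofPred_eq]
    rw [this]
    exact (hgi e).indicator (measurableSet_lt measurable_const (hg e))
  -- middle piece
  have hmid : ∀ e, ∫ ω, (A₂ e).indicator (g e) ω ∂P ≤
      Real.sqrt (∫ ω, (B ^ N e ω)⁻¹ * g e ω ^ 2 ∂P) *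
        Real.sqrt (∫ ω, (if k₁ < N e ω ∧ N e ω ≤ k₂ then B ^ N e ω else 0) ∂P) := by
    intro e
    obtain ⟨C, hC⟩ := hgb e
    set f₁ : Ω → ℝ := fun ω => Real.sqrt ((B ^ N e ω)⁻¹) * g e ω with hf₁
    set f₂ : Ω → ℝ := fun ω => (A₂ e).indicator (fun ω => Real.sqrt (B ^ N e ω)) ω with hf₂
    have hs1 : ∀ ω, Real.sqrt ((B ^ N e ω)⁻¹) ≤ 1 := fun ω => by
      calc Real.sqrt ((B ^ N e ω)⁻¹) ≤ Real.sqrt 1 := Real.sqrt_le_sqrt (hBi e ω)
        _ = 1 := Real.sqrt_one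
    have hf₁m : Measurable f₁ := ((hBN e).inv.sqrt).mul (hg e)
    have hf₁b : ∀ ω, |f₁ ω| ≤ C := fun ω => by
      rw [abs_of_nonneg (mul_nonneg (Real.sqrt_nonneg _) (hg0 e ω))]
      calc Real.sqrt ((B ^ N e ω)⁻¹) * g e ω ≤ 1 * g e ω :=
            mul_le_mul_of_nonneg_right (hs1 ω) (hg0 e ω)
        _ ≤ C := by rw [one_mul]; exact hC ω
    have hf₂m : Measurable f₂ := ((hBN e).sqrt).indicator (mA₂ e)
    have hf₂b : ∀ ω, |f₂ ω| ≤ Real.sqrt (B ^ Nmax) := fun ω => by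
      rw [abs_of_nonneg (Set.indicator_nonneg (fun _ _ => Real.sqrt_nonneg _) ω)]
      by_cases hω : ω ∈ A₂ e
      · simp only [Set.indicator_of_mem hω]
        exact Real.sqrt_le_sqrt (hBb e ω)
      · simp only [Set.indicator_of_notMem hω]
        exact Real.sqrt_nonneg _
    have hprod : ∀ ω, (A₂ e).indicator (g e) ω = f₁ ω * f₂ ω := by
      intro ω
      by_cases hω : ω ∈ A₂ e
      · simp only [hf₁, hf₂, Set.indicator_of_mem hω]
        have : Real.sqrt ((B ^ N e ω)⁻¹) * Real.sqrt (B ^ N e ω) = 1 := by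
          rw [← Real.sqrt_mul (inv_nonneg.mpr (hw e ω).le), inv_mul_cancel₀ (hw e ω).ne',
            Real.sqrt_one]
        calc g e ω = (Real.sqrt ((B ^ N e ω)⁻¹) * Real.sqrt (B ^ N e ω)) * g e ω := by
              rw [this, one_mul]
          _ = _ := by ring
      · simp only [hf₂, Set.indicator_of_notMem hω, mul_zero]
    have hcs := cs (P := P) (memLp_of_bdd hf₁m hf₁b) (memLp_of_bdd hf₂m hf₂b)
      (Filter.Eventually.of_forall fun ω => mul_nonneg (Real.sqrt_nonneg _) (hg0 e ω))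
      (Filter.Eventually.of_forall fun ω => Set.indicator_nonneg (fun _ _ => Real.sqrt_nonneg _) ω)
    have e1 : ∫ ω, f₁ ω ^ 2 ∂P = ∫ ω, (B ^ N e ω)⁻¹ * g e ω ^ 2 ∂P := by
      congr 1; funext ω
      simp only [hf₁]
      rw [mul_pow, Real.sq_sqrt (inv_nonneg.mpr (hw e ω).le)]
    have e2 : ∫ ω, f₂ ω ^ 2 ∂P =
        ∫ ω, (if k₁ < N e ω ∧ N e ω ≤ k₂ then B ^ N e ω else 0) ∂P := by
      congr 1; funext ω
      simp only [hf₂, Set.indicator, hA₂, Set.mem_ofPred_eq]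
      split_ifs with h
      · rw [Real.sq_sqrt (hw e ω).le]
      · simp
    rw [e1, e2] at hcs
    calc ∫ ω, (A₂ e).indicator (g e) ω ∂P = ∫ ω, f₁ ω * f₂ ω ∂P := by
          congr 1; funext ω; exact hprod ω
      _ ≤ _ := hcs
  -- last piece
  have hlast : ∀ e ∈ 𝓔, ∫ ω, (A₃ e).indicator (g e) ω ∂P ≤ η₂ * δ := by
    intro e he
    obtain ⟨C, hC⟩ := hgb e
    have hcs := cs (P := P) (f := g e) (g := (A₃ e).indicator 1)
      (memLp_of_bdd (hg e) (C := C) fun ω => by rw [abs_of_nonneg (hg0 e ω)]; exact hC ω)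
      (memLp_of_bdd (measurable_one.indicator (mA₃ e)) (C := 1) fun ω => by
        by_cases hω : ω ∈ A₃ e <;> simp [hω])
      (Filter.Eventually.of_forall (hg0 e))
      (Filter.Eventually.of_forall fun ω => Set.indicator_nonneg (fun _ _ => zero_le_one) ω)
    have e1 : ∫ ω, ((A₃ e).indicator (1 : Ω → ℝ) ω) ^ 2 ∂P = P.real (A₃ e) := by
      rw [← integral_indicator_one (mA₃ e)]
      congr 1; funext ω
      by_cases hω : ω ∈ A₃ e <;> simp [hω]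
    rw [e1, ← Real.sqrt_mul (integral_nonneg fun ω => sq_nonneg _)] at hcs
    calc ∫ ω, (A₃ e).indicator (g e) ω ∂P = ∫ ω, g e ω * (A₃ e).indicator 1 ω ∂P := by
          congr 1; funext ω
          by_cases hω : ω ∈ A₃ e <;> simp [hω]
      _ ≤ _ := hcs
      _ ≤ Real.sqrt ((η₂ * δ) ^ 2) := Real.sqrt_le_sqrt (hc e he)
      _ = η₂ * δ := Real.sqrt_sq (by positivity)
  -- assembly
  have hC1 : 0 ≤ C₁ := le_trans (sum_nonneg fun e _ => integral_nonneg fun ω =>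
    mul_nonneg (inv_nonneg.mpr (hw e ω).le) (sq_nonneg _)) ha
  have hS2 : 0 ≤ ∑ e ∈ 𝓔, ∫ ω, (if k₁ < N e ω ∧ N e ω ≤ k₂ then B ^ N e ω else 0) ∂P :=
    sum_nonneg fun e _ => integral_nonneg fun ω => by
      split_ifs
      · exact (hw e ω).le
      · exact le_rfl
  have hsum : ∑ e ∈ 𝓔, ∫ ω, (if Λ * δ < g e ω then g e ω else 0) ∂P ≤
      B ^ k₁ / (Λ * δ) * C₁ + Real.sqrt C₁ *
        Real.sqrt (∑ e ∈ 𝓔, ∫ ω, (if k₁ < N e ω ∧ N e ω ≤ k₂ then B ^ N e ω else 0) ∂P) +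
        𝓔.card * (η₂ * δ) := by
    calc ∑ e ∈ 𝓔, ∫ ω, (if Λ * δ < g e ω then g e ω else 0) ∂P
        ≤ ∑ e ∈ 𝓔, (B ^ k₁ / (Λ * δ) * ∫ ω, (B ^ N e ω)⁻¹ * g e ω ^ 2 ∂P +
            Real.sqrt (∫ ω, (B ^ N e ω)⁻¹ * g e ω ^ 2 ∂P) *
            Real.sqrt (∫ ω, (if k₁ < N e ω ∧ N e ω ≤ k₂ then B ^ N e ω else 0) ∂P) + η₂ * δ) := by
          apply sum_le_sum
          intro e he
          calc ∫ ω, (if Λ * δ < g e ω then g e ω else 0) ∂P
              ≤ ∫ ω, (B ^ k₁ / (Λ * δ) * ((B ^ N e ω)⁻¹ * g e ω ^ 2) +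
                  (A₂ e).indicator (g e) ω + (A₃ e).indicator (g e) ω) ∂P :=
                integral_mono (i0 e) (((i1 e).add (i2 e)).add (i3 e)) (hpt e)
            _ = B ^ k₁ / (Λ * δ) * ∫ ω, (B ^ N e ω)⁻¹ * g e ω ^ 2 ∂P +
                  ∫ ω, (A₂ e).indicator (g e) ω ∂P + ∫ ω, (A₃ e).indicator (g e) ω ∂P := by
                have h12 : Integrable (fun ω => B ^ k₁ / (Λ * δ) * ((B ^ N e ω)⁻¹ * g e ω ^ 2) +
                  (A₂ e).indicator (g e) ω) P := (i1 e).add (i2 e)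
                rw [integral_add h12 (i3 e), integral_add (i1 e) (i2 e),
                  integral_const_mul]
            _ ≤ _ := add_le_add (add_le_add le_rfl (hmid e)) (hlast e he)
      _ = B ^ k₁ / (Λ * δ) * ∑ e ∈ 𝓔, ∫ ω, (B ^ N e ω)⁻¹ * g e ω ^ 2 ∂P +
            ∑ e ∈ 𝓔, Real.sqrt (∫ ω, (B ^ N e ω)⁻¹ * g e ω ^ 2 ∂P) *
            Real.sqrt (∫ ω, (if k₁ < N e ω ∧ N e ω ≤ k₂ then B ^ N e ω else 0) ∂P) +
            𝓔.card * (η₂ * δ) := by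
          rw [sum_add_distrib, sum_add_distrib, mul_sum, sum_const, nsmul_eq_mul]
      _ ≤ _ := by
          have h1 := sum_sqrt_mul_le (s := 𝓔)
            (a := fun e => ∫ ω, (B ^ N e ω)⁻¹ * g e ω ^ 2 ∂P)
            (b := fun e => ∫ ω, (if k₁ < N e ω ∧ N e ω ≤ k₂ then B ^ N e ω else 0) ∂P)
            (fun e _ => integral_nonneg fun ω =>
              mul_nonneg (inv_nonneg.mpr (hw e ω).le) (sq_nonneg _))
            (fun e _ => integral_nonneg fun ω => by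
              split_ifs
              · exact (hw e ω).le
              · exact le_rfl)
          have h2 : Real.sqrt (∑ e ∈ 𝓔, ∫ ω, (B ^ N e ω)⁻¹ * g e ω ^ 2 ∂P) ≤ Real.sqrt C₁ :=
            Real.sqrt_le_sqrt ha
          refine add_le_add (add_le_add ?_ (h1.trans ?_)) le_rfl
          · gcongr
          · gcongr
  calc δ * ∑ e ∈ 𝓔, ∫ ω, (if Λ * δ < g e ω then g e ω else 0) ∂P
      ≤ δ * (B ^ k₁ / (Λ * δ) * C₁ + Real.sqrt C₁ *
        Real.sqrt (∑ e ∈ 𝓔, ∫ ω, (if k₁ < N e ω ∧ N e ω ≤ k₂ then B ^ N e ω else 0) ∂P) +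
        𝓔.card * (η₂ * δ)) := by gcongr
    _ = B ^ k₁ * C₁ / Λ + Real.sqrt C₁ * (δ *
        Real.sqrt (∑ e ∈ 𝓔, ∫ ω, (if k₁ < N e ω ∧ N e ω ≤ k₂ then B ^ N e ω else 0) ∂P)) +
        (δ ^ 2 * 𝓔.card) * η₂ := by
          field_simp
    _ ≤ B ^ k₁ * C₁ / Λ + Real.sqrt (C₁ * η₁) + C₀ * η₂ := by
          refine add_le_add (add_le_add le_rfl ?_) (mul_le_mul_of_nonneg_right hd hη₂)
          rw [Real.sqrt_mul hC1]
          gcongr
          apply Real.le_sqrt_of_sq_le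
          rw [mul_pow, Real.sq_sqrt hS2]
          exact hb

end Crest.Agent.R144.Uig714
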