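import Mathlib
import Crest.Agent.R144.Uia1_714

/-!
# R144 (S0197), block UIG (helper714), part 2: numerics of the boxes

`uia_box`: boxes of side `ρ`; joint bound `C₃ ^ ρ * (CA / A ^ k) ^ |S|` for separated sets of bad
edges; then `∑ ∫ B ^ N 1(k₁ ≤ N ≤ k₂) ≤ η * (volume)` as soon as `(2B)^(4 k₂) ≤ ρ`, `ρ ≥ ρ₀(η)`,
`k₁ = k₁(η)`, also for a second law `ν` with `ν A ≤ √(23 μ A)`.
-/

set_option autoImplicit false

namespace Crest.Agent.R144.Uig714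

open MeasureTheory Finset
open Crest.Agent.R144.Uia714
open scoped BigOperators ENNReal

section num

lemma sq_le_four_pow (k : ℕ) : (k + 1) ^ 2 ≤ 4 * 2 ^ k := by
  induction k with
  | zero => norm_num
  | succ k ih =>
    rcases Nat.lt_or_ge k 2 with hk | hk
    · interval_cases k <;> norm_num
    · calc (k + 1 + 1) ^ 2 ≤ 2 * (k + 1) ^ 2 := by nlinarith
        _ ≤ 2 * (4 * 2 ^ k) := by omega
        _ = 4 * 2 ^ (k + 1) := by ring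

lemma num_r {B Cb Cc A : ℕ} (hB : 1 ≤ B) (hCb : 1 ≤ Cb) (hCc : 1 ≤ Cc) (hA : 8 * B ≤ A)
    {CA C₃ η : ℝ} (hCA : 1 ≤ CA) (hC₃ : 1 ≤ C₃) (hη : 0 < η) :
    ∃ k₁ ρ₀ : ℕ, (1 : ℝ) / 2 ^ k₁ ≤ η ∧ 1 ≤ k₁ ∧ ∀ ρ : ℕ, ρ₀ ≤ ρ → ∀ k₂ : ℕ,
      (2 * B) ^ (4 * k₂) ≤ ρ →
      ∀ k, k₁ ≤ k → k ≤ k₂ → ∃ j : ℕ, 0 < j ∧
        (Cc * (k + 1) ^ 2) * j * (2 * B) ^ k ≤ Cb * ρ ^ 2 ∧
        23 * ((3 * ((Cb * ρ ^ 2 : ℕ) : ℝ) * (CA / (A : ℝ) ^ k) / j) ^ j * C₃ ^ ρ) ≤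
          (η / ((k₂ + 1) * (B : ℝ) ^ k)) ^ 2 := by
  -- `k₁`
  obtain ⟨k₁, hk₁⟩ : ∃ k₁ : ℕ, 192 * CA * Cc + 1 / η ≤ 2 ^ k₁ ∧ 1 ≤ k₁ := by
    obtain ⟨k, hk⟩ := pow_unbounded_of_one_lt (192 * CA * Cc + 1 / η) (one_lt_two)
    refine ⟨k + 1, hk.le.trans ?_, by omega⟩
    exact pow_le_pow_right₀ one_le_two (by omega)
  obtain ⟨M, hM⟩ := pow_unbounded_of_one_lt (16 * C₃) (by norm_num : (1 : ℝ) < 8)
  have hM1 : 1 ≤ M := by
    by_contra h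
    have : M = 0 := by omega
    rw [this, pow_zero] at hM; linarith
  -- `ρ₀`
  have hlim := tendsto_pow_const_div_const_pow_of_one_lt 4 (by norm_num : (1 : ℝ) < 16)
  obtain ⟨ρ₁, hρ₁⟩ := Filter.eventually_atTop.mp
    (hlim.eventually (gt_mem_nhds (show 0 < η ^ 2 / 23 by positivity)))
  refine ⟨k₁, max ρ₁ ((4 * M * Cc) ^ 2), ?_, hk₁.2, ?_⟩
  · rw [div_le_iff₀ (by positivity)]
    have h1 : 1 / η ≤ 2 ^ k₁ := le_trans (by
      have : 0 ≤ 192 * CA * (Cc : ℝ) := by positivity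
      linarith) hk₁.1
    rw [div_le_iff₀ hη] at h1
    linarith
  intro ρ hρ k₂ hk₂ k hk hkk
  have hρ1 : ρ₁ ≤ ρ := le_trans (le_max_left _ _) hρ
  have hρ2 : (4 * M * Cc) ^ 2 ≤ ρ := le_trans (le_max_right _ _) hρ
  set D : ℕ := (2 * B) ^ k * (Cc * (k + 1) ^ 2) with hD
  have hD0 : 0 < D := by positivity
  set j : ℕ := (Cb * ρ ^ 2) / D with hj
  have h2B : 1 ≤ 2 * B := by omega
  -- bound for `D`
  have hD1 : M * ρ * D ≤ Cb * ρ ^ 2 := by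
    have e1 : D ≤ 4 * Cc * (2 * B) ^ (2 * k₂) := by
      calc D ≤ (2 * B) ^ k * (Cc * (4 * 2 ^ k)) := by
            rw [hD]; gcongr; exact sq_le_four_pow k
        _ ≤ (2 * B) ^ k * (Cc * (4 * (2 * B) ^ k)) :=
            Nat.mul_le_mul_left _ (Nat.mul_le_mul_left _ (Nat.mul_le_mul_left _
              (Nat.pow_le_pow_left (by omega) _)))
        _ = 4 * Cc * (2 * B) ^ (2 * k) := by rw [two_mul k, pow_add]; ring
        _ ≤ _ := by gcongr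
    have e2 : M * D ≤ ρ := by
      have e3 : (M * D) ^ 2 ≤ ρ ^ 2 := by
        calc (M * D) ^ 2 ≤ (M * (4 * Cc * (2 * B) ^ (2 * k₂))) ^ 2 := by gcongr
          _ = (4 * M * Cc) ^ 2 * (2 * B) ^ (4 * k₂) := by
              rw [show 4 * k₂ = 2 * k₂ * 2 by ring, pow_mul (2 * B) (2 * k₂) 2]; ring
          _ ≤ ρ * ρ := Nat.mul_le_mul hρ2 hk₂
          _ = ρ ^ 2 := by ring
      exact (Nat.pow_le_pow_iff_left (by norm_num)).mp e3
    calc M * ρ * D = (M * D) * ρ := by ring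
      _ ≤ ρ * ρ := by gcongr
      _ = 1 * ρ ^ 2 := by ring
      _ ≤ Cb * ρ ^ 2 := by gcongr
  have hjM : M * ρ ≤ j := by
    rw [hj, Nat.le_div_iff_mul_le hD0]; exact hD1
  have hρpos : 0 < ρ := by
    have : 0 < (2 * B) ^ (4 * k₂) := by positivity
    omega
  have hj0 : 0 < j := by
    have : 0 < M * ρ := Nat.mul_pos hM1 hρpos
    omega
  have hjD : j * D ≤ Cb * ρ ^ 2 := Nat.div_mul_le_self _ _
  have hjD' : Cb * ρ ^ 2 < (j + 1) * D := by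
    have := Nat.lt_div_mul_add (a := Cb * ρ ^ 2) hD0
    rw [hj, add_mul, one_mul]; exact this
  refine ⟨j, hj0, ?_, ?_⟩
  · calc (Cc * (k + 1) ^ 2) * j * (2 * B) ^ k = j * D := by rw [hD]; ring
      _ ≤ _ := hjD
  · have hjR : (0 : ℝ) < j := by exact_mod_cast hj0
    have hBR : (1 : ℝ) ≤ B := by exact_mod_cast hB
    have hAR : (8 : ℝ) * B ≤ A := by exact_mod_cast hA
    have hAk : (0 : ℝ) < (A : ℝ) ^ k := by
      have : (0 : ℝ) < A := by linarith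
      positivity
    have hx : 3 * ((Cb * ρ ^ 2 : ℕ) : ℝ) * (CA / (A : ℝ) ^ k) / j ≤ 1 / 8 := by
      have e1 : ((Cb * ρ ^ 2 : ℕ) : ℝ) ≤ 2 * j * D := by
        have : Cb * ρ ^ 2 ≤ 2 * j * D := by
          have h1 : (j + 1) * D ≤ 2 * j * D := Nat.mul_le_mul_right _ (by omega)
          omega
        exact_mod_cast this
      have e2 : (D : ℝ) ≤ 4 * Cc * (4 * B) ^ k := by
        have : D ≤ 4 * Cc * (4 * B) ^ k := by
          calc D ≤ (2 * B) ^ k * (Cc * (4 * 2 ^ k)) := by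
                rw [hD]; gcongr; exact sq_le_four_pow k
            _ = 4 * Cc * (4 * B) ^ k := by
                rw [show 4 * B = (2 * B) * 2 by ring, mul_pow (2 * B) 2]
                generalize (2 * B) ^ k = y
                ring
        exact_mod_cast this
      have e3 : (4 * (B : ℝ)) ^ k / (A : ℝ) ^ k ≤ 1 / 2 ^ k := by
        rw [div_le_div_iff₀ hAk (by positivity), one_mul, ← mul_pow]
        exact pow_le_pow_left₀ (by positivity) (by linarith) k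
      have e4 : 192 * CA * Cc ≤ (2 : ℝ) ^ k := by
        have h1 : (2 : ℝ) ^ k₁ ≤ 2 ^ k := pow_le_pow_right₀ one_le_two hk
        have h2 : 0 ≤ 1 / η := by positivity
        linarith [hk₁.1]
      calc 3 * ((Cb * ρ ^ 2 : ℕ) : ℝ) * (CA / (A : ℝ) ^ k) / j
          ≤ 3 * (2 * j * (4 * Cc * (4 * B) ^ k)) * (CA / (A : ℝ) ^ k) / j := by
            have : ((Cb * ρ ^ 2 : ℕ) : ℝ) ≤ 2 * j * (4 * Cc * (4 * B) ^ k) :=
              e1.trans (by gcongr)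
            gcongr
        _ = 24 * CA * Cc * ((4 * (B : ℝ)) ^ k / (A : ℝ) ^ k) := by
            field_simp; ring
        _ ≤ 24 * CA * Cc * (1 / 2 ^ k) := by gcongr
        _ ≤ 1 / 8 := by
            rw [mul_one_div, div_le_div_iff₀ (by positivity) (by norm_num)]
            linarith
    have hx0 : 0 ≤ 3 * ((Cb * ρ ^ 2 : ℕ) : ℝ) * (CA / (A : ℝ) ^ k) / j := by positivity
    have h1 : (3 * ((Cb * ρ ^ 2 : ℕ) : ℝ) * (CA / (A : ℝ) ^ k) / j) ^ j * C₃ ^ ρ ≤ 1 / 16 ^ ρ := by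
      calc (3 * ((Cb * ρ ^ 2 : ℕ) : ℝ) * (CA / (A : ℝ) ^ k) / j) ^ j * C₃ ^ ρ
          ≤ (1 / 8) ^ j * C₃ ^ ρ := by gcongr
        _ ≤ (1 / 8) ^ (M * ρ) * C₃ ^ ρ :=
            mul_le_mul_of_nonneg_right
              (pow_le_pow_of_le_one (by norm_num) (by norm_num) hjM) (by positivity)
        _ = (C₃ / 8 ^ M) ^ ρ := by rw [pow_mul, ← mul_pow]; congr 1; rw [one_div, inv_pow]; ring
        _ ≤ (1 / 16) ^ ρ := by
            refine pow_le_pow_left₀ (by positivity) ?_ ρ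
            rw [div_le_div_iff₀ (by positivity) (by norm_num)]; linarith
        _ = 1 / 16 ^ ρ := by rw [one_div, inv_pow, one_div]
    have h2 : (ρ : ℝ) ^ 4 / 16 ^ ρ < η ^ 2 / 23 := hρ₁ ρ hρ1
    have hρR : (1 : ℝ) ≤ ρ := by exact_mod_cast hρpos
    have hk2ρ : ((k₂ : ℝ) + 1) ≤ ρ := by
      have : k₂ + 1 ≤ ρ := by
        calc k₂ + 1 ≤ 2 ^ k₂ := Nat.lt_two_pow_self
          _ ≤ (2 * B) ^ k₂ := Nat.pow_le_pow_left (by omega) _
          _ ≤ (2 * B) ^ (4 * k₂) := Nat.pow_le_pow_right (by omega) (by omega)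
          _ ≤ ρ := hk₂
      exact_mod_cast this
    have hBk : (B : ℝ) ^ k ≤ ρ := by
      have : B ^ k ≤ ρ := by
        calc B ^ k ≤ (2 * B) ^ k := Nat.pow_le_pow_left (by omega) _
          _ ≤ (2 * B) ^ (4 * k₂) := Nat.pow_le_pow_right (by omega) (by omega)
          _ ≤ ρ := hk₂
      exact_mod_cast this
    have h3 : η / (ρ : ℝ) ^ 2 ≤ η / ((k₂ + 1) * (B : ℝ) ^ k) := by
      apply div_le_div_of_nonneg_left hη.le (by positivity)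
      rw [pow_two]
      exact mul_le_mul hk2ρ hBk (by positivity) (by positivity)
    calc 23 * ((3 * ((Cb * ρ ^ 2 : ℕ) : ℝ) * (CA / (A : ℝ) ^ k) / j) ^ j * C₃ ^ ρ)
        ≤ 23 * (1 / 16 ^ ρ) := by gcongr
      _ ≤ (η / (ρ : ℝ) ^ 2) ^ 2 := by
          rw [div_lt_div_iff₀ (by positivity) (by norm_num)] at h2
          rw [mul_one_div, div_pow, div_le_div_iff₀ (by positivity) (by positivity)]
          calc 23 * ((ρ : ℝ) ^ 2) ^ 2 = (ρ : ℝ) ^ 4 * 23 := by ring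
            _ ≤ _ := h2.le
      _ ≤ _ := pow_le_pow_left₀ (by positivity) h3 2

end num

section box

universe u v w

variable {Ω : Type u} [MeasurableSpace Ω] {ε : Type v}

lemma measurable_cnt (A : Finset ε) {D : ε → Set Ω} (hD : ∀ e, MeasurableSet (D e)) :
    Measurable (cnt A D) := by
  classical
  have : cnt A D = fun ω => ∑ e ∈ A, Set.indicator (D e) (fun _ => (1 : ℕ)) ω := by
    funext ω
    rw [cnt, card_filter]
    refine sum_congr rfl fun e _ => ?_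
    by_cases h : ω ∈ D e <;> simp [h]
  rw [this]
  exact Finset.measurable_sum _ fun e _ => measurable_const.indicator (hD e)

omit [MeasurableSpace Ω] in
lemma cnt_mono (A : Finset ε) {D D' : ε → Set Ω} {ω : Ω} (h : ∀ e, ω ∈ D e → ω ∈ D' e) :
    cnt A D ω ≤ cnt A D' ω := by
  classical
  unfold cnt
  refine card_le_card fun e he => ?_
  simp only [mem_filter] at he ⊢
  exact ⟨he.1, h e he.2⟩

lemma sum_measure_le_of_cnt {ν : Measure Ω} [IsProbabilityMeasure ν] (A : Finset ε) {K : ℕ}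
    (hK : A.card ≤ K) {D : ε → Set Ω} (hD : ∀ e, MeasurableSet (D e)) {l r : ℝ≥0∞}
    (H : ν {ω | l * K ≤ (cnt A D ω : ℝ≥0∞)} ≤ r) :
    ∑ e ∈ A, ν (D e) ≤ K * (l + r) := by
  classical
  have hsumc : ∑ e ∈ A, ν (D e) = ∫⁻ ω, (cnt A D ω : ℝ≥0∞) ∂ν := by
    have : (fun ω => (cnt A D ω : ℝ≥0∞)) =
        fun ω => ∑ e ∈ A, Set.indicator (D e) (fun _ => (1 : ℝ≥0∞)) ω := by
      funext ω
      rw [cnt, card_filter, Nat.cast_sum]
      refine sum_congr rfl fun e _ => ?_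
      by_cases h : ω ∈ D e <;> simp [h]
    rw [this, lintegral_finsetSum _ fun e _ => measurable_const.indicator (hD e)]
    refine sum_congr rfl fun e _ => ?_
    rw [lintegral_indicator_const (hD e), one_mul]
  rw [hsumc]
  set G : Set Ω := {ω | l * K ≤ (cnt A D ω : ℝ≥0∞)} with hG
  have hGm : MeasurableSet G := measurableSet_le measurable_const
    (measurable_from_top.comp (measurable_cnt A hD))
  have hpt : ∀ ω, (cnt A D ω : ℝ≥0∞) ≤ l * K + G.indicator (fun _ => (K : ℝ≥0∞)) ω := by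
    intro ω
    by_cases h : ω ∈ G
    · rw [Set.indicator_of_mem h]
      refine le_trans ?_ le_add_self
      exact_mod_cast (cnt_le_card A D ω).trans hK
    · rw [Set.indicator_of_notMem h, add_zero]
      rw [hG] at h
      simp only [Set.mem_ofPred_eq, not_le] at h
      exact h.le
  calc ∫⁻ ω, (cnt A D ω : ℝ≥0∞) ∂ν
      ≤ ∫⁻ ω, (l * K + G.indicator (fun _ => (K : ℝ≥0∞)) ω) ∂ν := lintegral_mono hpt
    _ = l * K + K * ν G := by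
        rw [lintegral_add_left measurable_const, lintegral_const, measure_univ, mul_one,
          lintegral_indicator_const hGm]
    _ ≤ l * K + K * r := by gcongr
    _ = K * (l + r) := by ring

/-- **Counting in boxes**: `∑_k B ^ k ∑_e ν (D e k)` is small. -/
theorem uia_sets {B Cb Cc A : ℕ} (hB : 1 ≤ B) (hCb : 1 ≤ Cb) (hCc : 1 ≤ Cc) (hA : 8 * B ≤ A)
    {CA C₃ η : ℝ} (hCA : 1 ≤ CA) (hC₃ : 1 ≤ C₃) (hη : 0 < η) :
    ∃ k₁ ρ₀ : ℕ, 1 ≤ k₁ ∧ ∀ ρ : ℕ, ρ₀ ≤ ρ → ∀ k₂ : ℕ, (2 * B) ^ (4 * k₂) ≤ ρ →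
      ∀ {Ω : Type u} [MeasurableSpace Ω] {ε : Type v} {ι : Type w} (μ ν : Measure Ω)
        [IsProbabilityMeasure μ] [IsProbabilityMeasure ν]
        (_ : ∀ A, MeasurableSet A → ν.real A ≤ √(23 * μ.real A))
        (𝓔 : Finset ε) (I : Finset ι) (box : ι → Finset ε)
        (_ : ∀ e ∈ 𝓔, ∃ i ∈ I, e ∈ box i) (_ : ∀ i ∈ I, (box i).card ≤ Cb * ρ ^ 2)
        (D : ε → ℕ → Set Ω) (_ : ∀ e k, MeasurableSet (D e k))
        (R : ℕ → ε → ε → Prop) (_ : ∀ k a, R k a a) (_ : ∀ k a b, R k a b → R k b a)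
        (_ : ∀ k, ∀ i ∈ I, ∀ a ∈ box i, haveI := Classical.decPred (R k a)
          ((box i).filter (R k a)).card ≤ Cc * (k + 1) ^ 2)
        (_ : ∀ k, k₁ ≤ k → k ≤ k₂ → ∀ i ∈ I, ∀ S ⊆ box i, Sep (R k) S →
          μ (⋂ e ∈ S, D e k) ≤ ENNReal.ofReal (C₃ ^ ρ * (CA / (A : ℝ) ^ k) ^ S.card)),
        ∑ k ∈ Ico k₁ (k₂ + 1), (B : ℝ≥0∞) ^ k * ∑ e ∈ 𝓔, ν (D e k) ≤
          I.card * (Cb * ρ ^ 2 : ℕ) * ENNReal.ofReal η := by
  classical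
  obtain ⟨k₁, ρ₀, hk₁, hk₁1, H⟩ := num_r hB hCb hCc hA hCA hC₃ (show 0 < η / 3 by positivity)
  refine ⟨k₁, ρ₀, hk₁1, ?_⟩
  intro ρ hρ k₂ hk₂ Ω _ ε ι μ ν _ _ hν 𝓔 I box hcov hcard D hD R hrefl hsymm hR hj
  have hB0 : (0 : ℝ) < B := by exact_mod_cast hB
  -- one box, one level
  have hbox : ∀ k, k₁ ≤ k → k ≤ k₂ → ∀ i ∈ I, ∑ e ∈ box i, ν (D e k) ≤
      (Cb * ρ ^ 2 : ℕ) * (((2 * B : ℕ) : ℝ≥0∞)⁻¹ ^ k +
        ENNReal.ofReal (η / 3 / ((k₂ + 1) * (B : ℝ) ^ k))) := by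
    intro k hk1 hk2 i hi
    refine sum_measure_le_of_cnt (box i) (hcard i hi) (fun e => hD e k) ?_
    obtain ⟨j, hj0, hjK, hjr⟩ := H ρ hρ k₂ hk₂ k hk1 hk2
    set G : Set Ω := {ω | Cc * (k + 1) ^ 2 * j ≤ cnt (box i) (fun e => D e k) ω} with hG
    have hGm : MeasurableSet G :=
      measurableSet_le measurable_const (measurable_cnt _ fun e => hD e k)
    have hsub : {ω | ((2 * B : ℕ) : ℝ≥0∞)⁻¹ ^ k * ((Cb * ρ ^ 2 : ℕ) : ℝ≥0∞) ≤
        (cnt (box i) (fun e => D e k) ω : ℝ≥0∞)} ⊆ G := by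
      intro ω hω
      simp only [Set.mem_ofPred_eq] at hω
      simp only [hG, Set.mem_ofPred_eq]
      have h4 : ((Cc * (k + 1) ^ 2 * j : ℕ) : ℝ≥0∞) ≤
          ((2 * B : ℕ) : ℝ≥0∞)⁻¹ ^ k * ((Cb * ρ ^ 2 : ℕ) : ℝ≥0∞) := by
        rw [← ENNReal.inv_pow, ← ENNReal.div_eq_inv_mul]
        rw [ENNReal.le_div_iff_mul_le (Or.inl (by positivity)) (Or.inl (by finiteness))]
        exact_mod_cast hjK
      have h5 := h4.trans hω
      exact_mod_cast h5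
    have hμG : μ.real G ≤ (3 * ((Cb * ρ ^ 2 : ℕ) : ℝ) * (CA / (A : ℝ) ^ k) / j) ^ j * C₃ ^ ρ := by
      have hc0 : 0 < Cc * (k + 1) ^ 2 := by positivity
      have h1 := cnt_tail (μ := μ) (R k) (hrefl k) (hsymm k) hc0 (box i)
        (fun e => D e k) (fun a ha => hR k i hi a ha)
        (b := ENNReal.ofReal (C₃ ^ ρ)) (q := ENNReal.ofReal (CA / (A : ℝ) ^ k)) j
        (fun S hS hSc hSep => by
          refine (hj k hk1 hk2 i hi S hS hSep).trans (le_of_eq ?_)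
          rw [ENNReal.ofReal_mul (by positivity), hSc,
            ENNReal.ofReal_pow (show 0 ≤ CA / (A : ℝ) ^ k by positivity) j])
      have h2 : μ.real G ≤ ((box i).card.choose j : ℝ) * (C₃ ^ ρ * (CA / (A : ℝ) ^ k) ^ j) := by
        rw [measureReal_def]
        refine ENNReal.toReal_le_of_le_ofReal (by positivity) (h1.trans (le_of_eq ?_))
        rw [ENNReal.ofReal_mul (by positivity), ENNReal.ofReal_mul (by positivity),
          ENNReal.ofReal_natCast, ENNReal.ofReal_pow (show 0 ≤ CA / (A : ℝ) ^ k by positivity) j]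
      have h3 := choose_mul_pow_le (Cb * ρ ^ 2) j hj0 (q := CA / (A : ℝ) ^ k) (by positivity)
      have h4 : ((box i).card.choose j : ℝ) ≤ ((Cb * ρ ^ 2).choose j : ℝ) := by
        exact_mod_cast Nat.choose_le_choose j (hcard i hi)
      calc μ.real G ≤ ((box i).card.choose j : ℝ) * (C₃ ^ ρ * (CA / (A : ℝ) ^ k) ^ j) := h2
        _ ≤ ((Cb * ρ ^ 2).choose j : ℝ) * (C₃ ^ ρ * (CA / (A : ℝ) ^ k) ^ j) := by gcongr
        _ = (((Cb * ρ ^ 2).choose j : ℝ) * (CA / (A : ℝ) ^ k) ^ j) * C₃ ^ ρ := by ring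
        _ ≤ _ := by gcongr
    have hνG : ν.real G ≤ η / 3 / ((k₂ + 1) * (B : ℝ) ^ k) := by
      refine (hν G hGm).trans ?_
      rw [Real.sqrt_le_left (by positivity)]
      exact (mul_le_mul_of_nonneg_left hμG (by norm_num)).trans hjr
    calc ν {ω | ((2 * B : ℕ) : ℝ≥0∞)⁻¹ ^ k * ((Cb * ρ ^ 2 : ℕ) : ℝ≥0∞) ≤
          (cnt (box i) (fun e => D e k) ω : ℝ≥0∞)}
        ≤ ν G := measure_mono hsub
      _ ≤ ENNReal.ofReal (η / 3 / ((k₂ + 1) * (B : ℝ) ^ k)) := by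
          rw [measureReal_def] at hνG
          exact ENNReal.le_ofReal_iff_toReal_le (measure_ne_top _ _) (by positivity) |>.mpr hνG
  -- one level
  have hlev : ∀ k, k₁ ≤ k → k ≤ k₂ → (B : ℝ≥0∞) ^ k * ∑ e ∈ 𝓔, ν (D e k) ≤
      I.card * (Cb * ρ ^ 2 : ℕ) * ENNReal.ofReal ((1 / 2) ^ k + η / 3 / (k₂ + 1)) := by
    intro k hk1 hk2
    have e2 : (B : ℝ≥0∞) ^ k * (((2 * B : ℕ) : ℝ≥0∞)⁻¹ ^ k +
        ENNReal.ofReal (η / 3 / ((k₂ + 1) * (B : ℝ) ^ k))) =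
        ENNReal.ofReal ((1 / 2) ^ k + η / 3 / (k₂ + 1)) := by
      have h1 : (B : ℝ≥0∞) ^ k = ENNReal.ofReal ((B : ℝ) ^ k) := by
        rw [ENNReal.ofReal_pow hB0.le, ENNReal.ofReal_natCast]
      have h2 : ((2 * B : ℕ) : ℝ≥0∞)⁻¹ ^ k = ENNReal.ofReal ((1 / (2 * B)) ^ k) := by
        rw [ENNReal.ofReal_pow (by positivity)]
        congr 1
        rw [one_div, ENNReal.ofReal_inv_of_pos (by positivity)]
        congr 1
        rw [show (2 * (B : ℝ)) = ((2 * B : ℕ) : ℝ) by push_cast; ring, ENNReal.ofReal_natCast]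
      rw [h1, h2, ← ENNReal.ofReal_add (by positivity) (by positivity),
        ← ENNReal.ofReal_mul (by positivity)]
      congr 1
      rw [mul_add]
      congr 1
      · rw [← mul_pow]; congr 1; field_simp
      · field_simp
    calc (B : ℝ≥0∞) ^ k * ∑ e ∈ 𝓔, ν (D e k)
        ≤ (B : ℝ≥0∞) ^ k * ∑ e ∈ I.biUnion box, ν (D e k) := by
          refine mul_le_mul' le_rfl (sum_le_sum_of_subset fun e he => ?_)
          obtain ⟨i, hi, h⟩ := hcov e he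
          exact mem_biUnion.mpr ⟨i, hi, h⟩
      _ ≤ (B : ℝ≥0∞) ^ k * ∑ i ∈ I, ∑ e ∈ box i, ν (D e k) := by
          gcongr
          exact sum_biUnion_le' _ _ _
      _ ≤ (B : ℝ≥0∞) ^ k * ∑ _i ∈ I, (Cb * ρ ^ 2 : ℕ) * (((2 * B : ℕ) : ℝ≥0∞)⁻¹ ^ k +
            ENNReal.ofReal (η / 3 / ((k₂ + 1) * (B : ℝ) ^ k))) := by
          gcongr with i hi
          exact hbox k hk1 hk2 i hi
      _ = I.card * (Cb * ρ ^ 2 : ℕ) * ((B : ℝ≥0∞) ^ k * (((2 * B : ℕ) : ℝ≥0∞)⁻¹ ^ k +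
            ENNReal.ofReal (η / 3 / ((k₂ + 1) * (B : ℝ) ^ k)))) := by
          rw [sum_const, nsmul_eq_mul]; ring
      _ = _ := by rw [e2]
  calc ∑ k ∈ Ico k₁ (k₂ + 1), (B : ℝ≥0∞) ^ k * ∑ e ∈ 𝓔, ν (D e k)
      ≤ ∑ k ∈ Ico k₁ (k₂ + 1), I.card * (Cb * ρ ^ 2 : ℕ) *
          ENNReal.ofReal ((1 / 2) ^ k + η / 3 / (k₂ + 1)) := by
        refine sum_le_sum fun k hk => ?_
        rw [mem_Ico] at hk
        exact hlev k hk.1 (by omega)
    _ ≤ I.card * (Cb * ρ ^ 2 : ℕ) * ENNReal.ofReal η := by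
        rw [← mul_sum]
        gcongr
        rw [← ENNReal.ofReal_sum_of_nonneg (fun k _ => by positivity)]
        apply ENNReal.ofReal_le_ofReal
        rw [sum_add_distrib, sum_const, Nat.card_Ico, nsmul_eq_mul]
        have h1 : ∑ k ∈ Ico k₁ (k₂ + 1), (1 / 2 : ℝ) ^ k ≤ 2 * (1 / 2) ^ k₁ := by
          rcases le_or_gt k₁ (k₂ + 1) with h | h
          · rw [geom_sum_Ico (by norm_num) h]
            have : 0 ≤ (1 / 2 : ℝ) ^ (k₂ + 1) := by positivity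
            rw [div_le_iff_of_neg (by norm_num)]
            linarith
          · rw [Ico_eq_empty (by omega), sum_empty]; positivity
        have h2 : (1 / 2 : ℝ) ^ k₁ ≤ η / 3 := by rw [one_div, inv_pow, ← one_div]; exact hk₁
        have h3 : ((k₂ + 1 - k₁ : ℕ) : ℝ) * (η / 3 / (k₂ + 1)) ≤ η / 3 := by
          have : ((k₂ + 1 - k₁ : ℕ) : ℝ) ≤ k₂ + 1 := by exact_mod_cast Nat.sub_le _ _
          calc ((k₂ + 1 - k₁ : ℕ) : ℝ) * (η / 3 / (k₂ + 1)) ≤ (k₂ + 1) * (η / 3 / (k₂ + 1)) := by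
                gcongr
            _ = η / 3 := by field_simp
        linarith

/-- `∫ B ^ N 1(k₁ ≤ N ≤ k₂) ≤ ∑_{k₁ ≤ k ≤ k₂} B ^ k ν {k ≤ N}` -/
lemma lintegral_pow_window_le {ν : Measure Ω} {N : Ω → ℕ} (hN : ∀ k, MeasurableSet {ω | k ≤ N ω})
    (B : ℝ≥0∞) (k₁ k₂ : ℕ) :
    ∫⁻ ω, (if k₁ ≤ N ω ∧ N ω ≤ k₂ then B ^ (N ω) else 0) ∂ν ≤
      ∑ k ∈ Ico k₁ (k₂ + 1), B ^ k * ν {ω | k ≤ N ω} := by
  calc ∫⁻ ω, (if k₁ ≤ N ω ∧ N ω ≤ k₂ then B ^ (N ω) else 0) ∂ν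
      ≤ ∫⁻ ω, ∑ k ∈ Ico k₁ (k₂ + 1), {ω | k ≤ N ω}.indicator (fun _ => B ^ k) ω ∂ν := by
        refine lintegral_mono fun ω => ?_
        simp only
        split_ifs with h
        · calc B ^ (N ω) = {ω' | N ω ≤ N ω'}.indicator (fun _ => B ^ (N ω)) ω := by simp
            _ ≤ _ := single_le_sum (f := fun k => {ω | k ≤ N ω}.indicator (fun _ => B ^ k) ω)
                (fun _ _ => bot_le) (mem_Ico.mpr ⟨h.1, by omega⟩)
        · exact bot_le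
    _ = _ := by
        rw [lintegral_finsetSum _ fun k _ => measurable_const.indicator (hN k)]
        refine sum_congr rfl fun k _ => ?_
        rw [lintegral_indicator_const (hN k)]

/-- **Uniform integrability of `B ^ N`, boxes** -/
theorem uia_box {B Cb Cc A : ℕ} (hB : 1 ≤ B) (hCb : 1 ≤ Cb) (hCc : 1 ≤ Cc) (hA : 8 * B ≤ A)
    {CA C₃ η : ℝ} (hCA : 1 ≤ CA) (hC₃ : 1 ≤ C₃) (hη : 0 < η) :
    ∃ k₁ ρ₀ : ℕ, 1 ≤ k₁ ∧ ∀ ρ : ℕ, ρ₀ ≤ ρ → ∀ k₂ : ℕ, (2 * B) ^ (4 * k₂) ≤ ρ →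
      ∀ {Ω : Type u} [MeasurableSpace Ω] {ε : Type v} {ι : Type w} (μ ν : Measure Ω)
        [IsProbabilityMeasure μ] [IsProbabilityMeasure ν]
        (_ : ∀ A, MeasurableSet A → ν.real A ≤ √(23 * μ.real A))
        (𝓔 : Finset ε) (I : Finset ι) (box : ι → Finset ε)
        (_ : ∀ e ∈ 𝓔, ∃ i ∈ I, e ∈ box i) (_ : ∀ i ∈ I, (box i).card ≤ Cb * ρ ^ 2)
        (N : ε → Ω → ℕ) (_ : ∀ e k, MeasurableSet {ω | k ≤ N e ω})
        (R : ℕ → ε → ε → Prop) (_ : ∀ k a, R k a a) (_ : ∀ k a b, R k a b → R k b a)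
        (_ : ∀ k, ∀ i ∈ I, ∀ a ∈ box i, haveI := Classical.decPred (R k a)
          ((box i).filter (R k a)).card ≤ Cc * (k + 1) ^ 2)
        (_ : ∀ k, k₁ ≤ k → k ≤ k₂ → ∀ i ∈ I, ∀ S ⊆ box i, Sep (R k) S →
          μ (⋂ e ∈ S, {ω | k ≤ N e ω}) ≤ ENNReal.ofReal (C₃ ^ ρ * (CA / (A : ℝ) ^ k) ^ S.card)),
        ∑ e ∈ 𝓔, ∫⁻ ω, (if k₁ ≤ N e ω ∧ N e ω ≤ k₂ then (B : ℝ≥0∞) ^ (N e ω) else 0) ∂ν ≤
          I.card * (Cb * ρ ^ 2 : ℕ) * ENNReal.ofReal η := by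
  obtain ⟨k₁, ρ₀, hk₁, H⟩ := uia_sets.{u, v, w} hB hCb hCc hA hCA hC₃ hη
  refine ⟨k₁, ρ₀, hk₁, ?_⟩
  intro ρ hρ k₂ hk₂ Ω _ ε ι μ ν _ _ hν 𝓔 I box hcov hcard N hN R hrefl hsymm hR hj
  refine le_trans ?_ (H ρ hρ k₂ hk₂ μ ν hν 𝓔 I box hcov hcard (fun e k => {ω | k ≤ N e ω})
    hN R hrefl hsymm hR hj)
  calc ∑ e ∈ 𝓔, ∫⁻ ω, (if k₁ ≤ N e ω ∧ N e ω ≤ k₂ then (B : ℝ≥0∞) ^ (N e ω) else 0) ∂ν
      ≤ ∑ e ∈ 𝓔, ∑ k ∈ Ico k₁ (k₂ + 1), (B : ℝ≥0∞) ^ k * ν {ω | k ≤ N e ω} :=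
        sum_le_sum fun e _ => lintegral_pow_window_le (hN e) _ _ _
    _ = _ := by
        rw [sum_comm]
        exact sum_congr rfl fun k _ => by rw [mul_sum]

end box

end Crest.Agent.R144.Uig714
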