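import Mathlib
import Crest.Agent.R144.KorT3_620
import Crest.Agent.R144.Ham4_560
import Crest.Agent.R144.Ham5_560
import Crest.Agent.R144.Uig2_714

/-!
# R144 (S0197), block UIG (helper714), part 3: joint bounds for separated bad events

`TBQ` : joint tightness bound of a law for fresh lists inside `Q` (output of the LC lemma).
`CovAt` : covering of an event by fresh tight lists within hexagonal distance `r` of `u`.
`joint_le` : joint bound for separated events.
-/

set_option autoImplicit false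

namespace Crest.Agent.R144.Uig714

open MeasureTheory Finset
open Crest.Agent.R144.Uia714
open Crest.Agent.R144.Ham560 (ext ham nbr mem_nbr Fresh tight hamP measurableSet_ham)
open Crest.Agent.R144.Kor620 (P2 nrm FullE)
open scoped BigOperators ENNReal

variable {F : Finset P2} {E : Finset (P2 × P2)} {ξ : P2 → ℝ}

/-- joint tightness bound inside `Q` -/
def TBQ (F : Finset P2) (E : Finset (P2 × P2)) (ξ : P2 → ℝ) (μ : Measure (F → ℝ)) (c : ℝ)
    (K₀ : ℝ≥0∞) (Q : Set P2) : Prop :=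
  ∀ T : List (P2 × P2), Fresh F E T → (∀ e ∈ T, e.1 ∈ Q ∧ e.2 ∈ Q) → ∀ ε : ℝ, 0 < ε → ε ≤ 1 →
    μ (tight F E ξ T ε) ≤ ENNReal.ofReal (c * ε) ^ T.length * K₀

lemma TBQ.mono {μ : Measure (F → ℝ)} {c : ℝ} {K₀ K₁ : ℝ≥0∞} {Q Q' : Set P2}
    (h : TBQ F E ξ μ c K₀ Q) (hK : K₀ ≤ K₁) (hQ : Q' ⊆ Q) : TBQ F E ξ μ c K₁ Q' := by
  intro T hT hTQ ε hε hε1
  exact (h T hT (fun e he => ⟨hQ (hTQ e he).1, hQ (hTQ e he).2⟩) ε hε hε1).trans (by gcongr)

/-- covering of an event by fresh tight lists near `u` -/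
def CovAt (F : Finset P2) (E : Finset (P2 × P2)) (ξ : P2 → ℝ) (c ε q : ℝ) (r : ℕ) (u : P2)
    (D : Set (F → ℝ)) : Prop :=
  ∃ Fam : Finset (List (P2 × P2)), (∑ T ∈ Fam, (c * ε) ^ T.length ≤ q) ∧
    (∀ T ∈ Fam, ∀ e ∈ T, nrm (e.1 - u) ≤ r ∧ nrm (e.2 - u) ≤ r) ∧
    ∀ h ∈ ham F E ξ ∩ D, ∃ T ∈ Fam, Fresh F E T ∧ h ∈ tight F E ξ T ε

lemma nrm_comm (x y : P2) : nrm (x - y) = nrm (y - x) := by
  have h1 : (x - y).1 = -(y - x).1 := by simp
  have h2 : (x - y).2 = -(y - x).2 := by simp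
  have h3 : -(y - x).1 + -(y - x).2 = -((y - x).1 + (y - x).2) := by ring
  rw [nrm, nrm, h1, h2, h3, Int.natAbs_neg, Int.natAbs_neg, Int.natAbs_neg]

lemma nrm_add_le (a b : P2) : nrm (a + b) ≤ nrm a + nrm b := by
  have h1 : (a + b).1.natAbs ≤ a.1.natAbs + b.1.natAbs := Int.natAbs_add_le _ _
  have h2 : (a + b).2.natAbs ≤ a.2.natAbs + b.2.natAbs := Int.natAbs_add_le _ _
  have h3 : ((a + b).1 + (a + b).2).natAbs ≤ (a.1 + a.2).natAbs + (b.1 + b.2).natAbs := by
    have : (a + b).1 + (a + b).2 = (a.1 + a.2) + (b.1 + b.2) := by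
      simp only [Prod.fst_add, Prod.snd_add]; ring
    rw [this]; exact Int.natAbs_add_le _ _
  unfold nrm
  omega

lemma nrm_tri (x y z : P2) : nrm (x - z) ≤ nrm (x - y) + nrm (y - z) := by
  have := nrm_add_le (x - y) (y - z)
  rwa [sub_add_sub_cancel] at this

lemma tight_append (S S' : List (P2 × P2)) (ε : ℝ) :
    tight F E ξ (S ++ S') ε = tight F E ξ S ε ∩ tight F E ξ S' ε := by
  ext x
  constructor
  · rintro ⟨h1, h2⟩
    exact ⟨⟨h1, fun q hq => h2 q (List.mem_append_left _ hq)⟩,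
      ⟨h1, fun q hq => h2 q (List.mem_append_right _ hq)⟩⟩
  · rintro ⟨⟨h1, h2⟩, ⟨_, h3⟩⟩
    refine ⟨h1, fun q hq => ?_⟩
    rcases List.mem_append.mp hq with hq | hq
    · exact h2 q hq
    · exact h3 q hq

/-- **Joint bound for separated events** -/
theorem joint_le {ι : Type*} (S : Finset ι) (pos : ι → P2) (D : ι → Set (F → ℝ))
    {μ : Measure (F → ℝ)} {c ε q : ℝ} {K₀ : ℝ≥0∞} {Q : Set P2} (hTB : TBQ F E ξ μ c K₀ Q)
    (hc : 0 ≤ c) (hε : 0 < ε) (hε1 : ε ≤ 1) {r : ℕ}
    (hcov : ∀ i ∈ S, CovAt F E ξ c ε q r (pos i) (D i))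
    (hQ : ∀ i ∈ S, ∀ z, nrm (z - pos i) ≤ r → z ∈ Q)
    (hsep : ∀ i ∈ S, ∀ j ∈ S, i ≠ j → 2 * r < nrm (pos i - pos j)) :
    μ (ham F E ξ ∩ ⋂ i ∈ S, D i) ≤ ENNReal.ofReal q ^ S.card * K₀ := by
  classical
  have hq0 : ∀ i ∈ S, 0 ≤ q := by
    intro i hi
    obtain ⟨Fam, h1, _⟩ := hcov i hi
    exact le_trans (sum_nonneg fun T _ => by positivity) h1
  have key : ∀ S' : Finset ι, S' ⊆ S → ∀ T₀ : List (P2 × P2), Fresh F E T₀ →
      (∀ e ∈ T₀, e.1 ∈ Q ∧ e.2 ∈ Q) →
      (∀ i ∈ S', ∀ e ∈ T₀, r < nrm (e.1 - pos i) ∧ r < nrm (e.2 - pos i)) →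
      μ (tight F E ξ T₀ ε ∩ ⋂ i ∈ S', D i) ≤
        ENNReal.ofReal (c * ε) ^ T₀.length * ENNReal.ofReal q ^ S'.card * K₀ := by
    intro S'
    induction S' using Finset.induction_on with
    | empty =>
      intro _ T₀ hT₀ hQ₀ _
      simp only [Finset.notMem_empty, Set.iInter_of_empty, Set.iInter_univ, Set.inter_univ,
        Finset.card_empty, pow_zero, mul_one]
      exact hTB T₀ hT₀ hQ₀ ε hε hε1
    | @insert i S' hi ih =>
      intro hS' T₀ hT₀ hQ₀ hd
      have hiS : i ∈ S := hS' (mem_insert_self _ _)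
      have hS'' : S' ⊆ S := fun j hj => hS' (mem_insert_of_mem hj)
      obtain ⟨Fam, h1, h2, h3⟩ := hcov i hiS
      have hsub : tight F E ξ T₀ ε ∩ ⋂ j ∈ insert i S', D j ⊆
          ⋃ T ∈ Fam.filter (fun T => Fresh F E T),
            (tight F E ξ (T ++ T₀) ε ∩ ⋂ j ∈ S', D j) := by
        rintro x ⟨hx, hx'⟩
        simp only [Set.mem_iInter, mem_insert, forall_eq_or_imp] at hx'
        obtain ⟨T, hT, hTf, hTt⟩ := h3 x ⟨hx.1, hx'.1⟩
        simp only [Set.mem_iUnion]
        refine ⟨T, mem_filter.mpr ⟨hT, hTf⟩, ?_, ?_⟩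
        · rw [tight_append]; exact ⟨hTt, hx⟩
        · simp only [Set.mem_iInter]; exact hx'.2
      calc μ (tight F E ξ T₀ ε ∩ ⋂ j ∈ insert i S', D j)
          ≤ ∑ T ∈ Fam.filter (fun T => Fresh F E T),
              μ (tight F E ξ (T ++ T₀) ε ∩ ⋂ j ∈ S', D j) :=
            (measure_mono hsub).trans (measure_biUnion_finset_le _ _)
        _ ≤ ∑ T ∈ Fam.filter (fun T => Fresh F E T), ENNReal.ofReal (c * ε) ^ (T ++ T₀).length *
              ENNReal.ofReal q ^ S'.card * K₀ := by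
            refine sum_le_sum fun T hT => ?_
            rw [mem_filter] at hT
            refine ih hS'' (T ++ T₀) ?_ ?_ ?_
            · refine Fresh.append hT.2 hT₀ fun e he e' he' => ?_
              have h4 := (h2 T hT.1 e he).1
              have h5 := hd i (mem_insert_self _ _) e' he'
              constructor
              · intro h6; rw [h6] at h5; omega
              · intro h6; rw [h6] at h5; omega
            · intro e he
              rcases List.mem_append.mp he with he | he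
              · exact ⟨hQ i hiS _ (h2 T hT.1 e he).1, hQ i hiS _ (h2 T hT.1 e he).2⟩
              · exact hQ₀ e he
            · intro j hj e he
              rcases List.mem_append.mp he with he | he
              · have h4 := h2 T hT.1 e he
                have h5 := hsep i hiS j (hS'' hj) (fun h => hi (h ▸ hj))
                have h6 := nrm_tri (pos i) e.1 (pos j)
                have h7 := nrm_tri (pos i) e.2 (pos j)
                rw [nrm_comm (pos i) e.1] at h6
                rw [nrm_comm (pos i) e.2] at h7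
                omega
              · exact hd j (mem_insert_of_mem hj) e he
        _ ≤ ∑ T ∈ Fam, ENNReal.ofReal (c * ε) ^ (T ++ T₀).length *
              ENNReal.ofReal q ^ S'.card * K₀ :=
            sum_le_sum_of_subset (filter_subset _ _)
        _ = ENNReal.ofReal (∑ T ∈ Fam, (c * ε) ^ T.length) *
              (ENNReal.ofReal (c * ε) ^ T₀.length * ENNReal.ofReal q ^ S'.card * K₀) := by
            rw [ENNReal.ofReal_sum_of_nonneg (fun T _ => by positivity), sum_mul]
            refine sum_congr rfl fun T _ => ?_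
            rw [List.length_append, pow_add, ENNReal.ofReal_pow (by positivity)]
            ring
        _ ≤ ENNReal.ofReal q *
              (ENNReal.ofReal (c * ε) ^ T₀.length * ENNReal.ofReal q ^ S'.card * K₀) := by
            gcongr
        _ = _ := by rw [card_insert_of_notMem hi, pow_succ]; ring
  have h := key S (Subset.refl _) [] Fresh.nil (by simp) (by simp)
  simp only [List.length_nil, pow_zero, one_mul] at h
  refine le_trans (measure_mono ?_) h
  rintro x ⟨h1, h2⟩
  exact ⟨⟨h1, by simp⟩, h2⟩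

end Crest.Agent.R144.Uig714
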