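import Mathlib
import Crest.Agent.R144.Uig3_714

/-!
# R144 (S0197), block UIG (helper714), part 4: grid boxes in the lattice

`uib_sets` : for a law `μ` with the LC bound in balls of radius `4ρ` and bad events covered by fresh
tight lists, `∑_k B ^ k ∑_e ν (D e k)` is at most `η * Cf * (2 W + 3 ρ) ^ 2`.
-/

set_option autoImplicit false

namespace Crest.Agent.R144.Uig714

open MeasureTheory Finset
open Crest.Agent.R144.Uia714
open Crest.Agent.R144.Ham560 (ext ham nbr mem_nbr Fresh tight hamP measurableSet_ham)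
open Crest.Agent.R144.Kor620 (P2 nrm FullE)
open scoped BigOperators ENNReal

/-- the grid box of a site -/
def bx (ρ : ℕ) (u : P2) : P2 := (u.1 / (ρ : ℤ), u.2 / (ρ : ℤ))

lemma bx_eq {ρ : ℕ} (hρ : 0 < ρ) {u i : P2} (h : bx ρ u = i) :
    (ρ : ℤ) * i.1 ≤ u.1 ∧ u.1 < ρ * i.1 + ρ ∧ (ρ : ℤ) * i.2 ≤ u.2 ∧ u.2 < ρ * i.2 + ρ := by
  have hρ' : (0 : ℤ) < ρ := by exact_mod_cast hρ
  subst h
  refine ⟨Int.mul_ediv_self_le hρ'.ne', Int.lt_mul_ediv_self_add hρ', Int.mul_ediv_self_le hρ'.ne',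
    Int.lt_mul_ediv_self_add hρ'⟩

lemma bx_nrm {ρ : ℕ} (hρ : 0 < ρ) {u v : P2} (h : bx ρ u = bx ρ v) : nrm (u - v) ≤ 2 * ρ := by
  have h1 := bx_eq hρ h
  have h2 := bx_eq hρ (rfl : bx ρ v = bx ρ v)
  obtain ⟨a1, a2, a3, a4⟩ := h1
  obtain ⟨b1, b2, b3, b4⟩ := h2
  set X := (ρ : ℤ) * (bx ρ v).1
  set Y := (ρ : ℤ) * (bx ρ v).2
  have e1 : (u - v).1 = u.1 - v.1 := rfl
  have e2 : (u - v).2 = u.2 - v.2 := rfl
  rw [nrm, e1, e2]
  refine max_le (max_le ?_ ?_) ?_ <;> omega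

lemma bx_mem {ρ W : ℕ} (hρ : 0 < ρ) {u : P2} (h1 : u.1.natAbs ≤ W) (h2 : u.2.natAbs ≤ W) :
    bx ρ u ∈ Icc (-((W / ρ + 1 : ℕ) : ℤ)) ((W / ρ + 1 : ℕ) : ℤ) ×ˢ
      Icc (-((W / ρ + 1 : ℕ) : ℤ)) ((W / ρ + 1 : ℕ) : ℤ) := by
  have hρ' : (0 : ℤ) < ρ := by exact_mod_cast hρ
  have hW : (W : ℤ) < ρ * ((W / ρ : ℕ) : ℤ) + ρ := by
    have := Nat.lt_div_mul_add (a := W) hρ
    have h3 : W < ρ * (W / ρ) + ρ := by rw [mul_comm]; exact this
    exact_mod_cast h3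
  have key : ∀ x : ℤ, x.natAbs ≤ W → -((W / ρ + 1 : ℕ) : ℤ) ≤ x / ρ ∧
      x / ρ ≤ ((W / ρ + 1 : ℕ) : ℤ) := by
    generalize W / ρ = q at hW
    intro x hx
    constructor
    · rw [Int.le_ediv_iff_mul_le hρ']
      push_cast
      have : -(W : ℤ) ≤ x := by omega
      nlinarith
    · apply Int.ediv_le_of_le_mul hρ'
      push_cast
      have : x ≤ (W : ℤ) := by omega
      nlinarith
  rw [mem_product, mem_Icc, mem_Icc]
  exact ⟨key _ h1, key _ h2⟩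

lemma card_grid (m : ℕ) : (Icc (-(m : ℤ)) (m : ℤ) ×ˢ Icc (-(m : ℤ)) (m : ℤ)).card =
    (2 * m + 1) ^ 2 := by
  rw [card_product, Int.card_Icc]
  have : ((m : ℤ) + 1 - -(m : ℤ)).toNat = 2 * m + 1 := by omega
  rw [this]; ring

lemma card_ball_le (u : P2) (m : ℕ) (S : Finset P2) (h : ∀ z ∈ S, nrm (u - z) ≤ m) :
    S.card ≤ (2 * m + 1) ^ 2 := by
  classical
  have h1 : S.image (fun z => z - u) ⊆ Icc (-(m : ℤ)) (m : ℤ) ×ˢ Icc (-(m : ℤ)) (m : ℤ) := by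
    intro y hy
    obtain ⟨z, hz, rfl⟩ := mem_image.mp hy
    have h2 := h z hz
    rw [nrm_comm] at h2
    have h3 : (z - u).1.natAbs ≤ m := le_trans (by unfold nrm; omega) h2
    have h4 : (z - u).2.natAbs ≤ m := le_trans (by unfold nrm; omega) h2
    rw [mem_product, mem_Icc, mem_Icc]
    omega
  rw [← card_image_of_injective S (sub_left_injective (b := u)), ← card_grid]
  exact card_le_card h1

lemma card_box_le {ρ : ℕ} (hρ : 0 < ρ) (i : P2) (S : Finset P2) (h : ∀ z ∈ S, bx ρ z = i) :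
    S.card ≤ ρ ^ 2 := by
  classical
  have h1 : S ⊆ Ico ((ρ : ℤ) * i.1) (ρ * i.1 + ρ) ×ˢ Ico ((ρ : ℤ) * i.2) (ρ * i.2 + ρ) := by
    intro z hz
    obtain ⟨a1, a2, a3, a4⟩ := bx_eq hρ (h z hz)
    rw [mem_product, mem_Ico, mem_Ico]
    exact ⟨⟨a1, a2⟩, ⟨a3, a4⟩⟩
  refine (card_le_card h1).trans (le_of_eq ?_)
  rw [card_product, Int.card_Ico, Int.card_Ico]
  have h2 : ((ρ : ℤ) * i.1 + ρ - ρ * i.1).toNat = ρ := by omega
  have h3 : ((ρ : ℤ) * i.2 + ρ - ρ * i.2).toNat = ρ := by omega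
  rw [h2, h3]; ring

universe v

/-- **Counting bad events in a domain** (fixed lattice domain). -/
theorem uib_sets {B Cf κ₀ A : ℕ} (hB : 1 ≤ B) (hCf : 1 ≤ Cf) (hA : 8 * B ≤ A)
    {c CA C₃ η : ℝ} (hc : 0 ≤ c) (hCA : 1 ≤ CA) (hC₃ : 1 ≤ C₃) (hη : 0 < η) :
    ∃ k₁ ρ₀ : ℕ, 1 ≤ k₁ ∧ ∀ ρ : ℕ, ρ₀ ≤ ρ → ∀ k₂ : ℕ, (2 * B) ^ (4 * k₂) ≤ ρ →
      ∀ (F : Finset P2) (E : Finset (P2 × P2)) (ξ : P2 → ℝ) (μ ν : Measure (F → ℝ))
        [IsProbabilityMeasure μ] [IsProbabilityMeasure ν] (_ : ∀ᵐ h ∂μ, h ∈ ham F E ξ)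
        (_ : ∀ A, MeasurableSet A → ν.real A ≤ √(23 * μ.real A))
        {κ : Type v} (𝓔 : Finset κ) (pos : κ → P2) (W : ℕ)
        (_ : ∀ e ∈ 𝓔, (pos e).1.natAbs ≤ W ∧ (pos e).2.natAbs ≤ W)
        (_ : ∀ (z : P2) (S : Finset κ), (∀ e ∈ S, e ∈ 𝓔 ∧ pos e = z) → S.card ≤ Cf)
        (D : κ → ℕ → Set (F → ℝ)) (_ : ∀ e k, MeasurableSet (D e k))
        (_ : ∀ k, k₁ ≤ k → k ≤ k₂ → ∃ ε, 0 < ε ∧ ε ≤ 1 ∧
          ∀ e ∈ 𝓔, CovAt F E ξ c ε (CA / (A : ℝ) ^ k) (k + κ₀) (pos e) (D e k))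
        (_ : ∀ e ∈ 𝓔, TBQ F E ξ μ c (ENNReal.ofReal (C₃ ^ ρ)) {z | nrm (z - pos e) ≤ 4 * ρ}),
        ∑ k ∈ Ico k₁ (k₂ + 1), (B : ℝ≥0∞) ^ k * ∑ e ∈ 𝓔, ν (D e k) ≤
          ENNReal.ofReal ((Cf * (2 * W + 3 * ρ) ^ 2 : ℕ) * η) := by
  classical
  have hCc : 1 ≤ Cf * (4 * κ₀ + 5) ^ 2 := Nat.one_le_iff_ne_zero.mpr (by positivity)
  obtain ⟨k₁, ρ₀, hk₁, H⟩ := uia_sets.{0, v, 0} hB hCf hCc hA hCA hC₃ hη
  refine ⟨k₁, max ρ₀ (κ₀ + 1), hk₁, ?_⟩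
  intro ρ hρ k₂ hk₂ F E ξ μ ν _ _ hμ hν κ 𝓔 pos W hW hfib D hDm hcov hLC
  have hρ1 : ρ₀ ≤ ρ := le_trans (le_max_left _ _) hρ
  have hρ2 : κ₀ + 1 ≤ ρ := le_trans (le_max_right _ _) hρ
  have hρ0 : 0 < ρ := by omega
  have hk2ρ : k₂ < ρ := by
    calc k₂ < 2 ^ k₂ := Nat.lt_two_pow_self
      _ ≤ (2 * B) ^ k₂ := Nat.pow_le_pow_left (by omega) _
      _ ≤ (2 * B) ^ (4 * k₂) := Nat.pow_le_pow_right (by omega) (by omega)
      _ ≤ ρ := hk₂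
  set I : Finset P2 := 𝓔.image fun e => bx ρ (pos e) with hI
  set box : P2 → Finset κ := fun i => 𝓔.filter fun e => bx ρ (pos e) = i with hbox
  have hfib' : ∀ (S : Finset κ), S ⊆ 𝓔 → S.card ≤ Cf * (S.image pos).card := by
    intro S hS
    refine card_le_mul_card_image S Cf fun z _ => hfib z _ fun e he => ?_
    rw [mem_filter] at he
    exact ⟨hS he.1, he.2⟩
  have hboxS : ∀ i, box i ⊆ 𝓔 := fun i => filter_subset _ _
  have h1 := H ρ hρ1 k₂ hk₂ μ ν hν 𝓔 I box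
    (fun e he => ⟨bx ρ (pos e), mem_image_of_mem _ he, mem_filter.mpr ⟨he, rfl⟩⟩)
    (fun i _ => by
      refine (hfib' _ (hboxS i)).trans (Nat.mul_le_mul_left _ (card_box_le hρ0 i _ ?_))
      intro z hz
      obtain ⟨e, he, rfl⟩ := mem_image.mp hz
      exact (mem_filter.mp he).2)
    D hDm (fun k e e' => nrm (pos e - pos e') ≤ 2 * (k + κ₀))
    (fun k e => by simp [nrm])
    (fun k e e' h => by rw [nrm_comm]; exact h)
    (fun k i _ e _ => by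
      refine (hfib' _ ((@filter_subset _ _ (_) _).trans (hboxS i))).trans ?_
      have h3 : (2 * (2 * (k + κ₀)) + 1) ^ 2 ≤ (4 * κ₀ + 5) ^ 2 * (k + 1) ^ 2 := by
        rw [← mul_pow]
        refine Nat.pow_le_pow_left ?_ 2
        nlinarith
      refine (Nat.mul_le_mul_left _ ((card_ball_le (pos e) (2 * (k + κ₀)) _ ?_).trans h3)).trans
        (le_of_eq (mul_assoc _ _ _).symm)
      intro z hz
      obtain ⟨e', he', rfl⟩ := mem_image.mp hz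
      exact ((@mem_filter _ _ (_) _ _).mp he').2)
    (fun k hk1 hk2 i hi S hS hSep => by
      obtain ⟨ε, hε, hε1, hcv⟩ := hcov k hk1 hk2
      obtain ⟨e₀, he₀, rfl⟩ := mem_image.mp hi
      have hSb : ∀ e ∈ S, e ∈ 𝓔 ∧ bx ρ (pos e) = bx ρ (pos e₀) := fun e he =>
        mem_filter.mp (hS he)
      have h4 := joint_le (F := F) (E := E) (ξ := ξ) S pos (fun e => D e k) (hLC e₀ he₀) hc hε hε1
        (q := CA / (A : ℝ) ^ k) (r := k + κ₀) (fun e he => hcv e (hSb e he).1)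
        (fun e he z hz => by
          have h5 := bx_nrm hρ0 (hSb e he).2
          have h6 := nrm_tri z (pos e) (pos e₀)
          simp only [Set.mem_ofPred_eq]
          omega)
        (fun e he e' he' hne => by
          have := hSep e he e' he' hne
          omega)
      have h5 : μ (⋂ e ∈ S, D e k) = μ (ham F E ξ ∩ ⋂ e ∈ S, D e k) := by
        refine measure_congr ?_
        filter_upwards [hμ] with h hh
        apply propext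
        change h ∈ (⋂ e ∈ S, D e k) ↔ h ∈ ham F E ξ ∩ ⋂ e ∈ S, D e k
        exact ⟨fun h6 => ⟨hh, h6⟩, fun h6 => h6.2⟩
      rw [h5]
      refine h4.trans (le_of_eq ?_)
      have hA0 : (0 : ℝ) < A := by
        have : 0 < A := by omega
        exact_mod_cast this
      rw [mul_comm, ENNReal.ofReal_mul (by positivity),
        ENNReal.ofReal_pow (show 0 ≤ CA / (A : ℝ) ^ k by positivity)])
  refine h1.trans ?_
  have hIc : I.card ≤ (2 * (W / ρ + 1) + 1) ^ 2 := by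
    rw [← card_grid]
    refine card_le_card fun i hi => ?_
    obtain ⟨e, he, rfl⟩ := mem_image.mp hi
    exact bx_mem hρ0 (hW e he).1 (hW e he).2
  have hN : I.card * (Cf * ρ ^ 2) ≤ Cf * (2 * W + 3 * ρ) ^ 2 := by
    have h6 : (2 * (W / ρ + 1) + 1) * ρ ≤ 2 * W + 3 * ρ := by
      have := Nat.div_mul_le_self W ρ
      nlinarith
    calc I.card * (Cf * ρ ^ 2) ≤ (2 * (W / ρ + 1) + 1) ^ 2 * (Cf * ρ ^ 2) :=
          Nat.mul_le_mul_right _ hIc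
      _ = Cf * ((2 * (W / ρ + 1) + 1) * ρ) ^ 2 := by ring
      _ ≤ _ := Nat.mul_le_mul_left _ (Nat.pow_le_pow_left h6 2)
  rw [ENNReal.ofReal_mul (by positivity), ENNReal.ofReal_natCast]
  gcongr
  exact_mod_cast hN

end Crest.Agent.R144.Uig714
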