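import Mathlib
import Crest.Agent.R144.Upp5_296

/-!
R144 / S0197, approach P, assembly of the upper bound, part 6 (helper296): **the limit theorem**
`upper`: choice of the chain of scales.
-/

set_option autoImplicit false
set_option linter.unusedSectionVars false
set_option linter.unusedVariables false

open MeasureTheory Finset Filter
open scoped ENNReal

namespace Crest.Agent.R144.Upp296

open Crest.Agent.R144.Flat296

variable {Ω : ℕ → Type*} [∀ n, MeasurableSpace (Ω n)]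

/-- a natural number above a real one -/
lemma exists_nat_ge_pos (x : ℝ) : ∃ n : ℕ, 1 ≤ n ∧ x ≤ n :=
  ⟨⌈x⌉₊ + 1, by omega, (Nat.le_ceil x).trans (by push_cast; linarith)⟩

/-- the chain of scales -/
noncomputable def rhoChain (ρ0 q1 q2 : ℕ) (N : ℕ → ℕ) : ℕ → ℕ
  | 0 => ρ0
  | j + 1 => rhoChain ρ0 q1 q2 N j * (q2 * (N (q1 * rhoChain ρ0 q1 q2 N j) + 1))

lemma pt_mem_bound {r L : ℕ} {p : ℕ × ℕ} (h1 : p.1 < r) (h2 : p.2 < r) (h : r ≤ L) :
    |(pt p).1| ≤ (L : ℤ) ∧ |(pt p).2| ≤ (L : ℤ) := by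
  unfold pt
  constructor
  · simp only [Nat.abs_cast, Nat.cast_le]; omega
  · simp only [Nat.abs_cast, Nat.cast_le]; omega

lemma neg_pt_mem_bound {r L : ℕ} {p : ℕ × ℕ} (h1 : p.1 < r) (h2 : p.2 < r) (h : r ≤ L) :
    |(-pt p).1| ≤ (L : ℤ) ∧ |(-pt p).2| ≤ (L : ℤ) := by
  obtain ⟨a, b⟩ := pt_mem_bound h1 h2 h
  exact ⟨by simpa using a, by simpa using b⟩

set_option maxHeartbeats 1000000 in
/-- **The upper bound of approach P.** -/
theorem upper {μ : ∀ n, Measure (Ω n)} {δ : ℕ → ℝ} {u : ∀ n, Fld (Ω n)} {V e : ℕ → ℝ}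
    {Kx : ℕ → Finset P2} {Kc : ℕ → ℕ → Finset P2} {j : ℕ → Fin 2 → P2 → ℝ}
    (H : UpHyp μ δ u V e Kx Kc j) {O : Type} [Fintype O] [Nonempty O] {r0 : ℕ}
    {B : ℕ → O → ∀ n, Fin 2 → Fin 2 → Fld (Ω n)} {A : ℕ → O → Fin 2 → Fin 2 → ℝ} {Lr : ℕ → ℝ}
    (HB : BlkHyp μ δ u e Kc O r0 B A Lr) {b : ℝ} (hb : 0 < b)
    (hA : ∀ r, r0 ≤ r → ∀ y : Fin 2 → ℝ,
      b * iso y ≤ qf (fun i j => (Fintype.card O : ℝ)⁻¹ * ∑ o, A r o i j) y)
    {ε : ℝ} (hε : 0 < ε) :
    ∀ᶠ n in atTop, V n ≤ b⁻¹ * (δ n ^ 2 * ∑ a ∈ Kx n, isos fun i => j n i a) + ε := by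
  have hprob := H.prob
  obtain ⟨Ca', hCa'⟩ := H.area
  obtain ⟨S', hS'⟩ := H.grad
  obtain ⟨Cj', hCj'⟩ := H.jb
  -- positive constants
  set Ca : ℝ := max Ca' 1 with hCa
  set S : ℝ := max S' 1 with hS
  set Cj : ℝ := max Cj' 1 with hCj
  have hCa0 : 0 < Ca := lt_of_lt_of_le one_pos (le_max_right _ _)
  have hS0 : 0 < S := lt_of_lt_of_le one_pos (le_max_right _ _)
  have hCj0 : 0 < Cj := lt_of_lt_of_le one_pos (le_max_right _ _)
  set η : ℝ := ε / 7 with hη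
  have hη0 : 0 < η := by positivity
  -- θ
  set θ : ℝ := min 1 (η * b / (3 * Cj ^ 2 * Ca)) with hθ
  have hθ0 : 0 < θ := lt_min one_pos (by positivity)
  have hθ1 : θ ≤ 1 := min_le_left _ _
  have hθ2 : θ * b⁻¹ * (3 * Cj ^ 2 * Ca) ≤ η := by
    have : θ ≤ η * b / (3 * Cj ^ 2 * Ca) := min_le_right _ _
    rw [le_div_iff₀ (by positivity)] at this
    have h2 : θ * b⁻¹ * (3 * Cj ^ 2 * Ca) = b⁻¹ * (θ * (3 * Cj ^ 2 * Ca)) := by ring
    rw [h2]
    calc b⁻¹ * (θ * (3 * Cj ^ 2 * Ca)) ≤ b⁻¹ * (η * b) := mul_le_mul_of_nonneg_left this (by positivity)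
      _ = η := by field_simp
  -- layer
  obtain ⟨k1, hk1⟩ := H.layer (η / (4 * Cj)) (by positivity)
  -- Λ
  obtain ⟨Λ0, hΛ0⟩ := H.ui (η / (8 * Cj)) (by positivity)
  set Λ : ℝ := max 1 (2 * Λ0) with hΛ
  have hΛ1 : 1 ≤ Λ := le_max_left _ _
  have hΛpos : 0 < Λ := lt_of_lt_of_le one_pos hΛ1
  have hΛ2 : Λ0 ≤ Λ / 2 := by
    have : 2 * Λ0 ≤ Λ := le_max_right _ _
    linarith
  -- fibre assembly constants
  obtain ⟨C, hC0, r1, hfas⟩ := HB.fas θ Λ (η / 5) hθ0 hΛ1 (by positivity)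
  set εf : ℝ := η / (5 * (C + 1)) with hεf
  have hεf0 : 0 < εf := by positivity
  -- truncation level for the flatness theorem
  obtain ⟨Λf0, hΛf0⟩ := H.ui (εf / 24) (by positivity)
  set Λf : ℝ := max 0 Λf0 with hΛf
  have hΛfn : 0 ≤ Λf := le_max_left _ _
  have hΛf2 : Λf0 ≤ Λf := le_max_right _ _
  -- integers
  obtain ⟨q1, hq11, hq1⟩ := exists_nat_ge_pos (12 * S / εf)
  obtain ⟨q2, hq21, hq2⟩ := exists_nat_ge_pos (48 * S / εf)
  set κ : ℝ := εf / (24 * Ca) with hκ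
  have hκ0 : 0 < κ := by positivity
  obtain ⟨J, hJ1, hJ⟩ := exists_nat_ge_pos (12 * (κ⁻¹ * ((q2 : ℝ) ^ 2 * (Λf * S))) / εf)
  set rr : ℕ := max r0 r1 with hrr
  -- what is needed at one scale
  have hneed : ∀ r : ℕ, ∃ (R' N : ℕ) (ε2 : ℝ), rr ≤ r → 0 < R' ∧ 0 < ε2 ∧
      (C + 48 * Lr r * Λ) * ε2 ≤ η / 5 ∧
      (∀ o, ∀ᶠ n in atTop, δ n ^ 2 * ∑ i, ∑ j, Ex (μ n) (Kc (k1 + 1) n)
        (fun a ω => |bm R' (B r o n i j) a ω - A r o i j|) ≤ η / (5 * (2 * Λ) ^ 2)) ∧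
      ∀ R : ℕ, N < R → (∀ o, ∀ᶠ n in atTop, FasAt μ δ u e Kc (B r o) θ Λ (η / 5) C ε2 r R (k1 + 2) n) ∧
        48 * Lr r * Λ * (4 * R' * S / R) ≤ η / 5 ∧ 4 * (r : ℝ) * S / R ≤ εf / 12 := by
    intro r
    by_cases hr : rr ≤ r
    · have hr0 : r0 ≤ r := (le_max_left _ _).trans hr
      have hr1 : r1 ≤ r := (le_max_right _ _).trans hr
      -- LLN
      have hl : ∀ o, ∃ R0 : ℕ, ∀ R, R0 ≤ R → ∀ᶠ n in atTop, δ n ^ 2 * ∑ i, ∑ j,
          Ex (μ n) (Kc (k1 + 1) n) (fun a ω => |bm R (B r o n i j) a ω - A r o i j|) ≤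
            η / (5 * (2 * Λ) ^ 2) := fun o => HB.lln r hr0 o (k1 + 1) _ (by positivity)
      choose R0 hR0 using hl
      set R' : ℕ := Finset.univ.sup R0 + 1 with hR'
      -- ε2
      set ε2 : ℝ := η / (5 * (C + |48 * Lr r * Λ| + 1)) with hε2
      have hε20 : 0 < ε2 := by positivity
      have hf : ∀ o, ∃ R1 : ℕ, ∀ R, R1 ≤ R → ∀ᶠ n in atTop,
          FasAt μ δ u e Kc (B r o) θ Λ (η / 5) C ε2 r R (k1 + 2) n := fun o =>
        hfas r hr1 hr0 o (k1 + 2) ε2 hε20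
      choose R1 hR1 using hf
      obtain ⟨N1, hN11, hN1⟩ := exists_nat_ge_pos (5 * (|48 * Lr r * Λ| * (4 * R' * S)) / η)
      obtain ⟨N2, hN21, hN2⟩ := exists_nat_ge_pos (12 * (4 * (r : ℝ) * S) / εf)
      refine ⟨R', Finset.univ.sup R1 + N1 + N2, ε2, fun _ => ⟨Nat.succ_pos _, hε20, ?_, ?_, ?_⟩⟩
      · have h1 : (C + 48 * Lr r * Λ) * ε2 ≤ (C + |48 * Lr r * Λ| + 1) * ε2 := by
          refine mul_le_mul_of_nonneg_right ?_ hε20.le
          have := le_abs_self (48 * Lr r * Λ)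
          linarith
        refine h1.trans (le_of_eq ?_)
        rw [hε2]
        have : C + |48 * Lr r * Λ| + 1 ≠ 0 := by positivity
        field_simp
      · intro o
        refine hR0 o R' ?_
        have := Finset.le_sup (f := R0) (Finset.mem_univ o)
        omega
      · intro R hR
        have hRpos : (0 : ℝ) < R := by
          have : 0 < R := by omega
          exact_mod_cast this
        refine ⟨fun o => hR1 o R ?_, ?_, ?_⟩
        · have := Finset.le_sup (f := R1) (Finset.mem_univ o)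
          omega
        · have h1 : 48 * Lr r * Λ * (4 * R' * S / R) ≤ |48 * Lr r * Λ| * (4 * R' * S / R) :=
            mul_le_mul_of_nonneg_right (le_abs_self _) (by positivity)
          refine h1.trans ?_
          rw [← mul_div_assoc, div_le_iff₀ hRpos]
          have h2 : 5 * (|48 * Lr r * Λ| * (4 * R' * S)) / η ≤ R := by
            refine hN1.trans ?_
            exact_mod_cast (by omega : N1 ≤ R)
          rw [div_le_iff₀ hη0] at h2
          linarith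
        · rw [div_le_iff₀ hRpos]
          have h2 : 12 * (4 * (r : ℝ) * S) / εf ≤ R := by
            refine hN2.trans ?_
            exact_mod_cast (by omega : N2 ≤ R)
          rw [div_le_iff₀ hεf0] at h2
          linarith
    · exact ⟨0, 0, 0, fun h => absurd h hr⟩
  choose R' N ε2 hneed using hneed
  -- the chain
  set ρ : ℕ → ℕ := rhoChain (rr + 1) q1 q2 N with hρ
  set l : ℕ → ℕ := fun i => N (q1 * ρ i) + 1 with hl
  set m : ℕ → ℕ := fun i => q2 * l i with hm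
  set r : ℕ → ℕ := fun i => q1 * ρ i with hr
  have hρm : ∀ i, ρ (i + 1) = ρ i * m i := fun i => rfl
  have hρ0 : ρ 0 = rr + 1 := rfl
  have hlpos : ∀ i, 0 < l i := fun i => Nat.succ_pos _
  have hlm : ∀ i, l i ≤ m i := fun i => Nat.le_mul_of_pos_left _ (by omega)
  have hmpos : ∀ i, 0 < m i := fun i => lt_of_lt_of_le (hlpos i) (hlm i)
  have hρpos : ∀ i, rr + 1 ≤ ρ i := by
    intro i
    induction i with
    | zero => exact le_of_eq hρ0.symm
    | succ i ih =>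
      rw [hρm i]
      exact ih.trans (Nat.le_mul_of_pos_right _ (hmpos i))
  have hrpos : ∀ i, 0 < r i := fun i => Nat.mul_pos (by omega) (by have := hρpos i; omega)
  have hrr : ∀ i, rr ≤ r i := fun i => by
    have h1 : ρ i ≤ r i := Nat.le_mul_of_pos_left _ (by omega)
    have := hρpos i
    omega
  have hNρ : ∀ i, N (r i) < ρ (i + 1) := fun i => by
    rw [hρm i]
    have h1 : l i ≤ ρ i * m i := (hlm i).trans (Nat.le_mul_of_pos_left _ (by have := hρpos i; omega))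
    exact lt_of_lt_of_le (Nat.lt_succ_self _) h1
  -- window sizes
  set L1 : ℕ := ∑ i ∈ range J, (r i + ρ i) with hL1
  set L2 : ℕ := ∑ i ∈ range J, ρ (i + 1) with hL2
  set L3 : ℕ := ∑ i ∈ range J, R' (r i) with hL3
  have hL1' : ∀ i < J, r i + ρ i ≤ L1 := fun i hi =>
    Finset.single_le_sum (f := fun i => r i + ρ i) (fun _ _ => Nat.zero_le _) (mem_range.mpr hi)
  have hL2' : ∀ i < J, ρ (i + 1) ≤ L2 := fun i hi =>
    Finset.single_le_sum (f := fun i => ρ (i + 1)) (fun _ _ => Nat.zero_le _) (mem_range.mpr hi)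
  have hL3' : ∀ i < J, R' (r i) ≤ L3 := fun i hi =>
    Finset.single_le_sum (f := fun i => R' (r i)) (fun _ _ => Nat.zero_le _) (mem_range.mpr hi)
  -- everything that holds eventually
  have hev1 : ∀ᶠ n in atTop, ∀ i ∈ range J, ∀ o,
      FasAt μ δ u e Kc (B (r i) o) θ Λ (η / 5) C (ε2 (r i)) (r i) (ρ (i + 1)) (k1 + 2) n := by
    rw [Filter.eventually_all_finset]
    intro i _
    rw [Filter.eventually_all]
    intro o
    exact ((hneed (r i) (hrr i)).2.2.2.2 (ρ (i + 1)) (hNρ i)).1 o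
  have hev2 : ∀ᶠ n in atTop, ∀ i ∈ range J, ∀ o, δ n ^ 2 * ∑ i', ∑ j, Ex (μ n) (Kc (k1 + 1) n)
        (fun a ω => |bm (R' (r i)) (B (r i) o n i' j) a ω - A (r i) o i' j|) ≤
          η / (5 * (2 * Λ) ^ 2) := by
    rw [Filter.eventually_all_finset]
    intro i _
    rw [Filter.eventually_all]
    intro o
    exact (hneed (r i) (hrr i)).2.2.2.1 o
  have hev3 : ∀ᶠ n in atTop, ∀ i x, ∀ p ∈ Flat296.sq L2, |j n i x - j n i (x - pt p)| ≤
      η / (2 * S) := H.jc L2 _ (by positivity)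
  filter_upwards [hev1, hev2, hev3, H.var η hη0, hk1, hΛ0, hΛf0, hS', H.marg k1 L2,
    H.marg k1 0, H.marg (k1 + 1) 0, H.marg (k1 + 2) 0, H.marg (k1 + 3) 0,
    H.marg (k1 + 1) L3, H.marg (k1 + 2) L1, H.marg (k1 + 3) L2, H.sub (k1 + 3), H.sub (k1 + 1),
    hCa' (k1 + 4), hCa' (k1 + 1)]
    with n hn1 hn2 hn3 hvar hlay hui huif hgrad hm1 hm10 hm20 hm30 hm40 hm2 hm3 hm4 hsub hsub0
      harea harea0
  have := hprob n
  have hδ : 0 ≤ δ n ^ 2 := sq_nonneg _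
  have hu : Bd (u n) := H.bd n
  set K1 := Kc k1 n with hK1
  set K0 := Kc (k1 + 1) n with hK0
  set K := Kc (k1 + 2) n with hK
  set K' := Kc (k1 + 3) n with hK'
  set K'' := Kc (k1 + 4) n with hK''
  have hz : ∀ (K K' : Finset P2), (∀ a ∈ K, ∀ z : P2, |z.1| ≤ ((0 : ℕ) : ℤ) → |z.2| ≤ ((0 : ℕ) : ℤ) →
      a + z ∈ K') → K ⊆ K' := fun K K' h a ha => by
    have := h a ha 0 (by simp) (by simp)
    rwa [add_zero] at this
  have hK1K0 : K1 ⊆ K0 := hz _ _ hm10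
  have hK0K : K0 ⊆ K := hz _ _ hm20
  have hKK' : K ⊆ K' := hz _ _ hm30
  have hK'K'' : K' ⊆ K'' := hz _ _ hm40
  -- gradient bounds on `K'`
  have hgrad' : δ n ^ 2 * ∑ i : Fin 2, Ex (μ n) K' (fun x ω => |dd (dir i) (u n) x ω|) ≤ S := by
    refine le_trans (mul_le_mul_of_nonneg_left (Finset.sum_le_sum fun i _ => ?_) hδ)
      (hgrad.trans (le_max_left _ _))
    exact Ex_subset (fun a _ ω => abs_nonneg _) hsub
  have huif' : δ n ^ 2 * ∑ i : Fin 2, Ex (μ n) K' (fun x ω => max 0 (|dd (dir i) (u n) x ω| - Λf)) ≤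
      εf / 24 := by
    refine le_trans (mul_le_mul_of_nonneg_left (Finset.sum_le_sum fun i _ => ?_) hδ) huif
    exact (Ex_subset (fun a _ ω => le_max_left _ _) hsub).trans
      (Ex_antitone_excess (hu.dd _) hΛf2)
  -- flatness
  obtain ⟨i, hiJ, hfl⟩ := flat_real (μ := μ n) hu (K := K) (K' := K') (K'' := K'') (L := L1) (J := J)
    (ρ := ρ) (m := m) (l := l) (r := r) (by have := hρpos 0; omega) hlpos hlm hρm (by omega)
    hrpos hL1' (fun a ha p h1 h2 => by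
      obtain ⟨b1, b2⟩ := pt_mem_bound h1 h2 le_rfl
      exact hm3 a ha _ b1 b2)
    (fun a ha i hi p hp => by
      rw [mem_sq] at hp
      obtain ⟨b1, b2⟩ := neg_pt_mem_bound hp.1 hp.2 (hL2' i hi)
      rw [sub_eq_add_neg]
      exact hm4 a ha _ b1 b2) hκ0 hΛfn hgrad' huif' (W := Ca) (harea.trans (le_max_left _ _))
  have hnd := hneed (r i) (hrr i)
  have hR'pos := hnd.1
  have hRbig := hnd.2.2.2.2 (ρ (i + 1)) (hNρ i)
  have hRpos : 0 < ρ (i + 1) := by have := hρpos (i + 1); omega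
  have hiR : i ∈ range J := mem_range.mpr hiJ
  set fl : ℝ := 2 * (ρ i * S + r i * (2 * (κ * Ca) + κ⁻¹ * (((m i : ℝ) * m i) / ((l i : ℝ) * l i) *
        (Λf * S / J)) + 4 * (l i : ℝ) / m i * S + 2 * (εf / 24)) +
        r i * (4 * (r i : ℝ) / ρ (i + 1) * S)) with hfldef
  have hρR : (0 : ℝ) < ρ i := by
    have := hρpos i
    exact_mod_cast (by omega : 0 < ρ i)
  have hrR : (0 : ℝ) < r i := by exact_mod_cast hrpos i
  have hlR : (0 : ℝ) < l i := by exact_mod_cast hlpos i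
  have hq1R : (0 : ℝ) < q1 := by exact_mod_cast (by omega : 0 < q1)
  have hq2R : (0 : ℝ) < q2 := by exact_mod_cast (by omega : 0 < q2)
  have hJR : (0 : ℝ) < J := by exact_mod_cast (by omega : 0 < J)
  have hrcast : (r i : ℝ) = q1 * ρ i := by rw [hr]; push_cast; ring
  have hmcast : (m i : ℝ) = q2 * l i := by rw [hm]; push_cast; ring
  have hfl_le : fl / r i ≤ εf := by
    have a1 : (ρ i : ℝ) * S / r i ≤ εf / 12 := by
      rw [hrcast]
      have : (ρ i : ℝ) * S / (q1 * ρ i) = S / q1 := by field_simp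
      rw [this, div_le_iff₀ hq1R]
      rw [div_le_iff₀ hεf0] at hq1
      linarith
    have a2 : 2 * (κ * Ca) = εf / 12 := by
      rw [hκ]; field_simp; norm_num
    have a3 : κ⁻¹ * (((m i : ℝ) * m i) / ((l i : ℝ) * l i) * (Λf * S / J)) ≤ εf / 12 := by
      have : κ⁻¹ * (((m i : ℝ) * m i) / ((l i : ℝ) * l i) * (Λf * S / J)) =
          κ⁻¹ * ((q2 : ℝ) ^ 2 * (Λf * S)) / J := by
        rw [hmcast]; field_simp
      rw [this, div_le_iff₀ hJR]
      rw [div_le_iff₀ hεf0] at hJ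
      linarith
    have a4 : 4 * (l i : ℝ) / m i * S ≤ εf / 12 := by
      have : 4 * (l i : ℝ) / m i * S = 4 * S / q2 := by
        rw [hmcast]; field_simp
      rw [this, div_le_iff₀ hq2R]
      rw [div_le_iff₀ hεf0] at hq2
      linarith
    have a5 : 4 * (r i : ℝ) / ρ (i + 1) * S ≤ εf / 12 := by
      have : 4 * (r i : ℝ) / ρ (i + 1) * S = 4 * (r i : ℝ) * S / ρ (i + 1) := by ring
      rw [this]
      exact hRbig.2.2
    have e1 : fl / r i = 2 * ((ρ i : ℝ) * S / r i + (2 * (κ * Ca) +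
        κ⁻¹ * (((m i : ℝ) * m i) / ((l i : ℝ) * l i) * (Λf * S / J)) +
        4 * (l i : ℝ) / m i * S + 2 * (εf / 24)) + 4 * (r i : ℝ) / ρ (i + 1) * S) := by
      rw [hfldef]
      field_simp
    rw [e1]
    linarith
  -- fibre assembly at this scale
  have hfas' : ∀ o, ∃ ξ : Fin 2 → Fld (Ω n), (∀ i, Bd (ξ i)) ∧
      δ n ^ 2 * ∑ i', Ex (μ n) K (fun a ω => |clp (4 * Λ) (Gk (u n) K' (ρ (i + 1)) i' a ω) -
        ξ i' a ω|) ≤ ε2 (r i) ∧
      δ n ^ 2 * Ex (μ n) K (fun a ω => qf (fun i' j => B (r i) o n i' j a ω)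
        (psi Λ fun i => ξ i a ω)) ≤ (1 + θ) * e n + η / 5 + C * (fl / r i + ε2 (r i)) := by
    intro o
    obtain ⟨ξ, h1, h2, h3⟩ := hn1 i hiR o
    refine ⟨ξ, h1, h2, h3 fl fun p hp => ?_⟩
    exact hfl p hp
  have hr0i : r0 ≤ r i := (le_max_left _ _).trans (hrr i)
  have hLr : 0 ≤ Lr (r i) ∨ IsEmpty (Ω n) := by
    rcases isEmpty_or_nonempty (Ω n) with h | ⟨⟨ω⟩⟩
    · exact Or.inr h
    · obtain ⟨o⟩ := ‹Nonempty O›
      exact Or.inl ((abs_nonneg _).trans (HB.le (r i) hr0i o n 0 0 0 ω))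
  have hLr0 : 0 ≤ Lr (r i) := by
    rcases hLr with h | h
    · exact h
    · exfalso
      have h1 : (μ n) Set.univ = 1 := measure_univ
      have h2 : (Set.univ : Set (Ω n)) = ∅ := Set.univ_eq_empty_iff.mpr h
      rw [h2] at h1
      simp at h1
  have hen := energy_at (μ := μ n) (O := O) hu (K0 := K0) (K := K) (K' := K') (δ := δ n) (e := e n)
    (θ := θ) (Λ := Λ) (ε1 := η / 5) (C := C) (ε2 := ε2 (r i)) (ε3 := η / (5 * (2 * Λ) ^ 2))
    (r := r i) (R := ρ (i + 1)) (R' := R' (r i)) (hrpos i) hRpos hR'pos hΛpos hC0 hLr0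
    (fun a ha p hp => by
      rw [mem_sq] at hp
      obtain ⟨b1, b2⟩ := pt_mem_bound hp.1 hp.2 (hL3' i hiJ)
      exact hm2 a ha _ b1 b2)
    (B := fun o => B (r i) o n) (A := A (r i)) (fun o i' j => HB.bd (r i) hr0i o n i' j)
    (fun o i' j a ω => HB.le (r i) hr0i o n i' j a ω) (fun o a ω x => HB.psd (r i) hr0i o n a ω x)
    (fun o => hn2 i hiR o) (fl := fl) hfas' (S := S) hgrad'
  have hEerr : η / 5 + C * (fl / r i + ε2 (r i)) + 48 * Lr (r i) * Λ * ε2 (r i) +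
        48 * Lr (r i) * Λ * (4 * R' (r i) * S / ρ (i + 1)) +
        (2 * Λ) ^ 2 * (η / (5 * (2 * Λ) ^ 2)) ≤ η := by
    have b1 : C * (fl / r i) ≤ η / 5 := by
      have h1 : C * (fl / r i) ≤ C * εf := mul_le_mul_of_nonneg_left hfl_le hC0
      have h2 : C * εf ≤ (C + 1) * εf := mul_le_mul_of_nonneg_right (by linarith) hεf0.le
      have h3 : (C + 1) * εf = η / 5 := by rw [hεf]; field_simp
      linarith
    have b2 := hnd.2.2.1
    have b3 := hRbig.2.1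
    have b4 : (2 * Λ) ^ 2 * (η / (5 * (2 * Λ) ^ 2)) = η / 5 := by field_simp
    have b5 : C * (fl / r i + ε2 (r i)) + 48 * Lr (r i) * Λ * ε2 (r i) =
        C * (fl / r i) + (C + 48 * Lr (r i) * Λ) * ε2 (r i) := by ring
    linarith
  set Abar : Fin 2 → Fin 2 → ℝ := fun i' j => (Fintype.card O : ℝ)⁻¹ * ∑ o, A (r i) o i' j with hAbar
  set α : ℝ := (1 + θ)⁻¹ with hα
  have hα0 : 0 < α := by positivity
  have hα1 : α ≤ 1 := by rw [hα]; exact inv_le_one_of_one_le₀ (by linarith)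
  have hE : α * (δ n ^ 2 * Ex (μ n) K0 (fun a ω => qf Abar (psi Λ fun i' =>
      bm (ρ (i + 1)) (rst K' (dd (dir i') (u n))) a ω)) - η) ≤ e n := by
    have h1 : δ n ^ 2 * Ex (μ n) K0 (fun a ω => qf Abar (psi Λ fun i' =>
      bm (ρ (i + 1)) (rst K' (dd (dir i') (u n))) a ω)) - η ≤ (1 + θ) * e n := by
      have h2 := hen
      have h3 : δ n ^ 2 * Ex (μ n) K0 (fun a ω => qf Abar (psi Λ fun i' =>
        bm (ρ (i + 1)) (rst K' (dd (dir i') (u n))) a ω)) ≤ (1 + θ) * e n + η :=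
        h2.trans (by linarith)
      linarith
    calc _ ≤ α * ((1 + θ) * e n) := mul_le_mul_of_nonneg_left h1 hα0.le
      _ = e n := by rw [hα, ← mul_assoc, inv_mul_cancel₀ (by positivity), one_mul]
  -- duality
  have hdu := duality (μ := μ n) (K' := K') (K'' := K'') (K0 := K0) (K1 := K1) (Kx := Kx n)
    (R := ρ (i + 1)) hRpos hu (hK1K0.trans (hK0K.trans hKK')) hsub
    (hK0K.trans (hKK'.trans hK'K''))
    (fun x hx p hp => by
      rw [mem_sq] at hp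
      obtain ⟨b1, b2⟩ := neg_pt_mem_bound hp.1 hp.2 (hL2' i hiJ)
      rw [sub_eq_add_neg]
      exact hm1 x hx _ b1 b2)
    (fun x hx p hp => by
      rw [mem_sq] at hp
      obtain ⟨b1, b2⟩ := neg_pt_mem_bound hp.1 hp.2 (hL2' i hiJ)
      rw [sub_eq_add_neg]
      exact hm4 x hx _ b1 b2)
    (j := j n) (Cj := Cj) (wj := η / (2 * S)) hCj0.le (fun i' x => (hCj' n i' x).trans (le_max_left _ _))
    (by positivity) (fun i' x _ p hp => hn3 i' x p (by
      rw [mem_sq] at hp ⊢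
      have := hL2' i hiJ
      omega))
    (A := Abar) (α := α) (δ := δ n) (V := V n) (e := e n) (ε0 := η) (ε1 := η / (4 * Cj)) (ε2 := η)
    (S := S) (T := η / (8 * Cj)) (Λ := Λ) hΛpos hα0.le (d := dir)
    (fun a => (α * b)⁻¹ * isos fun i' => j n i' a) hvar hlay hgrad'
    (by
      refine le_trans (mul_le_mul_of_nonneg_left (Finset.sum_le_sum fun i' _ => ?_) hδ) hui
      exact (Ex_subset (fun a _ ω => le_max_left _ _) hsub).trans
        (Ex_antitone_excess (hu.dd _) hΛ2))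
    hE (fun a _ y => by
      have h1 := dual_iso (c := α * b) (by positivity) (fun i' => j n i' a) y
      have h2 := mul_le_mul_of_nonneg_left (hA (r i) hr0i y) hα0.le
      rw [← mul_assoc] at h2
      linarith)
  -- final arithmetic
  have hsum0 : 0 ≤ δ n ^ 2 * ∑ a ∈ K0, isos fun i' => j n i' a :=
    mul_nonneg hδ (Finset.sum_nonneg fun a _ => isos_nonneg _)
  have hsum1 : δ n ^ 2 * ∑ a ∈ K0, isos (fun i' => j n i' a) ≤
      δ n ^ 2 * ∑ a ∈ Kx n, isos (fun i' => j n i' a) :=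
    mul_le_mul_of_nonneg_left (Finset.sum_le_sum_of_subset_of_nonneg hsub0
      fun a _ _ => isos_nonneg _) hδ
  have hsum2 : δ n ^ 2 * ∑ a ∈ K0, isos (fun i' => j n i' a) ≤ 3 * Cj ^ 2 * Ca := by
    calc δ n ^ 2 * ∑ a ∈ K0, isos (fun i' => j n i' a) ≤ δ n ^ 2 * ∑ _a ∈ K0, 3 * Cj ^ 2 := by
          refine mul_le_mul_of_nonneg_left (Finset.sum_le_sum fun a _ => ?_) hδ
          exact isos_le fun i' => (hCj' n i' a).trans (le_max_left _ _)
      _ = 3 * Cj ^ 2 * (δ n ^ 2 * K0.card) := by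
          rw [Finset.sum_const, nsmul_eq_mul]; ring
      _ ≤ 3 * Cj ^ 2 * Ca := mul_le_mul_of_nonneg_left (harea0.trans (le_max_left _ _)) (by positivity)
  have e2 : δ n ^ 2 * ∑ a ∈ K0, ((α * b)⁻¹ * isos fun i' => j n i' a) =
      b⁻¹ * (δ n ^ 2 * ∑ a ∈ K0, isos fun i' => j n i' a) +
        θ * b⁻¹ * (δ n ^ 2 * ∑ a ∈ K0, isos fun i' => j n i' a) := by
    rw [← Finset.mul_sum, mul_inv, hα, inv_inv]
    ring
  rw [e2] at hdu
  have f1 : b⁻¹ * (δ n ^ 2 * ∑ a ∈ K0, isos fun i' => j n i' a) ≤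
      b⁻¹ * (δ n ^ 2 * ∑ a ∈ Kx n, isos fun i' => j n i' a) :=
    mul_le_mul_of_nonneg_left hsum1 (by positivity)
  have f2 : θ * b⁻¹ * (δ n ^ 2 * ∑ a ∈ K0, isos fun i' => j n i' a) ≤ η :=
    (mul_le_mul_of_nonneg_left hsum2 (by positivity)).trans hθ2
  have f3 : α * η ≤ η := by
    calc α * η ≤ 1 * η := mul_le_mul_of_nonneg_right hα1 hη0.le
      _ = η := one_mul _
  have f4 : 4 * Cj * (η / (4 * Cj)) = η := by field_simp
  have f5 : 2 * (η / (2 * S)) * S = η := by field_simp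
  have f6 : 8 * Cj * (η / (8 * Cj)) = η := by field_simp
  have f7 : ε = 7 * η := by rw [hη]; ring
  linarith

end Crest.Agent.R144.Upp296
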