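import Crest.Agent.R144.Tri3_560

/-!
R144 (S0197), helper560, Z-BLOCK, file 1 (structure, everything deterministic).

* `sr ρ ε s` : truncated slack, `0` for `1 - ρ ≤ |s|`, `1` for `|s| ≤ 1 - ρ - ε`;
* `Ei V E`, `pt V E u` : simple paths from `u` inside the window `V`;
* `iv V E φ c u = min over l ∈ pt V E u of φ (last l) + ∑ c` : inf-convolution;
* `iv_le`, `iv_sub_le`, `iv_anti`, `IsOpt`, `IsOpt.suffix`, `iv_window`, `iv_red`;
* `dd`-metric lemmas, `no_visit`.
-/

set_option autoImplicit false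

open MeasureTheory Set
open scoped ENNReal NNReal
open Crest.Agent.R144.Ham560
open Crest.Agent.R144.Tri560

noncomputable section

namespace Crest.Agent.R144.Zb560

/-! ### The truncated slack -/

/-- Truncated slack with a flat zone next to the wall. -/
def sr (ρ ε s : ℝ) : ℝ := min 1 (max 0 ((1 - ρ - |s|) / ε))

theorem sr_nonneg (ρ ε s : ℝ) : 0 ≤ sr ρ ε s := le_min zero_le_one (le_max_left _ _)

theorem sr_le_one (ρ ε s : ℝ) : sr ρ ε s ≤ 1 := min_le_left _ _

theorem sr_neg (ρ ε s : ℝ) : sr ρ ε (-s) = sr ρ ε s := by rw [sr, abs_neg, sr]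

theorem sr_eq_zero {ρ ε s : ℝ} (hε : 0 < ε) (hs : 1 - ρ ≤ |s|) : sr ρ ε s = 0 := by
  rw [sr, max_eq_left, min_eq_right zero_le_one]
  exact div_nonpos_of_nonpos_of_nonneg (by linarith) hε.le

theorem sr_eq_one {ρ ε s : ℝ} (hε : 0 < ε) (hs : |s| ≤ 1 - ρ - ε) : sr ρ ε s = 1 := by
  rw [sr, min_eq_left]
  refine le_max_of_le_right ?_
  rw [le_div_iff₀ hε]; linarith

theorem sr_lip {ρ ε : ℝ} (hε : 0 < ε) (s t : ℝ) : |sr ρ ε s - sr ρ ε t| ≤ |s - t| / ε := by
  have h1 : |(1 - ρ - |s|) / ε - (1 - ρ - |t|) / ε| ≤ |s - t| / ε := by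
    rw [← sub_div, abs_div, abs_of_pos hε]
    refine div_le_div_of_nonneg_right ?_ hε.le
    rw [show (1 - ρ - |s|) - (1 - ρ - |t|) = |t| - |s| by ring]
    exact (abs_abs_sub_abs_le_abs_sub t s).trans (by rw [abs_sub_comm])
  have h2 : |max 0 ((1 - ρ - |s|) / ε) - max 0 ((1 - ρ - |t|) / ε)| ≤ |s - t| / ε :=
    (abs_max_sub_max_le_max _ _ _ _).trans (max_le (by simp; positivity) h1)
  exact (abs_min_sub_min_le_max _ _ _ _).trans (max_le (by simp; positivity) h2)

/-- The slack dominates: `ε * sr ≤ 1 - |s|` on `|s| ≤ 1`. -/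
theorem sr_le {ρ ε s : ℝ} (hρ : 0 ≤ ρ) (hε : 0 < ε) (hs : |s| ≤ 1) : ε * sr ρ ε s ≤ 1 - |s| := by
  have h1 : sr ρ ε s ≤ max 0 ((1 - ρ - |s|) / ε) := min_le_right _ _
  have h2 : max 0 ((1 - ρ - |s|) / ε) ≤ (1 - |s|) / ε :=
    max_le (div_nonneg (by linarith) hε.le) (div_le_div_of_nonneg_right (by linarith) hε.le)
  calc ε * sr ρ ε s ≤ ε * ((1 - |s|) / ε) := by gcongr; exact h1.trans h2
    _ = 1 - |s| := by field_simp

variable {U : Type*} [DecidableEq U] {V W : Finset U} {E : Finset (U × U)}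

/-! ### Windows and paths -/

/-- Edges inside the window. -/
def Ei (V : Finset U) (E : Finset (U × U)) : Finset (U × U) :=
  E.filter fun p => p.1 ∈ V ∧ p.2 ∈ V

theorem mem_nbr_Ei {a b : U} : b ∈ nbr (Ei V E) a ↔ b ∈ nbr E a ∧ a ∈ V ∧ b ∈ V := by
  simp only [mem_nbr, Ei, Finset.mem_filter]
  tauto

theorem vset_Ei : vset V (Ei V E) = V := by
  ext a
  simp only [vset, Ei, Finset.mem_union, Finset.mem_image, Finset.mem_filter]
  constructor
  · rintro (h | ⟨p, ⟨_, h1, h2⟩, rfl⟩ | ⟨p, ⟨_, h1, h2⟩, rfl⟩)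
    · exact h
    · exact h1
    · exact h2
  · exact Or.inl

theorem isChain_Ei {l : List U} (hl : ∀ a ∈ l, a ∈ V) :
    l.IsChain (fun a b => b ∈ nbr (Ei V E) a) ↔ l.IsChain (fun a b => b ∈ nbr E a) := by
  induction l with
  | nil => simp
  | cons a s ih =>
    match s with
    | [] => simp
    | b :: t =>
      rw [List.isChain_cons_cons, List.isChain_cons_cons,
        ih fun c hc => hl c (List.mem_cons_of_mem _ hc), mem_nbr_Ei]
      have h1 := hl a List.mem_cons_self
      have h2 := hl b (by simp)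
      tauto

/-- Simple paths starting at `u` inside the window `V`. -/
def pt (V : Finset U) (E : Finset (U × U)) (u : U) : Finset (List U) := paths V (Ei V E) u

theorem mem_pt {u : U} {l : List U} : l ∈ pt V E u ↔ l = [u] ∨
    (l.Nodup ∧ (∀ a ∈ l, a ∈ V) ∧ l.head? = some u ∧ l.IsChain (fun a b => b ∈ nbr E a)) := by
  rw [pt, mem_paths, vset_Ei]
  constructor
  · rintro (h | ⟨⟨h1, h2⟩, h3, h4⟩)
    · exact Or.inl h
    · exact Or.inr ⟨h1, h2, h3, (isChain_Ei h2).mp h4⟩
  · rintro (h | ⟨h1, h2, h3, h4⟩)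
    · exact Or.inl h
    · exact Or.inr ⟨⟨h1, h2⟩, h3, (isChain_Ei h2).mpr h4⟩

theorem single_mem_pt (u : U) : [u] ∈ pt V E u := mem_pt.mpr (Or.inl rfl)

theorem pt_spec {u : U} {l : List U} (h : l ∈ pt V E u) :
    l.Nodup ∧ l.head? = some u ∧ l.IsChain (fun a b => b ∈ nbr E a) := by
  rcases mem_pt.mp h with rfl | ⟨h1, _, h3, h4⟩
  · simp
  · exact ⟨h1, h3, h4⟩

theorem pt_ne_nil {u : U} {l : List U} (h : l ∈ pt V E u) : l ≠ [] := by
  rintro rfl
  have := (pt_spec h).2.1
  simp at this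

/-- All vertices are in the window, once there is an edge. -/
theorem pt_mem {u : U} {l : List U} (h : l ∈ pt V E u) (hl : 1 < l.length) :
    ∀ a ∈ l, a ∈ V := by
  rcases mem_pt.mp h with rfl | ⟨_, h2, _⟩
  · simp at hl
  · exact h2

theorem pt_mem' {u : U} {l : List U} (h : l ∈ pt V E u) (hu : u ∈ V) : ∀ a ∈ l, a ∈ V := by
  rcases mem_pt.mp h with rfl | ⟨_, h2, _⟩
  · intro a ha; rw [List.mem_singleton.mp ha]; exact hu
  · exact h2

theorem pt_mono (hVW : V ⊆ W) (u : U) : pt V E u ⊆ pt W E u := by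
  intro l hl
  rcases mem_pt.mp hl with rfl | ⟨h1, h2, h3, h4⟩
  · exact single_mem_pt _
  · exact mem_pt.mpr (Or.inr ⟨h1, fun a ha => hVW (h2 a ha), h3, h4⟩)

theorem pt_suffix {b z : U} {l1 l2 : List U} (h : l1 ++ z :: l2 ∈ pt V E b) :
    z :: l2 ∈ pt V E z := paths_suffix h

theorem length_pt {u : U} {l : List U} (hl : l ∈ pt V E u) : l.length ≤ V.card + 1 := by
  have := length_paths hl
  rwa [vset_Ei] at this

/-! ### Inf-convolution -/

variable {φ : U → ℝ} {c : U → U → ℝ}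

/-- `min` over the simple paths from `u` in the window of the terminal value plus the costs. -/
def iv (V : Finset U) (E : Finset (U × U)) (φ : U → ℝ) (c : U → U → ℝ) (u : U) : ℝ :=
  (pt V E u).inf' ⟨[u], single_mem_pt u⟩ (cost φ c)

theorem iv_le_cost {u : U} {l : List U} (hl : l ∈ pt V E u) : iv V E φ c u ≤ cost φ c l :=
  Finset.inf'_le _ hl

theorem le_iv {u : U} {r : ℝ} (h : ∀ l ∈ pt V E u, r ≤ cost φ c l) : r ≤ iv V E φ c u :=
  Finset.le_inf' _ _ h

/-- Optimal paths. -/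
def IsOpt (V : Finset U) (E : Finset (U × U)) (φ : U → ℝ) (c : U → U → ℝ) (u : U)
    (l : List U) : Prop := l ∈ pt V E u ∧ iv V E φ c u = cost φ c l

theorem exists_isOpt (V : Finset U) (E : Finset (U × U)) (φ : U → ℝ) (c : U → U → ℝ) (u : U) :
    ∃ l, IsOpt V E φ c u l := by
  obtain ⟨l, h1, h2⟩ := Finset.exists_mem_eq_inf' (s := pt V E u) ⟨[u], single_mem_pt u⟩
    (cost φ c)
  exact ⟨l, h1, h2⟩

/-- A chosen optimal path. -/
def op (V : Finset U) (E : Finset (U × U)) (φ : U → ℝ) (c : U → U → ℝ) (u : U) : List U :=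
  (exists_isOpt V E φ c u).choose

theorem isOpt_op (V : Finset U) (E : Finset (U × U)) (φ : U → ℝ) (c : U → U → ℝ) (u : U) :
    IsOpt V E φ c u (op V E φ c u) := (exists_isOpt V E φ c u).choose_spec

theorem iv_le (u : U) : iv V E φ c u ≤ φ u := iv_le_cost (single_mem_pt u)

theorem iv_notMem {u : U} (hu : u ∉ V) : iv V E φ c u = φ u := by
  refine le_antisymm (iv_le u) (le_iv fun l hl => ?_)
  rcases mem_pt.mp hl with rfl | ⟨_, h2, h3, _⟩
  · exact le_rfl
  · exfalso
    match l with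
    | [] => simp at h3
    | a :: t =>
      simp only [List.head?_cons, Option.some.injEq] at h3
      exact hu (h3 ▸ h2 a List.mem_cons_self)

theorem iv_anti (hVW : V ⊆ W) (u : U) : iv W E φ c u ≤ iv V E φ c u :=
  le_iv fun _ hl => iv_le_cost (pt_mono hVW u hl)

theorem iv_congr_cost {c' : U → U → ℝ} {u : U}
    (h : ∀ l ∈ pt V E u, cost φ c l = cost φ c' l) : iv V E φ c u = iv V E φ c' u :=
  le_antisymm (le_iv fun l hl => (h l hl) ▸ iv_le_cost hl)
    (le_iv fun l hl => (h l hl).symm ▸ iv_le_cost hl)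

theorem iv_step (hc : ∀ a b, 0 ≤ c a b) {a b : U} (hab : b ∈ nbr E a) (ha : a ∈ V)
    (hb : b ∈ V) : iv V E φ c a ≤ c a b + iv V E φ c b := by
  obtain ⟨l, hl, h⟩ := exists_isOpt V E φ c b
  rw [h]
  by_cases hal : a ∈ l
  · obtain ⟨l1, l2, rfl⟩ := List.append_of_mem hal
    refine (iv_le_cost (pt_suffix hl)).trans ?_
    rw [cost_append]
    have h1 := stp_nonneg hc (l1 ++ [a])
    have h2 := hc a b
    linarith
  · have h1 : a :: l ∈ pt V E a := paths_cons (mem_nbr_Ei.mpr ⟨hab, ha, hb⟩) hl hal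
    refine (iv_le_cost h1).trans ?_
    obtain ⟨_, h2, _⟩ := pt_spec hl
    match l with
    | [] => simp at h2
    | d :: t =>
      simp only [List.head?_cons, Option.some.injEq] at h2
      rw [h2, cost_cons]

theorem iv_sub_le (hc : ∀ a b, 0 ≤ c a b) (hs : ∀ a b, c a b = c b a) {a b : U}
    (hab : b ∈ nbr E a) (ha : a ∈ V) (hb : b ∈ V) :
    |iv V E φ c a - iv V E φ c b| ≤ c a b := by
  have h1 := iv_step (φ := φ) hc hab ha hb
  have h2 := iv_step (φ := φ) hc (nbr_sy hab) hb ha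
  rw [hs b a] at h2
  rw [abs_le]; constructor <;> linarith

/-- Value along a chain. -/
theorem iv_le_stp (hc : ∀ a b, 0 ≤ c a b) (z : U) : ∀ (l1 : List U) (u : U),
    (l1 ++ [z]).head? = some u → (l1 ++ [z]).IsChain (fun a b => b ∈ nbr E a) →
    (∀ a ∈ l1 ++ [z], a ∈ V) → iv V E φ c u ≤ stp c (l1 ++ [z]) + iv V E φ c z
  | [], u, hu, _, _ => by
    simp only [List.nil_append, List.head?_cons, Option.some.injEq] at hu
    rw [hu]; simp [stp]
  | [a], u, hu, hch, hV => by
    simp only [List.cons_append, List.nil_append, List.head?_cons, Option.some.injEq] at hu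
    subst hu
    simp only [List.cons_append, List.nil_append, List.isChain_cons_cons] at hch
    have := iv_step (V := V) (φ := φ) hc hch.1 (hV a (by simp)) (hV z (by simp))
    simpa [stp] using this
  | a :: b :: t, u, hu, hch, hV => by
    simp only [List.cons_append, List.head?_cons, Option.some.injEq] at hu
    subst hu
    simp only [List.cons_append, List.isChain_cons_cons] at hch
    have ih := iv_le_stp hc z (b :: t) b rfl (by simpa using hch.2)
      (fun d hd => hV d (List.mem_cons_of_mem _ hd))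
    have h1 := iv_step (V := V) (φ := φ) hc hch.1 (hV a (by simp)) (hV b (by simp))
    simp only [List.cons_append] at ih ⊢
    rw [stp_cons]
    linarith

/-- Tails of optimal paths are optimal. -/
theorem IsOpt.suffix (hc : ∀ a b, 0 ≤ c a b) {u z : U} {l1 l2 : List U}
    (h : IsOpt V E φ c u (l1 ++ z :: l2)) : IsOpt V E φ c z (z :: l2) := by
  refine ⟨pt_suffix h.1, ?_⟩
  refine le_antisymm (iv_le_cost (pt_suffix h.1)) ?_
  by_cases hl : 1 < (l1 ++ z :: l2).length
  · have hV := pt_mem h.1 hl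
    obtain ⟨_, h2, h3⟩ := pt_spec h.1
    have e : l1 ++ z :: l2 = (l1 ++ [z]) ++ l2 := by simp
    have h4 := iv_le_stp (V := V) (φ := φ) hc z l1 u (by
        rcases l1 with _ | ⟨d, l1⟩
        · simpa using h2
        · simpa using h2) (by rw [e] at h3; exact h3.left_of_append) (fun a ha => hV a (by
          rw [e]; exact List.mem_append_left _ ha))
    have h5 := h.2
    rw [cost_append] at h5
    linarith
  · have h1 : l1 = [] := by
      rcases l1 with _ | ⟨d, l1⟩
      · rfl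
      · simp at hl
    subst h1
    have h2 : u = z := by
      have := (pt_spec h.1).2.1
      simpa using this.symm
    rw [← h2]
    have := h.2
    simp only [List.nil_append] at this
    rw [h2] at this ⊢
    exact this.ge

/-- An optimal path which stays in a smaller window. -/
theorem iv_window (hVW : V ⊆ W) {u : U} {l : List U} (h : IsOpt W E φ c u l)
    (hl : ∀ a ∈ l, a ∈ V) : iv V E φ c u = iv W E φ c u := by
  refine le_antisymm ?_ (iv_anti hVW u)
  rw [h.2]
  refine iv_le_cost ?_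
  obtain ⟨h1, h2, h3⟩ := pt_spec h.1
  exact mem_pt.mpr (Or.inr ⟨h1, hl, h2, h3⟩)

/-- Lower bound of the cost of a path when `φ` has slope at most `κ`. -/
theorem cost_ge_stp {κ : ℝ} (hφL : ∀ a b, b ∈ nbr E a → |φ a - φ b| ≤ κ) :
    ∀ l : List U, l.IsChain (fun a b => b ∈ nbr E a) → ∀ u, l.head? = some u →
      φ u - κ * (pe l).length + stp c l ≤ cost φ c l
  | [], _, u, h => by simp at h
  | [a], _, u, h => by
    simp only [List.head?_cons, Option.some.injEq] at h
    simp [pe, cost, stp, h]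
  | a :: b :: t, hc, u, h => by
    simp only [List.head?_cons, Option.some.injEq] at h
    subst h
    rw [List.isChain_cons_cons] at hc
    have ih := cost_ge_stp hφL (b :: t) hc.2 b rfl
    have h1 := abs_le.mp (hφL a b hc.1)
    rw [pe_cons, cost_cons, stp_cons, List.length_cons]
    push_cast
    linarith [h1.1, h1.2]

theorem iv_red (hc : ∀ a b, 0 ≤ c a b) {κ : ℝ} (hφL : ∀ a b, b ∈ nbr E a → |φ a - φ b| ≤ κ)
    {u : U} {l : List U} (h : IsOpt V E φ c u l) :
    φ u - iv V E φ c u ≤ κ * (pe l).length := by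
  obtain ⟨_, h2, h3⟩ := pt_spec h.1
  have h1 := cost_ge_stp (c := c) hφL l h3 u h2
  have h4 := stp_nonneg hc l
  rw [h.2]
  linarith

theorem iv_sub_abs_le (hc : ∀ a b, 0 ≤ c a b) {κ : ℝ}
    (hφL : ∀ a b, b ∈ nbr E a → |φ a - φ b| ≤ κ) {u : U} {l : List U}
    (h : IsOpt V E φ c u l) : |iv V E φ c u - φ u| ≤ κ * (pe l).length := by
  have h1 := iv_red hc hφL h
  have h2 := iv_le (V := V) (E := E) (φ := φ) (c := c) u
  rw [abs_le]; constructor <;> linarith

/-! ### Metrics -/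

omit [DecidableEq U] in
theorem dd_le {R : U → U → Prop} (dd : U → U → ℕ) (h0 : ∀ a, dd a a = 0)
    (ht : ∀ a b d, dd a d ≤ dd a b + dd b d) (h1 : ∀ a b, R a b → dd a b ≤ 1) :
    ∀ (l : List U) (u : U), l.head? = some u → l.IsChain R →
      ∀ w ∈ l, dd u w + 1 ≤ l.length
  | [], u, h, _, _, _ => by simp at h
  | [a], u, h, _, w, hw => by
    simp only [List.head?_cons, Option.some.injEq] at h
    rw [List.mem_singleton.mp hw, ← h, h0]; simp
  | a :: b :: t, u, h, hch, w, hw => by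
    simp only [List.head?_cons, Option.some.injEq] at h
    subst h
    rw [List.isChain_cons_cons] at hch
    rcases List.mem_cons.mp hw with rfl | hw
    · rw [h0]; simp
    · have ih := dd_le dd h0 ht h1 (b :: t) b rfl hch.2 w hw
      have h2 := ht a b w
      have h3 := h1 a b hch.1
      simp only [List.length_cons] at ih ⊢
      omega

omit [DecidableEq U] in
/-- First entrance of a chain into a set. -/
theorem exists_entry {I : Set U} {R : U → U → Prop} : ∀ (l : List U) (u : U),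
    l.head? = some u → u ∉ I → l.IsChain R → ∀ w ∈ l, w ∈ I →
      ∃ l1 z z' l2, l = l1 ++ z :: z' :: l2 ∧ z ∉ I ∧ z' ∈ I ∧ R z z' ∧ w ∈ z' :: l2
  | [], u, h, _, _, _, _, _ => by simp at h
  | [a], u, h, hu, _, w, hw, hwI => by
    simp only [List.head?_cons, Option.some.injEq] at h
    rw [List.mem_singleton.mp hw, h] at hwI
    exact absurd hwI hu
  | a :: b :: t, u, h, hu, hch, w, hw, hwI => by
    simp only [List.head?_cons, Option.some.injEq] at h
    subst h
    rw [List.isChain_cons_cons] at hch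
    have hw' : w ∈ b :: t := by
      rcases List.mem_cons.mp hw with rfl | hw
      · exact absurd hwI hu
      · exact hw
    by_cases hb : b ∈ I
    · exact ⟨[], a, b, t, rfl, hu, hb, hch.1, hw'⟩
    · obtain ⟨l1, z, z', l2, h1, h2, h3, h4, h5⟩ :=
        exists_entry (b :: t) b rfl hb hch.2 w hw' hwI
      exact ⟨a :: l1, z, z', l2, by rw [h1, List.cons_append], h2, h3, h4, h5⟩

/-- If all optimal paths from the sites outside `I` next to `I` are short, then no optimal path
from outside `I` visits a site which is deep in `I`. -/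
theorem no_visit (hc : ∀ a b, 0 ≤ c a b) (dd : U → U → ℕ) (h0 : ∀ a, dd a a = 0)
    (ht : ∀ a b d, dd a d ≤ dd a b + dd b d) (h1 : ∀ a b, b ∈ nbr E a → dd a b ≤ 1)
    {I : Set U} {k : ℕ}
    (hN : ∀ z ∉ I, z ∈ V → (∃ z' ∈ I, z' ∈ nbr E z) → ∀ l, IsOpt V E φ c z l → l.length ≤ k)
    {v w : U} (hv : v ∉ I) (hwI : w ∈ I) (hw : ∀ z ∉ I, k ≤ dd z w) {l : List U}
    (hl : IsOpt V E φ c v l) : w ∉ l := by
  intro hwl
  obtain ⟨_, h2, h3⟩ := pt_spec hl.1
  obtain ⟨l1, z, z', l2, rfl, hz, hz', hzz', hw'⟩ :=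
    exists_entry l v h2 hv h3 w hwl hwI
  have h4 := hl.suffix hc
  have hzV : z ∈ V := pt_mem hl.1 (by simp; omega) z (by simp)
  have h5 := hN z hz hzV ⟨z', hz', hzz'⟩ _ h4
  obtain ⟨_, h6, h7⟩ := pt_spec h4.1
  have h8 := dd_le dd h0 ht (R := fun a b => b ∈ nbr E a) h1 (z :: z' :: l2) z h6 h7 w
    (List.mem_cons_of_mem _ hw')
  have h9 := hw z hz
  omega

/-- Window version for short optimal paths. -/
theorem iv_window_of_short (dd : U → U → ℕ) (h0 : ∀ a, dd a a = 0)
    (ht : ∀ a b d, dd a d ≤ dd a b + dd b d) (h1 : ∀ a b, b ∈ nbr E a → dd a b ≤ 1)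
    (hVW : V ⊆ W) {u : U} {k : ℕ} (hk : ∀ l, IsOpt W E φ c u l → l.length ≤ k)
    (hV : ∀ a ∈ W, dd u a < k → a ∈ V) (hu : u ∈ W) : iv V E φ c u = iv W E φ c u := by
  obtain ⟨l, hl⟩ := exists_isOpt W E φ c u
  obtain ⟨_, h2, h3⟩ := pt_spec hl.1
  refine iv_window hVW hl fun a ha => hV a (pt_mem' hl.1 hu a ha) ?_
  have := dd_le dd h0 ht (R := fun a b => b ∈ nbr E a) h1 l u h2 h3 a ha
  have := hk l hl
  omega

end Crest.Agent.R144.Zb560
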