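import Crest.Agent.R144.Zb3_560
import Crest.Agent.R144.BQ8_565
import Crest.Agent.R144.LoB3_95

/-!
R144 (S0197), helper560, Z-BLOCK, file 4: interfaces.

* `refF_Z` : the family `Z W E ρ ε Λ (φ i)` is a family of reference fields (`BQ565.RefF`);
* `Z_shift` : invariance under constants; `Z_relab` : covariance under injective relabellings;
* `fd_Z` : `LoB95.Fd`; `see_of_gx` : the `see` clause of `LoB95.GAt`;
* `ddZ` : the sup metric on `ℤ × ℤ`.
-/

set_option autoImplicit false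

open MeasureTheory Set Filter Topology
open scoped ENNReal NNReal
open Crest.Agent.R144.Ham560
open Crest.Agent.R144.Tri560

noncomputable section

namespace Crest.Agent.R144.Zb560

section basic

variable {U : Type*} [DecidableEq U] {V W : Finset U} {E : Finset (U × U)}
variable {ρ ε Λ : ℝ} {φ : U → ℝ}

/-! ### Reference fields -/

theorem refF_Z {κ : Type*} (I W : Finset U) (E : Finset (U × U)) (ρ : ℝ) (hε : 0 < ε)
    (hΛ : 0 ≤ Λ) (φs : κ → U → ℝ) :
    BQ565.RefF I (fun (i : κ) (h : U → ℝ) (u : U) => Z W E ρ ε Λ (φs i) h u) where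
  cont := fun i u => continuous_Z u
  ll := by
    intro i ζ
    have hl : LipschitzWith (lcz W ε Λ)
        (fun (x : I → ℝ) (u : I) => Z W E ρ ε Λ (φs i) (ext I ζ x) u) := by
      refine LipschitzWith.of_dist_le_mul fun x y => ?_
      rw [dist_pi_le_iff (by positivity)]
      intro u
      exact (lip_Zx (V := W) (E := E) (ρ := ρ) (φ := φs i) (F := I) (ξ := ζ) hε hΛ u).dist_le_mul
        x y
    exact hl.locallyLipschitz

omit [DecidableEq U] in
theorem cz_shift (h : U → ℝ) (c : ℝ) : cz ρ ε Λ (fun v => h v + c) = cz ρ ε Λ h := by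
  funext a b
  rw [cz, cz, add_sub_add_right_eq_sub]

theorem Z_shift (h : U → ℝ) (c : ℝ) (u : U) :
    Z V E ρ ε Λ φ (fun v => h v + c) u = Z V E ρ ε Λ φ h u := by
  rw [Z, Z, cz_shift]

theorem gq_shift {ι : Type*} [Fintype ι] {φs : ι → U → ℝ} {N : Finset U} {k : ℕ} {c0 : ℝ}
    (h : U → ℝ) (c : ℝ) :
    gq V E N k ρ ε Λ c0 φs (fun v => h v + c) = gq V E N k ρ ε Λ c0 φs h := by
  rw [gq, gq, gap, gap, cz_shift]

end basic

/-! ### Relabelling -/

section relab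

variable {U U' : Type*} [DecidableEq U] [DecidableEq U'] {W : Finset U} {W' : Finset U'}
  {E : Finset (U × U)} {E' : Finset (U' × U')} {ρ ε Λ : ℝ}

omit [DecidableEq U] [DecidableEq U'] in
theorem cost_map {σ : U → U'} {φ : U → ℝ} {φ' : U' → ℝ} {c : ℝ} {g : U' → ℝ} :
    ∀ l : List U, l ≠ [] → (∀ a ∈ l, φ' (σ a) = φ a + c) →
      cost φ' (cz ρ ε Λ g) (l.map σ) = cost φ (cz ρ ε Λ (g ∘ σ)) l + c
  | [], h, _ => absurd rfl h
  | [a], _, h => by simpa [cost] using h a (by simp)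
  | a :: b :: t, _, h => by
    have ih := cost_map (σ := σ) (φ := φ) (φ' := φ') (c := c) (g := g) (b :: t) (by simp)
      fun d hd => h d (List.mem_cons_of_mem _ hd)
    simp only [List.map_cons] at ih ⊢
    rw [cost_cons, cost_cons, ih]
    simp only [cz, Function.comp]
    ring

theorem pt_map {σ : U → U'} (hσ : Function.Injective σ) (hW : ∀ a, σ a ∈ W' ↔ a ∈ W)
    (hE : ∀ a ∈ W, ∀ b ∈ W, (σ b ∈ nbr E' (σ a) ↔ b ∈ nbr E a)) {u : U} {l : List U}
    (hl : l ∈ pt W E u) : l.map σ ∈ pt W' E' (σ u) := by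
  rcases mem_pt.mp hl with rfl | ⟨h1, h2, h3, h4⟩
  · exact single_mem_pt _
  · refine mem_pt.mpr (Or.inr ⟨h1.map hσ, ?_, ?_, ?_⟩)
    · intro a ha
      obtain ⟨b, hb, rfl⟩ := List.mem_map.mp ha
      exact (hW b).mpr (h2 b hb)
    · rw [List.head?_map, h3]; rfl
    · clear hl h1 h3
      induction l with
      | nil => simp
      | cons a s ih =>
        match s with
        | [] => simp
        | b :: t =>
          rw [List.isChain_cons_cons] at h4
          have ih' := ih (fun d hd => h2 d (List.mem_cons_of_mem _ hd)) h4.2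
          simp only [List.map_cons, List.isChain_cons_cons] at ih' ⊢
          exact ⟨(hE a (h2 a (by simp)) b (h2 b (by simp))).mpr h4.1, ih'⟩

theorem exists_of_pt_map {σ : U → U'} (hσ : Function.Injective σ)
    (hW : ∀ a, σ a ∈ W' ↔ a ∈ W) (hWs : ∀ a' ∈ W', ∃ a, σ a = a')
    (hE : ∀ a ∈ W, ∀ b ∈ W, (σ b ∈ nbr E' (σ a) ↔ b ∈ nbr E a)) {u : U} {l' : List U'}
    (hl : l' ∈ pt W' E' (σ u)) : ∃ l ∈ pt W E u, l' = l.map σ := by
  rcases mem_pt.mp hl with rfl | ⟨h1, h2, h3, h4⟩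
  · exact ⟨[u], single_mem_pt u, rfl⟩
  · obtain ⟨l, rfl⟩ : ∃ l : List U, l' = l.map σ := by
      clear hl h1 h3 h4
      induction l' with
      | nil => exact ⟨[], rfl⟩
      | cons a s ih =>
        obtain ⟨l, rfl⟩ := ih fun d hd => h2 d (List.mem_cons_of_mem _ hd)
        obtain ⟨b, rfl⟩ := hWs a (h2 a (by simp))
        exact ⟨b :: l, rfl⟩
    refine ⟨l, mem_pt.mpr (Or.inr ⟨List.Nodup.of_map σ h1, ?_, ?_, ?_⟩), rfl⟩
    · intro a ha
      exact (hW a).mp (h2 _ (List.mem_map_of_mem ha))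
    · match l with
      | [] => simp at h3
      | a :: t =>
        simp only [List.map_cons, List.head?_cons, Option.some.injEq] at h3 ⊢
        exact hσ h3
    · clear hl h1 h3
      induction l with
      | nil => simp
      | cons a s ih =>
        match s with
        | [] => simp
        | b :: t =>
          simp only [List.map_cons, List.isChain_cons_cons] at h4
          have ih' := ih (fun d hd => h2 d (by
            simp only [List.map_cons] at hd ⊢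
            exact List.mem_cons_of_mem _ hd)) (by simpa using h4.2)
          rw [List.isChain_cons_cons]
          exact ⟨(hE a ((hW a).mp (h2 _ (by simp))) b ((hW b).mp (h2 _ (by simp)))).mp h4.1,
            ih'⟩

/-- Covariance of `Z` under an injective relabelling. -/
theorem Z_relab {σ : U → U'} (hσ : Function.Injective σ)
    (hW : ∀ a, σ a ∈ W' ↔ a ∈ W) (hWs : ∀ a' ∈ W', ∃ a, σ a = a')
    (hE : ∀ a ∈ W, ∀ b ∈ W, (σ b ∈ nbr E' (σ a) ↔ b ∈ nbr E a))
    {φ : U → ℝ} {φ' : U' → ℝ} {c : ℝ} (hφ : ∀ a ∈ W, φ' (σ a) = φ a + c) {u : U} (hu : u ∈ W)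
    (g : U' → ℝ) : Z W' E' ρ ε Λ φ' g (σ u) = Z W E ρ ε Λ φ (g ∘ σ) u + c := by
  refine le_antisymm ?_ ?_
  · obtain ⟨l, hl⟩ := exists_isOpt W E φ (cz ρ ε Λ (g ∘ σ)) u
    have h1 : Z W E ρ ε Λ φ (g ∘ σ) u = cost φ (cz ρ ε Λ (g ∘ σ)) l := hl.2
    rw [h1, ← cost_map (σ := σ) (φ' := φ') l (pt_ne_nil hl.1)
      fun a ha => hφ a (pt_mem' hl.1 hu a ha)]
    exact iv_le_cost (pt_map hσ hW hE hl.1)
  · obtain ⟨l', hl'⟩ := exists_isOpt W' E' φ' (cz ρ ε Λ g) (σ u)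
    obtain ⟨l, hl, rfl⟩ := exists_of_pt_map hσ hW hWs hE hl'.1
    have h1 : Z W' E' ρ ε Λ φ' g (σ u) = cost φ' (cz ρ ε Λ g) (l.map σ) := hl'.2
    rw [h1, cost_map (σ := σ) (φ := φ) (c := c) l (pt_ne_nil hl)
      fun a ha => hφ a (pt_mem' hl hu a ha)]
    have h2 : Z W E ρ ε Λ φ (g ∘ σ) u ≤ cost φ (cz ρ ε Λ (g ∘ σ)) l := iv_le_cost hl
    linarith

end relab

/-! ### 95's structures -/

section LoB

open Crest.Agent.R144.LoB95 (Fd slk)

variable {U : Type*} [DecidableEq U] {S F : Finset U} {E : Finset (U × U)} {ξ : U → ℝ}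
variable {ρ ε Λ : ℝ} {φ : U → ℝ}

theorem fd_Z (hρ : 0 ≤ ρ) (hε : 0 < ε) (hΛ : 0 ≤ Λ) {C : ℝ} (h1 : (lcz S ε Λ : ℝ) ≤ C)
    (h2 : Λ / ε ≤ C) : Fd F E ξ S C (fun x (w : F) => Zx S E ρ ε Λ φ F ξ w x) where
  lip := by
    intro x y w
    have h3 := (lip_Zx (V := S) (E := E) (ρ := ρ) (φ := φ) (F := F) (ξ := ξ) hε hΛ
      (w : U)).dist_le_mul x y
    rw [Real.dist_eq, dist_eq_norm] at h3
    exact h3.trans (mul_le_mul_of_nonneg_right h1 (norm_nonneg _))
  edge := by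
    intro x hx a b ha hb hab
    have h3 := Z_sub_le (V := S) (E := E) (ρ := ρ) (ε := ε) (φ := φ) (h := ext F ξ x) hΛ hab
      ha hb
    have h4 : |ext F ξ x a - ext F ξ x b| ≤ 1 := by
      rcases (mem_nbr.mp hab).2 with h | h
      · exact hx _ h
      · rw [abs_sub_comm]; exact hx _ h
    have h5 := sr_le hρ hε h4
    have h6 : slk F ξ x a b = 1 - |ext F ξ x a - ext F ξ x b| :=
      max_eq_right (by linarith)
    rw [h6]
    refine h3.trans ?_
    calc Λ * sr ρ ε (ext F ξ x a - ext F ξ x b)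
        = Λ / ε * (ε * sr ρ ε (ext F ξ x a - ext F ξ x b)) := by field_simp
      _ ≤ Λ / ε * (1 - |ext F ξ x a - ext F ξ x b|) := by gcongr
      _ ≤ C * (1 - |ext F ξ x a - ext F ξ x b|) := by
          refine mul_le_mul_of_nonneg_right h2 (by linarith)

variable {ι : Type*} [Fintype ι] {φs : ι → U → ℝ} {N : Finset U} {k : ℕ} {c0 : ℝ}

/-- The `see` clause: while the cut-off is on, labels outside `I` do not see deep sites. -/
theorem see_of_gx (hΛ : 0 ≤ Λ) (hc0 : 0 < c0) (dd : U → U → ℕ)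
    (h0 : ∀ a, dd a a = 0) (ht : ∀ a b d, dd a d ≤ dd a b + dd b d)
    (h1 : ∀ a b, b ∈ nbr E a → dd a b ≤ 1) {I : Finset U}
    (hN : ∀ z ∈ S, z ∉ I → (∃ z' ∈ I, z' ∈ nbr E z) → z ∈ N) {x : F → ℝ}
    (hg : 0 < gx S E N k ρ ε Λ c0 φs F ξ x) (i : ι) {v : U} (hv : v ∉ I) {w : F}
    (hwI : (w : U) ∈ I) (hw : ∀ z ∉ I, k ≤ dd z w)
    (hd : DifferentiableAt ℝ (Zx S E ρ ε Λ (φs i) F ξ v) x) :
    pd (Zx S E ρ ε Λ (φs i) F ξ v) x w = 0 := by
  obtain ⟨l, hl⟩ := exists_isOpt S E (φs i) (cz ρ ε Λ (ext F ξ x)) v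
  refine pd_Z_eq_zero hd hl ?_
  refine no_visit (cz_nonneg hΛ _) dd h0 ht h1 (I := {a | a ∈ I}) (k := k)
    (fun z hz hzS hz' l' hl' => opt_short hc0 hg i (hN z hzS hz hz') hl')
    (v := v) (w := (w : U)) hv hwI (fun z hz => hw z hz) hl

theorem pd_eq (G : (F → ℝ) → ℝ) (x : F → ℝ) (z : F) : pd G x z = Fib674.pd z G x := rfl

end LoB

/-! ### The sup metric on `ℤ × ℤ` -/

/-- Sup distance. -/
def ddZ (a b : ℤ × ℤ) : ℕ := max (a.1 - b.1).natAbs (a.2 - b.2).natAbs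

theorem ddZ_self (a : ℤ × ℤ) : ddZ a a = 0 := by simp [ddZ]

theorem ddZ_comm (a b : ℤ × ℤ) : ddZ a b = ddZ b a := by
  unfold ddZ
  omega

theorem ddZ_tri (a b d : ℤ × ℤ) : ddZ a d ≤ ddZ a b + ddZ b d := by
  unfold ddZ
  omega

theorem ddZ_le_iff (a b : ℤ × ℤ) (r : ℕ) :
    ddZ a b ≤ r ↔ |a.1 - b.1| ≤ r ∧ |a.2 - b.2| ≤ r := by
  unfold ddZ
  rw [max_le_iff, Int.abs_eq_natAbs, Int.abs_eq_natAbs]
  omega

end Crest.Agent.R144.Zb560
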